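import Crest.Agent.R079.SplS_69
import Crest.Agent.R079.TS0_903

/-! R079 (helper69): **adjacent nodes of the windows**.

In the line model the structured letter of a window with top `Q` can be killed by static labelled
frames only at the nodes which are not adjacent to the ends of `iv Q`.  Given tops `T` we add the
children of the adjacent nodes of every window:

  `adjT C0 R T = T ∪ {c ∈ win R T Q : c ≠ Q, Adj C0 Q (par c), Q ∈ T}`.

* `adj_tops` : again tops; `adj_len` : total length `≤ (1 + 8 C0)` times the old one;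
* `own T p` : top of the `T`-window of `p`;
* `win_single` : the window of `w` with `Adj C0 (own T w) w` is `{w}`;
* `win_whit` : the window of `w` with `¬ Adj C0 (own T w) w` is `{p ∈ win R T (own T w) : p below w}`;
* `sum_adj` : totals over the new windows; `adj_nodes_len` : total length of the adjacent nodes;
* `energy_adj` : energies over the new non-adjacent tops. -/

set_option autoImplicit false

namespace Crest.Agent.R079.AdjTx69

open Finset Crest.Agent.R079.Grid Crest.Agent.R079.Growth Crest.Agent.R079.QRed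
open Crest.Agent.R079.TRec Crest.Agent.R079.SplSx69

variable {R : Finset Nd} {I : Nd} {T : Finset Nd} {C0 : ℕ}

lemma le_def {p q : Nd} : Le p q ↔ iv p ⊆ iv q := Iff.rfl

lemma pa_eq (p : Nd) : pa p = Qe292.par p := rfl

/-- adjacency goes up -/
lemma adj_up {J : Nd} : ∀ (n : ℕ) (p q : Nd), q.1 - p.1 = n → Adj C0 J p → Le p q → Le q J →
    Adj C0 J q := by
  intro n
  induction n with
  | zero =>
    intro p q hn ha hpq _
    have h := le_iff.1 hpq
    have e : p.1 = q.1 := by omega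
    have e2 : p.2 = q.2 := by
      have := h.2
      rw [e] at this
      simpa using this
    rw [show q = p from (Prod.ext e e2).symm]
    exact ha
  | succ n ih =>
    intro p q hn ha hpq hqJ
    have h1 : p.1 < q.1 := by omega
    have h2 := (le_iff.1 hqJ).1
    exact ih (pa p) q (by unfold pa; simp only; omega) (adj_pa (by omega) ha) (pa_le hpq h1) hqJ

lemma Adj.up {J p q : Nd} (ha : Adj C0 J p) (hpq : iv p ⊆ iv q) (hqJ : iv q ⊆ iv J) :
    Adj C0 J q := adj_up _ p q rfl ha hpq hqJ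

open Classical in
/-- children (inside the window) of the adjacent nodes -/
noncomputable def ch (C0 : ℕ) (R T : Finset Nd) (Q : Nd) : Finset Nd :=
  (win R T Q).filter fun c => c ≠ Q ∧ Adj C0 Q (Qe292.par c)

lemma mem_ch {Q c : Nd} : c ∈ ch C0 R T Q ↔ c ∈ win R T Q ∧ c ≠ Q ∧ Adj C0 Q (Qe292.par c) := by
  classical
  unfold ch
  rw [Finset.mem_filter]

open Classical in
/-- the new tops -/
noncomputable def adjT (C0 : ℕ) (R T : Finset Nd) : Finset Nd := T ∪ T.biUnion (ch C0 R T)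

lemma mem_adjT {w : Nd} : w ∈ adjT C0 R T ↔ w ∈ T ∨ ∃ Q ∈ T, w ∈ ch C0 R T Q := by
  classical
  unfold adjT
  rw [Finset.mem_union, Finset.mem_biUnion]

lemma sub_adjT : T ⊆ adjT C0 R T := fun _ h => mem_adjT.2 (Or.inl h)

lemma lev_lt {p q : Nd} (h : iv p ⊆ iv q) (hne : p ≠ q) : p.1 < q.1 := by
  have := Qe292.iv_level (Qe292.par_sub h hne)
  simp only [Qe292.par] at this
  omega

lemma par_mem_win (hR : Full R I) (hT : Tops R I T) {Q c : Nd} (hc : c ∈ win R T Q)
    (hne : c ≠ Q) : Qe292.par c ∈ win R T Q := by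
  have h := mem_win.1 hc
  exact (win_full hR hT h.2.1).reg.2 c hc _ (Qe292.iv_par c) (Qe292.par_sub h.2.2.1 hne)

lemma tops_sib_mem (hT : Tops R I T) {c : Nd} (hc : c ∈ T) (hp : Qe292.par c ∈ R) :
    Qe292.sib c ∈ T := by
  have hb := hT.sib c.1 (c.2 / 2) hp
  rcases Int.emod_two_eq_zero_or_one c.2 with h | h
  · have e : c = (c.1, 2 * (c.2 / 2)) := Prod.ext rfl (by simp only; omega)
    have e' : Qe292.sib c = (c.1, 2 * (c.2 / 2) + 1) :=
      Prod.ext rfl (by simp only [Qe292.sib]; omega)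
    rw [e']
    exact hb.1 (e ▸ hc)
  · have e : c = (c.1, 2 * (c.2 / 2) + 1) := Prod.ext rfl (by simp only; omega)
    have e' : Qe292.sib c = (c.1, 2 * (c.2 / 2)) := Prod.ext rfl (by simp only [Qe292.sib]; omega)
    rw [e']
    exact hb.2 (e ▸ hc)

lemma tops_sib_of {R T' : Finset Nd} (h : ∀ c ∈ T', Qe292.par c ∈ R → Qe292.sib c ∈ T') (m : ℕ)
    (l : ℤ) (hq : (m + 1, l) ∈ R) : (m, 2 * l) ∈ T' ↔ (m, 2 * l + 1) ∈ T' := by
  constructor
  · intro hc
    have e : Qe292.par (m, 2 * l) = (m + 1, l) :=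
      Prod.ext rfl (by simp only [Qe292.par]; omega)
    have := h _ hc (by rw [e]; exact hq)
    have e' : Qe292.sib (m, 2 * l) = (m, 2 * l + 1) :=
      Prod.ext rfl (by simp only [Qe292.sib]; omega)
    rwa [e'] at this
  · intro hc
    have e : Qe292.par (m, 2 * l + 1) = (m + 1, l) :=
      Prod.ext rfl (by simp only [Qe292.par]; omega)
    have := h _ hc (by rw [e]; exact hq)
    have e' : Qe292.sib (m, 2 * l + 1) = (m, 2 * l) :=
      Prod.ext rfl (by simp only [Qe292.sib]; omega)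
    rwa [e'] at this

/-- **the new tops are tops** -/
theorem adj_tops (hR : Full R I) (hT : Tops R I T) : Tops R I (adjT C0 R T) where
  sub := by
    intro w hw
    rcases mem_adjT.1 hw with h | ⟨Q, _, h⟩
    · exact hT.sub h
    · exact win_sub (mem_ch.1 h).1
  top := sub_adjT hT.top
  sib := by
    refine tops_sib_of fun c hc hp => ?_
    rcases mem_adjT.1 hc with h | ⟨Q, hQ, h⟩
    · exact sub_adjT (tops_sib_mem hT h hp)
    · obtain ⟨h1, h2, h3⟩ := mem_ch.1 h
      have hcQ := (mem_win.1 h1).2.2.1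
      have hlt := lev_lt hcQ h2
      refine mem_adjT.2 (Or.inr ⟨Q, hQ, mem_ch.2 ⟨?_, ?_, ?_⟩⟩)
      · exact Qe292.sib_mem (win_full hR hT hQ) h1 (par_mem_win hR hT h1 h2)
      · intro he
        have : (Qe292.sib c).1 = c.1 := rfl
        rw [he] at this
        omega
      · rw [Qe292.par_sib]
        exact h3

/-! ### the old top of a node -/

open Classical in
/-- top of the `T`-window of `p` -/
noncomputable def own (T : Finset Nd) (p : Nd) : Nd :=
  if h : ∃ Q, Wn T Q p then h.choose else p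

lemma own_eq {Q p : Nd} (h : Wn T Q p) : own T p = Q := by
  have hex : ∃ Q, Wn T Q p := ⟨Q, h⟩
  unfold own
  rw [dif_pos hex]
  exact hex.choose_spec.unique h

lemma own_wn (hR : Full R I) (hT : Tops R I T) {p : Nd} (hp : p ∈ R) : Wn T (own T p) p := by
  obtain ⟨Q, hQ⟩ := hT.exists_wn hR hp
  rw [own_eq hQ]
  exact hQ

lemma own_mem (hR : Full R I) (hT : Tops R I T) {p : Nd} (hp : p ∈ R) : own T p ∈ T :=
  (own_wn hR hT hp).1

lemma own_of_win {Q p : Nd} (h : p ∈ win R T Q) : own T p = Q := own_eq (mem_win.1 h).2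

/-- **window of an adjacent new top** -/
theorem win_single (hR : Full R I) (hT : Tops R I T) {w : Nd} (hw : w ∈ adjT C0 R T)
    (ha : Adj C0 (own T w) w) : win R (adjT C0 R T) w = {w} := by
  have hwR : w ∈ R := (adj_tops hR hT).sub hw
  have hQ := own_wn hR hT hwR
  set Q := own T w with hQdef
  ext p
  rw [Finset.mem_singleton]
  constructor
  · intro hp
    obtain ⟨hpR, hWn⟩ := mem_win.1 hp
    by_contra hne
    -- the child of `w` above `p`
    obtain ⟨c, hc1, hc2⟩ : ∃ c, Qe292.par c = w ∧ iv p ⊆ iv c := by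
      obtain ⟨j, hj⟩ := Qe292.iv_sub_iff.1 hWn.2.1
      cases j with
      | zero => exact absurd (by rw [hj]; simp) hne
      | succ j =>
        refine ⟨(p.1 + j, p.2 / 2 ^ j), ?_, Qe292.iv_sub_iff.2 ⟨j, rfl⟩⟩
        rw [hj]
        refine Prod.ext ?_ ?_
        · simp only [Qe292.par]; omega
        · simp only [Qe292.par]
          have := L0e.ediv_pow_pow p.2 j 1
          rw [pow_one] at this
          exact this
    have hcw : iv c ⊆ iv w := hc1 ▸ Qe292.iv_par c
    have hcR : c ∈ R := hR.reg.2 p hpR c hc2 (hcw.trans (hR.reg.1 w hwR))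
    have hlt : c.1 < w.1 := by
      rw [← hc1]
      simp only [Qe292.par]
      omega
    have hwQ := Qe292.iv_level hQ.2.1
    have hcT' : c ∈ adjT C0 R T := by
      by_cases hcT : c ∈ T
      · exact sub_adjT hcT
      · refine mem_adjT.2 (Or.inr ⟨Q, hQ.1, mem_ch.2 ⟨mem_win.2 ⟨hcR, hQ.1, hcw.trans hQ.2.1,
          fun I' hI' hcI' => ?_⟩, ?_, ?_⟩⟩)
        · have hne' : c ≠ I' := fun h => hcT (h ▸ hI')
          have := Qe292.par_sub hcI' hne'
          rw [hc1] at this
          exact hQ.2.2 I' hI' this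
        · intro he
          rw [he] at hlt
          omega
        · rw [hc1]
          exact ha
    have := Qe292.iv_level (hWn.2.2 c hcT' hc2)
    omega
  · rintro rfl
    exact mem_win.2 ⟨hwR, wn_self hw⟩

/-- **window of a Whitney top** -/
theorem win_whit (hR : Full R I) (hT : Tops R I T) {w : Nd} (hw : w ∈ adjT C0 R T)
    (ha : ¬ Adj C0 (own T w) w) (p : Nd) :
    p ∈ win R (adjT C0 R T) w ↔ p ∈ win R T (own T w) ∧ iv p ⊆ iv w := by
  have hwR : w ∈ R := (adj_tops hR hT).sub hw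
  have hQ := own_wn hR hT hwR
  set Q := own T w with hQdef
  constructor
  · intro hp
    obtain ⟨hpR, hWn⟩ := mem_win.1 hp
    refine ⟨mem_win.2 ⟨hpR, hQ.1, hWn.2.1.trans hQ.2.1, fun I' hI' hpI' => ?_⟩, hWn.2.1⟩
    exact hQ.2.2 I' hI' (hWn.2.2 I' (sub_adjT hI') hpI')
  · rintro ⟨hp, hpw⟩
    obtain ⟨hpR, hpQ⟩ := mem_win.1 hp
    refine mem_win.2 ⟨hpR, hw, hpw, fun I' hI' hpI' => ?_⟩
    rcases mem_adjT.1 hI' with h | ⟨Q', hQ', h⟩
    · exact hQ.2.1.trans (hpQ.2.2 I' h hpI')
    · obtain ⟨h1, h2, h3⟩ := mem_ch.1 h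
      have hWn' := (mem_win.1 h1).2
      rcases Qe292.sub_total hpQ.2.1 hpI' with h4 | h4
      · exact hQ.2.1.trans h4
      · -- `I'` is below `Q`, hence in the window of `Q`
        have h5 : Q' = Q := by
          have h6 := hWn'.2.2 Q hQ.1 h4
          have h7 := hpQ.2.2 Q' hQ' (hpI'.trans hWn'.2.1)
          exact Qe292.iv_antisymm h6 h7
        subst h5
        rcases Qe292.sub_total hpw hpI' with h6 | h6
        · exact h6
        · by_cases h7 : I' = w
          · rw [h7]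
          · exact absurd (Adj.up h3 (Qe292.par_sub h6 h7) hQ.2.1) ha

/-- **totals over the new windows** -/
theorem sum_adj {M : Type*} [AddCommMonoid M] (hR : Full R I) (hT : Tops R I T) (f : Nd → M)
    (h : Nd → Nd → M) [DecidablePred fun w : Nd => Adj C0 (own T w) w]
    [∀ Q, DecidablePred fun p : Nd => Adj C0 Q p] :
    ∑ w ∈ adjT C0 R T, ∑ p ∈ win R (adjT C0 R T) w,
        (if Adj C0 (own T w) w then f p else h (own T w) p)
      = ∑ Q ∈ T, ∑ p ∈ win R T Q, (if Adj C0 Q p then f p else h Q p) := by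
  have hT' : Tops R I (adjT C0 R T) := adj_tops hR hT
  have e1 : ∑ w ∈ adjT C0 R T, ∑ p ∈ win R (adjT C0 R T) w,
        (if Adj C0 (own T w) w then f p else h (own T w) p)
      = ∑ w ∈ adjT C0 R T, ∑ p ∈ win R (adjT C0 R T) w,
        (if Adj C0 (own T p) p then f p else h (own T p) p) := by
    refine Finset.sum_congr rfl fun w hw => Finset.sum_congr rfl fun p hp => ?_
    by_cases ha : Adj C0 (own T w) w
    · have hpw : p = w := by
        have := win_single hR hT hw ha
        rw [this, Finset.mem_singleton] at hp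
        exact hp
      rw [hpw]
    · have hp' := (win_whit hR hT hw ha p).1 hp
      have ho : own T p = own T w := own_of_win hp'.1
      have hwR : w ∈ R := hT'.sub hw
      have hna : ¬ Adj C0 (own T p) p := by
        intro hap
        rw [ho] at hap
        exact ha (Adj.up hap hp'.2 (own_wn hR hT hwR).2.1)
      rw [if_neg ha, if_neg hna, ho]
  rw [e1, ← sum_windows hR hT' (fun p => if Adj C0 (own T p) p then f p else h (own T p) p),
    sum_windows hR hT]
  refine Finset.sum_congr rfl fun Q _ => Finset.sum_congr rfl fun p hp => ?_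
  rw [own_of_win hp]

/-! ### lengths -/

lemma ch_card (_hC : 1 ≤ C0) (J : Nd) (S : Finset Nd) (hS : ∀ p ∈ S, Le p J)
    (hlt : ∀ p ∈ S, p.1 < J.1) (ha : ∀ p ∈ S, Adj C0 J (pa p)) (m : ℕ) :
    (S.filter fun p => p.1 = m).card ≤ 4 * C0 := by
  classical
  by_cases hm : m < J.1
  · obtain ⟨j, hj⟩ := Nat.exists_eq_add_of_lt hm
    have hJ1 : J.1 - m = j + 1 := by omega
    have hJ2 : J.1 - (m + 1) = j := by omega
    set a : ℤ := J.2 * 2 ^ j
    set b : ℤ := (J.2 + 1) * 2 ^ j
    have hsub : (S.filter fun p => p.1 = m) ⊆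
        ((Finset.Ico (2 * a) (2 * a + 2 * C0)) ∪ Finset.Ico (2 * b - 2 * C0) (2 * b)).image
          fun l => (m, l) := by
      intro p hp
      obtain ⟨hp1, hp2⟩ := Finset.mem_filter.1 hp
      have h1 := bounds (hS p hp1)
      have h2 := ha p hp1
      unfold Adj pa at h2
      simp only at h2
      rw [hp2, hJ1, pow_succ] at h1
      rw [hp2, hJ2] at h2
      have e1 : J.2 * (2 ^ j * 2) = 2 * a := by simp only [a]; ring
      have e2 : (J.2 + 1) * (2 ^ j * 2) = 2 * b := by simp only [b]; ring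
      rw [e1, e2] at h1
      rw [Finset.mem_image]
      refine ⟨p.2, ?_, Prod.ext hp2.symm rfl⟩
      rw [Finset.mem_union, Finset.mem_Ico, Finset.mem_Ico]
      change p.2 / 2 < a + C0 ∨ b ≤ p.2 / 2 + C0 at h2
      rcases h2 with h2 | h2
      · left; exact ⟨h1.1, by omega⟩
      · right; exact ⟨by omega, h1.2⟩
    calc (S.filter fun p => p.1 = m).card ≤ _ := Finset.card_le_card hsub
      _ ≤ _ := Finset.card_image_le
      _ ≤ _ := Finset.card_union_le _ _
      _ = 4 * C0 := by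
          rw [Int.card_Ico, Int.card_Ico]
          have : (2 * a + 2 * (C0 : ℤ) - 2 * a) = ((2 * C0 : ℕ) : ℤ) := by push_cast; ring
          have h' : (2 * b - (2 * b - 2 * (C0 : ℤ))) = ((2 * C0 : ℕ) : ℤ) := by push_cast; ring
          rw [this, h', Int.toNat_natCast]
          ring
  · have : (S.filter fun p => p.1 = m) = ∅ := by
      rw [Finset.filter_eq_empty_iff]
      intro p hp hpm
      have := hlt p hp
      omega
    rw [this]
    simp

/-- total length of the added tops of one window -/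
lemma ch_len (_hR : Full R I) (_hT : Tops R I T) (hC : 1 ≤ C0) {Q : Nd} (_hQ : Q ∈ T) :
    ∑ c ∈ ch C0 R T Q, len c ≤ 8 * C0 * len Q := by
  have h1 : ∀ c ∈ ch C0 R T Q, Le c Q := fun c hc => (mem_win.1 (mem_ch.1 hc).1).2.2.1
  have h2 : ∀ c ∈ ch C0 R T Q, c.1 < Q.1 := fun c hc => lev_lt (h1 c hc) (mem_ch.1 hc).2.1
  have := sum_len_le (ch C0 R T Q) Q.1 (4 * C0) (fun c hc => (h2 c hc).le)
    (ch_card hC Q (ch C0 R T Q) h1 h2 fun c hc => (mem_ch.1 hc).2.2)
  unfold len
  refine this.trans (le_of_eq ?_)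
  push_cast
  ring

/-- **total length of the new tops** -/
theorem adj_len (hR : Full R I) (hT : Tops R I T) (hC : 1 ≤ C0) :
    ∑ w ∈ adjT C0 R T, len w ≤ (1 + 8 * C0) * ∑ Q ∈ T, len Q := by
  classical
  have hnn : ∀ w : Nd, 0 ≤ len w := fun w => (Growth.len_pos w).le
  have h1 : ∑ w ∈ adjT C0 R T, len w ≤ ∑ w ∈ T, len w + ∑ w ∈ T.biUnion (ch C0 R T), len w := by
    unfold adjT
    have := Finset.sum_union_inter (s₁ := T) (s₂ := T.biUnion (ch C0 R T)) (f := fun w => len w)
    have h0 : 0 ≤ ∑ w ∈ T ∩ T.biUnion (ch C0 R T), len w := Finset.sum_nonneg fun w _ => hnn w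
    linarith
  have h2 : ∑ w ∈ T.biUnion (ch C0 R T), len w = ∑ Q ∈ T, ∑ w ∈ ch C0 R T Q, len w := by
    refine Finset.sum_biUnion ?_
    intro Q _ Q' _ hne
    exact Finset.disjoint_of_subset_left (Finset.filter_subset _ _)
      (Finset.disjoint_of_subset_right (Finset.filter_subset _ _) (win_disj hne))
  rw [h2] at h1
  refine h1.trans ?_
  have h3 : ∑ Q ∈ T, ∑ w ∈ ch C0 R T Q, len w ≤ ∑ Q ∈ T, 8 * C0 * len Q :=
    Finset.sum_le_sum fun Q hQ => ch_len hR hT hC hQ
  rw [← Finset.mul_sum] at h3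
  calc _ ≤ ∑ w ∈ T, len w + 8 * C0 * ∑ Q ∈ T, len Q := by linarith
    _ = _ := by ring

/-- total length of the adjacent nodes of a window -/
theorem adj_nodes_len (Q : Nd) (C0 : ℕ) [DecidablePred fun p : Nd => Adj C0 Q p] :
    ∑ p ∈ (win R T Q).filter (fun p => Adj C0 Q p), len p ≤ 4 * C0 * len Q := by
  have h1 : ∀ c ∈ (win R T Q).filter (fun p => Adj C0 Q p), Le c Q := fun c hc =>
    (mem_win.1 (Finset.mem_filter.1 hc).1).2.2.1
  have := sum_len_le ((win R T Q).filter (fun p => Adj C0 Q p)) Q.1 (2 * C0)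
    (fun c hc => (le_iff.1 (h1 c hc)).1)
    (adj_card C0 Q _ h1 fun c hc => (Finset.mem_filter.1 hc).2)
  unfold len
  refine this.trans (le_of_eq ?_)
  push_cast
  ring

/-- a nonnegative sum over the adjacent nodes of all windows -/
theorem adj_nodes_sum {f : Nd → ℝ} {g0 : ℝ} (hg0 : 0 ≤ g0) (hf : ∀ p ∈ R, f p ≤ g0 * len p)
    [∀ Q, DecidablePred fun p : Nd => Adj C0 Q p] :
    ∑ Q ∈ T, ∑ p ∈ (win R T Q).filter (fun p => Adj C0 Q p), f p
      ≤ g0 * (4 * C0) * ∑ Q ∈ T, len Q := by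
  rw [Finset.mul_sum]
  refine Finset.sum_le_sum fun Q _ => ?_
  calc ∑ p ∈ (win R T Q).filter (fun p => Adj C0 Q p), f p
      ≤ ∑ p ∈ (win R T Q).filter (fun p => Adj C0 Q p), g0 * len p :=
        Finset.sum_le_sum fun p hp => hf p (win_sub (Finset.mem_filter.1 hp).1)
    _ = g0 * ∑ p ∈ (win R T Q).filter (fun p => Adj C0 Q p), len p := by rw [Finset.mul_sum]
    _ ≤ g0 * (4 * C0 * len Q) := mul_le_mul_of_nonneg_left (adj_nodes_len Q C0) hg0
    _ = _ := by ring

/-! ### energies -/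

/-- the non-adjacent new tops of one window are disjoint -/
lemma whit_disj (hR : Full R I) (hT : Tops R I T) (hC : 1 ≤ C0) {w w' : Nd}
    (hw : w ∈ adjT C0 R T) (hw' : w' ∈ adjT C0 R T) (ho : own T w = own T w')
    (ha : ¬ Adj C0 (own T w) w) (ha' : ¬ Adj C0 (own T w') w') (hne : w ≠ w') :
    Disjoint (iv w) (iv w') := by
  have key : ∀ u u' : Nd, u ∈ adjT C0 R T → u' ∈ adjT C0 R T → own T u = own T u' →
      ¬ Adj C0 (own T u) u → ¬ Adj C0 (own T u') u' → u ≠ u' → ¬ iv u ⊆ iv u' := by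
    intro u u' hu hu' ho ha ha' hne hsub
    have huR : u ∈ R := (adj_tops hR hT).sub hu
    have huR' : u' ∈ R := (adj_tops hR hT).sub hu'
    have hW := own_wn hR hT huR
    have hW' := own_wn hR hT huR'
    -- `u` is a child of an adjacent node
    have hch : Adj C0 (own T u) (Qe292.par u) := by
      rcases mem_adjT.1 hu with h | ⟨Q, _, h⟩
      · exfalso
        apply ha
        rw [own_eq (wn_self h)]
        exact adj_top hC u
      · obtain ⟨h1, _, h3⟩ := mem_ch.1 h
        rw [own_of_win h1]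
        exact h3
    apply ha'
    rw [← ho]
    refine Adj.up hch (Qe292.par_sub hsub hne) ?_
    rw [ho]
    exact hW'.2.1
  rw [Finset.disjoint_left]
  intro y hy hy'
  have hl : w.1 ≤ w'.1 ∨ w'.1 ≤ w.1 := le_total _ _
  have hmem : ∀ u u' : Nd, y ∈ iv u → y ∈ iv u' → u.1 ≤ u'.1 → iv u ⊆ iv u' := by
    intro u u' h h' hle
    obtain ⟨d, hd⟩ := Nat.exists_eq_add_of_le hle
    have h1 : y / 2 ^ (u.1 + 7) = u.2 := L0e.mem_dI.1 h
    have h2 : y / 2 ^ (u'.1 + 7) = u'.2 := L0e.mem_dI.1 h'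
    refine Qe292.iv_sub_iff.2 ⟨d, Prod.ext (by simp only; omega) ?_⟩
    simp only
    rw [← h1, L0e.ediv_pow_pow, ← h2, hd]
    congr 2
    omega
  rcases hl with hl | hl
  · exact key w w' hw hw' ho ha ha' hne (hmem w w' hy hy' hl)
  · exact key w' w hw' hw ho.symm ha' ha (Ne.symm hne) (hmem w' w hy' hy hl)

open Classical in
/-- **energies over the non-adjacent new tops** -/
theorem energy_adj (hR : Full R I) (hT : Tops R I T) (hC : 1 ≤ C0) (φ : Nd → ℤ → ℝ)
    (hφ : ∀ Q y, 0 ≤ φ Q y) :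
    ∑ w ∈ (adjT C0 R T).filter (fun w => ¬ Adj C0 (own T w) w), ∑ y ∈ iv w, φ (own T w) y
      ≤ ∑ Q ∈ T, ∑ y ∈ iv Q, φ Q y := by
  set S := (adjT C0 R T).filter (fun w => ¬ Adj C0 (own T w) w) with hS
  have hm : ∀ w ∈ S, own T w ∈ T := fun w hw =>
    own_mem hR hT ((adj_tops hR hT).sub (Finset.mem_filter.1 hw).1)
  rw [← Finset.sum_fiberwise_of_maps_to hm]
  refine Finset.sum_le_sum fun Q _ => ?_
  have e : ∑ w ∈ S.filter (fun w => own T w = Q), ∑ y ∈ iv w, φ (own T w) y
      = ∑ w ∈ S.filter (fun w => own T w = Q), ∑ y ∈ iv w, φ Q y :=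
    Finset.sum_congr rfl fun w hw => by rw [(Finset.mem_filter.1 hw).2]
  rw [e, ← Finset.sum_biUnion]
  · refine Finset.sum_le_sum_of_subset_of_nonneg ?_ fun y _ _ => hφ Q y
    intro y hy
    rw [Finset.mem_biUnion] at hy
    obtain ⟨w, hw, hyw⟩ := hy
    obtain ⟨hw1, hw2⟩ := Finset.mem_filter.1 hw
    have := own_wn hR hT ((adj_tops hR hT).sub (Finset.mem_filter.1 hw1).1)
    rw [hw2] at this
    exact this.2.1 hyw
  · intro w hw w' hw' hne
    obtain ⟨hw1, hw2⟩ := Finset.mem_filter.1 hw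
    obtain ⟨hw1', hw2'⟩ := Finset.mem_filter.1 hw'
    exact whit_disj hR hT hC (Finset.mem_filter.1 hw1).1 (Finset.mem_filter.1 hw1').1
      (hw2.trans hw2'.symm) (Finset.mem_filter.1 hw1).2 (Finset.mem_filter.1 hw1').2 hne

/-- the nodes of a Whitney window are below the Whitney top and not adjacent: distances -/
theorem whit_dist (hR : Full R I) (hT : Tops R I T) {w : Nd} (hw : w ∈ adjT C0 R T)
    (ha : ¬ Adj C0 (own T w) w) {y : ℤ} (hy : y ∈ iv w) :
    (own T w).2 * 2 ^ ((own T w).1 + 7) + C0 * 2 ^ (w.1 + 7) ≤ y ∧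
      y + C0 * 2 ^ (w.1 + 7) < ((own T w).2 + 1) * 2 ^ ((own T w).1 + 7) :=
  dist_of_not_adj (own_wn hR hT ((adj_tops hR hT).sub hw)).2.1 ha hy

end Crest.Agent.R079.AdjTx69
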