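import Crest.Agent.R079.ElV_440

/-! R079 Step I with TALL GAUGES (helper69; operator atoms with two fibre-unit edges, notes 846/882):
port of `ThA159.fv_Th`, `fv_ThF`, `ElT440.LnF_dst`, `el_swap`, `ElU440.el_ladder0`, `el_cells`,
`ElV440.el_whitney` with the hypothesis `‖a i ω‖ ≤ 1` replaced by the FIBRE SUM condition
`FibG : ν * ∑_{ω ∈ Bd p, pos ω = y} ‖a ω‖² ≤ 1` (true for one operator atom, all plane translates
together).  `FibG.of_le_one` recovers the old case. -/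

set_option autoImplicit false

namespace Crest.Agent.R079.ElGx69

open Finset Crest.Agent.R079.Grid Crest.Agent.R079.Growth Crest.Agent.R079.QRed
  Crest.Agent.R079.Qh249 Crest.Agent.R079.QVar181 Crest.Agent.R079.TWin
open Crest.Agent.R079.RelW653 (vl NMP Jv Dv av_par sum_av' lf_sum_eq')
open Crest.Agent.R079.RelV653 Crest.Agent.R079.ThA159 Crest.Agent.R079.ThB159
open Crest.Agent.R079.ElS440 (Ln LnF Ln_sub)
open Crest.Agent.R079.ElW778 (Ln_congr Ln_sum tele)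
open Crest.Agent.R079.ElT440 (lad lad_dst GrF_eq)
open Crest.Agent.R079.ElU440 (upto lad_eq0 ThL0)
open Crest.Agent.R079.ElV440 (bdc)
open Crest.Agent.R079.Cel159 Crest.Agent.R079.PjC881

section one

variable {Ω : Type*} {Bd : Nd → Finset Ω} {pos : Ω → ℤ} {N : Nd → (Ω → ℂ) → ℝ} {ν : ℝ}

open Classical in
/-- the square sum of the gauge on every fibre is at most `1` -/
def FibG (Bd : Nd → Finset Ω) (pos : Ω → ℤ) (ν : ℝ) (a : Ω → ℂ) : Prop :=
  ∀ (p : Nd) (y : ℤ), ν * ∑ ω ∈ (Bd p).filter (fun ω => pos ω = y), ‖a ω‖ ^ 2 ≤ 1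

lemma FibG.of_le_one (hB : Bnd Bd pos N ν) {a : Ω → ℂ} (ha : ∀ ω, ‖a ω‖ ≤ 1) :
    FibG Bd pos ν a := by
  classical
  intro p y
  refine le_trans (mul_le_mul_of_nonneg_left ?_ hB.nu.le) (hB.fib p y)
  have h : ∑ ω ∈ (Bd p).filter (fun ω => pos ω = y), ‖a ω‖ ^ 2
      ≤ ∑ ω ∈ (Bd p).filter (fun ω => pos ω = y), (1 : ℝ) :=
    Finset.sum_le_sum fun ω _ => pow_le_one₀ (norm_nonneg _) (ha ω)
  refine h.trans (le_of_eq ?_)
  rw [Finset.sum_const, nsmul_eq_mul, mul_one]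

/-- fibre sums against a gauge -/
lemma fib_sumG (hB : Bnd Bd pos N ν) {a : Ω → ℂ} (ha : FibG Bd pos ν a) (p : Nd) (F : ℤ → ℝ)
    (hF : ∀ y, 0 ≤ F y) :
    ν * ∑ ω ∈ Bd p, ‖a ω‖ ^ 2 * F (pos ω) ≤ ∑ y ∈ iv p, F y := by
  classical
  rw [← Finset.sum_fiberwise_of_maps_to (g := pos) (t := iv p) (fun ω hω => hB.mem p ω hω),
    Finset.mul_sum]
  refine Finset.sum_le_sum fun y _ => ?_
  have e : ∑ ω ∈ (Bd p).filter (fun ω => pos ω = y), ‖a ω‖ ^ 2 * F (pos ω)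
      = (∑ ω ∈ (Bd p).filter (fun ω => pos ω = y), ‖a ω‖ ^ 2) * F y := by
    rw [Finset.sum_mul]
    exact Finset.sum_congr rfl fun ω hω => by rw [(Finset.mem_filter.1 hω).2]
  rw [e, ← mul_assoc]
  have := mul_le_mul_of_nonneg_right (ha p y) (hF y)
  linarith

/-- **first variation** with constant `1` -/
theorem fv_ThG (hB : Bnd Bd pos N ν) {a : Ω → ℂ} (ha : FibG Bd pos ν a) {r : ℝ} (hr : 0 ≤ r)
    (p : Nd) (g h : Fn) :
    FV (Th Bd pos N ν a r) p g (Gr Bd pos N ν a r p g) 1 h := by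
  classical
  unfold FV
  set P : Ω → ℂ := Pj Bd N r p (ag Bd pos a p g) with hP
  have hL := Growth.len_pos p
  have h1 := Th_le hB (a := a) hr (p := p) (g := fun y => g y + h y)
    (Pj_spec hB hr p (ag Bd pos a p g)).1
  rw [← hP] at h1
  have h2 : dst Bd p (ag Bd pos a p fun y => g y + h y) P
      = dst Bd p (ag Bd pos a p g) P
        + 2 * ∑ ω ∈ Bd p, (starRingEnd ℂ (ag Bd pos a p g ω - P ω) * (a ω * h (pos ω))).re
        + ∑ ω ∈ Bd p, ‖a ω * h (pos ω)‖ ^ 2 := by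
    unfold dst
    rw [Finset.mul_sum, ← Finset.sum_add_distrib, ← Finset.sum_add_distrib]
    refine Finset.sum_congr rfl fun ω hω => ?_
    have e1 : ag Bd pos a p (fun y => g y + h y) ω - P ω
        = (ag Bd pos a p g ω - P ω) + a ω * h (pos ω) := by
      rw [ag_eq hω, ag_eq hω]
      ring
    rw [e1, ← Complex.normSq_eq_norm_sq, ← Complex.normSq_eq_norm_sq,
      ← Complex.normSq_eq_norm_sq]
    set u := ag Bd pos a p g ω - P ω
    set v := a ω * h (pos ω)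
    simp only [Complex.normSq_apply, Complex.mul_re, Complex.conj_re,
      Complex.conj_im, Complex.add_re, Complex.add_im]
    ring
  have h3 : ν * ∑ ω ∈ Bd p, (starRingEnd ℂ (ag Bd pos a p g ω - P ω) * (a ω * h (pos ω))).re
      = ∑ y ∈ iv p, (starRingEnd ℂ (Gr Bd pos N ν a r p g y) * h y).re := by
    rw [← Finset.sum_fiberwise_of_maps_to (g := pos) (t := iv p) (fun ω hω => hB.mem p ω hω),
      Finset.mul_sum]
    refine Finset.sum_congr rfl fun y _ => ?_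
    unfold Gr
    rw [map_mul, Complex.conj_ofReal, mul_assoc, Complex.re_ofReal_mul, map_sum, Finset.sum_mul,
      Complex.re_sum]
    congr 1
    refine Finset.sum_congr rfl fun ω hω => ?_
    rw [map_mul, Complex.conj_conj, (Finset.mem_filter.1 hω).2, ← hP]
    congr 1
    ring
  have h4 : ν * ∑ ω ∈ Bd p, ‖a ω * h (pos ω)‖ ^ 2 ≤ len p * av p h ^ 2 := by
    rw [← sum_av']
    refine le_trans (le_of_eq ?_) (fib_sumG hB ha p (fun y => ‖h y‖ ^ 2) fun y => sq_nonneg _)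
    congr 1
    exact Finset.sum_congr rfl fun ω _ => by rw [norm_mul, mul_pow]
  have h7 : ν / len p * dst Bd p (ag Bd pos a p fun y => g y + h y) P
      = ν / len p * dst Bd p (ag Bd pos a p g) P
        + 2 * (∑ y ∈ iv p, (starRingEnd ℂ (Gr Bd pos N ν a r p g y) * h y).re) / len p
        + (ν * ∑ ω ∈ Bd p, ‖a ω * h (pos ω)‖ ^ 2) / len p := by
    rw [h2, ← h3]
    field_simp
  have h8 : (ν * ∑ ω ∈ Bd p, ‖a ω * h (pos ω)‖ ^ 2) / len p ≤ 1 * av p h ^ 2 := by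
    rw [div_le_iff₀ hL]
    linarith
  rw [h7] at h1
  have e9 : Th Bd pos N ν a r p g = ν / len p * dst Bd p (ag Bd pos a p g) P := rfl
  rw [e9]
  linarith


/-- pointwise bound -/
lemma Ln_ptG (hB : Bnd Bd pos N ν) {a : Ω → ℂ} (ha : FibG Bd pos ν a) (p : Nd) (U : Ω → ℂ) (y : ℤ) :
    ‖Ln Bd pos ν a p U y‖ ^ 2
      ≤ ν * ∑ ω ∈ (Bd p).filter (fun ω => pos ω = y), ‖U ω‖ ^ 2 := by
  classical
  set S := (Bd p).filter (fun ω => pos ω = y) with hS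
  have h1 : ‖Ln Bd pos ν a p U y‖ ≤ ν * ∑ ω ∈ S, ‖a ω‖ * ‖U ω‖ := by
    unfold Ln
    rw [norm_mul, Complex.norm_real, Real.norm_eq_abs, abs_of_pos hB.nu]
    refine mul_le_mul_of_nonneg_left ?_ hB.nu.le
    refine (norm_sum_le _ _).trans (Finset.sum_le_sum fun ω _ => ?_)
    rw [norm_mul, RCLike.norm_conj]
  have h2 : (∑ ω ∈ S, ‖a ω‖ * ‖U ω‖) ^ 2 ≤ (∑ ω ∈ S, ‖a ω‖ ^ 2) * ∑ ω ∈ S, ‖U ω‖ ^ 2 :=
    Finset.sum_mul_sq_le_sq_mul_sq S _ _
  have h3 : ν * ∑ ω ∈ S, ‖a ω‖ ^ 2 ≤ 1 := ha p y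
  have h4 : 0 ≤ ∑ ω ∈ S, ‖U ω‖ ^ 2 := Finset.sum_nonneg fun _ _ => sq_nonneg _
  calc ‖Ln Bd pos ν a p U y‖ ^ 2 ≤ (ν * ∑ ω ∈ S, ‖a ω‖ * ‖U ω‖) ^ 2 :=
        pow_le_pow_left₀ (norm_nonneg _) h1 2
    _ = ν * (ν * (∑ ω ∈ S, ‖a ω‖ * ‖U ω‖) ^ 2) := by ring
    _ ≤ ν * (ν * ((∑ ω ∈ S, ‖a ω‖ ^ 2) * ∑ ω ∈ S, ‖U ω‖ ^ 2)) :=
        mul_le_mul_of_nonneg_left (mul_le_mul_of_nonneg_left h2 hB.nu.le) hB.nu.le
    _ = ν * ((ν * ∑ ω ∈ S, ‖a ω‖ ^ 2) * ∑ ω ∈ S, ‖U ω‖ ^ 2) := by ring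
    _ ≤ ν * (1 * ∑ ω ∈ S, ‖U ω‖ ^ 2) :=
        mul_le_mul_of_nonneg_left (mul_le_mul_of_nonneg_right h3 h4) hB.nu.le
    _ = ν * ∑ ω ∈ S, ‖U ω‖ ^ 2 := by ring

/-- the line function is `ℓ²` bounded by the kernel on the band -/
theorem Ln_avG (hB : Bnd Bd pos N ν) {a : Ω → ℂ} (ha : FibG Bd pos ν a) (p : Nd) (U : Ω → ℂ) :
    len p * av p (Ln Bd pos ν a p U) ^ 2 ≤ ν * ∑ ω ∈ Bd p, ‖U ω‖ ^ 2 := by
  classical
  rw [← sum_av', ← Finset.sum_fiberwise_of_maps_to (g := pos) (t := iv p)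
    (fun ω hω => hB.mem p ω hω), Finset.mul_sum]
  exact Finset.sum_le_sum fun y _ => Ln_ptG hB ha p U y


theorem Ln_dstG (hB : Bnd Bd pos N ν) {a : Ω → ℂ} (ha : FibG Bd pos ν a) (p : Nd)
    (U U' : Ω → ℂ) :
    len p * av p (fun y => Ln Bd pos ν a p U y - Ln Bd pos ν a p U' y) ^ 2
      ≤ ν * dst Bd p U U' := by
  have h1 := Ln_avG hB ha p (fun ω => U ω - U' ω)
  have e : (fun y => Ln Bd pos ν a p U y - Ln Bd pos ν a p U' y)
      = Ln Bd pos ν a p (fun ω => U ω - U' ω) := by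
    funext y
    exact Ln_sub a p U U' y
  rw [e]
  exact h1


end one

section family

variable {ι : Type*} [Fintype ι] {Ω : ι → Type*} {Bd : ∀ i, Nd → Finset (Ω i)}
  {pos : ∀ i, Ω i → ℤ} {N : ∀ i, Nd → (Ω i → ℂ) → ℝ} {ν : ι → ℝ} {a : ∀ i, Ω i → ℂ} {r : ι → ℝ}
  {κ : ι → ℝ} {X : Fn} {η : ℝ} {f : Nd → Fn}

theorem fv_ThFG (hB : ∀ i, Bnd (Bd i) (pos i) (N i) (ν i)) (ha : ∀ i, FibG (Bd i) (pos i) (ν i) (a i))
    (hr : ∀ i, 0 ≤ r i) (hκ : ∀ i, 0 ≤ κ i) (p : Nd) (g h : Fn) :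
    FV (ThF Bd pos N ν a r κ) p g (GrF Bd pos N ν a r κ p g) (∑ i, κ i) h := by
  have := fv_sum (M := fun _ => 1) (κ := κ) hκ (p := p) (g := g) (h := h)
    (fun i => fv_ThG (hB i) (ha i) (hr i) p g h)
  simpa [ThF, GrF] using this


/-- replacement of the kernels -/
theorem LnF_dstG (hB : ∀ i, Bnd (Bd i) (pos i) (N i) (ν i)) (ha : ∀ i, FibG (Bd i) (pos i) (ν i) (a i))
    (hκ : ∀ i, 0 ≤ κ i) (p : Nd) (Z Z' : ∀ i, Ω i → ℂ) :
    len p * av p (fun y => LnF Bd pos ν a κ p Z y - LnF Bd pos ν a κ p Z' y) ^ 2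
      ≤ (∑ i, κ i) * ∑ i, κ i * (ν i * dst (Bd i) p (Z i) (Z' i)) := by
  classical
  rw [← sum_av']
  have h1 : ∀ y, ‖LnF Bd pos ν a κ p Z y - LnF Bd pos ν a κ p Z' y‖ ^ 2
      ≤ (∑ i, κ i) * ∑ i, κ i * ‖Ln (Bd i) (pos i) (ν i) (a i) p (Z i) y
        - Ln (Bd i) (pos i) (ν i) (a i) p (Z' i) y‖ ^ 2 := by
    intro y
    set D : ι → ℂ := fun i => Ln (Bd i) (pos i) (ν i) (a i) p (Z i) y
        - Ln (Bd i) (pos i) (ν i) (a i) p (Z' i) y with hD
    have e : LnF Bd pos ν a κ p Z y - LnF Bd pos ν a κ p Z' y = ∑ i, (κ i : ℂ) * D i := by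
      unfold LnF
      rw [← Finset.sum_sub_distrib]
      exact Finset.sum_congr rfl fun i _ => by rw [hD]; ring
    rw [e]
    have h2 : ‖∑ i, (κ i : ℂ) * D i‖ ≤ ∑ i, κ i * ‖D i‖ := by
      refine (norm_sum_le _ _).trans (le_of_eq ?_)
      refine Finset.sum_congr rfl fun i _ => ?_
      rw [norm_mul, Complex.norm_real, Real.norm_eq_abs, abs_of_nonneg (hκ i)]
    have h3 : (∑ i, κ i * ‖D i‖) ^ 2 ≤ (∑ i, κ i) * ∑ i, κ i * ‖D i‖ ^ 2 := by
      have h4 := Finset.sum_mul_sq_le_sq_mul_sq Finset.univ (fun i => Real.sqrt (κ i))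
        (fun i => Real.sqrt (κ i) * ‖D i‖)
      have e1 : ∀ i, Real.sqrt (κ i) * (Real.sqrt (κ i) * ‖D i‖) = κ i * ‖D i‖ := fun i => by
        rw [← mul_assoc, Real.mul_self_sqrt (hκ i)]
      have e2 : ∀ i, Real.sqrt (κ i) ^ 2 = κ i := fun i => Real.sq_sqrt (hκ i)
      have e3 : ∀ i, (Real.sqrt (κ i) * ‖D i‖) ^ 2 = κ i * ‖D i‖ ^ 2 := fun i => by
        rw [mul_pow, Real.sq_sqrt (hκ i)]
      simpa only [e1, e2, e3] using h4
    exact (pow_le_pow_left₀ (norm_nonneg _) h2 2).trans h3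
  refine (Finset.sum_le_sum fun y _ => h1 y).trans ?_
  rw [← Finset.mul_sum, Finset.sum_comm]
  refine mul_le_mul_of_nonneg_left ?_ (Finset.sum_nonneg fun i _ => hκ i)
  refine Finset.sum_le_sum fun i _ => ?_
  rw [← Finset.mul_sum]
  refine mul_le_mul_of_nonneg_left ?_ (hκ i)
  have h5 := Ln_dstG (hB i) (ha i) p (Z i) (Z' i)
  rw [← sum_av'] at h5
  exact h5


/-- **EL + SWAP at every node of a window, arbitrary replacement kernels** -/
theorem el_swapG (hB : ∀ i, Bnd (Bd i) (pos i) (N i) (ν i)) (ha : ∀ i, FibG (Bd i) (pos i) (ν i) (a i))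
    (hr : ∀ i, 0 ≤ r i) (hκ : ∀ i, 0 ≤ κ i)
    (h : NMP (fun _ _ => True) (ThF Bd pos N ν a r κ) X η f)
    {W : Finset Nd} {I : Nd} (hW : Full W I) {δ : ℝ}
    (hG : GdP (ThF Bd pos N ν a r κ) X η f δ W I) {p : Nd} (hp : p ∈ W)
    (Z : ∀ i, Ω i → ℂ) :
    av p (fun y => X y - gl W f y - LnF Bd pos ν a κ p Z y) ^ 2
      ≤ 2 * ((1 + ∑ i, κ i) * (δ + η))
        + 2 * ((∑ i, κ i) * ∑ i, κ i * (ν i * dst (Bd i) p
          (Rs (Bd i) (pos i) (N i) (a i) (r i) p (gl W f)) (Z i))) / len p := by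
  have hP := pen_ThF (a := a) (κ := κ) hB hr hκ
  have hM : 0 ≤ ∑ i, κ i := Finset.sum_nonneg fun i _ => hκ i
  have hL := Growth.len_pos p
  have h1 := el_win (Ψ := GrF Bd pos N ν a r κ p (gl W f)) hP h hW hG hp hM
    (fv_ThFG hB ha hr hκ p _ _) trivial
  have h2 := LnF_dstG hB ha hκ p (fun i => Rs (Bd i) (pos i) (N i) (a i) (r i) p (gl W f)) Z
  rw [← GrF_eq] at h2
  set g := gl W f with hg
  set G := GrF Bd pos N ν a r κ p g with hGG
  set L := LnF Bd pos ν a κ p Z with hLL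
  have h3 : av p (fun y => X y - g y - L y) ^ 2
      ≤ 2 * av p (fun y => X y - g y - G y) ^ 2 + 2 * av p (fun y => G y - L y) ^ 2 := by
    have h4 : len p * av p (fun y => X y - g y - L y) ^ 2
        ≤ len p * (2 * av p (fun y => X y - g y - G y) ^ 2
          + 2 * av p (fun y => G y - L y) ^ 2) := by
      rw [mul_add, mul_left_comm (len p) 2, mul_left_comm (len p) 2, ← sum_av', ← sum_av',
        ← sum_av', Finset.mul_sum, Finset.mul_sum, ← Finset.sum_add_distrib]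
      refine Finset.sum_le_sum fun y _ => ?_
      have e : X y - g y - L y = (X y - g y - G y) + (G y - L y) := by ring
      rw [e]
      have h5 := norm_add_le (X y - g y - G y) (G y - L y)
      have h6 := pow_le_pow_left₀ (norm_nonneg _) h5 2
      nlinarith [sq_nonneg (‖X y - g y - G y‖ - ‖G y - L y‖)]
    exact le_of_mul_le_mul_left h4 hL
  have h7 : av p (fun y => G y - L y) ^ 2
      ≤ ((∑ i, κ i) * ∑ i, κ i * (ν i * dst (Bd i) p
          (Rs (Bd i) (pos i) (N i) (a i) (r i) p g) (Z i))) / len p := by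
    rw [le_div_iff₀ hL, mul_comm]
    exact h2
  have h8 : 2 * ((∑ i, κ i) * ∑ i, κ i * (ν i * dst (Bd i) p
          (Rs (Bd i) (pos i) (N i) (a i) (r i) p g) (Z i))) / len p
      = 2 * (((∑ i, κ i) * ∑ i, κ i * (ν i * dst (Bd i) p
          (Rs (Bd i) (pos i) (N i) (a i) (r i) p g) (Z i))) / len p) := by ring
  rw [h8]
  linarith


end family

section family

variable {ι : Type*} [Fintype ι] {Ω : ι → Type*} {Bd : ∀ i, Nd → Finset (Ω i)}
  {pos : ∀ i, Ω i → ℤ} {N : ∀ i, Nd → (Ω i → ℂ) → ℝ} {ν : ι → ℝ} {a : ∀ i, Ω i → ℂ} {r : ι → ℕ → ℝ}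
  {κ : ι → ℝ} {X : Fn} {η : ℝ} {f : Nd → Fn}

/-- **(e): `X = g_Λ + Ψ' + e` at every node of a good window**: `g_Λ` = glued exit minimisers,
`Ψ'` = ladder of the glued exit projections in the calculus of the node -/
theorem el_ladder0G {K : ℕ} (hB : ∀ i, Bnd (Bd i) (pos i) (N i) (ν i)) (ha : ∀ i, FibG (Bd i) (pos i) (ν i) (a i))
    (hr : ∀ i j, 0 ≤ r i j) (hκ : ∀ i, 0 ≤ κ i)
    (h : NMP (fun _ _ => True) (ThL0 K Bd pos N ν a r κ) X η f)
    {W : Finset Nd} {I : Nd} (hW : Full W I) {δ : ℝ}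
    (hG : GdP (ThL0 K Bd pos N ν a r κ) X η f δ W I) {p : Nd} (hp : p ∈ W)
    (comp : ∀ w, ∀ i, i + 1 < K → ∀ ω ∈ Bd w p,
      Pj (Bd w) (N w) (r w i) p (Pj (Bd w) (N w) (r w (i + 1)) p
        (ag (Bd w) (pos w) (a w) p (gl W f))) ω
      = Pj (Bd w) (N w) (r w i) p (ag (Bd w) (pos w) (a w) p (gl W f)) ω) :
    av p (fun y => X y - gl W f y - LnF Bd pos ν a κ p (fun w => lad (Bd w) (N w) (r w) K p
      (upto K (fun i => Bgl (Bd w) (pos w) (N w) (a w) (r w i) W p (gl W f))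
        (ag (Bd w) (pos w) (a w) p (gl W f)))) y) ^ 2
      ≤ (2 * (1 + K * ∑ i, κ i) + 4 * ((∑ i, κ i) * (K : ℝ) ^ 3)) * (δ + η) := by
  have hP : PenC 0 (fun _ _ => True) (ThL0 K Bd pos N ν a r κ) :=
    pen_ThF (fun i => hB i.1) (fun i => hr i.1 i.2) (fun i => hκ i.1)
  have hM0 : 0 ≤ ∑ i, κ i := Finset.sum_nonneg fun i _ => hκ i
  have hM : ∑ i : ι × Fin K, κ i.1 = K * ∑ i, κ i := by
    rw [Fintype.sum_prod_type, Finset.mul_sum]
    refine Finset.sum_congr rfl fun i _ => ?_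
    simp
  have hL := Growth.len_pos p
  set g := gl W f with hg
  set A : ∀ w, Ω w → ℂ := fun w => ag (Bd w) (pos w) (a w) p g with hA
  have h1 := el_win (Ψ := GrF (ι := ι × Fin K) (fun i => Bd i.1) (fun i => pos i.1)
    (fun i => N i.1) (fun i => ν i.1) (fun i => a i.1) (fun i => r i.1 i.2) (fun i => κ i.1) p
    (gl W f)) (M := ∑ i : ι × Fin K, κ i.1) hP h hW hG hp
    (Finset.sum_nonneg fun i _ => hκ i.1)
    (fv_ThFG (ι := ι × Fin K) (a := fun i => a i.1) (r := fun i => r i.1 i.2)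
      (κ := fun i => κ i.1) (fun i => hB i.1) (fun i => ha i.1) (fun i => hr i.1 i.2)
      (fun i => hκ i.1) p _ _)
    trivial
  rw [← hg, hM] at h1
  -- the half gradient is the ladder of the own projections
  have h2 : GrF (ι := ι × Fin K) (fun i => Bd i.1) (fun i => pos i.1)
      (fun i => N i.1) (fun i => ν i.1) (fun i => a i.1) (fun i => r i.1 i.2) (fun i => κ i.1) p g
      = LnF Bd pos ν a κ p (fun w => lad (Bd w) (N w) (r w) K p
        (upto K (fun i => Pj (Bd w) (N w) (r w i) p (A w)) (A w))) := by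
    rw [GrF_eq]
    funext y
    unfold LnF
    rw [Fintype.sum_prod_type]
    refine Finset.sum_congr rfl fun w _ => ?_
    show ∑ j : Fin K, (κ w : ℂ) * Ln (Bd w) (pos w) (ν w) (a w) p
      (Rs (Bd w) (pos w) (N w) (a w) (r w j) p g) y = _
    rw [← Finset.mul_sum]
    congr 1
    have h3 := Ln_sum (Bd := Bd w) (pos := pos w) (ν := ν w) (a := a w) (p := p)
      (Finset.univ : Finset (Fin K))
      (fun j => Rs (Bd w) (pos w) (N w) (a w) (r w j) p g) y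
    refine h3.trans ?_
    refine congrFun (Ln_congr fun ω hω => ?_) y
    refine Eq.trans ?_ (lad_eq0 (comp w) ω hω)
    exact Fin.sum_univ_eq_sum_range (fun j => A w ω - Pj (Bd w) (N w) (r w j) p (A w) ω) K
  rw [h2] at h1
  have h3 := LnF_dstG hB ha hκ p (fun w => lad (Bd w) (N w) (r w) K p
        (upto K (fun i => Pj (Bd w) (N w) (r w i) p (A w)) (A w)))
        (fun w => lad (Bd w) (N w) (r w) K p
      (upto K (fun i => Bgl (Bd w) (pos w) (N w) (a w) (r w i) W p g) (A w)))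
  have h4 : ∑ w, κ w * (ν w * dst (Bd w) p (lad (Bd w) (N w) (r w) K p
        (upto K (fun i => Pj (Bd w) (N w) (r w i) p (A w)) (A w)))
        (lad (Bd w) (N w) (r w) K p
      (upto K (fun i => Bgl (Bd w) (pos w) (N w) (a w) (r w i) W p g) (A w))))
      ≤ (K : ℝ) ^ 3 * (2 * (len p * (δ + η))) := by
    have h5 := thr_win (ι := ι × Fin K) (fun i => hB i.1) (fun i => hr i.1 i.2)
      (fun i => hκ i.1) h hW hG hp
    rw [Fintype.sum_prod_type] at h5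
    have h6 : ∀ w, κ w * (ν w * dst (Bd w) p (lad (Bd w) (N w) (r w) K p
        (upto K (fun i => Pj (Bd w) (N w) (r w i) p (A w)) (A w)))
        (lad (Bd w) (N w) (r w) K p
      (upto K (fun i => Bgl (Bd w) (pos w) (N w) (a w) (r w i) W p g) (A w))))
        ≤ (K : ℝ) ^ 3 * (2 * ∑ j : Fin K, κ w * (ν w / 2 * dst (Bd w) p
          (Pj (Bd w) (N w) (r w j) p (A w))
          (Bgl (Bd w) (pos w) (N w) (a w) (r w j) W p g))) := by
      intro w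
      have h7 := lad_dst (hB w) (hr w) K p (upto K (fun i => Pj (Bd w) (N w) (r w i) p (A w)) (A w))
        (upto K (fun i => Bgl (Bd w) (pos w) (N w) (a w) (r w i) W p g) (A w))
      have h8 : ∑ j : Fin K, κ w * (ν w / 2 * dst (Bd w) p
          (Pj (Bd w) (N w) (r w j) p (A w))
          (Bgl (Bd w) (pos w) (N w) (a w) (r w j) W p g))
          = κ w * ν w / 2 * ∑ j ∈ range K, dst (Bd w) p
          (Pj (Bd w) (N w) (r w j) p (A w))
          (Bgl (Bd w) (pos w) (N w) (a w) (r w j) W p g) := by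
        rw [← Fin.sum_univ_eq_sum_range (fun j => dst (Bd w) p
          (Pj (Bd w) (N w) (r w j) p (A w))
          (Bgl (Bd w) (pos w) (N w) (a w) (r w j) W p g)) K, Finset.mul_sum]
        refine Finset.sum_congr rfl fun j _ => ?_
        ring
      set Fd : ℕ → ℝ := fun j => dst (Bd w) p
        (upto K (fun i => Pj (Bd w) (N w) (r w i) p (A w)) (A w) j)
        (upto K (fun i => Bgl (Bd w) (pos w) (N w) (a w) (r w i) W p g) (A w) j) with hFd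
      have hFK : Fd K = 0 := by
        simp only [hFd, upto, if_neg (lt_irrefl K)]
        unfold dst
        simp
      have hF0 : 0 ≤ Fd 0 := dst_nonneg (Bd := Bd w) p _ _
      have h9 : ∑ i ∈ range K, Fd (i + 1)
          ≤ ∑ j ∈ range K, dst (Bd w) p
          (Pj (Bd w) (N w) (r w j) p (A w))
          (Bgl (Bd w) (pos w) (N w) (a w) (r w j) W p g) := by
        have e1 := Finset.sum_range_succ' Fd K
        have e2 := Finset.sum_range_succ Fd K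
        have e3 : ∑ j ∈ range K, Fd j = ∑ j ∈ range K, dst (Bd w) p
          (Pj (Bd w) (N w) (r w j) p (A w))
          (Bgl (Bd w) (pos w) (N w) (a w) (r w j) W p g) :=
          Finset.sum_congr rfl fun j hj => by
            simp only [hFd, upto, if_pos (Finset.mem_range.1 hj)]
        linarith
      rw [h8]
      have hκν : 0 ≤ κ w * ν w := mul_nonneg (hκ w) (hB w).nu.le
      have hK3 : (0 : ℝ) ≤ (K : ℝ) ^ 3 := by positivity
      have h10 := h7.trans (mul_le_mul_of_nonneg_left h9 hK3)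
      have h11 := mul_le_mul_of_nonneg_left h10 hκν
      refine le_trans (le_of_eq ?_) (h11.trans (le_of_eq ?_))
      · ring
      · ring
    refine (Finset.sum_le_sum fun w _ => h6 w).trans ?_
    rw [← Finset.mul_sum, ← Finset.mul_sum]
    exact mul_le_mul_of_nonneg_left (mul_le_mul_of_nonneg_left h5 (by norm_num)) (by positivity)
  set G := LnF Bd pos ν a κ p (fun w => lad (Bd w) (N w) (r w) K p
        (upto K (fun i => Pj (Bd w) (N w) (r w i) p (A w)) (A w)))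
  set L := LnF Bd pos ν a κ p (fun w => lad (Bd w) (N w) (r w) K p
      (upto K (fun i => Bgl (Bd w) (pos w) (N w) (a w) (r w i) W p g) (A w)))
  have h5 : av p (fun y => G y - L y) ^ 2 ≤ (∑ i, κ i) * ((K : ℝ) ^ 3 * (2 * (δ + η))) := by
    have h6 := h3.trans (mul_le_mul_of_nonneg_left h4 hM0)
    have h7 : len p * av p (fun y => G y - L y) ^ 2
        ≤ len p * ((∑ i, κ i) * ((K : ℝ) ^ 3 * (2 * (δ + η)))) := by
      refine h6.trans (le_of_eq ?_)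
      ring
    exact le_of_mul_le_mul_left h7 hL
  have h6 : av p (fun y => X y - g y - L y) ^ 2
      ≤ 2 * av p (fun y => X y - g y - G y) ^ 2 + 2 * av p (fun y => G y - L y) ^ 2 := by
    have h4 : len p * av p (fun y => X y - g y - L y) ^ 2
        ≤ len p * (2 * av p (fun y => X y - g y - G y) ^ 2
          + 2 * av p (fun y => G y - L y) ^ 2) := by
      rw [mul_add, mul_left_comm (len p) 2, mul_left_comm (len p) 2, ← sum_av', ← sum_av',
        ← sum_av', Finset.mul_sum, Finset.mul_sum, ← Finset.sum_add_distrib]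
      refine Finset.sum_le_sum fun y _ => ?_
      have e : X y - g y - L y = (X y - g y - G y) + (G y - L y) := by ring
      rw [e]
      have h5 := norm_add_le (X y - g y - G y) (G y - L y)
      have h6 := pow_le_pow_left₀ (norm_nonneg _) h5 2
      nlinarith [sq_nonneg (‖X y - g y - G y‖ - ‖G y - L y‖)]
    exact le_of_mul_le_mul_left h4 hL
  refine h6.trans ?_
  nlinarith [h1, h5]


end family

/-- **(e) on cells**: `comp` is automatic for 881's `Split` nodes and monotone thresholds -/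
theorem el_cellsG {ι : Type*} [Fintype ι] {Bd : ι → Nd → Finset (ℤ × ℤ × ℤ)}
    {pos : ι → ℤ × ℤ × ℤ → ℤ} {N : ι → Nd → (ℤ × ℤ × ℤ → ℂ) → ℝ} {ν : ι → ℝ}
    {a : ι → ℤ × ℤ × ℤ → ℂ} {r : ι → ℕ → ℝ} {κ : ι → ℝ} {X : Fn} {η : ℝ} {f : Nd → Fn}
    {K : ℕ} (hB : ∀ i, Bnd (Bd i) (pos i) (N i) (ν i)) (ha : ∀ i, FibG (Bd i) (pos i) (ν i) (a i))
    (hr : ∀ i j, 0 ≤ r i j) (hmono : ∀ i j, r i j ≤ r i (j + 1)) (hκ : ∀ i, 0 ≤ κ i)
    (h : NMP (fun _ _ => True) (ThL0 K Bd pos N ν a r κ) X η f)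
    {W : Finset Nd} {I : Nd} (hW : Full W I) {δ : ℝ}
    (hG : GdP (ThL0 K Bd pos N ν a r κ) X η f δ W I) {p : Nd} (hp : p ∈ W)
    {C : ι → Type*} {cells : ∀ i, Finset (C i)} {z : ∀ i, C i → ℤ} {S T : ∀ i, C i → Finset ℤ}
    {wt : ∀ i, C i → ℝ}
    (hs : ∀ i, Crest.Agent.R079.PjC881.Split (Bd i) (N i) p (cells i) (z i) (S i) (T i) (wt i)) :
    av p (fun y => X y - gl W f y - LnF Bd pos ν a κ p (fun w => lad (Bd w) (N w) (r w) K p
      (upto K (fun i => Bgl (Bd w) (pos w) (N w) (a w) (r w i) W p (gl W f))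
        (ag (Bd w) (pos w) (a w) p (gl W f)))) y) ^ 2
      ≤ (2 * (1 + K * ∑ i, κ i) + 4 * ((∑ i, κ i) * (K : ℝ) ^ 3)) * (δ + η) :=
  el_ladder0G hB ha hr hκ h hW hG hp fun w i _ =>
    Crest.Agent.R079.PjC881.Pj_comp (hB w) (hs w) (hr w i) (hmono w i) _


/-- **leaf (e) on Whitney cells: no hypothesis besides the fibre count and monotone thresholds** -/
theorem el_whitneyG {ι : Type*} [Fintype ι] {Y : ι → ℤ → ℤ → ℤ → ℤ} {k : ι → ℕ}
    {T₀ T₁ T₂ : ι → Finset ℤ} {ν : ι → ℝ} {a : ι → ℤ × ℤ × ℤ → ℂ} {r : ι → ℕ → ℝ} {κ : ι → ℝ}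
    {X : Fn} {η : ℝ} {f : Nd → Fn} {K : ℕ}
    (hB : ∀ w, Bnd (bdc Y T₀ T₁ T₂ w) (fun ω => Y w ω.1 ω.2.1 ω.2.2)
      (NmP (T₀ w ×ˢ (T₁ w ×ˢ T₂ w)) cf (okc (Y w) (k w))) (ν w))
    (ha : ∀ w, FibG (bdc Y T₀ T₁ T₂ w) (fun ω => Y w ω.1 ω.2.1 ω.2.2) (ν w) (a w))
    (hr : ∀ i j, 0 ≤ r i j) (hmono : ∀ i j, r i j ≤ r i (j + 1)) (hκ : ∀ i, 0 ≤ κ i)
    (h : NMP (fun _ _ => True) (ThL0 K (bdc Y T₀ T₁ T₂) (fun w ω => Y w ω.1 ω.2.1 ω.2.2)
      (fun w => NmP (T₀ w ×ˢ (T₁ w ×ˢ T₂ w)) cf (okc (Y w) (k w))) ν a r κ) X η f)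
    {W : Finset Nd} {I : Nd} (hW : Full W I) {δ : ℝ}
    (hG : GdP (ThL0 K (bdc Y T₀ T₁ T₂) (fun w ω => Y w ω.1 ω.2.1 ω.2.2)
      (fun w => NmP (T₀ w ×ˢ (T₁ w ×ˢ T₂ w)) cf (okc (Y w) (k w))) ν a r κ) X η f δ W I)
    {p : Nd} (hp : p ∈ W) :
    av p (fun y => X y - gl W f y - LnF (bdc Y T₀ T₁ T₂) (fun w ω => Y w ω.1 ω.2.1 ω.2.2) ν a κ p
      (fun w => lad (bdc Y T₀ T₁ T₂ w) (NmP (T₀ w ×ˢ (T₁ w ×ˢ T₂ w)) cf (okc (Y w) (k w))) (r w) K p
      (upto K (fun i => Bgl (bdc Y T₀ T₁ T₂ w) (fun ω => Y w ω.1 ω.2.1 ω.2.2)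
        (NmP (T₀ w ×ˢ (T₁ w ×ˢ T₂ w)) cf (okc (Y w) (k w))) (a w) (r w i) W p (gl W f))
        (ag (bdc Y T₀ T₁ T₂ w) (fun ω => Y w ω.1 ω.2.1 ω.2.2) (a w) p (gl W f)))) y) ^ 2
      ≤ (2 * (1 + K * ∑ i, κ i) + 4 * ((∑ i, κ i) * (K : ℝ) ^ 3)) * (δ + η) :=
  el_ladder0G hB ha hr hκ h hW hG hp fun w i _ =>
    comp_cells (hB w) (hr w i) (hmono w i) p _


end Crest.Agent.R079.ElGx69
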