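import Crest.Agent.R079.GaB_571
import Crest.Agent.R079.OpS_276
import Crest.Agent.R079.ElG_69
import Crest.Agent.R079.CelB_159

/-! R079, Step I, (G) words (helper371, item H1 of helper571): THE BAND SYSTEMS OF ONE OP-ATOM.

Edges as in `GaA_571`: edge `e` = `(z_e, z_(e+1))`, line slot `j.succAbove (e+2)`; frozen variable `w`.

* `Ye j e w z z'` : the line form read by the slot of the edge `e` (`lk_Ye`);
* `W0`, `SE`, `BdE` : frozen values, positions, band; `bnd_E` = 159's Whitney cell system with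
  `ν = 1 / n ^ 2`; `ker_ag` : the masked line kernel is `lk` of the masked letter;
* `OpD v n Ht Hf T g α` : data of an op-atom (special vertex `v`, bounded gauge on the edge `v + 1` = edge of
  the killer, tall gauges on the edges `v`, `v + 2`); `exists_opD` from `IsOpS`;
* `OpD.fib : FibG` for every edge, `OpD.sup`. -/

set_option autoImplicit false

namespace Crest.Agent.R079.GaFx371

open Finset Crest.Agent.R079.Grid Crest.Agent.R079.Glue Crest.Agent.R079.Growth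
  Crest.Agent.R079.QRed Crest.Agent.R079.Qh249 Crest.Agent.R079.TWin
  Crest.Agent.R079.GaAx571 Crest.Agent.R079.GaBx571 Crest.Agent.R079.OpS276
open Crest.Agent.R079.Cel159 Crest.Agent.R079.ThA159 Crest.Agent.R079.ElGx69
open Crest.Agent.R079.DicOp679 (ext_val ext_le sum_Ico_fin)
open Crest.Agent.R079.OpLev

/-- line form read by the slot of the edge `e` -/
def Ye (j : Fin 4) (e : Fin 3) (w z z' : ℤ) : ℤ :=
  (sl j - sl (j.succAbove (e + 2))) * w + (sl (j.succAbove e) - sl (j.succAbove (e + 2))) * z +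
    (sl (j.succAbove (e + 1)) - sl (j.succAbove (e + 2))) * z'

lemma lk_Ye (j : Fin 4) (T : Fin 3 → Finset ℤ) (g : Fin 3 → ℤ → ℤ → ℂ) (e : Fin 3) (F : ℤ → ℂ)
    (w z z' : ℤ) : lk j T g e F w z z' =
      if z ∈ T e ∧ z' ∈ T (e + 1) then g e z z' * F (Ye j e w z z') else 0 := rfl

lemma co_ne (j : Fin 4) (e : Fin 3) : sl j - sl (j.succAbove (e + 2)) ≠ 0 := by
  refine sub_ne_zero.2 fun hh => ?_
  exact (Fin.succAbove_ne j (e + 2)) (Qa246.sl_inj hh).symm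

/-- the frozen value is determined by the other two and the line coordinate -/
lemma Ye_inj {j : Fin 4} {e : Fin 3} {w w' z z' : ℤ} (h : Ye j e w z z' = Ye j e w' z z') :
    w = w' := by
  unfold Ye at h
  have h1 : (sl j - sl (j.succAbove (e + 2))) * w = (sl j - sl (j.succAbove (e + 2))) * w' := by
    linarith
  exact mul_left_cancel₀ (co_ne j e) h1

/-- all frozen values whose line meets `iv J` -/
noncomputable def W0 (j : Fin 4) (e : Fin 3) (T : Fin 3 → Finset ℤ) (J : Nd) : Finset ℤ :=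
  ((T e ×ˢ T (e + 1)) ×ˢ iv J).image fun s =>
    (s.2 - (sl (j.succAbove e) - sl (j.succAbove (e + 2))) * s.1.1 -
      (sl (j.succAbove (e + 1)) - sl (j.succAbove (e + 2))) * s.1.2) /
        (sl j - sl (j.succAbove (e + 2)))

lemma mem_W0 {j : Fin 4} {e : Fin 3} {T : Fin 3 → Finset ℤ} {J : Nd} {w z z' : ℤ}
    (hz : z ∈ T e) (hz' : z' ∈ T (e + 1)) (h : Ye j e w z z' ∈ iv J) : w ∈ W0 j e T J := by
  unfold W0
  rw [Finset.mem_image]
  refine ⟨((z, z'), Ye j e w z z'), ?_, ?_⟩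
  · simp only [Finset.mem_product]
    exact ⟨⟨hz, hz'⟩, h⟩
  · have e1 : Ye j e w z z' - (sl (j.succAbove e) - sl (j.succAbove (e + 2))) * z -
        (sl (j.succAbove (e + 1)) - sl (j.succAbove (e + 2))) * z' =
        (sl j - sl (j.succAbove (e + 2))) * w := by unfold Ye; ring
    show (Ye j e w z z' - (sl (j.succAbove e) - sl (j.succAbove (e + 2))) * z -
        (sl (j.succAbove (e + 1)) - sl (j.succAbove (e + 2))) * z') /
          (sl j - sl (j.succAbove (e + 2))) = w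
    rw [e1]
    exact Int.mul_ediv_cancel_left _ (co_ne j e)

/-- positions -/
noncomputable def SE (j : Fin 4) (e : Fin 3) (T : Fin 3 → Finset ℤ) (J : Nd) : Finset (ℤ × ℤ × ℤ) :=
  W0 j e T J ×ˢ (T e ×ˢ T (e + 1))

open Classical in
/-- the band of the slot of the edge `e` -/
noncomputable def BdE (j : Fin 4) (e : Fin 3) (T : Fin 3 → Finset ℤ) (J : Nd) (p : Nd) :
    Finset (ℤ × ℤ × ℤ) :=
  (SE j e T J).filter (fun ω => Ye j e ω.1 ω.2.1 ω.2.2 ∈ iv p)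

/-- line coordinate of a position -/
def poE (j : Fin 4) (e : Fin 3) (ω : ℤ × ℤ × ℤ) : ℤ := Ye j e ω.1 ω.2.1 ω.2.2

lemma mem_BdE {j : Fin 4} {e : Fin 3} {T : Fin 3 → Finset ℤ} {J p : Nd} (hp : iv p ⊆ iv J)
    {w z z' : ℤ} : (w, z, z') ∈ BdE j e T J p ↔
      z ∈ T e ∧ z' ∈ T (e + 1) ∧ Ye j e w z z' ∈ iv p := by
  unfold BdE SE
  rw [Finset.mem_filter, Finset.mem_product, Finset.mem_product]
  constructor
  · rintro ⟨⟨_, h2, h3⟩, h4⟩
    exact ⟨h2, h3, h4⟩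
  · rintro ⟨h2, h3, h4⟩
    exact ⟨⟨mem_W0 h2 h3 (hp h4), h2, h3⟩, h4⟩

/-- a sum over a fibre of the line coordinate is a sum over the face -/
theorem fib_sum (j : Fin 4) (e : Fin 3) (T : Fin 3 → Finset ℤ) (S : Finset (ℤ × ℤ × ℤ))
    (hS : ∀ ω ∈ S, ω.2.1 ∈ T e ∧ ω.2.2 ∈ T (e + 1)) (y : ℤ) (hy : ∀ ω ∈ S, poE j e ω = y)
    (G : ℤ → ℤ → ℝ) (hG : ∀ z z', 0 ≤ G z z') :
    ∑ ω ∈ S, G ω.2.1 ω.2.2 ≤ ∑ z ∈ T e, ∑ z' ∈ T (e + 1), G z z' := by
  classical
  have hinj : Set.InjOn (fun ω : ℤ × ℤ × ℤ => ω.2) (S : Set (ℤ × ℤ × ℤ)) := by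
    rintro ⟨w, z, z'⟩ h1 ⟨w', y1, y1'⟩ h2 h
    have h3 := hy _ (Finset.mem_coe.1 h1)
    have h4 := hy _ (Finset.mem_coe.1 h2)
    simp only [Prod.mk.injEq] at h
    obtain ⟨rfl, rfl⟩ := h
    have h5 : w = w' := Ye_inj (h3.trans h4.symm)
    rw [h5]
  have e1 : ∑ ω ∈ S, G ω.2.1 ω.2.2 = ∑ s ∈ S.image (fun ω : ℤ × ℤ × ℤ => ω.2), G s.1 s.2 := by
    rw [Finset.sum_image hinj]
  rw [e1, ← Finset.sum_product']
  refine Finset.sum_le_sum_of_subset_of_nonneg ?_ fun s _ _ => hG _ _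
  intro s hs
  obtain ⟨ω, hω, rfl⟩ := Finset.mem_image.1 hs
  exact Finset.mem_product.2 (hS ω hω)

/-- **the Whitney cell system of the edge `e`** -/
theorem bnd_E (j : Fin 4) (e : Fin 3) {T : Fin 3 → Finset ℤ} (J : Nd) {n : ℕ} (hn : 0 < n)
    (hT : ∀ e, (T e).card ≤ n) (k : ℕ) :
    Bnd (BdE j e T J) (poE j e) (NmP (SE j e T J) cf (okc (Ye j e) k)) (1 / (n : ℝ) ^ 2) := by
  have hn' : (0 : ℝ) < n := by exact_mod_cast hn
  refine bnd_cell (Ye j e) k (SE j e T J) (by positivity) fun y => ?_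
  have h1 := fib_sum j e T ((SE j e T J).filter (fun ω => Ye j e ω.1 ω.2.1 ω.2.2 = y))
    (fun ω hω => by
      rw [Finset.mem_filter] at hω
      unfold SE at hω
      rw [Finset.mem_product, Finset.mem_product] at hω
      exact hω.1.2) y (fun ω hω => (Finset.mem_filter.1 hω).2) (fun _ _ => 1) (fun _ _ => zero_le_one)
  simp only [Finset.sum_const, nsmul_eq_mul, mul_one] at h1
  have h2 : ((T e).card : ℝ) * ((T (e + 1)).card : ℝ) ≤ n * n := by
    have a1 : ((T e).card : ℝ) ≤ n := by exact_mod_cast hT e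
    have a2 : ((T (e + 1)).card : ℝ) ≤ n := by exact_mod_cast hT (e + 1)
    exact mul_le_mul a1 a2 (Nat.cast_nonneg _) hn'.le
  rw [div_mul_eq_mul_div, one_mul, div_le_one (by positivity)]
  calc _ ≤ _ := h1
    _ ≤ n * n := h2
    _ = _ := by ring

/-- the masked line kernel of the edge is `lk` of the masked letter -/
theorem ker_ag (j : Fin 4) (e : Fin 3) (T : Fin 3 → Finset ℤ) (g : Fin 3 → ℤ → ℤ → ℂ) (J : Nd)
    (f : Fn) : ker (BdE j e T J J) (ag (BdE j e T J) (poE j e) (fun ω => g e ω.2.1 ω.2.2) J f) =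
      lk j T g e (fun y => if y ∈ iv J then f y else 0) := by
  classical
  funext w z z'
  rw [lk_Ye]
  unfold ker ag
  by_cases h : (w, z, z') ∈ BdE j e T J J
  · rw [if_pos h, if_pos h]
    obtain ⟨h1, h2, h3⟩ := (mem_BdE (Finset.Subset.refl _)).1 h
    rw [if_pos ⟨h1, h2⟩, if_pos h3]
    rfl
  · rw [if_neg h]
    split_ifs with h1 h2
    · exact absurd ((mem_BdE (Finset.Subset.refl _)).2 ⟨h1.1, h1.2, h2⟩) h
    · simp
    · rfl

/-! ### data of an op-atom -/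

/-- data of an op-atom: special vertex `v`, bounded gauge on the edge `v + 1` (the edge of the killer),
tall gauges on the edges `v` and `v + 2` -/
structure OpD (v : Fin 3) (n : ℕ) (Ht Hf : ℝ) (T : Fin 3 → Finset ℤ) (g : Fin 3 → ℤ → ℤ → ℂ)
    (α : ℤ → ℝ) : Prop where
  card : ∀ e, (T e).card ≤ n
  b1 : ∀ z z', ‖g (v + 1) z z'‖ ≤ 1
  α0 : ∀ z, 0 ≤ α z
  α1 : ∑ z ∈ T v, α z ≤ n
  αH : ∀ z, α z ≤ Ht
  U2 : ∀ z, ∑ z' ∈ T (v + 1), ‖g v z z'‖ ^ 2 ≤ n * α z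
  V2 : ∀ z, ∑ z' ∈ T (v + 2), ‖g (v + 2) z' z‖ ^ 2 ≤ n * α z
  UH : ∀ z z', ‖g v z z'‖ ^ 2 ≤ Hf * α z
  VH : ∀ z z', ‖g (v + 2) z' z‖ ^ 2 ≤ Hf * α z

lemma f3a (v : Fin 3) : v + 2 + 1 = v := by revert v; decide

lemma f3b (v e : Fin 3) : e = v ∨ e = v + 1 ∨ e = v + 2 := by revert v e; decide

lemma f3c : ∀ v x y : Fin 3, v ≠ x → v ≠ y → x ≠ y →
    (x = v + 1 ∧ y = v + 2) ∨ (x = v + 2 ∧ y = v + 1) := by decide

lemma OpD.mass_v {v : Fin 3} {n : ℕ} {Ht Hf : ℝ} {T : Fin 3 → Finset ℤ} {g : Fin 3 → ℤ → ℤ → ℂ}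
    {α : ℤ → ℝ} (h : OpD v n Ht Hf T g α) (e : Fin 3) :
    ∑ z ∈ T e, ∑ z' ∈ T (e + 1), ‖g e z z'‖ ^ 2 ≤ (n : ℝ) * n := by
  have hn : (0 : ℝ) ≤ n := Nat.cast_nonneg n
  rcases f3b v e with rfl | rfl | rfl
  · calc ∑ z ∈ T e, ∑ z' ∈ T (e + 1), ‖g e z z'‖ ^ 2 ≤ ∑ z ∈ T e, n * α z :=
          Finset.sum_le_sum fun z _ => h.U2 z
      _ = n * ∑ z ∈ T e, α z := by rw [Finset.mul_sum]
      _ ≤ n * n := mul_le_mul_of_nonneg_left h.α1 hn
  · calc ∑ z ∈ T (v + 1), ∑ z' ∈ T (v + 1 + 1), ‖g (v + 1) z z'‖ ^ 2 ≤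
        ∑ z ∈ T (v + 1), ∑ z' ∈ T (v + 1 + 1), (1 : ℝ) :=
          Finset.sum_le_sum fun z _ => Finset.sum_le_sum fun z' _ =>
            pow_le_one₀ (norm_nonneg _) (h.b1 z z')
      _ = ((T (v + 1)).card : ℝ) * ((T (v + 1 + 1)).card : ℝ) := by
          simp only [Finset.sum_const, nsmul_eq_mul, mul_one]
      _ ≤ n * n := by
          have a1 : ((T (v + 1)).card : ℝ) ≤ n := by exact_mod_cast h.card (v + 1)
          have a2 : ((T (v + 1 + 1)).card : ℝ) ≤ n := by exact_mod_cast h.card (v + 1 + 1)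
          exact mul_le_mul a1 a2 (Nat.cast_nonneg _) hn
  · rw [f3a v, Finset.sum_comm]
    calc ∑ z ∈ T v, ∑ z' ∈ T (v + 2), ‖g (v + 2) z' z‖ ^ 2 ≤ ∑ z ∈ T v, n * α z :=
          Finset.sum_le_sum fun z _ => h.V2 z
      _ = n * ∑ z ∈ T v, α z := by rw [Finset.mul_sum]
      _ ≤ n * n := mul_le_mul_of_nonneg_left h.α1 hn

/-- **fibre sums of the gauges** -/
theorem OpD.fib {v : Fin 3} {n : ℕ} {Ht Hf : ℝ} {T : Fin 3 → Finset ℤ} {g : Fin 3 → ℤ → ℤ → ℂ}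
    {α : ℤ → ℝ} (h : OpD v n Ht Hf T g α) (hn : 0 < n) (j : Fin 4) (e : Fin 3) (J : Nd) :
    FibG (BdE j e T J) (poE j e) (1 / (n : ℝ) ^ 2) (fun ω => g e ω.2.1 ω.2.2) := by
  classical
  intro p y
  have hn' : (0 : ℝ) < n := by exact_mod_cast hn
  have h1 := fib_sum j e T ((BdE j e T J p).filter (fun ω => poE j e ω = y))
    (fun ω hω => by
      rw [Finset.mem_filter] at hω
      have := hω.1
      unfold BdE SE at this
      rw [Finset.mem_filter, Finset.mem_product, Finset.mem_product] at this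
      exact this.1.2) y (fun ω hω => (Finset.mem_filter.1 hω).2) (fun z z' => ‖g e z z'‖ ^ 2)
    (fun _ _ => sq_nonneg _)
  rw [div_mul_eq_mul_div, one_mul, div_le_one (by positivity)]
  calc _ ≤ _ := h1
    _ ≤ n * n := h.mass_v e
    _ = _ := by ring

/-- sup bound of the tall gauges -/
theorem OpD.sup' {v : Fin 3} {n : ℕ} {Ht Hf : ℝ} {T : Fin 3 → Finset ℤ} {g : Fin 3 → ℤ → ℤ → ℂ}
    {α : ℤ → ℝ} (h : OpD v n Ht Hf T g α) (hHf : 0 ≤ Hf) {e : Fin 3} (he : e ≠ v + 1) (z z' : ℤ) :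
    ‖g e z z'‖ ^ 2 ≤ Hf * Ht := by
  rcases f3b v e with rfl | rfl | rfl
  · exact (h.UH z z').trans (mul_le_mul_of_nonneg_left (h.αH z) hHf)
  · exact absurd rfl he
  · exact (h.VH z' z).trans (mul_le_mul_of_nonneg_left (h.αH z') hHf)

theorem OpD.sup {v : Fin 3} {n : ℕ} {Ht Hf : ℝ} {T : Fin 3 → Finset ℤ} {g : Fin 3 → ℤ → ℤ → ℂ}
    {α : ℤ → ℝ} (h : OpD v n Ht Hf T g α) (hHf : 0 ≤ Hf) (e : Fin 3) (z z' : ℤ) :
    ‖g e z z'‖ ≤ max 1 (Real.sqrt (Hf * Ht)) := by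
  by_cases he : e = v + 1
  · rw [he]
    exact (h.b1 z z').trans (le_max_left _ _)
  · exact (Real.le_sqrt_of_sq_le (h.sup' hHf he z z')).trans (le_max_right _ _)

/-! ### rotation of the atom -/

/-- three-fold sum starting at the vertex `v` -/
theorem atom_rot (j : Fin 4) (v : Fin 3) (κ : ℝ) (T : Fin 3 → Finset ℤ) (g : Fin 3 → ℤ → ℤ → ℂ)
    (y : ℤ) : atom j κ T (g 0) (g 1) (g 2) y =
      (κ : ℂ) * ∑ z ∈ T v, ∑ z' ∈ T (v + 1), ∑ z'' ∈ T (v + 2),
        if cf j v * z + cf j (v + 1) * z' + cf j (v + 2) * z'' = y then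
          g (v + 1) z' z'' * g v z z' * g (v + 2) z'' z else 0 := by
  unfold atom
  congr 1
  fin_cases v
  · show _ = ∑ z ∈ T 0, ∑ z' ∈ T 1, ∑ z'' ∈ T 2,
        if cf j 0 * z + cf j 1 * z' + cf j 2 * z'' = y then
          g 1 z' z'' * g 0 z z' * g 2 z'' z else 0
    refine Finset.sum_congr rfl fun z _ => Finset.sum_congr rfl fun z' _ =>
      Finset.sum_congr rfl fun z'' _ => ?_
    refine if_congr Iff.rfl ?_ rfl
    ring
  · show _ = ∑ z ∈ T 1, ∑ z' ∈ T 2, ∑ z'' ∈ T 0,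
        if cf j 1 * z + cf j 2 * z' + cf j 0 * z'' = y then
          g 2 z' z'' * g 1 z z' * g 0 z'' z else 0
    rw [Finset.sum_comm]
    refine Finset.sum_congr rfl fun z _ => ?_
    rw [Finset.sum_comm]
    refine Finset.sum_congr rfl fun z' _ => Finset.sum_congr rfl fun z'' _ => ?_
    refine if_congr ?_ ?_ rfl
    · constructor <;> intro h <;> linarith
    · ring
  · show _ = ∑ z ∈ T 2, ∑ z' ∈ T 0, ∑ z'' ∈ T 1,
        if cf j 2 * z + cf j 0 * z' + cf j 1 * z'' = y then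
          g 0 z' z'' * g 2 z z' * g 1 z'' z else 0
    have e1 : ∀ z0, ∑ z1 ∈ T 1, ∑ z2 ∈ T 2, (if cf j 0 * z0 + cf j 1 * z1 + cf j 2 * z2 = y then
        g 0 z0 z1 * g 1 z1 z2 * g 2 z2 z0 else 0) = ∑ z2 ∈ T 2, ∑ z1 ∈ T 1,
        (if cf j 0 * z0 + cf j 1 * z1 + cf j 2 * z2 = y then
        g 0 z0 z1 * g 1 z1 z2 * g 2 z2 z0 else 0) := fun z0 => Finset.sum_comm
    simp only [e1]
    rw [Finset.sum_comm]
    refine Finset.sum_congr rfl fun z _ => ?_
    refine Finset.sum_congr rfl fun z' _ => Finset.sum_congr rfl fun z'' _ => ?_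
    refine if_congr ?_ ?_ rfl
    · constructor <;> intro h <;> linarith
    · ring

/-- three values placed at `v`, `v + 1`, `v + 2` -/
def rot {X : Type*} (v : Fin 3) (A B C : X) (e : Fin 3) : X :=
  if e = v then A else if e = v + 1 then B else C

lemma rot0 {X : Type*} (v : Fin 3) (A B C : X) : rot v A B C v = A := by
  unfold rot; rw [if_pos rfl]

lemma rot1 {X : Type*} (v : Fin 3) (A B C : X) : rot v A B C (v + 1) = B := by
  unfold rot
  rw [if_neg (by revert v; decide), if_pos rfl]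

lemma rot2 {X : Type*} (v : Fin 3) (A B C : X) : rot v A B C (v + 2) = C := by
  unfold rot
  rw [if_neg (by revert v; decide), if_neg (by revert v; decide)]

/-- marginal sums of the extension -/
lemma sum_ext_sq {n : ℕ} (w q : ℤ) (U : Fin n → Fin n → ℂ) {a : Fin n → ℝ} (α : ℤ → ℝ)
    (hα : ∀ c : Fin n, α (w + ((c : ℕ) : ℤ)) = a c) (hα0 : ∀ z, 0 ≤ α z)
    (h : ∀ c, ∑ i, ‖U c i‖ ^ 2 ≤ n * a c) (z : ℤ) :
    ∑ z' ∈ Finset.Ico q (q + (n : ℤ)), ‖DicOp679.ext w q U z z'‖ ^ 2 ≤ n * α z := by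
  by_cases hz : 0 ≤ z - w ∧ z - w < n
  · set c : Fin n := ⟨(z - w).toNat, by omega⟩ with hc
    have hzc : z = w + ((c : ℕ) : ℤ) := by
      rw [hc]
      show z = w + (((z - w).toNat : ℕ) : ℤ)
      rw [Int.toNat_of_nonneg hz.1]
      ring
    have e1 : ∑ z' ∈ Finset.Ico q (q + (n : ℤ)), ‖DicOp679.ext w q U z z'‖ ^ 2 = ∑ i, ‖U c i‖ ^ 2 := by
      have h2 : ∑ z' ∈ Finset.Ico q (q + (n : ℤ)), ((‖DicOp679.ext w q U z z'‖ ^ 2 : ℝ) : ℂ) =
          ∑ i : Fin n, ((‖U c i‖ ^ 2 : ℝ) : ℂ) := by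
        rw [sum_Ico_fin]
        refine Finset.sum_congr rfl fun i _ => ?_
        rw [hzc, ext_val]
      have h3 : ((∑ z' ∈ Finset.Ico q (q + (n : ℤ)), ‖DicOp679.ext w q U z z'‖ ^ 2 : ℝ) : ℂ) =
          ((∑ i : Fin n, ‖U c i‖ ^ 2 : ℝ) : ℂ) := by
        rw [Complex.ofReal_sum, Complex.ofReal_sum]
        exact h2
      exact_mod_cast h3
    rw [e1, hzc, hα c]
    exact h c
  · have e1 : ∑ z' ∈ Finset.Ico q (q + (n : ℤ)), ‖DicOp679.ext w q U z z'‖ ^ 2 = 0 := by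
      refine Finset.sum_eq_zero fun z' _ => ?_
      unfold DicOp679.ext
      rw [dif_neg fun hh => hz hh.1]
      simp
    rw [e1]
    exact mul_nonneg (Nat.cast_nonneg _) (hα0 z)

/-- pointwise bound of the extension -/
lemma ext_sq_le {n : ℕ} (w q : ℤ) (U : Fin n → Fin n → ℂ) {a : Fin n → ℝ} (α : ℤ → ℝ)
    (hα : ∀ c : Fin n, α (w + ((c : ℕ) : ℤ)) = a c) (hα0 : ∀ z, 0 ≤ α z) {Hf : ℝ} (hHf : 0 ≤ Hf)
    (h : ∀ c i, ‖U c i‖ ^ 2 ≤ Hf * a c) (z z' : ℤ) : ‖DicOp679.ext w q U z z'‖ ^ 2 ≤ Hf * α z := by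
  unfold DicOp679.ext
  split_ifs with hz
  · have hzc : z = w + ((((z - w).toNat : ℕ)) : ℤ) := by
      rw [Int.toNat_of_nonneg hz.1.1]
      ring
    have h1 := h ⟨(z - w).toNat, by omega⟩ ⟨(z' - q).toNat, by omega⟩
    rw [← hα] at h1
    refine h1.trans (le_of_eq ?_)
    congr 2
    exact hzc.symm
  · have : 0 ≤ Hf * α z := mul_nonneg hHf (hα0 z)
    simpa using this

/-- weight function of the special vertex -/
noncomputable def wt {n : ℕ} (w : ℤ) (a : Fin n → ℝ) (z : ℤ) : ℝ :=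
  if h : 0 ≤ z - w ∧ z - w < n then a ⟨(z - w).toNat, by omega⟩ else 0

lemma wt_val {n : ℕ} (w : ℤ) (a : Fin n → ℝ) (c : Fin n) : wt w a (w + ((c : ℕ) : ℤ)) = a c := by
  unfold wt
  have hc := c.2
  rw [dif_pos (by constructor <;> omega)]
  congr 1
  apply Fin.ext
  show (w + ((c : ℕ) : ℤ) - w).toNat = (c : ℕ)
  omega

lemma wt_nonneg {n : ℕ} (w : ℤ) {a : Fin n → ℝ} (ha : ∀ c, 0 ≤ a c) (z : ℤ) : 0 ≤ wt w a z := by
  unfold wt
  split_ifs
  · exact ha _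
  · exact le_rfl

lemma wt_le {n : ℕ} (w : ℤ) {a : Fin n → ℝ} {H : ℝ} (hH : 0 ≤ H) (ha : ∀ c, a c ≤ H) (z : ℤ) :
    wt w a z ≤ H := by
  unfold wt
  split_ifs
  · exact ha _
  · exact hH

lemma sum_wt {n : ℕ} (w : ℤ) (a : Fin n → ℝ) :
    ∑ z ∈ Finset.Ico w (w + (n : ℤ)), wt w a z = ∑ c, a c := by
  have h3 : ((∑ z ∈ Finset.Ico w (w + (n : ℤ)), wt w a z : ℝ) : ℂ) = ((∑ c, a c : ℝ) : ℂ) := by
    rw [Complex.ofReal_sum, Complex.ofReal_sum, sum_Ico_fin]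
    exact Finset.sum_congr rfl fun i _ => by rw [wt_val]
  exact_mod_cast h3

/-- **data of a unit op-atom** -/
theorem exists_opD {i m e e' : Fin 4} (hd : Dst4 i m e e') {n : ℕ} (hn : 0 < n) {Ht Hf : ℝ}
    (hHf : 0 ≤ Hf) {ψ : ℤ → ℂ} (hψ : IsOpS i m e e' n Ht Hf ψ) :
    ∃ (v : Fin 3) (T : Fin 3 → Finset ℤ) (g : Fin 3 → ℤ → ℤ → ℂ) (α : ℤ → ℝ),
      i.succAbove v = m ∧ OpD v n Ht Hf T g α ∧ ψ = atom i 1 T (g 0) (g 1) (g 2) := by
  obtain ⟨w, q, u, M, U, V, a, hD, rfl⟩ := hψ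
  obtain ⟨v, rfl⟩ := Fin.exists_succAbove_eq hd.jk
  obtain ⟨x, rfl⟩ := Fin.exists_succAbove_eq (Ne.symm hd.ke)
  obtain ⟨y, rfl⟩ := Fin.exists_succAbove_eq (Ne.symm hd.ke')
  have h01 : v ≠ x := fun hh => hd.je (by rw [hh])
  have h02 : v ≠ y := fun hh => hd.je' (by rw [hh])
  have h12 : x ≠ y := fun hh => hd.ee' (by rw [hh])
  have hcard : ∀ w : ℤ, (Finset.Ico w (w + (n : ℤ))).card = n := by
    intro w; simp
  have hα0 : ∀ z, 0 ≤ wt w a z := wt_nonneg w hD.α0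
  have hHt : 0 ≤ Ht := (hD.α0 ⟨0, hn⟩).trans (hD.αH ⟨0, hn⟩)
  have hval : ∀ c : Fin n, wt w a (w + ((c : ℕ) : ℤ)) = a c := wt_val w a
  have hxy : (x = v + 1 ∧ y = v + 2) ∨ (x = v + 2 ∧ y = v + 1) := by
    exact f3c v x y h01 h02 h12
  rcases hxy with ⟨rfl, rfl⟩ | ⟨rfl, rfl⟩
  · -- order `v, e, e'`
    refine ⟨v, rot v (Finset.Ico w (w + (n : ℤ))) (Finset.Ico q (q + (n : ℤ)))
      (Finset.Ico u (u + (n : ℤ))), rot v (fun z z' => DicOp679.ext w q U z z') (fun z z' => M z z')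
      (fun z z' => DicOp679.ext w u V z' z), wt w a, rfl, ?_, ?_⟩
    · refine ⟨?_, ?_, hα0, ?_, wt_le w hHt hD.αH, ?_, ?_, ?_, ?_⟩
      · intro e
        unfold rot
        split_ifs <;> exact (hcard _).le
      · intro z z'
        rw [rot1]
        exact hD.m1 z z'
      · rw [rot0, sum_wt]
        exact hD.α1
      · intro z
        rw [rot0, rot1]
        exact sum_ext_sq w q U (wt w a) hval hα0 hD.U2 z
      · intro z
        rw [rot2, rot2]
        exact sum_ext_sq w u V (wt w a) hval hα0 hD.V2 z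
      · intro z z'
        rw [rot0]
        exact ext_sq_le w q U (wt w a) hval hα0 hHf hD.UH z z'
      · intro z z'
        rw [rot2]
        exact ext_sq_le w u V (wt w a) hval hα0 hHf hD.VH z z'
    · funext y
      rw [atom_rot i v, opA_eq_opT]
      unfold DicOp679.opT
      rw [rot0, rot1, rot2, rot0, rot1, rot2, Complex.ofReal_one, one_mul, sum_Ico_fin]
      refine Finset.sum_congr rfl fun c _ => ?_
      rw [sum_Ico_fin]
      refine Finset.sum_congr rfl fun i1 _ => ?_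
      rw [sum_Ico_fin]
      refine Finset.sum_congr rfl fun i' _ => ?_
      rw [ext_val, ext_val]
      rfl
  · -- order `v, e', e`
    refine ⟨v, rot v (Finset.Ico w (w + (n : ℤ))) (Finset.Ico u (u + (n : ℤ)))
      (Finset.Ico q (q + (n : ℤ))), rot v (fun z z' => DicOp679.ext w u V z z') (fun z z' => M z' z)
      (fun z z' => DicOp679.ext w q U z' z), wt w a, rfl, ?_, ?_⟩
    · refine ⟨?_, ?_, hα0, ?_, wt_le w hHt hD.αH, ?_, ?_, ?_, ?_⟩
      · intro e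
        unfold rot
        split_ifs <;> exact (hcard _).le
      · intro z z'
        rw [rot1]
        exact hD.m1 z' z
      · rw [rot0, sum_wt]
        exact hD.α1
      · intro z
        rw [rot0, rot1]
        exact sum_ext_sq w u V (wt w a) hval hα0 hD.V2 z
      · intro z
        rw [rot2, rot2]
        exact sum_ext_sq w q U (wt w a) hval hα0 hD.U2 z
      · intro z z'
        rw [rot0]
        exact ext_sq_le w u V (wt w a) hval hα0 hHf hD.VH z z'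
      · intro z z'
        rw [rot2]
        exact ext_sq_le w q U (wt w a) hval hα0 hHf hD.UH z z'
    · funext y
      rw [atom_rot i v, opA_eq_opT]
      unfold DicOp679.opT
      rw [rot0, rot1, rot2, rot0, rot1, rot2, Complex.ofReal_one, one_mul, sum_Ico_fin]
      refine Finset.sum_congr rfl fun c _ => ?_
      refine Finset.sum_comm.trans ?_
      rw [sum_Ico_fin]
      refine Finset.sum_congr rfl fun i' _ => ?_
      rw [sum_Ico_fin]
      refine Finset.sum_congr rfl fun i1 _ => ?_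
      rw [ext_val, ext_val]
      refine if_congr ?_ ?_ rfl
      · unfold DicOp679.lfm Crest.Agent.R079.Glue.cf
        constructor <;> intro h <;> linarith
      · ring

end Crest.Agent.R079.GaFx371
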