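import Crest.Agent.R079.TwE_253
import Crest.Agent.R079.GaF_371

/-! R079, Step I, (G) words (helper253): THE KILLER WORD OF ONE WINDOW for the atoms `OpD` of 371.

The killer is ANY kernel `K e` supported in the band of the window, with an operator bound `τ 2^m` and a
Hilbert-Schmidt bound `E0 4^m` on all boxes of the window (glued projections `B_0`, tall part `Z - τ_h Z`);
the two partners have heights and energies `n² len J a²`, `n² len J b²`.  Price `log (1 + …)`, scale free.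

* `b0_gen`  : general partners;
* `en_lk`   : energy of a line kernel;
* `b0_line` : line letter on the killer edge `v + 1` and line letter on the other tall edge. -/

set_option autoImplicit false

namespace Crest.Agent.R079.B0Kx253

open Finset Crest.Agent.R079.Grid Crest.Agent.R079.Glue Crest.Agent.R079.Growth
  Crest.Agent.R079.QRed Crest.Agent.R079.KLx446
  Crest.Agent.R079.GaAx571 Crest.Agent.R079.GaBx571 Crest.Agent.R079.GaWx571
  Crest.Agent.R079.TaKx253 Crest.Agent.R079.TwEx253 Crest.Agent.R079.GaFx371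

/-- all three kernels are supported in the bands of the top `J` -/
def Sup (j : Fin 4) (T : Fin 3 → Finset ℤ) (J : Nd) (K : Fin 3 → Kl) : Prop :=
  ∀ e w x y, K e w x y ≠ 0 → x ∈ T e ∧ y ∈ T (e + 1) ∧ Ye j e w x y ∈ iv J

lemma sl_bd (i k : Fin 4) : |sl i - sl k| ≤ 3 := by
  fin_cases i <;> fin_cases k <;> simp [sl]

/-- the frozen values of a band lie in an interval of length `O(n)` -/
lemma w_range {j : Fin 4} {e : Fin 3} {J : Nd} {n : ℕ} (hJ : 2 ^ J.1 ≤ n) {t t' : ℤ}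
    {w x y : ℤ} (hx : x ∈ Ico t (t + n)) (hy : y ∈ Ico t' (t' + n)) (h : Ye j e w x y ∈ iv J) :
    ∃ w0 : ℤ, w0 = (J.2 * 2 ^ (J.1 + 7) - (sl (j.succAbove e) - sl (j.succAbove (e + 2))) * t -
      (sl (j.succAbove (e + 1)) - sl (j.succAbove (e + 2))) * t') /
        (sl j - sl (j.succAbove (e + 2))) ∧ |w - w0| ≤ 140 * n := by
  refine ⟨_, rfl, ?_⟩
  set c := sl j - sl (j.succAbove (e + 2)) with hc
  set a := sl (j.succAbove e) - sl (j.succAbove (e + 2)) with ha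
  set b := sl (j.succAbove (e + 1)) - sl (j.succAbove (e + 2)) with hb
  have hc0 : c ≠ 0 := co_ne j e
  have ha3 : |a| ≤ 3 := sl_bd _ _
  have hb3 : |b| ≤ 3 := sl_bd _ _
  have hc3 : |c| ≤ 3 := sl_bd _ _
  set z := J.2 * 2 ^ (J.1 + 7) - a * t - b * t' with hz
  have hn0 : (0 : ℤ) ≤ n := Int.natCast_nonneg n
  have hJ' : (2 : ℤ) ^ J.1 ≤ n := by exact_mod_cast hJ
  have hJ7 : (2 : ℤ) ^ (J.1 + 7) ≤ 128 * n := by
    rw [pow_add]; norm_num; linarith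
  have hn1 : (1 : ℤ) ≤ n := le_trans (one_le_pow₀ (by norm_num)) hJ'
  rw [Finset.mem_Ico] at hx hy
  unfold iv dI at h
  rw [Finset.mem_Ico] at h
  have hY : Ye j e w x y = c * w + a * x + b * y := rfl
  have h1 : |c * w - z| ≤ 128 * n + 6 * n := by
    have e1 : c * w - z = (Ye j e w x y - J.2 * 2 ^ (J.1 + 7)) - a * (x - t) - b * (y - t') := by
      rw [hY, hz]; ring
    have h2 : |Ye j e w x y - J.2 * 2 ^ (J.1 + 7)| ≤ 128 * n := by
      rw [abs_le]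
      constructor
      · linarith [h.1]
      · have := h.2
        have e2 : (J.2 + 1) * 2 ^ (J.1 + 7) = J.2 * 2 ^ (J.1 + 7) + 2 ^ (J.1 + 7) := by ring
        linarith
    have h3 : |a * (x - t)| ≤ 3 * n := by
      rw [abs_mul]
      exact mul_le_mul ha3 (abs_le.2 ⟨by linarith, by linarith⟩) (abs_nonneg _) (by norm_num)
    have h4 : |b * (y - t')| ≤ 3 * n := by
      rw [abs_mul]
      exact mul_le_mul hb3 (abs_le.2 ⟨by linarith, by linarith⟩) (abs_nonneg _) (by norm_num)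
    rw [e1]
    have h5 := abs_sub (Ye j e w x y - J.2 * 2 ^ (J.1 + 7) - a * (x - t)) (b * (y - t'))
    have h6 := abs_sub (Ye j e w x y - J.2 * 2 ^ (J.1 + 7)) (a * (x - t))
    linarith
  have h7 : |c * (w - z / c)| ≤ 128 * n + 6 * n + 3 := by
    have h8 := Int.emod_add_mul_ediv z c
    have h9 : 0 ≤ z % c := Int.emod_nonneg z hc0
    have h10 : z % c < |c| := Int.emod_lt_abs z hc0
    have e3 : c * (w - z / c) = (c * w - z) + z % c := by linarith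
    rw [e3]
    refine (abs_add_le _ _).trans ?_
    have : |z % c| ≤ 3 := by
      rw [abs_of_nonneg h9]; linarith
    linarith
  rw [abs_mul] at h7
  have h11 : 1 ≤ |c| := Int.one_le_abs hc0
  nlinarith [abs_nonneg (w - z / c)]

/-- elementary: the price -/
lemma log_price {C x : ℝ} (hC : 1 ≤ C) (hx : 0 ≤ x) :
    1 + Real.log (1 + C * x) ≤ C * (1 + Real.log (1 + x)) := by
  have h1 : 1 + C * x ≤ C * (1 + x) := by linarith
  have h2 := Real.log_le_log (by positivity) h1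
  rw [Real.log_mul (by positivity) (by positivity)] at h2
  have h3 := Real.log_le_sub_one_of_pos (show (0 : ℝ) < C by linarith)
  have h4 : 0 ≤ Real.log (1 + x) := Real.log_nonneg (by linarith)
  nlinarith

lemma aux_z {E n l H dl τ : ℝ} (hn : 0 < n) (hl : 0 < l) (hdl : 0 < dl) (hτ : 0 < τ) :
    E * (5 * n * l) * (H / (n ^ 2 * l * dl / (281 * n))) / τ ^ 2 = 1405 * (E * H / (dl * τ ^ 2)) := by
  field_simp
  ring

lemma aux_f {n l dl : ℝ} (hn : 0 < n) :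
    281 * n * (n ^ 2 * l * dl / (281 * n)) = n ^ 2 * l * dl := by
  field_simp

lemma aux_sq {A a f dl : ℝ} (hA : 0 ≤ A) (ha : 0 ≤ a) (hdl : 0 ≤ dl) (hf : f ≤ A * dl) :
    √(A * a ^ 2 + f) ≤ √A * (a + √dl) := by
  have h1 : A * a ^ 2 + f ≤ A * (a + √dl) ^ 2 := by
    have h2 : (√dl) ^ 2 = dl := Real.sq_sqrt hdl
    have h3 : 0 ≤ √dl := Real.sqrt_nonneg _
    have h4 : A * (a + √dl) ^ 2 = A * a ^ 2 + A * dl + 2 * (A * (a * √dl)) := by
      have : (a + √dl) ^ 2 = a ^ 2 + (√dl) ^ 2 + 2 * (a * √dl) := by ring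
      rw [this, h2]; ring
    have h5 : 0 ≤ A * (a * √dl) := by positivity
    linarith
  refine (Real.sqrt_le_sqrt h1).trans (le_of_eq ?_)
  rw [Real.sqrt_mul hA, Real.sqrt_sq (by positivity)]

lemma fin_num {K0 E0 Cd l n HA HB dl τ a b wc f0 : ℝ} (hK0 : 0 ≤ K0) (hE0 : 0 ≤ E0) (hn : 0 < n)
    (hl : 0 < l) (hdl : 0 < dl) (hτ : 0 < τ) (ha : 0 ≤ a) (hb : 0 ≤ b) (hCd0 : 0 ≤ Cd)
    (hCd : Cd ≤ 5 * n) (hw : wc ≤ 281 * n)
    (hf0 : f0 = n ^ 2 * l * dl / (281 * n)) :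
    K0 * (1 + Real.log (1 + E0 * (Cd * l) * (HA ^ 2 / f0 + HB ^ 2 / f0) / τ ^ 2)) *
      (τ * √(n ^ 2 * l * a ^ 2 + wc * f0) * √(n ^ 2 * l * b ^ 2 + wc * f0)) ≤
    2000 * K0 * (1 + Real.log (1 + E0 * (HA ^ 2 + HB ^ 2) / (dl * τ ^ 2))) *
      (τ * (n ^ 2 * l * ((a + √dl) * (b + √dl)))) := by
  have hf0p : 0 < f0 := by rw [hf0]; positivity
  have hfl : wc * f0 ≤ n ^ 2 * l * dl := by
    calc wc * f0 ≤ 281 * n * f0 := mul_le_mul_of_nonneg_right hw hf0p.le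
      _ = n ^ 2 * l * dl := by rw [hf0]; exact aux_f hn
  obtain ⟨X, hX⟩ : ∃ X, X = E0 * (HA ^ 2 + HB ^ 2) / (dl * τ ^ 2) := ⟨_, rfl⟩
  have hX0 : 0 ≤ X := by rw [hX]; positivity
  have hz : E0 * (Cd * l) * (HA ^ 2 / f0 + HB ^ 2 / f0) / τ ^ 2 ≤ 1405 * X := by
    have e1 : HA ^ 2 / f0 + HB ^ 2 / f0 = (HA ^ 2 + HB ^ 2) / f0 := by rw [add_div]
    have e2 : 1405 * X = E0 * (5 * n * l) * ((HA ^ 2 + HB ^ 2) / f0) / τ ^ 2 := by
      rw [hX, hf0]
      exact (aux_z hn hl hdl hτ).symm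
    rw [e1, e2]
    refine div_le_div_of_nonneg_right ?_ (by positivity)
    refine mul_le_mul_of_nonneg_right ?_ (by positivity)
    refine mul_le_mul_of_nonneg_left ?_ hE0
    exact mul_le_mul_of_nonneg_right hCd hl.le
  have hz0 : 0 ≤ E0 * (Cd * l) * (HA ^ 2 / f0 + HB ^ 2 / f0) / τ ^ 2 := by positivity
  obtain ⟨Z, hZ⟩ : ∃ Z, Z = E0 * (Cd * l) * (HA ^ 2 / f0 + HB ^ 2 / f0) / τ ^ 2 := ⟨_, rfl⟩
  rw [← hZ] at hz hz0 ⊢
  rw [← hX]
  have hlog : 1 + Real.log (1 + Z) ≤ 1405 * (1 + Real.log (1 + X)) := by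
    refine le_trans ?_ (log_price (by norm_num : (1 : ℝ) ≤ 1405) hX0)
    have := Real.log_le_log (by linarith) (by linarith : 1 + Z ≤ 1 + 1405 * X)
    linarith
  have hlX : 0 ≤ Real.log (1 + X) := Real.log_nonneg (by linarith)
  obtain ⟨A, hA⟩ : ∃ A, A = n ^ 2 * l := ⟨_, rfl⟩
  have hA0 : 0 ≤ A := by rw [hA]; positivity
  rw [← hA] at hfl ⊢
  have s1 : √(A * a ^ 2 + wc * f0) ≤ √A * (a + √dl) := aux_sq hA0 ha hdl.le hfl
  have s2 : √(A * b ^ 2 + wc * f0) ≤ √A * (b + √dl) := aux_sq hA0 hb hdl.le hfl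
  have hs0 : √A * √A = A := Real.mul_self_sqrt hA0
  obtain ⟨u, hu⟩ : ∃ u, u = a + √dl := ⟨_, rfl⟩
  obtain ⟨v, hv⟩ : ∃ v, v = b + √dl := ⟨_, rfl⟩
  have hu0 : 0 ≤ u := by rw [hu]; positivity
  have hv0 : 0 ≤ v := by rw [hv]; positivity
  rw [← hu] at s1 ⊢
  rw [← hv] at s2 ⊢
  have h1 : τ * √(A * a ^ 2 + wc * f0) * √(A * b ^ 2 + wc * f0) ≤ τ * (A * (u * v)) := by
    calc τ * √(A * a ^ 2 + wc * f0) * √(A * b ^ 2 + wc * f0) ≤ τ * (√A * u) * (√A * v) :=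
          mul_le_mul (mul_le_mul_of_nonneg_left s1 hτ.le) s2 (Real.sqrt_nonneg _) (by positivity)
      _ = τ * ((√A * √A) * (u * v)) := by ring
      _ = _ := by rw [hs0]
  have h2 : K0 * (1 + Real.log (1 + Z)) ≤ 1405 * (K0 * (1 + Real.log (1 + X))) := by
    have := mul_le_mul_of_nonneg_left hlog hK0
    linarith
  have h3 : 0 ≤ K0 * (1 + Real.log (1 + X)) := by positivity
  have h4 : 0 ≤ τ * (A * (u * v)) := by positivity
  calc _ ≤ 1405 * (K0 * (1 + Real.log (1 + X))) * (τ * (A * (u * v))) :=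
        mul_le_mul h2 h1 (by positivity) (by positivity)
    _ ≤ 2000 * (K0 * (1 + Real.log (1 + X))) * (τ * (A * (u * v))) :=
        mul_le_mul_of_nonneg_right (mul_le_mul_of_nonneg_right (by norm_num) h3) h4
    _ = _ := by ring

/-- **THE KILLER WORD OF ONE WINDOW, general partners** -/
theorem b0_gen : ∃ K0 : ℝ, 0 ≤ K0 ∧ ∀ (bb : ℤ), bb = -1 ∨ bb = -7 → ∀ (j : Fin 4) (e : Fin 3),
    ∀ (R : Finset Nd) (J : Nd), IsRegion R J → ∀ (n : ℕ), 2 ^ J.1 ≤ n →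
    ∀ (T : Fin 3 → Finset ℤ), (∀ e', ∃ t : ℤ, T e' ⊆ Ico t (t + n)) →
    ∀ (K : Fin 3 → Kl), Sup j T J K →
    ∀ (τ HA HB E0 dl a b : ℝ), 0 < τ → 0 ≤ E0 → 0 < dl → 0 ≤ a → 0 ≤ b →
    (∀ w x y, ‖K (e + 1) w x y‖ ≤ HA) → (∀ w x y, ‖K (e + 2) w x y‖ ≤ HB) →
    (∀ W1 X Y : Finset ℤ, ∑ w ∈ W1, ∑ x ∈ X, ∑ y ∈ Y, ‖K (e + 1) w x y‖ ^ 2 ≤
      n ^ 2 * len J * a ^ 2) →
    (∀ W1 X Y : Finset ℤ, ∑ w ∈ W1, ∑ x ∈ X, ∑ y ∈ Y, ‖K (e + 2) w x y‖ ^ 2 ≤
      n ^ 2 * len J * b ^ 2) →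
    (∀ (w : ℤ) (m : ℕ) (q p : ℤ), Om R (sl j - sl (j.succAbove (e + 2)))
      (sl (j.succAbove e) - sl (j.succAbove (e + 2)))
      (sl (j.succAbove (e + 1)) - sl (j.succAbove (e + 2))) w m q p →
      ∑ x ∈ Ico q (q + (2 : ℤ) ^ m), ∑ y ∈ Ico p (p + (2 : ℤ) ^ m), ‖K e w x y‖ ^ 2 ≤
        4 ^ m * E0) →
    (∀ (w : ℤ) (m : ℕ) (q p : ℤ), Om R (sl j - sl (j.succAbove (e + 2)))
      (sl (j.succAbove e) - sl (j.succAbove (e + 2)))
      (sl (j.succAbove (e + 1)) - sl (j.succAbove (e + 2))) w m q p →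
      BadTx138.OpB (K e w) (Ico q (q + (2 ^ m : ℕ))) (Ico p (p + (2 ^ m : ℕ))) (2 ^ m * τ)) →
    ∀ (L1 : ℕ), TA bb (cube L1) (J.1 + 1) (fun n p _ => AdX R n (xv j bb n p)) K ≤
      K0 * (1 + Real.log (1 + E0 * (HA ^ 2 + HB ^ 2) / (dl * τ ^ 2))) *
        (τ * (n ^ 2 * len J * ((a + √dl) * (b + √dl)))) := by
  classical
  obtain ⟨K0, hK0, hK⟩ := ta_unifE
  refine ⟨2000 * K0, by positivity, ?_⟩
  intro bb hbb j e R J hR n hJn T hTI K hS τ HA HB E0 dl a b hτ hE0 hdl ha hb hA hB eA eB hHS hop L1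
  have hn1 : 1 ≤ n := le_trans Nat.one_le_two_pow hJn
  have hn : (0 : ℝ) < n := by exact_mod_cast hn1
  have hl : 0 < len J := Growth.len_pos J
  choose t ht using hTI
  -- the frozen values
  set w0 : ℤ := (J.2 * 2 ^ (J.1 + 7) - (sl (j.succAbove (e + 1)) - sl (j.succAbove (e + 1 + 2))) *
      t (e + 1) - (sl (j.succAbove (e + 1 + 1)) - sl (j.succAbove (e + 1 + 2))) * t (e + 1 + 1)) /
        (sl j - sl (j.succAbove (e + 1 + 2))) with hw0
  set W1 : Finset ℤ := Icc (w0 - 140 * n) (w0 + 140 * n) with hW1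
  have hcard : (W1.card : ℝ) ≤ 281 * n := by
    rw [hW1, Int.card_Icc]
    have e1 : w0 + 140 * (n : ℤ) + 1 - (w0 - 140 * n) = ((280 * n + 1 : ℕ) : ℤ) := by
      push_cast; ring
    rw [e1, Int.toNat_natCast]
    push_cast
    have : (1 : ℝ) ≤ n := by exact_mod_cast hn1
    linarith
  have hW1' : ∀ w, w ∉ W1 → ∀ x y, K (e + 1) w x y = 0 := by
    intro w hw x y
    by_contra hne
    obtain ⟨h1, h2, h3⟩ := hS (e + 1) w x y hne
    obtain ⟨w0', hw0', h4⟩ := w_range hJn (ht _ h1) (ht _ h2) h3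
    rw [← hw0] at hw0'
    subst hw0'
    refine hw ?_
    rw [hW1, Finset.mem_Icc]
    rw [abs_le] at h4
    constructor <;> linarith
  -- floors
  obtain ⟨f0, hf0⟩ : ∃ f0 : ℝ, f0 = (n : ℝ) ^ 2 * len J * dl / (281 * n) := ⟨_, rfl⟩
  have hf0p : 0 < f0 := by rw [hf0]; positivity
  have main := hK bb hbb j e R J (t e) (t e + n) (t (e + 1)) (t (e + 1) + n) hR K τ HA HB E0 f0 f0
    (n ^ 2 * len J * a ^ 2) (n ^ 2 * len J * b ^ 2) W1
    (fun e' w => ⟨T e', T (e' + 1), fun x y h => ⟨(hS e' w x y h).1, (hS e' w x y h).2.1⟩⟩)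
    (fun w x y h => ⟨Finset.mem_Ico.1 (ht _ (hS e w x y h).1),
      Finset.mem_Ico.1 (ht _ (hS e w x y h).2.1)⟩)
    hτ hf0p hf0p hA hB hE0 hHS (fun w hw => Or.inl (hW1' w hw)) (fun X Y => eA W1 X Y)
    (fun X Y => eB W1 X Y) hop L1
  refine main.trans ?_
  have hcI : ((Ico (t e - 2 ^ (J.1 + 1)) (t e + n + 2 ^ (J.1 + 1))).card : ℝ) ≤ 5 * n := by
    rw [Int.card_Ico]
    have e1 : t e + (n : ℤ) + 2 ^ (J.1 + 1) - (t e - 2 ^ (J.1 + 1)) =
        ((n + 4 * 2 ^ J.1 : ℕ) : ℤ) := by push_cast; ring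
    rw [e1, Int.toNat_natCast]
    have : (2 : ℝ) ^ J.1 ≤ n := by exact_mod_cast hJn
    push_cast
    linarith
  exact fin_num hK0 hE0 hn hl hdl hτ ha hb (Nat.cast_nonneg _) hcI hcard hf0

/-! ### line partners -/

/-- cut of a function to the interval of a node -/
noncomputable def cutJ (J : Nd) (F : Fn) : Fn := fun y => if y ∈ iv J then F y else 0

/-- **energy of a line kernel** -/
theorem en_lk {v : Fin 3} {n : ℕ} {Ht Hf : ℝ} {T : Fin 3 → Finset ℤ} {g : Fin 3 → ℤ → ℤ → ℂ}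
    {α : ℤ → ℝ} (h : OpD v n Ht Hf T g α) (j : Fin 4) (e : Fin 3) (J : Nd) (F : Fn)
    (W1 X Y : Finset ℤ) :
    ∑ w ∈ W1, ∑ x ∈ X, ∑ y ∈ Y, ‖lk j T g e (cutJ J F) w x y‖ ^ 2 ≤
      n ^ 2 * len J * av J F ^ 2 := by
  classical
  have hen : ∑ η ∈ iv J, ‖F η‖ ^ 2 = len J * av J F ^ 2 := Growth.sum_av J F
  -- one position of the face
  have h1 : ∀ x y, ∑ w ∈ W1, ‖lk j T g e (cutJ J F) w x y‖ ^ 2 ≤
      (if x ∈ T e ∧ y ∈ T (e + 1) then ‖g e x y‖ ^ 2 else 0) * (len J * av J F ^ 2) := by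
    intro x y
    by_cases hxy : x ∈ T e ∧ y ∈ T (e + 1)
    · have e1 : ∀ w, ‖lk j T g e (cutJ J F) w x y‖ ^ 2 =
          ‖g e x y‖ ^ 2 * (if Ye j e w x y ∈ iv J then ‖F (Ye j e w x y)‖ ^ 2 else 0) := by
        intro w
        rw [lk_Ye, if_pos hxy]
        unfold cutJ
        split_ifs with h3
        · rw [norm_mul, mul_pow]
        · simp
      rw [Finset.sum_congr rfl fun w _ => e1 w, ← Finset.mul_sum, if_pos hxy]
      refine mul_le_mul_of_nonneg_left ?_ (sq_nonneg _)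
      rw [← hen, ← Finset.sum_filter]
      have hinj : Set.InjOn (fun w => Ye j e w x y)
          ((W1.filter fun w => Ye j e w x y ∈ iv J : Finset ℤ) : Set ℤ) :=
        fun w _ w' _ hww => Ye_inj hww
      rw [← Finset.sum_image (f := fun η => ‖F η‖ ^ 2) hinj]
      refine Finset.sum_le_sum_of_subset_of_nonneg ?_ fun _ _ _ => sq_nonneg _
      intro η hη
      obtain ⟨w, hw, rfl⟩ := Finset.mem_image.1 hη
      exact (Finset.mem_filter.1 hw).2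
    · have e1 : ∀ w, ‖lk j T g e (cutJ J F) w x y‖ ^ 2 = 0 := by
        intro w
        rw [lk_Ye, if_neg hxy]
        simp
      rw [Finset.sum_congr rfl fun w _ => e1 w, if_neg hxy]
      simp
  have hE0 : 0 ≤ len J * av J F ^ 2 := mul_nonneg (Growth.len_pos J).le (sq_nonneg _)
  calc ∑ w ∈ W1, ∑ x ∈ X, ∑ y ∈ Y, ‖lk j T g e (cutJ J F) w x y‖ ^ 2
      = ∑ x ∈ X, ∑ y ∈ Y, ∑ w ∈ W1, ‖lk j T g e (cutJ J F) w x y‖ ^ 2 := by
        rw [Finset.sum_comm]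
        refine Finset.sum_congr rfl fun x _ => ?_
        rw [Finset.sum_comm]
    _ ≤ ∑ x ∈ X, ∑ y ∈ Y, (if x ∈ T e ∧ y ∈ T (e + 1) then ‖g e x y‖ ^ 2 else 0) *
          (len J * av J F ^ 2) :=
        Finset.sum_le_sum fun x _ => Finset.sum_le_sum fun y _ => h1 x y
    _ = (∑ x ∈ X, ∑ y ∈ Y, (if x ∈ T e ∧ y ∈ T (e + 1) then ‖g e x y‖ ^ 2 else 0)) *
          (len J * av J F ^ 2) := by
        rw [Finset.sum_mul]
        exact Finset.sum_congr rfl fun x _ => by rw [Finset.sum_mul]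
    _ ≤ (∑ x ∈ T e, ∑ y ∈ T (e + 1), ‖g e x y‖ ^ 2) * (len J * av J F ^ 2) := by
        refine mul_le_mul_of_nonneg_right ?_ hE0
        rw [← Finset.sum_product', ← Finset.sum_product', ← Finset.sum_filter]
        refine Finset.sum_le_sum_of_subset_of_nonneg ?_ fun _ _ _ => sq_nonneg _
        intro z hz
        exact Finset.mem_product.2 (Finset.mem_filter.1 hz).2
    _ ≤ (n * n) * (len J * av J F ^ 2) := mul_le_mul_of_nonneg_right (h.mass_v e) hE0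
    _ = _ := by ring

/-- support of a cut line kernel -/
lemma sup_lk {j : Fin 4} {T : Fin 3 → Finset ℤ} {g : Fin 3 → ℤ → ℤ → ℂ} {e : Fin 3} {J : Nd}
    {F : Fn} {w x y : ℤ} (h : lk j T g e (cutJ J F) w x y ≠ 0) :
    x ∈ T e ∧ y ∈ T (e + 1) ∧ Ye j e w x y ∈ iv J := by
  rw [lk_Ye] at h
  by_cases h1 : x ∈ T e ∧ y ∈ T (e + 1)
  · rw [if_pos h1] at h
    refine ⟨h1.1, h1.2, ?_⟩
    by_contra h2
    exact h (by unfold cutJ; rw [if_neg h2, mul_zero])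
  · exact absurd (by rw [if_neg h1]) h

/-- sup of a cut line kernel -/
lemma norm_lk {v : Fin 3} {n : ℕ} {Ht Hf : ℝ} {T : Fin 3 → Finset ℤ} {g : Fin 3 → ℤ → ℤ → ℂ}
    {α : ℤ → ℝ} (h : OpD v n Ht Hf T g α) (hHf : 0 ≤ Hf) (j : Fin 4) (e : Fin 3) (J : Nd) {F : Fn}
    {H : ℝ} (hH : 0 ≤ H) (hF : ∀ y ∈ iv J, ‖F y‖ ≤ H) (w x y : ℤ) :
    ‖lk j T g e (cutJ J F) w x y‖ ≤ max 1 (√(Hf * Ht)) * H := by
  have hm : 0 ≤ max 1 (√(Hf * Ht)) := le_trans zero_le_one (le_max_left _ _)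
  rw [lk_Ye]
  split_ifs with h1
  · unfold cutJ
    split_ifs with h2
    · rw [norm_mul]
      exact mul_le_mul (h.sup hHf e x y) (hF _ h2) (norm_nonneg _) hm
    · rw [mul_zero, norm_zero]
      positivity
  · rw [norm_zero]
    positivity

/-- the three kernels: killer `C` on the edge `e`, cut line kernels on the two others -/
noncomputable def kk (j : Fin 4) (T : Fin 3 → Finset ℤ) (g : Fin 3 → ℤ → ℤ → ℂ) (J : Nd)
    (e : Fin 3) (C : Kl) (F : Fin 3 → Fn) : Fin 3 → Kl :=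
  fun e' => if e' = e then C else lk j T g e' (cutJ J (F e'))

lemma ne1 (e : Fin 3) : e + 1 ≠ e := by revert e; decide

lemma ne2 (e : Fin 3) : e + 2 ≠ e := by revert e; decide

/-- **THE KILLER WORD OF ONE WINDOW, line partners** (`F e'` = letter read by the edge `e'`) -/
theorem b0_line : ∃ K0 : ℝ, 0 ≤ K0 ∧ ∀ (bb : ℤ), bb = -1 ∨ bb = -7 → ∀ (j : Fin 4) (e v : Fin 3),
    ∀ (R : Finset Nd) (J : Nd), IsRegion R J → ∀ (n : ℕ), 2 ^ J.1 ≤ n →
    ∀ (Ht Hf : ℝ) (T : Fin 3 → Finset ℤ) (g : Fin 3 → ℤ → ℤ → ℂ) (α : ℤ → ℝ), 0 ≤ Hf →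
    OpD v n Ht Hf T g α → (∀ e', ∃ t : ℤ, T e' ⊆ Ico t (t + n)) →
    ∀ (C : Kl) (F : Fin 3 → Fn) (τ H E0 dl : ℝ), 0 < τ → 0 ≤ H → 0 ≤ E0 → 0 < dl →
    (∀ w x y, C w x y ≠ 0 → x ∈ T e ∧ y ∈ T (e + 1) ∧ Ye j e w x y ∈ iv J) →
    (∀ e', ∀ y ∈ iv J, ‖F e' y‖ ≤ H) →
    (∀ (w : ℤ) (m : ℕ) (q p : ℤ), Om R (sl j - sl (j.succAbove (e + 2)))
      (sl (j.succAbove e) - sl (j.succAbove (e + 2)))
      (sl (j.succAbove (e + 1)) - sl (j.succAbove (e + 2))) w m q p →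
      ∑ x ∈ Ico q (q + (2 : ℤ) ^ m), ∑ y ∈ Ico p (p + (2 : ℤ) ^ m), ‖C w x y‖ ^ 2 ≤
        4 ^ m * E0) →
    (∀ (w : ℤ) (m : ℕ) (q p : ℤ), Om R (sl j - sl (j.succAbove (e + 2)))
      (sl (j.succAbove e) - sl (j.succAbove (e + 2)))
      (sl (j.succAbove (e + 1)) - sl (j.succAbove (e + 2))) w m q p →
      BadTx138.OpB (C w) (Ico q (q + (2 ^ m : ℕ))) (Ico p (p + (2 ^ m : ℕ))) (2 ^ m * τ)) →
    ∀ (L1 : ℕ), TA bb (cube L1) (J.1 + 1) (fun n p _ => AdX R n (xv j bb n p))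
        (kk j T g J e C F) ≤
      K0 * (1 + Real.log (1 + E0 * (2 * (max 1 (√(Hf * Ht)) * H) ^ 2) / (dl * τ ^ 2))) *
        (τ * (n ^ 2 * len J * ((av J (F (e + 1)) + √dl) * (av J (F (e + 2)) + √dl)))) := by
  obtain ⟨K0, hK0, hK⟩ := b0_gen
  refine ⟨K0, hK0, ?_⟩
  intro bb hbb j e v R J hR n hJn Ht Hf T g α hHf hD hTI C F τ H E0 dl hτ hH hE0 hdl sC hF hHS hop
    L1
  have h1 : e + 1 ≠ e := ne1 e
  have h2 : e + 2 ≠ e := ne2 e
  have k0 : kk j T g J e C F e = C := by unfold kk; rw [if_pos rfl]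
  have k1 : kk j T g J e C F (e + 1) = lk j T g (e + 1) (cutJ J (F (e + 1))) := by
    unfold kk; rw [if_neg h1]
  have k2 : kk j T g J e C F (e + 2) = lk j T g (e + 2) (cutJ J (F (e + 2))) := by
    unfold kk; rw [if_neg h2]
  have main := hK bb hbb j e R J hR n hJn T hTI (kk j T g J e C F) (by
      intro e' w x y h
      by_cases he : e' = e
      · subst he
        rw [k0] at h
        exact sC w x y h
      · have e1 : kk j T g J e C F e' = lk j T g e' (cutJ J (F e')) := by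
          unfold kk; rw [if_neg he]
        rw [e1] at h
        exact sup_lk h) τ (max 1 (√(Hf * Ht)) * H) (max 1 (√(Hf * Ht)) * H) E0 dl
    (av J (F (e + 1))) (av J (F (e + 2))) hτ hE0 hdl (Real.sqrt_nonneg _) (Real.sqrt_nonneg _)
    (fun w x y => by rw [k1]; exact norm_lk hD hHf j _ J hH (hF _) w x y)
    (fun w x y => by rw [k2]; exact norm_lk hD hHf j _ J hH (hF _) w x y)
    (fun W1 X Y => by rw [k1]; exact en_lk hD j _ J _ W1 X Y)
    (fun W1 X Y => by rw [k2]; exact en_lk hD j _ J _ W1 X Y)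
    (fun w m q p h => by rw [k0]; exact hHS w m q p h)
    (fun w m q p h => by rw [k0]; exact hop w m q p h) L1
  rw [← two_mul] at main
  exact main

end Crest.Agent.R079.B0Kx253
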