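import Crest.Agent.R079.GaW_571
import Crest.Agent.R079.GaF_371

/-! R079, Step I, (G) words (helper571): `TA` by real words `Tw` with the KILLER AT ANY EDGE `e`
(brought to `(z2, z0)`), box locality.

* `pc p e` : coordinate `z_e` of a base point; `TA_words` : `TA` by `Tw`, killer edge `e`,
  `A` = edge `e + 1`, `B` = edge `e + 2`, `C` = edge `e`;
* `d4e` : the four slots `j, j.succAbove (e+1), j.succAbove (e+2), j.succAbove e`; `gd_of_adX` : an
  admissible box has all its shadows in nodes of the level (`KLa_446.Gd`);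
* `box_loc`, `bxf_congr`, `TT_congr_loc`, `TA_congr_loc` : the boxes of the nodes of `S` only see the
  kernels at points whose shadow is in a node of `S`. -/

set_option autoImplicit false

namespace Crest.Agent.R079.GaXx571

open Finset Crest.Agent.R079.Grid Crest.Agent.R079.Glue Crest.Agent.R079.Growth
open Crest.Agent.R079.GaAx571 Crest.Agent.R079.GaBx571 Crest.Agent.R079.GaWx571
  Crest.Agent.R079.KLx446 Crest.Agent.R079.GlueK Crest.Agent.R079.GaFx371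

/-- coordinates of a base point -/
def pc (p : ℤ × ℤ × ℤ) : Fin 3 → ℤ := ![p.1, p.2.1, p.2.2]

lemma pc0 (p : ℤ × ℤ × ℤ) : pc p 0 = p.1 := rfl
lemma pc1 (p : ℤ × ℤ × ℤ) : pc p 1 = p.2.1 := rfl
lemma pc2 (p : ℤ × ℤ × ℤ) : pc p 2 = p.2.2 := rfl

lemma pc_rp1 (p : ℤ × ℤ × ℤ) (e : Fin 3) : pc (rp1 p) e = pc p (e + 1) := by
  fin_cases e <;> rfl

lemma wv_rp1 (bb : ℤ) (n : ℕ) (p : ℤ × ℤ × ℤ) (v : ℕ) : wv bb n (rp1 p) v = wv bb n p v := by
  unfold wv rp1
  ring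

lemma TA_rot1 (bb : ℤ) (L1 M : ℕ) (G : ℕ → ℤ → (Fin 3 → ℤ) → Prop) (K : Fin 3 → Kl) :
    TA bb (cube L1) M (fun n p v => G n (wv bb n p v) (pc p)) (fun e => K (e + 1)) =
      TA bb (cube L1) M (fun n p v => G n (wv bb n p v) (fun e => pc p (e + 1))) K := by
  rw [← TA_rot]
  congr 1
  funext n p v
  rw [wv_rp1]
  congr 1
  funext e
  exact pc_rp1 p e

open Classical in
/-- **`TA` by real words at frozen `w`, killer edge `e`** -/
theorem TA_words (bb : ℤ) (hbb : bb = -1 ∨ bb = -7) (M L1 W0 : ℕ)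
    (hW0 : W0 = 3 * L1 + 8 * 2 ^ (M + 1)) (e : Fin 3) (G : ℕ → ℤ → ℤ → ℤ → ℤ → Prop)
    (Gd : ℕ → ℤ × ℤ × ℤ → ℕ → Prop) (K : Fin 3 → Kl)
    (hG : ∀ n < M, ∀ p ∈ cube L1, ∀ v < 2 ^ n + 2 ^ n, Gd n p v → bxf bb K n p v ≠ 0 →
      G n (wv bb n p v) (pc p (e + 1)) (pc p (e + 2)) (pc p e)) :
    TA bb (cube L1) M Gd K ≤
      (1 / 2) * (∑ w ∈ Icc (-(W0 : ℤ)) W0, Wt G ![K (e + 1), K (e + 2), K e] M L1 bb w +
      ∑ w ∈ Icc (-(W0 : ℤ)) W0, Wt G ![K (e + 1), K (e + 2), K e] M L1 (bb + 1) w) := by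
  set H : ℕ → ℤ → (Fin 3 → ℤ) → Prop := fun n w q => G n w (q (e + 1)) (q (e + 2)) (q e) with hH
  have h1 : TA bb (cube L1) M Gd K ≤
      TA bb (cube L1) M (fun n p v => H n (wv bb n p v) (pc p)) K :=
    TA_mono bb (cube L1) M K fun n hn p hp v hv hg h0 => hG n hn p hp v hv hg h0
  refine h1.trans ?_
  have key : ∀ (G' : ℕ → ℤ → (Fin 3 → ℤ) → Prop) (K' : Fin 3 → Kl),
      TA bb (cube L1) M (fun n p v => G' n (wv bb n p v) (pc p)) K' ≤
      (1 / 2) * (∑ w ∈ Icc (-(W0 : ℤ)) W0,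
        Wt (fun n w p0 p1 p2 => G' n w ![p0, p1, p2]) K' M L1 bb w +
      ∑ w ∈ Icc (-(W0 : ℤ)) W0,
        Wt (fun n w p0 p1 p2 => G' n w ![p0, p1, p2]) K' M L1 (bb + 1) w) := by
    intro G' K'
    exact TA_le_Tw bb hbb M L1 W0 hW0 (fun n w p0 p1 p2 => G' n w ![p0, p1, p2]) _
      (fun n _ p _ v _ hg => hg) K'
  fin_cases e
  · -- killer edge 0: rotate once
    have e1 : TA bb (cube L1) M (fun n p v => H n (wv bb n p v) (pc p)) K =
        TA bb (cube L1) M (fun n p v => H n (wv bb n p v) (fun i => pc p (i + 1 + 1)))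
          (fun i => K (i + 1)) := by
      have h2 := TA_rot1 bb L1 M (fun n w q => H n w (fun i => q (i + 1 + 1))) K
      rw [h2]
      congr 1
    rw [e1]
    refine (key (fun n w q => H n w (fun i => q (i + 1 + 1))) (fun i => K (i + 1))).trans
      (le_of_eq ?_)
    have e2 : (fun i : Fin 3 => K (i + 1)) = ![K (0 + 1), K (0 + 2), K 0] := by
      funext i
      fin_cases i <;> rfl
    simp only [hH, e2]
    rfl
  · -- killer edge 1: rotate twice
    have e1 : TA bb (cube L1) M (fun n p v => H n (wv bb n p v) (pc p)) K =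
        TA bb (cube L1) M (fun n p v => H n (wv bb n p v) (fun i => pc p (i + 1)))
          (fun i => K (i + 1 + 1)) := by
      have h2 := TA_rot1 bb L1 M (fun n w q => H n w (fun i => q (i + 1))) (fun i => K (i + 1))
      have h3 := TA_rot1 bb L1 M (fun n w q => H n w (fun i => q (i + 1 + 1))) K
      rw [h2, h3]
      congr 1
    rw [e1]
    refine (key (fun n w q => H n w (fun i => q (i + 1))) (fun i => K (i + 1 + 1))).trans
      (le_of_eq ?_)
    have e2 : (fun i : Fin 3 => K (i + 1 + 1)) = ![K (1 + 1), K (1 + 2), K 1] := by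
      funext i
      fin_cases i <;> rfl
    simp only [hH, e2]
    rfl
  · -- killer edge 2
    refine (key H K).trans (le_of_eq ?_)
    have e2 : K = ![K (2 + 1), K (2 + 2), K 2] := by
      funext i
      fin_cases i <;> rfl
    simp only [hH]
    conv_lhs => rw [e2]
    rfl

/-! ### shadows -/

lemma d4e (j : Fin 4) (e : Fin 3) :
    D4 j (j.succAbove (e + 1)) (j.succAbove (e + 2)) (j.succAbove e) := by
  have inj : ∀ {x y : Fin 3}, x ≠ y → j.succAbove x ≠ j.succAbove y := fun h h' =>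
    h (Fin.succAbove_right_injective h')
  refine ⟨(Fin.succAbove_ne j _).symm, (Fin.succAbove_ne j _).symm, (Fin.succAbove_ne j _).symm,
    inj ?_, inj ?_, inj ?_⟩
  · revert e; decide
  · revert e; decide
  · revert e; decide

lemma cf_lf4 (j : Fin 4) (e : Fin 3) (p : ℤ × ℤ × ℤ) :
    lf4 j (j.succAbove (e + 1)) (j.succAbove (e + 2)) (j.succAbove e) (pc p (e + 1)) (pc p (e + 2))
      (pc p e) = cf j 0 * p.1 + cf j 1 * p.2.1 + cf j 2 * p.2.2 := by
  unfold lf4 cf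
  fin_cases e
  · show (sl (j.succAbove 1) - sl j) * p.2.1 + (sl (j.succAbove 2) - sl j) * p.2.2 +
      (sl (j.succAbove 0) - sl j) * p.1 = _
    ring
  · show (sl (j.succAbove 2) - sl j) * p.2.2 + (sl (j.succAbove 0) - sl j) * p.1 +
      (sl (j.succAbove 1) - sl j) * p.2.1 = _
    ring
  · show (sl (j.succAbove 0) - sl j) * p.1 + (sl (j.succAbove 1) - sl j) * p.2.1 +
      (sl (j.succAbove 2) - sl j) * p.2.2 = _
    ring

/-- **an admissible box has all its shadows in nodes of its level** -/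
theorem gd_of_adX (j : Fin 4) (e : Fin 3) {bb : ℤ} (hbb : bb = -1 ∨ bb = -7) {R : Finset Nd} {n : ℕ}
    {p : ℤ × ℤ × ℤ} {v : ℕ} (hv : v < 2 ^ n + 2 ^ n) (h : AdX R n (xv j bb n p)) :
    Gd j (j.succAbove (e + 1)) (j.succAbove (e + 2)) (j.succAbove e) R n (wv bb n p v)
      (pc p (e + 1)) (pc p (e + 2)) (pc p e) := by
  obtain ⟨q, hq, hqn, hx⟩ := h
  subst hqn
  have h1 := gd_of_adm (d4e j e) R q.1 q.2 hq bb hbb (pc p (e + 1)) (pc p (e + 2)) (pc p e)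
    (by
      rw [cf_lf4]
      exact hx) ⟨v, hv⟩
  have e1 : ((⟨v, hv⟩ : Fin (2 ^ q.1 + 2 ^ q.1)) : ℕ) = v := rfl
  rw [e1] at h1
  have e2 : (v : ℤ) + bb * ((2 ^ q.1 : ℕ) : ℤ) - pc p (e + 1) - pc p (e + 2) - pc p e =
      wv bb q.1 p v := by
    unfold wv
    fin_cases e
    · show (v : ℤ) + bb * ((2 ^ q.1 : ℕ) : ℤ) - p.2.1 - p.2.2 - p.1 = _
      ring
    · show (v : ℤ) + bb * ((2 ^ q.1 : ℕ) : ℤ) - p.2.2 - p.1 - p.2.1 = _
      ring
    · show (v : ℤ) + bb * ((2 ^ q.1 : ℕ) : ℤ) - p.1 - p.2.1 - p.2.2 = _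
      ring
  rwa [e2] at h1

/-- **box locality**: in a box admissible for the node `q` every shadow is in `iv q` -/
theorem box_loc (j : Fin 4) (e : Fin 3) {bb : ℤ} (hbb : bb = -1 ∨ bb = -7) {q : Nd}
    {p : ℤ × ℤ × ℤ} {v : ℕ} (hv : v < 2 ^ q.1 + 2 ^ q.1) (hx : xv j bb q.1 p ∈ adm q.1 q.2)
    {i i' : ℤ} (h0 : 0 ≤ i) (h1 : i < 2 ^ (q.1 + 1)) (h0' : 0 ≤ i') (h1' : i' < 2 ^ (q.1 + 1)) :
    Ye j e (wv bb q.1 p v) (pc p e + i) (pc p (e + 1) + i') ∈ iv q := by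
  have h2 := gd_of_adX j e hbb (R := {q}) hv ⟨q, Finset.mem_singleton_self q, rfl, hx⟩
  have h3 := (h2 i' 0 i h0' h1' le_rfl (by positivity) h0 h1).2.2
  rw [mem_Rm, Finset.mem_singleton] at h3
  unfold iv
  rw [mem_dI_iff]
  have h4 := congrArg Prod.snd h3
  exact h4

/-- congruence of a box form -/
lemma bxf_congr (bb : ℤ) (K K' : Fin 3 → Kl) (n : ℕ) (p : ℤ × ℤ × ℤ) (v : ℕ)
    (h : ∀ (e : Fin 3) (i i' : ℕ), i < 2 ^ n + 2 ^ n → i' < 2 ^ n + 2 ^ n →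
      K e (wv bb n p v) (pc p e + i) (pc p (e + 1) + i') =
        K' e (wv bb n p v) (pc p e + i) (pc p (e + 1) + i')) :
    bxf bb K n p v = bxf bb K' n p v := by
  unfold bxf Lb3
  congr 1
  refine Finset.sum_congr rfl fun i0 _ => Finset.sum_congr rfl fun i1 _ => Finset.sum_congr rfl
    fun i2 _ => ?_
  have h0 := h 0 i0 i1 i0.2 i1.2
  have h1 := h 1 i1 i2 i1.2 i2.2
  have h2 := h 2 i2 i0 i2.2 i0.2
  have e1 : (0 : Fin 3) + 1 = 1 := rfl
  have e2 : (1 : Fin 3) + 1 = 2 := rfl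
  have e3 : (2 : Fin 3) + 1 = 0 := rfl
  rw [e1, pc0, pc1] at h0
  rw [e2, pc1, pc2] at h1
  rw [e3, pc0, pc2] at h2
  rw [h0, h1, h2]

/-- agreement of kernels at all points whose shadow is in a node of `S` -/
def AgrS (j : Fin 4) (S : Finset Nd) (K K' : Fin 3 → Kl) : Prop :=
  ∀ q ∈ S, ∀ (e : Fin 3) (w z z' : ℤ), Ye j e w z z' ∈ iv q → K e w z z' = K' e w z z'

lemma AgrS.symm {j : Fin 4} {S : Finset Nd} {K K' : Fin 3 → Kl} (h : AgrS j S K K') :
    AgrS j S K' K := fun q hq e w z z' hy => (h q hq e w z z' hy).symm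

lemma bxf_agr {j : Fin 4} {bb : ℤ} (hbb : bb = -1 ∨ bb = -7) {S : Finset Nd} {K K' : Fin 3 → Kl}
    (h : AgrS j S K K') {n : ℕ} {p : ℤ × ℤ × ℤ} {v : ℕ} (hv : v < 2 ^ n + 2 ^ n)
    (hx : AdX S n (xv j bb n p)) : bxf bb K n p v = bxf bb K' n p v := by
  obtain ⟨q, hq, hqn, hx⟩ := hx
  subst hqn
  refine bxf_congr bb K K' q.1 p v fun e i i' hi hi' => h q hq e _ _ _ ?_
  refine box_loc j e hbb hv hx (Int.natCast_nonneg i) ?_ (Int.natCast_nonneg i') ?_
  · rw [pow_succ]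
    have : (i : ℤ) < ((2 ^ q.1 + 2 ^ q.1 : ℕ) : ℤ) := by exact_mod_cast hi
    push_cast at this
    linarith
  · rw [pow_succ]
    have : (i' : ℤ) < ((2 ^ q.1 + 2 ^ q.1 : ℕ) : ℤ) := by exact_mod_cast hi'
    push_cast at this
    linarith

/-- the box form with coefficients of the nodes of `S` -/
theorem TT_agr {j : Fin 4} {bb : ℤ} (hbb : bb = -1 ∨ bb = -7) {S : Finset Nd} {K K' : Fin 3 → Kl}
    (h : AgrS j S K K') (P : Finset (ℤ × ℤ × ℤ)) (M : ℕ) {χ : ℕ → ℤ × ℤ × ℤ → ℕ → ℂ}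
    (hχ : ∀ n p v, ¬ AdX S n (xv j bb n p) → χ n p v = 0) :
    TT bb P M χ K = TT bb P M χ K' := by
  unfold TT
  refine Finset.sum_congr rfl fun n _ => Finset.sum_congr rfl fun p _ => Finset.sum_congr rfl
    fun v hv => ?_
  by_cases hx : AdX S n (xv j bb n p)
  · rw [bxf_agr hbb h (Finset.mem_range.1 hv) hx]
  · rw [hχ n p v hx, zero_mul, zero_mul]

/-- the absolute box form over the nodes of `S` -/
theorem TA_agr {j : Fin 4} {bb : ℤ} (hbb : bb = -1 ∨ bb = -7) {S : Finset Nd} {K K' : Fin 3 → Kl}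
    (h : AgrS j S K K') (P : Finset (ℤ × ℤ × ℤ)) (M : ℕ) {Gd : ℕ → ℤ × ℤ × ℤ → ℕ → Prop}
    (hG : ∀ n p v, Gd n p v → AdX S n (xv j bb n p)) :
    TA bb P M Gd K = TA bb P M Gd K' := by
  classical
  unfold TA
  refine Finset.sum_congr rfl fun n _ => Finset.sum_congr rfl fun p _ => Finset.sum_congr rfl
    fun v hv => ?_
  by_cases hx : Gd n p v
  · rw [if_pos hx, if_pos hx, bxf_agr hbb h (Finset.mem_range.1 hv) (hG n p v hx)]
  · rw [if_neg hx, if_neg hx]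

/-- the line kernels of two letters which agree on the nodes of `S` -/
lemma agr_lks {j : Fin 4} {S : Finset Nd} (T : Fin 3 → Finset ℤ) (g : Fin 3 → ℤ → ℤ → ℂ)
    {F F' : Fin 4 → ℤ → ℂ} (h : ∀ s, s ≠ j → ∀ q ∈ S, ∀ y ∈ iv q, F s y = F' s y) :
    AgrS j S (lks j T g F) (lks j T g F') := by
  intro q hq e w z z' hy
  unfold lks
  rw [lk_Ye, lk_Ye]
  rw [h _ (Fin.succAbove_ne j _) q hq _ hy]

end Crest.Agent.R079.GaXx571
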