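import Crest.Agent.R079.B0K_253
import Crest.Agent.R079.GaX_571

/-! R079, Step I, (G) words (helper253): `B0K_253.b0_line` in the LITERAL form of 571's per-window
hypothesis (msg 7208): operator bound (BT) of the killer on the boxes of the window, sup bound of the
killer, kernels by `Function.update` of `lks`, letters not cut, any number `M` of levels. -/

set_option autoImplicit false

namespace Crest.Agent.R079.B0Lx253

open Finset Crest.Agent.R079.Grid Crest.Agent.R079.Glue Crest.Agent.R079.Growth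
  Crest.Agent.R079.QRed Crest.Agent.R079.KLx446
  Crest.Agent.R079.GaAx571 Crest.Agent.R079.GaBx571 Crest.Agent.R079.GaWx571
  Crest.Agent.R079.GaXx571
  Crest.Agent.R079.TaKx253 Crest.Agent.R079.TwEx253 Crest.Agent.R079.GaFx371
  Crest.Agent.R079.B0Kx253

/-- only the levels `≤ K.1` count -/
lemma TA_M {bb : ℤ} {j : Fin 4} {W : Finset Nd} {K : Nd} (hW : IsRegion W K) (P : Finset (ℤ × ℤ × ℤ))
    (M : ℕ) (Gd : ℕ → ℤ × ℤ × ℤ → ℕ → Prop) (hG : ∀ n p v, Gd n p v → AdX W n (xv j bb n p))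
    (Kk : Fin 3 → Kl) :
    TA bb P M Gd Kk ≤ TA bb P (K.1 + 1) (fun n p _ => AdX W n (xv j bb n p)) Kk := by
  classical
  have h1 : TA bb P M Gd Kk ≤ TA bb P M (fun n p _ => AdX W n (xv j bb n p)) Kk :=
    TA_mono bb P M Kk fun n _ p _ v _ h _ => hG n p v h
  refine h1.trans ?_
  unfold TA
  have h0 : ∀ n, 0 ≤ ∑ p ∈ P, ∑ v ∈ range (2 ^ n + 2 ^ n),
      (if AdX W n (xv j bb n p) then
        (1 / (((2 ^ n : ℕ) : ℝ) + ((2 ^ n : ℕ) : ℝ))) * ‖bxf bb Kk n p v‖ else 0) := by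
    intro n
    refine Finset.sum_nonneg fun p _ => Finset.sum_nonneg fun v _ => ?_
    split_ifs
    · positivity
    · exact le_rfl
  have hz : ∀ n, n ∉ range (K.1 + 1) → ∑ p ∈ P, ∑ v ∈ range (2 ^ n + 2 ^ n),
      (if AdX W n (xv j bb n p) then
        (1 / (((2 ^ n : ℕ) : ℝ) + ((2 ^ n : ℕ) : ℝ))) * ‖bxf bb Kk n p v‖ else 0) = 0 := by
    intro n hn
    refine Finset.sum_eq_zero fun p _ => Finset.sum_eq_zero fun v _ => if_neg ?_
    rintro ⟨q, hq, hqn, _⟩
    have := Glue.level_le W K hW q hq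
    exact hn (Finset.mem_range.2 (by omega))
  calc ∑ n ∈ range M, _ = ∑ n ∈ range M ∩ range (K.1 + 1), _ :=
        (Finset.sum_subset Finset.inter_subset_left fun n hn hn' =>
          hz n fun h => hn' (Finset.mem_inter.2 ⟨hn, h⟩)).symm
    _ ≤ _ := Finset.sum_le_sum_of_subset_of_nonneg Finset.inter_subset_right fun n _ _ => h0 n

lemma third_ne (e e' e'' : Fin 3) (h1 : e ≠ e') (h2 : e'' ≠ e) (h3 : e'' ≠ e') (i : Fin 3) :
    i = e ∨ i = e' ∨ i = e'' := by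
  revert e e' e'' i; decide

lemma rot_cases (e e' e'' : Fin 3) (h1 : e ≠ e') (h2 : e'' ≠ e) (h3 : e'' ≠ e') :
    (e + 1 = e' ∧ e + 2 = e'') ∨ (e + 1 = e'' ∧ e + 2 = e') := by
  revert e e' e''; decide

/-- **THE KILLER WORD OF ONE WINDOW, literal form**: killer `C` on the edge `e`, line letter `y` on the
edge `e'`, line letter `F (j.succAbove (e'' + 2))` on the third edge `e''`. -/
theorem b0_win : ∃ K0 : ℝ, 0 ≤ K0 ∧ ∀ (bb : ℤ), bb = -1 ∨ bb = -7 → ∀ (j : Fin 4) (e e' e'' v : Fin 3),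
    e ≠ e' → e'' ≠ e → e'' ≠ e' →
    ∀ (W : Finset Nd) (K : Nd), IsRegion W K → ∀ (n : ℕ), 2 ^ K.1 ≤ n →
    ∀ (Ht Hf : ℝ) (T : Fin 3 → Finset ℤ) (g : Fin 3 → ℤ → ℤ → ℂ) (α : ℤ → ℝ), 0 ≤ Hf →
    OpD v n Ht Hf T g α → (∀ e', ∃ t : ℤ, T e' ⊆ Ico t (t + n)) →
    ∀ (C : Kl) (F : Fin 4 → Fn) (y : Fn) (c0 τ H dl : ℝ), 0 < τ → 0 ≤ H → 0 < dl →
    (∀ w x z, C w x z ≠ 0 → x ∈ T e ∧ z ∈ T (e + 1) ∧ Ye j e w x z ∈ iv K) →
    (∀ w x z, ‖C w x z‖ ≤ c0) →
    (∀ x ∈ iv K, ‖y x‖ ≤ H) → (∀ x ∈ iv K, ‖F (j.succAbove (e'' + 2)) x‖ ≤ H) →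
    (∀ (w : ℤ) (m : ℕ) (q u : ℤ), m ≤ K.1 → (∀ z ∈ Ico q (q + 2 ^ m), ∀ z' ∈ Ico u (u + 2 ^ m),
      ((m, Ye j e w z z' / 2 ^ (m + 7)) : Nd) ∈ W) →
      ClW59.OpS (Ico q (q + 2 ^ m)) (Ico u (u + 2 ^ m)) (C w) (2 ^ m * τ)) →
    ∀ (L1 M : ℕ) (Gd : ℕ → ℤ × ℤ × ℤ → ℕ → Prop),
    (∀ n p v, Gd n p v → AdX W n (xv j bb n p)) →
    TA bb (cube L1) M Gd
      (Function.update (Function.update (lks j T g F) e' (lk j T g e' y)) e C) ≤
      K0 * (1 + Real.log (1 + c0 ^ 2 * (2 * (max 1 (√(Hf * Ht)) * H) ^ 2) / (dl * τ ^ 2))) *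
        (τ * (n ^ 2 * len K * ((av K y + √dl) * (av K (F (j.succAbove (e'' + 2))) + √dl)))) := by
  obtain ⟨K0, hK0, hK⟩ := b0_line
  refine ⟨K0, hK0, ?_⟩
  intro bb hbb j e e' e'' v hee h2 h3 W K hW n hn Ht Hf T g α hHf hD hTI C F y c0 τ H dl hτ hH hdl
    sC hsup hy hF hop L1 M Gd hGd
  classical
  set FF : Fin 3 → Fn := fun i => if i = e' then y else F (j.succAbove (e'' + 2)) with hFF
  have hFF1 : FF e' = y := by rw [hFF]; exact if_pos rfl
  have hFF2 : FF e'' = F (j.succAbove (e'' + 2)) := by rw [hFF]; exact if_neg h3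
  -- cutting the letters changes nothing
  have hagr : AgrS j W (Function.update (Function.update (lks j T g F) e' (lk j T g e' y)) e C)
      (kk j T g K e C FF) := by
    intro q hq i w z z' hYe
    have hin : Ye j i w z z' ∈ iv K := (hW.1 q hq) hYe
    rcases third_ne e e' e'' hee h2 h3 i with rfl | rfl | rfl
    · rw [Function.update_self]
      unfold kk
      rw [if_pos rfl]
    · rw [Function.update_of_ne (Ne.symm hee), Function.update_self]
      unfold kk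
      rw [if_neg (Ne.symm hee), lk_Ye, lk_Ye, hFF1]
      unfold cutJ
      rw [if_pos hin]
    · rw [Function.update_of_ne h2, Function.update_of_ne h3]
      unfold kk lks
      rw [if_neg h2, lk_Ye, lk_Ye, hFF2]
      unfold cutJ
      rw [if_pos hin]
  have hc0 : 0 ≤ c0 := (norm_nonneg _).trans (hsup 0 0 0)
  have main := hK bb hbb j e v W K hW n hn Ht Hf T g α hHf hD hTI C FF τ H (c0 ^ 2) dl hτ hH
    (sq_nonneg _) hdl sC
    (by
      intro i x hx
      by_cases hi : i = e'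
      · rw [hi, hFF1]; exact hy x hx
      · have e1 : FF i = F (j.succAbove (e'' + 2)) := by rw [hFF]; exact if_neg hi
        rw [e1]; exact hF x hx)
    (by
      intro w m q p _
      calc ∑ x ∈ Ico q (q + (2 : ℤ) ^ m), ∑ z ∈ Ico p (p + (2 : ℤ) ^ m), ‖C w x z‖ ^ 2
          ≤ ∑ _x ∈ Ico q (q + (2 : ℤ) ^ m), ∑ _z ∈ Ico p (p + (2 : ℤ) ^ m), c0 ^ 2 :=
            Finset.sum_le_sum fun x _ => Finset.sum_le_sum fun z _ =>
              pow_le_pow_left₀ (norm_nonneg _) (hsup w x z) 2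
        _ = 4 ^ m * c0 ^ 2 := by
            rw [Finset.sum_const, Finset.sum_const, Int.card_Ico, Int.card_Ico]
            have e1 : (q + (2 : ℤ) ^ m - q).toNat = 2 ^ m := by
              have : q + (2 : ℤ) ^ m - q = ((2 ^ m : ℕ) : ℤ) := by push_cast; ring
              rw [this, Int.toNat_natCast]
            have e2 : (p + (2 : ℤ) ^ m - p).toNat = 2 ^ m := by
              have : p + (2 : ℤ) ^ m - p = ((2 ^ m : ℕ) : ℤ) := by push_cast; ring
              rw [this, Int.toNat_natCast]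
            rw [e1, e2, nsmul_eq_mul, nsmul_eq_mul]
            push_cast
            have e3 : (4 : ℝ) ^ m = 2 ^ m * 2 ^ m := by
              rw [← mul_pow]; norm_num
            rw [e3]
            ring)
    (by
      intro w m q p h
      have hm : m ≤ K.1 := by
        have h0 := h q (Finset.mem_Ico.2 ⟨le_rfl, by linarith [pow_pos (show (0 : ℤ) < 2 by norm_num) m]⟩)
          p (Finset.mem_Ico.2 ⟨le_rfl, by linarith [pow_pos (show (0 : ℤ) < 2 by norm_num) m]⟩)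
        rw [mem_Rm] at h0
        exact Glue.level_le W K hW _ h0
      have h1 := hop w m q p hm (by
        intro z hz z' hz'
        have h0 := h z hz z' hz'
        rw [mem_Rm] at h0
        exact h0)
      have h2 := TwLx253.opB_of_opS h1
      have e1 : (((2 ^ m : ℕ)) : ℤ) = 2 ^ m := by push_cast; rfl
      rw [e1]
      exact h2) L1
  have hTA := TA_agr hbb hagr (cube L1) M (Gd := Gd) hGd
  rw [hTA]
  refine (TA_M hW (cube L1) M Gd hGd _).trans ?_
  refine main.trans (le_of_eq ?_)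
  rcases rot_cases e e' e'' hee h2 h3 with ⟨r1, r2⟩ | ⟨r1, r2⟩
  · rw [r1, r2, hFF1, hFF2]
  · rw [r1, r2, hFF1, hFF2, mul_comm (av K y + √dl)]

end Crest.Agent.R079.B0Lx253
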