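import Crest.Agent.R079.GaS_571

/-! R079, Step I, MOVE with heights on the stacks (helper571).

* `tau h` : truncation of a letter at height `h` (1-Lipschitz, so it keeps the quadratic variation);
* `move_ZJ` : joint kernel letters above the thresholds against a static partner;
* `move_ZJG` : against the truncated moving glued letter of another functional. -/

set_option autoImplicit false

namespace Crest.Agent.R079.GaTx571

open Finset Crest.Agent.R079.Grid Crest.Agent.R079.Growth Crest.Agent.R079.QRed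
  Crest.Agent.R079.Qh249 Crest.Agent.R079.TWin
open Crest.Agent.R079.RelW653 (vl NMP Jv Dv av_par sum_av' lf_sum_eq')
open Crest.Agent.R079.RelV653 Crest.Agent.R079.ThA159 Crest.Agent.R079.ThB159
open Crest.Agent.R079.Stk (Rk Rk_mono full_Rk)
open Crest.Agent.R079.GaMx571 Crest.Agent.R079.GaSx571

/-! ### truncation -/

/-- truncation at height `h` -/
noncomputable def tau (h : ℝ) (z : ℂ) : ℂ := if ‖z‖ ≤ h then z else ((h / ‖z‖ : ℝ) : ℂ) * z

lemma tau_le {h : ℝ} (hh : 0 ≤ h) (z : ℂ) : ‖tau h z‖ ≤ h := by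
  unfold tau
  split_ifs with hz
  · exact hz
  · push Not at hz
    have hz0 : 0 < ‖z‖ := lt_of_le_of_lt hh hz
    rw [norm_mul, Complex.norm_real, Real.norm_of_nonneg (by positivity)]
    rw [div_mul_cancel₀ _ hz0.ne']

lemma tau_le' {h : ℝ} (hh : 0 ≤ h) (z : ℂ) : ‖tau h z‖ ≤ ‖z‖ := by
  unfold tau
  split_ifs with hz
  · exact le_rfl
  · push Not at hz
    have hz0 : 0 < ‖z‖ := lt_of_le_of_lt hh hz
    rw [norm_mul, Complex.norm_real, Real.norm_of_nonneg (by positivity)]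
    rw [div_mul_cancel₀ _ hz0.ne']
    exact hz.le

lemma tau_of_le {h : ℝ} {z : ℂ} (hz : ‖z‖ ≤ h) : tau h z = z := if_pos hz

/-- the removed part is supported on large values -/
lemma tau_sub {h : ℝ} (hh : 0 ≤ h) (z : ℂ) : ‖z - tau h z‖ ≤ ‖z‖ ∧ (‖z‖ ≤ h → z - tau h z = 0) := by
  constructor
  · unfold tau
    split_ifs with hz
    · simp
    · push Not at hz
      have hz0 : 0 < ‖z‖ := lt_of_le_of_lt hh hz
      have e : z - ((h / ‖z‖ : ℝ) : ℂ) * z = ((1 - h / ‖z‖ : ℝ) : ℂ) * z := by push_cast; ring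
      rw [e, norm_mul, Complex.norm_real]
      have h1 : h / ‖z‖ ≤ 1 := (div_le_one hz0).2 hz.le
      have h2 : 0 ≤ h / ‖z‖ := by positivity
      rw [Real.norm_of_nonneg (by linarith)]
      nlinarith
  · intro hz
    rw [tau_of_le hz, sub_self]

/-- the variational inequality of the projection on the ball -/
lemma tau_var {h : ℝ} (hh : 0 ≤ h) (z u : ℂ) (hu : ‖u‖ ≤ h) :
    inner ℝ (z - tau h z) (u - tau h z) ≤ 0 := by
  unfold tau
  split_ifs with hz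
  · simp
  · push Not at hz
    have hz0 : 0 < ‖z‖ := lt_of_le_of_lt hh hz
    have e : z - ((h / ‖z‖ : ℝ) : ℂ) * z = (1 - h / ‖z‖ : ℝ) • z := by
      rw [Complex.real_smul]; push_cast; ring
    have e' : ((h / ‖z‖ : ℝ) : ℂ) * z = (h / ‖z‖ : ℝ) • z := by rw [Complex.real_smul]
    rw [e, e', real_inner_smul_left, inner_sub_right, real_inner_smul_right,
      real_inner_self_eq_norm_sq]
    have h1 : h / ‖z‖ ≤ 1 := (div_le_one hz0).2 hz.le
    have h2 : inner ℝ z u ≤ ‖z‖ * ‖u‖ := real_inner_le_norm z u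
    have h3 : h / ‖z‖ * ‖z‖ ^ 2 = h * ‖z‖ := by field_simp
    rw [h3]
    have h4 : ‖z‖ * ‖u‖ ≤ ‖z‖ * h := mul_le_mul_of_nonneg_left hu hz0.le
    exact mul_nonpos_of_nonneg_of_nonpos (by linarith) (by linarith)

/-- **the truncation is 1-Lipschitz** -/
theorem tau_lip {h : ℝ} (hh : 0 ≤ h) (z w : ℂ) : ‖tau h z - tau h w‖ ≤ ‖z - w‖ := by
  have h1 := tau_var hh z (tau h w) (tau_le hh w)
  have h2 := tau_var hh w (tau h z) (tau_le hh z)
  have h3 : ‖tau h z - tau h w‖ ^ 2 ≤ inner ℝ (z - w) (tau h z - tau h w) := by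
    rw [← real_inner_self_eq_norm_sq]
    have e : inner ℝ (z - w) (tau h z - tau h w) - inner ℝ (tau h z - tau h w) (tau h z - tau h w) =
        -(inner ℝ (z - tau h z) (tau h w - tau h z) + inner ℝ (w - tau h w) (tau h z - tau h w)) := by
      have e1 : inner ℝ (z - tau h z) (tau h w - tau h z) =
          - inner ℝ (z - tau h z) (tau h z - tau h w) := by
        rw [← inner_neg_right, neg_sub]
      rw [e1, ← inner_sub_left, neg_add, neg_neg, ← sub_eq_add_neg, ← inner_sub_left]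
      congr 1
      ring
    linarith
  have h4 : inner ℝ (z - w) (tau h z - tau h w) ≤ ‖z - w‖ * ‖tau h z - tau h w‖ :=
    real_inner_le_norm _ _
  by_contra hc
  push Not at hc
  have h5 : 0 < ‖tau h z - tau h w‖ := lt_of_le_of_lt (norm_nonneg _) hc
  nlinarith

section family

variable {ι : Type*} [Fintype ι] {Ω : ι → Type*} {Bd : ∀ i, Nd → Finset (Ω i)}
  {pos : ∀ i, Ω i → ℤ} {N : ∀ i, Nd → (Ω i → ℂ) → ℝ} {ν : ι → ℝ} {a : ∀ i, Ω i → ℂ} {r : ι → ℝ}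
  {κ : ι → ℝ} {X : Fn} {η : ℝ} {f : Nd → Fn}

variable (hB : ∀ i, Bnd (Bd i) (pos i) (N i) (ν i)) (hr : ∀ i, 0 ≤ r i) (hκ : ∀ i, 0 ≤ κ i)
  (h : NMP (fun _ _ => True) (ThF Bd pos N ν a r κ) X η f)

include hB hr hκ h

variable {R S : Finset Nd} {J : Nd} {W : Nd → Finset Nd} {C : ℝ} (hR : Full R J)
  (hP : TWin.Part R S W C)

include hR hP

/-- **MOVE on the stacks, joint kernel letters against a static partner** -/
theorem move_ZJ {Ω' : Type*} {A' : Finset Ω'} {ρ' : Ω' → ℝ} (hρ' : ∀ ω, 0 ≤ ρ' ω) {n b : ℕ}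
    (hn : n ≤ 2 ^ b) {T : ℕ → ((Σ i, Ω i) → ℂ) →ₗ[ℝ] (Ω' → ℂ) →ₗ[ℝ] ℂ} {M H H' δ δ' h0 h0' : ℝ}
    (hM : 0 ≤ M) (hδ : 0 ≤ δ) (hδ' : 0 ≤ δ')
    (hT : StatI (BJ Bd J) (rJ κ ν) H δ A' ρ' H' δ' n T M) (y : Ω' → ℂ)
    (hh : ∀ k, 1 ≤ k → ∀ s ∈ BJ Bd J, ‖ZJ Bd pos N a r (Rk R S k) J f s‖ ≤ h0)
    (hh' : ∀ ω ∈ A', ‖y ω‖ ≤ h0') (hH : 2 ^ (b + 1) * h0 ≤ H) (hH' : 2 ^ (b + 1) * h0' ≤ H') :
    ‖∑ k ∈ range n, T k (ZJ Bd pos N a r (Rk R S (k + 1)) J f) y‖ ≤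
      M * (b * √(4 * (len J * (av J X ^ 2 + η) + 2 * η * len J * (n - 1 : ℕ))) +
        √(len J * (av J X ^ 2 + η)) + (b + 1) * δ) * (nW A' ρ' y + (b + 1) * δ') := by
  obtain ⟨D, h1, h2⟩ := stackZJ hB hr hκ h hR hP (n - 1)
  have hρ : ∀ s : Σ i, Ω i, 0 ≤ rJ κ ν s := fun s => mul_nonneg (hκ s.1) (hB s.1).nu.le
  have h3 := move_I_one hρ hρ' hn hM hδ hδ' hT
    (fun k => ZJ Bd pos N a r (Rk R S (min k (n - 1) + 1)) J f) y D h1 h2
    (fun k => hh (min k (n - 1) + 1) (by omega)) hh' hH hH'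
  have h4 : ∀ k ∈ range n, T k (ZJ Bd pos N a r (Rk R S (min k (n - 1) + 1)) J f) y =
      T k (ZJ Bd pos N a r (Rk R S (k + 1)) J f) y := by
    intro k hk
    have := Finset.mem_range.1 hk
    rw [show min k (n - 1) = k by omega]
  rw [Finset.sum_congr rfl h4] at h3
  refine h3.trans ?_
  have h5 := nW_ZJ hB hr hκ h hR hP (k := min (2 ^ b - 1) (n - 1) + 1) (by omega)
  have h6 : 0 ≤ nW A' ρ' y + (b + 1) * δ' :=
    add_nonneg (nW_nonneg _ _ _) (by positivity)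
  refine mul_le_mul_of_nonneg_right ?_ h6
  refine mul_le_mul_of_nonneg_left ?_ hM
  linarith

end family

section two

variable {ι : Type*} [Fintype ι] {Ω : ι → Type*} {Bd : ∀ i, Nd → Finset (Ω i)}
  {pos : ∀ i, Ω i → ℤ} {N : ∀ i, Nd → (Ω i → ℂ) → ℝ} {ν : ι → ℝ} {a : ∀ i, Ω i → ℂ} {r : ι → ℝ}
  {κ : ι → ℝ} {X : Fn} {η : ℝ} {f : Nd → Fn}
  {ι' : Type*} [Fintype ι'] {Ω' : ι' → Type*} {Bd' : ∀ i, Nd → Finset (Ω' i)}
  {pos' : ∀ i, Ω' i → ℤ} {N' : ∀ i, Nd → (Ω' i → ℂ) → ℝ} {ν' : ι' → ℝ} {a' : ∀ i, Ω' i → ℂ}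
  {r' : ι' → ℝ} {κ' : ι' → ℝ} {X' : Fn} {η' : ℝ} {f' : Nd → Fn}

variable (hB : ∀ i, Bnd (Bd i) (pos i) (N i) (ν i)) (hr : ∀ i, 0 ≤ r i) (hκ : ∀ i, 0 ≤ κ i)
  (h : NMP (fun _ _ => True) (ThF Bd pos N ν a r κ) X η f)
  (hB' : ∀ i, Bnd (Bd' i) (pos' i) (N' i) (ν' i)) (hr' : ∀ i, 0 ≤ r' i) (hκ' : ∀ i, 0 ≤ κ' i)
  (h' : NMP (fun _ _ => True) (ThF Bd' pos' N' ν' a' r' κ') X' η' f')
  {R S : Finset Nd} {J : Nd} {W : Nd → Finset Nd} {C : ℝ} (hR : Full R J)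
  (hP : TWin.Part R S W C)

include hB hr hκ h hB' hr' hκ' h' hR hP

/-- **MOVE on the stacks, joint kernel letters of one functional against the truncated glued letter
of another functional** -/
theorem move_ZJG {n b : ℕ} (hn : n ≤ 2 ^ b)
    {T : ℕ → ((Σ i, Ω i) → ℂ) →ₗ[ℝ] (ℤ → ℂ) →ₗ[ℝ] ℂ} {M H H' δ δ' h0 h0' : ℝ}
    (hM : 0 ≤ M) (hδ : 0 ≤ δ) (hδ' : 0 ≤ δ')
    (hT : StatI (BJ Bd J) (rJ κ ν) H δ (iv J) (fun _ => 1) H' δ' n T M)
    (hh : ∀ k, 1 ≤ k → ∀ s ∈ BJ Bd J, ‖ZJ Bd pos N a r (Rk R S k) J f s‖ ≤ h0)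
    (hh0 : 0 ≤ h0') (hH : 2 ^ (b + 1) * h0 ≤ H) (hH' : 2 ^ (b + 1) * h0' ≤ H') :
    ‖∑ k ∈ range n, T k (ZJ Bd pos N a r (Rk R S (k + 1)) J f)
      (fun y => tau h0' (gl (Rk R S (k + 1)) f' y))‖ ≤
      M * (b * √(4 * (len J * (av J X ^ 2 + η) + 2 * η * len J * (n - 1 : ℕ))) +
        √(len J * (av J X ^ 2 + η)) + (b + 1) * δ) *
        (b * √(2 * (len J * (av J X' ^ 2 + η') + 2 * η' * len J * (n - 1 : ℕ))) +
        √(2 * len J * av J X' ^ 2 + 2 * (len J * (av J X' ^ 2 + η'))) + (b + 1) * δ') := by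
  obtain ⟨D, h1, h2⟩ := stackZJ hB hr hκ h hR hP (n - 1)
  obtain ⟨D', h1', h2'⟩ := stackG hB' hr' hκ' h' hR hP (n - 1)
  have hρ : ∀ s : Σ i, Ω i, 0 ≤ rJ κ ν s := fun s => mul_nonneg (hκ s.1) (hB s.1).nu.le
  have h3 := move_I hρ (fun _ => zero_le_one) hn hM hδ hδ' hT
    (fun k => ZJ Bd pos N a r (Rk R S (min k (n - 1) + 1)) J f)
    (fun k y => tau h0' (gl (Rk R S (min k (n - 1) + 1)) f' y)) D D' h1 h2
    (fun k l hkl => by
      refine le_trans ?_ (h1' k l hkl)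
      unfold qW
      refine Finset.sum_le_sum fun y _ => ?_
      rw [one_mul]
      exact pow_le_pow_left₀ (norm_nonneg _) (tau_lip hh0 _ _) 2) h2'
    (fun k => hh (min k (n - 1) + 1) (by omega)) (fun k y _ => tau_le hh0 _) hH hH'
  have h4 : ∀ k ∈ range n, T k (ZJ Bd pos N a r (Rk R S (min k (n - 1) + 1)) J f)
      (fun y => tau h0' (gl (Rk R S (min k (n - 1) + 1)) f' y)) =
      T k (ZJ Bd pos N a r (Rk R S (k + 1)) J f)
      (fun y => tau h0' (gl (Rk R S (k + 1)) f' y)) := by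
    intro k hk
    have := Finset.mem_range.1 hk
    rw [show min k (n - 1) = k by omega]
  rw [Finset.sum_congr rfl h4] at h3
  refine h3.trans ?_
  have h5 := nW_ZJ hB hr hκ h hR hP (k := min (2 ^ b - 1) (n - 1) + 1) (by omega)
  have hfull : Full (Rk R S (min (2 ^ b - 1) (n - 1) + 1)) J := full_Rk hR hP (by omega)
  have h6 : nW (iv J) (fun _ => (1 : ℝ))
      (fun y => tau h0' (gl (Rk R S (min (2 ^ b - 1) (n - 1) + 1)) f' y)) ≤
      √(2 * len J * av J X' ^ 2 + 2 * (len J * (av J X' ^ 2 + η'))) := by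
    refine Real.sqrt_le_sqrt ?_
    set g' := gl (Rk R S (min (2 ^ b - 1) (n - 1) + 1)) f' with hg'
    have h7 : qW (iv J) (fun _ => (1 : ℝ)) (fun y => tau h0' (g' y)) ≤
        ∑ y ∈ iv J, (2 * ‖X' y‖ ^ 2 + 2 * ‖X' y - g' y‖ ^ 2) := by
      unfold qW
      refine Finset.sum_le_sum fun y _ => ?_
      rw [one_mul]
      have h8 := tau_le' hh0 (g' y)
      have h9 : ‖g' y‖ ≤ ‖X' y‖ + ‖X' y - g' y‖ := by
        have := norm_sub_le (X' y) (X' y - g' y)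
        rwa [sub_sub_cancel] at this
      have h10 := norm_nonneg (tau h0' (g' y))
      nlinarith [sq_nonneg (‖X' y‖ - ‖X' y - g' y‖), norm_nonneg (X' y),
        norm_nonneg (X' y - g' y)]
    refine h7.trans ?_
    rw [Finset.sum_add_distrib, ← Finset.mul_sum, ← Finset.mul_sum, sum_av', sum_av']
    have hvl : len J * av J (fun y => X' y - g' y) ^ 2 ≤ len J * (av J X' ^ 2 + η') := by
      refine le_trans ?_ (SL_Jv_le hB' hr' hκ' h' hfull)
      rw [← SL_av hfull (fun y => X' y - g' y) J hfull.top]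
      refine SL_mono fun L hL _ => ?_
      have e1 : av L (fun y => X' y - g' y) = av L (fun y => X' y - f' L y) :=
        TWin.av_congr fun y hy => by rw [hg', gl_eq hfull f' hL hy]
      rw [e1]
      have hP' := pen_ThF (a := a') (κ := κ') hB' hr' hκ'
      have h11 : 0 ≤ ThF Bd' pos' N' ν' a' r' κ' L (f' L) := hP'.nonneg L _
      unfold Jv vl
      linarith
    nlinarith [hvl]
  refine mul_le_mul ?_ ?_ ?_ ?_
  · refine mul_le_mul_of_nonneg_left ?_ hM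
    linarith
  · linarith
  · have := nW_nonneg (iv J) (fun _ => (1 : ℝ))
      (fun y => tau h0' (gl (Rk R S (min (2 ^ b - 1) (n - 1) + 1)) f' y))
    positivity
  · positivity

end two

end Crest.Agent.R079.GaTx571
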