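import Crest.Agent.R079.GaB_571
import Crest.Agent.R079.GaT_571

/-! R079, Step I, (G) words (helper571): the JOINT bilinear forms of the stacks over a finite family of
atoms (weights `μ l`), and `StatI` for them from an absolute bound atom by atom (Cauchy-Schwarz over
the mixture).

`ι` = atoms, `I'` = index set of the threshold functional (atoms × ladder), `c0 : ι → I'` the indices
of the lowest threshold. -/

set_option autoImplicit false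

namespace Crest.Agent.R079.GaVx571

open Finset Crest.Agent.R079.Grid Crest.Agent.R079.Glue Crest.Agent.R079.Growth
open Crest.Agent.R079.GaAx571 Crest.Agent.R079.GaBx571 Crest.Agent.R079.GaMx571
  Crest.Agent.R079.GaSx571 Crest.Agent.R079.MovC

section joint

variable {ι I' : Type*} [Fintype ι] [Fintype I']

/-- the component of a joint letter -/
def cmp (i : I') : ((Σ _ : I', ℤ × ℤ × ℤ) → ℂ) →ₗ[ℝ] (ℤ × ℤ × ℤ → ℂ) where
  toFun u := fun ω => u ⟨i, ω⟩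
  map_add' _ _ := rfl
  map_smul' _ _ := rfl

/-- **joint bilinear form**: atoms `(T l, g l)` with weights `μ l`; kernel letters on the edge `e`, line
letter on the edge `e'`, the other letters `F` -/
noncomputable def TJ (j : Fin 4) (bb : ℤ) (T : ι → Fin 3 → Finset ℤ) (g : ι → Fin 3 → ℤ → ℤ → ℂ)
    (μ : ι → ℝ) (c0 : ι → I') (P : Finset (ℤ × ℤ × ℤ)) (M : ℕ) (χ : ι → ℕ → ℤ × ℤ × ℤ → ℕ → ℂ)
    (F : Fin 4 → ℤ → ℂ) (B : ι → Finset (ℤ × ℤ × ℤ)) (e e' : Fin 3) (hee : e ≠ e') :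
    ((Σ _ : I', ℤ × ℤ × ℤ) → ℂ) →ₗ[ℝ] (ℤ → ℂ) →ₗ[ℝ] ℂ :=
  ∑ l, μ l • (Tk j bb (T l) (g l) P M (χ l) F (B l) e e' hee).comp (cmp (c0 l))

omit [Fintype I'] in
lemma TJ_apply (j : Fin 4) (bb : ℤ) (T : ι → Fin 3 → Finset ℤ) (g : ι → Fin 3 → ℤ → ℤ → ℂ)
    (μ : ι → ℝ) (c0 : ι → I') (P : Finset (ℤ × ℤ × ℤ)) (M : ℕ) (χ : ι → ℕ → ℤ × ℤ × ℤ → ℕ → ℂ)
    (F : Fin 4 → ℤ → ℂ) (B : ι → Finset (ℤ × ℤ × ℤ)) (e e' : Fin 3) (hee : e ≠ e')
    (u : (Σ _ : I', ℤ × ℤ × ℤ) → ℂ) (v : ℤ → ℂ) :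
    TJ j bb T g μ c0 P M χ F B e e' hee u v = ∑ l, ((μ l : ℝ) : ℂ) *
      TT bb P M (χ l) (Function.update (Function.update (lks j (T l) (g l) F) e'
        (lk j (T l) (g l) e' v)) e (ker (B l) (fun ω => u ⟨c0 l, ω⟩))) := by
  unfold TJ
  rw [LinearMap.sum_apply, LinearMap.sum_apply]
  refine Finset.sum_congr rfl fun l _ => ?_
  rw [LinearMap.smul_apply, LinearMap.smul_apply, LinearMap.comp_apply, Tk_apply,
    Complex.real_smul]
  rfl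

/-- Cauchy-Schwarz over the mixture -/
lemma mix_cs (μ x : ι → ℝ) (hμ : ∀ l, 0 ≤ μ l) (hx : ∀ l, 0 ≤ x l) {La A : ℝ}
    (hLa : ∑ l, μ l ≤ La) (hA : ∑ l, μ l * x l ≤ A) : ∑ l, μ l * √(x l) ≤ √La * √A := by
  have h1 : (∑ l, μ l * √(x l)) ^ 2 ≤ (∑ l, μ l) * ∑ l, μ l * x l := by
    have h2 := Finset.sum_mul_sq_le_sq_mul_sq Finset.univ (fun l => √(μ l)) (fun l => √(μ l * x l))
    have e1 : ∀ l, √(μ l) * √(μ l * x l) = μ l * √(x l) := fun l => by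
      rw [Real.sqrt_mul (hμ l), ← mul_assoc, Real.mul_self_sqrt (hμ l)]
    have e2 : ∀ l, √(μ l) ^ 2 = μ l := fun l => Real.sq_sqrt (hμ l)
    have e3 : ∀ l, √(μ l * x l) ^ 2 = μ l * x l := fun l => Real.sq_sqrt (mul_nonneg (hμ l) (hx l))
    simp only [e1, e2, e3] at h2
    exact h2
  have hLa0 : 0 ≤ La := (Finset.sum_nonneg fun l _ => hμ l).trans hLa
  have hA0 : 0 ≤ A := (Finset.sum_nonneg fun l _ => mul_nonneg (hμ l) (hx l)).trans hA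
  have h3 : (∑ l, μ l * √(x l)) ^ 2 ≤ (√La * √A) ^ 2 := by
    rw [mul_pow, Real.sq_sqrt hLa0, Real.sq_sqrt hA0]
    exact h1.trans (mul_le_mul hLa hA (Finset.sum_nonneg fun l _ => mul_nonneg (hμ l) (hx l)) hLa0)
  exact (abs_le_of_sq_le_sq' h3 (by positivity)).2

/-- `√(a + b) ≤ √a + √b` -/
lemma sqrt_add_le' {a b : ℝ} (ha : 0 ≤ a) (hb : 0 ≤ b) : √(a + b) ≤ √a + √b := by
  rw [Real.sqrt_le_left (by positivity)]
  nlinarith [Real.sq_sqrt ha, Real.sq_sqrt hb, Real.sqrt_nonneg a, Real.sqrt_nonneg b,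
    mul_nonneg (Real.sqrt_nonneg a) (Real.sqrt_nonneg b)]

/-- **`StatI` of the joint forms of the stacks.** `hG`: absolute bound over the good boxes, atom by
atom, with floors `fa`, `fb` (in units where the atom has `n = ` side, `cn = n²`). -/
theorem statI_joint (j : Fin 4) (bb : ℤ) (T : ι → Fin 3 → Finset ℤ) (g : ι → Fin 3 → ℤ → ℤ → ℂ)
    (μ : ι → ℝ) (hμ : ∀ l, 0 ≤ μ l) (c0 : ι → I') (hc0 : Function.Injective c0)
    (P : Finset (ℤ × ℤ × ℤ)) (M : ℕ) (F : Fin 4 → ℤ → ℂ) (Bd : I' → Nd → Finset (ℤ × ℤ × ℤ)) (J : Nd)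
    (e e' : Fin 3) (hee : e ≠ e') {R : Finset Nd} {idx : Nd → ℕ} {ε : ℕ → ℤ → ℂ}
    (hε : ∀ m x, ‖ε m x‖ ≤ 1) (Gd : ι → ℕ → ℤ × ℤ × ℤ → ℕ → Prop)
    {κ ν : I' → ℝ} (hκ : ∀ i, 0 ≤ κ i) (hν : ∀ i, 0 ≤ ν i) {La kap cn N1 fa fb H H' : ℝ}
    (hLa0 : 0 < La) (hkap : 0 < kap) (hcn : 0 < cn) (hN1 : 0 ≤ N1) (hfa : 0 ≤ fa) (hfb : 0 ≤ fb)
    (hLa : ∑ l, μ l ≤ La) (hkn : ∀ l, kap * μ l / (La * cn) ≤ κ (c0 l) * ν (c0 l))
    (hG : ∀ (l : ι) (u : ℤ × ℤ × ℤ → ℂ) (v : ℤ → ℂ), (∀ ω ∈ Bd (c0 l) J, ‖u ω‖ ≤ H) →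
      (∀ y ∈ iv J, ‖v y‖ ≤ H') →
      TA bb P M (fun n p i => Gd l n p i ∧ AdX R n (xv j bb n p))
        (Function.update (Function.update (lks j (T l) (g l) F) e' (lk j (T l) (g l) e' v)) e
          (ker (Bd (c0 l) J) u)) ≤
        N1 * cn * (√((∑ ω ∈ Bd (c0 l) J, ‖u ω‖ ^ 2) / cn + fa) * √(∑ y ∈ iv J, ‖v y‖ ^ 2 + fb)))
    (m : ℕ) :
    StatI (BJ Bd J) (rJ κ ν) H √(kap * fa) (iv J) (fun _ => 1) H' √fb m
      (fun k => TJ j bb T g (fun l => μ l / cn) c0 P M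
        (fun l => gchi (Gd l) (chi j bb (R.filter (fun q => idx q = k)) ε)) F
          (fun l => Bd (c0 l) J) e e' hee) (N1 * (La / √kap)) := by
  classical
  intro s hs u v hu hv
  -- term by term
  have h1 : ‖∑ k ∈ range m, ((s k : ℝ) : ℂ) * TJ j bb T g (fun l => μ l / cn) c0 P M
        (fun l => gchi (Gd l) (chi j bb (R.filter (fun q => idx q = k)) ε)) F
          (fun l => Bd (c0 l) J) e e' hee u v‖ ≤
      ∑ l, (μ l / cn) * (N1 * cn * (√((∑ ω ∈ Bd (c0 l) J, ‖u ⟨c0 l, ω⟩‖ ^ 2) / cn + fa) *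
        √(∑ y ∈ iv J, ‖v y‖ ^ 2 + fb))) := by
    simp only [TJ_apply, Finset.mul_sum]
    rw [Finset.sum_comm]
    refine (norm_sum_le _ _).trans (Finset.sum_le_sum fun l _ => ?_)
    have e1 : ∑ k ∈ range m, ((s k : ℝ) : ℂ) * (((μ l / cn : ℝ) : ℂ) * TT bb P M
        (gchi (Gd l) (chi j bb (R.filter (fun q => idx q = k)) ε))
        (Function.update (Function.update (lks j (T l) (g l) F) e'
        (lk j (T l) (g l) e' v)) e (ker (Bd (c0 l) J) (fun ω => u ⟨c0 l, ω⟩)))) =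
        ((μ l / cn : ℝ) : ℂ) * ∑ k ∈ range m, ((s k : ℝ) : ℂ) * TT bb P M
        (gchi (Gd l) (chi j bb (R.filter (fun q => idx q = k)) ε))
        (Function.update (Function.update (lks j (T l) (g l) F) e'
        (lk j (T l) (g l) e' v)) e (ker (Bd (c0 l) J) (fun ω => u ⟨c0 l, ω⟩))) := by
      rw [Finset.mul_sum]
      exact Finset.sum_congr rfl fun k _ => by ring
    rw [e1, norm_mul, Complex.norm_real, Real.norm_of_nonneg (div_nonneg (hμ l) hcn.le)]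
    refine mul_le_mul_of_nonneg_left ?_ (div_nonneg (hμ l) hcn.le)
    rw [TT_chi_sum]
    refine (norm_TT_le bb P M (Gd := fun n p i => Gd l n p i ∧ AdX R n (xv j bb n p)) _ ?_).trans
      (hG l (fun ω => u ⟨c0 l, ω⟩) v (fun ω hω => hu ⟨c0 l, ω⟩ ?_) hv)
    · intro n _ p _ i _
      have h2 := chi_comb j bb (R := R) (m := m) (idx := idx) (fun k => ((s k : ℝ) : ℂ))
        (fun k => by rw [Complex.norm_real, Real.norm_eq_abs, hs k]) hε n p i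
      have e2 : ∑ k ∈ range m, ((s k : ℝ) : ℂ) *
          gchi (Gd l) (chi j bb (R.filter (fun q => idx q = k)) ε) n p i =
          if Gd l n p i then ∑ k ∈ range m, ((s k : ℝ) : ℂ) *
            chi j bb (R.filter (fun q => idx q = k)) ε n p i else 0 := by
        unfold gchi
        split_ifs
        · rfl
        · simp
      rw [e2]
      constructor
      · split_ifs
        · exact h2.1
        · simp
      · intro hn
        split_ifs with hg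
        · exact h2.2 fun ha => hn ⟨hg, ha⟩
        · rfl
    · unfold BJ
      exact Finset.mem_sigma.2 ⟨Finset.mem_univ _, hω⟩
  refine h1.trans ?_
  set q : ι → ℝ := fun l => (∑ ω ∈ Bd (c0 l) J, ‖u ⟨c0 l, ω⟩‖ ^ 2) / cn + fa with hq
  have hq0 : ∀ l, 0 ≤ q l := fun l =>
    add_nonneg (div_nonneg (Finset.sum_nonneg fun _ _ => sq_nonneg _) hcn.le) hfa
  have h3 : ∑ l, (μ l / cn) * (N1 * cn * (√(q l) * √(∑ y ∈ iv J, ‖v y‖ ^ 2 + fb))) =
      N1 * (∑ l, μ l * √(q l)) * √(∑ y ∈ iv J, ‖v y‖ ^ 2 + fb) := by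
    rw [Finset.mul_sum, Finset.sum_mul]
    refine Finset.sum_congr rfl fun l _ => ?_
    field_simp
  rw [h3]
  -- the joint norm
  have h4 : ∑ l, μ l * q l ≤ La / kap * (qW (BJ Bd J) (rJ κ ν) u + kap * fa) := by
    have h5 : ∀ l, μ l * q l ≤ La / kap * (κ (c0 l) * ν (c0 l) *
        ∑ ω ∈ Bd (c0 l) J, ‖u ⟨c0 l, ω⟩‖ ^ 2) + μ l * fa := by
      intro l
      have h6 : μ l / cn ≤ La / kap * (κ (c0 l) * ν (c0 l)) := by
        have h7 := mul_le_mul_of_nonneg_left (hkn l) (show 0 ≤ La / kap by positivity)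
        refine le_trans (le_of_eq ?_) h7
        field_simp
      have h8 : 0 ≤ ∑ ω ∈ Bd (c0 l) J, ‖u ⟨c0 l, ω⟩‖ ^ 2 := Finset.sum_nonneg fun _ _ => sq_nonneg _
      have h9 := mul_le_mul_of_nonneg_right h6 h8
      simp only [hq]
      rw [mul_add]
      have e : μ l * ((∑ ω ∈ Bd (c0 l) J, ‖u ⟨c0 l, ω⟩‖ ^ 2) / cn) =
          μ l / cn * ∑ ω ∈ Bd (c0 l) J, ‖u ⟨c0 l, ω⟩‖ ^ 2 := by ring
      rw [e]
      linarith
    refine (Finset.sum_le_sum fun l _ => h5 l).trans ?_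
    rw [Finset.sum_add_distrib, ← Finset.mul_sum, ← Finset.sum_mul]
    have h6 : ∑ l, κ (c0 l) * ν (c0 l) * ∑ ω ∈ Bd (c0 l) J, ‖u ⟨c0 l, ω⟩‖ ^ 2 ≤
        qW (BJ Bd J) (rJ κ ν) u := by
      have e0 : qW (BJ Bd J) (rJ κ ν) u = ∑ i, κ i * ν i * ∑ ω ∈ Bd i J, ‖u ⟨i, ω⟩‖ ^ 2 :=
        qW_BJ Bd κ ν J u
      rw [e0]
      have e1 : ∑ l, κ (c0 l) * ν (c0 l) * ∑ ω ∈ Bd (c0 l) J, ‖u ⟨c0 l, ω⟩‖ ^ 2 =
          ∑ i ∈ Finset.univ.image c0, κ i * ν i * ∑ ω ∈ Bd i J, ‖u ⟨i, ω⟩‖ ^ 2 :=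
        (Finset.sum_image (f := fun i => κ i * ν i * ∑ ω ∈ Bd i J, ‖u ⟨i, ω⟩‖ ^ 2)
          (s := Finset.univ) (g := c0) (fun a _ b _ h => hc0 h)).symm
      rw [e1]
      refine Finset.sum_le_sum_of_subset_of_nonneg (Finset.subset_univ _) fun i _ _ => ?_
      exact mul_nonneg (mul_nonneg (hκ i) (hν i)) (Finset.sum_nonneg fun _ _ => sq_nonneg _)
    have h7 := mul_le_mul_of_nonneg_left h6 (show 0 ≤ La / kap by positivity)
    have h8 := mul_le_mul_of_nonneg_right hLa hfa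
    have e2 : La / kap * (qW (BJ Bd J) (rJ κ ν) u + kap * fa) =
        La / kap * qW (BJ Bd J) (rJ κ ν) u + La * fa := by field_simp
    rw [e2]
    linarith
  have hρ : ∀ t : Σ _ : I', ℤ × ℤ × ℤ, 0 ≤ rJ κ ν t := fun t => mul_nonneg (hκ t.1) (hν t.1)
  have hqW := qW_nonneg (A := BJ Bd J) hρ u
  have h9 := mix_cs μ q hμ hq0 hLa h4
  have h10 : √La * √(La / kap * (qW (BJ Bd J) (rJ κ ν) u + kap * fa)) ≤
      La / √kap * (nW (BJ Bd J) (rJ κ ν) u + √(kap * fa)) := by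
    rw [Real.sqrt_mul (by positivity), Real.sqrt_div hLa0.le, ← mul_assoc]
    have e3 : √La * (√La / √kap) = La / √kap := by
      rw [← mul_div_assoc, Real.mul_self_sqrt hLa0.le]
    rw [e3]
    refine mul_le_mul_of_nonneg_left ?_ (by positivity)
    exact sqrt_add_le' hqW (by positivity)
  have h11 : √(∑ y ∈ iv J, ‖v y‖ ^ 2 + fb) ≤ nW (iv J) (fun _ => 1) v + √fb := by
    have e4 : nW (iv J) (fun _ => (1 : ℝ)) v = √(∑ y ∈ iv J, ‖v y‖ ^ 2) := by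
      unfold nW qW
      congr 1
      exact Finset.sum_congr rfl fun y _ => one_mul _
    rw [e4]
    exact sqrt_add_le' (Finset.sum_nonneg fun _ _ => sq_nonneg _) hfb
  have h12 : N1 * (∑ l, μ l * √(q l)) ≤
      N1 * (La / √kap * (nW (BJ Bd J) (rJ κ ν) u + √(kap * fa))) :=
    mul_le_mul_of_nonneg_left (h9.trans h10) hN1
  calc N1 * (∑ l, μ l * √(q l)) * √(∑ y ∈ iv J, ‖v y‖ ^ 2 + fb)
      ≤ N1 * (La / √kap * (nW (BJ Bd J) (rJ κ ν) u + √(kap * fa))) *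
          (nW (iv J) (fun _ => 1) v + √fb) := by
        refine mul_le_mul h12 h11 (Real.sqrt_nonneg _) ?_
        have := nW_nonneg (BJ Bd J) (rJ κ ν) u
        positivity
    _ = _ := by ring

end joint

end Crest.Agent.R079.GaVx571
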