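import Crest.Agent.R079.GaT_571

/-! R079, Step I, MOVE with TRUNCATED kernel letters (helper260).

The own minimisers have no sup bound, and on the small Whitney cells near the ends of a leaf not even
small rows, so the kernel letters above the thresholds `ZJ` have no sup bound.  As the truncation
`tau h` is `1`-Lipschitz, `tau h ∘ ZJ` has the same quadratic variation; the remainder
`z - tau h z` is small entrywise against `‖z‖² / h` (`tau_rest`).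

* `nW_tau`, `qW_tau` : norms and increments decrease under `tau`;
* `tau_rest`, `tau_rest2` : `‖z - tau h z‖ ≤ ‖z‖² / h`, `‖z - tau h z‖² ≤ ‖z‖²`;
* **`move_tZJ`** : static partner; **`move_tZJG`** : truncated moving glued partner. -/

set_option autoImplicit false

namespace Crest.Agent.R079.GaZx260

open Finset Crest.Agent.R079.Grid Crest.Agent.R079.Growth Crest.Agent.R079.QRed
  Crest.Agent.R079.Qh249 Crest.Agent.R079.TWin
open Crest.Agent.R079.RelW653 (vl NMP Jv Dv av_par sum_av' lf_sum_eq')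
open Crest.Agent.R079.RelV653 Crest.Agent.R079.ThA159 Crest.Agent.R079.ThB159
open Crest.Agent.R079.Stk (Rk Rk_mono full_Rk)
open Crest.Agent.R079.GaMx571 Crest.Agent.R079.GaSx571 Crest.Agent.R079.GaTx571

section base

variable {Ω : Type*}

/-- the remainder of the truncation -/
lemma tau_rest {h : ℝ} (hh : 0 < h) (z : ℂ) : ‖z - tau h z‖ ≤ ‖z‖ ^ 2 / h := by
  rw [le_div_iff₀ hh]
  by_cases hz : ‖z‖ ≤ h
  · rw [(tau_sub hh.le z).2 hz, norm_zero, zero_mul]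
    positivity
  · push Not at hz
    have h1 := (tau_sub hh.le z).1
    have h2 := norm_nonneg (z - tau h z)
    nlinarith [norm_nonneg z]

lemma qW_tau {A : Finset Ω} {ρ : Ω → ℝ} (hρ : ∀ ω, 0 ≤ ρ ω) {h : ℝ} (hh : 0 ≤ h) (x y : Ω → ℂ) :
    qW A ρ ((fun ω => tau h (x ω)) - fun ω => tau h (y ω)) ≤ qW A ρ (x - y) := by
  unfold qW
  refine Finset.sum_le_sum fun ω _ => mul_le_mul_of_nonneg_left ?_ (hρ ω)
  simp only [Pi.sub_apply]
  exact pow_le_pow_left₀ (norm_nonneg _) (tau_lip hh _ _) 2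

lemma nW_tau {A : Finset Ω} {ρ : Ω → ℝ} (hρ : ∀ ω, 0 ≤ ρ ω) {h : ℝ} (hh : 0 ≤ h) (x : Ω → ℂ) :
    nW A ρ (fun ω => tau h (x ω)) ≤ nW A ρ x := by
  unfold nW qW
  refine Real.sqrt_le_sqrt (Finset.sum_le_sum fun ω _ => mul_le_mul_of_nonneg_left ?_ (hρ ω))
  exact pow_le_pow_left₀ (norm_nonneg _) (tau_le' hh _) 2

end base

section family

variable {ι : Type*} [Fintype ι] {Ω : ι → Type*} {Bd : ∀ i, Nd → Finset (Ω i)}
  {pos : ∀ i, Ω i → ℤ} {N : ∀ i, Nd → (Ω i → ℂ) → ℝ} {ν : ι → ℝ} {a : ∀ i, Ω i → ℂ} {r : ι → ℝ}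
  {κ : ι → ℝ} {X : Fn} {η : ℝ} {f : Nd → Fn}

/-- the truncated joint kernel letter above the thresholds -/
noncomputable def tZ (h0 : ℝ) (Bd : ∀ i, Nd → Finset (Ω i)) (pos : ∀ i, Ω i → ℤ)
    (N : ∀ i, Nd → (Ω i → ℂ) → ℝ) (a : ∀ i, Ω i → ℂ) (r : ι → ℝ) (W : Finset Nd) (J : Nd)
    (f : Nd → Fn) : (Σ i, Ω i) → ℂ :=
  fun s => tau h0 (ZJ Bd pos N a r W J f s)

variable (hB : ∀ i, Bnd (Bd i) (pos i) (N i) (ν i)) (hr : ∀ i, 0 ≤ r i) (hκ : ∀ i, 0 ≤ κ i)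
  (h : NMP (fun _ _ => True) (ThF Bd pos N ν a r κ) X η f)

include hB hr hκ h

variable {R S : Finset Nd} {J : Nd} {W : Nd → Finset Nd} {C : ℝ} (hR : Full R J)
  (hP : TWin.Part R S W C)

include hR hP

/-- **MOVE on the stacks, truncated joint kernel letters against a static partner** -/
theorem move_tZJ {Ω' : Type*} {A' : Finset Ω'} {ρ' : Ω' → ℝ} (hρ' : ∀ ω, 0 ≤ ρ' ω) {n b : ℕ}
    (hn : n ≤ 2 ^ b) {T : ℕ → ((Σ i, Ω i) → ℂ) →ₗ[ℝ] (Ω' → ℂ) →ₗ[ℝ] ℂ} {M H H' δ δ' h0 h0' : ℝ}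
    (hM : 0 ≤ M) (hδ : 0 ≤ δ) (hδ' : 0 ≤ δ')
    (hT : StatI (BJ Bd J) (rJ κ ν) H δ A' ρ' H' δ' n T M) (y : Ω' → ℂ) (hh : 0 ≤ h0)
    (hh' : ∀ ω ∈ A', ‖y ω‖ ≤ h0') (hH : 2 ^ (b + 1) * h0 ≤ H) (hH' : 2 ^ (b + 1) * h0' ≤ H') :
    ‖∑ k ∈ range n, T k (tZ h0 Bd pos N a r (Rk R S (k + 1)) J f) y‖ ≤
      M * (b * √(4 * (len J * (av J X ^ 2 + η) + 2 * η * len J * (n - 1 : ℕ))) +
        √(len J * (av J X ^ 2 + η)) + (b + 1) * δ) * (nW A' ρ' y + (b + 1) * δ') := by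
  obtain ⟨D, h1, h2⟩ := stackZJ hB hr hκ h hR hP (n - 1)
  have hρ : ∀ s : Σ i, Ω i, 0 ≤ rJ κ ν s := fun s => mul_nonneg (hκ s.1) (hB s.1).nu.le
  have h3 := move_I_one hρ hρ' hn hM hδ hδ' hT
    (fun k => tZ h0 Bd pos N a r (Rk R S (min k (n - 1) + 1)) J f) y D
    (fun k l hkl => (qW_tau hρ hh _ _).trans (h1 k l hkl)) h2
    (fun k s _ => tau_le hh _) hh' hH hH'
  have h4 : ∀ k ∈ range n, T k (tZ h0 Bd pos N a r (Rk R S (min k (n - 1) + 1)) J f) y =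
      T k (tZ h0 Bd pos N a r (Rk R S (k + 1)) J f) y := by
    intro k hk
    have := Finset.mem_range.1 hk
    rw [show min k (n - 1) = k by omega]
  rw [Finset.sum_congr rfl h4] at h3
  refine h3.trans ?_
  have h5 := (nW_tau (A := BJ Bd J) hρ hh
    (ZJ Bd pos N a r (Rk R S (min (2 ^ b - 1) (n - 1) + 1)) J f)).trans
    (nW_ZJ hB hr hκ h hR hP (k := min (2 ^ b - 1) (n - 1) + 1) (by omega))
  have h6 : 0 ≤ nW A' ρ' y + (b + 1) * δ' :=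
    add_nonneg (nW_nonneg _ _ _) (by positivity)
  refine mul_le_mul_of_nonneg_right ?_ h6
  refine mul_le_mul_of_nonneg_left ?_ hM
  have h7 : nW (BJ Bd J) (rJ κ ν)
      (tZ h0 Bd pos N a r (Rk R S (min (2 ^ b - 1) (n - 1) + 1)) J f) ≤
      √(len J * (av J X ^ 2 + η)) := h5
  linarith

end family

section two

variable {ι : Type*} [Fintype ι] {Ω : ι → Type*} {Bd : ∀ i, Nd → Finset (Ω i)}
  {pos : ∀ i, Ω i → ℤ} {N : ∀ i, Nd → (Ω i → ℂ) → ℝ} {ν : ι → ℝ} {a : ∀ i, Ω i → ℂ} {r : ι → ℝ}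
  {κ : ι → ℝ} {X : Fn} {η : ℝ} {f : Nd → Fn}
  {ι' : Type*} [Fintype ι'] {Ω' : ι' → Type*} {Bd' : ∀ i, Nd → Finset (Ω' i)}
  {pos' : ∀ i, Ω' i → ℤ} {N' : ∀ i, Nd → (Ω' i → ℂ) → ℝ} {ν' : ι' → ℝ} {a' : ∀ i, Ω' i → ℂ}
  {r' : ι' → ℝ} {κ' : ι' → ℝ} {X' : Fn} {η' : ℝ} {f' : Nd → Fn}

variable (hB : ∀ i, Bnd (Bd i) (pos i) (N i) (ν i)) (hr : ∀ i, 0 ≤ r i) (hκ : ∀ i, 0 ≤ κ i)
  (h : NMP (fun _ _ => True) (ThF Bd pos N ν a r κ) X η f)
  (hB' : ∀ i, Bnd (Bd' i) (pos' i) (N' i) (ν' i)) (hr' : ∀ i, 0 ≤ r' i) (hκ' : ∀ i, 0 ≤ κ' i)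
  (h' : NMP (fun _ _ => True) (ThF Bd' pos' N' ν' a' r' κ') X' η' f')
  {R S : Finset Nd} {J : Nd} {W : Nd → Finset Nd} {C : ℝ} (hR : Full R J)
  (hP : TWin.Part R S W C)

include hB' hr' hκ' h' hR hP in
/-- norm of the truncated glued letter on a stack -/
lemma nW_tG {h0' : ℝ} (hh0 : 0 ≤ h0') {k : ℕ} (hk : 1 ≤ k) :
    nW (iv J) (fun _ => (1 : ℝ)) (fun y => tau h0' (gl (Rk R S k) f' y)) ≤
      √(2 * len J * av J X' ^ 2 + 2 * (len J * (av J X' ^ 2 + η'))) := by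
  have hfull : Full (Rk R S k) J := full_Rk hR hP hk
  refine Real.sqrt_le_sqrt ?_
  set g' := gl (Rk R S k) f' with hg'
  have h7 : qW (iv J) (fun _ => (1 : ℝ)) (fun y => tau h0' (g' y)) ≤
      ∑ y ∈ iv J, (2 * ‖X' y‖ ^ 2 + 2 * ‖X' y - g' y‖ ^ 2) := by
    unfold qW
    refine Finset.sum_le_sum fun y _ => ?_
    rw [one_mul]
    have h8 := tau_le' hh0 (g' y)
    have h9 : ‖g' y‖ ≤ ‖X' y‖ + ‖X' y - g' y‖ := by
      have := norm_sub_le (X' y) (X' y - g' y)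
      rwa [sub_sub_cancel] at this
    have h10 := norm_nonneg (tau h0' (g' y))
    nlinarith [sq_nonneg (‖X' y‖ - ‖X' y - g' y‖), norm_nonneg (X' y), norm_nonneg (X' y - g' y)]
  refine h7.trans ?_
  rw [Finset.sum_add_distrib, ← Finset.mul_sum, ← Finset.mul_sum, sum_av', sum_av']
  have hvl : len J * av J (fun y => X' y - g' y) ^ 2 ≤ len J * (av J X' ^ 2 + η') := by
    refine le_trans ?_ (SL_Jv_le hB' hr' hκ' h' hfull)
    rw [← SL_av hfull (fun y => X' y - g' y) J hfull.top]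
    refine SL_mono fun L hL _ => ?_
    have e1 : av L (fun y => X' y - g' y) = av L (fun y => X' y - f' L y) :=
      TWin.av_congr fun y hy => by rw [hg', gl_eq hfull f' hL hy]
    rw [e1]
    have hP' := pen_ThF (a := a') (κ := κ') hB' hr' hκ'
    have h11 : 0 ≤ ThF Bd' pos' N' ν' a' r' κ' L (f' L) := hP'.nonneg L _
    unfold Jv vl
    linarith
  nlinarith [hvl]

include hB hr hκ h hB' hr' hκ' h' hR hP

/-- **MOVE on the stacks, truncated joint kernel letters of one functional against the truncated glued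
letter of another functional** -/
theorem move_tZJG {n b : ℕ} (hn : n ≤ 2 ^ b)
    {T : ℕ → ((Σ i, Ω i) → ℂ) →ₗ[ℝ] (ℤ → ℂ) →ₗ[ℝ] ℂ} {M H H' δ δ' h0 h0' : ℝ}
    (hM : 0 ≤ M) (hδ : 0 ≤ δ) (hδ' : 0 ≤ δ')
    (hT : StatI (BJ Bd J) (rJ κ ν) H δ (iv J) (fun _ => 1) H' δ' n T M) (hh : 0 ≤ h0)
    (hh0 : 0 ≤ h0') (hH : 2 ^ (b + 1) * h0 ≤ H) (hH' : 2 ^ (b + 1) * h0' ≤ H') :
    ‖∑ k ∈ range n, T k (tZ h0 Bd pos N a r (Rk R S (k + 1)) J f)
      (fun y => tau h0' (gl (Rk R S (k + 1)) f' y))‖ ≤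
      M * (b * √(4 * (len J * (av J X ^ 2 + η) + 2 * η * len J * (n - 1 : ℕ))) +
        √(len J * (av J X ^ 2 + η)) + (b + 1) * δ) *
        (b * √(2 * (len J * (av J X' ^ 2 + η') + 2 * η' * len J * (n - 1 : ℕ))) +
        √(2 * len J * av J X' ^ 2 + 2 * (len J * (av J X' ^ 2 + η'))) + (b + 1) * δ') := by
  obtain ⟨D, h1, h2⟩ := stackZJ hB hr hκ h hR hP (n - 1)
  obtain ⟨D', h1', h2'⟩ := stackG hB' hr' hκ' h' hR hP (n - 1)
  have hρ : ∀ s : Σ i, Ω i, 0 ≤ rJ κ ν s := fun s => mul_nonneg (hκ s.1) (hB s.1).nu.le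
  have h3 := move_I hρ (fun _ => zero_le_one) hn hM hδ hδ' hT
    (fun k => tZ h0 Bd pos N a r (Rk R S (min k (n - 1) + 1)) J f)
    (fun k y => tau h0' (gl (Rk R S (min k (n - 1) + 1)) f' y)) D D'
    (fun k l hkl => (qW_tau hρ hh _ _).trans (h1 k l hkl)) h2
    (fun k l hkl => by
      refine le_trans ?_ (h1' k l hkl)
      unfold qW
      refine Finset.sum_le_sum fun y _ => ?_
      rw [one_mul]
      exact pow_le_pow_left₀ (norm_nonneg _) (tau_lip hh0 _ _) 2) h2'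
    (fun k s _ => tau_le hh _) (fun k y _ => tau_le hh0 _) hH hH'
  have h4 : ∀ k ∈ range n, T k (tZ h0 Bd pos N a r (Rk R S (min k (n - 1) + 1)) J f)
      (fun y => tau h0' (gl (Rk R S (min k (n - 1) + 1)) f' y)) =
      T k (tZ h0 Bd pos N a r (Rk R S (k + 1)) J f)
      (fun y => tau h0' (gl (Rk R S (k + 1)) f' y)) := by
    intro k hk
    have := Finset.mem_range.1 hk
    rw [show min k (n - 1) = k by omega]
  rw [Finset.sum_congr rfl h4] at h3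
  refine h3.trans ?_
  have h5 : nW (BJ Bd J) (rJ κ ν)
      (tZ h0 Bd pos N a r (Rk R S (min (2 ^ b - 1) (n - 1) + 1)) J f) ≤
      √(len J * (av J X ^ 2 + η)) := (nW_tau (A := BJ Bd J) hρ hh
    (ZJ Bd pos N a r (Rk R S (min (2 ^ b - 1) (n - 1) + 1)) J f)).trans
    (nW_ZJ hB hr hκ h hR hP (k := min (2 ^ b - 1) (n - 1) + 1) (by omega))
  have h6 := nW_tG hB' hr' hκ' h' hR hP hh0 (k := min (2 ^ b - 1) (n - 1) + 1) (by omega)
  refine mul_le_mul ?_ ?_ ?_ ?_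
  · refine mul_le_mul_of_nonneg_left ?_ hM
    linarith
  · linarith
  · have := nW_nonneg (iv J) (fun _ => (1 : ℝ))
      (fun y => tau h0' (gl (Rk R S (min (2 ^ b - 1) (n - 1) + 1)) f' y))
    positivity
  · positivity

end two

end Crest.Agent.R079.GaZx260
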