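import Crest.Agent.R072.Maximal

/-! R079, bad tiles (882 (4) / 924 (3)): at a fixed value of the frozen variable the tiles on which the
killer has a large operator norm are paid by the exceptional leaf tiles and the maximal function of the
`L¹` weight.  Pure combinatorics.  helper138. -/

set_option autoImplicit false
set_option linter.unusedVariables false

namespace Crest.Agent.R079.BadTx138

open Finset

/-! ### the maximal function on `ℤ` -/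

/-- maximal majorant of a finitely supported function on `ℤ` -/
theorem exists_max_int : ∃ C : ℝ, 0 ≤ C ∧ ∀ (th : ℤ → ℝ), (∀ x, 0 ≤ th x) → ∀ (S : Finset ℤ),
    (∀ x, x ∉ S → th x = 0) → ∀ X : ℕ, ∃ g : ℤ → ℝ, (∀ x, 0 ≤ g x) ∧
      (∀ (x : ℤ) (K : ℕ), ∑ d ∈ Icc (-(K : ℤ)) K, th (x + d) ≤ (2 * K + 1) * g x) ∧
      ∑ x ∈ Icc (-(X : ℤ)) X, g x ^ (3 / 2 : ℝ) ≤ C * ∑ x ∈ S, th x ^ (3 / 2 : ℝ) := by
  obtain ⟨C, hC, h⟩ := Crest.Agent.R072.Maximal.exists_maximal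
  refine ⟨C, hC, ?_⟩
  intro th hth S hS X
  -- a radius for the support
  obtain ⟨L, hL⟩ : ∃ L : ℕ, ∀ x ∈ S, |x| ≤ (L : ℤ) := by
    refine ⟨∑ x ∈ S, x.natAbs, fun x hx => ?_⟩
    have h1 : x.natAbs ≤ ∑ x ∈ S, x.natAbs :=
      Finset.single_le_sum (f := fun x : ℤ => x.natAbs) (fun _ _ => Nat.zero_le _) hx
    have h2 : |x| = (x.natAbs : ℤ) := Int.abs_eq_natAbs x
    rw [h2]
    exact_mod_cast h1
  set Q : ℕ := 2 * (L + X) + 1 with hQ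
  have : NeZero Q := ⟨by omega⟩
  set f : ZMod Q → ℝ := fun z => th z.valMinAbs with hf
  obtain ⟨g, hg0, hg1, hg2⟩ := h Q f (fun x => hth _)
  have hval : ∀ x : ℤ, |x| ≤ (L : ℤ) + X → ((x : ZMod Q)).valMinAbs = x := by
    intro x hx
    rw [ZMod.valMinAbs_spec]
    refine ⟨rfl, ?_⟩
    have := abs_le.1 hx
    constructor
    · omega
    · omega
  have hle : ∀ x : ℤ, th x ≤ f (x : ZMod Q) := by
    intro x
    by_cases hx : x ∈ S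
    · have := hL x hx
      rw [hf]
      simp only
      rw [hval x (by have : (0 : ℤ) ≤ X := by positivity
                     omega)]
    · rw [hS x hx]
      exact hth _
  refine ⟨fun x => g (x : ZMod Q), fun x => hg0 _, ?_, ?_⟩
  · intro x K
    refine le_trans (Finset.sum_le_sum fun d _ => hle (x + d)) ?_
    have := hg1 (x : ZMod Q) K
    simpa only [Int.cast_add] using this
  · have h1 : ∑ x ∈ Icc (-(X : ℤ)) X, g (x : ZMod Q) ^ (3 / 2 : ℝ) ≤ ∑ z : ZMod Q, g z ^ (3 / 2 : ℝ) := by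
      have hinj : Set.InjOn (fun x : ℤ => (x : ZMod Q)) (Icc (-(X : ℤ)) X : Finset ℤ) := by
        intro x hx y hy hxy
        simp only [Finset.coe_Icc, Set.mem_Icc] at hx hy
        have e1 := hval x (by rw [abs_le]; omega)
        have e2 := hval y (by rw [abs_le]; omega)
        have hxy' : (x : ZMod Q) = (y : ZMod Q) := hxy
        rw [← e1, ← e2, hxy']
      rw [← Finset.sum_image (f := fun z : ZMod Q => g z ^ (3 / 2 : ℝ)) (g := fun x : ℤ => (x : ZMod Q))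
        (s := Icc (-(X : ℤ)) X) hinj]
      exact Finset.sum_le_sum_of_subset_of_nonneg (Finset.subset_univ _)
        fun z _ _ => Real.rpow_nonneg (hg0 z) _
    have h2 : ∑ z : ZMod Q, f z ^ (3 / 2 : ℝ) ≤ ∑ x ∈ S, th x ^ (3 / 2 : ℝ) := by
      have hinj : Set.InjOn (fun x : ℤ => (x : ZMod Q)) (S : Set ℤ) := by
        intro x hx y hy hxy
        have e1 := hval x (by have := hL x hx; omega)
        have e2 := hval y (by have := hL y hy; omega)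
        have hxy' : (x : ZMod Q) = (y : ZMod Q) := hxy
        rw [← e1, ← e2, hxy']
      have e3 : ∑ x ∈ S, th x ^ (3 / 2 : ℝ) = ∑ z ∈ S.image (fun x : ℤ => (x : ZMod Q)),
          f z ^ (3 / 2 : ℝ) := by
        rw [Finset.sum_image hinj]
        refine Finset.sum_congr rfl fun x hx => ?_
        rw [hf]
        simp only
        rw [hval x (by have := hL x hx; omega)]
      rw [e3]
      refine le_of_eq (Finset.sum_subset (Finset.subset_univ _) ?_).symm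
      intro z _ hz
      have : z.valMinAbs ∉ S := by
        intro hzS
        apply hz
        rw [Finset.mem_image]
        exact ⟨z.valMinAbs, hzS, by simp⟩
      rw [hf]
      simp only
      rw [hS _ this]
      exact Real.zero_rpow (by norm_num)
    exact h1.trans (hg2.trans (mul_le_mul_of_nonneg_left h2 hC))

/-! ### bad tiles -/

/-- sum of `g` at the third vertex over a cube `(m, c, a, b)` of the space `(w, z, z')` -/
noncomputable def cubeS (g : ℤ → ℝ) (s0 : ℤ) (u : ℕ × ℤ × ℤ × ℤ) : ℝ :=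
  ∑ w ∈ Ico (u.2.1 * 2 ^ u.1) ((u.2.1 + 1) * 2 ^ u.1),
    ∑ z ∈ Ico (u.2.2.1 * 2 ^ u.1) ((u.2.2.1 + 1) * 2 ^ u.1),
      ∑ z' ∈ Ico (u.2.2.2 * 2 ^ u.1) ((u.2.2.2 + 1) * 2 ^ u.1), g (s0 - w - z - z')

theorem cubeS_nonneg {g : ℤ → ℝ} (hg : ∀ x, 0 ≤ g x) (s0 : ℤ) (u : ℕ × ℤ × ℤ × ℤ) :
    0 ≤ cubeS g s0 u :=
  Finset.sum_nonneg fun _ _ => Finset.sum_nonneg fun _ _ => Finset.sum_nonneg fun _ _ => hg _

lemma card_block (m : ℕ) (c : ℤ) : (Ico (c * 2 ^ m) ((c + 1) * 2 ^ m) : Finset ℤ).card = 2 ^ m := by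
  rw [Int.card_Ico]
  have : (c + 1) * 2 ^ m - c * 2 ^ m = ((2 ^ m : ℕ) : ℤ) := by
    push_cast; ring
  rw [this, Int.toNat_natCast]

/-- weight average of a square at the third vertex -/
noncomputable def avT (th : ℤ → ℝ) (s0 : ℤ) (K : ℕ) (B : ℕ × ℤ × ℤ) (w : ℤ) : ℝ :=
  (1 / (2 : ℝ) ^ B.1) * ∑ d ∈ Icc (-((K * 2 ^ B.1 : ℕ) : ℤ)) ((K * 2 ^ B.1 : ℕ) : ℤ),
    th (s0 - w - 2 ^ B.1 * B.2.1 - 2 ^ B.1 * B.2.2 + d)

theorem avT_nonneg {th : ℤ → ℝ} (hth : ∀ x, 0 ≤ th x) (s0 : ℤ) (K : ℕ) (B : ℕ × ℤ × ℤ) (w : ℤ) :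
    0 ≤ avT th s0 K B w :=
  mul_nonneg (by positivity) (Finset.sum_nonneg fun _ _ => hth _)

/-- the average of a square is below the majorant at every near point -/
theorem avT_le {th g : ℤ → ℝ} (hth : ∀ x, 0 ≤ th x)
    (hg : ∀ (x : ℤ) (K : ℕ), ∑ d ∈ Icc (-(K : ℤ)) K, th (x + d) ≤ (2 * K + 1) * g x)
    (s0 : ℤ) (K : ℕ) (B : ℕ × ℤ × ℤ) (w x : ℤ)
    (hx : |x - (s0 - w - 2 ^ B.1 * B.2.1 - 2 ^ B.1 * B.2.2)| ≤ 3 * 2 ^ B.1) :
    avT th s0 K B w ≤ (2 * K + 7) * g x := by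
  set y := s0 - w - 2 ^ B.1 * B.2.1 - 2 ^ B.1 * B.2.2 with hy
  have hN : (0 : ℝ) < 2 ^ B.1 := by positivity
  have h1 : ∑ d ∈ Icc (-((K * 2 ^ B.1 : ℕ) : ℤ)) ((K * 2 ^ B.1 : ℕ) : ℤ), th (y + d) ≤
      ∑ d ∈ Icc (-(((K + 3) * 2 ^ B.1 : ℕ) : ℤ)) (((K + 3) * 2 ^ B.1 : ℕ) : ℤ), th (x + d) := by
    have e : ∑ d ∈ Icc (-((K * 2 ^ B.1 : ℕ) : ℤ)) ((K * 2 ^ B.1 : ℕ) : ℤ), th (y + d) =
        ∑ d ∈ (Icc (-((K * 2 ^ B.1 : ℕ) : ℤ)) ((K * 2 ^ B.1 : ℕ) : ℤ)).image (fun d => d + (y - x)),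
          th (x + d) := by
      rw [Finset.sum_image (fun a _ b _ h => by simpa using h)]
      refine Finset.sum_congr rfl fun d _ => ?_
      congr 1
      ring
    rw [e]
    refine Finset.sum_le_sum_of_subset_of_nonneg ?_ (fun _ _ _ => hth _)
    intro d hd
    rw [Finset.mem_image] at hd
    obtain ⟨d', hd', rfl⟩ := hd
    rw [Finset.mem_Icc] at hd' ⊢
    have h2 := abs_le.1 hx
    push_cast at hd' ⊢
    constructor
    · nlinarith [hd'.1, h2.2]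
    · nlinarith [hd'.2, h2.1]
  have h2 := hg x ((K + 3) * 2 ^ B.1)
  have hg0 : 0 ≤ g x := by
    have := hg x 0
    simp at this
    linarith [hth x]
  unfold avT
  rw [← hy, one_div, inv_mul_le_iff₀ hN]
  refine h1.trans (h2.trans ?_)
  push_cast
  have h3 : (1 : ℝ) ≤ 2 ^ B.1 := one_le_pow₀ (by norm_num)
  nlinarith [mul_nonneg hg0 (sub_nonneg.2 h3)]

/-- **bad tiles.**  `U` = used cubes, `Ex m a b w` = the leaf tile `(m, a, b)` is exceptional at `w`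
(density at most `ρ` in every block of `w`), `BT w` = bad squares at `w`, each containing exceptional
leaf tiles `LT w B` of total area at least `cc` times its area. -/
theorem bad_tiles {th g : ℤ → ℝ} (hth : ∀ x, 0 ≤ th x)
    (hg : ∀ (x : ℤ) (K : ℕ), ∑ d ∈ Icc (-(K : ℤ)) K, th (x + d) ≤ (2 * K + 1) * g x)
    (U : Finset (ℕ × ℤ × ℤ × ℤ)) (Ex : ℕ → ℤ → ℤ → ℤ → Prop) [∀ m a b, DecidablePred (Ex m a b)]
    {ρ cc : ℝ} (hρ0 : 0 ≤ ρ) (hcc0 : 0 < cc)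
    (hρ : ∀ u ∈ U, (((Ico (u.2.1 * 2 ^ u.1) ((u.2.1 + 1) * 2 ^ u.1)).filter
      (Ex u.1 u.2.2.1 u.2.2.2)).card : ℝ) ≤ ρ * 2 ^ u.1)
    (Wf : Finset ℤ) (BT : ℤ → Finset (ℕ × ℤ × ℤ)) (LT : ℤ → (ℕ × ℤ × ℤ) → Finset (ℕ × ℤ × ℤ))
    (hsub : ∀ w ∈ Wf, ∀ B ∈ BT w, ∀ L ∈ LT w B, L.1 ≤ B.1 ∧ L.2.1 / 2 ^ (B.1 - L.1) = B.2.1 ∧
      L.2.2 / 2 ^ (B.1 - L.1) = B.2.2 ∧ (L.1, w / 2 ^ L.1, L.2.1, L.2.2) ∈ U ∧ Ex L.1 L.2.1 L.2.2 w)
    (hdis : ∀ w ∈ Wf, ∀ B ∈ BT w, ∀ B' ∈ BT w, B ≠ B' → Disjoint (LT w B) (LT w B'))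
    (hcc : ∀ w ∈ Wf, ∀ B ∈ BT w, cc * 4 ^ B.1 ≤ ∑ L ∈ LT w B, (4 : ℝ) ^ L.1) (s0 : ℤ) (K : ℕ) :
    ∑ w ∈ Wf, ∑ B ∈ BT w, (4 : ℝ) ^ B.1 * avT th s0 K B w ≤
      (2 * K + 7) * (ρ / cc) * ∑ u ∈ U, cubeS g s0 u := by
  classical
  have hg0 : ∀ x, 0 ≤ g x := by
    intro x
    have := hg x 0
    simp at this
    linarith [hth x]
  -- one tile
  have tile : ∀ w ∈ Wf, ∀ B ∈ BT w, ∀ L ∈ LT w B,
      (4 : ℝ) ^ L.1 * avT th s0 K B w ≤
        (2 * K + 7) * ((1 / (2 : ℝ) ^ L.1) * cubeS g s0 (L.1, w / 2 ^ L.1, L.2.1, L.2.2)) := by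
    intro w hw B hB L hL
    obtain ⟨hm, ha, hb, -, -⟩ := hsub w hw B hB L hL
    have hN : (0 : ℤ) < 2 ^ L.1 := by positivity
    have hNB : (2 : ℤ) ^ B.1 = 2 ^ (B.1 - L.1) * 2 ^ L.1 := by
      rw [← pow_add]; congr 1; omega
    have hD : (0 : ℤ) < 2 ^ (B.1 - L.1) := by positivity
    have key : ∀ w' ∈ Ico (w / 2 ^ L.1 * 2 ^ L.1) ((w / 2 ^ L.1 + 1) * 2 ^ L.1),
        ∀ z ∈ Ico (L.2.1 * 2 ^ L.1) ((L.2.1 + 1) * 2 ^ L.1),
        ∀ z' ∈ Ico (L.2.2 * 2 ^ L.1) ((L.2.2 + 1) * 2 ^ L.1),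
        avT th s0 K B w ≤ (2 * K + 7) * g (s0 - w' - z - z') := by
      intro w' hw' z hz z' hz'
      rw [Finset.mem_Ico] at hw' hz hz'
      refine avT_le hth hg s0 K B w _ ?_
      have hw1 : w / 2 ^ L.1 * 2 ^ L.1 ≤ w := Int.ediv_mul_le w hN.ne'
      have hw2 : w < (w / 2 ^ L.1 + 1) * 2 ^ L.1 := by
        have := Int.lt_ediv_add_one_mul_self w hN
        exact this
      have ha1 : B.2.1 * 2 ^ (B.1 - L.1) ≤ L.2.1 := by
        rw [← ha]; exact Int.ediv_mul_le _ hD.ne'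
      have ha2 : L.2.1 + 1 ≤ (B.2.1 + 1) * 2 ^ (B.1 - L.1) := by
        rw [← ha]; exact Int.lt_ediv_add_one_mul_self _ hD
      have hb1 : B.2.2 * 2 ^ (B.1 - L.1) ≤ L.2.2 := by
        rw [← hb]; exact Int.ediv_mul_le _ hD.ne'
      have hb2 : L.2.2 + 1 ≤ (B.2.2 + 1) * 2 ^ (B.1 - L.1) := by
        rw [← hb]; exact Int.lt_ediv_add_one_mul_self _ hD
      have ha1' : B.2.1 * 2 ^ B.1 ≤ L.2.1 * 2 ^ L.1 := by
        rw [hNB, ← mul_assoc]; exact mul_le_mul_of_nonneg_right ha1 hN.le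
      have ha2' : (L.2.1 + 1) * 2 ^ L.1 ≤ (B.2.1 + 1) * 2 ^ B.1 := by
        rw [hNB, ← mul_assoc]; exact mul_le_mul_of_nonneg_right ha2 hN.le
      have hb1' : B.2.2 * 2 ^ B.1 ≤ L.2.2 * 2 ^ L.1 := by
        rw [hNB, ← mul_assoc]; exact mul_le_mul_of_nonneg_right hb1 hN.le
      have hb2' : (L.2.2 + 1) * 2 ^ L.1 ≤ (B.2.2 + 1) * 2 ^ B.1 := by
        rw [hNB, ← mul_assoc]; exact mul_le_mul_of_nonneg_right hb2 hN.le
      have hLB : (2 : ℤ) ^ L.1 ≤ 2 ^ B.1 := pow_le_pow_right₀ (by norm_num) hm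
      rw [abs_le]
      constructor
      · nlinarith
      · nlinarith
    have hsum : (8 : ℝ) ^ L.1 * avT th s0 K B w ≤
        (2 * K + 7) * cubeS g s0 (L.1, w / 2 ^ L.1, L.2.1, L.2.2) := by
      have h1 : (8 : ℝ) ^ L.1 * avT th s0 K B w =
          ∑ w' ∈ Ico (w / 2 ^ L.1 * 2 ^ L.1) ((w / 2 ^ L.1 + 1) * 2 ^ L.1),
            ∑ z ∈ Ico (L.2.1 * 2 ^ L.1) ((L.2.1 + 1) * 2 ^ L.1),
              ∑ z' ∈ Ico (L.2.2 * 2 ^ L.1) ((L.2.2 + 1) * 2 ^ L.1), avT th s0 K B w := by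
        simp only [Finset.sum_const, card_block, nsmul_eq_mul]
        push_cast
        rw [show (8 : ℝ) = 2 * 2 * 2 by norm_num, mul_pow, mul_pow]
        ring
      rw [h1]
      unfold cubeS
      simp only [Finset.mul_sum]
      exact Finset.sum_le_sum fun w' hw' => Finset.sum_le_sum fun z hz =>
        Finset.sum_le_sum fun z' hz' => key w' hw' z hz z' hz'
    have e8 : (8 : ℝ) ^ L.1 = 2 ^ L.1 * 4 ^ L.1 := by rw [← mul_pow]; norm_num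
    have h2 : (0 : ℝ) < 2 ^ L.1 := by positivity
    have e9 : (4 : ℝ) ^ L.1 * avT th s0 K B w =
        (1 / (2 : ℝ) ^ L.1) * ((8 : ℝ) ^ L.1 * avT th s0 K B w) := by
      rw [e8]; field_simp
    rw [e9]
    calc (1 / (2 : ℝ) ^ L.1) * ((8 : ℝ) ^ L.1 * avT th s0 K B w)
        ≤ (1 / (2 : ℝ) ^ L.1) * ((2 * K + 7) * cubeS g s0 (L.1, w / 2 ^ L.1, L.2.1, L.2.2)) :=
          mul_le_mul_of_nonneg_left hsum (by positivity)
      _ = _ := by ring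
  -- squares by tiles
  have sq : ∀ w ∈ Wf, ∑ B ∈ BT w, (4 : ℝ) ^ B.1 * avT th s0 K B w ≤
      ((2 * K + 7) / cc) * ∑ L ∈ (BT w).biUnion (LT w),
        (1 / (2 : ℝ) ^ L.1) * cubeS g s0 (L.1, w / 2 ^ L.1, L.2.1, L.2.2) := by
    intro w hw
    rw [Finset.sum_biUnion (fun B hB B' hB' h => hdis w hw B hB B' hB' h), Finset.mul_sum]
    refine Finset.sum_le_sum fun B hB => ?_
    have hA := avT_nonneg hth s0 K B w
    have h1 : (4 : ℝ) ^ B.1 * avT th s0 K B w ≤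
        (1 / cc) * ∑ L ∈ LT w B, (4 : ℝ) ^ L.1 * avT th s0 K B w := by
      rw [← Finset.sum_mul, ← mul_assoc]
      refine mul_le_mul_of_nonneg_right ?_ hA
      rw [one_div, ← div_eq_inv_mul, le_div_iff₀ hcc0, mul_comm]
      exact hcc w hw B hB
    refine h1.trans ?_
    have h2 : ∑ L ∈ LT w B, (4 : ℝ) ^ L.1 * avT th s0 K B w ≤ (2 * K + 7) *
        ∑ L ∈ LT w B, (1 / (2 : ℝ) ^ L.1) * cubeS g s0 (L.1, w / 2 ^ L.1, L.2.1, L.2.2) := by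
      rw [Finset.mul_sum]
      exact Finset.sum_le_sum fun L hL => tile w hw B hB L hL
    calc (1 / cc) * ∑ L ∈ LT w B, (4 : ℝ) ^ L.1 * avT th s0 K B w
        ≤ (1 / cc) * ((2 * K + 7) *
          ∑ L ∈ LT w B, (1 / (2 : ℝ) ^ L.1) * cubeS g s0 (L.1, w / 2 ^ L.1, L.2.1, L.2.2)) :=
          mul_le_mul_of_nonneg_left h2 (by positivity)
      _ = _ := by ring
  -- exchange
  have ex : ∑ w ∈ Wf, ∑ L ∈ (BT w).biUnion (LT w),
      (1 / (2 : ℝ) ^ L.1) * cubeS g s0 (L.1, w / 2 ^ L.1, L.2.1, L.2.2) ≤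
      ∑ u ∈ U, ρ * cubeS g s0 u := by
    -- every pair (w, L) goes to the cube and the point w of its block
    have h1 : ∑ w ∈ Wf, ∑ L ∈ (BT w).biUnion (LT w),
        (1 / (2 : ℝ) ^ L.1) * cubeS g s0 (L.1, w / 2 ^ L.1, L.2.1, L.2.2) =
        ∑ x ∈ Wf.sigma (fun w => (BT w).biUnion (LT w)),
          (1 / (2 : ℝ) ^ x.2.1) * cubeS g s0 (x.2.1, x.1 / 2 ^ x.2.1, x.2.2.1, x.2.2.2) := by
      rw [Finset.sum_sigma]
    have h2 : ∑ u ∈ U, ∑ w ∈ (Ico (u.2.1 * 2 ^ u.1) ((u.2.1 + 1) * 2 ^ u.1)).filter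
        (Ex u.1 u.2.2.1 u.2.2.2), (1 / (2 : ℝ) ^ u.1) * cubeS g s0 u =
        ∑ x ∈ U.sigma (fun u => (Ico (u.2.1 * 2 ^ u.1) ((u.2.1 + 1) * 2 ^ u.1)).filter
        (Ex u.1 u.2.2.1 u.2.2.2)), (1 / (2 : ℝ) ^ x.1.1) * cubeS g s0 x.1 := by
      rw [Finset.sum_sigma]
    have h3 : ∑ x ∈ Wf.sigma (fun w => (BT w).biUnion (LT w)),
          (1 / (2 : ℝ) ^ x.2.1) * cubeS g s0 (x.2.1, x.1 / 2 ^ x.2.1, x.2.2.1, x.2.2.2) ≤
        ∑ x ∈ U.sigma (fun u => (Ico (u.2.1 * 2 ^ u.1) ((u.2.1 + 1) * 2 ^ u.1)).filter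
        (Ex u.1 u.2.2.1 u.2.2.2)), (1 / (2 : ℝ) ^ x.1.1) * cubeS g s0 x.1 := by
      set φ : (Σ _ : ℤ, ℕ × ℤ × ℤ) → (Σ _ : ℕ × ℤ × ℤ × ℤ, ℤ) :=
        fun x => ⟨(x.2.1, x.1 / 2 ^ x.2.1, x.2.2.1, x.2.2.2), x.1⟩ with hφ
      have hinj : Set.InjOn φ (Wf.sigma (fun w => (BT w).biUnion (LT w)) : Set _) := by
        rintro ⟨w, m, a, b⟩ - ⟨w', m', a', b'⟩ - h
        simp only [hφ, Sigma.mk.injEq, Prod.mk.injEq, heq_eq_eq] at h
        obtain ⟨⟨h1, h2, h3, h4⟩, h5⟩ := h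
        subst h1 h3 h4 h5
        rfl
      rw [show ∑ x ∈ Wf.sigma (fun w => (BT w).biUnion (LT w)),
          (1 / (2 : ℝ) ^ x.2.1) * cubeS g s0 (x.2.1, x.1 / 2 ^ x.2.1, x.2.2.1, x.2.2.2) =
          ∑ x ∈ Wf.sigma (fun w => (BT w).biUnion (LT w)),
            (fun y : (Σ _ : ℕ × ℤ × ℤ × ℤ, ℤ) => (1 / (2 : ℝ) ^ y.1.1) * cubeS g s0 y.1) (φ x) from rfl,
        ← Finset.sum_image (f := fun y : (Σ _ : ℕ × ℤ × ℤ × ℤ, ℤ) =>
          (1 / (2 : ℝ) ^ y.1.1) * cubeS g s0 y.1) hinj]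
      refine Finset.sum_le_sum_of_subset_of_nonneg ?_
        (fun y _ _ => mul_nonneg (by positivity) (cubeS_nonneg hg0 _ _))
      intro y hy
      rw [Finset.mem_image] at hy
      obtain ⟨⟨w, L⟩, hx, rfl⟩ := hy
      rw [Finset.mem_sigma, Finset.mem_biUnion] at hx
      obtain ⟨hw, B, hB, hL⟩ := hx
      obtain ⟨-, -, -, hU, hE⟩ := hsub w hw B hB L hL
      rw [Finset.mem_sigma, Finset.mem_filter, Finset.mem_Ico]
      refine ⟨hU, ⟨?_, ?_⟩, hE⟩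
      · exact Int.ediv_mul_le w (by positivity)
      · exact Int.lt_ediv_add_one_mul_self w (by positivity)
    rw [h1]
    refine h3.trans ?_
    rw [← h2]
    refine Finset.sum_le_sum fun u hu => ?_
    rw [Finset.sum_const, nsmul_eq_mul, ← mul_assoc]
    refine mul_le_mul_of_nonneg_right ?_ (cubeS_nonneg hg0 _ _)
    have h4 := hρ u hu
    have h5 : (0 : ℝ) < 2 ^ u.1 := by positivity
    rw [mul_one_div, div_le_iff₀ h5]
    exact h4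
  calc ∑ w ∈ Wf, ∑ B ∈ BT w, (4 : ℝ) ^ B.1 * avT th s0 K B w
      ≤ ∑ w ∈ Wf, ((2 * K + 7) / cc) * ∑ L ∈ (BT w).biUnion (LT w),
        (1 / (2 : ℝ) ^ L.1) * cubeS g s0 (L.1, w / 2 ^ L.1, L.2.1, L.2.2) :=
        Finset.sum_le_sum sq
    _ = ((2 * K + 7) / cc) * ∑ w ∈ Wf, ∑ L ∈ (BT w).biUnion (LT w),
        (1 / (2 : ℝ) ^ L.1) * cubeS g s0 (L.1, w / 2 ^ L.1, L.2.1, L.2.2) := by
        rw [Finset.mul_sum]
    _ ≤ ((2 * K + 7) / cc) * ∑ u ∈ U, ρ * cubeS g s0 u :=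
        mul_le_mul_of_nonneg_left ex (by positivity)
    _ = _ := by rw [← Finset.mul_sum]; ring

/-! ### operator norms of tiles -/

/-- the operator norm of the kernel `K` on `I × J` is at most `t` -/
def OpB (K : ℤ → ℤ → ℂ) (I J : Finset ℤ) (t : ℝ) : Prop :=
  ∀ u v : ℤ → ℂ, ‖∑ x ∈ I, ∑ y ∈ J, u x * K x y * v y‖ ^ 2 ≤
    t ^ 2 * ((∑ x ∈ I, ‖u x‖ ^ 2) * ∑ y ∈ J, ‖v y‖ ^ 2)

/-- the square of the operator norm is below the sum of the squares over disjoint tiles -/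
theorem opB_tiles {ι : Type*} (K : ℤ → ℤ → ℂ) (I J : Finset ℤ) (P : Finset ι)
    (A B : ι → Finset ℤ) (t : ι → ℝ) (hcov : I ×ˢ J = P.biUnion (fun l => A l ×ˢ B l))
    (hdis : ∀ l ∈ P, ∀ l' ∈ P, l ≠ l' → Disjoint (A l ×ˢ B l) (A l' ×ˢ B l'))
    (ht : ∀ l ∈ P, OpB K (A l) (B l) (t l)) :
    OpB K I J (Real.sqrt (∑ l ∈ P, t l ^ 2)) := by
  classical
  intro u v
  have hS0 : 0 ≤ ∑ l ∈ P, t l ^ 2 := Finset.sum_nonneg fun _ _ => sq_nonneg _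
  rw [Real.sq_sqrt hS0]
  have e1 : ∑ x ∈ I, ∑ y ∈ J, u x * K x y * v y =
      ∑ l ∈ P, ∑ x ∈ A l, ∑ y ∈ B l, u x * K x y * v y := by
    rw [← Finset.sum_product', hcov, Finset.sum_biUnion (fun l hl l' hl' h => hdis l hl l' hl' h)]
    exact Finset.sum_congr rfl fun l _ =>
      Finset.sum_product' (A l) (B l) (fun x y => u x * K x y * v y)
  have e2 : (∑ x ∈ I, ‖u x‖ ^ 2) * ∑ y ∈ J, ‖v y‖ ^ 2 =
      ∑ l ∈ P, (∑ x ∈ A l, ‖u x‖ ^ 2) * ∑ y ∈ B l, ‖v y‖ ^ 2 := by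
    rw [Finset.sum_mul_sum, ← Finset.sum_product', hcov,
      Finset.sum_biUnion (fun l hl l' hl' h => hdis l hl l' hl' h)]
    refine Finset.sum_congr rfl fun l _ => ?_
    rw [Finset.sum_mul_sum, ← Finset.sum_product']
  rw [e1, e2]
  have h1 : ‖∑ l ∈ P, ∑ x ∈ A l, ∑ y ∈ B l, u x * K x y * v y‖ ≤
      ∑ l ∈ P, |t l| * Real.sqrt ((∑ x ∈ A l, ‖u x‖ ^ 2) * ∑ y ∈ B l, ‖v y‖ ^ 2) := by
    refine (norm_sum_le _ _).trans (Finset.sum_le_sum fun l hl => ?_)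
    have h2 := ht l hl u v
    have h3 : ‖∑ x ∈ A l, ∑ y ∈ B l, u x * K x y * v y‖ ≤
        Real.sqrt (t l ^ 2 * ((∑ x ∈ A l, ‖u x‖ ^ 2) * ∑ y ∈ B l, ‖v y‖ ^ 2)) :=
      Real.le_sqrt_of_sq_le h2
    rwa [Real.sqrt_mul (sq_nonneg _), Real.sqrt_sq_eq_abs] at h3
  have h4 : (∑ l ∈ P, |t l| * Real.sqrt ((∑ x ∈ A l, ‖u x‖ ^ 2) * ∑ y ∈ B l, ‖v y‖ ^ 2)) ^ 2 ≤
      (∑ l ∈ P, |t l| ^ 2) *
        ∑ l ∈ P, Real.sqrt ((∑ x ∈ A l, ‖u x‖ ^ 2) * ∑ y ∈ B l, ‖v y‖ ^ 2) ^ 2 :=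
    Finset.sum_mul_sq_le_sq_mul_sq _ _ _
  have h5 : ∑ l ∈ P, Real.sqrt ((∑ x ∈ A l, ‖u x‖ ^ 2) * ∑ y ∈ B l, ‖v y‖ ^ 2) ^ 2 =
      ∑ l ∈ P, (∑ x ∈ A l, ‖u x‖ ^ 2) * ∑ y ∈ B l, ‖v y‖ ^ 2 :=
    Finset.sum_congr rfl fun l _ => Real.sq_sqrt (mul_nonneg
      (Finset.sum_nonneg fun _ _ => sq_nonneg _) (Finset.sum_nonneg fun _ _ => sq_nonneg _))
  have h6 : ∑ l ∈ P, |t l| ^ 2 = ∑ l ∈ P, t l ^ 2 :=
    Finset.sum_congr rfl fun l _ => sq_abs _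
  rw [h5, h6] at h4
  exact (pow_le_pow_left₀ (norm_nonneg _) h1 2).trans h4

/-- a square whose norm is large contains many exceptional tiles -/
theorem exc_area {ι : Type*} (K : ℤ → ℤ → ℂ) (I J : Finset ℤ) (P : Finset ι)
    (A B : ι → Finset ℤ) (hcov : I ×ˢ J = P.biUnion (fun l => A l ×ˢ B l))
    (hdis : ∀ l ∈ P, ∀ l' ∈ P, l ≠ l' → Disjoint (A l ×ˢ B l) (A l' ×ˢ B l'))
    {s C : ℝ} (hs : 0 ≤ s) (hC : 0 ≤ C) (E : ι → Prop) [DecidablePred E]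
    (h1 : ∀ l ∈ P, OpB K (A l) (B l) (C * Real.sqrt (((A l).card : ℝ) * (B l).card)))
    (h2 : ∀ l ∈ P, ¬ E l → OpB K (A l) (B l) (s * Real.sqrt (((A l).card : ℝ) * (B l).card)))
    {r : ℝ} (hr : 0 ≤ r) (hbad : ¬ OpB K I J (r * Real.sqrt ((I.card : ℝ) * J.card))) :
    (r ^ 2 - s ^ 2) * ((I.card : ℝ) * J.card) ≤
      C ^ 2 * ∑ l ∈ P.filter E, ((A l).card : ℝ) * (B l).card := by
  classical
  by_contra hcon
  rw [not_le] at hcon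
  apply hbad
  set t : ι → ℝ := fun l => if E l then C * Real.sqrt (((A l).card : ℝ) * (B l).card)
    else s * Real.sqrt (((A l).card : ℝ) * (B l).card) with htdef
  have ht : ∀ l ∈ P, OpB K (A l) (B l) (t l) := by
    intro l hl
    rw [htdef]
    simp only
    split_ifs with h
    · exact h1 l hl
    · exact h2 l hl h
  have h3 := opB_tiles K I J P A B t hcov hdis ht
  have hcard : ((I.card : ℝ) * J.card) = ∑ l ∈ P, ((A l).card : ℝ) * (B l).card := by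
    have : ((I ×ˢ J).card : ℝ) = ((P.biUnion (fun l => A l ×ˢ B l)).card : ℝ) := by rw [hcov]
    rw [Finset.card_product, Finset.card_biUnion (fun l hl l' hl' h => hdis l hl l' hl' h)] at this
    push_cast at this
    simpa only [Finset.card_product, Nat.cast_mul] using this
  have h4 : ∑ l ∈ P, t l ^ 2 ≤ C ^ 2 * ∑ l ∈ P.filter E, ((A l).card : ℝ) * (B l).card +
      s ^ 2 * ((I.card : ℝ) * J.card) := by
    rw [hcard, Finset.mul_sum, Finset.mul_sum, Finset.sum_filter, ← Finset.sum_add_distrib]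
    refine Finset.sum_le_sum fun l _ => ?_
    have h0 : (0 : ℝ) ≤ ((A l).card : ℝ) * (B l).card := by positivity
    rw [htdef]
    simp only
    split_ifs with h
    · rw [mul_pow, Real.sq_sqrt h0]
      have := mul_nonneg (sq_nonneg s) h0
      linarith
    · rw [mul_pow, Real.sq_sqrt h0]
      linarith
  have h5 : ∑ l ∈ P, t l ^ 2 ≤ (r * Real.sqrt ((I.card : ℝ) * J.card)) ^ 2 := by
    rw [mul_pow, Real.sq_sqrt (by positivity)]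
    nlinarith
  intro u v
  refine (h3 u v).trans ?_
  rw [Real.sq_sqrt (Finset.sum_nonneg fun _ _ => sq_nonneg _)]
  exact mul_le_mul_of_nonneg_right h5 (mul_nonneg (Finset.sum_nonneg fun _ _ => sq_nonneg _)
    (Finset.sum_nonneg fun _ _ => sq_nonneg _))

end Crest.Agent.R079.BadTx138
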