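import Crest.Agent.R079.CRdef_253
import Crest.Agent.R079.BadT_138
import Crest.Agent.R079.OpS_276

/-! R079, KILL LEMMA in the line model (882 (4) / 846 (1)(c)), definitions and literals (helper446).

`CornerZ` = the ragged corner on `ℤ` (integer positions).  Everything else: one frozen value `w`.
Killer face: coordinates `x = z2`, `y = z0`; third vertex `z1 = - w - x - y` up to a bounded multiple of
the side.  Shadow of the killer letter: `η = α w + β x + γ y`. -/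

set_option autoImplicit false

namespace Crest.Agent.R079.KLx446

open Finset Crest.Agent.R079.Grid Crest.Agent.R079.Glue Crest.Agent.R079.Growth
  Crest.Agent.R079.QRed Crest.Agent.R079.BadTx138

/-! ### the corner on `ℤ` -/

/-- the bilinear form of `C` on the box `[q, q+N) × [p, p+N)` is bounded by `c` -/
def OpZ (C : ℤ → ℤ → ℝ) (N : ℕ) (q p : ℤ) (c : ℝ) : Prop :=
  ∀ f g : ℤ → ℝ, (∑ x ∈ Ico q (q + N), ∑ y ∈ Ico p (p + N), f x * C x y * g y) ^ 2 ≤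
    c ^ 2 * ((∑ x ∈ Ico q (q + N), f x ^ 2) * ∑ y ∈ Ico p (p + N), g y ^ 2)

/-- exit: the box of scale `m + k'` is alive, one of its `4^k'` sub boxes of scale `m` is dead -/
def ExitZ (al : ℕ → ℤ → ℤ → Prop) (k' m : ℕ) (q p : ℤ) : Prop :=
  al (m + k') q p ∧ ∃ a b : ℕ, a < 2 ^ k' ∧ b < 2 ^ k' ∧ ¬ al m (q + a * 2 ^ m) (p + b * 2 ^ m)

/-- the four half boxes of the box of side `2^(m+1)` are alive -/
def Al4Z (al : ℕ → ℤ → ℤ → Prop) (m : ℕ) (q p : ℤ) : Prop :=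
  ∀ a b : ℕ, a < 2 → b < 2 → al m (q + a * 2 ^ m) (p + b * 2 ^ m)

open Classical in
/-- region of alive boxes on `ℤ` -/
structure RegZ (C : ℤ → ℤ → ℝ) (al : ℕ → ℤ → ℤ → Prop) (M' k D S0 : ℕ) (τ C1 : ℝ) : Prop where
  dom : ∀ m q p, al m q p → m < M' ∧ |q| ≤ S0 ∧ |p| ≤ S0
  op : ∀ m q p, al m q p → OpZ C (2 ^ m) q p (2 ^ m * τ)
  ex : ∀ k' ≤ k, ∀ (L : ℕ) (c d : ℤ), ∑ m ∈ range (L + 1), ∑ q ∈ Icc (c - D * 2 ^ L) (c + D * 2 ^ L),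
    ∑ p ∈ Icc (d - D * 2 ^ L) (d + D * 2 ^ L), (if ExitZ al k' m q p then (1 : ℝ) else 0) ≤ C1 * 4 ^ L

open Classical in
/-- what the last word needs -/
structure LastZ (C : ℤ → ℤ → ℝ) (al : ℕ → ℤ → ℤ → Prop) (M' k S0 : ℕ) (E0 Ar : ℝ) : Prop where
  hs : ∀ m q p, al m q p →
    ∑ x ∈ Ico q (q + (2 : ℤ) ^ m), ∑ y ∈ Ico p (p + (2 : ℤ) ^ m), C x y ^ 2 ≤ 4 ^ m * E0
  ar : ∀ m, ∑ q ∈ Icc (-(S0 : ℤ)) S0, ∑ p ∈ Icc (-(S0 : ℤ)) S0, (if al m q p then (1 : ℝ) else 0) ≤ Ar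
  ex : ∀ k' ≤ k, ∑ m ∈ range M', ∑ q ∈ Icc (-(S0 : ℤ)) S0, ∑ p ∈ Icc (-(S0 : ℤ)) S0,
    (if ExitZ al k' m q p then (1 : ℝ) else 0) ≤ Ar

open Classical in
/-- **the ragged corner on `ℤ`**, one frozen value `w`, one block `l` of offsets -/
def CornerZ : Prop := ∀ (l : ℤ), |l| ≤ 7 → ∀ C1 : ℝ, ∃ K : ℝ, 0 ≤ K ∧
  ∀ (M' J S0 : ℕ) (A B C : ℤ → ℤ → ℝ) (al : ℕ → ℤ → ℤ → Prop) (w : ℤ) (a2 b2 r τ E0 Ar : ℝ),
    0 < a2 → 0 < b2 → 0 < r → 0 < τ →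
    (∀ x y, A x y ≠ 0 → |x| ≤ S0 ∧ |y| ≤ S0) → (∀ x y, B x y ≠ 0 → |x| ≤ S0 ∧ |y| ≤ S0) →
    (∀ x y, C x y ≠ 0 → |x| ≤ S0 ∧ |y| ≤ S0) →
    ∑ x ∈ Icc (-(S0 : ℤ)) S0, ∑ y ∈ Icc (-(S0 : ℤ)) S0, A x y ^ 2 ≤ a2 →
    ∑ x ∈ Icc (-(S0 : ℤ)) S0, ∑ y ∈ Icc (-(S0 : ℤ)) S0, B x y ^ 2 ≤ b2 →
    (∀ x y, A x y ^ 2 ≤ a2 / r) → (∀ x y, B x y ^ 2 ≤ b2 / r) →
    RegZ C al M' 6 31 S0 τ C1 → LastZ C al M' 6 S0 E0 Ar → E0 * Ar ≤ τ ^ 2 * (r * 2 ^ J) →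
    ∀ L1 : ℕ, ∑ m ∈ range M', (1 / (2 : ℝ) ^ m) * ∑ i ∈ range (2 ^ m),
      ∑ p0 ∈ Icc (-(L1 : ℤ)) L1, ∑ p1 ∈ Icc (-(L1 : ℤ)) L1,
        (if Al4Z al m (l * 2 ^ m + (i : ℤ) - w - p0 - p1) p0 then
          |Lb3r A B C (2 ^ m) p0 p1 (l * 2 ^ m + (i : ℤ) - w - p0 - p1)| else 0) ≤
      K * (2 * J + 1) * (τ * √a2 * √b2)

/-! ### leaves of a full region -/

/-- level of the leaf containing `y` -/
noncomputable def lv (R : Finset Nd) (y : ℤ) : ℕ := sInf {m | (m, y / 2 ^ (m + 7)) ∈ R}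

/-- the leaf containing `y` -/
noncomputable def lfp (R : Finset Nd) (y : ℤ) : Nd := (lv R y, y / 2 ^ (lv R y + 7))

/-! ### the killer at one frozen value -/

/-- coefficients of the killer shadow -/
structure Cof (α β γ : ℤ) : Prop where
  α0 : α ≠ 0
  β0 : β ≠ 0
  γ0 : γ ≠ 0
  αγ : α ≠ γ
  αβ : α ≠ β
  βγ : β ≠ γ
  α3 : |α| ≤ 3
  β3 : |β| ≤ 3
  γ3 : |γ| ≤ 3

/-- frozen kernel of the killer, masked to the node `p` -/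
noncomputable def kp (c : ℤ → ℤ → ℂ) (K : Fn) (α β γ : ℤ) (p : Nd) (w x y : ℤ) : ℂ :=
  c x y * (if α * w + β * x + γ * y ∈ iv p then K (α * w + β * x + γ * y) else 0)

/-- operator norm at most `s · side` on the aligned square `(a, b)` of the scale of the node `p` -/
def OpP (c : ℤ → ℤ → ℂ) (K : Fn) (α β γ : ℤ) (s : ℝ) (p : Nd) (w a b : ℤ) : Prop :=
  OpB (kp c K α β γ p w) (Ico (a * 2 ^ p.1) ((a + 1) * 2 ^ p.1))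
    (Ico (b * 2 ^ p.1) ((b + 1) * 2 ^ p.1)) (s * 2 ^ p.1)

open Classical in
/-- exceptional density at most `D` -/
def ExD (R : Finset Nd) (c : ℤ → ℤ → ℂ) (K : Fn) (α β γ : ℤ) (s D : ℝ) : Prop :=
  ∀ p ∈ R, ∀ w a b : ℤ,
    (((Ico w (w + 2 ^ p.1)).filter fun w' => ¬ OpP c K α β γ s p w' a b).card : ℝ) ≤ D * 2 ^ p.1

/-- bad point `(x, y)` of the killer face: some aligned square of the scale of its leaf, at most `4`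
steps away, is exceptional for its leaf -/
def Bp (R : Finset Nd) (J : Nd) (c : ℤ → ℤ → ℂ) (K : Fn) (α β γ : ℤ) (s : ℝ) (w x y : ℤ) : Prop :=
  α * w + β * x + γ * y ∈ iv J ∧ ∃ a b : ℤ,
    |a - x / 2 ^ lv R (α * w + β * x + γ * y)| ≤ 4 ∧
    |b - y / 2 ^ lv R (α * w + β * x + γ * y)| ≤ 4 ∧
    ¬ OpP c K α β γ s (lfp R (α * w + β * x + γ * y)) w a b

open Classical in
/-- number of bad points of leaf scale `≤ m` in the aligned square `(m; a, b)` -/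
noncomputable def nb (R : Finset Nd) (J : Nd) (c : ℤ → ℤ → ℂ) (K : Fn) (α β γ : ℤ) (s : ℝ) (w : ℤ)
    (m : ℕ) (a b : ℤ) : ℕ :=
  (((Ico (a * 2 ^ m) ((a + 1) * 2 ^ m)) ×ˢ (Ico (b * 2 ^ m) ((b + 1) * 2 ^ m))).filter fun z =>
    Bp R J c K α β γ s w z.1 z.2 ∧ lv R (α * w + β * z.1 + γ * z.2) ≤ m).card

/-- bad square: bad points have density `> ε` -/
def Bc (R : Finset Nd) (J : Nd) (c : ℤ → ℤ → ℂ) (K : Fn) (α β γ : ℤ) (s ε : ℝ) (w : ℤ)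
    (m : ℕ) (a b : ℤ) : Prop :=
  m ≤ J.1 ∧ ε * 4 ^ m < nb R J c K α β γ s w m a b

/-- `ρ(x, y) ≥ r`, where `ρ` = largest `256 · side - distance` to a bad square (a `1`-Lipschitz function) -/
def Pw (R : Finset Nd) (J : Nd) (c : ℤ → ℤ → ℂ) (K : Fn) (α β γ : ℤ) (s ε : ℝ) (w : ℤ)
    (x y r : ℤ) : Prop :=
  ∃ (m : ℕ) (a b : ℤ), Bc R J c K α β γ s ε w m a b ∧
    |x - a * 2 ^ m| + r ≤ 256 * 2 ^ m ∧ |y - b * 2 ^ m| + r ≤ 256 * 2 ^ m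

/-- all shadows of the box `(q, u)` of scale `m` are in nodes of level `m` of the region -/
def Om (R : Finset Nd) (α β γ : ℤ) (w : ℤ) (m : ℕ) (q u : ℤ) : Prop :=
  ∀ x ∈ Ico q (q + 2 ^ m), ∀ y ∈ Ico u (u + 2 ^ m), α * w + β * x + γ * y ∈ Rm R m

/-- the box `(q, u)` of scale `m` lies in `[x0, x1) × [y0, y1)` -/
def Dm2 (x0 x1 y0 y1 : ℤ) (m : ℕ) (q u : ℤ) : Prop :=
  x0 ≤ q ∧ q + 2 ^ m ≤ x1 ∧ y0 ≤ u ∧ u + 2 ^ m ≤ y1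

end Crest.Agent.R079.KLx446
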