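import Crest.Agent.R079.KLa_446
import Crest.Agent.R079.KLdef_446
import Crest.Agent.R079.OpS_276
import Crest.Agent.R079.Qb_247

/-! R079, KILL LEMMA, interface (helper279, leaf of helper446):

* `OpK`, `opS_kerF4` : an op-atom of the slot `i` with special vertex `m` = killer is a product kernel
  `kerF4 i e' m e` (`k0 = e'`, `k1 = m`, `k2 = e`; bounded gauge on `(z2, z0)`);
* `en_line`, `sup_line` : energy and sup of the frozen letters `fr4`;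
* `TR_words` : the total form by real words, all three letters cut to `iv J`. -/

set_option autoImplicit false

namespace Crest.Agent.R079.KLX279

open Finset Crest.Agent.R079.Grid Crest.Agent.R079.Glue Crest.Agent.R079.GlueK
  Crest.Agent.R079.Growth Crest.Agent.R079.QRed Crest.Agent.R079.KLx446

/-! ### (i) op-atoms as product kernels -/

/-- the slots of an op-atom in the order of the kill lemma -/
lemma d4_of {i m e e' : Fin 4} (h : OpS276.Dst4 i m e e') : D4 i e' m e :=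
  ⟨h.ke', h.jk.symm, h.ke, h.je'.symm, h.ee'.symm, h.je⟩

lemma of_d4 {i m e e' : Fin 4} (h : D4 i e' m e) : OpS276.Dst4 i m e e' :=
  ⟨h.h1.symm, h.h12, h.h01.symm, h.h2, h.h0, h.h02.symm⟩

/-- product kernel of an op-atom: `a (z0, z1) b (z1, z2) c (z2, z0)`, `c` the bounded gauge, `z1` the
special vertex -/
structure OpK (n : ℕ) (Ht Hf : ℝ) (T0 T1 T2 : Finset ℤ) (a b c : ℤ → ℤ → ℂ) (th : ℤ → ℝ) : Prop where
  i0 : ∃ q : ℤ, T0 = Ico q (q + (n : ℤ))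
  i1 : ∃ q : ℤ, T1 = Ico q (q + (n : ℤ))
  i2 : ∃ q : ℤ, T2 = Ico q (q + (n : ℤ))
  c1 : ∀ z z', ‖c z z'‖ ≤ 1
  th0 : ∀ z, 0 ≤ th z
  thH : ∀ z, th z ≤ Ht
  ths : ∀ z, z ∉ T1 → th z = 0
  thS : ∑ z ∈ T1, th z ≤ n
  aH : ∀ z0 z1, ‖a z0 z1‖ ^ 2 ≤ Hf * th z1
  bH : ∀ z1 z2, ‖b z1 z2‖ ^ 2 ≤ Hf * th z1
  a2 : ∀ z1, ∑ z0 ∈ T0, ‖a z0 z1‖ ^ 2 ≤ n * th z1
  b2 : ∀ z1, ∑ z2 ∈ T2, ‖b z1 z2‖ ^ 2 ≤ n * th z1

namespace OpK

variable {n : ℕ} {Ht Hf : ℝ} {T0 T1 T2 : Finset ℤ} {a b c : ℤ → ℤ → ℂ} {th : ℤ → ℝ}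

lemma card0 (h : OpK n Ht Hf T0 T1 T2 a b c th) : T0.card = n := by
  obtain ⟨q, rfl⟩ := h.i0; simp

lemma card1 (h : OpK n Ht Hf T0 T1 T2 a b c th) : T1.card = n := by
  obtain ⟨q, rfl⟩ := h.i1; simp

lemma card2 (h : OpK n Ht Hf T0 T1 T2 a b c th) : T2.card = n := by
  obtain ⟨q, rfl⟩ := h.i2; simp

/-- full plain energy of the first gauge -/
lemma a_all (h : OpK n Ht Hf T0 T1 T2 a b c th) :
    ∑ z0 ∈ T0, ∑ z1 ∈ T1, ‖a z0 z1‖ ^ 2 ≤ (n : ℝ) ^ 2 := by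
  rw [Finset.sum_comm]
  refine (Finset.sum_le_sum fun z1 _ => h.a2 z1).trans ?_
  rw [← Finset.mul_sum, sq]
  exact mul_le_mul_of_nonneg_left h.thS (Nat.cast_nonneg n)

/-- full plain energy of the second gauge -/
lemma b_all (h : OpK n Ht Hf T0 T1 T2 a b c th) :
    ∑ z1 ∈ T1, ∑ z2 ∈ T2, ‖b z1 z2‖ ^ 2 ≤ (n : ℝ) ^ 2 := by
  refine (Finset.sum_le_sum fun z1 _ => h.b2 z1).trans ?_
  rw [← Finset.mul_sum, sq]
  exact mul_le_mul_of_nonneg_left h.thS (Nat.cast_nonneg n)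

lemma a_sup (h : OpK n Ht Hf T0 T1 T2 a b c th) (hHf : 0 ≤ Hf) (z0 z1 : ℤ) :
    ‖a z0 z1‖ ^ 2 ≤ Hf * Ht :=
  (h.aH z0 z1).trans (mul_le_mul_of_nonneg_left (h.thH z1) hHf)

lemma b_sup (h : OpK n Ht Hf T0 T1 T2 a b c th) (hHf : 0 ≤ Hf) (z1 z2 : ℤ) :
    ‖b z1 z2‖ ^ 2 ≤ Hf * Ht :=
  (h.bH z1 z2).trans (mul_le_mul_of_nonneg_left (h.thH z1) hHf)

/-- the gauges vanish off the support of the weight -/
lemma a_zero (h : OpK n Ht Hf T0 T1 T2 a b c th) {z0 z1 : ℤ} (hz : th z1 = 0) : a z0 z1 = 0 := by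
  have := h.aH z0 z1
  rw [hz, mul_zero] at this
  have h2 : ‖a z0 z1‖ ^ 2 = 0 := le_antisymm this (sq_nonneg _)
  exact norm_eq_zero.1 (by simpa using h2)

lemma b_zero (h : OpK n Ht Hf T0 T1 T2 a b c th) {z1 z2 : ℤ} (hz : th z1 = 0) : b z1 z2 = 0 := by
  have := h.bH z1 z2
  rw [hz, mul_zero] at this
  have h2 : ‖b z1 z2‖ ^ 2 = 0 := le_antisymm this (sq_nonneg _)
  exact norm_eq_zero.1 (by simpa using h2)

end OpK

/-- extension of a weight to `ℤ` -/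
noncomputable def ex1 {n : ℕ} (w : ℤ) (al : Fin n → ℝ) (z : ℤ) : ℝ :=
  if h : 0 ≤ z - w ∧ z - w < n then al ⟨(z - w).toNat, by omega⟩ else 0

lemma ex1_val {n : ℕ} (w : ℤ) (al : Fin n → ℝ) (c : Fin n) : ex1 w al (w + ((c : ℕ) : ℤ)) = al c := by
  unfold ex1
  have hc := c.2
  rw [dif_pos (by constructor <;> omega)]
  have e1 : (w + ((c : ℕ) : ℤ) - w).toNat = (c : ℕ) := by omega
  simp only [e1, Fin.eta]

lemma ex1_off {n : ℕ} (w : ℤ) (al : Fin n → ℝ) {z : ℤ} (hz : z ∉ Ico w (w + (n : ℤ))) :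
    ex1 w al z = 0 := by
  unfold ex1
  rw [dif_neg]
  rintro ⟨h1, h2⟩
  exact hz (Finset.mem_Ico.2 ⟨by omega, by omega⟩)

lemma mem_fin {n : ℕ} {w z : ℤ} (hz : z ∈ Ico w (w + (n : ℤ))) : ∃ c : Fin n, z = w + ((c : ℕ) : ℤ) := by
  rw [Finset.mem_Ico] at hz
  exact ⟨⟨(z - w).toNat, by omega⟩, by simp only; omega⟩

lemma ext_off1 {n : ℕ} (w q : ℤ) (U : Fin n → Fin n → ℂ) {z z' : ℤ}
    (hz : z ∉ Ico w (w + (n : ℤ))) : DicOp679.ext w q U z z' = 0 := by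
  unfold DicOp679.ext
  rw [dif_neg]
  rintro ⟨⟨h1, h2⟩, -⟩
  exact hz (Finset.mem_Ico.2 ⟨by omega, by omega⟩)

lemma ext_off2 {n : ℕ} (w q : ℤ) (U : Fin n → Fin n → ℂ) {z z' : ℤ}
    (hz : z' ∉ Ico q (q + (n : ℤ))) : DicOp679.ext w q U z z' = 0 := by
  unfold DicOp679.ext
  rw [dif_neg]
  rintro ⟨-, h1, h2⟩
  exact hz (Finset.mem_Ico.2 ⟨by omega, by omega⟩)

/-- **OP-ATOMS ARE PRODUCT KERNELS** -/
theorem opS_kerF4 {i m e e' : Fin 4} {n : ℕ} {Ht Hf : ℝ} (hHt : 0 ≤ Ht) (hHf : 0 ≤ Hf) {ψ : ℤ → ℂ}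
    (h : OpS276.IsOpS i m e e' n Ht Hf ψ) :
    ∃ (T0 T1 T2 : Finset ℤ) (a b c : ℤ → ℤ → ℂ) (th : ℤ → ℝ), OpK n Ht Hf T0 T1 T2 a b c th ∧
      ψ = kerF4 i e' m e 1 T0 T1 T2 (fun z0 z1 z2 => a z0 z1 * b z1 z2 * c z2 z0) := by
  obtain ⟨w, q, u, g, U, V, al, hD, rfl⟩ := h
  refine ⟨Ico u (u + (n : ℤ)), Ico w (w + (n : ℤ)), Ico q (q + (n : ℤ)),
    fun z0 z1 => DicOp679.ext w u V z1 z0, fun z1 z2 => DicOp679.ext w q U z1 z2, g, ex1 w al,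
    ⟨⟨u, rfl⟩, ⟨w, rfl⟩, ⟨q, rfl⟩, hD.m1, ?_, ?_, fun z hz => ex1_off w al hz, ?_, ?_, ?_, ?_, ?_⟩,
    ?_⟩
  · intro z
    by_cases hz : z ∈ Ico w (w + (n : ℤ))
    · obtain ⟨c, rfl⟩ := mem_fin hz
      rw [ex1_val]; exact hD.α0 c
    · rw [ex1_off w al hz]
  · intro z
    by_cases hz : z ∈ Ico w (w + (n : ℤ))
    · obtain ⟨c, rfl⟩ := mem_fin hz
      rw [ex1_val]; exact hD.αH c
    · rw [ex1_off w al hz]; exact hHt
  · rw [OLevSw.sum_Ico_fin]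
    simp only [ex1_val]
    exact hD.α1
  · intro z0 z1
    by_cases hz : z1 ∈ Ico w (w + (n : ℤ))
    · obtain ⟨c, rfl⟩ := mem_fin hz
      by_cases hz0 : z0 ∈ Ico u (u + (n : ℤ))
      · obtain ⟨c0, rfl⟩ := mem_fin hz0
        simp only [DicOp679.ext_val]
        rw [ex1_val]; exact hD.VH c c0
      · simp only [ext_off2 w u V hz0, norm_zero]
        rw [ex1_val]
        have := mul_nonneg hHf (hD.α0 c)
        simpa using this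
    · simp only [ext_off1 w u V hz, ex1_off w al hz]
      simp
  · intro z1 z2
    by_cases hz : z1 ∈ Ico w (w + (n : ℤ))
    · obtain ⟨c, rfl⟩ := mem_fin hz
      by_cases hz0 : z2 ∈ Ico q (q + (n : ℤ))
      · obtain ⟨c0, rfl⟩ := mem_fin hz0
        simp only [DicOp679.ext_val]
        rw [ex1_val]; exact hD.UH c c0
      · simp only [ext_off2 w q U hz0, norm_zero]
        rw [ex1_val]
        have := mul_nonneg hHf (hD.α0 c)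
        simpa using this
    · simp only [ext_off1 w q U hz, ex1_off w al hz]
      simp
  · intro z1
    by_cases hz : z1 ∈ Ico w (w + (n : ℤ))
    · obtain ⟨c, rfl⟩ := mem_fin hz
      rw [OLevSw.sum_Ico_fin]
      simp only [DicOp679.ext_val, ex1_val]
      exact hD.V2 c
    · simp only [ext_off1 w u V hz, ex1_off w al hz]
      simp
  · intro z1
    by_cases hz : z1 ∈ Ico w (w + (n : ℤ))
    · obtain ⟨c, rfl⟩ := mem_fin hz
      rw [OLevSw.sum_Ico_fin]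
      simp only [DicOp679.ext_val, ex1_val]
      exact hD.U2 c
    · simp only [ext_off1 w q U hz, ex1_off w al hz]
      simp
  · funext y
    unfold kerF4 OLevSw.opA
    rw [Complex.ofReal_one, one_mul]
    have e1 : ∑ z0 ∈ Ico u (u + (n : ℤ)), ∑ z1 ∈ Ico w (w + (n : ℤ)), ∑ z2 ∈ Ico q (q + (n : ℤ)),
        (if lf4 i e' m e z0 z1 z2 = y then
          DicOp679.ext w u V z1 z0 * DicOp679.ext w q U z1 z2 * g z2 z0 else 0) =
        ∑ z1 ∈ Ico w (w + (n : ℤ)), ∑ z2 ∈ Ico q (q + (n : ℤ)), ∑ z0 ∈ Ico u (u + (n : ℤ)),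
        (if lf4 i e' m e z0 z1 z2 = y then
          DicOp679.ext w u V z1 z0 * DicOp679.ext w q U z1 z2 * g z2 z0 else 0) := by
      rw [Finset.sum_comm]
      exact Finset.sum_congr rfl fun z1 _ => Finset.sum_comm
    rw [e1, OLevSw.sum_Ico_fin]
    refine Finset.sum_congr rfl fun c _ => ?_
    rw [OLevSw.sum_Ico_fin]
    refine Finset.sum_congr rfl fun j _ => ?_
    rw [OLevSw.sum_Ico_fin]
    refine Finset.sum_congr rfl fun j' _ => ?_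
    rw [DicOp679.ext_val, DicOp679.ext_val]
    have e2 : lf4 i e' m e (u + ((j' : ℕ) : ℤ)) (w + ((c : ℕ) : ℤ)) (q + ((j : ℕ) : ℤ)) =
        (sl m - sl i) * (w + ((c : ℕ) : ℤ)) + (sl e - sl i) * (q + ((j : ℕ) : ℤ)) +
        (sl e' - sl i) * (u + ((j' : ℕ) : ℤ)) := by
      unfold lf4; ring
    rw [e2]
    split_ifs
    · ring
    · rfl

/-- the same with a real factor -/
lemma kerF4_smul (k k0 k1 k2 : Fin 4) (κ : ℝ) (T0 T1 T2 : Finset ℤ) (Φ : ℤ → ℤ → ℤ → ℂ) :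
    kerF4 k k0 k1 k2 κ T0 T1 T2 Φ = fun y => (κ : ℂ) * kerF4 k k0 k1 k2 1 T0 T1 T2 Φ y := by
  funext y
  unfold kerF4
  rw [Complex.ofReal_one, one_mul]

/-! ### (ii) energy and sup of a frozen letter -/

/-- values of an injective function -/
lemma sum_inj_le {ι : Type*} (S : Finset ι) (V : Finset ℤ) (g : ι → ℤ) (hg : Set.InjOn g S) {F : ℤ → ℂ}
    (hF : ∀ y, y ∉ V → F y = 0) : ∑ x ∈ S, ‖F (g x)‖ ^ 2 ≤ ∑ y ∈ V, ‖F y‖ ^ 2 := by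
  classical
  have h1 : ∑ x ∈ S, ‖F (g x)‖ ^ 2 = ∑ y ∈ S.image g, ‖F y‖ ^ 2 := by
    rw [Finset.sum_image hg]
  have h2 : ∑ y ∈ S.image g, ‖F y‖ ^ 2 = ∑ y ∈ (S.image g).filter (fun y => y ∈ V), ‖F y‖ ^ 2 := by
    rw [Finset.sum_filter]
    refine Finset.sum_congr rfl fun y _ => ?_
    split_ifs with h
    · rfl
    · rw [hF y h]; simp
  rw [h1, h2]
  refine Finset.sum_le_sum_of_subset_of_nonneg ?_ fun _ _ _ => sq_nonneg _
  intro y hy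
  exact (Finset.mem_filter.1 hy).2

/-- **energy of a frozen letter, summed over the frozen values** -/
theorem en_line {T T' : Finset ℤ} {a : ℤ → ℤ → ℂ} {F : ℤ → ℂ} {al be ga : ℤ} (hal : al ≠ 0)
    {V : Finset ℤ} (hF : ∀ y, y ∉ V → F y = 0) (Wf X X' : Finset ℤ) :
    ∑ w ∈ Wf, ∑ z ∈ X, ∑ z' ∈ X', ‖fr4 T T' a F al be ga w z z'‖ ^ 2 ≤
      (∑ z ∈ T, ∑ z' ∈ T', ‖a z z'‖ ^ 2) * ∑ y ∈ V, ‖F y‖ ^ 2 := by
  classical
  have hE : 0 ≤ ∑ y ∈ V, ‖F y‖ ^ 2 := Finset.sum_nonneg fun _ _ => sq_nonneg _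
  have h1 : ∀ z z' : ℤ, ∑ w ∈ Wf, ‖fr4 T T' a F al be ga w z z'‖ ^ 2 ≤
      if z ∈ T ∧ z' ∈ T' then ‖a z z'‖ ^ 2 * ∑ y ∈ V, ‖F y‖ ^ 2 else 0 := by
    intro z z'
    by_cases hz : z ∈ T ∧ z' ∈ T'
    · rw [if_pos hz]
      have e1 : ∀ w ∈ Wf, ‖fr4 T T' a F al be ga w z z'‖ ^ 2 =
          ‖a z z'‖ ^ 2 * ‖F (al * w + be * z + ga * z')‖ ^ 2 := by
        intro w _
        unfold fr4
        rw [if_pos hz, norm_mul, mul_pow]
      rw [Finset.sum_congr rfl e1, ← Finset.mul_sum]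
      refine mul_le_mul_of_nonneg_left ?_ (sq_nonneg _)
      refine sum_inj_le Wf V (fun w => al * w + be * z + ga * z') ?_ hF
      intro w _ w' _ hw
      simp only at hw
      have : al * w = al * w' := by linarith
      exact mul_left_cancel₀ hal this
    · rw [if_neg hz]
      refine le_of_eq (Finset.sum_eq_zero fun w _ => ?_)
      unfold fr4
      rw [if_neg hz]; simp
  calc ∑ w ∈ Wf, ∑ z ∈ X, ∑ z' ∈ X', ‖fr4 T T' a F al be ga w z z'‖ ^ 2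
      = ∑ z ∈ X, ∑ z' ∈ X', ∑ w ∈ Wf, ‖fr4 T T' a F al be ga w z z'‖ ^ 2 := by
        rw [Finset.sum_comm]
        exact Finset.sum_congr rfl fun z _ => Finset.sum_comm
    _ ≤ ∑ z ∈ X, ∑ z' ∈ X', (if z ∈ T ∧ z' ∈ T' then ‖a z z'‖ ^ 2 * ∑ y ∈ V, ‖F y‖ ^ 2 else 0) :=
        Finset.sum_le_sum fun z _ => Finset.sum_le_sum fun z' _ => h1 z z'
    _ ≤ ∑ z ∈ T, ∑ z' ∈ T', ‖a z z'‖ ^ 2 * ∑ y ∈ V, ‖F y‖ ^ 2 := by
        have e2 : ∀ z ∈ X, ∑ z' ∈ X', (if z ∈ T ∧ z' ∈ T' then ‖a z z'‖ ^ 2 * ∑ y ∈ V, ‖F y‖ ^ 2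
            else 0) ≤ if z ∈ T then ∑ z' ∈ T', ‖a z z'‖ ^ 2 * ∑ y ∈ V, ‖F y‖ ^ 2 else 0 := by
          intro z _
          by_cases hz : z ∈ T
          · rw [if_pos hz]
            simp only [hz, true_and]
            rw [← Finset.sum_filter]
            refine Finset.sum_le_sum_of_subset_of_nonneg ?_ fun _ _ _ => by positivity
            intro y hy
            exact (Finset.mem_filter.1 hy).2
          · rw [if_neg hz]
            simp [hz]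
        refine (Finset.sum_le_sum e2).trans ?_
        rw [← Finset.sum_filter]
        refine Finset.sum_le_sum_of_subset_of_nonneg ?_ fun z _ _ =>
          Finset.sum_nonneg fun _ _ => by positivity
        intro y hy
        exact (Finset.mem_filter.1 hy).2
    _ = _ := by
        rw [Finset.sum_mul]
        exact Finset.sum_congr rfl fun z _ => by rw [Finset.sum_mul]

/-- real and imaginary parts -/
theorem en_line_pr {T T' : Finset ℤ} {a : ℤ → ℤ → ℂ} {F : ℤ → ℂ} {al be ga : ℤ} (hal : al ≠ 0)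
    {V : Finset ℤ} (hF : ∀ y, y ∉ V → F y = 0) (σ : Bool) (Wf X X' : Finset ℤ) :
    ∑ w ∈ Wf, ∑ z ∈ X, ∑ z' ∈ X', (pr σ (fr4 T T' a F al be ga w z z')) ^ 2 ≤
      (∑ z ∈ T, ∑ z' ∈ T', ‖a z z'‖ ^ 2) * ∑ y ∈ V, ‖F y‖ ^ 2 := by
  refine le_trans (Finset.sum_le_sum fun w _ => Finset.sum_le_sum fun z _ =>
    Finset.sum_le_sum fun z' _ => ?_) (en_line (T := T) (T' := T') (a := a) (be := be) (ga := ga)
      hal hF Wf X X')
  rw [← sq_abs]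
  exact pow_le_pow_left₀ (abs_nonneg _) (abs_pr_le σ _) 2

/-- sup of a frozen letter -/
theorem sup_line {T T' : Finset ℤ} {a : ℤ → ℤ → ℂ} {F : ℤ → ℂ} {al be ga : ℤ} {Ha HF : ℝ}
    (hHa : 0 ≤ Ha) (hHF : 0 ≤ HF) (ha : ∀ z ∈ T, ∀ z' ∈ T', ‖a z z'‖ ≤ Ha) (hF : ∀ y, ‖F y‖ ≤ HF)
    (w z z' : ℤ) : ‖fr4 T T' a F al be ga w z z'‖ ≤ Ha * HF := by
  unfold fr4
  split_ifs with h
  · rw [norm_mul]
    exact mul_le_mul (ha z h.1 z' h.2) (hF _) (norm_nonneg _) hHa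
  · simpa using mul_nonneg hHa hHF

/-- squared form -/
theorem sup_line_sq {T T' : Finset ℤ} {a : ℤ → ℤ → ℂ} {F : ℤ → ℂ} {al be ga : ℤ} {Ha HF : ℝ}
    (hHa : 0 ≤ Ha) (hHF : 0 ≤ HF) (ha : ∀ z ∈ T, ∀ z' ∈ T', ‖a z z'‖ ^ 2 ≤ Ha)
    (hF : ∀ y, ‖F y‖ ^ 2 ≤ HF) (w z z' : ℤ) :
    ‖fr4 T T' a F al be ga w z z'‖ ^ 2 ≤ Ha * HF := by
  unfold fr4
  split_ifs with h
  · rw [norm_mul, mul_pow]
    exact mul_le_mul (ha z h.1 z' h.2) (hF _) (sq_nonneg _) hHa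
  · simpa using mul_nonneg hHa hHF

/-- finite support of a frozen letter -/
theorem supp_line {T T' : Finset ℤ} {a : ℤ → ℤ → ℂ} {F : ℤ → ℂ} {al be ga w z z' : ℤ}
    (h : fr4 T T' a F al be ga w z z' ≠ 0) : z ∈ T ∧ z' ∈ T' := by
  by_contra hc
  apply h
  unfold fr4
  rw [if_neg hc]

/-- energy of a letter in the node `J` -/
theorem sum_sq_av {J : Nd} {F : Fn} {A : ℝ} (hA : av J F ≤ A) :
    ∑ y ∈ iv J, ‖F y‖ ^ 2 ≤ A ^ 2 * len J := by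
  have h1 := sum_sq_eq (J.1 + 7) J.2 F
  have h2 : av2 (J.1 + 7) J.2 F ≤ A := hA
  have h3 : av2 (J.1 + 7) J.2 F ^ 2 ≤ A ^ 2 := pow_le_pow_left₀ (av2_nonneg _ _ _) h2 2
  show ∑ y ∈ dI (J.1 + 7) J.2, ‖F y‖ ^ 2 ≤ _
  rw [h1]
  have h4 : (0 : ℝ) ≤ 2 ^ (J.1 + 7) := by positivity
  unfold len
  nlinarith

/-! ### (iii) the total form by real words -/

open Classical in
/-- cut of a letter to `iv J` -/
noncomputable def cutJ (J : Nd) (F : Fn) : Fn := fun y => if y ∈ iv J then F y else 0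

lemma cutJ_off {J : Nd} {F : Fn} {y : ℤ} (h : y ∉ iv J) : cutJ J F y = 0 := by
  unfold cutJ; rw [if_neg h]

lemma cutJ_on {J : Nd} {F : Fn} {y : ℤ} (h : y ∈ iv J) : cutJ J F y = F y := by
  unfold cutJ; rw [if_pos h]

lemma norm_cutJ_le {J : Nd} {F : Fn} {y : ℤ} : ‖cutJ J F y‖ ≤ ‖F y‖ := by
  unfold cutJ; split_ifs
  · exact le_rfl
  · simp

lemma sum_cutJ {J : Nd} (F : Fn) : ∑ y ∈ iv J, ‖cutJ J F y‖ ^ 2 = ∑ y ∈ iv J, ‖F y‖ ^ 2 :=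
  Finset.sum_congr rfl fun y hy => by rw [cutJ_on hy]

/-- the three letters cut, the letter of the slot `k` kept -/
noncomputable def cut3 (J : Nd) (k : Fin 4) (F : Fin 4 → Fn) : Fin 4 → Fn :=
  fun j => if j = k then F j else cutJ J (F j)

lemma cut3_self (J : Nd) (k : Fin 4) (F : Fin 4 → Fn) : cut3 J k F k = F k := by simp [cut3]

lemma cut3_ne (J : Nd) {k j : Fin 4} (h : j ≠ k) (F : Fin 4 → Fn) : cut3 J k F j = cutJ J (F j) := by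
  simp [cut3, h]

lemma TR_cut3 {bb : ℤ} (hbb : bb = -1 ∨ bb = -7) (ε : ℕ → ℤ → ℂ) {R : Finset Nd} {J : Nd}
    (hR : ∀ p ∈ R, iv p ⊆ iv J) (k : Fin 4) (F : Fin 4 → Fn) :
    TR bb ε R F = TR bb ε R (cut3 J k F) := by
  unfold TR
  refine Finset.sum_congr rfl fun p hp => ?_
  refine Qb247.TI_congr bb hbb ε _ _ p fun j y hy => ?_
  by_cases hj : j = k
  · subst hj; rw [cut3_self]
  · rw [cut3_ne J hj, cutJ_on (hR p hp hy)]

/-- **TOTAL FORM BY REAL WORDS**: the letter of the slot `k` is a product kernel on `iv J`, the three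
others are cut to `iv J`. -/
theorem TR_words {k k0 k1 k2 : Fin 4} (h : D4 k k0 k1 k2) (Kb : ℝ) {bb : ℤ} {ε : ℕ → ℤ → ℂ}
    (hA : Adm bb ε) {R : Finset Nd} {J : Nd} (hR : IsRegion R J)
    (T0 T1 T2 : Finset ℤ) (a b c : ℤ → ℤ → ℂ) (F : Fin 4 → Fn)
    (hblock : ∀ l : ℤ, |l| ≤ 7 → ∀ (σ0 σ1 σ2 : Bool) (Wf : Finset ℤ) (L1 : ℕ),
      ∑ w ∈ Wf, Tw (fun m p0 p1 p2 => Gd k k0 k1 k2 R m w p0 p1 p2)
        (fun z z' => pr σ0 (fr4 T0 T1 a (cutJ J (F k2)) (sl k - sl k2) (sl k0 - sl k2)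
          (sl k1 - sl k2) w z z'))
        (fun z z' => pr σ1 (fr4 T1 T2 b (cutJ J (F k0)) (sl k - sl k0) (sl k1 - sl k0)
          (sl k2 - sl k0) w z z'))
        (fun z z' => pr σ2 (fr4 T2 T0 c (cutJ J (F k1)) (sl k - sl k1) (sl k2 - sl k1)
          (sl k0 - sl k1) w z z')) (J.1 + 1) L1 l w ≤ Kb)
    (κ : ℝ) (hκ : 0 ≤ κ) (hF : ∀ y ∈ iv J,
      F k y = kerF4 k k0 k1 k2 κ T0 T1 T2 (fun z0 z1 z2 => a z0 z1 * b z1 z2 * c z2 z0) y) :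
    ‖TR bb ε R F‖ ≤ κ * (8 * Kb) := by
  set G : Fin 4 → Fn := fun j => if j = k then
    kerF4 k k0 k1 k2 κ T0 T1 T2 (fun z0 z1 z2 => a z0 z1 * b z1 z2 * c z2 z0) else cutJ J (F j)
    with hG
  have hGk : G k = kerF4 k k0 k1 k2 κ T0 T1 T2 (fun z0 z1 z2 => a z0 z1 * b z1 z2 * c z2 z0) := by
    simp [hG]
  have hGj : ∀ j, j ≠ k → G j = cutJ J (F j) := fun j hj => by simp [hG, hj]
  have e : TR bb ε R F = TR bb ε R G := by
    unfold TR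
    refine Finset.sum_congr rfl fun p hp => ?_
    refine Qb247.TI_congr bb hA.1 ε _ _ p fun j y hy => ?_
    have hy' : y ∈ iv J := hR.1 p hp hy
    by_cases hj : j = k
    · subst hj; rw [hGk]; exact hF y hy'
    · rw [hGj j hj, cutJ_on hy']
  rw [e]
  refine (Qb247.norm_TR_le hA.2 R G).trans ?_
  refine region_words h Kb bb hA.1 R J hR T0 T1 T2 a b c G ?_ κ hκ hGk
  intro l hl σ0 σ1 σ2 Wf L1
  have := hblock l hl σ0 σ1 σ2 Wf L1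
  unfold kA kB kC
  rw [hGj k2 h.h2.symm, hGj k0 h.h0.symm, hGj k1 h.h1.symm]
  exact this

/-- **op-atom of the slot `i`, special vertex `m` = killer** -/
theorem TR_opS {i m e e' : Fin 4} (hd : OpS276.Dst4 i m e e') {n : ℕ} {Ht Hf : ℝ} (hHt : 0 ≤ Ht)
    (hHf : 0 ≤ Hf) (Kb : ℝ) {bb : ℤ} {ε : ℕ → ℤ → ℂ} (hA : Adm bb ε) {R : Finset Nd} {J : Nd}
    (hR : IsRegion R J) (F : Fin 4 → Fn) {κ : ℝ} (hκ : 0 ≤ κ) {ψ : Fn}
    (hψ : OpS276.IsOpS i m e e' n Ht Hf ψ) (hF : ∀ y ∈ iv J, F i y = (κ : ℂ) * ψ y)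
    (hblock : ∀ (T0 T1 T2 : Finset ℤ) (a b c : ℤ → ℤ → ℂ) (th : ℤ → ℝ),
      OpK n Ht Hf T0 T1 T2 a b c th → ∀ l : ℤ, |l| ≤ 7 → ∀ (σ0 σ1 σ2 : Bool) (Wf : Finset ℤ) (L1 : ℕ),
      ∑ w ∈ Wf, Tw (fun m' p0 p1 p2 => Gd i e' m e R m' w p0 p1 p2)
        (fun z z' => pr σ0 (fr4 T0 T1 a (cutJ J (F e)) (sl i - sl e) (sl e' - sl e)
          (sl m - sl e) w z z'))
        (fun z z' => pr σ1 (fr4 T1 T2 b (cutJ J (F e')) (sl i - sl e') (sl m - sl e')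
          (sl e - sl e') w z z'))
        (fun z z' => pr σ2 (fr4 T2 T0 c (cutJ J (F m)) (sl i - sl m) (sl e - sl m)
          (sl e' - sl m) w z z')) (J.1 + 1) L1 l w ≤ Kb) :
    ‖TR bb ε R F‖ ≤ κ * (8 * Kb) := by
  obtain ⟨T0, T1, T2, a, b, c, th, hK, rfl⟩ := opS_kerF4 hHt hHf hψ
  refine TR_words (d4_of hd) Kb hA hR T0 T1 T2 a b c F (hblock T0 T1 T2 a b c th hK) κ hκ ?_
  intro y hy
  rw [hF y hy, kerF4_smul i e' m e κ]

/-! ### coefficients of the killer shadow -/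

set_option maxRecDepth 20000 in
/-- `Cof` for the killer slot `k1` -/
lemma cof_of : ∀ {k k0 k1 k2 : Fin 4}, D4 k k0 k1 k2 → Cof (sl k - sl k1) (sl k2 - sl k1) (sl k0 - sl k1) := by
  intro k k0 k1 k2 h
  have hne : ∀ {x y : Fin 4}, x ≠ y → sl x ≠ sl y := fun hxy hh => hxy (Qa246.sl_inj hh)
  have hb : ∀ x y : Fin 4, |sl x - sl y| ≤ 3 := by decide
  refine ⟨sub_ne_zero.2 (hne h.h1), sub_ne_zero.2 (hne h.h12.symm), sub_ne_zero.2 (hne h.h01), ?_, ?_,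
    ?_, hb _ _, hb _ _, hb _ _⟩
  · intro hh; exact hne h.h0 (by linarith)
  · intro hh; exact hne h.h2 (by linarith)
  · intro hh; exact hne h.h02.symm (by linarith)

end Crest.Agent.R079.KLX279
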