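import Crest.Agent.R079.GaX_571
import Crest.Agent.R079.GaV_571
import Crest.Agent.R079.GaZ_260
import Crest.Agent.R079.KLx_279
import Crest.Agent.R079.AsmA_844

/-! R079, Step I, (G) words (helper571): EXACT DECOMPOSITION OF A WORD over the windows of index `≤ n`.

* `sum_part` : the sum over the windows, stack by stack (truncated);
* `Zs_win` : the letter above the threshold of a stack is on a window the letter of the window;
* `TA_cover` : absolute box form over a stack ≤ sum over the windows;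
* `word_atoms` : a word = mixture of box forms of the atoms;
* `Btk` : killer kernel of a region (`a τ(g) - τ(Z)`); **`word_decomp`**. -/

set_option autoImplicit false

namespace Crest.Agent.R079.GaUx571

open Finset Crest.Agent.R079.Grid Crest.Agent.R079.Glue Crest.Agent.R079.Growth
  Crest.Agent.R079.QRed Crest.Agent.R079.TWin
open Crest.Agent.R079.GaAx571 Crest.Agent.R079.GaBx571 Crest.Agent.R079.GaWx571
  Crest.Agent.R079.GaXx571 Crest.Agent.R079.GaMx571 Crest.Agent.R079.GaSx571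
  Crest.Agent.R079.GaTx571 Crest.Agent.R079.GaVx571 Crest.Agent.R079.GaZx260
  Crest.Agent.R079.GaFx371 Crest.Agent.R079.KLX279
open Crest.Agent.R079.ThA159 Crest.Agent.R079.ThB159 Crest.Agent.R079.Stk
open Crest.Agent.R079.AsmA844 (v4)

/-! ### the windows, stack by stack -/

section stk1

variable {R S : Finset Nd} {J : Nd} {W : Nd → Finset Nd} {C : ℝ}

theorem sum_part {β : Type*} [AddCommMonoid β] (hR : Full R J) (hP : TWin.Part R S W C) (n : ℕ)
    (G : ℕ → Nd → β) :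
    ∑ K ∈ S.filter (fun K => idx S K ≤ n), ∑ p ∈ W K, G (idx S K) p =
      ∑ k ∈ range n, ∑ p ∈ R.filter (fun p => idx S p - 1 = k), G (k + 1) p := by
  classical
  have e : R.filter (fun p => idx S p ≤ n) =
      (S.filter (fun K => idx S K ≤ n)).biUnion W := by
    ext p
    rw [Finset.mem_biUnion, Finset.mem_filter]
    constructor
    · rintro ⟨hp, hn⟩
      obtain ⟨K, hK, hpK⟩ := hP.cover p hp
      exact ⟨K, Finset.mem_filter.2 ⟨hK, by rwa [← idx_win hP hK hpK]⟩, hpK⟩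
    · rintro ⟨K, hK, hp⟩
      have hK' := Finset.mem_filter.1 hK
      exact ⟨hP.wsub K hK'.1 hp, by rw [idx_win hP hK'.1 hp]; exact hK'.2⟩
  have h1 : ∑ K ∈ S.filter (fun K => idx S K ≤ n), ∑ p ∈ W K, G (idx S K) p =
      ∑ p ∈ R.filter (fun p => idx S p ≤ n), G (idx S p) p := by
    rw [e, Finset.sum_biUnion fun K hK K' hK' hne =>
      hP.disj K (Finset.mem_filter.1 hK).1 K' (Finset.mem_filter.1 hK').1 hne]
    refine Finset.sum_congr rfl fun K hK => Finset.sum_congr rfl fun p hp => ?_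
    rw [idx_win hP (Finset.mem_filter.1 hK).1 hp]
  rw [h1, ← Finset.sum_fiberwise_of_maps_to (s := R.filter (fun p => idx S p ≤ n)) (t := range n)
    (g := fun p => idx S p - 1) (fun p hp => by
      have h2 := Finset.mem_filter.1 hp
      have h3 := idx_pos hR hP h2.1
      rw [Finset.mem_range]
      omega)]
  refine Finset.sum_congr rfl fun k hk => ?_
  have e2 : (R.filter (fun p => idx S p ≤ n)).filter (fun p => idx S p - 1 = k) =
      R.filter (fun p => idx S p - 1 = k) := by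
    ext p
    rw [Finset.mem_filter, Finset.mem_filter, Finset.mem_filter]
    have := Finset.mem_range.1 hk
    constructor
    · rintro ⟨⟨h1, _⟩, h2⟩
      exact ⟨h1, h2⟩
    · rintro ⟨h1, h2⟩
      have := idx_pos hR hP h1
      exact ⟨⟨h1, by omega⟩, h2⟩
  rw [e2]
  refine Finset.sum_congr rfl fun p hp => ?_
  have h2 := Finset.mem_filter.1 hp
  have h3 := idx_pos hR hP h2.1
  rw [show idx S p = k + 1 by omega]

/-- a node of the stack is in a window of the stack -/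
lemma win_of_stack (hR : Full R J) (hP : TWin.Part R S W C) {k : ℕ} {q : Nd}
    (hq : q ∈ R.filter (fun p => idx S p - 1 = k)) :
    ∃ K ∈ S.filter (fun K => idx S K - 1 = k), q ∈ W K ∧ idx S K = k + 1 := by
  have h1 := Finset.mem_filter.1 hq
  obtain ⟨K, hK, hqK⟩ := hP.cover q h1.1
  have h2 := idx_win hP hK hqK
  have h3 := idx_pos hR hP h1.1
  exact ⟨K, Finset.mem_filter.2 ⟨hK, by rw [← h2]; exact h1.2⟩, hqK, by omega⟩

end stk1

/-! ### the letter above the threshold of a stack on a window -/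

section zs

variable {Ω : Type*} {Bd : Nd → Finset Ω} {pos : Ω → ℤ} {N : Nd → (Ω → ℂ) → ℝ} {ν : ℝ}
  {R S : Finset Nd} {J : Nd} {W : Nd → Finset Nd} {C : ℝ}

lemma Bd_down (hB : Bnd Bd pos N ν) {ω : Ω} (m : ℕ) (l : ℤ) (hy : pos ω ∈ iv (m, l)) :
    ∀ k : ℕ, ω ∈ Bd (m + k, l / 2 ^ k) → ω ∈ Bd (m, l) := by
  intro k
  induction k with
  | zero => intro h; simpa using h
  | succ k ih =>
    intro h
    have e : l / 2 ^ (k + 1) = l / 2 ^ k / 2 := by
      have := L0e.ediv_pow_pow l k 1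
      rw [pow_one] at this
      rw [← this]
    rw [e, ← add_assoc] at h
    have hsub : iv (m, l) ⊆ iv (m + k, l / 2 ^ k) := Qe292.iv_sub_iff.2 ⟨k, rfl⟩
    have hpk : pos ω ∈ iv (m + k, l / 2 ^ k) := hsub hy
    have huniq : ∀ c : ℤ, pos ω ∈ iv (m + k, c) → c = l / 2 ^ k := by
      intro c hc
      by_contra hne
      exact Finset.disjoint_left.1 (L0e.dI_disj hne) hc hpk
    rcases (hB.sub _ _ _).1 h with h1 | h1
    · have h2 := huniq _ (hB.mem _ ω h1)
      rw [h2] at h1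
      exact ih h1
    · have h2 := huniq _ (hB.mem _ ω h1)
      rw [h2] at h1
      exact ih h1

lemma mem_Bd_of_pos (hB : Bnd Bd pos N ν) {p q : Nd} (h : iv p ⊆ iv q) {ω : Ω} (hω : ω ∈ Bd q)
    (hy : pos ω ∈ iv p) : ω ∈ Bd p := by
  obtain ⟨k, hk⟩ := Qe292.iv_sub_iff.1 h
  rw [hk] at hω
  exact Bd_down hB p.1 p.2 hy k hω

lemma Zs_win (hB : Bnd Bd pos N ν) (a : Ω → ℂ) {r : ℝ} (hr : 0 ≤ r) (hR : Full R J)
    (hP : TWin.Part R S W C) {K : Nd} (hK : K ∈ S) (f : Nd → Fn) {ω : Ω} (hω : ω ∈ Bd K) :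
    Zs Bd pos N a r (Rk R S (idx S K)) J f ω = Zs Bd pos N a r (W K) K f ω := by
  have hF := full_Rk hR hP (idx_pos hR hP (hP.sub hK))
  have hFK := hP.full K hK
  obtain ⟨L, hL, hyL, hLK⟩ := exists_leaf hFK hFK.top (hB.mem K ω hω)
  have hωL : ω ∈ Bd L := mem_Bd_of_pos hB hLK hω hyL
  rw [Zs_leaf hB a hr hF f (leaf_Rk hR hP hK hL) hωL, Zs_leaf hB a hr hFK f hL hωL]

end zs

/-! ### linearity in the frozen slot -/

lemma Lbox_fsum {ι : Type*} [Fintype ι] (N : ℕ) (bb x : ℤ) (F : Fin 4 → ℤ → ℂ) (i : Fin 4)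
    (φ : ι → ℤ → ℂ) (c : ι → ℂ) :
    Lbox N bb (Function.update F i (fun y => ∑ k, c k * φ k y)) x =
      ∑ k, c k * Lbox N bb (Function.update F i (φ k)) x := by
  unfold Lbox
  simp only [Qb247.prod_update]
  simp only [Finset.mul_sum, Finset.sum_mul]
  rw [Finset.sum_comm]
  refine Finset.sum_congr rfl fun k _ => ?_
  refine Finset.sum_congr rfl fun u _ => ?_
  ring

lemma TI_fsum {ι : Type*} [Fintype ι] (bb : ℤ) (ε : ℕ → ℤ → ℂ) (F : Fin 4 → ℤ → ℂ) (i : Fin 4)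
    (φ : ι → ℤ → ℂ) (c : ι → ℂ) (p : ℕ × ℤ) :
    TI bb ε (Function.update F i (fun y => ∑ k, c k * φ k y)) p =
      ∑ k, c k * TI bb ε (Function.update F i (φ k)) p := by
  unfold TI
  simp only [Lbox_fsum]
  simp only [Finset.mul_sum]
  rw [Finset.sum_comm]
  refine Finset.sum_congr rfl fun k _ => ?_
  refine Finset.sum_congr rfl fun u _ => ?_
  ring

lemma slot_ne {j : Fin 4} {e e' : Fin 3} (h : e ≠ e') :
    j.succAbove (e + 2) ≠ j.succAbove (e' + 2) := fun hh =>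
  h (by
    have := Fin.succAbove_right_injective hh
    exact add_right_cancel this)

lemma lks_update (j : Fin 4) (T : Fin 3 → Finset ℤ) (g : Fin 3 → ℤ → ℤ → ℂ) (F : Fin 4 → ℤ → ℂ)
    (e : Fin 3) (A : ℤ → ℂ) :
    lks j T g (Function.update F (j.succAbove (e + 2)) A) =
      Function.update (lks j T g F) e (lk j T g e A) := by
  funext i
  by_cases hi : i = e
  · subst hi
    rw [Function.update_self]
    unfold lks
    rw [Function.update_self]
  · rw [Function.update_of_ne hi]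
    unfold lks
    rw [Function.update_of_ne (slot_ne hi)]

lemma lks_update_j (j : Fin 4) (T : Fin 3 → Finset ℤ) (g : Fin 3 → ℤ → ℤ → ℂ)
    (F : Fin 4 → ℤ → ℂ) (A : ℤ → ℂ) :
    lks j T g (Function.update F j A) = lks j T g F := by
  funext i
  unfold lks
  rw [Function.update_of_ne (Fin.succAbove_ne j _)]

/-- **a word is a mixture of box forms of the atoms** -/
theorem word_atoms (j : Fin 4) {bb : ℤ} (hbb : bb = -1 ∨ bb = -7) {ι : Type*} [Fintype ι]
    (T : ι → Fin 3 → Finset ℤ) (g : ι → Fin 3 → ℤ → ℤ → ℂ) (c : ι → ℂ) {J : Nd}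
    (F : Fin 4 → ℤ → ℂ)
    (hF : ∀ y ∈ iv J, F j y = ∑ l, c l * atom j 1 (T l) (g l 0) (g l 1) (g l 2) y)
    (P : Finset (ℤ × ℤ × ℤ)) {M : ℕ} (hP : ∀ l, Cov M (T l) P) (S : Finset Nd)
    (hS : ∀ q ∈ S, q.1 < M) (hSJ : ∀ q ∈ S, iv q ⊆ iv J) (ε : ℕ → ℤ → ℂ) :
    ∑ q ∈ S, TI bb ε F q = ∑ l, c l * TT bb P M (chi j bb S ε) (lks j (T l) (g l) F) := by
  have h1 : ∀ q ∈ S, TI bb ε F q = ∑ l, c l * TI bb ε (Function.update F j
      (atom j 1 (T l) (g l 0) (g l 1) (g l 2))) q := by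
    intro q hq
    rw [← TI_fsum]
    refine Qb247.TI_congr bb hbb ε _ _ q fun s y hy => ?_
    by_cases hs : s = j
    · subst hs
      rw [Function.update_self]
      exact hF y (hSJ q hq hy)
    · rw [Function.update_of_ne hs]
  rw [Finset.sum_congr rfl h1, Finset.sum_comm]
  refine Finset.sum_congr rfl fun l _ => ?_
  rw [← Finset.mul_sum]
  congr 1
  have h2 := sum_Lbox j bb 1 (T l) (g l) (Function.update F j
      (atom j 1 (T l) (g l 0) (g l 1) (g l 2))) (Function.update_self _ _ _) P (hP l) S hS ε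
  rw [lks_update_j, Complex.ofReal_one, one_mul] at h2
  rw [← h2]
  rfl

/-! ### boxes of a stack and of its windows -/

lemma TA_cover (bb : ℤ) (P : Finset (ℤ × ℤ × ℤ)) (M : ℕ) {κ : Type*} (I : Finset κ)
    (G : ℕ → ℤ × ℤ × ℤ → ℕ → Prop) (G' : κ → ℕ → ℤ × ℤ × ℤ → ℕ → Prop) (K : Fin 3 → Kl)
    (h : ∀ n p v, G n p v → ∃ i ∈ I, G' i n p v) :
    TA bb P M G K ≤ ∑ i ∈ I, TA bb P M (G' i) K := by
  classical
  unfold TA
  conv_rhs => rw [Finset.sum_comm]
  refine Finset.sum_le_sum fun n _ => ?_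
  conv_rhs => rw [Finset.sum_comm]
  refine Finset.sum_le_sum fun p _ => ?_
  conv_rhs => rw [Finset.sum_comm]
  refine Finset.sum_le_sum fun v _ => ?_
  have h0 : 0 ≤ (1 / (((2 ^ n : ℕ) : ℝ) + ((2 ^ n : ℕ) : ℝ))) * ‖bxf bb K n p v‖ := by positivity
  have h1 : ∀ i, (0 : ℝ) ≤ if G' i n p v then
      (1 / (((2 ^ n : ℕ) : ℝ) + ((2 ^ n : ℕ) : ℝ))) * ‖bxf bb K n p v‖ else 0 := fun i => by
    split_ifs
    · exact h0
    · exact le_rfl
  by_cases hg : G n p v
  · rw [if_pos hg]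
    obtain ⟨i, hi, hgi⟩ := h n p v hg
    refine le_trans ?_ (Finset.single_le_sum (fun i _ => h1 i) hi)
    rw [if_pos hgi]
  · rw [if_neg hg]
    exact Finset.sum_nonneg fun i _ => h1 i

/-- agreement of two kernels of the edge `e` on the nodes of `S` -/
def AgrE (j : Fin 4) (S : Finset Nd) (e : Fin 3) (A A' : Kl) : Prop :=
  ∀ q ∈ S, ∀ w z z' : ℤ, Ye j e w z z' ∈ iv q → A w z z' = A' w z z'

lemma agr_update {j : Fin 4} {S : Finset Nd} {K K' : Fin 3 → Kl} (h : AgrS j S K K') {e : Fin 3}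
    {A A' : Kl} (hA : AgrE j S e A A') :
    AgrS j S (Function.update K e A) (Function.update K' e A') := by
  intro q hq i w z z' hy
  by_cases hi : i = e
  · subst hi
    rw [Function.update_self, Function.update_self]
    exact hA q hq w z z' hy
  · rw [Function.update_of_ne hi, Function.update_of_ne hi]
    exact h q hq i w z z' hy

lemma agrE_lk {j : Fin 4} {S : Finset Nd} (T : Fin 3 → Finset ℤ) (g : Fin 3 → ℤ → ℤ → ℂ) (e : Fin 3)
    {A A' : ℤ → ℂ} (h : ∀ q ∈ S, ∀ y ∈ iv q, A y = A' y) :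
    AgrE j S e (lk j T g e A) (lk j T g e A') := by
  intro q hq w z z' hy
  rw [lk_Ye, lk_Ye, h q hq _ hy]

lemma AgrS.refl (j : Fin 4) (S : Finset Nd) (K : Fin 3 → Kl) : AgrS j S K K :=
  fun _ _ _ _ _ _ _ => rfl

lemma agr_lks_cut {j : Fin 4} {S : Finset Nd} {J : Nd} (hS : ∀ q ∈ S, iv q ⊆ iv J)
    (T : Fin 3 → Finset ℤ) (g : Fin 3 → ℤ → ℤ → ℂ) (F : Fin 4 → ℤ → ℂ) :
    AgrS j S (lks j T g F) (lks j T g (fun s => cutJ J (F s))) :=
  agr_lks T g fun s _ q hq y hy => by rw [cutJ_on (hS q hq hy)]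

/-- splitting of the coefficients -/
lemma TT_split (bb : ℤ) (P : Finset (ℤ × ℤ × ℤ)) (M : ℕ) (G : ℕ → ℤ × ℤ × ℤ → ℕ → Prop)
    (χ : ℕ → ℤ × ℤ × ℤ → ℕ → ℂ) (K : Fin 3 → Kl) :
    TT bb P M χ K = TT bb P M (gchi G χ) K + TT bb P M (gchi (fun n p v => ¬ G n p v) χ) K := by
  unfold TT
  rw [← Finset.sum_add_distrib]
  refine Finset.sum_congr rfl fun n _ => ?_
  rw [← Finset.sum_add_distrib]
  refine Finset.sum_congr rfl fun p _ => ?_
  rw [← Finset.sum_add_distrib]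
  refine Finset.sum_congr rfl fun v _ => ?_
  rw [← add_mul]
  congr 1
  unfold gchi
  by_cases h : G n p v
  · rw [if_pos h, if_neg (not_not.2 h), add_zero]
  · rw [if_neg h, if_pos h, zero_add]

/-- coefficients of one set of nodes -/
lemma chi_one (j : Fin 4) (bb : ℤ) {S : Finset Nd} {ε : ℕ → ℤ → ℂ} (hε : ∀ m x, ‖ε m x‖ ≤ 1)
    (n : ℕ) (p : ℤ × ℤ × ℤ) (v : ℕ) :
    ‖chi j bb S ε n p v‖ ≤ 1 ∧ (¬ AdX S n (xv j bb n p) → chi j bb S ε n p v = 0) := by
  classical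
  have h1 := chi_comb j bb (R := S) (m := 1) (idx := fun _ => 0) (fun _ => 1) (fun _ => by simp)
    hε n p v
  have e : S.filter (fun _ => (0 : ℕ) = 0) = S := by simp
  rw [Finset.sum_range_one, e, one_mul] at h1
  exact h1

/-- a box form with restricted coefficients of a stack against the windows -/
lemma TT_stack {j : Fin 4} {bb : ℤ} {ε : ℕ → ℤ → ℂ} (hε : ∀ m x, ‖ε m x‖ ≤ 1)
    (P : Finset (ℤ × ℤ × ℤ)) (M : ℕ) (G : ℕ → ℤ × ℤ × ℤ → ℕ → Prop) {Sk : Finset Nd}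
    {κ : Type*} (I : Finset κ) (W : κ → Finset Nd) (hW : ∀ q ∈ Sk, ∃ i ∈ I, q ∈ W i)
    (K : Fin 3 → Kl) :
    ‖TT bb P M (gchi G (chi j bb Sk ε)) K‖ ≤
      ∑ i ∈ I, TA bb P M (fun n p v => G n p v ∧ AdX (W i) n (xv j bb n p)) K := by
  refine (norm_TT_le bb P M (Gd := fun n p v => G n p v ∧ AdX Sk n (xv j bb n p)) K ?_).trans
    (TA_cover bb P M I _ _ K ?_)
  · intro n _ p _ v _
    have h1 := chi_one j bb (S := Sk) hε n p v
    unfold gchi
    constructor
    · split_ifs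
      · exact h1.1
      · simp
    · intro hn
      split_ifs with hg
      · exact h1.2 fun ha => hn ⟨hg, ha⟩
      · rfl
  · rintro n p v ⟨hg, q, hq, hqn, hx⟩
    obtain ⟨i, hi, hqi⟩ := hW q hq
    exact ⟨i, hi, hg, q, hqi, hqn, hx⟩

/-! ### the killer kernel of a region -/

/-- the killer kernel of a region: `a τ(g) - τ(Z)` -/
noncomputable def Btk {Ω : Type*} (Bd : Nd → Finset Ω) (pos : Ω → ℤ) (N : Nd → (Ω → ℂ) → ℝ)
    (a : Ω → ℂ) (r H1 h0 : ℝ) (W : Finset Nd) (K : Nd) (f : Nd → Fn) (ω : Ω) : ℂ :=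
  a ω * tau H1 (gl W f (pos ω)) - tau h0 (Zs Bd pos N a r W K f ω)

/-- kernels of a window: killer kernel on `e`, partner `Y` on `e'` -/
noncomputable def KB (j : Fin 4) (T : Fin 3 → Finset ℤ) (g : Fin 3 → ℤ → ℤ → ℂ)
    (F : Fin 4 → ℤ → ℂ) (e e' : Fin 3) (Bd : Nd → Finset (ℤ × ℤ × ℤ)) (pos : ℤ × ℤ × ℤ → ℤ)
    (N : Nd → (ℤ × ℤ × ℤ → ℂ) → ℝ) (a : ℤ × ℤ × ℤ → ℂ) (r H1 h0 : ℝ) (W : Finset Nd) (K : Nd)
    (f : Nd → Fn) (Y : Fn) : Fin 3 → Kl :=
  Function.update (Function.update (lks j T g (fun s => cutJ K (F s))) e' (lk j T g e' (cutJ K Y)))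
    e (ker (Bd K) (Btk Bd pos N a r H1 h0 W K f))

/-- kernels of a window: line kernels -/
noncomputable def KL (j : Fin 4) (T : Fin 3 → Finset ℤ) (g : Fin 3 → ℤ → ℤ → ℂ)
    (F : Fin 4 → ℤ → ℂ) (e e' : Fin 3) (K : Nd) (X Y : Fn) : Fin 3 → Kl :=
  Function.update (Function.update (lks j T g (fun s => cutJ K (F s))) e' (lk j T g e' (cutJ K Y)))
    e (lk j T g e (cutJ K X))

section main

variable {ι I' : Type*} [Fintype ι] [Fintype I']

/-- the band systems of the atoms (component `c0 l` of the functional) -/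
structure BdOK (j : Fin 4) (e : Fin 3) (T : ι → Fin 3 → Finset ℤ) (g : ι → Fin 3 → ℤ → ℤ → ℂ)
    (c0 : ι → I') (J : Nd) (Bd : I' → Nd → Finset (ℤ × ℤ × ℤ)) (pos : I' → ℤ × ℤ × ℤ → ℤ)
    (a : I' → ℤ × ℤ × ℤ → ℂ) : Prop where
  mem : ∀ (l : ι) (p : Nd), iv p ⊆ iv J → ∀ w z z' : ℤ, (w, z, z') ∈ Bd (c0 l) p ↔
    z ∈ T l e ∧ z' ∈ T l (e + 1) ∧ Ye j e w z z' ∈ iv p
  pos : ∀ (l : ι) (w z z' : ℤ), pos (c0 l) (w, z, z') = Ye j e w z z'
  gau : ∀ (l : ι) (w z z' : ℤ), a (c0 l) (w, z, z') = g l e z z'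

variable {j : Fin 4} {bb : ℤ} {e e' : Fin 3} {T : ι → Fin 3 → Finset ℤ}
  {g : ι → Fin 3 → ℤ → ℤ → ℂ} {c0 : ι → I'} {J : Nd} {Bd : I' → Nd → Finset (ℤ × ℤ × ℤ)}
  {pos : I' → ℤ × ℤ × ℤ → ℤ} {N : I' → Nd → (ℤ × ℤ × ℤ → ℂ) → ℝ} {ν : I' → ℝ}
  {a : I' → ℤ × ℤ × ℤ → ℂ} {r : I' → ℝ} {R S : Finset Nd} {W : Nd → Finset Nd} {C : ℝ}

omit [Fintype ι] [Fintype I'] in
/-- the truncated line kernel of a region is killer kernel plus truncated kernel -/
lemma line_split (hD : BdOK j e T g c0 J Bd pos a) (l : ι) {V : Finset Nd} {Q : Finset Nd}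
    (hQ : ∀ q ∈ Q, iv q ⊆ iv J) (f : Nd → Fn) (H1 h0 : ℝ) :
    AgrE j Q e (lk j (T l) (g l) e (fun y => tau H1 (gl V f y)))
      (fun w z z' => ker (Bd (c0 l) J) (Btk (Bd (c0 l)) (pos (c0 l)) (N (c0 l)) (a (c0 l))
        (r (c0 l)) H1 h0 V J f) w z z' +
        ker (Bd (c0 l) J) (fun ω => tZ h0 Bd pos N a r V J f ⟨c0 l, ω⟩) w z z') := by
  classical
  intro q hq w z z' hy
  rw [lk_Ye]
  unfold ker
  beta_reduce
  by_cases h : z ∈ T l e ∧ z' ∈ T l (e + 1)
  · have h1 : (w, z, z') ∈ Bd (c0 l) J :=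
      (hD.mem l J (Finset.Subset.refl _) w z z').2 ⟨h.1, h.2, hQ q hq hy⟩
    rw [if_pos h, if_pos h1, if_pos h1]
    unfold Btk tZ ZJ
    rw [hD.pos, hD.gau]
    ring
  · have h1 : (w, z, z') ∉ Bd (c0 l) J := fun h1 => by
      have h2 := (hD.mem l J (Finset.Subset.refl _) w z z').1 h1
      exact h ⟨h2.1, h2.2.1⟩
    rw [if_neg h, if_neg h1, if_neg h1, add_zero]

omit [Fintype ι] [Fintype I'] in
/-- the killer kernel of a stack is on a window the killer kernel of the window -/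
lemma btk_win (hB : ∀ i, Bnd (Bd i) (pos i) (N i) (ν i)) (hr : ∀ i, 0 ≤ r i)
    (hD : BdOK j e T g c0 J Bd pos a) (hR : Full R J) (hP : TWin.Part R S W C) (l : ι) {K : Nd}
    (hK : K ∈ S) (f : Nd → Fn) (H1 h0 : ℝ) :
    AgrE j (W K) e (ker (Bd (c0 l) J) (Btk (Bd (c0 l)) (pos (c0 l)) (N (c0 l)) (a (c0 l))
        (r (c0 l)) H1 h0 (Rk R S (idx S K)) J f))
      (ker (Bd (c0 l) K) (Btk (Bd (c0 l)) (pos (c0 l)) (N (c0 l)) (a (c0 l))
        (r (c0 l)) H1 h0 (W K) K f)) := by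
  classical
  intro q hq w z z' hy
  have hqK : iv q ⊆ iv K := (hP.full K hK).reg.1 q hq
  have hKJ : iv K ⊆ iv J := hR.reg.1 K (hP.sub hK)
  unfold ker
  by_cases h : (w, z, z') ∈ Bd (c0 l) K
  · have h1 : (w, z, z') ∈ Bd (c0 l) J := Bd_mono (hB (c0 l)) hKJ h
    rw [if_pos h, if_pos h1]
    unfold Btk
    rw [Zs_win (hB (c0 l)) (a (c0 l)) (hr (c0 l)) hR hP hK f h, hD.pos,
      gl_stack hR hP hK f (hqK hy)]
  · have h1 : (w, z, z') ∉ Bd (c0 l) J := fun h1 => by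
      have h2 := (hD.mem l J (Finset.Subset.refl _) w z z').1 h1
      exact h ((hD.mem l K hKJ w z z').2 ⟨h2.1, h2.2.1, hqK hy⟩)
    rw [if_neg h, if_neg h1]

omit [Fintype I'] in
/-- **DECOMPOSITION OF A WORD** `(τ(g), Y)` -/
theorem word_decomp (hbb : bb = -1 ∨ bb = -7) (hee : e ≠ e') {μ : ι → ℝ} (hμ : ∀ l, 0 ≤ μ l)
    {cn : ℝ} (hcn : 0 < cn) (hB : ∀ i, Bnd (Bd i) (pos i) (N i) (ν i)) (hr : ∀ i, 0 ≤ r i)
    (hD : BdOK j e T g c0 J Bd pos a) (hR : Full R J) (hP : TWin.Part R S W C) (n : ℕ)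
    {F : Fin 4 → ℤ → ℂ}
    (hF : ∀ y ∈ iv J, F j y = ∑ l, ((μ l / cn : ℝ) : ℂ) *
      atom j 1 (T l) (g l 0) (g l 1) (g l 2) y)
    {P : Finset (ℤ × ℤ × ℤ)} {M : ℕ} (hPc : ∀ l, Cov M (T l) P) (hM : ∀ q ∈ R, q.1 < M)
    {ε : ℕ → ℤ → ℂ} (hε : ∀ m x, ‖ε m x‖ ≤ 1) (Gd : ι → ℕ → ℤ × ℤ × ℤ → ℕ → Prop)
    (f : Nd → Fn) (H1 h0 : ℝ) (Yk : ℕ → Fn) (Yw : Nd → Fn)
    (hY : ∀ K ∈ S, idx S K ≤ n → ∀ y ∈ iv K, Yk (idx S K) y = Yw K y) :
    ‖∑ K ∈ S.filter (fun K => idx S K ≤ n), ∑ q ∈ W K,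
      v4 bb ε F (j.succAbove (e + 2)) (j.succAbove (e' + 2)) (fun y => tau H1 (gl (W K) f y))
        (Yw K) q‖ ≤
      ‖∑ k ∈ range n, TJ j bb T g (fun l => μ l / cn) c0 P M
        (fun l => gchi (Gd l) (chi j bb (R.filter (fun q => idx S q - 1 = k)) ε))
        (fun s => cutJ J (F s)) (fun l => Bd (c0 l) J) e e' hee
        (tZ h0 Bd pos N a r (Rk R S (k + 1)) J f) (Yk (k + 1))‖ +
      (∑ K ∈ S.filter (fun K => idx S K ≤ n), ∑ l, μ l / cn *
        TA bb P M (fun m p _ => AdX (W K) m (xv j bb m p))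
          (KB j (T l) (g l) F e e' (Bd (c0 l)) (pos (c0 l)) (N (c0 l)) (a (c0 l)) (r (c0 l)) H1 h0
            (W K) K f (Yw K)) +
      ∑ k ∈ range n, ∑ l, μ l / cn *
        TA bb P M (fun m p v => ¬ Gd l m p v ∧ AdX (Rk R S (k + 1)) m (xv j bb m p))
          (KL j (T l) (g l) F e e' J (fun y => tau H1 (gl (Rk R S (k + 1)) f y)) (Yk (k + 1)))) := by
  classical
  set sa := j.succAbove (e + 2) with hsa
  set sb := j.succAbove (e' + 2) with hsb
  have hab : sa ≠ sb := slot_ne hee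
  have haj : sa ≠ j := Fin.succAbove_ne j _
  have hbj : sb ≠ j := Fin.succAbove_ne j _
  set xk : ℕ → Fn := fun k y => tau H1 (gl (Rk R S k) f y) with hxk
  set Sk : ℕ → Finset Nd := fun k => R.filter (fun q => idx S q - 1 = k) with hSk
  have hSkJ : ∀ k, ∀ q ∈ Sk k, iv q ⊆ iv J := fun k q hq =>
    hR.reg.1 q (Finset.mem_filter.1 hq).1
  -- step 1 : global letters
  have h1 : ∑ K ∈ S.filter (fun K => idx S K ≤ n), ∑ q ∈ W K,
      v4 bb ε F sa sb (fun y => tau H1 (gl (W K) f y)) (Yw K) q =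
      ∑ K ∈ S.filter (fun K => idx S K ≤ n), ∑ q ∈ W K,
        v4 bb ε F sa sb (xk (idx S K)) (Yk (idx S K)) q := by
    refine Finset.sum_congr rfl fun K hK => Finset.sum_congr rfl fun q hq => ?_
    obtain ⟨hKS, hKn⟩ := Finset.mem_filter.1 hK
    have hqK : iv q ⊆ iv K := (hP.full K hKS).reg.1 q hq
    unfold v4
    refine Qb247.TI_congr bb hbb ε _ _ q fun s y hy => ?_
    by_cases hb : s = sb
    · subst hb
      rw [Function.update_self, Function.update_self]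
      exact (hY K hKS hKn y (hqK hy)).symm
    · rw [Function.update_of_ne hb, Function.update_of_ne hb]
      by_cases ha : s = sa
      · rw [ha, Function.update_self, Function.update_self]
        simp only [hxk]
        rw [gl_stack hR hP hKS f (hqK hy)]
      · rw [Function.update_of_ne ha, Function.update_of_ne ha]
  rw [h1, sum_part hR hP n (fun k q => v4 bb ε F sa sb (xk k) (Yk k) q)]
  -- step 2 : atoms
  set F0 : Fin 4 → ℤ → ℂ := fun s => cutJ J (F s) with hF0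
  set χ : ℕ → ℕ → ℤ × ℤ × ℤ → ℕ → ℂ := fun k => chi j bb (Sk k) ε with hχ
  set KJ : ι → ℕ → Fin 3 → Kl := fun l k =>
    Function.update (lks j (T l) (g l) F0) e' (lk j (T l) (g l) e' (Yk (k + 1))) with hKJ
  set kB : ι → ℕ → Kl := fun l k => ker (Bd (c0 l) J) (Btk (Bd (c0 l)) (pos (c0 l)) (N (c0 l))
    (a (c0 l)) (r (c0 l)) H1 h0 (Rk R S (k + 1)) J f) with hkB
  set kZ : ι → ℕ → Kl := fun l k =>
    ker (Bd (c0 l) J) (fun ω => tZ h0 Bd pos N a r (Rk R S (k + 1)) J f ⟨c0 l, ω⟩) with hkZ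
  set kX : ι → ℕ → Kl := fun l k => lk j (T l) (g l) e (xk (k + 1)) with hkX
  have h2 : ∀ k ∈ range n, ∑ q ∈ Sk k, v4 bb ε F sa sb (xk (k + 1)) (Yk (k + 1)) q =
      TJ j bb T g (fun l => μ l / cn) c0 P M (fun l => gchi (Gd l) (χ k)) F0
        (fun l => Bd (c0 l) J) e e' hee (tZ h0 Bd pos N a r (Rk R S (k + 1)) J f) (Yk (k + 1)) +
      ∑ l, ((μ l / cn : ℝ) : ℂ) * (TT bb P M (gchi (Gd l) (χ k)) (Function.update (KJ l k) e
        (kB l k)) + TT bb P M (gchi (fun m p v => ¬ Gd l m p v) (χ k))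
          (Function.update (KJ l k) e (kX l k))) := by
    intro k _
    have h3 := word_atoms j hbb T g (fun l => ((μ l / cn : ℝ) : ℂ))
      (Function.update (Function.update F sa (xk (k + 1))) sb (Yk (k + 1)))
      (fun y hy => by
        rw [Function.update_of_ne hbj.symm, Function.update_of_ne haj.symm]
        exact hF y hy) P hPc (Sk k) (fun q hq => hM q (Finset.mem_filter.1 hq).1) (hSkJ k) ε
    unfold v4
    rw [h3, TJ_apply, ← Finset.sum_add_distrib]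
    refine Finset.sum_congr rfl fun l _ => ?_
    rw [← mul_add]
    congr 1
    have e1 : lks j (T l) (g l) (Function.update (Function.update F sa (xk (k + 1))) sb
        (Yk (k + 1))) = Function.update (Function.update (lks j (T l) (g l) F) e'
          (lk j (T l) (g l) e' (Yk (k + 1)))) e (kX l k) := by
      rw [hsb, lks_update, hsa, lks_update, Function.update_comm hee]
    have a1 : AgrS j (Sk k) (Function.update (Function.update (lks j (T l) (g l) F) e'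
          (lk j (T l) (g l) e' (Yk (k + 1)))) e (kX l k))
        (Function.update (KJ l k) e (kX l k)) :=
      agr_update (agr_update (agr_lks_cut (hSkJ k) (T l) (g l) F) (fun _ _ _ _ _ _ => rfl))
        (fun _ _ _ _ _ _ => rfl)
    have hz : ∀ m p v, ¬ AdX (Sk k) m (xv j bb m p) → χ k m p v = 0 := fun m p v =>
      (chi_one j bb (S := Sk k) hε m p v).2
    have hz' : ∀ m p v, ¬ AdX (Sk k) m (xv j bb m p) → gchi (Gd l) (χ k) m p v = 0 := by
      intro m p v h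
      unfold gchi
      rw [hz m p v h, ite_self]
    rw [e1, TT_agr hbb a1 P M hz, TT_split bb P M (Gd l)]
    have a2 : AgrS j (Sk k) (Function.update (KJ l k) e (kX l k))
        (Function.update (KJ l k) e (fun w z z' => kB l k w z z' + kZ l k w z z')) :=
      agr_update (AgrS.refl _ _ _) (line_split hD l (hSkJ k) f H1 h0)
    rw [TT_agr hbb a2 P M hz', TT_add]
    simp only [hKJ, hkZ]
    ring
  rw [Finset.sum_congr rfl h2, Finset.sum_add_distrib]
  refine (norm_add_le _ _).trans (add_le_add le_rfl ?_)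
  -- step 3 : the error
  have hμc : ∀ l, 0 ≤ μ l / cn := fun l => div_nonneg (hμ l) hcn.le
  have h3 : ∀ k ∈ range n, ∀ l : ι, ‖TT bb P M (gchi (Gd l) (χ k))
      (Function.update (KJ l k) e (kB l k))‖ ≤
      ∑ K ∈ S.filter (fun K => idx S K - 1 = k),
        TA bb P M (fun m p _ => AdX (W K) m (xv j bb m p))
          (KB j (T l) (g l) F e e' (Bd (c0 l)) (pos (c0 l)) (N (c0 l)) (a (c0 l)) (r (c0 l)) H1 h0
            (W K) K f (Yw K)) := by
    intro k hk l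
    rw [Finset.mem_range] at hk
    have hcov : ∀ q ∈ Sk k, ∃ K ∈ S.filter (fun K => idx S K - 1 = k), q ∈ W K := by
      intro q hq
      obtain ⟨K, hK, hqK, _⟩ := win_of_stack hR hP hq
      exact ⟨K, hK, hqK⟩
    have hKk : ∀ K ∈ S.filter (fun K => idx S K - 1 = k), K ∈ S ∧ idx S K = k + 1 := by
      intro K hK
      obtain ⟨hKS, hKk⟩ := Finset.mem_filter.1 hK
      have := idx_pos hR hP (hP.sub hKS)
      exact ⟨hKS, by omega⟩
    have agr0 : ∀ K ∈ S.filter (fun K => idx S K - 1 = k), AgrS j (W K) (KJ l k)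
        (Function.update (lks j (T l) (g l) (fun s => cutJ K (F s))) e'
          (lk j (T l) (g l) e' (cutJ K (Yw K)))) := by
      intro K hK
      obtain ⟨hKS, hKi⟩ := hKk K hK
      have hKJ' : iv K ⊆ iv J := hR.reg.1 K (hP.sub hKS)
      refine agr_update (agr_lks _ _ fun s _ q hq y hy => ?_) (agrE_lk _ _ _ fun q hq y hy => ?_)
      · have hqK := (hP.full K hKS).reg.1 q hq hy
        simp only [hF0]
        rw [cutJ_on (hKJ' hqK), cutJ_on hqK]
      · have hqK := (hP.full K hKS).reg.1 q hq hy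
        rw [cutJ_on hqK, ← hKi]
        exact hY K hKS (by omega) y hqK
    refine (TT_stack hε P M (Gd l) _ W hcov _).trans (Finset.sum_le_sum fun K hK => ?_)
    obtain ⟨hKS, hKi⟩ := hKk K hK
    have a3 : AgrS j (W K) (Function.update (KJ l k) e (kB l k))
        (KB j (T l) (g l) F e e' (Bd (c0 l)) (pos (c0 l)) (N (c0 l)) (a (c0 l)) (r (c0 l)) H1 h0
          (W K) K f (Yw K)) := by
      refine agr_update (agr0 K hK) ?_
      have := btk_win hB hr hD hR hP l hKS f H1 h0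
      rw [hKi] at this
      exact this
    rw [TA_agr hbb a3 P M (fun m p v h => h.2)]
    exact TA_mono bb P M _ fun _ _ _ _ _ _ h _ => h.2
  have h4 : ∀ k ∈ range n, ∀ l : ι, ‖TT bb P M (gchi (fun m p v => ¬ Gd l m p v) (χ k))
      (Function.update (KJ l k) e (kX l k))‖ ≤
      TA bb P M (fun m p v => ¬ Gd l m p v ∧ AdX (Rk R S (k + 1)) m (xv j bb m p))
          (KL j (T l) (g l) F e e' J (xk (k + 1)) (Yk (k + 1))) := by
    intro k hk l
    have hSR : ∀ q ∈ Sk k, q ∈ Rk R S (k + 1) := by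
      intro q hq
      obtain ⟨hqR, hqk⟩ := Finset.mem_filter.1 hq
      exact mem_Rk.2 ⟨hqR, by omega⟩
    have hRJ : ∀ q ∈ Rk R S (k + 1), iv q ⊆ iv J := fun q hq => hR.reg.1 q (mem_Rk.1 hq).1
    refine (norm_TT_le bb P M (Gd := fun m p v => ¬ Gd l m p v ∧
      AdX (Rk R S (k + 1)) m (xv j bb m p)) _ ?_).trans (le_of_eq ?_)
    · intro m _ p _ v _
      have h1 := chi_one j bb (S := Sk k) hε m p v
      unfold gchi
      constructor
      · split_ifs
        · exact h1.1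
        · simp
      · intro hn
        split_ifs with hg
        · refine h1.2 fun ha => hn ⟨hg, ?_⟩
          obtain ⟨q, hq, hqm, hx⟩ := ha
          exact ⟨q, hSR q hq, hqm, hx⟩
        · rfl
    · refine TA_agr hbb (S := Rk R S (k + 1)) ?_ P M (fun m p v h => h.2)
      refine agr_update (agr_update (AgrS.refl _ _ _) (agrE_lk _ _ _ fun q hq y hy => ?_))
        (agrE_lk _ _ _ fun q hq y hy => ?_)
      · rw [cutJ_on (hRJ q hq hy)]
      · rw [cutJ_on (hRJ q hq hy)]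
  have h5 : ‖∑ k ∈ range n, ∑ l, ((μ l / cn : ℝ) : ℂ) * (TT bb P M (gchi (Gd l) (χ k))
      (Function.update (KJ l k) e (kB l k)) + TT bb P M (gchi (fun m p v => ¬ Gd l m p v) (χ k))
          (Function.update (KJ l k) e (kX l k)))‖ ≤
      ∑ k ∈ range n, ∑ l, (μ l / cn * (∑ K ∈ S.filter (fun K => idx S K - 1 = k),
        TA bb P M (fun m p _ => AdX (W K) m (xv j bb m p))
          (KB j (T l) (g l) F e e' (Bd (c0 l)) (pos (c0 l)) (N (c0 l)) (a (c0 l)) (r (c0 l)) H1 h0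
            (W K) K f (Yw K))) + μ l / cn *
        TA bb P M (fun m p v => ¬ Gd l m p v ∧ AdX (Rk R S (k + 1)) m (xv j bb m p))
          (KL j (T l) (g l) F e e' J (xk (k + 1)) (Yk (k + 1)))) := by
    refine (norm_sum_le _ _).trans (Finset.sum_le_sum fun k hk => ?_)
    refine (norm_sum_le _ _).trans (Finset.sum_le_sum fun l _ => ?_)
    rw [norm_mul, Complex.norm_real, Real.norm_of_nonneg (hμc l), ← mul_add]
    exact mul_le_mul_of_nonneg_left ((norm_add_le _ _).trans (add_le_add (h3 k hk l) (h4 k hk l)))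
      (hμc l)
  refine h5.trans (le_of_eq ?_)
  simp only [Finset.sum_add_distrib]
  congr 1
  have e5 : ∀ k ∈ range n, ∀ (U : ι → Nd → ℝ), ∑ l, μ l / cn *
      ∑ K ∈ S.filter (fun K => idx S K - 1 = k), U l K =
      ∑ K ∈ (S.filter (fun K => idx S K ≤ n)).filter (fun K => idx S K - 1 = k),
        ∑ l, μ l / cn * U l K := by
    intro k hk U
    simp only [Finset.mul_sum]
    rw [Finset.sum_comm]
    refine Finset.sum_congr ?_ fun _ _ => rfl
    rw [Finset.mem_range] at hk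
    ext K
    rw [Finset.mem_filter, Finset.mem_filter, Finset.mem_filter]
    constructor
    · rintro ⟨hKS, hi⟩
      exact ⟨⟨hKS, by omega⟩, hi⟩
    · rintro ⟨⟨hKS, _⟩, hi⟩
      exact ⟨hKS, hi⟩
  rw [Finset.sum_congr rfl fun k hk => e5 k hk _]
  exact Finset.sum_fiberwise_of_maps_to (s := S.filter (fun K => idx S K ≤ n)) (t := range n)
    (g := fun K => idx S K - 1) (fun K hK => by
      obtain ⟨hKS, hKn⟩ := Finset.mem_filter.1 hK
      have := idx_pos hR hP (hP.sub hKS)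
      rw [Finset.mem_range]
      omega) _

end main

end Crest.Agent.R079.GaUx571
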