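import Crest.Agent.R079.B0L_253
import Crest.Agent.R079.GaU_571

/-! R079, Step I, (G) words (helper253): the KILLER PART of `GaU_571.word_decomp` (kernels `KB`).

* `b0_KB`  : one window, one atom, from (BT) = operator bound of `ker (Bd K) (Btk ..)`;
* `b0_sum` : sum over the windows and the atoms of a family. -/

set_option autoImplicit false

namespace Crest.Agent.R079.B0Mx253

open Finset Crest.Agent.R079.Grid Crest.Agent.R079.Glue Crest.Agent.R079.Growth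
  Crest.Agent.R079.QRed Crest.Agent.R079.KLx446
open Crest.Agent.R079.GaAx571 Crest.Agent.R079.GaBx571 Crest.Agent.R079.GaWx571
  Crest.Agent.R079.GaXx571 Crest.Agent.R079.GaTx571 Crest.Agent.R079.GaUx571
  Crest.Agent.R079.GaFx371 Crest.Agent.R079.KLX279 Crest.Agent.R079.B0Lx253

lemma av_cut (K : Nd) (F : Fn) : av K (cutJ K F) = av K F := by
  have h : ∑ y ∈ iv K, ‖cutJ K F y‖ ^ 2 = ∑ y ∈ iv K, ‖F y‖ ^ 2 := by
    refine Finset.sum_congr rfl fun y hy => ?_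
    unfold cutJ
    rw [if_pos hy]
  have h1 := Growth.sum_av K (cutJ K F)
  have h2 := Growth.sum_av K F
  rw [h] at h1
  have h3 : av K (cutJ K F) ^ 2 = av K F ^ 2 :=
    mul_left_cancel₀ (Growth.len_pos K).ne' (by rw [← h1, ← h2])
  exact (sq_eq_sq₀ (Growth.av_nonneg _ _) (Growth.av_nonneg _ _)).1 h3

lemma norm_cut {K : Nd} {F : Fn} {H : ℝ} (h : ∀ x ∈ iv K, ‖F x‖ ≤ H) :
    ∀ x ∈ iv K, ‖cutJ K F x‖ ≤ H := by
  intro x hx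
  unfold cutJ
  rw [if_pos hx]
  exact h x hx

/-- sup bound of the killer kernel -/
lemma btk_sup {Ω : Type*} {Bd : Nd → Finset Ω} {pos : Ω → ℤ} {N : Nd → (Ω → ℂ) → ℝ} {a : Ω → ℂ}
    {r H1 h0 A : ℝ} {W : Finset Nd} {K : Nd} {f : Nd → Fn} (hH1 : 0 ≤ H1) (hh0 : 0 ≤ h0) {ω : Ω}
    (ha : ‖a ω‖ ≤ A) : ‖Btk Bd pos N a r H1 h0 W K f ω‖ ≤ A * H1 + h0 := by
  unfold Btk
  refine (norm_sub_le _ _).trans (add_le_add ?_ (tau_le hh0 _))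
  rw [norm_mul]
  exact mul_le_mul ha (tau_le hH1 _) (norm_nonneg _) ((norm_nonneg _).trans ha)

/-- **ONE WINDOW, ONE ATOM** -/
theorem b0_KB : ∃ K0 : ℝ, 0 ≤ K0 ∧ ∀ (bb : ℤ), bb = -1 ∨ bb = -7 → ∀ (j : Fin 4) (e e' e'' v : Fin 3),
    e ≠ e' → e'' ≠ e → e'' ≠ e' →
    ∀ (W : Finset Nd) (K : Nd), IsRegion W K → ∀ (n : ℕ), 2 ^ K.1 ≤ n →
    ∀ (Ht Hf : ℝ) (T : Fin 3 → Finset ℤ) (g : Fin 3 → ℤ → ℤ → ℂ) (α : ℤ → ℝ), 0 ≤ Hf →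
    OpD v n Ht Hf T g α → (∀ i, ∃ t : ℤ, T i ⊆ Ico t (t + n)) →
    ∀ (F : Fin 4 → Fn) (Bd : Nd → Finset (ℤ × ℤ × ℤ)) (pos : ℤ × ℤ × ℤ → ℤ)
      (N : Nd → (ℤ × ℤ × ℤ → ℂ) → ℝ) (a : ℤ × ℤ × ℤ → ℂ) (r H1 h0 : ℝ) (f : Nd → Fn) (Y : Fn)
      (τ H dl : ℝ), 0 ≤ H1 → 0 ≤ h0 → 0 < τ → 0 ≤ H → 0 < dl →
    (∀ w z z', (w, z, z') ∈ Bd K → z ∈ T e ∧ z' ∈ T (e + 1) ∧ Ye j e w z z' ∈ iv K) →
    (∀ w z z', a (w, z, z') = g e z z') →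
    (∀ x ∈ iv K, ‖Y x‖ ≤ H) → (∀ x ∈ iv K, ‖F (j.succAbove (e'' + 2)) x‖ ≤ H) →
    (∀ (w : ℤ) (m : ℕ) (q u : ℤ), m ≤ K.1 → (∀ z ∈ Ico q (q + 2 ^ m), ∀ z' ∈ Ico u (u + 2 ^ m),
      ((m, Ye j e w z z' / 2 ^ (m + 7)) : Nd) ∈ W) →
      ClW59.OpS (Ico q (q + 2 ^ m)) (Ico u (u + 2 ^ m))
        (ker (Bd K) (Btk Bd pos N a r H1 h0 W K f) w) (2 ^ m * τ)) →
    ∀ (L1 M : ℕ),
    TA bb (cube L1) M (fun m p _ => AdX W m (xv j bb m p))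
      (KB j T g F e e' Bd pos N a r H1 h0 W K f Y) ≤
      K0 * (1 + Real.log (1 + (max 1 (√(Hf * Ht)) * H1 + h0) ^ 2 *
        (2 * (max 1 (√(Hf * Ht)) * H) ^ 2) / (dl * τ ^ 2))) *
        (τ * (n ^ 2 * len K * ((av K Y + √dl) * (av K (F (j.succAbove (e'' + 2))) + √dl)))) := by
  obtain ⟨K0, hK0, hK⟩ := b0_win
  refine ⟨K0, hK0, ?_⟩
  intro bb hbb j e e' e'' v hee h2 h3 W K hW n hn Ht Hf T g α hHf hD hTI F Bd pos N a r H1 h0 f Y τ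
    H dl hH1 hh0 hτ hH hdl hmem ha hY hF hBT L1 M
  classical
  have hA0 : 0 ≤ max 1 (√(Hf * Ht)) := le_trans zero_le_one (le_max_left _ _)
  have main := hK bb hbb j e e' e'' v hee h2 h3 W K hW n hn Ht Hf T g α hHf hD hTI
    (ker (Bd K) (Btk Bd pos N a r H1 h0 W K f)) (fun s => cutJ K (F s)) (cutJ K Y)
    (max 1 (√(Hf * Ht)) * H1 + h0) τ H dl hτ hH hdl
    (by
      intro w z z' h
      unfold ker at h
      by_cases h1 : (w, z, z') ∈ Bd K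
      · exact hmem w z z' h1
      · exact absurd (by rw [if_neg h1]) h)
    (by
      intro w z z'
      unfold ker
      by_cases h1 : (w, z, z') ∈ Bd K
      · rw [if_pos h1]
        refine btk_sup hH1 hh0 ?_
        rw [ha]
        exact hD.sup hHf e z z'
      · rw [if_neg h1, norm_zero]
        positivity)
    (norm_cut hY) (norm_cut hF) hBT L1 M (fun m p _ => AdX W m (xv j bb m p)) (fun _ _ _ h => h)
  rw [av_cut, av_cut] at main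
  exact main

/-- **SUM OVER THE WINDOWS AND THE ATOMS**: the killer part of `word_decomp`; `cn = n²`. -/
theorem b0_sum : ∃ K0 : ℝ, 0 ≤ K0 ∧ ∀ (bb : ℤ), bb = -1 ∨ bb = -7 → ∀ (j : Fin 4) (e e' e'' v : Fin 3),
    e ≠ e' → e'' ≠ e → e'' ≠ e' →
    ∀ (n : ℕ), 0 < n → ∀ (Ht Hf : ℝ), 0 ≤ Hf →
    ∀ {ι I' : Type} [Fintype ι] (T : ι → Fin 3 → Finset ℤ) (g : ι → Fin 3 → ℤ → ℤ → ℂ)
      (α : ι → ℤ → ℝ) (μ : ι → ℝ) (La : ℝ), (∀ l, 0 ≤ μ l) → ∑ l, μ l ≤ La →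
    (∀ l, OpD v n Ht Hf (T l) (g l) (α l)) → (∀ l i, ∃ t : ℤ, T l i ⊆ Ico t (t + n)) →
    ∀ (c0 : ι → I') (J : Nd) (Bd : I' → Nd → Finset (ℤ × ℤ × ℤ)) (pos : I' → ℤ × ℤ × ℤ → ℤ)
      (N : I' → Nd → (ℤ × ℤ × ℤ → ℂ) → ℝ) (a : I' → ℤ × ℤ × ℤ → ℂ),
    BdOK j e T g c0 J Bd pos a →
    ∀ (S : Finset Nd) (W : Nd → Finset Nd), (∀ K ∈ S, IsRegion (W K) K ∧ iv K ⊆ iv J ∧ 2 ^ K.1 ≤ n) →
    ∀ (F : Fin 4 → Fn) (r : I' → ℝ) (H1 h0 : ℝ) (f : Nd → Fn) (Yw : Nd → Fn) (τ H dl : ℝ),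
    0 ≤ H1 → 0 ≤ h0 → 0 < τ → 0 ≤ H → 0 < dl →
    (∀ K ∈ S, ∀ x ∈ iv K, ‖Yw K x‖ ≤ H) →
    (∀ K ∈ S, ∀ x ∈ iv K, ‖F (j.succAbove (e'' + 2)) x‖ ≤ H) →
    (∀ l, ∀ K ∈ S, ∀ (w : ℤ) (m : ℕ) (q u : ℤ), m ≤ K.1 →
      (∀ z ∈ Ico q (q + 2 ^ m), ∀ z' ∈ Ico u (u + 2 ^ m),
        ((m, Ye j e w z z' / 2 ^ (m + 7)) : Nd) ∈ W K) →
      ClW59.OpS (Ico q (q + 2 ^ m)) (Ico u (u + 2 ^ m))
        (ker (Bd (c0 l) K) (Btk (Bd (c0 l)) (pos (c0 l)) (N (c0 l)) (a (c0 l)) (r (c0 l)) H1 h0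
          (W K) K f) w) (2 ^ m * τ)) →
    ∀ (L1 M : ℕ),
    ∑ K ∈ S, ∑ l, μ l / (n : ℝ) ^ 2 * TA bb (cube L1) M (fun m p _ => AdX (W K) m (xv j bb m p))
      (KB j (T l) (g l) F e e' (Bd (c0 l)) (pos (c0 l)) (N (c0 l)) (a (c0 l)) (r (c0 l)) H1 h0
        (W K) K f (Yw K)) ≤
      La * (K0 * (1 + Real.log (1 + (max 1 (√(Hf * Ht)) * H1 + h0) ^ 2 *
        (2 * (max 1 (√(Hf * Ht)) * H) ^ 2) / (dl * τ ^ 2)))) *
        (τ * ∑ K ∈ S, len K * ((av K (Yw K) + √dl) * (av K (F (j.succAbove (e'' + 2))) + √dl))) := by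
  obtain ⟨K0, hK0, hK⟩ := b0_KB
  refine ⟨K0, hK0, ?_⟩
  intro bb hbb j e e' e'' v hee h2 h3 n hn Ht Hf hHf ι I' _ T g α μ La hμ hLa hD hTI c0 J Bd pos N a
    hBd S W hS F r H1 h0 f Yw τ H dl hH1 hh0 hτ hH hdl hY hF hBT L1 M
  classical
  set P : ℝ := K0 * (1 + Real.log (1 + (max 1 (√(Hf * Ht)) * H1 + h0) ^ 2 *
        (2 * (max 1 (√(Hf * Ht)) * H) ^ 2) / (dl * τ ^ 2))) with hP
  have hP0 : 0 ≤ P := by
    refine mul_nonneg hK0 ?_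
    have : 0 ≤ Real.log (1 + (max 1 (√(Hf * Ht)) * H1 + h0) ^ 2 *
        (2 * (max 1 (√(Hf * Ht)) * H) ^ 2) / (dl * τ ^ 2)) := by
      refine Real.log_nonneg ?_
      have : 0 ≤ (max 1 (√(Hf * Ht)) * H1 + h0) ^ 2 *
        (2 * (max 1 (√(Hf * Ht)) * H) ^ 2) / (dl * τ ^ 2) := by positivity
      linarith
    linarith
  have hn' : (0 : ℝ) < (n : ℝ) ^ 2 := by positivity
  set V : Nd → ℝ := fun K => len K * ((av K (Yw K) + √dl) *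
    (av K (F (j.succAbove (e'' + 2))) + √dl)) with hV
  have hV0 : ∀ K, 0 ≤ V K := fun K => mul_nonneg (Growth.len_pos K).le
    (mul_nonneg (add_nonneg (Growth.av_nonneg _ _) (Real.sqrt_nonneg _))
      (add_nonneg (Growth.av_nonneg _ _) (Real.sqrt_nonneg _)))
  have step : ∀ K ∈ S, ∑ l, μ l / (n : ℝ) ^ 2 * TA bb (cube L1) M
      (fun m p _ => AdX (W K) m (xv j bb m p))
      (KB j (T l) (g l) F e e' (Bd (c0 l)) (pos (c0 l)) (N (c0 l)) (a (c0 l)) (r (c0 l)) H1 h0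
        (W K) K f (Yw K)) ≤ La * P * (τ * V K) := by
    intro K hKS
    obtain ⟨hWK, hKJ, hKn⟩ := hS K hKS
    have h4 : ∀ l, μ l / (n : ℝ) ^ 2 * TA bb (cube L1) M
        (fun m p _ => AdX (W K) m (xv j bb m p))
        (KB j (T l) (g l) F e e' (Bd (c0 l)) (pos (c0 l)) (N (c0 l)) (a (c0 l)) (r (c0 l)) H1 h0
        (W K) K f (Yw K)) ≤ μ l * (P * (τ * V K)) := by
      intro l
      have h5 := hK bb hbb j e e' e'' v hee h2 h3 (W K) K hWK n hKn Ht Hf (T l) (g l) (α l) hHf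
        (hD l) (hTI l) F (Bd (c0 l)) (pos (c0 l)) (N (c0 l)) (a (c0 l)) (r (c0 l)) H1 h0 f (Yw K) τ
        H dl hH1 hh0 hτ hH hdl (fun w z z' h => (hBd.mem l K hKJ w z z').1 h)
        (fun w z z' => hBd.gau l w z z') (hY K hKS) (hF K hKS) (hBT l K hKS) L1 M
      calc _ ≤ μ l / (n : ℝ) ^ 2 * (P * (τ * (n ^ 2 * len K * ((av K (Yw K) + √dl) *
            (av K (F (j.succAbove (e'' + 2))) + √dl))))) :=
            mul_le_mul_of_nonneg_left h5 (div_nonneg (hμ l) hn'.le)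
        _ = _ := by
            rw [hV]
            field_simp
    refine (Finset.sum_le_sum fun l _ => h4 l).trans ?_
    rw [← Finset.sum_mul]
    calc _ ≤ La * (P * (τ * V K)) := mul_le_mul_of_nonneg_right hLa
          (mul_nonneg hP0 (mul_nonneg hτ.le (hV0 K)))
      _ = _ := by ring
  refine (Finset.sum_le_sum step).trans (le_of_eq ?_)
  rw [← Finset.mul_sum, ← Finset.mul_sum]

end Crest.Agent.R079.B0Mx253
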