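import Crest.Agent.R079.GaT_251
import Crest.Agent.R079.GaF_371
import Crest.Agent.R079.GaZ_260

/-! R079, Step I, (G) words (helper251), literal (BT) of helper571 (msg 7208): THE KILLER OF ONE WINDOW,
`Bt = a tau_H1(g) - tau_h0(Z) = Bgl + (Z - tau_h0 Z) - a (g - tau_H1 g)`, for one op-atom (`OpD` of 371),
edge `e ≠ v + 1`, frozen slot `j`: operator norm `≤ 2^m tauB` on every box of side `2^m` all of whose
shadows lie in nodes of level `m` of the window,
`tauB = 6 2^k r + 384 Hf Ht s² / h0 + 384 √(Hf Ht) s² / H1`, and `|Bt| ≤ √(Hf Ht) H1 + h0`. -/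

set_option autoImplicit false

namespace Crest.Agent.R079.GaBtx251

open Finset Crest.Agent.R079.Grid Crest.Agent.R079.Growth Crest.Agent.R079.QRed
  Crest.Agent.R079.Qh249 Crest.Agent.R079.TWin
  Crest.Agent.R079.ClW59 Crest.Agent.R079.Cel159 Crest.Agent.R079.ThA159 Crest.Agent.R079.PjC881
open Crest.Agent.R079.ThB159
open Crest.Agent.R079.Glue
open Crest.Agent.R079.GaAx571 Crest.Agent.R079.GaBx571 Crest.Agent.R079.GaFx371
open Crest.Agent.R079.GaSx571 Crest.Agent.R079.GaTx571 Crest.Agent.R079.GaZx260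
open Crest.Agent.R079.GaTx251

/-! ### the edge forms -/

lemma co1 : ∀ (j : Fin 4) (e : Fin 3), sl (j.succAbove (e + 1)) - sl (j.succAbove (e + 2)) ≠ 0 := by
  decide

lemma co2 : ∀ (j : Fin 4) (e : Fin 3), sl (j.succAbove e) - sl (j.succAbove (e + 2)) ≠ 0 := by
  decide

lemma lp_Ye (j : Fin 4) (e : Fin 3) : Lp (Ye j e) := by
  intro z x y x' y'
  have h1 : |sl (j.succAbove e) - sl (j.succAbove (e + 2))| ≤ 3 := by
    revert j e; decide
  have h2 : |sl (j.succAbove (e + 1)) - sl (j.succAbove (e + 2))| ≤ 3 := by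
    revert j e; decide
  have e1 : Ye j e z x y - Ye j e z x' y' =
      (sl (j.succAbove e) - sl (j.succAbove (e + 2))) * (x - x') +
        (sl (j.succAbove (e + 1)) - sl (j.succAbove (e + 2))) * (y - y') := by
    unfold Ye; ring
  rw [e1]
  refine (abs_add_le _ _).trans ?_
  rw [abs_mul, abs_mul, mul_add]
  exact add_le_add (mul_le_mul_of_nonneg_right h1 (abs_nonneg _))
    (mul_le_mul_of_nonneg_right h2 (abs_nonneg _))

lemma inj_Ye (j : Fin 4) (e : Fin 3) : Inj2 (Ye j e) where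
  row := by
    intro z x y y' h
    have h2 := co1 j e
    unfold Ye at h
    have h3 : (sl (j.succAbove (e + 1)) - sl (j.succAbove (e + 2))) * (y - y') = 0 := by
      linear_combination h
    rcases mul_eq_zero.1 h3 with h4 | h4
    · exact absurd h4 h2
    · linarith
  col := by
    intro z y x x' h
    have h2 := co2 j e
    simp only [Ye] at h
    have h3 : (sl (j.succAbove e) - sl (j.succAbove (e + 2))) * (x - x') = 0 := by
      linear_combination h
    rcases mul_eq_zero.1 h3 with h4 | h4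
    · exact absurd h4 h2
    · linarith

/-! ### line letters on small boxes -/

section line

variable {Y : ℤ → ℤ → ℤ → ℤ} (hi : Inj2 Y) (hl : Lp Y) {W : Finset Nd} {z : ℤ} {m : ℕ} {q u : ℤ}
    (hO : BxO Y W z m q u) {G : ℤ → ℝ} (hG : ∀ y, 0 ≤ G y) {E : ℝ} (hE0 : 0 ≤ E)
    (hE : ∀ l, (m, l) ∈ W → ∑ y ∈ iv (m, l), G y ≤ E)

include hi hl hO hG hE0 hE

theorem line_row {x : ℤ} (hx : x ∈ Ico q (q + 2 ^ m)) :
    ∑ y ∈ Ico u (u + 2 ^ m), G (Y z x y) ≤ 3 * E := by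
  classical
  have e1 : ∑ y ∈ Ico u (u + 2 ^ m), G (Y z x y) =
      ∑ c ∈ (Ico u (u + 2 ^ m)).image (fun y => (x, y)), G (Y z c.1 c.2) := by
    rw [Finset.sum_image]
    intro y _ y' _ h
    exact (Prod.mk.inj h).2
  rw [e1]
  refine sum_three hl (z := z) (m := m) (q := q) (u := u) ?_ (F := fun c => G (Y z c.1 c.2))
    (fun _ => hG _) fun l => ?_
  · intro c hc
    obtain ⟨y, hy, rfl⟩ := Finset.mem_image.1 hc
    exact ⟨hx, hy⟩
  · by_cases hm : (m, l) ∈ W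
    · refine le_trans ?_ (hE l hm)
      rw [← Finset.sum_image (g := fun c : ℤ × ℤ => Y z c.1 c.2) (f := G)]
      · refine Finset.sum_le_sum_of_subset_of_nonneg ?_ fun _ _ _ => hG _
        intro y hy
        obtain ⟨c, hc, rfl⟩ := Finset.mem_image.1 hy
        exact (Finset.mem_filter.1 hc).2
      · intro c hc d hd h
        rw [Finset.mem_coe, Finset.mem_filter, Finset.mem_image] at hc hd
        obtain ⟨⟨y, _, rfl⟩, _⟩ := hc
        obtain ⟨⟨y', _, rfl⟩, _⟩ := hd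
        have h' : y = y' := hi.row z x h
        rw [h']
    · refine le_trans (le_of_eq ?_) hE0
      refine Finset.sum_eq_zero fun c hc => ?_
      exfalso
      rw [Finset.mem_filter, Finset.mem_image] at hc
      obtain ⟨⟨y, hy, rfl⟩, h2⟩ := hc
      have h1 := (mem_Rm W m _).1 (hO x hx y hy)
      have h3 : Y z x y / 2 ^ (m + 7) = l := mem_iv'.1 h2
      rw [h3] at h1
      exact hm h1

theorem line_col {y : ℤ} (hy : y ∈ Ico u (u + 2 ^ m)) :
    ∑ x ∈ Ico q (q + 2 ^ m), G (Y z x y) ≤ 3 * E := by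
  classical
  have e1 : ∑ x ∈ Ico q (q + 2 ^ m), G (Y z x y) =
      ∑ c ∈ (Ico q (q + 2 ^ m)).image (fun x => (x, y)), G (Y z c.1 c.2) := by
    rw [Finset.sum_image]
    intro y _ y' _ h
    exact (Prod.mk.inj h).1
  rw [e1]
  refine sum_three hl (z := z) (m := m) (q := q) (u := u) ?_ (F := fun c => G (Y z c.1 c.2))
    (fun _ => hG _) fun l => ?_
  · intro c hc
    obtain ⟨x, hx, rfl⟩ := Finset.mem_image.1 hc
    exact ⟨hx, hy⟩
  · by_cases hm : (m, l) ∈ W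
    · refine le_trans ?_ (hE l hm)
      rw [← Finset.sum_image (g := fun c : ℤ × ℤ => Y z c.1 c.2) (f := G)]
      · refine Finset.sum_le_sum_of_subset_of_nonneg ?_ fun _ _ _ => hG _
        intro y hy
        obtain ⟨c, hc, rfl⟩ := Finset.mem_image.1 hy
        exact (Finset.mem_filter.1 hc).2
      · intro c hc d hd h
        rw [Finset.mem_coe, Finset.mem_filter, Finset.mem_image] at hc hd
        obtain ⟨⟨x, _, rfl⟩, _⟩ := hc
        obtain ⟨⟨x', _, rfl⟩, _⟩ := hd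
        have h' : x = x' := hi.col z y h
        rw [h']
    · refine le_trans (le_of_eq ?_) hE0
      refine Finset.sum_eq_zero fun c hc => ?_
      exfalso
      rw [Finset.mem_filter, Finset.mem_image] at hc
      obtain ⟨⟨x, hx, rfl⟩, h2⟩ := hc
      have h1 := (mem_Rm W m _).1 (hO x hx y hy)
      have h3 : Y z x y / 2 ^ (m + 7) = l := mem_iv'.1 h2
      rw [h3] at h1
      exact hm h1

/-- kernels with entries `≤ c G(Y)` -/
theorem opS_line {c : ℝ} (hc : 0 ≤ c) {L : ℤ → ℤ → ℂ}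
    (hL : ∀ x ∈ Ico q (q + 2 ^ m), ∀ y ∈ Ico u (u + 2 ^ m), ‖L x y‖ ≤ c * G (Y z x y)) :
    OpS (Ico q (q + 2 ^ m)) (Ico u (u + 2 ^ m)) L (c * (3 * E)) := by
  refine opS_schur (by positivity) (fun x hx => ?_) fun y hy => ?_
  · refine (Finset.sum_le_sum fun y hy => hL x hx y hy).trans ?_
    rw [← Finset.mul_sum]
    exact mul_le_mul_of_nonneg_left (line_row hi hl hO hG hE0 hE hx) hc
  · refine (Finset.sum_le_sum fun x hx => hL x hx y hy).trans ?_
    rw [← Finset.mul_sum]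
    exact mul_le_mul_of_nonneg_left (line_col hi hl hO hG hE0 hE hy) hc

end line

/-! ### the killer of a window -/

/-- **the killer of a window** `a tau_H1(g) - tau_h0(Z)` -/
noncomputable def Bt (j : Fin 4) (e : Fin 3) (T : Fin 3 → Finset ℤ) (g : Fin 3 → ℤ → ℤ → ℂ)
    (J0 : Nd) (k : ℕ) (r h0 H1 : ℝ) (W : Finset Nd) (K : Nd) (f : Nd → Fn) : Kl :=
  ker (BdE j e T J0 K) (fun ω => g e ω.2.1 ω.2.2 * tau H1 (gl W f (poE j e ω)) -
    tau h0 (Zs (BdE j e T J0) (poE j e) (NmP (SE j e T J0) cf (okc (Ye j e) k))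
      (fun ω => g e ω.2.1 ω.2.2) r W K f ω))

/-- operator bound of the killer of a window -/
noncomputable def tauB (k : ℕ) (r Ht Hf s h0 H1 : ℝ) : ℝ :=
  6 * 2 ^ k * r + 384 * (Hf * Ht) * s ^ 2 / h0 + 384 * √(Hf * Ht) * s ^ 2 / H1

lemma Bt_supp {j : Fin 4} {e : Fin 3} {T : Fin 3 → Finset ℤ} {g : Fin 3 → ℤ → ℤ → ℂ}
    {J0 : Nd} {k : ℕ} {r h0 H1 : ℝ} {W : Finset Nd} {K : Nd} {f : Nd → Fn} {w z z' : ℤ}
    (h : Bt j e T g J0 k r h0 H1 W K f w z z' ≠ 0) : (w, z, z') ∈ BdE j e T J0 K := by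
  by_contra hc
  exact h (if_neg hc)

section main

variable {v : Fin 3} {n : ℕ} {Ht Hf : ℝ} {T : Fin 3 → Finset ℤ} {g : Fin 3 → ℤ → ℤ → ℂ}
  {α : ℤ → ℝ} (hD : OpD v n Ht Hf T g α) (hHf : 0 ≤ Hf) {j : Fin 4}
  {e : Fin 3} (he : e ≠ v + 1)

include hD hHf he

lemma gauge_le (z z' : ℤ) : ‖g e z z'‖ ≤ √(Hf * Ht) :=
  Real.le_sqrt_of_sq_le (hD.sup' hHf he z z')

/-- **sup bound** -/
theorem Bt_sup {J0 : Nd} {k : ℕ} {r h0 H1 : ℝ} (hh0 : 0 ≤ h0) (hH1 : 0 ≤ H1) (W : Finset Nd)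
    (K : Nd) (f : Nd → Fn) (w z z' : ℤ) :
    ‖Bt j e T g J0 k r h0 H1 W K f w z z'‖ ≤ √(Hf * Ht) * H1 + h0 := by
  unfold Bt ker
  split_ifs
  · refine (norm_sub_le _ _).trans (add_le_add ?_ (tau_le hh0 _))
    rw [norm_mul]
    exact mul_le_mul (gauge_le hD hHf he _ _) (tau_le hH1 _) (norm_nonneg _) (Real.sqrt_nonneg _)
  · rw [norm_zero]
    positivity

/-- **OPERATOR BOUND OF THE KILLER OF A WINDOW** -/
theorem opS_Bt (hn : 0 < n) {J0 K : Nd} {k : ℕ} {r h0 H1 : ℝ} (hr : 0 ≤ r) (hh0 : 0 < h0)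
    (hH1 : 0 < H1) {W : Finset Nd} (hW : Full W K) (f : Nd → Fn) {s : ℝ}
    (hs : ∀ p ∈ W, av p (gl W f) ≤ s) {w : ℤ} {m : ℕ} {q u : ℤ}
    (hO : ∀ z ∈ Ico q (q + 2 ^ m), ∀ z' ∈ Ico u (u + 2 ^ m),
      (m, Ye j e w z z' / 2 ^ (m + 7)) ∈ W) :
    OpS (Ico q (q + 2 ^ m)) (Ico u (u + 2 ^ m)) (Bt j e T g J0 k r h0 H1 W K f w)
      (2 ^ m * tauB k r Ht Hf s h0 H1) := by
  classical
  have hB := bnd_E j e (T := T) J0 hn hD.card k
  have hO' : BxO (Ye j e) W w m q u := fun x hx y hy => (mem_Rm W m _).2 (hO x hx y hy)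
  have hHtf : 0 ≤ Hf * Ht := (sq_nonneg _).trans (hD.sup' hHf he 0 0)
  have hsq : √(Hf * Ht) ^ 2 = Hf * Ht := Real.sq_sqrt hHtf
  have hE : ∀ l, (m, l) ∈ W → ∑ y ∈ iv (m, l), ‖gl W f y‖ ^ 2 ≤ 2 ^ (m + 7) * s ^ 2 := by
    intro l hl
    rw [Crest.Agent.R079.RelW653.sum_av']
    refine mul_le_mul (le_of_eq rfl) (pow_le_pow_left₀ (av_nonneg _ _) (hs _ hl) 2) (sq_nonneg _)
      (by positivity)
  have hE0 : (0 : ℝ) ≤ 2 ^ (m + 7) * s ^ 2 := by positivity
  set Z := Zs (BdE j e T J0) (poE j e) (NmP (SE j e T J0) cf (okc (Ye j e) k))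
      (fun ω => g e ω.2.1 ω.2.2) r W K f with hZ
  -- the three parts
  have p1 := opS_glued (Y := Ye j e) (k := k) (S := SE j e T J0) (z := w) (q := q) (u := u)
    (m := m) hB (lp_Ye j e) (fun ω => g e ω.2.1 ω.2.2) hr hW (gl W f) hO'
  have p2 := opS_Zhi (Y := Ye j e) (k := k) (T₀ := W0 j e T J0) (T₁ := T e) (T₂ := T (e + 1))
    (z := w) (q := q) (u := u) (m := m) hB (inj_Ye j e) (lp_Ye j e)
    (a := fun ω => g e ω.2.1 ω.2.2) (Ha := √(Hf * Ht))
    (fun ω _ => gauge_le hD hHf he _ _) hr hW f hO' hE0 hE hh0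
    (L := fun z z' => Z (w, z, z') - tau h0 (Z (w, z, z'))) (fun x _ y _ => tau_rest hh0 _)
  have p3 := opS_line (inj_Ye j e) (lp_Ye j e) hO' (G := fun y => ‖gl W f y‖ ^ 2)
    (fun _ => sq_nonneg _) hE0 hE (c := √(Hf * Ht) / H1) (by positivity)
    (L := fun z z' => if (w, z, z') ∈ BdE j e T J0 K then
      -(g e z z' * (gl W f (Ye j e w z z') - tau H1 (gl W f (Ye j e w z z')))) else 0)
    (fun x _ y _ => by
      split_ifs
      · rw [norm_neg, norm_mul]
        calc ‖g e x y‖ * ‖gl W f (Ye j e w x y) - tau H1 (gl W f (Ye j e w x y))‖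
            ≤ √(Hf * Ht) * (‖gl W f (Ye j e w x y)‖ ^ 2 / H1) :=
              mul_le_mul (gauge_le hD hHf he _ _) (tau_rest hH1 _) (norm_nonneg _)
                (Real.sqrt_nonneg _)
          _ = _ := by ring
      · rw [norm_zero]
        positivity)
  have p := opS_add (by positivity) (by positivity) (opS_add (by positivity) (by positivity) p1 p2) p3
  have e1 : 3 * (2 * (r * 2 ^ (m + k))) + 3 * (√(Hf * Ht) ^ 2 * (2 ^ (m + 7) * s ^ 2)) / h0 +
      √(Hf * Ht) / H1 * (3 * (2 ^ (m + 7) * s ^ 2)) = 2 ^ m * tauB k r Ht Hf s h0 H1 := by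
    rw [hsq]
    unfold tauB
    rw [pow_add, pow_add]
    ring
  rw [e1] at p
  refine opS_congr p fun z _ z' _ => ?_
  by_cases hω : (w, z, z') ∈ BdE j e T J0 K
  · have e0 : Bt j e T g J0 k r h0 H1 W K f w z z' = g e z z' * tau H1 (gl W f (Ye j e w z z')) -
        tau h0 (Z (w, z, z')) := by
      unfold Bt ker
      rw [if_pos hω]
      rfl
    rw [e0, if_pos hω]
    have e2 : Z (w, z, z') = g e z z' * gl W f (Ye j e w z z') -
        Bgl (BdE j e T J0) (poE j e) (NmP (SE j e T J0) cf (okc (Ye j e) k))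
          (fun ω => g e ω.2.1 ω.2.2) r W K (gl W f) (w, z, z') := by
      rw [hZ]
      unfold Zs
      rw [ag_eq hω]
      rfl
    symm
    change g e z z' * tau H1 (gl W f (Ye j e w z z')) - tau h0 (Z (w, z, z')) =
      Bgl (BdE j e T J0) (poE j e) (NmP (SE j e T J0) cf (okc (Ye j e) k))
          (fun ω => g e ω.2.1 ω.2.2) r W K (gl W f) (w, z, z') +
        (Z (w, z, z') - tau h0 (Z (w, z, z'))) +
        -(g e z z' * (gl W f (Ye j e w z z') - tau H1 (gl W f (Ye j e w z z'))))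
    have e3 : Bgl (BdE j e T J0) (poE j e) (NmP (SE j e T J0) cf (okc (Ye j e) k))
          (fun ω => g e ω.2.1 ω.2.2) r W K (gl W f) (w, z, z') =
        g e z z' * gl W f (Ye j e w z z') - Z (w, z, z') := by
      rw [e2]; ring
    rw [e3]
    ring
  · have e0 : Bt j e T g J0 k r h0 H1 W K f w z z' = 0 := by
      unfold Bt ker
      rw [if_neg hω]
    rw [e0, if_neg hω]
    have e2 : Z (w, z, z') = 0 := Zs_zero hB _ hr hW f hω
    have e3 : Bgl (BdE j e T J0) (poE j e) (NmP (SE j e T J0) cf (okc (Ye j e) k))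
          (fun ω => g e ω.2.1 ω.2.2) r W K (gl W f) (w, z, z') = 0 :=
      (Bgl_adm hB _ hr hW _ _ hW.top).1 _ hω
    have e4 : tau h0 (0 : ℂ) = 0 := by
      rw [tau_of_le]
      rw [norm_zero]; exact hh0.le
    symm
    change 0 = Bgl (BdE j e T J0) (poE j e) (NmP (SE j e T J0) cf (okc (Ye j e) k))
          (fun ω => g e ω.2.1 ω.2.2) r W K (gl W f) (w, z, z') +
        (Z (w, z, z') - tau h0 (Z (w, z, z'))) + 0
    rw [e2, e3, e4]
    ring

end main

end Crest.Agent.R079.GaBtx251
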