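import Crest.Agent.R079.FLD_263

/-! R079, Step I (helper263): minimisers glued at the DEEP exits (label region) against the ACTUAL exits
(window), remark of helper726. -/

set_option autoImplicit false

namespace Crest.Agent.R079.FLDx263

open Finset Crest.Agent.R079.Grid Crest.Agent.R079.Growth Crest.Agent.R079.QRed
  Crest.Agent.R079.Qh249 Crest.Agent.R079.QVar181 Crest.Agent.R079.TWin
open Crest.Agent.R079.RelW653 (vl NMP Jv Dv av_par sum_av' lf_sum_eq')
open Crest.Agent.R079.RelV653 Crest.Agent.R079.HWx323 Crest.Agent.R079.Chn110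
open Crest.Agent.R079.GLA110 Crest.Agent.R079.Qe292

/-- `|a - b|² ≤ 2 |a - c|² + 2 |c - b|²` in local `L²` -/
lemma av_two (p : Nd) (a b c : Fn) :
    av p (fun y => a y - b y) ^ 2 ≤
      2 * av p (fun y => c y - a y) ^ 2 + 2 * av p (fun y => c y - b y) ^ 2 := by
  have hL := Growth.len_pos p
  have h : len p * av p (fun y => a y - b y) ^ 2 ≤ len p *
      (2 * av p (fun y => c y - a y) ^ 2 + 2 * av p (fun y => c y - b y) ^ 2) := by
    rw [mul_add, mul_left_comm, mul_left_comm (len p) 2, ← sum_av', ← sum_av', ← sum_av',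
      Finset.mul_sum, Finset.mul_sum, ← Finset.sum_add_distrib]
    refine Finset.sum_le_sum fun y _ => ?_
    have h1 : ‖a y - b y‖ ≤ ‖c y - a y‖ + ‖c y - b y‖ := by
      have e : a y - b y = (c y - b y) - (c y - a y) := by ring
      rw [e]
      have := norm_sub_le (c y - b y) (c y - a y)
      linarith
    have h2 := pow_le_pow_left₀ (norm_nonneg _) h1 2
    nlinarith [sq_nonneg (‖c y - a y‖ - ‖c y - b y‖)]
  exact le_of_mul_le_mul_left h hL

section one

variable {c : ℝ} {K : Nd → Fn → Prop} {Φ : Nd → Fn → ℝ} {X : Fn} {η : ℝ} {f : Nd → Fn}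

/-- pointwise in the node -/
theorem gl_gl (hP : PenC c K Φ) (h : NMP K Φ X η f) {W W' : Finset Nd} {I : Nd} (hW : Full W I)
    (hW' : Full W' I) (hs : W' ⊆ W) {τ : ℝ} (hG : GdP Φ X η f τ W I) {p : Nd} (hp : p ∈ W') :
    av p (fun y => gl W' f y - gl W f y) ^ 2 ≤ 8 * τ := by
  have h1 := av_E_P hP h hW hG (hs hp)
  have h2 := av_E_P hP h hW' (fun q hq => hG q (hs hq)) hp
  have h3 := av_two p (gl W' f) (gl W f) (f I)
  linarith

/-- energy on the top: twice the drift of the region -/
theorem av_top (hP : PenC c K Φ) (h : NMP K Φ X η f) {W : Finset Nd} {I : Nd} (hW : Full W I) :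
    len I * av I (fun y => f I y - gl W f y) ^ 2 ≤
      2 * ∑ q ∈ W \ lf W, len q * DP (Jv Φ X f) η q := by
  have h1 := dv_le hP h hW
  have h2 : ∑ p ∈ lf W, len p * dvP f I p =
      (1 / 2) * (len I * av I (fun y => f I y - gl W f y) ^ 2) := by
    rw [lf_sum_eq' hW]
    have h3 : SL W I (fun L => av L (fun y => f I y - f L y) ^ 2)
        = len I * av I (fun y => f I y - gl W f y) ^ 2 := by
      have := av_gl hW (fun L y => f I y - f L y) I hW.top
      rw [← this]
      rfl
    rw [← h3, ← SL_smul]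
    rfl
  linarith

/-- energy of the difference on the top -/
theorem gl_gl_top (hP : PenC c K Φ) (h : NMP K Φ X η f) {W W' : Finset Nd} {I : Nd}
    (hW : Full W I) (hW' : Full W' I) (hs : W' ⊆ W) :
    len I * av I (fun y => gl W' f y - gl W f y) ^ 2 ≤
      8 * ∑ q ∈ W \ lf W, len q * DP (Jv Φ X f) η q := by
  have h1 := av_top hP h hW
  have h2 := av_top hP h hW'
  have h3 : ∑ q ∈ W' \ lf W', len q * DP (Jv Φ X f) η q ≤
      ∑ q ∈ W \ lf W, len q * DP (Jv Φ X f) η q :=
    Finset.sum_le_sum_of_subset_of_nonneg (inner_sub hs) fun q _ _ =>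
      mul_nonneg (Growth.len_pos q).le (DP_nonneg hP h q)
  have h4 := mul_le_mul_of_nonneg_left (av_two I (gl W' f) (gl W f) (f I)) (Growth.len_pos I).le
  linarith

/-- size of the glued minimisers -/
theorem av_gl_le (hP : PenC c K Φ) (h : NMP K Φ X η f) {W : Finset Nd} {I : Nd} (hW : Full W I)
    {p : Nd} (hp : p ∈ W) : av p (gl W f) ^ 2 ≤ 2 * av p X ^ 2 + 2 * c + 4 * η := by
  have hL := Growth.len_pos p
  have h1 : SL W p (fun L => av L (f L) ^ 2) = len p * av p (gl W f) ^ 2 := (av_gl hW f p hp).symm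
  have h2 : SL W p (fun L => av L (f L) ^ 2) ≤
      SL W p (fun L => 2 * av L X ^ 2 + (2 * c + 4 * η)) :=
    SL_mono fun L _ _ => by
      have := size_leP hP h L
      linarith
  have h3 : SL W p (fun L => 2 * av L X ^ 2 + (2 * c + 4 * η)) =
      SL W p (fun L => 2 * av L X ^ 2) + SL W p (fun _ => 2 * c + 4 * η) := SL_add W p _ _
  rw [h3, SL_smul, SL_av hW X p hp, SL_const hW _ p hp, h1] at h2
  have h4 : len p * av p (gl W f) ^ 2 ≤ len p * (2 * av p X ^ 2 + 2 * c + 4 * η) := by linarith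
  exact le_of_mul_le_mul_left h4 hL

end one

end Crest.Agent.R079.FLDx263
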