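import Crest.Agent.R079.GlueL_914

/-! R079, KILL LEMMA, part A (helper446): GLUE for four arbitrary distinct slots `k` (frozen),
`k0, k1, k2` (variables `z0, z1, z2`), LETTERS STATIC, with the indicator that all shadows of the box
are in nodes of the level of the box. -/

set_option autoImplicit false

namespace Crest.Agent.R079.KLx446

open Finset Crest.Agent.R079.Grid Crest.Agent.R079.Pot Crest.Agent.R079.Glue Crest.Agent.R079.GlueK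

/-- four distinct slots -/
structure D4 (k k0 k1 k2 : Fin 4) : Prop where
  h0 : k ≠ k0
  h1 : k ≠ k1
  h2 : k ≠ k2
  h01 : k0 ≠ k1
  h02 : k0 ≠ k2
  h12 : k1 ≠ k2

set_option maxRecDepth 20000 in
lemma D4.univ4 : ∀ {k k0 k1 k2 : Fin 4}, k ≠ k0 → k ≠ k1 → k ≠ k2 → k0 ≠ k1 → k0 ≠ k2 → k1 ≠ k2 →
    ∀ s : Fin 4, s = k ∨ s = k0 ∨ s = k1 ∨ s = k2 := by
  decide

lemma D4.mem {k k0 k1 k2 : Fin 4} (h : D4 k k0 k1 k2) (s : Fin 4) : s = k ∨ s = k0 ∨ s = k1 ∨ s = k2 :=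
  D4.univ4 h.h0 h.h1 h.h2 h.h01 h.h02 h.h12 s

/-- the point with the four given coordinates -/
def pt4 {α : Type*} (k k0 k1 : Fin 4) (v i0 i1 i2 : α) : Fin 4 → α :=
  fun s => if s = k then v else if s = k0 then i0 else if s = k1 then i1 else i2

section pt

variable {α : Type*} {k k0 k1 k2 : Fin 4} (h : D4 k k0 k1 k2) (v i0 i1 i2 : α)
include h

lemma pt4_k : pt4 k k0 k1 v i0 i1 i2 k = v := by simp [pt4]
lemma pt4_0 : pt4 k k0 k1 v i0 i1 i2 k0 = i0 := by simp [pt4, h.h0.symm]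
lemma pt4_1 : pt4 k k0 k1 v i0 i1 i2 k1 = i1 := by simp [pt4, h.h1.symm, h.h01.symm]
lemma pt4_2 : pt4 k k0 k1 v i0 i1 i2 k2 = i2 := by
  simp [pt4, h.h2.symm, h.h02.symm, h.h12.symm]

end pt

lemma D4.sum {β : Type*} [AddCommMonoid β] {k k0 k1 k2 : Fin 4} (h : D4 k k0 k1 k2)
    (f : Fin 4 → β) : ∑ s, f s = f k + (f k0 + (f k1 + f k2)) := by
  have e : (Finset.univ : Finset (Fin 4)) = {k, k0, k1, k2} := by
    ext s
    simp only [Finset.mem_univ, Finset.mem_insert, Finset.mem_singleton, true_iff]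
    exact h.mem s
  rw [e, Finset.sum_insert, Finset.sum_insert, Finset.sum_insert, Finset.sum_singleton]
  · simpa using h.h12
  · simp only [Finset.mem_insert, Finset.mem_singleton, not_or]
    exact ⟨h.h01, h.h02⟩
  · simp only [Finset.mem_insert, Finset.mem_singleton, not_or]
    exact ⟨h.h0, h.h1, h.h2⟩

lemma D4.prod {β : Type*} [CommMonoid β] {k k0 k1 k2 : Fin 4} (h : D4 k k0 k1 k2)
    (f : Fin 4 → β) : ∏ s, f s = f k * (f k0 * (f k1 * f k2)) := by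
  have e : (Finset.univ : Finset (Fin 4)) = {k, k0, k1, k2} := by
    ext s
    simp only [Finset.mem_univ, Finset.mem_insert, Finset.mem_singleton, true_iff]
    exact h.mem s
  rw [e, Finset.prod_insert, Finset.prod_insert, Finset.prod_insert, Finset.prod_singleton]
  · simpa using h.h12
  · simp only [Finset.mem_insert, Finset.mem_singleton, not_or]
    exact ⟨h.h01, h.h02⟩
  · simp only [Finset.mem_insert, Finset.mem_singleton, not_or]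
    exact ⟨h.h0, h.h1, h.h2⟩

lemma D4.sum_pt {α β : Type*} [Fintype α] [AddCommMonoid β] {k k0 k1 k2 : Fin 4}
    (h : D4 k k0 k1 k2) (g : (Fin 4 → α) → β) :
    ∑ u : Fin 4 → α, g u = ∑ v : α, ∑ i0 : α, ∑ i1 : α, ∑ i2 : α, g (pt4 k k0 k1 v i0 i1 i2) := by
  have e : ∑ v : α, ∑ i0 : α, ∑ i1 : α, ∑ i2 : α, g (pt4 k k0 k1 v i0 i1 i2) =
      ∑ t : α × α × α × α, g (pt4 k k0 k1 t.1 t.2.1 t.2.2.1 t.2.2.2) := by
    rw [Fintype.sum_prod_type]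
    refine Finset.sum_congr rfl fun v _ => ?_
    rw [Fintype.sum_prod_type]
    refine Finset.sum_congr rfl fun i0 _ => ?_
    rw [Fintype.sum_prod_type]
  rw [e]
  refine Fintype.sum_equiv
    { toFun := fun u => (u k, u k0, u k1, u k2)
      invFun := fun t => pt4 k k0 k1 t.1 t.2.1 t.2.2.1 t.2.2.2
      left_inv := ?_
      right_inv := ?_ } _ _ ?_
  · intro u
    funext s
    rcases h.mem s with rfl | rfl | rfl | rfl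
    · exact pt4_k h _ _ _ _
    · exact pt4_0 h _ _ _ _
    · exact pt4_1 h _ _ _ _
    · exact pt4_2 h _ _ _ _
  · rintro ⟨v, i0, i1, i2⟩
    simp only
    rw [pt4_k h, pt4_0 h, pt4_1 h, pt4_2 h]
  · intro u
    simp only [Equiv.coe_fn_mk]
    congr 1
    funext s
    rcases h.mem s with rfl | rfl | rfl | rfl
    · exact (pt4_k h _ _ _ _).symm
    · exact (pt4_0 h _ _ _ _).symm
    · exact (pt4_1 h _ _ _ _).symm
    · exact (pt4_2 h _ _ _ _).symm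

/-- shadow of the slot `s` at the point `w` (frozen), `z, z'` (slots `e, f`) -/
def sha (k s e f : Fin 4) (w z z' : ℤ) : ℤ :=
  (sl k - sl s) * w + (sl e - sl s) * z + (sl f - sl s) * z'

/-- line form of the frozen slot -/
def lf4 (k k0 k1 k2 : Fin 4) (z0 z1 z2 : ℤ) : ℤ :=
  (sl k0 - sl k) * z0 + (sl k1 - sl k) * z1 + (sl k2 - sl k) * z2

/-- letter of slot `k` with kernel `Φ` on `T0 × T1 × T2` -/
noncomputable def kerF4 (k k0 k1 k2 : Fin 4) (κ : ℝ) (T0 T1 T2 : Finset ℤ) (Φ : ℤ → ℤ → ℤ → ℂ)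
    (y : ℤ) : ℂ :=
  (κ : ℂ) * ∑ z0 ∈ T0, ∑ z1 ∈ T1, ∑ z2 ∈ T2, if lf4 k k0 k1 k2 z0 z1 z2 = y then Φ z0 z1 z2 else 0

open Classical in
/-- kernel times the three letters at frozen value `w` -/
noncomputable def pK4 (k k0 k1 k2 : Fin 4) (T0 T1 T2 : Finset ℤ) (Φ : ℤ → ℤ → ℤ → ℂ)
    (F : Fin 4 → ℤ → ℂ) (w z0 z1 z2 : ℤ) : ℂ :=
  if z0 ∈ T0 ∧ z1 ∈ T1 ∧ z2 ∈ T2 then
    Φ z0 z1 z2 * (F k2 (sha k k2 k0 k1 w z0 z1) * F k0 (sha k k0 k1 k2 w z1 z2) *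
      F k1 (sha k k1 k2 k0 w z2 z0)) else 0

lemma yv_pt4 {k k0 k1 k2 : Fin 4} (h : D4 k k0 k1 k2) (s : Fin 4) (N : ℕ) (bb x : ℤ)
    (v i0 i1 i2 : Fin (N + N)) :
    yv N bb x (pt4 k k0 k1 v i0 i1 i2) s =
      x + ((sl k - sl s) * ((v : ℕ) : ℤ) + (sl k0 - sl s) * ((i0 : ℕ) : ℤ) +
        (sl k1 - sl s) * ((i1 : ℕ) : ℤ) + (sl k2 - sl s) * ((i2 : ℕ) : ℤ)) - sl s * (bb * N) := by
  unfold yv
  rw [h.sum, pt4_k h, pt4_0 h, pt4_1 h, pt4_2 h]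
  ring

lemma sum_shift4 (T0 T1 T2 : Finset ℤ) (P : Finset (ℤ × ℤ × ℤ)) (t0 t1 t2 : ℤ)
    (hP : ∀ z0 ∈ T0, ∀ z1 ∈ T1, ∀ z2 ∈ T2, (z0 - t0, z1 - t1, z2 - t2) ∈ P)
    (g : ℤ → ℤ → ℤ → ℂ) :
    ∑ z0 ∈ T0, ∑ z1 ∈ T1, ∑ z2 ∈ T2, g z0 z1 z2 =
      ∑ p ∈ P, if p.1 + t0 ∈ T0 ∧ p.2.1 + t1 ∈ T1 ∧ p.2.2 + t2 ∈ T2 then
        g (p.1 + t0) (p.2.1 + t1) (p.2.2 + t2) else 0 :=
  sum_shift3 ![T0, T1, T2] P t0 t1 t2 hP g

/-- **GLUE (identity)** for four arbitrary distinct slots -/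
theorem Lbox_kerF4 {k k0 k1 k2 : Fin 4} (h : D4 k k0 k1 k2) (N : ℕ) (bb : ℤ) (κ : ℝ)
    (T0 T1 T2 : Finset ℤ) (Φ : ℤ → ℤ → ℤ → ℂ) (F : Fin 4 → ℤ → ℂ)
    (hF : F k = kerF4 k k0 k1 k2 κ T0 T1 T2 Φ) (x : ℤ) (P : Finset (ℤ × ℤ × ℤ))
    (hP : ∀ t0 t1 t2 : Fin (N + N), ∀ z0 ∈ T0, ∀ z1 ∈ T1, ∀ z2 ∈ T2,
      (z0 - ((t0 : ℕ) : ℤ), z1 - ((t1 : ℕ) : ℤ), z2 - ((t2 : ℕ) : ℤ)) ∈ P) :
    Lbox N bb F x = (κ : ℂ) * ∑ p ∈ P,
      if lf4 k k0 k1 k2 p.1 p.2.1 p.2.2 = x - sl k * (bb * N) then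
        (1 / ((N : ℂ) + N)) * ∑ v : Fin (N + N), (hsg N v : ℂ) *
          L3 (pK4 k k0 k1 k2 T0 T1 T2 Φ F (((v : ℕ) : ℤ) + bb * N - p.1 - p.2.1 - p.2.2)) N
            p.1 p.2.1 p.2.2
      else 0 := by
  classical
  -- left side
  have hL : Lbox N bb F x = (1 / ((N : ℂ) + N) ^ 4) * ∑ v : Fin (N + N), ∑ i0 : Fin (N + N),
      ∑ i1 : Fin (N + N), ∑ i2 : Fin (N + N), (κ : ℂ) * ∑ p ∈ P,
        if lf4 k k0 k1 k2 p.1 p.2.1 p.2.2 = x - sl k * (bb * N) then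
        ((hsg N v * (hsg N i0 * hsg N i1 * hsg N i2) : ℝ) : ℂ) *
        pK4 k k0 k1 k2 T0 T1 T2 Φ F (((v : ℕ) : ℤ) + bb * N - p.1 - p.2.1 - p.2.2)
            (p.1 + ((i0 : ℕ) : ℤ)) (p.2.1 + ((i1 : ℕ) : ℤ)) (p.2.2 + ((i2 : ℕ) : ℤ)) else 0 := by
    unfold Lbox
    rw [h.sum_pt]
    congr 1
    refine Finset.sum_congr rfl fun v _ => Finset.sum_congr rfl fun i0 _ =>
      Finset.sum_congr rfl fun i1 _ => Finset.sum_congr rfl fun i2 _ => ?_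
    rw [h.prod, h.prod, pt4_k h, pt4_0 h, pt4_1 h, pt4_2 h]
    rw [hF]
    unfold kerF4
    rw [sum_shift4 T0 T1 T2 P ((i0 : ℕ) : ℤ) ((i1 : ℕ) : ℤ) ((i2 : ℕ) : ℤ)
      (fun z0 h0 z1 h1 z2 h2 => hP i0 i1 i2 z0 h0 z1 h1 z2 h2)]
    rw [show ∀ (X Y Z : ℂ), X * (((κ : ℂ) * Y) * Z) = (κ : ℂ) * (Y * (X * Z)) by
      intros; ring]
    congr 1
    rw [Finset.sum_mul]
    refine Finset.sum_congr rfl fun p _ => ?_
    obtain ⟨p0, p1, p2⟩ := p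
    simp only
    have hy : ∀ s : Fin 4, yv N bb x (pt4 k k0 k1 v i0 i1 i2) s =
      x + ((sl k - sl s) * ((v : ℕ) : ℤ) + (sl k0 - sl s) * ((i0 : ℕ) : ℤ) +
        (sl k1 - sl s) * ((i1 : ℕ) : ℤ) + (sl k2 - sl s) * ((i2 : ℕ) : ℤ)) - sl s * (bb * N) :=
      fun s => yv_pt4 h s N bb x v i0 i1 i2
    have hc : lf4 k k0 k1 k2 (p0 + ((i0 : ℕ) : ℤ)) (p1 + ((i1 : ℕ) : ℤ)) (p2 + ((i2 : ℕ) : ℤ)) =
        yv N bb x (pt4 k k0 k1 v i0 i1 i2) k ↔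
        lf4 k k0 k1 k2 p0 p1 p2 = x - sl k * (bb * N) := by
      rw [hy k]
      unfold lf4
      constructor
      · intro h; linear_combination h
      · intro h; linear_combination h
    rw [if_congr hc rfl rfl]
    by_cases hcond : lf4 k k0 k1 k2 p0 p1 p2 = x - sl k * (bb * N)
    · rw [if_pos hcond, if_pos hcond]
      have hx : x = lf4 k k0 k1 k2 p0 p1 p2 + sl k * (bb * N) := by
        rw [hcond]; ring
      unfold pK4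
      by_cases h' : p0 + ((i0 : ℕ) : ℤ) ∈ T0 ∧ p1 + ((i1 : ℕ) : ℤ) ∈ T1 ∧
          p2 + ((i2 : ℕ) : ℤ) ∈ T2
      · rw [if_pos h', if_pos h']
        have e0 : yv N bb x (pt4 k k0 k1 v i0 i1 i2) k0 =
            sha k k0 k1 k2 (((v : ℕ) : ℤ) + bb * N - p0 - p1 - p2) (p1 + ((i1 : ℕ) : ℤ))
              (p2 + ((i2 : ℕ) : ℤ)) := by
          rw [hy, hx]; unfold lf4 sha; ring
        have e1 : yv N bb x (pt4 k k0 k1 v i0 i1 i2) k1 =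
            sha k k1 k2 k0 (((v : ℕ) : ℤ) + bb * N - p0 - p1 - p2) (p2 + ((i2 : ℕ) : ℤ))
              (p0 + ((i0 : ℕ) : ℤ)) := by
          rw [hy, hx]; unfold lf4 sha; ring
        have e2 : yv N bb x (pt4 k k0 k1 v i0 i1 i2) k2 =
            sha k k2 k0 k1 (((v : ℕ) : ℤ) + bb * N - p0 - p1 - p2) (p0 + ((i0 : ℕ) : ℤ))
              (p1 + ((i1 : ℕ) : ℤ)) := by
          rw [hy, hx]; unfold lf4 sha; ring
        rw [e0, e1, e2]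
        push_cast
        ring
      · rw [if_neg h', if_neg h']
        ring
    · rw [if_neg hcond, if_neg hcond]
      simp
  rw [hL]
  have hR : ∀ p ∈ P, (if lf4 k k0 k1 k2 p.1 p.2.1 p.2.2 = x - sl k * (bb * N) then
        (1 / ((N : ℂ) + N)) * ∑ v : Fin (N + N), (hsg N v : ℂ) *
          L3 (pK4 k k0 k1 k2 T0 T1 T2 Φ F (((v : ℕ) : ℤ) + bb * N - p.1 - p.2.1 - p.2.2)) N
            p.1 p.2.1 p.2.2
      else 0) = (1 / ((N : ℂ) + N) ^ 4) * ∑ v : Fin (N + N), ∑ i0 : Fin (N + N),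
      ∑ i1 : Fin (N + N), ∑ i2 : Fin (N + N),
        if lf4 k k0 k1 k2 p.1 p.2.1 p.2.2 = x - sl k * (bb * N) then
        ((hsg N v * (hsg N i0 * hsg N i1 * hsg N i2) : ℝ) : ℂ) *
        pK4 k k0 k1 k2 T0 T1 T2 Φ F (((v : ℕ) : ℤ) + bb * N - p.1 - p.2.1 - p.2.2)
            (p.1 + ((i0 : ℕ) : ℤ)) (p.2.1 + ((i1 : ℕ) : ℤ)) (p.2.2 + ((i2 : ℕ) : ℤ)) else 0 := by
    intro p _
    split_ifs with hcond
    · unfold L3
      rw [show (1 / ((N : ℂ) + N) ^ 4) = (1 / ((N : ℂ) + N)) * (1 / ((N : ℂ) + N) ^ 3) by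
        rw [pow_succ]; rw [one_div_mul_one_div_rev]]
      rw [mul_assoc]
      congr 1
      rw [Finset.mul_sum]
      refine Finset.sum_congr rfl fun v _ => ?_
      rw [← mul_assoc, mul_comm (hsg N v : ℂ) (1 / ((N : ℂ) + N) ^ 3), mul_assoc]
      congr 1
      rw [Finset.mul_sum]
      refine Finset.sum_congr rfl fun i0 _ => ?_
      rw [Finset.mul_sum]
      refine Finset.sum_congr rfl fun i1 _ => ?_
      rw [Finset.mul_sum]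
      refine Finset.sum_congr rfl fun i2 _ => ?_
      push_cast
      ring
    · simp
  rw [Finset.sum_congr rfl hR]
  rw [← Finset.mul_sum, mul_left_comm (κ : ℂ)]
  congr 1
  conv_rhs => rw [Finset.sum_comm, Finset.mul_sum]
  refine Finset.sum_congr rfl fun v _ => ?_
  conv_rhs => rw [Finset.sum_comm, Finset.mul_sum]
  refine Finset.sum_congr rfl fun i0 _ => ?_
  conv_rhs => rw [Finset.sum_comm, Finset.mul_sum]
  refine Finset.sum_congr rfl fun i1 _ => ?_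
  conv_rhs => rw [Finset.sum_comm, Finset.mul_sum]

/-- all shadows of the box of side `2^(m+1)` at `(p0, p1, p2)` are in nodes of level `m` -/
def Gd (k k0 k1 k2 : Fin 4) (R : Finset (ℕ × ℤ)) (m : ℕ) (w p0 p1 p2 : ℤ) : Prop :=
  ∀ i0 i1 i2 : ℤ, 0 ≤ i0 → i0 < 2 ^ (m + 1) → 0 ≤ i1 → i1 < 2 ^ (m + 1) → 0 ≤ i2 →
    i2 < 2 ^ (m + 1) →
    sha k k2 k0 k1 w (p0 + i0) (p1 + i1) ∈ Rm R m ∧ sha k k0 k1 k2 w (p1 + i1) (p2 + i2) ∈ Rm R m ∧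
      sha k k1 k2 k0 w (p2 + i2) (p0 + i0) ∈ Rm R m

lemma gd_of_adm {k k0 k1 k2 : Fin 4} (h : D4 k k0 k1 k2) (R : Finset (ℕ × ℤ)) (m : ℕ) (l : ℤ)
    (hl : (m, l) ∈ R) (bb : ℤ) (hbb : bb = -1 ∨ bb = -7) (p0 p1 p2 : ℤ)
    (hx : lf4 k k0 k1 k2 p0 p1 p2 + sl k * (bb * (2 ^ m : ℕ)) ∈ adm m l)
    (v : Fin (2 ^ m + 2 ^ m)) :
    Gd k k0 k1 k2 R m (((v : ℕ) : ℤ) + bb * (2 ^ m : ℕ) - p0 - p1 - p2) p0 p1 p2 := by
  intro i0 i1 i2 h0 h0' h1 h1' h2 h2'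
  have h2m : (2 : ℤ) ^ (m + 1) = ((2 ^ m + 2 ^ m : ℕ) : ℤ) := by push_cast; ring
  rw [h2m] at h0' h1' h2'
  obtain ⟨j0, rfl⟩ := Int.eq_ofNat_of_zero_le h0
  obtain ⟨j1, rfl⟩ := Int.eq_ofNat_of_zero_le h1
  obtain ⟨j2, rfl⟩ := Int.eq_ofNat_of_zero_le h2
  have hj0 : j0 < 2 ^ m + 2 ^ m := by exact_mod_cast h0'
  have hj1 : j1 < 2 ^ m + 2 ^ m := by exact_mod_cast h1'
  have hj2 : j2 < 2 ^ m + 2 ^ m := by exact_mod_cast h2'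
  have key := fun s => yv_mem m l bb _ hbb hx
    (pt4 (α := Fin (2 ^ m + 2 ^ m)) k k0 k1 v ⟨j0, hj0⟩ ⟨j1, hj1⟩ ⟨j2, hj2⟩) s
  have hR : ∀ y : ℤ, y ∈ dI (m + 7) l → y ∈ Rm R m := by
    intro y hy
    rw [mem_dI_iff] at hy
    rw [mem_Rm, hy]
    exact hl
  refine ⟨?_, ?_, ?_⟩
  · have := hR _ (key k2)
    rw [yv_pt4 h] at this
    convert this using 1
    unfold sha lf4
    push_cast
    ring
  · have := hR _ (key k0)
    rw [yv_pt4 h] at this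
    convert this using 1
    unfold sha lf4
    push_cast
    ring
  · have := hR _ (key k1)
    rw [yv_pt4 h] at this
    convert this using 1
    unfold sha lf4
    push_cast
    ring

open Classical in
/-- **GLUE (inequality)** with the indicator -/
theorem sum_norm_Lbox_kerF4_le {k k0 k1 k2 : Fin 4} (h : D4 k k0 k1 k2) (R : Finset (ℕ × ℤ))
    (m : ℕ) (bb : ℤ) (hbb : bb = -1 ∨ bb = -7) (κ : ℝ) (hκ : 0 ≤ κ)
    (T0 T1 T2 : Finset ℤ) (Φ : ℤ → ℤ → ℤ → ℂ) (F : Fin 4 → ℤ → ℂ)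
    (hF : F k = kerF4 k k0 k1 k2 κ T0 T1 T2 Φ) (P : Finset (ℤ × ℤ × ℤ))
    (hP : ∀ t0 t1 t2 : Fin (2 ^ m + 2 ^ m), ∀ z0 ∈ T0, ∀ z1 ∈ T1, ∀ z2 ∈ T2,
      (z0 - ((t0 : ℕ) : ℤ), z1 - ((t1 : ℕ) : ℤ), z2 - ((t2 : ℕ) : ℤ)) ∈ P) :
    ∑ x ∈ (R.filter (fun p => p.1 = m)).biUnion (fun p => adm p.1 p.2), ‖Lbox (2 ^ m) bb F x‖ ≤
      κ * ∑ p ∈ P, (1 / (((2 ^ m : ℕ) : ℝ) + ((2 ^ m : ℕ) : ℝ))) * ∑ v : Fin (2 ^ m + 2 ^ m),
      if Gd k k0 k1 k2 R m (((v : ℕ) : ℤ) + bb * ((2 ^ m : ℕ) : ℤ) - p.1 - p.2.1 - p.2.2)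
          p.1 p.2.1 p.2.2 then
      ‖L3 (pK4 k k0 k1 k2 T0 T1 T2 Φ F
        (((v : ℕ) : ℤ) + bb * ((2 ^ m : ℕ) : ℤ) - p.1 - p.2.1 - p.2.2)) (2 ^ m) p.1 p.2.1 p.2.2‖
      else 0 := by
  set N : ℕ := 2 ^ m with hN
  set S := (R.filter (fun p => p.1 = m)).biUnion (fun p => adm p.1 p.2) with hS
  set G : ℤ × ℤ × ℤ → ℝ := fun p => (1 / ((N : ℝ) + N)) * ∑ v : Fin (N + N),
      if Gd k k0 k1 k2 R m (((v : ℕ) : ℤ) + bb * (N : ℤ) - p.1 - p.2.1 - p.2.2)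
          p.1 p.2.1 p.2.2 then
      ‖L3 (pK4 k k0 k1 k2 T0 T1 T2 Φ F
        (((v : ℕ) : ℤ) + bb * (N : ℤ) - p.1 - p.2.1 - p.2.2)) N p.1 p.2.1 p.2.2‖ else 0 with hG
  have hG0 : ∀ p, 0 ≤ G p := fun p => by
    simp only [hG]
    refine mul_nonneg (by positivity) (Finset.sum_nonneg fun v _ => ?_)
    split_ifs
    · exact norm_nonneg _
    · exact le_rfl
  have h1 : ∀ x ∈ S, ‖Lbox N bb F x‖ ≤ κ * ∑ p ∈ P,
      if lf4 k k0 k1 k2 p.1 p.2.1 p.2.2 = x - sl k * (bb * N) then G p else 0 := by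
    intro x hx
    rw [Lbox_kerF4 h N bb κ T0 T1 T2 Φ F hF x P hP, norm_mul, Complex.norm_real,
      Real.norm_of_nonneg hκ]
    refine mul_le_mul_of_nonneg_left ?_ hκ
    refine (norm_sum_le _ _).trans (Finset.sum_le_sum fun p _ => ?_)
    split_ifs with hc
    · rw [norm_mul]
      simp only [hG]
      have e : ‖(1 / ((N : ℂ) + N))‖ = 1 / ((N : ℝ) + N) := by
        rw [norm_div, norm_one]
        congr 1
        rw [show (N : ℂ) + N = ((N + N : ℕ) : ℂ) by push_cast; ring, Complex.norm_natCast]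
        push_cast
        ring
      rw [e]
      refine mul_le_mul_of_nonneg_left ?_ (by positivity)
      refine (norm_sum_le _ _).trans (Finset.sum_le_sum fun v _ => ?_)
      rw [norm_mul]
      have e2 : ‖(hsg N v : ℂ)‖ = 1 := by
        rw [Complex.norm_real]
        unfold hsg
        split_ifs <;> simp
      rw [e2, one_mul]
      rw [hS, Finset.mem_biUnion] at hx
      obtain ⟨q, hq, hxq⟩ := hx
      rw [Finset.mem_filter] at hq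
      obtain ⟨hq, hqm⟩ := hq
      have hgd : Gd k k0 k1 k2 R m (((v : ℕ) : ℤ) + bb * (N : ℤ) - p.1 - p.2.1 - p.2.2)
          p.1 p.2.1 p.2.2 := by
        obtain ⟨m', l⟩ := q
        simp only at hqm hxq
        subst hqm
        refine gd_of_adm h R m' l hq bb hbb p.1 p.2.1 p.2.2 ?_ v
        rw [hc]
        convert hxq using 1
        ring
      rw [if_pos hgd]
    · simp
  refine (Finset.sum_le_sum h1).trans ?_
  rw [← Finset.mul_sum]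
  refine mul_le_mul_of_nonneg_left ?_ hκ
  rw [Finset.sum_comm]
  refine Finset.sum_le_sum fun p _ => ?_
  have h2 : ∀ x ∈ S, (if lf4 k k0 k1 k2 p.1 p.2.1 p.2.2 = x - sl k * (bb * N)
      then G p else 0) = if x = lf4 k k0 k1 k2 p.1 p.2.1 p.2.2 + sl k * (bb * N)
      then G p else 0 := by
    intro x _
    refine if_congr ⟨fun h => by rw [h]; ring, fun h => by rw [h]; ring⟩ rfl rfl
  rw [Finset.sum_congr rfl h2, Finset.sum_ite_eq']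
  split_ifs
  · exact le_rfl
  · exact hG0 p

lemma region_sum4 (R : Finset (ℕ × ℤ)) (J : ℕ × ℤ) (hR : IsRegion R J) (F : Fin 4 → ℤ → ℂ)
    (bb : ℤ) :
    ∑ p ∈ R, ∑ x ∈ adm p.1 p.2, ‖Lbox (2 ^ p.1) bb F x‖ =
      ∑ m ∈ range (J.1 + 1), ∑ x ∈ (R.filter (fun p => p.1 = m)).biUnion (fun p => adm p.1 p.2),
        ‖Lbox (2 ^ m) bb F x‖ := by
  classical
  rw [← Finset.sum_fiberwise_of_maps_to (s := R) (t := range (J.1 + 1)) (g := fun p => p.1)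
    (fun p hp => Finset.mem_range.mpr (Nat.lt_succ_of_le (level_le R J hR p hp)))]
  refine Finset.sum_congr rfl fun m _ => ?_
  rw [Finset.sum_biUnion]
  · refine Finset.sum_congr rfl fun p hp => ?_
    rw [Finset.mem_filter] at hp
    obtain ⟨hp, hpm⟩ := hp
    obtain ⟨m', l⟩ := p
    simp only at hpm
    subst hpm
    rfl
  · intro p hp q hq hpq
    rw [Function.onFun, Finset.disjoint_left]
    intro x hx hx'
    rw [Finset.mem_coe, Finset.mem_filter] at hp hq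
    have h1 := adm_subset _ _ hx
    have h2 := adm_subset _ _ hx'
    rw [mem_dI_iff] at h1 h2
    apply hpq
    obtain ⟨p1, p2⟩ := p
    obtain ⟨q1, q2⟩ := q
    simp only at hp hq h1 h2
    obtain ⟨_, rfl⟩ := hp
    obtain ⟨_, hq2⟩ := hq
    subst hq2
    rw [h1] at h2
    rw [h2]

open Classical in
/-- the level-`m` sum with frozen variable `w`, block `l` -/
noncomputable def SLg (k k0 k1 k2 : Fin 4) (T0 T1 T2 : Finset ℤ) (Φ : ℤ → ℤ → ℤ → ℂ)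
    (R : Finset (ℕ × ℤ)) (F : Fin 4 → ℤ → ℂ) (L1 : ℕ) (l : ℤ) (w : ℤ) (m : ℕ) : ℝ :=
  (1 / (2 : ℝ) ^ m) * ∑ i ∈ range (2 ^ m), ∑ p0 ∈ Icc (-(L1 : ℤ)) L1, ∑ p1 ∈ Icc (-(L1 : ℤ)) L1,
    if Gd k k0 k1 k2 R m w p0 p1 (l * 2 ^ m + (i : ℤ) - w - p0 - p1) then
    ‖L3 (pK4 k k0 k1 k2 T0 T1 T2 Φ F w) (2 ^ m) p0 p1 (l * 2 ^ m + (i : ℤ) - w - p0 - p1)‖ else 0

/-- **region sum, general kernel in slot `k`, static letters** -/
theorem region_kerF4 {k k0 k1 k2 : Fin 4} (h : D4 k k0 k1 k2) (Kb : ℝ) (bb : ℤ)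
    (hbb : bb = -1 ∨ bb = -7) (R : Finset (ℕ × ℤ)) (J : ℕ × ℤ) (hR : IsRegion R J)
    (T0 T1 T2 : Finset ℤ) (Φ : ℤ → ℤ → ℤ → ℂ) (F : Fin 4 → ℤ → ℂ)
    (hblock : ∀ l : ℤ, |l| ≤ 7 → ∀ (Wf : Finset ℤ) (L1 : ℕ),
      ∑ w ∈ Wf, ∑ m ∈ range (J.1 + 1), SLg k k0 k1 k2 T0 T1 T2 Φ R F L1 l w m ≤ Kb)
    (κ : ℝ) (hκ : 0 ≤ κ) (hFj : F k = kerF4 k k0 k1 k2 κ T0 T1 T2 Φ) :
    ∑ p ∈ R, ∑ x ∈ adm p.1 p.2, ‖Lbox (2 ^ p.1) bb F x‖ ≤ κ * Kb := by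
  classical
  obtain ⟨Lt, hLt⟩ := exists_bound ![T0, T1, T2]
  set L1 : ℕ := Lt + 2 * 2 ^ (J.1 + 1) with hL1
  set W0 : ℕ := 3 * L1 + 8 * 2 ^ (J.1 + 1) with hW0
  set P : Finset (ℤ × ℤ × ℤ) := Icc (-(L1 : ℤ)) L1 ×ˢ (Icc (-(L1 : ℤ)) L1 ×ˢ Icc (-(L1 : ℤ)) L1)
    with hP
  set Wf := Icc (-(W0 : ℤ)) W0 with hWf
  rw [region_sum4 R J hR F bb]
  have hlevel : ∀ m ∈ range (J.1 + 1),
      ∑ x ∈ (R.filter (fun p => p.1 = m)).biUnion (fun p => adm p.1 p.2),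
        ‖Lbox (2 ^ m) bb F x‖ ≤
      κ * ((1 / 2) * ((∑ w ∈ Wf, SLg k k0 k1 k2 T0 T1 T2 Φ R F L1 bb w m) +
        (∑ w ∈ Wf, SLg k k0 k1 k2 T0 T1 T2 Φ R F L1 (bb + 1) w m))) := by
    intro m hm
    rw [Finset.mem_range] at hm
    have hpow : 2 ^ m ≤ 2 ^ (J.1 + 1) := Nat.pow_le_pow_right (by norm_num) (by omega)
    set G : ℤ → ℤ → ℤ → ℤ → ℝ := fun w p0 p1 p2 =>
      if Gd k k0 k1 k2 R m w p0 p1 p2 then
        ‖L3 (pK4 k k0 k1 k2 T0 T1 T2 Φ F w) (2 ^ m) p0 p1 p2‖ else 0 with hG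
    have hG0 : ∀ w x y z, 0 ≤ G w x y z := fun w x y z => by
      simp only [hG]
      split_ifs
      · exact norm_nonneg _
      · exact le_rfl
    have g := sum_norm_Lbox_kerF4_le h R m bb hbb κ hκ T0 T1 T2 Φ F hFj P (by
        intro t0 t1 t2 z0 h0 z1 h1 z2 h2
        have c0 := abs_le.mp (hLt 0 z0 h0)
        have c1 := abs_le.mp (hLt 1 z1 h1)
        have c2 := abs_le.mp (hLt 2 z2 h2)
        have d0 := t0.isLt
        have d1 := t1.isLt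
        have d2 := t2.isLt
        rw [hP, Finset.mem_product, Finset.mem_product, Finset.mem_Icc, Finset.mem_Icc,
          Finset.mem_Icc]
        refine ⟨?_, ?_, ?_⟩ <;> constructor <;> simp only <;> omega)
    refine g.trans (mul_le_mul_of_nonneg_left ?_ hκ)
    -- two blocks
    have hsplit : ∀ p : ℤ × ℤ × ℤ, (1 / (((2 ^ m : ℕ) : ℝ) + ((2 ^ m : ℕ) : ℝ))) *
        (∑ v : Fin (2 ^ m + 2 ^ m),
        if Gd k k0 k1 k2 R m (((v : ℕ) : ℤ) + bb * ((2 ^ m : ℕ) : ℤ) - p.1 - p.2.1 - p.2.2)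
          p.1 p.2.1 p.2.2 then
        ‖L3 (pK4 k k0 k1 k2 T0 T1 T2 Φ F
          (((v : ℕ) : ℤ) + bb * ((2 ^ m : ℕ) : ℤ) - p.1 - p.2.1 - p.2.2)) (2 ^ m)
            p.1 p.2.1 p.2.2‖ else 0) =
        (1 / 2) * ((1 / (2 : ℝ) ^ m) * ∑ i ∈ range (2 ^ m),
          G ((i : ℤ) + bb * ((2 ^ m : ℕ) : ℤ) - p.1 - p.2.1 - p.2.2) p.1 p.2.1 p.2.2 +
          (1 / (2 : ℝ) ^ m) * ∑ i ∈ range (2 ^ m),
          G ((i : ℤ) + (bb + 1) * ((2 ^ m : ℕ) : ℤ) - p.1 - p.2.1 - p.2.2) p.1 p.2.1 p.2.2) := by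
      intro p
      have e1 := sum_fin_two (2 ^ m) (fun v => G ((v : ℤ) + bb * ((2 ^ m : ℕ) : ℤ) - p.1 - p.2.1 -
        p.2.2) p.1 p.2.1 p.2.2)
      have e2 : (∑ v : Fin (2 ^ m + 2 ^ m),
        if Gd k k0 k1 k2 R m (((v : ℕ) : ℤ) + bb * ((2 ^ m : ℕ) : ℤ) - p.1 - p.2.1 - p.2.2)
          p.1 p.2.1 p.2.2 then
        ‖L3 (pK4 k k0 k1 k2 T0 T1 T2 Φ F
          (((v : ℕ) : ℤ) + bb * ((2 ^ m : ℕ) : ℤ) - p.1 - p.2.1 - p.2.2)) (2 ^ m)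
            p.1 p.2.1 p.2.2‖ else 0) = ∑ v : Fin (2 ^ m + 2 ^ m),
          G (((v : ℕ) : ℤ) + bb * ((2 ^ m : ℕ) : ℤ) - p.1 - p.2.1 - p.2.2) p.1 p.2.1 p.2.2 := rfl
      rw [e2, e1]
      have e3 : ∀ i ∈ range (2 ^ m), G (((2 ^ m + i : ℕ) : ℤ) + bb * ((2 ^ m : ℕ) : ℤ) - p.1 -
          p.2.1 - p.2.2) p.1 p.2.1 p.2.2 =
          G ((i : ℤ) + (bb + 1) * ((2 ^ m : ℕ) : ℤ) - p.1 - p.2.1 - p.2.2) p.1 p.2.1 p.2.2 := by
        intro i _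
        congr 1
        push_cast
        ring
      rw [Finset.sum_congr rfl e3]
      push_cast
      have h2m : (2 : ℝ) ^ m ≠ 0 := by positivity
      field_simp
      ring
    rw [Finset.sum_congr rfl fun p _ => hsplit p, ← Finset.mul_sum, Finset.sum_add_distrib,
      ← Finset.mul_sum, ← Finset.mul_sum]
    refine mul_le_mul_of_nonneg_left ?_ (by norm_num)
    have hl0 : |bb| ≤ 7 := by rcases hbb with rfl | rfl <;> norm_num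
    have hl1 : |bb + 1| ≤ 7 := by rcases hbb with rfl | rfl <;> norm_num
    exact add_le_add (hone_aux m L1 W0 J hpow hW0 G hG0 bb hl0)
      (hone_aux m L1 W0 J hpow hW0 G hG0 (bb + 1) hl1)
  refine (Finset.sum_le_sum hlevel).trans ?_
  rw [← Finset.mul_sum, ← Finset.mul_sum, Finset.sum_add_distrib]
  refine mul_le_mul_of_nonneg_left ?_ hκ
  have htot : ∀ l : ℤ, |l| ≤ 7 → ∑ m ∈ range (J.1 + 1),
      ∑ w ∈ Wf, SLg k k0 k1 k2 T0 T1 T2 Φ R F L1 l w m ≤ Kb := by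
    intro l hl
    rw [Finset.sum_comm]
    exact hblock l hl Wf L1
  have hl0 : |bb| ≤ 7 := by rcases hbb with rfl | rfl <;> norm_num
  have hl1 : |bb + 1| ≤ 7 := by rcases hbb with rfl | rfl <;> norm_num
  have t0 := htot bb hl0
  have t1 := htot (bb + 1) hl1
  linarith

/-! ### product kernels and real words -/

/-- frozen letter times kernel, cut to `T × T'` -/
noncomputable def fr4 (T T' : Finset ℤ) (a : ℤ → ℤ → ℂ) (F : ℤ → ℂ) (α β γ : ℤ) (w z z' : ℤ) : ℂ :=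
  if z ∈ T ∧ z' ∈ T' then a z z' * F (α * w + β * z + γ * z') else 0

/-- the three frozen kernels `A(z0,z1)`, `B(z1,z2)`, `C(z2,z0)` -/
noncomputable def kA (k k0 k1 k2 : Fin 4) (T0 T1 : Finset ℤ) (a : ℤ → ℤ → ℂ) (F : Fin 4 → ℤ → ℂ)
    (w : ℤ) : ℤ → ℤ → ℂ :=
  fr4 T0 T1 a (F k2) (sl k - sl k2) (sl k0 - sl k2) (sl k1 - sl k2) w

noncomputable def kB (k k0 k1 k2 : Fin 4) (T1 T2 : Finset ℤ) (b : ℤ → ℤ → ℂ) (F : Fin 4 → ℤ → ℂ)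
    (w : ℤ) : ℤ → ℤ → ℂ :=
  fr4 T1 T2 b (F k0) (sl k - sl k0) (sl k1 - sl k0) (sl k2 - sl k0) w

noncomputable def kC (k k0 k1 k2 : Fin 4) (T2 T0 : Finset ℤ) (c : ℤ → ℤ → ℂ) (F : Fin 4 → ℤ → ℂ)
    (w : ℤ) : ℤ → ℤ → ℂ :=
  fr4 T2 T0 c (F k1) (sl k - sl k1) (sl k2 - sl k1) (sl k0 - sl k1) w

lemma L3_prod4 (k k0 k1 k2 : Fin 4) (T0 T1 T2 : Finset ℤ) (a b c : ℤ → ℤ → ℂ) (F : Fin 4 → ℤ → ℂ)
    (w : ℤ) (N : ℕ) (p0 p1 p2 : ℤ) :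
    L3 (pK4 k k0 k1 k2 T0 T1 T2 (fun z0 z1 z2 => a z0 z1 * b z1 z2 * c z2 z0) F w) N p0 p1 p2 =
      Lb3 (kA k k0 k1 k2 T0 T1 a F w) (kB k k0 k1 k2 T1 T2 b F w) (kC k k0 k1 k2 T2 T0 c F w) N
        p0 p1 p2 := by
  unfold L3 Lb3
  congr 1
  refine Finset.sum_congr rfl fun i0 _ => Finset.sum_congr rfl fun i1 _ =>
    Finset.sum_congr rfl fun i2 _ => ?_
  congr 1
  unfold pK4 kA kB kC fr4 sha
  by_cases h0 : p0 + ((i0 : ℕ) : ℤ) ∈ T0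
  · by_cases h1 : p1 + ((i1 : ℕ) : ℤ) ∈ T1
    · by_cases h2 : p2 + ((i2 : ℕ) : ℤ) ∈ T2
      · rw [if_pos ⟨h0, h1, h2⟩, if_pos ⟨h0, h1⟩, if_pos ⟨h1, h2⟩, if_pos ⟨h2, h0⟩]
        ring
      · rw [if_neg (fun h => h2 h.2.2), if_neg (fun h : _ ∧ _ => h2 h.2)]
        ring
    · rw [if_neg (fun h => h1 h.2.1), if_neg (fun h : _ ∧ _ => h1 h.2)]
      ring
  · rw [if_neg (fun h => h0 h.1), if_neg (fun h : _ ∧ _ => h0 h.1)]
    ring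

open Classical in
/-- one real word at one frozen value: sum over the scales -/
noncomputable def Tw (Gm : ℕ → ℤ → ℤ → ℤ → Prop) (A B C : ℤ → ℤ → ℝ) (M L1 : ℕ) (l w : ℤ) : ℝ :=
  ∑ m ∈ range M, (1 / (2 : ℝ) ^ m) * ∑ i ∈ range (2 ^ m),
    ∑ p0 ∈ Icc (-(L1 : ℤ)) L1, ∑ p1 ∈ Icc (-(L1 : ℤ)) L1,
      if Gm m p0 p1 (l * 2 ^ m + (i : ℤ) - w - p0 - p1) then
        |Lb3r A B C (2 ^ m) p0 p1 (l * 2 ^ m + (i : ℤ) - w - p0 - p1)| else 0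

/-- **REGION SUM BY REAL WORDS** -/
theorem region_words {k k0 k1 k2 : Fin 4} (h : D4 k k0 k1 k2) (Kb : ℝ) (bb : ℤ)
    (hbb : bb = -1 ∨ bb = -7) (R : Finset (ℕ × ℤ)) (J : ℕ × ℤ) (hR : IsRegion R J)
    (T0 T1 T2 : Finset ℤ) (a b c : ℤ → ℤ → ℂ) (F : Fin 4 → ℤ → ℂ)
    (hblock : ∀ l : ℤ, |l| ≤ 7 → ∀ (σ0 σ1 σ2 : Bool) (Wf : Finset ℤ) (L1 : ℕ),
      ∑ w ∈ Wf, Tw (fun m p0 p1 p2 => Gd k k0 k1 k2 R m w p0 p1 p2)
        (fun z z' => pr σ0 (kA k k0 k1 k2 T0 T1 a F w z z'))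
        (fun z z' => pr σ1 (kB k k0 k1 k2 T1 T2 b F w z z'))
        (fun z z' => pr σ2 (kC k k0 k1 k2 T2 T0 c F w z z')) (J.1 + 1) L1 l w ≤ Kb)
    (κ : ℝ) (hκ : 0 ≤ κ)
    (hFj : F k = kerF4 k k0 k1 k2 κ T0 T1 T2 (fun z0 z1 z2 => a z0 z1 * b z1 z2 * c z2 z0)) :
    ∑ p ∈ R, ∑ x ∈ adm p.1 p.2, ‖Lbox (2 ^ p.1) bb F x‖ ≤ κ * (8 * Kb) := by
  classical
  refine region_kerF4 h (8 * Kb) bb hbb R J hR T0 T1 T2 _ F ?_ κ hκ hFj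
  intro l hl Wf L1
  have key : ∀ w ∈ Wf, ∑ m ∈ range (J.1 + 1), SLg k k0 k1 k2 T0 T1 T2
      (fun z0 z1 z2 => a z0 z1 * b z1 z2 * c z2 z0) R F L1 l w m ≤
      ∑ σ : Bool × Bool × Bool, Tw (fun m p0 p1 p2 => Gd k k0 k1 k2 R m w p0 p1 p2)
        (fun z z' => pr σ.1 (kA k k0 k1 k2 T0 T1 a F w z z'))
        (fun z z' => pr σ.2.1 (kB k k0 k1 k2 T1 T2 b F w z z'))
        (fun z z' => pr σ.2.2 (kC k k0 k1 k2 T2 T0 c F w z z')) (J.1 + 1) L1 l w := by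
    intro w _
    unfold Tw
    rw [Finset.sum_comm]
    refine Finset.sum_le_sum fun m _ => ?_
    unfold SLg
    rw [← Finset.mul_sum]
    refine mul_le_mul_of_nonneg_left ?_ (by positivity)
    conv_rhs => rw [Finset.sum_comm]
    refine Finset.sum_le_sum fun i _ => ?_
    conv_rhs => rw [Finset.sum_comm]
    refine Finset.sum_le_sum fun p0 _ => ?_
    conv_rhs => rw [Finset.sum_comm]
    refine Finset.sum_le_sum fun p1 _ => ?_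
    by_cases hg : Gd k k0 k1 k2 R m w p0 p1 (l * 2 ^ m + (i : ℤ) - w - p0 - p1)
    · rw [if_pos hg]
      simp only [if_pos hg]
      rw [L3_prod4]
      exact norm_Lb3_le' _ _ _ _ _ _ _
    · rw [if_neg hg]
      simp only [if_neg hg]
      simp
  refine (Finset.sum_le_sum key).trans ?_
  rw [Finset.sum_comm]
  have h8 : ∀ σ : Bool × Bool × Bool, ∑ w ∈ Wf, Tw (fun m p0 p1 p2 => Gd k k0 k1 k2 R m w p0 p1 p2)
        (fun z z' => pr σ.1 (kA k k0 k1 k2 T0 T1 a F w z z'))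
        (fun z z' => pr σ.2.1 (kB k k0 k1 k2 T1 T2 b F w z z'))
        (fun z z' => pr σ.2.2 (kC k k0 k1 k2 T2 T0 c F w z z')) (J.1 + 1) L1 l w ≤ Kb :=
    fun σ => hblock l hl σ.1 σ.2.1 σ.2.2 Wf L1
  refine (Finset.sum_le_sum fun σ _ => h8 σ).trans (le_of_eq ?_)
  simp

end Crest.Agent.R079.KLx446
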