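import Crest.Agent.R079.GaA_571
import Crest.Agent.R079.KLa_446

/-! R079, Step I, (G) words (helper571): the absolute box form `TA` against the real words `Tw` (446) at
frozen `w`, and rotation of the three edges (the killer edge is brought to position 2, `(z2, z0)`). -/

set_option autoImplicit false

namespace Crest.Agent.R079.GaWx571

open Finset Crest.Agent.R079.Grid Crest.Agent.R079.Glue Crest.Agent.R079.Growth
open Crest.Agent.R079.GaAx571 Crest.Agent.R079.KLx446 Crest.Agent.R079.GlueK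

/-! ### rotation -/

lemma Lb3_rot (A B C : ℤ → ℤ → ℂ) (N : ℕ) (p0 p1 p2 : ℤ) :
    Lb3 A B C N p0 p1 p2 = Lb3 B C A N p1 p2 p0 := by
  unfold Lb3
  congr 1
  calc ∑ i0 : Fin (N + N), ∑ i1 : Fin (N + N), ∑ i2 : Fin (N + N),
        ((hsg N i0 * hsg N i1 * hsg N i2 : ℝ) : ℂ) *
          (A (p0 + ((i0 : ℕ) : ℤ)) (p1 + ((i1 : ℕ) : ℤ)) *
           B (p1 + ((i1 : ℕ) : ℤ)) (p2 + ((i2 : ℕ) : ℤ)) *
           C (p2 + ((i2 : ℕ) : ℤ)) (p0 + ((i0 : ℕ) : ℤ)))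
      = ∑ i1 : Fin (N + N), ∑ i0 : Fin (N + N), ∑ i2 : Fin (N + N),
        ((hsg N i0 * hsg N i1 * hsg N i2 : ℝ) : ℂ) *
          (A (p0 + ((i0 : ℕ) : ℤ)) (p1 + ((i1 : ℕ) : ℤ)) *
           B (p1 + ((i1 : ℕ) : ℤ)) (p2 + ((i2 : ℕ) : ℤ)) *
           C (p2 + ((i2 : ℕ) : ℤ)) (p0 + ((i0 : ℕ) : ℤ))) := Finset.sum_comm
    _ = ∑ i1 : Fin (N + N), ∑ i2 : Fin (N + N), ∑ i0 : Fin (N + N),
        ((hsg N i0 * hsg N i1 * hsg N i2 : ℝ) : ℂ) *
          (A (p0 + ((i0 : ℕ) : ℤ)) (p1 + ((i1 : ℕ) : ℤ)) *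
           B (p1 + ((i1 : ℕ) : ℤ)) (p2 + ((i2 : ℕ) : ℤ)) *
           C (p2 + ((i2 : ℕ) : ℤ)) (p0 + ((i0 : ℕ) : ℤ))) :=
        Finset.sum_congr rfl fun i1 _ => Finset.sum_comm
    _ = _ := by
        refine Finset.sum_congr rfl fun i1 _ => Finset.sum_congr rfl fun i2 _ =>
          Finset.sum_congr rfl fun i0 _ => ?_
        push_cast
        ring

/-- the cube of base points -/
noncomputable def cube (L1 : ℕ) : Finset (ℤ × ℤ × ℤ) :=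
  Icc (-(L1 : ℤ)) L1 ×ˢ (Icc (-(L1 : ℤ)) L1 ×ˢ Icc (-(L1 : ℤ)) L1)

/-- rotation of a base point -/
def rp1 (p : ℤ × ℤ × ℤ) : ℤ × ℤ × ℤ := (p.2.1, p.2.2, p.1)

lemma mem_cube {L1 : ℕ} {p : ℤ × ℤ × ℤ} : p ∈ cube L1 ↔ p.1 ∈ Icc (-(L1 : ℤ)) L1 ∧
    p.2.1 ∈ Icc (-(L1 : ℤ)) L1 ∧ p.2.2 ∈ Icc (-(L1 : ℤ)) L1 := by
  unfold cube
  rw [Finset.mem_product, Finset.mem_product]

lemma sum_cube_rot (L1 : ℕ) (f : ℤ × ℤ × ℤ → ℝ) :
    ∑ p ∈ cube L1, f (rp1 p) = ∑ p ∈ cube L1, f p := by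
  refine Finset.sum_bij' (fun p _ => rp1 p) (fun p _ => rp1 (rp1 p)) ?_ ?_ ?_ ?_ ?_
  · intro p hp
    rw [mem_cube] at hp ⊢
    exact ⟨hp.2.1, hp.2.2, hp.1⟩
  · intro p hp
    rw [mem_cube] at hp ⊢
    exact ⟨hp.2.2, hp.1, hp.2.1⟩
  · intro p _
    rfl
  · intro p _
    rfl
  · intro p _
    rfl

lemma bxf_rot (bb : ℤ) (K : Fin 3 → Kl) (n : ℕ) (p : ℤ × ℤ × ℤ) (v : ℕ) :
    bxf bb (fun e => K (e + 1)) n (rp1 p) v = bxf bb K n p v := by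
  have hw : wv bb n (rp1 p) v = wv bb n p v := by
    unfold wv rp1
    ring
  unfold bxf
  rw [hw]
  exact (Lb3_rot _ _ _ _ _ _ _).symm

/-- **rotation of the absolute box form** -/
theorem TA_rot (bb : ℤ) (L1 M : ℕ) (Gd : ℕ → ℤ × ℤ × ℤ → ℕ → Prop) (K : Fin 3 → Kl) :
    TA bb (cube L1) M (fun n p v => Gd n (rp1 p) v) K =
      TA bb (cube L1) M Gd (fun e => K (e + 1)) := by
  classical
  unfold TA
  refine Finset.sum_congr rfl fun n _ => ?_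
  rw [← sum_cube_rot L1 (fun p => ∑ v ∈ range (2 ^ n + 2 ^ n), if Gd n p v then
    (1 / (((2 ^ n : ℕ) : ℝ) + ((2 ^ n : ℕ) : ℝ))) * ‖bxf bb (fun e => K (e + 1)) n p v‖ else 0)]
  refine Finset.sum_congr rfl fun p _ => Finset.sum_congr rfl fun v _ => ?_
  rw [bxf_rot]

lemma TA_mono (bb : ℤ) (P : Finset (ℤ × ℤ × ℤ)) (M : ℕ) {Gd Gd' : ℕ → ℤ × ℤ × ℤ → ℕ → Prop}
    (K : Fin 3 → Kl) (h : ∀ n < M, ∀ p ∈ P, ∀ v < 2 ^ n + 2 ^ n, Gd n p v → bxf bb K n p v ≠ 0 →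
      Gd' n p v) : TA bb P M Gd K ≤ TA bb P M Gd' K := by
  classical
  unfold TA
  refine Finset.sum_le_sum fun n hn => Finset.sum_le_sum fun p hp => Finset.sum_le_sum fun v hv => ?_
  by_cases h1 : Gd n p v
  · rw [if_pos h1]
    by_cases h0 : bxf bb K n p v = 0
    · rw [h0, norm_zero, mul_zero]
      split_ifs <;> simp
    · rw [if_pos (h n (Finset.mem_range.1 hn) p hp v (Finset.mem_range.1 hv) h1 h0)]
  · rw [if_neg h1]
    split_ifs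
    · positivity
    · exact le_rfl

/-- triangle inequality in one kernel -/
lemma TA_add (bb : ℤ) (P : Finset (ℤ × ℤ × ℤ)) (M : ℕ) (Gd : ℕ → ℤ × ℤ × ℤ → ℕ → Prop)
    (K : Fin 3 → Kl) (e : Fin 3) (X Y : Kl) :
    TA bb P M Gd (Function.update K e (fun w z z' => X w z z' + Y w z z')) ≤
      TA bb P M Gd (Function.update K e X) + TA bb P M Gd (Function.update K e Y) := by
  classical
  unfold TA
  rw [← Finset.sum_add_distrib]
  refine Finset.sum_le_sum fun n _ => ?_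
  rw [← Finset.sum_add_distrib]
  refine Finset.sum_le_sum fun p _ => ?_
  rw [← Finset.sum_add_distrib]
  refine Finset.sum_le_sum fun v _ => ?_
  split_ifs
  · rw [bxf_add, ← mul_add]
    exact mul_le_mul_of_nonneg_left (norm_add_le _ _) (by positivity)
  · simp

lemma TA_nonneg (bb : ℤ) (P : Finset (ℤ × ℤ × ℤ)) (M : ℕ) (Gd : ℕ → ℤ × ℤ × ℤ → ℕ → Prop)
    (K : Fin 3 → Kl) : 0 ≤ TA bb P M Gd K := by
  classical
  unfold TA
  refine Finset.sum_nonneg fun n _ => Finset.sum_nonneg fun p _ => Finset.sum_nonneg fun v _ => ?_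
  split_ifs
  · positivity
  · exact le_rfl

/-- splitting of the boxes -/
lemma TA_split (bb : ℤ) (P : Finset (ℤ × ℤ × ℤ)) (M : ℕ) {Gd G1 G2 : ℕ → ℤ × ℤ × ℤ → ℕ → Prop}
    (K : Fin 3 → Kl) (h : ∀ n p v, Gd n p v → G1 n p v ∨ G2 n p v) :
    TA bb P M Gd K ≤ TA bb P M G1 K + TA bb P M G2 K := by
  classical
  unfold TA
  rw [← Finset.sum_add_distrib]
  refine Finset.sum_le_sum fun n _ => ?_
  rw [← Finset.sum_add_distrib]
  refine Finset.sum_le_sum fun p _ => ?_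
  rw [← Finset.sum_add_distrib]
  refine Finset.sum_le_sum fun v _ => ?_
  have h0 : 0 ≤ (1 / (((2 ^ n : ℕ) : ℝ) + ((2 ^ n : ℕ) : ℝ))) * ‖bxf bb K n p v‖ := by positivity
  by_cases hg : Gd n p v
  · rcases h n p v hg with h1 | h1
    · rw [if_pos hg, if_pos h1]
      split_ifs <;> linarith
    · rw [if_pos hg, if_pos h1]
      split_ifs <;> linarith
  · rw [if_neg hg]
    split_ifs <;> linarith

/-! ### frozen `w` outside -/

/-- real words of the three kernels at frozen `w` -/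
noncomputable def Wt (G : ℕ → ℤ → ℤ → ℤ → ℤ → Prop) (K : Fin 3 → Kl) (M L1 : ℕ) (l w : ℤ) : ℝ :=
  ∑ σ : Bool × Bool × Bool, Tw (fun m p0 p1 p2 => G m w p0 p1 p2)
    (fun z z' => pr σ.1 (K 0 w z z')) (fun z z' => pr σ.2.1 (K 1 w z z'))
    (fun z z' => pr σ.2.2 (K 2 w z z')) M L1 l w

open Classical in
/-- **`TA` by real words at frozen `w`** -/
theorem TA_le_Tw (bb : ℤ) (hbb : bb = -1 ∨ bb = -7) (M L1 W0 : ℕ)
    (hW0 : W0 = 3 * L1 + 8 * 2 ^ (M + 1)) (G : ℕ → ℤ → ℤ → ℤ → ℤ → Prop)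
    (Gd : ℕ → ℤ × ℤ × ℤ → ℕ → Prop)
    (hG : ∀ n < M, ∀ p ∈ cube L1, ∀ v < 2 ^ n + 2 ^ n, Gd n p v →
      G n (wv bb n p v) p.1 p.2.1 p.2.2) (K : Fin 3 → Kl) :
    TA bb (cube L1) M Gd K ≤ (1 / 2) * (∑ w ∈ Icc (-(W0 : ℤ)) W0, Wt G K M L1 bb w +
      ∑ w ∈ Icc (-(W0 : ℤ)) W0, Wt G K M L1 (bb + 1) w) := by
  set Wf := Icc (-(W0 : ℤ)) W0 with hWf
  set H : ℕ → ℤ → ℤ → ℤ → ℤ → ℝ := fun m w p0 p1 p2 =>
    if G m w p0 p1 p2 then ‖Lb3 (K 0 w) (K 1 w) (K 2 w) (2 ^ m) p0 p1 p2‖ else 0 with hH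
  have hH0 : ∀ m w x y z, 0 ≤ H m w x y z := fun m w x y z => by
    simp only [hH]
    split_ifs
    · exact norm_nonneg _
    · exact le_rfl
  -- the words
  have hword : ∀ (l : ℤ) (w : ℤ), ∑ m ∈ range M, (1 / (2 : ℝ) ^ m) * ∑ i ∈ range (2 ^ m),
      ∑ p0 ∈ Icc (-(L1 : ℤ)) L1, ∑ p1 ∈ Icc (-(L1 : ℤ)) L1,
        H m w p0 p1 (l * 2 ^ m + (i : ℤ) - w - p0 - p1) ≤ Wt G K M L1 l w := by
    intro l w
    unfold Wt Tw
    rw [Finset.sum_comm]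
    refine Finset.sum_le_sum fun m _ => ?_
    rw [← Finset.mul_sum]
    refine mul_le_mul_of_nonneg_left ?_ (by positivity)
    conv_rhs => rw [Finset.sum_comm]
    refine Finset.sum_le_sum fun i _ => ?_
    conv_rhs => rw [Finset.sum_comm]
    refine Finset.sum_le_sum fun p0 _ => ?_
    conv_rhs => rw [Finset.sum_comm]
    refine Finset.sum_le_sum fun p1 _ => ?_
    simp only [hH]
    by_cases hg : G m w p0 p1 (l * 2 ^ m + (i : ℤ) - w - p0 - p1)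
    · rw [if_pos hg]
      simp only [if_pos hg]
      exact norm_Lb3_le' _ _ _ _ _ _ _
    · rw [if_neg hg]
      simp only [if_neg hg]
      simp
  -- one level
  have hlevel : ∀ m ∈ range M, ∑ p ∈ cube L1, ∑ v ∈ range (2 ^ m + 2 ^ m),
      (if Gd m p v then (1 / (((2 ^ m : ℕ) : ℝ) + ((2 ^ m : ℕ) : ℝ))) * ‖bxf bb K m p v‖ else 0) ≤
      (1 / 2) * (∑ w ∈ Wf, (1 / (2 : ℝ) ^ m) * ∑ i ∈ range (2 ^ m),
        ∑ p0 ∈ Icc (-(L1 : ℤ)) L1, ∑ p1 ∈ Icc (-(L1 : ℤ)) L1,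
          H m w p0 p1 (bb * 2 ^ m + (i : ℤ) - w - p0 - p1) +
        ∑ w ∈ Wf, (1 / (2 : ℝ) ^ m) * ∑ i ∈ range (2 ^ m),
        ∑ p0 ∈ Icc (-(L1 : ℤ)) L1, ∑ p1 ∈ Icc (-(L1 : ℤ)) L1,
          H m w p0 p1 ((bb + 1) * 2 ^ m + (i : ℤ) - w - p0 - p1)) := by
    intro m hm
    rw [Finset.mem_range] at hm
    have hpow : 2 ^ m ≤ 2 ^ (((M, 0) : ℕ × ℤ).1 + 1) := Nat.pow_le_pow_right (by norm_num) (by
      show m ≤ M + 1
      omega)
    have h1 : ∀ p ∈ cube L1, ∑ v ∈ range (2 ^ m + 2 ^ m),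
        (if Gd m p v then (1 / (((2 ^ m : ℕ) : ℝ) + ((2 ^ m : ℕ) : ℝ))) * ‖bxf bb K m p v‖
          else 0) ≤
        (1 / 2) * ((1 / (2 : ℝ) ^ m) * ∑ i ∈ range (2 ^ m),
          H m ((i : ℤ) + bb * ((2 ^ m : ℕ) : ℤ) - p.1 - p.2.1 - p.2.2) p.1 p.2.1 p.2.2 +
          (1 / (2 : ℝ) ^ m) * ∑ i ∈ range (2 ^ m),
          H m ((i : ℤ) + (bb + 1) * ((2 ^ m : ℕ) : ℤ) - p.1 - p.2.1 - p.2.2) p.1 p.2.1 p.2.2) := by
      intro p hp
      have h2 : ∀ v ∈ range (2 ^ m + 2 ^ m),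
          (if Gd m p v then (1 / (((2 ^ m : ℕ) : ℝ) + ((2 ^ m : ℕ) : ℝ))) * ‖bxf bb K m p v‖
            else 0) ≤ (1 / (((2 ^ m : ℕ) : ℝ) + ((2 ^ m : ℕ) : ℝ))) *
          H m ((v : ℤ) + bb * ((2 ^ m : ℕ) : ℤ) - p.1 - p.2.1 - p.2.2) p.1 p.2.1 p.2.2 := by
        intro v hv
        rw [Finset.mem_range] at hv
        by_cases hg : Gd m p v
        · rw [if_pos hg]
          refine mul_le_mul_of_nonneg_left ?_ (by positivity)
          have hg' : G m ((v : ℤ) + bb * ((2 ^ m : ℕ) : ℤ) - p.1 - p.2.1 - p.2.2) p.1 p.2.1 p.2.2 :=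
            hG m hm p hp v hv hg
          simp only [hH, if_pos hg']
          exact le_rfl
        · rw [if_neg hg]
          exact mul_nonneg (by positivity) (hH0 _ _ _ _ _)
      refine (Finset.sum_le_sum h2).trans ?_
      rw [← Finset.mul_sum, Finset.sum_range_add]
      have e3 : ∀ i ∈ range (2 ^ m), H m (((2 ^ m + i : ℕ) : ℤ) + bb * ((2 ^ m : ℕ) : ℤ) - p.1 -
          p.2.1 - p.2.2) p.1 p.2.1 p.2.2 =
          H m ((i : ℤ) + (bb + 1) * ((2 ^ m : ℕ) : ℤ) - p.1 - p.2.1 - p.2.2) p.1 p.2.1 p.2.2 := by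
        intro i _
        congr 1
        push_cast
        ring
      rw [Finset.sum_congr rfl e3]
      push_cast
      have h2m : (2 : ℝ) ^ m ≠ 0 := by positivity
      refine le_of_eq ?_
      field_simp
      ring
    refine (Finset.sum_le_sum h1).trans ?_
    rw [← Finset.mul_sum, Finset.sum_add_distrib, ← Finset.mul_sum, ← Finset.mul_sum]
    refine mul_le_mul_of_nonneg_left ?_ (by norm_num)
    have hl0 : |bb| ≤ 7 := by rcases hbb with rfl | rfl <;> norm_num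
    have hl1 : |bb + 1| ≤ 7 := by rcases hbb with rfl | rfl <;> norm_num
    exact add_le_add (hone_aux m L1 W0 (M, 0) hpow hW0 (H m) (hH0 m) bb hl0)
      (hone_aux m L1 W0 (M, 0) hpow hW0 (H m) (hH0 m) (bb + 1) hl1)
  unfold TA
  refine (Finset.sum_le_sum hlevel).trans ?_
  rw [← Finset.mul_sum, Finset.sum_add_distrib]
  refine mul_le_mul_of_nonneg_left ?_ (by norm_num)
  refine add_le_add ?_ ?_
  · rw [Finset.sum_comm]
    exact Finset.sum_le_sum fun w _ => hword bb w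
  · rw [Finset.sum_comm]
    exact Finset.sum_le_sum fun w _ => hword (bb + 1) w

end Crest.Agent.R079.GaWx571
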