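import Crest.Agent.R079.PQ_263
import Crest.Agent.R079.GaW_571
import Crest.Agent.R079.GaF_371
import Crest.Agent.R079.Qb_247

/-! R079, Step I (helper263): from the core representation `Rc` / `PRc.mix` to the finite FAMILY of
op-atoms in the words of 571 / 371.

* `exists_opDI` : 371's `exists_opD` with `T e = Ico (a e) (a e + n)`;
* `Fam` : the family; `Rc.fam`; `exists_cube` : one cube of base points for all atoms;
* `Fam.TI_sum`, `Fam.v4_sum` : the node sums are `∑ l, μ l / 4 ^ I.1 * TT .. (lks i (T l) (g l) ..)`. -/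

set_option autoImplicit false

namespace Crest.Agent.R079.PFx263

open Finset Crest.Agent.R079.Grid Crest.Agent.R079.Glue Crest.Agent.R079.Growth
  Crest.Agent.R079.QRed Crest.Agent.R079.Qh249 Crest.Agent.R079.TWin
  Crest.Agent.R079.GaAx571 Crest.Agent.R079.GaBx571 Crest.Agent.R079.OpS276
open Crest.Agent.R079.Cel159 Crest.Agent.R079.ThA159 Crest.Agent.R079.ElGx69
open Crest.Agent.R079.DicOp679 (ext_val ext_le sum_Ico_fin)
open Crest.Agent.R079.OpLev Crest.Agent.R079.GaFx371 Crest.Agent.R079.GaWx571 Crest.Agent.R079.AsmA844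
  Crest.Agent.R079.POx263

/-- **data of a unit op-atom**, with intervals (371's `exists_opD`) -/
theorem exists_opDI {i m e e' : Fin 4} (hd : Dst4 i m e e') {n : ℕ} (hn : 0 < n) {Ht Hf : ℝ}
    (hHf : 0 ≤ Hf) {ψ : ℤ → ℂ} (hψ : IsOpS i m e e' n Ht Hf ψ) :
    ∃ (v : Fin 3) (T : Fin 3 → Finset ℤ) (g : Fin 3 → ℤ → ℤ → ℂ) (α : ℤ → ℝ),
      i.succAbove v = m ∧ OpD v n Ht Hf T g α ∧
      (∃ a : Fin 3 → ℤ, ∀ e, T e = Finset.Ico (a e) (a e + (n : ℤ))) ∧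
      ψ = atom i 1 T (g 0) (g 1) (g 2) := by
  obtain ⟨w, q, u, M, U, V, a, hD, rfl⟩ := hψ
  obtain ⟨v, rfl⟩ := Fin.exists_succAbove_eq hd.jk
  obtain ⟨x, rfl⟩ := Fin.exists_succAbove_eq (Ne.symm hd.ke)
  obtain ⟨y, rfl⟩ := Fin.exists_succAbove_eq (Ne.symm hd.ke')
  have h01 : v ≠ x := fun hh => hd.je (by rw [hh])
  have h02 : v ≠ y := fun hh => hd.je' (by rw [hh])
  have h12 : x ≠ y := fun hh => hd.ee' (by rw [hh])
  have hcard : ∀ w : ℤ, (Finset.Ico w (w + (n : ℤ))).card = n := by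
    intro w; simp
  have hα0 : ∀ z, 0 ≤ wt w a z := wt_nonneg w hD.α0
  have hHt : 0 ≤ Ht := (hD.α0 ⟨0, hn⟩).trans (hD.αH ⟨0, hn⟩)
  have hval : ∀ c : Fin n, wt w a (w + ((c : ℕ) : ℤ)) = a c := wt_val w a
  have hxy : (x = v + 1 ∧ y = v + 2) ∨ (x = v + 2 ∧ y = v + 1) := by
    exact f3c v x y h01 h02 h12
  rcases hxy with ⟨rfl, rfl⟩ | ⟨rfl, rfl⟩
  · -- order `v, e, e'`
    refine ⟨v, rot v (Finset.Ico w (w + (n : ℤ))) (Finset.Ico q (q + (n : ℤ)))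
      (Finset.Ico u (u + (n : ℤ))), rot v (fun z z' => DicOp679.ext w q U z z') (fun z z' => M z z')
      (fun z z' => DicOp679.ext w u V z' z), wt w a, rfl, ?_, ⟨rot v w q u, fun e => ?_⟩, ?_⟩
    · refine ⟨?_, ?_, hα0, ?_, wt_le w hHt hD.αH, ?_, ?_, ?_, ?_⟩
      · intro e
        unfold rot
        split_ifs <;> exact (hcard _).le
      · intro z z'
        rw [rot1]
        exact hD.m1 z z'
      · rw [rot0, sum_wt]
        exact hD.α1
      · intro z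
        rw [rot0, rot1]
        exact sum_ext_sq w q U (wt w a) hval hα0 hD.U2 z
      · intro z
        rw [rot2, rot2]
        exact sum_ext_sq w u V (wt w a) hval hα0 hD.V2 z
      · intro z z'
        rw [rot0]
        exact ext_sq_le w q U (wt w a) hval hα0 hHf hD.UH z z'
      · intro z z'
        rw [rot2]
        exact ext_sq_le w u V (wt w a) hval hα0 hHf hD.VH z z'
    · unfold rot
      split_ifs <;> rfl
    · funext y
      rw [atom_rot i v, opA_eq_opT]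
      unfold DicOp679.opT
      rw [rot0, rot1, rot2, rot0, rot1, rot2, Complex.ofReal_one, one_mul, sum_Ico_fin]
      refine Finset.sum_congr rfl fun c _ => ?_
      rw [sum_Ico_fin]
      refine Finset.sum_congr rfl fun i1 _ => ?_
      rw [sum_Ico_fin]
      refine Finset.sum_congr rfl fun i' _ => ?_
      rw [ext_val, ext_val]
      rfl
  · -- order `v, e', e`
    refine ⟨v, rot v (Finset.Ico w (w + (n : ℤ))) (Finset.Ico u (u + (n : ℤ)))
      (Finset.Ico q (q + (n : ℤ))), rot v (fun z z' => DicOp679.ext w u V z z') (fun z z' => M z' z)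
      (fun z z' => DicOp679.ext w q U z' z), wt w a, rfl, ?_, ⟨rot v w u q, fun e => ?_⟩, ?_⟩
    · refine ⟨?_, ?_, hα0, ?_, wt_le w hHt hD.αH, ?_, ?_, ?_, ?_⟩
      · intro e
        unfold rot
        split_ifs <;> exact (hcard _).le
      · intro z z'
        rw [rot1]
        exact hD.m1 z' z
      · rw [rot0, sum_wt]
        exact hD.α1
      · intro z
        rw [rot0, rot1]
        exact sum_ext_sq w u V (wt w a) hval hα0 hD.V2 z
      · intro z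
        rw [rot2, rot2]
        exact sum_ext_sq w q U (wt w a) hval hα0 hD.U2 z
      · intro z z'
        rw [rot0]
        exact ext_sq_le w u V (wt w a) hval hα0 hHf hD.VH z z'
      · intro z z'
        rw [rot2]
        exact ext_sq_le w q U (wt w a) hval hα0 hHf hD.UH z z'
    · unfold rot
      split_ifs <;> rfl
    · funext y
      rw [atom_rot i v, opA_eq_opT]
      unfold DicOp679.opT
      rw [rot0, rot1, rot2, rot0, rot1, rot2, Complex.ofReal_one, one_mul, sum_Ico_fin]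
      refine Finset.sum_congr rfl fun c _ => ?_
      refine Finset.sum_comm.trans ?_
      rw [sum_Ico_fin]
      refine Finset.sum_congr rfl fun i' _ => ?_
      rw [sum_Ico_fin]
      refine Finset.sum_congr rfl fun i1 _ => ?_
      rw [ext_val, ext_val]
      refine if_congr ?_ ?_ rfl
      · unfold DicOp679.lfm Crest.Agent.R079.Glue.cf
        constructor <;> intro h <;> linarith
      · ring


/-! ### the family -/

/-- finite family of op-atoms representing `f` on `iv I` -/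
structure Fam (i m : Fin 4) (v : Fin 3) (I : Nd) (Ht Hf La : ℝ) (n : ℕ) (f : Fn)
    (T : Fin n → Fin 3 → Finset ℤ) (g : Fin n → Fin 3 → ℤ → ℤ → ℂ) (θ : Fin n → ℤ → ℝ)
    (μ : Fin n → ℝ) : Prop where
  vm : i.succAbove v = m
  μ0 : ∀ l, 0 ≤ μ l
  μ1 : ∑ l, μ l ≤ La
  opD : ∀ l, OpD v (2 ^ I.1) Ht Hf (T l) (g l) (θ l)
  ico : ∀ l, ∃ a : Fin 3 → ℤ, ∀ e, T l e = Finset.Ico (a e) (a e + ((2 ^ I.1 : ℕ) : ℤ))
  rep : ∀ y ∈ iv I, f y = ∑ l, ((μ l / ((2 : ℝ) ^ I.1) ^ 2 : ℝ) : ℂ) *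
    atom i 1 (T l) (g l 0) (g l 1) (g l 2) y

theorem Rc.fam {i m e e' : Fin 4} (hd : Dst4 i m e e') {I : Nd} {Ht Hf La : ℝ} (hHf : 0 ≤ Hf)
    {f : Fn} (h : Rc i m e e' I Ht Hf La f) :
    ∃ (v : Fin 3) (n : ℕ) (T : Fin n → Fin 3 → Finset ℤ) (g : Fin n → Fin 3 → ℤ → ℤ → ℂ)
      (θ : Fin n → ℤ → ℝ) (μ : Fin n → ℝ), Fam i m v I Ht Hf La n f T g θ μ := by
  obtain ⟨n, ψ, α, h0, h1, h2, h3⟩ := h
  obtain ⟨v, hv⟩ := Fin.exists_succAbove_eq hd.jk
  have h4 : ∀ l, ∃ (T : Fin 3 → Finset ℤ) (g : Fin 3 → ℤ → ℤ → ℂ) (θ : ℤ → ℝ),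
      OpD v (2 ^ I.1) Ht Hf T g θ ∧
      (∃ a : Fin 3 → ℤ, ∀ e, T e = Finset.Ico (a e) (a e + ((2 ^ I.1 : ℕ) : ℤ))) ∧
      ψ l = atom i 1 T (g 0) (g 1) (g 2) := by
    intro l
    obtain ⟨v', T, g, θ, hv', hO, hI, hψ⟩ := exists_opDI hd (n := 2 ^ I.1) (by positivity) hHf (h1 l)
    have : v' = v := by
      have := hv'.trans hv.symm
      exact Fin.succAbove_right_injective this
    subst this
    exact ⟨T, g, θ, hO, hI, hψ⟩
  choose T g θ hO hI hψ using h4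
  refine ⟨v, n, T, g, θ, α, hv, h0, h3, hO, hI, fun y hy => ?_⟩
  rw [h2 y hy]
  exact Finset.sum_congr rfl fun l _ => by rw [← hψ l]

/-- one cube of base points for all atoms -/
theorem exists_cube {n : ℕ} (T : Fin n → Fin 3 → Finset ℤ) (M L0 : ℕ) :
    ∃ L1 : ℕ, L0 ≤ L1 ∧ ∀ l, Cov M (T l) (cube L1) := by
  classical
  -- a common bound of the finitely many positions
  have h1 : ∃ A : ℕ, ∀ l, ∀ e, ∀ z ∈ T l e, |z| ≤ (A : ℤ) := by
    set S : Finset ℤ := Finset.univ.biUnion fun l : Fin n => Finset.univ.biUnion fun e : Fin 3 =>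
      T l e with hS
    refine ⟨∑ z ∈ S, z.natAbs, fun l e z hz => ?_⟩
    have hzS : z ∈ S := by
      rw [hS]
      simp only [Finset.mem_biUnion, Finset.mem_univ, true_and]
      exact ⟨l, e, hz⟩
    have h2 : z.natAbs ≤ ∑ z ∈ S, z.natAbs :=
      Finset.single_le_sum (f := fun z : ℤ => z.natAbs) (fun _ _ => Nat.zero_le _) hzS
    rw [← Int.natCast_natAbs]
    exact_mod_cast h2
  obtain ⟨A, hA⟩ := h1
  refine ⟨A + 2 ^ (M + 1) + L0, Nat.le_add_left _ _, fun l => ?_⟩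
  intro k hk t0 t1 t2 h0 h1 h2 z0 hz0 z1 hz1 z2 hz2
  have hp : 2 ^ k + 2 ^ k ≤ 2 ^ (M + 1) := by
    have := Nat.pow_le_pow_right (show 0 < 2 by norm_num) hk.le
    rw [pow_succ]
    omega
  have a0 := abs_le.1 (hA l 0 z0 hz0)
  have a1 := abs_le.1 (hA l 1 z1 hz1)
  have a2 := abs_le.1 (hA l 2 z2 hz2)
  have b0 : (t0 : ℤ) ≤ ((2 ^ (M + 1) : ℕ) : ℤ) := by exact_mod_cast (h0.le.trans hp)
  have b1 : (t1 : ℤ) ≤ ((2 ^ (M + 1) : ℕ) : ℤ) := by exact_mod_cast (h1.le.trans hp)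
  have b2 : (t2 : ℤ) ≤ ((2 ^ (M + 1) : ℕ) : ℤ) := by exact_mod_cast (h2.le.trans hp)
  have c0 : (0 : ℤ) ≤ t0 := Int.natCast_nonneg _
  have c1 : (0 : ℤ) ≤ t1 := Int.natCast_nonneg _
  have c2 : (0 : ℤ) ≤ t2 := Int.natCast_nonneg _
  have cL : (0 : ℤ) ≤ L0 := Int.natCast_nonneg _
  have cM : (0 : ℤ) ≤ ((2 ^ (M + 1) : ℕ) : ℤ) := Int.natCast_nonneg _
  rw [mem_cube]
  simp only [Finset.mem_Icc]
  have e1 : ((A + 2 ^ (M + 1) + L0 : ℕ) : ℤ) = (A : ℤ) + ((2 ^ (M + 1) : ℕ) : ℤ) + (L0 : ℤ) := by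
    push_cast; ring
  rw [e1]
  refine ⟨⟨?_, ?_⟩, ⟨?_, ?_⟩, ?_, ?_⟩ <;> linarith [a0.1, a0.2, a1.1, a1.2, a2.1, a2.2]

section fam

variable {i m : Fin 4} {v : Fin 3} {I : Nd} {Ht Hf La : ℝ} {n : ℕ} {f : Fn}
  {T : Fin n → Fin 3 → Finset ℤ} {g : Fin n → Fin 3 → ℤ → ℤ → ℂ} {θ : Fin n → ℤ → ℝ}
  {μ : Fin n → ℝ}

/-- **node sums = box forms of the family** -/
theorem Fam.TI_sum (h : Fam i m v I Ht Hf La n f T g θ μ) {bb : ℤ} (hbb : bb = -1 ∨ bb = -7)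
    (ε : ℕ → ℤ → ℂ) {G : Fin 4 → Fn} (hG : G i = f) {S : Finset Nd}
    (hS : ∀ q ∈ S, iv q ⊆ iv I) {M : ℕ} (hM : ∀ q ∈ S, q.1 < M) {P : Finset (ℤ × ℤ × ℤ)}
    (hP : ∀ l, Cov M (T l) P) :
    ∑ q ∈ S, TI bb ε G q = ∑ l, ((μ l / ((2 : ℝ) ^ I.1) ^ 2 : ℝ) : ℂ) *
      TT bb P M (chi i bb S ε) (lks i (T l) (g l) G) := by
  have h1 : ∀ q ∈ S, TI bb ε G q = ∑ l, ((μ l / ((2 : ℝ) ^ I.1) ^ 2 : ℝ) : ℂ) *
      TI bb ε (Function.update G i (atom i 1 (T l) (g l 0) (g l 1) (g l 2))) q := by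
    intro q hq
    rw [← Qb247.TI_update_sum]
    refine Qb247.TI_congr bb hbb ε _ _ q fun j y hy => ?_
    by_cases hj : j = i
    · subst hj
      rw [Function.update_self, hG]
      exact h.rep y (hS q hq hy)
    · rw [Function.update_of_ne hj]
  rw [Finset.sum_congr rfl h1, Finset.sum_comm]
  refine Finset.sum_congr rfl fun l _ => ?_
  rw [← Finset.mul_sum]
  congr 1
  have h2 := sum_Lbox i bb 1 (T l) (g l)
    (Function.update G i (atom i 1 (T l) (g l 0) (g l 1) (g l 2))) (by rw [Function.update_self])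
    P (hP l) S hM ε
  have h3 : lks i (T l) (g l) (Function.update G i (atom i 1 (T l) (g l 0) (g l 1) (g l 2))) =
      lks i (T l) (g l) G := by
    funext e
    unfold lks
    rw [Function.update_of_ne (Fin.succAbove_ne i (e + 2))]
  rw [h3, Complex.ofReal_one, one_mul] at h2
  rw [← h2]
  rfl

/-- **the words `v4` over a set of nodes** -/
theorem Fam.v4_sum (h : Fam i m v I Ht Hf La n f T g θ μ) {bb : ℤ} (hbb : bb = -1 ∨ bb = -7)
    (ε : ℕ → ℤ → ℂ) {F : Fin 4 → Fn} (hF : F i = f) {a b : Fin 4} (ha : a ≠ i) (hb : b ≠ i)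
    (X Y : Fn) {S : Finset Nd} (hS : ∀ q ∈ S, iv q ⊆ iv I) {M : ℕ} (hM : ∀ q ∈ S, q.1 < M)
    {P : Finset (ℤ × ℤ × ℤ)} (hP : ∀ l, Cov M (T l) P) :
    ∑ q ∈ S, v4 bb ε F a b X Y q = ∑ l, ((μ l / ((2 : ℝ) ^ I.1) ^ 2 : ℝ) : ℂ) *
      TT bb P M (chi i bb S ε)
        (lks i (T l) (g l) (Function.update (Function.update F a X) b Y)) := by
  unfold v4
  refine h.TI_sum hbb ε ?_ hS hM hP
  rw [Function.update_of_ne (Ne.symm hb), Function.update_of_ne (Ne.symm ha), hF]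

/-- the same over a part of a full window, `M = I.1 + 1` -/
theorem Fam.v4_win (h : Fam i m v I Ht Hf La n f T g θ μ) {bb : ℤ} (hbb : bb = -1 ∨ bb = -7)
    (ε : ℕ → ℤ → ℂ) {F : Fin 4 → Fn} (hF : F i = f) {a b : Fin 4} (ha : a ≠ i) (hb : b ≠ i)
    (X Y : Fn) {W S : Finset Nd} (hW : Full W I) (hS : S ⊆ W)
    {P : Finset (ℤ × ℤ × ℤ)} (hP : ∀ l, Cov (I.1 + 1) (T l) P) :
    ∑ q ∈ S, v4 bb ε F a b X Y q = ∑ l, ((μ l / ((2 : ℝ) ^ I.1) ^ 2 : ℝ) : ℂ) *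
      TT bb P (I.1 + 1) (chi i bb S ε)
        (lks i (T l) (g l) (Function.update (Function.update F a X) b Y)) :=
  h.v4_sum hbb ε hF ha hb X Y (fun q hq => hW.reg.1 q (hS hq))
    (fun q hq => Nat.lt_succ_of_le (Growth.iv_level (hW.reg.1 q (hS hq)))) hP

end fam

/-- the core data of a nontrivial pair as a family -/
theorem PRc.fam {D : TRecN.Dict} {k b cl t La Ht Hf : ℝ} {W : Finset Nd} {I : Nd}
    {i m e e' : Fin 4} {F : Fin 4 → Fn} (hd : Dst4 i m e e') (hHf : 0 ≤ Hf)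
    (h : PRc D k b cl t La Ht Hf W I i m e e' F) :
    ∃ (v : Fin 3) (n : ℕ) (T : Fin n → Fin 3 → Finset ℤ) (g : Fin n → Fin 3 → ℤ → ℤ → ℂ)
      (θ : Fin n → ℤ → ℝ) (μ : Fin n → ℝ), Fam i m v I Ht Hf La n (F i) T g θ μ :=
  Rc.fam hd hHf h.mix

end Crest.Agent.R079.PFx263
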