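import Crest.Agent.R079.GaR_571
import Crest.Agent.R079.PF_263
import Crest.Agent.R079.ElU_440

/-! R079, Step I, (G) words (helper571): THE COMMON INSTANCE.

* `PhiE` : the functional of the slot `i.succAbove (e + 2)` for the family `Fam` (263) and a ladder of
  `Kl` thresholds (440's `ThL0`), top `I`;
* `penPhi` : `PenC 0`; `phi_nmp` : near-minimisers of `PhiE` are near-minimisers of the `ThF` of `GW`;
* `gw_fam` : 571's `GW` for the family. -/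

set_option autoImplicit false

namespace Crest.Agent.R079.GaDx571

open Finset Crest.Agent.R079.Grid Crest.Agent.R079.Glue Crest.Agent.R079.Growth
  Crest.Agent.R079.QRed Crest.Agent.R079.TWin
open Crest.Agent.R079.RelW653 (vl NMP Jv Dv)
open Crest.Agent.R079.RelV653 (PenC)
open Crest.Agent.R079.GaAx571 Crest.Agent.R079.GaBx571 Crest.Agent.R079.GaWx571
  Crest.Agent.R079.GaXx571 Crest.Agent.R079.GaMx571 Crest.Agent.R079.GaSx571
  Crest.Agent.R079.GaTx571 Crest.Agent.R079.GaVx571 Crest.Agent.R079.GaZx260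
  Crest.Agent.R079.GaFx371 Crest.Agent.R079.GaUx571 Crest.Agent.R079.GaRx571
open Crest.Agent.R079.Cel159 Crest.Agent.R079.ThA159 Crest.Agent.R079.ElU440
  Crest.Agent.R079.PFx263

variable {n : ℕ}

/-- bands of the family, one for each atom and each threshold -/
noncomputable def BdF (i : Fin 4) (e : Fin 3) (T : Fin n → Fin 3 → Finset ℤ) (I : Nd) (Kl : ℕ) :
    Fin n × Fin Kl → Nd → Finset (ℤ × ℤ × ℤ) := fun c => BdE i e (T c.1) I

/-- norms -/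
noncomputable def NF (i : Fin 4) (e : Fin 3) (T : Fin n → Fin 3 → Finset ℤ) (I : Nd) (kc Kl : ℕ) :
    Fin n × Fin Kl → Nd → (ℤ × ℤ × ℤ → ℂ) → ℝ :=
  fun c => NmP (SE i e (T c.1) I) Cel159.cf (okc (Ye i e) kc)

/-- side of the top -/
def sd (I : Nd) : ℕ := 2 ^ I.1

lemma sd_pos (I : Nd) : 0 < sd I := by unfold sd; positivity

/-- **THE FUNCTIONAL** of the slot `i.succAbove (e + 2)` -/
noncomputable def PhiE (i : Fin 4) (e : Fin 3) (T : Fin n → Fin 3 → Finset ℤ)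
    (g : Fin n → Fin 3 → ℤ → ℤ → ℂ) (μ : Fin n → ℝ) (I : Nd) (La kap : ℝ) (kc Kl : ℕ)
    (r : ℕ → ℝ) : Nd → Fn → ℝ :=
  ThL0 Kl (fun l => BdE i e (T l) I) (fun _ => poE i e)
    (fun l => NmP (SE i e (T l) I) Cel159.cf (okc (Ye i e) kc)) (fun _ => 1 / (sd I : ℝ) ^ 2)
    (fun l ω => g l e ω.2.1 ω.2.2) (fun _ q => r q) (fun l => kap * μ l / La)

theorem phi_eq (i : Fin 4) (e : Fin 3) (T : Fin n → Fin 3 → Finset ℤ)
    (g : Fin n → Fin 3 → ℤ → ℤ → ℂ) (μ : Fin n → ℝ) (I : Nd) (La kap : ℝ) (kc Kl : ℕ)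
    (r : ℕ → ℝ) : PhiE i e T g μ I La kap kc Kl r =
      ThF (BdF i e T I Kl) (fun _ => poE i e) (NF i e T I kc Kl)
        (fun _ => 1 / (sd I : ℝ) ^ 2) (fun c ω => g c.1 e ω.2.1 ω.2.2)
        (fun c => r c.2) (fun c => kap * μ c.1 / La) := rfl

section

variable {i m : Fin 4} {v : Fin 3} {I : Nd} {Ht Hf La : ℝ} {f : Fn}
  {T : Fin n → Fin 3 → Finset ℤ} {g : Fin n → Fin 3 → ℤ → ℤ → ℂ} {θ : Fin n → ℤ → ℝ}
  {μ : Fin n → ℝ} (h : Fam i m v I Ht Hf La n f T g θ μ)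

include h

theorem bndF (e : Fin 3) (kc Kl : ℕ) (c : Fin n × Fin Kl) :
    Bnd (BdF i e T I Kl c) (poE i e) (NF i e T I kc Kl c) (1 / (sd I : ℝ) ^ 2) :=
  bnd_E i e I (sd_pos I) (h.opD c.1).card kc

theorem penPhi (e : Fin 3) {kap : ℝ} (hkap : 0 ≤ kap) (hLa : 0 < La) (kc Kl : ℕ) {r : ℕ → ℝ}
    (hr : ∀ q, 0 ≤ r q) :
    PenC 0 (fun _ _ => True) (PhiE i e T g μ I La kap kc Kl r) := by
  rw [phi_eq]
  exact pen_ThF (bndF h e kc Kl) (fun c => hr c.2)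
    (fun c => div_nonneg (mul_nonneg hkap (h.μ0 c.1)) hLa.le)

omit h in
theorem mem_BdF (e : Fin 3) {Kl : ℕ} (c : Fin n × Fin Kl) {p : Nd} (hp : iv p ⊆ iv I)
    (w z z' : ℤ) : (w, z, z') ∈ BdF i e T I Kl c p ↔
      z ∈ T c.1 e ∧ z' ∈ T c.1 (e + 1) ∧ Ye i e w z z' ∈ iv p :=
  mem_BdE hp

omit h in
/-- the band at a node does not depend on the top -/
theorem bdF_eq (e : Fin 3) {Kl : ℕ} (c : Fin n × Fin Kl) {p : Nd} (hp : iv p ⊆ iv I) :
    BdF i e T I Kl c p = BdE i e (T c.1) p p := by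
  ext ⟨w, z, z'⟩
  exact (mem_BdE hp).trans (mem_BdE (Finset.Subset.refl _)).symm

/-- **571's `GW` for the family** -/
theorem gw_fam {bb : ℤ} (hbb : bb = -1 ∨ bb = -7) {e e' : Fin 3} (hee : e ≠ e') {J : Nd}
    (hJ : iv J ⊆ iv I) (hLa : 0 < La) {kap : ℝ} (hkap : 0 < kap) (kc : ℕ) {Kl : ℕ} (hKl : 0 < Kl)
    {r : ℕ → ℝ} (hr : ∀ q, 0 ≤ r q) {F : Fin 4 → Fn} (hF : F i = f) {P : Finset (ℤ × ℤ × ℤ)}
    (hP : ∀ l, Cov (J.1 + 1) (T l) P) {R : Finset Nd} (hR : Full R J) {ε : ℕ → ℤ → ℂ}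
    (hε : ∀ m x, ‖ε m x‖ ≤ 1) :
    GW i bb e e' T g (fun l => ((l, ⟨0, hKl⟩) : Fin n × Fin Kl)) J (BdF i e T I Kl)
      (fun _ => poE i e) (NF i e T I kc Kl) (fun _ => 1 / (sd I : ℝ) ^ 2)
      (fun c ω => g c.1 e ω.2.1 ω.2.2) (fun c => r c.2) (fun c => kap * μ c.1 / La) μ
      ((sd I : ℝ) ^ 2) La kap F P (J.1 + 1) ε R where
  bb7 := hbb
  ne := hee
  mu0 := h.μ0
  cn0 := by have := sd_pos I; positivity
  La0 := hLa
  kap0 := hkap
  muS := h.μ1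
  inj := fun a b hab => (Prod.mk.inj hab).1
  kn := fun l => le_of_eq (by
    have : (0 : ℝ) < sd I := by exact_mod_cast sd_pos I
    field_simp)
  bnd := bndF h e kc Kl
  r0 := fun c => hr c.2
  kp0 := fun c => div_nonneg (mul_nonneg hkap.le (h.μ0 c.1)) hLa.le
  ok :=
    { mem := fun l p hp w z z' => mem_BdF e _ (hp.trans hJ) w z z'
      pos := fun _ _ _ _ => rfl
      gau := fun _ _ _ _ => rfl }
  rep := by
    intro y hy
    rw [hF, h.rep y (hJ hy)]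
    refine Finset.sum_congr rfl fun l _ => ?_
    unfold sd
    push_cast
    rfl
  cov := hP
  lev := fun q hq => Nat.lt_succ_of_le (Growth.iv_level (hR.reg.1 q hq))
  eps := hε

end

end Crest.Agent.R079.GaDx571
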