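import Crest.Agent.R079.GaI_256
import Crest.Agent.R079.GaU_571

/-! R079, Step I, (G) words (helper256): THE REST over the windows of index `≤ N` (second sum of
`GaU_571.word_decomp`).

The windows of one stack are glued into one letter (`glue`), the boxes of different windows are
disjoint (`TA_disj`), so each stack costs one `restR` over the region `R`. -/

set_option autoImplicit false

namespace Crest.Agent.R079.GaJx256

open Finset Crest.Agent.R079.Grid Crest.Agent.R079.Glue Crest.Agent.R079.Growth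
  Crest.Agent.R079.QRed
open Crest.Agent.R079.GaAx571 Crest.Agent.R079.GaBx571 Crest.Agent.R079.GaWx571
  Crest.Agent.R079.GaXx571 Crest.Agent.R079.GaFx371 Crest.Agent.R079.GaUx571
  Crest.Agent.R079.GaIx256 Crest.Agent.R079.Stk Crest.Agent.R079.KLX279

/-! ### disjoint boxes -/

open Classical in
/-- sums over disjoint families of boxes -/
lemma TA_disj (bb : ℤ) (P : Finset (ℤ × ℤ × ℤ)) (M : ℕ) {κ : Type*} (I : Finset κ)
    {G : ℕ → ℤ × ℤ × ℤ → ℕ → Prop} (G' : κ → ℕ → ℤ × ℤ × ℤ → ℕ → Prop) (K : Fin 3 → Kl)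
    (h : ∀ i ∈ I, ∀ n p v, G' i n p v → G n p v)
    (hd : ∀ i ∈ I, ∀ i' ∈ I, ∀ n p v, G' i n p v → G' i' n p v → i = i') :
    ∑ i ∈ I, TA bb P M (G' i) K ≤ TA bb P M G K := by
  unfold TA
  rw [Finset.sum_comm]
  refine Finset.sum_le_sum fun n _ => ?_
  rw [Finset.sum_comm]
  refine Finset.sum_le_sum fun p _ => ?_
  rw [Finset.sum_comm]
  refine Finset.sum_le_sum fun v _ => ?_
  have h0 : 0 ≤ (1 / (((2 ^ n : ℕ) : ℝ) + ((2 ^ n : ℕ) : ℝ))) * ‖bxf bb K n p v‖ := by positivity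
  by_cases hex : ∃ i ∈ I, G' i n p v
  · obtain ⟨i, hi, hg⟩ := hex
    rw [if_pos (h i hi n p v hg), Finset.sum_eq_single i]
    · rw [if_pos hg]
    · intro i' hi' hne
      rw [if_neg fun h' => hne (hd i' hi' i hi n p v h' hg)]
    · intro h'
      exact absurd hi h'
  · rw [Finset.sum_eq_zero]
    · split_ifs
      · exact h0
      · exact le_rfl
    · intro i hi
      rw [if_neg fun h' => hex ⟨i, hi, h'⟩]

variable {R S : Finset Nd} {J : Nd} {W : Nd → Finset Nd} {C : ℝ}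

/-- tops of equal index with a common point are equal -/
lemma top_uniq (hP : TWin.Part R S W C) {K K' : Nd} (hK : K ∈ S) (hK' : K' ∈ S)
    (hi : idx S K = idx S K') {y : ℤ} (h : y ∈ iv K) (h' : y ∈ iv K') : K = K' := by
  have key : ∀ {A B : Nd}, A ∈ S → B ∈ S → idx S A = idx S B → iv A ⊆ iv B → A = B := by
    intro A B hA hB hAB hs
    exact win_eq hP hA hB (hP.full A hA).top
      ((mem_stack hP hB (hP.sub hA)).2 ⟨hs, hAB⟩)
  rcases iv_nest h h' with h1 | h1
  · exact key hK hK' hi h1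
  · exact (key hK' hK hi.symm h1).symm

open Classical in
/-- the letter glued from the windows of index `k` -/
noncomputable def glue (S : Finset Nd) (k : ℕ) (X : Nd → Fn) : Fn := fun y =>
  if h : ∃ K ∈ S, idx S K = k ∧ y ∈ iv K then X h.choose y else 0

lemma glue_on (hP : TWin.Part R S W C) {K : Nd} (hK : K ∈ S) (X : Nd → Fn) {y : ℤ}
    (hy : y ∈ iv K) : glue S (idx S K) X y = X K y := by
  unfold glue
  have h : ∃ K' ∈ S, idx S K' = idx S K ∧ y ∈ iv K' := ⟨K, hK, rfl, hy⟩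
  rw [dif_pos h]
  obtain ⟨h1, h2, h3⟩ := h.choose_spec
  rw [top_uniq hP h1 hK h2 h3 hy]

lemma glue_le {k : ℕ} {X : Nd → Fn} {H : ℝ}
    (h : ∀ K ∈ S, idx S K = k → ∀ y ∈ iv K, ‖X K y‖ ≤ H) (y : ℤ) : ‖glue S k X y‖ ≤ |H| := by
  unfold glue
  split_ifs with h1
  · obtain ⟨h2, h3, h4⟩ := h1.choose_spec
    exact (h _ h2 h3 y h4).trans (le_abs_self _)
  · simp

lemma av_le_sup {p : Nd} {X : Fn} {H : ℝ} (h : ∀ y, ‖X y‖ ≤ |H|) : av p X ≤ |H| := by
  have h1 : len p * av p X ^ 2 ≤ len p * |H| ^ 2 := by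
    rw [← Growth.sum_av]
    refine (Finset.sum_le_sum fun y _ => pow_le_pow_left₀ (norm_nonneg _) (h y) 2).trans ?_
    rw [Finset.sum_const, nsmul_eq_mul]
    refine le_of_eq ?_
    congr 1
    unfold len iv dI
    rw [Int.card_Ico]
    have e : (p.2 + 1) * 2 ^ (p.1 + 7) - p.2 * 2 ^ (p.1 + 7) = ((2 ^ (p.1 + 7) : ℕ) : ℤ) := by
      push_cast; ring
    rw [e, Int.toNat_natCast]
    push_cast
    rfl
  have h2 := le_of_mul_le_mul_left h1 (Growth.len_pos p)
  exact (sq_le_sq₀ (Growth.av_nonneg _ _) (abs_nonneg _)).1 h2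

/-! ### three edges -/

lemma g3a : ∀ v e e' : Fin 3, e ≠ e' → e ≠ v + 1 → e' ≠ v + 1 →
    (e + 2 = v + 1 ∧ e' + 2 = v + 2 ∧ v + 1 + 2 = v) ∨
    (e + 2 = v + 2 ∧ e' + 2 = v + 1 ∧ v + 1 + 2 = v) := by decide

lemma slot_ne3 (j : Fin 4) (v : Fin 3) : j.succAbove v ≠ j.succAbove (v + 1) ∧
    j.succAbove v ≠ j.succAbove (v + 2) ∧ j.succAbove (v + 1) ≠ j.succAbove (v + 2) := by
  have h : ∀ a b : Fin 3, a ≠ b → j.succAbove a ≠ j.succAbove b := fun a b hab h' =>
    hab (Fin.succAbove_right_injective h')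
  exact ⟨h _ _ (by revert v; decide), h _ _ (by revert v; decide), h _ _ (by revert v; decide)⟩

/-- **THE REST OVER THE WINDOWS OF INDEX `≤ N`** -/
theorem rest_stacks : ∃ K0 : ℝ, 0 ≤ K0 ∧ ∀ (bb : ℤ), bb = -1 ∨ bb = -7 → ∀ (j : Fin 4)
    (v : Fin 3) (R : Finset Nd) (J : Nd), Full R J → ∀ (S : Finset Nd) (W : Nd → Finset Nd)
    (C : ℝ), TWin.Part R S W C → ∀ (N n : ℕ), 2 ^ J.1 ≤ n →
    ∀ (Ht Hf : ℝ) (T : Fin 3 → Finset ℤ) (g : Fin 3 → ℤ → ℤ → ℂ) (α : ℤ → ℝ), 1 ≤ Ht → 0 ≤ Hf →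
    OpD v n Ht Hf T g α → (∀ e', ∃ t : ℤ, T e' ⊆ Ico t (t + n)) →
    ∀ (F : Fin 4 → Fn) (Fm : Fn) (s ε D Av HC HX HY d1 d2 : ℝ),
    (∀ y ∈ iv J, F (j.succAbove v) y = Fm y) → 0 < ε → 0 ≤ D → 0 < Av →
    (∀ p ∈ R, av p Fm ≤ Av) → (∀ y ∈ iv J, ‖Fm y‖ ≤ HC) → ExE j (v + 1) R T g Fm s D →
    ∀ (e e' : Fin 3), e ≠ e' → e ≠ v + 1 → e' ≠ v + 1 → ∀ (Xw Yw : Nd → Fn),
    (∀ K ∈ S, idx S K ≤ N → ∀ y ∈ iv K, ‖Xw K y‖ ≤ HX) →
    (∀ K ∈ S, idx S K ≤ N → ∀ y ∈ iv K, ‖Yw K y‖ ≤ HY) → 0 < d1 → 0 < d2 → ∀ (L1 : ℕ),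
    ∑ K ∈ S.filter (fun K => idx S K ≤ N), TA bb (cube L1) (J.1 + 1)
        (fun m p i => ¬ GdE j (v + 1) R J T g Fm s ε bb m p i ∧ AdX (W K) m (xv j bb m p))
        (KL j T g F e e' K (Xw K) (Yw K)) ≤
      N * (K0 * (1 + Real.log (1 + HC ^ 2 * (Hf * Ht * HX ^ 2 / d1 + Hf * Ht * HY ^ 2 / d2) /
        Av ^ 2)) * Av * (√(Hf * HX ^ 2 * (D / ε) * (1 + Real.log Ht) + d1) *
          √(Hf * HY ^ 2 * (D / ε) * (1 + Real.log Ht) + d2)) * (n ^ 2 * len J)) := by
  classical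
  obtain ⟨K0, hK0, hmain⟩ := restR
  refine ⟨K0, hK0, ?_⟩
  intro bb hbb j v R J hR S W C hP N n hJn Ht Hf T g α hHt hHf hD hTI F Fm s ε D Av HC HX HY d1 d2
    hFm hε hD0 hAv hF hHC hEx e e' hee he he' Xw Yw hX hY hd1 hd2 L1
  obtain ⟨s01, s02, s12⟩ := slot_ne3 j v
  set B : ℝ := K0 * (1 + Real.log (1 + HC ^ 2 * (Hf * Ht * HX ^ 2 / d1 + Hf * Ht * HY ^ 2 / d2) /
        Av ^ 2)) * Av * (√(Hf * HX ^ 2 * (D / ε) * (1 + Real.log Ht) + d1) *
          √(Hf * HY ^ 2 * (D / ε) * (1 + Real.log Ht) + d2)) * (n ^ 2 * len J) with hB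
  -- one stack
  have stack : ∀ k ≤ N, ∑ K ∈ S.filter (fun K => idx S K = k), TA bb (cube L1) (J.1 + 1)
      (fun m p i => ¬ GdE j (v + 1) R J T g Fm s ε bb m p i ∧ AdX (W K) m (xv j bb m p))
        (KL j T g F e e' K (Xw K) (Yw K)) ≤ B := by
    intro k hk
    set X := glue S k Xw with hXd
    set Y := glue S k Yw with hYd
    have gX : ∀ y, ‖X y‖ ≤ |HX| := glue_le fun K hK hi => hX K hK (by omega)
    have gY : ∀ y, ‖Y y‖ ≤ |HY| := glue_le fun K hK hi => hY K hK (by omega)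
    -- letters
    set F' : Fin 4 → Fn := Function.update (Function.update (Function.update F (j.succAbove v) Fm)
      (j.succAbove (e' + 2)) Y) (j.succAbove (e + 2)) X with hF'
    have hne : j.succAbove (e + 2) ≠ j.succAbove (e' + 2) := slot_ne hee
    have fe : F' (j.succAbove (e + 2)) = X := Function.update_self _ _ _
    have fe' : F' (j.succAbove (e' + 2)) = Y := by
      rw [hF', Function.update_of_ne hne.symm, Function.update_self]
    have fv : F' (j.succAbove v) = Fm := by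
      rcases g3a v e e' hee he he' with ⟨h1, h2, h3⟩ | ⟨h1, h2, h3⟩
      · rw [hF', h1, h2, Function.update_of_ne s01, Function.update_of_ne s02,
          Function.update_self]
      · rw [hF', h1, h2, Function.update_of_ne s02, Function.update_of_ne s01,
          Function.update_self]
    have step : ∀ K ∈ S.filter (fun K => idx S K = k), TA bb (cube L1) (J.1 + 1)
      (fun m p i => ¬ GdE j (v + 1) R J T g Fm s ε bb m p i ∧ AdX (W K) m (xv j bb m p))
        (KL j T g F e e' K (Xw K) (Yw K)) = TA bb (cube L1) (J.1 + 1)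
      (fun m p i => ¬ GdE j (v + 1) R J T g Fm s ε bb m p i ∧ AdX (W K) m (xv j bb m p))
        (lks j T g F') := by
      intro K hK
      obtain ⟨hKS, hKi⟩ := Finset.mem_filter.1 hK
      have hKJ : iv K ⊆ iv J := hR.reg.1 K (hP.sub hKS)
      refine TA_agr hbb (S := W K) ?_ (cube L1) (J.1 + 1) (fun m p v h => h.2)
      intro q hq i w z z' hy
      have hyK : Ye j i w z z' ∈ iv K := (hP.full K hKS).reg.1 q hq hy
      unfold KL
      by_cases h1 : i = e
      · subst h1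
        rw [Function.update_self]
        unfold lks
        rw [fe, lk_Ye, lk_Ye, cutJ_on hyK, hXd, ← hKi, glue_on hP hKS Xw hyK]
      · rw [Function.update_of_ne h1]
        by_cases h2 : i = e'
        · subst h2
          rw [Function.update_self]
          unfold lks
          rw [fe', lk_Ye, lk_Ye, cutJ_on hyK, hYd, ← hKi, glue_on hP hKS Yw hyK]
        · rw [Function.update_of_ne h2]
          have h3 : i = v + 1 := by
            by_contra h3
            exact h2 (f3h v e e' i hee he he' h3 h1)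
          subst h3
          unfold lks
          rw [f3e, fv, lk_Ye, lk_Ye]
          beta_reduce
          rw [cutJ_on hyK, hFm _ (hKJ hyK)]
    rw [Finset.sum_congr rfl step]
    refine (TA_disj bb (cube L1) (J.1 + 1) (S.filter (fun K => idx S K = k))
      (G := fun m p i => ¬ GdE j (v + 1) R J T g Fm s ε bb m p i ∧ AdX R m (xv j bb m p))
      (fun K m p i => ¬ GdE j (v + 1) R J T g Fm s ε bb m p i ∧ AdX (W K) m (xv j bb m p))
      (lks j T g F') ?_ ?_).trans ?_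
    · rintro K hK m p i ⟨h1, q, hq, h2⟩
      exact ⟨h1, q, hP.wsub K (Finset.mem_filter.1 hK).1 hq, h2⟩
    · rintro K hK K' hK' m p i ⟨_, q, hq, hqm, hqx⟩ ⟨_, q', hq', hqm', hqx'⟩
      have e1 : q = q' := adm_uniq (hqm.trans hqm'.symm) hqx hqx'
      subst e1
      exact win_eq hP (Finset.mem_filter.1 hK).1 (Finset.mem_filter.1 hK').1 hq hq'
    · rcases g3a v e e' hee he he' with ⟨h1, h2, h3⟩ | ⟨h1, h2, h3⟩
      · rw [h1] at fe
        rw [h2] at fe'
        have main := hmain bb hbb j v R J hR n hJn Ht Hf T g α hHt hHf hD hTI F' s ε D Av HC |HX|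
          |HY| |HX| |HY| d1 d2 hε hD0 hAv (by rw [fv]; exact hF) (by rw [fv]; exact hHC)
          (by rw [fv]; exact hEx) (by rw [fe]; exact fun y _ => gX y)
          (by rw [fe']; exact fun y _ => gY y) (by rw [fe]; exact fun p _ => av_le_sup gX)
          (by rw [fe']; exact fun p _ => av_le_sup gY) hd1 hd2 L1
        rw [fv, sq_abs, sq_abs] at main
        exact main
      · rw [h1] at fe
        rw [h2] at fe'
        have main := hmain bb hbb j v R J hR n hJn Ht Hf T g α hHt hHf hD hTI F' s ε D Av HC |HY|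
          |HX| |HY| |HX| d2 d1 hε hD0 hAv (by rw [fv]; exact hF) (by rw [fv]; exact hHC)
          (by rw [fv]; exact hEx) (by rw [fe']; exact fun y _ => gY y)
          (by rw [fe]; exact fun y _ => gX y) (by rw [fe']; exact fun p _ => av_le_sup gY)
          (by rw [fe]; exact fun p _ => av_le_sup gX) hd2 hd1 L1
        rw [fv, sq_abs, sq_abs] at main
        refine main.trans (le_of_eq ?_)
        rw [hB, add_comm (Hf * Ht * HY ^ 2 / d2),
          mul_comm (√(Hf * HY ^ 2 * (D / ε) * (1 + Real.log Ht) + d2))]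
  -- all stacks
  rw [← Finset.sum_fiberwise_of_maps_to (s := S.filter (fun K => idx S K ≤ N)) (t := Icc 1 N)
    (g := fun K => idx S K) (fun K hK => by
      obtain ⟨hKS, hKn⟩ := Finset.mem_filter.1 hK
      exact Finset.mem_Icc.2 ⟨idx_pos hR hP (hP.sub hKS), hKn⟩)]
  have h2 : ∀ k ∈ Icc 1 N, ∑ K ∈ (S.filter (fun K => idx S K ≤ N)).filter (fun K => idx S K = k),
      TA bb (cube L1) (J.1 + 1)
        (fun m p i => ¬ GdE j (v + 1) R J T g Fm s ε bb m p i ∧ AdX (W K) m (xv j bb m p))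
        (KL j T g F e e' K (Xw K) (Yw K)) ≤ B := by
    intro k hk
    have hk' := (Finset.mem_Icc.1 hk).2
    have e2 : (S.filter (fun K => idx S K ≤ N)).filter (fun K => idx S K = k) =
        S.filter (fun K => idx S K = k) := by
      ext K
      rw [Finset.mem_filter, Finset.mem_filter, Finset.mem_filter]
      constructor
      · rintro ⟨⟨h1, _⟩, h2⟩
        exact ⟨h1, h2⟩
      · rintro ⟨h1, h2⟩
        exact ⟨⟨h1, by omega⟩, h2⟩
    rw [e2]
    exact stack k hk'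
  refine (Finset.sum_le_sum h2).trans (le_of_eq ?_)
  rw [Finset.sum_const, nsmul_eq_mul, Nat.card_Icc, Nat.add_sub_cancel]

end Crest.Agent.R079.GaJx256
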