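import Crest.Agent.R079.GaIV_446
import Crest.Agent.R079.GaJ_256
import Crest.Agent.R079.GaD_571
import Crest.Agent.R079.GAd_263

/-! R079, Step I, (G) words (helper446): **HRst** of `GaR_571` from `restRV` (rest with two regions,
`V = Rk R S (k + 1)`), family of op-atoms; static and moving partner. -/

set_option autoImplicit false

namespace Crest.Agent.R079.GaLx446

open Finset Crest.Agent.R079.Grid Crest.Agent.R079.Glue Crest.Agent.R079.Growth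
  Crest.Agent.R079.QRed
open Crest.Agent.R079.GaAx571 Crest.Agent.R079.GaBx571 Crest.Agent.R079.GaWx571
  Crest.Agent.R079.GaXx571 Crest.Agent.R079.GaFx371 Crest.Agent.R079.GaUx571
  Crest.Agent.R079.GaIx256 Crest.Agent.R079.Stk Crest.Agent.R079.KLX279
  Crest.Agent.R079.GaRx571 Crest.Agent.R079.GaTx571 Crest.Agent.R079.GaVx446
  Crest.Agent.R079.GaJx256 Crest.Agent.R079.ThA159
open Crest.Agent.R079.RelW653 (NMP)
open Crest.Agent.R079.RelV653 (PenC)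

/-- the price of one rest word -/
noncomputable def eRst (K0 Ht Hf D ε Av HC HX HY AX AY d1 d2 : ℝ) : ℝ :=
  K0 * (1 + Real.log (1 + HC ^ 2 * (Hf * Ht * HX ^ 2 / d1 + Hf * Ht * HY ^ 2 / d2) / Av ^ 2)) *
    Av * (√(Hf * AX ^ 2 * (D / ε) * (1 + Real.log Ht) + d1) *
      √(Hf * AY ^ 2 * (D / ε) * (1 + Real.log Ht) + d2))

lemma eRst_nonneg {K0 Ht Hf D ε Av HC HX HY AX AY d1 d2 : ℝ} (hK0 : 0 ≤ K0) (hHt : 1 ≤ Ht)
    (hHf : 0 ≤ Hf) (hAv : 0 ≤ Av) (hd1 : 0 ≤ d1) (hd2 : 0 ≤ d2) :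
    0 ≤ eRst K0 Ht Hf D ε Av HC HX HY AX AY d1 d2 := by
  unfold eRst
  have h1 : 0 ≤ HC ^ 2 * (Hf * Ht * HX ^ 2 / d1 + Hf * Ht * HY ^ 2 / d2) / Av ^ 2 := by positivity
  have h2 := Real.log_nonneg (show (1 : ℝ) ≤ 1 +
    HC ^ 2 * (Hf * Ht * HX ^ 2 / d1 + Hf * Ht * HY ^ 2 / d2) / Av ^ 2 by linarith)
  positivity

/-- truncation does not increase averages -/
lemma av_tau_le {H : ℝ} (hH : 0 ≤ H) (p : Nd) (f : Fn) : av p (fun y => tau H (f y)) ≤ av p f := by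
  have h1 : len p * av p (fun y => tau H (f y)) ^ 2 ≤ len p * av p f ^ 2 := by
    rw [← Growth.sum_av, ← Growth.sum_av]
    exact Finset.sum_le_sum fun y _ => pow_le_pow_left₀ (norm_nonneg _) (tau_le' hH (f y)) 2
  exact (sq_le_sq₀ (Growth.av_nonneg _ _) (Growth.av_nonneg _ _)).1
    (le_of_mul_le_mul_left h1 (Growth.len_pos p))

/-- **REST WORDS OF THE STACKS**, any partner -/
theorem hrst : ∃ K0 : ℝ, 0 ≤ K0 ∧ ∀ (bb : ℤ), bb = -1 ∨ bb = -7 → ∀ (j : Fin 4) (v : Fin 3)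
    (R : Finset Nd) (J : Nd), Full R J → ∀ (S : Finset Nd) (W : Nd → Finset Nd)
    (C : ℝ), TWin.Part R S W C → ∀ (n : ℕ), 2 ^ J.1 ≤ n → ∀ (Ht Hf : ℝ), 1 ≤ Ht → 0 ≤ Hf →
    ∀ (N : ℕ) (T : Fin N → Fin 3 → Finset ℤ) (g : Fin N → Fin 3 → ℤ → ℤ → ℂ) (θ : Fin N → ℤ → ℝ),
    (∀ l, OpD v n Ht Hf (T l) (g l) (θ l)) → (∀ l e', ∃ t : ℤ, T l e' ⊆ Ico t (t + n)) →
    ∀ (F : Fin 4 → Fn) (Fm : Fn) (s ε D Av HC HX HY AX AY d1 d2 : ℝ),
    (∀ y ∈ iv J, F (j.succAbove v) y = Fm y) → 0 < ε → 0 ≤ D → 0 < Av →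
    (∀ p ∈ R, av p Fm ≤ Av) → (∀ y ∈ iv J, ‖Fm y‖ ≤ HC) →
    (∀ l, ExE j (v + 1) R (T l) (g l) Fm s D) →
    ∀ (e e' : Fin 3), e ≠ e' → e ≠ v + 1 → e' ≠ v + 1 →
    ∀ (nn : ℕ) (f : Nd → Fn) (Yk : ℕ → Fn), 0 ≤ HX →
    (∀ k, 1 ≤ k → k ≤ nn → ∀ p ∈ Rk R S k, av p (TWin.gl (Rk R S k) f) ≤ AX) →
    (∀ k, 1 ≤ k → k ≤ nn → ∀ y ∈ iv J, ‖Yk k y‖ ≤ HY) →
    (∀ k, 1 ≤ k → k ≤ nn → ∀ p ∈ Rk R S k, av p (Yk k) ≤ AY) → 0 < d1 → 0 < d2 → ∀ (L1 : ℕ),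
    HRst j bb e e' T g J ((n : ℝ) ^ 2) F (cube L1) (J.1 + 1) R S nn
      (fun l m p i => GdE j (v + 1) R J (T l) (g l) Fm s ε bb m p i) HX f Yk
      (eRst K0 Ht Hf D ε Av HC HX HY AX AY d1 d2) := by
  classical
  obtain ⟨K0, hK0, hmain⟩ := restRV
  refine ⟨K0, hK0, ?_⟩
  intro bb hbb j v R J hR S W C hP n hJn Ht Hf hHt hHf N T g θ hD hTI F Fm s ε D Av HC HX HY AX AY
    d1 d2 hFm hε hD0 hAv hF hHC hEx e e' hee he he' nn f Yk hHX aX hY aY hd1 hd2 L1 k hk l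
  obtain ⟨s01, s02, s12⟩ := slot_ne3 j v
  set V := Rk R S (k + 1) with hV
  have hVF : Full V J := full_Rk hR hP (by omega)
  have hVR : V ⊆ R := fun p hp => (mem_Rk.1 hp).1
  set X : Fn := fun y => tau HX (TWin.gl V f y) with hXd
  set Y := Yk (k + 1) with hYd
  have gX : ∀ y, ‖X y‖ ≤ HX := fun y => tau_le hHX _
  have aX' : ∀ p ∈ V, av p X ≤ AX := fun p hp =>
    (av_tau_le hHX p _).trans (aX (k + 1) (by omega) (by omega) p hp)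
  have gY : ∀ y ∈ iv J, ‖Y y‖ ≤ HY := hY (k + 1) (by omega) (by omega)
  have aY' : ∀ p ∈ V, av p Y ≤ AY := aY (k + 1) (by omega) (by omega)
  -- letters
  set F' : Fin 4 → Fn := Function.update (Function.update (Function.update F (j.succAbove v) Fm)
    (j.succAbove (e' + 2)) Y) (j.succAbove (e + 2)) X with hF'
  have hne : j.succAbove (e + 2) ≠ j.succAbove (e' + 2) := slot_ne hee
  have fe : F' (j.succAbove (e + 2)) = X := Function.update_self _ _ _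
  have fe' : F' (j.succAbove (e' + 2)) = Y := by
    rw [hF', Function.update_of_ne hne.symm, Function.update_self]
  have fv : F' (j.succAbove v) = Fm := by
    rcases g3a v e e' hee he he' with ⟨h1, h2, h3⟩ | ⟨h1, h2, h3⟩
    · rw [hF', h1, h2, Function.update_of_ne s01, Function.update_of_ne s02,
        Function.update_self]
    · rw [hF', h1, h2, Function.update_of_ne s02, Function.update_of_ne s01,
        Function.update_self]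
  have step : TA bb (cube L1) (J.1 + 1)
      (fun m p i => ¬ GdE j (v + 1) R J (T l) (g l) Fm s ε bb m p i ∧ AdX V m (xv j bb m p))
      (KL j (T l) (g l) F e e' J X Y) = TA bb (cube L1) (J.1 + 1)
      (fun m p i => ¬ GdE j (v + 1) R J (T l) (g l) Fm s ε bb m p i ∧ AdX V m (xv j bb m p))
      (lks j (T l) (g l) F') := by
    refine TA_agr hbb (S := V) ?_ (cube L1) (J.1 + 1) (fun m p v h => h.2)
    intro q hq i w z z' hy
    have hyJ : Ye j i w z z' ∈ iv J := hVF.reg.1 q hq hy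
    unfold KL
    by_cases h1 : i = e
    · subst h1
      rw [Function.update_self]
      unfold lks
      rw [fe, lk_Ye, lk_Ye, cutJ_on hyJ]
    · rw [Function.update_of_ne h1]
      by_cases h2 : i = e'
      · subst h2
        rw [Function.update_self]
        unfold lks
        rw [fe', lk_Ye, lk_Ye, cutJ_on hyJ]
      · rw [Function.update_of_ne h2]
        have h3 : i = v + 1 := by
          by_contra h3
          exact h2 (f3h v e e' i hee he he' h3 h1)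
        subst h3
        unfold lks
        rw [f3e, fv, lk_Ye, lk_Ye]
        beta_reduce
        rw [cutJ_on hyJ, hFm _ hyJ]
  show TA bb (cube L1) (J.1 + 1)
      (fun m p i => ¬ GdE j (v + 1) R J (T l) (g l) Fm s ε bb m p i ∧ AdX V m (xv j bb m p))
      (KL j (T l) (g l) F e e' J X Y) ≤ _
  rw [step]
  have hFV : ∀ p ∈ V, av p Fm ≤ Av := fun p hp => hF p (hVR hp)
  rcases g3a v e e' hee he he' with ⟨h1, h2, h3⟩ | ⟨h1, h2, h3⟩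
  · rw [h1] at fe
    rw [h2] at fe'
    have main := hmain bb hbb j v V R J hVF hR n hJn Ht Hf (T l) (g l) (θ l) hHt hHf (hD l) (hTI l)
      F' s ε D Av HC HX HY AX AY d1 d2 hε hD0 hAv (by rw [fv]; exact hFV) (by rw [fv]; exact hHC)
      (by rw [fv]; exact hEx l) (by rw [fe]; exact fun y _ => gX y)
      (by rw [fe']; exact gY) (by rw [fe]; exact aX') (by rw [fe']; exact aY') hd1 hd2 L1
    rw [fv] at main
    refine main.trans (le_of_eq ?_)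
    unfold eRst
    ring
  · rw [h1] at fe
    rw [h2] at fe'
    have main := hmain bb hbb j v V R J hVF hR n hJn Ht Hf (T l) (g l) (θ l) hHt hHf (hD l) (hTI l)
      F' s ε D Av HC HY HX AY AX d2 d1 hε hD0 hAv (by rw [fv]; exact hFV) (by rw [fv]; exact hHC)
      (by rw [fv]; exact hEx l) (by rw [fe']; exact gY)
      (by rw [fe]; exact fun y _ => gX y) (by rw [fe']; exact aY') (by rw [fe]; exact aX') hd2 hd1 L1
    rw [fv] at main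
    refine main.trans (le_of_eq ?_)
    unfold eRst
    rw [add_comm (Hf * Ht * HY ^ 2 / d2),
      mul_comm (√(Hf * AY ^ 2 * (D / ε) * (1 + Real.log Ht) + d2))]
    ring

/-! ### averages of the glued letters -/

section nmp

variable {I' : Type*} [Fintype I'] {Ω : I' → Type*} {Bd : ∀ i, Nd → Finset (Ω i)}
  {pos : ∀ i, Ω i → ℤ} {Nn : ∀ i, Nd → (Ω i → ℂ) → ℝ} {ν : I' → ℝ} {a : ∀ i, Ω i → ℂ}
  {r : I' → ℝ} {κ : I' → ℝ} {X : Fn} {η : ℝ} {f : Nd → Fn}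

/-- averages of the glued near-minimisers on the stacks -/
lemma av_gl_stack (hP : PenC 0 (fun _ _ => True) (ThF Bd pos Nn ν a r κ))
    (h : NMP (fun _ _ => True) (ThF Bd pos Nn ν a r κ) X η f) {R S : Finset Nd} {J : Nd}
    {W : Nd → Finset Nd} {C : ℝ} (hR : Full R J) (hPt : TWin.Part R S W C) {A AX : ℝ}
    (hA : ∀ p ∈ R, av p X ≤ A) (hAX : √(2 * A ^ 2 + 4 * η) ≤ AX) {k : ℕ} (hk : 1 ≤ k) {p : Nd}
    (hp : p ∈ Rk R S k) : av p (TWin.gl (Rk R S k) f) ≤ AX := by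
  have h1 := FLDx263.av_gl_le hP h (full_Rk hR hPt hk) hp
  have h2 : av p X ^ 2 ≤ A ^ 2 :=
    pow_le_pow_left₀ (Growth.av_nonneg _ _) (hA p (mem_Rk.1 hp).1) 2
  refine le_trans (Real.le_sqrt_of_sq_le ?_) hAX
  linarith

end nmp

/-! ### the common instance `Fam` / `PhiE` -/

open Crest.Agent.R079.GaDx571 Crest.Agent.R079.PFx263 in
/-- **HRst, STATIC PARTNER** -/
theorem hrst_static : ∃ K0 : ℝ, 0 ≤ K0 ∧ ∀ (bb : ℤ), bb = -1 ∨ bb = -7 → ∀ (i m : Fin 4) (v : Fin 3)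
    (I : Nd) (Ht Hf La : ℝ) (N : ℕ) (f0 : Fn) (T : Fin N → Fin 3 → Finset ℤ)
    (g : Fin N → Fin 3 → ℤ → ℤ → ℂ) (θ : Fin N → ℤ → ℝ) (μ : Fin N → ℝ),
    Fam i m v I Ht Hf La N f0 T g θ μ → 1 ≤ Ht → 0 ≤ Hf → 0 < La →
    ∀ (R : Finset Nd) (J : Nd), Full R J → iv J ⊆ iv I → ∀ (S : Finset Nd) (W : Nd → Finset Nd)
    (C : ℝ), TWin.Part R S W C →
    ∀ (F : Fin 4 → Fn) (Fm : Fn) (s ε D Av HC HX HY AX AY d1 d2 : ℝ),
    (∀ y ∈ iv J, F m y = Fm y) → 0 < ε → 0 ≤ D → 0 < Av →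
    (∀ p ∈ R, av p Fm ≤ Av) → (∀ y ∈ iv J, ‖Fm y‖ ≤ HC) →
    (∀ l, ExE i (v + 1) R (T l) (g l) Fm s D) →
    ∀ (e e' : Fin 3), e ≠ e' → e ≠ v + 1 → e' ≠ v + 1 →
    ∀ (nn : ℕ) (kap : ℝ) (kc Kl : ℕ) (r : ℕ → ℝ) (X : Fn) (η A : ℝ) (f : Nd → Fn), 0 ≤ kap →
    (∀ q, 0 ≤ r q) → NMP (fun _ _ => True) (PhiE i e T g μ I La kap kc Kl r) X η f →
    (∀ p ∈ R, av p X ≤ A) → √(2 * A ^ 2 + 4 * η) ≤ AX → 0 ≤ HX →
    ∀ (Y : Fn), (∀ y ∈ iv J, ‖Y y‖ ≤ HY) → (∀ p ∈ R, av p Y ≤ AY) → 0 < d1 → 0 < d2 →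
    ∀ (L1 : ℕ), HRst i bb e e' T g J ((sd I : ℝ) ^ 2) F (cube L1) (J.1 + 1) R S nn
      (fun l m p k => GdE i (v + 1) R J (T l) (g l) Fm s ε bb m p k) HX f (fun _ => Y)
      (eRst K0 Ht Hf D ε Av HC HX HY AX AY d1 d2) := by
  obtain ⟨K0, hK0, hmain⟩ := hrst
  refine ⟨K0, hK0, ?_⟩
  intro bb hbb i m v I Ht Hf La N f0 T g θ μ hFam hHt hHf hLa R J hR hJI S W C hP F Fm s ε D Av HC HX
    HY AX AY d1 d2 hFm hε hD0 hAv hF hHC hEx e e' hee he he' nn kap kc Kl r X η A f hkap hr hf hA hAX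
    hHX Y hY aY hd1 hd2 L1
  have hvm := hFam.vm
  subst hvm
  have hJn : 2 ^ J.1 ≤ sd I := Nat.pow_le_pow_right (by norm_num) (Growth.iv_level hJI)
  have hpen := penPhi hFam e hkap hLa kc Kl hr
  refine hmain bb hbb i v R J hR S W C hP (sd I) hJn Ht Hf hHt hHf N T g θ hFam.opD
    (fun l e' => ?_) F Fm s ε D Av HC HX HY AX AY d1 d2 hFm hε hD0 hAv hF hHC hEx e e' hee he he' nn
    f (fun _ => Y) hHX (fun k hk _ p hp => ?_) (fun _ _ _ => hY)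
    (fun k _ _ p hp => aY p (mem_Rk.1 hp).1) hd1 hd2 L1
  · obtain ⟨a, ha⟩ := hFam.ico l
    exact ⟨a e', by rw [ha e']; exact Finset.Subset.refl _⟩
  · rw [phi_eq] at hpen hf
    exact av_gl_stack hpen hf hR hP hA hAX hk hp

open Crest.Agent.R079.GaDx571 Crest.Agent.R079.PFx263 in
/-- **HRst, MOVING PARTNER**: truncated glued letter of the functional of the other slot -/
theorem hrst_moving : ∃ K0 : ℝ, 0 ≤ K0 ∧ ∀ (bb : ℤ), bb = -1 ∨ bb = -7 → ∀ (i m : Fin 4) (v : Fin 3)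
    (I : Nd) (Ht Hf La : ℝ) (N : ℕ) (f0 : Fn) (T : Fin N → Fin 3 → Finset ℤ)
    (g : Fin N → Fin 3 → ℤ → ℤ → ℂ) (θ : Fin N → ℤ → ℝ) (μ : Fin N → ℝ),
    Fam i m v I Ht Hf La N f0 T g θ μ → 1 ≤ Ht → 0 ≤ Hf → 0 < La →
    ∀ (R : Finset Nd) (J : Nd), Full R J → iv J ⊆ iv I → ∀ (S : Finset Nd) (W : Nd → Finset Nd)
    (C : ℝ), TWin.Part R S W C →
    ∀ (F : Fin 4 → Fn) (Fm : Fn) (s ε D Av HC HX HY AX AY d1 d2 : ℝ),
    (∀ y ∈ iv J, F m y = Fm y) → 0 < ε → 0 ≤ D → 0 < Av →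
    (∀ p ∈ R, av p Fm ≤ Av) → (∀ y ∈ iv J, ‖Fm y‖ ≤ HC) →
    (∀ l, ExE i (v + 1) R (T l) (g l) Fm s D) →
    ∀ (e e' : Fin 3), e ≠ e' → e ≠ v + 1 → e' ≠ v + 1 →
    ∀ (nn : ℕ) (kap : ℝ) (kc Kl : ℕ) (r : ℕ → ℝ) (X : Fn) (η A : ℝ) (f : Nd → Fn), 0 ≤ kap →
    (∀ q, 0 ≤ r q) → NMP (fun _ _ => True) (PhiE i e T g μ I La kap kc Kl r) X η f →
    (∀ p ∈ R, av p X ≤ A) → √(2 * A ^ 2 + 4 * η) ≤ AX → 0 ≤ HX →
    ∀ (kap' : ℝ) (kc' Kl' : ℕ) (r' : ℕ → ℝ) (X' : Fn) (η' A' : ℝ) (f' : Nd → Fn), 0 ≤ kap' →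
    (∀ q, 0 ≤ r' q) → NMP (fun _ _ => True) (PhiE i e' T g μ I La kap' kc' Kl' r') X' η' f' →
    (∀ p ∈ R, av p X' ≤ A') → √(2 * A' ^ 2 + 4 * η') ≤ AY → 0 ≤ HY → 0 < d1 → 0 < d2 →
    ∀ (L1 : ℕ), HRst i bb e e' T g J ((sd I : ℝ) ^ 2) F (cube L1) (J.1 + 1) R S nn
      (fun l m p k => GdE i (v + 1) R J (T l) (g l) Fm s ε bb m p k) HX f
      (fun k y => tau HY (TWin.gl (Rk R S k) f' y))
      (eRst K0 Ht Hf D ε Av HC HX HY AX AY d1 d2) := by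
  obtain ⟨K0, hK0, hmain⟩ := hrst
  refine ⟨K0, hK0, ?_⟩
  intro bb hbb i m v I Ht Hf La N f0 T g θ μ hFam hHt hHf hLa R J hR hJI S W C hP F Fm s ε D Av HC HX
    HY AX AY d1 d2 hFm hε hD0 hAv hF hHC hEx e e' hee he he' nn kap kc Kl r X η A f hkap hr hf hA hAX
    hHX kap' kc' Kl' r' X' η' A' f' hkap' hr' hf' hA' hAY hHY hd1 hd2 L1
  have hvm := hFam.vm
  subst hvm
  have hJn : 2 ^ J.1 ≤ sd I := Nat.pow_le_pow_right (by norm_num) (Growth.iv_level hJI)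
  have hpen := penPhi hFam e hkap hLa kc Kl hr
  have hpen' := penPhi hFam e' hkap' hLa kc' Kl' hr'
  refine hmain bb hbb i v R J hR S W C hP (sd I) hJn Ht Hf hHt hHf N T g θ hFam.opD
    (fun l e' => ?_) F Fm s ε D Av HC HX HY AX AY d1 d2 hFm hε hD0 hAv hF hHC hEx e e' hee he he' nn
    f (fun k y => tau HY (TWin.gl (Rk R S k) f' y)) hHX (fun k hk _ p hp => ?_)
    (fun _ _ _ y _ => tau_le hHY _) (fun k hk _ p hp => ?_) hd1 hd2 L1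
  · obtain ⟨a, ha⟩ := hFam.ico l
    exact ⟨a e', by rw [ha e']; exact Finset.Subset.refl _⟩
  · rw [phi_eq] at hpen hf
    exact av_gl_stack hpen hf hR hP hA hAX hk hp
  · rw [phi_eq] at hpen' hf'
    exact (av_tau_le hHY p _).trans (av_gl_stack hpen' hf' hR hP hA' hAY hk hp)

end Crest.Agent.R079.GaLx446
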