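import Crest.Agent.R079.B0M_253
import Crest.Agent.R079.GaBt_251
import Crest.Agent.R079.GaL_446

/-! R079, Step I, (G) words (helper253): `HB` of `GaR_571` (killer words of the windows) for the common
instance `Fam` / `PhiE` of `GaD_571`.

* `eKB` : the price of one killer word per unit of length; `eKB_nonneg`;
* `hb_fam` : any partner, bounded by `H`, with averages `≤ AY` on the tops of the windows;
* `hb_static`, `hb_moving`. -/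

set_option autoImplicit false

namespace Crest.Agent.R079.B0Nx253

open Finset Crest.Agent.R079.Grid Crest.Agent.R079.Glue Crest.Agent.R079.Growth
  Crest.Agent.R079.QRed
open Crest.Agent.R079.GaAx571 Crest.Agent.R079.GaBx571 Crest.Agent.R079.GaWx571
  Crest.Agent.R079.GaXx571 Crest.Agent.R079.GaFx371 Crest.Agent.R079.GaUx571
  Crest.Agent.R079.Stk Crest.Agent.R079.KLX279
  Crest.Agent.R079.GaRx571 Crest.Agent.R079.GaTx571 Crest.Agent.R079.GaZx260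
  Crest.Agent.R079.ThA159 Crest.Agent.R079.ThB159 Crest.Agent.R079.GaDx571
  Crest.Agent.R079.PFx263 Crest.Agent.R079.GaBtx251 Crest.Agent.R079.B0Mx253
open Crest.Agent.R079.RelW653 (NMP)
open Crest.Agent.R079.RelV653 (PenC)

/-- the price of one killer word (per unit of length) -/
noncomputable def eKB (K0 Ht Hf H1 h0 H τ dl AY Av : ℝ) : ℝ :=
  K0 * (1 + Real.log (1 + (max 1 (√(Hf * Ht)) * H1 + h0) ^ 2 *
    (2 * (max 1 (√(Hf * Ht)) * H) ^ 2) / (dl * τ ^ 2))) *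
    (τ * ((AY + √dl) * (Av + √dl)))

lemma eKB_nonneg {K0 Ht Hf H1 h0 H τ dl AY Av : ℝ} (hK0 : 0 ≤ K0) (hτ : 0 ≤ τ) (hdl : 0 ≤ dl)
    (hAY : 0 ≤ AY) (hAv : 0 ≤ Av) : 0 ≤ eKB K0 Ht Hf H1 h0 H τ dl AY Av := by
  unfold eKB
  have h1 : 0 ≤ (max 1 (√(Hf * Ht)) * H1 + h0) ^ 2 *
    (2 * (max 1 (√(Hf * Ht)) * H) ^ 2) / (dl * τ ^ 2) := by positivity
  have h2 := Real.log_nonneg (show (1 : ℝ) ≤ 1 + (max 1 (√(Hf * Ht)) * H1 + h0) ^ 2 *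
    (2 * (max 1 (√(Hf * Ht)) * H) ^ 2) / (dl * τ ^ 2) by linarith)
  have h3 := Real.sqrt_nonneg dl
  exact mul_nonneg (mul_nonneg hK0 (by linarith)) (mul_nonneg hτ (mul_nonneg (by linarith)
    (by linarith)))

lemma gl_supp_e : ∀ (v e e' : Fin 3), e ≠ e' → e ≠ v + 1 → e' ≠ v + 1 →
    (v + 1 ≠ e ∧ v + 1 ≠ e' ∧ v + 1 + 2 = v) := by decide

/-- averages of the glued near-minimiser inside one window -/
lemma av_gl_win {I' : Type*} [Fintype I'] {Ω : I' → Type*} {Bd : ∀ i, Nd → Finset (Ω i)}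
    {pos : ∀ i, Ω i → ℤ} {Nn : ∀ i, Nd → (Ω i → ℂ) → ℝ} {ν : I' → ℝ} {a : ∀ i, Ω i → ℂ}
    {r : I' → ℝ} {κ : I' → ℝ} {X : Fn} {η : ℝ} {f : Nd → Fn}
    (hP : PenC 0 (fun _ _ => True) (ThF Bd pos Nn ν a r κ))
    (h : NMP (fun _ _ => True) (ThF Bd pos Nn ν a r κ) X η f) {R W : Finset Nd} {K : Nd}
    (hW : Full W K) (hWR : W ⊆ R) {A AX : ℝ}
    (hA : ∀ p ∈ R, av p X ≤ A) (hAX : √(2 * A ^ 2 + 4 * η) ≤ AX) {p : Nd}
    (hp : p ∈ W) : av p (TWin.gl W f) ≤ AX := by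
  have h1 := FLDx263.av_gl_le hP h hW hp
  have h2 : av p X ^ 2 ≤ A ^ 2 :=
    pow_le_pow_left₀ (Growth.av_nonneg _ _) (hA p (hWR hp)) 2
  refine le_trans (Real.le_sqrt_of_sq_le ?_) hAX
  linarith

/-- **HB FOR THE COMMON INSTANCE**, any partner -/
theorem hb_fam : ∃ K0 : ℝ, 0 ≤ K0 ∧ ∀ (bb : ℤ), bb = -1 ∨ bb = -7 → ∀ (i m : Fin 4) (v : Fin 3)
    (I : Nd) (Ht Hf La : ℝ) (N : ℕ) (f0 : Fn) (T : Fin N → Fin 3 → Finset ℤ)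
    (g : Fin N → Fin 3 → ℤ → ℤ → ℂ) (θ : Fin N → ℤ → ℝ) (μ : Fin N → ℝ),
    Fam i m v I Ht Hf La N f0 T g θ μ → 0 ≤ Hf → 0 < La →
    ∀ (R : Finset Nd) (J : Nd), Full R J → iv J ⊆ iv I → ∀ (S : Finset Nd) (W : Nd → Finset Nd)
    (C : ℝ), TWin.Part R S W C →
    ∀ (F : Fin 4 → Fn) (Fm : Fn) (Av H HX h0 τ dl AX AY : ℝ),
    (∀ y ∈ iv J, F m y = Fm y) → (∀ p ∈ R, av p Fm ≤ Av) → (∀ y ∈ iv J, ‖Fm y‖ ≤ H) → 0 ≤ H →
    ∀ (e e' : Fin 3), e ≠ e' → e ≠ v + 1 → e' ≠ v + 1 →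
    ∀ (nn : ℕ) (kap : ℝ) (kc Kl : ℕ) (hKl : 0 < Kl) (r : ℕ → ℝ) (X : Fn) (η A : ℝ) (f : Nd → Fn),
    0 ≤ kap → (∀ q, 0 ≤ r q) → NMP (fun _ _ => True) (PhiE i e T g μ I La kap kc Kl r) X η f →
    (∀ p ∈ R, av p X ≤ A) → √(2 * A ^ 2 + 4 * η) ≤ AX → 0 < HX → 0 < h0 →
    tauB kc (r 0) Ht Hf AX h0 HX ≤ τ → 0 < τ → 0 < dl →
    ∀ (Yw : Nd → Fn), (∀ K ∈ S, ∀ y ∈ iv K, ‖Yw K y‖ ≤ H) → (∀ K ∈ S, av K (Yw K) ≤ AY) →
    ∀ (L1 M : ℕ), HB i bb e e' T g (fun l => ((l, ⟨0, hKl⟩) : Fin N × Fin Kl)) (BdF i e T I Kl)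
      (fun _ => poE i e) (NF i e T I kc Kl) (fun c ω => g c.1 e ω.2.1 ω.2.2) (fun c => r c.2)
      ((sd I : ℝ) ^ 2) F (cube L1) M S W nn HX h0 f Yw
      (eKB K0 Ht Hf HX h0 H τ dl AY Av) := by
  classical
  obtain ⟨K0, hK0, hmain⟩ := b0_KB
  refine ⟨K0, hK0, ?_⟩
  intro bb hbb i m v I Ht Hf La N f0 T g θ μ hFam hHf hLa R J hR hJI S W C hP F Fm Av H HX h0 τ dl
    AX AY hFm hAv hHm hH0 e e' hee he he' nn kap kc Kl hKl r X η A f hkap hr hf hA hAX hHX hh0 hτB hτ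
    hdl Yw hYw aY L1 M K hKS _ l
  have hvm := hFam.vm
  subst hvm
  obtain ⟨g1, g2, g3⟩ := gl_supp_e v e e' hee he he'
  have hWF : Full (W K) K := hP.full K hKS
  have hWR : W K ⊆ R := hP.wsub K hKS
  have hKR : K ∈ R := hP.sub hKS
  have hKJ : iv K ⊆ iv J := hR.reg.1 K hKR
  have hKI : iv K ⊆ iv I := hKJ.trans hJI
  have hKn : 2 ^ K.1 ≤ 2 ^ I.1 := Nat.pow_le_pow_right (by norm_num) (Growth.iv_level hKI)
  have hn : 0 < 2 ^ I.1 := by positivity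
  have hpen := penPhi hFam e hkap hLa kc Kl hr
  rw [phi_eq] at hpen hf
  have aX : ∀ p ∈ W K, av p (TWin.gl (W K) f) ≤ AX := fun p hp =>
    av_gl_win hpen hf hWF hWR hA hAX hp
  have hTI : ∀ i', ∃ t : ℤ, T l i' ⊆ Ico t (t + ((2 ^ I.1 : ℕ) : ℤ)) := by
    intro i'
    obtain ⟨a, ha⟩ := hFam.ico l
    exact ⟨a i', (ha i').le⟩
  have main := hmain bb hbb i e e' (v + 1) v hee g1 g2 (W K) K hWF.reg (2 ^ I.1) hKn Ht Hf (T l) (g l)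
    (θ l) hHf (hFam.opD l) hTI F (BdF i e T I Kl (l, ⟨0, hKl⟩)) (poE i e)
    (NF i e T I kc Kl (l, ⟨0, hKl⟩)) (fun ω => g l e ω.2.1 ω.2.2) (r 0) HX h0 f (Yw K) τ H dl
    hHX.le hh0.le hτ hH0 hdl
    (fun w z z' h => (mem_BdF e _ hKI w z z').1 h)
    (fun w z z' => rfl) (hYw K hKS)
    (by
      intro x hx
      rw [g3, hFm x (hKJ hx)]
      exact hHm x (hKJ hx))
    (by
      intro w m' q u hm hO
      have h1 := opS_Bt (hFam.opD l) hHf he (j := i) hn (J0 := I) (K := K) (k := kc) (hr 0) hh0 hHX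
        hWF f aX (w := w) (m := m') (q := q) (u := u) hO
      have hHtf : 0 ≤ Hf * Ht := (sq_nonneg _).trans ((hFam.opD l).sup' hHf he 0 0)
      have hr0 := hr 0
      have hB0 : 0 ≤ tauB kc (r 0) Ht Hf AX h0 HX := by
        unfold tauB
        positivity
      intro φ
      refine (h1 φ).trans (mul_le_mul_of_nonneg_right (pow_le_pow_left₀ (by positivity)
        (mul_le_mul_of_nonneg_left hτB (by positivity)) 2)
        (Finset.sum_nonneg fun _ _ => sq_nonneg _))) L1 M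
  have e1 : av K (F (i.succAbove v)) = av K Fm := by
    rw [← av_cut K (F (i.succAbove v)), ← av_cut K Fm]
    congr 1
    funext y
    unfold cutJ
    by_cases hy : y ∈ iv K
    · rw [if_pos hy, if_pos hy, hFm y (hKJ hy)]
    · rw [if_neg hy, if_neg hy]
  rw [g3, e1] at main
  refine main.trans ?_
  have hl := (Growth.len_pos K).le
  have hs := Real.sqrt_nonneg dl
  have hL : 0 ≤ Real.log (1 + (max 1 (√(Hf * Ht)) * HX + h0) ^ 2 *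
        (2 * (max 1 (√(Hf * Ht)) * H) ^ 2) / (dl * τ ^ 2)) := by
    refine Real.log_nonneg ?_
    have : 0 ≤ (max 1 (√(Hf * Ht)) * HX + h0) ^ 2 *
        (2 * (max 1 (√(Hf * Ht)) * H) ^ 2) / (dl * τ ^ 2) := by positivity
    linarith
  have hPr : (av K (Yw K) + √dl) * (av K Fm + √dl) ≤ (AY + √dl) * (Av + √dl) := by
    have a1 := Growth.av_nonneg K (Yw K)
    have a2 := Growth.av_nonneg K Fm
    have a3 := aY K hKS
    have a4 := hAv K hKR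
    exact mul_le_mul (by linarith) (by linarith) (by linarith) (by linarith)
  unfold eKB sd
  push_cast
  set Lg := Real.log (1 + (max 1 (√(Hf * Ht)) * HX + h0) ^ 2 *
        (2 * (max 1 (√(Hf * Ht)) * H) ^ 2) / (dl * τ ^ 2)) with hLg
  calc K0 * (1 + Lg) * (τ * (((2 : ℝ) ^ I.1) ^ 2 * len K * ((av K (Yw K) + √dl) * (av K Fm + √dl))))
      = (K0 * (1 + Lg) * τ * ((2 : ℝ) ^ I.1) ^ 2 * len K) *
        ((av K (Yw K) + √dl) * (av K Fm + √dl)) := by ring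
    _ ≤ (K0 * (1 + Lg) * τ * ((2 : ℝ) ^ I.1) ^ 2 * len K) * ((AY + √dl) * (Av + √dl)) :=
        mul_le_mul_of_nonneg_left hPr (by positivity)
    _ = _ := by ring

/-- **HB, STATIC PARTNER** -/
theorem hb_static : ∃ K0 : ℝ, 0 ≤ K0 ∧ ∀ (bb : ℤ), bb = -1 ∨ bb = -7 → ∀ (i m : Fin 4) (v : Fin 3)
    (I : Nd) (Ht Hf La : ℝ) (N : ℕ) (f0 : Fn) (T : Fin N → Fin 3 → Finset ℤ)
    (g : Fin N → Fin 3 → ℤ → ℤ → ℂ) (θ : Fin N → ℤ → ℝ) (μ : Fin N → ℝ),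
    Fam i m v I Ht Hf La N f0 T g θ μ → 0 ≤ Hf → 0 < La →
    ∀ (R : Finset Nd) (J : Nd), Full R J → iv J ⊆ iv I → ∀ (S : Finset Nd) (W : Nd → Finset Nd)
    (C : ℝ), TWin.Part R S W C →
    ∀ (F : Fin 4 → Fn) (Fm : Fn) (Av H HX h0 τ dl AX AY : ℝ),
    (∀ y ∈ iv J, F m y = Fm y) → (∀ p ∈ R, av p Fm ≤ Av) → (∀ y ∈ iv J, ‖Fm y‖ ≤ H) → 0 ≤ H →
    ∀ (e e' : Fin 3), e ≠ e' → e ≠ v + 1 → e' ≠ v + 1 →
    ∀ (nn : ℕ) (kap : ℝ) (kc Kl : ℕ) (hKl : 0 < Kl) (r : ℕ → ℝ) (X : Fn) (η A : ℝ) (f : Nd → Fn),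
    0 ≤ kap → (∀ q, 0 ≤ r q) → NMP (fun _ _ => True) (PhiE i e T g μ I La kap kc Kl r) X η f →
    (∀ p ∈ R, av p X ≤ A) → √(2 * A ^ 2 + 4 * η) ≤ AX → 0 < HX → 0 < h0 →
    tauB kc (r 0) Ht Hf AX h0 HX ≤ τ → 0 < τ → 0 < dl →
    ∀ (Y : Fn), (∀ y ∈ iv J, ‖Y y‖ ≤ H) → (∀ p ∈ R, av p Y ≤ AY) →
    ∀ (L1 M : ℕ), HB i bb e e' T g (fun l => ((l, ⟨0, hKl⟩) : Fin N × Fin Kl)) (BdF i e T I Kl)
      (fun _ => poE i e) (NF i e T I kc Kl) (fun c ω => g c.1 e ω.2.1 ω.2.2) (fun c => r c.2)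
      ((sd I : ℝ) ^ 2) F (cube L1) M S W nn HX h0 f (fun _ => Y)
      (eKB K0 Ht Hf HX h0 H τ dl AY Av) := by
  obtain ⟨K0, hK0, hmain⟩ := hb_fam
  refine ⟨K0, hK0, ?_⟩
  intro bb hbb i m v I Ht Hf La N f0 T g θ μ hFam hHf hLa R J hR hJI S W C hP F Fm Av H HX h0 τ dl
    AX AY hFm hAv hHm hH0 e e' hee he he' nn kap kc Kl hKl r X η A f hkap hr hf hA hAX hHX hh0 hτB hτ
    hdl Y hY aY L1 M
  exact hmain bb hbb i m v I Ht Hf La N f0 T g θ μ hFam hHf hLa R J hR hJI S W C hP F Fm Av H HX h0 τ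
    dl AX AY hFm hAv hHm hH0 e e' hee he he' nn kap kc Kl hKl r X η A f hkap hr hf hA hAX hHX hh0
    hτB hτ hdl (fun _ => Y) (fun K hK y hy => hY y (hR.reg.1 K (hP.sub hK) hy))
    (fun K hK => aY K (hP.sub hK)) L1 M

/-- **HB, MOVING PARTNER**: truncated glued letter of the functional of the other slot -/
theorem hb_moving : ∃ K0 : ℝ, 0 ≤ K0 ∧ ∀ (bb : ℤ), bb = -1 ∨ bb = -7 → ∀ (i m : Fin 4) (v : Fin 3)
    (I : Nd) (Ht Hf La : ℝ) (N : ℕ) (f0 : Fn) (T : Fin N → Fin 3 → Finset ℤ)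
    (g : Fin N → Fin 3 → ℤ → ℤ → ℂ) (θ : Fin N → ℤ → ℝ) (μ : Fin N → ℝ),
    Fam i m v I Ht Hf La N f0 T g θ μ → 0 ≤ Hf → 0 < La →
    ∀ (R : Finset Nd) (J : Nd), Full R J → iv J ⊆ iv I → ∀ (S : Finset Nd) (W : Nd → Finset Nd)
    (C : ℝ), TWin.Part R S W C →
    ∀ (F : Fin 4 → Fn) (Fm : Fn) (Av H HX h0 τ dl AX AY : ℝ),
    (∀ y ∈ iv J, F m y = Fm y) → (∀ p ∈ R, av p Fm ≤ Av) → (∀ y ∈ iv J, ‖Fm y‖ ≤ H) → 0 ≤ H →
    ∀ (e e' : Fin 3), e ≠ e' → e ≠ v + 1 → e' ≠ v + 1 →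
    ∀ (nn : ℕ) (kap : ℝ) (kc Kl : ℕ) (hKl : 0 < Kl) (r : ℕ → ℝ) (X : Fn) (η A : ℝ) (f : Nd → Fn),
    0 ≤ kap → (∀ q, 0 ≤ r q) → NMP (fun _ _ => True) (PhiE i e T g μ I La kap kc Kl r) X η f →
    (∀ p ∈ R, av p X ≤ A) → √(2 * A ^ 2 + 4 * η) ≤ AX → 0 < HX → 0 < h0 →
    tauB kc (r 0) Ht Hf AX h0 HX ≤ τ → 0 < τ → 0 < dl →
    ∀ (kap' : ℝ) (kc' Kl' : ℕ) (r' : ℕ → ℝ) (X' : Fn) (η' A' HY : ℝ) (f' : Nd → Fn), 0 ≤ kap' →
    (∀ q, 0 ≤ r' q) → NMP (fun _ _ => True) (PhiE i e' T g μ I La kap' kc' Kl' r') X' η' f' →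
    (∀ p ∈ R, av p X' ≤ A') → √(2 * A' ^ 2 + 4 * η') ≤ AY → 0 ≤ HY → HY ≤ H →
    ∀ (L1 M : ℕ), HB i bb e e' T g (fun l => ((l, ⟨0, hKl⟩) : Fin N × Fin Kl)) (BdF i e T I Kl)
      (fun _ => poE i e) (NF i e T I kc Kl) (fun c ω => g c.1 e ω.2.1 ω.2.2) (fun c => r c.2)
      ((sd I : ℝ) ^ 2) F (cube L1) M S W nn HX h0 f
      (fun K y => tau HY (TWin.gl (W K) f' y))
      (eKB K0 Ht Hf HX h0 H τ dl AY Av) := by
  obtain ⟨K0, hK0, hmain⟩ := hb_fam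
  refine ⟨K0, hK0, ?_⟩
  intro bb hbb i m v I Ht Hf La N f0 T g θ μ hFam hHf hLa R J hR hJI S W C hP F Fm Av H HX h0 τ dl
    AX AY hFm hAv hHm hH0 e e' hee he he' nn kap kc Kl hKl r X η A f hkap hr hf hA hAX hHX hh0 hτB hτ
    hdl kap' kc' Kl' r' X' η' A' HY f' hkap' hr' hf' hA' hAY hHY hHYH L1 M
  have hpen' := penPhi hFam e' hkap' hLa kc' Kl' hr'
  rw [phi_eq] at hpen' hf'
  exact hmain bb hbb i m v I Ht Hf La N f0 T g θ μ hFam hHf hLa R J hR hJI S W C hP F Fm Av H HX h0 τ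
    dl AX AY hFm hAv hHm hH0 e e' hee he he' nn kap kc Kl hKl r X η A f hkap hr hf hA hAX hHX hh0
    hτB hτ hdl (fun K y => tau HY (TWin.gl (W K) f' y))
    (fun K _ y _ => (tau_le hHY _).trans hHYH)
    (fun K hK => (GaLx446.av_tau_le hHY K _).trans
      (av_gl_win hpen' hf' (hP.full K hK) (hP.wsub K hK) hA' hAY (hP.full K hK).top)) L1 M

end Crest.Agent.R079.B0Nx253
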