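import Crest.Agent.R079.Mg_530
import Crest.Agent.R079.Dic_679

/-! R079, RuleS assembly, leaf S1 (helper112): BOUNDED ATOMS.

`BA j κ V f` : `f = atom j κ T a b c` with `|a|, |b|, |c| ≤ 1` and `κ Σ |g_e|² ≤ V` on the three edges.
`BAt j φ`    : `BA j κ 1 φ` for some `κ > 0` (each is an `IsAtom`; point masses are).
`RepB j p f M` : mixture of mass `≤ M` of bounded atoms on `iv p`.
**`one_atom`** : `RepB j p f M → ∃ κ > 0, BA j κ (M + 1)`, i.e. a mixture is ONE bounded atom. -/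

set_option autoImplicit false
set_option linter.unusedVariables false

namespace Crest.Agent.R079.BAt112

open Finset Crest.Agent.R079.Grid Crest.Agent.R079.Glue Crest.Agent.R079.Growth
  Crest.Agent.R079.QRed Crest.Agent.R079.Mg530

/-- energy of an edge -/
noncomputable def n2 (T T' : Finset ℤ) (a : ℤ → ℤ → ℂ) : ℝ := ∑ z ∈ T, ∑ z' ∈ T', ‖a z z'‖ ^ 2

theorem n2_nonneg (T T' : Finset ℤ) (a : ℤ → ℤ → ℂ) : 0 ≤ n2 T T' a :=
  Finset.sum_nonneg fun _ _ => Finset.sum_nonneg fun _ _ => by positivity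

/-- data of a bounded atom -/
structure IsBA (j : Fin 4) (κ V : ℝ) (T : Fin 3 → Finset ℤ) (a b c : ℤ → ℤ → ℂ) (f : Fn) :
    Prop where
  ha : ∀ z z', ‖a z z'‖ ≤ 1
  hb : ∀ z z', ‖b z z'‖ ≤ 1
  hc : ∀ z z', ‖c z z'‖ ≤ 1
  na : κ * n2 (T 0) (T 1) a ≤ V
  nb : κ * n2 (T 1) (T 2) b ≤ V
  nc : κ * n2 (T 2) (T 0) c ≤ V
  eq : ∀ y, f y = atom j κ T a b c y

/-- bounded atoms of energy `V` -/
def BA (j : Fin 4) (κ V : ℝ) (f : Fn) : Prop :=
  ∃ (T : Fin 3 → Finset ℤ) (a b c : ℤ → ℤ → ℂ), IsBA j κ V T a b c f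

/-- bounded unit atoms -/
def BAt (j : Fin 4) (φ : Fn) : Prop := ∃ κ : ℝ, 0 < κ ∧ BA j κ 1 φ

/-- mixtures of bounded atoms -/
def RepB (j : Fin 4) (p : Nd) (f : Fn) (M : ℝ) : Prop :=
  ∃ (n : ℕ) (φ : Fin n → Fn) (c : Fin n → ℂ), (∀ i, BAt j (φ i)) ∧
    (∀ y ∈ iv p, f y = ∑ i, c i * φ i y) ∧ ∑ i, ‖c i‖ ≤ M

open Classical in
/-- cut a kernel outside `T × T'` -/
noncomputable def cut (T T' : Finset ℤ) (a : ℤ → ℤ → ℂ) (z z' : ℤ) : ℂ :=
  if z ∈ T ∧ z' ∈ T' then a z z' else 0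

theorem cut_on {T T' : Finset ℤ} {a : ℤ → ℤ → ℂ} {z z' : ℤ} (h : z ∈ T) (h' : z' ∈ T') :
    cut T T' a z z' = a z z' := by
  unfold cut; rw [if_pos ⟨h, h'⟩]

theorem n2_cut (T T' : Finset ℤ) (a : ℤ → ℤ → ℂ) : n2 T T' (cut T T' a) = n2 T T' a := by
  unfold n2
  refine Finset.sum_congr rfl fun z hz => Finset.sum_congr rfl fun z' hz' => ?_
  rw [cut_on hz hz']

theorem atom_congr {j : Fin 4} {κ : ℝ} {T : Fin 3 → Finset ℤ} {a b c a' b' c' : ℤ → ℤ → ℂ}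
    (ha : ∀ z ∈ T 0, ∀ z' ∈ T 1, a z z' = a' z z') (hb : ∀ z ∈ T 1, ∀ z' ∈ T 2, b z z' = b' z z')
    (hc : ∀ z ∈ T 2, ∀ z' ∈ T 0, c z z' = c' z z') (y : ℤ) :
    atom j κ T a b c y = atom j κ T a' b' c' y := by
  unfold atom
  congr 1
  refine Finset.sum_congr rfl fun z0 h0 => Finset.sum_congr rfl fun z1 h1 =>
    Finset.sum_congr rfl fun z2 h2 => ?_
  rw [ha z0 h0 z1 h1, hb z1 h1 z2 h2, hc z2 h2 z0 h0]

theorem atom_cut {j : Fin 4} {κ : ℝ} {T : Fin 3 → Finset ℤ} {a b c : ℤ → ℤ → ℂ} (y : ℤ) :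
    atom j κ T (cut (T 0) (T 1) a) (cut (T 1) (T 2) b) (cut (T 2) (T 0) c) y =
      atom j κ T a b c y :=
  atom_congr (fun z h z' h' => cut_on h h') (fun z h z' h' => cut_on h h')
    (fun z h z' h' => cut_on h h') y

theorem norm_cut_le {T T' : Finset ℤ} {a : ℤ → ℤ → ℂ} (h : ∀ z ∈ T, ∀ z' ∈ T', ‖a z z'‖ ≤ 1)
    (z z' : ℤ) : ‖cut T T' a z z'‖ ≤ 1 := by
  unfold cut
  split_ifs with hc
  · exact h z hc.1 z' hc.2
  · simp

theorem BA.mono {j : Fin 4} {κ V V' : ℝ} {f : Fn} (h : BA j κ V f) (hV : V ≤ V') :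
    BA j κ V' f := by
  obtain ⟨T, a, b, c, h⟩ := h
  exact ⟨T, a, b, c, h.ha, h.hb, h.hc, h.na.trans hV, h.nb.trans hV, h.nc.trans hV, h.eq⟩

theorem BA.congr {j : Fin 4} {κ V : ℝ} {f g : Fn} (h : BA j κ V f) (e : ∀ y, g y = f y) :
    BA j κ V g := by
  obtain ⟨T, a, b, c, h⟩ := h
  exact ⟨T, a, b, c, h.ha, h.hb, h.hc, h.na, h.nb, h.nc, fun y => (e y).trans (h.eq y)⟩

/-- scaling by `θ`, `|θ| ≤ 1`, put on the first edge -/
theorem BA.smul {j : Fin 4} {κ V : ℝ} (hκ : 0 ≤ κ) {f : Fn} (h : BA j κ V f) {θ : ℂ}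
    (hθ : ‖θ‖ ≤ 1) : BA j κ V (fun y => θ * f y) := by
  obtain ⟨T, a, b, c, h⟩ := h
  refine ⟨T, fun z z' => θ * a z z', b, c, fun z z' => ?_, h.hb, h.hc, ?_, h.nb, h.nc, fun y => ?_⟩
  · rw [norm_mul]
    exact mul_le_one₀ hθ (norm_nonneg _) (h.ha z z')
  · refine le_trans (mul_le_mul_of_nonneg_left ?_ hκ) h.na
    unfold n2
    refine Finset.sum_le_sum fun z _ => Finset.sum_le_sum fun z' _ => ?_
    rw [norm_mul, mul_pow]
    exact mul_le_of_le_one_left (by positivity) (pow_le_one₀ (norm_nonneg _) hθ)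
  · have h1 := atom_smul j κ T a b c θ 1 1 y
    simp only [one_mul, mul_one] at h1
    rw [h1, ← h.eq y]

theorem BA.conj {j : Fin 4} {κ V : ℝ} {f : Fn} (h : BA j κ V f) :
    BA j κ V (fun y => (starRingEnd ℂ) (f y)) := by
  obtain ⟨T, a, b, c, h⟩ := h
  refine ⟨T, fun z z' => (starRingEnd ℂ) (a z z'), fun z z' => (starRingEnd ℂ) (b z z'),
    fun z z' => (starRingEnd ℂ) (c z z'), ?_, ?_, ?_, ?_, ?_, ?_, fun y => ?_⟩
  · intro z z'; rw [RCLike.norm_conj]; exact h.ha z z'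
  · intro z z'; rw [RCLike.norm_conj]; exact h.hb z z'
  · intro z z'; rw [RCLike.norm_conj]; exact h.hc z z'
  · simpa only [n2, RCLike.norm_conj] using h.na
  · simpa only [n2, RCLike.norm_conj] using h.nb
  · simpa only [n2, RCLike.norm_conj] using h.nc
  · rw [h.eq y]
    unfold atom
    simp only [map_mul, map_sum, Complex.conj_ofReal, apply_ite (starRingEnd ℂ), map_zero]

theorem BA.zero {j : Fin 4} {κ : ℝ} : BA j κ 0 (fun _ => 0) := by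
  refine ⟨fun _ => ∅, fun _ _ => 0, fun _ _ => 0, fun _ _ => 0, ?_, ?_, ?_, ?_, ?_, ?_, ?_⟩
  · intro z z'; simp
  · intro z z'; simp
  · intro z z'; simp
  · simp [n2]
  · simp [n2]
  · simp [n2]
  · intro y; simp [atom]

/-- **addition** (same `κ`): the energies add -/
theorem BA.add {j : Fin 4} {κ V V' : ℝ} {f g : Fn} (h : BA j κ V f) (h' : BA j κ V' g) :
    BA j κ (V + V') (fun y => f y + g y) := by
  obtain ⟨T, a, b, c, h⟩ := h
  obtain ⟨S, a', b', c', h'⟩ := h'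
  obtain ⟨U, A, B, C, m1, m2⟩ := merge2 j T S a b c a' b' c'
  -- pointwise bounds on the supports, through an indicator
  have hbd : ∀ {P P' Q Q' R R' : Finset ℤ} {x y z : ℤ → ℤ → ℂ},
      (∀ φ : ℂ → ℝ, φ 0 = 0 → ∑ s ∈ P, ∑ s' ∈ P', φ (x s s') =
        ∑ s ∈ Q, ∑ s' ∈ Q', φ (y s s') + ∑ s ∈ R, ∑ s' ∈ R', φ (z s s')) →
      (∀ s s', ‖y s s'‖ ≤ 1) → (∀ s s', ‖z s s'‖ ≤ 1) →
      ∀ s ∈ P, ∀ s' ∈ P', ‖x s s'‖ ≤ 1 := by
    classical
    intro P P' Q Q' R R' x y z hs hy hz s hs1 s' hs2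
    have h1 := hs (fun w => if 1 < ‖w‖ then 1 else 0) (by simp)
    have h2 : ∑ s ∈ Q, ∑ s' ∈ Q', (if 1 < ‖y s s'‖ then (1 : ℝ) else 0) = 0 :=
      Finset.sum_eq_zero fun s _ => Finset.sum_eq_zero fun s' _ => if_neg (not_lt.2 (hy s s'))
    have h3 : ∑ s ∈ R, ∑ s' ∈ R', (if 1 < ‖z s s'‖ then (1 : ℝ) else 0) = 0 :=
      Finset.sum_eq_zero fun s _ => Finset.sum_eq_zero fun s' _ => if_neg (not_lt.2 (hz s s'))
    rw [h2, h3, add_zero] at h1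
    have hnn : ∀ s s', (0 : ℝ) ≤ if 1 < ‖x s s'‖ then (1 : ℝ) else 0 := by
      intro s s'; split_ifs <;> norm_num
    have h4 := (Finset.sum_eq_zero_iff_of_nonneg
      (fun s _ => Finset.sum_nonneg fun s' _ => hnn s s')).1 h1 s hs1
    have h5 := (Finset.sum_eq_zero_iff_of_nonneg (fun s' _ => hnn s s')).1 h4 s' hs2
    by_contra hc
    rw [if_pos (not_le.1 hc)] at h5
    exact one_ne_zero h5
  refine ⟨U, cut (U 0) (U 1) A, cut (U 1) (U 2) B, cut (U 2) (U 0) C,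
    norm_cut_le (hbd (fun φ hφ => (m2 φ hφ).1) h.ha h'.ha),
    norm_cut_le (hbd (fun φ hφ => (m2 φ hφ).2.1) h.hb h'.hb),
    norm_cut_le (hbd (fun φ hφ => (m2 φ hφ).2.2) h.hc h'.hc), ?_, ?_, ?_, fun y => ?_⟩
  · rw [n2_cut]
    have e : n2 (U 0) (U 1) A = n2 (T 0) (T 1) a + n2 (S 0) (S 1) a' :=
      (m2 (fun w => ‖w‖ ^ 2) (by simp)).1
    rw [e, mul_add]
    exact add_le_add h.na h'.na
  · rw [n2_cut]
    have e : n2 (U 1) (U 2) B = n2 (T 1) (T 2) b + n2 (S 1) (S 2) b' :=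
      (m2 (fun w => ‖w‖ ^ 2) (by simp)).2.1
    rw [e, mul_add]
    exact add_le_add h.nb h'.nb
  · rw [n2_cut]
    have e : n2 (U 2) (U 0) C = n2 (T 2) (T 0) c + n2 (S 2) (S 0) c' :=
      (m2 (fun w => ‖w‖ ^ 2) (by simp)).2.2
    rw [e, mul_add]
    exact add_le_add h.nc h'.nc
  · rw [atom_cut, h.eq y, h'.eq y, atom_kap j κ U, atom_kap j κ T, atom_kap j κ S, m1 y, mul_add]

theorem BA.nsmul {j : Fin 4} {κ V : ℝ} {f : Fn} (h : BA j κ V f) :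
    ∀ n : ℕ, BA j κ (n * V) (fun y => (n : ℂ) * f y)
  | 0 => by
    refine (BA.zero (j := j) (κ := κ)).mono (by simp) |>.congr fun y => by simp
  | n + 1 => by
    refine ((BA.nsmul h n).add h).mono (by push_cast; linarith) |>.congr fun y => ?_
    push_cast
    ring

theorem BA.sum {j : Fin 4} {κ : ℝ} {ι : Type*} (s : Finset ι) (V : ι → ℝ) (f : ι → Fn)
    (h : ∀ i ∈ s, BA j κ (V i) (f i)) : BA j κ (∑ i ∈ s, V i) (fun y => ∑ i ∈ s, f i y) := by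
  classical
  induction s using Finset.induction_on with
  | empty => simpa using BA.zero
  | insert a s ha ih =>
    have h1 := (h a (Finset.mem_insert_self a s)).add
      (ih fun i hi => h i (Finset.mem_insert_of_mem hi))
    rw [Finset.sum_insert ha]
    exact h1.congr fun y => by rw [Finset.sum_insert ha]

/-- one bounded atom with coefficient `c`, written with a SMALLER `κ` -/
theorem BA.rescale {j : Fin 4} {κ : ℝ} (hκ : 0 < κ) {κ₀ : ℝ} (hκ₀ : 0 < κ₀)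
    {T : Fin 3 → Finset ℤ} {a b c : ℤ → ℤ → ℂ} {φ : Fn} (h : IsBA j κ₀ 1 T a b c φ) (u : ℂ)
    {N : ℝ} (hNa : n2 (T 0) (T 1) a ≤ N) (hNb : n2 (T 1) (T 2) b ≤ N)
    (hNc : n2 (T 2) (T 0) c ≤ N) : BA j κ (‖u‖ + κ * N) (fun y => u * φ y) := by
  -- number of copies
  set m : ℕ := ⌊‖u‖ * κ₀ / κ⌋₊ + 1 with hm
  have hx0 : 0 ≤ ‖u‖ * κ₀ / κ := by positivity
  have hm1 : ‖u‖ * κ₀ / κ ≤ m := by
    rw [hm]; push_cast; exact (Nat.lt_floor_add_one _).le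
  have hm2 : (m : ℝ) ≤ ‖u‖ * κ₀ / κ + 1 := by
    rw [hm]; push_cast
    have := Nat.floor_le hx0
    linarith
  have hm0 : (0 : ℝ) < m := by rw [hm]; positivity
  have hN0 : 0 ≤ N := (n2_nonneg _ _ _).trans hNa
  have hkm : κ * m ≤ ‖u‖ * κ₀ + κ := by
    calc κ * m ≤ κ * (‖u‖ * κ₀ / κ + 1) := mul_le_mul_of_nonneg_left hm2 hκ.le
      _ = _ := by field_simp
  have key : ∀ x : ℝ, 0 ≤ x → κ₀ * x ≤ 1 → x ≤ N → m * (κ * x) ≤ ‖u‖ + κ * N := by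
    intro x hx h1 h2
    calc m * (κ * x) = (κ * m) * x := by ring
      _ ≤ (‖u‖ * κ₀ + κ) * x := mul_le_mul_of_nonneg_right hkm hx
      _ = ‖u‖ * (κ₀ * x) + κ * x := by ring
      _ ≤ ‖u‖ * 1 + κ * N := add_le_add (mul_le_mul_of_nonneg_left h1 (norm_nonneg _))
          (mul_le_mul_of_nonneg_left h2 hκ.le)
      _ = _ := by ring
  -- one copy
  set V1 : ℝ := max (κ * n2 (T 0) (T 1) a) (max (κ * n2 (T 1) (T 2) b) (κ * n2 (T 2) (T 0) c))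
    with hV1
  have h1 : BA j κ V1 (fun y => atom j κ T a b c y) :=
    ⟨T, a, b, c, h.ha, h.hb, h.hc, le_max_left _ _,
      (le_max_left _ _).trans (le_max_right _ _), (le_max_right _ _).trans (le_max_right _ _),
      fun y => rfl⟩
  set θ : ℂ := u * (κ₀ : ℂ) / (κ * m : ℂ) with hθ
  have hθ1 : ‖θ‖ ≤ 1 := by
    rw [hθ, norm_div, norm_mul, norm_mul, Complex.norm_real, Complex.norm_real,
      Complex.norm_natCast, Real.norm_of_nonneg hκ₀.le, Real.norm_of_nonneg hκ.le,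
      div_le_one (by positivity)]
    rw [div_le_iff₀ hκ] at hm1
    linarith
  have h2 := ((h1.smul hκ.le hθ1).nsmul m)
  refine (h2.mono ?_).congr fun y => ?_
  · rw [hV1]
    rcases max_choice (κ * n2 (T 0) (T 1) a)
        (max (κ * n2 (T 1) (T 2) b) (κ * n2 (T 2) (T 0) c)) with e | e
    · rw [e]; exact key _ (n2_nonneg _ _ _) h.na hNa
    · rw [e]
      rcases max_choice (κ * n2 (T 1) (T 2) b) (κ * n2 (T 2) (T 0) c) with e | e
      · rw [e]; exact key _ (n2_nonneg _ _ _) h.nb hNb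
      · rw [e]; exact key _ (n2_nonneg _ _ _) h.nc hNc
  · rw [h.eq y, atom_kap j κ₀, atom_kap j κ, hθ]
    have hm0' : (m : ℂ) ≠ 0 := by exact_mod_cast hm0.ne'
    have hκ' : (κ : ℂ) ≠ 0 := by exact_mod_cast hκ.ne'
    field_simp

/-- **a mixture of bounded atoms is ONE bounded atom** -/
theorem one_atom {j : Fin 4} {p : Nd} {f : Fn} {M : ℝ} (h : RepB j p f M) :
    ∃ κ : ℝ, 0 < κ ∧ κ ≤ 1 ∧ ∃ g : Fn, BA j κ (M + 1) g ∧ ∀ y ∈ iv p, f y = g y := by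
  obtain ⟨n, φ, c, hφ, hf, hc⟩ := h
  choose κ₀ hκ₀ T a b d hB using hφ
  set N : Fin n → ℝ := fun i => n2 (T i 0) (T i 1) (a i) + n2 (T i 1) (T i 2) (b i) +
    n2 (T i 2) (T i 0) (d i) with hN
  have hN0 : ∀ i, 0 ≤ N i := fun i => by
    have h1 := n2_nonneg (T i 0) (T i 1) (a i)
    have h2 := n2_nonneg (T i 1) (T i 2) (b i)
    have h3 := n2_nonneg (T i 2) (T i 0) (d i)
    simp only [hN]; linarith
  have hS0 : 0 ≤ ∑ i, N i := Finset.sum_nonneg fun i _ => hN0 i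
  set κ : ℝ := 1 / (1 + ∑ i, N i) with hκdef
  have hκ : 0 < κ := by rw [hκdef]; positivity
  have hκ1 : κ ≤ 1 := by
    rw [hκdef, div_le_one (by positivity)]; linarith
  refine ⟨κ, hκ, hκ1, fun y => ∑ i, c i * φ i y, ?_, hf⟩
  have h1 := BA.sum (j := j) (κ := κ) Finset.univ (fun i => ‖c i‖ + κ * N i)
    (fun i y => c i * φ i y) fun i _ => by
      have h1 := n2_nonneg (T i 0) (T i 1) (a i)
      have h2 := n2_nonneg (T i 1) (T i 2) (b i)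
      have h3 := n2_nonneg (T i 2) (T i 0) (d i)
      exact BA.rescale hκ (hκ₀ i) (hB i) (c i) (N := N i) (by simp only [hN]; linarith)
        (by simp only [hN]; linarith) (by simp only [hN]; linarith)
  refine h1.mono ?_
  rw [Finset.sum_add_distrib, ← Finset.mul_sum]
  have h2 : κ * ∑ i, N i ≤ 1 := by
    rw [hκdef, one_div, inv_mul_le_iff₀ (by positivity)]
    linarith
  linarith

/-! ### bounded atoms are atoms -/

theorem n3_le_n2 {T T' : Finset ℤ} {a : ℤ → ℤ → ℂ} (h : ∀ z z', ‖a z z'‖ ≤ 1) :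
    n3 T T' a ≤ n2 T T' a := by
  unfold n3 n2
  refine Finset.sum_le_sum fun z _ => Finset.sum_le_sum fun z' _ => ?_
  exact pow_le_pow_of_le_one (norm_nonneg _) (h z z') (by norm_num)

theorem BAt.isAtom {j : Fin 4} {φ : Fn} (h : BAt j φ) : IsAtom j φ := by
  obtain ⟨κ, hκ, T, a, b, c, h⟩ := h
  refine ⟨κ, T, a, b, c, hκ.le, funext h.eq, ?_⟩
  have h1 : κ * n3 (T 0) (T 1) a ≤ 1 :=
    (mul_le_mul_of_nonneg_left (n3_le_n2 h.ha) hκ.le).trans h.na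
  have h2 : κ * n3 (T 1) (T 2) b ≤ 1 :=
    (mul_le_mul_of_nonneg_left (n3_le_n2 h.hb) hκ.le).trans h.nb
  have h3 : κ * n3 (T 2) (T 0) c ≤ 1 :=
    (mul_le_mul_of_nonneg_left (n3_le_n2 h.hc) hκ.le).trans h.nc
  have q1 := Mg530.n3_nonneg (T 0) (T 1) a
  have q2 := Mg530.n3_nonneg (T 1) (T 2) b
  have q3 := Mg530.n3_nonneg (T 2) (T 0) c
  have e : κ * (n3 (T 0) (T 1) a * n3 (T 1) (T 2) b * n3 (T 2) (T 0) c) ^ (1 / 3 : ℝ) =
      ((κ * n3 (T 0) (T 1) a) * (κ * n3 (T 1) (T 2) b) * (κ * n3 (T 2) (T 0) c)) ^ (1 / 3 : ℝ) := by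
    have e1 : (κ * n3 (T 0) (T 1) a) * (κ * n3 (T 1) (T 2) b) * (κ * n3 (T 2) (T 0) c) =
        κ ^ 3 * (n3 (T 0) (T 1) a * n3 (T 1) (T 2) b * n3 (T 2) (T 0) c) := by ring
    rw [e1, Real.mul_rpow (x := κ ^ 3) (by positivity) (by positivity), ← Real.rpow_natCast κ 3,
      ← Real.rpow_mul hκ.le]
    norm_num
  rw [e]
  refine Real.rpow_le_one (by positivity) ?_ (by norm_num)
  exact mul_le_one₀ (mul_le_one₀ h1 (by positivity) h2) (by positivity) h3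

theorem BAt.conj {j : Fin 4} {φ : Fn} (h : BAt j φ) : BAt j (fun y => (starRingEnd ℂ) (φ y)) := by
  obtain ⟨κ, hκ, h⟩ := h
  exact ⟨κ, hκ, h.conj⟩

theorem BAt.smul {j : Fin 4} {φ : Fn} (h : BAt j φ) {θ : ℂ} (hθ : ‖θ‖ ≤ 1) :
    BAt j (fun y => θ * φ y) := by
  obtain ⟨κ, hκ, h⟩ := h
  exact ⟨κ, hκ, h.smul hκ.le hθ⟩

/-- point masses are bounded atoms -/
theorem BAt.pt (j : Fin 4) (y : ℤ) : BAt j (fun x => if x = y then (1 : ℂ) else 0) := by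
  obtain ⟨z, hz⟩ : ∃ z : Fin 3 → ℤ, cf j 0 * z 0 + cf j 1 * z 1 + cf j 2 * z 2 = y := by
    fin_cases j
    · exact ⟨![y, 0, 0], by simp [cf, sl]⟩
    · exact ⟨![-y, 0, 0], by simp [cf, sl]⟩
    · exact ⟨![0, -y, 0], by simp [cf, sl, Fin.succAbove]⟩
    · exact ⟨![y, 0, 0], by simp [cf, sl, Fin.succAbove]⟩
  refine ⟨1, zero_lt_one, fun i => {z i}, fun _ _ => 1, fun _ _ => 1, fun _ _ => 1, ?_, ?_, ?_,
    ?_, ?_, ?_, fun x => ?_⟩
  · intro z z'; simp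
  · intro z z'; simp
  · intro z z'; simp
  · simp [n2]
  · simp [n2]
  · simp [n2]
  · unfold atom
    simp only [Finset.sum_singleton, hz, Complex.ofReal_one, one_mul, mul_one]
    rcases eq_or_ne x y with h | h
    · simp [h]
    · simp [h, Ne.symm h]

/-! ### mixtures -/

theorem RepB.rep {j : Fin 4} {p : Nd} {f : Fn} {M : ℝ} (h : RepB j p f M) : Rep j p f M := by
  obtain ⟨n, φ, c, h1, h2, h3⟩ := h
  exact ⟨n, φ, c, fun i => (h1 i).isAtom, h2, h3⟩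

theorem RepB.mono {j : Fin 4} {p : Nd} {f : Fn} {M M' : ℝ} (h : RepB j p f M) (hM : M ≤ M') :
    RepB j p f M' := by
  obtain ⟨n, φ, c, h1, h2, h3⟩ := h
  exact ⟨n, φ, c, h1, h2, h3.trans hM⟩

theorem RepB.congr {j : Fin 4} {p : Nd} {f g : Fn} {M : ℝ} (h : RepB j p f M)
    (e : ∀ y ∈ iv p, g y = f y) : RepB j p g M := by
  obtain ⟨n, φ, c, h1, h2, h3⟩ := h
  exact ⟨n, φ, c, h1, fun y hy => (e y hy).trans (h2 y hy), h3⟩

theorem RepB.sub {j : Fin 4} {p q : Nd} {f : Fn} {M : ℝ} (h : RepB j p f M)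
    (hq : iv q ⊆ iv p) : RepB j q f M := by
  obtain ⟨n, φ, c, h1, h2, h3⟩ := h
  exact ⟨n, φ, c, h1, fun y hy => h2 y (hq hy), h3⟩

theorem RepB.of_bat {j : Fin 4} {φ : Fn} (h : BAt j φ) (c : ℂ) {M : ℝ} (hc : ‖c‖ ≤ M) (p : Nd)
    {f : Fn} (hf : ∀ y ∈ iv p, f y = c * φ y) : RepB j p f M := by
  refine ⟨1, fun _ => φ, fun _ => c, fun _ => h, fun y hy => ?_, ?_⟩
  · rw [hf y hy]; simp
  · simpa using hc

/-- combinations -/
theorem RepB.comb {j : Fin 4} {p : Nd} {n : ℕ} {φ : Fin n → Fn} {c : Fin n → ℂ} {M s : ℝ}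
    (hM : 0 ≤ M) (h : ∀ i, RepB j p (φ i) M) (hc : ∑ i, ‖c i‖ ≤ s) {f : Fn}
    (hf : ∀ y ∈ iv p, f y = ∑ i, c i * φ i y) : RepB j p f (s * M) := by
  choose N ψ d hA hE hS using h
  set e := Fintype.equivFin (Σ i : Fin n, Fin (N i)) with he
  refine ⟨Fintype.card (Σ i : Fin n, Fin (N i)),
    fun k => ψ (e.symm k).1 (e.symm k).2,
    fun k => c (e.symm k).1 * d (e.symm k).1 (e.symm k).2, fun k => hA _ _, ?_, ?_⟩
  · intro y hy
    rw [hf y hy, Equiv.sum_comp e.symm (fun x : Σ i : Fin n, Fin (N i) =>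
      c x.1 * d x.1 x.2 * ψ x.1 x.2 y), Fintype.sum_sigma]
    refine Finset.sum_congr rfl fun i _ => ?_
    rw [hE i y hy, Finset.mul_sum]
    exact Finset.sum_congr rfl fun l _ => by ring
  · rw [Equiv.sum_comp e.symm (fun x : Σ i : Fin n, Fin (N i) => ‖c x.1 * d x.1 x.2‖),
      Fintype.sum_sigma]
    calc ∑ i, ∑ l, ‖c i * d i l‖ = ∑ i, ‖c i‖ * ∑ l, ‖d i l‖ := by
          refine Finset.sum_congr rfl fun i _ => ?_
          rw [Finset.mul_sum]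
          exact Finset.sum_congr rfl fun l _ => norm_mul _ _
      _ ≤ ∑ i, ‖c i‖ * M := Finset.sum_le_sum fun i _ =>
          mul_le_mul_of_nonneg_left (hS i) (norm_nonneg _)
      _ = (∑ i, ‖c i‖) * M := by rw [Finset.sum_mul]
      _ ≤ _ := mul_le_mul_of_nonneg_right hc hM

/-- **(B)** all elements of `D j t` are mixtures of mass `A t^(-C)` of bounded atoms -/
def HB (D : TRec.Dict) (A C : ℝ) : Prop :=
  ∀ j : Fin 4, j ≠ 3 → ∀ t : ℝ, 0 < t → t ≤ 1 → ∀ φ ∈ D j t, ∀ p : Nd, RepB j p φ (A * t ^ (-C))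

/-- frozen letters are mixtures of bounded atoms -/
theorem repB_of_fz {D : TRec.Dict} {A C : ℝ} (hA : 0 ≤ A) (hD : HB D A C) {j : Fin 4} (hj : j ≠ 3)
    {t : ℝ} (ht : 0 < t) (ht1 : t ≤ 1) {M : ℝ} (hM : 0 ≤ M) {p : Nd} {f : Fn}
    (h : TRec.Fz D j t M p f) : RepB j p f (M * (A * t ^ (-C))) := by
  obtain ⟨n, φ, c, h1, h2, h3⟩ := h
  exact RepB.comb (by positivity) (fun i => hD j hj t ht ht1 (φ i) (h1 i) p) h3 h2

/-- **LEAF S1**: a frozen letter is ONE bounded atom -/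
theorem fz_atom {D : TRec.Dict} {A C : ℝ} (hA : 0 ≤ A) (hD : HB D A C) {j : Fin 4} (hj : j ≠ 3)
    {t : ℝ} (ht : 0 < t) (ht1 : t ≤ 1) {M : ℝ} (hM : 0 ≤ M) {p : Nd} {f : Fn}
    (h : TRec.Fz D j t M p f) :
    ∃ κ : ℝ, 0 < κ ∧ κ ≤ 1 ∧ ∃ g : Fn, BA j κ (M * (A * t ^ (-C)) + 1) g ∧
      ∀ y ∈ iv p, f y = g y :=
  one_atom (repB_of_fz hA hD hj ht ht1 hM h)

end Crest.Agent.R079.BAt112
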