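import Crest.Agent.R079.S2D_530
import Crest.Agent.R079.OneG_354
import Crest.Agent.R079.TWL_649
import Crest.Agent.R079.QbF_247
import Crest.Agent.R079.TWin3_903

/-! R079, RULE (S), leaf [S8] of note 781 (helper360):
* `node_bad`   : one node, slot `m` = (op-leveled letter) + (small letter), slot `3` in local `L^q3`;
* `abs_qb`     : frozen slot, region-wide, with absolute values;
* `ruleS_of_good` : `RuleS` from its core on the GOOD nodes and for `G` bounded by `t^(-CG)`. -/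

set_option autoImplicit false
set_option linter.unusedVariables false

namespace Crest.Agent.R079.BadN360

open Finset Crest.Agent.R079.Grid Crest.Agent.R079.Growth Crest.Agent.R079.QRed
  Crest.Agent.R079.Glue Crest.Agent.R079.TRec Crest.Agent.R079.TWin Crest.Agent.R079.Ero526
  Crest.Agent.R079.OpLev

/-! ### low and tall parts of a letter -/

open Classical in
/-- low part -/
noncomputable def lo (H : ℝ) (G : Fn) : Fn := fun y => if ‖G y‖ ≤ H then G y else 0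

open Classical in
/-- tall part -/
noncomputable def hi (H : ℝ) (G : Fn) : Fn := fun y => if ‖G y‖ ≤ H then 0 else G y

theorem lo_add_hi (H : ℝ) (G : Fn) (y : ℤ) : G y = lo H G y + hi H G y := by
  unfold lo hi
  split_ifs <;> simp

theorem norm_lo_le {H : ℝ} (hH : 0 ≤ H) (G : Fn) (y : ℤ) : ‖lo H G y‖ ≤ H := by
  unfold lo
  split_ifs with h
  · exact h
  · simpa using hH

theorem norm_lo_le' (H : ℝ) (G : Fn) (y : ℤ) : ‖lo H G y‖ ≤ ‖G y‖ := by
  unfold lo
  split_ifs with h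
  · exact le_rfl
  · simp

theorem aq_nonneg (q : ℝ) (p : Nd) (f : Fn) : 0 ≤ aq q p f := Lq853.avq_nonneg _ _ _ _

theorem aq_mono {q : ℝ} (hq : 0 < q) {p : Nd} {f g : Fn} (h : ∀ y ∈ iv p, ‖f y‖ ≤ ‖g y‖) :
    aq q p f ≤ aq q p g := by
  unfold aq Lq853.avq
  refine Real.rpow_le_rpow (mul_nonneg (by positivity)
    (Finset.sum_nonneg fun y _ => Real.rpow_nonneg (norm_nonneg _) _)) ?_ (by positivity)
  refine mul_le_mul_of_nonneg_left (Finset.sum_le_sum fun y hy => ?_) (by positivity)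
  exact Real.rpow_le_rpow (norm_nonneg _) (h y hy) hq.le

theorem aq_lo {q : ℝ} (hq : 0 < q) (H : ℝ) (p : Nd) (G : Fn) : aq q p (lo H G) ≤ aq q p G :=
  aq_mono hq fun y _ => norm_lo_le' H G y

theorem av_mono {p : Nd} {f g : Fn} (h : ∀ y ∈ iv p, ‖f y‖ ≤ ‖g y‖) : av p f ≤ av p g := by
  unfold av av2
  refine Real.sqrt_le_sqrt (mul_le_mul_of_nonneg_left (Finset.sum_le_sum fun y hy => ?_)
    (by positivity))
  exact pow_le_pow_left₀ (norm_nonneg _) (h y hy) 2

theorem av_lo (H : ℝ) (p : Nd) (G : Fn) : av p (lo H G) ≤ av p G :=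
  av_mono fun y _ => norm_lo_le' H G y

/-- the tall part is small in `L²` -/
theorem av_hi {q : ℝ} (hq : 2 < q) {H : ℝ} (hH : 0 < H) {p : Nd} {G : Fn} (hG : aq q p G ≤ 1) :
    av p (hi H G) ≤ H ^ (-((q - 2) / 2)) := by
  have hq0 : 0 < q := by linarith
  have h1 : (1 / 2 ^ (p.1 + 7) : ℝ) * ∑ y ∈ dI (p.1 + 7) p.2, ‖G y‖ ^ q ≤ 1 := by
    have h0 : 0 ≤ (1 / 2 ^ (p.1 + 7) : ℝ) * ∑ y ∈ dI (p.1 + 7) p.2, ‖G y‖ ^ q :=
      mul_nonneg (by positivity)
        (Finset.sum_nonneg fun y _ => Real.rpow_nonneg (norm_nonneg _) _)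
    by_contra hcon
    push Not at hcon
    have := Real.one_lt_rpow hcon (show 0 < 1 / q by positivity)
    unfold aq Lq853.avq at hG
    linarith
  have h2 : ∀ y, ‖hi H G y‖ ^ 2 ≤ H ^ (-(q - 2)) * ‖G y‖ ^ q := by
    intro y
    unfold hi
    split_ifs with h
    · simp only [norm_zero]
      have : 0 ≤ H ^ (-(q - 2)) * ‖G y‖ ^ q := by positivity
      simpa using this
    · push Not at h
      have hg : 0 < ‖G y‖ := hH.trans h
      have e : ‖G y‖ ^ q = ‖G y‖ ^ (q - 2) * ‖G y‖ ^ 2 := by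
        rw [← Real.rpow_natCast (‖G y‖) 2, ← Real.rpow_add hg]
        congr 1
        push_cast
        ring
      rw [e, ← mul_assoc, Real.rpow_neg hH.le, ← div_eq_inv_mul]
      refine le_mul_of_one_le_left (by positivity) ?_
      rw [one_le_div (by positivity)]
      exact Real.rpow_le_rpow hH.le h.le (by linarith)
  unfold av av2
  have h3 : (1 / 2 ^ (p.1 + 7) : ℝ) * ∑ y ∈ dI (p.1 + 7) p.2, ‖hi H G y‖ ^ 2 ≤
      (H ^ (-((q - 2) / 2))) ^ 2 := by
    have e : (H ^ (-((q - 2) / 2))) ^ 2 = H ^ (-(q - 2)) := by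
      rw [← Real.rpow_natCast, ← Real.rpow_mul hH.le]
      congr 1
      push_cast
      ring
    rw [e]
    calc _ ≤ (1 / 2 ^ (p.1 + 7) : ℝ) * ∑ y ∈ dI (p.1 + 7) p.2, H ^ (-(q - 2)) * ‖G y‖ ^ q :=
          mul_le_mul_of_nonneg_left (Finset.sum_le_sum fun y _ => h2 y) (by positivity)
      _ = H ^ (-(q - 2)) * ((1 / 2 ^ (p.1 + 7) : ℝ) * ∑ y ∈ dI (p.1 + 7) p.2, ‖G y‖ ^ q) := by
          rw [← Finset.mul_sum]; ring
      _ ≤ H ^ (-(q - 2)) * 1 := mul_le_mul_of_nonneg_left h1 (by positivity)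
      _ = _ := mul_one _
  calc _ ≤ Real.sqrt ((H ^ (-((q - 2) / 2))) ^ 2) := Real.sqrt_le_sqrt h3
    _ = _ := Real.sqrt_sq (by positivity)

/-! ### linearity of `Lbox` in one slot -/

theorem Lbox_upd_add (N : ℕ) (bb x : ℤ) (F : Fin 4 → ℤ → ℂ) (i : Fin 4) (X Y : ℤ → ℂ) :
    Lbox N bb (Function.update F i (fun y => X y + Y y)) x =
      Lbox N bb (Function.update F i X) x + Lbox N bb (Function.update F i Y) x := by
  have h := Qb247.Lbox_update_sum N bb x F i 2 ![X, Y] ![1, 1]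
  simpa [Fin.sum_univ_two] using h

/-- splitting one slot of a node -/
theorem node_split {bb : ℤ} (hb : bb = -1 ∨ bb = -7) {p : Nd} {F : Fin 4 → Fn} {i : Fin 4} {X Y : Fn}
    (h : ∀ y ∈ iv p, F i y = X y + Y y) :
    ∑ x ∈ adm p.1 p.2, ‖Lbox (2 ^ p.1) bb F x‖ ≤
      ∑ x ∈ adm p.1 p.2, ‖Lbox (2 ^ p.1) bb (Function.update F i X) x‖ +
      ∑ x ∈ adm p.1 p.2, ‖Lbox (2 ^ p.1) bb (Function.update F i Y) x‖ := by
  rw [← Finset.sum_add_distrib]
  refine Finset.sum_le_sum fun x hx => ?_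
  rw [Qb247.Lbox_congr p.1 p.2 bb x hb hx F (Function.update F i (fun y => X y + Y y)) ?_,
    Lbox_upd_add]
  · exact norm_add_le _ _
  · intro j y hy
    by_cases hj : j = i
    · subst hj
      rw [Function.update_self]
      exact h y hy
    · rw [Function.update_of_ne hj]

/-- the trivial bound, `av` form -/
theorem node_triv {bb : ℤ} (hb : bb = -1 ∨ bb = -7) (p : Nd) (F : Fin 4 → Fn) :
    ∑ x ∈ adm p.1 p.2, ‖Lbox (2 ^ p.1) bb F x‖ ≤ 64 * len p * ∏ j, av p (F j) :=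
  sum_norm_Lbox_le p.1 p.2 bb hb F

/-- product of four numbers in `[0,1]` except one -/
theorem prod_le_one_of {a : Fin 4 → ℝ} (h0 : ∀ j, 0 ≤ a j) (i : Fin 4) {s : ℝ}
    (hi : a i ≤ s) (h1 : ∀ j, j ≠ i → a j ≤ 1) : ∏ j, a j ≤ s := by
  rw [← Finset.mul_prod_erase Finset.univ a (Finset.mem_univ i)]
  have h2 : ∏ j ∈ Finset.univ.erase i, a j ≤ 1 :=
    Finset.prod_le_one (fun j _ => h0 j) fun j hj => h1 j (Finset.ne_of_mem_erase hj)
  have h3 : 0 ≤ ∏ j ∈ Finset.univ.erase i, a j := Finset.prod_nonneg fun j _ => h0 j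
  calc a i * ∏ j ∈ Finset.univ.erase i, a j ≤ s * 1 := mul_le_mul hi h2 h3 ((h0 i).trans hi)
    _ = s := mul_one _

/-- **ONE NODE** (bad nodes of RULE (S)): the slot `m` is an op-leveled letter plus a small letter, the
slot `3` is only in local `L^q3`, the two others arbitrary. -/
theorem node_bad {bb : ℤ} (hb : bb = -1 ∨ bb = -7) {m : Fin 4} (hm : m ≠ 3) {p : Nd} {F : Fin 4 → Fn}
    {X E : Fn} {κ : ℕ} {s sE H q3 : ℝ} (hs : 0 ≤ s) (hH : 0 < H) (hq : 2 < q3)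
    (hP : ∀ y ∈ iv p, F m y = X y + E y) (hO : OLev κ m p X s) (hX : av p X ≤ 2)
    (hE : av p E ≤ sE) (hG : aq q3 p (F 3) ≤ 1) (hF : ∀ j, j ≠ 3 → av p (F j) ≤ 1) :
    ∑ x ∈ adm p.1 p.2, ‖Lbox (2 ^ p.1) bb F x‖ ≤
      (512 * H * Real.sqrt (2 * s) + 64 * sE + 64 * H ^ (-((q3 - 2) / 2))) * len p := by
  have hlen : 0 < len p := Growth.len_pos p
  have hav0 : ∀ f : Fn, 0 ≤ av p f := fun f => OneG354.av_nonneg' p f
  have hG1 : av p (F 3) ≤ 1 := (TWL649.av_le_aq hq.le p (F 3)).trans hG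
  have h3m : (3 : Fin 4) ≠ m := fun e => hm e.symm
  -- tall part of the slot 3
  have e1 := node_split hb (p := p) (F := F) (i := 3) (X := lo H (F 3)) (Y := hi H (F 3))
    (fun y _ => lo_add_hi H (F 3) y)
  have e2 : ∑ x ∈ adm p.1 p.2, ‖Lbox (2 ^ p.1) bb (Function.update F 3 (hi H (F 3))) x‖ ≤
      64 * H ^ (-((q3 - 2) / 2)) * len p := by
    refine (node_triv hb p _).trans ?_
    have := prod_le_one_of (a := fun j => av p (Function.update F 3 (hi H (F 3)) j))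
      (fun j => hav0 _) 3 (s := H ^ (-((q3 - 2) / 2)))
      (by rw [Function.update_self]; exact av_hi hq hH hG)
      (fun j hj => by rw [Function.update_of_ne hj]; exact hF j hj)
    calc _ ≤ 64 * len p * H ^ (-((q3 - 2) / 2)) :=
          mul_le_mul_of_nonneg_left this (by positivity)
      _ = _ := by ring
  -- low part: split the slot `m`
  set F' : Fin 4 → Fn := Function.update F 3 (lo H (F 3)) with hF'
  have hF'm : F' m = F m := by rw [hF', Function.update_of_ne hm]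
  have hF'3 : F' 3 = lo H (F 3) := by rw [hF', Function.update_self]
  have e3 := node_split hb (p := p) (F := F') (i := m) (X := X) (Y := E)
    (fun y hy => by rw [hF'm]; exact hP y hy)
  have hlo1 : av p (lo H (F 3)) ≤ 1 := (av_lo H p (F 3)).trans hG1
  have e4 : ∑ x ∈ adm p.1 p.2, ‖Lbox (2 ^ p.1) bb (Function.update F' m E) x‖ ≤
      64 * sE * len p := by
    refine (node_triv hb p _).trans ?_
    have := prod_le_one_of (a := fun j => av p (Function.update F' m E j))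
      (fun j => hav0 _) m (s := sE)
      (by rw [Function.update_self]; exact hE)
      (fun j hj => by
        rw [Function.update_of_ne hj]
        by_cases h3 : j = 3
        · rw [h3, hF'3]; exact hlo1
        · rw [hF', Function.update_of_ne h3]; exact hF j h3)
    calc _ ≤ 64 * len p * sE := mul_le_mul_of_nonneg_left this (by positivity)
      _ = _ := by ring
  have e5 : ∑ x ∈ adm p.1 p.2, ‖Lbox (2 ^ p.1) bb (Function.update F' m X) x‖ ≤
      512 * H * Real.sqrt (2 * s) * len p := by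
    -- the two other slots
    obtain ⟨i, j, him, hi3, hjm, hj3, hij⟩ :
        ∃ i j : Fin 4, i ≠ m ∧ i ≠ 3 ∧ j ≠ m ∧ j ≠ 3 ∧ i ≠ j := by
      fin_cases m
      · exact ⟨1, 2, by decide, by decide, by decide, by decide, by decide⟩
      · exact ⟨0, 2, by decide, by decide, by decide, by decide, by decide⟩
      · exact ⟨0, 1, by decide, by decide, by decide, by decide, by decide⟩
      · exact absurd rfl hm
    have hn := OneG354.node_gain p.1 p.2 bb hb (Function.update F' m X) κ m 3 i j hm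
      (fun e => him e.symm) (fun e => hjm e.symm) (fun e => hi3 e.symm) (fun e => hj3 e.symm) hij s hs
      (by rw [Function.update_self]; exact hO) H hH
      (fun y _ => by
        rw [Function.update_of_ne h3m, hF'3]
        exact norm_lo_le hH.le _ _)
    rw [Function.update_self, Function.update_of_ne him, Function.update_of_ne hjm,
      hF', Function.update_of_ne hi3, Function.update_of_ne hj3] at hn
    refine hn.trans ?_
    have h1 : Real.sqrt (s * av (p.1, p.2) X) ≤ Real.sqrt (2 * s) :=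
      Real.sqrt_le_sqrt (by
        have := mul_le_mul_of_nonneg_left hX hs
        linarith)
    have h2 : av (p.1, p.2) (F i) ≤ 1 := hF i hi3
    have h3 : av (p.1, p.2) (F j) ≤ 1 := hF j hj3
    have h4 : 512 * H * Real.sqrt (s * av (p.1, p.2) X) * av (p.1, p.2) (F i) *
        av (p.1, p.2) (F j) ≤ 512 * H * Real.sqrt (2 * s) * 1 * 1 := by
      refine mul_le_mul (mul_le_mul (mul_le_mul_of_nonneg_left h1 (by positivity)) h2 (hav0 _)
        (by positivity)) h3 (hav0 _) (by positivity)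
    calc _ ≤ len p * (512 * H * Real.sqrt (2 * s) * 1 * 1) :=
          mul_le_mul_of_nonneg_left h4 hlen.le
      _ = _ := by ring
  calc _ ≤ _ := e1
    _ ≤ (512 * H * Real.sqrt (2 * s) * len p + 64 * sE * len p) +
        64 * H ^ (-((q3 - 2) / 2)) * len p := add_le_add (e3.trans (add_le_add e5 e4)) e2
    _ = _ := by ring

/-! ### frozen slot, absolute values, region-wide -/

/-- **(Qb) with absolute values**: the slot `i` is on `iv J` a combination of unit atoms of mass `t` -/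
theorem abs_qb : ∃ K : ℝ, 0 ≤ K ∧ ∀ bb, (bb = -1 ∨ bb = -7) → ∀ R J, IsRegion R J →
    ∀ (F : Fin 4 → Fn) (A : Fin 4 → ℝ), (∀ j, 0 ≤ A j) → (∀ j, ∀ p ∈ R, av p (F j) ≤ A j) →
    ∀ (i : Fin 4) (t : ℝ), Rep i J (F i) t →
      ∑ p ∈ R, ∑ x ∈ adm p.1 p.2, ‖Lbox (2 ^ p.1) bb F x‖ ≤
        K * t * (∏ j : Fin 3, A (i.succAbove j)) * len J := by
  obtain ⟨K, hK, hF⟩ := frozenAtom
  refine ⟨K, hK, ?_⟩
  intro bb hbb R J hR F A hA0 hav i t hrep
  obtain ⟨n, φ, c, hφ, hFi, hc⟩ := hrep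
  have h1 : ∀ p ∈ R, ∀ x ∈ adm p.1 p.2, ‖Lbox (2 ^ p.1) bb F x‖ ≤
      ∑ k, ‖c k‖ * ‖Lbox (2 ^ p.1) bb (Function.update F i (φ k)) x‖ := by
    intro p hp x hx
    rw [Qb247.Lbox_congr p.1 p.2 bb x hbb hx F
      (Function.update F i (fun y => ∑ k, c k * φ k y)) ?_, Qb247.Lbox_update_sum]
    · refine (norm_sum_le _ _).trans (le_of_eq (Finset.sum_congr rfl fun k _ => norm_mul _ _))
    · intro j y hy
      by_cases hj : j = i
      · subst hj
        rw [Function.update_self]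
        exact hFi y (hR.1 p hp hy)
      · rw [Function.update_of_ne hj]
  have hP : 0 ≤ ∏ j : Fin 3, A (i.succAbove j) := Finset.prod_nonneg fun j _ => hA0 _
  have hlen : 0 ≤ len J := by unfold len; positivity
  set B : ℝ := K * (∏ j : Fin 3, A (i.succAbove j)) * len J with hB
  have hB0 : 0 ≤ B := by positivity
  have h2 : ∀ k, ∑ p ∈ R, ∑ x ∈ adm p.1 p.2,
      ‖Lbox (2 ^ p.1) bb (Function.update F i (φ k)) x‖ ≤ B := by
    intro k
    obtain ⟨κ, T, a, b, c', hκ, hφk, hle⟩ := hφ k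
    have h3 := hF bb hbb R J hR i κ hκ T a b c' (Function.update F i (φ k))
      (fun j => A (i.succAbove j)) (fun j => hA0 _) (fun j p hp => by
        rw [Function.update_of_ne (Fin.succAbove_ne i j)]
        exact hav _ p hp) (by rw [Function.update_self, hφk])
    refine h3.trans ?_
    have e2 : K * (κ * 2 ^ (J.1 + 7) * (∏ j : Fin 3, A (i.succAbove j)) *
        (n3 (T 0) (T 1) a * n3 (T 1) (T 2) b * n3 (T 2) (T 0) c') ^ (1 / 3 : ℝ)) =
        B * (κ * (n3 (T 0) (T 1) a * n3 (T 1) (T 2) b * n3 (T 2) (T 0) c') ^ (1 / 3 : ℝ)) := by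
      rw [hB]; unfold len; ring
    rw [e2]
    calc _ ≤ B * 1 := mul_le_mul_of_nonneg_left hle hB0
      _ = B := mul_one _
  calc ∑ p ∈ R, ∑ x ∈ adm p.1 p.2, ‖Lbox (2 ^ p.1) bb F x‖
      ≤ ∑ p ∈ R, ∑ x ∈ adm p.1 p.2,
          ∑ k, ‖c k‖ * ‖Lbox (2 ^ p.1) bb (Function.update F i (φ k)) x‖ :=
        Finset.sum_le_sum fun p hp => Finset.sum_le_sum fun x hx => h1 p hp x hx
    _ = ∑ k, ‖c k‖ * ∑ p ∈ R, ∑ x ∈ adm p.1 p.2,
          ‖Lbox (2 ^ p.1) bb (Function.update F i (φ k)) x‖ := by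
        have e1 : ∀ p ∈ R, ∑ x ∈ adm p.1 p.2,
            ∑ k, ‖c k‖ * ‖Lbox (2 ^ p.1) bb (Function.update F i (φ k)) x‖ =
            ∑ k, ∑ x ∈ adm p.1 p.2,
              ‖c k‖ * ‖Lbox (2 ^ p.1) bb (Function.update F i (φ k)) x‖ :=
          fun p _ => Finset.sum_comm
        rw [Finset.sum_congr rfl e1, Finset.sum_comm]
        refine Finset.sum_congr rfl fun k _ => ?_
        rw [Finset.mul_sum]
        refine Finset.sum_congr rfl fun p _ => ?_
        rw [Finset.mul_sum]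
    _ ≤ ∑ k, ‖c k‖ * B :=
        Finset.sum_le_sum fun k _ => mul_le_mul_of_nonneg_left (h2 k) (norm_nonneg _)
    _ = (∑ k, ‖c k‖) * B := by rw [Finset.sum_mul]
    _ ≤ t * B := mul_le_mul_of_nonneg_right hc hB0
    _ = K * t * (∏ j : Fin 3, A (i.succAbove j)) * len J := by rw [hB]; ring

/-- restriction of a representation -/
theorem rep_mono {i : Fin 4} {I J : Nd} {P : Fn} {t : ℝ} (h : Rep i I P t) (hJ : iv J ⊆ iv I) :
    Rep i J P t := by
  obtain ⟨n, φ, c, h1, h2, h3⟩ := h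
  exact ⟨n, φ, c, h1, fun y hy => h2 y (hJ hy), h3⟩

/-- **TALL WORDS OF THE SLOT 3** next to a frozen letter -/
theorem tall_words : ∃ K : ℝ, 0 ≤ K ∧ ∀ bb, (bb = -1 ∨ bb = -7) → ∀ R J, IsRegion R J →
    ∀ (F : Fin 4 → Fn) (m : Fin 4), m ≠ 3 → (∀ j, j ≠ 3 → ∀ p ∈ R, av p (F j) ≤ 1) →
    ∀ q3 H M : ℝ, 2 < q3 → 0 < H → (∀ p ∈ R, aq q3 p (F 3) ≤ 1) → Rep m J (F m) M →
      ∑ p ∈ R, ∑ x ∈ adm p.1 p.2,
        ‖Lbox (2 ^ p.1) bb (Function.update F 3 (hi H (F 3))) x‖ ≤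
        K * M * H ^ (-((q3 - 2) / 2)) * len J := by
  obtain ⟨K, hK, hq⟩ := abs_qb
  refine ⟨K, hK, ?_⟩
  intro bb hbb R J hR F m hm hF q3 H M hq3 hH hG hrep
  have hav := hq bb hbb R J hR (Function.update F 3 (hi H (F 3)))
    (fun j => if j = 3 then H ^ (-((q3 - 2) / 2)) else 1)
    (fun j => by split_ifs <;> positivity)
    (fun j p hp => by
      by_cases hj : j = 3
      · subst hj
        rw [Function.update_self, if_pos rfl]
        exact av_hi hq3 hH (hG p hp)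
      · rw [Function.update_of_ne hj, if_neg hj]
        exact hF j hj p hp) m M (by rw [Function.update_of_ne hm]; exact hrep)
  refine hav.trans (le_of_eq ?_)
  have : (∏ j : Fin 3, (if m.succAbove j = 3 then H ^ (-((q3 - 2) / 2)) else (1 : ℝ))) =
      H ^ (-((q3 - 2) / 2)) := by
    fin_cases m
    · simp [Fin.prod_univ_three, Fin.succAbove]
    · simp [Fin.prod_univ_three, Fin.succAbove]
    · simp [Fin.prod_univ_three, Fin.succAbove]
    · exact absurd rfl hm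
  rw [this]

/-! ### RULE (S) from its core on the good nodes, `G` bounded -/

/-- (B): the frozen letters of the dictionary are mixtures of unit atoms of polynomial mass -/
def PolyRep (D : Dict) (A C : ℝ) : Prop :=
  ∀ m : Fin 4, m ≠ 3 → ∀ t, 0 < t → t ≤ 1 → ∀ I P, Fz D m t 1 I P → Rep m I P (A * t ^ (-C))

/-- (O): the level of the dictionary controls the operator level -/
def OpLevel (D : Dict) (κ : ℕ) (A gm t0 : ℝ) : Prop :=
  ∀ m : Fin 4, m ≠ 3 → ∀ t, 0 < t → t ≤ t0 → ∀ p X, Lv D m t 1 p X → av p X ≤ 2 →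
    OLev κ m p X (A * t ^ gm)

open Classical in
/-- the core of RULE (S) on the GOOD nodes of one window, `G` bounded by `t^(-CG)` -/
def CoreG (D : Dict) (k q3 cS CS s1 e t0 K CG : ℝ) (C : ℕ) : Prop :=
  ∀ (N : ℕ) (B : ℝ), 0 ≤ B → BN k q3 N B → ∀ t, 0 < t → t ≤ t0 → ∀ bb W I, Full W I → I.1 ≤ N →
    ∀ (m : Fin 4), m ≠ 3 → ∀ P G X E : Fn,
    (∀ p ∈ W, aq (2 + k) p P ≤ 1) → (∀ p ∈ W, aq q3 p G ≤ 1) → (∀ y, ‖G y‖ ≤ t ^ (-CG)) →
    Fz D m (t ^ (1 + e)) 1 I P →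
    (∀ y ∈ iv I, P y = X y + E y) → (∀ p ∈ W, Lv D m t 1 p X) → (∀ p ∈ W, av p E ≤ t ^ s1) →
    ∃ (S : Finset Nd) (V : Nd → Finset Nd), Part W S V (K * t ^ (-CS)) ∧
      ∀ K' ∈ S, ∀ W' J, Full W' J → W' ⊆ V K' → ∀ F : Fin 4 → Fn, F m = P → F 3 = G →
        (∀ j, j ≠ m → j ≠ 3 → ∀ p ∈ W', aq (2 + k) p (F j) ≤ 1) → (bb = -1 ∨ bb = -7) →
        ∃ Ka Kb : ℤ → ℤ → ℂ, (∀ T A, ∏ j, S2D530.rs J F j (A - sl j * T) = Ka T A + Kb T A) ∧
          ∑ p ∈ W'.filter (fun p => ¬ Bad W' C p), ∑ x ∈ adm p.1 p.2,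
            ‖Cg408.LboxG (2 ^ p.1) bb Ka x‖ ≤ K * (1 + B) * t ^ cS * len J ∧
          ∑ p ∈ W'.filter (fun p => ¬ Bad W' C p), ∑ x ∈ adm p.1 p.2,
            ‖Cg408.LboxG (2 ^ p.1) bb Kb x‖ ≤ K * (1 + B) * t ^ cS * len J

/-- numbers of the bad nodes -/
theorem bad_num {t s1 gm q3 cS A : ℝ} (ht : 0 < t) (ht1 : t ≤ 1) (hA : 0 ≤ A)
    (h1 : cS ≤ gm / 4) (h2 : cS ≤ s1) (h3 : cS ≤ gm * (q3 - 2) / 8) :
    512 * t ^ (-(gm / 4)) * Real.sqrt (2 * (A * t ^ gm)) + 64 * t ^ s1 +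
      64 * (t ^ (-(gm / 4))) ^ (-((q3 - 2) / 2)) ≤ (512 * Real.sqrt (2 * A) + 128) * t ^ cS := by
  have e1 : Real.sqrt (2 * (A * t ^ gm)) = Real.sqrt (2 * A) * t ^ (gm / 2) := by
    rw [← mul_assoc, Real.sqrt_mul (by positivity), Real.sqrt_eq_rpow (t ^ gm),
      ← Real.rpow_mul ht.le]
    congr 2
    ring
  have e2 : t ^ (-(gm / 4)) * t ^ (gm / 2) = t ^ (gm / 4) := by
    rw [← Real.rpow_add ht]
    congr 1
    ring
  have e3 : (t ^ (-(gm / 4))) ^ (-((q3 - 2) / 2)) = t ^ (gm * (q3 - 2) / 8) := by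
    rw [← Real.rpow_mul ht.le]
    congr 1
    ring
  have f1 : t ^ (gm / 4) ≤ t ^ cS := Real.rpow_le_rpow_of_exponent_ge ht ht1 h1
  have f2 : t ^ s1 ≤ t ^ cS := Real.rpow_le_rpow_of_exponent_ge ht ht1 h2
  have f3 : t ^ (gm * (q3 - 2) / 8) ≤ t ^ cS := Real.rpow_le_rpow_of_exponent_ge ht ht1 h3
  rw [e1, e3]
  have e4 : 512 * t ^ (-(gm / 4)) * (Real.sqrt (2 * A) * t ^ (gm / 2)) =
      512 * Real.sqrt (2 * A) * t ^ (gm / 4) := by rw [← e2]; ring
  rw [e4]
  have g1 : 512 * Real.sqrt (2 * A) * t ^ (gm / 4) ≤ 512 * Real.sqrt (2 * A) * t ^ cS :=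
    mul_le_mul_of_nonneg_left f1 (by positivity)
  nlinarith

/-- **(S8)**: RULE (S) from its core on the good nodes with bounded `G` -/
theorem ruleS_of_good {D : Dict} {k q3 cS CS s1 e t0 K CG A1 C1 A2 gm : ℝ} {κ C : ℕ}
    (hk : 0 ≤ k) (hq3 : 2 < q3) (he0 : 0 ≤ e) (he : e ≤ 1) (hs1 : 0 ≤ s1) (ht01 : t0 ≤ 1) (hK : 0 ≤ K)
    (hCS : 0 ≤ CS) (hCG0 : 0 ≤ CG)
    (hA1 : 0 ≤ A1) (hC1 : 0 ≤ C1) (hA2 : 0 ≤ A2)
    (hB : PolyRep D A1 C1) (hO : OpLevel D κ A2 gm t0)
    (hCG : 2 * C1 + cS ≤ CG * ((q3 - 2) / 2))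
    (hc1 : cS ≤ gm / 4) (hc2 : cS ≤ s1) (hc3 : cS ≤ gm * (q3 - 2) / 8)
    (h : CoreG D k q3 cS CS s1 e t0 K CG C) : ∃ K1, 0 ≤ K1 ∧ RuleS D k q3 cS CS s1 e t0 K1 := by
  obtain ⟨K2, hK2, htall⟩ := tall_words
  set Kb : ℝ := 512 * Real.sqrt (2 * A2) + 128 with hKb
  have hKb0 : 0 ≤ Kb := by positivity
  set cc : ℝ := 16 * (2 * ((C : ℝ) + 1) + 1) with hcc
  have hcc0 : 0 ≤ cc := by positivity
  refine ⟨(2 + cc) * (K + Kb) + K2 * A1, by positivity, Rs530.ruleS_of_part ?_⟩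
  intro N B hB0 hBN t ht ht0 bb W I hW hI m hm P G X E h1 h2 h3 h4 h5 h6
  have ht1 : t ≤ 1 := ht0.trans ht01
  set H : ℝ := t ^ (-CG) with hHdef
  have hH : 0 < H := Real.rpow_pos_of_pos ht _
  obtain ⟨S, V, hP, hb⟩ := h N B hB0 hBN t ht ht0 bb W I hW hI m hm P (lo H G) X E h1
    (fun p hp => (aq_lo (by linarith) H p G).trans (h2 p hp)) (fun y => norm_lo_le hH.le G y)
    h3 h4 h5 h6
  have hKt : 0 ≤ K * t ^ (-CS) := mul_nonneg hK (Real.rpow_nonneg ht.le _)
  refine ⟨S, V, WinA222.part_mono hP ?_, ?_⟩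
  · have : 0 ≤ (K + Kb + cc * (K + Kb) + K2 * A1) * t ^ (-CS) := by positivity
    have h7 : 0 ≤ t ^ (-CS) := Real.rpow_nonneg ht.le _
    nlinarith [mul_nonneg hKb0 h7, mul_nonneg (mul_nonneg hcc0 (add_nonneg hK hKb0)) h7,
      mul_nonneg (mul_nonneg hK2 hA1) h7]
  intro K' hK' W' J hW' hsub F hFm hF3 hF ε hε
  have hWsub : ∀ p ∈ W', p ∈ W := fun p hp => hP.wsub K' hK' (hsub hp)
  have hJI : iv J ⊆ iv I := hW.reg.1 J (hWsub J hW'.top)
  have hlen : 0 < len J := Growth.len_pos J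
  -- splitting of the slot 3
  have hFav : ∀ j, j ≠ 3 → ∀ p ∈ W', av p (F j) ≤ 1 := by
    intro j hj p hp
    by_cases hjm : j = m
    · subst hjm
      rw [hFm]
      exact (TWL649.av_le_aq (by linarith) p P).trans (h1 p (hWsub p hp))
    · exact (TWL649.av_le_aq (by linarith) p (F j)).trans (hF j hjm hj p hp)
  have hG3 : ∀ p ∈ W', aq q3 p (F 3) ≤ 1 := fun p hp => by
    rw [hF3]; exact h2 p (hWsub p hp)
  have hte : 0 < t ^ (1 + e) := Real.rpow_pos_of_pos ht _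
  have hte1 : t ^ (1 + e) ≤ 1 := Real.rpow_le_one ht.le ht1 (by linarith)
  have hrep : Rep m J (F m) (A1 * t ^ (-(2 * C1))) := by
    rw [hFm]
    obtain ⟨n, φ, c, g1, g2, g3⟩ := rep_mono (hB m hm _ hte hte1 I P h3) hJI
    refine ⟨n, φ, c, g1, g2, g3.trans (mul_le_mul_of_nonneg_left ?_ hA1)⟩
    rw [← Real.rpow_mul ht.le]
    exact Real.rpow_le_rpow_of_exponent_ge ht ht1 (by nlinarith)
  -- low word
  set F' : Fin 4 → Fn := Function.update F 3 (lo H (F 3)) with hF'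
  have hF'm : F' m = P := by rw [hF', Function.update_of_ne hm, hFm]
  have hF'3 : F' 3 = lo H G := by rw [hF', Function.update_self, hF3]
  obtain ⟨Ka, Kb', e1, e2, e3⟩ := hb K' hK' W' J hW' hsub F' hF'm hF'3 (fun j hj hj3 p hp => by
    rw [hF', Function.update_of_ne hj3]; exact hF j hj hj3 p hp) hε.1
  have hlow : ‖TR bb ε W' F'‖ ≤
      (K * (1 + B) * t ^ cS + K * (1 + B) * t ^ cS + cc * (Kb * t ^ cS)) * len J := by
    refine S2D530.window_split hε hW' C F' Ka Kb' e1 (by positivity) e2 e3 ?_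
    intro p hp _
    have hpW := hWsub p hp
    have hpI : iv p ⊆ iv I := hW.reg.1 p hpW
    have hPav : av p P ≤ 1 := (TWL649.av_le_aq (by linarith) p P).trans (h1 p hpW)
    have hEav : av p E ≤ t ^ s1 := h6 p hpW
    have hE1 : av p E ≤ 1 := hEav.trans (Real.rpow_le_one ht.le ht1 hs1)
    have hXav : av p X ≤ 2 := by
      have e0 : av p X ≤ av p (fun y => P y + -E y) := av_mono fun y hy => by
        rw [h4 y (hpI hy)]; simp
      have e4 : av p (fun y => -E y) ≤ av p E := av_mono fun y _ => by simp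
      have e5 := av_add_le p P (fun y => -E y)
      linarith
    have hbad := node_bad hε.1 hm (p := p) (F := F') (X := X) (E := E) (κ := κ)
      (s := A2 * t ^ gm) (sE := t ^ s1) (H := t ^ (-(gm / 4))) (q3 := q3) (by positivity)
      (Real.rpow_pos_of_pos ht _) hq3 (fun y hy => by rw [hF'm]; exact h4 y (hpI hy))
      (hO m hm t ht ht0 p X (h5 p hpW) hXav) hXav hEav
      (by rw [hF'3]; exact (aq_lo (by linarith) H p G).trans (h2 p hpW))
      (fun j hj => by rw [hF', Function.update_of_ne hj]; exact hFav j hj p hp)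
    exact hbad.trans (mul_le_mul_of_nonneg_right
      (bad_num ht ht1 hA2 hc1 hc2 hc3) (Growth.len_pos p).le)
  -- tall word
  have hhi : ‖TR bb ε W' (Function.update F 3 (hi H (F 3)))‖ ≤
      K2 * (A1 * t ^ (-(2 * C1))) * H ^ (-((q3 - 2) / 2)) * len J :=
    (Qb247.norm_TR_le hε.2 W' _).trans (htall bb hε.1 W' J hW'.reg F m hm hFav q3 H _ hq3 hH hG3 hrep)
  have hhi2 : K2 * (A1 * t ^ (-(2 * C1))) * H ^ (-((q3 - 2) / 2)) ≤ K2 * A1 * t ^ cS := by
    have f1 : t ^ (-(2 * C1)) * H ^ (-((q3 - 2) / 2)) ≤ t ^ cS := by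
      rw [hHdef, ← Real.rpow_mul ht.le, ← Real.rpow_add ht]
      exact Real.rpow_le_rpow_of_exponent_ge ht ht1 (by nlinarith)
    calc _ = K2 * A1 * (t ^ (-(2 * C1)) * H ^ (-((q3 - 2) / 2))) := by ring
      _ ≤ _ := mul_le_mul_of_nonneg_left f1 (by positivity)
  -- sum
  have hsum : TR bb ε W' F = TR bb ε W' F' + TR bb ε W' (Function.update F 3 (hi H (F 3))) := by
    unfold TR TI
    rw [← Finset.sum_add_distrib]
    refine Finset.sum_congr rfl fun p _ => ?_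
    rw [← Finset.sum_add_distrib]
    refine Finset.sum_congr rfl fun x _ => ?_
    rw [← mul_add]
    congr 1
    rw [hF', ← Lbox_upd_add]
    congr 1
    funext j
    by_cases hj : j = 3
    · subst hj
      rw [Function.update_self]
      funext y
      exact lo_add_hi H (F 3) y
    · rw [Function.update_of_ne hj]
  have hB1 : 1 ≤ 1 + B := by linarith
  have htc : 0 ≤ t ^ cS := Real.rpow_nonneg ht.le _
  rw [hsum]
  refine (norm_add_le _ _).trans ?_
  calc _ ≤ (K * (1 + B) * t ^ cS + K * (1 + B) * t ^ cS + cc * (Kb * t ^ cS)) * len J +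
        K2 * A1 * t ^ cS * len J := add_le_add hlow
          (hhi.trans (mul_le_mul_of_nonneg_right hhi2 hlen.le))
    _ = (2 * K * (1 + B) + cc * Kb + K2 * A1) * (t ^ cS * len J) := by ring
    _ ≤ (((2 + cc) * (K + Kb) + K2 * A1) * (1 + B)) * (t ^ cS * len J) := by
        refine mul_le_mul_of_nonneg_right ?_ (by positivity)
        have g1 : 0 ≤ cc * K * (1 + B) := by positivity
        have g2 : 0 ≤ 2 * Kb * (1 + B) := by positivity
        have g3 : cc * Kb ≤ cc * Kb * (1 + B) := le_mul_of_one_le_right (by positivity) hB1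
        have g4 : K2 * A1 ≤ K2 * A1 * (1 + B) := le_mul_of_one_le_right (by positivity) hB1
        nlinarith
    _ = _ := by ring

end Crest.Agent.R079.BadN360
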