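import Crest.Agent.R079.Lab_530
import Crest.Agent.R079.EW5_702

/-! R079, Step II (helper702): GENERAL EDGE.  The plane layer of `Tr_230` / `PerT_530` for an abstract
coefficient vector `cc : Fin 3 → ℤ`, and the rotation `per_rot` which turns the edge `e` of a frozen slot
`j` into the edge `0` (`cc = rot e (cf j)`, `T' = rot e T`, `g' = rot e g`). -/

set_option autoImplicit false
set_option linter.unusedVariables false

namespace Crest.Agent.R079.CC702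

open Finset Crest.Agent.R079.Grid Crest.Agent.R079.Glue Crest.Agent.R079.Tr230
  Crest.Agent.R079.LK990 Crest.Agent.R079.EWG990

/-- rotation of a triple: `rot e f = (f e, f (e+1), f (e+2))` -/
def rot {α : Type*} (e : Fin 3) (f : Fin 3 → α) : Fin 3 → α := ![f e, f (e + 1), f (e + 2)]

@[simp] lemma rot_zero {α : Type*} (e : Fin 3) (f : Fin 3 → α) : rot e f 0 = f e := rfl
@[simp] lemma rot_one {α : Type*} (e : Fin 3) (f : Fin 3 → α) : rot e f 1 = f (e + 1) := rfl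
@[simp] lemma rot_two {α : Type*} (e : Fin 3) (f : Fin 3 → α) : rot e f 2 = f (e + 2) := rfl

lemma rot_id {α : Type*} (f : Fin 3 → α) : rot 0 f = f := by
  funext i; fin_cases i <;> rfl

lemma rot_mem {α : Type*} (e : Fin 3) (f : Fin 3 → α) (P : α → Prop) :
    (∀ i, P (rot e f i)) ↔ ∀ i, P (f i) := by
  fin_cases e <;> simp [rot, Fin.forall_fin_succ] <;> tauto

/-- periodised kernel of a coefficient vector -/
noncomputable def PerC (cc : Fin 3 → ℤ) (T : Fin 3 → Finset ℤ) (Φ : ℤ → ℤ → ℤ → ℤ → ℂ)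
    (y s : ℤ) : ℂ :=
  ∑ z0 ∈ T 0, ∑ z1 ∈ T 1, ∑ z2 ∈ T 2,
    if cc 0 * z0 + cc 1 * z1 + cc 2 * z2 = y then Φ (s - z0 - z1 - z2) z0 z1 z2 else 0

lemma per_eq (j : Fin 4) (T : Fin 3 → Finset ℤ) (Φ : ℤ → ℤ → ℤ → ℤ → ℂ) (y s : ℤ) :
    Per j T Φ y s = PerC (cf j) T Φ y s := rfl

lemma rot_upk (g : Fin 3 → ℤ → ℤ → ℂ) (e : Fin 3) (E : ℤ → ℤ → ℤ → ℂ) :
    rot e (upk g e E) = upk (rot e g) 0 E := by
  have h1 : e + 1 ≠ e := by revert e; decide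
  have h2 : e + 2 ≠ e := by revert e; decide
  funext i
  fin_cases i
  · show upk g e E e = upk (rot e g) 0 E 0
    funext w
    unfold upk
    rw [if_pos rfl, if_pos rfl]
  · show upk g e E (e + 1) = upk (rot e g) 0 E 1
    funext w
    unfold upk
    rw [if_neg h1, if_neg (by decide)]
    rfl
  · show upk g e E (e + 2) = upk (rot e g) 0 E 2
    funext w
    unfold upk
    rw [if_neg h2, if_neg (by decide)]
    rfl

/-- **rotation of the coordinates** -/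
theorem per_rot (cc : Fin 3 → ℤ) (e : Fin 3) (T : Fin 3 → Finset ℤ) (k : Fin 3 → ℤ → ℤ → ℤ → ℂ)
    (y s : ℤ) : PerC cc T (PhiW k) y s = PerC (rot e cc) (rot e T) (PhiW (rot e k)) y s := by
  obtain rfl | rfl | rfl : e = 0 ∨ e = 1 ∨ e = 2 := by fin_cases e <;> simp
  · rw [rot_id, rot_id, rot_id]
  · have h : PerC (rot 1 cc) (rot 1 T) (PhiW (rot 1 k)) y s =
        ∑ z1 ∈ T 1, ∑ z2 ∈ T 2, ∑ z0 ∈ T 0, if cc 0 * z0 + cc 1 * z1 + cc 2 * z2 = y then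
          PhiW k (s - z0 - z1 - z2) z0 z1 z2 else 0 := by
      unfold PerC
      refine Finset.sum_congr rfl fun z1 _ => Finset.sum_congr rfl fun z2 _ =>
        Finset.sum_congr rfl fun z0 _ => ?_
      have e1 : rot 1 cc 0 * z1 + rot 1 cc 1 * z2 + rot 1 cc 2 * z0 =
          cc 0 * z0 + cc 1 * z1 + cc 2 * z2 := by
        show cc 1 * z1 + cc 2 * z2 + cc 0 * z0 = _
        ring
      have e2 : s - z1 - z2 - z0 = s - z0 - z1 - z2 := by ring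
      rw [e1, e2]
      have e3 : PhiW (rot 1 k) (s - z0 - z1 - z2) z1 z2 z0 =
          PhiW k (s - z0 - z1 - z2) z0 z1 z2 := by
        show k 1 (s - z0 - z1 - z2) z1 z2 * k 2 (s - z0 - z1 - z2) z2 z0 *
          k 0 (s - z0 - z1 - z2) z0 z1 = k 0 (s - z0 - z1 - z2) z0 z1 *
          k 1 (s - z0 - z1 - z2) z1 z2 * k 2 (s - z0 - z1 - z2) z2 z0
        ring
      rw [e3]
    rw [h]
    unfold PerC
    rw [Finset.sum_comm]
    refine Finset.sum_congr rfl fun z1 _ => ?_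
    rw [Finset.sum_comm]
  · have h : PerC (rot 2 cc) (rot 2 T) (PhiW (rot 2 k)) y s =
        ∑ z2 ∈ T 2, ∑ z0 ∈ T 0, ∑ z1 ∈ T 1, if cc 0 * z0 + cc 1 * z1 + cc 2 * z2 = y then
          PhiW k (s - z0 - z1 - z2) z0 z1 z2 else 0 := by
      unfold PerC
      refine Finset.sum_congr rfl fun z2 _ => Finset.sum_congr rfl fun z0 _ =>
        Finset.sum_congr rfl fun z1 _ => ?_
      have e1 : rot 2 cc 0 * z2 + rot 2 cc 1 * z0 + rot 2 cc 2 * z1 =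
          cc 0 * z0 + cc 1 * z1 + cc 2 * z2 := by
        show cc 2 * z2 + cc 0 * z0 + cc 1 * z1 = _
        ring
      have e2 : s - z2 - z0 - z1 = s - z0 - z1 - z2 := by ring
      rw [e1, e2]
      have e3 : PhiW (rot 2 k) (s - z0 - z1 - z2) z2 z0 z1 =
          PhiW k (s - z0 - z1 - z2) z0 z1 z2 := by
        show k 2 (s - z0 - z1 - z2) z2 z0 * k 0 (s - z0 - z1 - z2) z0 z1 *
          k 1 (s - z0 - z1 - z2) z1 z2 = k 0 (s - z0 - z1 - z2) z0 z1 *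
          k 1 (s - z0 - z1 - z2) z1 z2 * k 2 (s - z0 - z1 - z2) z2 z0
        ring
      rw [e3]
    rw [h]
    unfold PerC
    symm
    rw [Finset.sum_comm]
    refine Finset.sum_congr rfl fun z0 _ => ?_
    rw [Finset.sum_comm]

/-! ### the plane of a coefficient vector (port of `Tr_230`) -/

/-- the linear form -/
def cfzC (cc : Fin 3 → ℤ) (z : ℤ × ℤ × ℤ) : ℤ := cc 0 * z.1 + cc 1 * z.2.1 + cc 2 * z.2.2

lemma cfz_eq (j : Fin 4) (z : ℤ × ℤ × ℤ) : cfz j z = cfzC (cf j) z := rfl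

lemma cfzC_add (cc : Fin 3 → ℤ) (z s : ℤ × ℤ × ℤ) : cfzC cc (z + s) = cfzC cc z + cfzC cc s := by
  simp only [cfzC, Prod.fst_add, Prod.snd_add]; ring

lemma cfzC_sub (cc : Fin 3 → ℤ) (z s : ℤ × ℤ × ℤ) : cfzC cc (z - s) = cfzC cc z - cfzC cc s := by
  simp only [cfzC, Prod.fst_sub, Prod.snd_sub]; ring

/-- the translates which meet `Z` -/
def ShC (cc : Fin 3 → ℤ) (T : Fin 3 → Finset ℤ) (Z : Finset (ℤ × ℤ × ℤ)) : Finset (ℤ × ℤ × ℤ) :=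
  (((T 0 ×ˢ T 1 ×ˢ T 2) ×ˢ Z).image (fun q => q.1 - q.2)).filter (fun s => cfzC cc s = 0)

lemma ShC_plane {cc : Fin 3 → ℤ} {T : Fin 3 → Finset ℤ} {Z : Finset (ℤ × ℤ × ℤ)} {s : ℤ × ℤ × ℤ}
    (h : s ∈ ShC cc T Z) : cfzC cc s = 0 := (Finset.mem_filter.1 h).2

/-- **the periodised kernel is the sum over the plane translates** -/
theorem perC_translates (cc : Fin 3 → ℤ) (T : Fin 3 → Finset ℤ) (Φ : ℤ → ℤ → ℤ → ℤ → ℂ)
    (Z S : Finset (ℤ × ℤ × ℤ)) (hS : ShC cc T Z ⊆ S) (hS0 : ∀ s ∈ S, cfzC cc s = 0)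
    {z : ℤ × ℤ × ℤ} (hz : z ∈ Z) (t : ℤ) :
    PerC cc T Φ (cfzC cc z) t = ∑ s ∈ S,
      if z.1 + s.1 ∈ T 0 ∧ z.2.1 + s.2.1 ∈ T 1 ∧ z.2.2 + s.2.2 ∈ T 2 then
        Φ (t - (z.1 + s.1) - (z.2.1 + s.2.1) - (z.2.2 + s.2.2)) (z.1 + s.1) (z.2.1 + s.2.1)
          (z.2.2 + s.2.2) else 0 := by
  have h0 : PerC cc T Φ (cfzC cc z) t =
      ∑ w ∈ (T 0 ×ˢ T 1 ×ˢ T 2).filter (fun w => cfzC cc w = cfzC cc z),
      Φ (t - w.1 - w.2.1 - w.2.2) w.1 w.2.1 w.2.2 := by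
    unfold PerC
    rw [Finset.sum_filter, Finset.sum_product]
    refine Finset.sum_congr rfl fun z0 _ => ?_
    rw [Finset.sum_product]
    rfl
  rw [h0, ← Finset.sum_filter]
  refine Finset.sum_bij' (fun w _ => w - z) (fun s _ => z + s) ?_ ?_ ?_ ?_ ?_
  · intro w hw
    rw [Finset.mem_filter] at hw
    have hc : cfzC cc (w - z) = 0 := by rw [cfzC_sub, hw.2, sub_self]
    rw [Finset.mem_filter]
    refine ⟨hS ?_, ?_⟩
    · unfold ShC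
      rw [Finset.mem_filter]
      refine ⟨Finset.mem_image.2 ⟨(w, z), Finset.mem_product.2 ⟨hw.1, hz⟩, rfl⟩, hc⟩
    · have h1 := hw.1
      simp only [Finset.mem_product] at h1
      simpa using h1
  · intro s hs
    rw [Finset.mem_filter] at hs ⊢
    refine ⟨?_, ?_⟩
    · simp only [Finset.mem_product, Prod.fst_add, Prod.snd_add]
      exact hs.2
    · rw [cfzC_add, hS0 s hs.1, add_zero]
  · intro w _
    show z + (w - z) = w
    abel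
  · intro s _
    show z + s - z = s
    abel
  · intro w _
    have e0 : z.1 + (w - z).1 = w.1 := by simp
    have e1 : z.2.1 + (w - z).2.1 = w.2.1 := by simp
    have e2 : z.2.2 + (w - z).2.2 = w.2.2 := by simp
    rw [e0, e1, e2]

/-- two coordinates of a plane vector determine it -/
lemma injC12 {cc : Fin 3 → ℤ} (h0 : cc 0 ≠ 0) {s s' : ℤ × ℤ × ℤ} (h : cfzC cc s = 0)
    (h' : cfzC cc s' = 0) (h1 : s.2.1 = s'.2.1) (h2 : s.2.2 = s'.2.2) : s = s' := by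
  have h3 : s.1 = s'.1 := by
    have e : cc 0 * s.1 = cc 0 * s'.1 := by
      simp only [cfzC] at h h'
      rw [h1, h2] at h
      linarith
    exact mul_left_cancel₀ h0 e
  ext
  · exact h3
  · exact h1
  · exact h2

lemma injC20 {cc : Fin 3 → ℤ} (h1 : cc 1 ≠ 0) {s s' : ℤ × ℤ × ℤ} (h : cfzC cc s = 0)
    (h' : cfzC cc s' = 0) (h2 : s.2.2 = s'.2.2) (h0 : s.1 = s'.1) : s = s' := by
  have h3 : s.2.1 = s'.2.1 := by
    have e : cc 1 * s.2.1 = cc 1 * s'.2.1 := by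
      simp only [cfzC] at h h'
      rw [h2, h0] at h
      linarith
    exact mul_left_cancel₀ h1 e
  ext
  · exact h0
  · exact h3
  · exact h2

lemma injC01 {cc : Fin 3 → ℤ} (h2 : cc 2 ≠ 0) {s s' : ℤ × ℤ × ℤ} (h : cfzC cc s = 0)
    (h' : cfzC cc s' = 0) (h0 : s.1 = s'.1) (h1 : s.2.1 = s'.2.1) : s = s' := by
  have h3 : s.2.2 = s'.2.2 := by
    have e : cc 2 * s.2.2 = cc 2 * s'.2.2 := by
      simp only [cfzC] at h h'
      rw [h0, h1] at h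
      linarith
    exact mul_left_cancel₀ h2 e
  ext
  · exact h0
  · exact h1
  · exact h3

theorem priceC12 {cc : Fin 3 → ℤ} (hc : cc 0 ≠ 0) {S : Finset (ℤ × ℤ × ℤ)}
    (hS0 : ∀ s ∈ S, cfzC cc s = 0) (T T' : Finset ℤ)
    (a : ℤ → ℤ → ℂ) (r : ℕ) (hr : r ≠ 0) (z z' : ℤ) :
    ∑ s ∈ S, ‖kT T T' a (z + s.2.1) (z' + s.2.2)‖ ^ r ≤ ∑ x ∈ T, ∑ x' ∈ T', ‖a x x'‖ ^ r := by
  refine le_trans (le_of_eq ?_) (sum_shift_le (fun s => s.2.1) (fun s => s.2.2)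
    (fun s hs s' hs' h0 h1 => injC12 hc (hS0 s hs) (hS0 s' hs') h0 h1) T T' (fun x x' => ‖a x x'‖ ^ r)
    (fun _ _ _ _ => by positivity) z z')
  refine Finset.sum_congr rfl fun s _ => ?_
  unfold kT
  split_ifs <;> simp [hr]

theorem priceC20 {cc : Fin 3 → ℤ} (hc : cc 1 ≠ 0) {S : Finset (ℤ × ℤ × ℤ)}
    (hS0 : ∀ s ∈ S, cfzC cc s = 0) (T T' : Finset ℤ)
    (a : ℤ → ℤ → ℂ) (r : ℕ) (hr : r ≠ 0) (z z' : ℤ) :
    ∑ s ∈ S, ‖kT T T' a (z + s.2.2) (z' + s.1)‖ ^ r ≤ ∑ x ∈ T, ∑ x' ∈ T', ‖a x x'‖ ^ r := by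
  refine le_trans (le_of_eq ?_) (sum_shift_le (fun s => s.2.2) (fun s => s.1)
    (fun s hs s' hs' h0 h1 => injC20 hc (hS0 s hs) (hS0 s' hs') h0 h1) T T' (fun x x' => ‖a x x'‖ ^ r)
    (fun _ _ _ _ => by positivity) z z')
  refine Finset.sum_congr rfl fun s _ => ?_
  unfold kT
  split_ifs <;> simp [hr]

theorem priceC01 {cc : Fin 3 → ℤ} (hc : cc 2 ≠ 0) {S : Finset (ℤ × ℤ × ℤ)}
    (hS0 : ∀ s ∈ S, cfzC cc s = 0) (T T' : Finset ℤ)
    (a : ℤ → ℤ → ℂ) (r : ℕ) (hr : r ≠ 0) (z z' : ℤ) :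
    ∑ s ∈ S, ‖kT T T' a (z + s.1) (z' + s.2.1)‖ ^ r ≤ ∑ x ∈ T, ∑ x' ∈ T', ‖a x x'‖ ^ r := by
  refine le_trans (le_of_eq ?_) (sum_shift_le (fun s => s.1) (fun s => s.2.1)
    (fun s hs s' hs' h0 h1 => injC01 hc (hS0 s hs) (hS0 s' hs') h0 h1) T T' (fun x x' => ‖a x x'‖ ^ r)
    (fun _ _ _ _ => by positivity) z z')
  refine Finset.sum_congr rfl fun s _ => ?_
  unfold kT
  split_ifs <;> simp [hr]

/-! ### coefficient vectors of a slot -/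

lemma cf_inj (j : Fin 4) {i i' : Fin 3} (h : i ≠ i') : cf j i ≠ cf j i' := by
  intro hc
  unfold cf at hc
  have h1 : sl (j.succAbove i) = sl (j.succAbove i') := by linarith
  exact h (Fin.succAbove_right_injective (Qa246.sl_inj h1))

lemma rot_cf_ne (j : Fin 4) (e i : Fin 3) : rot e (cf j) i ≠ 0 := by
  fin_cases i
  · exact cf_ne j e
  · exact cf_ne j (e + 1)
  · exact cf_ne j (e + 2)

lemma rot_cf_inj (j : Fin 4) (e : Fin 3) : rot e (cf j) 0 ≠ rot e (cf j) 1 ∧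
    rot e (cf j) 1 ≠ rot e (cf j) 2 ∧ rot e (cf j) 0 ≠ rot e (cf j) 2 := by
  have h1 : e ≠ e + 1 := by revert e; decide
  have h2 : e + 1 ≠ e + 2 := by revert e; decide
  have h3 : e ≠ e + 2 := by revert e; decide
  exact ⟨cf_inj j h1, cf_inj j h2, cf_inj j h3⟩

/-! ### labels (port of `PerT_530`) -/

/-- **LABELS OF THE MAIN KERNEL** for a coefficient vector -/
theorem main_labelsC (cc : Fin 3 → ℤ) (T : Fin 3 → Finset ℤ) (g : Fin 3 → ℤ → ℤ → ℂ) {n : ℕ}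
    (u v : Fin n → ℤ → ℤ → ℂ) (d : Fin n → ℂ) (Z S : Finset (ℤ × ℤ × ℤ)) (hS : ShC cc T Z ⊆ S)
    (hS0 : ∀ s ∈ S, cfzC cc s = 0) (r z z' : ℤ) (hz : (z, z', 0) ∈ Z) :
    PerC cc T (PhiW (upk g 0 (fun w x x' => ∑ l, d l * (u l w x * v l w x'))))
      (cc 0 * z + cc 1 * z') (r + z + z') =
      ∑ s ∈ S, ∑ l, d l * (PerT530.al T g (u l) r s z * PerT530.be T g (v l) r s z') := by
  have e : cc 0 * z + cc 1 * z' = cfzC cc (z, z', 0) := by simp [cfzC]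
  rw [e, perC_translates cc T _ Z S hS hS0 hz]
  refine Finset.sum_congr rfl fun s _ => ?_
  have ew : r + z + z' - (z + s.1) - (z' + s.2.1) - s.2.2 =
      r - (s.1 + s.2.1 + s.2.2) := by ring
  simp only [zero_add]
  rw [ew]
  by_cases h : z + s.1 ∈ T 0 ∧ z' + s.2.1 ∈ T 1 ∧ s.2.2 ∈ T 2
  · rw [if_pos h]
    have hP : PhiW (upk g 0 (fun w x x' => ∑ l, d l * (u l w x * v l w x')))
        (r - (s.1 + s.2.1 + s.2.2)) (z + s.1) (z' + s.2.1) s.2.2 =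
        (∑ l, d l * (u l (r - (s.1 + s.2.1 + s.2.2)) (z + s.1) *
          v l (r - (s.1 + s.2.1 + s.2.2)) (z' + s.2.1))) *
          g 1 (z' + s.2.1) s.2.2 * g 2 s.2.2 (z + s.1) := by
      unfold PhiW upk
      rw [if_pos rfl, if_neg (show ¬ ((1 : Fin 3) = 0) by decide),
        if_neg (show ¬ ((2 : Fin 3) = 0) by decide)]
    rw [hP, Finset.sum_mul, Finset.sum_mul]
    refine Finset.sum_congr rfl fun l _ => ?_
    unfold PerT530.al PerT530.be kT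
    rw [if_pos ⟨h.2.2, h.1⟩, if_pos ⟨h.2.1, h.2.2⟩]
    ring
  · rw [if_neg h]
    symm
    refine Finset.sum_eq_zero fun l _ => ?_
    simp only [PerT530.al, PerT530.be, kT]
    by_cases h1 : s.2.2 ∈ T 2 ∧ z + s.1 ∈ T 0
    · have h2 : ¬ (z' + s.2.1 ∈ T 1 ∧ s.2.2 ∈ T 2) := fun hc => h ⟨h1.2, hc.1, hc.2⟩
      rw [if_neg h2]
      ring
    · rw [if_neg h1]
      ring

/-- labels are square summable -/
theorem sum_alC_le {cc : Fin 3 → ℤ} (hc : cc 1 ≠ 0) (T : Fin 3 → Finset ℤ)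
    (g : Fin 3 → ℤ → ℤ → ℂ) (u : ℤ → ℤ → ℂ)
    (hu : ∀ w z, ‖u w z‖ ≤ 1) (r : ℤ) {S : Finset (ℤ × ℤ × ℤ)} (hS0 : ∀ s ∈ S, cfzC cc s = 0)
    (z : ℤ) :
    ∑ s ∈ S, ‖PerT530.al T g u r s z‖ ^ 2 ≤ ∑ x ∈ T 2, ∑ x' ∈ T 0, ‖g 2 x x'‖ ^ 2 := by
  have h := priceC20 hc hS0 (T 2) (T 0) (g 2) 2 (by norm_num) 0 z
  refine le_trans (Finset.sum_le_sum fun s _ => ?_) h
  unfold PerT530.al
  rw [norm_mul, mul_pow, zero_add]
  exact mul_le_of_le_one_right (by positivity) (pow_le_one₀ (norm_nonneg _) (hu _ _))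

theorem sum_beC_le {cc : Fin 3 → ℤ} (hc : cc 0 ≠ 0) (T : Fin 3 → Finset ℤ)
    (g : Fin 3 → ℤ → ℤ → ℂ) (v : ℤ → ℤ → ℂ)
    (hv : ∀ w z, ‖v w z‖ ≤ 1) (r : ℤ) {S : Finset (ℤ × ℤ × ℤ)} (hS0 : ∀ s ∈ S, cfzC cc s = 0)
    (z' : ℤ) :
    ∑ s ∈ S, ‖PerT530.be T g v r s z'‖ ^ 2 ≤ ∑ x ∈ T 1, ∑ x' ∈ T 2, ‖g 1 x x'‖ ^ 2 := by
  have h := priceC12 hc hS0 (T 1) (T 2) (g 1) 2 (by norm_num) z' 0
  refine le_trans (Finset.sum_le_sum fun s _ => ?_) h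
  unfold PerT530.be
  rw [norm_mul, mul_pow, zero_add]
  exact mul_le_of_le_one_right (by positivity) (pow_le_one₀ (norm_nonneg _) (hv _ _))

open Crest.Agent.R079.St2 Crest.Agent.R079.Lab530 in
theorem n2_wlC {cc : Fin 3 → ℤ} (hc : cc 1 ≠ 0) (T : Fin 3 → Finset ℤ) (g : Fin 3 → ℤ → ℤ → ℂ)
    {n : ℕ} (u : Fin n → ℤ → ℤ → ℂ) (d : Fin n → ℂ) (S : Finset (ℤ × ℤ × ℤ)) (r : ℤ)
    (hS0 : ∀ s ∈ S, cfzC cc s = 0) (hu : ∀ l w z, ‖u l w z‖ ≤ 1) (z : ℤ) :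
    n2 (wl T g u d S r z) ≤ (∑ l, ‖d l‖) * ∑ x ∈ T 2, ∑ x' ∈ T 0, ‖g 2 x x'‖ ^ 2 := by
  unfold St2.n2
  rw [Fintype.sum_prod_type_right, Finset.sum_mul]
  refine Finset.sum_le_sum fun l _ => ?_
  have e : ∑ s : {s // s ∈ S}, ‖wl T g u d S r z (s, l)‖ ^ 2 =
      ‖d l‖ * ∑ s ∈ S, ‖PerT530.al T g (u l) r s z‖ ^ 2 := by
    rw [Finset.mul_sum, ← Finset.sum_coe_sort S]
    refine Finset.sum_congr rfl fun s _ => ?_
    simp only [wl]
    rw [norm_star, norm_mul, mul_pow, Complex.norm_real, Real.norm_of_nonneg (Real.sqrt_nonneg _),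
      Real.sq_sqrt (norm_nonneg _)]
  rw [e]
  exact mul_le_mul_of_nonneg_left (sum_alC_le hc T g (u l) (hu l) r hS0 z) (norm_nonneg _)

open Crest.Agent.R079.St2 Crest.Agent.R079.Lab530 in
theorem n2_vlC {cc : Fin 3 → ℤ} (hc : cc 0 ≠ 0) (T : Fin 3 → Finset ℤ) (g : Fin 3 → ℤ → ℤ → ℂ)
    {n : ℕ} (v : Fin n → ℤ → ℤ → ℂ) (d : Fin n → ℂ) (S : Finset (ℤ × ℤ × ℤ)) (r : ℤ)
    (hS0 : ∀ s ∈ S, cfzC cc s = 0) (hv : ∀ l w z, ‖v l w z‖ ≤ 1) (z' : ℤ) :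
    n2 (vl T g v d S r z') ≤ (∑ l, ‖d l‖) * ∑ x ∈ T 1, ∑ x' ∈ T 2, ‖g 1 x x'‖ ^ 2 := by
  unfold St2.n2
  rw [Fintype.sum_prod_type_right, Finset.sum_mul]
  refine Finset.sum_le_sum fun l _ => ?_
  have e : ∑ s : {s // s ∈ S}, ‖vl T g v d S r z' (s, l)‖ ^ 2 =
      ‖d l‖ * ∑ s ∈ S, ‖PerT530.be T g (v l) r s z'‖ ^ 2 := by
    rw [Finset.mul_sum, ← Finset.sum_coe_sort S]
    refine Finset.sum_congr rfl fun s _ => ?_
    simp only [vl]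
    rw [norm_mul, norm_mul, norm_ph, one_mul, mul_pow, Complex.norm_real,
      Real.norm_of_nonneg (Real.sqrt_nonneg _), Real.sq_sqrt (norm_nonneg _)]
  rw [e]
  exact mul_le_mul_of_nonneg_left (sum_beC_le hc T g (v l) (hv l) r hS0 z') (norm_nonneg _)

end Crest.Agent.R079.CC702
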