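import Crest.Agent.R079.Cell2_37

/-! R079 (helper37), CELLKILL part 2 (note 1095 of row 79, step (2)): **GROUPS**.

On a node `I` the test function of a cell of scale `n ≥ dl · len I` is a combination `∑ sg G * grp G`
of GROUPS: shifts in an interval of length `L = len I`, ONE base function `c` supported in an interval
of length `2L` with `∑ |c|² ≤ 4L`, mass `V`; `∑ sg G * V G ≤ 2 cS(I) + 9 H η`. -/

set_option autoImplicit false

namespace Crest.Agent.R079.CKgx37

open Finset Crest.Agent.R079.Grid Crest.Agent.R079.Glue Crest.Agent.R079.Growth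
  Crest.Agent.R079.QRed Crest.Agent.R079.Cell37

/-- the function of a group -/
noncomputable def grp (S : Finset ℤ) (w : ℤ → ℝ) (u c : ℤ → ℂ) (ξ : ℤ → ℝ) : Fn := fun y =>
  ∑ s ∈ S, (w s : ℂ) * u s * c (y - s) * ee (ξ s * ((y - s : ℤ) : ℝ))

/-- data of a group -/
structure GrpD (L : ℕ) (V cap Hc : ℝ) (s0 b0 : ℤ) (S : Finset ℤ) (w : ℤ → ℝ) (u c : ℤ → ℂ) :
    Prop where
  V0 : 0 < V
  S0 : S ⊆ Finset.Ico s0 (s0 + (L : ℤ))
  w0 : ∀ s, 0 ≤ w s
  wV : ∑ s ∈ S, w s ≤ V
  wc : ∀ s, w s * (L : ℝ) ≤ cap * V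
  u1 : ∀ s, ‖u s‖ ≤ 1
  cH : ∀ y, ‖c y‖ ≤ Hc
  supp : ∀ y, y ∉ Finset.Ico b0 (b0 + 2 * (L : ℤ)) → c y = 0
  c2 : ∑ y ∈ Finset.Ico b0 (b0 + 2 * (L : ℤ)), ‖c y‖ ^ 2 ≤ 4 * L

/-- natural length of a node -/
def lenN (I : Nd) : ℕ := 2 ^ (I.1 + 7)

theorem lenN_cast (I : Nd) : ((lenN I : ℕ) : ℝ) = len I := by
  unfold lenN len
  push_cast
  rfl

theorem lenN_pos (I : Nd) : 0 < lenN I := by unfold lenN; positivity

theorem iv_lenN (I : Nd) : iv I = Finset.Ico (I.2 * 2 ^ (I.1 + 7)) (I.2 * 2 ^ (I.1 + 7) + (lenN I : ℤ)) := by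
  unfold iv dI lenN
  congr 1
  push_cast
  ring

/-- the average over `I` of a shifted function, as a sum over the shifted interval -/
theorem av_shift (I : Nd) (c : ℤ → ℂ) (s : ℤ) :
    ∑ z ∈ Finset.Ico (I.2 * 2 ^ (I.1 + 7) - s) (I.2 * 2 ^ (I.1 + 7) + (lenN I : ℤ) - s), ‖c z‖ ^ 2 =
      len I * av I (fun y => c (y - s)) ^ 2 := by
  rw [QVar181.av_sq, iv_lenN]
  have hl : len I ≠ 0 := (Growth.len_pos I).ne'
  rw [← mul_assoc, mul_one_div_cancel hl, one_mul]
  rw [← Finset.sum_image (s := Finset.Ico (I.2 * 2 ^ (I.1 + 7)) (I.2 * 2 ^ (I.1 + 7) + (lenN I : ℤ)))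
    (g := fun y => y - s) (f := fun z => ‖c z‖ ^ 2) (by
      intro x _ y _ h
      simpa using h)]
  congr 1
  ext z
  simp only [Finset.mem_image, Finset.mem_Ico]
  constructor
  · rintro ⟨h1, h2⟩
    exact ⟨z + s, ⟨by linarith, by linarith⟩, by ring⟩
  · rintro ⟨y, ⟨h1, h2⟩, rfl⟩
    exact ⟨by linarith, by linarith⟩

/-- one group -/
theorem one_group {n : ℕ} {a b : ℤ} {H : ℝ} {w : ℤ → ℝ} {u c : ℤ → ℂ} (h : CellD n a b H w u c)
    (I : Nd) {S : Finset ℤ} {s1 s2 : ℤ} (hS : ∀ s ∈ S, s1 ≤ s ∧ s ≤ s2)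
    (hL : s2 < s1 + (lenN I : ℤ)) {σ : ℝ} (hσ : 0 < σ)
    (hv1 : av I (fun y => c (y - s1)) ≤ σ) (hv2 : av I (fun y => c (y - s2)) ≤ σ) {V cap : ℝ}
    (hV : 0 < V) (hwV : ∑ s ∈ S, w s ≤ V) (hcap : ∀ s, w s * (lenN I : ℝ) ≤ cap * V) :
    GrpD (lenN I) V cap (H / σ) s1 (I.2 * 2 ^ (I.1 + 7) - s2) S w u
      (fun z => if z ∈ Finset.Ico (I.2 * 2 ^ (I.1 + 7) - s2)
        (I.2 * 2 ^ (I.1 + 7) + (lenN I : ℤ) - s1) then ((1 / σ : ℝ) : ℂ) * c z else 0) := by
  set x0 : ℤ := I.2 * 2 ^ (I.1 + 7) with hx0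
  have hH := h.H0
  refine ⟨hV, ?_, h.w0, hwV, hcap, h.u1, ?_, ?_, ?_⟩
  · intro s hs
    have := hS s hs
    rw [Finset.mem_Ico]
    exact ⟨this.1, by linarith [this.2]⟩
  · intro y
    split_ifs
    · rw [norm_mul, Complex.norm_real, Real.norm_of_nonneg (by positivity)]
      calc 1 / σ * ‖c y‖ ≤ 1 / σ * H := mul_le_mul_of_nonneg_left (h.cH y) (by positivity)
        _ = H / σ := by ring
    · rw [norm_zero]; positivity
  · intro y hy
    rw [if_neg]
    intro hc
    apply hy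
    rw [Finset.mem_Ico] at hc ⊢
    exact ⟨hc.1, by linarith [hc.2]⟩
  · have hb : ∀ z, ‖(if z ∈ Finset.Ico (x0 - s2) (x0 + (lenN I : ℤ) - s1) then
        ((1 / σ : ℝ) : ℂ) * c z else 0)‖ ^ 2 ≤
        (1 / σ) ^ 2 * ((if z ∈ Finset.Ico (x0 - s1) (x0 + (lenN I : ℤ) - s1) then ‖c z‖ ^ 2 else 0) +
          (if z ∈ Finset.Ico (x0 - s2) (x0 + (lenN I : ℤ) - s2) then ‖c z‖ ^ 2 else 0)) := by
      intro z
      by_cases hz : z ∈ Finset.Ico (x0 - s2) (x0 + (lenN I : ℤ) - s1)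
      · rw [if_pos hz, norm_mul, mul_pow, Complex.norm_real, Real.norm_of_nonneg (by positivity)]
        refine mul_le_mul_of_nonneg_left ?_ (by positivity)
        rw [Finset.mem_Ico] at hz
        by_cases h1 : z ∈ Finset.Ico (x0 - s1) (x0 + (lenN I : ℤ) - s1)
        · rw [if_pos h1]
          have : (0 : ℝ) ≤ if z ∈ Finset.Ico (x0 - s2) (x0 + (lenN I : ℤ) - s2) then ‖c z‖ ^ 2 else 0 := by
            split_ifs <;> positivity
          linarith
        · have h2 : z ∈ Finset.Ico (x0 - s2) (x0 + (lenN I : ℤ) - s2) := by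
            rw [Finset.mem_Ico]
            refine ⟨hz.1, ?_⟩
            by_contra hcon
            apply h1
            rw [Finset.mem_Ico]
            refine ⟨?_, hz.2⟩
            push Not at hcon
            linarith
          rw [if_pos h2, if_neg h1]
          linarith
      · rw [if_neg hz, norm_zero]
        have e1 : (0 : ℝ) ≤ if z ∈ Finset.Ico (x0 - s1) (x0 + (lenN I : ℤ) - s1) then ‖c z‖ ^ 2 else 0 := by
          split_ifs <;> positivity
        have e2 : (0 : ℝ) ≤ if z ∈ Finset.Ico (x0 - s2) (x0 + (lenN I : ℤ) - s2) then ‖c z‖ ^ 2 else 0 := by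
          split_ifs <;> positivity
        rw [zero_pow two_ne_zero]
        exact mul_nonneg (by positivity) (add_nonneg e1 e2)
    refine (Finset.sum_le_sum fun z _ => hb z).trans ?_
    rw [← Finset.mul_sum, Finset.sum_add_distrib, ← Finset.sum_filter, ← Finset.sum_filter]
    have f1 : (Finset.Ico (x0 - s2) (x0 - s2 + 2 * (lenN I : ℤ))).filter
        (fun z => z ∈ Finset.Ico (x0 - s1) (x0 + (lenN I : ℤ) - s1)) ⊆
        Finset.Ico (x0 - s1) (x0 + (lenN I : ℤ) - s1) := fun z hz => (Finset.mem_filter.1 hz).2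
    have f2 : (Finset.Ico (x0 - s2) (x0 - s2 + 2 * (lenN I : ℤ))).filter
        (fun z => z ∈ Finset.Ico (x0 - s2) (x0 + (lenN I : ℤ) - s2)) ⊆
        Finset.Ico (x0 - s2) (x0 + (lenN I : ℤ) - s2) := fun z hz => (Finset.mem_filter.1 hz).2
    have g1 := Finset.sum_le_sum_of_subset_of_nonneg (f := fun z => ‖c z‖ ^ 2) f1
      (fun _ _ _ => by positivity)
    have g2 := Finset.sum_le_sum_of_subset_of_nonneg (f := fun z => ‖c z‖ ^ 2) f2
      (fun _ _ _ => by positivity)
    rw [hx0, av_shift] at g1 g2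
    rw [lenN_cast]
    have hl := Growth.len_pos I
    have k1 : av I (fun y => c (y - s1)) ^ 2 ≤ σ ^ 2 := pow_le_pow_left₀ (av_nonneg' _ _) hv1 2
    have k2 : av I (fun y => c (y - s2)) ^ 2 ≤ σ ^ 2 := pow_le_pow_left₀ (av_nonneg' _ _) hv2 2
    calc _ ≤ (1 / σ) ^ 2 * (len I * av I (fun y => c (y - s1)) ^ 2 +
          len I * av I (fun y => c (y - s2)) ^ 2) :=
          mul_le_mul_of_nonneg_left (add_le_add g1 g2) (by positivity)
      _ ≤ (1 / σ) ^ 2 * (len I * σ ^ 2 + len I * σ ^ 2) := by gcongr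
      _ = 2 * len I := by field_simp; ring
      _ ≤ 4 * len I := by linarith

open Classical in
/-- level of a shift -/
noncomputable def lvl (c : ℤ → ℂ) (I : Nd) (η : ℝ) (s : ℤ) : ℕ :=
  sInf {j : ℕ | av I (fun y => c (y - s)) ≤ η * 2 ^ j}

theorem lvl_mem {c : ℤ → ℂ} {I : Nd} {η : ℝ} {s : ℤ} {N : ℕ}
    (h : av I (fun y => c (y - s)) ≤ η * 2 ^ N) :
    av I (fun y => c (y - s)) ≤ η * 2 ^ lvl c I η s ∧ lvl c I η s ≤ N := by
  have hne : {j : ℕ | av I (fun y => c (y - s)) ≤ η * 2 ^ j}.Nonempty := ⟨N, h⟩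
  exact ⟨Nat.sInf_mem hne, Nat.sInf_le h⟩

theorem lvl_sharp {c : ℤ → ℂ} {I : Nd} {η : ℝ} (hη : 0 < η) (s : ℤ) :
    η * 2 ^ lvl c I η s ≤ 2 * av I (fun y => c (y - s)) + η := by
  rcases Nat.eq_zero_or_pos (lvl c I η s) with h0 | h0
  · rw [h0]
    have := av_nonneg' I (fun y => c (y - s))
    simp only [pow_zero, mul_one]
    linarith
  · obtain ⟨j, hj⟩ := Nat.exists_eq_succ_of_ne_zero h0.ne'
    have : ¬ av I (fun y => c (y - s)) ≤ η * 2 ^ j := by
      intro hc
      have : lvl c I η s ≤ j := Nat.sInf_le hc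
      omega
    rw [hj, pow_succ]
    push Not at this
    linarith

/-- **GROUPS** -/
theorem groups {n : ℕ} {a b : ℤ} {H : ℝ} {w : ℤ → ℝ} {u c : ℤ → ℂ} (h : CellD n a b H w u c)
    (ξ : ℤ → ℝ) (I : Nd) {η dl : ℝ} (hH : 1 ≤ H) (hη : 0 < η) (hη1 : η ≤ 1) (hdl : 0 < dl)
    (hdl1 : dl ≤ 1) (hn : dl * len I ≤ n) :
    ∃ (T : Finset (ℕ × ℕ)) (sg V : ℕ × ℕ → ℝ) (S : ℕ × ℕ → Finset ℤ) (s0 b0 : ℕ × ℕ → ℤ)
      (cc : ℕ × ℕ → ℤ → ℂ),
      (∀ G ∈ T, 0 < sg G ∧
        GrpD (lenN I) (V G) (H / (η * dl)) (H / η) (s0 G) (b0 G) (S G) w u (cc G)) ∧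
      (∀ y ∈ iv I, cph n a w u c ξ y = ∑ G ∈ T, (sg G : ℂ) * grp (S G) w u (cc G) ξ y) ∧
      ∑ G ∈ T, sg G * V G ≤ 2 * cS n a w c I + 9 * H * η := by
  classical
  set L : ℕ := lenN I with hLdef
  have hL0 : 0 < L := lenN_pos I
  have hLr : (0 : ℝ) < L := by exact_mod_cast hL0
  have hLl : (L : ℝ) = len I := lenN_cast I
  have hn0 : (0 : ℝ) < n := by exact_mod_cast h.n0
  -- the number of levels
  obtain ⟨N, hN1, hN2⟩ : ∃ N : ℕ, H ≤ η * 2 ^ N ∧ η * 2 ^ N ≤ 2 * H := by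
    have hne : ∃ N : ℕ, H ≤ η * 2 ^ N := by
      obtain ⟨N, hN⟩ := pow_unbounded_of_one_lt (H / η) (one_lt_two)
      refine ⟨N, ?_⟩
      rw [div_lt_iff₀ hη] at hN
      linarith
    refine ⟨Nat.find hne, Nat.find_spec hne, ?_⟩
    rcases Nat.eq_zero_or_pos (Nat.find hne) with h0 | h0
    · rw [h0]; simp only [pow_zero, mul_one]; linarith
    · obtain ⟨j, hj⟩ := Nat.exists_eq_succ_of_ne_zero h0.ne'
      have : ¬ H ≤ η * 2 ^ j := Nat.find_min hne (by omega)
      rw [hj, pow_succ]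
      push Not at this
      linarith
  have hav : ∀ s, av I (fun y => c (y - s)) ≤ η * 2 ^ N := fun s =>
    (av_le_sup h.H0 fun y _ => h.cH _).trans hN1
  set key : ℤ → ℕ × ℕ := fun s => (((s - a) / (L : ℤ)).toNat, lvl c I η s) with hkey
  set T : Finset (ℕ × ℕ) := (Finset.Ico a (a + (n : ℤ))).image key with hT
  set S : ℕ × ℕ → Finset ℤ := fun G => (Finset.Ico a (a + (n : ℤ))).filter (fun s => key s = G) with hS
  set mn : ℝ := min 1 (L / n) with hmn
  have hmn0 : 0 < mn := lt_min one_pos (by positivity)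
  have hmn1 : dl * (L / n) ≤ mn := by
    refine le_min ?_ ?_
    · rw [← mul_div_assoc, div_le_one hn0, hLl]; exact hn
    · exact mul_le_of_le_one_left (by positivity) hdl1
  -- one group
  have hex : ∀ G ∈ T, ∃ (s0 b0 : ℤ) (cc : ℤ → ℂ),
      GrpD L (∑ s ∈ S G, w s + η * mn) (H / (η * dl)) (H / η) s0 b0 (S G) w u cc ∧
      ∀ y ∈ iv I, ∀ s ∈ S G, ((η * 2 ^ G.2 : ℝ) : ℂ) * cc (y - s) = c (y - s) := by
    intro G hG
    have hne : (S G).Nonempty := by
      obtain ⟨s, hs, hk⟩ := Finset.mem_image.1 hG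
      exact ⟨s, Finset.mem_filter.2 ⟨hs, hk⟩⟩
    have hm1 := (S G).min'_mem hne
    have hm2 := (S G).max'_mem hne
    have hσ : 0 < η * 2 ^ G.2 := by positivity
    have hσ' : η ≤ η * 2 ^ G.2 := le_mul_of_one_le_right hη.le (one_le_pow₀ (by norm_num))
    have hblk : ∀ s ∈ S G, a + (G.1 : ℤ) * L ≤ s ∧ s < a + (G.1 : ℤ) * L + L := by
      intro s hs
      obtain ⟨hs1, hs2⟩ := Finset.mem_filter.1 hs
      rw [Finset.mem_Ico] at hs1
      have hG1 : (((s - a) / (L : ℤ)).toNat : ℤ) = (G.1 : ℤ) := by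
        rw [← hs2]
      have hLz : (0 : ℤ) < L := by exact_mod_cast hL0
      have hq : 0 ≤ (s - a) / (L : ℤ) := Int.ediv_nonneg (by linarith [hs1.1]) hLz.le
      rw [Int.toNat_of_nonneg hq] at hG1
      have e1 := Int.ediv_mul_le (s - a) hLz.ne'
      have e2 := Int.lt_ediv_add_one_mul_self (s - a) hLz
      rw [hG1] at e1 e2
      constructor
      · linarith
      · nlinarith
    have hlev : ∀ s ∈ S G, av I (fun y => c (y - s)) ≤ η * 2 ^ G.2 := by
      intro s hs
      have hs2 := (Finset.mem_filter.1 hs).2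
      have : lvl c I η s = G.2 := by rw [← hs2]
      rw [← this]
      exact (lvl_mem (hav s)).1
    have hs12 : (S G).min' hne ≤ (S G).max' hne := Finset.min'_le _ _ hm2
    have hs12' : (S G).max' hne < (S G).min' hne + (L : ℤ) := by
      linarith [(hblk _ hm1).1, (hblk _ hm2).2]
    have hV : 0 < ∑ s ∈ S G, w s + η * mn :=
      add_pos_of_nonneg_of_pos (Finset.sum_nonneg fun s _ => h.w0 s) (by positivity)
    have hcap : ∀ s, w s * (L : ℝ) ≤ H / (η * dl) * (∑ s ∈ S G, w s + η * mn) := by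
      intro s
      have h1 : w s * (L : ℝ) ≤ H * (L / n) := by
        have := h.wH s
        have h2 : w s ≤ H / n := by rw [le_div_iff₀ hn0]; linarith
        calc w s * (L : ℝ) ≤ H / n * L := mul_le_mul_of_nonneg_right h2 hLr.le
          _ = H * (L / n) := by ring
      calc w s * (L : ℝ) ≤ H * (L / n) := h1
        _ = H / (η * dl) * (η * (dl * (L / n))) := by field_simp
        _ ≤ H / (η * dl) * (∑ s ∈ S G, w s + η * mn) := by
            refine mul_le_mul_of_nonneg_left ?_ (by positivity)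
            have : 0 ≤ ∑ s ∈ S G, w s := Finset.sum_nonneg fun s _ => h.w0 s
            nlinarith
    have hg := one_group h I (S := S G) (s1 := (S G).min' hne) (s2 := (S G).max' hne)
      (fun s hs => ⟨Finset.min'_le _ _ hs, Finset.le_max' _ _ hs⟩) hs12' hσ
      (hlev _ hm1) (hlev _ hm2) hV (by linarith [mul_pos hη hmn0]) hcap
    refine ⟨_, _, _, ⟨hg.V0, hg.S0, hg.w0, hg.wV, hg.wc, hg.u1, fun y => ?_, hg.supp, hg.c2⟩, ?_⟩
    · refine (hg.cH y).trans ?_
      exact div_le_div_of_nonneg_left (by linarith) hη hσ'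
    · intro y hy s hs
      rw [iv_lenN, Finset.mem_Ico] at hy
      have hs' : (S G).min' hne ≤ s ∧ s ≤ (S G).max' hne := ⟨Finset.min'_le _ _ hs, Finset.le_max' _ _ hs⟩
      rw [if_pos (by
        rw [Finset.mem_Ico]
        exact ⟨by linarith [hs'.2], by linarith [hs'.1]⟩)]
      rw [← mul_assoc, ← Complex.ofReal_mul, mul_one_div_cancel hσ.ne', Complex.ofReal_one, one_mul]
  choose! s0 b0 cc hcc using hex
  refine ⟨T, fun G => η * 2 ^ G.2, fun G => ∑ s ∈ S G, w s + η * mn, S, s0, b0, cc,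
    fun G hG => ⟨by positivity, (hcc G hG).1⟩, ?_, ?_⟩
  · intro y hy
    unfold cph
    rw [← Finset.sum_fiberwise_of_maps_to (t := T) (g := key)
      (fun s hs => Finset.mem_image_of_mem _ hs)]
    refine Finset.sum_congr rfl fun G hG => ?_
    unfold grp
    rw [Finset.mul_sum]
    refine Finset.sum_congr rfl fun s hs => ?_
    rw [← (hcc G hG).2 y hy s hs]
    ring
  · simp only [mul_add, Finset.sum_add_distrib]
    have h1 : ∑ G ∈ T, η * 2 ^ G.2 * ∑ s ∈ S G, w s ≤ 2 * cS n a w c I + η := by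
      have e1 : ∑ G ∈ T, η * 2 ^ G.2 * ∑ s ∈ S G, w s =
          ∑ s ∈ Finset.Ico a (a + (n : ℤ)), η * 2 ^ lvl c I η s * w s := by
        rw [← Finset.sum_fiberwise_of_maps_to (t := T) (g := key)
          (fun s hs => Finset.mem_image_of_mem _ hs)]
        refine Finset.sum_congr rfl fun G hG => ?_
        rw [Finset.mul_sum]
        refine Finset.sum_congr rfl fun s hs => ?_
        have : lvl c I η s = G.2 := by rw [← (Finset.mem_filter.1 hs).2]
        rw [this]
      rw [e1]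
      calc ∑ s ∈ Finset.Ico a (a + (n : ℤ)), η * 2 ^ lvl c I η s * w s
          ≤ ∑ s ∈ Finset.Ico a (a + (n : ℤ)), (2 * (w s * av I (fun y => c (y - s))) + η * w s) := by
            refine Finset.sum_le_sum fun s _ => ?_
            have := mul_le_mul_of_nonneg_right (lvl_sharp (c := c) (I := I) hη s) (h.w0 s)
            linarith
        _ = 2 * cS n a w c I + η * ∑ s ∈ Finset.Ico a (a + (n : ℤ)), w s := by
            rw [Finset.sum_add_distrib, ← Finset.mul_sum, ← Finset.mul_sum]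
            rfl
        _ ≤ 2 * cS n a w c I + η * 1 := by
            have := mul_le_mul_of_nonneg_left h.w1 hη.le
            linarith
        _ = _ := by ring
    have h2 : ∑ G ∈ T, η * 2 ^ G.2 * (η * mn) ≤ 8 * H * η := by
      have hsub : T ⊆ Finset.range (n / L + 1) ×ˢ Finset.range (N + 1) := by
        intro G hG
        obtain ⟨s, hs, hk⟩ := Finset.mem_image.1 hG
        rw [Finset.mem_Ico] at hs
        rw [← hk, Finset.mem_product, Finset.mem_range, Finset.mem_range]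
        constructor
        · simp only [hkey]
          have hLz : (0 : ℤ) < L := by exact_mod_cast hL0
          have hq : 0 ≤ (s - a) / (L : ℤ) := Int.ediv_nonneg (by linarith [hs.1]) hLz.le
          have h3 : (s - a) / (L : ℤ) ≤ (n : ℤ) / (L : ℤ) := Int.ediv_le_ediv hLz (by linarith [hs.2])
          have h4 : (n : ℤ) / (L : ℤ) = ((n / L : ℕ) : ℤ) := by norm_num
          omega
        · simp only [hkey]
          have := (lvl_mem (hav s)).2
          omega
      calc ∑ G ∈ T, η * 2 ^ G.2 * (η * mn) ≤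
          ∑ G ∈ Finset.range (n / L + 1) ×ˢ Finset.range (N + 1), η * 2 ^ G.2 * (η * mn) :=
            Finset.sum_le_sum_of_subset_of_nonneg hsub (fun _ _ _ => by positivity)
        _ = ((n / L : ℕ) + 1) * mn * (η * (η * ∑ j ∈ Finset.range (N + 1), 2 ^ j)) := by
            rw [Finset.sum_product]
            simp only [Finset.sum_const, Finset.card_range, nsmul_eq_mul]
            rw [← Finset.sum_mul, ← Finset.mul_sum]
            push_cast
            ring
        _ ≤ 2 * (η * (2 * (η * 2 ^ N))) := by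
            have e1 : ((n / L : ℕ) : ℝ) ≤ n / L := Nat.cast_div_le
            have e2 : (((n / L : ℕ) : ℝ) + 1) * mn ≤ 2 := by
              calc (((n / L : ℕ) : ℝ) + 1) * mn = ((n / L : ℕ) : ℝ) * mn + mn := by ring
                _ ≤ (n / L) * (L / n) + 1 := by
                    refine add_le_add (mul_le_mul e1 (min_le_right _ _) hmn0.le (by positivity))
                      (min_le_left _ _)
                _ = 2 := by field_simp; norm_num
            have e3 : ∑ j ∈ Finset.range (N + 1), (2 : ℝ) ^ j ≤ 2 * 2 ^ N := by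
              rw [geom_sum_eq (by norm_num), pow_succ]
              linarith
            have e4 : η * (η * ∑ j ∈ Finset.range (N + 1), (2 : ℝ) ^ j) ≤ η * (2 * (η * 2 ^ N)) := by
              refine mul_le_mul_of_nonneg_left ?_ hη.le
              calc η * ∑ j ∈ Finset.range (N + 1), (2 : ℝ) ^ j ≤ η * (2 * 2 ^ N) :=
                    mul_le_mul_of_nonneg_left e3 hη.le
                _ = _ := by ring
            exact mul_le_mul e2 e4 (by positivity) (by norm_num)
        _ ≤ 2 * (η * (2 * (2 * H))) := by gcongr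
        _ = 8 * H * η := by ring
    nlinarith

end Crest.Agent.R079.CKgx37
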