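import Crest.Agent.R079.Max_292
import Crest.Agent.R079.GrowthDefs_248

/-! R079 (helper217), CELLKILL part 2 (note 1095 (5)): one-dimensional layers.

`bad g γ m l` : the dyadic cell `dI m l` has `g`-average `> γ`.
`Pv g γ v r`  : `ρ(v) ≥ r`, `ρ(v)` = largest `(1200 · side - distance to a bad cell) / 6`
(`1/6`-Lipschitz in `v`).
`Mx`          : maximal bad cells: disjoint, total length `≤ (∑ g) / γ` (weak type `(1,1)`). -/

set_option autoImplicit false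

namespace Crest.Agent.R079.CKh217

open Finset Crest.Agent.R079.Grid

/-- the average of `g` on the dyadic cell is `> γ` -/
def bad (g : ℤ → ℝ) (γ : ℝ) (m : ℕ) (l : ℤ) : Prop := γ * 2 ^ m < ∑ y ∈ dI m l, g y

/-- `ρ(v) ≥ r` -/
def Pv (g : ℤ → ℝ) (γ : ℝ) (v r : ℤ) : Prop :=
  ∃ (m : ℕ) (l : ℤ), bad g γ m l ∧ |v - l * 2 ^ m| + 6 * r ≤ 1200 * 2 ^ m

variable {g : ℤ → ℝ} {γ : ℝ}

theorem Pv.lip {v r v' d : ℤ} (h : Pv g γ v r) (hd : |v - v'| ≤ 6 * d) : Pv g γ v' (r - d) := by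
  obtain ⟨m, l, hb, hl⟩ := h
  refine ⟨m, l, hb, ?_⟩
  have h1 : |v' - l * 2 ^ m| ≤ |v - l * 2 ^ m| + |v - v'| := by
    have := abs_sub_le v' v (l * 2 ^ m)
    rw [abs_sub_comm v' v] at this
    linarith
  linarith

theorem Pv.anti {v r r' : ℤ} (h : Pv g γ v r) (hr : r' ≤ r) : Pv g γ v r' := by
  obtain ⟨m, l, hb, hl⟩ := h
  exact ⟨m, l, hb, by linarith⟩

theorem Pv.mono {γ' : ℝ} {v r : ℤ} (h : Pv g γ' v r) (hγ : γ ≤ γ') : Pv g γ v r := by
  obtain ⟨m, l, hb, hl⟩ := h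
  refine ⟨m, l, lt_of_le_of_lt ?_ hb, hl⟩
  exact mul_le_mul_of_nonneg_right hγ (by positivity)

/-- **Schur**: off the layer the sums of `g` over short intervals are small -/
theorem schur_sum (hg : ∀ y, 0 ≤ g y) {v : ℤ} {m : ℕ} (h : ¬ Pv g γ v (128 * 2 ^ m)) :
    ∑ y ∈ Finset.Icc (v - 7 * 2 ^ m) (v + 7 * 2 ^ m), g y ≤ 17 * (γ * 2 ^ m) := by
  have hP : (0 : ℤ) < 2 ^ m := by positivity
  set l0 := v / 2 ^ m with hl0
  have e1 : l0 * 2 ^ m ≤ v := Int.ediv_mul_le _ hP.ne'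
  have e2 : v < (l0 + 1) * 2 ^ m := Int.lt_ediv_add_one_mul_self v hP
  have hcov : Finset.Icc (v - 7 * 2 ^ m) (v + 7 * 2 ^ m) ⊆
      (Finset.Icc (l0 - 8) (l0 + 8)).biUnion (fun l => dI m l) := by
    intro y hy
    rw [Finset.mem_Icc] at hy
    rw [Finset.mem_biUnion]
    refine ⟨y / 2 ^ m, ?_, L0e.mem_dI.2 rfl⟩
    rw [Finset.mem_Icc]
    constructor
    · refine Int.le_ediv_of_mul_le hP ?_
      nlinarith [hy.1]
    · have : y / 2 ^ m < l0 + 9 := Int.ediv_lt_of_lt_mul hP (by nlinarith [hy.2])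
      omega
  have h1 : ∀ l ∈ Finset.Icc (l0 - 8) (l0 + 8), ∑ y ∈ dI m l, g y ≤ γ * 2 ^ m := by
    intro l hl
    rw [Finset.mem_Icc] at hl
    by_contra hc
    rw [not_le] at hc
    refine h ⟨m, l, hc, ?_⟩
    have h3 : |v - l * 2 ^ m| ≤ 9 * 2 ^ m := by
      rw [abs_le]
      constructor
      · nlinarith [hl.2]
      · nlinarith [hl.1]
    linarith
  calc ∑ y ∈ Finset.Icc (v - 7 * 2 ^ m) (v + 7 * 2 ^ m), g y
      ≤ ∑ y ∈ (Finset.Icc (l0 - 8) (l0 + 8)).biUnion (fun l => dI m l), g y :=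
        Finset.sum_le_sum_of_subset_of_nonneg hcov fun y _ _ => hg y
    _ = ∑ l ∈ Finset.Icc (l0 - 8) (l0 + 8), ∑ y ∈ dI m l, g y :=
        Finset.sum_biUnion fun a _ b _ hab => L0e.dI_disj hab
    _ ≤ ∑ _l ∈ Finset.Icc (l0 - 8) (l0 + 8), γ * 2 ^ m := Finset.sum_le_sum h1
    _ = 17 * (γ * 2 ^ m) := by
        rw [Finset.sum_const, nsmul_eq_mul, Int.card_Icc]
        have : (l0 + 8 + 1 - (l0 - 8)).toNat = 17 := by
          rw [show l0 + 8 + 1 - (l0 - 8) = ((17 : ℕ) : ℤ) by push_cast; ring, Int.toNat_natCast]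
        rw [this]
        push_cast
        ring

/-! ### maximal bad cells -/

open Classical in
/-- candidates: cells of scale `< M0` meeting the finite set `S` -/
noncomputable def Cand (S : Finset ℤ) (M0 : ℕ) : Finset (ℕ × ℤ) :=
  (Finset.range M0 ×ˢ S).image fun z => (z.1, z.2 / 2 ^ z.1)

open Classical in
/-- maximal bad cells of scale `< M0` -/
noncomputable def Mx (g : ℤ → ℝ) (γ : ℝ) (S : Finset ℤ) (M0 : ℕ) : Finset (ℕ × ℤ) :=
  (Cand S M0).filter fun c => bad g γ c.1 c.2 ∧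
    ∀ j, 0 < j → c.1 + j < M0 → ¬ bad g γ (c.1 + j) (c.2 / 2 ^ j)

section
variable {S : Finset ℤ} {M0 : ℕ} (hg : ∀ y, 0 ≤ g y) (hS : ∀ y, y ∉ S → g y = 0) (hγ : 0 ≤ γ)
  (hM0 : ∑ y ∈ S, g y ≤ γ * 2 ^ M0)

include hg hS hγ hM0 in
/-- bad cells have scale `< M0` -/
theorem bad_lt {m : ℕ} {l : ℤ} (h : bad g γ m l) : m < M0 := by
  classical
  by_contra hc
  rw [not_lt] at hc
  have h1 : ∑ y ∈ dI m l, g y ≤ ∑ y ∈ S, g y := by
    calc ∑ y ∈ dI m l, g y = ∑ y ∈ dI m l, (if y ∈ S then g y else 0) :=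
          Finset.sum_congr rfl fun y _ => by
            split_ifs with hy
            · rfl
            · exact hS y hy
      _ = ∑ y ∈ (dI m l).filter (fun y => y ∈ S), g y := by rw [Finset.sum_filter]
      _ ≤ ∑ y ∈ S, g y := Finset.sum_le_sum_of_subset_of_nonneg
          (fun y hy => (Finset.mem_filter.1 hy).2) fun y _ _ => hg y
  have h2 : γ * 2 ^ M0 ≤ γ * 2 ^ m :=
    mul_le_mul_of_nonneg_left (pow_le_pow_right₀ (by norm_num) hc) hγ
  have h3 : γ * 2 ^ m < ∑ y ∈ dI m l, g y := h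
  linarith

include hg hS hγ hM0 in
theorem bad_cand {m : ℕ} {l : ℤ} (h : bad g γ m l) : (m, l) ∈ Cand S M0 := by
  classical
  have hm := bad_lt hg hS hγ hM0 h
  have h3 : 0 < ∑ y ∈ dI m l, g y := lt_of_le_of_lt (by positivity) h
  obtain ⟨y, hy, hy0⟩ := Finset.exists_ne_zero_of_sum_ne_zero h3.ne'
  have hyS : y ∈ S := by
    by_contra hc
    exact hy0 (hS y hc)
  unfold Cand
  rw [Finset.mem_image]
  refine ⟨(m, y), Finset.mem_product.2 ⟨Finset.mem_range.2 hm, hyS⟩, ?_⟩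
  rw [L0e.mem_dI] at hy
  simp only
  rw [hy]

include hg hS hγ hM0 in
/-- every bad cell lies in a maximal one -/
theorem exists_mx {m : ℕ} {l : ℤ} (h : bad g γ m l) : ∃ j, (m + j, l / 2 ^ j) ∈ Mx g γ S M0 := by
  classical
  have hm := bad_lt hg hS hγ hM0 h
  -- the largest `j`
  obtain ⟨j, hj, hjmax⟩ : ∃ j, bad g γ (m + j) (l / 2 ^ j) ∧
      ∀ j', j < j' → ¬ bad g γ (m + j') (l / 2 ^ j') := by
    have hex : ∃ j, bad g γ (m + j) (l / 2 ^ j) := ⟨0, by simpa using h⟩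
    have hbd : ∀ j, bad g γ (m + j) (l / 2 ^ j) → j ≤ M0 := fun j hj => by
      have := bad_lt hg hS hγ hM0 hj
      omega
    let Pj : ℕ → Prop := fun j => bad g γ (m + j) (l / 2 ^ j)
    refine ⟨Nat.findGreatest Pj M0, ?_, ?_⟩
    · exact Nat.findGreatest_spec (P := Pj) (m := 0) (Nat.zero_le _) (by simpa [Pj] using h)
    · intro j' hj' hb
      have h1 := Nat.le_findGreatest (P := Pj) (hbd j' hb) hb
      omega
  refine ⟨j, ?_⟩
  unfold Mx
  rw [Finset.mem_filter]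
  refine ⟨bad_cand hg hS hγ hM0 hj, hj, ?_⟩
  intro j' hj' _ hb
  simp only at hb
  rw [L0e.ediv_pow_pow, add_assoc] at hb
  exact hjmax (j + j') (by omega) hb

/-- the maximal bad cells are disjoint -/
theorem mx_disj {c c' : ℕ × ℤ} (hc : c ∈ Mx g γ S M0) (hc' : c' ∈ Mx g γ S M0) (hne : c ≠ c') :
    Disjoint (dI c.1 c.2) (dI c'.1 c'.2) := by
  classical
  have key : ∀ c c' : ℕ × ℤ, c ∈ Mx g γ S M0 → c' ∈ Mx g γ S M0 → c ≠ c' → c.1 ≤ c'.1 →
      Disjoint (dI c.1 c.2) (dI c'.1 c'.2) := by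
    intro c c' hc hc' hne hle
    rw [Finset.disjoint_left]
    intro y hy hy'
    rw [L0e.mem_dI] at hy hy'
    obtain ⟨j, hj⟩ := Nat.exists_eq_add_of_le hle
    have h1 : c'.2 = c.2 / 2 ^ j := by
      rw [← hy', ← hy, hj, L0e.ediv_pow_pow]
    unfold Mx at hc hc'
    rw [Finset.mem_filter] at hc hc'
    rcases Nat.eq_zero_or_pos j with h0 | h0
    · apply hne
      subst h0
      simp only [add_zero] at hj
      simp only [pow_zero, Int.ediv_one] at h1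
      exact Prod.ext hj.symm h1.symm
    · refine hc.2.2 j h0 ?_ ?_
      · have h2 := hc'.1
        unfold Cand at h2
        rw [Finset.mem_image] at h2
        obtain ⟨z, hz, hz2⟩ := h2
        rw [Finset.mem_product, Finset.mem_range] at hz
        have : c'.1 = z.1 := by rw [← hz2]
        omega
      · rw [← hj, ← h1]
        exact hc'.2.1
  rcases le_total c.1 c'.1 with h | h
  · exact key c c' hc hc' hne h
  · exact (key c' c hc' hc (Ne.symm hne) h).symm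

include hg hS in
/-- **weak type** -/
theorem mx_total : γ * ∑ c ∈ Mx g γ S M0, (2 : ℝ) ^ c.1 ≤ ∑ y ∈ S, g y := by
  classical
  have h1 : γ * ∑ c ∈ Mx g γ S M0, (2 : ℝ) ^ c.1 ≤
      ∑ c ∈ Mx g γ S M0, ∑ y ∈ dI c.1 c.2, g y := by
    rw [Finset.mul_sum]
    refine Finset.sum_le_sum fun c hc => ?_
    unfold Mx at hc
    exact ((Finset.mem_filter.1 hc).2.1).le
  refine h1.trans ?_
  rw [← Finset.sum_biUnion (fun c hc c' hc' hne => mx_disj hc hc' hne)]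
  calc ∑ y ∈ (Mx g γ S M0).biUnion (fun c => dI c.1 c.2), g y
      = ∑ y ∈ (Mx g γ S M0).biUnion (fun c => dI c.1 c.2), (if y ∈ S then g y else 0) :=
        Finset.sum_congr rfl fun y _ => by
          split_ifs with hy
          · rfl
          · exact hS y hy
    _ = ∑ y ∈ ((Mx g γ S M0).biUnion (fun c => dI c.1 c.2)).filter (fun y => y ∈ S), g y := by
        rw [Finset.sum_filter]
    _ ≤ ∑ y ∈ S, g y := Finset.sum_le_sum_of_subset_of_nonneg
        (fun y hy => (Finset.mem_filter.1 hy).2) fun y _ _ => hg y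

include hg hS hγ hM0 in
/-- `ρ(v) ≥ r` is seen by a maximal bad cell -/
theorem Pv.mx {v r : ℤ} (h : Pv g γ v r) : ∃ c ∈ Mx g γ S M0,
    |v - c.2 * 2 ^ c.1| + 6 * r ≤ 1201 * 2 ^ c.1 := by
  obtain ⟨m, l, hb, hl⟩ := h
  obtain ⟨j, hj⟩ := exists_mx hg hS hγ hM0 hb
  refine ⟨_, hj, ?_⟩
  have hP : (0 : ℤ) < 2 ^ m := by positivity
  have hJ : (0 : ℤ) < 2 ^ j := by positivity
  have hmj : (2 : ℤ) ^ (m + j) = 2 ^ m * 2 ^ j := pow_add _ _ _
  simp only
  have e1 : l / 2 ^ j * 2 ^ j ≤ l := Int.ediv_mul_le _ hJ.ne'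
  have e2 : l + 1 ≤ (l / 2 ^ j + 1) * 2 ^ j := Int.lt_ediv_add_one_mul_self l hJ
  have e3 : |l * 2 ^ m - l / 2 ^ j * 2 ^ (m + j)| ≤ 2 ^ (m + j) - 2 ^ m := by
    rw [hmj, abs_le]
    constructor
    · nlinarith
    · nlinarith
  have e4 : |v - l / 2 ^ j * 2 ^ (m + j)| ≤ |v - l * 2 ^ m| + (2 ^ (m + j) - 2 ^ m) :=
    (abs_sub_le _ (l * 2 ^ m) _).trans (by linarith)
  have e5 : (2 : ℤ) ^ m ≤ 2 ^ (m + j) := pow_le_pow_right₀ (by norm_num) (by omega)
  linarith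

end

end Crest.Agent.R079.CKh217
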