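import Crest.Agent.R079.KLdef_446

/-! R079, KILL LEMMA in the line model, leaf [KC] of `KLdef_446`: EXIT COUNTING for the region boxes `Om`
and for the `ρ`-exits (helper996).

* `ex_local`  : `∑_{m ≤ L} #{exits of Om within D 2^L of (c, d)} ≤ KC D · 4^L` (all `k' ≤ 6`);
* `ex_global` : `∑_m ∑_{q ∈ Q} ∑_{p ∈ P} [exit of Om] ≤ 54 · #Q · len J`;
* `scale_count` : counting when every position has at most `κ` exit scales;
* `exit_and`  : an exit of `al ∧ G` is an exit of `al` or of `G`. -/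

set_option autoImplicit false

namespace Crest.Agent.R079.KC996

open Finset Crest.Agent.R079.Grid Crest.Agent.R079.Glue Crest.Agent.R079.Growth
  Crest.Agent.R079.QRed Crest.Agent.R079.KLx446

/-! ### double counting on the line -/

open Classical in
/-- `V` is a union of cells of length `N`: its `r`-neighbourhood is at most `(2 (r + N) + 1) / N` times
larger (local form) -/
theorem card_nbhd (V Y : Finset ℤ) (N r : ℕ) (hN : 0 < N)
    (hV : ∀ y ∈ V, ∀ y' : ℤ, y' / (N : ℤ) = y / (N : ℤ) → y' ∈ V) :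
    (Y.filter fun η => ∃ y ∈ V, |y - η| ≤ (r : ℤ)).card * N ≤
      (V.filter fun y => ∃ η ∈ Y, |y - η| ≤ (r : ℤ) + N).card * (2 * (r + N) + 1) := by
  have hN' : (0 : ℤ) < N := by exact_mod_cast hN
  refine Finset.card_mul_le_card_mul (fun (η y : ℤ) => |y - η| ≤ (r : ℤ) + N) ?_ ?_
  · intro η hη
    rw [Finset.mem_filter] at hη
    obtain ⟨hηY, y, hyV, hy⟩ := hη
    have hcell : (Ico (y / N * N) ((y / N + 1) * N) : Finset ℤ).card = N := by
      rw [Int.card_Ico]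
      rw [show (y / (N : ℤ) + 1) * N - y / (N : ℤ) * N = (N : ℤ) by ring]
      exact Int.toNat_natCast _
    refine hcell.symm.le.trans (Finset.card_le_card fun z hz => ?_)
    rw [Finset.mem_Ico] at hz
    have hzd : z / (N : ℤ) = y / (N : ℤ) := by
      apply le_antisymm
      · have := Int.ediv_lt_of_lt_mul hN' hz.2
        omega
      · exact Int.le_ediv_of_mul_le hN' hz.1
    have hzV := hV y hyV z hzd
    have h1 := Int.mul_ediv_add_emod y N
    have h2 := Int.emod_nonneg y hN'.ne'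
    have h3 := Int.emod_lt_of_pos y hN'
    have h4 : (y / N + 1) * N = y / N * N + N := by ring
    have h5 : (N : ℤ) * (y / N) = y / N * N := by ring
    have hzy : |z - y| ≤ N := by
      rw [abs_le]
      constructor
      · nlinarith [hz.1]
      · nlinarith [hz.2]
    have hzη : |z - η| ≤ (r : ℤ) + N := by
      calc |z - η| = |(z - y) + (y - η)| := by ring_nf
        _ ≤ |z - y| + |y - η| := abs_add_le _ _
        _ ≤ N + r := add_le_add hzy hy
        _ = _ := by ring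
    rw [Finset.mem_bipartiteAbove, Finset.mem_filter]
    exact ⟨⟨hzV, η, hηY, hzη⟩, hzη⟩
  · intro y hy
    have hc : (Icc (y - ((r : ℤ) + N)) (y + ((r : ℤ) + N)) : Finset ℤ).card = 2 * (r + N) + 1 := by
      rw [Int.card_Icc]
      rw [show y + ((r : ℤ) + N) + 1 - (y - ((r : ℤ) + N)) = ((2 * (r + N) + 1 : ℕ) : ℤ) by
        push_cast; ring]
      exact Int.toNat_natCast _
    refine le_trans (Finset.card_le_card fun η hη => ?_) hc.le
    rw [Finset.mem_bipartiteBelow] at hη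
    have h := abs_le.1 hη.2
    rw [Finset.mem_Icc]
    constructor <;> linarith [h.1, h.2]

/-! ### the changing set of a region -/

/-- points alive at level `m + k'` and dead at level `m` -/
noncomputable def Vm (R : Finset Nd) (k' m : ℕ) : Finset ℤ := Rm R (m + k') \ Rm R m

lemma mem_Vm {R : Finset Nd} {k' m : ℕ} {y : ℤ} :
    y ∈ Vm R k' m ↔ (m + k', y / 2 ^ (m + k' + 7)) ∈ R ∧ (m, y / 2 ^ (m + 7)) ∉ R := by
  unfold Vm
  rw [Finset.mem_sdiff, mem_Rm, mem_Rm]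

lemma Vm_cell {R : Finset Nd} {k' m : ℕ} {y y' : ℤ} (hy : y ∈ Vm R k' m)
    (h : y' / ((2 ^ (m + 7) : ℕ) : ℤ) = y / ((2 ^ (m + 7) : ℕ) : ℤ)) : y' ∈ Vm R k' m := by
  push_cast at h
  rw [mem_Vm] at hy ⊢
  rw [h]
  have e : ∀ z : ℤ, z / 2 ^ (m + k' + 7) = (z / 2 ^ (m + 7)) / 2 ^ k' := by
    intro z
    rw [show m + k' + 7 = m + 7 + k' by omega, ediv_pow_ediv]
  rw [e, h, ← e]
  exact hy

lemma Rm_mono' {R : Finset Nd} {J : Nd} (hR : IsRegion R J) {m m' : ℕ} (h : m ≤ m') (h' : m' ≤ J.1) :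
    Rm R m ⊆ Rm R m' := by
  induction m', h using Nat.le_induction with
  | base => exact Finset.Subset.refl _
  | succ n hn ih => exact (ih (by omega)).trans (Rm_mono R J hR n h')

lemma Rm_level {R : Finset Nd} {J : Nd} (hR : IsRegion R J) {m : ℕ} {y : ℤ} (h : y ∈ Rm R m) :
    m ≤ J.1 := by
  rw [mem_Rm] at h
  exact level_le R J hR _ h

open Classical in
/-- every point changes at at most `k'` scales -/
lemma card_scales {R : Finset Nd} {J : Nd} (hR : IsRegion R J) (k' M : ℕ) (y : ℤ) :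
    ((range M).filter fun m => y ∈ Vm R k' m).card ≤ k' := by
  rcases ((range M).filter fun m => y ∈ Vm R k' m).eq_empty_or_nonempty with h | h
  · rw [h]; simp
  · obtain ⟨m0, hm0, hmin⟩ := Finset.exists_min_image _ (fun m => m) h
    have hsub : ((range M).filter fun m => y ∈ Vm R k' m) ⊆ Finset.Ico m0 (m0 + k') := by
      intro m hm
      rw [Finset.mem_Ico]
      refine ⟨hmin m hm, ?_⟩
      by_contra hc
      push Not at hc
      rw [Finset.mem_filter] at hm hm0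
      have h1 := (Finset.mem_sdiff.1 hm.2)
      have h2 := (Finset.mem_sdiff.1 hm0.2)
      have hlev := Rm_level hR h1.1
      exact h1.2 (Rm_mono' hR hc (by omega) h2.1)
    refine (Finset.card_le_card hsub).trans ?_
    rw [Nat.card_Ico]
    omega

open Classical in
/-- total number of changes of the points of `Y` -/
lemma sum_Vm {R : Finset Nd} {J : Nd} (hR : IsRegion R J) (k' M : ℕ) (Y : Finset ℤ)
    (S : ℕ → Finset ℤ) (hS : ∀ m ∈ range M, S m ⊆ (Vm R k' m) ∩ Y) :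
    ∑ m ∈ range M, (S m).card ≤ k' * Y.card := by
  calc ∑ m ∈ range M, (S m).card
      ≤ ∑ m ∈ range M, (Y.filter fun y => y ∈ Vm R k' m).card := by
        refine Finset.sum_le_sum fun m hm => Finset.card_le_card fun y hy => ?_
        have := Finset.mem_inter.1 (hS m hm hy)
        exact Finset.mem_filter.2 ⟨this.2, this.1⟩
    _ = ∑ m ∈ range M, ∑ y ∈ Y, (if y ∈ Vm R k' m then 1 else 0) := by
        refine Finset.sum_congr rfl fun m _ => ?_
        rw [Finset.card_filter]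
    _ = ∑ y ∈ Y, ∑ m ∈ range M, (if y ∈ Vm R k' m then 1 else 0) := Finset.sum_comm
    _ = ∑ y ∈ Y, ((range M).filter fun m => y ∈ Vm R k' m).card := by
        refine Finset.sum_congr rfl fun y _ => ?_
        rw [Finset.card_filter]
    _ ≤ ∑ y ∈ Y, k' := Finset.sum_le_sum fun y _ => card_scales hR k' M y
    _ = k' * Y.card := by rw [Finset.sum_const, smul_eq_mul, mul_comm]

/-! ### exits of `Om` -/

/-- an exit of `Om` sees a changing point near the shadow of its corner -/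
lemma exit_near {R : Finset Nd} {α β γ w : ℤ} (hc : Cof α β γ) {k' m : ℕ} {q p : ℤ}
    (h : ExitZ (Om R α β γ w) k' m q p) :
    ∃ y ∈ Vm R k' m, |y - (α * w + β * q + γ * p)| ≤ ((6 * 2 ^ (m + k') : ℕ) : ℤ) := by
  obtain ⟨h1, a, b, ha, hb, h2⟩ := h
  unfold Om at h2
  push Not at h2
  obtain ⟨x, hx, y, hy, hn⟩ := h2
  rw [Finset.mem_Ico] at hx hy
  have ha' : (a : ℤ) + 1 ≤ 2 ^ k' := by exact_mod_cast ha
  have hb' : (b : ℤ) + 1 ≤ 2 ^ k' := by exact_mod_cast hb
  have hm0 : (0 : ℤ) < 2 ^ m := by positivity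
  have ha0 : (0 : ℤ) ≤ a := by positivity
  have hb0 : (0 : ℤ) ≤ b := by positivity
  have e : (2 : ℤ) ^ (m + k') = 2 ^ k' * 2 ^ m := by rw [pow_add]; ring
  have hx1 : q ≤ x := by nlinarith [hx.1]
  have hx2 : x < q + 2 ^ (m + k') := by rw [e]; nlinarith [hx.2]
  have hy1 : p ≤ y := by nlinarith [hy.1]
  have hy2 : y < p + 2 ^ (m + k') := by rw [e]; nlinarith [hy.2]
  refine ⟨α * w + β * x + γ * y, ?_, ?_⟩
  · unfold Vm
    rw [Finset.mem_sdiff]
    exact ⟨h1 x (Finset.mem_Ico.2 ⟨hx1, hx2⟩) y (Finset.mem_Ico.2 ⟨hy1, hy2⟩), hn⟩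
  · have e1 : α * w + β * x + γ * y - (α * w + β * q + γ * p) = β * (x - q) + γ * (y - p) := by ring
    rw [e1]
    push_cast
    have b1 : |β * (x - q)| ≤ 3 * 2 ^ (m + k') := by
      rw [abs_mul]
      refine mul_le_mul hc.β3 ?_ (abs_nonneg _) (by norm_num)
      rw [abs_of_nonneg (by linarith)]
      linarith
    have b2 : |γ * (y - p)| ≤ 3 * 2 ^ (m + k') := by
      rw [abs_mul]
      refine mul_le_mul hc.γ3 ?_ (abs_nonneg _) (by norm_num)
      rw [abs_of_nonneg (by linarith)]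
      linarith
    calc |β * (x - q) + γ * (y - p)| ≤ |β * (x - q)| + |γ * (y - p)| := abs_add_le _ _
      _ ≤ 3 * 2 ^ (m + k') + 3 * 2 ^ (m + k') := add_le_add b1 b2
      _ = _ := by ring

open Classical in
/-- at fixed `q`: the positions `p` of the exits inject into the neighbourhood of the changing set -/
lemma exit_row {R : Finset Nd} {α β γ w : ℤ} (hc : Cof α β γ) {k' m : ℕ} (q : ℤ) (P Y : Finset ℤ)
    (hY : ∀ p ∈ P, α * w + β * q + γ * p ∈ Y) :
    (P.filter fun p => ExitZ (Om R α β γ w) k' m q p).card ≤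
      (Y.filter fun η => ∃ y ∈ Vm R k' m, |y - η| ≤ ((6 * 2 ^ (m + k') : ℕ) : ℤ)).card := by
  refine Finset.card_le_card_of_injOn (fun p => α * w + β * q + γ * p) ?_ ?_
  · intro p hp
    rw [Finset.mem_coe, Finset.mem_filter] at hp
    rw [Finset.mem_coe, Finset.mem_filter]
    exact ⟨hY p hp.1, exit_near hc hp.2⟩
  · intro p _ p' _ h
    simp only at h
    have : γ * (p - p') = 0 := by linarith
    rcases mul_eq_zero.1 this with h | h
    · exact absurd h hc.γ0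
    · linarith

open Classical in
/-- counting exits: `9` times the changing points near the shadows -/
lemma exit_row9 {R : Finset Nd} {α β γ w : ℤ} (hc : Cof α β γ) {k' m : ℕ} (hk : k' ≤ 6) (q : ℤ)
    (P Y : Finset ℤ) (hY : ∀ p ∈ P, α * w + β * q + γ * p ∈ Y) :
    (P.filter fun p => ExitZ (Om R α β γ w) k' m q p).card ≤
      9 * ((Vm R k' m).filter fun y => ∃ η ∈ Y, |y - η| ≤ ((512 * 2 ^ m : ℕ) : ℤ)).card := by
  have h0 := exit_row (R := R) (w := w) (k' := k') (m := m) hc q P Y hY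
  have h1 := card_nbhd (Vm R k' m) Y (2 ^ (m + 7)) (6 * 2 ^ (m + k')) (by positivity)
    (fun y hy y' h => Vm_cell hy h)
  have hpow : 2 ^ (m + k') ≤ 2 ^ m * 64 := by
    rw [pow_add]
    refine Nat.mul_le_mul le_rfl ?_
    calc 2 ^ k' ≤ 2 ^ 6 := Nat.pow_le_pow_right (by norm_num) hk
      _ = 64 := by norm_num
  have hm7 : 2 ^ (m + 7) = 2 ^ m * 128 := by rw [pow_add]; norm_num
  have hm0 : 1 ≤ 2 ^ m := Nat.one_le_two_pow
  set E := (Y.filter fun η => ∃ y ∈ Vm R k' m, |y - η| ≤ ((6 * 2 ^ (m + k') : ℕ) : ℤ)).card with hE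
  have h2 : ((Vm R k' m).filter fun y => ∃ η ∈ Y, |y - η| ≤ ((6 * 2 ^ (m + k') : ℕ) : ℤ) +
      ((2 ^ (m + 7) : ℕ) : ℤ)).card ≤
      ((Vm R k' m).filter fun y => ∃ η ∈ Y, |y - η| ≤ ((512 * 2 ^ m : ℕ) : ℤ)).card := by
    refine Finset.card_le_card fun y hy => ?_
    rw [Finset.mem_filter] at hy ⊢
    refine ⟨hy.1, ?_⟩
    obtain ⟨η, hη, hyη⟩ := hy.2
    refine ⟨η, hη, hyη.trans ?_⟩
    have : 6 * 2 ^ (m + k') + 2 ^ (m + 7) ≤ 512 * 2 ^ m := by rw [hm7]; omega
    exact_mod_cast this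
  set V := ((Vm R k' m).filter fun y => ∃ η ∈ Y, |y - η| ≤ ((512 * 2 ^ m : ℕ) : ℤ)).card with hV
  have h3 : E * 2 ^ (m + 7) ≤ V * (9 * 2 ^ (m + 7)) := by
    refine h1.trans (Nat.mul_le_mul h2 ?_)
    rw [hm7]
    omega
  have h4 : E ≤ 9 * V := by
    have hp : 0 < 2 ^ (m + 7) := by positivity
    refine Nat.le_of_mul_le_mul_right (c := 2 ^ (m + 7)) ?_ hp
    calc E * 2 ^ (m + 7) ≤ V * (9 * 2 ^ (m + 7)) := h3
      _ = 9 * V * 2 ^ (m + 7) := by ring
  exact h0.trans h4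

/-- the local constant -/
def KD (D : ℕ) : ℕ := 54 * ((2 * D + 1) * (12 * D + 1025))

open Classical in
/-- natural number form of the double sum -/
lemma sum_ite_card {A : ℕ → ℤ → ℤ → Prop} (M : ℕ) (Q P : Finset ℤ) :
    ∑ m ∈ range M, ∑ q ∈ Q, ∑ p ∈ P, (if A m q p then (1 : ℝ) else 0) =
      ((∑ m ∈ range M, ∑ q ∈ Q, (P.filter fun p => A m q p).card : ℕ) : ℝ) := by
  push_cast
  refine Finset.sum_congr rfl fun m _ => Finset.sum_congr rfl fun q _ => ?_
  rw [Finset.card_filter]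
  push_cast
  rfl

open Classical in
/-- **local exit count** -/
theorem ex_local {R : Finset Nd} {J : Nd} (hR : IsRegion R J) {α β γ : ℤ} (hc : Cof α β γ) (w : ℤ)
    {k' : ℕ} (hk : k' ≤ 6) (D L : ℕ) (c d : ℤ) :
    ∑ m ∈ range (L + 1), ∑ q ∈ Icc (c - D * 2 ^ L) (c + D * 2 ^ L),
      ∑ p ∈ Icc (d - D * 2 ^ L) (d + D * 2 ^ L),
        (if ExitZ (Om R α β γ w) k' m q p then (1 : ℝ) else 0) ≤ KD D * 4 ^ L := by
  rw [sum_ite_card]
  set η0 : ℤ := α * w + β * c + γ * d with hη0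
  set Y : Finset ℤ := Icc (η0 - 6 * D * 2 ^ L) (η0 + 6 * D * 2 ^ L) with hY
  set Z : Finset ℤ := Icc (η0 - (6 * D + 512) * 2 ^ L) (η0 + (6 * D + 512) * 2 ^ L) with hZ
  have hYmem : ∀ q ∈ Icc (c - D * 2 ^ L) (c + D * 2 ^ L), ∀ p ∈ Icc (d - D * 2 ^ L) (d + D * 2 ^ L),
      α * w + β * q + γ * p ∈ Y := by
    intro q hq p hp
    rw [Finset.mem_Icc] at hq hp
    have hq' : |q - c| ≤ D * 2 ^ L := abs_le.2 ⟨by linarith, by linarith⟩
    have hp' : |p - d| ≤ D * 2 ^ L := abs_le.2 ⟨by linarith, by linarith⟩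
    have b1 : |β * (q - c)| ≤ 3 * (D * 2 ^ L) := by
      rw [abs_mul]
      exact mul_le_mul hc.β3 hq' (abs_nonneg _) (by norm_num)
    have b2 : |γ * (p - d)| ≤ 3 * (D * 2 ^ L) := by
      rw [abs_mul]
      exact mul_le_mul hc.γ3 hp' (abs_nonneg _) (by norm_num)
    rw [hY, Finset.mem_Icc, hη0]
    have e1 := abs_le.1 b1
    have e2 := abs_le.1 b2
    constructor <;> nlinarith [e1.1, e1.2, e2.1, e2.2]
  have hQ : (Icc (c - D * 2 ^ L) (c + D * 2 ^ L) : Finset ℤ).card = 2 * (D * 2 ^ L) + 1 := by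
    rw [Int.card_Icc, show c + D * 2 ^ L + 1 - (c - D * 2 ^ L) = ((2 * (D * 2 ^ L) + 1 : ℕ) : ℤ) by
      push_cast; ring]
    exact Int.toNat_natCast _
  have hZc : Z.card = 2 * ((6 * D + 512) * 2 ^ L) + 1 := by
    rw [hZ, Int.card_Icc, show η0 + (6 * D + 512) * 2 ^ L + 1 - (η0 - (6 * D + 512) * 2 ^ L)
      = ((2 * ((6 * D + 512) * 2 ^ L) + 1 : ℕ) : ℤ) by push_cast; ring]
    exact Int.toNat_natCast _
  have key : ∑ m ∈ range (L + 1), ∑ q ∈ Icc (c - D * 2 ^ L) (c + D * 2 ^ L),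
      ((Icc (d - D * 2 ^ L) (d + D * 2 ^ L)).filter fun p => ExitZ (Om R α β γ w) k' m q p).card ≤
      (2 * (D * 2 ^ L) + 1) * (9 * (k' * Z.card)) := by
    calc ∑ m ∈ range (L + 1), ∑ q ∈ Icc (c - D * 2 ^ L) (c + D * 2 ^ L),
          ((Icc (d - D * 2 ^ L) (d + D * 2 ^ L)).filter fun p => ExitZ (Om R α β γ w) k' m q p).card
        ≤ ∑ m ∈ range (L + 1), ∑ _q ∈ Icc (c - (D : ℤ) * 2 ^ L) (c + D * 2 ^ L),
          9 * ((Vm R k' m).filter fun y => ∃ η ∈ Y, |y - η| ≤ ((512 * 2 ^ m : ℕ) : ℤ)).card := by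
          refine Finset.sum_le_sum fun m _ => Finset.sum_le_sum fun q hq => ?_
          exact exit_row9 hc hk q _ Y (fun p hp => hYmem q hq p hp)
      _ = (2 * (D * 2 ^ L) + 1) * (9 * ∑ m ∈ range (L + 1),
          ((Vm R k' m).filter fun y => ∃ η ∈ Y, |y - η| ≤ ((512 * 2 ^ m : ℕ) : ℤ)).card) := by
          rw [Finset.mul_sum, Finset.mul_sum]
          refine Finset.sum_congr rfl fun m _ => ?_
          rw [Finset.sum_const, smul_eq_mul, hQ]
      _ ≤ _ := by
          refine Nat.mul_le_mul le_rfl (Nat.mul_le_mul le_rfl ?_)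
          refine sum_Vm hR k' (L + 1) Z _ fun m hm => ?_
          intro y hy
          rw [Finset.mem_filter] at hy
          obtain ⟨hy1, η, hη, hyη⟩ := hy
          rw [Finset.mem_inter]
          refine ⟨hy1, ?_⟩
          rw [hY, Finset.mem_Icc] at hη
          rw [hZ, Finset.mem_Icc]
          have hpow : (2 : ℤ) ^ m ≤ 2 ^ L :=
            pow_le_pow_right₀ (by norm_num) (by have := Finset.mem_range.1 hm; omega)
          push_cast at hyη
          have := abs_le.1 hyη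
          constructor <;> nlinarith [this.1, this.2, hη.1, hη.2]
  have h1 : 1 ≤ 2 ^ L := Nat.one_le_two_pow
  have hfin : (2 * (D * 2 ^ L) + 1) * (9 * (k' * Z.card)) ≤ KD D * 4 ^ L := by
    rw [hZc]
    have e4 : (4 : ℕ) ^ L = 2 ^ L * 2 ^ L := by
      rw [show (4 : ℕ) = 2 * 2 by norm_num, mul_pow]
    rw [e4]
    unfold KD
    calc (2 * (D * 2 ^ L) + 1) * (9 * (k' * (2 * ((6 * D + 512) * 2 ^ L) + 1)))
        ≤ ((2 * D + 1) * 2 ^ L) * (9 * (6 * ((12 * D + 1025) * 2 ^ L))) := by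
          refine Nat.mul_le_mul ?_ (Nat.mul_le_mul le_rfl (Nat.mul_le_mul hk ?_))
          · nlinarith
          · nlinarith
      _ = _ := by ring
  calc ((∑ m ∈ range (L + 1), ∑ q ∈ Icc (c - D * 2 ^ L) (c + D * 2 ^ L),
      ((Icc (d - D * 2 ^ L) (d + D * 2 ^ L)).filter
        fun p => ExitZ (Om R α β γ w) k' m q p).card : ℕ) : ℝ)
      ≤ ((KD D * 4 ^ L : ℕ) : ℝ) := by exact_mod_cast key.trans hfin
    _ = _ := by push_cast; rfl

open Classical in
/-- **global exit count** -/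
theorem ex_global {R : Finset Nd} {J : Nd} (hR : IsRegion R J) {α β γ : ℤ} (hc : Cof α β γ) (w : ℤ)
    {k' : ℕ} (hk : k' ≤ 6) (M : ℕ) (Q P : Finset ℤ) :
    ∑ m ∈ range M, ∑ q ∈ Q, ∑ p ∈ P,
        (if ExitZ (Om R α β γ w) k' m q p then (1 : ℝ) else 0) ≤ 54 * (Q.card * len J) := by
  rw [sum_ite_card]
  have hV : ∀ m, Vm R k' m ⊆ iv J := by
    intro m y hy
    have := (Finset.mem_sdiff.1 hy).1
    exact Rm_subset_top R J hR _ this
  have key : ∑ m ∈ range M, ∑ q ∈ Q, (P.filter fun p => ExitZ (Om R α β γ w) k' m q p).card ≤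
      Q.card * (9 * (k' * (iv J).card)) := by
    calc ∑ m ∈ range M, ∑ q ∈ Q, (P.filter fun p => ExitZ (Om R α β γ w) k' m q p).card
        ≤ ∑ m ∈ range M, ∑ _q ∈ Q, 9 * (Vm R k' m).card := by
          refine Finset.sum_le_sum fun m _ => Finset.sum_le_sum fun q _ => ?_
          refine (exit_row9 hc hk q P (P.image fun p => α * w + β * q + γ * p)
            (fun p hp => Finset.mem_image_of_mem _ hp)).trans ?_
          exact Nat.mul_le_mul le_rfl (Finset.card_le_card (Finset.filter_subset _ _))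
      _ = Q.card * (9 * ∑ m ∈ range M, (Vm R k' m).card) := by
          rw [Finset.mul_sum, Finset.mul_sum]
          refine Finset.sum_congr rfl fun m _ => ?_
          rw [Finset.sum_const, smul_eq_mul]
      _ ≤ _ := by
          refine Nat.mul_le_mul le_rfl (Nat.mul_le_mul le_rfl ?_)
          refine sum_Vm hR k' M (iv J) _ fun m _ => ?_
          intro y hy
          exact Finset.mem_inter.2 ⟨hy, hV m hy⟩
  have hJ : (iv J).card = 2 ^ (J.1 + 7) := card_dI _ _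
  calc ((∑ m ∈ range M, ∑ q ∈ Q, (P.filter fun p => ExitZ (Om R α β γ w) k' m q p).card : ℕ) : ℝ)
      ≤ ((Q.card * (9 * (6 * 2 ^ (J.1 + 7))) : ℕ) : ℝ) := by
        refine Nat.cast_le.2 (key.trans ?_)
        rw [hJ]
        exact Nat.mul_le_mul le_rfl (Nat.mul_le_mul le_rfl (Nat.mul_le_mul hk le_rfl))
    _ = _ := by unfold len; push_cast; ring

/-! ### positions with few exit scales, combination -/

open Classical in
/-- every position has at most `κ` scales -/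
theorem scale_count {A : ℕ → ℤ → ℤ → Prop} {M κ : ℕ} {Q P : Finset ℤ}
    (h : ∀ q ∈ Q, ∀ p ∈ P, ((range M).filter fun m => A m q p).card ≤ κ) :
    ∑ m ∈ range M, ∑ q ∈ Q, ∑ p ∈ P, (if A m q p then (1 : ℝ) else 0) ≤
      κ * (Q.card * P.card) := by
  calc ∑ m ∈ range M, ∑ q ∈ Q, ∑ p ∈ P, (if A m q p then (1 : ℝ) else 0)
      = ∑ q ∈ Q, ∑ p ∈ P, ∑ m ∈ range M, (if A m q p then (1 : ℝ) else 0) := by
        rw [Finset.sum_comm]
        refine Finset.sum_congr rfl fun q _ => ?_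
        rw [Finset.sum_comm]
    _ ≤ ∑ q ∈ Q, ∑ p ∈ P, (κ : ℝ) := by
        refine Finset.sum_le_sum fun q hq => Finset.sum_le_sum fun p hp => ?_
        have h1 := h q hq p hp
        calc ∑ m ∈ range M, (if A m q p then (1 : ℝ) else 0)
            = (((range M).filter fun m => A m q p).card : ℝ) := by
              rw [Finset.card_filter]
              push_cast
              rfl
          _ ≤ κ := by exact_mod_cast h1
    _ = _ := by
        rw [Finset.sum_const, Finset.sum_const, nsmul_eq_mul, nsmul_eq_mul]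
        ring

open Classical in
/-- the same in the local box -/
theorem scale_count_local {A : ℕ → ℤ → ℤ → Prop} {κ D L : ℕ} {c d : ℤ}
    (h : ∀ q p : ℤ, ((range (L + 1)).filter fun m => A m q p).card ≤ κ) :
    ∑ m ∈ range (L + 1), ∑ q ∈ Icc (c - D * 2 ^ L) (c + D * 2 ^ L),
      ∑ p ∈ Icc (d - D * 2 ^ L) (d + D * 2 ^ L), (if A m q p then (1 : ℝ) else 0) ≤
      κ * (2 * D + 1) ^ 2 * 4 ^ L := by
  have hQ : ∀ c : ℤ, (Icc (c - D * 2 ^ L) (c + D * 2 ^ L) : Finset ℤ).card = 2 * (D * 2 ^ L) + 1 := by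
    intro c
    rw [Int.card_Icc, show c + D * 2 ^ L + 1 - (c - D * 2 ^ L) = ((2 * (D * 2 ^ L) + 1 : ℕ) : ℤ) by
      push_cast; ring]
    exact Int.toNat_natCast _
  refine (scale_count (fun q _ p _ => h q p)).trans ?_
  rw [hQ, hQ]
  have h1 : (1 : ℝ) ≤ 2 ^ L := one_le_pow₀ (by norm_num)
  have e4 : (4 : ℝ) ^ L = 2 ^ L * 2 ^ L := by
    rw [show (4 : ℝ) = 2 * 2 by norm_num, mul_pow]
  rw [e4]
  push_cast
  have h2 : (2 * ((D : ℝ) * 2 ^ L) + 1) ≤ (2 * D + 1) * 2 ^ L := by nlinarith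
  have h3 : (0 : ℝ) ≤ 2 * ((D : ℝ) * 2 ^ L) + 1 := by positivity
  calc (κ : ℝ) * ((2 * ((D : ℝ) * 2 ^ L) + 1) * (2 * (D * 2 ^ L) + 1))
      ≤ κ * (((2 * D + 1) * 2 ^ L) * ((2 * D + 1) * 2 ^ L)) := by
        refine mul_le_mul_of_nonneg_left ?_ (by positivity)
        exact mul_le_mul h2 h2 h3 (by positivity)
    _ = _ := by ring

/-- an exit of `al ∧ G` is an exit of `al` or of `G` -/
theorem exit_and {al G : ℕ → ℤ → ℤ → Prop} {k' m : ℕ} {q p : ℤ}
    (h : ExitZ (fun m q p => al m q p ∧ G m q p) k' m q p) :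
    ExitZ al k' m q p ∨ ExitZ G k' m q p := by
  obtain ⟨h1, a, b, ha, hb, h2⟩ := h
  by_cases h3 : al m (q + a * 2 ^ m) (p + b * 2 ^ m)
  · exact Or.inr ⟨h1.2, a, b, ha, hb, fun h4 => h2 ⟨h3, h4⟩⟩
  · exact Or.inl ⟨h1.1, a, b, ha, hb, h3⟩

/-- no exit for a domain -/
theorem exit_dom {x0 x1 y0 y1 : ℤ} {k' m : ℕ} {q p : ℤ} :
    ¬ ExitZ (Dm2 x0 x1 y0 y1) k' m q p := by
  rintro ⟨⟨h1, h2, h3, h4⟩, a, b, ha, hb, h⟩
  apply h
  have ha' : (a : ℤ) + 1 ≤ 2 ^ k' := by exact_mod_cast ha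
  have hb' : (b : ℤ) + 1 ≤ 2 ^ k' := by exact_mod_cast hb
  have hm0 : (0 : ℤ) < 2 ^ m := by positivity
  have ha0 : (0 : ℤ) ≤ a := by positivity
  have hb0 : (0 : ℤ) ≤ b := by positivity
  have e : (2 : ℤ) ^ (m + k') = 2 ^ k' * 2 ^ m := by rw [pow_add]; ring
  rw [e] at h2 h4
  refine ⟨by nlinarith, by nlinarith, by nlinarith, by nlinarith⟩

open Classical in
/-- monotonicity of the counts -/
theorem count_mono {A B : ℕ → ℤ → ℤ → Prop} (h : ∀ m q p, A m q p → B m q p) (M : ℕ)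
    (Q P : Finset ℤ) :
    ∑ m ∈ range M, ∑ q ∈ Q, ∑ p ∈ P, (if A m q p then (1 : ℝ) else 0) ≤
      ∑ m ∈ range M, ∑ q ∈ Q, ∑ p ∈ P, (if B m q p then (1 : ℝ) else 0) := by
  refine Finset.sum_le_sum fun m _ => Finset.sum_le_sum fun q _ => Finset.sum_le_sum fun p _ => ?_
  by_cases hA : A m q p
  · rw [if_pos hA, if_pos (h m q p hA)]
  · rw [if_neg hA]
    split_ifs <;> norm_num

open Classical in
theorem count_or {A B C : ℕ → ℤ → ℤ → Prop} (h : ∀ m q p, A m q p → B m q p ∨ C m q p) (M : ℕ)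
    (Q P : Finset ℤ) :
    ∑ m ∈ range M, ∑ q ∈ Q, ∑ p ∈ P, (if A m q p then (1 : ℝ) else 0) ≤
      ∑ m ∈ range M, ∑ q ∈ Q, ∑ p ∈ P, (if B m q p then (1 : ℝ) else 0) +
      ∑ m ∈ range M, ∑ q ∈ Q, ∑ p ∈ P, (if C m q p then (1 : ℝ) else 0) := by
  rw [← Finset.sum_add_distrib]
  refine Finset.sum_le_sum fun m _ => ?_
  rw [← Finset.sum_add_distrib]
  refine Finset.sum_le_sum fun q _ => ?_
  rw [← Finset.sum_add_distrib]
  refine Finset.sum_le_sum fun p _ => ?_
  by_cases hA : A m q p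
  · rw [if_pos hA]
    rcases h m q p hA with hB | hC
    · rw [if_pos hB]
      split_ifs <;> norm_num
    · rw [if_pos hC]
      split_ifs <;> norm_num
  · rw [if_neg hA]
    split_ifs <;> norm_num

end Crest.Agent.R079.KC996
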