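import Crest.Agent.R079.KLdef_446

/-! R079, KILL LEMMA, part B (helper446): leaves of a full region, geometry of the leaf strips, and the
OPERATOR BOUND on the good boxes. -/

set_option autoImplicit false

namespace Crest.Agent.R079.KLx446

open Finset Crest.Agent.R079.Grid Crest.Agent.R079.Glue Crest.Agent.R079.Growth
  Crest.Agent.R079.QRed Crest.Agent.R079.BadTx138

/-! ### leaves -/

section leaves

variable {R : Finset Nd} {J : Nd}

lemma mem_iv {p : Nd} {y : ℤ} : y ∈ iv p ↔ y / 2 ^ (p.1 + 7) = p.2 := mem_dI_iff _ _ _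

lemma anc {y : ℤ} {m : ℕ} {l : ℤ} (n : ℕ) (h : y / 2 ^ (m + 7) = l) :
    y / 2 ^ (m + n + 7) = l / 2 ^ n := by
  rw [show m + n + 7 = m + 7 + n by ring, ediv_pow_ediv, h]

/-- going up in the region -/
lemma up_mem (hR : IsRegion R J) {y : ℤ} {m m' : ℕ} (hm : (m, y / 2 ^ (m + 7)) ∈ R)
    (hmm : m ≤ m') (hm' : m' ≤ J.1) : (m', y / 2 ^ (m' + 7)) ∈ R := by
  have htop : y ∈ dI (J.1 + 7) J.2 := hR.1 _ hm ((mem_dI_iff _ _ _).2 rfl)
  rw [mem_dI_iff] at htop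
  obtain ⟨n, rfl⟩ := Nat.exists_eq_add_of_le hmm
  obtain ⟨n', hn'⟩ := Nat.exists_eq_add_of_le hm'
  refine hR.2 _ hm (m + n, y / 2 ^ (m + n + 7)) ?_ ?_
  · intro z hz
    rw [mem_dI_iff] at hz ⊢
    simp only at hz ⊢
    rw [anc n hz, anc n rfl]
  · intro z hz
    rw [mem_dI_iff] at hz ⊢
    simp only at hz
    rw [hn'] at htop ⊢
    rw [anc n' hz, ← anc n' rfl, htop]

lemma lv_spec (hR : Full R J) {y : ℤ} (hy : y ∈ iv J) : (lv R y, y / 2 ^ (lv R y + 7)) ∈ R := by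
  have h : J.1 ∈ {m | (m, y / 2 ^ (m + 7)) ∈ R} := by
    simp only [Set.mem_ofPred_eq]
    rw [mem_iv] at hy
    rw [hy]
    exact hR.top
  exact Nat.sInf_mem (s := {m | (m, y / 2 ^ (m + 7)) ∈ R}) ⟨_, h⟩

lemma lv_le (hR : Full R J) {y : ℤ} (hy : y ∈ iv J) : lv R y ≤ J.1 := by
  have h : J.1 ∈ {m | (m, y / 2 ^ (m + 7)) ∈ R} := by
    simp only [Set.mem_ofPred_eq]
    rw [mem_iv] at hy
    rw [hy]
    exact hR.top
  exact Nat.sInf_le h

lemma lv_le_of_mem {y : ℤ} {m : ℕ} (h : y ∈ Rm R m) : lv R y ≤ m := by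
  rw [mem_Rm] at h
  exact Nat.sInf_le h

lemma mem_J_of_Rm (hR : Full R J) {y : ℤ} {m : ℕ} (h : y ∈ Rm R m) : y ∈ iv J :=
  Rm_subset_top R J hR.reg m h

lemma mem_Rm_iff (hR : Full R J) {y : ℤ} (hy : y ∈ iv J) {m : ℕ} (hm : m ≤ J.1) :
    y ∈ Rm R m ↔ lv R y ≤ m := by
  refine ⟨lv_le_of_mem, fun h => ?_⟩
  rw [mem_Rm]
  exact up_mem hR.reg (lv_spec hR hy) h hm

lemma lfp_mem (hR : Full R J) {y : ℤ} (hy : y ∈ iv J) : lfp R y ∈ R := lv_spec hR hy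

lemma mem_lfp (y : ℤ) : y ∈ iv (lfp R y) := by
  rw [mem_iv]
  rfl

lemma lfp_sub (hR : Full R J) {y : ℤ} (hy : y ∈ iv J) : iv (lfp R y) ⊆ iv J :=
  hR.reg.1 _ (lfp_mem hR hy)

lemma lv_congr (hR : Full R J) {y y' : ℤ} (hy : y ∈ iv J) (hy' : y' ∈ iv (lfp R y)) :
    lv R y' = lv R y := by
  have h1 : y' / 2 ^ (lv R y + 7) = y / 2 ^ (lv R y + 7) := by
    rw [mem_iv] at hy'
    exact hy'
  have hm := lv_spec hR hy
  have hle : lv R y' ≤ lv R y := by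
    apply Nat.sInf_le
    simp only [Set.mem_ofPred_eq]
    rw [h1]
    exact hm
  by_contra hne
  have hlt : lv R y' < lv R y := lt_of_le_of_ne hle hne
  obtain ⟨n, hn⟩ : ∃ n, lv R y = n + 1 := Nat.exists_eq_succ_of_ne_zero (by omega)
  have hyJ : y' ∈ iv J := lfp_sub hR hy hy'
  have h2 := up_mem hR.reg (lv_spec hR hyJ) (show lv R y' ≤ n by omega)
    (by have := lv_le hR hy; omega)
  set l := y / 2 ^ (lv R y + 7) with hl
  have e1 : y' / 2 ^ (n + 7) / 2 = l := by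
    have := ediv_pow_ediv y' (n + 7) 1
    rw [pow_one] at this
    rw [← this, show n + 7 + 1 = lv R y + 7 by omega, h1]
  have e2 : y / 2 ^ (n + 7) / 2 = l := by
    have := ediv_pow_ediv y (n + 7) 1
    rw [pow_one] at this
    rw [← this, show n + 7 + 1 = lv R y + 7 by omega]
  have hbin := hR.bin n l (by rw [← hn]; exact hm)
  have h3 : (n, y / 2 ^ (n + 7)) ∈ R := by
    have a1 : y' / 2 ^ (n + 7) = 2 * l ∨ y' / 2 ^ (n + 7) = 2 * l + 1 := by omega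
    have a2 : y / 2 ^ (n + 7) = 2 * l ∨ y / 2 ^ (n + 7) = 2 * l + 1 := by omega
    rcases a1 with a1 | a1 <;> rcases a2 with a2 | a2 <;> rw [a1] at h2 <;> rw [a2]
    · exact h2
    · exact hbin.1 h2
    · exact hbin.2 h2
    · exact h2
  have h4 : lv R y ≤ n := Nat.sInf_le h3
  omega

lemma lfp_congr (hR : Full R J) {y y' : ℤ} (hy : y ∈ iv J) (hy' : y' ∈ iv (lfp R y)) :
    lfp R y' = lfp R y := by
  have h := lv_congr hR hy hy'
  have h1 : y' / 2 ^ (lv R y + 7) = y / 2 ^ (lv R y + 7) := by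
    rw [mem_iv] at hy'
    exact hy'
  unfold lfp
  rw [h, h1]

lemma mem_iv_Ico {p : Nd} {y : ℤ} : y ∈ iv p ↔ p.2 * 2 ^ (p.1 + 7) ≤ y ∧ y < (p.2 + 1) * 2 ^ (p.1 + 7) := by
  unfold iv dI
  rw [Finset.mem_Ico]

end leaves

/-! ### arithmetic -/

lemma div_near {x x' N k : ℤ} (hN : 0 < N) (h : |x - x'| ≤ k * N) : |x / N - x' / N| ≤ k := by
  have h1 := Int.ediv_mul_le x hN.ne'
  have h2 := Int.lt_ediv_add_one_mul_self x hN
  have h3 := Int.ediv_mul_le x' hN.ne'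
  have h4 := Int.lt_ediv_add_one_mul_self x' hN
  rw [abs_le] at h ⊢
  constructor
  · by_contra hc
    push Not at hc
    have : (x / N - x' / N + 1) * N ≤ (-k) * N := mul_le_mul_of_nonneg_right (by linarith) hN.le
    nlinarith [h.1]
  · by_contra hc
    push Not at hc
    have : (k + 1) * N ≤ (x / N - x' / N) * N := mul_le_mul_of_nonneg_right (by linarith) hN.le
    nlinarith [h.2]

lemma div_lt {x a N : ℤ} (hN : 0 < N) : x ∈ Ico (a * N) ((a + 1) * N) ↔ x / N = a := by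
  rw [Finset.mem_Ico]
  constructor
  · rintro ⟨h1, h2⟩
    have h3 : a ≤ x / N := by rwa [Int.le_ediv_iff_mul_le hN]
    have h4 : x / N < a + 1 := by rwa [Int.ediv_lt_iff_lt_mul hN]
    omega
  · rintro rfl
    exact ⟨Int.ediv_mul_le x hN.ne', Int.lt_ediv_add_one_mul_self x hN⟩

/-- charging lemma -/
lemma charge {ι ζ : Type*} [DecidableEq ζ] (S : Finset ι) (Z : Finset ζ) (G : ι → Finset ζ)
    (hG : ∀ κ ∈ S, G κ ⊆ Z) (wt : ι → ℝ) (hw : ∀ κ ∈ S, wt κ ≤ (G κ).card) (M : ℝ)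
    (hM : ∀ z ∈ Z, (((S.filter fun κ => z ∈ G κ).card : ℕ) : ℝ) ≤ M) :
    ∑ κ ∈ S, wt κ ≤ M * Z.card := by
  classical
  have h1 : ∑ κ ∈ S, wt κ ≤ ∑ κ ∈ S, ∑ z ∈ Z, (if z ∈ G κ then (1 : ℝ) else 0) := by
    refine Finset.sum_le_sum fun κ hκ => (hw κ hκ).trans (le_of_eq ?_)
    rw [← Finset.sum_filter, Finset.sum_const, nsmul_eq_mul, mul_one]
    congr 2
    ext z
    rw [Finset.mem_filter]
    exact ⟨fun h => ⟨hG κ hκ h, h⟩, fun h => h.2⟩
  refine h1.trans ?_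
  rw [Finset.sum_comm]
  have h2 : ∀ z ∈ Z, ∑ κ ∈ S, (if z ∈ G κ then (1 : ℝ) else 0) ≤ M := by
    intro z hz
    refine le_trans (le_of_eq ?_) (hM z hz)
    rw [← Finset.sum_filter, Finset.sum_const, nsmul_eq_mul, mul_one]
  refine (Finset.sum_le_sum h2).trans (le_of_eq ?_)
  rw [Finset.sum_const, nsmul_eq_mul, mul_comm]

/-- direction in which a leaf strip is entered: a run of `N` values `t ∈ [3N, 4N)` -/
lemma run {p : Nd} {η δ g : ℤ} (hη : η ∈ iv p) (hδ : |δ| ≤ 3 * 2 ^ p.1) (hg : g ≠ 0)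
    (hg3 : |g| ≤ 3) : ∃ σ : ℤ, (σ = 1 ∨ σ = -1) ∧ ∀ t : ℤ, 3 * 2 ^ p.1 ≤ t → t < 4 * 2 ^ p.1 →
      η + δ + g * (σ * t) ∈ iv p := by
  have hN : (0 : ℤ) < 2 ^ p.1 := by positivity
  rw [mem_iv_Ico] at hη
  have e7 : (2 : ℤ) ^ (p.1 + 7) = 128 * 2 ^ p.1 := by rw [pow_add]; ring
  rw [e7] at hη
  obtain ⟨h1, h2⟩ := hη
  rw [abs_le] at hδ hg3
  rcases lt_or_ge (η - p.2 * (128 * 2 ^ p.1)) (64 * 2 ^ p.1) with hc | hc
  · -- move up
    refine ⟨if 0 < g then 1 else -1, by split_ifs <;> simp, fun t ht ht' => ?_⟩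
    rw [mem_iv_Ico, e7]
    split_ifs with hg0
    · constructor
      · nlinarith
      · nlinarith
    · have hg1 : g ≤ -1 := by omega
      constructor
      · nlinarith
      · nlinarith
  · refine ⟨if 0 < g then -1 else 1, by split_ifs <;> simp, fun t ht ht' => ?_⟩
    rw [mem_iv_Ico, e7]
    split_ifs with hg0
    · constructor
      · nlinarith
      · nlinarith
    · have hg1 : g ≤ -1 := by omega
      constructor
      · nlinarith
      · nlinarith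

/-- one octant (three steps of length `< 2 N`) around a point of a leaf strip lies in the strip -/
lemma octant {p : Nd} {η : ℤ} (hη : η ∈ iv p) {a b c : ℤ} (ha : a ≠ 0) (hb : b ≠ 0) (hc : c ≠ 0)
    (ha3 : |a| ≤ 3) (hb3 : |b| ≤ 3) (hc3 : |c| ≤ 3) :
    ∃ σ τ υ : ℤ, (σ = 1 ∨ σ = -1) ∧ (τ = 1 ∨ τ = -1) ∧ (υ = 1 ∨ υ = -1) ∧
      ∀ i j k : ℤ, 0 ≤ i → i < 2 ^ p.1 → 0 ≤ j → j < 2 ^ p.1 → 0 ≤ k → k < 2 ^ p.1 →
        η + a * (σ * i) + b * (τ * j) + c * (υ * k) ∈ iv p := by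
  have hN : (0 : ℤ) < 2 ^ p.1 := by positivity
  rw [mem_iv_Ico] at hη
  have e7 : (2 : ℤ) ^ (p.1 + 7) = 128 * 2 ^ p.1 := by rw [pow_add]; ring
  rw [e7] at hη
  obtain ⟨h1, h2⟩ := hη
  have key : ∀ g : ℤ, g ≠ 0 → |g| ≤ 3 → ∀ up : Bool, ∃ σ : ℤ, (σ = 1 ∨ σ = -1) ∧
      ∀ t : ℤ, 0 ≤ t → t < 2 ^ p.1 → (if up then 0 ≤ g * (σ * t) ∧ g * (σ * t) ≤ 3 * 2 ^ p.1
        else g * (σ * t) ≤ 0 ∧ -(3 * 2 ^ p.1) ≤ g * (σ * t)) := by
    intro g hg hg3 up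
    rw [abs_le] at hg3
    rcases lt_or_gt_of_ne hg with h | h
    · cases up
      · refine ⟨1, Or.inl rfl, fun t ht ht' => ?_⟩
        simp only [Bool.false_eq_true, if_false]
        constructor <;> nlinarith
      · refine ⟨-1, Or.inr rfl, fun t ht ht' => ?_⟩
        simp only [if_true]
        constructor <;> nlinarith
    · cases up
      · refine ⟨-1, Or.inr rfl, fun t ht ht' => ?_⟩
        simp only [Bool.false_eq_true, if_false]
        constructor <;> nlinarith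
      · refine ⟨1, Or.inl rfl, fun t ht ht' => ?_⟩
        simp only [if_true]
        constructor <;> nlinarith
  rcases lt_or_ge (η - p.2 * (128 * 2 ^ p.1)) (64 * 2 ^ p.1) with hd | hd
  · obtain ⟨σ, hσ, kσ⟩ := key a ha ha3 true
    obtain ⟨τ, hτ, kτ⟩ := key b hb hb3 true
    obtain ⟨υ, hυ, kυ⟩ := key c hc hc3 true
    refine ⟨σ, τ, υ, hσ, hτ, hυ, fun i j k i0 i1 j0 j1 k0 k1 => ?_⟩
    have a1 := kσ i i0 i1
    have a2 := kτ j j0 j1
    have a3 := kυ k k0 k1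
    simp only [if_true] at a1 a2 a3
    rw [mem_iv_Ico, e7]
    constructor <;> linarith [a1.1, a1.2, a2.1, a2.2, a3.1, a3.2]
  · obtain ⟨σ, hσ, kσ⟩ := key a ha ha3 false
    obtain ⟨τ, hτ, kτ⟩ := key b hb hb3 false
    obtain ⟨υ, hυ, kυ⟩ := key c hc hc3 false
    refine ⟨σ, τ, υ, hσ, hτ, hυ, fun i j k i0 i1 j0 j1 k0 k1 => ?_⟩
    have a1 := kσ i i0 i1
    have a2 := kτ j j0 j1
    have a3 := kυ k k0 k1
    simp only [Bool.false_eq_true, if_false] at a1 a2 a3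
    rw [mem_iv_Ico, e7]
    constructor <;> linarith [a1.1, a1.2, a2.1, a2.2, a3.1, a3.2]

end Crest.Agent.R079.KLx446
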