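import Crest.Agent.R079.CKh_217
import Crest.Agent.R079.KC_996
import Crest.Agent.R079.KLb_446

/-! R079 (helper217), CELLKILL part 3 (note 1095 (5)): ONE LAYER at one frozen value, from the ragged
corner on `ℤ` (`CornerZ` of KLdef_446). -/

set_option autoImplicit false

namespace Crest.Agent.R079.CKi217

open Finset Crest.Agent.R079.Grid Crest.Agent.R079.Glue Crest.Agent.R079.Growth
  Crest.Agent.R079.QRed Crest.Agent.R079.KLx446 Crest.Agent.R079.CKh217 Crest.Agent.R079.KC996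

/-- coefficients: `α, β, γ` of the killer letter, `β2, γ2` of the strips -/
structure Geo (α β γ β2 γ2 : ℤ) : Prop where
  cof : Cof α β γ
  b0 : β2 ≠ 0
  g0 : γ2 ≠ 0
  b3 : |β2| ≤ 3
  g3 : |γ2| ≤ 3

/-- strip coordinate -/
def vv (β2 γ2 s' q u : ℤ) : ℤ := β2 * q + γ2 * u - s'

theorem vv_lip {β2 γ2 : ℤ} (hb : |β2| ≤ 3) (hg : |γ2| ≤ 3) (s' : ℤ) {q u q' u' d : ℤ}
    (h1 : |q - q'| ≤ d) (h2 : |u - u'| ≤ d) : |vv β2 γ2 s' q u - vv β2 γ2 s' q' u'| ≤ 6 * d := by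
  have e : vv β2 γ2 s' q u - vv β2 γ2 s' q' u' = β2 * (q - q') + γ2 * (u - u') := by
    unfold vv; ring
  rw [e]
  have a1 : |β2 * (q - q')| ≤ 3 * d := by
    rw [abs_mul]
    exact mul_le_mul hb h1 (abs_nonneg _) (by norm_num)
  have a2 : |γ2 * (u - u')| ≤ 3 * d := by
    rw [abs_mul]
    exact mul_le_mul hg h2 (abs_nonneg _) (by norm_num)
  exact (abs_add_le _ _).trans (by linarith)

/-- the alive predicate of a layer: `Om`, domain, `ρ < 128 · 2^m`, and a further predicate -/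
def alK (R : Finset Nd) (α β γ w β2 γ2 s' x0 x1 y0 y1 : ℤ) (g : ℤ → ℝ) (γt : ℝ)
    (Pr : ℕ → ℤ → ℤ → Prop) (m : ℕ) (q u : ℤ) : Prop :=
  (Om R α β γ w m q u ∧ Dm2 x0 x1 y0 y1 m q u) ∧
    (¬ Pv g γt (vv β2 γ2 s' q u) (128 * 2 ^ m) ∧ Pr m q u)

/-- `Pr` has no exits -/
def NoEx (Pr : ℕ → ℤ → ℤ → Prop) : Prop :=
  ∀ (m k' : ℕ) (q u : ℤ) (a b : ℕ), 1 ≤ k' → k' ≤ 6 → a < 2 ^ k' → b < 2 ^ k' → Pr (m + k') q u →
    Pr m (q + a * 2 ^ m) (u + b * 2 ^ m)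

theorem noEx_true : NoEx fun _ _ _ => True := fun _ _ _ _ _ _ _ _ _ _ _ => trivial

theorem noEx_strip {β2 γ2 : ℤ} (hb : |β2| ≤ 3) (hg : |γ2| ≤ 3) (s' : ℤ) (g : ℤ → ℝ) (γt : ℝ) :
    NoEx fun m q u => Pv g γt (vv β2 γ2 s' q u) (127 * 2 ^ m) := by
  intro m k' q u a b hk hk6 ha hb' h
  have hm0 : (0 : ℤ) < 2 ^ m := by positivity
  have ha' : (a : ℤ) + 1 ≤ 2 ^ k' := by exact_mod_cast ha
  have hb'' : (b : ℤ) + 1 ≤ 2 ^ k' := by exact_mod_cast hb'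
  have ha0 : (0 : ℤ) ≤ a := by positivity
  have hb0 : (0 : ℤ) ≤ b := by positivity
  have h1 : |q - (q + a * 2 ^ m)| ≤ (2 ^ k' - 1) * 2 ^ m := by
    rw [show q - (q + (a : ℤ) * 2 ^ m) = -((a : ℤ) * 2 ^ m) by ring, abs_neg, abs_of_nonneg
      (by positivity)]
    exact mul_le_mul_of_nonneg_right (by linarith) hm0.le
  have h2 : |u - (u + b * 2 ^ m)| ≤ (2 ^ k' - 1) * 2 ^ m := by
    rw [show u - (u + (b : ℤ) * 2 ^ m) = -((b : ℤ) * 2 ^ m) by ring, abs_neg, abs_of_nonneg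
      (by positivity)]
    exact mul_le_mul_of_nonneg_right (by linarith) hm0.le
  refine (h.lip (vv_lip hb hg s' h1 h2)).anti ?_
  have e : (2 : ℤ) ^ (m + k') = 2 ^ k' * 2 ^ m := by rw [pow_add]; ring
  rw [e]
  have h3 : (2 : ℤ) ≤ 2 ^ k' := by
    calc (2 : ℤ) = 2 ^ 1 := by norm_num
      _ ≤ 2 ^ k' := pow_le_pow_right₀ (by norm_num) hk
  nlinarith

/-- an exit needs `k' ≥ 1` -/
theorem exit_pos {al : ℕ → ℤ → ℤ → Prop} {k' m : ℕ} {q p : ℤ} (h : ExitZ al k' m q p) : 1 ≤ k' := by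
  rcases Nat.eq_zero_or_pos k' with h0 | h0
  · exfalso
    subst h0
    obtain ⟨h1, a, b, ha, hb, h2⟩ := h
    simp only [pow_zero, Nat.lt_one_iff] at ha hb
    subst ha hb
    apply h2
    simpa using h1
  · exact h0

/-- exits of a layer -/
theorem exit_alK {R : Finset Nd} {α β γ w β2 γ2 s' x0 x1 y0 y1 : ℤ} {g : ℤ → ℝ} {γt : ℝ}
    {Pr : ℕ → ℤ → ℤ → Prop} (hb : |β2| ≤ 3) (hg : |γ2| ≤ 3) (hPr : NoEx Pr) {k' m : ℕ} {q p : ℤ}
    (hk : k' ≤ 6) (h : ExitZ (alK R α β γ w β2 γ2 s' x0 x1 y0 y1 g γt Pr) k' m q p) :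
    (ExitZ (Om R α β γ w) k' m q p ∨ (Pv g γt (vv β2 γ2 s' q p) (65 * 2 ^ m) ∧
      ¬ Pv g γt (vv β2 γ2 s' q p) (8192 * 2 ^ m))) ∧ Dm2 x0 x1 y0 y1 (m + k') q p := by
  have hk1 := exit_pos h
  refine ⟨?_, h.1.1.2⟩
  obtain ⟨h1, a, b, ha, hb', h2⟩ := h
  have hm0 : (0 : ℤ) < 2 ^ m := by positivity
  have ha' : (a : ℤ) + 1 ≤ 2 ^ k' := by exact_mod_cast ha
  have hb'' : (b : ℤ) + 1 ≤ 2 ^ k' := by exact_mod_cast hb'
  have ha0 : (0 : ℤ) ≤ a := by positivity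
  have hb0 : (0 : ℤ) ≤ b := by positivity
  have h64 : (2 : ℤ) ^ k' ≤ 64 := by
    calc (2 : ℤ) ^ k' ≤ 2 ^ 6 := pow_le_pow_right₀ (by norm_num) hk
      _ = 64 := by norm_num
  have e : (2 : ℤ) ^ (m + k') = 2 ^ k' * 2 ^ m := by rw [pow_add]; ring
  by_cases hO : Om R α β γ w m (q + a * 2 ^ m) (p + b * 2 ^ m)
  swap
  · exact Or.inl ⟨h1.1.1, a, b, ha, hb', hO⟩
  have hD : Dm2 x0 x1 y0 y1 m (q + a * 2 ^ m) (p + b * 2 ^ m) := by
    by_contra hc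
    exact exit_dom ⟨h1.1.2, a, b, ha, hb', hc⟩
  have hP := hPr m k' q p a b hk1 hk ha hb' h1.2.2
  have hv : Pv g γt (vv β2 γ2 s' (q + a * 2 ^ m) (p + b * 2 ^ m)) (128 * 2 ^ m) := by
    by_contra hc
    exact h2 ⟨⟨hO, hD⟩, hc, hP⟩
  refine Or.inr ⟨?_, ?_⟩
  · have g1 : |q + a * 2 ^ m - q| ≤ 63 * 2 ^ m := by
      rw [show q + (a : ℤ) * 2 ^ m - q = (a : ℤ) * 2 ^ m by ring, abs_of_nonneg (by positivity)]
      exact mul_le_mul_of_nonneg_right (by linarith) hm0.le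
    have g2 : |p + b * 2 ^ m - p| ≤ 63 * 2 ^ m := by
      rw [show p + (b : ℤ) * 2 ^ m - p = (b : ℤ) * 2 ^ m by ring, abs_of_nonneg (by positivity)]
      exact mul_le_mul_of_nonneg_right (by linarith) hm0.le
    exact (hv.lip (vv_lip hb hg s' g1 g2)).anti (by linarith)
  · intro hc
    refine h1.2.1 (hc.anti ?_)
    rw [e]
    nlinarith

open Classical in
/-- few scales -/
theorem pv_scales {g : ℤ → ℝ} {γt : ℝ} (v : ℤ) (M : ℕ) :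
    ((range M).filter fun m => Pv g γt v (65 * 2 ^ m) ∧
      ¬ Pv g γt v (8192 * 2 ^ m)).card ≤ 7 := by
  rcases ((range M).filter fun m => Pv g γt v (65 * 2 ^ m) ∧
      ¬ Pv g γt v (8192 * 2 ^ m)).eq_empty_or_nonempty with h | h
  · rw [h]; simp
  · obtain ⟨m0, hm0, hmin⟩ := Finset.exists_min_image _ (fun m => m) h
    have hsub : ((range M).filter fun m => Pv g γt v (65 * 2 ^ m) ∧
      ¬ Pv g γt v (8192 * 2 ^ m)) ⊆ Finset.Ico m0 (m0 + 7) := by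
      intro m hm
      rw [Finset.mem_Ico]
      refine ⟨hmin m hm, ?_⟩
      by_contra hc
      push Not at hc
      rw [Finset.mem_filter] at hm hm0
      refine hm0.2.2 (hm.2.1.anti ?_)
      have h1 : (2 : ℤ) ^ (m0 + 7) ≤ 2 ^ m := pow_le_pow_right₀ (by norm_num) hc
      have h2 : (2 : ℤ) ^ (m0 + 7) = 128 * 2 ^ m0 := by rw [pow_add]; ring
      have h3 : (0 : ℤ) < 2 ^ m0 := by positivity
      linarith
    refine (Finset.card_le_card hsub).trans ?_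
    rw [Nat.card_Ico]
    omega

/-! ### counting -/

open Classical in
theorem ind_restrict {A : ℤ → ℤ → Prop} {Q P Q' P' : Finset ℤ}
    (h : ∀ q p, A q p → q ∈ Q' ∧ p ∈ P') :
    ∑ q ∈ Q, ∑ p ∈ P, (if A q p then (1 : ℝ) else 0) ≤
      ∑ q ∈ Q', ∑ p ∈ P', (if A q p then (1 : ℝ) else 0) := by
  have h0 : ∀ q p, (0 : ℝ) ≤ if A q p then (1 : ℝ) else 0 := fun q p => by split_ifs <;> norm_num
  have h1 : ∀ q, ∑ p ∈ P, (if A q p then (1 : ℝ) else 0) ≤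
      if q ∈ Q' then ∑ p ∈ P', (if A q p then (1 : ℝ) else 0) else 0 := by
    intro q
    by_cases hq : q ∈ Q'
    · rw [if_pos hq]
      calc ∑ p ∈ P, (if A q p then (1 : ℝ) else 0)
          = ∑ p ∈ P.filter (fun p => p ∈ P'), (if A q p then (1 : ℝ) else 0) := by
            rw [Finset.sum_filter]
            refine Finset.sum_congr rfl fun p _ => ?_
            by_cases hp : p ∈ P'
            · rw [if_pos hp]
            · rw [if_neg hp, if_neg fun hA => hp (h q p hA).2]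
        _ ≤ _ := Finset.sum_le_sum_of_subset_of_nonneg
            (fun p hp => (Finset.mem_filter.1 hp).2) fun p _ _ => h0 q p
    · rw [if_neg hq]
      refine le_of_eq (Finset.sum_eq_zero fun p _ => ?_)
      rw [if_neg fun hA => hq (h q p hA).1]
  calc ∑ q ∈ Q, ∑ p ∈ P, (if A q p then (1 : ℝ) else 0)
      ≤ ∑ q ∈ Q, (if q ∈ Q' then ∑ p ∈ P', (if A q p then (1 : ℝ) else 0) else 0) :=
        Finset.sum_le_sum fun q _ => h1 q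
    _ = ∑ q ∈ Q.filter (fun q => q ∈ Q'), ∑ p ∈ P', (if A q p then (1 : ℝ) else 0) := by
        rw [Finset.sum_filter]
    _ ≤ _ := Finset.sum_le_sum_of_subset_of_nonneg
        (fun q hq => (Finset.mem_filter.1 hq).2) fun q _ _ => Finset.sum_nonneg fun p _ => h0 q p

theorem dm2_mem {x0 x1 y0 y1 : ℤ} {m : ℕ} {q u : ℤ} (h : Dm2 x0 x1 y0 y1 m q u) :
    q ∈ Icc x0 x1 ∧ u ∈ Icc y0 y1 := by
  have hm0 : (0 : ℤ) < 2 ^ m := by positivity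
  obtain ⟨h1, h2, h3, h4⟩ := h
  rw [Finset.mem_Icc, Finset.mem_Icc]
  exact ⟨⟨h1, by linarith⟩, ⟨h3, by linarith⟩⟩

/-- the local exit constant -/
noncomputable def C1L : ℝ := KD 31 + 7 * (2 * 31 + 1) ^ 2

open Classical in
theorem ex_alK_local {R : Finset Nd} {J : Nd} (hR : IsRegion R J)
    {α β γ w β2 γ2 s' x0 x1 y0 y1 : ℤ} (hG : Geo α β γ β2 γ2) {g : ℤ → ℝ} {γt : ℝ}
    {Pr : ℕ → ℤ → ℤ → Prop} (hPr : NoEx Pr) {k' : ℕ} (hk : k' ≤ 6) (L : ℕ) (c d : ℤ) :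
    ∑ m ∈ range (L + 1), ∑ q ∈ Icc (c - (31 : ℕ) * 2 ^ L) (c + (31 : ℕ) * 2 ^ L),
      ∑ p ∈ Icc (d - (31 : ℕ) * 2 ^ L) (d + (31 : ℕ) * 2 ^ L),
        (if ExitZ (alK R α β γ w β2 γ2 s' x0 x1 y0 y1 g γt Pr) k' m q p then (1 : ℝ) else 0) ≤
      C1L * 4 ^ L := by
  refine (count_or (B := fun m q p => ExitZ (Om R α β γ w) k' m q p)
    (C := fun m q p => Pv g γt (vv β2 γ2 s' q p) (65 * 2 ^ m) ∧
      ¬ Pv g γt (vv β2 γ2 s' q p) (8192 * 2 ^ m))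
    (fun m q p h => (exit_alK hG.b3 hG.g3 hPr hk h).1) _ _ _).trans ?_
  have h1 := ex_local hR hG.cof w hk 31 L c d
  have h2 := scale_count_local (A := fun m q p => Pv g γt (vv β2 γ2 s' q p) (65 * 2 ^ m) ∧
      ¬ Pv g γt (vv β2 γ2 s' q p) (8192 * 2 ^ m)) (κ := 7) (D := 31) (L := L) (c := c) (d := d)
      (fun q p => by convert pv_scales (g := g) (γt := γt) (vv β2 γ2 s' q p) (L + 1))
  refine (add_le_add h1 h2).trans (le_of_eq ?_)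
  unfold C1L
  push_cast
  ring

open Classical in
theorem ex_alK_global {R : Finset Nd} {J : Nd} (hR : IsRegion R J)
    {α β γ w β2 γ2 s' x0 x1 y0 y1 : ℤ} (hG : Geo α β γ β2 γ2) {g : ℤ → ℝ} {γt : ℝ}
    {Pr : ℕ → ℤ → ℤ → Prop} (hPr : NoEx Pr) {k' : ℕ} (hk : k' ≤ 6) (M : ℕ) (Q P : Finset ℤ) :
    ∑ m ∈ range M, ∑ q ∈ Q, ∑ p ∈ P,
        (if ExitZ (alK R α β γ w β2 γ2 s' x0 x1 y0 y1 g γt Pr) k' m q p then (1 : ℝ) else 0) ≤
      54 * ((Icc x0 x1).card * len J) + 7 * ((Icc x0 x1).card * (Icc y0 y1).card) := by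
  have h0 : ∑ m ∈ range M, ∑ q ∈ Q, ∑ p ∈ P,
        (if ExitZ (alK R α β γ w β2 γ2 s' x0 x1 y0 y1 g γt Pr) k' m q p then (1 : ℝ) else 0) ≤
      ∑ m ∈ range M, ∑ q ∈ Icc x0 x1, ∑ p ∈ Icc y0 y1,
        (if ExitZ (alK R α β γ w β2 γ2 s' x0 x1 y0 y1 g γt Pr) k' m q p then (1 : ℝ) else 0) :=
    Finset.sum_le_sum fun m _ => ind_restrict fun q p h =>
      dm2_mem (exit_alK hG.b3 hG.g3 hPr hk h).2
  refine h0.trans ((count_or (B := fun m q p => ExitZ (Om R α β γ w) k' m q p)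
    (C := fun m q p => Pv g γt (vv β2 γ2 s' q p) (65 * 2 ^ m) ∧
      ¬ Pv g γt (vv β2 γ2 s' q p) (8192 * 2 ^ m))
    (fun m q p h => (exit_alK hG.b3 hG.g3 hPr hk h).1) _ _ _).trans ?_)
  have h1 := ex_global hR hG.cof w hk M (Icc x0 x1) (Icc y0 y1)
  have h2 := scale_count (A := fun m q p => Pv g γt (vv β2 γ2 s' q p) (65 * 2 ^ m) ∧
      ¬ Pv g γt (vv β2 γ2 s' q p) (8192 * 2 ^ m)) (M := M) (κ := 7) (Q := Icc x0 x1)
      (P := Icc y0 y1)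
      (fun q _ p _ => by convert pv_scales (g := g) (γt := γt) (vv β2 γ2 s' q p) M)
  exact add_le_add h1 (by exact_mod_cast h2)

open Classical in
theorem ar_alK {R : Finset Nd} {α β γ w β2 γ2 s' x0 x1 y0 y1 : ℤ} {g : ℤ → ℝ} {γt : ℝ}
    {Pr : ℕ → ℤ → ℤ → Prop} (m : ℕ) (Q P : Finset ℤ) :
    ∑ q ∈ Q, ∑ p ∈ P,
        (if alK R α β γ w β2 γ2 s' x0 x1 y0 y1 g γt Pr m q p then (1 : ℝ) else 0) ≤
      (Icc x0 x1).card * (Icc y0 y1).card := by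
  refine (ind_restrict fun q p h => dm2_mem h.1.2).trans ?_
  calc ∑ q ∈ Icc x0 x1, ∑ p ∈ Icc y0 y1,
        (if alK R α β γ w β2 γ2 s' x0 x1 y0 y1 g γt Pr m q p then (1 : ℝ) else 0)
      ≤ ∑ _q ∈ Icc x0 x1, ∑ _p ∈ Icc y0 y1, (1 : ℝ) :=
        Finset.sum_le_sum fun q _ => Finset.sum_le_sum fun p _ => by split_ifs <;> norm_num
    _ = _ := by simp

/-! ### Schur bound -/

theorem schur_opZ {C : ℤ → ℤ → ℝ} {N : ℕ} {q p : ℤ} {c : ℝ} (hc : 0 ≤ c)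
    (h1 : ∀ x ∈ Ico q (q + N), ∑ y ∈ Ico p (p + N), |C x y| ≤ c)
    (h2 : ∀ y ∈ Ico p (p + N), ∑ x ∈ Ico q (q + N), |C x y| ≤ c) : OpZ C N q p c := by
  intro f g
  set X := Ico q (q + (N : ℤ)) with hX
  set Y := Ico p (p + (N : ℤ)) with hY
  have e1 : |∑ x ∈ X, ∑ y ∈ Y, f x * C x y * g y| ≤
      ∑ z ∈ X ×ˢ Y, (|f z.1| * Real.sqrt |C z.1 z.2|) * (|g z.2| * Real.sqrt |C z.1 z.2|) := by
    rw [← Finset.sum_product' X Y (fun x y => f x * C x y * g y)]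
    refine (Finset.abs_sum_le_sum_abs _ _).trans (le_of_eq ?_)
    refine Finset.sum_congr rfl fun z _ => ?_
    rw [abs_mul, abs_mul]
    have : |C z.1 z.2| = Real.sqrt |C z.1 z.2| * Real.sqrt |C z.1 z.2| :=
      (Real.mul_self_sqrt (abs_nonneg _)).symm
    calc |f z.1| * |C z.1 z.2| * |g z.2| =
        |f z.1| * (Real.sqrt |C z.1 z.2| * Real.sqrt |C z.1 z.2|) * |g z.2| := by rw [← this]
      _ = _ := by ring
  have e2 := Finset.sum_mul_sq_le_sq_mul_sq (X ×ˢ Y) (fun z => |f z.1| * Real.sqrt |C z.1 z.2|)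
    (fun z => |g z.2| * Real.sqrt |C z.1 z.2|)
  have e3 : ∑ z ∈ X ×ˢ Y, (|f z.1| * Real.sqrt |C z.1 z.2|) ^ 2 ≤ c * ∑ x ∈ X, f x ^ 2 := by
    have a1 : ∑ z ∈ X ×ˢ Y, (|f z.1| * Real.sqrt |C z.1 z.2|) ^ 2 =
        ∑ x ∈ X, ∑ y ∈ Y, f x ^ 2 * |C x y| := by
      rw [Finset.sum_product' X Y (fun x y => (|f x| * Real.sqrt |C x y|) ^ 2)]
      refine Finset.sum_congr rfl fun x _ => Finset.sum_congr rfl fun y _ => ?_
      rw [mul_pow, sq_abs, Real.sq_sqrt (abs_nonneg _)]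
    rw [a1, Finset.mul_sum]
    refine Finset.sum_le_sum fun x hx => ?_
    rw [← Finset.mul_sum, mul_comm]
    exact mul_le_mul_of_nonneg_right (h1 x hx) (sq_nonneg _)
  have e4 : ∑ z ∈ X ×ˢ Y, (|g z.2| * Real.sqrt |C z.1 z.2|) ^ 2 ≤ c * ∑ y ∈ Y, g y ^ 2 := by
    have a1 : ∑ z ∈ X ×ˢ Y, (|g z.2| * Real.sqrt |C z.1 z.2|) ^ 2 =
        ∑ y ∈ Y, ∑ x ∈ X, g y ^ 2 * |C x y| := by
      rw [Finset.sum_product' X Y (fun x y => (|g y| * Real.sqrt |C x y|) ^ 2), Finset.sum_comm]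
      refine Finset.sum_congr rfl fun x _ => Finset.sum_congr rfl fun y _ => ?_
      rw [mul_pow, sq_abs, Real.sq_sqrt (abs_nonneg _)]
    rw [a1, Finset.mul_sum]
    refine Finset.sum_le_sum fun y hy => ?_
    rw [← Finset.mul_sum, mul_comm]
    exact mul_le_mul_of_nonneg_right (h2 y hy) (sq_nonneg _)
  have n1 : 0 ≤ ∑ z ∈ X ×ˢ Y, (|f z.1| * Real.sqrt |C z.1 z.2|) ^ 2 :=
    Finset.sum_nonneg fun _ _ => sq_nonneg _
  have n2 : 0 ≤ ∑ x ∈ X, f x ^ 2 := Finset.sum_nonneg fun _ _ => sq_nonneg _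
  have n3 : 0 ≤ ∑ y ∈ Y, g y ^ 2 := Finset.sum_nonneg fun _ _ => sq_nonneg _
  calc (∑ x ∈ X, ∑ y ∈ Y, f x * C x y * g y) ^ 2
      = |∑ x ∈ X, ∑ y ∈ Y, f x * C x y * g y| ^ 2 := (sq_abs _).symm
    _ ≤ (∑ z ∈ X ×ˢ Y, (|f z.1| * Real.sqrt |C z.1 z.2|) * (|g z.2| * Real.sqrt |C z.1 z.2|)) ^ 2 :=
        pow_le_pow_left₀ (abs_nonneg _) e1 2
    _ ≤ _ := e2
    _ ≤ (c * ∑ x ∈ X, f x ^ 2) * (c * ∑ y ∈ Y, g y ^ 2) :=
        mul_le_mul e3 e4 (Finset.sum_nonneg fun _ _ => sq_nonneg _) (by positivity)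
    _ = _ := by ring

/-- sums of `g` along a line are sums over an interval -/
theorem line_sum {g : ℤ → ℝ} (hg : ∀ v, 0 ≤ g v) {a c v0 : ℤ} (ha : a ≠ 0) {P : Finset ℤ} {r : ℤ}
    (h : ∀ y ∈ P, |a * y + c - v0| ≤ r) :
    ∑ y ∈ P, g (a * y + c) ≤ ∑ v ∈ Icc (v0 - r) (v0 + r), g v := by
  classical
  rw [← Finset.sum_image (f := g) (g := fun y => a * y + c) (s := P)]
  · refine Finset.sum_le_sum_of_subset_of_nonneg ?_ fun v _ _ => hg v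
    intro v hv
    rw [Finset.mem_image] at hv
    obtain ⟨y, hy, rfl⟩ := hv
    have := abs_le.1 (h y hy)
    rw [Finset.mem_Icc]
    constructor <;> linarith [this.1, this.2]
  · intro y _ y' _ hyy
    have : a * y = a * y' := by simpa using hyy
    exact mul_left_cancel₀ ha this

theorem opZ_layer {β2 γ2 s' : ℤ} (hb0 : β2 ≠ 0) (hg0 : γ2 ≠ 0) (hb : |β2| ≤ 3) (hg : |γ2| ≤ 3)
    {g : ℤ → ℝ} (hgn : ∀ v, 0 ≤ g v) {γt M0 : ℝ} (hγ : 0 ≤ γt) (hM0 : 0 ≤ M0) {C : ℤ → ℤ → ℝ}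
    (hC : ∀ x y, |C x y| ≤ M0 * g (vv β2 γ2 s' x y)) {m : ℕ} {q p : ℤ}
    (h : ¬ Pv g γt (vv β2 γ2 s' q p) (128 * 2 ^ m)) :
    OpZ C (2 ^ m) q p (2 ^ m * (17 * M0 * γt)) := by
  have hS := schur_sum hgn h
  have hm0 : (0 : ℤ) < 2 ^ m := by positivity
  have hnear : ∀ x ∈ Ico q (q + ((2 ^ m : ℕ) : ℤ)), ∀ y ∈ Ico p (p + ((2 ^ m : ℕ) : ℤ)),
      |vv β2 γ2 s' x y - vv β2 γ2 s' q p| ≤ 7 * 2 ^ m := by
    intro x hx y hy
    rw [Finset.mem_Ico] at hx hy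
    push_cast at hx hy
    have := vv_lip hb hg s' (q := x) (u := y) (q' := q) (u' := p) (d := 2 ^ m)
      (by rw [abs_le]; constructor <;> linarith [hx.1, hx.2])
      (by rw [abs_le]; constructor <;> linarith [hy.1, hy.2])
    linarith
  refine schur_opZ (by positivity) ?_ ?_
  · intro x hx
    calc ∑ y ∈ Ico p (p + ((2 ^ m : ℕ) : ℤ)), |C x y|
        ≤ ∑ y ∈ Ico p (p + ((2 ^ m : ℕ) : ℤ)), M0 * g (γ2 * y + (β2 * x - s')) := by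
          refine Finset.sum_le_sum fun y _ => ?_
          have := hC x y
          rwa [show vv β2 γ2 s' x y = γ2 * y + (β2 * x - s') by unfold vv; ring] at this
      _ = M0 * ∑ y ∈ Ico p (p + ((2 ^ m : ℕ) : ℤ)), g (γ2 * y + (β2 * x - s')) := by
          rw [Finset.mul_sum]
      _ ≤ M0 * (17 * (γt * 2 ^ m)) := by
          refine mul_le_mul_of_nonneg_left (le_trans ?_ hS) hM0
          refine line_sum hgn hg0 fun y hy => ?_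
          have := hnear x hx y hy
          rwa [show γ2 * y + (β2 * x - s') = vv β2 γ2 s' x y by unfold vv; ring]
      _ = _ := by ring
  · intro y hy
    calc ∑ x ∈ Ico q (q + ((2 ^ m : ℕ) : ℤ)), |C x y|
        ≤ ∑ x ∈ Ico q (q + ((2 ^ m : ℕ) : ℤ)), M0 * g (β2 * x + (γ2 * y - s')) := by
          refine Finset.sum_le_sum fun x _ => ?_
          have := hC x y
          rwa [show vv β2 γ2 s' x y = β2 * x + (γ2 * y - s') by unfold vv; ring] at this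
      _ = M0 * ∑ x ∈ Ico q (q + ((2 ^ m : ℕ) : ℤ)), g (β2 * x + (γ2 * y - s')) := by
          rw [Finset.mul_sum]
      _ ≤ M0 * (17 * (γt * 2 ^ m)) := by
          refine mul_le_mul_of_nonneg_left (le_trans ?_ hS) hM0
          refine line_sum hgn hb0 fun x hx => ?_
          have := hnear x hx y hy
          rwa [show β2 * x + (γ2 * y - s') = vv β2 γ2 s' x y by unfold vv; ring]
      _ = _ := by ring

/-! ### one layer -/

open Classical in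
/-- **ONE LAYER AT ONE FROZEN VALUE** -/
theorem layer (hCZ : CornerZ) : ∃ K : ℝ, 0 ≤ K ∧ ∀ (R : Finset Nd) (J : Nd), IsRegion R J →
    ∀ (α β γ β2 γ2 s' w x0 x1 y0 y1 : ℤ), Geo α β γ β2 γ2 → ∀ g : ℤ → ℝ, (∀ v, 0 ≤ g v) →
    ∀ γt M0 Hg HA δ : ℝ, 0 < γt → 0 < M0 → (∀ v, g v ≤ Hg) → 0 < HA → 0 < δ →
    ∀ Pr : ℕ → ℤ → ℤ → Prop, NoEx Pr → ∀ (A B C : ℤ → ℤ → ℝ) (S0 : ℕ),
    (∀ x y, A x y ≠ 0 → |x| ≤ S0 ∧ |y| ≤ S0) → (∀ x y, B x y ≠ 0 → |x| ≤ S0 ∧ |y| ≤ S0) →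
    (∀ x y, C x y ≠ 0 → |x| ≤ S0 ∧ |y| ≤ S0) → |x0| ≤ S0 → |x1| ≤ S0 → |y0| ≤ S0 → |y1| ≤ S0 →
    (∀ x y, |A x y| ≤ HA) → (∀ x y, |B x y| ≤ HA) →
    (∀ x y, |C x y| ≤ M0 * g (vv β2 γ2 s' x y)) → ∀ (J0 : ℕ) (Ar : ℝ),
    54 * ((Icc x0 x1).card * len J) + 7 * ((Icc x0 x1).card * (Icc y0 y1).card) ≤ Ar →
    (M0 * Hg) ^ 2 * Ar ≤ (17 * M0 * γt) ^ 2 * (δ / HA ^ 2 * 2 ^ J0) →
    ∀ l : ℤ, |l| ≤ 7 → ∀ L1 : ℕ,
    ∑ m ∈ range (J.1 + 1), (1 / (2 : ℝ) ^ m) * ∑ i ∈ range (2 ^ m),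
      ∑ p0 ∈ Icc (-(L1 : ℤ)) L1, ∑ p1 ∈ Icc (-(L1 : ℤ)) L1,
        (if Al4Z (alK R α β γ w β2 γ2 s' x0 x1 y0 y1 g γt Pr) m
          (l * 2 ^ m + (i : ℤ) - w - p0 - p1) p0 then
          |Lb3r A B C (2 ^ m) p0 p1 (l * 2 ^ m + (i : ℤ) - w - p0 - p1)| else 0) ≤
      K * (2 * J0 + 1) * ((17 * M0 * γt) *
        √(∑ x ∈ Icc (-(S0 : ℤ)) S0, ∑ y ∈ Icc (-(S0 : ℤ)) S0, A x y ^ 2 + δ) *
        √(∑ x ∈ Icc (-(S0 : ℤ)) S0, ∑ y ∈ Icc (-(S0 : ℤ)) S0, B x y ^ 2 + δ)) := by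
  have hK : ∀ l : ℤ, ∃ K : ℝ, 0 ≤ K ∧ (|l| ≤ 7 → _) := fun l => by
    by_cases hl : |l| ≤ 7
    · obtain ⟨K, h0, h1⟩ := hCZ l hl C1L
      exact ⟨K, h0, fun _ => h1⟩
    · exact ⟨0, le_rfl, fun h => absurd h hl⟩
  choose Kl hKl0 hKl using hK
  refine ⟨∑ l ∈ Icc (-7 : ℤ) 7, Kl l, Finset.sum_nonneg fun l _ => hKl0 l, ?_⟩
  intro R J hR α β γ β2 γ2 s' w x0 x1 y0 y1 hG g hgn γt M0 Hg HA δ hγ hM0 hgH hHA hδ Pr hPr A B C S0
    hA0 hB0 hC0 hx0 hx1 hy0 hy1 hA hB hC J0 Ar hAr hJ0 l hl L1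
  set a2 : ℝ := ∑ x ∈ Icc (-(S0 : ℤ)) S0, ∑ y ∈ Icc (-(S0 : ℤ)) S0, A x y ^ 2 + δ with ha2
  set b2 : ℝ := ∑ x ∈ Icc (-(S0 : ℤ)) S0, ∑ y ∈ Icc (-(S0 : ℤ)) S0, B x y ^ 2 + δ with hb2
  have hsA : 0 ≤ ∑ x ∈ Icc (-(S0 : ℤ)) S0, ∑ y ∈ Icc (-(S0 : ℤ)) S0, A x y ^ 2 :=
    Finset.sum_nonneg fun _ _ => Finset.sum_nonneg fun _ _ => sq_nonneg _
  have hsB : 0 ≤ ∑ x ∈ Icc (-(S0 : ℤ)) S0, ∑ y ∈ Icc (-(S0 : ℤ)) S0, B x y ^ 2 :=
    Finset.sum_nonneg fun _ _ => Finset.sum_nonneg fun _ _ => sq_nonneg _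
  set al := alK R α β γ w β2 γ2 s' x0 x1 y0 y1 g γt Pr with hal
  set τ : ℝ := 17 * M0 * γt with hτ
  have hτ0 : 0 < τ := by positivity
  have hpt : ∀ (F : ℤ → ℤ → ℝ) (a : ℝ), (∀ x y, |F x y| ≤ HA) → δ ≤ a → ∀ x y,
      F x y ^ 2 ≤ a / (δ / HA ^ 2) := by
    intro F a hF ha x y
    rw [le_div_iff₀ (by positivity)]
    have h1 : F x y ^ 2 ≤ HA ^ 2 := by
      rw [← sq_abs]
      exact pow_le_pow_left₀ (abs_nonneg _) (hF x y) 2
    calc F x y ^ 2 * (δ / HA ^ 2) ≤ HA ^ 2 * (δ / HA ^ 2) :=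
          mul_le_mul_of_nonneg_right h1 (by positivity)
      _ = δ := by field_simp
      _ ≤ a := ha
  have hcard : (0 : ℝ) ≤ ((Icc x0 x1).card : ℝ) * (Icc y0 y1).card := by positivity
  have hlJ : 0 < len J := by unfold len; positivity
  have hReg : RegZ C al (J.1 + 1) 6 31 S0 τ C1L := by
    refine ⟨?_, ?_, ?_⟩
    · intro m q p h
      have h1 := dm2_mem h.1.2
      rw [Finset.mem_Icc, Finset.mem_Icc] at h1
      refine ⟨?_, ?_, ?_⟩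
      · have h2 := h.1.1 q (Finset.mem_Ico.2 ⟨le_rfl, by
          have : (0 : ℤ) < 2 ^ m := by positivity
          linarith⟩) p (Finset.mem_Ico.2 ⟨le_rfl, by
          have : (0 : ℤ) < 2 ^ m := by positivity
          linarith⟩)
        have := Rm_level hR h2
        omega
      · have a1 := abs_le.1 hx0
        have a2 := abs_le.1 hx1
        rw [abs_le]; constructor <;> linarith [h1.1.1, h1.1.2, a1.1, a2.2]
      · have a1 := abs_le.1 hy0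
        have a2 := abs_le.1 hy1
        rw [abs_le]; constructor <;> linarith [h1.2.1, h1.2.2, a1.1, a2.2]
    · intro m q p h
      exact opZ_layer hG.b0 hG.g0 hG.b3 hG.g3 hgn hγ.le hM0.le hC h.2.1
    · intro k' hk' L c d
      exact ex_alK_local hR hG hPr hk' L c d
  have hLast : LastZ C al (J.1 + 1) 6 S0 ((M0 * Hg) ^ 2) Ar := by
    refine ⟨?_, ?_, ?_⟩
    · intro m q p _
      have h1 : ∀ x y, C x y ^ 2 ≤ (M0 * Hg) ^ 2 := by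
        intro x y
        rw [← sq_abs]
        refine pow_le_pow_left₀ (abs_nonneg _) ?_ 2
        exact (hC x y).trans (mul_le_mul_of_nonneg_left (hgH _) hM0.le)
      calc ∑ x ∈ Ico q (q + (2 : ℤ) ^ m), ∑ y ∈ Ico p (p + (2 : ℤ) ^ m), C x y ^ 2
          ≤ ∑ _x ∈ Ico q (q + (2 : ℤ) ^ m), ∑ _y ∈ Ico p (p + (2 : ℤ) ^ m), (M0 * Hg) ^ 2 :=
            Finset.sum_le_sum fun x _ => Finset.sum_le_sum fun y _ => h1 x y
        _ = 4 ^ m * (M0 * Hg) ^ 2 := by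
            rw [Finset.sum_const, Finset.sum_const, nsmul_eq_mul, nsmul_eq_mul, Int.card_Ico,
              Int.card_Ico]
            have e : ∀ z : ℤ, (z + 2 ^ m - z).toNat = 2 ^ m := by
              intro z
              rw [show z + (2 : ℤ) ^ m - z = ((2 ^ m : ℕ) : ℤ) by push_cast; ring,
                Int.toNat_natCast]
            have e4 : (4 : ℝ) ^ m = 2 ^ m * 2 ^ m := by
              rw [show (4 : ℝ) = 2 * 2 by norm_num, mul_pow]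
            rw [e, e, e4]
            push_cast
            ring
    · intro m
      refine (ar_alK m _ _).trans (le_trans ?_ hAr)
      have : 0 ≤ (54 : ℝ) * (((Icc x0 x1).card : ℝ) * len J) := by positivity
      linarith
    · intro k' hk'
      exact (ex_alK_global hR hG hPr hk' _ _ _).trans hAr
  have hmain := hKl l hl (J.1 + 1) J0 S0 A B C al w a2 b2 (δ / HA ^ 2) τ ((M0 * Hg) ^ 2) Ar
    (by linarith) (by linarith) (by positivity) hτ0 hA0 hB0 hC0 (by linarith) (by linarith)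
    (hpt A a2 hA (by linarith)) (hpt B b2 hB (by linarith)) hReg hLast hJ0 L1
  refine hmain.trans ?_
  have h5 : Kl l ≤ ∑ l ∈ Icc (-7 : ℤ) 7, Kl l :=
    Finset.single_le_sum (fun l _ => hKl0 l) (Finset.mem_Icc.2 (abs_le.1 hl))
  have h6 : 0 ≤ τ * √a2 * √b2 := by positivity
  have h7 : (0 : ℝ) ≤ 2 * J0 + 1 := by positivity
  exact mul_le_mul_of_nonneg_right (mul_le_mul_of_nonneg_right h5 h7) h6

end Crest.Agent.R079.CKi217
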