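import Crest.Agent.R079.CKi_217
import Crest.Agent.R079.KLa_446

/-! R079 (helper217), CELLKILL part 4 (note 1095 (5)): COVER of a frozen word by layers. -/

set_option autoImplicit false

namespace Crest.Agent.R079.CKj217

open Finset Crest.Agent.R079.Grid Crest.Agent.R079.Glue Crest.Agent.R079.Growth
  Crest.Agent.R079.QRed Crest.Agent.R079.KLx446 Crest.Agent.R079.CKh217 Crest.Agent.R079.KC996
  Crest.Agent.R079.CKi217

/-- the point with shadow `y` and strip value `v` is close to a maximal bad cell whose node is in `R` -/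
def Near (g : ℤ → ℝ) (γt : ℝ) (S : Finset ℤ) (R : Finset Nd) (J : Nd) (y v : ℤ) : Prop :=
  ∃ c ∈ Mx g γt S J.1, |v - c.2 * 2 ^ c.1| ≤ 1201 * 2 ^ c.1 ∧ y ∈ Rm R c.1

/-- predicate of the layer `j` -/
def PrJ (β2 γ2 s' : ℤ) (g : ℤ → ℝ) (γ0 : ℝ) : ℕ → ℕ → ℤ → ℤ → Prop
  | 0, _, _, _ => True
  | j + 1, m, q, u => Pv g (γ0 * 2 ^ j) (vv β2 γ2 s' q u) (127 * 2 ^ m)

open Classical in
/-- kernel of the layer `j`: masked for `j ≥ 1`; `y` = shadow, `v` = strip value -/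
noncomputable def kJ (g : ℤ → ℝ) (γ0 : ℝ) (S : Finset ℤ) (R : Finset Nd) (J : Nd)
    (y v : ℤ → ℤ → ℤ) (A : ℤ → ℤ → ℝ) : ℕ → ℤ → ℤ → ℝ
  | 0 => A
  | j + 1 => fun x x' => if Near g (γ0 * 2 ^ j) S R J (y x x') (v x x') then A x x' else 0

theorem noEx_prJ {β2 γ2 : ℤ} (hb : |β2| ≤ 3) (hg : |γ2| ≤ 3) (s' : ℤ) (g : ℤ → ℝ) (γ0 : ℝ) (j : ℕ) :
    NoEx (PrJ β2 γ2 s' g γ0 j) := by
  cases j with
  | zero => exact noEx_true
  | succ j => exact noEx_strip hb hg s' g _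

theorem card_dI (m : ℕ) (l : ℤ) : (dI m l).card = 2 ^ m := by
  unfold dI
  rw [Int.card_Ico]
  rw [show (l + 1) * 2 ^ m - l * 2 ^ m = ((2 ^ m : ℕ) : ℤ) by push_cast; ring]
  exact Int.toNat_natCast _

theorem not_bad_top {g : ℤ → ℝ} {γ0 : ℝ} {N : ℕ} (hN : ∀ v, g v ≤ γ0 * 2 ^ N) (m : ℕ) (l : ℤ) :
    ¬ bad g (γ0 * 2 ^ N) m l := by
  unfold bad
  push Not
  calc ∑ y ∈ dI m l, g y ≤ ∑ _y ∈ dI m l, γ0 * 2 ^ N := Finset.sum_le_sum fun y _ => hN y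
    _ = γ0 * 2 ^ N * 2 ^ m := by
        rw [Finset.sum_const, nsmul_eq_mul, card_dI]
        push_cast
        ring

/-- choice of the layer -/
theorem cover_level {g : ℤ → ℝ} {γ0 : ℝ} {N : ℕ} (hN : ∀ v, g v ≤ γ0 * 2 ^ N) (m : ℕ)
    (v : ℕ → ℕ → ℤ) (hv : ∀ a b a' b', a < 2 → b < 2 → a' < 2 → b' < 2 →
      |v a b - v a' b'| ≤ 6 * 2 ^ m) :
    ∃ j ≤ N, (∀ a b, a < 2 → b < 2 → ¬ Pv g (γ0 * 2 ^ j) (v a b) (128 * 2 ^ m)) ∧
      ∀ j', j = j' + 1 → ∀ a b, a < 2 → b < 2 → Pv g (γ0 * 2 ^ j') (v a b) (127 * 2 ^ m) := by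
  classical
  have hex : ∃ j, ∀ a b, a < 2 → b < 2 → ¬ Pv g (γ0 * 2 ^ j) (v a b) (128 * 2 ^ m) := by
    refine ⟨N, fun a b _ _ h => ?_⟩
    obtain ⟨m', l, hb, _⟩ := h
    exact not_bad_top hN m' l hb
  refine ⟨Nat.find hex, Nat.find_min' hex ?_, Nat.find_spec hex, ?_⟩
  · intro a b _ _ h
    obtain ⟨m', l, hb, _⟩ := h
    exact not_bad_top hN m' l hb
  · intro j' hj' a b ha hb
    have h1 := Nat.find_min hex (m := j') (by omega)
    push Not at h1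
    obtain ⟨a', b', ha', hb', h2⟩ := h1
    have h3 := h2.lip (hv a' b' a b ha' hb' ha hb)
    exact h3.anti (by
      have : (0 : ℤ) < 2 ^ m := by positivity
      linarith)

/-- near a bad cell -/
theorem near_of_pv {g : ℤ → ℝ} (hg : ∀ v, 0 ≤ g v) {S : Finset ℤ} (hS : ∀ y, y ∉ S → g y = 0)
    {γt : ℝ} (hγ : 0 ≤ γt) {R : Finset Nd} {J : Nd} (hR : IsRegion R J)
    (hM : ∑ y ∈ S, g y ≤ γt * 2 ^ J.1) {y v v' : ℤ} {m : ℕ}
    (h : Pv g γt v' (125 * 2 ^ m)) (hvv : |v' - v| ≤ 42 * 2 ^ m) (hy : y ∈ Rm R m) :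
    Near g γt S R J y v := by
  have hm0 : (0 : ℤ) < 2 ^ m := by positivity
  have h1 : Pv g γt v (118 * 2 ^ m) := by
    have := h.lip (v' := v) (d := 7 * 2 ^ m) (by linarith)
    exact this.anti (by linarith)
  obtain ⟨c, hc, hd⟩ := h1.mx hg hS hγ hM
  have hc0 : (0 : ℤ) < 2 ^ c.1 := by positivity
  have habs : 0 ≤ |v - c.2 * 2 ^ c.1| := abs_nonneg _
  refine ⟨c, hc, by linarith, ?_⟩
  have hmc : m ≤ c.1 := by
    by_contra hcon
    push Not at hcon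
    have h2 : (2 : ℤ) ^ (c.1 + 1) ≤ 2 ^ m := pow_le_pow_right₀ (by norm_num) hcon
    rw [pow_succ] at h2
    linarith
  have hcJ : c.1 ≤ J.1 := by
    classical
    unfold Mx at hc
    rw [Finset.mem_filter] at hc
    have h2 := hc.1
    unfold Cand at h2
    rw [Finset.mem_image] at h2
    obtain ⟨z, hz, hz2⟩ := h2
    rw [Finset.mem_product, Finset.mem_range] at hz
    have : c.1 = z.1 := by rw [← hz2]
    omega
  exact Rm_mono' hR hmc hcJ hy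

section

variable {k k0 k1 k2 : Fin 4} {R : Finset Nd} {J : Nd}

/-- strip value of the letter with shadow `y` -/
def vy (k k1 : Fin 4) (s' z1 y : ℤ) : ℤ := y - (sl k1 - sl k) * z1 - s'

theorem box_zero {A B C : ℤ → ℤ → ℝ} {N : ℕ} {p0 p1 p2 : ℤ}
    (h : Lb3r A B C N p0 p1 p2 ≠ 0) : ∃ i0 i1 i2 : ℕ, i0 < N + N ∧ i1 < N + N ∧ i2 < N + N ∧
      A (p0 + i0) (p1 + i1) ≠ 0 ∧ B (p1 + i1) (p2 + i2) ≠ 0 ∧ C (p2 + i2) (p0 + i0) ≠ 0 := by
  by_contra hc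
  push Not at hc
  apply h
  unfold Lb3r
  rw [Finset.sum_eq_zero, mul_zero]
  intro i0 _
  refine Finset.sum_eq_zero fun i1 _ => Finset.sum_eq_zero fun i2 _ => ?_
  by_cases h1 : A (p0 + ((i0 : ℕ) : ℤ)) (p1 + ((i1 : ℕ) : ℤ)) = 0
  · rw [h1]; ring
  · by_cases h2 : B (p1 + ((i1 : ℕ) : ℤ)) (p2 + ((i2 : ℕ) : ℤ)) = 0
    · rw [h2]; ring
    · rw [hc i0 i1 i2 i0.2 i1.2 i2.2 h1 h2]; ring

theorem box_congr {A B C A' B' : ℤ → ℤ → ℝ} {N : ℕ} {p0 p1 p2 : ℤ}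
    (hA : ∀ i0 i1 : ℕ, i0 < N + N → i1 < N + N → A (p0 + i0) (p1 + i1) = A' (p0 + i0) (p1 + i1))
    (hB : ∀ i1 i2 : ℕ, i1 < N + N → i2 < N + N → B (p1 + i1) (p2 + i2) = B' (p1 + i1) (p2 + i2)) :
    Lb3r A B C N p0 p1 p2 = Lb3r A' B' C N p0 p1 p2 := by
  unfold Lb3r
  congr 1
  refine Finset.sum_congr rfl fun i0 _ => Finset.sum_congr rfl fun i1 _ =>
    Finset.sum_congr rfl fun i2 _ => ?_
  rw [hA i0 i1 i0.2 i1.2, hB i1 i2 i1.2 i2.2]

/-- the coefficients are admissible -/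
theorem geo (h : D4 k k0 k1 k2) :
    Geo (sl k - sl k1) (sl k2 - sl k1) (sl k0 - sl k1) (sl k2 - sl k) (sl k0 - sl k) := by
  obtain ⟨h0, h1, h2, h01, h02, h12⟩ := h
  have inj : ∀ a b : Fin 4, a ≠ b → sl a - sl b ≠ 0 := by decide
  have le3 : ∀ a b : Fin 4, |sl a - sl b| ≤ 3 := by decide
  refine ⟨⟨inj _ _ h1, inj _ _ (Ne.symm h12), inj _ _ h01, ?_, ?_, ?_, le3 _ _, le3 _ _, le3 _ _⟩,
    inj _ _ (Ne.symm h2), inj _ _ (Ne.symm h0), le3 _ _, le3 _ _⟩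
  · intro hc
    exact inj _ _ h0 (by linarith)
  · intro hc
    exact inj _ _ h2 (by linarith)
  · intro hc
    exact inj _ _ (Ne.symm h02) (by linarith)

/-- **COVER** of one box by a layer -/
theorem cover (h : D4 k k0 k1 k2) (hR : IsRegion R J) {g : ℤ → ℝ} (hg : ∀ v, 0 ≤ g v)
    {S : Finset ℤ} (hS : ∀ y, y ∉ S → g y = 0) {γ0 : ℝ} (hγ0 : 0 ≤ γ0)
    (hM : ∑ y ∈ S, g y ≤ γ0 * 2 ^ J.1) {N : ℕ} (hN : ∀ v, g v ≤ γ0 * 2 ^ N) {x0 x1 y0 y1 : ℤ}
    (A B C : ℤ → ℤ → ℝ)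
    (hC : ∀ x y, C x y ≠ 0 → x0 + 2 * 2 ^ J.1 ≤ x ∧ x + 2 * 2 ^ J.1 ≤ x1 ∧
      y0 + 2 * 2 ^ J.1 ≤ y ∧ y + 2 * 2 ^ J.1 ≤ y1)
    (s' w l : ℤ) (hl : |l| ≤ 7) {m : ℕ} (hm : m ≤ J.1) {i : ℤ} (hi0 : 0 ≤ i) (hi : i < 2 ^ m)
    {p0 p1 p2 : ℤ} (hp2 : p2 = l * 2 ^ m + i - w - p0 - p1) (hGd : Gd k k0 k1 k2 R m w p0 p1 p2)
    (hne : Lb3r A B C (2 ^ m) p0 p1 p2 ≠ 0) :
    ∃ j ≤ N, Al4Z (alK R (sl k - sl k1) (sl k2 - sl k1) (sl k0 - sl k1) w (sl k2 - sl k)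
        (sl k0 - sl k) s' x0 x1 y0 y1 g (γ0 * 2 ^ j)
        (PrJ (sl k2 - sl k) (sl k0 - sl k) s' g γ0 j)) m p2 p0 ∧
      Lb3r A B C (2 ^ m) p0 p1 p2 =
        Lb3r (kJ g γ0 S R J (fun z0 z1 => sha k k2 k0 k1 w z0 z1)
            (fun z0 z1 => vy k k1 s' z1 (sha k k2 k0 k1 w z0 z1)) A j)
          (kJ g γ0 S R J (fun z1 z2 => sha k k0 k1 k2 w z1 z2)
            (fun z1 z2 => vy k k1 s' z1 (sha k k0 k1 k2 w z1 z2)) B j) C (2 ^ m) p0 p1 p2 := by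
  have hGeo := geo h
  have hb3 := hGeo.b3
  have hg3 := hGeo.g3
  have hm0 : (0 : ℤ) < 2 ^ m := by positivity
  set β2 := sl k2 - sl k with hβ2
  set γ2 := sl k0 - sl k with hγ2
  have habs : ∀ a a' : ℕ, a < 2 → a' < 2 → |(a : ℤ) * 2 ^ m - a' * 2 ^ m| ≤ 2 ^ m := by
    intro a a' ha ha'
    rw [abs_le]
    have c1 : (a : ℤ) ≤ 1 := by exact_mod_cast Nat.lt_succ_iff.1 ha
    have c2 : (a' : ℤ) ≤ 1 := by exact_mod_cast Nat.lt_succ_iff.1 ha'
    have c3 : (0 : ℤ) ≤ a := by positivity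
    have c4 : (0 : ℤ) ≤ a' := by positivity
    constructor <;> nlinarith
  obtain ⟨j, hj, h1, h2⟩ := cover_level hN m
    (fun a b => vv β2 γ2 s' (p2 + a * 2 ^ m) (p0 + b * 2 ^ m)) (by
      intro a b a' b' ha hb ha' hb'
      refine vv_lip hb3 hg3 s' ?_ ?_
      · rw [show p2 + (a : ℤ) * 2 ^ m - (p2 + a' * 2 ^ m) = (a : ℤ) * 2 ^ m - a' * 2 ^ m by ring]
        exact habs a a' ha ha'
      · rw [show p0 + (b : ℤ) * 2 ^ m - (p0 + b' * 2 ^ m) = (b : ℤ) * 2 ^ m - b' * 2 ^ m by ring]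
        exact habs b b' hb hb')
  obtain ⟨i0, i1, i2, hi0', hi1', hi2', _, _, hCne⟩ := box_zero hne
  have hdom := hC _ _ hCne
  have h2J : (2 : ℤ) ^ m ≤ 2 ^ J.1 := pow_le_pow_right₀ (by norm_num) hm
  have b0 : (i0 : ℤ) < 2 * 2 ^ m := by
    have : i0 < 2 * 2 ^ m := by omega
    exact_mod_cast this
  have b2 : (i2 : ℤ) < 2 * 2 ^ m := by
    have : i2 < 2 * 2 ^ m := by omega
    exact_mod_cast this
  have n0 : (0 : ℤ) ≤ i0 := by positivity
  have n2 : (0 : ℤ) ≤ i2 := by positivity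
  refine ⟨j, hj, ?_, ?_⟩
  · intro a b ha hb
    have c1 : (a : ℤ) ≤ 1 := by exact_mod_cast Nat.lt_succ_iff.1 ha
    have c2 : (b : ℤ) ≤ 1 := by exact_mod_cast Nat.lt_succ_iff.1 hb
    have c3 : (0 : ℤ) ≤ a := by positivity
    have c4 : (0 : ℤ) ≤ b := by positivity
    have e1 : (a : ℤ) * 2 ^ m ≤ 2 ^ m := by nlinarith
    have e2 : (b : ℤ) * 2 ^ m ≤ 2 ^ m := by nlinarith
    have e3 : 0 ≤ (a : ℤ) * 2 ^ m := by positivity
    have e4 : 0 ≤ (b : ℤ) * 2 ^ m := by positivity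
    refine ⟨⟨?_, ?_⟩, h1 a b ha hb, ?_⟩
    · intro x hx y hy
      rw [Finset.mem_Ico] at hx hy
      have hpow : (2 : ℤ) ^ (m + 1) = 2 * 2 ^ m := by rw [pow_succ]; ring
      have := (hGd (y - p0) 0 (x - p2) (by linarith) (by rw [hpow]; linarith) le_rfl
        (by rw [hpow]; linarith) (by linarith) (by rw [hpow]; linarith)).2.2
      unfold sha at this
      convert this using 1
      ring
    · refine ⟨?_, ?_, ?_, ?_⟩
      · linarith [hdom.1]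
      · linarith [hdom.2.1]
      · linarith [hdom.2.2.1]
      · linarith [hdom.2.2.2]
    · cases j with
      | zero => trivial
      | succ j => exact h2 j rfl a b ha hb
  · cases j with
    | zero => rfl
    | succ j =>
      have hPv := h2 j rfl 0 0 (by norm_num) (by norm_num)
      simp only [Nat.cast_zero, zero_mul, add_zero] at hPv
      have hγj : 0 ≤ γ0 * 2 ^ j := by positivity
      have hl2 : -(7 * 2 ^ m) ≤ l * 2 ^ m ∧ l * 2 ^ m ≤ 7 * 2 ^ m := by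
        have hl' := abs_le.1 hl
        constructor
        · have := mul_le_mul_of_nonneg_right hl'.1 hm0.le
          linarith
        · exact mul_le_mul_of_nonneg_right hl'.2 hm0.le
      have hMj : ∑ y ∈ S, g y ≤ γ0 * 2 ^ j * 2 ^ J.1 := by
        refine hM.trans (mul_le_mul_of_nonneg_right ?_ (by positivity))
        exact le_mul_of_one_le_right hγ0 (one_le_pow₀ (by norm_num))
      -- points of the box
      have hpt : ∀ a b c : ℕ, a < 2 ^ m + 2 ^ m → b < 2 ^ m + 2 ^ m → c < 2 ^ m + 2 ^ m →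
          Pv g (γ0 * 2 ^ j) (vv β2 γ2 s' (p2 + c) (p0 + a)) (125 * 2 ^ m) ∧
          |(l * 2 ^ m + i + a + b + c : ℤ)| ≤ 14 * 2 ^ m := by
        intro a b c ha hb hc
        have ha' : (a : ℤ) < 2 * 2 ^ m := by
          have : a < 2 * 2 ^ m := by omega
          exact_mod_cast this
        have hb' : (b : ℤ) < 2 * 2 ^ m := by
          have : b < 2 * 2 ^ m := by omega
          exact_mod_cast this
        have hc' : (c : ℤ) < 2 * 2 ^ m := by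
          have : c < 2 * 2 ^ m := by omega
          exact_mod_cast this
        have na : (0 : ℤ) ≤ a := by positivity
        have nb : (0 : ℤ) ≤ b := by positivity
        have nc : (0 : ℤ) ≤ c := by positivity
        constructor
        · have hd := vv_lip hb3 hg3 s' (q := p2) (u := p0) (q' := p2 + c) (u' := p0 + a)
            (d := 2 * 2 ^ m) (by rw [abs_le]; constructor <;> linarith)
            (by rw [abs_le]; constructor <;> linarith)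
          exact (hPv.lip hd).anti (by linarith)
        · rw [abs_le]
          constructor <;> linarith [hl2.1, hl2.2]
      refine box_congr ?_ ?_
      · intro a b ha hb
        have hsh := (hGd a b 0 (by positivity) (by
          have : a < 2 ^ (m + 1) := by rw [pow_succ]; omega
          exact_mod_cast this) (by positivity) (by
          have : b < 2 ^ (m + 1) := by rw [pow_succ]; omega
          exact_mod_cast this) le_rfl (by positivity)).1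
        have hk := hpt a b 0 ha hb (by positivity)
        unfold kJ
        simp only
        rw [if_pos]
        refine near_of_pv hg hS hγj hR hMj hk.1 ?_ hsh
        have e : vv β2 γ2 s' (p2 + ((0 : ℕ) : ℤ)) (p0 + a) -
            vy k k1 s' (p1 + b) (sha k k2 k0 k1 w (p0 + a) (p1 + b)) =
            β2 * (l * 2 ^ m + i + a + b + ((0 : ℕ) : ℤ)) := by
          unfold vv vy sha
          rw [hβ2, hγ2, hp2]
          push_cast
          ring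
        rw [e, abs_mul]
        calc |β2| * |(l * 2 ^ m + i + a + b + ((0 : ℕ) : ℤ) : ℤ)| ≤ 3 * (14 * 2 ^ m) :=
              mul_le_mul hb3 hk.2 (abs_nonneg _) (by norm_num)
          _ = 42 * 2 ^ m := by ring
      · intro b c hb hc
        have hsh := (hGd 0 b c le_rfl (by positivity) (by positivity) (by
          have : b < 2 ^ (m + 1) := by rw [pow_succ]; omega
          exact_mod_cast this) (by positivity) (by
          have : c < 2 ^ (m + 1) := by rw [pow_succ]; omega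
          exact_mod_cast this)).2.1
        have hk := hpt 0 b c (by positivity) hb hc
        unfold kJ
        simp only
        rw [if_pos]
        refine near_of_pv hg hS hγj hR hMj hk.1 ?_ hsh
        have e : vv β2 γ2 s' (p2 + c) (p0 + ((0 : ℕ) : ℤ)) -
            vy k k1 s' (p1 + b) (sha k k0 k1 k2 w (p1 + b) (p2 + c)) =
            γ2 * (l * 2 ^ m + i + ((0 : ℕ) : ℤ) + b + c) := by
          unfold vv vy sha
          rw [hβ2, hγ2, hp2]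
          push_cast
          ring
        rw [e, abs_mul]
        calc |γ2| * |(l * 2 ^ m + i + ((0 : ℕ) : ℤ) + b + c : ℤ)| ≤ 3 * (14 * 2 ^ m) :=
              mul_le_mul hg3 hk.2 (abs_nonneg _) (by norm_num)
          _ = 42 * 2 ^ m := by ring

open Classical in
/-- the sum of one layer -/
noncomputable def LSum (al : ℕ → ℤ → ℤ → Prop) (A B C : ℤ → ℤ → ℝ) (M L1 : ℕ) (l w : ℤ) : ℝ :=
  ∑ m ∈ range M, (1 / (2 : ℝ) ^ m) * ∑ i ∈ range (2 ^ m),
    ∑ p0 ∈ Icc (-(L1 : ℤ)) L1, ∑ p1 ∈ Icc (-(L1 : ℤ)) L1,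
      (if Al4Z al m (l * 2 ^ m + (i : ℤ) - w - p0 - p1) p0 then
        |Lb3r A B C (2 ^ m) p0 p1 (l * 2 ^ m + (i : ℤ) - w - p0 - p1)| else 0)

open Classical in
/-- **THE WORD IS COVERED BY THE LAYERS** -/
theorem tw_le_layers (h : D4 k k0 k1 k2) (hR : IsRegion R J) {g : ℤ → ℝ} (hg : ∀ v, 0 ≤ g v)
    {S : Finset ℤ} (hS : ∀ y, y ∉ S → g y = 0) {γ0 : ℝ} (hγ0 : 0 ≤ γ0)
    (hM : ∑ y ∈ S, g y ≤ γ0 * 2 ^ J.1) {N : ℕ} (hN : ∀ v, g v ≤ γ0 * 2 ^ N) {x0 x1 y0 y1 : ℤ}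
    (A B C : ℤ → ℤ → ℝ)
    (hC : ∀ x y, C x y ≠ 0 → x0 + 2 * 2 ^ J.1 ≤ x ∧ x + 2 * 2 ^ J.1 ≤ x1 ∧
      y0 + 2 * 2 ^ J.1 ≤ y ∧ y + 2 * 2 ^ J.1 ≤ y1)
    (s' w l : ℤ) (hl : |l| ≤ 7) (L1 : ℕ) :
    Tw (fun m p0 p1 p2 => Gd k k0 k1 k2 R m w p0 p1 p2) A B C (J.1 + 1) L1 l w ≤
      ∑ j ∈ range (N + 1), LSum (alK R (sl k - sl k1) (sl k2 - sl k1) (sl k0 - sl k1) w
        (sl k2 - sl k) (sl k0 - sl k) s' x0 x1 y0 y1 g (γ0 * 2 ^ j)
        (PrJ (sl k2 - sl k) (sl k0 - sl k) s' g γ0 j))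
        (kJ g γ0 S R J (fun z0 z1 => sha k k2 k0 k1 w z0 z1)
            (fun z0 z1 => vy k k1 s' z1 (sha k k2 k0 k1 w z0 z1)) A j)
        (kJ g γ0 S R J (fun z1 z2 => sha k k0 k1 k2 w z1 z2)
            (fun z1 z2 => vy k k1 s' z1 (sha k k0 k1 k2 w z1 z2)) B j) C (J.1 + 1) L1 l w := by
  unfold Tw LSum
  rw [Finset.sum_comm]
  refine Finset.sum_le_sum fun m hm => ?_
  rw [Finset.mem_range] at hm
  rw [← Finset.mul_sum]
  refine mul_le_mul_of_nonneg_left ?_ (by positivity)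
  conv_rhs => rw [Finset.sum_comm]
  refine Finset.sum_le_sum fun i hi => ?_
  rw [Finset.mem_range] at hi
  conv_rhs => rw [Finset.sum_comm]
  refine Finset.sum_le_sum fun p0 _ => ?_
  conv_rhs => rw [Finset.sum_comm]
  refine Finset.sum_le_sum fun p1 _ => ?_
  have hnn : ∀ j ∈ range (N + 1), (0 : ℝ) ≤ (if Al4Z (alK R (sl k - sl k1) (sl k2 - sl k1)
        (sl k0 - sl k1) w (sl k2 - sl k) (sl k0 - sl k) s' x0 x1 y0 y1 g (γ0 * 2 ^ j)
        (PrJ (sl k2 - sl k) (sl k0 - sl k) s' g γ0 j)) m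
        (l * 2 ^ m + (i : ℤ) - w - p0 - p1) p0 then
        |Lb3r (kJ g γ0 S R J (fun z0 z1 => sha k k2 k0 k1 w z0 z1)
            (fun z0 z1 => vy k k1 s' z1 (sha k k2 k0 k1 w z0 z1)) A j)
        (kJ g γ0 S R J (fun z1 z2 => sha k k0 k1 k2 w z1 z2)
            (fun z1 z2 => vy k k1 s' z1 (sha k k0 k1 k2 w z1 z2)) B j) C (2 ^ m) p0 p1
            (l * 2 ^ m + (i : ℤ) - w - p0 - p1)| else 0) := fun j _ => by
    split_ifs
    · exact abs_nonneg _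
    · exact le_rfl
  split_ifs with hG
  · by_cases hz : Lb3r A B C (2 ^ m) p0 p1 (l * 2 ^ m + (i : ℤ) - w - p0 - p1) = 0
    · rw [hz, abs_zero]
      exact Finset.sum_nonneg hnn
    · obtain ⟨j, hj, ha, he⟩ := cover h hR hg hS hγ0 hM hN A B C hC s' w l hl (m := m) (by omega)
        (i := (i : ℤ)) (by positivity) (by exact_mod_cast hi) rfl hG hz
      refine le_trans (le_of_eq ?_) (Finset.single_le_sum hnn (Finset.mem_range.2 (Nat.lt_succ_of_le hj)))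
      rw [if_pos ha, ← he]
  · exact Finset.sum_nonneg hnn

end

end Crest.Agent.R079.CKj217
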