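import Crest.Agent.R079.CKr_37
import Crest.Agent.R079.OpSr_276

/-! R079 (helper37), CELLKILL part 4 (note 1095 of row 79, step (4)): **LOW = A MIXTURE OF UNIT
OPERATOR ATOMS** of side `128 len I`, special vertex `k1` (any), caps `128 cap` and `1`, total mass
`≤ 395 V h`, when the base function is bounded by `h`. -/

set_option autoImplicit false

namespace Crest.Agent.R079.CKgx37

open Finset Crest.Agent.R079.Grid Crest.Agent.R079.Glue Crest.Agent.R079.Growth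
  Crest.Agent.R079.QRed Crest.Agent.R079.Cell37 Crest.Agent.R079.KLx446 Crest.Agent.R079.OpS276
  Crest.Agent.R079.OLevSw

theorem norm_ga_sq {k k0 k1 : Fin 4} {S : Finset ℤ} {w : ℤ → ℝ} (hw : ∀ s, 0 ≤ w s) {u : ℤ → ℂ}
    (hu : ∀ s, ‖u s‖ ≤ 1) (ξ : ℤ → ℝ) (s' z0 z1 : ℤ) :
    ‖ga k k0 k1 S w u ξ s' z0 z1‖ ^ 2 ≤
      if s' + (sl k1 - sl k) * z1 ∈ S then w (s' + (sl k1 - sl k) * z1) else 0 := by
  unfold ga
  split_ifs with h
  · rw [norm_mul, norm_mul, norm_ee, mul_one, mul_pow, Complex.norm_real,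
      Real.norm_of_nonneg (Real.sqrt_nonneg _), Real.sq_sqrt (hw _)]
    have h1 : ‖u (s' + (sl k1 - sl k) * z1)‖ ^ 2 ≤ 1 := pow_le_one₀ (norm_nonneg _) (hu _)
    nlinarith [hw (s' + (sl k1 - sl k) * z1)]
  · simp

theorem norm_gb_sq {k k1 k2 : Fin 4} {S : Finset ℤ} {w : ℤ → ℝ} (hw : ∀ s, 0 ≤ w s)
    (ξ : ℤ → ℝ) (s' z1 z2 : ℤ) :
    ‖gb k k1 k2 S w ξ s' z1 z2‖ ^ 2 ≤
      if s' + (sl k1 - sl k) * z1 ∈ S then w (s' + (sl k1 - sl k) * z1) else 0 := by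
  unfold gb
  split_ifs with h
  · rw [norm_mul, norm_ee, mul_one, Complex.norm_real,
      Real.norm_of_nonneg (Real.sqrt_nonneg _), Real.sq_sqrt (hw _)]
  · simp

theorem sum_Ico_finR (w : ℤ) (n : ℕ) (F : ℤ → ℝ) :
    ∑ z ∈ Finset.Ico w (w + (n : ℤ)), F z = ∑ i : Fin n, F (w + ((i : ℕ) : ℤ)) := by
  symm
  refine Finset.sum_bij (fun (i : Fin n) _ => w + ((i : ℕ) : ℤ)) ?_ ?_ ?_ ?_
  · intro i _
    have := i.2
    rw [Finset.mem_Ico]
    omega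
  · intro i _ j _ h
    have h' : w + ((i : ℕ) : ℤ) = w + ((j : ℕ) : ℤ) := h
    exact Fin.ext (by omega)
  · intro z hz
    rw [Finset.mem_Ico] at hz
    exact ⟨⟨(z - w).toNat, by omega⟩, Finset.mem_univ _, by simp only; omega⟩
  · intro i _
    rfl

/-- cutting a triple sum to sub-intervals -/
theorem cut3 {A0 A1 A2 T0 T1 T2 : Finset ℤ} (h0 : T0 ⊆ A0) (h1 : T1 ⊆ A1) (h2 : T2 ⊆ A2)
    (Φ : ℤ → ℤ → ℤ → ℂ) :
    ∑ z1 ∈ A1, ∑ z0 ∈ A0, ∑ z2 ∈ A2, (if z0 ∈ T0 ∧ z1 ∈ T1 ∧ z2 ∈ T2 then Φ z0 z1 z2 else 0) =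
      ∑ z0 ∈ T0, ∑ z1 ∈ T1, ∑ z2 ∈ T2, Φ z0 z1 z2 := by
  classical
  rw [Finset.sum_comm (s := T0)]
  rw [← Finset.sum_subset h1 (f := fun z1 => ∑ z0 ∈ A0, ∑ z2 ∈ A2,
    (if z0 ∈ T0 ∧ z1 ∈ T1 ∧ z2 ∈ T2 then Φ z0 z1 z2 else 0))]
  · refine Finset.sum_congr rfl fun z1 hz1 => ?_
    rw [← Finset.sum_subset h0]
    · refine Finset.sum_congr rfl fun z0 hz0 => ?_
      rw [← Finset.sum_subset h2]
      · refine Finset.sum_congr rfl fun z2 hz2 => ?_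
        rw [if_pos ⟨hz0, hz1, hz2⟩]
      · intro z2 _ hz2
        rw [if_neg fun hh => hz2 hh.2.2]
    · intro z0 _ hz0
      exact Finset.sum_eq_zero fun z2 _ => if_neg fun hh => hz0 hh.1
  · intro z1 _ hz1
    exact Finset.sum_eq_zero fun z0 _ => Finset.sum_eq_zero fun z2 _ => if_neg fun hh => hz1 hh.2.1

/-- the weight of one atom in the representation -/
noncomputable def muL (k k0 : Fin 4) (I : Nd) (V hh : ℝ) : ℝ :=
  ((|sl k0 - sl k| : ℤ) : ℝ) / (36 * len I ^ 2) * (V * hh * (128 * len I))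

theorem muL_nonneg (k k0 : Fin 4) (I : Nd) {V hh : ℝ} (hV : 0 ≤ V) (hh0 : 0 ≤ hh) :
    0 ≤ muL k k0 I V hh := by
  unfold muL
  have := Growth.len_pos I
  have h1 : (0 : ℝ) ≤ ((|sl k0 - sl k| : ℤ) : ℝ) := by exact_mod_cast abs_nonneg _
  positivity

theorem sum_muL (k k0 : Fin 4) (I : Nd) (s0 : ℤ) {V hh : ℝ} (hV : 0 ≤ V) (hh0 : 0 ≤ hh) :
    ∑ _s' ∈ Shx s0 I, muL k k0 I V hh ≤ 395 * (V * hh) := by
  rw [Finset.sum_const, nsmul_eq_mul, card_Shx]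
  unfold muL
  have hl := Growth.len_pos I
  have h1 : ((|sl k0 - sl k| : ℤ) : ℝ) ≤ 3 := by exact_mod_cast sl_abs3 k k0
  have h0 : (0 : ℝ) ≤ ((|sl k0 - sl k| : ℤ) : ℝ) := by exact_mod_cast abs_nonneg _
  have h2 : 0 ≤ V * hh := mul_nonneg hV hh0
  calc 37 * len I * (((|sl k0 - sl k| : ℤ) : ℝ) / (36 * len I ^ 2) * (V * hh * (128 * len I)))
      = (37 * 128 / 36) * (((|sl k0 - sl k| : ℤ) : ℝ) * (V * hh)) := by field_simp
    _ ≤ (37 * 128 / 36) * (3 * (V * hh)) := by gcongr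
    _ ≤ 395 * (V * hh) := by nlinarith

/-- **LOW IS A MIXTURE OF OPERATOR ATOMS** -/
theorem low_rep {k k0 k1 k2 : Fin 4} (h : D4 k k0 k1 k2) (I : Nd) {V cap Hc : ℝ} {s0 b0 : ℤ}
    {S : Finset ℤ} {w : ℤ → ℝ} {u c0 : ℤ → ℂ} (hG : GrpD (lenN I) V cap Hc s0 b0 S w u c0)
    {c : ℤ → ℂ} {hh : ℝ} (hh0 : 0 < hh) (hc : ∀ y, ‖c y‖ ≤ hh) (ξ : ℤ → ℝ) :
    ∃ ψ : ℤ → Fn, (∀ s', IsOpS k k1 k0 k2 (128 * lenN I) (128 * cap) 1 (ψ s')) ∧
      ∀ y ∈ iv I, grp S w u c ξ y = ∑ s' ∈ Shx s0 I,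
        ((muL k k0 I V hh : ℝ) : ℂ) * (ψ s' y / ((128 * lenN I : ℕ) : ℂ) ^ 2) := by
  classical
  set L : ℕ := lenN I with hL
  set n : ℕ := 128 * L with hn
  have hL0 : 0 < L := lenN_pos I
  have hLr : (L : ℝ) = len I := lenN_cast I
  have hLp : (0 : ℝ) < L := by exact_mod_cast hL0
  have hnp : (0 : ℝ) < n := by rw [hn]; push_cast; positivity
  have hnr : (n : ℝ) = 128 * L := by rw [hn]; push_cast; ring
  set q0 : ℤ := (I.2 * 2 ^ (I.1 + 7)) / (sl k0 - sl k) - 40 * (L : ℤ) with hq0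
  have hT0 : T0x k k0 I ⊆ Finset.Ico q0 (q0 + (n : ℤ)) := by
    unfold T0x
    intro z hz
    rw [Finset.mem_Ico] at hz ⊢
    rw [hn, hq0]
    push_cast
    rw [← hL] at hz
    have : (0 : ℤ) < L := by exact_mod_cast hL0
    constructor
    · exact hz.1
    · linarith [hz.2]
  have hT6 : T6x I ⊆ Finset.Ico (0 : ℤ) (0 + (n : ℤ)) := by
    unfold T6x
    intro z hz
    rw [Finset.mem_Ico] at hz ⊢
    rw [hn]
    push_cast
    rw [← hL] at hz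
    have : (0 : ℤ) < L := by exact_mod_cast hL0
    constructor
    · exact hz.1
    · linarith [hz.2]
  have hV := hG.V0
  set r : ℝ := Real.sqrt (n / V) with hr
  have hr2 : r ^ 2 = n / V := Real.sq_sqrt (by positivity)
  -- data of one atom
  set αf : ℤ → Fin n → ℝ := fun s' c =>
    if s' + (sl k1 - sl k) * (0 + ((c : ℕ) : ℤ)) ∈ S then
      (n / V) * w (s' + (sl k1 - sl k) * (0 + ((c : ℕ) : ℤ))) else 0 with hα
  set Uf : ℤ → Fin n → Fin n → ℂ := fun s' c i =>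
    if q0 + ((i : ℕ) : ℤ) ∈ T0x k k0 I ∧ 0 + ((c : ℕ) : ℤ) ∈ T6x I then
      (r : ℂ) * ga k k0 k1 S w u ξ s' (q0 + ((i : ℕ) : ℤ)) (0 + ((c : ℕ) : ℤ)) else 0 with hU
  set Vf : ℤ → Fin n → Fin n → ℂ := fun s' c i =>
    if 0 + ((i : ℕ) : ℤ) ∈ T6x I then
      (r : ℂ) * gb k k1 k2 S w ξ s' (0 + ((c : ℕ) : ℤ)) (0 + ((i : ℕ) : ℤ)) else 0 with hVf
  set mf : ℤ → ℤ → ℤ → ℂ := fun s' z0 z2 => ((1 / hh : ℝ) : ℂ) * gc k k0 k2 c s' z2 z0 with hm
  have hα0 : ∀ s' c, 0 ≤ αf s' c := by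
    intro s' c
    simp only [hα]
    split_ifs
    · exact mul_nonneg (by positivity) (hG.w0 _)
    · exact le_rfl
  have hUα : ∀ s' c i, ‖Uf s' c i‖ ^ 2 ≤ αf s' c := by
    intro s' c i
    simp only [hU]
    split_ifs with hc1
    · rw [norm_mul, mul_pow, Complex.norm_real, Real.norm_of_nonneg (Real.sqrt_nonneg _), hr2]
      refine (mul_le_mul_of_nonneg_left (norm_ga_sq hG.w0 hG.u1 ξ s' _ _) (by positivity)).trans ?_
      simp only [hα]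
      split_ifs
      · exact le_rfl
      · simp
    · simpa using hα0 s' c
  have hVα : ∀ s' c i, ‖Vf s' c i‖ ^ 2 ≤ αf s' c := by
    intro s' c i
    simp only [hVf]
    split_ifs with hc1
    · rw [norm_mul, mul_pow, Complex.norm_real, Real.norm_of_nonneg (Real.sqrt_nonneg _), hr2]
      refine (mul_le_mul_of_nonneg_left (norm_gb_sq hG.w0 ξ s' _ _) (by positivity)).trans ?_
      simp only [hα]
      split_ifs
      · exact le_rfl
      · simp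
    · simpa using hα0 s' c
  have hcn : ∀ (f : Fin n → ℝ) (a : ℝ), (∀ i, f i ≤ a) → ∑ i, f i ≤ n * a := by
    intro f a hf
    calc ∑ i, f i ≤ ∑ _i : Fin n, a := Finset.sum_le_sum fun i _ => hf i
      _ = n * a := by rw [Finset.sum_const, Finset.card_univ, Fintype.card_fin, nsmul_eq_mul]
  have hSD : ∀ s', SD n (128 * cap) 1 (mf s') (Uf s') (Vf s') (αf s') := by
    intro s'
    refine ⟨?_, hα0 s', fun c => hcn _ _ (hUα s' c), fun c => hcn _ _ (hVα s' c), ?_, ?_,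
      fun c i => by rw [one_mul]; exact hUα s' c i, fun c i => by rw [one_mul]; exact hVα s' c i⟩
    · intro z z'
      simp only [hm]
      rw [norm_mul, Complex.norm_real, Real.norm_of_nonneg (by positivity)]
      unfold gc
      rw [one_div, inv_mul_le_iff₀ hh0, mul_one]
      exact hc _
    · have h1 : ∑ c, αf s' c = (n / V) * ∑ z1 ∈ Finset.Ico (0 : ℤ) (0 + (n : ℤ)),
          (if s' + (sl k1 - sl k) * z1 ∈ S then w (s' + (sl k1 - sl k) * z1) else 0) := by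
        rw [sum_Ico_finR, Finset.mul_sum]
        refine Finset.sum_congr rfl fun c _ => ?_
        simp only [hα]
        split_ifs
        · rfl
        · simp
      rw [h1]
      calc (n / V) * ∑ z1 ∈ Finset.Ico (0 : ℤ) (0 + (n : ℤ)),
          (if s' + (sl k1 - sl k) * z1 ∈ S then w (s' + (sl k1 - sl k) * z1) else 0) ≤ (n / V) * V :=
            mul_le_mul_of_nonneg_left ((mass_one h.h1 _ hG.w0 s').trans hG.wV) (by positivity)
        _ = n := by field_simp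
    · intro c
      have hcap : 0 ≤ cap := by
        have h1 := hG.wc 0
        have h2 : 0 ≤ w 0 * (L : ℝ) := mul_nonneg (hG.w0 0) hLp.le
        by_contra hneg
        have : cap * V < 0 := mul_neg_of_neg_of_pos (not_le.1 hneg) hV
        linarith
      simp only [hα]
      split_ifs
      · have h1 := hG.wc (s' + (sl k1 - sl k) * (0 + ((c : ℕ) : ℤ)))
        rw [div_mul_eq_mul_div, div_le_iff₀ hV, hnr]
        calc 128 * (L : ℝ) * w (s' + (sl k1 - sl k) * (0 + ((c : ℕ) : ℤ))) =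
            128 * (w (s' + (sl k1 - sl k) * (0 + ((c : ℕ) : ℤ))) * L) := by ring
          _ ≤ 128 * (cap * V) := mul_le_mul_of_nonneg_left h1 (by norm_num)
          _ = 128 * cap * V := by ring
      · positivity
  refine ⟨fun s' => opA k k1 k0 k2 n 0 q0 0 (mf s') (Uf s') (Vf s'),
    fun s' => ⟨0, q0, 0, mf s', Uf s', Vf s', αf s', hSD s', rfl⟩, ?_⟩
  intro y hy
  rw [grp_rep h I hG.w0 hG.S0 u c ξ hy]
  refine Finset.sum_congr rfl fun s' _ => ?_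
  -- the atom as a triple sum
  have e1 : opA k k1 k0 k2 n 0 q0 0 (mf s') (Uf s') (Vf s') y =
      ∑ z1 ∈ Finset.Ico (0 : ℤ) (0 + (n : ℤ)), ∑ z0 ∈ Finset.Ico q0 (q0 + (n : ℤ)),
        ∑ z2 ∈ Finset.Ico (0 : ℤ) (0 + (n : ℤ)),
        (if z0 ∈ T0x k k0 I ∧ z1 ∈ T6x I ∧ z2 ∈ T6x I then
          (if lf4 k k0 k1 k2 z0 z1 z2 = y then ((n / (V * hh) : ℝ) : ℂ) *
            (ga k k0 k1 S w u ξ s' z0 z1 * gb k k1 k2 S w ξ s' z1 z2 * gc k k0 k2 c s' z2 z0)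
          else 0) else 0) := by
    unfold opA
    rw [DicOp679.sum_Ico_fin]
    refine Finset.sum_congr rfl fun c1 _ => ?_
    rw [DicOp679.sum_Ico_fin]
    refine Finset.sum_congr rfl fun c0' _ => ?_
    rw [DicOp679.sum_Ico_fin]
    refine Finset.sum_congr rfl fun c2 _ => ?_
    have hiff : (sl k1 - sl k) * (0 + ((c1 : ℕ) : ℤ)) + (sl k0 - sl k) * (q0 + ((c0' : ℕ) : ℤ)) +
        (sl k2 - sl k) * (0 + ((c2 : ℕ) : ℤ)) = y ↔
        lf4 k k0 k1 k2 (q0 + ((c0' : ℕ) : ℤ)) (0 + ((c1 : ℕ) : ℤ)) (0 + ((c2 : ℕ) : ℤ)) = y := by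
      unfold lf4
      constructor <;> intro hh' <;> linarith
    have hrr : (r : ℂ) * (r : ℂ) = ((n / V : ℝ) : ℂ) := by
      rw [← Complex.ofReal_mul, ← sq, hr2]
    simp only [hm, hU, hVf]
    by_cases hy' : lf4 k k0 k1 k2 (q0 + ((c0' : ℕ) : ℤ)) (0 + ((c1 : ℕ) : ℤ)) (0 + ((c2 : ℕ) : ℤ)) = y
    · rw [if_pos (hiff.2 hy')]
      by_cases ha : q0 + ((c0' : ℕ) : ℤ) ∈ T0x k k0 I ∧ 0 + ((c1 : ℕ) : ℤ) ∈ T6x I
      · by_cases hb : 0 + ((c2 : ℕ) : ℤ) ∈ T6x I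
        · rw [if_pos ha, if_pos hb, if_pos ⟨ha.1, ha.2, hb⟩, if_pos hy']
          have e2 : ((n / (V * hh) : ℝ) : ℂ) = ((1 / hh : ℝ) : ℂ) * ((n / V : ℝ) : ℂ) := by
            rw [← Complex.ofReal_mul]
            congr 1
            field_simp
          rw [e2, ← hrr]
          ring
        · rw [if_pos ha, if_neg hb, if_neg (fun hx => hb hx.2.2)]
          ring
      · have hneg : ¬ (q0 + ((c0' : ℕ) : ℤ) ∈ T0x k k0 I ∧ 0 + ((c1 : ℕ) : ℤ) ∈ T6x I ∧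
            0 + ((c2 : ℕ) : ℤ) ∈ T6x I) := fun hx => ha ⟨hx.1, hx.2.1⟩
        rw [if_neg ha, if_neg hneg]
        ring
    · rw [if_neg (fun hx => hy' (hiff.1 hx)), if_neg hy']
      split_ifs <;> rfl
  simp only
  rw [e1, cut3 hT0 hT6 hT6]
  unfold kerF4 muL
  have e3 : ∀ z0 ∈ T0x k k0 I, ∀ z1 ∈ T6x I, ∀ z2 ∈ T6x I,
      (if lf4 k k0 k1 k2 z0 z1 z2 = y then ((n / (V * hh) : ℝ) : ℂ) *
            (ga k k0 k1 S w u ξ s' z0 z1 * gb k k1 k2 S w ξ s' z1 z2 * gc k k0 k2 c s' z2 z0)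
          else 0) = ((n / (V * hh) : ℝ) : ℂ) * (if lf4 k k0 k1 k2 z0 z1 z2 = y then
            (ga k k0 k1 S w u ξ s' z0 z1 * gb k k1 k2 S w ξ s' z1 z2 * gc k k0 k2 c s' z2 z0)
          else 0) := by
    intro z0 _ z1 _ z2 _
    split_ifs
    · rfl
    · simp
  rw [Finset.sum_congr rfl fun z0 h0 => Finset.sum_congr rfl fun z1 h1 =>
    Finset.sum_congr rfl fun z2 h2 => e3 z0 h0 z1 h1 z2 h2]
  simp only [← Finset.mul_sum]
  rw [← mul_div_assoc, ← mul_assoc, ← mul_assoc, mul_div_right_comm]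
  congr 1
  rw [← Complex.ofReal_natCast, ← Complex.ofReal_pow, ← Complex.ofReal_mul, ← Complex.ofReal_div]
  congr 1
  rw [← hLr, hnr]
  field_simp

end Crest.Agent.R079.CKgx37
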