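import Crest.Agent.R079.CKj_217
import Crest.Agent.R079.CKl_37

/-! R079 (helper217), CELLKILL part 5 (note 1095 (5)): ENERGIES of the layers and the sum over the
frozen value, for one shift `s'`. -/

set_option autoImplicit false

namespace Crest.Agent.R079.CKk217

open Finset Crest.Agent.R079.Grid Crest.Agent.R079.Glue Crest.Agent.R079.Growth
  Crest.Agent.R079.QRed Crest.Agent.R079.KLx446 Crest.Agent.R079.CKh217 Crest.Agent.R079.KC996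
  Crest.Agent.R079.CKi217 Crest.Agent.R079.CKj217 Crest.Agent.R079.CKgx37

/-! ### energy near the bad cells -/

theorem sum_iv_le {p : Nd} {F : Fn} (h : av p F ≤ 1) : ∑ y ∈ iv p, ‖F y‖ ^ 2 ≤ len p := by
  have h1 := QVar181.av_sq p F
  have hl := Growth.len_pos p
  have h2 : av p F ^ 2 ≤ 1 := by
    have h0 : 0 ≤ av p F := Cell37.av_nonneg' _ _
    nlinarith
  rw [h1] at h2
  rw [one_div, inv_mul_le_iff₀ hl, mul_one] at h2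
  exact h2

open Classical in
/-- energy of `F` near a point on the nodes of level `n` -/
theorem cell_energy {R : Finset Nd} {F : Fn} (hF : ∀ p ∈ R, av p F ≤ 1) (n : ℕ) (z : ℤ)
    (Y : Finset ℤ) :
    ∑ η ∈ Y, (if |η - z| ≤ 1201 * 2 ^ n ∧ η ∈ Rm R n then ‖F η‖ ^ 2 else 0) ≤ 2560 * 2 ^ n := by
  have hn0 : (0 : ℤ) < 2 ^ n := by positivity
  have hN : (0 : ℤ) < 2 ^ (n + 7) := by positivity
  have hN' : (2 : ℤ) ^ (n + 7) = 128 * 2 ^ n := by rw [pow_add]; ring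
  set q0 : ℤ := (z - 1201 * 2 ^ n) / 2 ^ (n + 7) with hq0
  rw [← Finset.sum_filter]
  set Q : Finset ℤ := (Icc q0 (q0 + 19)).filter fun q => (n, q) ∈ R with hQ
  have hsub : Y.filter (fun η => |η - z| ≤ 1201 * 2 ^ n ∧ η ∈ Rm R n) ⊆ Q.biUnion fun q => iv (n, q) := by
    intro η hη
    rw [Finset.mem_filter] at hη
    obtain ⟨_, h1, h2⟩ := hη
    rw [mem_Rm] at h2
    rw [Finset.mem_biUnion]
    refine ⟨η / 2 ^ (n + 7), ?_, ?_⟩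
    · rw [hQ, Finset.mem_filter, Finset.mem_Icc]
      have h3 := abs_le.1 h1
      refine ⟨⟨?_, ?_⟩, h2⟩
      · exact Int.ediv_le_ediv hN (by linarith)
      · have h4 : η ≤ (z - 1201 * 2 ^ n) + 19 * 2 ^ (n + 7) := by
          rw [hN']
          linarith
        have h5 := Int.ediv_le_ediv hN h4
        rwa [Int.add_mul_ediv_right _ _ hN.ne'] at h5
    · unfold iv
      exact L0e.mem_dI.2 rfl
  calc ∑ η ∈ Y.filter (fun η => |η - z| ≤ 1201 * 2 ^ n ∧ η ∈ Rm R n), ‖F η‖ ^ 2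
      ≤ ∑ η ∈ Q.biUnion fun q => iv (n, q), ‖F η‖ ^ 2 :=
        Finset.sum_le_sum_of_subset_of_nonneg hsub fun _ _ _ => by positivity
    _ = ∑ q ∈ Q, ∑ η ∈ iv (n, q), ‖F η‖ ^ 2 :=
        Finset.sum_biUnion fun a _ b _ hab => L0e.dI_disj hab
    _ ≤ ∑ _q ∈ Q, 128 * (2 : ℝ) ^ n := by
        refine Finset.sum_le_sum fun q hq => ?_
        rw [hQ, Finset.mem_filter] at hq
        refine (sum_iv_le (hF _ hq.2)).trans (le_of_eq ?_)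
        unfold len
        rw [pow_add]
        norm_num
        ring
    _ = (Q.card : ℝ) * (128 * 2 ^ n) := by rw [Finset.sum_const, nsmul_eq_mul]
    _ ≤ 20 * (128 * 2 ^ n) := by
        refine mul_le_mul_of_nonneg_right ?_ (by positivity)
        have h1 : Q.card ≤ 20 := by
          refine (Finset.card_filter_le _ _).trans ?_
          rw [Int.card_Icc]
          have : (q0 + 19 + 1 - q0).toNat = 20 := by
            rw [show q0 + 19 + 1 - q0 = ((20 : ℕ) : ℤ) by push_cast; ring, Int.toNat_natCast]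
          omega
        exact_mod_cast h1
    _ = 2560 * 2 ^ n := by ring

open Classical in
/-- **energy near the maximal bad cells** -/
theorem near_energy {R : Finset Nd} {J : Nd} {F : Fn} (hF : ∀ p ∈ R, av p F ≤ 1) (g : ℤ → ℝ) (γt : ℝ)
    (S : Finset ℤ) (t : ℤ) (Y : Finset ℤ) :
    ∑ η ∈ Y, (if Near g γt S R J η (η - t) then ‖F η‖ ^ 2 else 0) ≤
      2560 * ∑ c ∈ Mx g γt S J.1, (2 : ℝ) ^ c.1 := by
  have h1 : ∀ η ∈ Y, (if Near g γt S R J η (η - t) then ‖F η‖ ^ 2 else 0) ≤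
      ∑ c ∈ Mx g γt S J.1, (if |η - (t + c.2 * 2 ^ c.1)| ≤ 1201 * 2 ^ c.1 ∧ η ∈ Rm R c.1 then
        ‖F η‖ ^ 2 else 0) := by
    intro η _
    have h0 : ∀ c ∈ Mx g γt S J.1, (0 : ℝ) ≤ (if |η - (t + c.2 * 2 ^ c.1)| ≤ 1201 * 2 ^ c.1 ∧
        η ∈ Rm R c.1 then ‖F η‖ ^ 2 else 0) := fun c _ => by split_ifs <;> positivity
    split_ifs with hN
    · obtain ⟨c, hc, h2, h3⟩ := hN
      refine le_trans (le_of_eq ?_) (Finset.single_le_sum h0 hc)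
      have h2' : |η - (t + c.2 * 2 ^ c.1)| ≤ 1201 * 2 ^ c.1 := by
        rwa [show η - (t + c.2 * 2 ^ c.1) = η - t - c.2 * 2 ^ c.1 by ring]
      rw [if_pos ⟨h2', h3⟩]
    · exact Finset.sum_nonneg h0
  refine (Finset.sum_le_sum h1).trans ?_
  rw [Finset.sum_comm, Finset.mul_sum]
  exact Finset.sum_le_sum fun c _ => cell_energy hF c.1 _ Y

/-! ### sum over the frozen value -/

open Classical in
theorem energy {Wf X T T1 : Finset ℤ} {E : ℤ → ℤ → ℤ → ℝ} {θ : ℤ → ℝ} {Q : ℤ → ℤ → ℝ} {ρ : ℤ} {e : ℝ}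
    {σ : ℤ → ℤ → ℤ} (hρ : ρ ≠ 0) (hθ : ∀ z1, 0 ≤ θ z1)
    (hQ : ∀ z1 (Y : Finset ℤ), ∑ η ∈ Y, Q z1 η ≤ e) (he : 0 ≤ e)
    (hE : ∀ w z z1, E w z z1 ≤ if z ∈ T ∧ z1 ∈ T1 then θ z1 * Q z1 (ρ * w + σ z z1) else 0) :
    ∑ w ∈ Wf, ∑ z ∈ X, ∑ z1 ∈ X, E w z z1 ≤ T.card * (∑ z1 ∈ T1, θ z1) * e := by
  have h1 : ∑ w ∈ Wf, ∑ z ∈ X, ∑ z1 ∈ X, E w z z1 ≤
      ∑ z ∈ X, ∑ z1 ∈ X, (if z ∈ T then (if z1 ∈ T1 then θ z1 * e else 0) else 0) := by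
    rw [Finset.sum_comm]
    refine Finset.sum_le_sum fun z _ => ?_
    rw [Finset.sum_comm]
    refine Finset.sum_le_sum fun z1 _ => ?_
    refine (Finset.sum_le_sum fun w _ => hE w z z1).trans ?_
    by_cases h : z ∈ T
    · by_cases h' : z1 ∈ T1
      · rw [if_pos h, if_pos h']
        simp only [if_pos (show z ∈ T ∧ z1 ∈ T1 from ⟨h, h'⟩)]
        rw [← Finset.mul_sum]
        refine mul_le_mul_of_nonneg_left ?_ (hθ z1)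
        rw [← Finset.sum_image (s := Wf) (g := fun w => ρ * w + σ z z1) (f := Q z1) (by
          intro x _ y _ hxy
          have hxy' : ρ * x + σ z z1 = ρ * y + σ z z1 := hxy
          exact mul_left_cancel₀ hρ (add_right_cancel hxy'))]
        exact hQ z1 _
      · rw [if_pos h, if_neg h']
        simp [h']
    · rw [if_neg h]
      simp [h]
  refine h1.trans ?_
  have hte : ∀ z1, 0 ≤ θ z1 * e := fun z1 => mul_nonneg (hθ z1) he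
  have h2 : ∀ z ∈ X, ∑ z1 ∈ X, (if z ∈ T then (if z1 ∈ T1 then θ z1 * e else 0) else 0) ≤
      if z ∈ T then (∑ z1 ∈ T1, θ z1) * e else 0 := by
    intro z _
    split_ifs with h
    · rw [← Finset.sum_filter, Finset.sum_mul]
      refine Finset.sum_le_sum_of_subset_of_nonneg ?_ fun z1 _ _ => hte z1
      intro z1 hz1
      exact (Finset.mem_filter.1 hz1).2
    · simp
  refine (Finset.sum_le_sum h2).trans ?_
  rw [← Finset.sum_filter, Finset.sum_const, nsmul_eq_mul, mul_assoc]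
  refine mul_le_mul_of_nonneg_right ?_ (mul_nonneg (Finset.sum_nonneg fun z1 _ => hθ z1) he)
  have : (X.filter fun z => z ∈ T) ⊆ T := fun z hz => (Finset.mem_filter.1 hz).2
  exact_mod_cast Finset.card_le_card this

/-- number of `w` with `ρ w` in an interval -/
theorem card_W1 {ρ e : ℤ} (hρ : ρ ≠ 0) (L : ℕ) (Wf : Finset ℤ) :
    (Wf.filter fun w => |ρ * w - e| ≤ 37 * (L : ℤ)).card ≤ 74 * L + 1 := by
  have h1 : ((Wf.filter fun w => |ρ * w - e| ≤ 37 * (L : ℤ)).image fun w => ρ * w) ⊆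
      Icc (e - 37 * (L : ℤ)) (e + 37 * (L : ℤ)) := by
    intro y hy
    rw [Finset.mem_image] at hy
    obtain ⟨w, hw, rfl⟩ := hy
    rw [Finset.mem_filter] at hw
    have := abs_le.1 hw.2
    rw [Finset.mem_Icc]
    constructor <;> linarith [this.1, this.2]
  have h2 := Finset.card_le_card h1
  rw [Finset.card_image_of_injective _ (fun x y hxy => mul_left_cancel₀ hρ hxy), Int.card_Icc] at h2
  refine h2.trans (le_of_eq ?_)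
  rw [show e + 37 * (L : ℤ) + 1 - (e - 37 * (L : ℤ)) = ((74 * L + 1 : ℕ) : ℤ) by push_cast; ring,
    Int.toNat_natCast]


/-! ### one shift -/

open Classical in
/-- weight of the layer energies -/
noncomputable def eJ (L : ℝ) : ℕ → ℝ
  | 0 => L
  | j + 1 => 20 * L / 2 ^ j

theorem eJ_nonneg {L : ℝ} (hL : 0 ≤ L) (j : ℕ) : 0 ≤ eJ L j := by
  cases j with
  | zero => exact hL
  | succ j => unfold eJ; positivity

theorem eJ_mul {L : ℝ} (hL : 0 ≤ L) (j : ℕ) : 2 ^ j * eJ L j ≤ 40 * L := by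
  cases j with
  | zero => unfold eJ; simp only [pow_zero, one_mul]; linarith
  | succ j =>
    unfold eJ
    refine le_of_eq ?_
    rw [pow_succ]
    field_simp
    ring

section

variable {k k0 k1 k2 : Fin 4} {R : Finset Nd} {J : Nd}

open Classical in
/-- the masked line function -/
noncomputable def QJ (g : ℤ → ℝ) (γ0 : ℝ) (S : Finset ℤ) (R : Finset Nd) (J : Nd) (F : Fn) (δ' s' : ℤ) :
    ℕ → ℤ → ℤ → ℝ
  | 0, _, η => ‖F η‖ ^ 2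
  | j + 1, z1, η => if Near g (γ0 * 2 ^ j) S R J η (η - (δ' * z1 + s')) then ‖F η‖ ^ 2 else 0

theorem QJ_sum {F : Fn} (hF : ∀ p ∈ R, av p F ≤ 1) (hJ : J ∈ R) (hs : ∀ y, y ∉ iv J → F y = 0)
    {g : ℤ → ℝ} (hg : ∀ v, 0 ≤ g v) {S : Finset ℤ} (hS : ∀ y, y ∉ S → g y = 0) {γ0 : ℝ}
    (hγ0 : 0 < γ0) (hM : ∑ y ∈ S, g y ≤ γ0 * 2 ^ J.1) (δ' s' : ℤ) (j : ℕ) (z1 : ℤ) (Y : Finset ℤ) :
    ∑ η ∈ Y, QJ g γ0 S R J F δ' s' j z1 η ≤ eJ (len J) j := by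
  classical
  cases j with
  | zero =>
    unfold QJ eJ
    calc ∑ η ∈ Y, ‖F η‖ ^ 2 = ∑ η ∈ Y, (if η ∈ iv J then ‖F η‖ ^ 2 else 0) := by
          refine Finset.sum_congr rfl fun η _ => ?_
          split_ifs with h
          · rfl
          · rw [hs η h, norm_zero]; ring
      _ = ∑ η ∈ Y.filter (fun η => η ∈ iv J), ‖F η‖ ^ 2 := by rw [Finset.sum_filter]
      _ ≤ ∑ η ∈ iv J, ‖F η‖ ^ 2 := Finset.sum_le_sum_of_subset_of_nonneg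
          (fun η hη => (Finset.mem_filter.1 hη).2) fun _ _ _ => by positivity
      _ ≤ len J := sum_iv_le (hF J hJ)
  | succ j =>
    unfold QJ eJ
    refine (near_energy hF g (γ0 * 2 ^ j) S (δ' * z1 + s') Y).trans ?_
    have h1 := mx_total (γ := γ0 * 2 ^ j) (M0 := J.1) hg hS
    have h2 : (0 : ℝ) < γ0 * 2 ^ j := by positivity
    have h3 : ∑ c ∈ Mx g (γ0 * 2 ^ j) S J.1, (2 : ℝ) ^ c.1 ≤ 2 ^ J.1 / 2 ^ j := by
      rw [le_div_iff₀ (by positivity)]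
      have h4 : γ0 * ((∑ c ∈ Mx g (γ0 * 2 ^ j) S J.1, (2 : ℝ) ^ c.1) * 2 ^ j) ≤ γ0 * 2 ^ J.1 := by
        calc γ0 * ((∑ c ∈ Mx g (γ0 * 2 ^ j) S J.1, (2 : ℝ) ^ c.1) * 2 ^ j) =
            γ0 * 2 ^ j * ∑ c ∈ Mx g (γ0 * 2 ^ j) S J.1, (2 : ℝ) ^ c.1 := by ring
          _ ≤ _ := h1.trans hM
      exact le_of_mul_le_mul_left h4 hγ0
    calc 2560 * ∑ c ∈ Mx g (γ0 * 2 ^ j) S J.1, (2 : ℝ) ^ c.1 ≤ 2560 * (2 ^ J.1 / 2 ^ j) := by gcongr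
      _ = 20 * len J / 2 ^ j := by
          unfold len
          rw [pow_add]
          ring

theorem kJ_sq {g : ℤ → ℝ} {γ0 : ℝ} {S : Finset ℤ} {A : ℤ → ℤ → ℝ} {y v : ℤ → ℤ → ℤ} {x x' : ℤ}
    {b : Prop} [Decidable b] {θ1 : ℝ} {F : Fn} {δ' s' z1 : ℤ}
    (hA : A x x' ^ 2 ≤ if b then θ1 * ‖F (y x x')‖ ^ 2 else 0)
    (hv : v x x' = y x x' - (δ' * z1 + s')) (j : ℕ) :
    (kJ g γ0 S R J y v A j x x') ^ 2 ≤
      if b then θ1 * QJ g γ0 S R J F δ' s' j z1 (y x x') else 0 := by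
  cases j with
  | zero => exact hA
  | succ j =>
    by_cases h1 : Near g (γ0 * 2 ^ j) S R J (y x x') (y x x' - (δ' * z1 + s'))
    · have e1 : kJ g γ0 S R J y v A (j + 1) x x' = A x x' := by
        unfold kJ; simp only; rw [hv, if_pos h1]
      have e2 : QJ g γ0 S R J F δ' s' (j + 1) z1 (y x x') = ‖F (y x x')‖ ^ 2 := by
        unfold QJ; simp only; rw [if_pos h1]
      rw [e1, e2]
      exact hA
    · have e1 : kJ g γ0 S R J y v A (j + 1) x x' = 0 := by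
        unfold kJ; simp only; rw [hv, if_neg h1]
      have e2 : QJ g γ0 S R J F δ' s' (j + 1) z1 (y x x') = 0 := by
        unfold QJ; simp only; rw [if_neg h1]
      rw [e1, e2]
      split_ifs <;> simp

theorem abs_kJ {g : ℤ → ℝ} {γ0 : ℝ} {S : Finset ℤ} {A : ℤ → ℤ → ℝ} {y v : ℤ → ℤ → ℤ} (j : ℕ)
    (x x' : ℤ) : |kJ g γ0 S R J y v A j x x'| ≤ |A x x'| := by
  cases j with
  | zero => exact le_rfl
  | succ j =>
    unfold kJ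
    simp only
    split_ifs
    · exact le_rfl
    · rw [abs_zero]; exact abs_nonneg _

theorem kJ_ne {g : ℤ → ℝ} {γ0 : ℝ} {S : Finset ℤ} {A : ℤ → ℤ → ℝ} {y v : ℤ → ℤ → ℤ} {j : ℕ}
    {x x' : ℤ} (h : kJ g γ0 S R J y v A j x x' ≠ 0) : A x x' ≠ 0 := by
  intro h0
  apply h
  have := abs_kJ (R := R) (J := J) (g := g) (γ0 := γ0) (S := S) (A := A) (y := y) (v := v) j x x'
  rw [h0, abs_zero] at this
  exact abs_eq_zero.1 (le_antisymm this (abs_nonneg _))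

/-- size of a frozen kernel -/
theorem fr4_sq {T T' : Finset ℤ} {a : ℤ → ℤ → ℂ} {F : ℤ → ℂ} {α β γ w z z' : ℤ} {θ1 : ℝ} (σ : Bool)
    (ha : ‖a z z'‖ ^ 2 ≤ θ1) :
    (pr σ (fr4 T T' a F α β γ w z z')) ^ 2 ≤
      if z ∈ T ∧ z' ∈ T' then θ1 * ‖F (α * w + β * z + γ * z')‖ ^ 2 else 0 := by
  unfold fr4
  split_ifs with h
  · rw [← sq_abs]
    calc |pr σ (a z z' * F (α * w + β * z + γ * z'))| ^ 2
        ≤ ‖a z z' * F (α * w + β * z + γ * z')‖ ^ 2 :=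
          pow_le_pow_left₀ (abs_nonneg _) (abs_pr_le σ _) 2
      _ = ‖a z z'‖ ^ 2 * ‖F (α * w + β * z + γ * z')‖ ^ 2 := by rw [norm_mul, mul_pow]
      _ ≤ _ := mul_le_mul_of_nonneg_right ha (by positivity)
  · rw [pr_zero]; simp

theorem tw_zero {Gm : ℕ → ℤ → ℤ → ℤ → Prop} {A B C : ℤ → ℤ → ℝ} {M L1 : ℕ} {l w : ℤ}
    (hB : ∀ x y, B x y = 0) : Tw Gm A B C M L1 l w = 0 := by
  classical
  unfold Tw
  refine Finset.sum_eq_zero fun m _ => ?_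
  rw [Finset.sum_eq_zero, mul_zero]
  intro i _
  refine Finset.sum_eq_zero fun p0 _ => Finset.sum_eq_zero fun p1 _ => ?_
  split_ifs
  · rw [abs_eq_zero]
    by_contra hc
    obtain ⟨i0, i1, i2, _, _, _, _, h, _⟩ := box_zero hc
    exact h (hB _ _)
  · rfl

/-- energies of the first kernel -/
theorem EA_sum (h : D4 k k0 k1 k2) (hJ : J ∈ R) {F : Fin 4 → Fn} (hF : ∀ p ∈ R, av p (F k2) ≤ 1)
    (hs : ∀ y, y ∉ iv J → F k2 y = 0) {g : ℤ → ℝ} (hg : ∀ v, 0 ≤ g v) {S : Finset ℤ}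
    (hS : ∀ y, y ∉ S → g y = 0) {γ0 : ℝ} (hγ0 : 0 < γ0) (hM : ∑ y ∈ S, g y ≤ γ0 * 2 ^ J.1)
    {θ : ℤ → ℝ} (hθ : ∀ z, 0 ≤ θ z) {a : ℤ → ℤ → ℂ} (ha : ∀ z0 z1, ‖a z0 z1‖ ^ 2 ≤ θ z1)
    (T0 T1 Wf X : Finset ℤ) (s' : ℤ) (σ0 : Bool) (j : ℕ) :
    ∑ w ∈ Wf, ∑ x ∈ X, ∑ y ∈ X, (kJ g γ0 S R J (fun z0 z1 => sha k k2 k0 k1 w z0 z1)
      (fun z0 z1 => vy k k1 s' z1 (sha k k2 k0 k1 w z0 z1))
      (fun z z' => pr σ0 (kA k k0 k1 k2 T0 T1 a F w z z')) j x y) ^ 2 ≤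
      T0.card * (∑ z1 ∈ T1, θ z1) * eJ (len J) j := by
  have hρ2 : sl k - sl k2 ≠ 0 := by
    have := sl_ne0 k k2 h.h2
    intro hc; apply this; linarith
  refine energy (Q := fun z1 η => QJ g γ0 S R J (F k2) (sl k1 - sl k) s' j z1 η) (ρ := sl k - sl k2)
      (σ := fun z z1 => (sl k0 - sl k2) * z + (sl k1 - sl k2) * z1) hρ2 hθ
      (fun z1 Y => QJ_sum hF hJ hs hg hS hγ0 hM _ _ _ _ _) (eJ_nonneg (Growth.len_pos J).le j) ?_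
  intro w z z1
  have h2 := kJ_sq (R := R) (J := J) (g := g) (γ0 := γ0) (S := S)
    (A := fun z z' => pr σ0 (kA k k0 k1 k2 T0 T1 a F w z z'))
    (y := fun z0 z1 => sha k k2 k0 k1 w z0 z1)
    (v := fun z0 z1 => vy k k1 s' z1 (sha k k2 k0 k1 w z0 z1)) (x := z) (x' := z1) (F := F k2)
    (δ' := sl k1 - sl k) (s' := s') (z1 := z1) (b := z ∈ T0 ∧ z1 ∈ T1) (θ1 := θ z1)
    (fr4_sq σ0 (ha z z1)) (by unfold vy; ring) j
  refine h2.trans (le_of_eq ?_)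
  unfold sha
  rw [add_assoc]

/-- energies of the second kernel -/
theorem EB_sum (h : D4 k k0 k1 k2) (hJ : J ∈ R) {F : Fin 4 → Fn} (hF : ∀ p ∈ R, av p (F k0) ≤ 1)
    (hs : ∀ y, y ∉ iv J → F k0 y = 0) {g : ℤ → ℝ} (hg : ∀ v, 0 ≤ g v) {S : Finset ℤ}
    (hS : ∀ y, y ∉ S → g y = 0) {γ0 : ℝ} (hγ0 : 0 < γ0) (hM : ∑ y ∈ S, g y ≤ γ0 * 2 ^ J.1)
    {θ : ℤ → ℝ} (hθ : ∀ z, 0 ≤ θ z) {b : ℤ → ℤ → ℂ} (hb : ∀ z1 z2, ‖b z1 z2‖ ^ 2 ≤ θ z1)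
    (T1 T2 Wf X : Finset ℤ) (s' : ℤ) (σ0 : Bool) (j : ℕ) :
    ∑ w ∈ Wf, ∑ x ∈ X, ∑ y ∈ X, (kJ g γ0 S R J (fun z1 z2 => sha k k0 k1 k2 w z1 z2)
      (fun z1 z2 => vy k k1 s' z1 (sha k k0 k1 k2 w z1 z2))
      (fun z z' => pr σ0 (kB k k0 k1 k2 T1 T2 b F w z z')) j x y) ^ 2 ≤
      T2.card * (∑ z1 ∈ T1, θ z1) * eJ (len J) j := by
  have hρ0 : sl k - sl k0 ≠ 0 := by
    have := sl_ne0 k k0 h.h0
    intro hc; apply this; linarith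
  have hcomm : ∀ w ∈ Wf, ∑ x ∈ X, ∑ y ∈ X, (kJ g γ0 S R J (fun z1 z2 => sha k k0 k1 k2 w z1 z2)
      (fun z1 z2 => vy k k1 s' z1 (sha k k0 k1 k2 w z1 z2))
      (fun z z' => pr σ0 (kB k k0 k1 k2 T1 T2 b F w z z')) j x y) ^ 2 =
      ∑ y ∈ X, ∑ x ∈ X, (kJ g γ0 S R J (fun z1 z2 => sha k k0 k1 k2 w z1 z2)
      (fun z1 z2 => vy k k1 s' z1 (sha k k0 k1 k2 w z1 z2))
      (fun z z' => pr σ0 (kB k k0 k1 k2 T1 T2 b F w z z')) j x y) ^ 2 := fun w _ => Finset.sum_comm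
  rw [Finset.sum_congr rfl hcomm]
  refine energy (E := fun w y x => (kJ g γ0 S R J (fun z1 z2 => sha k k0 k1 k2 w z1 z2)
      (fun z1 z2 => vy k k1 s' z1 (sha k k0 k1 k2 w z1 z2))
      (fun z z' => pr σ0 (kB k k0 k1 k2 T1 T2 b F w z z')) j x y) ^ 2)
      (Q := fun z1 η => QJ g γ0 S R J (F k0) (sl k1 - sl k) s' j z1 η) (ρ := sl k - sl k0)
      (σ := fun z z1 => (sl k1 - sl k0) * z1 + (sl k2 - sl k0) * z) hρ0 hθ
      (fun z1 Y => QJ_sum hF hJ hs hg hS hγ0 hM _ _ _ _ _) (eJ_nonneg (Growth.len_pos J).le j) ?_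
  intro w z z1
  have h2 := kJ_sq (R := R) (J := J) (g := g) (γ0 := γ0) (S := S)
    (A := fun z z' => pr σ0 (kB k k0 k1 k2 T1 T2 b F w z z'))
    (y := fun z1 z2 => sha k k0 k1 k2 w z1 z2)
    (v := fun z1 z2 => vy k k1 s' z1 (sha k k0 k1 k2 w z1 z2)) (x := z1) (x' := z) (F := F k0)
    (δ' := sl k1 - sl k) (s' := s') (z1 := z1) (b := z1 ∈ T1 ∧ z ∈ T2) (θ1 := θ z1)
    (fr4_sq σ0 (hb z1 z)) (by unfold vy; ring) j
  refine h2.trans (le_of_eq ?_)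
  unfold sha
  rw [add_assoc]
  by_cases hc : z ∈ T2 ∧ z1 ∈ T1
  · rw [if_pos hc, if_pos (And.comm.1 hc)]
  · rw [if_neg hc, if_neg (fun h' => hc (And.comm.1 h'))]

theorem lenN_pow (J : Nd) : (lenN J : ℤ) = 128 * 2 ^ J.1 := by
  unfold lenN
  push_cast
  rw [pow_add]
  ring

/-- first kernel of the layer `j` -/
noncomputable def AJ (k k0 k1 k2 : Fin 4) (R : Finset Nd) (J : Nd) (F : Fin 4 → Fn) (a : ℤ → ℤ → ℂ)
    (c : ℤ → ℂ) (γ0 : ℝ) (S : Finset ℤ) (s' : ℤ) (σ0 : Bool) (j : ℕ) (w : ℤ) : ℤ → ℤ → ℝ :=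
  kJ (fun v => ‖c v‖) γ0 S R J (fun z0 z1 => sha k k2 k0 k1 w z0 z1)
    (fun z0 z1 => vy k k1 s' z1 (sha k k2 k0 k1 w z0 z1))
    (fun z z' => pr σ0 (kA k k0 k1 k2 (T0x k k0 J) (T6x J) a F w z z')) j

/-- second kernel of the layer `j` -/
noncomputable def BJ (k k0 k1 k2 : Fin 4) (R : Finset Nd) (J : Nd) (F : Fin 4 → Fn) (b : ℤ → ℤ → ℂ)
    (c : ℤ → ℂ) (γ0 : ℝ) (S : Finset ℤ) (s' : ℤ) (σ1 : Bool) (j : ℕ) (w : ℤ) : ℤ → ℤ → ℝ :=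
  kJ (fun v => ‖c v‖) γ0 S R J (fun z1 z2 => sha k k0 k1 k2 w z1 z2)
    (fun z1 z2 => vy k k1 s' z1 (sha k k0 k1 k2 w z1 z2))
    (fun z z' => pr σ1 (kB k k0 k1 k2 (T6x J) (T6x J) b F w z z')) j

theorem card_T0x (k k0 : Fin 4) (J : Nd) : ((T0x k k0 J).card : ℝ) = 80 * len J := by
  unfold T0x
  rw [Int.card_Ico, ← lenN_cast]
  rw [show (J.2 * 2 ^ (J.1 + 7) / (sl k0 - sl k) + 40 * (lenN J : ℤ) -
    (J.2 * 2 ^ (J.1 + 7) / (sl k0 - sl k) - 40 * (lenN J : ℤ))) = ((80 * lenN J : ℕ) : ℤ) by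
    push_cast; ring, Int.toNat_natCast]
  push_cast
  ring

theorem card_T6x (J : Nd) : ((T6x J).card : ℝ) = 6 * len J := by
  unfold T6x
  rw [Int.card_Ico, ← lenN_cast]
  rw [show (6 * (lenN J : ℤ) - 0) = ((6 * lenN J : ℕ) : ℤ) by push_cast; ring, Int.toNat_natCast]
  push_cast
  ring

/-- position of the box of the coordinate `z0` -/
def q0 (k k0 : Fin 4) (J : Nd) : ℤ := J.2 * 2 ^ (J.1 + 7) / (sl k0 - sl k)

/-- size of the coordinates -/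
def S0 (k k0 : Fin 4) (J : Nd) : ℕ := (q0 k k0 J).natAbs + 41 * lenN J

theorem S0_eq (k k0 : Fin 4) (J : Nd) : ((S0 k k0 J : ℕ) : ℤ) = |q0 k k0 J| + 41 * (lenN J : ℤ) := by
  unfold S0
  rw [Nat.cast_add, Int.natCast_natAbs, Nat.cast_mul]
  rfl

theorem mem_T0x' {k k0 : Fin 4} {J : Nd} {z : ℤ} (hz : z ∈ T0x k k0 J) :
    q0 k k0 J - 40 * (lenN J : ℤ) ≤ z ∧ z < q0 k k0 J + 40 * (lenN J : ℤ) := by
  unfold T0x at hz
  rw [Finset.mem_Ico] at hz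
  exact hz

theorem mem_T6x' {J : Nd} {z : ℤ} (hz : z ∈ T6x J) : 0 ≤ z ∧ z < 6 * (lenN J : ℤ) := by
  unfold T6x at hz
  rw [Finset.mem_Ico] at hz
  exact hz

theorem abs_T0x {k k0 : Fin 4} {J : Nd} {z : ℤ} (hz : z ∈ T0x k k0 J) : |z| ≤ S0 k k0 J := by
  have h1 := mem_T0x' hz
  have h2 := neg_abs_le (q0 k k0 J)
  have h3 := le_abs_self (q0 k k0 J)
  have h4 : (0 : ℤ) ≤ (lenN J : ℤ) := by positivity
  rw [S0_eq, abs_le]
  constructor <;> linarith [h1.1, h1.2]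

theorem abs_T6x {k k0 : Fin 4} {J : Nd} {z : ℤ} (hz : z ∈ T6x J) : |z| ≤ S0 k k0 J := by
  have h1 := mem_T6x' hz
  have h2 := abs_nonneg (q0 k k0 J)
  have h4 : (0 : ℤ) ≤ (lenN J : ℤ) := by positivity
  rw [S0_eq, abs_le]
  constructor <;> linarith [h1.1, h1.2]

/-- the third kernel -/
theorem C_le {F : Fin 4 → Fn} {M3 : ℝ} (hM : 0 ≤ M3) (hb : ∀ y, ‖F k1 y‖ ≤ M3) (T2 T0 : Finset ℤ)
    (c : ℤ → ℂ) (s' w : ℤ) (σ : Bool) (x y : ℤ) :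
    |pr σ (kC k k0 k1 k2 T2 T0 (gc k k0 k2 c s') F w x y)| ≤
      M3 * ‖c (vv (sl k2 - sl k) (sl k0 - sl k) s' x y)‖ := by
  refine (abs_pr_le _ _).trans ?_
  unfold kC fr4
  split_ifs
  · rw [norm_mul, mul_comm]
    unfold gc vv
    rw [show (sl k0 - sl k) * y + (sl k2 - sl k) * x - s' = (sl k2 - sl k) * x + (sl k0 - sl k) * y - s'
      by ring]
    exact mul_le_mul_of_nonneg_right (hb _) (norm_nonneg _)
  · rw [norm_zero]; positivity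

theorem fr4_ne {T T' : Finset ℤ} {a : ℤ → ℤ → ℂ} {F : ℤ → ℂ} {α β γ w z z' : ℤ} {σ : Bool}
    (h : pr σ (fr4 T T' a F α β γ w z z') ≠ 0) : z ∈ T ∧ z' ∈ T' := by
  by_contra hc
  apply h
  unfold fr4
  rw [if_neg hc, pr_zero]

theorem abs_of_sq {H Θm θ1 x : ℝ} {F : Fn} (hF : ∀ y, ‖F y‖ ≤ H) (hH : 0 < H) (hΘ : 0 < Θm)
    (hθ : θ1 ≤ Θm) {b : Prop} [Decidable b] {y : ℤ}
    (h : x ^ 2 ≤ if b then θ1 * ‖F y‖ ^ 2 else 0) : |x| ≤ √Θm * H := by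
  refine abs_le_of_sq_le_sq ?_ (mul_pos (Real.sqrt_pos.2 hΘ) hH).le
  rw [mul_pow, Real.sq_sqrt hΘ.le]
  refine h.trans ?_
  split_ifs
  · exact mul_le_mul hθ (pow_le_pow_left₀ (norm_nonneg _) (hF y) 2) (by positivity) hΘ.le
  · positivity

open Classical in
/-- **ONE SHIFT, ONE FROZEN VALUE** -/
theorem one_w (hCZ : CornerZ) : ∃ K : ℝ, 0 ≤ K ∧ ∀ (k k0 k1 k2 : Fin 4), D4 k k0 k1 k2 →
    ∀ (R : Finset Nd) (J : Nd), IsRegion R J → ∀ (F : Fin 4 → Fn) (Hx M3 : ℝ),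
    0 < Hx → 0 < M3 →
    (∀ y, ‖F k0 y‖ ≤ Hx) → (∀ y, ‖F k2 y‖ ≤ Hx) → (∀ y, ‖F k1 y‖ ≤ M3) →
    ∀ (θ : ℤ → ℝ) (Θm : ℝ), (∀ z, θ z ≤ Θm) → 0 < Θm →
    ∀ (a b : ℤ → ℤ → ℂ), (∀ z0 z1, ‖a z0 z1‖ ^ 2 ≤ θ z1) → (∀ z1 z2, ‖b z1 z2‖ ^ 2 ≤ θ z1) →
    ∀ (c : ℤ → ℂ) (S : Finset ℤ) (γ0 : ℝ) (N : ℕ), (∀ v, v ∉ S → c v = 0) → 0 < γ0 →
    ∑ v ∈ S, ‖c v‖ ≤ γ0 * 2 ^ J.1 → (∀ v, ‖c v‖ ≤ γ0 * 2 ^ N) → ∀ Hg : ℝ, (∀ v, ‖c v‖ ≤ Hg) →
    ∀ (δ : ℝ) (J0 : ℕ), 0 < δ →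
    Hg ^ 2 * (6000 * len J ^ 2) ≤ 289 * γ0 ^ 2 * (δ / (Θm * Hx ^ 2) * 2 ^ J0) →
    ∀ (s' l : ℤ), |l| ≤ 7 → ∀ (σ0 σ1 σ2 : Bool) (w : ℤ) (L1 : ℕ),
    Tw (fun m p0 p1 p2 => Gd k k0 k1 k2 R m w p0 p1 p2)
        (fun z z' => pr σ0 (kA k k0 k1 k2 (T0x k k0 J) (T6x J) a F w z z'))
        (fun z z' => pr σ1 (kB k k0 k1 k2 (T6x J) (T6x J) b F w z z'))
        (fun z z' => pr σ2 (kC k k0 k1 k2 (T6x J) (T0x k k0 J) (gc k k0 k2 c s') F w z z'))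
        (J.1 + 1) L1 l w ≤
      ∑ j ∈ range (N + 1), K * (2 * J0 + 1) * ((17 * M3 * (γ0 * 2 ^ j)) *
        √(∑ x ∈ Icc (-(S0 k k0 J : ℤ)) (S0 k k0 J), ∑ y ∈ Icc (-(S0 k k0 J : ℤ)) (S0 k k0 J),
          AJ k k0 k1 k2 R J F a c γ0 S s' σ0 j w x y ^ 2 + δ) *
        √(∑ x ∈ Icc (-(S0 k k0 J : ℤ)) (S0 k k0 J), ∑ y ∈ Icc (-(S0 k k0 J : ℤ)) (S0 k k0 J),
          BJ k k0 k1 k2 R J F b c γ0 S s' σ1 j w x y ^ 2 + δ)) := by
  obtain ⟨K0, hK0, hlay⟩ := layer hCZ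
  refine ⟨K0, hK0, ?_⟩
  intro k k0 k1 k2 h R J hR F Hx M3 hHx hM3 hb0 hb2 hb1 θ Θm hθm hΘm a b ha hb
    c S γ0 N hcS hγ0 hcM hcN Hg hcH δ J0 hδ hJ0 s' l hl σ0 σ1 σ2 w L1
  have hGeo := geo h
  have hLr : (lenN J : ℝ) = len J := lenN_cast J
  have hLz : (lenN J : ℤ) = 128 * 2 ^ J.1 := lenN_pow J
  have hL128 : (128 : ℤ) ≤ (lenN J : ℤ) := by exact_mod_cast lenN_ge J
  have h2J : (0 : ℤ) < 2 ^ J.1 := by positivity
  have hL0 : 0 < len J := Growth.len_pos J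
  have hL1 : (128 : ℝ) ≤ len J := by rw [← hLr]; exact_mod_cast lenN_ge J
  have hgn : ∀ v, 0 ≤ ‖c v‖ := fun v => norm_nonneg _
  have hgS : ∀ v, v ∉ S → ‖c v‖ = 0 := fun v hv => by rw [hcS v hv, norm_zero]
  have hHA0 : 0 < √Θm * Hx := mul_pos (Real.sqrt_pos.2 hΘm) hHx
  have habsq0 := abs_nonneg (q0 k k0 J)
  refine (tw_le_layers h hR (g := fun v => ‖c v‖) hgn hgS hγ0.le hcM hcN
    (x0 := -(lenN J : ℤ)) (x1 := 7 * (lenN J : ℤ)) (y0 := q0 k k0 J - 41 * (lenN J : ℤ))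
    (y1 := q0 k k0 J + 41 * (lenN J : ℤ)) _ _ _ (fun x y hne => ?_) s' w l hl L1).trans ?_
  · obtain ⟨hx, hy⟩ := fr4_ne hne
    have h1 := mem_T6x' hx
    have h2 := mem_T0x' hy
    refine ⟨?_, ?_, ?_, ?_⟩ <;> linarith [h1.1, h1.2, h2.1, h2.2]
  · refine Finset.sum_le_sum fun j hj => ?_
    refine hlay R J hR _ _ _ _ _ s' w _ _ _ _ hGeo (fun v => ‖c v‖) hgn (γ0 * 2 ^ j) M3 Hg
      (√Θm * Hx) δ (by positivity) hM3 hcH hHA0 hδ _ (noEx_prJ hGeo.b3 hGeo.g3 s' _ γ0 j) _ _ _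
      (S0 k k0 J) ?_ ?_ ?_ ?_ ?_ ?_ ?_ ?_ ?_ (fun x y => C_le hM3.le hb1 _ _ c s' w σ2 x y) J0
      (6000 * len J ^ 2) ?_ ?_ l hl L1
    · intro x y hne
      obtain ⟨hx, hy⟩ := fr4_ne (kJ_ne hne)
      exact ⟨abs_T0x hx, abs_T6x hy⟩
    · intro x y hne
      obtain ⟨hx, hy⟩ := fr4_ne (kJ_ne hne)
      exact ⟨abs_T6x hx, abs_T6x hy⟩
    · intro x y hne
      obtain ⟨hx, hy⟩ := fr4_ne hne
      exact ⟨abs_T6x hx, abs_T0x hy⟩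
    · rw [S0_eq, abs_neg, abs_of_nonneg (by linarith)]
      linarith
    · rw [S0_eq, abs_of_nonneg (by linarith)]
      linarith
    · rw [S0_eq, abs_le]
      have h2 := neg_abs_le (q0 k k0 J)
      have h3 := le_abs_self (q0 k k0 J)
      constructor <;> linarith
    · rw [S0_eq, abs_le]
      have h2 := neg_abs_le (q0 k k0 J)
      have h3 := le_abs_self (q0 k k0 J)
      constructor <;> linarith
    · intro x y
      exact (abs_kJ j x y).trans (abs_of_sq hb2 hHx hΘm (hθm y) (fr4_sq σ0 (ha x y)))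
    · intro x y
      exact (abs_kJ j x y).trans (abs_of_sq hb0 hHx hΘm (hθm x) (fr4_sq σ1 (hb x y)))
    · have e1 : ((Icc (-(lenN J : ℤ)) (7 * (lenN J : ℤ))).card : ℝ) = 8 * len J + 1 := by
        rw [Int.card_Icc, ← hLr]
        rw [show 7 * (lenN J : ℤ) + 1 - -(lenN J : ℤ) = ((8 * lenN J + 1 : ℕ) : ℤ) by
          push_cast; ring, Int.toNat_natCast]
        push_cast; ring
      have e2 : ((Icc (q0 k k0 J - 41 * (lenN J : ℤ)) (q0 k k0 J + 41 * (lenN J : ℤ))).card : ℝ) =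
          82 * len J + 1 := by
        rw [Int.card_Icc, ← hLr]
        rw [show q0 k k0 J + 41 * (lenN J : ℤ) + 1 - (q0 k k0 J - 41 * (lenN J : ℤ)) =
          ((82 * lenN J + 1 : ℕ) : ℤ) by push_cast; ring, Int.toNat_natCast]
        push_cast; ring
      rw [e1, e2]
      nlinarith
    · have h1 : (√Θm * Hx) ^ 2 = Θm * Hx ^ 2 := by rw [mul_pow, Real.sq_sqrt hΘm.le]
      rw [h1]
      have h2 : γ0 ^ 2 ≤ (γ0 * 2 ^ j) ^ 2 := by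
        have : γ0 ≤ γ0 * 2 ^ j := le_mul_of_one_le_right hγ0.le (one_le_pow₀ (by norm_num))
        exact pow_le_pow_left₀ hγ0.le this 2
      have h3 : 0 ≤ δ / (Θm * Hx ^ 2) * 2 ^ J0 := by positivity
      calc (M3 * Hg) ^ 2 * (6000 * len J ^ 2) = M3 ^ 2 * (Hg ^ 2 * (6000 * len J ^ 2)) := by ring
        _ ≤ M3 ^ 2 * (289 * γ0 ^ 2 * (δ / (Θm * Hx ^ 2) * 2 ^ J0)) := by gcongr
        _ ≤ M3 ^ 2 * (289 * (γ0 * 2 ^ j) ^ 2 * (δ / (Θm * Hx ^ 2) * 2 ^ J0)) := by gcongr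
        _ = _ := by ring

end

end Crest.Agent.R079.CKk217
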