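import Crest.Agent.R079.T6b_252
import Crest.Agent.R079.OpSr_276
import Crest.Agent.R079.TS1_653

/-! R079 (helper276): **a frozen letter with small `L¹` average is paid by the bound `B`** (one stopping
time), and linearity of `TR` in one slot. -/

set_option autoImplicit false

namespace Crest.Agent.R079.OpK276

open Finset Crest.Agent.R079.Grid Crest.Agent.R079.Growth Crest.Agent.R079.QRed
  Crest.Agent.R079.Qe292 Crest.Agent.R079.TRec Crest.Agent.R079.T6ax252

/-- `TR` of a finite combination in the slot `i` (equality on `iv I` is enough) -/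
theorem TR_comb {bb : ℤ} {ε : ℕ → ℤ → ℂ} (hA : Adm bb ε) {W : Finset Nd} {I : Nd}
    (hW : ∀ p ∈ W, iv p ⊆ iv I) (F : Fin 4 → Fn) (i : Fin 4) {n : ℕ} (φ : Fin n → Fn)
    (α : Fin n → ℂ) (h : ∀ y ∈ iv I, F i y = ∑ l, α l * φ l y) :
    TR bb ε W F = ∑ l, α l * TR bb ε W (Function.update F i (φ l)) := by
  have e0 : ∀ p ∈ W, TI bb ε F p = ∑ l, α l * TI bb ε (Function.update F i (φ l)) p := by
    intro p hp
    have e1 : TI bb ε F p = TI bb ε (Function.update F i (fun y => ∑ l, α l * φ l y)) p := by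
      refine Qb247.TI_congr bb hA.1 ε _ _ p fun j y hy => ?_
      by_cases hj : j = i
      · subst hj
        rw [Function.update_self]
        exact h y (hW p hp hy)
      · rw [Function.update_of_ne hj]
    rw [e1, Qb247.TI_update_sum]
  unfold TR
  rw [Finset.sum_congr rfl e0]
  simp only [Finset.mul_sum]
  rw [Finset.sum_comm]

/-- scaling of the slot `i` -/
theorem TR_scale {bb : ℤ} {ε : ℕ → ℤ → ℂ} (hA : Adm bb ε) {W : Finset Nd} {I : Nd}
    (hW : ∀ p ∈ W, iv p ⊆ iv I) (F : Fin 4 → Fn) (i : Fin 4) (φ : Fn) (c : ℂ)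
    (h : ∀ y ∈ iv I, F i y = c * φ y) :
    TR bb ε W F = c * TR bb ε W (Function.update F i φ) := by
  have := TR_comb hA hW F i (n := 1) (fun _ => φ) (fun _ => c) (by simpa using h)
  simpa using this

/-- bound by `B` with one letter of local norm `≤ η` -/
theorem TR_le_B {k q3 : ℝ} (hk : 0 < k) (hq3 : 0 < q3) {N : ℕ} {B : ℝ} (hBN : BN k q3 N B)
    {bb : ℤ} {ε : ℕ → ℤ → ℂ} (hA : Adm bb ε) {W : Finset Nd} {I : Nd} (hW : Full W I)
    (hI : I.1 ≤ N) (F : Fin 4 → Fn) (i : Fin 4) {η : ℝ} (hη : 0 < η)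
    (hF : ∀ j, j ≠ i → ∀ p ∈ W, aq (qx k q3 j) p (F j) ≤ 1)
    (hi : ∀ p ∈ W, aq (qx k q3 i) p (F i) ≤ η) :
    ‖TR bb ε W F‖ ≤ η * B * len I := by
  have hW' : ∀ p ∈ W, iv p ⊆ iv I := fun p hp => hW.reg.1 p hp
  have hηc : (η : ℂ) ≠ 0 := by exact_mod_cast hη.ne'
  have e1 := TR_scale (ε := ε) hA hW' F i (fun y => (η : ℂ)⁻¹ * F i y) (η : ℂ) (fun y _ => by
    rw [mul_inv_cancel_left₀ hηc])
  have hqi : 0 < qx k q3 i := by unfold qx; split_ifs <;> linarith
  have h2 := hBN bb ε hA W I hW hI (Function.update F i (fun y => (η : ℂ)⁻¹ * F i y)) (by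
    intro j p hp
    by_cases hj : j = i
    · subst hj
      rw [Function.update_self, aq_smul hqi, norm_inv, Complex.norm_real,
        Real.norm_of_nonneg hη.le, inv_mul_le_iff₀ hη, mul_one]
      exact hi p hp
    · rw [Function.update_of_ne hj]
      exact hF j hj p hp)
  rw [e1, norm_mul, Complex.norm_real, Real.norm_of_nonneg hη.le, mul_assoc]
  exact mul_le_mul_of_nonneg_left h2 hη.le

/-- interpolation between the `L¹` average and the sup norm -/
theorem aq_le_L1 {q : ℝ} (hq : 1 ≤ q) (p : Nd) {f : Fn} {a s : ℝ} (ha : 0 ≤ a) (hs : 0 ≤ s)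
    (h1 : (1 / len p) * ∑ y ∈ iv p, ‖f y‖ ≤ a) (hsup : ∀ y ∈ iv p, ‖f y‖ ≤ s) :
    aq q p f ≤ (a * s ^ (q - 1)) ^ (1 / q) := by
  rw [aq_eq]
  refine Real.rpow_le_rpow (aq_arg_nonneg q p f) ?_ (by positivity)
  have hL := Growth.len_pos p
  have h2 : ∑ y ∈ iv p, ‖f y‖ ^ q ≤ ∑ y ∈ iv p, ‖f y‖ * s ^ (q - 1) := by
    refine Finset.sum_le_sum fun y hy => ?_
    have e : ‖f y‖ ^ q = ‖f y‖ * ‖f y‖ ^ (q - 1) := by
      rcases (norm_nonneg (f y)).eq_or_lt with h0 | h0
      · rw [← h0, Real.zero_rpow (by linarith), zero_mul]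
      · have := Real.rpow_add h0 1 (q - 1)
        rw [Real.rpow_one] at this
        rw [← this]; congr 1; ring
    rw [e]
    exact mul_le_mul_of_nonneg_left
      (Real.rpow_le_rpow (norm_nonneg _) (hsup y hy) (by linarith)) (norm_nonneg _)
  have hsq : 0 ≤ s ^ (q - 1) := Real.rpow_nonneg hs _
  calc (1 / len p) * ∑ y ∈ iv p, ‖f y‖ ^ q
      ≤ (1 / len p) * ∑ y ∈ iv p, ‖f y‖ * s ^ (q - 1) := by gcongr
    _ = ((1 / len p) * ∑ y ∈ iv p, ‖f y‖) * s ^ (q - 1) := by
        rw [← Finset.sum_mul, mul_assoc]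
    _ ≤ a * s ^ (q - 1) := by gcongr

/-- `L¹` average of a letter -/
noncomputable def av1 (f : Fn) (p : Nd) : ℝ := (1 / len p) * ∑ y ∈ iv p, ‖f y‖

theorem av1_nonneg (f : Fn) (p : Nd) : 0 ≤ av1 f p := by
  unfold av1
  have := Growth.len_pos p
  positivity

theorem sav_av1 (f : Fn) : Sav (av1 f) := by
  intro m l
  unfold av1
  rw [TWin.sum_ch]
  have e0 : len (m + 1, l) = 2 * len (m, 2 * l) := TWin.len_ch m l _
  have e1 : len (m, 2 * l + 1) = len (m, 2 * l) := rfl
  rw [e0, e1]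
  have hL := Growth.len_pos (m, 2 * l)
  refine le_of_eq ?_
  field_simp

/-- **SMALL `L¹` AVERAGE**: paid by `B` -/
theorem smallL1_B {k q3 : ℝ} (hk : 0 < k) (hq3 : 0 < q3) {N : ℕ} {B : ℝ} (hB : 0 ≤ B)
    (hBN : BN k q3 N B) {bb : ℤ} {ε : ℕ → ℤ → ℂ} (hA : Adm bb ε) {W : Finset Nd} {I : Nd}
    (hW : Full W I) (hI : I.1 ≤ N) {i : Fin 4} (hi : i ≠ 3) {F : Fin 4 → Fn}
    (hF : ∀ j, j ≠ i → ∀ p ∈ W, aq (qx k q3 j) p (F j) ≤ 1) {H τ : ℝ} (hH : 0 < H) (hτ : 0 < τ)
    (hτ1 : τ ≤ 1) (hs : ∀ y ∈ iv I, ‖F i y‖ ≤ H) (h1 : ∑ y ∈ iv I, ‖F i y‖ ≤ H * τ * len I) :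
    ‖TR bb ε W F‖ ≤ 3 * H * B * τ ^ (1 / (2 * (2 + k))) * len I := by
  have hL := Growth.len_pos I
  have hqi : qx k q3 i = 2 + k := by unfold qx; rw [if_neg hi]
  have hW' : ∀ p ∈ W, iv p ⊆ iv I := fun p hp => hW.reg.1 p hp
  set G : Nd → ℝ := av1 (F i) with hG
  set s : ℝ := Real.sqrt τ with hs'
  have hs0 : 0 < s := Real.sqrt_pos.2 hτ
  have hss : s ^ 2 = τ := Real.sq_sqrt hτ.le
  have hs1 : s ≤ 1 := by
    rw [hs', show (1 : ℝ) = Real.sqrt 1 by simp]; exact Real.sqrt_le_sqrt hτ1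
  have hGI : G I ≤ H * τ := by
    show (1 / len I) * _ ≤ _
    rw [one_div, inv_mul_le_iff₀ hL]
    linarith
  set V := Wd W (fun _ p => G p) (H * s) I with hV
  set T := Tp W (fun _ p => G p) (H * s) I with hT
  have hVW : V ⊆ W := Wd_sub
  have hVf : Full V I := Wd_full hW hW.top
  have hVg : ∀ p ∈ V, G p ≤ H * s := by
    intro p hp
    by_cases h : p = I
    · rw [h]
      refine hGI.trans (mul_le_mul_of_nonneg_left ?_ hH.le)
      rw [← hss]; nlinarith
    · have := mem_Wd.1 hp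
      exact (this.2.2 p this.1 subset_rfl this.2.1 h).1
  have hst : H * s * ∑ c ∈ T, len c ≤ 2 * (len I * G I) :=
    stop_len (sav_av1 _) (av1_nonneg _) hW (by positivity)
  have hst2 : ∑ c ∈ T, len c ≤ 2 * s * len I := by
    have h2 : H * s * ∑ c ∈ T, len c ≤ H * s * (2 * s * len I) := by
      refine hst.trans ?_
      have : len I * G I ≤ len I * (H * τ) := mul_le_mul_of_nonneg_left hGI hL.le
      rw [← hss] at this
      linarith
    exact le_of_mul_le_mul_left h2 (by positivity)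
  have hTR : TR bb ε W F = TR bb ε V F + ∑ c ∈ T, TR bb ε (blw W c) F := by
    unfold TR
    exact stop_sum hW _
  -- stopped windows
  have hsupq : ∀ p ∈ W, aq (qx k q3 i) p (F i) ≤ H := by
    intro p hp
    rw [hqi]
    have h2 := aq_le_L1 (q := 2 + k) (by linarith) p (f := F i) (a := H) (s := H) hH.le hH.le ?_
      (fun y hy => hs y (hW' p hp hy))
    · refine h2.trans (le_of_eq ?_)
      have e1 : H * H ^ (2 + k - 1) = H ^ (2 + k) := by
        have := Real.rpow_add hH 1 (2 + k - 1)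
        rw [Real.rpow_one] at this
        rw [← this]; congr 1; ring
      rw [e1, ← Real.rpow_mul hH.le, mul_one_div_cancel (by linarith), Real.rpow_one]
    · have hLp := Growth.len_pos p
      rw [one_div, inv_mul_le_iff₀ hLp]
      calc ∑ y ∈ iv p, ‖F i y‖ ≤ ∑ _y ∈ iv p, H :=
            Finset.sum_le_sum fun y hy => hs y (hW' p hp hy)
        _ = (iv p).card * H := by rw [Finset.sum_const, nsmul_eq_mul]
        _ = len p * H := by
            congr 1
            unfold iv dI len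
            rw [Int.card_Ico]
            have : (p.2 + 1) * 2 ^ (p.1 + 7) - p.2 * 2 ^ (p.1 + 7) =
              ((2 ^ (p.1 + 7) : ℕ) : ℤ) := by push_cast; ring
            rw [this, Int.toNat_natCast]
            push_cast; rfl
  have hsub : ‖∑ c ∈ T, TR bb ε (blw W c) F‖ ≤ H * B * (2 * s * len I) := by
    refine (norm_sum_le _ _).trans ?_
    have h2 : ∀ c ∈ T, ‖TR bb ε (blw W c) F‖ ≤ H * B * len c := by
      intro c hc
      have hc' := mem_Tp.1 hc
      refine TR_le_B hk hq3 hBN hA (blw_full hW hc'.1) ?_ F i hH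
        (fun j hj p hp => hF j hj p (blw_sub hp)) (fun p hp => hsupq p (blw_sub hp))
      exact (Qe292.iv_level hc'.2.1).trans hI
    refine (Finset.sum_le_sum h2).trans ?_
    rw [← Finset.mul_sum]
    exact mul_le_mul_of_nonneg_left hst2 (by positivity)
  -- the main window
  set η : ℝ := H * s ^ (1 / (2 + k)) with hη
  have hη0 : 0 < η := by positivity
  have hmain : ‖TR bb ε V F‖ ≤ η * B * len I := by
    refine TR_le_B hk hq3 hBN hA hVf hI F i hη0 (fun j hj p hp => hF j hj p (hVW hp)) ?_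
    intro p hp
    rw [hqi]
    have h2 := aq_le_L1 (q := 2 + k) (by linarith) p (f := F i) (a := H * s) (s := H)
      (by positivity) hH.le (hVg p hp) (fun y hy => hs y (hW' p (hVW hp) hy))
    refine h2.trans (le_of_eq ?_)
    have e1 : H * s * H ^ (2 + k - 1) = s * H ^ (2 + k) := by
      have := Real.rpow_add hH 1 (2 + k - 1)
      rw [Real.rpow_one] at this
      have e2 : H * H ^ (2 + k - 1) = H ^ (2 + k) := by rw [← this]; congr 1; ring
      rw [← e2]; ring
    rw [e1, Real.mul_rpow hs0.le (Real.rpow_nonneg hH.le _), ← Real.rpow_mul hH.le,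
      mul_one_div_cancel (by linarith), Real.rpow_one, hη]
    ring
  have hsp : s ^ (1 / (2 + k)) = τ ^ (1 / (2 * (2 + k))) := by
    rw [hs', Real.sqrt_eq_rpow, ← Real.rpow_mul hτ.le]
    congr 1
    field_simp
  have hsle : s ≤ τ ^ (1 / (2 * (2 + k))) := by
    rw [← hsp]
    have h2 := Real.rpow_le_rpow_of_exponent_ge hs0 hs1
      (show 1 / (2 + k) ≤ 1 by rw [div_le_one (by linarith)]; linarith)
    rwa [Real.rpow_one] at h2
  rw [hTR]
  refine (norm_add_le _ _).trans ((add_le_add hmain hsub).trans ?_)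
  rw [hη, hsp]
  have h3 : H * B * (2 * s * len I) ≤ H * B * (2 * τ ^ (1 / (2 * (2 + k))) * len I) := by
    have : 2 * s * len I ≤ 2 * τ ^ (1 / (2 * (2 + k))) * len I :=
      mul_le_mul_of_nonneg_right (by linarith) hL.le
    exact mul_le_mul_of_nonneg_left this (by positivity)
  linarith

end Crest.Agent.R079.OpK276
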