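import Crest.Agent.R079.CKl_37
import Crest.Agent.R079.OpKa_276

/-! R079 (helper37), CELLKILL part 5: **LOW**, kill of a group with bounded base from the kill of
ONE UNIT OPERATOR ATOM.

`low_TR`: if every unit atom `ψ / n²` (`n = 128 len I`, special vertex `k1`, caps `128 cap`, `1`) in the
slot `k` gives `‖TR‖ ≤ X`, a group with `|c| ≤ h` gives `‖TR‖ ≤ 395 V h X`;
`low_TR'`: the same with atoms of side `N`, `N = 2^I.1`, caps `256 cap + 1`, `1`, factor `395 * 959`. -/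

set_option autoImplicit false

namespace Crest.Agent.R079.CKgx37

open Finset Crest.Agent.R079.Grid Crest.Agent.R079.Glue Crest.Agent.R079.Growth
  Crest.Agent.R079.QRed Crest.Agent.R079.Cell37 Crest.Agent.R079.KLx446 Crest.Agent.R079.OpS276
  Crest.Agent.R079.OLevSw Crest.Agent.R079.OpK276

/-- norms of finite combinations -/
theorem TR_comb_le {bb : ℤ} {ε : ℕ → ℤ → ℂ} (hA : Adm bb ε) {W : Finset Nd} {I : Nd}
    (hW : ∀ p ∈ W, iv p ⊆ iv I) (F : Fin 4 → Fn) (i : Fin 4) {ι : Type*} (T : Finset ι) (φ : ι → Fn)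
    (μ : ι → ℝ) (hμ : ∀ l ∈ T, 0 ≤ μ l) (h : ∀ y ∈ iv I, F i y = ∑ l ∈ T, ((μ l : ℝ) : ℂ) * φ l y)
    {X : ℝ} (hX : ∀ l ∈ T, ‖TR bb ε W (Function.update F i (φ l))‖ ≤ X) :
    ‖TR bb ε W F‖ ≤ (∑ l ∈ T, μ l) * X := by
  classical
  -- enumeration of `T`
  obtain ⟨e⟩ : Nonempty (Fin T.card ≃ T) := ⟨T.equivFin.symm⟩
  have h' : ∀ y ∈ iv I, F i y = ∑ l : Fin T.card, ((μ (e l : ι) : ℝ) : ℂ) * φ (e l : ι) y := by
    intro y hy
    rw [h y hy, ← Finset.sum_coe_sort T]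
    exact (Equiv.sum_comp e fun l : T => ((μ (l : ι) : ℝ) : ℂ) * φ (l : ι) y).symm
  rw [TR_comb hA hW F i _ _ h']
  refine (norm_sum_le _ _).trans ?_
  have e1 : ∑ l ∈ T, μ l = ∑ l : Fin T.card, μ (e l : ι) := by
    rw [← Finset.sum_coe_sort T]
    exact (Equiv.sum_comp e fun l : T => μ (l : ι)).symm
  rw [e1, Finset.sum_mul]
  refine Finset.sum_le_sum fun l _ => ?_
  have h0 := hμ (e l : ι) (e l).2
  rw [norm_mul, Complex.norm_real, Real.norm_of_nonneg h0]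
  exact mul_le_mul_of_nonneg_left (hX (e l : ι) (e l).2) h0

/-- **LOW** -/
theorem low_TR {bb : ℤ} {ε : ℕ → ℤ → ℂ} (hA : Adm bb ε) {W : Finset Nd} {I : Nd}
    (hW : ∀ p ∈ W, iv p ⊆ iv I) {k k0 k1 k2 : Fin 4} (hd : D4 k k0 k1 k2) {V cap Hc : ℝ}
    {s0 b0 : ℤ} {S : Finset ℤ} {w : ℤ → ℝ} {u c0 : ℤ → ℂ}
    (hG : GrpD (lenN I) V cap Hc s0 b0 S w u c0) {c : ℤ → ℂ} {hh : ℝ} (hh0 : 0 < hh)
    (hc : ∀ y, ‖c y‖ ≤ hh) (ξ : ℤ → ℝ) (F : Fin 4 → Fn) (hF : ∀ y ∈ iv I, F k y = grp S w u c ξ y)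
    {X : ℝ} (hX : ∀ ψ, IsOpS k k1 k0 k2 (128 * lenN I) (128 * cap) 1 ψ →
      ‖TR bb ε W (Function.update F k (fun y => ψ y / ((128 * lenN I : ℕ) : ℂ) ^ 2))‖ ≤ X) :
    ‖TR bb ε W F‖ ≤ 395 * (V * hh) * X := by
  obtain ⟨ψ, hψ, hrep⟩ := low_rep hd I hG hh0 hc ξ
  have hm0 : 0 ≤ muL k k0 I V hh := muL_nonneg k k0 I hG.V0.le hh0.le
  have h1 := TR_comb_le hA hW F k (Shx s0 I) (fun s' y => ψ s' y / ((128 * lenN I : ℕ) : ℂ) ^ 2)
    (fun _ => muL k k0 I V hh) (fun _ _ => hm0) (fun y hy => by rw [hF y hy, hrep y hy])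
    (X := X) (fun s' _ => hX _ (hψ s'))
  have hX0 : 0 ≤ X := (norm_nonneg _).trans (hX _ (hψ 0))
  exact h1.trans (mul_le_mul_of_nonneg_right (sum_muL k k0 I s0 hG.V0.le hh0.le) hX0)

/-- **LOW**, atoms of side `N ≥ len I / 128`, `N ≤ 128 len I` -/
theorem low_TR' {bb : ℤ} {ε : ℕ → ℤ → ℂ} (hA : Adm bb ε) {W : Finset Nd} {I : Nd}
    (hW : ∀ p ∈ W, iv p ⊆ iv I) {k k0 k1 k2 : Fin 4} (hd : D4 k k0 k1 k2)
    {V cap Hc : ℝ} {s0 b0 : ℤ} {S : Finset ℤ} {w : ℤ → ℝ} {u c0 : ℤ → ℂ}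
    (hG : GrpD (lenN I) V cap Hc s0 b0 S w u c0) {c : ℤ → ℂ} {hh : ℝ} (hh0 : 0 < hh)
    (hc : ∀ y, ‖c y‖ ≤ hh) (ξ : ℤ → ℝ) (F : Fin 4 → Fn) (hF : ∀ y ∈ iv I, F k y = grp S w u c ξ y)
    {X : ℝ} (hX : ∀ ψ, IsOpS k k1 k0 k2 (2 ^ I.1) (256 * cap + 1) 1 ψ →
      ‖TR bb ε W (Function.update F k (fun y => ψ y / ((2 ^ I.1 : ℕ) : ℂ) ^ 2))‖ ≤ X) :
    ‖TR bb ε W F‖ ≤ 378805 * (V * hh) * X := by
  have hN : 0 < 2 ^ I.1 := by positivity
  have hNn : 2 ^ I.1 ≤ 128 * lenN I := by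
    unfold lenN
    calc 2 ^ I.1 ≤ 2 ^ (I.1 + 7) := Nat.pow_le_pow_right (by norm_num) (by omega)
      _ ≤ 128 * 2 ^ (I.1 + 7) := by omega
  have hJ : len I ≤ 128 * ((2 ^ I.1 : ℕ) : ℝ) := by
    unfold len
    push_cast
    rw [pow_add]
    linarith
  have hd4 : Dst4 k k1 k0 k2 := ⟨hd.h1.symm, hd.h01.symm, hd.h12, hd.h0, hd.h2, hd.h02⟩
  have hkey : ∀ ψ, IsOpS k k1 k0 k2 (128 * lenN I) (128 * cap) 1 ψ →
      ‖TR bb ε W (Function.update F k (fun y => ψ y / ((128 * lenN I : ℕ) : ℂ) ^ 2))‖ ≤ 959 * X := by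
    intro ψ hψ
    obtain ⟨L, μ, φ, hμ0, hφ, hμs, hrep⟩ := restr_opS hd4 hN hNn hJ zero_le_one hψ
    have e1 : (1 + 1 : ℝ) * (128 * cap) + 1 = 256 * cap + 1 := by ring
    have h1 := TR_comb_le hA hW
      (Function.update F k (fun y => ψ y / ((128 * lenN I : ℕ) : ℂ) ^ 2)) k Finset.univ
      (fun (l : Fin L) y => φ l y / ((2 ^ I.1 : ℕ) : ℂ) ^ 2) μ (fun l _ => hμ0 l)
      (fun y hy => by rw [Function.update_self, hrep y hy]) (X := X) (fun l _ => by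
        rw [Function.update_idem]
        refine hX (φ l) ?_
        rw [← e1]
        exact hφ l)
    have hX0 : 0 ≤ X := by
      rcases Nat.eq_zero_or_pos L with hL0 | hL0
      · -- no atom: use any one
        refine (norm_nonneg _).trans (hX (opA k k1 k0 k2 (2 ^ I.1) 0 0 0 (fun _ _ => 0)
          (fun _ _ => 0) (fun _ _ => 0)) ⟨0, 0, 0, fun _ _ => 0, fun _ _ => 0, fun _ _ => 0,
          fun _ => 0, ?_, rfl⟩)
        have hcap : 0 ≤ cap := by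
          have h1 := hG.wc 0
          have h2 : 0 ≤ w 0 * ((lenN I : ℕ) : ℝ) := mul_nonneg (hG.w0 0) (Nat.cast_nonneg _)
          by_contra hneg
          have : cap * V < 0 := mul_neg_of_neg_of_pos (not_le.1 hneg) hG.V0
          linarith
        refine ⟨by simp, by simp, by simp, by simp, by simp, fun _ => by positivity, by simp, by simp⟩
      · exact (norm_nonneg _).trans (hX (φ ⟨0, hL0⟩) (by rw [← e1]; exact hφ _))
    exact h1.trans (mul_le_mul_of_nonneg_right hμs hX0)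
  have := low_TR hA hW hd hG hh0 hc ξ F hF hkey
  calc ‖TR bb ε W F‖ ≤ 395 * (V * hh) * (959 * X) := this
    _ = 378805 * (V * hh) * X := by ring

end Crest.Agent.R079.CKgx37
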