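import Crest.Agent.R079.CKm_37

/-! R079 (helper37), CELLKILL part 6: **THE CUT OF THE BASE FUNCTION AND THE SUM OVER THE GROUPS**.

`cell_TR`: a cell of scale `n ≥ dl len I` is killed with constant `XL h + XH` times
`2 cS(I) + 9 H η` when every group with base function bounded by `h` costs `XL V h` and every group with
base function cut from below at `h` costs `XH V`. -/

set_option autoImplicit false

namespace Crest.Agent.R079.CKgx37

open Finset Crest.Agent.R079.Grid Crest.Agent.R079.Glue Crest.Agent.R079.Growth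
  Crest.Agent.R079.QRed Crest.Agent.R079.Cell37 Crest.Agent.R079.KLx446 Crest.Agent.R079.OpS276
  Crest.Agent.R079.OLevSw Crest.Agent.R079.OpK276

open Classical in
/-- part of `c` of height `≤ h` -/
noncomputable def loC (h : ℝ) (c : ℤ → ℂ) (y : ℤ) : ℂ := if ‖c y‖ ≤ h then c y else 0

open Classical in
/-- part of `c` of height `> h` -/
noncomputable def hiC (h : ℝ) (c : ℤ → ℂ) (y : ℤ) : ℂ := if ‖c y‖ ≤ h then 0 else c y

theorem lo_add_hi (h : ℝ) (c : ℤ → ℂ) (y : ℤ) : loC h c y + hiC h c y = c y := by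
  unfold loC hiC
  split_ifs <;> simp

theorem norm_loC {h : ℝ} (h0 : 0 ≤ h) (c : ℤ → ℂ) (y : ℤ) : ‖loC h c y‖ ≤ h := by
  unfold loC
  split_ifs with hc
  · exact hc
  · rw [norm_zero]; exact h0

theorem norm_hiC_le (h : ℝ) (c : ℤ → ℂ) (y : ℤ) : ‖hiC h c y‖ ≤ ‖c y‖ := by
  unfold hiC
  split_ifs
  · rw [norm_zero]; exact norm_nonneg _
  · exact le_rfl

theorem norm_hiC_sq {h : ℝ} (h0 : 0 < h) (c : ℤ → ℂ) (y : ℤ) : ‖hiC h c y‖ ≤ ‖c y‖ ^ 2 / h := by
  unfold hiC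
  split_ifs with hc
  · rw [norm_zero]; positivity
  · rw [le_div_iff₀ h0]
    push Not at hc
    nlinarith [norm_nonneg (c y)]

/-- local `L¹` mass of the tall part of the base of a group -/
theorem GrpD.hi_l1 {L : ℕ} {V cap Hc : ℝ} {s0 b0 : ℤ} {S : Finset ℤ} {w : ℤ → ℝ} {u c : ℤ → ℂ}
    (hG : GrpD L V cap Hc s0 b0 S w u c) {h : ℝ} (h0 : 0 < h) :
    ∑ y ∈ Finset.Ico b0 (b0 + 2 * (L : ℤ)), ‖hiC h c y‖ ≤ 4 * L / h := by
  calc ∑ y ∈ Finset.Ico b0 (b0 + 2 * (L : ℤ)), ‖hiC h c y‖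
      ≤ ∑ y ∈ Finset.Ico b0 (b0 + 2 * (L : ℤ)), ‖c y‖ ^ 2 / h :=
        Finset.sum_le_sum fun y _ => norm_hiC_sq h0 c y
    _ = (∑ y ∈ Finset.Ico b0 (b0 + 2 * (L : ℤ)), ‖c y‖ ^ 2) / h := by rw [Finset.sum_div]
    _ ≤ 4 * L / h := by gcongr; exact hG.c2

theorem GrpD.hi_supp {L : ℕ} {V cap Hc : ℝ} {s0 b0 : ℤ} {S : Finset ℤ} {w : ℤ → ℝ} {u c : ℤ → ℂ}
    (hG : GrpD L V cap Hc s0 b0 S w u c) (h : ℝ) (y : ℤ)
    (hy : y ∉ Finset.Ico b0 (b0 + 2 * (L : ℤ))) : hiC h c y = 0 := by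
  have := norm_hiC_le h c y
  rw [hG.supp y hy, norm_zero] at this
  exact norm_eq_zero.1 (le_antisymm this (norm_nonneg _))

/-- linearity in the base function -/
theorem grp_split (S : Finset ℤ) (w : ℤ → ℝ) (u c : ℤ → ℂ) (ξ : ℤ → ℝ) (h : ℝ) (y : ℤ) :
    grp S w u c ξ y = grp S w u (loC h c) ξ y + grp S w u (hiC h c) ξ y := by
  unfold grp
  rw [← Finset.sum_add_distrib]
  refine Finset.sum_congr rfl fun s _ => ?_
  rw [← lo_add_hi h c (y - s)]
  ring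

/-- `TR` of a sum in the slot `i` -/
theorem TR_add_le {bb : ℤ} {ε : ℕ → ℤ → ℂ} (hA : Adm bb ε) {W : Finset Nd} {I : Nd}
    (hW : ∀ p ∈ W, iv p ⊆ iv I) (F : Fin 4 → Fn) (i : Fin 4) (f g : Fn)
    (h : ∀ y ∈ iv I, F i y = f y + g y) :
    ‖TR bb ε W F‖ ≤ ‖TR bb ε W (Function.update F i f)‖ + ‖TR bb ε W (Function.update F i g)‖ := by
  have h' : ∀ y ∈ iv I, F i y = ∑ l : Fin 2, (![1, 1] : Fin 2 → ℂ) l * (![f, g] : Fin 2 → Fn) l y := by
    intro y hy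
    rw [h y hy, Fin.sum_univ_two]
    simp
  rw [TR_comb hA hW F i _ _ h', Fin.sum_univ_two]
  simp only [Matrix.cons_val_zero, Matrix.cons_val_one, one_mul]
  exact norm_add_le _ _

/-- **SUM OVER THE GROUPS** -/
theorem cell_TR {bb : ℤ} {ε : ℕ → ℤ → ℂ} (hA : Adm bb ε) {W : Finset Nd} {I : Nd}
    (hW : ∀ p ∈ W, iv p ⊆ iv I) {n : ℕ} {a b : ℤ} {H : ℝ} {w : ℤ → ℝ} {u c : ℤ → ℂ}
    (hc : CellD n a b H w u c) (ξ : ℤ → ℝ) {η dl : ℝ} (hH : 1 ≤ H) (hη : 0 < η) (hη1 : η ≤ 1)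
    (hdl : 0 < dl) (hdl1 : dl ≤ 1) (hn : dl * len I ≤ n) (F : Fin 4 → Fn) (i : Fin 4)
    (hF : ∀ y ∈ iv I, F i y = cph n a w u c ξ y) {h XL XH : ℝ} (hXL : 0 ≤ XL) (hXH : 0 ≤ XH)
    (h0 : 0 < h)
    (hLow : ∀ (V : ℝ) (s0 b0 : ℤ) (S : Finset ℤ) (c' : ℤ → ℂ),
      GrpD (lenN I) V (H / (η * dl)) (H / η) s0 b0 S w u c' →
      ‖TR bb ε W (Function.update F i (grp S w u (loC h c') ξ))‖ ≤ XL * (V * h))
    (hHigh : ∀ (V : ℝ) (s0 b0 : ℤ) (S : Finset ℤ) (c' : ℤ → ℂ),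
      GrpD (lenN I) V (H / (η * dl)) (H / η) s0 b0 S w u c' →
      ‖TR bb ε W (Function.update F i (grp S w u (hiC h c') ξ))‖ ≤ XH * V) :
    ‖TR bb ε W F‖ ≤ (2 * cS n a w c I + 9 * H * η) * (XL * h + XH) := by
  obtain ⟨T, sg, V, S, s0, b0, cc, hT, hrep, hsum⟩ := groups hc ξ I hH hη hη1 hdl hdl1 hn
  -- one group
  have h1 : ∀ G ∈ T, ‖TR bb ε W (Function.update F i (grp (S G) w u (cc G) ξ))‖ ≤
      V G * (XL * h + XH) := by
    intro G hG
    obtain ⟨_, hGD⟩ := hT G hG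
    have h2 := TR_add_le hA hW (Function.update F i (grp (S G) w u (cc G) ξ)) i
      (grp (S G) w u (loC h (cc G)) ξ) (grp (S G) w u (hiC h (cc G)) ξ) (fun y _ => by
        rw [Function.update_self]; exact grp_split _ _ _ _ _ _ _)
    rw [Function.update_idem, Function.update_idem] at h2
    have h3 := hLow (V G) (s0 G) (b0 G) (S G) (cc G) hGD
    have h4 := hHigh (V G) (s0 G) (b0 G) (S G) (cc G) hGD
    calc _ ≤ XL * (V G * h) + XH * V G := h2.trans (add_le_add h3 h4)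
      _ = V G * (XL * h + XH) := by ring
  -- normalised groups
  have hV : ∀ G ∈ T, 0 < V G := fun G hG => (hT G hG).2.V0
  have hX : 0 ≤ XL * h + XH := add_nonneg (mul_nonneg hXL h0.le) hXH
  have h5 := TR_comb_le hA hW F i T (fun G y => ((1 / V G : ℝ) : ℂ) * grp (S G) w u (cc G) ξ y)
    (fun G => sg G * V G) (fun G hG => mul_nonneg (hT G hG).1.le (hV G hG).le)
    (fun y hy => by
      rw [hF y hy, hrep y hy]
      refine Finset.sum_congr rfl fun G hG => ?_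
      rw [← mul_assoc, ← Complex.ofReal_mul]
      congr 2
      have := (hV G hG).ne'
      field_simp) (X := XL * h + XH) (fun G hG => by
      have hVG := hV G hG
      have h6 := TR_scale hA hW (Function.update F i
        (fun y => ((1 / V G : ℝ) : ℂ) * grp (S G) w u (cc G) ξ y)) i (grp (S G) w u (cc G) ξ)
        ((1 / V G : ℝ) : ℂ) (fun y _ => by rw [Function.update_self])
      rw [h6, Function.update_idem, norm_mul, Complex.norm_real,
        Real.norm_of_nonneg (by positivity)]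
      calc 1 / V G * ‖TR bb ε W (Function.update F i (grp (S G) w u (cc G) ξ))‖ ≤
          1 / V G * (V G * (XL * h + XH)) := mul_le_mul_of_nonneg_left (h1 G hG) (by positivity)
        _ = XL * h + XH := by field_simp)
  exact h5.trans (mul_le_mul_of_nonneg_right hsum hX)

end Crest.Agent.R079.CKgx37
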