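import Crest.Agent.R079.CKg_37
import Crest.Agent.R079.KLa_446

/-! R079 (helper37), CELLKILL part 3 (note 1095 of row 79, step (3)): **GROUPS AS KERNELS**.

For four distinct slots `k` (frozen), `k0, k1, k2`, special vertex `k1`, gauge `c` on the edge
`(k2, k0)`: on a node `I` the function of a group is the sum over `s' ∈ Sh` of the letters `kerF4` with
kernels `ga(z0,z1) gb(z1,z2) c(A0 z0 + A2 z2 - s')`, weights `w (s' + A1 z1)`, constant
`|A0| / (36 L²)`. -/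

set_option autoImplicit false

namespace Crest.Agent.R079.CKgx37

open Finset Crest.Agent.R079.Grid Crest.Agent.R079.Glue Crest.Agent.R079.Growth
  Crest.Agent.R079.QRed Crest.Agent.R079.Cell37 Crest.Agent.R079.KLx446

/-! ### counting -/

/-- divisibility only depends on the residue mod 6 -/
theorem dvd_mod6 {A : ℤ} (h6 : A ∣ 6) (t x : ℤ) : A ∣ t - x ↔ A ∣ t % 6 - x := by
  have e : t - x = (t % 6 - x) + 6 * (t / 6) := by
    have := Int.emod_add_mul_ediv t 6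
    linarith
  rw [e]
  exact (Int.dvd_add_left (Dvd.dvd.mul_right h6 _))

set_option maxRecDepth 20000 in
theorem cnt6_dec : ∀ k k0 k2 : Fin 4, k ≠ k0 → k ≠ k2 → k0 ≠ k2 → ∀ r : Fin 6,
    (((Finset.range 6).filter fun z : ℕ =>
      (sl k0 - sl k) ∣ ((r : ℕ) : ℤ) - (sl k2 - sl k) * (z : ℤ)).card : ℤ) * |sl k0 - sl k| = 6 := by
  decide

set_option maxRecDepth 20000 in
theorem sl_dvd6 : ∀ k k0 : Fin 4, k ≠ k0 → (sl k0 - sl k) ∣ (6 : ℤ) := by decide

set_option maxRecDepth 20000 in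
theorem sl_abs3 : ∀ k k0 : Fin 4, |sl k0 - sl k| ≤ (3 : ℤ) := by decide

set_option maxRecDepth 20000 in
theorem sl_ne0 : ∀ k k0 : Fin 4, k ≠ k0 → sl k0 - sl k ≠ (0 : ℤ) := by decide

theorem cnt6 {k k0 k2 : Fin 4} (h0 : k ≠ k0) (h2 : k ≠ k2) (h02 : k0 ≠ k2) (t : ℤ) :
    (((Finset.range 6).filter fun z : ℕ =>
      (sl k0 - sl k) ∣ t - (sl k2 - sl k) * (z : ℤ)).card : ℤ) * |sl k0 - sl k| = 6 := by
  have hr : 0 ≤ t % 6 ∧ t % 6 < 6 := ⟨Int.emod_nonneg _ (by norm_num), Int.emod_lt_of_pos _ (by norm_num)⟩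
  have := cnt6_dec k k0 k2 h0 h2 h02 ⟨(t % 6).toNat, by omega⟩
  simp only at this
  rw [Int.toNat_of_nonneg hr.1] at this
  rw [← this]
  congr 2
  refine congrArg _ (Finset.filter_congr fun z _ => ?_)
  exact dvd_mod6 (sl_dvd6 k k0 h0) t _

/-- sums of periodic functions -/
theorem sum_period {M : Type*} [AddCommMonoid M] (f : ℤ → M) (hf : ∀ z, f (z + 6) = f z) (L : ℕ) :
    ∑ z ∈ Finset.Ico (0 : ℤ) (6 * (L : ℤ)), f z = L • ∑ z ∈ Finset.range 6, f (z : ℤ) := by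
  have hf' : ∀ (n : ℕ) (z : ℤ), f (z + 6 * (n : ℤ)) = f z := by
    intro n
    induction n with
    | zero => intro z; simp
    | succ n ih =>
      intro z
      rw [show z + 6 * ((n + 1 : ℕ) : ℤ) = (z + 6 * (n : ℤ)) + 6 by push_cast; ring, hf, ih]
  induction L with
  | zero => simp
  | succ L ih =>
    have e1 : Finset.Ico (0 : ℤ) (6 * ((L + 1 : ℕ) : ℤ)) =
        Finset.Ico (0 : ℤ) (6 * (L : ℤ)) ∪ Finset.Ico (6 * (L : ℤ)) (6 * (L : ℤ) + 6) := by
      ext x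
      simp only [Finset.mem_union, Finset.mem_Ico]
      push_cast
      omega
    have e2 : Disjoint (Finset.Ico (0 : ℤ) (6 * (L : ℤ))) (Finset.Ico (6 * (L : ℤ)) (6 * (L : ℤ) + 6)) := by
      rw [Finset.disjoint_left]
      intro x hx hx'
      simp only [Finset.mem_Ico] at hx hx'
      omega
    rw [e1, Finset.sum_union e2, ih, succ_nsmul]
    congr 1
    have e3 : Finset.Ico (6 * (L : ℤ)) (6 * (L : ℤ) + 6) =
        (Finset.range 6).image (fun z : ℕ => (z : ℤ) + 6 * (L : ℤ)) := by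
      ext x
      simp only [Finset.mem_Ico, Finset.mem_image, Finset.mem_range]
      constructor
      · rintro ⟨h1, h2⟩
        exact ⟨(x - 6 * (L : ℤ)).toNat, by omega, by omega⟩
      · rintro ⟨z, hz, rfl⟩
        omega
    rw [e3, Finset.sum_image (by intro x _ y _ h; simpa using h)]
    exact Finset.sum_congr rfl fun z _ => hf' L _

/-- the interval of the coordinate `z0` -/
noncomputable def T0x (k k0 : Fin 4) (I : Nd) : Finset ℤ :=
  Finset.Ico ((I.2 * 2 ^ (I.1 + 7)) / (sl k0 - sl k) - 40 * (lenN I : ℤ))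
    ((I.2 * 2 ^ (I.1 + 7)) / (sl k0 - sl k) + 40 * (lenN I : ℤ))

/-- the interval of the coordinates `z1, z2` -/
noncomputable def T6x (I : Nd) : Finset ℤ := Finset.Ico 0 (6 * (lenN I : ℤ))

theorem lenN_ge (I : Nd) : 128 ≤ lenN I := by
  unfold lenN
  calc 128 = 2 ^ 7 := by norm_num
    _ ≤ 2 ^ (I.1 + 7) := Nat.pow_le_pow_right (by norm_num) (by omega)

theorem mem_T0x {k k0 : Fin 4} (h0 : k ≠ k0) {I : Nd} {z0 e : ℤ}
    (h : |(sl k0 - sl k) * z0 - e| ≤ 37 * (lenN I : ℤ)) (he : e = I.2 * 2 ^ (I.1 + 7)) :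
    z0 ∈ T0x k k0 I := by
  unfold T0x
  rw [← he]
  set A := sl k0 - sl k with hA
  have hA0 : A ≠ 0 := sl_ne0 k k0 h0
  have hA3 : |A| ≤ 3 := sl_abs3 k k0
  have hL : (128 : ℤ) ≤ (lenN I : ℤ) := by exact_mod_cast lenN_ge I
  set L : ℤ := (lenN I : ℤ) with hLd
  have h1 := Int.emod_add_mul_ediv e A
  have h2 : 0 ≤ e % A := Int.emod_nonneg _ hA0
  have h3 : e % A < |A| := Int.emod_lt_abs _ hA0
  set q := e / A with hq
  have h4 : |A * (z0 - q)| ≤ 37 * L + 3 := by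
    have e1 : A * (z0 - q) = (A * z0 - e) + e % A := by linear_combination (-1 : ℤ) * h1
    rw [e1]
    refine (abs_add_le _ _).trans ?_
    rw [abs_of_nonneg h2]
    linarith
  have h5 : |z0 - q| ≤ 37 * L + 3 := by
    rw [abs_mul] at h4
    have : 1 ≤ |A| := Int.one_le_abs hA0
    have h6 : 0 ≤ |z0 - q| := abs_nonneg _
    nlinarith
  rw [abs_le] at h5
  rw [Finset.mem_Ico]
  constructor <;> linarith [h5.1, h5.2]

/-- number of pairs `(z0, z2)` on a line -/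
theorem cnt_line {k k0 k2 : Fin 4} (h0 : k ≠ k0) (h2 : k ≠ k2) (h02 : k0 ≠ k2) {I : Nd} {t : ℤ}
    (ht : |t - I.2 * 2 ^ (I.1 + 7)| ≤ 19 * (lenN I : ℤ)) (c : ℂ) :
    (|sl k0 - sl k| : ℤ) * ∑ z0 ∈ T0x k k0 I, ∑ z2 ∈ T6x I,
      (if (sl k0 - sl k) * z0 + (sl k2 - sl k) * z2 = t then c else 0) = 6 * (lenN I : ℂ) * c := by
  set A := sl k0 - sl k with hA
  set B := sl k2 - sl k with hB
  have hA0 : A ≠ 0 := sl_ne0 k k0 h0
  have hB3 : |B| ≤ 3 := sl_abs3 k k2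
  rw [Finset.sum_comm]
  have h3 : ∀ z2 ∈ T6x I, (∑ z0 ∈ T0x k k0 I, if A * z0 + B * z2 = t then c else 0) =
      if A ∣ t - B * z2 then c else 0 := by
    intro z2 hz2
    unfold T6x at hz2
    rw [Finset.mem_Ico] at hz2
    by_cases hd : A ∣ t - B * z2
    · rw [if_pos hd]
      obtain ⟨z, hz⟩ := hd
      have hzT : z ∈ T0x k k0 I := by
        refine mem_T0x h0 (e := I.2 * 2 ^ (I.1 + 7)) ?_ rfl
        rw [← hA, ← hz]
        have h4 : |B * z2| ≤ 18 * (lenN I : ℤ) := by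
          rw [abs_mul, abs_of_nonneg hz2.1]
          have : 0 ≤ z2 := hz2.1
          nlinarith [abs_nonneg B, hz2.2]
        have e1 : t - B * z2 - I.2 * 2 ^ (I.1 + 7) = (t - I.2 * 2 ^ (I.1 + 7)) + -(B * z2) := by ring
        rw [e1]
        refine (abs_add_le _ _).trans ?_
        rw [abs_neg]
        linarith
      rw [Finset.sum_eq_single z]
      · rw [if_pos (by linarith)]
      · intro z' _ hne
        rw [if_neg]
        intro hc
        apply hne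
        have : A * z' = A * z := by linarith
        exact mul_left_cancel₀ hA0 this
      · intro hn
        exact absurd hzT hn
    · rw [if_neg hd]
      refine Finset.sum_eq_zero fun z0 _ => ?_
      rw [if_neg]
      intro hc
      exact hd ⟨z0, by linarith⟩
  rw [Finset.sum_congr rfl h3]
  unfold T6x
  rw [sum_period (fun z => if A ∣ t - B * z then c else 0) (by
    intro z
    refine if_congr ?_ rfl rfl
    have e : t - B * (z + 6) = (t - B * z) - 6 * B := by ring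
    rw [e]
    have h6 : A ∣ 6 * B := Dvd.dvd.mul_right (sl_dvd6 k k0 h0) _
    constructor
    · intro hd
      have := dvd_add hd h6
      rwa [sub_add_cancel] at this
    · intro hd
      exact dvd_sub hd h6)]
  have hc := cnt6 h0 h2 h02 t
  rw [← hA, ← hB] at hc
  rw [← Finset.sum_filter, Finset.sum_const, nsmul_eq_mul, nsmul_eq_mul]
  have hc' : (((Finset.range 6).filter fun z : ℕ => A ∣ t - B * (z : ℤ)).card : ℂ) *
      ((|A| : ℤ) : ℂ) = 6 := by exact_mod_cast hc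
  rw [← hc']
  ring

/-! ### the kernels -/

/-- section on the edge `(z0, z1)` -/
noncomputable def ga (k k0 k1 : Fin 4) (S : Finset ℤ) (w : ℤ → ℝ) (u : ℤ → ℂ) (ξ : ℤ → ℝ) (s' : ℤ)
    (z0 z1 : ℤ) : ℂ :=
  if s' + (sl k1 - sl k) * z1 ∈ S then
    (Real.sqrt (w (s' + (sl k1 - sl k) * z1)) : ℂ) * u (s' + (sl k1 - sl k) * z1) *
      ee (ξ (s' + (sl k1 - sl k) * z1) * (((sl k0 - sl k) * z0 : ℤ) : ℝ)) else 0

/-- section on the edge `(z1, z2)` -/
noncomputable def gb (k k1 k2 : Fin 4) (S : Finset ℤ) (w : ℤ → ℝ) (ξ : ℤ → ℝ) (s' : ℤ)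
    (z1 z2 : ℤ) : ℂ :=
  if s' + (sl k1 - sl k) * z1 ∈ S then
    (Real.sqrt (w (s' + (sl k1 - sl k) * z1)) : ℂ) *
      ee (ξ (s' + (sl k1 - sl k) * z1) * (((sl k2 - sl k) * z2 - s' : ℤ) : ℝ)) else 0

/-- gauge on the edge `(z2, z0)` -/
noncomputable def gc (k k0 k2 : Fin 4) (c : ℤ → ℂ) (s' : ℤ) (z2 z0 : ℤ) : ℂ :=
  c ((sl k0 - sl k) * z0 + (sl k2 - sl k) * z2 - s')

/-- range of the shift `s'` -/
noncomputable def Shx (s0 : ℤ) (I : Nd) : Finset ℤ :=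
  Finset.Ico (s0 - 18 * (lenN I : ℤ)) (s0 + 19 * (lenN I : ℤ))

theorem card_Shx (s0 : ℤ) (I : Nd) : ((Shx s0 I).card : ℝ) = 37 * len I := by
  unfold Shx
  rw [Int.card_Ico, ← lenN_cast]
  have : (s0 + 19 * (lenN I : ℤ) - (s0 - 18 * (lenN I : ℤ))).toNat = 37 * lenN I := by
    rw [show s0 + 19 * (lenN I : ℤ) - (s0 - 18 * (lenN I : ℤ)) = ((37 * lenN I : ℕ) : ℤ) by
      push_cast; ring, Int.toNat_natCast]
  rw [this]
  push_cast
  ring

theorem mem_Shx {k k1 : Fin 4} {I : Nd} {s0 s z1 : ℤ} (hs : s ∈ Finset.Ico s0 (s0 + (lenN I : ℤ)))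
    (hz : z1 ∈ T6x I) : s - (sl k1 - sl k) * z1 ∈ Shx s0 I := by
  unfold T6x at hz
  unfold Shx
  rw [Finset.mem_Ico] at hs hz ⊢
  have h3 : |sl k1 - sl k| ≤ (3 : ℤ) := sl_abs3 k k1
  have h4 : |(sl k1 - sl k) * z1| ≤ 18 * (lenN I : ℤ) := by
    rw [abs_mul, abs_of_nonneg hz.1]
    nlinarith [abs_nonneg (sl k1 - sl k), hz.2, hz.1]
  rw [abs_le] at h4
  constructor <;> linarith [h4.1, h4.2, hs.1, hs.2]

/-- product of the three kernels -/
theorem gabc (k k0 k1 k2 : Fin 4) (S : Finset ℤ) {w : ℤ → ℝ} (hw : ∀ s, 0 ≤ w s) (u c : ℤ → ℂ)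
    (ξ : ℤ → ℝ) (s' z0 z1 z2 y : ℤ) (hy : lf4 k k0 k1 k2 z0 z1 z2 = y) :
    ga k k0 k1 S w u ξ s' z0 z1 * gb k k1 k2 S w ξ s' z1 z2 * gc k k0 k2 c s' z2 z0 =
      if s' + (sl k1 - sl k) * z1 ∈ S then
        (w (s' + (sl k1 - sl k) * z1) : ℂ) * u (s' + (sl k1 - sl k) * z1) *
          c (y - (s' + (sl k1 - sl k) * z1)) *
          ee (ξ (s' + (sl k1 - sl k) * z1) * ((y - (s' + (sl k1 - sl k) * z1) : ℤ) : ℝ)) else 0 := by
  unfold ga gb gc
  by_cases h : s' + (sl k1 - sl k) * z1 ∈ S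
  · rw [if_pos h, if_pos h, if_pos h]
    have e1 : (sl k0 - sl k) * z0 + (sl k2 - sl k) * z2 - s' = y - (s' + (sl k1 - sl k) * z1) := by
      rw [← hy]; unfold lf4; ring
    rw [e1]
    set s := s' + (sl k1 - sl k) * z1 with hs
    have e2 : ee (ξ s * ((y - s : ℤ) : ℝ)) = ee (ξ s * (((sl k0 - sl k) * z0 : ℤ) : ℝ)) *
        ee (ξ s * (((sl k2 - sl k) * z2 - s' : ℤ) : ℝ)) := by
      rw [← ee_add, ← mul_add]
      congr 2
      rw [← e1]
      push_cast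
      ring
    rw [e2]
    have e3 : (w s : ℂ) = (Real.sqrt (w s) : ℂ) * (Real.sqrt (w s) : ℂ) := by
      rw [← Complex.ofReal_mul, Real.mul_self_sqrt (hw s)]
    rw [e3]
    ring
  · rw [if_neg h, if_neg h, if_neg h]
    ring

/-- **REPRESENTATION OF A GROUP**: special vertex `k1`, gauge on the edge `(k2, k0)` -/
theorem grp_rep {k k0 k1 k2 : Fin 4} (h : D4 k k0 k1 k2) (I : Nd) {S : Finset ℤ} {w : ℤ → ℝ}
    (hw : ∀ s, 0 ≤ w s) {s0 : ℤ} (hS : S ⊆ Finset.Ico s0 (s0 + (lenN I : ℤ))) (u c : ℤ → ℂ)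
    (ξ : ℤ → ℝ) {y : ℤ} (hy : y ∈ iv I) :
    grp S w u c ξ y = ∑ s' ∈ Shx s0 I,
      kerF4 k k0 k1 k2 ((|sl k0 - sl k| : ℤ) / (36 * len I ^ 2)) (T0x k k0 I) (T6x I) (T6x I)
        (fun z0 z1 z2 => ga k k0 k1 S w u ξ s' z0 z1 * gb k k1 k2 S w ξ s' z1 z2 *
          gc k k0 k2 c s' z2 z0) y := by
  classical
  set L : ℕ := lenN I with hL
  have hLr : (L : ℝ) = len I := lenN_cast I
  have hL0 : (0 : ℝ) < L := by exact_mod_cast lenN_pos I
  set f : ℤ → ℂ := fun s => if s ∈ S then (w s : ℂ) * u s * c (y - s) * ee (ξ s * ((y - s : ℤ) : ℝ))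
    else 0 with hf
  -- one `s'`
  have h1 : ∀ s' ∈ Shx s0 I, kerF4 k k0 k1 k2 ((|sl k0 - sl k| : ℤ) / (36 * len I ^ 2))
      (T0x k k0 I) (T6x I) (T6x I)
        (fun z0 z1 z2 => ga k k0 k1 S w u ξ s' z0 z1 * gb k k1 k2 S w ξ s' z1 z2 *
          gc k k0 k2 c s' z2 z0) y =
      (1 / (36 * (L : ℂ) ^ 2)) * ∑ z1 ∈ T6x I, 6 * (L : ℂ) * f (s' + (sl k1 - sl k) * z1) := by
    intro s' _
    unfold kerF4
    have e1 : (((((|sl k0 - sl k| : ℤ) : ℝ) / (36 * len I ^ 2)) : ℝ) : ℂ) =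
        (1 / (36 * (L : ℂ) ^ 2)) * ((|sl k0 - sl k| : ℤ) : ℂ) := by
      rw [← hLr, Complex.ofReal_div, Complex.ofReal_mul, Complex.ofReal_pow, Complex.ofReal_natCast,
        Complex.ofReal_intCast, Complex.ofReal_ofNat]
      ring
    rw [e1, mul_assoc]
    congr 1
    have e2 : ∀ z0 ∈ T0x k k0 I, (∑ z1 ∈ T6x I, ∑ z2 ∈ T6x I,
        if lf4 k k0 k1 k2 z0 z1 z2 = y then ga k k0 k1 S w u ξ s' z0 z1 *
          gb k k1 k2 S w ξ s' z1 z2 * gc k k0 k2 c s' z2 z0 else 0) =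
        ∑ z1 ∈ T6x I, ∑ z2 ∈ T6x I, if (sl k0 - sl k) * z0 + (sl k2 - sl k) * z2 =
          y - (sl k1 - sl k) * z1 then f (s' + (sl k1 - sl k) * z1) else 0 := by
      intro z0 _
      refine Finset.sum_congr rfl fun z1 _ => Finset.sum_congr rfl fun z2 _ => ?_
      have hiff : lf4 k k0 k1 k2 z0 z1 z2 = y ↔ (sl k0 - sl k) * z0 + (sl k2 - sl k) * z2 =
          y - (sl k1 - sl k) * z1 := by
        unfold lf4
        constructor <;> intro hh <;> linarith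
      by_cases hc : lf4 k k0 k1 k2 z0 z1 z2 = y
      · rw [if_pos hc, if_pos (hiff.1 hc), gabc k k0 k1 k2 S hw u c ξ s' z0 z1 z2 y hc]
      · rw [if_neg hc, if_neg (fun hh => hc (hiff.2 hh))]
    rw [Finset.sum_congr rfl e2, Finset.sum_comm, Finset.mul_sum]
    refine Finset.sum_congr rfl fun z1 hz1 => ?_
    refine cnt_line h.h0 h.h2 h.h02 ?_ _
    rw [iv_lenN, Finset.mem_Ico] at hy
    unfold T6x at hz1
    rw [Finset.mem_Ico] at hz1
    have h3 : |sl k1 - sl k| ≤ (3 : ℤ) := sl_abs3 k k1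
    have h4 : |(sl k1 - sl k) * z1| ≤ 18 * (lenN I : ℤ) := by
      rw [abs_mul, abs_of_nonneg hz1.1]
      nlinarith [abs_nonneg (sl k1 - sl k), hz1.2, hz1.1]
    rw [abs_le] at h4 ⊢
    constructor <;> linarith [h4.1, h4.2, hy.1, hy.2]
  rw [Finset.sum_congr rfl h1, ← Finset.mul_sum, Finset.sum_comm]
  have h2 : ∀ z1 ∈ T6x I, ∑ s' ∈ Shx s0 I, 6 * (L : ℂ) * f (s' + (sl k1 - sl k) * z1) =
      6 * (L : ℂ) * grp S w u c ξ y := by
    intro z1 hz1
    rw [← Finset.mul_sum]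
    congr 1
    unfold grp
    have e3 : ∑ s ∈ S, (w s : ℂ) * u s * c (y - s) * ee (ξ s * ((y - s : ℤ) : ℝ)) = ∑ s ∈ S, f s := by
      refine Finset.sum_congr rfl fun s hs => ?_
      simp only [hf]
      rw [if_pos hs]
    rw [e3]
    symm
    have e4 : ∑ s ∈ S, f s = ∑ s' ∈ S.image (fun s => s - (sl k1 - sl k) * z1),
        f (s' + (sl k1 - sl k) * z1) := by
      rw [Finset.sum_image (by intro x _ y _ hh; simpa using hh)]
      refine Finset.sum_congr rfl fun s _ => ?_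
      rw [sub_add_cancel]
    rw [e4]
    refine Finset.sum_subset ?_ ?_
    · intro s' hs'
      obtain ⟨s, hs, rfl⟩ := Finset.mem_image.1 hs'
      exact mem_Shx (hS hs) hz1
    · intro s' _ hs'
      simp only [hf]
      rw [if_neg]
      intro hc
      exact hs' (Finset.mem_image.2 ⟨_, hc, by ring⟩)
  rw [Finset.sum_congr rfl h2, Finset.sum_const, nsmul_eq_mul]
  have h3 : ((T6x I).card : ℂ) = 6 * (L : ℂ) := by
    unfold T6x
    rw [Int.card_Ico]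
    have : (6 * (lenN I : ℤ) - 0).toNat = 6 * L := by
      rw [show 6 * (lenN I : ℤ) - 0 = ((6 * L : ℕ) : ℤ) by push_cast; ring, Int.toNat_natCast]
    rw [this]
    push_cast
    ring
  rw [h3]
  have hLc : (L : ℂ) ≠ 0 := by exact_mod_cast (lenN_pos I).ne'
  field_simp
  ring

/-- masses: one `s'` -/
theorem mass_one {k k1 : Fin 4} (h1 : k ≠ k1) (T : Finset ℤ) {S : Finset ℤ} {w : ℤ → ℝ}
    (hw : ∀ s, 0 ≤ w s) (s' : ℤ) :
    ∑ z1 ∈ T, (if s' + (sl k1 - sl k) * z1 ∈ S then w (s' + (sl k1 - sl k) * z1) else 0) ≤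
      ∑ s ∈ S, w s := by
  classical
  rw [← Finset.sum_filter]
  rw [← Finset.sum_image (s := T.filter fun z1 => s' + (sl k1 - sl k) * z1 ∈ S)
    (g := fun z1 => s' + (sl k1 - sl k) * z1) (f := fun s => w s) (by
      intro x _ y _ hh
      have hh' : s' + (sl k1 - sl k) * x = s' + (sl k1 - sl k) * y := hh
      exact mul_left_cancel₀ (sl_ne0 k k1 h1) (add_left_cancel hh'))]
  refine Finset.sum_le_sum_of_subset_of_nonneg ?_ fun _ _ _ => hw _
  intro s hs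
  obtain ⟨z1, hz1, rfl⟩ := Finset.mem_image.1 hs
  exact (Finset.mem_filter.1 hz1).2

/-- masses: all `s'` -/
theorem mass_all {k k1 : Fin 4} (T Sh : Finset ℤ) {S : Finset ℤ} {w : ℤ → ℝ}
    (hw : ∀ s, 0 ≤ w s) :
    ∑ s' ∈ Sh, ∑ z1 ∈ T, (if s' + (sl k1 - sl k) * z1 ∈ S then w (s' + (sl k1 - sl k) * z1) else 0) ≤
      T.card * ∑ s ∈ S, w s := by
  classical
  rw [Finset.sum_comm]
  have h1 : ∀ z1 ∈ T, ∑ s' ∈ Sh,
      (if s' + (sl k1 - sl k) * z1 ∈ S then w (s' + (sl k1 - sl k) * z1) else 0) ≤ ∑ s ∈ S, w s := by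
    intro z1 _
    rw [← Finset.sum_filter]
    rw [← Finset.sum_image (s := Sh.filter fun s' => s' + (sl k1 - sl k) * z1 ∈ S)
      (g := fun s' => s' + (sl k1 - sl k) * z1) (f := fun s => w s) (by
        intro x _ y _ hh
        have hh' : x + (sl k1 - sl k) * z1 = y + (sl k1 - sl k) * z1 := hh
        exact add_right_cancel hh')]
    refine Finset.sum_le_sum_of_subset_of_nonneg ?_ fun _ _ _ => hw _
    intro s hs
    obtain ⟨s', hs', rfl⟩ := Finset.mem_image.1 hs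
    exact (Finset.mem_filter.1 hs').2
  refine (Finset.sum_le_sum h1).trans ?_
  rw [Finset.sum_const, nsmul_eq_mul]

end Crest.Agent.R079.CKgx37
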