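import Crest.Agent.R079.Cell_37
import Crest.Agent.R079.BadN_360
import Crest.Agent.R079.Qc_406

/-! R079 (helper217), CELLKILL part 1 (note 1095 of row 79, step (1)): **SMALL CELLS**.

A cell of scale `n ≤ len J` and height `H` in a frozen slot, the other three letters arbitrary in local
`L²`: the whole region sum is `≤ K H² (n / len J)^(1/2) len J`. -/

set_option autoImplicit false

namespace Crest.Agent.R079.CKx217

open Finset Crest.Agent.R079.Grid Crest.Agent.R079.Glue Crest.Agent.R079.Growth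
  Crest.Agent.R079.QRed Crest.Agent.R079.Cell37

/-! ### geometric sum of `√2` -/

theorem geo_sqrt (M : ℕ) : ∑ k ∈ range (M + 1), (Real.sqrt 2) ^ k ≤ 4 * (Real.sqrt 2) ^ M := by
  have h2 : Real.sqrt 2 ^ 2 = 2 := Real.sq_sqrt (by norm_num)
  have h0 : 0 ≤ Real.sqrt 2 := Real.sqrt_nonneg _
  have h1 : 4 / 3 ≤ Real.sqrt 2 := by
    rw [Real.le_sqrt' (by norm_num)]
    norm_num
  induction M with
  | zero => norm_num [Finset.sum_range_succ]
  | succ M ih =>
    rw [Finset.sum_range_succ]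
    have hp : 0 ≤ Real.sqrt 2 ^ M := by positivity
    rw [pow_succ]
    nlinarith

/-! ### the support of a cell -/

theorem cph_supp {n : ℕ} {a b : ℤ} {H : ℝ} {w : ℤ → ℝ} {u c : ℤ → ℂ} (h : CellD n a b H w u c)
    (ξ : ℤ → ℝ) {y : ℤ} (hy : y ∉ Finset.Ico (a + b) (a + b + 2 * (n : ℤ))) :
    cph n a w u c ξ y = 0 := by
  unfold cph
  refine Finset.sum_eq_zero fun s hs => ?_
  rw [Finset.mem_Ico] at hs
  have : c (y - s) = 0 := by
    refine h.supp _ fun hc => hy ?_
    rw [Finset.mem_Ico] at hc ⊢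
    constructor <;> linarith [hc.1, hc.2, hs.1, hs.2]
  rw [this]
  ring

/-- the nodes of one level meeting an interval -/
noncomputable def meet (k : ℕ) (s e : ℤ) : Finset ℤ := Finset.Icc (s / 2 ^ (k + 7)) ((e - 1) / 2 ^ (k + 7))

theorem mem_meet {k : ℕ} {l s e : ℤ} {y : ℤ} (hy : y ∈ iv (k, l)) (hs : y ∈ Finset.Ico s e) :
    l ∈ meet k s e := by
  unfold iv dI at hy
  simp only at hy
  rw [Finset.mem_Ico] at hy hs
  have hL : (0 : ℤ) < 2 ^ (k + 7) := by positivity
  unfold meet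
  rw [Finset.mem_Icc]
  constructor
  · have : s / 2 ^ (k + 7) < l + 1 := Int.ediv_lt_of_lt_mul hL (by linarith [hy.2, hs.1])
    omega
  · exact Int.le_ediv_of_mul_le hL (by linarith [hy.1, hs.2])

theorem card_meet {k : ℕ} {s : ℤ} {n : ℕ} :
    ((meet k s (s + 2 * (n : ℤ))).card : ℝ) ≤ 2 * n / 2 ^ (k + 7) + 2 := by
  unfold meet
  rw [Int.card_Icc]
  have hL : (0 : ℤ) < 2 ^ (k + 7) := by positivity
  have hL' : (0 : ℝ) < 2 ^ (k + 7) := by positivity
  set q1 := s / 2 ^ (k + 7) with hq1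
  set q2 := (s + 2 * (n : ℤ) - 1) / 2 ^ (k + 7) with hq2
  have e1 : s < (q1 + 1) * 2 ^ (k + 7) := by
    have := Int.lt_ediv_add_one_mul_self s hL
    exact this
  have e2 : q2 * 2 ^ (k + 7) ≤ s + 2 * (n : ℤ) - 1 := Int.ediv_mul_le _ hL.ne'
  have e3 : ((q2 : ℤ) - q1 - 1) * 2 ^ (k + 7) ≤ 2 * (n : ℤ) := by linarith
  have e4 : ((q2 : ℝ) - q1 - 1) * 2 ^ (k + 7) ≤ 2 * (n : ℝ) := by exact_mod_cast e3
  have e5 : (q2 : ℝ) - q1 - 1 ≤ 2 * n / 2 ^ (k + 7) := by
    rw [le_div_iff₀ hL']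
    exact e4
  have hn0 : (0 : ℝ) ≤ 2 * n / 2 ^ (k + 7) := by positivity
  rcases le_total 0 (q2 + 1 - q1) with h | h
  · have : (((q2 + 1 - q1).toNat : ℕ) : ℝ) = (q2 : ℝ) + 1 - q1 := by
      have h1 : (((q2 + 1 - q1).toNat : ℕ) : ℤ) = q2 + 1 - q1 := Int.toNat_of_nonneg h
      exact_mod_cast h1
    rw [this]
    linarith
  · rw [Int.toNat_of_nonpos h]
    push_cast
    linarith

theorem av_cph_le {n : ℕ} {a b : ℤ} {H : ℝ} {w : ℤ → ℝ} {u c : ℤ → ℂ} (h : CellD n a b H w u c)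
    (ξ : ℤ → ℝ) (p : Nd) : av p (cph n a w u c ξ) ≤ H * Real.sqrt (2 * n / len p) := by
  have hH := h.H0
  have hl : 0 < len p := QVar181.len_pos' p
  have h1 : av p (cph n a w u c ξ) ^ 2 ≤ (H * Real.sqrt (2 * n / len p)) ^ 2 := by
    rw [QVar181.av_sq, mul_pow, Real.sq_sqrt (by positivity)]
    have h2 : ∑ y ∈ iv p, ‖cph n a w u c ξ y‖ ^ 2 ≤
        ∑ y ∈ Finset.Ico (a + b) (a + b + 2 * (n : ℤ)), H ^ 2 := by
      calc ∑ y ∈ iv p, ‖cph n a w u c ξ y‖ ^ 2
          ≤ ∑ y ∈ iv p, (if y ∈ Finset.Ico (a + b) (a + b + 2 * (n : ℤ)) then H ^ 2 else 0) := by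
            refine Finset.sum_le_sum fun y _ => ?_
            split_ifs with hy
            · exact pow_le_pow_left₀ (norm_nonneg _) (norm_cph_le h ξ y) 2
            · rw [cph_supp h ξ hy, norm_zero]; norm_num
        _ = ∑ y ∈ (iv p).filter (fun y => y ∈ Finset.Ico (a + b) (a + b + 2 * (n : ℤ))), H ^ 2 := by
            rw [Finset.sum_filter]
        _ ≤ _ := Finset.sum_le_sum_of_subset_of_nonneg (fun y hy => (Finset.mem_filter.1 hy).2)
            fun _ _ _ => by positivity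
    rw [Finset.sum_const, nsmul_eq_mul, Int.card_Ico] at h2
    have h3 : (((a + b + 2 * (n : ℤ) - (a + b)).toNat : ℕ) : ℝ) = 2 * n := by
      rw [show a + b + 2 * (n : ℤ) - (a + b) = ((2 * n : ℕ) : ℤ) by push_cast; ring]
      rw [Int.toNat_natCast]
      push_cast
      ring
    rw [h3] at h2
    calc (1 / len p) * ∑ y ∈ iv p, ‖cph n a w u c ξ y‖ ^ 2 ≤ (1 / len p) * (2 * n * H ^ 2) := by
          gcongr
      _ = H ^ 2 * (2 * n / len p) := by ring
  exact (sq_le_sq₀ (OneG354.av_nonneg' _ _) (by positivity)).1 h1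

/-! ### one node -/

theorem node_cell {bb : ℤ} (hb : bb = -1 ∨ bb = -7) {F : Fin 4 → Fn} {i : Fin 4} {p : Nd}
    (hF : ∀ j, j ≠ i → av p (F j) ≤ 1) {s : ℝ} (hi : av p (F i) ≤ s) :
    ∑ x ∈ adm p.1 p.2, ‖Lbox (2 ^ p.1) bb F x‖ ≤ 64 * len p * s := by
  refine (BadN360.node_triv hb p F).trans ?_
  have := BadN360.prod_le_one_of (a := fun j => av p (F j)) (fun j => OneG354.av_nonneg' _ _) i hi hF
  have hl : 0 < len p := QVar181.len_pos' p
  exact mul_le_mul_of_nonneg_left this (by positivity)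

theorem av_zero_of {p : Nd} {f : Fn} (h : ∀ y ∈ iv p, f y = 0) : av p f = 0 := by
  have h1 : av p f ^ 2 = 0 := by
    rw [QVar181.av_sq, Finset.sum_eq_zero, mul_zero]
    intro y hy
    rw [h y hy, norm_zero]
    norm_num
  exact pow_eq_zero_iff (two_ne_zero) |>.1 h1

theorem av_congr {p : Nd} {f g : Fn} (h : ∀ y ∈ iv p, f y = g y) : av p f = av p g :=
  le_antisymm (BadN360.av_mono fun y hy => by rw [h y hy])
    (BadN360.av_mono fun y hy => by rw [h y hy])

/-! ### the two halves -/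

section
variable {bb : ℤ} {F : Fin 4 → Fn} {i : Fin 4} {R : Finset Nd} {J : Nd} {n : ℕ} {a b : ℤ} {H : ℝ}
  {w : ℤ → ℝ} {u c : ℤ → ℂ} {ξ : ℤ → ℝ}

/-- nodes longer than the cell -/
theorem above (hb : bb = -1 ∨ bb = -7) (hR : IsRegion R J)
    (hF : ∀ j, j ≠ i → ∀ p ∈ R, av p (F j) ≤ 1) (h : CellD n a b H w u c)
    (hi : ∀ y ∈ iv J, F i y = cph n a w u c ξ y) :
    ∑ p ∈ R.filter (fun p => (n : ℝ) ≤ len p), ∑ x ∈ adm p.1 p.2, ‖Lbox (2 ^ p.1) bb F x‖ ≤
      2048 * H * Real.sqrt n * Real.sqrt (len J) := by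
  classical
  have hH := h.H0
  set S := Finset.Ico (a + b) (a + b + 2 * (n : ℤ)) with hS
  -- bound of one node
  have h1 : ∀ p ∈ R.filter (fun p => (n : ℝ) ≤ len p),
      ∑ x ∈ adm p.1 p.2, ‖Lbox (2 ^ p.1) bb F x‖ ≤
        if p.2 ∈ meet p.1 (a + b) (a + b + 2 * (n : ℤ)) then
          64 * H * Real.sqrt 2 * Real.sqrt n * Real.sqrt (len p) else 0 := by
    intro p hp
    obtain ⟨hpR, hnp⟩ := Finset.mem_filter.1 hp
    have hsub := hR.1 p hpR
    have hl : 0 < len p := QVar181.len_pos' p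
    have hav : av p (F i) = av p (cph n a w u c ξ) := av_congr fun y hy => hi y (hsub hy)
    split_ifs with hm
    · refine (node_cell hb (fun j hj => hF j hj p hpR) (hav.le.trans (av_cph_le h ξ p))).trans ?_
      have e1 : Real.sqrt (2 * n / len p) = Real.sqrt 2 * Real.sqrt n / Real.sqrt (len p) := by
        rw [Real.sqrt_div (by positivity), Real.sqrt_mul (by norm_num)]
      have e2 : len p = Real.sqrt (len p) * Real.sqrt (len p) := (Real.mul_self_sqrt hl.le).symm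
      have e3 : 0 < Real.sqrt (len p) := Real.sqrt_pos.2 hl
      rw [e1]
      refine le_of_eq ?_
      calc 64 * len p * (H * (Real.sqrt 2 * Real.sqrt n / Real.sqrt (len p)))
          = 64 * (Real.sqrt (len p) * Real.sqrt (len p)) *
            (H * (Real.sqrt 2 * Real.sqrt n / Real.sqrt (len p))) := by rw [← e2]
        _ = _ := by field_simp
    · refine (node_cell (s := 0) hb (fun j hj => hF j hj p hpR) ?_).trans (by simp)
      rw [hav, av_zero_of]
      intro y hy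
      refine cph_supp h ξ fun hyS => hm ?_
      exact mem_meet (k := p.1) (l := p.2) hy hyS
  refine (Finset.sum_le_sum h1).trans ?_
  have hmap : ∀ p ∈ R.filter (fun p => (n : ℝ) ≤ len p), p.1 ∈ range (J.1 + 1) := fun p hp => by
    have := QRed.Qc406.level_le (hR.1 p (Finset.mem_filter.1 hp).1)
    simp only [Finset.mem_range]
    omega
  rw [← Finset.sum_fiberwise_of_maps_to hmap]
  have h2 : ∀ k ∈ range (J.1 + 1),
      ∑ p ∈ (R.filter (fun p => (n : ℝ) ≤ len p)).filter (fun p => p.1 = k),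
        (if p.2 ∈ meet p.1 (a + b) (a + b + 2 * (n : ℤ)) then
          64 * H * Real.sqrt 2 * Real.sqrt n * Real.sqrt (len p) else 0) ≤
      256 * H * Real.sqrt 2 * Real.sqrt n * Real.sqrt 2 ^ 7 * Real.sqrt 2 ^ k := by
    intro k _
    have hs2 : Real.sqrt ((2 : ℝ) ^ (k + 7)) = Real.sqrt 2 ^ 7 * Real.sqrt 2 ^ k := by
      rw [Real.sqrt_eq_iff_mul_self_eq (by positivity) (by positivity), ← pow_add,
        ← mul_pow, Real.mul_self_sqrt (by norm_num)]
      congr 1
      ring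
    by_cases hk : (n : ℝ) ≤ 2 ^ (k + 7)
    · calc ∑ p ∈ (R.filter (fun p => (n : ℝ) ≤ len p)).filter (fun p => p.1 = k),
          (if p.2 ∈ meet p.1 (a + b) (a + b + 2 * (n : ℤ)) then
            64 * H * Real.sqrt 2 * Real.sqrt n * Real.sqrt (len p) else 0)
          = ∑ p ∈ ((R.filter (fun p => (n : ℝ) ≤ len p)).filter (fun p => p.1 = k)).filter
              (fun p => p.2 ∈ meet p.1 (a + b) (a + b + 2 * (n : ℤ))),
            64 * H * Real.sqrt 2 * Real.sqrt n * Real.sqrt (len p) := by rw [← Finset.sum_filter]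
        _ = ∑ _p ∈ ((R.filter (fun p => (n : ℝ) ≤ len p)).filter (fun p => p.1 = k)).filter
              (fun p => p.2 ∈ meet p.1 (a + b) (a + b + 2 * (n : ℤ))),
            64 * H * Real.sqrt 2 * Real.sqrt n * (Real.sqrt 2 ^ 7 * Real.sqrt 2 ^ k) := by
            refine Finset.sum_congr rfl fun p hp => ?_
            have hp3 := (Finset.mem_filter.1 (Finset.mem_filter.1 hp).1).2
            rw [← hs2]
            unfold len
            rw [hp3]
        _ = ((((R.filter (fun p => (n : ℝ) ≤ len p)).filter (fun p => p.1 = k)).filter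
              (fun p => p.2 ∈ meet p.1 (a + b) (a + b + 2 * (n : ℤ)))).card : ℝ) *
            (64 * H * Real.sqrt 2 * Real.sqrt n * (Real.sqrt 2 ^ 7 * Real.sqrt 2 ^ k)) := by
            rw [Finset.sum_const, nsmul_eq_mul]
        _ ≤ ((meet k (a + b) (a + b + 2 * (n : ℤ))).card : ℝ) *
            (64 * H * Real.sqrt 2 * Real.sqrt n * (Real.sqrt 2 ^ 7 * Real.sqrt 2 ^ k)) := by
            refine mul_le_mul_of_nonneg_right ?_ (by positivity)
            norm_cast
            refine Finset.card_le_card_of_injOn (fun p => p.2) ?_ ?_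
            · intro p hp
              rw [Finset.mem_coe] at hp ⊢
              obtain ⟨hp1, hp2⟩ := Finset.mem_filter.1 hp
              obtain ⟨_, hp3⟩ := Finset.mem_filter.1 hp1
              simp only
              rw [← hp3]
              exact hp2
            · intro p hp q hq hpq
              rw [Finset.mem_coe] at hp hq
              have hp3 := (Finset.mem_filter.1 (Finset.mem_filter.1 hp).1).2
              have hq3 := (Finset.mem_filter.1 (Finset.mem_filter.1 hq).1).2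
              exact Prod.ext (hp3.trans hq3.symm) hpq
        _ ≤ 4 * (64 * H * Real.sqrt 2 * Real.sqrt n * (Real.sqrt 2 ^ 7 * Real.sqrt 2 ^ k)) := by
            refine mul_le_mul_of_nonneg_right ?_ (by positivity)
            refine card_meet.trans ?_
            have : 2 * (n : ℝ) / 2 ^ (k + 7) ≤ 2 := by
              rw [div_le_iff₀ (by positivity)]
              linarith
            linarith
        _ = _ := by ring
    · have hem : (R.filter (fun p => (n : ℝ) ≤ len p)).filter (fun p => p.1 = k) = ∅ := by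
        rw [Finset.filter_eq_empty_iff]
        intro p hp hpk
        have := (Finset.mem_filter.1 hp).2
        unfold len at this
        rw [hpk] at this
        exact hk this
      rw [hem, Finset.sum_empty]
      positivity
  refine (Finset.sum_le_sum h2).trans ?_
  rw [← Finset.mul_sum]
  have h3 := geo_sqrt J.1
  have h4 : Real.sqrt (len J) = Real.sqrt 2 ^ 7 * Real.sqrt 2 ^ J.1 := by
    unfold len
    rw [Real.sqrt_eq_iff_mul_self_eq (by positivity) (by positivity), ← pow_add,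
      ← mul_pow, Real.mul_self_sqrt (by norm_num)]
    congr 1
    ring
  have h5 : Real.sqrt 2 ≤ 2 := by
    rw [Real.sqrt_le_left (by norm_num)]
    norm_num
  calc 256 * H * Real.sqrt 2 * Real.sqrt n * Real.sqrt 2 ^ 7 *
        ∑ k ∈ range (J.1 + 1), Real.sqrt 2 ^ k
      ≤ 256 * H * 2 * Real.sqrt n * Real.sqrt 2 ^ 7 * (4 * Real.sqrt 2 ^ J.1) := by gcongr
    _ = 2048 * H * Real.sqrt n * Real.sqrt (len J) := by rw [h4]; ring

/-- nodes shorter than the cell -/
theorem below : ∃ K : ℝ, 0 ≤ K ∧ ∀ (bb : ℤ) (F : Fin 4 → Fn) (i : Fin 4) (R : Finset Nd) (J : Nd)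
    (n : ℕ) (a b : ℤ) (H : ℝ) (w : ℤ → ℝ) (u c : ℤ → ℂ) (ξ : ℤ → ℝ), (bb = -1 ∨ bb = -7) →
    IsRegion R J → (∀ j, j ≠ i → ∀ p ∈ R, av p (F j) ≤ 1) → CellD n a b H w u c → 0 < H →
    (∀ y ∈ iv J, F i y = cph n a w u c ξ y) → (n : ℝ) ≤ len J →
    ∑ p ∈ R.filter (fun p => ¬ (n : ℝ) ≤ len p), ∑ x ∈ adm p.1 p.2, ‖Lbox (2 ^ p.1) bb F x‖ ≤
      K * H ^ 2 * n := by
  classical
  obtain ⟨KQ, hKQ, hq⟩ := BadN360.abs_qb
  refine ⟨6 * KQ * 768, by positivity, ?_⟩
  intro bb F i R J n a b H w u c ξ hb hR hF h hH hi hn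
  have hn0 : 0 < n := h.n0
  -- the critical level
  by_cases hex : ∃ p ∈ R, ¬ (n : ℝ) ≤ len p
  swap
  · have : R.filter (fun p => ¬ (n : ℝ) ≤ len p) = ∅ := by
      rw [Finset.filter_eq_empty_iff]
      intro p hp hnp
      exact hex ⟨p, hp, hnp⟩
    rw [this, Finset.sum_empty]
    positivity
  obtain ⟨p0, hp0, hnp0⟩ := hex
  have hex2 : ∃ k : ℕ, (n : ℝ) ≤ 2 ^ (k + 7) := by
    refine ⟨J.1, ?_⟩
    exact hn
  obtain ⟨k0, hk0, hk0min⟩ : ∃ k : ℕ, (n : ℝ) ≤ 2 ^ (k + 7) ∧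
      ∀ k' < k, ¬ (n : ℝ) ≤ 2 ^ (k' + 7) := by
    exact ⟨Nat.find hex2, Nat.find_spec hex2, fun k' hk' => Nat.find_min hex2 hk'⟩
  have hk0pos : 0 < k0 := by
    rcases Nat.eq_zero_or_pos k0 with h0 | h0
    · exfalso
      apply hnp0
      refine hk0.trans ?_
      unfold len
      rw [h0]
      exact pow_le_pow_right₀ (by norm_num) (by omega)
    · exact h0
  obtain ⟨k1, rfl⟩ : ∃ k1, k0 = k1 + 1 := ⟨k0 - 1, by omega⟩
  have hk1 : (2 : ℝ) ^ (k1 + 7) < n := not_le.1 (hk0min k1 (by omega))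
  have hk1n : (n : ℝ) ≤ 2 * 2 ^ (k1 + 7) := by
    refine hk0.trans (le_of_eq ?_)
    ring
  have hk1J : k1 ≤ J.1 := by
    have h1 : (2 : ℝ) ^ (k1 + 7) < 2 ^ (J.1 + 7) := hk1.trans_le hn
    have := (pow_lt_pow_iff_right₀ (by norm_num : (1 : ℝ) < 2)).1 h1
    omega
  -- small nodes have level `≤ k1`
  have hlev : ∀ p ∈ R, (¬ (n : ℝ) ≤ len p) → p.1 ≤ k1 := by
    intro p _ hnp
    by_contra hcon
    apply hnp
    refine hk0.trans ?_
    unfold len
    exact pow_le_pow_right₀ (by norm_num) (by omega)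
  -- the ancestor of level `k1`
  set anc : Nd → ℤ := fun p => p.2 / 2 ^ (k1 - p.1) with hanc
  have hancs : ∀ p : Nd, p.1 ≤ k1 → iv p ⊆ iv (k1, anc p) := by
    intro p hp
    have h1 := L0e.dI_sub (p.1 + 7) (k1 - p.1) p.2
    have h2 : p.1 + 7 + (k1 - p.1) = k1 + 7 := by omega
    rw [h2] at h1
    exact h1
  have hsubJ : ∀ p ∈ R, p.1 ≤ k1 → iv (k1, anc p) ⊆ iv J := by
    intro p hp hpk
    obtain ⟨j, hj1, hj2⟩ := L0e.dI_sub_imp (hR.1 p hp)
    have h1 := L0e.dI_sub (k1 + 7) (J.1 - k1) (anc p)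
    have h2 : k1 + 7 + (J.1 - k1) = J.1 + 7 := by omega
    have h3 : anc p / 2 ^ (J.1 - k1) = J.2 := by
      simp only [hanc]
      rw [L0e.ediv_pow_pow, hj2]
      congr 2
      omega
    rw [h2, h3] at h1
    exact h1
  set Ms := meet k1 (a + b) (a + b + 2 * (n : ℤ)) with hMs
  set f : Nd → ℝ := fun p => ∑ x ∈ adm p.1 p.2, ‖Lbox (2 ^ p.1) bb F x‖ with hf
  have hf0 : ∀ p, 0 ≤ f p := fun p => Finset.sum_nonneg fun _ _ => norm_nonneg _
  set S := R.filter (fun p => ¬ (n : ℝ) ≤ len p) with hS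
  -- nodes whose ancestor does not meet the support
  have hz : ∀ p ∈ S, anc p ∉ Ms → f p = 0 := by
    intro p hp hpm
    obtain ⟨hpR, hnp⟩ := Finset.mem_filter.1 hp
    refine le_antisymm ?_ (hf0 p)
    refine (node_cell (s := 0) hb (fun j hj => hF j hj p hpR) ?_).trans (by simp)
    rw [av_zero_of]
    intro y hy
    rw [hi y (hR.1 p hpR hy)]
    refine cph_supp h ξ fun hyS => hpm ?_
    exact mem_meet (hancs p (hlev p hpR hnp) hy) hyS
  have h1 : ∑ p ∈ S, f p = ∑ p ∈ S.filter (fun p => anc p ∈ Ms), f p := by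
    conv_rhs => rw [Finset.sum_filter]
    refine Finset.sum_congr rfl fun p hp => ?_
    split_ifs with hm
    · rfl
    · exact hz p hp hm
  have hmap : ∀ p ∈ S.filter (fun p => anc p ∈ Ms), anc p ∈ Ms := fun p hp =>
    (Finset.mem_filter.1 hp).2
  have h2 : ∀ l ∈ Ms, ∑ p ∈ (S.filter (fun p => anc p ∈ Ms)).filter (fun p => anc p = l), f p ≤
      KQ * (768 * H ^ 2) * n := by
    intro l _
    by_cases hemp : (S.filter (fun p => anc p ∈ Ms)).filter (fun p => anc p = l) = ∅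
    · rw [hemp, Finset.sum_empty]
      positivity
    obtain ⟨p1, hp1⟩ := Finset.nonempty_iff_ne_empty.2 hemp
    obtain ⟨hp1a, hp1l⟩ := Finset.mem_filter.1 hp1
    obtain ⟨hp1b, _⟩ := Finset.mem_filter.1 hp1a
    obtain ⟨hp1R, hp1n⟩ := Finset.mem_filter.1 hp1b
    have hqJ : iv (k1, l) ⊆ iv J := by
      rw [← hp1l]
      exact hsubJ p1 hp1R (hlev p1 hp1R hp1n)
    set Rq := R.filter (fun p => iv p ⊆ iv (k1, l)) with hRq
    have hreg : IsRegion Rq (k1, l) := by
      refine ⟨fun p hp => (Finset.mem_filter.1 hp).2, ?_⟩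
      intro p hp q hpq hqq
      obtain ⟨hpR, _⟩ := Finset.mem_filter.1 hp
      refine Finset.mem_filter.2 ⟨hR.2 p hpR q hpq (hqq.trans hqJ), hqq⟩
    have h3 : ∑ p ∈ (S.filter (fun p => anc p ∈ Ms)).filter (fun p => anc p = l), f p ≤
        ∑ p ∈ Rq, f p := by
      refine Finset.sum_le_sum_of_subset_of_nonneg ?_ fun p _ _ => hf0 p
      intro p hp
      obtain ⟨hpa, hpl⟩ := Finset.mem_filter.1 hp
      obtain ⟨hpb, _⟩ := Finset.mem_filter.1 hpa
      obtain ⟨hpR, hpn⟩ := Finset.mem_filter.1 hpb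
      refine Finset.mem_filter.2 ⟨hpR, ?_⟩
      rw [← hpl]
      exact hancs p (hlev p hpR hpn)
    refine h3.trans ?_
    have hrep : Rep i (k1, l) (F i) (768 * H ^ 2) := by
      obtain ⟨N, φ, cc, g1, g2, g3⟩ := rep_cell h hH ξ i (k1, l)
      exact ⟨N, φ, cc, g1, fun y hy => by rw [hi y (hqJ hy)]; exact g2 y hy, g3⟩
    have h4 := hq bb hb Rq (k1, l) hreg F (fun j => if j = i then H else 1)
      (fun j => by split_ifs; exacts [hH.le, zero_le_one])
      (fun j p hp => by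
        obtain ⟨hpR, hpq⟩ := Finset.mem_filter.1 hp
        split_ifs with hj
        · subst hj
          refine av_le_sup hH.le fun y hy => ?_
          rw [hi y (hR.1 p hpR hy)]
          exact norm_cph_le h ξ y
        · exact hF j hj p hpR) i (768 * H ^ 2) hrep
    have h5 : (∏ j : Fin 3, (if i.succAbove j = i then H else (1 : ℝ))) = 1 := by
      refine Finset.prod_eq_one fun j _ => ?_
      rw [if_neg (Fin.succAbove_ne i j)]
    rw [h5, mul_one] at h4
    refine h4.trans ?_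
    have h6 : len (k1, l) ≤ n := by
      unfold len
      exact hk1.le
    exact mul_le_mul_of_nonneg_left h6 (by positivity)
  rw [h1, ← Finset.sum_fiberwise_of_maps_to hmap]
  refine (Finset.sum_le_sum h2).trans ?_
  rw [Finset.sum_const, nsmul_eq_mul]
  have h7 : (Ms.card : ℝ) ≤ 6 := by
    refine (card_meet).trans ?_
    have : 2 * (n : ℝ) / 2 ^ (k1 + 7) ≤ 4 := by
      rw [div_le_iff₀ (by positivity)]
      linarith
    linarith
  calc (Ms.card : ℝ) * (KQ * (768 * H ^ 2) * n) ≤ 6 * (KQ * (768 * H ^ 2) * n) :=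
        mul_le_mul_of_nonneg_right h7 (by positivity)
    _ = _ := by ring

/-- **SMALL CELLS** -/
theorem small_cell : ∃ K : ℝ, 0 ≤ K ∧ ∀ (bb : ℤ) (F : Fin 4 → Fn) (i : Fin 4) (R : Finset Nd)
    (J : Nd) (n : ℕ) (a b : ℤ) (H : ℝ) (w : ℤ → ℝ) (u c : ℤ → ℂ) (ξ : ℤ → ℝ),
    (bb = -1 ∨ bb = -7) → IsRegion R J → (∀ j, j ≠ i → ∀ p ∈ R, av p (F j) ≤ 1) →
    CellD n a b H w u c → 1 ≤ H → (∀ y ∈ iv J, F i y = cph n a w u c ξ y) → (n : ℝ) ≤ len J →
    ∑ p ∈ R, ∑ x ∈ adm p.1 p.2, ‖Lbox (2 ^ p.1) bb F x‖ ≤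
      K * H ^ 2 * Real.sqrt (n / len J) * len J := by
  classical
  obtain ⟨K, hK, hbel⟩ := below
  refine ⟨2048 + K, by positivity, ?_⟩
  intro bb F i R J n a b H w u c ξ hb hR hF h hH hi hn
  have hH0 : 0 < H := lt_of_lt_of_le one_pos hH
  have hl : 0 < len J := QVar181.len_pos' J
  have hn0 : (0 : ℝ) < n := by exact_mod_cast h.n0
  have h1 := above hb hR hF h hi
  have h2 := hbel bb F i R J n a b H w u c ξ hb hR hF h hH0 hi hn
  rw [← Finset.sum_filter_add_sum_filter_not R (fun p => (n : ℝ) ≤ len p)]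
  have e1 : Real.sqrt (n / len J) * len J = Real.sqrt n * Real.sqrt (len J) := by
    rw [Real.sqrt_div hn0.le]
    have : 0 < Real.sqrt (len J) := Real.sqrt_pos.2 hl
    have e2 : len J = Real.sqrt (len J) * Real.sqrt (len J) := (Real.mul_self_sqrt hl.le).symm
    calc Real.sqrt n / Real.sqrt (len J) * len J
        = Real.sqrt n / Real.sqrt (len J) * (Real.sqrt (len J) * Real.sqrt (len J)) := by rw [← e2]
      _ = _ := by field_simp
  have e3 : (n : ℝ) ≤ Real.sqrt n * Real.sqrt (len J) := by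
    have : Real.sqrt n ≤ Real.sqrt (len J) := Real.sqrt_le_sqrt hn
    calc (n : ℝ) = Real.sqrt n * Real.sqrt n := (Real.mul_self_sqrt hn0.le).symm
      _ ≤ _ := mul_le_mul_of_nonneg_left this (Real.sqrt_nonneg _)
  have e4 : H ≤ H ^ 2 := by nlinarith
  have e5 : 0 ≤ Real.sqrt n * Real.sqrt (len J) := by positivity
  calc _ ≤ 2048 * H * Real.sqrt n * Real.sqrt (len J) + K * H ^ 2 * n := add_le_add h1 h2
    _ = 2048 * (H * (Real.sqrt n * Real.sqrt (len J))) + K * H ^ 2 * n := by ring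
    _ ≤ 2048 * (H ^ 2 * (Real.sqrt n * Real.sqrt (len J))) +
        K * H ^ 2 * (Real.sqrt n * Real.sqrt (len J)) := by gcongr
    _ = (2048 + K) * H ^ 2 * (Real.sqrt n * Real.sqrt (len J)) := by ring
    _ = (2048 + K) * H ^ 2 * (Real.sqrt (n / len J) * len J) := by rw [e1]
    _ = _ := by ring

end

end Crest.Agent.R079.CKx217
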