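import Crest.Agent.R079.CKk_217

/-! R079 (helper217), CELLKILL part 6 (note 1095 (5)): sum over the frozen value, for one shift `s'`. -/

set_option autoImplicit false

namespace Crest.Agent.R079.CKk217

open Finset Crest.Agent.R079.Grid Crest.Agent.R079.Glue Crest.Agent.R079.Growth
  Crest.Agent.R079.QRed Crest.Agent.R079.KLx446 Crest.Agent.R079.CKh217 Crest.Agent.R079.KC996
  Crest.Agent.R079.CKi217 Crest.Agent.R079.CKj217 Crest.Agent.R079.CKgx37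

section

variable {k k0 k1 k2 : Fin 4} {R : Finset Nd} {J : Nd}

/-- no contribution of far frozen values -/
theorem kB_far {F : Fin 4 → Fn} (hs0 : ∀ y, y ∉ iv J → F k0 y = 0)
    {b : ℤ → ℤ → ℂ} {w : ℤ}
    (hw : ¬ |(sl k - sl k0) * w - J.2 * 2 ^ (J.1 + 7)| ≤ 37 * (lenN J : ℤ)) (σ1 : Bool) (x y : ℤ) :
    pr σ1 (kB k k0 k1 k2 (T6x J) (T6x J) b F w x y) = 0 := by
  by_contra hne
  obtain ⟨hx, hy⟩ := fr4_ne hne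
  apply hw
  have hsh : (sl k - sl k0) * w + (sl k1 - sl k0) * x + (sl k2 - sl k0) * y ∈ iv J := by
    by_contra hc
    apply hne
    unfold kB fr4
    split_ifs
    · rw [hs0 _ hc, mul_zero, pr_zero]
    · exact pr_zero _
  rw [iv_lenN, Finset.mem_Ico] at hsh
  have h1 := mem_T6x' hx
  have h2 := mem_T6x' hy
  have c1 : |(sl k1 - sl k0) * x| ≤ 3 * (6 * (lenN J : ℤ)) := by
    rw [abs_mul]
    exact mul_le_mul (sl_abs3 k0 k1) (by rw [abs_of_nonneg h1.1]; exact h1.2.le) (abs_nonneg _)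
      (by norm_num)
  have c2 : |(sl k2 - sl k0) * y| ≤ 3 * (6 * (lenN J : ℤ)) := by
    rw [abs_mul]
    exact mul_le_mul (sl_abs3 k0 k2) (by rw [abs_of_nonneg h2.1]; exact h2.2.le) (abs_nonneg _)
      (by norm_num)
  rw [abs_le] at c1 c2
  rw [abs_le]
  constructor <;> linarith [c1.1, c1.2, c2.1, c2.2, hsh.1, hsh.2]

theorem sum_sqrt_le {W1 : Finset ℤ} {f g : ℤ → ℝ} {X : ℝ} (hf : ∀ w, 0 ≤ f w) (hg : ∀ w, 0 ≤ g w)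
    (h1 : ∑ w ∈ W1, f w ≤ X) (h2 : ∑ w ∈ W1, g w ≤ X) : ∑ w ∈ W1, √(f w) * √(g w) ≤ X := by
  have hX : 0 ≤ X := (Finset.sum_nonneg fun w _ => hf w).trans h1
  calc ∑ w ∈ W1, √(f w) * √(g w) ≤ √(∑ w ∈ W1, f w) * √(∑ w ∈ W1, g w) :=
        Real.sum_sqrt_mul_sqrt_le W1 hf hg
    _ ≤ √X * √X := mul_le_mul (Real.sqrt_le_sqrt h1) (Real.sqrt_le_sqrt h2) (Real.sqrt_nonneg _)
        (Real.sqrt_nonneg _)
    _ = X := Real.mul_self_sqrt hX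

/-- energy of the first kernel -/
noncomputable def EAd (k k0 k1 k2 : Fin 4) (R : Finset Nd) (J : Nd) (F : Fin 4 → Fn) (a : ℤ → ℤ → ℂ)
    (c : ℤ → ℂ) (γ0 : ℝ) (S : Finset ℤ) (s' : ℤ) (σ0 : Bool) (j : ℕ) (w : ℤ) : ℝ :=
  ∑ x ∈ Icc (-(S0 k k0 J : ℤ)) (S0 k k0 J), ∑ y ∈ Icc (-(S0 k k0 J : ℤ)) (S0 k k0 J),
    AJ k k0 k1 k2 R J F a c γ0 S s' σ0 j w x y ^ 2

/-- energy of the second kernel -/
noncomputable def EBd (k k0 k1 k2 : Fin 4) (R : Finset Nd) (J : Nd) (F : Fin 4 → Fn) (b : ℤ → ℤ → ℂ)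
    (c : ℤ → ℂ) (γ0 : ℝ) (S : Finset ℤ) (s' : ℤ) (σ1 : Bool) (j : ℕ) (w : ℤ) : ℝ :=
  ∑ x ∈ Icc (-(S0 k k0 J : ℤ)) (S0 k k0 J), ∑ y ∈ Icc (-(S0 k k0 J : ℤ)) (S0 k k0 J),
    BJ k k0 k1 k2 R J F b c γ0 S s' σ1 j w x y ^ 2

theorem EAd_nonneg (F : Fin 4 → Fn) (a : ℤ → ℤ → ℂ)
    (c : ℤ → ℂ) (γ0 : ℝ) (S : Finset ℤ) (s' : ℤ) (σ0 : Bool) (j : ℕ) (w : ℤ) :
    0 ≤ EAd k k0 k1 k2 R J F a c γ0 S s' σ0 j w :=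
  Finset.sum_nonneg fun _ _ => Finset.sum_nonneg fun _ _ => sq_nonneg _

theorem EBd_nonneg (F : Fin 4 → Fn) (a : ℤ → ℤ → ℂ)
    (c : ℤ → ℂ) (γ0 : ℝ) (S : Finset ℤ) (s' : ℤ) (σ0 : Bool) (j : ℕ) (w : ℤ) :
    0 ≤ EBd k k0 k1 k2 R J F a c γ0 S s' σ0 j w :=
  Finset.sum_nonneg fun _ _ => Finset.sum_nonneg fun _ _ => sq_nonneg _

theorem EAd_sum (h : D4 k k0 k1 k2) (hJ : J ∈ R) {F : Fin 4 → Fn} (hF : ∀ p ∈ R, av p (F k2) ≤ 1)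
    (hs : ∀ y, y ∉ iv J → F k2 y = 0) {c : ℤ → ℂ} {S : Finset ℤ}
    (hS : ∀ y, y ∉ S → c y = 0) {γ0 : ℝ} (hγ0 : 0 < γ0) (hM : ∑ y ∈ S, ‖c y‖ ≤ γ0 * 2 ^ J.1)
    {θ : ℤ → ℝ} (hθ : ∀ z, 0 ≤ θ z) {a : ℤ → ℤ → ℂ} (ha : ∀ z0 z1, ‖a z0 z1‖ ^ 2 ≤ θ z1)
    (W1 : Finset ℤ) (s' : ℤ) (σ0 : Bool) (j : ℕ) {δ : ℝ} (hδ : 0 ≤ δ)
    (hW : (W1.card : ℝ) ≤ 80 * len J) :
    ∑ w ∈ W1, (EAd k k0 k1 k2 R J F a c γ0 S s' σ0 j w + δ) ≤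
      80 * len J * ((∑ z1 ∈ T6x J, θ z1) * eJ (len J) j + δ) := by
  have h1 := EA_sum h hJ hF hs (g := fun v => ‖c v‖) (fun v => norm_nonneg _) (S := S)
    (fun v hv => by rw [hS v hv, norm_zero]) hγ0 hM hθ ha (T0x k k0 J) (T6x J) W1
    (Icc (-(S0 k k0 J : ℤ)) (S0 k k0 J)) s' σ0 j
  rw [card_T0x] at h1
  have h2 := mul_le_mul_of_nonneg_right hW hδ
  rw [Finset.sum_add_distrib, Finset.sum_const, nsmul_eq_mul]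
  refine (add_le_add h1 h2).trans (le_of_eq ?_)
  ring

theorem EBd_sum (h : D4 k k0 k1 k2) (hJ : J ∈ R) {F : Fin 4 → Fn} (hF : ∀ p ∈ R, av p (F k0) ≤ 1)
    (hs : ∀ y, y ∉ iv J → F k0 y = 0) {c : ℤ → ℂ} {S : Finset ℤ}
    (hS : ∀ y, y ∉ S → c y = 0) {γ0 : ℝ} (hγ0 : 0 < γ0) (hM : ∑ y ∈ S, ‖c y‖ ≤ γ0 * 2 ^ J.1)
    {θ : ℤ → ℝ} (hθ : ∀ z, 0 ≤ θ z) {b : ℤ → ℤ → ℂ} (hb : ∀ z1 z2, ‖b z1 z2‖ ^ 2 ≤ θ z1)
    (W1 : Finset ℤ) (s' : ℤ) (σ0 : Bool) (j : ℕ) {δ : ℝ} (hδ : 0 ≤ δ)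
    (hW : (W1.card : ℝ) ≤ 80 * len J) :
    ∑ w ∈ W1, (EBd k k0 k1 k2 R J F b c γ0 S s' σ0 j w + δ) ≤
      80 * len J * ((∑ z1 ∈ T6x J, θ z1) * eJ (len J) j + δ) := by
  have h1 := EB_sum h hJ hF hs (g := fun v => ‖c v‖) (fun v => norm_nonneg _) (S := S)
    (fun v hv => by rw [hS v hv, norm_zero]) hγ0 hM hθ hb (T6x J) (T6x J) W1
    (Icc (-(S0 k k0 J : ℤ)) (S0 k k0 J)) s' σ0 j
  rw [card_T6x] at h1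
  have h2 := mul_le_mul_of_nonneg_right hW hδ
  rw [Finset.sum_add_distrib, Finset.sum_const, nsmul_eq_mul]
  have hL0 : 0 < len J := Growth.len_pos J
  have he0 := eJ_nonneg hL0.le j
  have hΘ0 : 0 ≤ ∑ z1 ∈ T6x J, θ z1 := Finset.sum_nonneg fun z _ => hθ z
  have h3 : 6 * len J * (∑ z1 ∈ T6x J, θ z1) * eJ (len J) j ≤
      80 * len J * (∑ z1 ∈ T6x J, θ z1) * eJ (len J) j := by
    have : 0 ≤ len J * (∑ z1 ∈ T6x J, θ z1) * eJ (len J) j := by positivity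
    linarith
  refine (add_le_add (h1.trans h3) h2).trans (le_of_eq ?_)
  ring

/-- the word at one frozen value -/
noncomputable def TwS (k k0 k1 k2 : Fin 4) (R : Finset Nd) (J : Nd) (F : Fin 4 → Fn)
    (a b : ℤ → ℤ → ℂ) (c : ℤ → ℂ) (s' l : ℤ) (σ0 σ1 σ2 : Bool) (L1 : ℕ) (w : ℤ) : ℝ :=
  Tw (fun m p0 p1 p2 => Gd k k0 k1 k2 R m w p0 p1 p2)
        (fun z z' => pr σ0 (kA k k0 k1 k2 (T0x k k0 J) (T6x J) a F w z z'))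
        (fun z z' => pr σ1 (kB k k0 k1 k2 (T6x J) (T6x J) b F w z z'))
        (fun z z' => pr σ2 (kC k k0 k1 k2 (T6x J) (T0x k k0 J) (gc k k0 k2 c s') F w z z'))
        (J.1 + 1) L1 l w

/-- abstract sum over the frozen value -/
theorem sum_abstract {Wf W1 : Finset ℤ} (hsub : W1 ⊆ Wf) {T : ℤ → ℝ} (h0 : ∀ w ∈ Wf, w ∉ W1 → T w = 0)
    {N : ℕ} {EA EB : ℕ → ℤ → ℝ} {κ δ X L Θ : ℝ} {e : ℕ → ℝ} (hκ : 0 ≤ κ) (hδ : 0 ≤ δ)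
    (hΘ : 0 ≤ Θ) (hX : 0 ≤ X)
    (hT : ∀ w ∈ W1, T w ≤ ∑ j ∈ range (N + 1), κ * 2 ^ j * (√(EA j w + δ) * √(EB j w + δ)))
    (hA0 : ∀ j w, 0 ≤ EA j w) (hB0 : ∀ j w, 0 ≤ EB j w)
    (hA : ∀ j, ∑ w ∈ W1, (EA j w + δ) ≤ X * (Θ * e j + δ))
    (hB : ∀ j, ∑ w ∈ W1, (EB j w + δ) ≤ X * (Θ * e j + δ))
    (he : ∀ j, 2 ^ j * e j ≤ 40 * L) :
    ∑ w ∈ Wf, T w ≤ (N + 1) * (40 * κ * X) * (L * Θ + 2 ^ N * δ) := by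
  classical
  have h1 : ∑ w ∈ Wf, T w = ∑ w ∈ W1, T w :=
    (Finset.sum_subset hsub fun w hw hw1 => h0 w hw hw1).symm
  rw [h1]
  refine (Finset.sum_le_sum hT).trans ?_
  rw [Finset.sum_comm]
  have hj : ∀ j ∈ range (N + 1), ∑ w ∈ W1, κ * 2 ^ j * (√(EA j w + δ) * √(EB j w + δ)) ≤
      (40 * κ * X) * (L * Θ + 2 ^ N * δ) := by
    intro j hjr
    rw [Finset.mem_range] at hjr
    rw [← Finset.mul_sum]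
    have h2 := sum_sqrt_le (W1 := W1) (f := fun w => EA j w + δ) (g := fun w => EB j w + δ)
      (fun w => add_nonneg (hA0 j w) hδ) (fun w => add_nonneg (hB0 j w) hδ) (hA j) (hB j)
    refine (mul_le_mul_of_nonneg_left h2 (by positivity)).trans ?_
    have h3 : (2 : ℝ) ^ j ≤ 2 ^ N := pow_le_pow_right₀ (by norm_num) (by omega)
    have h4 : 2 ^ j * (Θ * e j + δ) ≤ 40 * (L * Θ + 2 ^ N * δ) := by
      have a1 : Θ * (2 ^ j * e j) ≤ Θ * (40 * L) := mul_le_mul_of_nonneg_left (he j) hΘ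
      have a2 : (2 : ℝ) ^ j * δ ≤ 2 ^ N * δ := mul_le_mul_of_nonneg_right h3 hδ
      have a3 : (0 : ℝ) ≤ 2 ^ N * δ := by positivity
      calc 2 ^ j * (Θ * e j + δ) = Θ * (2 ^ j * e j) + 2 ^ j * δ := by ring
        _ ≤ Θ * (40 * L) + 2 ^ N * δ := add_le_add a1 a2
        _ ≤ _ := by linarith
    calc κ * 2 ^ j * (X * (Θ * e j + δ)) = κ * X * (2 ^ j * (Θ * e j + δ)) := by ring
      _ ≤ κ * X * (40 * (L * Θ + 2 ^ N * δ)) := mul_le_mul_of_nonneg_left h4 (by positivity)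
      _ = _ := by ring
  refine (Finset.sum_le_sum hj).trans (le_of_eq ?_)
  rw [Finset.sum_const, Finset.card_range, nsmul_eq_mul]
  push_cast
  ring

/-- **ONE SHIFT** -/
theorem one_shift (hCZ : CornerZ) : ∃ K : ℝ, 0 ≤ K ∧ ∀ (k k0 k1 k2 : Fin 4), D4 k k0 k1 k2 →
    ∀ (R : Finset Nd) (J : Nd), IsRegion R J → J ∈ R → ∀ (F : Fin 4 → Fn) (Hx M3 : ℝ),
    0 < Hx → 0 < M3 →
    (∀ y, y ∉ iv J → F k0 y = 0) → (∀ y, y ∉ iv J → F k2 y = 0) →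
    (∀ p ∈ R, av p (F k0) ≤ 1) → (∀ p ∈ R, av p (F k2) ≤ 1) →
    (∀ y, ‖F k0 y‖ ≤ Hx) → (∀ y, ‖F k2 y‖ ≤ Hx) → (∀ y, ‖F k1 y‖ ≤ M3) →
    ∀ (θ : ℤ → ℝ) (Θm : ℝ), (∀ z, 0 ≤ θ z) → (∀ z, θ z ≤ Θm) → 0 < Θm →
    ∀ (a b : ℤ → ℤ → ℂ), (∀ z0 z1, ‖a z0 z1‖ ^ 2 ≤ θ z1) → (∀ z1 z2, ‖b z1 z2‖ ^ 2 ≤ θ z1) →
    ∀ (c : ℤ → ℂ) (S : Finset ℤ) (γ0 : ℝ) (N : ℕ), (∀ v, v ∉ S → c v = 0) → 0 < γ0 →
    ∑ v ∈ S, ‖c v‖ ≤ γ0 * 2 ^ J.1 → (∀ v, ‖c v‖ ≤ γ0 * 2 ^ N) → ∀ Hg : ℝ, (∀ v, ‖c v‖ ≤ Hg) →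
    ∀ (δ : ℝ) (J0 : ℕ), 0 < δ →
    Hg ^ 2 * (6000 * len J ^ 2) ≤ 289 * γ0 ^ 2 * (δ / (Θm * Hx ^ 2) * 2 ^ J0) →
    ∀ (s' l : ℤ), |l| ≤ 7 → ∀ (σ0 σ1 σ2 : Bool) (Wf : Finset ℤ) (L1 : ℕ),
    ∑ w ∈ Wf, TwS k k0 k1 k2 R J F a b c s' l σ0 σ1 σ2 L1 w ≤
      K * ((N + 1) * (2 * J0 + 1)) * (M3 * γ0) * len J *
        (len J * (∑ z1 ∈ T6x J, θ z1) + 2 ^ N * δ) := by
  obtain ⟨K0, hK0, hone⟩ := one_w hCZ
  refine ⟨54400 * K0, by positivity, ?_⟩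
  intro k k0 k1 k2 h R J hR hJ F Hx M3 hHx hM3 hs0 hs2 hav0 hav2 hb0 hb2 hb1 θ Θm hθ0 hθm hΘm a b ha hb
    c S γ0 N hcS hγ0 hcM hcN Hg hcH δ J0 hδ hJ0 s' l hl σ0 σ1 σ2 Wf L1
  have hL0 : 0 < len J := Growth.len_pos J
  have hL1 : (128 : ℝ) ≤ len J := by rw [← lenN_cast]; exact_mod_cast lenN_ge J
  have hρ0 : sl k - sl k0 ≠ 0 := by
    have := sl_ne0 k k0 h.h0
    intro hc; apply this; linarith
  have hW1c : ((Wf.filter fun w => |(sl k - sl k0) * w - J.2 * 2 ^ (J.1 + 7)| ≤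
      37 * (lenN J : ℤ)).card : ℝ) ≤ 80 * len J := by
    have h1 := card_W1 (e := J.2 * 2 ^ (J.1 + 7)) hρ0 (lenN J) Wf
    have h2 : ((Wf.filter fun w => |(sl k - sl k0) * w - J.2 * 2 ^ (J.1 + 7)| ≤
      37 * (lenN J : ℤ)).card : ℝ) ≤ 74 * (lenN J : ℝ) + 1 := by
      exact_mod_cast h1
    rw [lenN_cast] at h2
    linarith
  have hΘ0 : 0 ≤ ∑ z1 ∈ T6x J, θ z1 := Finset.sum_nonneg fun z _ => hθ0 z
  have hmain := sum_abstract (Wf := Wf)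
    (W1 := Wf.filter fun w => |(sl k - sl k0) * w - J.2 * 2 ^ (J.1 + 7)| ≤ 37 * (lenN J : ℤ))
    (Finset.filter_subset _ _) (T := TwS k k0 k1 k2 R J F a b c s' l σ0 σ1 σ2 L1)
    (fun w hw hw1 => tw_zero fun x y => kB_far hs0 (fun hc => hw1 (Finset.mem_filter.2 ⟨hw, hc⟩))
      σ1 x y) (N := N) (EA := EAd k k0 k1 k2 R J F a c γ0 S s' σ0)
    (EB := EBd k k0 k1 k2 R J F b c γ0 S s' σ1) (κ := K0 * (2 * J0 + 1) * (17 * M3 * γ0)) (δ := δ)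
    (X := 80 * len J) (L := len J) (Θ := ∑ z1 ∈ T6x J, θ z1) (e := eJ (len J)) (by positivity) hδ.le
    hΘ0 (by positivity)
    (fun w _ => by
      have h5 := hone k k0 k1 k2 h R J hR F Hx M3 hHx hM3 hb0 hb2 hb1 θ Θm hθm
        hΘm a b ha hb c S γ0 N hcS hγ0 hcM hcN Hg hcH δ J0 hδ hJ0 s' l hl σ0 σ1 σ2 w L1
      refine (show TwS k k0 k1 k2 R J F a b c s' l σ0 σ1 σ2 L1 w ≤ _ from h5).trans (le_of_eq ?_)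
      refine Finset.sum_congr rfl fun j _ => ?_
      show K0 * (2 * J0 + 1) * ((17 * M3 * (γ0 * 2 ^ j)) *
        √(EAd k k0 k1 k2 R J F a c γ0 S s' σ0 j w + δ) *
        √(EBd k k0 k1 k2 R J F b c γ0 S s' σ1 j w + δ)) = _
      ring)
    (fun j w => EAd_nonneg F a c γ0 S s' σ0 j w) (fun j w => EBd_nonneg F b c γ0 S s' σ1 j w)
    (fun j => EAd_sum h hJ hav2 hs2 hcS hγ0 hcM hθ0 ha _ s' σ0 j hδ.le hW1c)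
    (fun j => EBd_sum h hJ hav0 hs0 hcS hγ0 hcM hθ0 hb _ s' σ1 j hδ.le hW1c)
    (fun j => eJ_mul hL0.le j)
  refine hmain.trans (le_of_eq ?_)
  ring

end

end Crest.Agent.R079.CKk217
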