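import Crest.Agent.R079.CKt_217
import Crest.Agent.R079.CKn_37

/-! R079 (helper217), CELLKILL part 7 (note 1095 (5)): **HIGH** for a group. -/

set_option autoImplicit false

namespace Crest.Agent.R079.CKk217

open Finset Crest.Agent.R079.Grid Crest.Agent.R079.Glue Crest.Agent.R079.Growth
  Crest.Agent.R079.QRed Crest.Agent.R079.KLx446 Crest.Agent.R079.CKh217 Crest.Agent.R079.KC996
  Crest.Agent.R079.CKi217 Crest.Agent.R079.CKj217 Crest.Agent.R079.CKgx37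

theorem Lbox_update_fsum {ι : Type*} (N : ℕ) (bb x : ℤ) (F : Fin 4 → ℤ → ℂ) (i : Fin 4) (s : Finset ι)
    (φ : ι → ℤ → ℂ) :
    Lbox N bb (Function.update F i (fun y => ∑ k ∈ s, φ k y)) x =
      ∑ k ∈ s, Lbox N bb (Function.update F i (φ k)) x := by
  unfold Lbox
  simp only [Qb247.prod_update]
  simp only [Finset.mul_sum, Finset.sum_mul]
  rw [Finset.sum_comm]

/-- letters masked to `iv J` -/
noncomputable def mkL (J : Nd) (F : Fin 4 → Fn) : Fin 4 → Fn := fun j y => if y ∈ iv J then F j y else 0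

theorem mkL_supp (J : Nd) (F : Fin 4 → Fn) (j : Fin 4) (y : ℤ) (hy : y ∉ iv J) : mkL J F j y = 0 := by
  unfold mkL
  rw [if_neg hy]

theorem mkL_norm (J : Nd) (F : Fin 4 → Fn) (j : Fin 4) (y : ℤ) : ‖mkL J F j y‖ ≤ ‖F j y‖ := by
  unfold mkL
  split_ifs
  · exact le_rfl
  · rw [norm_zero]; exact norm_nonneg _

theorem final_num {K0 P M3 V h L κ Sg : ℝ} (hK0 : 0 ≤ K0) (hP : 0 ≤ P) (hM : 0 ≤ M3) (hV : 0 ≤ V)
    (hh : 0 < h) (hL : 0 < L) (hκ : κ ≤ 1 / (12 * L ^ 2)) (hS0 : 0 ≤ Sg) (hS : Sg ≤ 6 * L * V) :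
    κ * (8 * (K0 * P * (M3 * (512 / h)) * L * (L * Sg + 37 * L * (L * V)))) ≤
      15000 * K0 * P * (M3 * V / h) * L := by
  have h6 : L * Sg + 37 * L * (L * V) ≤ 43 * L ^ 2 * V := by
    have := mul_le_mul_of_nonneg_left hS hL.le
    linarith
  have h7 : 0 ≤ K0 * P * (M3 * (512 / h)) * L := by positivity
  have h8 : 0 ≤ L * Sg + 37 * L * (L * V) := by positivity
  have h9 : 0 ≤ K0 * P * (M3 * V / h) * L := by positivity
  calc κ * (8 * (K0 * P * (M3 * (512 / h)) * L * (L * Sg + 37 * L * (L * V))))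
      ≤ 1 / (12 * L ^ 2) * (8 * (K0 * P * (M3 * (512 / h)) * L * (L * Sg + 37 * L * (L * V)))) :=
        mul_le_mul_of_nonneg_right hκ (by positivity)
    _ ≤ 1 / (12 * L ^ 2) * (8 * (K0 * P * (M3 * (512 / h)) * L * (43 * L ^ 2 * V))) := by
        refine mul_le_mul_of_nonneg_left ?_ (by positivity)
        refine mul_le_mul_of_nonneg_left ?_ (by norm_num)
        exact mul_le_mul_of_nonneg_left h6 h7
    _ = (344 / 12 * 512) * (K0 * P * (M3 * V / h) * L) := by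
        field_simp
        ring
    _ ≤ 15000 * (K0 * P * (M3 * V / h) * L) := mul_le_mul_of_nonneg_right (by norm_num) h9
    _ = _ := by ring

/-- **HIGH** -/
theorem high_group (hCZ : CornerZ) : ∃ K : ℝ, 0 ≤ K ∧ ∀ (k k0 k1 k2 : Fin 4), D4 k k0 k1 k2 →
    ∀ (R : Finset Nd) (J : Nd), IsRegion R J → J ∈ R → ∀ bb : ℤ, bb = -1 ∨ bb = -7 →
    ∀ (F : Fin 4 → Fn) (Hx M3 : ℝ), 0 < Hx → 0 < M3 →
    (∀ p ∈ R, av p (F k0) ≤ 1) → (∀ p ∈ R, av p (F k2) ≤ 1) →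
    (∀ y, ‖F k0 y‖ ≤ Hx) → (∀ y, ‖F k2 y‖ ≤ Hx) → (∀ y, ‖F k1 y‖ ≤ M3) →
    ∀ (V cap Hc h : ℝ) (s0 b0 : ℤ) (S : Finset ℤ) (w : ℤ → ℝ) (u c : ℤ → ℂ) (ξ : ℤ → ℝ),
    GrpD (lenN J) V cap Hc s0 b0 S w u c → 0 < cap → 0 < h →
    (∀ y ∈ iv J, F k y = grp S w u (hiC h c) ξ y) → ∀ N J0 : ℕ, Hc * h ≤ 512 * 2 ^ N →
    (Hc * h) ^ 2 * Hx ^ 2 * cap * 2 ^ N ≤ 2 ^ J0 →
    ∑ p ∈ R, ∑ x ∈ adm p.1 p.2, ‖Lbox (2 ^ p.1) bb F x‖ ≤
      K * ((N + 1) * (2 * J0 + 1)) * (M3 * V / h) * len J := by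
  obtain ⟨K0, hK0, hone⟩ := one_shift hCZ
  refine ⟨15000 * K0, by positivity, ?_⟩
  intro k k0 k1 k2 h4 R J hR hJ bb hbb F Hx M3 hHx hM3 hav0 hav2 hb0 hb2 hb1 V cap Hc h s0 b0 S w u c ξ
    hG hcap hh hFk N J0 hN hJ0
  have hL0 : 0 < len J := Growth.len_pos J
  have hV := hG.V0
  have hlen : ((lenN J : ℕ) : ℝ) = len J := lenN_cast J
  set c' : ℤ → ℂ := hiC h c with hc'
  set f : ℤ → Fn := fun s' => kerF4 k k0 k1 k2 ((|sl k0 - sl k| : ℤ) / (36 * len J ^ 2)) (T0x k k0 J)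
      (T6x J) (T6x J) (fun z0 z1 z2 => ga k k0 k1 S w u ξ s' z0 z1 * gb k k1 k2 S w ξ s' z1 z2 *
          gc k k0 k2 c' s' z2 z0) with hf
  -- decomposition
  have hdec : ∀ p ∈ R, ∀ x ∈ adm p.1 p.2, ‖Lbox (2 ^ p.1) bb F x‖ ≤
      ∑ s' ∈ Shx s0 J, ‖Lbox (2 ^ p.1) bb (Function.update (mkL J F) k (f s')) x‖ := by
    intro p hp x hx
    have e1 : Lbox (2 ^ p.1) bb F x = Lbox (2 ^ p.1) bb
        (Function.update (mkL J F) k (fun y => ∑ s' ∈ Shx s0 J, f s' y)) x := by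
      refine Qb247.Lbox_congr p.1 p.2 bb x hbb hx _ _ fun j y hy => ?_
      have hyJ : y ∈ iv J := hR.1 p hp hy
      by_cases hj : j = k
      · subst hj
        rw [Function.update_self, hFk y hyJ]
        exact grp_rep h4 J hG.w0 hG.S0 u c' ξ hyJ
      · rw [Function.update_of_ne hj]
        unfold mkL
        rw [if_pos hyJ]
    rw [e1, Lbox_update_fsum]
    exact norm_sum_le _ _
  have hswap : ∑ p ∈ R, ∑ x ∈ adm p.1 p.2, ‖Lbox (2 ^ p.1) bb F x‖ ≤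
      ∑ s' ∈ Shx s0 J, ∑ p ∈ R, ∑ x ∈ adm p.1 p.2,
        ‖Lbox (2 ^ p.1) bb (Function.update (mkL J F) k (f s')) x‖ := by
    rw [Finset.sum_comm]
    refine Finset.sum_le_sum fun p hp => ?_
    rw [Finset.sum_comm]
    exact Finset.sum_le_sum fun x hx => hdec p hp x hx
  refine hswap.trans ?_
  -- one shift
  set θ : ℤ → ℤ → ℝ := fun s' z1 => if s' + (sl k1 - sl k) * z1 ∈ S then
    w (s' + (sl k1 - sl k) * z1) else 0 with hθ
  set Θm : ℝ := cap * V / len J with hΘm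
  have hΘm0 : 0 < Θm := by positivity
  set δ : ℝ := len J * V / 2 ^ N with hδ
  have hδ0 : 0 < δ := by positivity
  set γ0 : ℝ := 512 / h with hγ0
  have hγ0' : 0 < γ0 := by positivity
  set Kb : ℤ → ℝ := fun s' => K0 * ((N + 1) * (2 * J0 + 1)) * (M3 * γ0) * len J *
    (len J * (∑ z1 ∈ T6x J, θ s' z1) + 2 ^ N * δ) with hKb
  set κ : ℝ := ((|sl k0 - sl k| : ℤ) : ℝ) / (36 * len J ^ 2) with hκ
  have habs0 : (0 : ℝ) ≤ ((|sl k0 - sl k| : ℤ) : ℝ) := by exact_mod_cast abs_nonneg _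
  have habs3 : ((|sl k0 - sl k| : ℤ) : ℝ) ≤ 3 := by exact_mod_cast sl_abs3 k k0
  have hκ0 : 0 ≤ κ := by positivity
  have hHc0 : 0 ≤ Hc := (norm_nonneg _).trans (hG.cH 0)
  have hword : ∀ s' ∈ Shx s0 J, ∑ p ∈ R, ∑ x ∈ adm p.1 p.2,
      ‖Lbox (2 ^ p.1) bb (Function.update (mkL J F) k (f s')) x‖ ≤ κ * (8 * Kb s') := by
    intro s' _
    have n0 : k0 ≠ k := Ne.symm h4.h0
    have n1 : k1 ≠ k := Ne.symm h4.h1
    have n2 : k2 ≠ k := Ne.symm h4.h2
    refine region_words h4 (Kb s') bb hbb R J hR (T0x k k0 J) (T6x J) (T6x J)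
      (ga k k0 k1 S w u ξ s') (gb k k1 k2 S w ξ s') (gc k k0 k2 c' s')
      (Function.update (mkL J F) k (f s')) ?_ κ hκ0 (by rw [Function.update_self])
    intro l hl σ0 σ1 σ2 Wf L1
    refine hone k k0 k1 k2 h4 R J hR hJ (Function.update (mkL J F) k (f s')) Hx M3 hHx hM3
      ?_ ?_ ?_ ?_ ?_ ?_ ?_ (θ s') Θm ?_ ?_ hΘm0 (ga k k0 k1 S w u ξ s') (gb k k1 k2 S w ξ s')
      (fun z0 z1 => norm_ga_sq hG.w0 hG.u1 ξ s' z0 z1) (fun z1 z2 => norm_gb_sq hG.w0 ξ s' z1 z2)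
      c' (Finset.Ico b0 (b0 + 2 * (lenN J : ℤ))) γ0 N (fun v hv => hG.hi_supp h v hv) hγ0' ?_ ?_ Hc ?_
      δ J0 hδ0 ?_ s' l hl σ0 σ1 σ2 Wf L1
    · intro y hy
      rw [Function.update_of_ne n0]; exact mkL_supp J F _ y hy
    · intro y hy
      rw [Function.update_of_ne n2]; exact mkL_supp J F _ y hy
    · intro p hp
      rw [Function.update_of_ne n0]
      exact (Cell37.av_mono' fun y _ => mkL_norm J F _ y).trans (hav0 p hp)
    · intro p hp
      rw [Function.update_of_ne n2]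
      exact (Cell37.av_mono' fun y _ => mkL_norm J F _ y).trans (hav2 p hp)
    · intro y
      rw [Function.update_of_ne n0]; exact (mkL_norm J F _ y).trans (hb0 y)
    · intro y
      rw [Function.update_of_ne n2]; exact (mkL_norm J F _ y).trans (hb2 y)
    · intro y
      rw [Function.update_of_ne n1]; exact (mkL_norm J F _ y).trans (hb1 y)
    · intro z
      simp only [hθ]
      split_ifs
      · exact hG.w0 _
      · exact le_rfl
    · intro z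
      simp only [hθ]
      split_ifs
      · rw [hΘm, le_div_iff₀ hL0, ← hlen]
        exact hG.wc _
      · exact hΘm0.le
    · refine (hG.hi_l1 hh).trans (le_of_eq ?_)
      rw [hlen, hγ0]
      unfold len
      rw [pow_add]
      field_simp
      ring
    · intro v
      refine (norm_hiC_le h c v).trans ((hG.cH v).trans ?_)
      rw [hγ0, div_mul_eq_mul_div, le_div_iff₀ hh]
      exact hN
    · intro v
      exact (norm_hiC_le h c v).trans (hG.cH v)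
    · -- numbers
      rw [hγ0, hδ, hΘm]
      have e1 : len J * V / 2 ^ N / (cap * V / len J * Hx ^ 2) * 2 ^ J0 =
          len J ^ 2 * (2 ^ J0 / (2 ^ N * cap * Hx ^ 2)) := by
        field_simp
      rw [e1]
      have h2 : Hc ^ 2 * h ^ 2 ≤ 2 ^ J0 / (2 ^ N * cap * Hx ^ 2) := by
        rw [le_div_iff₀ (by positivity)]
        calc Hc ^ 2 * h ^ 2 * (2 ^ N * cap * Hx ^ 2) = (Hc * h) ^ 2 * Hx ^ 2 * cap * 2 ^ N := by ring
          _ ≤ 2 ^ J0 := hJ0
      have h3 : Hc ^ 2 ≤ (2 ^ J0 / (2 ^ N * cap * Hx ^ 2)) / h ^ 2 := by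
        rw [le_div_iff₀ (by positivity)]
        exact h2
      have h4' : 0 ≤ len J ^ 2 := by positivity
      have h5 : 0 ≤ (2 ^ J0 / (2 ^ N * cap * Hx ^ 2)) / h ^ 2 := by positivity
      calc Hc ^ 2 * (6000 * len J ^ 2) ≤
            (2 ^ J0 / (2 ^ N * cap * Hx ^ 2)) / h ^ 2 * (6000 * len J ^ 2) := by gcongr
        _ ≤ (2 ^ J0 / (2 ^ N * cap * Hx ^ 2)) / h ^ 2 * (75759616 * len J ^ 2) := by
            gcongr
            norm_num
        _ = 289 * (512 / h) ^ 2 * (len J ^ 2 * (2 ^ J0 / (2 ^ N * cap * Hx ^ 2))) := by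
            field_simp
            norm_num
  refine (Finset.sum_le_sum hword).trans ?_
  -- masses
  have hmass : ∑ s' ∈ Shx s0 J, ∑ z1 ∈ T6x J, θ s' z1 ≤ 6 * len J * V := by
    refine (mass_all (T6x J) (Shx s0 J) hG.w0).trans ?_
    rw [card_T6x]
    exact mul_le_mul_of_nonneg_left hG.wV (by positivity)
  have hsum : ∑ s' ∈ Shx s0 J, Kb s' = K0 * ((N + 1) * (2 * J0 + 1)) * (M3 * γ0) * len J *
      (len J * (∑ s' ∈ Shx s0 J, ∑ z1 ∈ T6x J, θ s' z1) + 37 * len J * (2 ^ N * δ)) := by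
    simp only [hKb]
    rw [← Finset.mul_sum, Finset.sum_add_distrib, ← Finset.mul_sum, Finset.sum_const, nsmul_eq_mul,
      card_Shx]
  have hδN : 2 ^ N * δ = len J * V := by rw [hδ]; field_simp
  rw [← Finset.mul_sum, ← Finset.mul_sum, hsum, hδN]
  have hκle : κ ≤ 1 / (12 * len J ^ 2) := by
    rw [hκ, div_le_div_iff₀ (by positivity) (by positivity)]
    have h9 : 0 ≤ len J ^ 2 := by positivity
    nlinarith
  have hm0 : 0 ≤ ∑ s' ∈ Shx s0 J, ∑ z1 ∈ T6x J, θ s' z1 :=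
    Finset.sum_nonneg fun s' _ => Finset.sum_nonneg fun z1 _ => by
      simp only [hθ]
      split_ifs
      · exact hG.w0 _
      · exact le_rfl
  rw [hγ0]
  exact final_num hK0 (by positivity) hM3.le hV.le hh hL0 hκle hm0 hmass

/-- a dyadic bound of a number `≥ 1` -/
theorem exists_dy {P : ℝ} (hP : 1 ≤ P) : ∃ n : ℕ, P ≤ 2 ^ n ∧ ((n : ℝ) + 1) ≤ 3 * (1 + Real.log P) := by
  have hl0 : 0 ≤ Real.log P := Real.log_nonneg hP
  obtain ⟨n, hn1, hn2⟩ : ∃ n : ℕ, P ≤ 2 ^ n ∧ (n : ℝ) ≤ 1 + Real.log P / Real.log 2 := by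
    refine ⟨⌈Real.log P / Real.log 2⌉₊, ?_, ?_⟩
    · have hl2 : 0 < Real.log 2 := Real.log_pos (by norm_num)
      have h1 : Real.log P / Real.log 2 ≤ (⌈Real.log P / Real.log 2⌉₊ : ℝ) := Nat.le_ceil _
      rw [div_le_iff₀ hl2] at h1
      rw [← Real.rpow_natCast, ← Real.exp_log (show (0 : ℝ) < P by linarith),
        Real.rpow_def_of_pos (by norm_num)]
      rw [Real.log_exp] at *
      exact Real.exp_le_exp.2 (by linarith)
    · have h1 := Nat.ceil_lt_add_one (a := Real.log P / Real.log 2)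
        (div_nonneg hl0 (Real.log_pos (by norm_num)).le)
      linarith
  refine ⟨n, hn1, ?_⟩
  have hl2 : (1 / 2 : ℝ) ≤ Real.log 2 := by linarith [Real.log_two_gt_d9]
  have h3 : Real.log P / Real.log 2 ≤ 2 * Real.log P := by
    rw [div_le_iff₀ (by linarith)]
    nlinarith
  linarith

/-- **HIGH**, log form -/
theorem highN (hCZ : CornerZ) : ∃ K : ℝ, 0 ≤ K ∧ ∀ (i m k3 a : Fin 4), D4 i m k3 a →
    ∀ (W : Finset Nd) (I : Nd), IsRegion W I → I ∈ W → ∀ bb : ℤ, bb = -1 ∨ bb = -7 →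
    ∀ (F : Fin 4 → Fn) (h V cap Hc Hx M3 : ℝ) (s0 b0 : ℤ) (S : Finset ℤ) (w : ℤ → ℝ) (u c : ℤ → ℂ)
      (ξ : ℤ → ℝ), 1 ≤ h → 1 ≤ cap → 1 ≤ Hc → 1 ≤ Hx → 0 < M3 →
    GrpD (lenN I) V cap Hc s0 b0 S w u c →
    (∀ j, j ≠ i → ∀ p ∈ W, av p (F j) ≤ 1) → (∀ j, j ≠ i → ∀ y, ‖F j y‖ ≤ Hx) →
    (∀ y, ‖F k3 y‖ ≤ M3) → (∀ y ∈ iv I, F i y = grp S w u (hiC h c) ξ y) →
    ∑ p ∈ W, ∑ x ∈ adm p.1 p.2, ‖Lbox (2 ^ p.1) bb F x‖ ≤
      K * (1 + Real.log (cap * Hc * Hx)) ^ 2 * (M3 * V / h) * len I := by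
  obtain ⟨K0, hK0, hH⟩ := high_group hCZ
  refine ⟨324 * K0, by positivity, ?_⟩
  intro i m k3 a hD W I hW hI bb hbb F h V cap Hc Hx M3 s0 b0 S w u c ξ hh hcap hHc hHx hM3 hG hav hsup
    h3 hFi
  have hV := hG.V0
  have hL := Growth.len_pos I
  have hP : 1 ≤ cap * Hc * Hx := by
    have := one_le_mul_of_one_le_of_one_le (one_le_mul_of_one_le_of_one_le hcap hHc) hHx
    exact this
  rcases lt_or_ge Hc h with hlt | hge
  · -- nothing is high
    have hz : ∀ y ∈ iv I, F i y = 0 := by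
      intro y hy
      rw [hFi y hy]
      unfold grp
      refine Finset.sum_eq_zero fun s _ => ?_
      have : hiC h c (y - s) = 0 := by
        unfold hiC
        rw [if_pos ((hG.cH _).trans hlt.le)]
      rw [this]; ring
    have h0 : ∀ p ∈ W, ∀ x ∈ adm p.1 p.2, ‖Lbox (2 ^ p.1) bb F x‖ = 0 := by
      intro p hp x hx
      rw [norm_eq_zero]
      unfold Lbox
      rw [Finset.sum_eq_zero, mul_zero]
      intro v _
      have hmem := yv_mem p.1 p.2 bb x hbb hx v i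
      exact mul_eq_zero_of_right _ (Finset.prod_eq_zero (Finset.mem_univ i)
        (hz _ (hW.1 p hp hmem)))
    rw [Finset.sum_eq_zero fun p hp => Finset.sum_eq_zero fun x hx => h0 p hp x hx]
    have : 0 ≤ Real.log (cap * Hc * Hx) := Real.log_nonneg hP
    positivity
  · obtain ⟨n, hn1, hn2⟩ := exists_dy hP
    have hHcn : Hc ≤ 2 ^ n := by
      refine le_trans ?_ hn1
      have h1 : Hc ≤ cap * Hc := le_mul_of_one_le_left (by linarith) hcap
      have h2 : cap * Hc ≤ cap * Hc * Hx := le_mul_of_one_le_right (by positivity) hHx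
      linarith
    have hHxn : Hx ≤ 2 ^ n := by
      refine le_trans ?_ hn1
      exact le_mul_of_one_le_left (by linarith) (one_le_mul_of_one_le_of_one_le hcap hHc)
    have hcapn : cap ≤ 2 ^ n := by
      refine le_trans ?_ hn1
      have h1 : cap ≤ cap * Hc := le_mul_of_one_le_right (by linarith) hHc
      have h2 : cap * Hc ≤ cap * Hc * Hx := le_mul_of_one_le_right (by positivity) hHx
      linarith
    have hHch : Hc * h ≤ 2 ^ n * 2 ^ n := by
      have : h ≤ 2 ^ n := hge.trans hHcn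
      exact mul_le_mul hHcn this (by linarith) (by positivity)
    have hmain := hH i m k3 a hD W I hW hI bb hbb F Hx M3 (by linarith) hM3
      (hav m (Ne.symm hD.h0)) (hav a (Ne.symm hD.h2)) (hsup m (Ne.symm hD.h0)) (hsup a (Ne.symm hD.h2))
      h3 V cap Hc h s0 b0 S w u c ξ hG (by linarith) (by linarith) hFi (2 * n) (9 * n)
      (by
        have e1 : (2 : ℝ) ^ (2 * n) = 2 ^ n * 2 ^ n := by rw [two_mul, pow_add]
        rw [e1]
        have h9 : (0 : ℝ) ≤ 2 ^ n * 2 ^ n := by positivity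
        linarith)
      (by
        have e1 : (2 : ℝ) ^ (9 * n) = (2 ^ n * 2 ^ n) ^ 2 * (2 ^ n) ^ 2 * 2 ^ n * 2 ^ (2 * n) := by
          rw [← pow_mul, ← pow_add, ← pow_mul, ← pow_add, ← pow_add, ← pow_add]
          congr 1
          ring
        rw [e1]
        have h10 : 0 ≤ Hc * h := by positivity
        gcongr)
    refine hmain.trans ?_
    have hN : (((2 * n : ℕ) : ℝ) + 1) * (2 * ((9 * n : ℕ) : ℝ) + 1) ≤ 324 * (1 + Real.log (cap * Hc * Hx)) ^ 2 := by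
      push_cast
      have hn0 : (0 : ℝ) ≤ n := by positivity
      have h5 : ((n : ℝ) + 1) ^ 2 ≤ (3 * (1 + Real.log (cap * Hc * Hx))) ^ 2 :=
        pow_le_pow_left₀ (by positivity) hn2 2
      nlinarith
    have h8 : 0 ≤ (M3 * V / h) * len I := by positivity
    calc K0 * ((((2 * n : ℕ) : ℝ) + 1) * (2 * ((9 * n : ℕ) : ℝ) + 1)) * (M3 * V / h) * len I
        ≤ K0 * (324 * (1 + Real.log (cap * Hc * Hx)) ^ 2) * (M3 * V / h) * len I := by gcongr
      _ = _ := by ring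

end Crest.Agent.R079.CKk217
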