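import Crest.Agent.R079.NP_112

/-! R079 (helper112): the three fields of `LeavesC` for the final parameters, in the order of the choices
`x, ρ, c, C, q3`; **`target_of_three`**. -/

set_option autoImplicit false
set_option linter.unusedVariables false

namespace Crest.Agent.R079.NP112

open Finset Crest.Agent.R079.Grid Crest.Agent.R079.Growth Crest.Agent.R079.QRed
open Crest.Agent.R079.WS112 Crest.Agent.R079.WS0112 Crest.Agent.R079.POx263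
open Crest.Agent.R079.T6bx252 Crest.Agent.R079.OpS276

/-- field `cell` -/
def CellF (P : Prm) (q3 : ℝ) : Prop :=
  ∀ i m : Fin 4, i ≠ m → i ≠ 3 → m ≠ 3 → ∃ c0 e1 : ℝ, 0 < c0 ∧ 0 < e1 ∧
    ∀ e, 0 ≤ e → e ≤ e1 → ∃ k1 : ℝ, 0 < k1 ∧ ∀ k, 0 < k → k ≤ k1 → ∃ t0 K : ℝ, 0 < t0 ∧ 0 ≤ K ∧
      CellKill (DF0 P) (CA0 P) k q3 c0 (1 + e) 1 t0 K i m

/-- field `op` -/
def OpF (P : Prm) (q3 : ℝ) : Prop :=
  ∀ i m : Fin 4, i < m → m ≠ 3 → ∃ d1 : ℝ, 0 < d1 ∧ ∀ δ, 0 < δ → δ ≤ d1 →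
    ∃ c0 k1 : ℝ, 0 < c0 ∧ 0 < k1 ∧ ∀ k, 0 < k → k ≤ k1 → ∃ t0 K : ℝ, 0 < t0 ∧ 0 ≤ K ∧
      OpKill (DF0 P) (OA0 P) k q3 c0 1 (1 + δ) t0 K i m

/-- field `gen` -/
def GenF (P : Prm) (q3 d : ℝ) : Prop :=
  ∀ i m e e' : Fin 4, Dst4 i m e e' → m < i → i ≠ 3 → ∃ cm : ℝ, 0 < cm ∧
    ∀ c1, 0 < c1 → c1 ≤ cm →
    ∃ C g ys : ℝ, 0 < C ∧ 0 < g ∧ 0 < ys ∧ ∀ y, 0 < y → y ≤ ys → ∃ e1 : ℝ, 0 < e1 ∧
      ∀ ε, 0 < ε → ε ≤ e1 → ∃ k1 : ℝ, 0 < k1 ∧ ∀ k, 0 < k → k ≤ k1 → ∃ t0 K : ℝ, 0 < t0 ∧ 0 ≤ K ∧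
        GenQ (QP P d i m e e' ε k) k q3 c1 (C * y) (g * y) t0 K i m

/-- **ALL PARAMETERS CHOSEN**: `hc` = cells, `ho` = op-atoms, `hg` = Step I for the core data -/
theorem target_of_three
    (hc : ∀ {x C ρ c q3 : ℝ}, Adm4 x C ρ c → 40 ≤ x → c ≤ 1 / 8 → 40 * C + 40 ≤ q3 →
      CellF (PF x C ρ c) q3)
    (ho : ∀ {x C ρ c q3 : ℝ}, Adm4 x C ρ c → 40 ≤ x → 2 < q3 → OpF (PF x C ρ c) q3)
    (hg : ∃ x0 : ℝ, ∀ x, x0 ≤ x → ∃ ρ0 : ℝ, 0 < ρ0 ∧ ∀ ρ, 0 < ρ → ρ ≤ ρ0 → ∃ c0 : ℝ, 0 < c0 ∧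
      ∀ c, 0 < c → c ≤ c0 → ∃ C0 : ℝ, ∀ C, C0 ≤ C → ∀ q3, 2 < q3 → Adm4 x C ρ c →
        GenF (PF x C ρ c) q3 (dF C ρ c)) : L0.Target := by
  obtain ⟨x0, hg⟩ := hg
  obtain ⟨ρ0, hρ0, hg⟩ := hg (max x0 100) (le_max_left _ _)
  obtain ⟨c0, hc0, hg⟩ := hg (min ρ0 (1 / 8)) (lt_min hρ0 (by norm_num)) (min_le_left _ _)
  obtain ⟨C0, hg⟩ := hg (min c0 (1 / 8)) (lt_min hc0 (by norm_num)) (min_le_left _ _)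
  have hx1 : (100 : ℝ) ≤ max x0 100 := le_max_right _ _
  have hC1 : (6 : ℝ) ≤ max C0 6 := le_max_right _ _
  have hA : Adm4 (max x0 100) (max C0 6) (min ρ0 (1 / 8)) (min c0 (1 / 8)) :=
    ⟨by linarith, hC1, lt_min hρ0 (by norm_num), min_le_right _ _, lt_min hc0 (by norm_num),
      (min_le_right _ _).trans (by norm_num)⟩
  have hq : (2 : ℝ) < 40 * max C0 6 + 40 := by linarith
  exact target_of_PF hA hq ⟨hc hA (by linarith) (min_le_right _ _) le_rfl,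
    ho hA (by linarith) hq, hg (max C0 6) (le_max_left _ _) _ hq hA⟩

end Crest.Agent.R079.NP112
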