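import Crest.Agent.R079.OpKf_276

/-! R079 (helper276): **the leaf `op` of helper112 / helper263** (`Leaves.op`, `LeavesC.op`) from the kill
lemma; adapter for the profile of helper446. -/

set_option autoImplicit false

namespace Crest.Agent.R079.OpK276

open Finset Crest.Agent.R079.Grid Crest.Agent.R079.Growth Crest.Agent.R079.QRed
  Crest.Agent.R079.Qe292 Crest.Agent.R079.TRec Crest.Agent.R079.T6ax252 Crest.Agent.R079.T6bx252
  Crest.Agent.R079.TFrz679 Crest.Agent.R079.OLevSw Crest.Agent.R079.OpS276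
  Crest.Agent.R079.WS0112 Crest.Agent.R079.WS112

theorem KillN.mono {Φ Φ' : ℝ → ℝ → ℝ → ℝ → ℝ → ℝ} (h : KillN Φ)
    (h' : ∀ s D Ht Hf H : ℝ, 0 < s → s ≤ 1 → 0 < D → D ≤ 1 → 1 ≤ Ht → 1 ≤ Hf → 1 ≤ H →
      Φ s D Ht Hf H ≤ Φ' s D Ht Hf H) : KillN Φ' := by
  intro i m e e' hi hm hd bb ε hA W I hW F s D Ht Hf H hs hs1 hD hD1 h1 h2 h3 ψ hψ hFi hav hH hE
  exact (h i m e e' hi hm hd bb ε hA W I hW F s D Ht Hf H hs hs1 hD hD1 h1 h2 h3 ψ hψ hFi hav hH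
    hE).trans (mul_le_mul_of_nonneg_right (h' s D Ht Hf H hs hs1 hD hD1 h1 h2 h3)
    (Growth.len_pos I).le)

/-- the profile of helper446 (`C0`, `C1` numerical) -/
noncomputable def Phi446 (C0 C1 : ℝ) (s D Ht Hf H : ℝ) : ℝ :=
  C0 * ((1 + Real.log (1 + C1 * H ^ 4 * Hf * Ht / s ^ 2)) * s +
    (1 + Real.log (1 + C1 * H ^ 4 * Hf * Ht / D)) * (Hf * D * Ht ^ ((1 : ℝ) / 3) / s ^ 2))

theorem log_le_of_pow4 {C1 X Y : ℝ} (hC1 : 1 ≤ C1) (hY : 0 ≤ Y) (hX0 : 0 ≤ X)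
    (hX : X ≤ C1 * Y ^ 4) :
    1 + Real.log (1 + X) ≤ (5 + Real.log C1) * (1 + Real.log (2 + Y)) := by
  have h0 : 0 ≤ Real.log C1 := Real.log_nonneg hC1
  have h1 : 0 ≤ Real.log (2 + Y) := Real.log_nonneg (by linarith)
  have h2 : 1 + X ≤ C1 * (2 + Y) ^ 4 := by
    have h3 : 1 + Y ^ 4 ≤ (2 + Y) ^ 4 := by
      have : (2 + Y) ^ 4 = Y ^ 4 + (8 * Y ^ 3 + 24 * Y ^ 2 + 32 * Y + 16) := by ring
      rw [this]
      have : 0 ≤ 8 * Y ^ 3 + 24 * Y ^ 2 + 32 * Y := by positivity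
      linarith
    calc 1 + X ≤ C1 * 1 + C1 * Y ^ 4 := by linarith
      _ = C1 * (1 + Y ^ 4) := by ring
      _ ≤ _ := mul_le_mul_of_nonneg_left h3 (by linarith)
  have h3 : Real.log (1 + X) ≤ Real.log C1 + 4 * Real.log (2 + Y) := by
    refine (Real.log_le_log (by linarith) h2).trans (le_of_eq ?_)
    rw [Real.log_mul (by positivity) (by positivity), Real.log_pow]
    norm_num
  nlinarith [mul_nonneg h0 h1]

theorem phi446_le {C0 C1 : ℝ} (hC0 : 0 ≤ C0) (hC1 : 1 ≤ C1) {s D Ht Hf H : ℝ} (hs : 0 < s)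
    (hs1 : s ≤ 1) (hD : 0 < D) (hD1 : D ≤ 1) (h1 : 1 ≤ Ht) (h2 : 1 ≤ Hf) (h3 : 1 ≤ H) :
    Phi446 C0 C1 s D Ht Hf H ≤
      PhiL (C0 * (5 + Real.log C1)) 1 1 (1 / 3) 1 2 s D Ht Hf H := by
  unfold Phi446 PhiL
  set Y := Ht * Hf * H / (s * D) with hYd
  have hsD : 0 < s * D := mul_pos hs hD
  have hsD1 : s * D ≤ 1 := by nlinarith
  have hY : 0 ≤ Y := by positivity
  have e1 : Y ^ 4 = (Ht ^ 4 * Hf ^ 4 * H ^ 4) / (s * D) ^ 4 := by rw [hYd, div_pow]; ring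
  have hHt4 : Ht ≤ Ht ^ 4 := by
    have := pow_le_pow_right₀ h1 (show 1 ≤ 4 by norm_num); simpa using this
  have hHf4 : Hf ≤ Hf ^ 4 := by
    have := pow_le_pow_right₀ h2 (show 1 ≤ 4 by norm_num); simpa using this
  have hnum : H ^ 4 * Hf * Ht ≤ Ht ^ 4 * Hf ^ 4 * H ^ 4 := by
    calc H ^ 4 * Hf * Ht ≤ H ^ 4 * Hf ^ 4 * Ht ^ 4 := by gcongr
      _ = _ := by ring
  have a1 : C1 * H ^ 4 * Hf * Ht / s ^ 2 ≤ C1 * Y ^ 4 := by
    rw [e1, mul_assoc, mul_assoc, ← mul_assoc (H ^ 4), mul_div_assoc]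
    refine mul_le_mul_of_nonneg_left ?_ (by linarith)
    refine div_le_div₀ (by positivity) hnum (by positivity) ?_
    calc (s * D) ^ 4 = s ^ 2 * (s ^ 2 * D ^ 4) := by ring
      _ ≤ s ^ 2 * (1 * 1) := by
          refine mul_le_mul_of_nonneg_left (mul_le_mul (pow_le_one₀ hs.le hs1)
            (pow_le_one₀ hD.le hD1) (by positivity) (by norm_num)) (by positivity)
      _ = _ := by ring
  have a2 : C1 * H ^ 4 * Hf * Ht / D ≤ C1 * Y ^ 4 := by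
    rw [e1, mul_assoc, mul_assoc, ← mul_assoc (H ^ 4), mul_div_assoc]
    refine mul_le_mul_of_nonneg_left ?_ (by linarith)
    refine div_le_div₀ (by positivity) hnum (by positivity) ?_
    calc (s * D) ^ 4 = D * (D ^ 3 * s ^ 4) := by ring
      _ ≤ D * (1 * 1) := by
          refine mul_le_mul_of_nonneg_left (mul_le_mul (pow_le_one₀ hD.le hD1)
            (pow_le_one₀ hs.le hs1) (by positivity) (by norm_num)) hD.le
      _ = _ := by ring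
  have b1 := log_le_of_pow4 hC1 hY (by positivity) a1
  have b2 := log_le_of_pow4 hC1 hY (by positivity) a2
  have hHf' : Hf ^ (1 : ℝ) = Hf := Real.rpow_one _
  have hD' : D ^ (1 : ℝ) = D := Real.rpow_one _
  have hs' : s ^ (2 : ℝ) = s ^ 2 := by
    rw [show (2 : ℝ) = ((2 : ℕ) : ℝ) by norm_num, Real.rpow_natCast]
  rw [hHf', hD', hs', pow_one]
  have c1 : Hf * D * Ht ^ ((1 : ℝ) / 3) / s ^ 2 = Hf * Ht ^ ((1 : ℝ) / 3) * D / s ^ 2 := by ring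
  rw [c1]
  set Z := Hf * Ht ^ ((1 : ℝ) / 3) * D / s ^ 2 with hZ
  have hHt3 : 0 < Ht ^ ((1 : ℝ) / 3) := Real.rpow_pos_of_pos (by linarith) _
  have hZ0 : 0 ≤ Z := by positivity
  calc C0 * ((1 + Real.log (1 + C1 * H ^ 4 * Hf * Ht / s ^ 2)) * s +
        (1 + Real.log (1 + C1 * H ^ 4 * Hf * Ht / D)) * Z) ≤
      C0 * ((5 + Real.log C1) * (1 + Real.log (2 + Y)) * s +
        (5 + Real.log C1) * (1 + Real.log (2 + Y)) * Z) := by
        refine mul_le_mul_of_nonneg_left (add_le_add ?_ ?_) hC0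
        · exact mul_le_mul_of_nonneg_right b1 hs.le
        · exact mul_le_mul_of_nonneg_right b2 hZ0
    _ = _ := by ring

theorem killN_of_446 {C0 C1 : ℝ} (hC0 : 0 ≤ C0) (hC1 : 1 ≤ C1) (h : KillN (Phi446 C0 C1)) :
    KillN (PhiL (C0 * (5 + Real.log C1)) 1 1 (1 / 3) 1 2) :=
  h.mono fun _ _ _ _ _ hs hs1 hD hD1 h1 h2 h3 => phi446_le hC0 hC1 hs hs1 hD hD1 h1 h2 h3

/-- **the leaf `op`** -/
theorem op_leaf {C : ℝ} (hC : 0 ≤ C) {r : ℕ} {e1 e2 e4 e5 : ℝ} (he1 : 0 ≤ e1) (he2 : 0 ≤ e2)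
    (he4 : 0 ≤ e4) (he5 : 0 ≤ e5) (hKN : KillN (PhiL C r e1 e2 e4 e5)) {P : Prm} (h : Ok0 P)
    {q3 : ℝ} (hq3 : 2 < q3) {i m : Fin 4} (him : i < m) (hm3 : m ≠ 3) (hgm : 0 < P.g m)
    (hfm : 0 < P.f m) (h1 : P.g i ≤ min (P.g m) (P.f m))
    (h2 : P.g i + (2 * P.f i + 6 * P.g i) * e1 + (2 * P.f i + P.x i + 6 * P.g i) * e2 +
      2 * min (P.g m) (P.f m) * e5 < P.x m * e4) :
    ∃ d1 : ℝ, 0 < d1 ∧ ∀ δ, 0 < δ → δ ≤ d1 →
    ∃ c0 k1 : ℝ, 0 < c0 ∧ 0 < k1 ∧ ∀ k, 0 < k → k ≤ k1 → ∃ t0 K : ℝ, 0 < t0 ∧ 0 ≤ K ∧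
      OpKill (DF0 P) (OA0 P) k q3 c0 1 (1 + δ) t0 K i m := by
  have hi3 : i ≠ 3 := by
    rintro rfl
    have := m.2
    have h1 : (3 : ℕ) < m.1 := him
    omega
  have hgi := h.g0 i
  have hfi := h.f0 i
  have hxi := h.x0 i
  have hxm := h.x0 m
  refine ⟨1, one_pos, fun δ hδ hδ1 => ?_⟩
  have hmin0 : 0 < min (P.g m) (P.f m) := lt_min hgm hfm
  obtain ⟨cM, hcM, hmain⟩ := opKill_exists hC he1 he2 hKN h hi3 hm3 him.ne (a := 1) (b := 1 + δ)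
    zero_le_one (by linarith) hgm hfm (by nlinarith) (by
      have a1 : P.x m * e4 ≤ (1 + δ) * P.x m * e4 := by
        have : 0 ≤ δ * (P.x m * e4) := by positivity
        nlinarith
      have a2 : (1 + δ) * min (P.g m) (P.f m) * e5 ≤ 2 * min (P.g m) (P.f m) * e5 := by
        have : 0 ≤ min (P.g m) (P.f m) * e5 := by positivity
        nlinarith
      linarith)
  refine ⟨cM, min 1 (q3 - 2), hcM, lt_min one_pos (by linarith), fun k hk hkk => ?_⟩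
  obtain ⟨t0, K, ht0, -, hK, hO⟩ := hmain cM hcM le_rfl k q3 hk (hkk.trans (min_le_left _ _))
    (by have := hkk.trans (min_le_right _ _); linarith)
  exact ⟨t0, K, ht0, hK, hO⟩

end Crest.Agent.R079.OpK276
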