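import Crest.Agent.R079.CKv_37
import Crest.Agent.R079.KLh_446
import Crest.Agent.R079.OpKg_276
import Crest.Agent.R079.NG_112

/-! R079 (helper37), CELLKILL part 10: the kill lemma in log form (helper446, `killN_log`) is
`KillN (PhiL C 2 1 0 1 2)`, so the field `cell` only waits for HIGH: `cellF_of_high`. -/

set_option autoImplicit false

namespace Crest.Agent.R079.CKgx37

open Finset Crest.Agent.R079.Grid Crest.Agent.R079.Glue Crest.Agent.R079.Growth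
  Crest.Agent.R079.QRed Crest.Agent.R079.OpK276 Crest.Agent.R079.WS112 Crest.Agent.R079.WS0112
  Crest.Agent.R079.NP112

/-- the kill lemma, log form, as `PhiL` -/
theorem killN_phiL : ∃ C : ℝ, 0 ≤ C ∧ KillN (PhiL C 2 1 0 1 2) := by
  obtain ⟨C, hC, h⟩ := KLx446.killN_log
  refine ⟨C * (5 + Real.log 5), by
    have := Real.log_nonneg (show (1 : ℝ) ≤ 5 by norm_num)
    positivity, h.mono fun s D Ht Hf H hs hs1 hD hD1 h1 h2 h3 => ?_⟩
  unfold PhiL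
  set Y := Ht * Hf * H / (s * D) with hYd
  have hsD : 0 < s * D := mul_pos hs hD
  have hsD1 : s * D ≤ 1 := by nlinarith
  have hHt0 : 0 < Ht := by linarith
  have hHf0 : 0 < Hf := by linarith
  have hH0 : 0 < H := by linarith
  have hY : 0 < Y := by positivity
  have hY1 : Ht ≤ Y := by
    rw [hYd, le_div_iff₀ hsD]
    have : 1 ≤ Hf * H := one_le_mul_of_one_le_of_one_le h2 h3
    calc Ht * (s * D) ≤ Ht * 1 := mul_le_mul_of_nonneg_left hsD1 hHt0.le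
      _ ≤ Ht * (Hf * H) := mul_le_mul_of_nonneg_left this hHt0.le
      _ = Ht * Hf * H := by ring
  have e1 : Y ^ 4 = (Ht ^ 4 * Hf ^ 4 * H ^ 4) / (s * D) ^ 4 := by rw [hYd, div_pow]; ring
  have p4 : ∀ x : ℝ, 1 ≤ x → x ≤ x ^ 4 := fun x hx => by
    calc x = x ^ 1 := (pow_one x).symm
      _ ≤ x ^ 4 := pow_le_pow_right₀ hx (by norm_num)
  have hHt4 := p4 Ht h1
  have hHf4 := p4 Hf h2
  have hHf41 : 1 ≤ Hf ^ 4 := one_le_pow₀ h2
  have a1 : H ^ 4 * Hf * Ht / s ^ 2 ≤ 1 * Y ^ 4 := by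
    rw [e1, one_mul]
    have d1 : (s * D) ^ 4 ≤ s ^ 2 := by
      have i1 : D ^ 4 ≤ 1 := pow_le_one₀ hD.le hD1
      have i2 : s ^ 4 ≤ s ^ 2 := pow_le_pow_of_le_one hs.le hs1 (by norm_num)
      calc (s * D) ^ 4 = s ^ 4 * D ^ 4 := by ring
        _ ≤ s ^ 2 * 1 := mul_le_mul i2 i1 (by positivity) (by positivity)
        _ = s ^ 2 := mul_one _
    have d2 : H ^ 4 * Hf * Ht ≤ Ht ^ 4 * Hf ^ 4 * H ^ 4 := by
      calc H ^ 4 * Hf * Ht ≤ H ^ 4 * Hf ^ 4 * Ht ^ 4 := by gcongr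
        _ = _ := by ring
    exact div_le_div₀ (by positivity) d2 (by positivity) d1
  have a2 : 5 * H ^ 4 * Ht / D ≤ 5 * Y ^ 4 := by
    rw [e1]
    have d1 : (s * D) ^ 4 ≤ D := by
      have i1 : D ^ 4 ≤ D ^ 1 := pow_le_pow_of_le_one hD.le hD1 (by norm_num)
      have i2 : s ^ 4 ≤ 1 := pow_le_one₀ hs.le hs1
      calc (s * D) ^ 4 = s ^ 4 * D ^ 4 := by ring
        _ ≤ 1 * D ^ 1 := mul_le_mul i2 i1 (by positivity) zero_le_one
        _ = D := by ring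
    have d2 : H ^ 4 * Ht ≤ Ht ^ 4 * Hf ^ 4 * H ^ 4 := by
      calc H ^ 4 * Ht ≤ H ^ 4 * Ht ^ 4 := by gcongr
        _ ≤ H ^ 4 * Ht ^ 4 * Hf ^ 4 := le_mul_of_one_le_right (by positivity) hHf41
        _ = _ := by ring
    have d3 : H ^ 4 * Ht / D ≤ (Ht ^ 4 * Hf ^ 4 * H ^ 4) / (s * D) ^ 4 :=
      div_le_div₀ (by positivity) d2 (by positivity) d1
    calc 5 * H ^ 4 * Ht / D = 5 * (H ^ 4 * Ht / D) := by ring
      _ ≤ _ := mul_le_mul_of_nonneg_left d3 (by norm_num)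
  set Lg : ℝ := 1 + Real.log (2 + Y) with hLg
  have hLg1 : 1 ≤ Lg := by
    have := Real.log_nonneg (show (1 : ℝ) ≤ 2 + Y by linarith)
    rw [hLg]; linarith
  have l5 : 0 ≤ Real.log 5 := Real.log_nonneg (by norm_num)
  have b1 := log_le_of_pow4 (C1 := 1) le_rfl hY.le (by positivity) a1
  have b2 := log_le_of_pow4 (C1 := 5) (by norm_num) hY.le (by positivity) a2
  rw [Real.log_one, add_zero] at b1
  have b3 : 1 + Real.log Ht ≤ Lg := by
    have : Real.log Ht ≤ Real.log (2 + Y) := Real.log_le_log hHt0 (by linarith)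
    rw [hLg]; linarith
  have hHt00 : 0 ≤ 1 + Real.log Ht := by
    have := Real.log_nonneg h1
    linarith
  have c1 : (1 + Real.log (1 + H ^ 4 * Hf * Ht / s ^ 2)) * s ≤
      (5 + Real.log 5) * Lg ^ 2 * s := by
    refine mul_le_mul_of_nonneg_right (b1.trans ?_) hs.le
    calc 5 * (1 + Real.log (2 + Y)) = 5 * Lg := rfl
      _ ≤ 5 * Lg ^ 2 := by nlinarith
      _ ≤ (5 + Real.log 5) * Lg ^ 2 := by
          refine mul_le_mul_of_nonneg_right (by linarith) (by positivity)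
  have c2 : (1 + Real.log (1 + 5 * H ^ 4 * Ht / D)) * (Hf * D * (1 + Real.log Ht) / s ^ 2) ≤
      (5 + Real.log 5) * Lg ^ 2 * (Hf * D / s ^ 2) := by
    have i1 : Hf * D * (1 + Real.log Ht) / s ^ 2 ≤ Lg * (Hf * D / s ^ 2) := by
      calc Hf * D * (1 + Real.log Ht) / s ^ 2 = (1 + Real.log Ht) * (Hf * D / s ^ 2) := by ring
        _ ≤ _ := mul_le_mul_of_nonneg_right b3 (by positivity)
    calc _ ≤ ((5 + Real.log 5) * Lg) * (Lg * (Hf * D / s ^ 2)) :=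
          mul_le_mul b2 i1 (by positivity) (by positivity)
      _ = _ := by ring
  have e2 : Hf ^ (1 : ℝ) * Ht ^ (0 : ℝ) * D ^ (1 : ℝ) / s ^ (2 : ℝ) = Hf * D / s ^ 2 := by
    rw [Real.rpow_one, Real.rpow_zero, Real.rpow_one, mul_one]
    congr 1
    exact_mod_cast Real.rpow_natCast s 2
  rw [e2]
  calc C * ((1 + Real.log (1 + H ^ 4 * Hf * Ht / s ^ 2)) * s +
      (1 + Real.log (1 + 5 * H ^ 4 * Ht / D)) * (Hf * D * (1 + Real.log Ht) / s ^ 2)) ≤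
      C * ((5 + Real.log 5) * Lg ^ 2 * s + (5 + Real.log 5) * Lg ^ 2 * (Hf * D / s ^ 2)) :=
        mul_le_mul_of_nonneg_left (add_le_add c1 c2) hC
    _ = _ := by ring

/-- **FIELD `cell` FROM HIGH** -/
theorem cellF_of_high {K : ℝ} (hK : 0 ≤ K) {r : ℕ} (hHN : HighN (PsiL K r)) {x C ρ c q3 : ℝ}
    (hA : Adm4 x C ρ c) (hx : 40 ≤ x) (hc : c ≤ 1 / 8) (hq : 40 * C + 40 ≤ q3) :
    CellF (PF x C ρ c) q3 := by
  obtain ⟨C1, hC1, hKN⟩ := killN_phiL
  exact cell_PF hA hKN (tamP_phiL hC1 2 1) hHN (tamH_psiL hK r) hc (by linarith) (by linarith)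

end Crest.Agent.R079.CKgx37
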