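import Crest.Agent.R079.PLE1_653

/-! R079, ragged corner (CR), note 833 of helper371, leaf L3 (helper360): EXTRACTION of a kernel on the
dyadic grid CELLS (both variables).

`Extr B M δ n Y S` : `Y M = B`; on the cell `c` of scale `m < M` (side `2^m`) `Y m = Y (m+1) (1 - S_m(c))`,
`S_m(c)` = projection supported on the second side of `c`; `Y m` has operator norm `≤ (δ 4^m)^(1/2)` on
every cell of scale `m`; `∑_{m<M} ∑_{x,y} tr S_m(x,y) ≤ n` (`= ∑_m ∑_c 4^m tr S_m(c)`). -/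

set_option autoImplicit false
set_option linter.unusedVariables false
set_option linter.unusedSectionVars false

namespace Crest.Agent.R079.PotL

open Matrix Finset Crest.Agent.R072
open scoped MatrixOrder

namespace CR

section abstract_step

variable {X Y ι κ : Type*} [Fintype X] [DecidableEq X] [Fintype Y] [DecidableEq Y]
  [DecidableEq ι] [DecidableEq κ]

/-- diagonal projection on a set -/
def dg (s : Finset Y) : Matrix Y Y ℝ := diagonal fun y => if y ∈ s then 1 else 0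

theorem dg_isPr (s : Finset Y) : IsPr (dg s) := by
  refine ⟨?_, ?_⟩
  · unfold dg; rw [diagonal_transpose]
  · unfold dg
    rw [diagonal_mul_diagonal]
    congr 1
    funext y
    split_ifs <;> simp

theorem mul_dg (A : Matrix X Y ℝ) (s : Finset Y) (x : X) (y : Y) :
    (A * dg s) x y = if y ∈ s then A x y else 0 := by
  unfold dg
  rw [mul_diagonal]
  split_ifs <;> simp

theorem dg_mul {Z : Type*} (A : Matrix Y Z ℝ) (s : Finset Y) (y : Y) (z : Z) :
    (dg s * A) y z = if y ∈ s then A y z else 0 := by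
  unfold dg
  rw [diagonal_mul]
  split_ifs <;> simp

/-- rows in `s` only -/
def rw' (s : Finset X) (Z : Matrix X Y ℝ) : Matrix X Y ℝ := fun x y => if x ∈ s then Z x y else 0

theorem gram_rw (s : Finset X) (Z : Matrix X Y ℝ) (v : Y → ℝ) :
    v ⬝ᵥ ((rw' s Z)ᵀ * rw' s Z) *ᵥ v = ∑ x ∈ s, (∑ y, Z x y * v y) ^ 2 := by
  rw [← mulVec_mulVec, dotProduct_mulVec, ← mulVec_transpose, transpose_transpose]
  have h1 : ∀ x, (rw' s Z *ᵥ v) x = if x ∈ s then ∑ y, Z x y * v y else 0 := by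
    intro x
    unfold rw' mulVec dotProduct
    split_ifs with h
    · exact Finset.sum_congr rfl fun y _ => by simp [h]
    · exact Finset.sum_eq_zero fun y _ => by simp [h]
  unfold dotProduct
  rw [Finset.sum_congr rfl fun x _ => by rw [h1]]
  rw [← Finset.sum_filter_add_sum_filter_not Finset.univ (fun x => x ∈ s)]
  rw [Finset.sum_congr rfl (g := fun x => (∑ y, Z x y * v y) ^ 2) fun x hx => by
    rw [if_pos (Finset.mem_filter.1 hx).2]; ring]
  rw [Finset.sum_eq_zero (s := Finset.univ.filter fun x => ¬ x ∈ s) fun x hx => by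
    rw [if_neg (Finset.mem_filter.1 hx).2]; ring]
  rw [add_zero]
  refine Finset.sum_congr ?_ fun _ _ => rfl
  ext x
  simp

theorem trace_gram_rw (s : Finset X) (Z : Matrix X Y ℝ) :
    ((rw' s Z)ᵀ * rw' s Z).trace = ∑ x ∈ s, ∑ y, Z x y ^ 2 := by
  simp only [Matrix.trace, Matrix.diag, Matrix.mul_apply, Matrix.transpose_apply]
  rw [Finset.sum_comm]
  rw [← Finset.sum_filter_add_sum_filter_not Finset.univ (fun x => x ∈ s)]
  rw [Finset.sum_eq_zero (s := Finset.univ.filter fun x => ¬ x ∈ s) fun x hx =>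
    Finset.sum_eq_zero fun y _ => by
      unfold rw'
      rw [if_neg (Finset.mem_filter.1 hx).2]; ring]
  rw [add_zero]
  have h2 : Finset.univ.filter (fun x => x ∈ s) = s := by ext x; simp
  rw [h2]
  refine Finset.sum_congr rfl fun x hx => Finset.sum_congr rfl fun y _ => ?_
  unfold rw'
  rw [if_pos hx]
  ring

/-- **one cell**: rows `s`, columns `b`; cut at `θ` -/
theorem cell_step (s : Finset X) (b : Finset Y) (Z : Matrix X Y ℝ) {θ : ℝ} (hθ : 0 < θ) :
    ∃ e : Matrix Y Y ℝ, IsPr e ∧ (∀ u v, e u v ≠ 0 → u ∈ b ∧ v ∈ b) ∧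
      (∀ v : Y → ℝ, (∀ y, v y ≠ 0 → y ∈ b) →
        ∑ x ∈ s, (∑ y, (Z x y - ∑ u, Z x u * e u y) * v y) ^ 2 ≤ θ * ∑ y, v y ^ 2) ∧
      θ * e.trace ≤ ∑ x ∈ s, ∑ y ∈ b, Z x y ^ 2 -
        ∑ x ∈ s, ∑ y ∈ b, (Z x y - ∑ u, Z x u * e u y) ^ 2 := by
  have hS : ((rw' s Z)ᵀ * rw' s Z).PosSemidef := by
    have := posSemidef_conjTranspose_mul_self (rw' s Z)
    rwa [conjTranspose_eq_transpose_of_trivial] at this
  set S := (rw' s Z)ᵀ * rw' s Z with hSd
  obtain ⟨q', hq', hq'q, hop, htr⟩ := exists_cut (dg b) S (dg_isPr b) hS hθ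
  set q : Matrix Y Y ℝ := dg b with hqd
  have hq : IsPr q := dg_isPr b
  have hqq' : q * q' = q' := by
    have := congrArg Matrix.transpose hq'q
    rwa [transpose_mul, hq'.symm, hq.symm] at this
  have he : IsPr (q - q') := by
    refine ⟨by rw [transpose_sub, hq.symm, hq'.symm], ?_⟩
    rw [Matrix.mul_sub, Matrix.sub_mul, Matrix.sub_mul, hq.idem, hq'q, hqq', hq'.idem, sub_self,
      sub_zero]
  have hsupp' : ∀ u v, q' u v ≠ 0 → u ∈ b ∧ v ∈ b := by
    intro u v h
    constructor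
    · by_contra hu
      apply h
      have := congrFun (congrFun hqq' u) v
      rw [hqd, dg_mul, if_neg hu] at this
      exact this.symm
    · by_contra hv
      apply h
      have := congrFun (congrFun hq'q u) v
      rw [hqd, mul_dg, if_neg hv] at this
      exact this.symm
  have hsupp : ∀ u v, (q - q') u v ≠ 0 → u ∈ b ∧ v ∈ b := by
    intro u v h
    by_cases h' : q' u v = 0
    · rw [Matrix.sub_apply, h', sub_zero, hqd] at h
      unfold dg at h
      by_cases huv : u = v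
      · subst huv
        rw [diagonal_apply_eq] at h
        by_cases hu : u ∈ b
        · exact ⟨hu, hu⟩
        · rw [if_neg hu] at h; exact absurd rfl h
      · rw [diagonal_apply_ne _ huv] at h; exact absurd rfl h
    · exact hsupp' u v h'
  -- new entries on the cell
  have hnew : ∀ x, ∀ y ∈ b, Z x y - ∑ u, Z x u * (q - q') u y = ∑ u, Z x u * q' u y := by
    intro x y hy
    have h1 : ∑ u, Z x u * (q - q') u y = (Z * q) x y - (Z * q') x y := by
      rw [← Matrix.sub_apply, ← Matrix.mul_sub, Matrix.mul_apply]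
    rw [h1, hqd, mul_dg, if_pos hy, sub_sub_cancel, Matrix.mul_apply]
  have hZq : ∀ x, ∀ v : Y → ℝ, (∀ y, v y ≠ 0 → y ∈ b) →
      ∑ y, (Z x y - ∑ u, Z x u * (q - q') u y) * v y = ∑ u, Z x u * (q' *ᵥ v) u := by
    intro x v hv
    calc ∑ y, (Z x y - ∑ u, Z x u * (q - q') u y) * v y
        = ∑ y, (∑ u, Z x u * q' u y) * v y := by
          refine Finset.sum_congr rfl fun y _ => ?_
          by_cases hy : y ∈ b
          · rw [hnew x y hy]
          · have : v y = 0 := by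
              by_contra h
              exact hy (hv y h)
            rw [this]; simp
      _ = ∑ u, Z x u * (q' *ᵥ v) u := by
          unfold mulVec dotProduct
          simp only [Finset.sum_mul, Finset.mul_sum]
          rw [Finset.sum_comm]
          exact Finset.sum_congr rfl fun u _ => Finset.sum_congr rfl fun y _ => by ring
  refine ⟨q - q', he, hsupp, ?_, ?_⟩
  · intro v hv
    rw [Finset.sum_congr rfl fun x _ => by rw [hZq x v hv]]
    rw [← gram_rw s Z (q' *ᵥ v)]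
    have h1 : (q' *ᵥ v) ⬝ᵥ ((rw' s Z)ᵀ * rw' s Z) *ᵥ (q' *ᵥ v) =
        v ⬝ᵥ (q' * S * q') *ᵥ v := by
      have h2 : (q' * S * q') *ᵥ v = q' *ᵥ (S *ᵥ (q' *ᵥ v)) := by
        rw [mulVec_mulVec, mulVec_mulVec, Matrix.mul_assoc]
      rw [h2, dotProduct_mulVec v q', ← mulVec_transpose, hq'.symm]
    rw [h1]
    refine (hop v).trans (le_of_eq ?_)
    unfold dotProduct
    congr 1
    exact Finset.sum_congr rfl fun y _ => by ring
  · have h2 : ((q - q') * S).trace = (q * S * q).trace - (q' * S * q').trace := by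
      rw [Matrix.sub_mul, trace_sub]
      congr 1
      · rw [Matrix.mul_assoc, trace_mul_comm q (S * q), Matrix.mul_assoc, hq.idem, trace_mul_comm]
      · rw [Matrix.mul_assoc, trace_mul_comm q' (S * q'), Matrix.mul_assoc, hq'.idem,
          trace_mul_comm]
    have h3 : ∀ p : Matrix Y Y ℝ, IsPr p → (p * S * p).trace =
        ∑ x ∈ s, ∑ y, (∑ u, Z x u * p u y) ^ 2 := by
      intro p hp
      have e1 : p * S * p = (rw' s (Z * p))ᵀ * rw' s (Z * p) := by
        have e2 : rw' s (Z * p) = rw' s Z * p := by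
          ext x y
          by_cases h : x ∈ s
          · simp [rw', Matrix.mul_apply, h]
          · simp [rw', Matrix.mul_apply, h]
        rw [e2, transpose_mul, hp.symm, hSd]
        simp only [Matrix.mul_assoc]
      rw [e1, trace_gram_rw]
      refine Finset.sum_congr rfl fun x _ => Finset.sum_congr rfl fun y _ => ?_
      rw [Matrix.mul_apply]
    refine htr.trans (le_of_eq ?_)
    rw [h2, h3 q hq, h3 q' hq']
    congr 1
    · refine Finset.sum_congr rfl fun x _ => ?_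
      rw [← Finset.sum_filter_add_sum_filter_not Finset.univ (fun y => y ∈ b)]
      rw [Finset.sum_eq_zero (s := Finset.univ.filter fun y => ¬ y ∈ b) fun y hy => by
        have : ∑ u, Z x u * q u y = (Z * q) x y := by rw [Matrix.mul_apply]
        rw [this, hqd, mul_dg, if_neg (Finset.mem_filter.1 hy).2]; ring]
      rw [add_zero]
      have h5 : Finset.univ.filter (fun y => y ∈ b) = b := by ext y; simp
      rw [h5]
      refine Finset.sum_congr rfl fun y hy => ?_
      have : ∑ u, Z x u * q u y = (Z * q) x y := by rw [Matrix.mul_apply]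
      rw [this, hqd, mul_dg, if_pos hy]
    · refine Finset.sum_congr rfl fun x _ => ?_
      rw [← Finset.sum_filter_add_sum_filter_not Finset.univ (fun y => y ∈ b)]
      rw [Finset.sum_eq_zero (s := Finset.univ.filter fun y => ¬ y ∈ b) fun y hy => by
        have : ∑ u, Z x u * q' u y = 0 := by
          refine Finset.sum_eq_zero fun u _ => ?_
          have : q' u y = 0 := by
            by_contra h
            exact (Finset.mem_filter.1 hy).2 (hsupp' u y h).2
          rw [this, mul_zero]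
        rw [this]; ring]
      rw [add_zero]
      have h5 : Finset.univ.filter (fun y => y ∈ b) = b := by ext y; simp
      rw [h5]
      refine Finset.sum_congr rfl fun y hy => ?_
      rw [hnew x y hy]

end abstract_step

section zm

variable {Q : ℕ} [NeZero Q]

/-- the cell of scale `m` with index `a` -/
def cl (Q : ℕ) [NeZero Q] (m a : ℕ) : Finset (ZMod Q) := Finset.univ.filter fun x => cel m x = a

theorem mem_cl {m a : ℕ} {x : ZMod Q} : x ∈ cl Q m a ↔ cel m x = a := by simp [cl]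

/-- cells are nested -/
theorem cel_nest {m m' : ℕ} (h : m ≤ m') {x y : ZMod Q} (hxy : cel m x = cel m y) :
    cel m' x = cel m' y := by
  unfold cel at *
  obtain ⟨k, rfl⟩ := Nat.exists_eq_add_of_le h
  rw [pow_add, ← Nat.div_div_eq_div_mul, ← Nat.div_div_eq_div_mul, hxy]

/-- a cell has `2^m` points -/
theorem card_cl {m : ℕ} (hm : 2 ^ m ∣ Q) (x : ZMod Q) : (cl Q m (cel m x)).card = 2 ^ m := by
  obtain ⟨c, hc⟩ := hm
  have hQ : 0 < Q := Nat.pos_of_ne_zero (NeZero.ne Q)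
  have hp : 0 < 2 ^ m := by positivity
  set a := cel m x with ha
  have ha' : a < c := by
    rw [ha]; unfold cel
    rw [Nat.div_lt_iff_lt_mul hp, mul_comm, ← hc]
    exact ZMod.val_lt x
  rw [← Finset.card_range (2 ^ m)]
  symm
  refine Finset.card_bij (fun i _ => ((a * 2 ^ m + i : ℕ) : ZMod Q)) ?_ ?_ ?_
  · intro i hi
    rw [Finset.mem_range] at hi
    rw [mem_cl]
    unfold cel
    have h1 : a * 2 ^ m + i < Q := by
      rw [hc]
      calc a * 2 ^ m + i < a * 2 ^ m + 2 ^ m := by omega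
        _ = (a + 1) * 2 ^ m := by ring
        _ ≤ c * 2 ^ m := Nat.mul_le_mul_right _ ha'
        _ = 2 ^ m * c := mul_comm _ _
    rw [ZMod.val_natCast, Nat.mod_eq_of_lt h1, mul_comm a, Nat.mul_add_div hp,
      Nat.div_eq_of_lt hi, add_zero]
  · intro i hi j hj hij
    rw [Finset.mem_range] at hi hj
    have h1 : ∀ i, i < 2 ^ m → a * 2 ^ m + i < Q := by
      intro i hi
      rw [hc]
      calc a * 2 ^ m + i < a * 2 ^ m + 2 ^ m := by omega
        _ = (a + 1) * 2 ^ m := by ring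
        _ ≤ c * 2 ^ m := Nat.mul_le_mul_right _ ha'
        _ = 2 ^ m * c := mul_comm _ _
    have h2 := congrArg ZMod.val hij
    rw [ZMod.val_natCast, ZMod.val_natCast, Nat.mod_eq_of_lt (h1 i hi),
      Nat.mod_eq_of_lt (h1 j hj)] at h2
    omega
  · intro y hy
    rw [mem_cl] at hy
    refine ⟨y.val % 2 ^ m, Finset.mem_range.2 (Nat.mod_lt _ hp), ?_⟩
    have h1 : a * 2 ^ m + y.val % 2 ^ m = y.val := by
      rw [← hy]; unfold cel
      rw [mul_comm]
      exact Nat.div_add_mod _ _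
    rw [h1]
    exact ZMod.natCast_zmod_val y

/-- sum of a function of the cells -/
theorem sum_cells {m : ℕ} (hm : 2 ^ m ∣ Q) (f : ℕ → ℕ → ℝ) :
    ∑ x : ZMod Q, ∑ y : ZMod Q, f (cel m x) (cel m y) =
      4 ^ m * ∑ a ∈ Finset.univ.image (cel (Q := Q) m), ∑ b ∈ Finset.univ.image (cel (Q := Q) m),
        f a b := by
  have h1 : ∀ g : ℕ → ℝ, ∑ x : ZMod Q, g (cel m x) =
      2 ^ m * ∑ a ∈ Finset.univ.image (cel (Q := Q) m), g a := by
    intro g
    rw [← Finset.sum_fiberwise_of_maps_to (s := Finset.univ) (t := Finset.univ.image (cel (Q := Q) m))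
      (g := cel m) (fun x _ => Finset.mem_image_of_mem _ (Finset.mem_univ x)), Finset.mul_sum]
    refine Finset.sum_congr rfl fun a ha => ?_
    obtain ⟨x, _, hx⟩ := Finset.mem_image.1 ha
    rw [Finset.sum_congr rfl (g := fun _ => g a) fun y hy => by rw [(Finset.mem_filter.1 hy).2]]
    rw [Finset.sum_const, nsmul_eq_mul]
    congr 1
    have := card_cl hm x
    unfold cl at this
    rw [hx] at this
    rw [this]
    push_cast
    rfl
  calc _ = ∑ x : ZMod Q, 2 ^ m * ∑ b ∈ Finset.univ.image (cel (Q := Q) m), f (cel m x) b :=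
        Finset.sum_congr rfl fun x _ => h1 (f (cel m x))
    _ = 2 ^ m * ∑ a ∈ Finset.univ.image (cel (Q := Q) m),
          (2 ^ m * ∑ b ∈ Finset.univ.image (cel (Q := Q) m), f a b) :=
        h1 fun a => 2 ^ m * ∑ b ∈ Finset.univ.image (cel (Q := Q) m), f a b
    _ = _ := by
        rw [← Finset.mul_sum, ← mul_assoc]
        congr 1
        rw [← mul_pow]
        norm_num

/-- sum over all points, cell by cell -/
theorem sum_by_cells (m : ℕ) (F : ZMod Q → ZMod Q → ℝ) :
    ∑ x : ZMod Q, ∑ y : ZMod Q, F x y =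
      ∑ a ∈ Finset.univ.image (cel (Q := Q) m), ∑ b ∈ Finset.univ.image (cel (Q := Q) m),
        ∑ x ∈ cl Q m a, ∑ y ∈ cl Q m b, F x y := by
  have h1 : ∀ g : ZMod Q → ℝ, ∑ x : ZMod Q, g x =
      ∑ a ∈ Finset.univ.image (cel (Q := Q) m), ∑ x ∈ cl Q m a, g x := by
    intro g
    rw [← Finset.sum_fiberwise_of_maps_to (s := Finset.univ) (t := Finset.univ.image (cel (Q := Q) m))
      (g := cel m) (fun x _ => Finset.mem_image_of_mem _ (Finset.mem_univ x))]
    rfl
  rw [h1]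
  refine Finset.sum_congr rfl fun a _ => ?_
  rw [Finset.sum_congr rfl fun x _ => h1 (fun y => F x y)]
  exact Finset.sum_comm

/-- one scale -/
theorem scale_step {m : ℕ} (hm : 2 ^ m ∣ Q) (Z : Matrix (ZMod Q) (ZMod Q) ℝ) {δ : ℝ} (hδ : 0 < δ) :
    ∃ (S : ZMod Q → ZMod Q → Matrix (ZMod Q) (ZMod Q) ℝ) (Z' : Matrix (ZMod Q) (ZMod Q) ℝ),
      (∀ x y, IsPr (S x y)) ∧
      (∀ x y x' y', cel m x = cel m x' → cel m y = cel m y' → S x y = S x' y') ∧
      (∀ x y u v, S x y u v ≠ 0 → cel m u = cel m y ∧ cel m v = cel m y) ∧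
      (∀ x y, Z' x y = Z x y - ∑ u, Z x u * S x y u y) ∧
      (∀ a b (v : ZMod Q → ℝ), (∀ y, v y ≠ 0 → cel m y = b) →
        ∑ x ∈ cl Q m a, (∑ y, Z' x y * v y) ^ 2 ≤ δ * 4 ^ m * ∑ y, v y ^ 2) ∧
      ∑ x, ∑ y, (S x y).trace ≤ (∑ x, ∑ y, Z x y ^ 2 - ∑ x, ∑ y, Z' x y ^ 2) / δ := by
  have h0 : ∀ a b : ℕ, ∃ e : Matrix (ZMod Q) (ZMod Q) ℝ, IsPr e ∧
      (∀ u v, e u v ≠ 0 → u ∈ cl Q m b ∧ v ∈ cl Q m b) ∧
      (∀ v : ZMod Q → ℝ, (∀ y, v y ≠ 0 → y ∈ cl Q m b) →
        ∑ x ∈ cl Q m a, (∑ y, (Z x y - ∑ u, Z x u * e u y) * v y) ^ 2 ≤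
          (δ * 4 ^ m) * ∑ y, v y ^ 2) ∧
      (δ * 4 ^ m) * e.trace ≤ ∑ x ∈ cl Q m a, ∑ y ∈ cl Q m b, Z x y ^ 2 -
        ∑ x ∈ cl Q m a, ∑ y ∈ cl Q m b, (Z x y - ∑ u, Z x u * e u y) ^ 2 :=
    fun a b => cell_step (cl Q m a) (cl Q m b) Z (by positivity)
  choose e he1 he2 he3 he4 using h0
  refine ⟨fun x y => e (cel m x) (cel m y),
    fun x y => Z x y - ∑ u, Z x u * e (cel m x) (cel m y) u y, fun x y => he1 _ _, ?_, ?_,
    fun x y => rfl, ?_, ?_⟩
  · intro x y x' y' hx hy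
    simp only [hx, hy]
  · intro x y u v h
    have := he2 _ _ u v h
    rw [mem_cl, mem_cl] at this
    exact this
  · intro a b v hv
    refine le_trans (le_of_eq ?_) (he3 a b v fun y hy => mem_cl.2 (hv y hy))
    refine Finset.sum_congr rfl fun x hx => ?_
    congr 1
    refine Finset.sum_congr rfl fun y _ => ?_
    change (Z x y - ∑ u, Z x u * e (cel m x) (cel m y) u y) * v y = _
    by_cases hy : v y = 0
    · rw [hy]; simp
    · rw [mem_cl.1 hx, hv y hy]
  · rw [sum_cells hm (fun a b => (e a b).trace), sum_by_cells m (fun x y => Z x y ^ 2),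
      sum_by_cells m (fun x y => (Z x y - ∑ u, Z x u * e (cel m x) (cel m y) u y) ^ 2),
      le_div_iff₀ hδ, ← Finset.sum_sub_distrib, Finset.mul_sum, Finset.sum_mul]
    refine Finset.sum_le_sum fun a _ => ?_
    rw [← Finset.sum_sub_distrib, Finset.mul_sum, Finset.sum_mul]
    refine Finset.sum_le_sum fun b _ => ?_
    refine le_trans (le_of_eq (by ring)) ((he4 a b).trans (le_of_eq ?_))
    congr 1
    refine Finset.sum_congr rfl fun x hx => Finset.sum_congr rfl fun y hy => ?_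
    rw [mem_cl.1 hx, mem_cl.1 hy]

/-- **EXTRACTION** of the kernel `B` on the dyadic cells at threshold `δ` -/
structure Extr (B : Matrix (ZMod Q) (ZMod Q) ℝ) (M : ℕ) (δ n : ℝ)
    (Y : ℕ → Matrix (ZMod Q) (ZMod Q) ℝ)
    (S : ℕ → ZMod Q → ZMod Q → Matrix (ZMod Q) (ZMod Q) ℝ) : Prop where
  /-- projections -/
  pr : ∀ m x y, IsPr (S m x y)
  /-- constant on the cells -/
  cell : ∀ m x y x' y', cel m x = cel m x' → cel m y = cel m y' → S m x y = S m x' y'
  /-- supported on the second side of the cell -/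
  supp : ∀ m x y u v, S m x y u v ≠ 0 → cel m u = cel m y ∧ cel m v = cel m y
  /-- nothing is done above `M` -/
  top : ∀ m, M ≤ m → Y m = B
  stop : ∀ m, M ≤ m → ∀ x y, S m x y = 0
  /-- `Y m = Y (m+1) (1 - S_m)` on every cell -/
  step : ∀ m x y, Y m x y = Y (m + 1) x y - ∑ u, Y (m + 1) x u * S m x y u y
  /-- operator norm on the cells -/
  op : ∀ m, m < M → ∀ a b (v : ZMod Q → ℝ), (∀ y, v y ≠ 0 → cel m y = b) →
    ∑ x ∈ cl Q m a, (∑ y, Y m x y * v y) ^ 2 ≤ δ * 4 ^ m * ∑ y, v y ^ 2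
  /-- total energy decreases going down -/
  hs : ∀ m, ∑ x, ∑ y, Y m x y ^ 2 ≤ ∑ x, ∑ y, Y (m + 1) x y ^ 2
  /-- total rank -/
  count : ∑ m ∈ range M, ∑ x, ∑ y, (S m x y).trace ≤ n

theorem isPr_zero {κ : Type*} [Fintype κ] : IsPr (0 : Matrix κ κ ℝ) :=
  ⟨transpose_zero, Matrix.mul_zero _⟩

/-- **existence of the extraction** -/
theorem exists_extr (B : Matrix (ZMod Q) (ZMod Q) ℝ) {M : ℕ} (hM : ∀ m, m < M → 2 ^ m ∣ Q) {δ : ℝ}
    (hδ : 0 < δ) : ∃ Y S, Extr B M δ ((∑ x, ∑ y, B x y ^ 2) / δ) Y S := by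
  have h0 : ∀ (m : ℕ) (Z : Matrix (ZMod Q) (ZMod Q) ℝ),
      ∃ (S : ZMod Q → ZMod Q → Matrix (ZMod Q) (ZMod Q) ℝ) (Z' : Matrix (ZMod Q) (ZMod Q) ℝ),
      (∀ x y, IsPr (S x y)) ∧
      (∀ x y x' y', cel m x = cel m x' → cel m y = cel m y' → S x y = S x' y') ∧
      (∀ x y u v, S x y u v ≠ 0 → cel m u = cel m y ∧ cel m v = cel m y) ∧
      (∀ x y, Z' x y = Z x y - ∑ u, Z x u * S x y u y) ∧
      (m < M → (∀ a b (v : ZMod Q → ℝ), (∀ y, v y ≠ 0 → cel m y = b) →
        ∑ x ∈ cl Q m a, (∑ y, Z' x y * v y) ^ 2 ≤ δ * 4 ^ m * ∑ y, v y ^ 2) ∧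
      ∑ x, ∑ y, (S x y).trace ≤ (∑ x, ∑ y, Z x y ^ 2 - ∑ x, ∑ y, Z' x y ^ 2) / δ) := by
    intro m Z
    by_cases hm : m < M
    · obtain ⟨S, Z', h1, h2, h3, h4, h5, h6⟩ := scale_step (hM m hm) Z hδ
      exact ⟨S, Z', h1, h2, h3, h4, fun _ => ⟨h5, h6⟩⟩
    · exact ⟨fun _ _ => 0, Z, fun _ _ => isPr_zero, fun _ _ _ _ _ _ => rfl,
        fun _ _ _ _ h => absurd rfl h, fun x y => by simp, fun h => absurd h hm⟩
  choose Sf Zf h1 h2 h3 h4 h5 using h0
  -- letters from the top to the bottom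
  let W : ℕ → Matrix (ZMod Q) (ZMod Q) ℝ := fun i =>
    Nat.rec B (fun i Z => Zf (M - 1 - i) Z) i
  have hW0 : W 0 = B := rfl
  have hWs : ∀ i, W (i + 1) = Zf (M - 1 - i) (W i) := fun i => rfl
  have hY : ∀ m, m < M → W (M - m) = Zf m (W (M - (m + 1))) := by
    intro m hm
    have e1 : M - m = (M - (m + 1)) + 1 := by omega
    rw [e1, hWs]
    congr 1
    omega
  have hcl : ∀ m, m < M → ∑ x, ∑ y, (Sf m (W (M - (m + 1))) x y).trace ≤
      (∑ x, ∑ y, W (M - (m + 1)) x y ^ 2 - ∑ x, ∑ y, W (M - m) x y ^ 2) / δ := by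
    intro m hm
    have := (h5 m (W (M - (m + 1))) hm).2
    rwa [← hY m hm] at this
  have htr : ∀ m x y, 0 ≤ (Sf m (W (M - (m + 1))) x y).trace := fun m x y =>
    PLE1.IsPr.trace_nonneg' (h1 m _ x y)
  refine ⟨fun m => W (M - m),
    fun m x y => if m < M then Sf m (W (M - (m + 1))) x y else 0, ?_⟩
  refine ⟨?_, ?_, ?_, ?_, ?_, ?_, ?_, ?_, ?_⟩
  · intro m x y
    split_ifs
    · exact h1 _ _ _ _
    · exact isPr_zero
  · intro m x y x' y' hx hy
    split_ifs
    · exact h2 _ _ _ _ _ _ hx hy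
    · rfl
  · intro m x y u v h
    split_ifs at h
    · exact h3 _ _ _ _ _ _ h
    · exact absurd rfl h
  · intro m hm
    rw [Nat.sub_eq_zero_of_le hm]
    exact hW0
  · intro m hm x y
    rw [if_neg (not_lt.2 hm)]
  · intro m x y
    by_cases hm : m < M
    · rw [if_pos hm, hY m hm]
      exact h4 m _ x y
    · rw [if_neg hm, Nat.sub_eq_zero_of_le (not_lt.1 hm),
        Nat.sub_eq_zero_of_le ((not_lt.1 hm).trans (Nat.le_succ m))]
      simp
  · intro m hm a b v hv
    rw [hY m hm]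
    exact (h5 m _ hm).1 a b v hv
  · intro m
    by_cases hm : m < M
    · have h6 := hcl m hm
      have h7 : 0 ≤ ∑ x, ∑ y, (Sf m (W (M - (m + 1))) x y).trace :=
        Finset.sum_nonneg fun x _ => Finset.sum_nonneg fun y _ => htr m x y
      have h8 := h7.trans h6
      rw [le_div_iff₀ hδ, zero_mul] at h8
      linarith
    · rw [Nat.sub_eq_zero_of_le (not_lt.1 hm),
        Nat.sub_eq_zero_of_le ((not_lt.1 hm).trans (Nat.le_succ m))]
  · -- telescoping
    have hind : ∀ j, j ≤ M → ∑ m ∈ range j, ∑ x, ∑ y,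
        (if m < M then Sf m (W (M - (m + 1))) x y else 0).trace ≤
        (∑ x, ∑ y, W (M - j) x y ^ 2 - ∑ x, ∑ y, W M x y ^ 2) / δ := by
      intro j
      induction j with
      | zero => intro _; simp
      | succ j ih =>
        intro hj
        have hj' : j < M := hj
        rw [Finset.sum_range_succ]
        have h6 := ih hj'.le
        have h7 := hcl j hj'
        have e1 : ∑ x, ∑ y, (if j < M then Sf j (W (M - (j + 1))) x y else 0).trace =
            ∑ x, ∑ y, (Sf j (W (M - (j + 1))) x y).trace :=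
          Finset.sum_congr rfl fun x _ => Finset.sum_congr rfl fun y _ => by rw [if_pos hj']
        rw [e1]
        refine (add_le_add h6 h7).trans (le_of_eq ?_)
        ring
    refine (hind M le_rfl).trans ?_
    rw [Nat.sub_self, hW0]
    refine div_le_div_of_nonneg_right ?_ hδ.le
    have : 0 ≤ ∑ x, ∑ y, W M x y ^ 2 :=
      Finset.sum_nonneg fun x _ => Finset.sum_nonneg fun y _ => sq_nonneg _
    linarith

/-- **trivial extraction** : bounded kernels -/
theorem extr_triv (B : Matrix (ZMod Q) (ZMod Q) ℝ) {M : ℕ} (hM : ∀ m, m < M → 2 ^ m ∣ Q) {δ : ℝ}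
    (hB : ∀ x y, B x y ^ 2 ≤ δ) : Extr B M δ 0 (fun _ => B) (fun _ _ _ => 0) := by
  refine ⟨fun _ _ _ => isPr_zero, fun _ _ _ _ _ _ _ => rfl, fun _ _ _ _ _ h => absurd rfl h,
    fun _ _ => rfl, fun _ _ _ _ => rfl, fun _ _ _ => by simp, ?_, fun _ => le_rfl, by simp⟩
  intro m hm a b v hv
  have hδ : 0 ≤ δ := (sq_nonneg _).trans (hB 0 0)
  have hv2 : 0 ≤ ∑ y, v y ^ 2 := Finset.sum_nonneg fun y _ => sq_nonneg _
  have hcard : ∀ c, ((cl Q m c).card : ℝ) ≤ 2 ^ m := by
    intro c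
    by_cases hc : (cl Q m c).Nonempty
    · obtain ⟨x, hx⟩ := hc
      rw [mem_cl] at hx
      rw [← hx, card_cl (hM m hm) x]
      push_cast
      exact le_rfl
    · rw [Finset.not_nonempty_iff_eq_empty.1 hc, Finset.card_empty, Nat.cast_zero]
      exact pow_nonneg (by norm_num) _
  have h1 : ∀ x, (∑ y, B x y * v y) ^ 2 ≤ (2 ^ m * δ) * ∑ y, v y ^ 2 := by
    intro x
    have e1 : ∑ y, B x y * v y = ∑ y ∈ cl Q m b, B x y * v y := by
      symm
      refine Finset.sum_subset (Finset.subset_univ _) fun y _ hy => ?_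
      have : v y = 0 := by
        by_contra h
        exact hy (mem_cl.2 (hv y h))
      rw [this, mul_zero]
    rw [e1]
    refine (Finset.sum_mul_sq_le_sq_mul_sq _ _ _).trans ?_
    refine mul_le_mul ?_ ?_ (Finset.sum_nonneg fun y _ => sq_nonneg _)
      (mul_nonneg (by positivity) hδ)
    · calc ∑ y ∈ cl Q m b, B x y ^ 2 ≤ ∑ _y ∈ cl Q m b, δ := Finset.sum_le_sum fun y _ => hB x y
        _ = (cl Q m b).card * δ := by rw [Finset.sum_const, nsmul_eq_mul]
        _ ≤ 2 ^ m * δ := mul_le_mul_of_nonneg_right (hcard b) hδ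
    · exact Finset.sum_le_sum_of_subset_of_nonneg (Finset.subset_univ _) fun y _ _ => sq_nonneg _
  calc ∑ x ∈ cl Q m a, (∑ y, B x y * v y) ^ 2
      ≤ ∑ _x ∈ cl Q m a, (2 ^ m * δ) * ∑ y, v y ^ 2 := Finset.sum_le_sum fun x _ => h1 x
    _ = (cl Q m a).card * ((2 ^ m * δ) * ∑ y, v y ^ 2) := by rw [Finset.sum_const, nsmul_eq_mul]
    _ ≤ 2 ^ m * ((2 ^ m * δ) * ∑ y, v y ^ 2) :=
        mul_le_mul_of_nonneg_right (hcard a) (by positivity)
    _ = δ * 4 ^ m * ∑ y, v y ^ 2 := by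
        have : (4 : ℝ) ^ m = 2 ^ m * 2 ^ m := by rw [← mul_pow]; norm_num
        rw [this]
        ring

variable {B : Matrix (ZMod Q) (ZMod Q) ℝ} {M : ℕ} {δ n : ℝ} {Y : ℕ → Matrix (ZMod Q) (ZMod Q) ℝ}
  {S : ℕ → ZMod Q → ZMod Q → Matrix (ZMod Q) (ZMod Q) ℝ}

/-- **telescoping** : the removed part is a sum of rows of the ranges of the `S` above -/
theorem Extr.tele (h : Extr B M δ n Y S) {m : ℕ} (hm : m ≤ M) (x y : ZMod Q) :
    B x y - Y m x y = ∑ m' ∈ Finset.Ico m M, ∑ u, Y (m' + 1) x u * S m' x y u y := by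
  have h1 : ∀ j, m + j ≤ M → Y (m + j) x y - Y m x y =
      ∑ m' ∈ Finset.Ico m (m + j), ∑ u, Y (m' + 1) x u * S m' x y u y := by
    intro j
    induction j with
    | zero => intro _; simp
    | succ j ih =>
      intro hj
      have h2 := ih (by omega)
      rw [← add_assoc, Finset.sum_Ico_succ_top (by omega), ← h2]
      have := h.step (m + j) x y
      rw [this]
      ring
  obtain ⟨j, rfl⟩ := Nat.exists_eq_add_of_le hm
  have := h1 j le_rfl
  rwa [h.top (m + j) le_rfl] at this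

/-- one step, on the range of `S` -/
theorem Extr.move (h : Extr B M δ n Y S) (m : ℕ) (x y : ZMod Q) :
    Y (m + 1) x y - Y m x y = ∑ u, Y (m + 1) x u * S m x y u y := by
  rw [h.step m x y]
  ring

/-- total energy below the original one -/
theorem Extr.hs_le (h : Extr B M δ n Y S) (m : ℕ) :
    ∑ x, ∑ y, Y m x y ^ 2 ≤ ∑ x, ∑ y, B x y ^ 2 := by
  have h1 : ∀ j, ∑ x, ∑ y, Y m x y ^ 2 ≤ ∑ x, ∑ y, Y (m + j) x y ^ 2 := by
    intro j
    induction j with
    | zero => exact le_rfl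
    | succ j ih => exact ih.trans (h.hs (m + j))
  have := h1 M
  rwa [h.top (m + M) (by omega)] at this

/-- **operator norm on arbitrary sets** meeting few cells -/
theorem Extr.op_set (h : Extr B M δ n Y S) {m : ℕ} (hm : m < M) (hδ : 0 ≤ δ) (I J : Finset (ZMod Q))
    {r1 r2 : ℕ} (hI : (I.image (cel m)).card ≤ r1) (hJ : (J.image (cel m)).card ≤ r2)
    (v : ZMod Q → ℝ) :
    ∑ x ∈ I, (∑ y ∈ J, Y m x y * v y) ^ 2 ≤ r1 * r2 * (δ * 4 ^ m) * ∑ y ∈ J, v y ^ 2 := by
  classical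
  have hV : 0 ≤ ∑ y ∈ J, v y ^ 2 := Finset.sum_nonneg fun y _ => sq_nonneg _
  -- columns: cell by cell
  have h1 : ∀ x, (∑ y ∈ J, Y m x y * v y) ^ 2 ≤
      r2 * ∑ b ∈ J.image (cel m), (∑ y ∈ J.filter (fun y => cel m y = b), Y m x y * v y) ^ 2 := by
    intro x
    rw [← Finset.sum_fiberwise_of_maps_to (s := J) (t := J.image (cel m)) (g := cel m)
      (fun y hy => Finset.mem_image_of_mem _ hy)]
    refine (sq_sum_le_card_mul_sum_sq (s := J.image (cel m))).trans ?_
    refine mul_le_mul_of_nonneg_right (by exact_mod_cast hJ) (Finset.sum_nonneg fun b _ => sq_nonneg _)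
  -- one cell of rows and one cell of columns
  have h2 : ∀ a b, ∑ x ∈ I.filter (fun x => cel m x = a),
      (∑ y ∈ J.filter (fun y => cel m y = b), Y m x y * v y) ^ 2 ≤
      δ * 4 ^ m * ∑ y ∈ J.filter (fun y => cel m y = b), v y ^ 2 := by
    intro a b
    set w : ZMod Q → ℝ := fun y => if y ∈ J.filter (fun y => cel m y = b) then v y else 0 with hw
    have h3 := h.op m hm a b w (fun y hy => by
      rw [hw] at hy
      by_contra hne
      apply hy
      have : y ∉ J.filter (fun y => cel m y = b) := fun hmem => hne (Finset.mem_filter.1 hmem).2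
      simp only [if_neg this])
    have h4 : ∀ x, ∑ y, Y m x y * w y =
        ∑ y ∈ J.filter (fun y => cel m y = b), Y m x y * v y := by
      intro x
      rw [hw]
      simp only [mul_ite, mul_zero]
      rw [Finset.sum_ite_mem, Finset.univ_inter]
    have h5 : ∑ y, w y ^ 2 = ∑ y ∈ J.filter (fun y => cel m y = b), v y ^ 2 := by
      rw [hw]
      simp only [ite_pow, ne_eq, OfNat.ofNat_ne_zero, not_false_eq_true, zero_pow]
      rw [Finset.sum_ite_mem, Finset.univ_inter]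
    rw [h5] at h3
    refine le_trans ?_ h3
    refine le_trans (le_of_eq (Finset.sum_congr rfl fun x _ => by rw [← h4 x])) ?_
    refine Finset.sum_le_sum_of_subset_of_nonneg ?_ fun x _ _ => sq_nonneg _
    intro x hx
    exact mem_cl.2 (Finset.mem_filter.1 hx).2
  calc ∑ x ∈ I, (∑ y ∈ J, Y m x y * v y) ^ 2
      ≤ ∑ x ∈ I, r2 * ∑ b ∈ J.image (cel m),
          (∑ y ∈ J.filter (fun y => cel m y = b), Y m x y * v y) ^ 2 :=
        Finset.sum_le_sum fun x _ => h1 x
    _ = r2 * ∑ b ∈ J.image (cel m), ∑ a ∈ I.image (cel m), ∑ x ∈ I.filter (fun x => cel m x = a),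
          (∑ y ∈ J.filter (fun y => cel m y = b), Y m x y * v y) ^ 2 := by
        rw [← Finset.mul_sum, Finset.sum_comm]
        congr 1
        refine Finset.sum_congr rfl fun b _ => ?_
        exact (Finset.sum_fiberwise_of_maps_to (s := I) (t := I.image (cel m)) (g := cel m)
          (fun x hx => Finset.mem_image_of_mem _ hx) _).symm
    _ ≤ r2 * ∑ b ∈ J.image (cel m), ∑ a ∈ I.image (cel m),
          (δ * 4 ^ m * ∑ y ∈ J.filter (fun y => cel m y = b), v y ^ 2) :=
        mul_le_mul_of_nonneg_left (Finset.sum_le_sum fun b _ => Finset.sum_le_sum fun a _ => h2 a b)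
          (Nat.cast_nonneg _)
    _ = r2 * ((I.image (cel m)).card * (δ * 4 ^ m * ∑ y ∈ J, v y ^ 2)) := by
        congr 1
        simp only [Finset.sum_const, nsmul_eq_mul]
        rw [← Finset.mul_sum, ← Finset.mul_sum,
          Finset.sum_fiberwise_of_maps_to (s := J) (t := J.image (cel m)) (g := cel m)
          (fun x hx => Finset.mem_image_of_mem _ hx)]
    _ ≤ r2 * (r1 * (δ * 4 ^ m * ∑ y ∈ J, v y ^ 2)) := by
        refine mul_le_mul_of_nonneg_left (mul_le_mul_of_nonneg_right (by exact_mod_cast hI)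
          (by positivity)) (Nat.cast_nonneg _)
    _ = _ := by ring

/-- the box `q + [0, N)` -/
def bx (Q : ℕ) [NeZero Q] (N : ℕ) (q : ZMod Q) : Finset (ZMod Q) :=
  (range N).image fun i : ℕ => q + (i : ZMod Q)

/-- a box of side `2^(m+j)` meets at most `2^j + 1` cells of scale `m` -/
theorem card_cells_bx {m : ℕ} (hm : 2 ^ m ∣ Q) (j : ℕ) (q : ZMod Q) :
    ((bx Q (2 ^ (m + j)) q).image (cel m)).card ≤ 2 ^ j + 1 := by
  classical
  obtain ⟨c, hc⟩ := hm
  have hp : 0 < 2 ^ m := by positivity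
  have hQ : 0 < Q := Nat.pos_of_ne_zero (NeZero.ne Q)
  -- cell index of `q + i`
  have h1 : ∀ i : ℕ, cel m (q + (i : ZMod Q)) = ((q.val + i) / 2 ^ m) % c := by
    intro i
    unfold cel
    have e1 : (q + (i : ZMod Q)).val = (q.val + i) % Q := by
      have : q + (i : ZMod Q) = ((q.val + i : ℕ) : ZMod Q) := by
        push_cast
        rw [ZMod.natCast_zmod_val]
      rw [this, ZMod.val_natCast]
    have h0 : ∀ k : ℕ, (k % Q) / 2 ^ m = (k / 2 ^ m) % c := by
      intro k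
      rw [hc]
      exact Nat.mod_mul_right_div_self _ _ _
    rw [e1, h0]
  have h2 : (bx Q (2 ^ (m + j)) q).image (cel m) ⊆
      (range (2 ^ j + 1)).image (fun k => (q.val / 2 ^ m + k) % c) := by
    intro a ha
    obtain ⟨x, hx, rfl⟩ := Finset.mem_image.1 ha
    obtain ⟨i, hi, rfl⟩ := Finset.mem_image.1 hx
    rw [Finset.mem_range] at hi
    rw [h1, Finset.mem_image]
    refine ⟨(q.val + i) / 2 ^ m - q.val / 2 ^ m, ?_, ?_⟩
    · rw [Finset.mem_range, Nat.lt_succ_iff, Nat.sub_le_iff_le_add]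
      have e2 : 2 ^ (m + j) = 2 ^ m * 2 ^ j := pow_add _ _ _
      rw [Nat.div_le_iff_le_mul_add_pred hp]
      have e3 := Nat.div_add_mod q.val (2 ^ m)
      have e4 := Nat.mod_lt q.val hp
      have e5 : 2 ^ m * (2 ^ j + q.val / 2 ^ m) = 2 ^ (m + j) + 2 ^ m * (q.val / 2 ^ m) := by
        rw [e2]; ring
      rw [e5]
      omega
    · have : q.val / 2 ^ m ≤ (q.val + i) / 2 ^ m := Nat.div_le_div_right (Nat.le_add_right _ _)
      rw [Nat.add_sub_cancel' this]
  exact (Finset.card_le_card h2).trans (Finset.card_image_le.trans (by rw [Finset.card_range]))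

/-- **operator norm on general boxes** of side `2^(m+j)` : `≤ 4 δ (side)^2` -/
theorem Extr.op_box (h : Extr B M δ n Y S) {m : ℕ} (hm : m < M) (hQ : 2 ^ m ∣ Q) (hδ : 0 ≤ δ) (j : ℕ)
    (q p : ZMod Q) (v : ZMod Q → ℝ) :
    ∑ x ∈ bx Q (2 ^ (m + j)) q, (∑ y ∈ bx Q (2 ^ (m + j)) p, Y m x y * v y) ^ 2 ≤
      4 * δ * (2 ^ (m + j)) ^ 2 * ∑ y ∈ bx Q (2 ^ (m + j)) p, v y ^ 2 := by
  have h1 := h.op_set hm hδ (bx Q (2 ^ (m + j)) q) (bx Q (2 ^ (m + j)) p)
    (card_cells_bx hQ j q) (card_cells_bx hQ j p) v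
  refine h1.trans ?_
  have hV : 0 ≤ ∑ y ∈ bx Q (2 ^ (m + j)) p, v y ^ 2 := Finset.sum_nonneg fun y _ => sq_nonneg _
  refine mul_le_mul_of_nonneg_right ?_ hV
  push_cast
  have e1 : (1 : ℝ) ≤ 2 ^ j := one_le_pow₀ (by norm_num)
  have e2 : ((2 : ℝ) ^ j + 1) * (2 ^ j + 1) ≤ 4 * (2 ^ j) ^ 2 := by nlinarith
  have e3 : (0 : ℝ) ≤ δ * 4 ^ m := by positivity
  have e4 : 4 * δ * ((2 : ℝ) ^ (m + j)) ^ 2 = (4 * (2 ^ j) ^ 2) * (δ * 4 ^ m) := by
    rw [pow_add, mul_pow, ← pow_mul 2 m, mul_comm m 2, pow_mul]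
    norm_num
    ring
  rw [e4]
  exact mul_le_mul_of_nonneg_right e2 e3

end zm

end CR

end Crest.Agent.R079.PotL
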