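import Crest.Agent.R079.CRdef_253
import Crest.Agent.R079.CRc_360

/-! R079, RAGGED CORNER (CR), leaf L3b of helper253 (`CRdefx253.FlOfExtr`): an extracted letter, and the
band between two levels, are function letters: operator norm on the windows of side `2^(m+k')`, moves
priced in trace norm.  helper138. -/

set_option autoImplicit false
set_option linter.unusedVariables false
set_option linter.unusedSectionVars false

namespace Crest.Agent.R079.CRL3bx138

open Matrix Finset Crest.Agent.R072
open Crest.Agent.R079.PotL (bl cel IsPr hs2)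
open Crest.Agent.R079.CRdefx253
open scoped MatrixOrder

/-! ### operator and trace norms -/

section gen

variable {m n : Type*} [Fintype m] [Fintype n]

theorem OpLe.mono {A : Matrix m n ℝ} {a b : ℝ} (h : OpLe A a) (hab : a ≤ b) : OpLe A b := by
  refine ⟨h.1.trans hab, fun v => (h.2 v).trans ?_⟩
  exact mul_le_mul_of_nonneg_right (pow_le_pow_left₀ h.1 hab 2) (Finset.sum_nonneg fun _ _ => sq_nonneg _)

theorem OpLe.add {A B : Matrix m n ℝ} {a b : ℝ} (hA : OpLe A a) (hB : OpLe B b) :
    OpLe (A + B) (a + b) := by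
  refine ⟨add_nonneg hA.1 hB.1, fun v => ?_⟩
  set V := ∑ j, v j ^ 2 with hV
  have hV0 : 0 ≤ V := Finset.sum_nonneg fun _ _ => sq_nonneg _
  have h1 := hA.2 v
  have h2 := hB.2 v
  set x : m → ℝ := fun i => ∑ j, A i j * v j with hx
  set y : m → ℝ := fun i => ∑ j, B i j * v j with hy
  have e : ∀ i, ∑ j, (A + B) i j * v j = x i + y i := by
    intro i
    rw [hx, hy]
    simp only
    rw [← Finset.sum_add_distrib]
    exact Finset.sum_congr rfl fun j _ => by rw [Matrix.add_apply]; ring
  have h3 : (∑ i, x i * y i) ^ 2 ≤ (a * b * V) ^ 2 := by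
    refine (Finset.sum_mul_sq_le_sq_mul_sq _ _ _).trans ?_
    calc (∑ i, x i ^ 2) * ∑ i, y i ^ 2 ≤ (a ^ 2 * V) * (b ^ 2 * V) :=
          mul_le_mul h1 h2 (Finset.sum_nonneg fun _ _ => sq_nonneg _) (by positivity)
      _ = (a * b * V) ^ 2 := by ring
  have h4 : ∑ i, x i * y i ≤ a * b * V :=
    le_of_abs_le (abs_le_of_sq_le_sq h3 (mul_nonneg (mul_nonneg hA.1 hB.1) hV0))
  calc ∑ i, (∑ j, (A + B) i j * v j) ^ 2 = ∑ i, (x i + y i) ^ 2 :=
        Finset.sum_congr rfl fun i _ => by rw [e i]
    _ = ∑ i, x i ^ 2 + ∑ i, y i ^ 2 + 2 * ∑ i, x i * y i := by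
        rw [Finset.mul_sum, ← Finset.sum_add_distrib, ← Finset.sum_add_distrib]
        exact Finset.sum_congr rfl fun i _ => by ring
    _ ≤ a ^ 2 * V + b ^ 2 * V + 2 * (a * b * V) := by
        have h1' : ∑ i, x i ^ 2 ≤ a ^ 2 * V := h1
        have h2' : ∑ i, y i ^ 2 ≤ b ^ 2 * V := h2
        linarith
    _ = (a + b) ^ 2 * V := by ring

theorem OpLe.smul {A : Matrix m n ℝ} {a c : ℝ} (h : OpLe A a) (hc : 0 ≤ c) : OpLe (c • A) (c * a) := by
  refine ⟨mul_nonneg hc h.1, fun v => ?_⟩
  have e : ∀ i, (∑ j, (c • A) i j * v j) ^ 2 = c ^ 2 * (∑ j, A i j * v j) ^ 2 := by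
    intro i
    rw [← mul_pow, Finset.mul_sum]
    congr 1
    exact Finset.sum_congr rfl fun j _ => by rw [Matrix.smul_apply, smul_eq_mul]; ring
  rw [Finset.sum_congr rfl fun i _ => e i, ← Finset.mul_sum, mul_pow, mul_assoc]
  exact mul_le_mul_of_nonneg_left (h.2 v) (sq_nonneg _)

theorem OpLe.neg {A : Matrix m n ℝ} {a : ℝ} (h : OpLe A a) : OpLe (-A) a := by
  refine ⟨h.1, fun v => ?_⟩
  have e : ∀ i, (∑ j, (-A) i j * v j) ^ 2 = (∑ j, A i j * v j) ^ 2 := by
    intro i
    have : ∑ j, (-A) i j * v j = -∑ j, A i j * v j := by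
      rw [← Finset.sum_neg_distrib]
      exact Finset.sum_congr rfl fun j _ => by rw [Matrix.neg_apply]; ring
    rw [this, neg_sq]
  rw [Finset.sum_congr rfl fun i _ => e i]
  exact h.2 v

theorem OpLe.sub {A B : Matrix m n ℝ} {a b : ℝ} (hA : OpLe A a) (hB : OpLe B b) :
    OpLe (A - B) (a + b) := by
  rw [sub_eq_add_neg]
  exact OpLe.add hA (OpLe.neg hB)

theorem OpLe.transpose {A : Matrix m n ℝ} {a : ℝ} (h : OpLe A a) : OpLe Aᵀ a := by
  refine ⟨h.1, fun w => ?_⟩
  set x : n → ℝ := fun j => ∑ i, Aᵀ j i * w i with hx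
  set W := ∑ i, w i ^ 2 with hW
  set X := ∑ j, x j ^ 2 with hX
  have hW0 : 0 ≤ W := Finset.sum_nonneg fun _ _ => sq_nonneg _
  have hX0 : 0 ≤ X := Finset.sum_nonneg fun _ _ => sq_nonneg _
  have h1 := h.2 x
  have h2 : X = ∑ i, w i * ∑ j, A i j * x j := by
    rw [hX]
    calc ∑ j, x j ^ 2 = ∑ j, (∑ i, Aᵀ j i * w i) * x j :=
          Finset.sum_congr rfl fun j _ => by rw [hx]; ring
      _ = ∑ j, ∑ i, w i * (A i j * x j) := by
          refine Finset.sum_congr rfl fun j _ => ?_
          rw [Finset.sum_mul]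
          exact Finset.sum_congr rfl fun i _ => by rw [Matrix.transpose_apply]; ring
      _ = ∑ i, ∑ j, w i * (A i j * x j) := Finset.sum_comm
      _ = _ := Finset.sum_congr rfl fun i _ => by rw [Finset.mul_sum]
  have h3 : X ^ 2 ≤ W * (a ^ 2 * X) := by
    rw [show X ^ 2 = (∑ i, w i * ∑ j, A i j * x j) ^ 2 by rw [← h2]]
    exact (Finset.sum_mul_sq_le_sq_mul_sq _ _ _).trans (mul_le_mul_of_nonneg_left h1 hW0)
  rcases hX0.eq_or_lt with h0 | h0
  · change X ≤ _
    rw [← h0]
    positivity
  · change X ≤ _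
    have : X * X ≤ (a ^ 2 * W) * X := by nlinarith
    exact le_of_mul_le_mul_right this h0

theorem TrN.nonneg {E : Matrix m n ℝ} {c : ℝ} (h : TrN E c) : 0 ≤ c :=
  (abs_nonneg _).trans (h 0 ⟨zero_le_one, fun v => by simp; exact Finset.sum_nonneg fun _ _ => sq_nonneg _⟩)

theorem TrN.mono {E : Matrix m n ℝ} {a b : ℝ} (h : TrN E a) (hab : a ≤ b) : TrN E b :=
  fun K hK => (h K hK).trans hab

theorem TrN.add {E F : Matrix m n ℝ} {a b : ℝ} (hE : TrN E a) (hF : TrN F b) : TrN (E + F) (a + b) := by
  intro K hK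
  rw [Matrix.mul_add, trace_add]
  exact (abs_add_le _ _).trans (add_le_add (hE K hK) (hF K hK))

theorem TrN.neg {E : Matrix m n ℝ} {a : ℝ} (hE : TrN E a) : TrN (-E) a := by
  intro K hK
  rw [Matrix.mul_neg, trace_neg, abs_neg]
  exact hE K hK

theorem TrN.sub {E F : Matrix m n ℝ} {a b : ℝ} (hE : TrN E a) (hF : TrN F b) : TrN (E - F) (a + b) := by
  rw [sub_eq_add_neg]
  exact TrN.add hE (TrN.neg hF)

theorem TrN.smul {E : Matrix m n ℝ} {a c : ℝ} (hE : TrN E a) (hc : 0 ≤ c) : TrN (c • E) (c * a) := by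
  intro K hK
  rw [Matrix.mul_smul, trace_smul, smul_eq_mul, abs_mul, abs_of_nonneg hc]
  exact mul_le_mul_of_nonneg_left (hE K hK) hc

theorem TrN.zero : TrN (0 : Matrix m n ℝ) 0 := by
  intro K hK
  simp

theorem TrN.sum {ι : Type*} (s : Finset ι) (E : ι → Matrix m n ℝ) (a : ι → ℝ)
    (h : ∀ i ∈ s, TrN (E i) (a i)) : TrN (∑ i ∈ s, E i) (∑ i ∈ s, a i) := by
  classical
  induction s using Finset.induction_on with
  | empty => simpa using TrN.zero
  | insert i s hi ih =>
    rw [Finset.sum_insert hi, Finset.sum_insert hi]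
    exact TrN.add (h i (Finset.mem_insert_self _ _)) (ih fun j hj => h j (Finset.mem_insert_of_mem hj))

theorem TrN.transpose {E : Matrix m n ℝ} {a : ℝ} (hE : TrN E a) : TrN Eᵀ a := by
  intro K hK
  have h1 := hE Kᵀ (OpLe.transpose hK)
  have e : (K * Eᵀ).trace = (Kᵀ * E).trace := by
    rw [← trace_transpose, transpose_mul, transpose_transpose, trace_mul_comm]
  rw [e]
  exact h1

/-- `|tr (Z S)| ≤ op(Z) tr S` for a projection `S` -/
theorem trace_mul_pr {κ : Type*} [Fintype κ] {Z S : Matrix κ κ ℝ} {z : ℝ} (hZ : OpLe Z z)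
    (hS : IsPr S) : |(Z * S).trace| ≤ z * S.trace := by
  have e1 : (Z * S).trace = ∑ i, ∑ j, S j i * ∑ k, Z j k * S k i := by
    have : Z * S = Z * (S * Sᵀ) := by rw [hS.symm, hS.idem]
    rw [this, ← Matrix.mul_assoc, trace_mul_comm]
    simp only [Matrix.trace, Matrix.diag, Matrix.mul_apply, Matrix.transpose_apply]
  have e2 : S.trace = ∑ i, ∑ j, S j i ^ 2 := by
    have : S = Sᵀ * S := by rw [hS.symm, hS.idem]
    conv_lhs => rw [this]
    simp only [Matrix.trace, Matrix.diag, Matrix.mul_apply, Matrix.transpose_apply]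
    exact Finset.sum_congr rfl fun i _ => Finset.sum_congr rfl fun j _ => by ring
  rw [e1, e2, Finset.mul_sum]
  refine (Finset.abs_sum_le_sum_abs _ _).trans (Finset.sum_le_sum fun i _ => ?_)
  have h1 := hZ.2 (fun k => S k i)
  have hV : 0 ≤ ∑ j, S j i ^ 2 := Finset.sum_nonneg fun _ _ => sq_nonneg _
  have h2 : (∑ j, S j i * ∑ k, Z j k * S k i) ^ 2 ≤ (z * ∑ j, S j i ^ 2) ^ 2 := by
    refine (Finset.sum_mul_sq_le_sq_mul_sq _ _ _).trans ?_
    calc (∑ j, S j i ^ 2) * ∑ j, (∑ k, Z j k * S k i) ^ 2
        ≤ (∑ j, S j i ^ 2) * (z ^ 2 * ∑ j, S j i ^ 2) := mul_le_mul_of_nonneg_left h1 hV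
      _ = _ := by ring
  exact abs_le_of_sq_le_sq h2 (mul_nonneg hZ.1 hV)

end gen

variable {Q : ℕ} [NeZero Q]

/-! ### windows -/

theorem win_iff_bx {N : ℕ} (hN : N ≤ Q) (q x : ZMod Q) : x ∈ PotL.CR.bx Q N q ↔ win N q x := by
  unfold PotL.CR.bx win
  rw [Finset.mem_image]
  constructor
  · rintro ⟨i, hi, rfl⟩
    rw [Finset.mem_range] at hi
    have : q + (i : ZMod Q) - q = (i : ZMod Q) := by ring
    rw [this, ZMod.val_natCast, Nat.mod_eq_of_lt (by omega)]
    exact hi
  · intro h
    refine ⟨(x - q).val, Finset.mem_range.2 h, ?_⟩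
    rw [ZMod.natCast_zmod_val]
    ring

theorem box_apply (F : Mx Q) (L : ℕ) (q p x y : ZMod Q) :
    box F L q p x y = if win L q x ∧ win L p y then F x y else 0 := by
  unfold CRdefx253.box I1
  rw [mul_diagonal, diagonal_mul]
  by_cases h1 : win L q x <;> by_cases h2 : win L p y <;> simp [h1, h2]

theorem box_transpose (F : Mx Q) (L : ℕ) (q p : ZMod Q) : box Fᵀ L q p = (box F L p q)ᵀ := by
  ext x y
  change box Fᵀ L q p x y = box F L p q y x
  rw [box_apply, box_apply]
  simp only [Matrix.transpose_apply, and_comm]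

theorem box_sub (F G : Mx Q) (L : ℕ) (q p : ZMod Q) :
    box (F - G) L q p = box F L q p - box G L q p := by
  unfold CRdefx253.box
  rw [Matrix.mul_sub, Matrix.sub_mul]

theorem box_smul (c : ℝ) (F : Mx Q) (L : ℕ) (q p : ZMod Q) :
    box (c • F) L q p = c • box F L q p := by
  unfold CRdefx253.box
  rw [Matrix.mul_smul, Matrix.smul_mul]

theorem box_sum {ι : Type*} (s : Finset ι) (F : ι → Mx Q) (L : ℕ) (q p : ZMod Q) :
    box (∑ i ∈ s, F i) L q p = ∑ i ∈ s, box (F i) L q p := by
  unfold CRdefx253.box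
  rw [Matrix.mul_sum, Matrix.sum_mul]

/-! ### sums over the points of the cells -/

/-- every point counted once per point of its cell -/
theorem sum_cell_avg {m : ℕ} (hm : 2 ^ m ∣ Q) (G : ZMod Q → ZMod Q → ℝ) :
    ∑ x0 : ZMod Q, ∑ y0 : ZMod Q, ∑ x with cel m x = cel m x0, ∑ y with cel m y = cel m y0, G x y =
      4 ^ m * ∑ x : ZMod Q, ∑ y : ZMod Q, G x y := by
  have hc : ∀ x : ZMod Q, ((Finset.univ.filter fun x0 : ZMod Q => cel m x = cel m x0).card : ℝ) = 2 ^ m := by
    intro x
    have h1 := PotL.CR.card_cl hm x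
    have h2 : (Finset.univ.filter fun x0 : ZMod Q => cel m x = cel m x0) = PotL.CR.cl Q m (cel m x) := by
      ext z
      rw [PotL.CR.mem_cl]
      simp only [Finset.mem_filter, Finset.mem_univ, true_and]
      exact eq_comm
    rw [h2, h1]
    push_cast
    rfl
  have one : ∀ g : ZMod Q → ℝ, ∑ x0 : ZMod Q, ∑ x with cel m x = cel m x0, g x = 2 ^ m * ∑ x, g x := by
    intro g
    simp only [Finset.sum_filter]
    rw [Finset.sum_comm, Finset.mul_sum]
    refine Finset.sum_congr rfl fun x _ => ?_
    rw [← Finset.sum_filter, Finset.sum_const, nsmul_eq_mul, hc x]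
  calc _ = ∑ x0 : ZMod Q, ∑ x with cel m x = cel m x0, ∑ y0 : ZMod Q,
        ∑ y with cel m y = cel m y0, G x y := by
        refine Finset.sum_congr rfl fun x0 _ => ?_
        rw [Finset.sum_comm]
    _ = ∑ x0 : ZMod Q, ∑ x with cel m x = cel m x0, (2 ^ m * ∑ y, G x y) := by
        refine Finset.sum_congr rfl fun x0 _ => Finset.sum_congr rfl fun x _ => ?_
        exact one (fun y => G x y)
    _ = 2 ^ m * ∑ x, (2 ^ m * ∑ y, G x y) := one _
    _ = _ := by
        rw [← Finset.mul_sum, ← mul_assoc, ← mul_pow]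
        norm_num

/-- the cell of `x` meets the window -/
def meet (m N : ℕ) (q x : ZMod Q) : Prop := ∃ x', win N q x' ∧ cel m x' = cel m x

open Classical in
/-- number of windows which meet a cell -/
theorem card_meet {m N : ℕ} (x : ZMod Q) :
    ((Finset.univ.filter fun q : ZMod Q => meet m N q x).card : ℝ) ≤ (2 ^ m + N : ℕ) := by
  have hsub : (Finset.univ.filter fun q : ZMod Q => meet m N q x) ⊆
      (range (2 ^ m + N)).image fun i : ℕ =>
        (((cel m x * 2 ^ m : ℕ) : ZMod Q) - (N : ZMod Q)) + (i : ZMod Q) := by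
    intro q hq
    rw [Finset.mem_filter] at hq
    obtain ⟨-, x', hw, hc⟩ := hq
    rw [Finset.mem_image]
    have hp : 0 < 2 ^ m := by positivity
    have h1 : x'.val % 2 ^ m < 2 ^ m := Nat.mod_lt _ hp
    have h2 : x'.val = cel m x * 2 ^ m + x'.val % 2 ^ m := by
      rw [← hc]
      unfold cel
      rw [mul_comm]
      exact (Nat.div_add_mod _ _).symm
    have h3 : (x' - q).val < N := hw
    refine ⟨x'.val % 2 ^ m + (N - (x' - q).val), ?_, ?_⟩
    · rw [Finset.mem_range]; omega
    · have e1 : q = x' - (((x' - q).val : ℕ) : ZMod Q) := by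
        rw [ZMod.natCast_zmod_val]; ring
      have e2 : x' = ((cel m x * 2 ^ m : ℕ) : ZMod Q) + ((x'.val % 2 ^ m : ℕ) : ZMod Q) := by
        rw [← Nat.cast_add, ← h2, ZMod.natCast_zmod_val]
      have e3 : ((N - (x' - q).val : ℕ) : ZMod Q) = (N : ZMod Q) - (((x' - q).val : ℕ) : ZMod Q) := by
        rw [Nat.cast_sub h3.le]
      rw [Nat.cast_add, e3]
      have e4 : ((cel m x * 2 ^ m : ℕ) : ZMod Q) - (N : ZMod Q) +
          (((x'.val % 2 ^ m : ℕ) : ZMod Q) + ((N : ZMod Q) - (((x' - q).val : ℕ) : ZMod Q))) =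
          (((cel m x * 2 ^ m : ℕ) : ZMod Q) + ((x'.val % 2 ^ m : ℕ) : ZMod Q)) -
            (((x' - q).val : ℕ) : ZMod Q) := by ring
      rw [e4, ← e2, ← e1]
  have h := (Finset.card_le_card hsub).trans Finset.card_image_le
  rw [Finset.card_range] at h
  exact_mod_cast h

/-! ### bridge to helper360's record -/

theorem toCR {B : Mx Q} {M : ℕ} {dl n : ℝ} {Y : ℕ → Mx Q} {S : ℕ → ZMod Q → ZMod Q → Mx Q}
    (h : Extr B M dl n Y S) (hdl : 0 ≤ dl) : PotL.CR.Extr B M dl n Y S := by
  refine ⟨h.pr, h.cell, h.supp, h.topY, h.topS, h.step, ?_, h.hs, h.count⟩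
  intro m hm a b v hv
  by_cases ha : ∃ x : ZMod Q, cel m x = a
  · obtain ⟨x, rfl⟩ := ha
    by_cases hb : ∃ y : ZMod Q, cel m y = b
    · obtain ⟨y, rfl⟩ := hb
      refine le_trans (le_of_eq ?_) (h.op m hm x y v fun u hu => ?_)
      · refine Finset.sum_congr ?_ fun _ _ => rfl
        ext z
        rw [PotL.CR.mem_cl]
        simp
      · by_contra hne
        exact hu (hv u hne)
    · have hv0 : ∀ u, v u = 0 := by
        intro u
        by_contra hne
        exact hb ⟨u, hv u hne⟩
      simp only [hv0, mul_zero, Finset.sum_const_zero]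
      simp
  · have : PotL.CR.cl Q m a = ∅ := by
      rw [Finset.eq_empty_iff_forall_notMem]
      intro z hz
      rw [PotL.CR.mem_cl] at hz
      exact ha ⟨z, hz⟩
    rw [this, Finset.sum_empty]
    exact mul_nonneg (mul_nonneg hdl (by positivity)) (Finset.sum_nonneg fun _ _ => sq_nonneg _)

/-! ### one move -/

/-- what one scale removes -/
def mvK (Y : Mx Q) (S : ZMod Q → ZMod Q → Mx Q) : Mx Q := fun x y => ∑ u, Y x u * S x y u y

open Classical in
/-- **price of one move** in a window -/
theorem move_one {m N : ℕ} (hm : 2 ^ m ∣ Q) (Y : Mx Q) (S : ZMod Q → ZMod Q → Mx Q) {d : ℝ}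
    (hd : 0 ≤ d) (hpr : ∀ x y, IsPr (S x y))
    (hcell : ∀ x y x' y', cel m x = cel m x' → cel m y = cel m y' → S x y = S x' y')
    (hsupp : ∀ x y u v, S x y u v ≠ 0 → cel m u = cel m y ∧ cel m v = cel m y)
    (hop : ∀ (x y : ZMod Q) (v : ZMod Q → ℝ), (∀ u, cel m u ≠ cel m y → v u = 0) →
      ∑ x' with cel m x' = cel m x, (∑ u, Y x' u * v u) ^ 2 ≤ d ^ 2 * ∑ u, v u ^ 2)
    (q p : ZMod Q) :
    TrN (box (mvK Y S) N q p) ((d / 4 ^ m) * ∑ x, ∑ y,
      if meet m N q x ∧ meet m N p y then (S x y).trace else 0) := by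
  intro K hK
  -- the trace as a sum over points
  set G : ZMod Q → ZMod Q → ℝ := fun x y =>
    if win N q x ∧ win N p y then K y x * ∑ u, Y x u * S x y u y else 0 with hG
  have e1 : (K * box (mvK Y S) N q p).trace = ∑ x, ∑ y, G x y := by
    simp only [Matrix.trace, Matrix.diag, Matrix.mul_apply]
    rw [Finset.sum_comm]
    refine Finset.sum_congr rfl fun x _ => Finset.sum_congr rfl fun y _ => ?_
    rw [box_apply, hG]
    simp only [mvK]
    split_ifs <;> simp
  have e2 := sum_cell_avg hm G
  have h4 : (0 : ℝ) < 4 ^ m := by positivity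
  -- one cell
  have one : ∀ x0 y0 : ZMod Q, |∑ x with cel m x = cel m x0, ∑ y with cel m y = cel m y0, G x y| ≤
      d * (if meet m N q x0 ∧ meet m N p y0 then (S x0 y0).trace else 0) := by
    intro x0 y0
    by_cases hmt : meet m N q x0 ∧ meet m N p y0
    · rw [if_pos hmt]
      -- the matrix Z
      set Z : Mx Q := fun y u => if win N p y ∧ cel m y = cel m y0 then
        ∑ x, K y x * (if win N q x ∧ cel m x = cel m x0 then
          (if cel m u = cel m y0 then Y x u else 0) else 0) else 0 with hZ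
      have eZ : ∑ x with cel m x = cel m x0, ∑ y with cel m y = cel m y0, G x y =
          (Z * S x0 y0).trace := by
        simp only [Matrix.trace, Matrix.diag, Matrix.mul_apply, Finset.sum_filter]
        calc ∑ x, (if cel m x = cel m x0 then ∑ y, (if cel m y = cel m y0 then G x y else 0) else 0)
            = ∑ x, ∑ y, (if cel m x = cel m x0 then (if cel m y = cel m y0 then G x y else 0) else 0) := by
              refine Finset.sum_congr rfl fun x _ => ?_
              split_ifs <;> simp
          _ = ∑ y, ∑ x, (if cel m x = cel m x0 then (if cel m y = cel m y0 then G x y else 0) else 0) :=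
              Finset.sum_comm
          _ = _ := by
              refine Finset.sum_congr rfl fun y _ => ?_
              rw [hZ]
              simp only
              by_cases hy : win N p y ∧ cel m y = cel m y0
              · simp only [if_pos hy]
                simp only [Finset.sum_mul]
                rw [Finset.sum_comm]
                refine Finset.sum_congr rfl fun x _ => ?_
                by_cases hx : win N q x ∧ cel m x = cel m x0
                · simp only [if_pos hx, if_pos hx.2, if_pos hy.2]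
                  rw [hG]
                  simp only [if_pos (And.intro hx.1 hy.1)]
                  rw [Finset.mul_sum]
                  refine Finset.sum_congr rfl fun u _ => ?_
                  rw [hcell x y x0 y0 hx.2 hy.2]
                  by_cases hu : cel m u = cel m y0
                  · rw [if_pos hu]; ring
                  · have : S x0 y0 u y = 0 := by
                      by_contra hne
                      exact hu (hsupp x0 y0 u y hne).1
                    rw [this]; ring
                · simp only [if_neg hx, mul_zero, zero_mul, Finset.sum_const_zero]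
                  by_cases hx2 : cel m x = cel m x0
                  · have hx1 : ¬ win N q x := fun h => hx ⟨h, hx2⟩
                    simp only [if_pos hx2, if_pos hy.2]
                    rw [hG]
                    simp [hx1]
                  · simp [hx2]
              · simp only [if_neg hy, zero_mul, Finset.sum_const_zero]
                refine Finset.sum_eq_zero fun x _ => ?_
                by_cases hy2 : cel m y = cel m y0
                · have hy1 : ¬ win N p y := fun h => hy ⟨h, hy2⟩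
                  rw [hG]
                  simp [hy1]
                · simp [hy2]
      have opZ : OpLe Z d := by
        refine ⟨hd, fun v => ?_⟩
        set v' : ZMod Q → ℝ := fun u => if cel m u = cel m y0 then v u else 0 with hv'
        set w : ZMod Q → ℝ := fun x => if win N q x ∧ cel m x = cel m x0 then ∑ u, Y x u * v' u else 0
          with hw
        have f1 : ∀ y, (∑ u, Z y u * v u) ^ 2 ≤ (∑ x, K y x * w x) ^ 2 := by
          intro y
          have f2 : ∑ u, Z y u * v u = if win N p y ∧ cel m y = cel m y0 then ∑ x, K y x * w x else 0 := by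
            rw [hZ]
            simp only
            split_ifs with hy
            · simp only [Finset.sum_mul]
              rw [Finset.sum_comm]
              refine Finset.sum_congr rfl fun x _ => ?_
              rw [hw]
              simp only
              split_ifs with hx
              · rw [Finset.mul_sum]
                refine Finset.sum_congr rfl fun u _ => ?_
                rw [hv']
                simp only
                split_ifs <;> ring
              · simp
            · simp
          rw [f2]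
          split_ifs
          · exact le_rfl
          · rw [zero_pow two_ne_zero]
            exact sq_nonneg _
        have f3 : ∑ x, w x ^ 2 ≤ d ^ 2 * ∑ u, v u ^ 2 := by
          have f4 : ∑ x, w x ^ 2 ≤ ∑ x with cel m x = cel m x0, (∑ u, Y x u * v' u) ^ 2 := by
            rw [Finset.sum_filter]
            refine Finset.sum_le_sum fun x _ => ?_
            rw [hw]
            simp only
            by_cases hx : cel m x = cel m x0
            · rw [if_pos hx]
              split_ifs
              · exact le_rfl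
              · simpa using sq_nonneg _
            · rw [if_neg hx, if_neg fun h => hx h.2]
              simp
          have f5 := hop x0 y0 v' fun u hu => by rw [hv']; simp only [if_neg hu]
          have f6 : ∑ u, v' u ^ 2 ≤ ∑ u, v u ^ 2 := by
            refine Finset.sum_le_sum fun u _ => ?_
            rw [hv']
            simp only
            split_ifs
            · exact le_rfl
            · simpa using sq_nonneg _
          exact f4.trans (f5.trans (mul_le_mul_of_nonneg_left f6 (sq_nonneg _)))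
        calc ∑ y, (∑ u, Z y u * v u) ^ 2 ≤ ∑ y, (∑ x, K y x * w x) ^ 2 :=
              Finset.sum_le_sum fun y _ => f1 y
          _ ≤ 1 ^ 2 * ∑ x, w x ^ 2 := hK.2 w
          _ ≤ d ^ 2 * ∑ u, v u ^ 2 := by rw [one_pow, one_mul]; exact f3
      rw [eZ]
      exact trace_mul_pr opZ (hpr x0 y0)
    · rw [if_neg hmt, mul_zero]
      have : ∑ x with cel m x = cel m x0, ∑ y with cel m y = cel m y0, G x y = 0 := by
        refine Finset.sum_eq_zero fun x hx => Finset.sum_eq_zero fun y hy => ?_
        rw [Finset.mem_filter] at hx hy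
        rw [hG]
        simp only
        rw [if_neg]
        rintro ⟨h1, h2⟩
        exact hmt ⟨⟨x, h1, hx.2⟩, ⟨y, h2, hy.2⟩⟩
      rw [this, abs_zero]
  have h5 : 4 ^ m * |∑ x, ∑ y, G x y| ≤ d * ∑ x0, ∑ y0,
      (if meet m N q x0 ∧ meet m N p y0 then (S x0 y0).trace else 0) := by
    rw [← abs_of_pos h4, ← abs_mul, ← e2, Finset.mul_sum]
    refine (Finset.abs_sum_le_sum_abs _ _).trans (Finset.sum_le_sum fun x0 _ => ?_)
    rw [Finset.mul_sum]
    refine (Finset.abs_sum_le_sum_abs _ _).trans (Finset.sum_le_sum fun y0 _ => ?_)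
    exact one x0 y0
  rw [e1, div_mul_eq_mul_div, le_div_iff₀ h4, mul_comm]
  exact h5

/-! ### raw function letters -/

/-- `Fl` with separate constants -/
structure FlR (k M : ℕ) (o n e : ℝ) (X : ℕ → Mx Q) : Prop where
  op : ∀ m k', k' ≤ k → m + k' < M → ∀ q p, OpLe (box (X m) (2 ^ (m + k')) q p) (2 ^ (m + k') * o)
  mv : ∀ k' ≤ k, ∃ v : ℕ → ZMod Q → ZMod Q → ℝ, (∀ m q p, 0 ≤ v m q p) ∧
    (∀ m, m + k' < M → ∀ q p, TrN (box (X (m + k')) (2 ^ (m + k')) q p -
      box (X m) (2 ^ (m + k')) q p) (2 ^ (m + k') * v m q p)) ∧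
    ∑ m ∈ range M, ∑ q : ZMod Q, ∑ p : ZMod Q, (if m + k' < M then v m q p else 0) ≤ n
  en : ∀ m < M, ∑ x, ∑ y, X m x y ^ 2 ≤ e

theorem FlR.sub {k M : ℕ} {o n e o' n' e' : ℝ} {X X' : ℕ → Mx Q} (h : FlR k M o n e X)
    (h' : FlR k M o' n' e' X') : FlR k M (o + o') (n + n') (2 * (e + e')) (fun m => X m - X' m) := by
  refine ⟨?_, ?_, ?_⟩
  · intro m k' hk hm q p
    rw [box_sub, mul_add]
    exact OpLe.sub (h.op m k' hk hm q p) (h'.op m k' hk hm q p)
  · intro k' hk
    obtain ⟨v, hv0, hv1, hv2⟩ := h.mv k' hk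
    obtain ⟨v', hv0', hv1', hv2'⟩ := h'.mv k' hk
    refine ⟨fun m q p => v m q p + v' m q p, fun m q p => add_nonneg (hv0 m q p) (hv0' m q p), ?_, ?_⟩
    · intro m hm q p
      rw [box_sub, box_sub, mul_add]
      have e1 : box (X (m + k')) (2 ^ (m + k')) q p - box (X' (m + k')) (2 ^ (m + k')) q p -
          (box (X m) (2 ^ (m + k')) q p - box (X' m) (2 ^ (m + k')) q p) =
          (box (X (m + k')) (2 ^ (m + k')) q p - box (X m) (2 ^ (m + k')) q p) -
          (box (X' (m + k')) (2 ^ (m + k')) q p - box (X' m) (2 ^ (m + k')) q p) := by abel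
      rw [e1]
      exact TrN.sub (hv1 m hm q p) (hv1' m hm q p)
    · refine le_trans (le_of_eq ?_) (add_le_add hv2 hv2')
      simp only [← Finset.sum_add_distrib]
      refine Finset.sum_congr rfl fun m _ => Finset.sum_congr rfl fun q _ =>
        Finset.sum_congr rfl fun p _ => ?_
      split_ifs <;> simp
  · intro m hm
    have h1 := h.en m hm
    have h2 := h'.en m hm
    calc ∑ x, ∑ y, (X m - X' m) x y ^ 2 ≤ ∑ x, ∑ y, 2 * (X m x y ^ 2 + X' m x y ^ 2) := by
          refine Finset.sum_le_sum fun x _ => Finset.sum_le_sum fun y _ => ?_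
          rw [Matrix.sub_apply]
          nlinarith [sq_nonneg (X m x y + X' m x y)]
      _ = 2 * (∑ x, ∑ y, X m x y ^ 2 + ∑ x, ∑ y, X' m x y ^ 2) := by
          simp only [← Finset.mul_sum, Finset.sum_add_distrib]
      _ ≤ 2 * (e + e') := by linarith

theorem FlR.smul {k M : ℕ} {o n e c : ℝ} {X : ℕ → Mx Q} (h : FlR k M o n e X) (hc : 0 ≤ c) :
    FlR k M (c * o) (c * n) (c ^ 2 * e) (fun m => c • X m) := by
  refine ⟨?_, ?_, ?_⟩
  · intro m k' hk hm q p
    rw [box_smul]
    have := OpLe.smul (h.op m k' hk hm q p) hc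
    have e1 : c * (2 ^ (m + k') * o) = 2 ^ (m + k') * (c * o) := by ring
    rwa [e1] at this
  · intro k' hk
    obtain ⟨v, hv0, hv1, hv2⟩ := h.mv k' hk
    refine ⟨fun m q p => c * v m q p, fun m q p => mul_nonneg hc (hv0 m q p), ?_, ?_⟩
    · intro m hm q p
      rw [box_smul, box_smul, ← smul_sub]
      have := TrN.smul (hv1 m hm q p) hc
      have e1 : c * (2 ^ (m + k') * v m q p) = 2 ^ (m + k') * (c * v m q p) := by ring
      rwa [e1] at this
    · refine le_trans (le_of_eq ?_) (mul_le_mul_of_nonneg_left hv2 hc)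
      simp only [Finset.mul_sum]
      refine Finset.sum_congr rfl fun m _ => Finset.sum_congr rfl fun q _ =>
        Finset.sum_congr rfl fun p _ => ?_
      split_ifs <;> simp
  · intro m hm
    calc ∑ x, ∑ y, (c • X m) x y ^ 2 = c ^ 2 * ∑ x, ∑ y, X m x y ^ 2 := by
          simp only [Finset.mul_sum]
          refine Finset.sum_congr rfl fun x _ => Finset.sum_congr rfl fun y _ => ?_
          rw [Matrix.smul_apply, smul_eq_mul]
          ring
      _ ≤ c ^ 2 * e := mul_le_mul_of_nonneg_left (h.en m hm) (sq_nonneg _)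

theorem FlR.transpose {k M : ℕ} {o n e : ℝ} {X : ℕ → Mx Q} (h : FlR k M o n e X) :
    FlR k M o n e (fun m => (X m)ᵀ) := by
  refine ⟨?_, ?_, ?_⟩
  · intro m k' hk hm q p
    rw [box_transpose]
    exact OpLe.transpose (h.op m k' hk hm p q)
  · intro k' hk
    obtain ⟨v, hv0, hv1, hv2⟩ := h.mv k' hk
    refine ⟨fun m q p => v m p q, fun m q p => hv0 m p q, ?_, ?_⟩
    · intro m hm q p
      rw [box_transpose, box_transpose, ← transpose_sub]
      exact TrN.transpose (hv1 m hm p q)
    · refine le_trans (le_of_eq ?_) hv2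
      refine Finset.sum_congr rfl fun m _ => ?_
      rw [Finset.sum_comm]
  · intro m hm
    refine le_trans (le_of_eq ?_) (h.en m hm)
    rw [Finset.sum_comm]
    rfl

theorem FlR.toFl {k M : ℕ} {o n e n1 : ℝ} {X : ℕ → Mx Q} (h : FlR k M o n e X) (ho : o ≤ 1)
    (hn : n ≤ n1) (he : e ≤ n1) : Fl k M n1 X := by
  refine ⟨?_, ?_, fun m hm => (h.en m hm).trans he⟩
  · intro m k' hk hm q p
    refine OpLe.mono (h.op m k' hk hm q p) ?_
    have : (0 : ℝ) ≤ 2 ^ (m + k') := by positivity
    nlinarith
  · intro k' hk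
    obtain ⟨v, hv0, hv1, hv2⟩ := h.mv k' hk
    exact ⟨v, hv0, hv1, hv2.trans hn⟩

theorem OpLe.of_box {N : ℕ} (hN : N ≤ Q) {F : Mx Q} {q p : ZMod Q} {c : ℝ} (hc : 0 ≤ c)
    (h : ∀ v : ZMod Q → ℝ, ∑ x ∈ PotL.CR.bx Q N q, (∑ y ∈ PotL.CR.bx Q N p, F x y * v y) ^ 2 ≤
      c ^ 2 * ∑ y ∈ PotL.CR.bx Q N p, v y ^ 2) : OpLe (box F N q p) c := by
  refine ⟨hc, fun v => ?_⟩
  have h1 := h v
  have e1 : ∀ x, ∑ y, box F N q p x y * v y =
      if x ∈ PotL.CR.bx Q N q then ∑ y ∈ PotL.CR.bx Q N p, F x y * v y else 0 := by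
    intro x
    by_cases hx : x ∈ PotL.CR.bx Q N q
    · rw [if_pos hx, ← Finset.sum_filter_add_sum_filter_not Finset.univ
        (fun y => y ∈ PotL.CR.bx Q N p)]
      rw [Finset.sum_eq_zero (s := Finset.univ.filter fun y => ¬ y ∈ PotL.CR.bx Q N p) fun y hy => by
        rw [box_apply, if_neg, zero_mul]
        rintro ⟨-, h2⟩
        exact (Finset.mem_filter.1 hy).2 ((win_iff_bx hN p y).2 h2)]
      rw [add_zero]
      refine Finset.sum_congr (by ext y; simp) fun y hy => ?_
      rw [box_apply, if_pos ⟨(win_iff_bx hN q x).1 hx, (win_iff_bx hN p y).1 (by simpa using hy)⟩]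
    · rw [if_neg hx]
      refine Finset.sum_eq_zero fun y _ => ?_
      rw [box_apply, if_neg, zero_mul]
      rintro ⟨h2, -⟩
      exact hx ((win_iff_bx hN q x).2 h2)
  have e2 : ∑ x, (∑ y, box F N q p x y * v y) ^ 2 =
      ∑ x ∈ PotL.CR.bx Q N q, (∑ y ∈ PotL.CR.bx Q N p, F x y * v y) ^ 2 := by
    rw [← Finset.sum_filter_add_sum_filter_not Finset.univ (fun x => x ∈ PotL.CR.bx Q N q)]
    rw [Finset.sum_eq_zero (s := Finset.univ.filter fun x => ¬ x ∈ PotL.CR.bx Q N q) fun x hx => by
      rw [e1 x, if_neg (Finset.mem_filter.1 hx).2]; ring]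
    rw [add_zero]
    refine Finset.sum_congr (by ext x; simp) fun x hx => ?_
    rw [e1 x, if_pos (by simpa using hx)]
  rw [e2]
  refine h1.trans (mul_le_mul_of_nonneg_left ?_ (sq_nonneg _))
  exact Finset.sum_le_sum_of_subset_of_nonneg (Finset.subset_univ _) fun _ _ _ => sq_nonneg _

/-- the extracted letter is a raw function letter -/
theorem flR_of_extr (k : ℕ) {B : Mx Q} {M : ℕ} {n : ℝ} {Y : ℕ → Mx Q}
    {S : ℕ → ZMod Q → ZMod Q → Mx Q} (hQ : 2 ^ M ∣ Q) (h : Extr B M 1 n Y S)
    (hB : ∑ x, ∑ y, B x y ^ 2 ≤ n) :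
    FlR k M 2 (8 * 2 ^ k * k * n) n Y := by
  classical
  have hc := toCR h zero_le_one
  have hQ0 : 0 < Q := Nat.pos_of_ne_zero (NeZero.ne Q)
  have hpow : ∀ m, m < M → 2 ^ m ≤ Q := fun m hm =>
    (Nat.pow_le_pow_right (by norm_num) hm.le).trans (Nat.le_of_dvd hQ0 hQ)
  have htr : ∀ m (x y : ZMod Q), 0 ≤ (S m x y).trace := fun m x y =>
    PotL.PLE1.IsPr.trace_nonneg' (h.pr m x y)
  refine ⟨?_, ?_, ?_⟩
  · intro m k' hk hm q p
    refine OpLe.of_box (hpow _ hm) (by positivity) fun v => ?_
    have := hc.op_box (m := m) (by omega) ((pow_dvd_pow 2 (by omega)).trans hQ) zero_le_one k' q p v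
    refine this.trans (le_of_eq ?_)
    ring
  · intro k' hk
    -- price of one window
    set v : ℕ → ZMod Q → ZMod Q → ℝ := fun m q p => ∑ j ∈ range k',
      (1 / (2 : ℝ) ^ (m + k')) * ((2 ^ (m + j + 1) / 4 ^ (m + j)) * ∑ x, ∑ y,
        if meet (m + j) (2 ^ (m + k')) q x ∧ meet (m + j) (2 ^ (m + k')) p y then
          (S (m + j) x y).trace else 0) with hv
    have hv0 : ∀ m q p, 0 ≤ v m q p := by
      intro m q p
      refine Finset.sum_nonneg fun j _ => mul_nonneg (by positivity) (mul_nonneg (by positivity)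
        (Finset.sum_nonneg fun x _ => Finset.sum_nonneg fun y _ => ?_))
      split_ifs
      · exact htr _ _ _
      · exact le_rfl
    refine ⟨v, hv0, ?_, ?_⟩
    · intro m hm q p
      have e1 : box (Y (m + k')) (2 ^ (m + k')) q p - box (Y m) (2 ^ (m + k')) q p =
          ∑ j ∈ range k', box (mvK (Y (m + j + 1)) (S (m + j))) (2 ^ (m + k')) q p := by
        rw [← box_sub, ← box_sum]
        congr 1
        have tele : ∀ j, Y (m + j) - Y m = ∑ i ∈ range j, mvK (Y (m + i + 1)) (S (m + i)) := by
          intro j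
          induction j with
          | zero => simp
          | succ j ih =>
            rw [Finset.sum_range_succ, ← ih]
            ext x y
            have h2 := h.step (m + j) x y
            simp only [Matrix.sub_apply, Matrix.add_apply, mvK]
            rw [h2, ← add_assoc]
            ring
        exact tele k'
      have e2 : (2 : ℝ) ^ (m + k') * v m q p = ∑ j ∈ range k', ((2 ^ (m + j + 1) / 4 ^ (m + j)) * ∑ x, ∑ y,
          if meet (m + j) (2 ^ (m + k')) q x ∧ meet (m + j) (2 ^ (m + k')) p y then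
            (S (m + j) x y).trace else 0) := by
        rw [hv]
        simp only
        rw [Finset.mul_sum]
        refine Finset.sum_congr rfl fun j _ => ?_
        rw [← mul_assoc, mul_one_div_cancel (by positivity), one_mul]
      rw [e1, e2]
      refine TrN.sum _ _ _ fun j hj => ?_
      rw [Finset.mem_range] at hj
      refine move_one ((pow_dvd_pow 2 (by omega)).trans hQ) _ _ (by positivity) (h.pr _) (h.cell _)
        (h.supp _) ?_ q p
      intro x y w hw
      -- operator norm at the next scale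
      have h3 := h.op (m + j + 1) (by omega) x y w fun u hu => hw u fun hu' => hu
        (PotL.CR.cel_nest (by omega) hu')
      have h4 : ∑ x' with cel (m + j) x' = cel (m + j) x, (∑ u, Y (m + j + 1) x' u * w u) ^ 2 ≤
          ∑ x' with cel (m + j + 1) x' = cel (m + j + 1) x, (∑ u, Y (m + j + 1) x' u * w u) ^ 2 := by
        refine Finset.sum_le_sum_of_subset_of_nonneg ?_ fun _ _ _ => sq_nonneg _
        intro z hz
        rw [Finset.mem_filter] at hz ⊢
        exact ⟨hz.1, PotL.CR.cel_nest (by omega) hz.2⟩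
      refine h4.trans (h3.trans (le_of_eq ?_))
      have e3 : ((2 : ℝ) ^ (m + j + 1)) ^ 2 = 4 ^ (m + j + 1) := by
        rw [← pow_mul, mul_comm, pow_mul]; norm_num
      rw [e3, one_mul]
    · -- total
      set T : ℕ → ℝ := fun m => ∑ x : ZMod Q, ∑ y : ZMod Q, (S m x y).trace with hT
      have hT0 : ∀ m, 0 ≤ T m := fun m =>
        Finset.sum_nonneg fun x _ => Finset.sum_nonneg fun y _ => htr _ _ _
      have one : ∀ m, ∑ q : ZMod Q, ∑ p : ZMod Q, v m q p ≤ 8 * 2 ^ k' * ∑ j ∈ range k', T (m + j) := by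
        intro m
        have f1 : ∑ q : ZMod Q, ∑ p : ZMod Q, v m q p = ∑ j ∈ range k',
            (1 / (2 : ℝ) ^ (m + k')) * ((2 ^ (m + j + 1) / 4 ^ (m + j)) * ∑ x, ∑ y,
              (S (m + j) x y).trace *
                (((Finset.univ.filter fun q : ZMod Q => meet (m + j) (2 ^ (m + k')) q x).card : ℝ) *
                ((Finset.univ.filter fun p : ZMod Q => meet (m + j) (2 ^ (m + k')) p y).card : ℝ))) := by
          rw [hv]
          simp only
          rw [Finset.sum_congr rfl fun q _ => Finset.sum_comm, Finset.sum_comm]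
          refine Finset.sum_congr rfl fun j _ => ?_
          simp only [← Finset.mul_sum]
          congr 2
          calc ∑ q : ZMod Q, ∑ p : ZMod Q, ∑ x, ∑ y,
                (if meet (m + j) (2 ^ (m + k')) q x ∧ meet (m + j) (2 ^ (m + k')) p y then
                  (S (m + j) x y).trace else 0)
              = ∑ q : ZMod Q, ∑ x, ∑ p : ZMod Q, ∑ y,
                (if meet (m + j) (2 ^ (m + k')) q x ∧ meet (m + j) (2 ^ (m + k')) p y then
                  (S (m + j) x y).trace else 0) :=
                Finset.sum_congr rfl fun q _ => Finset.sum_comm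
            _ = ∑ x, ∑ q : ZMod Q, ∑ p : ZMod Q, ∑ y,
                (if meet (m + j) (2 ^ (m + k')) q x ∧ meet (m + j) (2 ^ (m + k')) p y then
                  (S (m + j) x y).trace else 0) := Finset.sum_comm
            _ = _ := by
                refine Finset.sum_congr rfl fun x _ => ?_
                rw [Finset.sum_congr rfl fun q _ => Finset.sum_comm, Finset.sum_comm]
                refine Finset.sum_congr rfl fun y _ => ?_
                rw [Finset.card_filter, Finset.card_filter]
                push_cast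
                rw [Finset.sum_mul_sum, Finset.mul_sum]
                refine Finset.sum_congr rfl fun q _ => ?_
                rw [Finset.mul_sum]
                refine Finset.sum_congr rfl fun p _ => ?_
                by_cases h1 : meet (m + j) (2 ^ (m + k')) q x <;>
                  by_cases h2 : meet (m + j) (2 ^ (m + k')) p y <;> simp [h1, h2]
        rw [f1, Finset.mul_sum]
        refine Finset.sum_le_sum fun j hj => ?_
        rw [Finset.mem_range] at hj
        have hN : (0 : ℝ) < 2 ^ (m + k') := by positivity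
        have f2 : ∀ x : ZMod Q,
            ((Finset.univ.filter fun q : ZMod Q => meet (m + j) (2 ^ (m + k')) q x).card : ℝ) ≤
              2 * 2 ^ (m + k') := by
          intro x
          refine (card_meet x).trans ?_
          push_cast
          have : (2 : ℝ) ^ (m + j) ≤ 2 ^ (m + k') := pow_le_pow_right₀ (by norm_num) (by omega)
          linarith
        have f3 : ∑ x : ZMod Q, ∑ y : ZMod Q, (S (m + j) x y).trace *
                (((Finset.univ.filter fun q : ZMod Q => meet (m + j) (2 ^ (m + k')) q x).card : ℝ) *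
                ((Finset.univ.filter fun p : ZMod Q => meet (m + j) (2 ^ (m + k')) p y).card : ℝ)) ≤
            (2 * 2 ^ (m + k')) ^ 2 * T (m + j) := by
          rw [hT]
          simp only
          rw [Finset.mul_sum]
          refine Finset.sum_le_sum fun x _ => ?_
          rw [Finset.mul_sum]
          refine Finset.sum_le_sum fun y _ => ?_
          rw [mul_comm]
          refine mul_le_mul_of_nonneg_right ?_ (htr _ _ _)
          rw [sq]
          exact mul_le_mul (f2 x) (f2 y) (by positivity) (by positivity)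
        calc (1 / (2 : ℝ) ^ (m + k')) * ((2 ^ (m + j + 1) / 4 ^ (m + j)) * _)
            ≤ (1 / (2 : ℝ) ^ (m + k')) * ((2 ^ (m + j + 1) / 4 ^ (m + j)) *
              ((2 * 2 ^ (m + k')) ^ 2 * T (m + j))) :=
              mul_le_mul_of_nonneg_left (mul_le_mul_of_nonneg_left f3 (by positivity)) (by positivity)
          _ = (8 * 2 ^ (m + k') / 2 ^ (m + j)) * T (m + j) := by
              have e4 : (4 : ℝ) ^ (m + j) = 2 ^ (m + j) * 2 ^ (m + j) := by rw [← mul_pow]; norm_num
              rw [e4, pow_succ]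
              field_simp
              ring
          _ ≤ 8 * 2 ^ k' * T (m + j) := by
              refine mul_le_mul_of_nonneg_right ?_ (hT0 _)
              rw [div_le_iff₀ (by positivity)]
              have e5 : (2 : ℝ) ^ (m + k') = 2 ^ m * 2 ^ k' := pow_add _ _ _
              have e6 : (2 : ℝ) ^ (m + j) = 2 ^ m * 2 ^ j := pow_add _ _ _
              have e7 : (1 : ℝ) ≤ 2 ^ j := one_le_pow₀ (by norm_num)
              rw [e5, e6]
              have e8 : (0 : ℝ) < 2 ^ m * 2 ^ k' := by positivity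
              nlinarith
      have h6 : ∑ m ∈ range M, ∑ q : ZMod Q, ∑ p : ZMod Q, (if m + k' < M then v m q p else 0) ≤
          ∑ m ∈ range M, (8 * 2 ^ k' * ∑ j ∈ range k', if m + j < M then T (m + j) else 0) := by
        refine Finset.sum_le_sum fun m _ => ?_
        by_cases hm : m + k' < M
        · simp only [if_pos hm]
          refine (one m).trans (le_of_eq ?_)
          congr 1
          refine Finset.sum_congr rfl fun j hj => ?_
          rw [Finset.mem_range] at hj
          rw [if_pos (by omega)]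
        · simp only [if_neg hm, Finset.sum_const_zero]
          refine mul_nonneg (by positivity) (Finset.sum_nonneg fun j _ => ?_)
          split_ifs
          · exact hT0 _
          · exact le_rfl
      refine h6.trans ?_
      rw [← Finset.mul_sum, Finset.sum_comm]
      have h7 : ∀ j ∈ range k', ∑ m ∈ range M, (if m + j < M then T (m + j) else 0) ≤ n := by
        intro j _
        have f4 : ∑ m ∈ range M, (if m + j < M then T (m + j) else 0) ≤ ∑ m ∈ range M, T m := by
          rw [← Finset.sum_filter]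
          rw [← Finset.sum_image (s := (range M).filter fun m => m + j < M) (g := fun m => m + j)
            (f := T) (fun a _ b _ hab => by simpa using hab)]
          refine Finset.sum_le_sum_of_subset_of_nonneg ?_ fun _ _ _ => hT0 _
          intro z hz
          rw [Finset.mem_image] at hz
          obtain ⟨a, ha, rfl⟩ := hz
          rw [Finset.mem_filter] at ha
          exact Finset.mem_range.2 ha.2
        exact f4.trans h.count
      have hn0 : 0 ≤ n := (Finset.sum_nonneg fun x _ => Finset.sum_nonneg fun y _ => sq_nonneg _).trans hB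
      have h8 : ∑ j ∈ range k', ∑ m ∈ range M, (if m + j < M then T (m + j) else 0) ≤ k' * n := by
        refine (Finset.sum_le_sum h7).trans (le_of_eq ?_)
        rw [Finset.sum_const, Finset.card_range, nsmul_eq_mul]
      have h9 : (2 : ℝ) ^ k' ≤ 2 ^ k := pow_le_pow_right₀ (by norm_num) hk
      have h10 : (k' : ℝ) ≤ k := by exact_mod_cast hk
      calc 8 * 2 ^ k' * ∑ j ∈ range k', ∑ m ∈ range M, (if m + j < M then T (m + j) else 0)
          ≤ 8 * 2 ^ k' * (k' * n) := mul_le_mul_of_nonneg_left h8 (by positivity)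
        _ ≤ 8 * 2 ^ k * (k * n) := by
            refine mul_le_mul (by linarith) (mul_le_mul_of_nonneg_right h10 hn0)
              (mul_nonneg (Nat.cast_nonneg _) hn0) (by positivity)
        _ = _ := by ring
  · intro m hm
    exact (hc.hs_le m).trans hB

/-- **L3b** -/
theorem flOfExtr : FlOfExtr := by
  intro k
  set c : ℝ := 1 / (2 ^ (k + 4) * (k + 1)) with hc
  have hk1 : (1 : ℝ) ≤ (k : ℝ) + 1 := by
    have : (0 : ℝ) ≤ k := Nat.cast_nonneg k
    linarith
  have hp : (1 : ℝ) ≤ 2 ^ k := one_le_pow₀ (by norm_num)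
  have hD : (16 : ℝ) ≤ 2 ^ (k + 4) * (k + 1) := by
    rw [pow_add]; norm_num; nlinarith
  have hD0 : (0 : ℝ) < 2 ^ (k + 4) * (k + 1) := by linarith
  have hc0 : 0 < c := by rw [hc]; positivity
  have hc16 : c ≤ 1 / 16 := by
    rw [hc]
    exact one_div_le_one_div_of_le (by norm_num) hD
  have hci : c⁻¹ = 2 ^ (k + 4) * (k + 1) := by rw [hc, one_div, inv_inv]
  refine ⟨c, hc0, ?_⟩
  intro Q _ B M n Y Y' S S' hQ hE hE' hB
  have hn0 : 0 ≤ n := (Finset.sum_nonneg fun x _ => Finset.sum_nonneg fun y _ => sq_nonneg _).trans hB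
  have h1 := flR_of_extr k hQ hE hB
  have h2 := flR_of_extr k hQ hE' hB
  have h3 := FlR.smul h1 hc0.le
  have h4 := FlR.smul (FlR.sub h1 h2) hc0.le
  have hk0 : (0 : ℝ) ≤ k := Nat.cast_nonneg k
  have b1 : c * (8 * 2 ^ k * k * n) ≤ c⁻¹ * n := by
    rw [hci]
    have : c * (8 * 2 ^ k * k) ≤ 2 ^ (k + 4) * (k + 1) := by
      rw [pow_add]; norm_num
      nlinarith [mul_nonneg (by positivity : (0 : ℝ) ≤ 2 ^ k) hk0]
    nlinarith
  have b2 : c * (8 * 2 ^ k * k * n + 8 * 2 ^ k * k * n) ≤ c⁻¹ * n := by
    rw [hci]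
    have : c * (16 * 2 ^ k * k) ≤ 2 ^ (k + 4) * (k + 1) := by
      rw [pow_add]; norm_num
      nlinarith [mul_nonneg (by positivity : (0 : ℝ) ≤ 2 ^ k) hk0]
    nlinarith
  have b3 : c ^ 2 * n ≤ c⁻¹ * n := by
    refine mul_le_mul_of_nonneg_right ?_ hn0
    rw [hci]
    nlinarith
  have b4 : c ^ 2 * (2 * (n + n)) ≤ c⁻¹ * n := by
    rw [hci]
    have : c ^ 2 * 4 ≤ 2 ^ (k + 4) * (k + 1) := by nlinarith
    nlinarith
  refine ⟨FlR.toFl h3 (by linarith) b1 b3, FlR.toFl h4 (by linarith) b2 b4, ?_, ?_⟩
  · have := FlR.toFl (FlR.transpose h3) (by linarith) b1 b3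
    simpa only [transpose_smul] using this
  · have := FlR.toFl (FlR.transpose h4) (by linarith) b2 b4
    simpa only [transpose_smul] using this

end Crest.Agent.R079.CRL3bx138
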