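import Crest.Agent.R079.CRL3b_138

/-! R079, RAGGED CORNER (CR), leaf L4c (`CRdefx253.KilLast`): the uncompressed killer of the last
word.  helper138. -/

set_option autoImplicit false
set_option linter.unusedVariables false
set_option linter.unusedSectionVars false

namespace Crest.Agent.R079.CRL4cx138

open Matrix Finset Crest.Agent.R072
open Crest.Agent.R079.PotL (bl cel IsPr hs2)
open Crest.Agent.R079.CRdefx253
open Crest.Agent.R079.CRL3bx138 (box_apply)
open scoped MatrixOrder

variable {Q : ℕ} [NeZero Q]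

theorem I1_apply (L : ℕ) (p x y : ZMod Q) : I1 L p x y = if x = y ∧ win L p x then 1 else 0 := by
  unfold I1
  by_cases h : x = y
  · subst h
    rw [diagonal_apply_eq]
    simp
  · rw [diagonal_apply_ne _ h]
    simp [h]

theorem I1_isPr (L : ℕ) (p : ZMod Q) : IsPr (I1 L p) := by
  refine ⟨?_, ?_⟩
  · unfold I1; rw [diagonal_transpose]
  · unfold I1
    rw [diagonal_mul_diagonal]
    congr 1
    funext x
    split_ifs <;> simp

theorem I1_mul_apply (L : ℕ) (p : ZMod Q) (F : Mx Q) (x y : ZMod Q) :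
    (I1 L p * F) x y = if win L p x then F x y else 0 := by
  unfold I1
  rw [diagonal_mul]
  split_ifs <;> simp

/-- a sub window -/
theorem win_sub {m k' a : ℕ} (ha : a < 2 ^ k') (hQ : 2 ^ (m + k') ≤ Q) {q x : ZMod Q}
    (h : win (2 ^ m) (q + st m a) x) : win (2 ^ (m + k')) q x := by
  unfold win at *
  have e1 : x - q = (((x - (q + st m a)).val + a * 2 ^ m : ℕ) : ZMod Q) := by
    push_cast
    rw [ZMod.natCast_zmod_val]
    unfold st
    push_cast
    ring
  have h2 : (x - (q + st m a)).val + a * 2 ^ m < 2 ^ (m + k') := by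
    have h3 : (a + 1) * 2 ^ m ≤ 2 ^ k' * 2 ^ m := Nat.mul_le_mul_right _ ha
    have h4 : 2 ^ (m + k') = 2 ^ k' * 2 ^ m := by rw [pow_add, mul_comm]
    rw [h4]
    calc (x - (q + st m a)).val + a * 2 ^ m < 2 ^ m + a * 2 ^ m := by omega
      _ = (a + 1) * 2 ^ m := by ring
      _ ≤ _ := h3
  rw [e1, ZMod.val_natCast, Nat.mod_eq_of_lt (h2.trans_le hQ)]
  exact h2

theorem kilLast : KilLast := by
  intro Q _ C M k D C1 E0 Ar al hQ hE0 hR hL
  have hQ0 : 0 < Q := Nat.pos_of_ne_zero (NeZero.ne Q)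
  have hpow : ∀ m, m < M → 2 ^ m ≤ Q := fun m hm =>
    (Nat.pow_le_pow_right (by norm_num) hm.le).trans (Nat.le_of_dvd hQ0 hQ)
  refine ⟨fun m q p => I1_isPr _ _, ?_, fun m k' hm q p a ha b hb => rfl, ?_, ?_, fun _ _ _ => hE0, ?_, ?_⟩
  · intro m q p u v h
    rw [I1_apply] at h
    by_cases h1 : u = v ∧ win (2 ^ m) q u
    · exact ⟨h1.2, h1.1 ▸ h1.2⟩
    · rw [if_neg h1] at h
      exact absurd rfl h
  · intro m hm q p h
    have := hR.op m hm q p h
    rwa [mul_one] at this
  · intro m k' hm q p h a ha b hb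
    refine le_trans ?_ (hL.hs (m + k') hm q p h)
    unfold hs2
    refine Finset.sum_le_sum fun x _ => Finset.sum_le_sum fun y _ => ?_
    rw [I1_mul_apply, box_apply, box_apply]
    by_cases h1 : win (2 ^ m) (q + st m a) x ∧ win (2 ^ m) (p + st m b) y
    · have hx := win_sub ha (hpow _ hm) h1.1
      have hy := win_sub hb (hpow _ hm) h1.2
      rw [if_pos hx, if_pos h1, if_pos ⟨hx, hy⟩]
    · rw [if_neg h1]
      have : (if win (2 ^ (m + k')) q x then (0 : ℝ) else 0) ^ 2 = 0 := by split_ifs <;> simp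
      rw [this]
      exact sq_nonneg _
  · intro m hm
    have h1 := mul_le_mul_of_nonneg_left (hL.ar m hm) hE0
    refine le_trans (le_of_eq ?_) h1
    simp only [Finset.mul_sum]
    refine Finset.sum_congr rfl fun q _ => Finset.sum_congr rfl fun p _ => ?_
    split_ifs <;> simp
  · intro k' hk
    have h1 := mul_le_mul_of_nonneg_left (hL.ex k' hk) hE0
    refine le_trans (le_of_eq ?_) h1
    simp only [Finset.mul_sum]
    refine Finset.sum_congr rfl fun m _ => Finset.sum_congr rfl fun q _ =>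
      Finset.sum_congr rfl fun p _ => ?_
    split_ifs <;> simp

end Crest.Agent.R079.CRL4cx138
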