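import Crest.Agent.R079.CRwb_253
import Crest.Agent.R079.CRc_360

/-! R079, RAGGED CORNER (CR): bridge between the extraction record of `CRc_360` and `CRdef_253`.
helper253. -/

set_option autoImplicit false
set_option linter.unusedVariables false
set_option linter.unusedSectionVars false

namespace Crest.Agent.R079.CRbrx253

open Matrix Finset Crest.Agent.R079.CRdefx253
open Crest.Agent.R079.PotL (cel IsPr)

variable {Q : ℕ} [NeZero Q]

theorem extr_of (B : Mx Q) (M : ℕ) (dl n : ℝ) (Y : ℕ → Mx Q) (S : ℕ → ZMod Q → ZMod Q → Mx Q)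
    (h : PotL.CR.Extr B M dl n Y S) : Extr B M dl n Y S := by
  refine ⟨h.pr, h.cell, h.supp, h.top, h.stop, h.step, fun m hm x y v hv => ?_, h.hs, h.count⟩
  exact h.op m hm (cel m x) (cel m y) v fun u hu => by
    by_contra hne
    exact hu (hv u hne)

theorem extr_to (B : Mx Q) (M : ℕ) (dl n : ℝ) (Y : ℕ → Mx Q) (S : ℕ → ZMod Q → ZMod Q → Mx Q)
    (h : Extr B M dl n Y S) : PotL.CR.Extr B M dl n Y S := by
  refine ⟨h.pr, h.cell, h.supp, h.topY, h.topS, h.step, fun m hm a b v hv => ?_, h.hs, h.count⟩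
  have hdl : 0 ≤ dl := by
    have h1 := h.op m hm 0 0 (fun u => if cel m u = cel m (0 : ZMod Q) then 1 else 0)
      (fun u hu => if_neg hu)
    have h2 : (1 : ℝ) ≤ ∑ u : ZMod Q, (if cel m u = cel m (0 : ZMod Q) then (1 : ℝ) else 0) ^ 2 := by
      refine le_trans (le_of_eq ?_) (Finset.single_le_sum (f := fun u : ZMod Q =>
        (if cel m u = cel m (0 : ZMod Q) then (1 : ℝ) else 0) ^ 2) (fun u _ => sq_nonneg _)
        (Finset.mem_univ 0))
      simp
    have h3 : (0 : ℝ) ≤ dl * 4 ^ m * ∑ u : ZMod Q,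
        (if cel m u = cel m (0 : ZMod Q) then (1 : ℝ) else 0) ^ 2 :=
      le_trans (Finset.sum_nonneg fun _ _ => sq_nonneg _) h1
    by_contra hneg
    rw [not_le] at hneg
    have h4 : (0 : ℝ) < 4 ^ m := by positivity
    have h5 : dl * 4 ^ m < 0 := mul_neg_of_neg_of_pos hneg h4
    nlinarith
  by_cases hb : ∃ y : ZMod Q, cel m y = b
  · obtain ⟨y, rfl⟩ := hb
    by_cases ha : ∃ x : ZMod Q, cel m x = a
    · obtain ⟨x, rfl⟩ := ha
      exact h.op m hm x y v fun u hu => by
        by_contra hne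
        exact hu (hv u hne)
    · have e : PotL.CR.cl Q m a = ∅ := by
        rw [Finset.eq_empty_iff_forall_notMem]
        intro x hx
        exact ha ⟨x, PotL.CR.mem_cl.1 hx⟩
      rw [e, Finset.sum_empty]
      have : 0 ≤ ∑ y, v y ^ 2 := Finset.sum_nonneg fun _ _ => sq_nonneg _
      positivity
  · have hv0 : ∀ y, v y = 0 := by
      intro y
      by_contra hne
      exact hb ⟨y, hv y hne⟩
    simp [hv0]

theorem I1_eq (L : ℕ) (p : ZMod Q) : I1 L p = CR371.Eb L p := rfl

theorem existsExtr : ExistsExtr := by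
  intro Q _ B M dl hQ hdl
  obtain ⟨Y, S, h⟩ := PotL.CR.exists_extr B (M := M) (fun m hm => (pow_dvd_pow 2 hm.le).trans hQ) hdl
  exact ⟨Y, S, extr_of _ _ _ _ _ _ h⟩

theorem extrTriv : ExtrTriv := by
  intro Q _ B M dl hQ _ hB
  exact extr_of _ _ _ _ _ _
    (PotL.CR.extr_triv B (M := M) (fun m hm => (pow_dvd_pow 2 hm.le).trans hQ) hB)

end Crest.Agent.R079.CRbrx253
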