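import Crest.Agent.R079.CRdef_253
import Crest.Agent.R079.CRc_360

/-! R079, RAGGED CORNER (CR), leaf L4 (note 833 of helper371, literal `ExistsSpc` of CRdef_253): the
SPACES `V_m(box)` of the killer.

`prj V` = orthogonal projection matrix on a subspace of `n → ℝ`;
`Vsp` = span of the restrictions to the window of the ranges of the extraction projections `S`, `S'`
of the scales `m1 ≥ m` whose cell is near the window.  nested, rows of the band fixed, dimension
count.  helper279. -/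

set_option autoImplicit false
set_option linter.unusedVariables false
set_option linter.unusedSectionVars false
set_option linter.unusedSimpArgs false

namespace Crest.Agent.R079.CRdx279

open Matrix Finset Crest.Agent.R072
open Crest.Agent.R079.PotL (bl cel IsPr hs2)
open Crest.Agent.R079.CRdefx253
open scoped MatrixOrder

section prj

variable {n : Type*} [Fintype n] [DecidableEq n]

theorem exists_prj (V : Submodule ℝ (n → ℝ)) : ∃ P : Matrix n n ℝ, IsPr P ∧
    (∀ v ∈ V, P *ᵥ v = v) ∧ ∀ v, P *ᵥ v ∈ V := by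
  set e : (n → ℝ) ≃ₗ[ℝ] EuclideanSpace ℝ n := (WithLp.linearEquiv 2 ℝ (n → ℝ)).symm with he
  set W : Submodule ℝ (EuclideanSpace ℝ n) := V.map e.toLinearMap with hW
  set f : (n → ℝ) →ₗ[ℝ] (n → ℝ) :=
    e.symm.toLinearMap ∘ₗ (W.starProjection.toLinearMap) ∘ₗ e.toLinearMap with hf
  have hfa : ∀ v, f v = e.symm (W.starProjection (e v)) := fun v => rfl
  have hmem : ∀ v, f v ∈ V := by
    intro v
    rw [hfa]
    have h1 : W.starProjection (e v) ∈ V.map e.toLinearMap := Submodule.coe_mem _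
    obtain ⟨w, hw, hw2⟩ := Submodule.mem_map.1 h1
    have : e.symm (W.starProjection (e v)) = w := by
      rw [← hw2]; exact e.symm_apply_apply w
    rw [this]; exact hw
  have hfix : ∀ v ∈ V, f v = v := by
    intro v hv
    rw [hfa]
    have h1 : e v ∈ W := by
      rw [hW]; exact Submodule.mem_map_of_mem hv
    rw [Submodule.starProjection_eq_self_iff.2 h1]
    exact e.symm_apply_apply v
  have hin : ∀ u v : n → ℝ, u ⬝ᵥ f v = f u ⬝ᵥ v := by
    intro u v
    have h1 := Submodule.inner_starProjection_left_eq_right W (e u) (e v)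
    have h2 : ∀ a b : EuclideanSpace ℝ n, inner ℝ a b = (e.symm a) ⬝ᵥ (e.symm b) := by
      intro a b
      rw [EuclideanSpace.inner_eq_star_dotProduct]
      rw [star_trivial, dotProduct_comm]
      rfl
    rw [h2, h2, e.symm_apply_apply, e.symm_apply_apply] at h1
    rw [hfa, hfa]
    exact h1.symm
  refine ⟨LinearMap.toMatrix' f, ⟨?_, ?_⟩, ?_, ?_⟩
  · ext i j
    rw [transpose_apply, LinearMap.toMatrix'_apply, LinearMap.toMatrix'_apply]
    have h := hin (Pi.single i 1) (Pi.single j 1)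
    simp only [single_one_dotProduct, dotProduct_single_one] at h
    have e1 : ∀ k : n, (fun j' => if j' = k then (1 : ℝ) else 0) = Pi.single k 1 := by
      intro k; funext x; simp [Pi.single_apply]
    simpa [e1] using h.symm
  · rw [← LinearMap.toMatrix'_comp]
    congr 1
    ext v : 1
    refine LinearMap.ext fun x => ?_
    exact hfix _ (hmem _)
  · intro v hv
    rw [LinearMap.toMatrix'_mulVec]
    exact hfix v hv
  · intro v
    rw [LinearMap.toMatrix'_mulVec]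
    exact hmem v

/-- orthogonal projection on a subspace of functions -/
noncomputable def prj (V : Submodule ℝ (n → ℝ)) : Matrix n n ℝ := (exists_prj V).choose

theorem prj_isPr (V : Submodule ℝ (n → ℝ)) : IsPr (prj V) := (exists_prj V).choose_spec.1

theorem prj_fix {V : Submodule ℝ (n → ℝ)} {v : n → ℝ} (hv : v ∈ V) : prj V *ᵥ v = v :=
  (exists_prj V).choose_spec.2.1 v hv

theorem prj_mem (V : Submodule ℝ (n → ℝ)) (v : n → ℝ) : prj V *ᵥ v ∈ V :=
  (exists_prj V).choose_spec.2.2 v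

theorem trace_eq_finrank {P : Matrix n n ℝ} {V : Submodule ℝ (n → ℝ)}
    (h1 : ∀ v ∈ V, P *ᵥ v = v) (h2 : ∀ v, P *ᵥ v ∈ V) : P.trace = Module.finrank ℝ V := by
  have h : LinearMap.IsProj V (Matrix.toLin' P) := ⟨fun v => by
      rw [Matrix.toLin'_apply]; exact h2 v, fun v hv => by rw [Matrix.toLin'_apply]; exact h1 v hv⟩
  rw [← Matrix.trace_toLin'_eq, h.trace]

theorem prj_trace (V : Submodule ℝ (n → ℝ)) : (prj V).trace = Module.finrank ℝ V :=
  trace_eq_finrank (fun _ hv => prj_fix hv) (prj_mem V)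

/-- rank of the range of a projection -/
theorem range_trace {P : Matrix n n ℝ} (hP : IsPr P) :
    (Module.finrank ℝ (LinearMap.range P.mulVecLin) : ℝ) = P.trace := by
  refine (trace_eq_finrank ?_ ?_).symm
  · rintro v ⟨w, rfl⟩
    rw [Matrix.mulVecLin_apply, mulVec_mulVec, hP.idem]
  · intro v
    exact ⟨v, rfl⟩

theorem mul_prj {m : Type*} {V : Submodule ℝ (n → ℝ)} (W : Matrix m n ℝ) (h : ∀ r, W r ∈ V) :
    W * prj V = W := by
  ext r y
  rw [Matrix.mul_apply]
  have h1 := congrFun (prj_fix (h r)) y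
  rw [← h1]
  simp only [mulVec, dotProduct]
  refine Finset.sum_congr rfl fun z _ => ?_
  have : prj V z y = prj V y z := by
    rw [← congrFun (congrFun (prj_isPr V).symm z) y, transpose_apply]
  rw [this, mul_comm]

/-- if a linear map `R` sends `V'` into `V` then `P R P' = R P'` -/
theorem prj_mul_mul {V V' : Submodule ℝ (n → ℝ)} (R : Matrix n n ℝ)
    (h : ∀ v ∈ V', R *ᵥ v ∈ V) : prj V * R * prj V' = R * prj V' := by
  apply Matrix.ext_of_mulVec_single
  intro j
  rw [← mulVec_mulVec, ← mulVec_mulVec, ← mulVec_mulVec]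
  exact prj_fix (h _ (prj_mem V' _))

theorem prj_mul_mul' {V V' : Submodule ℝ (n → ℝ)} {R : Matrix n n ℝ} (hR : Rᵀ = R)
    (h : ∀ v ∈ V', R *ᵥ v ∈ V) : prj V' * R * prj V = prj V' * R := by
  have h1 := congrArg transpose (prj_mul_mul R h)
  rwa [transpose_mul, transpose_mul, transpose_mul, (prj_isPr V).symm, (prj_isPr V').symm, hR,
    ← Matrix.mul_assoc] at h1

theorem finrank_sup_le (V W : Submodule ℝ (n → ℝ)) :
    Module.finrank ℝ (V ⊔ W : Submodule ℝ (n → ℝ)) ≤ Module.finrank ℝ V + Module.finrank ℝ W :=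
  Submodule.finrank_add_le_finrank_add_finrank V W

theorem finrank_finset_sup_le {ι : Type*} (s : Finset ι) (V : ι → Submodule ℝ (n → ℝ)) :
    Module.finrank ℝ (s.sup V : Submodule ℝ (n → ℝ)) ≤ ∑ i ∈ s, Module.finrank ℝ (V i) := by
  classical
  induction s using Finset.induction_on with
  | empty => simp
  | insert a s ha ih =>
    rw [Finset.sup_insert, Finset.sum_insert ha]
    exact (finrank_sup_le _ _).trans (Nat.add_le_add_left ih _)

end prj


section spaces

variable {Q : ℕ} [NeZero Q]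

/-- near, with room for the window -/
def Nr (K m m1 : ℕ) (x : ZMod Q) : Prop :=
  ∃ i : ℤ, |i| + 2 * 2 ^ m ≤ (K : ℤ) * 2 ^ m1 ∧ x = (i : ZMod Q)

/-- restriction of a function to the window -/
def rsw (L : ℕ) (p : ZMod Q) (f : ZMod Q → ℝ) : ZMod Q → ℝ := fun y => if win L p y then f y else 0

theorem I1_mulVec (L : ℕ) (p : ZMod Q) (f : ZMod Q → ℝ) : I1 L p *ᵥ f = rsw L p f := by
  funext y
  unfold I1 rsw
  rw [mulVec_diagonal]
  split_ifs <;> simp

/-- generators -/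
def gens (K M : ℕ) (S S' : ℕ → ZMod Q → ZMod Q → Mx Q) (m : ℕ) (q p : ZMod Q) :
    Set (ZMod Q → ℝ) :=
  {f | ∃ (m1 : ℕ) (x y v : ZMod Q), m ≤ m1 ∧ m1 < M ∧ Nr K m m1 (x + q + p) ∧
    (f = rsw (2 ^ m) q (fun z => S m1 x y z v) ∨ f = rsw (2 ^ m) q (fun z => S' m1 x y z v))}

/-- the space of the window `(q, p)` of side `2^m` -/
def Vsp (K M : ℕ) (S S' : ℕ → ZMod Q → ZMod Q → Mx Q) (m : ℕ) (q p : ZMod Q) :
    Submodule ℝ (ZMod Q → ℝ) := Submodule.span ℝ (gens K M S S' m q p)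

theorem I1_tr (L : ℕ) (p : ZMod Q) : (I1 L p)ᵀ = I1 L p := by
  unfold I1; rw [diagonal_transpose]

theorem rsw_rsw (L : ℕ) (p : ZMod Q) (f : ZMod Q → ℝ) : rsw L p (rsw L p f) = rsw L p f := by
  funext y; unfold rsw; split_ifs <;> rfl

theorem Vsp_rsw {K M : ℕ} {S S' : ℕ → ZMod Q → ZMod Q → Mx Q} {m : ℕ} {q p : ZMod Q}
    {f : ZMod Q → ℝ} (hf : f ∈ Vsp K M S S' m q p) : I1 (2 ^ m) q *ᵥ f = f := by
  unfold Vsp at hf
  induction hf using Submodule.span_induction with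
  | mem f h =>
    obtain ⟨m1, x, y, v, _, _, _, h | h⟩ := h <;> rw [h, I1_mulVec, rsw_rsw]
  | zero => exact mulVec_zero _
  | add f g _ _ h1 h2 => rw [mulVec_add, h1, h2]
  | smul a f _ h => rw [mulVec_smul, h]

theorem win_sub {m k' a : ℕ} (ha : a < 2 ^ k') {q y : ZMod Q} (h : win (2 ^ m) (q + st m a) y) :
    win (2 ^ (m + k')) q y := by
  unfold win at *
  set w := (y - (q + st m a)).val with hw
  have e : y - q = ((w + a * 2 ^ m : ℕ) : ZMod Q) := by
    have : ((w : ℕ) : ZMod Q) = y - (q + st m a) := by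
      rw [hw]; exact ZMod.natCast_zmod_val _
    rw [Nat.cast_add, this]
    unfold st
    ring
  rw [e, ZMod.val_natCast]
  refine lt_of_le_of_lt (Nat.mod_le _ _) ?_
  calc w + a * 2 ^ m < 2 ^ m + a * 2 ^ m := by omega
    _ = (a + 1) * 2 ^ m := by ring
    _ ≤ 2 ^ k' * 2 ^ m := Nat.mul_le_mul_right _ ha
    _ = 2 ^ (m + k') := by rw [pow_add]; ring

theorem rsw_sub {m k' a : ℕ} (ha : a < 2 ^ k') (q : ZMod Q) (f : ZMod Q → ℝ) :
    rsw (2 ^ m) (q + st m a) (rsw (2 ^ (m + k')) q f) = rsw (2 ^ m) (q + st m a) f := by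
  funext y
  unfold rsw
  by_cases h : win (2 ^ m) (q + st m a) y
  · rw [if_pos h, if_pos h, if_pos (win_sub ha h)]
  · rw [if_neg h, if_neg h]

theorem Nr_sub {K m k' m1 a b : ℕ} (ha : a < 2 ^ k') (hb : b < 2 ^ k') {x q p : ZMod Q}
    (h : Nr K (m + k') m1 (x + q + p)) : Nr K m m1 (x + (q + st m a) + (p + st m b)) := by
  obtain ⟨i, hi, he⟩ := h
  refine ⟨i + ((a * 2 ^ m : ℕ) : ℤ) + ((b * 2 ^ m : ℕ) : ℤ), ?_, ?_⟩
  · have h1 := abs_add_three i ((a * 2 ^ m : ℕ) : ℤ) ((b * 2 ^ m : ℕ) : ℤ)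
    have h2 : |((a * 2 ^ m : ℕ) : ℤ)| = (a : ℤ) * 2 ^ m := by
      rw [abs_of_nonneg (by positivity)]; push_cast; ring
    have h3 : |((b * 2 ^ m : ℕ) : ℤ)| = (b : ℤ) * 2 ^ m := by
      rw [abs_of_nonneg (by positivity)]; push_cast; ring
    rw [h2, h3] at h1
    have h4 : (a : ℤ) + 1 ≤ 2 ^ k' := by exact_mod_cast ha
    have h5 : (b : ℤ) + 1 ≤ 2 ^ k' := by exact_mod_cast hb
    have h6 : (0 : ℤ) < 2 ^ m := by positivity
    have h7 : (2 : ℤ) ^ (m + k') = 2 ^ k' * 2 ^ m := by rw [pow_add]; ring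
    rw [h7] at hi
    nlinarith
  · have e : x + (q + st m a) + (p + st m b) = (x + q + p) + st m a + st m b := by ring
    rw [e, he]
    unfold st
    push_cast
    ring

/-- nestedness (V1) -/
theorem Vsp_nest {K M : ℕ} {S S' : ℕ → ZMod Q → ZMod Q → Mx Q} {m k' a b : ℕ} (ha : a < 2 ^ k')
    (hb : b < 2 ^ k') {q p : ZMod Q} {f : ZMod Q → ℝ} (hf : f ∈ Vsp K M S S' (m + k') q p) :
    I1 (2 ^ m) (q + st m a) *ᵥ f ∈ Vsp K M S S' m (q + st m a) (p + st m b) := by
  unfold Vsp at hf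
  induction hf using Submodule.span_induction with
  | mem f h =>
    obtain ⟨m1, x, y, v, h1, h2, h3, h⟩ := h
    apply Submodule.subset_span
    refine ⟨m1, x, y, v, by omega, h2, Nr_sub ha hb h3, ?_⟩
    rcases h with h | h
    · left; rw [h, I1_mulVec, rsw_sub ha]
    · right; rw [h, I1_mulVec, rsw_sub ha]
  | zero => rw [mulVec_zero]; exact Submodule.zero_mem _
  | add f g _ _ h1 h2 => rw [mulVec_add]; exact Submodule.add_mem _ h1 h2
  | smul a f _ h => rw [mulVec_smul]; exact Submodule.smul_mem _ _ h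

/-- telescoping of an extraction -/
theorem tele {B : Mx Q} {M : ℕ} {dl n : ℝ} {Y : ℕ → Mx Q} {S : ℕ → ZMod Q → ZMod Q → Mx Q}
    (h : Extr B M dl n Y S) {m : ℕ} (hm : m ≤ M) (x y : ZMod Q) :
    Y m x y = B x y - ∑ m' ∈ Finset.Ico m M, ∑ u, Y (m' + 1) x u * S m' x y u y := by
  have h1 : ∀ j, m + j ≤ M → Y (m + j) x y - Y m x y =
      ∑ m' ∈ Finset.Ico m (m + j), ∑ u, Y (m' + 1) x u * S m' x y u y := by
    intro j
    induction j with
    | zero => intro _; simp
    | succ j ih =>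
      intro hj
      have h2 := ih (by omega)
      rw [← add_assoc, Finset.sum_Ico_succ_top (by omega), ← h2]
      have := h.step (m + j) x y
      rw [this]
      ring
  obtain ⟨j, rfl⟩ := Nat.exists_eq_add_of_le hm
  have := h1 j le_rfl
  rw [h.topY (m + j) le_rfl] at this
  rw [← this]; ring

/-- one removed layer, restricted to the window, is in the span of the columns -/
theorem layer {B : Mx Q} {M : ℕ} {dl n : ℝ} {Y : ℕ → Mx Q} {S : ℕ → ZMod Q → ZMod Q → Mx Q}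
    (h : Extr B M dl n Y S) {m1 : ℕ} (hQ : 2 ^ m1 ∣ Q) (L : ℕ) (x q : ZMod Q)
    (V : Submodule ℝ (ZMod Q → ℝ)) (hV : ∀ y v, rsw L q (fun z => S m1 x y z v) ∈ V) :
    rsw L q (fun y => ∑ u, Y (m1 + 1) x u * S m1 x y u y) ∈ V := by
  have hsym : ∀ y' u y, S m1 x y' u y = S m1 x y' y u := by
    intro y' u y
    conv_lhs => rw [← (h.pr m1 x y').symm]
    rfl
  have h1 : ∀ u y, ∑ y', S m1 x y' y u = 2 ^ m1 * S m1 x y y u := by
    intro u y
    rw [← Finset.sum_filter_add_sum_filter_not Finset.univ (fun y' => cel m1 y' = cel m1 y)]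
    rw [Finset.sum_congr rfl (g := fun _ => S m1 x y y u) fun y' hy' => by
      rw [h.cell m1 x y' x y rfl (Finset.mem_filter.1 hy').2]]
    rw [Finset.sum_eq_zero (s := Finset.univ.filter fun y' => ¬ cel m1 y' = cel m1 y)
      fun y' hy' => by
        by_contra hne
        exact (Finset.mem_filter.1 hy').2 (h.supp m1 x y' y u hne).1.symm]
    rw [Finset.sum_const, add_zero, nsmul_eq_mul]
    congr 1
    have := PotL.CR.card_cl hQ y
    unfold PotL.CR.cl at this
    rw [this]; push_cast; rfl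
  have h2 : rsw L q (fun y => ∑ u, Y (m1 + 1) x u * S m1 x y u y) =
      ∑ y', ∑ u, ((1 / 2 ^ m1) * Y (m1 + 1) x u) • rsw L q (fun z => S m1 x y' z u) := by
    funext y
    rw [Finset.sum_apply]
    unfold rsw
    simp only [Finset.sum_apply, Pi.smul_apply, smul_eq_mul]
    split_ifs with hw
    · rw [Finset.sum_comm]
      refine Finset.sum_congr rfl fun u _ => ?_
      rw [← Finset.mul_sum, h1, hsym]
      field_simp
    · simp
  rw [h2]
  exact Submodule.sum_mem _ fun y' _ => Submodule.sum_mem _ fun u _ => Submodule.smul_mem _ _ (hV _ _)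

/-- rows of the band (V2) -/
theorem band_mem {B : Mx Q} {M D K : ℕ} (hK : D + 2 ≤ K) {dl n dl' n' : ℝ} {Y Y' : ℕ → Mx Q}
    {S S' : ℕ → ZMod Q → ZMod Q → Mx Q} (hQ : 2 ^ M ∣ Q) (h : Extr B M dl n Y S)
    (h' : Extr B M dl' n' Y' S') {m : ℕ} (hm : m < M) {x q p : ZMod Q}
    (hx : ∃ t : ℤ, |t| ≤ D * 2 ^ m ∧ x = -q - p + (t : ZMod Q)) :
    rsw (2 ^ m) q ((Y m - Y' m) x) ∈ Vsp K M S S' m q p := by
  have hN : ∀ m1, m ≤ m1 → Nr K m m1 (x + q + p) := by
    intro m1 hm1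
    obtain ⟨t, ht, hxt⟩ := hx
    refine ⟨t, ?_, by rw [hxt]; ring⟩
    have h1 : (2 : ℤ) ^ m ≤ 2 ^ m1 := pow_le_pow_right₀ (by norm_num) hm1
    have h2 : ((D : ℤ) + 2) ≤ K := by exact_mod_cast hK
    have h3 : (0 : ℤ) ≤ D := by positivity
    have h4 : (0 : ℤ) < 2 ^ m := by positivity
    calc |t| + 2 * 2 ^ m ≤ ((D : ℤ) + 2) * 2 ^ m := by linarith
      _ ≤ (K : ℤ) * 2 ^ m1 := mul_le_mul h2 h1 h4.le (by positivity)
  have e : rsw (2 ^ m) q ((Y m - Y' m) x) =
      ∑ m1 ∈ Finset.Ico m M, rsw (2 ^ m) q (fun y => ∑ u, Y' (m1 + 1) x u * S' m1 x y u y) -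
      ∑ m1 ∈ Finset.Ico m M, rsw (2 ^ m) q (fun y => ∑ u, Y (m1 + 1) x u * S m1 x y u y) := by
    funext y
    rw [Pi.sub_apply, Finset.sum_apply, Finset.sum_apply]
    unfold rsw
    split_ifs with hw
    · rw [Matrix.sub_apply, tele h hm.le, tele h' hm.le]
      ring
    · simp
  rw [e]
  refine Submodule.sub_mem _ (Submodule.sum_mem _ fun m1 hm1 => ?_)
    (Submodule.sum_mem _ fun m1 hm1 => ?_)
  · rw [Finset.mem_Ico] at hm1
    refine layer h' ((pow_dvd_pow 2 hm1.2.le).trans hQ) _ _ _ _ fun y v => ?_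
    exact Submodule.subset_span ⟨m1, x, y, v, hm1.1, hm1.2, hN _ hm1.1, Or.inr rfl⟩
  · rw [Finset.mem_Ico] at hm1
    refine layer h ((pow_dvd_pow 2 hm1.2.le).trans hQ) _ _ _ _ fun y v => ?_
    exact Submodule.subset_span ⟨m1, x, y, v, hm1.1, hm1.2, hN _ hm1.1, Or.inl rfl⟩

/-! ### dimension count (V3) -/

theorem cel_diff {m : ℕ} {x y : ZMod Q} (h : cel m x = cel m y) :
    ∃ i : ℤ, |i| ≤ 2 ^ m ∧ x = y + (i : ZMod Q) := by
  refine ⟨(x.val : ℤ) - y.val, ?_, ?_⟩
  · unfold cel at h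
    have hp : 0 < 2 ^ m := by positivity
    have h1 := Nat.div_add_mod x.val (2 ^ m)
    have h2 := Nat.div_add_mod y.val (2 ^ m)
    have h3 := Nat.mod_lt x.val hp
    have h4 := Nat.mod_lt y.val hp
    rw [h] at h1
    rw [abs_le]
    have h5 : (x.val : ℤ) = (2 ^ m : ℕ) * (y.val / 2 ^ m : ℕ) + (x.val % 2 ^ m : ℕ) := by
      exact_mod_cast h1.symm
    have h6 : (y.val : ℤ) = (2 ^ m : ℕ) * (y.val / 2 ^ m : ℕ) + (y.val % 2 ^ m : ℕ) := by
      exact_mod_cast h2.symm
    have h7 : ((x.val % 2 ^ m : ℕ) : ℤ) < (2 ^ m : ℕ) := by exact_mod_cast h3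
    have h8 : ((y.val % 2 ^ m : ℕ) : ℤ) < (2 ^ m : ℕ) := by exact_mod_cast h4
    have h9 : (0 : ℤ) ≤ (x.val % 2 ^ m : ℕ) := by positivity
    have h10 : (0 : ℤ) ≤ (y.val % 2 ^ m : ℕ) := by positivity
    have e : ((2 ^ m : ℕ) : ℤ) = 2 ^ m := by push_cast; rfl
    rw [e] at h5 h6 h7 h8
    constructor <;> linarith
  · push_cast
    rw [ZMod.natCast_zmod_val, ZMod.natCast_zmod_val]
    ring

open Classical in
/-- the pairs whose cell of scale `m1` is near the window -/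
noncomputable def Tn (K m m1 : ℕ) (q p : ZMod Q) : Finset (ZMod Q × ZMod Q) :=
  Finset.univ.filter fun z => Nr K m m1 (z.1 + q + p) ∧ ∃ y0, cel m1 y0 = cel m1 z.2 ∧ win (2 ^ m) q y0

open Classical in
theorem mem_Tn {K m m1 : ℕ} {q p : ZMod Q} {z : ZMod Q × ZMod Q} : z ∈ Tn K m m1 q p ↔
    Nr K m m1 (z.1 + q + p) ∧ ∃ y0, cel m1 y0 = cel m1 z.2 ∧ win (2 ^ m) q y0 := by
  unfold Tn
  rw [Finset.mem_filter]
  exact ⟨fun h => h.2, fun h => ⟨Finset.mem_univ _, h⟩⟩

theorem near_of_Tn {K D m m1 : ℕ} (hm : m ≤ m1) (hK : K + 3 ≤ D) {q p : ZMod Q}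
    {z : ZMod Q × ZMod Q} (hz : z ∈ Tn K m m1 q p) {x y : ZMod Q} (hx : cel m1 x = cel m1 z.1)
    (hy : cel m1 y = cel m1 z.2) : near D m1 y (-x - y) q p := by
  obtain ⟨⟨i, hi, he⟩, y0, hy0, hw⟩ := mem_Tn.1 hz
  obtain ⟨a, ha, hxa⟩ := cel_diff hx
  obtain ⟨b, hb, hyb⟩ := cel_diff (hy0.trans hy.symm)
  have h1 : (2 : ℤ) ^ m ≤ 2 ^ m1 := pow_le_pow_right₀ (by norm_num) hm
  have h0 : (0 : ℤ) < 2 ^ m := by positivity
  have hK' : (K : ℤ) + 3 ≤ D := by exact_mod_cast hK
  have hK0 : (0 : ℤ) ≤ K := by positivity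
  -- `y0 = q + c`
  set c : ℤ := ((y0 - q).val : ℤ) with hc
  have hcq : y0 = q + (c : ZMod Q) := by
    rw [hc]; push_cast; rw [ZMod.natCast_zmod_val]; ring
  have hc1 : |c| ≤ 2 ^ m := by
    rw [hc, abs_of_nonneg (by positivity)]
    have : (y0 - q).val < 2 ^ m := hw
    exact_mod_cast this.le
  have hqy : q = y + ((b - c : ℤ) : ZMod Q) := by
    have : q = y0 - (c : ZMod Q) := by rw [hcq]; ring
    rw [this, hyb]; push_cast; ring
  have hbc : |b - c| ≤ 2 * 2 ^ m1 := by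
    have := abs_sub b c
    linarith
  constructor
  · refine ⟨b - c, hbc.trans ?_, hqy⟩
    have h4 : (0 : ℤ) < 2 ^ m1 := by positivity
    nlinarith
  · refine ⟨i + a + (c - b), ?_, ?_⟩
    · have h3 := abs_add_three i a (c - b)
      rw [abs_sub_comm c b] at h3
      have h4 : (0 : ℤ) < 2 ^ m1 := by positivity
      nlinarith
    · have h5 : z.1 = (i : ZMod Q) - q - p := by rw [← he]; ring
      have h6 : p = (i : ZMod Q) - q - z.1 := by rw [h5]; ring
      have h7 : z.1 = x - (a : ZMod Q) := by rw [hxa]; ring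
      rw [h6, h7]
      have h8 : q = y + ((b : ZMod Q) - (c : ZMod Q)) := by rw [hqy]; push_cast; ring
      rw [h8]
      push_cast
      ring

/-- the compressed range of one projection -/
noncomputable def Rsp (P : Mx Q) (m : ℕ) (q : ZMod Q) : Submodule ℝ (ZMod Q → ℝ) :=
  (LinearMap.range P.mulVecLin).map (I1 (2 ^ m) q).mulVecLin

theorem Rsp_mem {P : Mx Q} (m : ℕ) (q v : ZMod Q) : rsw (2 ^ m) q (fun z => P z v) ∈ Rsp P m q := by
  refine Submodule.mem_map.2 ⟨fun z => P z v, ⟨Pi.single v 1, ?_⟩, ?_⟩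
  · rw [mulVecLin_apply, mulVec_single_one]; rfl
  · rw [mulVecLin_apply, I1_mulVec]

theorem Rsp_finrank {P : Mx Q} (hP : IsPr P) (m : ℕ) (q : ZMod Q) :
    (Module.finrank ℝ (Rsp P m q) : ℝ) ≤ P.trace := by
  rw [← range_trace hP]
  exact_mod_cast Submodule.finrank_map_le _ _

open Classical in
/-- sum over one representative per near cell, against the sum over all points -/
theorem cells_le {B : Mx Q} {M : ℕ} {dl n : ℝ} {Y : ℕ → Mx Q} {S : ℕ → ZMod Q → ZMod Q → Mx Q}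
    (h : Extr B M dl n Y S) {m m1 K D : ℕ} (hm : m ≤ m1) (hQ : 2 ^ m1 ∣ Q) (hK : K + 3 ≤ D)
    (q p : ZMod Q) (rep : ℕ × ℕ → ZMod Q × ZMod Q)
    (hrep : ∀ z ∈ Tn K m m1 q p, rep (cel m1 z.1, cel m1 z.2) ∈ Tn K m m1 q p ∧
      cel m1 (rep (cel m1 z.1, cel m1 z.2)).1 = cel m1 z.1 ∧
      cel m1 (rep (cel m1 z.1, cel m1 z.2)).2 = cel m1 z.2) :
    ∑ c ∈ (Tn K m m1 q p).image (fun z => (cel m1 z.1, cel m1 z.2)),
        (S m1 (rep c).1 (rep c).2).trace ≤
      ∑ x : ZMod Q, ∑ y : ZMod Q, if near D m1 y (-x - y) q p then (S m1 x y).trace / 4 ^ m1 else 0 := by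
  set C := (Tn K m m1 q p).image (fun z => (cel m1 z.1, cel m1 z.2)) with hC
  have htr : ∀ x y, 0 ≤ (S m1 x y).trace := fun x y => PotL.PLE1.IsPr.trace_nonneg' (h.pr m1 x y)
  rw [← Finset.sum_product' (f := fun x y => if near D m1 y (-x - y) q p then
    (S m1 x y).trace / 4 ^ m1 else 0)]
  set F : ZMod Q × ZMod Q → ℝ := fun z => if near D m1 z.2 (-z.1 - z.2) q p then
    (S m1 z.1 z.2).trace / 4 ^ m1 else 0 with hF
  have hF0 : ∀ z, 0 ≤ F z := by
    intro z
    rw [hF]; simp only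
    split_ifs
    · exact div_nonneg (htr _ _) (by positivity)
    · exact le_rfl
  -- one cell
  have h1 : ∀ c ∈ C, (S m1 (rep c).1 (rep c).2).trace ≤
      ∑ z ∈ Finset.univ.filter (fun z : ZMod Q × ZMod Q => (cel m1 z.1, cel m1 z.2) = c), F z := by
    intro c hc
    obtain ⟨z, hz, rfl⟩ := Finset.mem_image.1 hc
    obtain ⟨h2, h3, h4⟩ := hrep z hz
    have h5 : Finset.univ.filter (fun w : ZMod Q × ZMod Q =>
        (cel m1 w.1, cel m1 w.2) = (cel m1 z.1, cel m1 z.2)) =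
        PotL.CR.cl Q m1 (cel m1 z.1) ×ˢ PotL.CR.cl Q m1 (cel m1 z.2) := by
      ext w
      simp only [Finset.mem_filter, Finset.mem_univ, true_and, Finset.mem_product,
        PotL.CR.mem_cl, Prod.mk.injEq]
    rw [h5]
    have h6 : ∀ w ∈ PotL.CR.cl Q m1 (cel m1 z.1) ×ˢ PotL.CR.cl Q m1 (cel m1 z.2),
        F w = (S m1 (rep (cel m1 z.1, cel m1 z.2)).1 (rep (cel m1 z.1, cel m1 z.2)).2).trace /
          4 ^ m1 := by
      intro w hw
      rw [Finset.mem_product, PotL.CR.mem_cl, PotL.CR.mem_cl] at hw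
      rw [hF]; simp only
      rw [if_pos (near_of_Tn hm hK hz hw.1 hw.2),
        h.cell m1 w.1 w.2 _ _ (hw.1.trans h3.symm) (hw.2.trans h4.symm)]
    rw [Finset.sum_congr rfl h6, Finset.sum_const, Finset.card_product, PotL.CR.card_cl hQ,
      PotL.CR.card_cl hQ, nsmul_eq_mul]
    apply le_of_eq
    have h7 : ((2 ^ m1 * 2 ^ m1 : ℕ) : ℝ) = 4 ^ m1 := by
      push_cast
      rw [← mul_pow]; norm_num
    rw [h7]
    field_simp
  calc _ ≤ ∑ c ∈ C, ∑ z ∈ Finset.univ.filter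
          (fun z : ZMod Q × ZMod Q => (cel m1 z.1, cel m1 z.2) = c), F z := Finset.sum_le_sum h1
    _ = ∑ z ∈ Finset.univ.filter (fun z : ZMod Q × ZMod Q => (cel m1 z.1, cel m1 z.2) ∈ C), F z := by
        rw [← Finset.sum_fiberwise_of_maps_to
          (s := Finset.univ.filter (fun z : ZMod Q × ZMod Q => (cel m1 z.1, cel m1 z.2) ∈ C))
          (t := C) (g := fun z => (cel m1 z.1, cel m1 z.2))
          (fun z hz => (Finset.mem_filter.1 hz).2)]
        refine Finset.sum_congr rfl fun c hc => Finset.sum_congr ?_ fun _ _ => rfl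
        ext z
        simp only [Finset.mem_filter, Finset.mem_univ, true_and]
        constructor
        · intro hz; exact ⟨by rw [hz]; exact hc, hz⟩
        · intro hz; exact hz.2
    _ ≤ ∑ z, F z := Finset.sum_le_sum_of_subset_of_nonneg (Finset.filter_subset _ _)
        fun z _ _ => hF0 z
    _ = _ := by rw [Finset.univ_product_univ]

open Classical in
theorem Vsp_trace {B : Mx Q} {M : ℕ} {dl n dl' n' : ℝ} {Y Y' : ℕ → Mx Q}
    {S S' : ℕ → ZMod Q → ZMod Q → Mx Q} (hQ : 2 ^ M ∣ Q) (h : Extr B M dl n Y S)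
    (h' : Extr B M dl' n' Y' S') {K D : ℕ} (hK : K + 3 ≤ D) (m : ℕ) (q p : ZMod Q) :
    (prj (Vsp K M S S' m q p)).trace ≤ ∑ m' ∈ Finset.Ico m M, ∑ x : ZMod Q, ∑ y : ZMod Q,
      (if near D m' y (-x - y) q p then ((S m' x y).trace + (S' m' x y).trace) / 4 ^ m' else 0) := by
  -- representatives
  have hex : ∀ m1, ∃ rep : ℕ × ℕ → ZMod Q × ZMod Q, ∀ z ∈ Tn K m m1 q p,
      rep (cel m1 z.1, cel m1 z.2) ∈ Tn K m m1 q p ∧
      cel m1 (rep (cel m1 z.1, cel m1 z.2)).1 = cel m1 z.1 ∧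
      cel m1 (rep (cel m1 z.1, cel m1 z.2)).2 = cel m1 z.2 := by
    intro m1
    have : ∀ c : ℕ × ℕ, ∃ w : ZMod Q × ZMod Q, ∀ z ∈ Tn K m m1 q p, (cel m1 z.1, cel m1 z.2) = c →
        w ∈ Tn K m m1 q p ∧ cel m1 w.1 = cel m1 z.1 ∧ cel m1 w.2 = cel m1 z.2 := by
      intro c
      by_cases hc : ∃ z ∈ Tn K m m1 q p, (cel m1 z.1, cel m1 z.2) = c
      · obtain ⟨z0, hz0, he0⟩ := hc
        refine ⟨z0, fun z hz he => ⟨hz0, ?_, ?_⟩⟩
        · have := he0.trans he.symm
          exact (Prod.mk.inj this).1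
        · have := he0.trans he.symm
          exact (Prod.mk.inj this).2
      · exact ⟨(0, 0), fun z hz he => absurd ⟨z, hz, he⟩ hc⟩
    choose rep hrep using this
    exact ⟨rep, fun z hz => hrep _ z hz rfl⟩
  choose rep hrep using hex
  set C : ℕ → Finset (ℕ × ℕ) := fun m1 =>
    (Tn K m m1 q p).image (fun z => (cel m1 z.1, cel m1 z.2)) with hC
  set W : Submodule ℝ (ZMod Q → ℝ) := (Finset.Ico m M).sup fun m1 => (C m1).sup fun c =>
    Rsp (S m1 (rep m1 c).1 (rep m1 c).2) m q ⊔ Rsp (S' m1 (rep m1 c).1 (rep m1 c).2) m q with hW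
  have hle : Vsp K M S S' m q p ≤ W := by
    unfold Vsp
    rw [Submodule.span_le]
    rintro f ⟨m1, x, y, v, h1, h2, h3, hf⟩
    by_cases hy : ∃ y0, cel m1 y0 = cel m1 y ∧ win (2 ^ m) q y0
    · have hz : (x, y) ∈ Tn K m m1 q p := by
        exact mem_Tn.2 ⟨h3, hy⟩
      obtain ⟨h4, h5, h6⟩ := hrep m1 (x, y) hz
      have hc : (cel m1 x, cel m1 y) ∈ C m1 := Finset.mem_image.2 ⟨(x, y), hz, rfl⟩
      have hsub : Rsp (S m1 (rep m1 (cel m1 x, cel m1 y)).1 (rep m1 (cel m1 x, cel m1 y)).2) m q ⊔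
          Rsp (S' m1 (rep m1 (cel m1 x, cel m1 y)).1 (rep m1 (cel m1 x, cel m1 y)).2) m q ≤ W := by
        rw [hW]
        exact (Finset.le_sup (f := fun c => Rsp (S m1 (rep m1 c).1 (rep m1 c).2) m q ⊔
          Rsp (S' m1 (rep m1 c).1 (rep m1 c).2) m q) hc).trans
          (Finset.le_sup (f := fun m1 => (C m1).sup fun c =>
            Rsp (S m1 (rep m1 c).1 (rep m1 c).2) m q ⊔ Rsp (S' m1 (rep m1 c).1 (rep m1 c).2) m q)
            (Finset.mem_Ico.2 ⟨h1, h2⟩))
      apply hsub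
      rw [h.cell m1 _ _ x y h5 h6, h'.cell m1 _ _ x y h5 h6]
      rcases hf with hf | hf
      · rw [hf]; exact Submodule.mem_sup_left (Rsp_mem m q v)
      · rw [hf]; exact Submodule.mem_sup_right (Rsp_mem m q v)
    · have hf0 : f = 0 := by
        rcases hf with hf | hf
        · rw [hf]
          funext z
          unfold rsw
          split_ifs with hz
          · by_contra hne
            exact hy ⟨z, (h.supp m1 x y z v hne).1, hz⟩
          · rfl
        · rw [hf]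
          funext z
          unfold rsw
          split_ifs with hz
          · by_contra hne
            exact hy ⟨z, (h'.supp m1 x y z v hne).1, hz⟩
          · rfl
      rw [hf0]
      exact Submodule.zero_mem _
  rw [prj_trace]
  have h1 : (Module.finrank ℝ (Vsp K M S S' m q p) : ℝ) ≤ Module.finrank ℝ W := by
    exact_mod_cast Submodule.finrank_mono hle
  refine h1.trans ?_
  have h2 : (Module.finrank ℝ W : ℝ) ≤ ∑ m1 ∈ Finset.Ico m M, ∑ c ∈ C m1,
      ((S m1 (rep m1 c).1 (rep m1 c).2).trace + (S' m1 (rep m1 c).1 (rep m1 c).2).trace) := by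
    have h3 := finrank_finset_sup_le (Finset.Ico m M) (fun m1 => (C m1).sup fun c =>
      Rsp (S m1 (rep m1 c).1 (rep m1 c).2) m q ⊔ Rsp (S' m1 (rep m1 c).1 (rep m1 c).2) m q)
    have h4 : (Module.finrank ℝ W : ℝ) ≤ ∑ m1 ∈ Finset.Ico m M, (Module.finrank ℝ
        ((C m1).sup fun c => Rsp (S m1 (rep m1 c).1 (rep m1 c).2) m q ⊔
          Rsp (S' m1 (rep m1 c).1 (rep m1 c).2) m q : Submodule ℝ (ZMod Q → ℝ)) : ℝ) := by
      exact_mod_cast h3
    refine h4.trans (Finset.sum_le_sum fun m1 _ => ?_)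
    have h5 := finrank_finset_sup_le (C m1) (fun c =>
      Rsp (S m1 (rep m1 c).1 (rep m1 c).2) m q ⊔ Rsp (S' m1 (rep m1 c).1 (rep m1 c).2) m q)
    have h6 : (Module.finrank ℝ
        ((C m1).sup fun c => Rsp (S m1 (rep m1 c).1 (rep m1 c).2) m q ⊔
          Rsp (S' m1 (rep m1 c).1 (rep m1 c).2) m q : Submodule ℝ (ZMod Q → ℝ)) : ℝ) ≤
        ∑ c ∈ C m1, (Module.finrank ℝ (Rsp (S m1 (rep m1 c).1 (rep m1 c).2) m q ⊔
          Rsp (S' m1 (rep m1 c).1 (rep m1 c).2) m q : Submodule ℝ (ZMod Q → ℝ)) : ℝ) := by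
      exact_mod_cast h5
    refine h6.trans (Finset.sum_le_sum fun c _ => ?_)
    have h7 := finrank_sup_le (Rsp (S m1 (rep m1 c).1 (rep m1 c).2) m q)
      (Rsp (S' m1 (rep m1 c).1 (rep m1 c).2) m q)
    have h8 := Rsp_finrank (h.pr m1 (rep m1 c).1 (rep m1 c).2) m q
    have h9 := Rsp_finrank (h'.pr m1 (rep m1 c).1 (rep m1 c).2) m q
    have h10 : (Module.finrank ℝ (Rsp (S m1 (rep m1 c).1 (rep m1 c).2) m q ⊔
          Rsp (S' m1 (rep m1 c).1 (rep m1 c).2) m q : Submodule ℝ (ZMod Q → ℝ)) : ℝ) ≤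
        (Module.finrank ℝ (Rsp (S m1 (rep m1 c).1 (rep m1 c).2) m q) : ℝ) +
        (Module.finrank ℝ (Rsp (S' m1 (rep m1 c).1 (rep m1 c).2) m q) : ℝ) := by
      exact_mod_cast h7
    linarith
  refine h2.trans (Finset.sum_le_sum fun m1 hm1 => ?_)
  rw [Finset.mem_Ico] at hm1
  have hQ1 : 2 ^ m1 ∣ Q := (pow_dvd_pow 2 hm1.2.le).trans hQ
  have h3 := cells_le h hm1.1 hQ1 hK q p (rep m1) (hrep m1)
  have h4 := cells_le h' hm1.1 hQ1 hK q p (rep m1) (hrep m1)
  rw [Finset.sum_add_distrib]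
  refine (add_le_add h3 h4).trans (le_of_eq ?_)
  rw [← Finset.sum_add_distrib]
  refine Finset.sum_congr rfl fun x _ => ?_
  rw [← Finset.sum_add_distrib]
  refine Finset.sum_congr rfl fun y _ => ?_
  split_ifs
  · ring
  · ring

/-- **EXISTENCE OF THE WINDOW SPACES** -/
theorem existsSpc : ExistsSpc := by
  intro Q _ B M D dl dl' n n' Y Y' S S' hQ h h'
  refine ⟨fun m q p => prj (Vsp (D + 2) M S S' m q p), ⟨fun m q p => prj_isPr _, ?_, ?_, ?_, ?_⟩⟩
  · -- support
    intro m q p u v huv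
    have h1 : I1 (2 ^ m) q * prj (Vsp (D + 2) M S S' m q p) = prj (Vsp (D + 2) M S S' m q p) := by
      apply Matrix.ext_of_mulVec_single
      intro j
      rw [← mulVec_mulVec]
      exact Vsp_rsw (prj_mem _ _)
    have h2 : prj (Vsp (D + 2) M S S' m q p) * I1 (2 ^ m) q = prj (Vsp (D + 2) M S S' m q p) := by
      have := congrArg transpose h1
      rwa [transpose_mul, (prj_isPr _).symm, I1_tr] at this
    constructor
    · by_contra hne
      apply huv
      rw [← h1]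
      unfold I1
      rw [diagonal_mul, if_neg hne, zero_mul]
    · by_contra hne
      apply huv
      rw [← h2]
      unfold I1
      rw [mul_diagonal, if_neg hne, mul_zero]
  · -- nested
    intro m k' _ q p a ha b hb
    set P' := prj (Vsp (D + 2) M S S' (m + k') q p) with hP'
    set P := prj (Vsp (D + 2) M S S' m (q + st m a) (p + st m b)) with hP
    have h1 : P' * I1 (2 ^ m) (q + st m a) * P = P' * I1 (2 ^ m) (q + st m a) :=
      prj_mul_mul' (I1_tr _ _) fun v hv => Vsp_nest ha hb hv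
    have h2 : I1 (2 ^ m) (q + st m a) * P = P := by
      apply Matrix.ext_of_mulVec_single
      intro j
      rw [← mulVec_mulVec]
      exact Vsp_rsw (prj_mem _ _)
    rw [← h1, Matrix.mul_assoc, h2]
  · -- rows of the band
    intro m hm x q p hx y hy
    have h1 := prj_fix (band_mem (K := D + 2) le_rfl hQ h h' hm hx)
    have h2 := congrFun h1 y
    have h3 : rsw (2 ^ m) q ((Y m - Y' m) x) y = (Y m - Y' m) x y := by
      unfold rsw; rw [if_pos hy]
    rw [h3] at h2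
    rw [← h2]
    simp only [mulVec, dotProduct]
    refine Finset.sum_congr rfl fun u _ => ?_
    have hs : prj (Vsp (D + 2) M S S' m q p) u y = prj (Vsp (D + 2) M S S' m q p) y u := by
      conv_lhs => rw [← (prj_isPr (Vsp (D + 2) M S S' m q p)).symm]
      rfl
    have h4 : prj (Vsp (D + 2) M S S' m q p) y u * (if win (2 ^ m) q u then (1 : ℝ) else 0) =
        prj (Vsp (D + 2) M S S' m q p) y u := by
      have h5 : prj (Vsp (D + 2) M S S' m q p) * I1 (2 ^ m) q =
          prj (Vsp (D + 2) M S S' m q p) := by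
        have h6 : I1 (2 ^ m) q * prj (Vsp (D + 2) M S S' m q p) =
            prj (Vsp (D + 2) M S S' m q p) := by
          apply Matrix.ext_of_mulVec_single
          intro j
          rw [← mulVec_mulVec]
          exact Vsp_rsw (prj_mem _ _)
        have := congrArg transpose h6
        rwa [transpose_mul, (prj_isPr _).symm, I1_tr] at this
      have h7 := congrFun (congrFun h5 y) u
      unfold I1 at h7
      rw [mul_diagonal] at h7
      exact h7
    rw [hs]
    unfold rsw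
    split_ifs with hu
    · ring
    · rw [if_neg hu, mul_zero] at h4
      rw [← h4]; ring
  · intro m hm q p
    exact Vsp_trace hQ h h' (by omega) m q p

end spaces

end Crest.Agent.R079.CRdx279
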