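import Crest.Agent.R079.CRd_279
import Crest.Agent.R079.CRL3b_138

/-! R079, RAGGED CORNER (CR), leaf L4b (`CRdefx253.KilOfSpc`): the compressed killer of a band is a
killer record, weight = trace of the window space.  helper279. -/

set_option autoImplicit false
set_option linter.unusedVariables false
set_option linter.unusedSectionVars false
set_option linter.unusedSimpArgs false

namespace Crest.Agent.R079.CRkx279

open Matrix Finset Crest.Agent.R072
open Crest.Agent.R079.PotL (bl cel IsPr hs2)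
open Crest.Agent.R079.CRdefx253
open Crest.Agent.R079.CRL3bx138 (box_apply)
open Crest.Agent.R079.CRdx279 (win_sub)
open scoped MatrixOrder

section gen

variable {m n : Type*} [Fintype m] [Fintype n]

theorem hs_pr_le {P : Matrix m m ℝ} (hP : IsPr P) {X : Matrix m n ℝ} {c : ℝ} (hX : OpLe X c) :
    hs2 (P * X) ≤ c ^ 2 * P.trace := by
  have hT := CRL3bx138.OpLe.transpose hX
  have h1 : P.trace = ∑ i, ∑ l, P i l ^ 2 := by
    conv_lhs => rw [← hP.idem]
    unfold Matrix.trace
    refine Finset.sum_congr rfl fun i _ => ?_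
    rw [Matrix.diag_apply, Matrix.mul_apply]
    refine Finset.sum_congr rfl fun l _ => ?_
    have : P l i = P i l := by
      conv_lhs => rw [← hP.symm]
      rfl
    rw [this]; ring
  rw [h1]
  unfold hs2
  rw [Finset.mul_sum]
  refine Finset.sum_le_sum fun i _ => ?_
  have h2 := hT.2 (fun l => P i l)
  refine le_trans (le_of_eq ?_) h2
  refine Finset.sum_congr rfl fun j _ => ?_
  rw [Matrix.mul_apply]
  congr 1
  exact Finset.sum_congr rfl fun l _ => by rw [Matrix.transpose_apply]; ring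

end gen

variable {Q : ℕ} [NeZero Q]

/-- a sub box of a box has a smaller operator norm -/
theorem opLe_sub {C : Mx Q} {m k' a b : ℕ} (ha : a < 2 ^ k') (hb : b < 2 ^ k') {q p : ZMod Q} {c : ℝ}
    (h : OpLe (box C (2 ^ (m + k')) q p) c) :
    OpLe (box C (2 ^ m) (q + st m a) (p + st m b)) c := by
  refine ⟨h.1, fun v => ?_⟩
  have h1 := h.2 (fun j => if win (2 ^ m) (p + st m b) j then v j else 0)
  have h2 : ∀ i, (∑ j, box C (2 ^ m) (q + st m a) (p + st m b) i j * v j) ^ 2 ≤
      (∑ j, box C (2 ^ (m + k')) q p i j * (if win (2 ^ m) (p + st m b) j then v j else 0)) ^ 2 := by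
    intro i
    by_cases hi : win (2 ^ m) (q + st m a) i
    · apply le_of_eq
      congr 1
      refine Finset.sum_congr rfl fun j _ => ?_
      rw [box_apply, box_apply]
      by_cases hj : win (2 ^ m) (p + st m b) j
      · rw [if_pos ⟨hi, hj⟩, if_pos hj, if_pos ⟨win_sub ha hi, win_sub hb hj⟩]
      · rw [if_neg (fun hh => hj hh.2), if_neg hj, mul_zero, zero_mul]
    · have : ∑ j, box C (2 ^ m) (q + st m a) (p + st m b) i j * v j = 0 := by
        refine Finset.sum_eq_zero fun j _ => ?_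
        rw [box_apply, if_neg (fun hh => hi hh.1), zero_mul]
      rw [this]
      exact le_trans (le_of_eq (by norm_num)) (sq_nonneg _)
  refine (Finset.sum_le_sum fun i _ => h2 i).trans (h1.trans ?_)
  refine mul_le_mul_of_nonneg_left (Finset.sum_le_sum fun j _ => ?_) (sq_nonneg _)
  split_ifs
  · exact le_rfl
  · exact le_trans (le_of_eq (by norm_num)) (sq_nonneg _)

open Classical in
/-- number of points near a point -/
theorem card_nr (r : ℕ) (c : ZMod Q) :
    ∑ q : ZMod Q, (if ∃ s : ℤ, |s| ≤ r ∧ q = c + (s : ZMod Q) then (1 : ℝ) else 0) ≤ 2 * r + 1 := by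
  rw [Finset.sum_boole]
  have h1 : (Finset.univ.filter fun q : ZMod Q => ∃ s : ℤ, |s| ≤ r ∧ q = c + (s : ZMod Q)) ⊆
      (Finset.Icc (-(r : ℤ)) r).image fun s : ℤ => c + (s : ZMod Q) := by
    intro q hq
    obtain ⟨s, hs, he⟩ := (Finset.mem_filter.1 hq).2
    exact Finset.mem_image.2 ⟨s, Finset.mem_Icc.2 (abs_le.1 hs), he.symm⟩
  have h2 : (Finset.univ.filter fun q : ZMod Q => ∃ s : ℤ, |s| ≤ r ∧ q = c + (s : ZMod Q)).card ≤
      2 * r + 1 := by
    refine (Finset.card_le_card h1).trans (Finset.card_image_le.trans ?_)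
    rw [Int.card_Icc]
    omega
  exact_mod_cast h2

open Classical in
theorem card_near (D L : ℕ) (c d : ZMod Q) :
    ∑ q : ZMod Q, ∑ p : ZMod Q, (if near D L c d q p then (1 : ℝ) else 0) ≤
      (2 * D + 1) ^ 2 * 4 ^ L := by
  have h1 : ∀ q p : ZMod Q, (if near D L c d q p then (1 : ℝ) else 0) =
      (if ∃ s : ℤ, |s| ≤ ((D * 2 ^ L : ℕ) : ℤ) ∧ q = c + (s : ZMod Q) then (1 : ℝ) else 0) *
      (if ∃ s : ℤ, |s| ≤ ((D * 2 ^ L : ℕ) : ℤ) ∧ p = d + (s : ZMod Q) then (1 : ℝ) else 0) := by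
    intro q p
    have e : ((D * 2 ^ L : ℕ) : ℤ) = (D : ℤ) * 2 ^ L := by push_cast; rfl
    unfold near
    rw [e]
    by_cases hq : ∃ s : ℤ, |s| ≤ (D : ℤ) * 2 ^ L ∧ q = c + (s : ZMod Q) <;>
    by_cases hp : ∃ s : ℤ, |s| ≤ (D : ℤ) * 2 ^ L ∧ p = d + (s : ZMod Q) <;> simp [hq, hp]
  simp only [h1]
  rw [← Finset.sum_mul_sum]
  have h2 := card_nr (D * 2 ^ L) c
  have h3 := card_nr (D * 2 ^ L) d
  have h4 : (1 : ℝ) ≤ 2 ^ L := one_le_pow₀ (by norm_num)
  have h5 : 2 * ((D * 2 ^ L : ℕ) : ℝ) + 1 ≤ (2 * D + 1) * 2 ^ L := by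
    push_cast
    nlinarith
  have h0 : ∀ c : ZMod Q, 0 ≤ ∑ q : ZMod Q,
      (if ∃ s : ℤ, |s| ≤ ((D * 2 ^ L : ℕ) : ℤ) ∧ q = c + (s : ZMod Q) then (1 : ℝ) else 0) := by
    intro c
    refine Finset.sum_nonneg fun q _ => ?_
    split_ifs <;> norm_num
  calc _ ≤ ((2 * D + 1) * 2 ^ L) * (((2 : ℝ) * D + 1) * 2 ^ L) :=
        mul_le_mul (h2.trans h5) (h3.trans h5) (h0 d) (by positivity)
    _ = (2 * D + 1) ^ 2 * 4 ^ L := by
        have : (4 : ℝ) ^ L = 2 ^ L * 2 ^ L := by rw [← mul_pow]; norm_num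
        rw [this]; ring

open Classical in
/-- the weight function of the spaces -/
noncomputable def Fw (D M : ℕ) (g : ℕ → ZMod Q → ZMod Q → ℝ) (m : ℕ) (q p : ZMod Q) : ℝ :=
  ∑ m' ∈ Finset.Ico m M, ∑ x : ZMod Q, ∑ y : ZMod Q,
    (if near D m' y (-x - y) q p then g m' x y / 4 ^ m' else 0)

open Classical in
/-- **double counting** -/
theorem dcount (D M j : ℕ) (g : ℕ → ZMod Q → ZMod Q → ℝ) (hg : ∀ m x y, 0 ≤ g m x y) (n : ℝ)
    (hn : ∑ m ∈ range M, ∑ x : ZMod Q, ∑ y : ZMod Q, g m x y ≤ n)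
    (E : ℕ → ZMod Q → ZMod Q → Prop) (Cc : ℝ) (hCc : 0 ≤ Cc)
    (hE : ∀ m' < M, ∀ c d : ZMod Q, ∑ m ∈ range (m' + 1), ∑ q : ZMod Q, ∑ p : ZMod Q,
      (if E m q p ∧ near D m' c d q p then (1 : ℝ) else 0) ≤ Cc * 4 ^ m') :
    ∑ m ∈ range M, ∑ q : ZMod Q, ∑ p : ZMod Q, (if E m q p then Fw D M g (m + j) q p else 0) ≤
      Cc * n := by
  -- expand
  have h1 : ∀ m q p, (if E m q p then Fw D M g (m + j) q p else 0) ≤
      ∑ m' ∈ range M, ∑ x : ZMod Q, ∑ y : ZMod Q,
        (g m' x y / 4 ^ m') * (if m ≤ m' ∧ E m q p ∧ near D m' y (-x - y) q p then (1 : ℝ) else 0) := by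
    intro m q p
    by_cases hm : E m q p
    · rw [if_pos hm]
      unfold Fw
      have hsub : Finset.Ico (m + j) M ⊆ range M := by
        intro a ha
        rw [Finset.mem_Ico] at ha
        exact Finset.mem_range.2 ha.2
      refine le_trans ?_ (Finset.sum_le_sum_of_subset_of_nonneg hsub fun m' _ _ =>
        Finset.sum_nonneg fun x _ => Finset.sum_nonneg fun y _ => ?_)
      · refine Finset.sum_le_sum fun m' hm' => Finset.sum_le_sum fun x _ =>
          Finset.sum_le_sum fun y _ => ?_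
        rw [Finset.mem_Ico] at hm'
        by_cases hnr : near D m' y (-x - y) q p
        · rw [if_pos hnr, if_pos ⟨by omega, hm, hnr⟩, mul_one]
        · rw [if_neg hnr, if_neg (fun hh => hnr hh.2.2), mul_zero]
      · refine mul_nonneg (div_nonneg (hg _ _ _) (by positivity)) ?_
        split_ifs <;> norm_num
    · rw [if_neg hm]
      refine Finset.sum_nonneg fun m' _ => Finset.sum_nonneg fun x _ => Finset.sum_nonneg fun y _ =>
        mul_nonneg (div_nonneg (hg _ _ _) (by positivity)) ?_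
      split_ifs <;> norm_num
  have h2 : ∑ m ∈ range M, ∑ q : ZMod Q, ∑ p : ZMod Q,
      (if E m q p then Fw D M g (m + j) q p else 0) ≤
      ∑ m' ∈ range M, ∑ x : ZMod Q, ∑ y : ZMod Q, (g m' x y / 4 ^ m') *
        ∑ m ∈ range M, ∑ q : ZMod Q, ∑ p : ZMod Q,
          (if m ≤ m' ∧ E m q p ∧ near D m' y (-x - y) q p then (1 : ℝ) else 0) := by
    calc _ ≤ ∑ m ∈ range M, ∑ q : ZMod Q, ∑ p : ZMod Q, ∑ m' ∈ range M, ∑ x : ZMod Q,
          ∑ y : ZMod Q, (g m' x y / 4 ^ m') *
            (if m ≤ m' ∧ E m q p ∧ near D m' y (-x - y) q p then (1 : ℝ) else 0) :=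
          Finset.sum_le_sum fun m _ => Finset.sum_le_sum fun q _ => Finset.sum_le_sum fun p _ =>
            h1 m q p
      _ = ∑ z ∈ range M ×ˢ ((Finset.univ : Finset (ZMod Q)) ×ˢ (Finset.univ : Finset (ZMod Q))),
            ∑ w ∈ range M ×ˢ ((Finset.univ : Finset (ZMod Q)) ×ˢ (Finset.univ : Finset (ZMod Q))),
            (g w.1 w.2.1 w.2.2 / 4 ^ w.1) *
            (if z.1 ≤ w.1 ∧ E z.1 z.2.1 z.2.2 ∧
              near D w.1 w.2.2 (-w.2.1 - w.2.2) z.2.1 z.2.2 then (1 : ℝ) else 0) := by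
          simp only [Finset.sum_product]
      _ = _ := by
          rw [Finset.sum_comm]
          simp only [Finset.sum_product, Finset.mul_sum]
  refine h2.trans ?_
  have h3 : ∀ m' ∈ range M, ∀ x y : ZMod Q, ∑ m ∈ range M, ∑ q : ZMod Q, ∑ p : ZMod Q,
      (if m ≤ m' ∧ E m q p ∧ near D m' y (-x - y) q p then (1 : ℝ) else 0) ≤ Cc * 4 ^ m' := by
    intro m' hm' x y
    rw [Finset.mem_range] at hm'
    refine le_trans (le_of_eq ?_) (hE m' hm' y (-x - y))
    have hsub : range (m' + 1) ⊆ range M := by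
      intro a ha
      rw [Finset.mem_range] at *
      omega
    rw [← Finset.sum_subset hsub]
    · refine Finset.sum_congr rfl fun m hm => Finset.sum_congr rfl fun q _ =>
        Finset.sum_congr rfl fun p _ => ?_
      rw [Finset.mem_range] at hm
      have : m ≤ m' := by omega
      simp [this]
    · intro m _ hm
      rw [Finset.mem_range] at hm
      refine Finset.sum_eq_zero fun q _ => Finset.sum_eq_zero fun p _ => ?_
      rw [if_neg (fun hh => hm (by omega))]
  calc _ ≤ ∑ m' ∈ range M, ∑ x : ZMod Q, ∑ y : ZMod Q, (g m' x y / 4 ^ m') * (Cc * 4 ^ m') :=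
        Finset.sum_le_sum fun m' hm' => Finset.sum_le_sum fun x _ => Finset.sum_le_sum fun y _ =>
          mul_le_mul_of_nonneg_left (h3 m' hm' x y) (div_nonneg (hg _ _ _) (by positivity))
    _ = Cc * ∑ m' ∈ range M, ∑ x : ZMod Q, ∑ y : ZMod Q, g m' x y := by
        simp only [Finset.mul_sum]
        refine Finset.sum_congr rfl fun m' _ => Finset.sum_congr rfl fun x _ =>
          Finset.sum_congr rfl fun y _ => ?_
        have : (4 : ℝ) ^ m' ≠ 0 := by positivity
        field_simp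
    _ ≤ Cc * n := mul_le_mul_of_nonneg_left hn hCc

/-- **L4b** -/
theorem kilOfSpc : KilOfSpc := by
  classical
  intro k D C1
  refine ⟨(2 * (D + 16 : ℕ) + 1) ^ 2 * 2 + |C1| * 2, by positivity, ?_⟩
  intro Q _ B C M dl dl' n Y Y' S S' R al hQ h h' hS hR
  have htr : ∀ m q p, 0 ≤ (R m q p).trace := fun m q p => PotL.PLE1.IsPr.trace_nonneg' (hS.pr m q p)
  set g : ℕ → ZMod Q → ZMod Q → ℝ := fun m x y => (S m x y).trace + (S' m x y).trace with hg
  have hg0 : ∀ m x y, 0 ≤ g m x y := fun m x y =>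
    add_nonneg (PotL.PLE1.IsPr.trace_nonneg' (h.pr m x y))
      (PotL.PLE1.IsPr.trace_nonneg' (h'.pr m x y))
  have hgn : ∑ m ∈ range M, ∑ x : ZMod Q, ∑ y : ZMod Q, g m x y ≤ 2 * n := by
    have h1 := h.count
    have h2 := h'.count
    simp only [hg, Finset.sum_add_distrib]
    linarith
  have hn0 : 0 ≤ n := by
    have h1 := h.count
    have : 0 ≤ ∑ m ∈ range M, ∑ x : ZMod Q, ∑ y : ZMod Q, (S m x y).trace :=
      Finset.sum_nonneg fun m _ => Finset.sum_nonneg fun x _ => Finset.sum_nonneg fun y _ =>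
        PotL.PLE1.IsPr.trace_nonneg' (h.pr m x y)
    linarith
  have hFw : ∀ m < M, ∀ q p, (R m q p).trace ≤ Fw (D + 16) M g m q p := by
    intro m hm q p
    refine (hS.tr m hm q p).trans (le_of_eq ?_)
    unfold Fw
    exact Finset.sum_congr rfl fun m' _ => Finset.sum_congr rfl fun x _ =>
      Finset.sum_congr rfl fun y _ => by congr 1
  refine ⟨hS.pr, hS.supp, hS.nest, ?_, ?_, htr, ?_, ?_⟩
  · intro m hm q p hal
    have := hR.op m hm q p hal
    rwa [mul_one] at this
  · intro m k' hm q p hal a ha b hb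
    have h1 := hR.op (m + k') hm q p hal
    rw [mul_one] at h1
    have h2 := hs_pr_le (hS.pr (m + k') q p) (opLe_sub ha hb h1)
    refine h2.trans (le_of_eq ?_)
    congr 1
    rw [← pow_mul, mul_comm _ 2, pow_mul]
    norm_num
  · -- bottom
    intro m hm
    obtain ⟨E0, hE0⟩ : ∃ E0 : ℕ → ZMod Q → ZMod Q → Prop,
      ∀ m0 q p, E0 m0 q p ↔ (m0 = m ∧ al m0 q p) := ⟨fun m0 q p => m0 = m ∧ al m0 q p, fun _ _ _ => Iff.rfl⟩
    have h1 := dcount (D + 16) M 0 g hg0 (2 * n) hgn E0
      ((2 * ((D + 16 : ℕ) : ℝ) + 1) ^ 2) (by positivity) (by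
        intro m' hm' c d
        refine le_trans ?_ (card_near (D + 16) m' c d)
        calc _ ≤ ∑ m0 ∈ range (m' + 1), (if m0 = m then ∑ q : ZMod Q, ∑ p : ZMod Q,
              (if near (D + 16) m' c d q p then (1 : ℝ) else 0) else 0) := by
              refine Finset.sum_le_sum fun m0 _ => ?_
              by_cases hm0 : m0 = m
              · rw [if_pos hm0]
                refine Finset.sum_le_sum fun q _ => Finset.sum_le_sum fun p _ => ?_
                by_cases hnr : near (D + 16) m' c d q p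
                · rw [if_pos hnr]; split_ifs <;> norm_num
                · rw [if_neg hnr, if_neg (fun hh => hnr hh.2)]
              · rw [if_neg hm0]
                apply le_of_eq
                refine Finset.sum_eq_zero fun q _ => Finset.sum_eq_zero fun p _ => ?_
                rw [if_neg (fun hh => hm0 ((hE0 _ _ _).1 hh.1).1)]
          _ ≤ _ := by
              rw [Finset.sum_ite_eq']
              split_ifs
              · exact le_rfl
              · refine Finset.sum_nonneg fun q _ => Finset.sum_nonneg fun p _ => ?_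
                split_ifs <;> norm_num)
    have h2 : ∑ q : ZMod Q, ∑ p : ZMod Q, (if al m q p then (R m q p).trace else 0) ≤
        ∑ m0 ∈ range M, ∑ q : ZMod Q, ∑ p : ZMod Q,
          (if E0 m0 q p then Fw (D + 16) M g (m0 + 0) q p else 0) := by
      have hF0 : ∀ m q p, 0 ≤ Fw (D + 16) M g m q p := by
        intro m q p
        unfold Fw
        refine Finset.sum_nonneg fun m' _ => Finset.sum_nonneg fun x _ =>
          Finset.sum_nonneg fun y _ => ?_
        split_ifs
        · exact div_nonneg (hg0 _ _ _) (by positivity)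
        · exact le_rfl
      refine le_trans ?_ (Finset.single_le_sum (f := fun m0 => ∑ q : ZMod Q, ∑ p : ZMod Q,
          (if E0 m0 q p then Fw (D + 16) M g (m0 + 0) q p else 0)) (fun m0 _ =>
          Finset.sum_nonneg fun q _ => Finset.sum_nonneg fun p _ => ?_) (Finset.mem_range.2 hm))
      · refine Finset.sum_le_sum fun q _ => Finset.sum_le_sum fun p _ => ?_
        by_cases hal : al m q p
        · rw [if_pos hal, if_pos ((hE0 _ _ _).2 ⟨rfl, hal⟩), add_zero]
          exact hFw m hm q p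
        · rw [if_neg hal, if_neg (fun hh => hal ((hE0 _ _ _).1 hh).2)]
      · split_ifs
        · exact hF0 _ _ _
        · exact le_rfl
    refine h2.trans (h1.trans ?_)
    have h3 : 0 ≤ |C1| * 2 * n := by positivity
    nlinarith
  · -- exits
    intro k' hk'
    have h1 := dcount (D + 16) M k' g hg0 (2 * n) hgn (fun m q p => m + k' < M ∧ Exit al k' m q p)
      |C1| (abs_nonneg _) (by
        intro m' hm' c d
        have h2 := hR.ex k' hk' m' hm'.le c d
        refine le_trans (le_of_eq ?_) (h2.trans (mul_le_mul_of_nonneg_right (le_abs_self C1)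
          (by positivity)))
        refine Finset.sum_congr rfl fun m _ => Finset.sum_congr rfl fun q _ =>
          Finset.sum_congr rfl fun p _ => ?_
        congr 1
        apply propext
        constructor
        · rintro ⟨⟨a, b⟩, c⟩; exact ⟨a, c, b⟩
        · rintro ⟨a, b, c⟩; exact ⟨⟨a, c⟩, b⟩)
    refine le_trans ?_ (h1.trans ?_)
    · refine Finset.sum_le_sum fun m _ => Finset.sum_le_sum fun q _ => Finset.sum_le_sum fun p _ => ?_
      by_cases hE : m + k' < M ∧ Exit al k' m q p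
      · rw [if_pos hE, if_pos hE]
        exact hFw _ hE.1 q p
      · rw [if_neg hE, if_neg hE]
    · have h3 : 0 ≤ (2 * ((D + 16 : ℕ) : ℝ) + 1) ^ 2 * 2 * n := by positivity
      nlinarith

end Crest.Agent.R079.CRkx279
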