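import Crest.Agent.R079.CRa_371
import Crest.Agent.R079.PLCost_931
import Crest.Agent.R079.PLE1_653

/-! R079, RAGGED CORNER (note 833 of helper371), leaf L5, killer part, matrix lemmas.
The block killer goes UP in scale by a CONTRACTION `P (X + D)` (`X` old letters, `D` exits), which costs
nothing but the exits: `phi_col` (own variable = columns), `phi_row` (own variable = rows).  helper250. -/

set_option autoImplicit false
set_option linter.unusedVariables false
set_option linter.unusedSectionVars false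

namespace Crest.Agent.R079.CRex250

open Matrix Finset Crest.Agent.R072 Crest.Agent.R079.PotL
open scoped MatrixOrder

local notation "rt" => CFC.sqrt

section mat

variable {m n k : Type*} [Fintype m] [DecidableEq m] [Fintype n] [DecidableEq n]
  [Fintype k] [DecidableEq k]

theorem psd_mt (X : Matrix m n ℝ) : (X * Xᵀ).PosSemidef := by
  have := psd_tms Xᵀ
  rwa [transpose_transpose] at this

/-- `hs2` as a trace -/
theorem hs2_eq (A : Matrix m n ℝ) : hs2 A = (A * Aᵀ).trace := by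
  simp only [hs2, Matrix.trace, Matrix.diag, Matrix.mul_apply, Matrix.transpose_apply]
  exact sum_congr rfl fun _ _ => sum_congr rfl fun _ _ => by ring

theorem trace_hs (A B : Matrix m n ℝ) : (A * Bᵀ).trace ≤ hsn A * hsn B := by
  refine le_trans (le_of_eq ?_) (hs_cs A B)
  simp only [Matrix.trace, Matrix.diag, Matrix.mul_apply, Matrix.transpose_apply]

/-- quadratic form at most `c` -/
def QF (M : Matrix n n ℝ) (c : ℝ) : Prop := ∀ v : n → ℝ, v ⬝ᵥ M *ᵥ v ≤ c * (v ⬝ᵥ v)

theorem hs2_eq_dot (A : Matrix m n ℝ) : hs2 A = ∑ i : m, A i ⬝ᵥ A i := by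
  unfold hs2 dotProduct
  exact sum_congr rfl fun _ _ => sum_congr rfl fun _ _ => by ring

theorem trace_amat (A : Matrix m n ℝ) (M : Matrix n n ℝ) :
    (A * M * Aᵀ).trace = ∑ i : m, A i ⬝ᵥ M *ᵥ A i := by
  unfold Matrix.trace
  refine sum_congr rfl fun i _ => ?_
  rw [Matrix.diag_apply, Matrix.mul_assoc, Matrix.mul_apply]
  unfold dotProduct
  refine sum_congr rfl fun j _ => ?_
  rw [Matrix.mul_apply]
  rfl

theorem trace_amat_le {M : Matrix n n ℝ} {c : ℝ} (h : QF M c) (A : Matrix m n ℝ) :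
    (A * M * Aᵀ).trace ≤ c * hs2 A := by
  rw [trace_amat, hs2_eq_dot, Finset.mul_sum]
  exact sum_le_sum fun i _ => h (A i)

theorem hs2_mul_rt {M : Matrix n n ℝ} (hM : M.PosSemidef) {c : ℝ} (h : QF M c)
    (A : Matrix m n ℝ) : hs2 (A * rt M) ≤ c * hs2 A := by
  have e : A * rt M * (A * rt M)ᵀ = A * M * Aᵀ := by
    rw [transpose_mul, rt_transpose, Matrix.mul_assoc, ← Matrix.mul_assoc (rt M) (rt M),
      rt_mul_rt hM, Matrix.mul_assoc]
  rw [hs2_eq, e]
  exact trace_amat_le h A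

theorem hsn_mul_rt {M : Matrix n n ℝ} (hM : M.PosSemidef) {c : ℝ} (hc : 0 ≤ c) (h : QF M c)
    (A : Matrix m n ℝ) : hsn (A * rt M) ≤ Real.sqrt c * hsn A := by
  unfold hsn
  rw [← Real.sqrt_mul hc]
  exact Real.sqrt_le_sqrt (hs2_mul_rt hM h A)

/-- the trace pairing `tr(A √M Bᵀ)` -/
theorem pair_rt {M : Matrix n n ℝ} (hM : M.PosSemidef) {c : ℝ} (hc : 0 ≤ c) (h : QF M c)
    (A B : Matrix m n ℝ) : (A * rt M * Bᵀ).trace ≤ Real.sqrt c * (hsn A * hsn B) := by
  refine (trace_hs (A * rt M) B).trans ?_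
  rw [← mul_assoc]
  exact mul_le_mul_of_nonneg_right (hsn_mul_rt hM hc h A) (hsn_nonneg B)

/-- cyclic form -/
theorem pair_rt' {M : Matrix n n ℝ} (hM : M.PosSemidef) {c : ℝ} (hc : 0 ≤ c) (h : QF M c)
    (A B : Matrix m n ℝ) : (rt M * (Aᵀ * B)).trace ≤ Real.sqrt c * (hsn A * hsn B) := by
  have e : (rt M * (Aᵀ * B)).trace = (B * rt M * Aᵀ).trace := by
    rw [Matrix.trace_mul_comm, Matrix.mul_assoc, Matrix.trace_mul_comm]
  rw [e, mul_comm (hsn A)]
  exact pair_rt hM hc h B A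

/-- price of a general change of a Gram matrix by `2 XᵀD + DᵀD` -/
theorem phi_price (X D : Matrix m n ℝ) {G : Matrix n n ℝ} (hG : G.PosSemidef) {ω : ℝ} (hω : 0 ≤ ω)
    (h : QF ((X + D)ᵀ * (X + D) + G) ω) :
    phi ((X + D)ᵀ * (X + D) + G) ≤ phi (Xᵀ * X + G) +
      (3 / 2) * Real.sqrt ω * (2 * (hsn X * hsn D) + hs2 D) := by
  have hX : (Xᵀ * X + G).PosSemidef := (psd_tms X).add hG
  have hY : ((X + D)ᵀ * (X + D) + G).PosSemidef := (psd_tms (X + D)).add hG
  have h0 := phi_sub_le hY hX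
  set M := (X + D)ᵀ * (X + D) + G with hMd
  have e : M - (Xᵀ * X + G) = Xᵀ * D + Dᵀ * X + Dᵀ * D := by
    rw [hMd, transpose_add]
    simp only [Matrix.mul_add, Matrix.add_mul]
    abel
  rw [e, Matrix.mul_add, Matrix.mul_add, trace_add, trace_add] at h0
  have h1 := pair_rt' hY hω h X D
  have h2 := pair_rt' hY hω h D X
  have h3 := pair_rt' hY hω h D D
  have h4 : hsn D * hsn D = hs2 D := by rw [← sq, hsn_sq]
  rw [h4] at h3
  have h5 : hsn D * hsn X = hsn X * hsn D := mul_comm _ _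
  rw [h5] at h2
  nlinarith [h0, h1, h2, h3]

/-- `phi` is monotone -/
theorem phi_mono {M M' : Matrix n n ℝ} (hM : M.PosSemidef) (hM' : M'.PosSemidef)
    (h : (M' - M).PosSemidef) : phi M ≤ phi M' := by
  have h0 := phi_sub_le hM hM'
  have h1 : 0 ≤ (rt M * (M' - M)).trace := trace_mul_nonneg (rt_psd _) h
  have h2 : (rt M * (M - M')).trace = -(rt M * (M' - M)).trace := by
    rw [← neg_sub M' M, Matrix.mul_neg, trace_neg]
  rw [h2] at h0
  linarith

theorem proj_conj_psd {P M : Matrix n n ℝ} (hP : IsPr P) (hM : M.PosSemidef) :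
    (P * M * P).PosSemidef := by
  have := hM.mul_mul_conjTranspose_same P
  rwa [conjTranspose_eq_transpose_of_trivial, hP.symm] at this

/-- `√(P M P)` lives on the range of `P` -/
theorem rt_proj {P M : Matrix n n ℝ} (hP : IsPr P) (hM : M.PosSemidef) :
    rt (P * M * P) * P = rt (P * M * P) := by
  have hN := proj_conj_psd hP hM
  set R := rt (P * M * P) with hR
  have hRR : R * R = P * M * P := rt_mul_rt hN
  have hRt : Rᵀ = R := rt_transpose _
  have h1 : (R * (1 - P))ᵀ * (R * (1 - P)) = 0 := by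
    rw [transpose_mul, transpose_sub, transpose_one, hP.symm, hRt, Matrix.mul_assoc,
      ← Matrix.mul_assoc R R, hRR]
    have : P * M * P * (1 - P) = 0 := by
      rw [Matrix.mul_sub, Matrix.mul_one, Matrix.mul_assoc (P * M) P P, hP.idem, sub_self]
    rw [this, Matrix.mul_zero]
  have h2 := PLE1.tmul_zero _ h1
  rw [Matrix.mul_sub, Matrix.mul_one, sub_eq_zero] at h2
  exact h2.symm

theorem rt_proj' {P M : Matrix n n ℝ} (hP : IsPr P) (hM : M.PosSemidef) :
    P * rt (P * M * P) = rt (P * M * P) := by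
  have := congrArg Matrix.transpose (rt_proj hP hM)
  rwa [transpose_mul, rt_transpose, hP.symm] at this

/-- **contraction**: `phi (P M P) ≤ phi M` -/
theorem phi_proj_le {P M : Matrix n n ℝ} (hP : IsPr P) (hM : M.PosSemidef) :
    phi (P * M * P) ≤ phi M := by
  have hN := proj_conj_psd hP hM
  have h0 := phi_sub_le hN hM
  set R := rt (P * M * P) with hR
  have h1 : (R * (P * M * P - M)).trace = 0 := by
    rw [Matrix.mul_sub, trace_sub, sub_eq_zero]
    have e : R * (P * M * P) = (R * P) * (M * P) := by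
      simp only [Matrix.mul_assoc]
    rw [e, rt_proj hP hM, ← Matrix.mul_assoc, Matrix.trace_mul_comm, ← Matrix.mul_assoc,
      rt_proj' hP hM]
  rw [h1] at h0
  linarith

/-- contraction on the partner side: `(P X)ᵀ (P X) ≤ Xᵀ X` -/
theorem phi_partner_le {P : Matrix m m ℝ} (hP : IsPr P) (X : Matrix m n ℝ) {G : Matrix n n ℝ}
    (hG : G.PosSemidef) : phi ((P * X)ᵀ * (P * X) + G) ≤ phi (Xᵀ * X + G) := by
  refine phi_mono ((psd_tms _).add hG) ((psd_tms _).add hG) ?_
  have e : Xᵀ * X + G - ((P * X)ᵀ * (P * X) + G) = ((1 - P) * X)ᵀ * ((1 - P) * X) := by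
    have e1 : (P * X)ᵀ * (P * X) = Xᵀ * (P * X) := by
      rw [transpose_mul, hP.symm, Matrix.mul_assoc, ← Matrix.mul_assoc P P, hP.idem]
    have e2 : ((1 - P) * X)ᵀ * ((1 - P) * X) = Xᵀ * ((1 - P) * X) := by
      have h1 : (1 - P) * (1 - P) = 1 - P := by
        rw [Matrix.mul_sub, Matrix.mul_one, Matrix.sub_mul, Matrix.one_mul, hP.idem, sub_self,
          sub_zero]
      rw [transpose_mul, transpose_sub, transpose_one, hP.symm, Matrix.mul_assoc,
        ← Matrix.mul_assoc (1 - P) (1 - P), h1]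
    rw [e1, e2, Matrix.sub_mul, Matrix.one_mul, Matrix.mul_sub]
    abel
  rw [e]
  exact psd_tms _

/-- **killer, own variable = columns** : new letter `P (X + D)`, `X` = old letters, `D` = exits -/
theorem phi_col {P : Matrix m m ℝ} (hP : IsPr P) (X D : Matrix m n ℝ) {G : Matrix n n ℝ}
    (hG : G.PosSemidef) {ω : ℝ} (hω : 0 ≤ ω)
    (h : QF ((P * (X + D))ᵀ * (P * (X + D)) + G) ω) :
    phi ((P * (X + D))ᵀ * (P * (X + D)) + G) ≤ phi (Xᵀ * X + G) +
      (3 / 2) * Real.sqrt ω * (2 * (hsn (P * X) * hsn (P * D)) + hs2 (P * D)) := by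
  rw [Matrix.mul_add] at h ⊢
  refine (phi_price (P * X) (P * D) hG hω h).trans ?_
  have := phi_partner_le hP X hG
  linarith

/-- **killer, own variable = rows** : `P G P = G` for the Gram matrix `G` of the new band -/
theorem phi_row {P : Matrix n n ℝ} (hP : IsPr P) (X D : Matrix n m ℝ) {G : Matrix n n ℝ}
    (hG : G.PosSemidef) (hPG : P * G * P = G) {ω : ℝ} (hω : 0 ≤ ω)
    (h : QF ((P * (X + D)) * (P * (X + D))ᵀ + G) ω) :
    phi ((P * (X + D)) * (P * (X + D))ᵀ + G) ≤ phi (X * Xᵀ + G) +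
      (3 / 2) * Real.sqrt ω * (2 * (hsn (P * X) * hsn (P * D)) + hs2 (P * D)) := by
  have e1 : ∀ Z : Matrix n m ℝ, (Zᵀ)ᵀ * Zᵀ = Z * Zᵀ := fun Z => by rw [transpose_transpose]
  have h1 : QF (((P * X)ᵀ + (P * D)ᵀ)ᵀ * ((P * X)ᵀ + (P * D)ᵀ) + G) ω := by
    rw [← transpose_add, ← Matrix.mul_add, e1]
    exact h
  have h2 := phi_price (P * X)ᵀ (P * D)ᵀ hG hω h1
  rw [← transpose_add, ← Matrix.mul_add, e1, e1, hsn_transpose, hsn_transpose, hs2_transpose] at h2
  have e2 : (P * X) * (P * X)ᵀ + G = P * (X * Xᵀ + G) * P := by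
    rw [transpose_mul, hP.symm, Matrix.mul_add, Matrix.add_mul, hPG]
    simp only [Matrix.mul_assoc]
  have h3 := phi_proj_le hP ((psd_mt X).add hG)
  rw [← e2] at h3
  linarith

end mat

end Crest.Agent.R079.CRex250
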