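import Crest.Agent.R079.CRb_371
import Crest.Agent.R079.CRe_250

/-! R079, RAGGED CORNER (note 833 of helper371), leaf L5, killer part: BLOCK LETTERS of the killer
`kL N P al C q p = P q p * (1_q C 1_p)` on alive boxes, `0` on dead ones; comparison of the scale `N` with
the scale `2^j N` (`(V1)` nesting `P (sub box) * P' (box) = 1_(sub box) * P' (box)`), own variable
columns (`sum_col`) or rows (`sum_row`), exits, bottom.  helper250. -/

set_option autoImplicit false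
set_option linter.unusedVariables false
set_option linter.unusedSectionVars false

namespace Crest.Agent.R079.CRex250

open Matrix Finset Crest.Agent.R072 Crest.Agent.R079.PotL Crest.Agent.R079.CR371
open scoped MatrixOrder

section ebs

variable {Q : ℕ} [NeZero Q]

theorem ind_sub {N s : ℕ} (hN : 0 < N) (hs : (s + 1) * N ≤ Q) (q x : ZMod Q) :
    ind N (q + (s : ZMod Q) * (N : ZMod Q)) x = if (x - q).val / N = s then 1 else 0 := by
  have hd : (x - q).val < Q := ZMod.val_lt _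
  have e : (s : ZMod Q) * (N : ZMod Q) = ((s * N : ℕ) : ZMod Q) := by push_cast; ring
  have h1 : (s + 1) * N = s * N + N := by ring
  unfold ind
  rw [e, val_sub_add x q (s * N) (by omega)]
  by_cases h : s * N ≤ (x - q).val
  · rw [if_pos h]
    by_cases h2 : (x - q).val - s * N < N
    · rw [if_pos h2, if_pos]
      apply Nat.div_eq_of_lt_le h
      rw [h1]; omega
    · rw [if_neg h2, if_neg]
      intro h3
      have := Nat.lt_mul_div_succ (x - q).val hN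
      rw [h3] at this
      have h4 : N * (s + 1) = s * N + N := by ring
      omega
  · rw [if_neg h, if_neg (show ¬ ((x - q).val + Q - s * N < N) by omega), if_neg]
    intro h3
    have := Nat.div_mul_le_self (x - q).val N
    rw [h3] at this
    exact h this

theorem ind_sum {N K : ℕ} (hN : 0 < N) (hK : K * N ≤ Q) (q x : ZMod Q) :
    ind (K * N) q x = ∑ s ∈ range K, ind N (q + (s : ZMod Q) * (N : ZMod Q)) x := by
  have h1 : ∀ s ∈ range K, ind N (q + (s : ZMod Q) * (N : ZMod Q)) x =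
      if (x - q).val / N = s then 1 else 0 := by
    intro s hs
    rw [Finset.mem_range] at hs
    exact ind_sub hN (le_trans (Nat.mul_le_mul_right N hs) hK) q x
  rw [Finset.sum_congr rfl h1, Finset.sum_ite_eq]
  unfold ind
  congr 1
  rw [Finset.mem_range, Nat.div_lt_iff_lt_mul hN]

/-- the box of side `K N` is the sum of its sub boxes -/
theorem Eb_sum {N K : ℕ} (hN : 0 < N) (hK : K * N ≤ Q) (q : ZMod Q) :
    Eb (K * N) q = ∑ s ∈ range K, Eb N (q + (s : ZMod Q) * (N : ZMod Q)) := by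
  ext x y
  rw [Matrix.sum_apply]
  unfold Eb
  by_cases h : x = y
  · subst h
    simp only [diagonal_apply_eq]
    exact ind_sum hN hK q x
  · simp only [diagonal_apply_ne _ h, Finset.sum_const_zero]

theorem Eb_isPr (N : ℕ) (q : ZMod Q) : IsPr (Eb N q) := by
  refine ⟨by unfold Eb; rw [diagonal_transpose], ?_⟩
  unfold Eb
  rw [diagonal_mul_diagonal]
  congr 1
  funext x
  exact ind_sq N q x

theorem Eb_sub_mul {N K : ℕ} (hN : 0 < N) (hK : K * N ≤ Q) (q : ZMod Q) {s : ℕ} (hs : s < K) :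
    Eb (K * N) q * Eb N (q + (s : ZMod Q) * (N : ZMod Q)) =
      Eb N (q + (s : ZMod Q) * (N : ZMod Q)) := by
  unfold Eb
  rw [diagonal_mul_diagonal]
  congr 1
  funext x
  rw [ind_sub hN (le_trans (Nat.mul_le_mul_right N hs) hK) q x]
  split_ifs with h
  · unfold ind
    rw [if_pos, one_mul]
    rw [← Nat.div_lt_iff_lt_mul hN, h]
    exact hs
  · rw [mul_zero]

theorem Eb_mul_sub {N K : ℕ} (hN : 0 < N) (hK : K * N ≤ Q) (q : ZMod Q) {s : ℕ} (hs : s < K) :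
    Eb N (q + (s : ZMod Q) * (N : ZMod Q)) * Eb (K * N) q =
      Eb N (q + (s : ZMod Q) * (N : ZMod Q)) := by
  have := congrArg Matrix.transpose (Eb_sub_mul hN hK q hs)
  rwa [transpose_mul, (Eb_isPr _ _).symm, (Eb_isPr _ _).symm] at this

theorem Eb_disj {N K : ℕ} (hN : 0 < N) (hK : K * N ≤ Q) (q : ZMod Q) {s s' : ℕ} (hs : s < K)
    (hs' : s' < K) (h : s ≠ s') :
    Eb N (q + (s : ZMod Q) * (N : ZMod Q)) * Eb N (q + (s' : ZMod Q) * (N : ZMod Q)) = 0 := by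
  unfold Eb
  rw [diagonal_mul_diagonal, ← diagonal_zero]
  congr 1
  funext x
  rw [ind_sub hN (le_trans (Nat.mul_le_mul_right N hs) hK) q x,
    ind_sub hN (le_trans (Nat.mul_le_mul_right N hs') hK) q x]
  split_ifs with h1 h2
  · exact absurd (h1.symm.trans h2) h
  · simp
  · simp
  · simp

/-- support as products -/
theorem csup_mul {m : Type*} [Fintype m] {N : ℕ} {L : Lt Q m} (h : CSup N L) (q p : ZMod Q) :
    L q p * Eb N p = L q p := by
  ext x y
  unfold Eb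
  rw [mul_diagonal]
  unfold ind
  split_ifs with h1
  · rw [mul_one]
  · rw [mul_zero, h q p x y (not_lt.1 h1)]

theorem rsup_mul {N : ℕ} {L : Lt Q (ZMod Q)} (h : RSup N L) (q p : ZMod Q) :
    Eb N q * L q p = L q p := by
  ext x y
  unfold Eb
  rw [diagonal_mul]
  unfold ind
  split_ifs with h1
  · rw [one_mul]
  · rw [zero_mul, h q p x y (not_lt.1 h1)]

theorem CSup_of_mul {m : Type*} [Fintype m] {N : ℕ} {L : Lt Q m}
    (h : ∀ q p, L q p * Eb N p = L q p) : CSup N L := by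
  intro q p x y hy
  rw [← h q p]
  unfold Eb
  rw [mul_diagonal]
  unfold ind
  rw [if_neg (not_lt.2 hy), mul_zero]

theorem RSup_of_mul {N : ℕ} {L : Lt Q (ZMod Q)} (h : ∀ q p, Eb N q * L q p = L q p) :
    RSup N L := by
  intro q p x y hx
  rw [← h q p]
  unfold Eb
  rw [diagonal_mul]
  unfold ind
  rw [if_neg (not_lt.2 hx), zero_mul]

end ebs

section asm

variable {Q : ℕ} [NeZero Q]

/-- assembled box of side `2^j N` -/
noncomputable def AB (N : ℕ) (L : Lt Q (ZMod Q)) (j : ℕ) (q p : ZMod Q) :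
    Matrix (ZMod Q) (ZMod Q) ℝ :=
  ∑ s ∈ range (2 ^ j), RB N L j (q + (s : ZMod Q) * (N : ZMod Q)) p

theorem AB_trL (N : ℕ) (L : Lt Q (ZMod Q)) (j : ℕ) (q p : ZMod Q) :
    AB N (trL L) j p q = (AB N L j q p)ᵀ := by
  unfold AB RB trL
  rw [transpose_sum, Finset.sum_comm]
  refine Finset.sum_congr rfl fun s _ => ?_
  rw [transpose_sum]

theorem gram_of_disj {ι : Type*} [DecidableEq ι] (s : Finset ι)
    (R : ι → Matrix (ZMod Q) (ZMod Q) ℝ)
    (h : ∀ i ∈ s, ∀ i' ∈ s, i ≠ i' → (R i)ᵀ * R i' = 0) :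
    (∑ i ∈ s, R i)ᵀ * ∑ i ∈ s, R i = ∑ i ∈ s, (R i)ᵀ * R i := by
  rw [transpose_sum, Finset.sum_mul]
  refine Finset.sum_congr rfl fun i hi => ?_
  rw [Finset.mul_sum]
  refine Finset.sum_eq_single i (fun i' hi' hne => h i hi i' hi' hne.symm) ?_
  intro hn
  exact absurd hi hn

/-- **the Gram array of the assembled box** (own variable = columns) -/
theorem gr_eq {N : ℕ} (hN : 0 < N) {L : Lt Q (ZMod Q)} (hL : RSup N L) (j : ℕ)
    (hj : 2 ^ j * N ≤ Q) (q p : ZMod Q) :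
    gr N L j j q p = (1 / ((2 ^ j * N : ℕ) : ℝ) ^ 2) • ((AB N L j q p)ᵀ * AB N L j q p) := by
  unfold gr AB
  rw [gram_of_disj, sq]
  intro s hs s' hs' hne
  rw [Finset.mem_range] at hs hs'
  have h1 : ∀ s, RB N L j (q + (s : ZMod Q) * (N : ZMod Q)) p =
      Eb N (q + (s : ZMod Q) * (N : ZMod Q)) *
        RB N L j (q + (s : ZMod Q) * (N : ZMod Q)) p := by
    intro s
    unfold RB
    rw [Finset.mul_sum]
    exact Finset.sum_congr rfl fun t _ => (rsup_mul hL _ _).symm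
  rw [h1 s, h1 s', transpose_mul, (Eb_isPr _ _).symm, Matrix.mul_assoc,
    ← Matrix.mul_assoc (Eb N _) (Eb N _), Eb_disj hN hj q hs hs' hne, Matrix.zero_mul,
    Matrix.mul_zero]

/-- own variable = rows -/
theorem gr_eq' {N : ℕ} (hN : 0 < N) {L : Lt Q (ZMod Q)} (hL : CSup N L) (j : ℕ)
    (hj : 2 ^ j * N ≤ Q) (q p : ZMod Q) :
    gr N (trL L) j j p q = (1 / ((2 ^ j * N : ℕ) : ℝ) ^ 2) • (AB N L j q p * (AB N L j q p)ᵀ) := by
  rw [gr_eq hN (trL_RSup hL) j hj p q, AB_trL, transpose_transpose]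

theorem gr_zero {m : Type*} [Fintype m] (N : ℕ) (L : Lt Q m) (q p : ZMod Q) :
    gr N L 0 0 q p = (1 / (N : ℝ) ^ 2) • ((L q p)ᵀ * L q p) := by
  unfold gr
  simp [RB_zero, sq]

theorem gr_zero' (N : ℕ) (L : Lt Q (ZMod Q)) (q p : ZMod Q) :
    gr N (trL L) 0 0 p q = (1 / (N : ℝ) ^ 2) • (L q p * (L q p)ᵀ) := by
  rw [gr_zero]
  unfold trL
  rw [transpose_transpose]

end asm

section kil

open scoped Matrix.Norms.L2Operator

variable {Q : ℕ} [NeZero Q]

theorem nrm_Eb (N : ℕ) (q : ZMod Q) : ‖Eb N q‖ ≤ 1 :=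
  nrm_proj_le (Eb_isPr N q).symm (Eb_isPr N q).idem

/-- restriction of `C` to the box -/
noncomputable def rs (N : ℕ) (C : Matrix (ZMod Q) (ZMod Q) ℝ) (q p : ZMod Q) :
    Matrix (ZMod Q) (ZMod Q) ℝ := Eb N q * C * Eb N p

theorem rs_row (N : ℕ) (C : Matrix (ZMod Q) (ZMod Q) ℝ) (q p : ZMod Q) :
    Eb N q * rs N C q p = rs N C q p := by
  unfold rs
  rw [Matrix.mul_assoc, ← Matrix.mul_assoc (Eb N q) (Eb N q), (Eb_isPr N q).idem]

theorem rs_col (N : ℕ) (C : Matrix (ZMod Q) (ZMod Q) ℝ) (q p : ZMod Q) :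
    rs N C q p * Eb N p = rs N C q p := by
  unfold rs
  rw [Matrix.mul_assoc, (Eb_isPr N p).idem]

/-- sub boxes of a restriction -/
theorem rs_sub {N K : ℕ} (hN : 0 < N) (hK : K * N ≤ Q) (C : Matrix (ZMod Q) (ZMod Q) ℝ)
    (q p : ZMod Q) {s t : ℕ} (hs : s < K) (ht : t < K) :
    Eb N (q + (s : ZMod Q) * (N : ZMod Q)) * rs (K * N) C q p *
      Eb N (p + (t : ZMod Q) * (N : ZMod Q)) =
    rs N C (q + (s : ZMod Q) * (N : ZMod Q)) (p + (t : ZMod Q) * (N : ZMod Q)) := by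
  unfold rs
  rw [← Matrix.mul_assoc, ← Matrix.mul_assoc, Eb_mul_sub hN hK q hs, Matrix.mul_assoc _ (Eb (K * N) p),
    Eb_sub_mul hN hK p ht]

theorem nrm_rs_sub {N K : ℕ} (hN : 0 < N) (hK : K * N ≤ Q) (C : Matrix (ZMod Q) (ZMod Q) ℝ)
    (q p : ZMod Q) {s t : ℕ} (hs : s < K) (ht : t < K) :
    ‖rs N C (q + (s : ZMod Q) * (N : ZMod Q)) (p + (t : ZMod Q) * (N : ZMod Q))‖ ≤
      ‖rs (K * N) C q p‖ := by
  rw [← rs_sub hN hK C q p hs ht]
  refine (l2_opNorm_mul _ _).trans ?_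
  refine (mul_le_of_le_one_right (norm_nonneg _) (nrm_Eb _ _)).trans ?_
  refine (l2_opNorm_mul _ _).trans ?_
  exact mul_le_of_le_one_left (norm_nonneg _) (nrm_Eb _ _)

/-- the restriction is the sum over the sub boxes -/
theorem rs_sum {N K : ℕ} (hN : 0 < N) (hK : K * N ≤ Q) (C : Matrix (ZMod Q) (ZMod Q) ℝ)
    (q p : ZMod Q) :
    rs (K * N) C q p = ∑ s ∈ range K, ∑ t ∈ range K,
      rs N C (q + (s : ZMod Q) * (N : ZMod Q)) (p + (t : ZMod Q) * (N : ZMod Q)) := by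
  unfold rs
  rw [Eb_sum hN hK q, Eb_sum hN hK p, Finset.sum_mul, Finset.sum_mul]
  refine Finset.sum_congr rfl fun s _ => ?_
  rw [Finset.mul_sum]

open Classical in
/-- **block letter of the killer** -/
noncomputable def kL (N : ℕ) (P : ZMod Q → ZMod Q → Matrix (ZMod Q) (ZMod Q) ℝ)
    (al : ZMod Q → ZMod Q → Prop) (C : Matrix (ZMod Q) (ZMod Q) ℝ) : Lt Q (ZMod Q) :=
  fun q p => if al q p then P q p * rs N C q p else 0

/-- the spaces at scale `N` -/
structure PB (N : ℕ) (P : ZMod Q → ZMod Q → Matrix (ZMod Q) (ZMod Q) ℝ) : Prop where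
  pr : ∀ q p, IsPr (P q p)
  sup : ∀ q p, Eb N q * P q p = P q p

theorem PB.sup' {N : ℕ} {P : ZMod Q → ZMod Q → Matrix (ZMod Q) (ZMod Q) ℝ} (h : PB N P)
    (q p : ZMod Q) : P q p * Eb N q = P q p := by
  have := congrArg Matrix.transpose (h.sup q p)
  rwa [transpose_mul, (h.pr q p).symm, (Eb_isPr N q).symm] at this

/-- the spaces for the last word -/
theorem PB_Eb (N : ℕ) : PB (Q := Q) N (fun q _ => Eb N q) :=
  ⟨fun q _ => Eb_isPr N q, fun q _ => (Eb_isPr N q).idem⟩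

/-- `(V1)` nesting from the side `N` to the side `K N` on alive boxes -/
def Nst (N K : ℕ) (P P' : ZMod Q → ZMod Q → Matrix (ZMod Q) (ZMod Q) ℝ)
    (al al' : ZMod Q → ZMod Q → Prop) : Prop :=
  ∀ q p, al' q p → ∀ s < K, ∀ t < K,
    al (q + (s : ZMod Q) * (N : ZMod Q)) (p + (t : ZMod Q) * (N : ZMod Q)) →
    P (q + (s : ZMod Q) * (N : ZMod Q)) (p + (t : ZMod Q) * (N : ZMod Q)) * P' q p =
      Eb N (q + (s : ZMod Q) * (N : ZMod Q)) * P' q p

variable {N : ℕ} {P P' : ZMod Q → ZMod Q → Matrix (ZMod Q) (ZMod Q) ℝ}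
  {al al' : ZMod Q → ZMod Q → Prop} {C : Matrix (ZMod Q) (ZMod Q) ℝ}

theorem kL_CSup (N : ℕ) (P : ZMod Q → ZMod Q → Matrix (ZMod Q) (ZMod Q) ℝ)
    (al : ZMod Q → ZMod Q → Prop) (C : Matrix (ZMod Q) (ZMod Q) ℝ) : CSup N (kL N P al C) := by
  refine CSup_of_mul fun q p => ?_
  unfold kL
  split_ifs
  · rw [Matrix.mul_assoc, rs_col]
  · rw [Matrix.zero_mul]

theorem kL_RSup (hP : PB N P) (al : ZMod Q → ZMod Q → Prop) (C : Matrix (ZMod Q) (ZMod Q) ℝ) :
    RSup N (kL N P al C) := by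
  refine RSup_of_mul fun q p => ?_
  unfold kL
  split_ifs
  · rw [← Matrix.mul_assoc, hP.sup]
  · rw [Matrix.mul_zero]

theorem nrm_kL (hP : PB N P) {g : ℝ} (hg : 0 ≤ g) (h : ∀ q p, al q p → ‖rs N C q p‖ ≤ g)
    (q p : ZMod Q) : ‖kL N P al C q p‖ ≤ g := by
  unfold kL
  split_ifs with h1
  · refine (l2_opNorm_mul _ _).trans ?_
    exact (mul_le_of_le_one_left (norm_nonneg _)
      (nrm_proj_le (hP.pr q p).symm (hP.pr q p).idem)).trans (h q p h1)
  · rw [norm_zero]; exact hg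

theorem hs2_sum_le {ι m n : Type*} [Fintype m] [Fintype n] (s : Finset ι)
    (A : ι → Matrix m n ℝ) : hs2 (∑ i ∈ s, A i) ≤ s.card * ∑ i ∈ s, hs2 (A i) := by
  unfold hs2
  have h1 : ∀ l j, (∑ i ∈ s, A i) l j ^ 2 ≤ s.card * ∑ i ∈ s, A i l j ^ 2 := by
    intro l j
    rw [Matrix.sum_apply]
    exact sq_sum_le_card_mul_sum_sq
  calc ∑ l, ∑ j, (∑ i ∈ s, A i) l j ^ 2 ≤ ∑ l, ∑ j, s.card * ∑ i ∈ s, A i l j ^ 2 :=
        Finset.sum_le_sum fun l _ => Finset.sum_le_sum fun j _ => h1 l j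
    _ = s.card * ∑ i ∈ s, ∑ l, ∑ j, A i l j ^ 2 := by
        simp_rw [← Finset.mul_sum]
        congr 1
        rw [Finset.sum_comm]
        simp_rw [Finset.sum_comm (s := s)]
        rw [Finset.sum_comm]

theorem hs2_proj_le {m n : Type*} [Fintype m] [DecidableEq m] [Fintype n] [DecidableEq n]
    {P : Matrix m m ℝ} (hP : IsPr P) (K : Matrix m n ℝ) : hs2 (P * K) ≤ ‖K‖ ^ 2 * P.trace := by
  have h := hs_mul_le Kᵀ P
  have e : hs2 (P * K) = ((Kᵀ * P)ᵀ * (Kᵀ * P)).trace := by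
    rw [← hs2_transpose, hs2_eq, transpose_mul, hP.symm, trace_mul_comm]
  rw [e]
  rwa [nrm_t, hP.symm, hP.idem] at h

open Classical in
/-- part of the box on the sub boxes with the property `f` -/
noncomputable def PC (N K : ℕ) (C : Matrix (ZMod Q) (ZMod Q) ℝ) (f : ZMod Q → ZMod Q → Prop)
    (q p : ZMod Q) : Matrix (ZMod Q) (ZMod Q) ℝ :=
  ∑ s ∈ range K, ∑ t ∈ range K,
    if f (q + (s : ZMod Q) * (N : ZMod Q)) (p + (t : ZMod Q) * (N : ZMod Q)) then
      rs N C (q + (s : ZMod Q) * (N : ZMod Q)) (p + (t : ZMod Q) * (N : ZMod Q)) else 0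

theorem PC_add {K : ℕ} (hN : 0 < N) (hK : K * N ≤ Q) (C : Matrix (ZMod Q) (ZMod Q) ℝ)
    (f : ZMod Q → ZMod Q → Prop) (q p : ZMod Q) :
    PC N K C f q p + PC N K C (fun a b => ¬ f a b) q p = rs (K * N) C q p := by
  unfold PC
  rw [rs_sum hN hK, ← Finset.sum_add_distrib]
  refine Finset.sum_congr rfl fun s _ => ?_
  rw [← Finset.sum_add_distrib]
  refine Finset.sum_congr rfl fun t _ => ?_
  split_ifs <;> simp_all

open Classical in
theorem hs2_PC {K : ℕ} (C : Matrix (ZMod Q) (ZMod Q) ℝ)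
    (f : ZMod Q → ZMod Q → Prop) (q p : ZMod Q) {R : Matrix (ZMod Q) (ZMod Q) ℝ}
    {W : ℝ} (hW : 0 ≤ W) (h : ∀ s < K, ∀ t < K, hs2 (R * rs N C
      (q + (s : ZMod Q) * (N : ZMod Q)) (p + (t : ZMod Q) * (N : ZMod Q))) ≤ W) :
    hs2 (R * PC N K C f q p) ≤ (K : ℝ) ^ 4 * W := by
  unfold PC
  have e : R * ∑ s ∈ range K, ∑ t ∈ range K,
      (if f (q + (s : ZMod Q) * (N : ZMod Q)) (p + (t : ZMod Q) * (N : ZMod Q)) then
        rs N C (q + (s : ZMod Q) * (N : ZMod Q)) (p + (t : ZMod Q) * (N : ZMod Q)) else 0) =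
      ∑ x ∈ range K ×ˢ range K, R *
      (if f (q + (x.1 : ZMod Q) * (N : ZMod Q)) (p + (x.2 : ZMod Q) * (N : ZMod Q)) then
        rs N C (q + (x.1 : ZMod Q) * (N : ZMod Q)) (p + (x.2 : ZMod Q) * (N : ZMod Q)) else 0) := by
    rw [Finset.sum_product, Finset.mul_sum]
    refine Finset.sum_congr rfl fun s _ => ?_
    rw [Finset.mul_sum]
  rw [e]
  refine (hs2_sum_le _ _).trans ?_
  rw [Finset.card_product, Finset.card_range]
  have h1 : ∀ x ∈ range K ×ˢ range K, hs2 (R *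
      (if f (q + (x.1 : ZMod Q) * (N : ZMod Q)) (p + (x.2 : ZMod Q) * (N : ZMod Q)) then
        rs N C (q + (x.1 : ZMod Q) * (N : ZMod Q)) (p + (x.2 : ZMod Q) * (N : ZMod Q)) else 0)) ≤
      W := by
    intro x hx
    rw [Finset.mem_product, Finset.mem_range, Finset.mem_range] at hx
    split_ifs with h2
    · exact h x.1 hx.1 x.2 hx.2
    · rw [Matrix.mul_zero]
      have : hs2 (0 : Matrix (ZMod Q) (ZMod Q) ℝ) = 0 := by simp [hs2]
      rw [this]
      exact hW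
  calc (((K * K : ℕ) : ℝ)) * ∑ x ∈ range K ×ˢ range K, hs2 (R *
      (if f (q + (x.1 : ZMod Q) * (N : ZMod Q)) (p + (x.2 : ZMod Q) * (N : ZMod Q)) then
        rs N C (q + (x.1 : ZMod Q) * (N : ZMod Q)) (p + (x.2 : ZMod Q) * (N : ZMod Q)) else 0))
      ≤ ((K * K : ℕ) : ℝ) * ∑ x ∈ range K ×ˢ range K, W :=
        mul_le_mul_of_nonneg_left (Finset.sum_le_sum h1) (Nat.cast_nonneg _)
    _ = (K : ℝ) ^ 4 * W := by
        rw [Finset.sum_const, Finset.card_product, Finset.card_range, nsmul_eq_mul]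
        push_cast
        ring

/-- the weights from the operator norm: `w = g² tr P` -/
theorem hs2_of_op {K : ℕ} (hN : 0 < N) (hK : K * N ≤ Q) (C : Matrix (ZMod Q) (ZMod Q) ℝ)
    (q p : ZMod Q) {R : Matrix (ZMod Q) (ZMod Q) ℝ} (hR : IsPr R)
    {g : ℝ} (hg : 0 ≤ g) (h : ‖rs (K * N) C q p‖ ≤ g) {s t : ℕ} (hs : s < K) (ht : t < K) :
    hs2 (R * rs N C (q + (s : ZMod Q) * (N : ZMod Q)) (p + (t : ZMod Q) * (N : ZMod Q))) ≤
      g ^ 2 * R.trace := by
  refine (hs2_proj_le hR _).trans (mul_le_mul_of_nonneg_right ?_ (PLE1.IsPr.trace_nonneg' hR))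
  exact pow_le_pow_left₀ (norm_nonneg _) ((nrm_rs_sub hN hK C q p hs ht).trans h) 2

/-- the assembled killer, compressed by the space of the parent -/
theorem P_mul_AB {j : ℕ} (hP : PB N P) (hP' : PB (2 ^ j * N) P')
    (hn : Nst N (2 ^ j) P P' al al') (q p : ZMod Q) (ha : al' q p) :
    P' q p * AB N (kL N P al C) j q p = P' q p * PC N (2 ^ j) C al q p := by
  unfold AB RB PC
  rw [Finset.mul_sum, Finset.mul_sum]
  refine Finset.sum_congr rfl fun s hs => ?_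
  rw [Finset.mul_sum, Finset.mul_sum]
  refine Finset.sum_congr rfl fun t ht => ?_
  rw [Finset.mem_range] at hs ht
  unfold kL
  split_ifs with h
  · have h1 := congrArg Matrix.transpose (hn q p ha s hs t ht h)
    rw [transpose_mul, transpose_mul, (hP'.pr q p).symm, (hP.pr _ _).symm,
      (Eb_isPr _ _).symm] at h1
    rw [← Matrix.mul_assoc, h1, Matrix.mul_assoc, rs_row]
  · rfl

open Classical in
/-- weight of an EXIT box (alive, some sub box dead) -/
noncomputable def xc (N K : ℕ) (w : ZMod Q → ZMod Q → ℝ)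
    (al al' : ZMod Q → ZMod Q → Prop) (q p : ZMod Q) : ℝ :=
  if al' q p ∧ ∃ s < K, ∃ t < K,
      ¬ al (q + (s : ZMod Q) * (N : ZMod Q)) (p + (t : ZMod Q) * (N : ZMod Q)) then
    w q p else 0

theorem PC_zero {K : ℕ} {f : ZMod Q → ZMod Q → Prop} {q p : ZMod Q}
    (h : ¬ ∃ s < K, ∃ t < K,
      ¬ f (q + (s : ZMod Q) * (N : ZMod Q)) (p + (t : ZMod Q) * (N : ZMod Q))) :
    PC N K C (fun a b => ¬ f a b) q p = 0 := by
  unfold PC
  refine Finset.sum_eq_zero fun s hs => Finset.sum_eq_zero fun t ht => ?_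
  rw [Finset.mem_range] at hs ht
  rw [if_neg]
  intro h1
  exact h ⟨s, hs, t, ht, h1⟩

theorem nrm_quad {M : Matrix (ZMod Q) (ZMod Q) ℝ} (hM : M.PosSemidef) {ω : ℝ} (h : ‖M‖ ≤ ω) :
    QF M ω := by
  intro v
  have h1 := psd_nrm_sub hM h
  rw [posSemidef_iff_dotProduct_mulVec] at h1
  have h2 := h1.2 v
  rw [sub_mulVec, dotProduct_sub, smul_mulVec, one_mulVec, dotProduct_smul, smul_eq_mul,
    star_trivial] at h2
  linarith

/-- weights of the boxes of side `2^j N` -/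
def Wt (N K : ℕ) (P' : ZMod Q → ZMod Q → Matrix (ZMod Q) (ZMod Q) ℝ) (al' : ZMod Q → ZMod Q → Prop)
    (C : Matrix (ZMod Q) (ZMod Q) ℝ) (w : ZMod Q → ZMod Q → ℝ) : Prop :=
  (∀ q p, 0 ≤ w q p) ∧ ∀ q p, al' q p → ∀ s < K, ∀ t < K,
    hs2 (P' q p * rs N C (q + (s : ZMod Q) * (N : ZMod Q)) (p + (t : ZMod Q) * (N : ZMod Q))) ≤
      ((K * N : ℕ) : ℝ) ^ 2 * w q p

/-- the two price terms -/
theorem price_le {j : ℕ} (hN : 0 < N) (hP : PB N P)
    (hP' : PB (2 ^ j * N) P') (hn : Nst N (2 ^ j) P P' al al') {w : ZMod Q → ZMod Q → ℝ}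
    (hw : Wt N (2 ^ j) P' al' C w)
    (q p : ZMod Q) (ha : al' q p) :
    2 * (hsn (P' q p * ((1 / ((2 ^ j * N : ℕ) : ℝ)) • AB N (kL N P al C) j q p)) *
        hsn (P' q p * ((1 / ((2 ^ j * N : ℕ) : ℝ)) • PC N (2 ^ j) C (fun a b => ¬ al a b) q p))) +
      hs2 (P' q p * ((1 / ((2 ^ j * N : ℕ) : ℝ)) • PC N (2 ^ j) C (fun a b => ¬ al a b) q p)) ≤
    3 * (16 ^ j * xc N (2 ^ j) w al al' q p) := by
  obtain ⟨hw0, hw1⟩ := hw
  set N' : ℝ := ((2 ^ j * N : ℕ) : ℝ) with hN'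
  have hN'0 : 0 < N' := by
    rw [hN']
    have : 0 < 2 ^ j * N := by positivity
    exact_mod_cast this
  by_cases hx : ∃ s < (2 ^ j : ℕ), ∃ t < (2 ^ j : ℕ),
      ¬ al (q + (s : ZMod Q) * (N : ZMod Q)) (p + (t : ZMod Q) * (N : ZMod Q))
  · have hxc : xc N (2 ^ j) w al al' q p = w q p := if_pos ⟨ha, hx⟩
    rw [hxc]
    set T := 16 ^ j * w q p with hT
    have hT0 : 0 ≤ T := mul_nonneg (by positivity) (hw0 q p)
    have hb : ∀ f : ZMod Q → ZMod Q → Prop,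
        hs2 (P' q p * ((1 / N') • PC N (2 ^ j) C f q p)) ≤ T := by
      intro f
      have h1 := hs2_PC C f q p (R := P' q p) (mul_nonneg (sq_nonneg N') (hw0 q p)) (hw1 q p ha)
      have e : hs2 (P' q p * ((1 / N') • PC N (2 ^ j) C f q p)) =
          (1 / N') ^ 2 * hs2 (P' q p * PC N (2 ^ j) C f q p) := by
        rw [mul_smul_comm]
        rw [← hsn_sq, hsn_smul (by positivity), mul_pow, hsn_sq]
      rw [e]
      calc (1 / N') ^ 2 * hs2 (P' q p * PC N (2 ^ j) C f q p)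
          ≤ (1 / N') ^ 2 * (((2 ^ j : ℕ) : ℝ) ^ 4 * (N' ^ 2 * w q p)) :=
            mul_le_mul_of_nonneg_left h1 (by positivity)
        _ = T := by
            rw [hT]
            have e16 : ((2 ^ j : ℕ) : ℝ) ^ 4 = 16 ^ j := by
              push_cast
              rw [← pow_mul, mul_comm, pow_mul]
              norm_num
            rw [e16]
            field_simp
    have h1 : hsn (P' q p * ((1 / N') • AB N (kL N P al C) j q p)) ≤ Real.sqrt T := by
      have e : P' q p * ((1 / N') • AB N (kL N P al C) j q p) =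
          P' q p * ((1 / N') • PC N (2 ^ j) C al q p) := by
        rw [mul_smul_comm, mul_smul_comm, P_mul_AB hP hP' hn q p ha]
      rw [e]
      exact Real.sqrt_le_sqrt (hb al)
    have h2 : hsn (P' q p * ((1 / N') • PC N (2 ^ j) C (fun a b => ¬ al a b) q p)) ≤
        Real.sqrt T := Real.sqrt_le_sqrt (hb _)
    have h3 := hb (fun a b => ¬ al a b)
    have h4 : hsn (P' q p * ((1 / N') • AB N (kL N P al C) j q p)) *
        hsn (P' q p * ((1 / N') • PC N (2 ^ j) C (fun a b => ¬ al a b) q p)) ≤ T := by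
      refine (mul_le_mul h1 h2 (hsn_nonneg _) (Real.sqrt_nonneg _)).trans (le_of_eq ?_)
      exact Real.mul_self_sqrt hT0
    linarith
  · have hxc : xc N (2 ^ j) w al al' q p = 0 := if_neg fun h => hx h.2
    rw [hxc, PC_zero hx, smul_zero, Matrix.mul_zero, hsn_zero]
    have : hs2 (0 : Matrix (ZMod Q) (ZMod Q) ℝ) = 0 := by simp [hs2]
    rw [this]
    simp

theorem smul_gram (c : ℝ) (X : Matrix (ZMod Q) (ZMod Q) ℝ) :
    (c • X)ᵀ * (c • X) = c ^ 2 • (Xᵀ * X) := by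
  rw [transpose_smul, smul_mul_smul_comm, sq]

theorem smul_gram' (c : ℝ) (X : Matrix (ZMod Q) (ZMod Q) ℝ) :
    (c • X) * (c • X)ᵀ = c ^ 2 • (X * Xᵀ) := by
  rw [transpose_smul, smul_mul_smul_comm, sq]

/-- the new letter of an alive box -/
theorem kL_new {j : ℕ} (hN : 0 < N) (hj : 2 ^ j * N ≤ Q) (hP : PB N P)
    (hP' : PB (2 ^ j * N) P') (hn : Nst N (2 ^ j) P P' al al') (c : ℝ) (q p : ZMod Q)
    (ha : al' q p) :
    P' q p * (c • AB N (kL N P al C) j q p + c • PC N (2 ^ j) C (fun a b => ¬ al a b) q p) =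
      c • kL (2 ^ j * N) P' al' C q p := by
  unfold kL
  rw [if_pos ha, Matrix.mul_add, mul_smul_comm, mul_smul_comm]
  have := P_mul_AB (C := C) hP hP' hn q p ha
  unfold kL at this
  rw [this, ← smul_add, ← Matrix.mul_add, PC_add hN hj]

/-- **own variable = columns** (vertex 1), pointwise -/
theorem kil_col {j : ℕ} (hN : 0 < N) (hj : 2 ^ j * N ≤ Q) (hP : PB N P)
    (hP' : PB (2 ^ j * N) P') (hn : Nst N (2 ^ j) P P' al al') {w : ZMod Q → ZMod Q → ℝ}
    (hw : Wt N (2 ^ j) P' al' C w) {ω : ℝ} (hω : 0 ≤ ω) (q p : ZMod Q) {G : Matrix (ZMod Q) (ZMod Q) ℝ} (hG : G.PosSemidef)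
    (h : ‖gr (2 ^ j * N) (kL (2 ^ j * N) P' al' C) 0 0 q p + G‖ ≤ ω) :
    phi (gr (2 ^ j * N) (kL (2 ^ j * N) P' al' C) 0 0 q p + G) ≤
      phi (gr N (kL N P al C) j j q p + G) +
        (9 / 2) * Real.sqrt ω * 16 ^ j * xc N (2 ^ j) w al al' q p := by
  have hgr : gr N (kL N P al C) j j q p =
      ((1 / ((2 ^ j * N : ℕ) : ℝ)) • AB N (kL N P al C) j q p)ᵀ *
        ((1 / ((2 ^ j * N : ℕ) : ℝ)) • AB N (kL N P al C) j q p) := by
    rw [gr_eq hN (kL_RSup hP al C) j hj, smul_gram, _root_.one_div_pow]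
  by_cases ha : al' q p
  · have hgr' : gr (2 ^ j * N) (kL (2 ^ j * N) P' al' C) 0 0 q p =
        (P' q p * ((1 / ((2 ^ j * N : ℕ) : ℝ)) • AB N (kL N P al C) j q p +
          (1 / ((2 ^ j * N : ℕ) : ℝ)) • PC N (2 ^ j) C (fun a b => ¬ al a b) q p))ᵀ *
        (P' q p * ((1 / ((2 ^ j * N : ℕ) : ℝ)) • AB N (kL N P al C) j q p +
          (1 / ((2 ^ j * N : ℕ) : ℝ)) • PC N (2 ^ j) C (fun a b => ¬ al a b) q p)) := by
      rw [kL_new hN hj hP hP' hn _ q p ha, gr_zero, smul_gram, _root_.one_div_pow]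
    have h0 := nrm_quad ((gr_psd _ _ _ _ _ _).add hG) h
    rw [hgr'] at h0 ⊢
    have h1 := phi_col (hP'.pr q p) _ _ hG hω h0
    rw [← hgr] at h1
    refine h1.trans (add_le_add le_rfl ?_)
    have h2 := price_le hN hP hP' hn hw q p ha
    calc _ ≤ 3 / 2 * Real.sqrt ω * (3 * (16 ^ j * xc N (2 ^ j) w al al' q p)) :=
          mul_le_mul_of_nonneg_left h2 (by positivity)
      _ = _ := by ring
  · have hxc : xc N (2 ^ j) w al al' q p = 0 := if_neg fun h => ha h.1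
    have hz : gr (2 ^ j * N) (kL (2 ^ j * N) P' al' C) 0 0 q p = 0 := by
      rw [gr_zero]
      unfold kL
      rw [if_neg ha, Matrix.mul_zero, smul_zero]
    rw [hz, hxc, zero_add, mul_zero, add_zero]
    refine phi_mono hG ((gr_psd _ _ _ _ _ _).add hG) ?_
    rw [add_sub_cancel_right]
    exact gr_psd _ _ _ _ _ _

/-- **own variable = rows** (vertex 3), pointwise; `G` = Gram matrix of the new band -/
theorem kil_row {j : ℕ} (hN : 0 < N) (hj : 2 ^ j * N ≤ Q) (hP : PB N P)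
    (hP' : PB (2 ^ j * N) P') (hn : Nst N (2 ^ j) P P' al al') {w : ZMod Q → ZMod Q → ℝ}
    (hw : Wt N (2 ^ j) P' al' C w) {ω : ℝ} (hω : 0 ≤ ω) (q p : ZMod Q) {G : Matrix (ZMod Q) (ZMod Q) ℝ} (hG : G.PosSemidef)
    (hPG : al' q p → P' q p * G * P' q p = G)
    (h : ‖gr (2 ^ j * N) (trL (kL (2 ^ j * N) P' al' C)) 0 0 p q + G‖ ≤ ω) :
    phi (gr (2 ^ j * N) (trL (kL (2 ^ j * N) P' al' C)) 0 0 p q + G) ≤
      phi (gr N (trL (kL N P al C)) j j p q + G) +
        (9 / 2) * Real.sqrt ω * 16 ^ j * xc N (2 ^ j) w al al' q p := by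
  have hgr : gr N (trL (kL N P al C)) j j p q =
      ((1 / ((2 ^ j * N : ℕ) : ℝ)) • AB N (kL N P al C) j q p) *
        ((1 / ((2 ^ j * N : ℕ) : ℝ)) • AB N (kL N P al C) j q p)ᵀ := by
    rw [gr_eq' hN (kL_CSup N P al C) j hj, smul_gram', _root_.one_div_pow]
  by_cases ha : al' q p
  · have hgr' : gr (2 ^ j * N) (trL (kL (2 ^ j * N) P' al' C)) 0 0 p q =
        (P' q p * ((1 / ((2 ^ j * N : ℕ) : ℝ)) • AB N (kL N P al C) j q p +
          (1 / ((2 ^ j * N : ℕ) : ℝ)) • PC N (2 ^ j) C (fun a b => ¬ al a b) q p)) *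
        (P' q p * ((1 / ((2 ^ j * N : ℕ) : ℝ)) • AB N (kL N P al C) j q p +
          (1 / ((2 ^ j * N : ℕ) : ℝ)) • PC N (2 ^ j) C (fun a b => ¬ al a b) q p))ᵀ := by
      rw [kL_new hN hj hP hP' hn _ q p ha, gr_zero', smul_gram', _root_.one_div_pow]
    have h0 := nrm_quad ((gr_psd _ _ _ _ _ _).add hG) h
    rw [hgr'] at h0 ⊢
    have h1 := phi_row (hP'.pr q p) _ _ hG (hPG ha) hω h0
    rw [← hgr] at h1
    refine h1.trans (add_le_add le_rfl ?_)
    have h2 := price_le hN hP hP' hn hw q p ha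
    calc _ ≤ 3 / 2 * Real.sqrt ω * (3 * (16 ^ j * xc N (2 ^ j) w al al' q p)) :=
          mul_le_mul_of_nonneg_left h2 (by positivity)
      _ = _ := by ring
  · have hxc : xc N (2 ^ j) w al al' q p = 0 := if_neg fun h => ha h.1
    have hz : gr (2 ^ j * N) (trL (kL (2 ^ j * N) P' al' C)) 0 0 p q = 0 := by
      rw [gr_zero']
      unfold kL
      rw [if_neg ha, Matrix.zero_mul, smul_zero]
    rw [hz, hxc, zero_add, mul_zero, add_zero]
    refine phi_mono hG ((gr_psd _ _ _ _ _ _).add hG) ?_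
    rw [add_sub_cancel_right]
    exact gr_psd _ _ _ _ _ _

end kil

end Crest.Agent.R079.CRex250
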