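import Crest.Agent.R079.CRdef2_253
import Crest.Agent.R079.CRf_250

/-! R079, RAGGED CORNER (note 833 of helper371), leaf L5-0 : `Vert0` (own variable = columns of the killer).
Bridges from `Fl`, `Kil` (CRdef_253) to the comparison lemmas of CRe_250 / CRf_250.  helper250. -/

set_option autoImplicit false
set_option linter.unusedVariables false
set_option linter.unusedSectionVars false

namespace Crest.Agent.R079.CRv0x250

open Matrix Finset Crest.Agent.R072 Crest.Agent.R079.CR371 Crest.Agent.R079.CRdefx253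
open Crest.Agent.R079.CRex250
open Crest.Agent.R079.PotL (bl cel IsPr hs2 hsn hs2_nonneg hsn_nonneg hsn_sq hsn_smul phi_cost psd_tms
  bl_mono bl_add bl_const)
open scoped MatrixOrder

section norms

open scoped Matrix.Norms.L2Operator

variable {m n : Type*} [Fintype m] [DecidableEq m] [Fintype n] [DecidableEq n]

theorem dot_eq_sq (A : Matrix m n ℝ) (v : n → ℝ) :
    (A *ᵥ v) ⬝ᵥ (A *ᵥ v) = ∑ i, (∑ j, A i j * v j) ^ 2 := by
  unfold dotProduct mulVec dotProduct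
  exact Finset.sum_congr rfl fun i _ => by ring

theorem dot_self_eq (v : n → ℝ) : v ⬝ᵥ v = ∑ j, v j ^ 2 := by
  unfold dotProduct
  exact Finset.sum_congr rfl fun i _ => by ring

theorem nrm_of_OpLe {A : Matrix m n ℝ} {c : ℝ} (h : OpLe A c) : ‖A‖ ≤ c := by
  refine nrm_le_of_dot h.1 fun v => ?_
  rw [dot_eq_sq, dot_self_eq]
  exact h.2 v

theorem OpLe_of_nrm {A : Matrix m n ℝ} {c : ℝ} (h : ‖A‖ ≤ c) : OpLe A c := by
  refine ⟨(norm_nonneg _).trans h, fun v => ?_⟩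
  have h1 := dot_mulVec_le A v
  rw [dot_eq_sq, dot_self_eq] at h1
  refine h1.trans (mul_le_mul_of_nonneg_right (pow_le_pow_left₀ (norm_nonneg _) h 2) ?_)
  exact Finset.sum_nonneg fun j _ => sq_nonneg _

/-- trace norm duality with any operator -/
theorem TrN_le {E : Matrix m n ℝ} {c : ℝ} (h : TrN E c) (K : Matrix n m ℝ) :
    |(K * E).trace| ≤ ‖K‖ * c := by
  have hc : 0 ≤ c := by
    have := h 0 (OpLe_of_nrm (by rw [norm_zero]; norm_num))
    rw [Matrix.zero_mul, trace_zero, abs_zero] at this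
    exact this
  rcases eq_or_lt_of_le (norm_nonneg K) with h0 | h0
  · have : K = 0 := norm_eq_zero.1 h0.symm
    rw [this, Matrix.zero_mul, trace_zero, abs_zero, norm_zero, zero_mul]
  · have h1 := h (‖K‖⁻¹ • K) (OpLe_of_nrm (by
      rw [norm_smul, norm_inv, norm_norm, inv_mul_cancel₀ h0.ne']))
    rw [Matrix.smul_mul, trace_smul, smul_eq_mul, abs_mul, abs_of_pos (inv_pos.2 h0)] at h1
    have h2 := mul_le_mul_of_nonneg_left h1 h0.le
    rwa [← mul_assoc, mul_inv_cancel₀ h0.ne', one_mul] at h2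

/-- norm of a Gram matrix -/
theorem nrm_gram_le {L : Matrix m n ℝ} {N : ℝ} (hN : 0 < N) (h : ‖L‖ ≤ N) :
    ‖(1 / N ^ 2) • (Lᵀ * L)‖ ≤ 1 := by
  rw [norm_smul, nrm_gram, Real.norm_of_nonneg (by positivity)]
  rw [one_div, inv_mul_le_iff₀ (by positivity), mul_one]
  exact pow_le_pow_left₀ (norm_nonneg _) h 2

/-- **price of a function letter**, in trace norm -/
theorem phi_fl {X Y : Matrix m n ℝ} {G : Matrix n n ℝ} (hG : G.PosSemidef) {ω v c : ℝ}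
    (hc : 0 < c) (hX : ‖X‖ ≤ c) (hω : ‖(1 / c ^ 2) • (Xᵀ * X) + G‖ ≤ ω) (hE : TrN (X - Y) (c * v)) :
    phi ((1 / c ^ 2) • (Xᵀ * X) + G) ≤ phi ((1 / c ^ 2) • (Yᵀ * Y) + G) + 3 * Real.sqrt ω * v := by
  have e : ∀ Z : Matrix m n ℝ, (1 / c ^ 2) • (Zᵀ * Z) = ((1 / c) • Z)ᵀ * ((1 / c) • Z) := by
    intro Z
    rw [transpose_smul, Matrix.smul_mul, Matrix.mul_smul, smul_smul, ← sq, _root_.one_div_pow]
  rw [e] at hω
  rw [e, e]
  have h1 := phi_cost ((1 / c) • X) ((1 / c) • Y) hG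
  set M := ((1 / c) • X)ᵀ * ((1 / c) • X) + G with hM
  have hMp : M.PosSemidef := (psd_tms _).add hG
  have h2 : (CFC.sqrt M * (((1 / c) • X)ᵀ * ((1 / c) • X - (1 / c) • Y))).trace =
      (1 / c) * (CFC.sqrt M * ((1 / c) • X)ᵀ * (X - Y)).trace := by
    rw [← smul_sub, Matrix.mul_smul, Matrix.mul_smul, trace_smul, smul_eq_mul, Matrix.mul_assoc]
  have h3 := (le_abs_self _).trans (TrN_le hE (CFC.sqrt M * ((1 / c) • X)ᵀ))
  have hcv : 0 ≤ c * v := by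
    have := hE 0 (OpLe_of_nrm (by rw [norm_zero]; norm_num))
    rwa [Matrix.zero_mul, trace_zero, abs_zero] at this
  have h4 : ‖CFC.sqrt M * ((1 / c) • X)ᵀ‖ ≤ Real.sqrt ω := by
    refine (l2_opNorm_mul _ _).trans ?_
    rw [nrm_rt hMp, nrm_t, norm_smul, Real.norm_of_nonneg (by positivity)]
    have h5 : 1 / c * ‖X‖ ≤ 1 := by
      rw [one_div, inv_mul_le_iff₀ hc, mul_one]; exact hX
    calc √‖M‖ * (1 / c * ‖X‖) ≤ √‖M‖ * 1 := mul_le_mul_of_nonneg_left h5 (Real.sqrt_nonneg _)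
      _ ≤ √ω := by rw [mul_one]; exact Real.sqrt_le_sqrt hω
  rw [h2] at h1
  have h6 : (CFC.sqrt M * ((1 / c) • X)ᵀ * (X - Y)).trace ≤ Real.sqrt ω * (c * v) :=
    h3.trans (mul_le_mul_of_nonneg_right h4 hcv)
  have h7 : (1 / c) * (CFC.sqrt M * ((1 / c) • X)ᵀ * (X - Y)).trace ≤ Real.sqrt ω * v := by
    have := mul_le_mul_of_nonneg_left h6 (show (0 : ℝ) ≤ 1 / c by positivity)
    refine this.trans (le_of_eq ?_)
    field_simp
  linarith

end norms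

section bridge

open scoped Matrix.Norms.L2Operator

variable {Q : ℕ} [NeZero Q]

theorem box_eq_rs (C : Mx Q) (N : ℕ) (q p : ZMod Q) : box C N q p = rs N C q p := rfl

theorem st_eq (m a : ℕ) : (st m a : ZMod Q) = (a : ZMod Q) * ((2 ^ m : ℕ) : ZMod Q) := by
  unfold st
  push_cast
  ring

theorem fl_CSup (X : ℕ → Mx Q) (m : ℕ) : CSup (2 ^ m) (fl X m) :=
  CSup_of_mul fun q p => rs_col (2 ^ m) (X m) q p

theorem fl_RSup (X : ℕ → Mx Q) (m : ℕ) : RSup (2 ^ m) (fl X m) :=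
  RSup_of_mul fun q p => rs_row (2 ^ m) (X m) q p

theorem AB_fl (X : ℕ → Mx Q) (m j : ℕ) (hQ : 2 ^ j * 2 ^ m ≤ Q) (q p : ZMod Q) :
    AB (2 ^ m) (fl X m) j q p = rs (2 ^ j * 2 ^ m) (X m) q p := by
  rw [rs_sum (by positivity) hQ]
  rfl

theorem gr_fl (X : ℕ → Mx Q) (m j : ℕ) (hQ : 2 ^ j * 2 ^ m ≤ Q) (q p : ZMod Q) :
    gr (2 ^ m) (fl X m) j j q p = (1 / ((2 ^ (m + j) : ℝ)) ^ 2) •
      ((box (X m) (2 ^ (m + j)) q p)ᵀ * box (X m) (2 ^ (m + j)) q p) := by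
  rw [gr_eq (by positivity) (fl_RSup X m) j hQ, AB_fl X m j hQ, ← box_eq_rs]
  have e : 2 ^ j * 2 ^ m = 2 ^ (m + j) := by rw [pow_add, mul_comm]
  rw [e]
  push_cast
  rfl

theorem gr_fl0 (X : ℕ → Mx Q) (m : ℕ) (q p : ZMod Q) :
    gr (2 ^ m) (fl X m) 0 0 q p = (1 / ((2 ^ m : ℝ)) ^ 2) •
      ((box (X m) (2 ^ m) q p)ᵀ * box (X m) (2 ^ m) q p) := by
  rw [gr_zero]
  push_cast
  rfl

variable {C : Mx Q} {al : ℕ → ZMod Q → ZMod Q → Prop} {R : ℕ → ZMod Q → ZMod Q → Mx Q}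
  {w : ℕ → ZMod Q → ZMod Q → ℝ} {k M : ℕ} {n : ℝ}

theorem kl_eq (C : Mx Q) (al : ℕ → ZMod Q → ZMod Q → Prop) (R : ℕ → ZMod Q → ZMod Q → Mx Q)
    (m : ℕ) : kl C al R m = kL (2 ^ m) (R m) (al m) C := rfl

theorem kil_PB (h : Kil C al R w k M n) (m : ℕ) : PB (2 ^ m) (R m) := by
  refine ⟨h.pr m, fun q p => ?_⟩
  ext x y
  unfold Eb
  rw [diagonal_mul]
  unfold ind
  split_ifs with h1
  · rw [one_mul]
  · rw [zero_mul]
    by_contra h2
    exact h1 (h.supp m q p x y (Ne.symm h2)).1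

theorem kil_Nst (h : Kil C al R w k M n) {m j : ℕ} (hm : m + j < M) :
    Nst (2 ^ m) (2 ^ j) (R m) (R (m + j)) (al m) (al (m + j)) := by
  intro q p ha s hs t ht _
  have h1 := congrArg Matrix.transpose (h.nest m j hm q p s hs t ht)
  rw [transpose_mul, transpose_mul, (h.pr _ _ _).symm, (h.pr _ _ _).symm, st_eq, st_eq] at h1
  have h2 : (I1 (2 ^ m) (q + (s : ZMod Q) * ((2 ^ m : ℕ) : ZMod Q)))ᵀ =
      Eb (2 ^ m) (q + (s : ZMod Q) * ((2 ^ m : ℕ) : ZMod Q)) := (Eb_isPr _ _).symm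
  rw [h2] at h1
  exact h1.symm

theorem kil_Wt (h : Kil C al R w k M n) {m j : ℕ} (hm : m + j < M) :
    Wt (2 ^ m) (2 ^ j) (R (m + j)) (al (m + j)) C (w (m + j)) := by
  refine ⟨h.w0 (m + j), fun q p ha s hs t ht => ?_⟩
  have h1 := h.hs m j hm q p ha s hs t ht
  rw [st_eq, st_eq, box_eq_rs] at h1
  refine h1.trans (le_of_eq ?_)
  congr 1
  push_cast
  rw [pow_add, mul_pow, ← pow_mul, ← pow_mul, mul_comm j, mul_comm m, pow_mul, pow_mul]
  norm_num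
  ring

open Classical in
theorem xc_eq (m j : ℕ) (q p : ZMod Q) :
    xc (2 ^ m) (2 ^ j) (w (m + j)) (al m) (al (m + j)) q p =
      if Exit al j m q p then w (m + j) q p else 0 := by
  unfold xc Exit
  simp only [st_eq]

theorem kl_nrm (h : Kil C al R w k M n) {m : ℕ} (hm : m < M) (q p : ZMod Q) :
    ‖kl C al R m q p‖ ≤ 2 ^ m := by
  rw [kl_eq]
  exact nrm_kL (kil_PB h m) (by positivity) (fun q p ha => nrm_of_OpLe (h.op m hm q p ha)) q p

theorem gr_kl_nrm (h : Kil C al R w k M n) {m : ℕ} (hm : m < M) (q p : ZMod Q) :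
    ‖gr (2 ^ m) (kl C al R m) 0 0 q p‖ ≤ 1 := by
  rw [gr_zero]
  push_cast
  exact nrm_gram_le (by positivity) (kl_nrm h hm q p)

theorem gr_fl_nrm {X : ℕ → Mx Q} (h : Fl k M n X) {m j : ℕ} (hj : j ≤ k) (hm : m + j < M)
    (hQ : 2 ^ j * 2 ^ m ≤ Q) (q p : ZMod Q) : ‖gr (2 ^ m) (fl X m) j j q p‖ ≤ 1 := by
  rw [gr_fl X m j hQ]
  exact nrm_gram_le (by positivity) (nrm_of_OpLe (h.op m j hj hm q p))

theorem gr_fl_nrm0 {X : ℕ → Mx Q} (h : Fl k M n X) {m : ℕ} (hm : m < M) (q p : ZMod Q) :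
    ‖gr (2 ^ m) (fl X m) 0 0 q p‖ ≤ 1 := by
  rw [gr_fl0 X m]
  exact nrm_gram_le (by positivity) (nrm_of_OpLe (by simpa using h.op m 0 (Nat.zero_le _) hm q p))

/-- function letter going up, pointwise -/
theorem fl_step {X : ℕ → Mx Q} (h : Fl k M n X) {m j : ℕ} (hj : j ≤ k) (hm : m + j < M)
    (hQ : 2 ^ j * 2 ^ m ≤ Q) {v : ℝ} (q p : ZMod Q)
    (hv : TrN (box (X (m + j)) (2 ^ (m + j)) q p - box (X m) (2 ^ (m + j)) q p)
      (2 ^ (m + j) * v)) {G : Mx Q} (hG : G.PosSemidef) {ω : ℝ}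
    (hω : ‖gr (2 ^ (m + j)) (fl X (m + j)) 0 0 q p + G‖ ≤ ω) :
    phi (gr (2 ^ (m + j)) (fl X (m + j)) 0 0 q p + G) ≤
      phi (gr (2 ^ m) (fl X m) j j q p + G) + 3 * Real.sqrt ω * v := by
  rw [gr_fl0] at hω ⊢
  rw [gr_fl X m j hQ]
  exact phi_fl hG (by positivity) (nrm_of_OpLe (by
    simpa using h.op (m + j) 0 (Nat.zero_le _) hm q p)) hω hv

/-- killer going up, own variable = columns, pointwise -/
theorem kl_step (h : Kil C al R w k M n) {m j : ℕ} (hm : m + j < M)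
    (hQ : 2 ^ j * 2 ^ m ≤ Q) (q p : ZMod Q) {G : Mx Q} (hG : G.PosSemidef) {ω : ℝ}
    (hω0 : 0 ≤ ω) (hω : ‖gr (2 ^ (m + j)) (kl C al R (m + j)) 0 0 q p + G‖ ≤ ω) :
    phi (gr (2 ^ (m + j)) (kl C al R (m + j)) 0 0 q p + G) ≤
      phi (gr (2 ^ m) (kl C al R m) j j q p + G) +
        (9 / 2) * Real.sqrt ω * 16 ^ j *
          xc (2 ^ m) (2 ^ j) (w (m + j)) (al m) (al (m + j)) q p := by
  have e : 2 ^ (m + j) = 2 ^ j * 2 ^ m := by rw [pow_add, mul_comm]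
  rw [kl_eq, kl_eq] at *
  have h1 := kil_PB h (m + j)
  rw [e] at hω h1 ⊢
  exact kil_col (by positivity) hQ (kil_PB h m) h1 (kil_Nst h hm) (kil_Wt h hm) hω0 q p hG hω

end bridge

section sums

open scoped Matrix.Norms.L2Operator

variable {Q : ℕ} [NeZero Q]

theorem sum_ind_le (N : ℕ) (x : ZMod Q) : ∑ q : ZMod Q, ind N q x ≤ N := by
  unfold ind
  rw [Finset.sum_ite, Finset.sum_const_zero, add_zero, Finset.sum_const, nsmul_eq_mul, mul_one]
  have h1 : (Finset.univ.filter fun q : ZMod Q => (x - q).val < N).card ≤ (range N).card := by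
    refine Finset.card_le_card_of_injOn (fun q => (x - q).val) ?_ ?_
    · intro q hq
      simp only [Finset.coe_filter, Finset.mem_univ, true_and, Set.mem_setOf_eq] at hq
      simpa using hq
    · intro q _ q' _ h
      have := ZMod.val_injective Q h
      exact sub_right_inj.1 this
  rw [Finset.card_range] at h1
  exact_mod_cast h1

theorem hs2_rs (N : ℕ) (C : Mx Q) (q p : ZMod Q) :
    hs2 (rs N C q p) = ∑ x, ∑ y, ind N q x * ind N p y * C x y ^ 2 := by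
  unfold hs2 rs Eb
  refine Finset.sum_congr rfl fun x _ => Finset.sum_congr rfl fun y _ => ?_
  rw [mul_diagonal, diagonal_mul]
  have h1 := ind_sq N q x
  have h2 := ind_sq N p y
  calc (ind N q x * C x y * ind N p y) ^ 2 =
      (ind N q x * ind N q x) * (ind N p y * ind N p y) * C x y ^ 2 := by ring
    _ = _ := by rw [h1, h2]

theorem sum_hs2_rs (N : ℕ) (C : Mx Q) :
    ∑ q : ZMod Q, ∑ p : ZMod Q, hs2 (rs N C q p) ≤ (N : ℝ) ^ 2 * ∑ x, ∑ y, C x y ^ 2 := by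
  have h0 : ∀ x : ZMod Q, 0 ≤ ∑ q : ZMod Q, ind N q x := fun x =>
    Finset.sum_nonneg fun q _ => by unfold ind; split_ifs <;> norm_num
  calc ∑ q : ZMod Q, ∑ p : ZMod Q, hs2 (rs N C q p)
      = ∑ x, ∑ y, (∑ q : ZMod Q, ind N q x) * (∑ p : ZMod Q, ind N p y) * C x y ^ 2 := by
        simp_rw [hs2_rs]
        have c1 : ∀ f : ZMod Q → ZMod Q → ZMod Q → ZMod Q → ℝ,
            ∑ q, ∑ p, ∑ x, ∑ y, f q p x y = ∑ x, ∑ y, ∑ q, ∑ p, f q p x y := by
          intro f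
          calc ∑ q, ∑ p, ∑ x, ∑ y, f q p x y = ∑ q, ∑ x, ∑ p, ∑ y, f q p x y :=
                Finset.sum_congr rfl fun q _ => Finset.sum_comm
            _ = ∑ x, ∑ q, ∑ p, ∑ y, f q p x y := Finset.sum_comm
            _ = ∑ x, ∑ q, ∑ y, ∑ p, f q p x y :=
                Finset.sum_congr rfl fun x _ => Finset.sum_congr rfl fun q _ => Finset.sum_comm
            _ = ∑ x, ∑ y, ∑ q, ∑ p, f q p x y :=
                Finset.sum_congr rfl fun x _ => Finset.sum_comm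
        rw [c1]
        refine Finset.sum_congr rfl fun x _ => Finset.sum_congr rfl fun y _ => ?_
        rw [Finset.sum_mul_sum, Finset.sum_mul]
        refine Finset.sum_congr rfl fun q _ => ?_
        rw [Finset.sum_mul]
    _ ≤ ∑ x, ∑ y, (N : ℝ) * N * C x y ^ 2 := by
        refine Finset.sum_le_sum fun x _ => Finset.sum_le_sum fun y _ => ?_
        refine mul_le_mul_of_nonneg_right ?_ (sq_nonneg _)
        exact mul_le_mul (sum_ind_le N x) (sum_ind_le N y) (h0 y) (Nat.cast_nonneg _)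
    _ = _ := by
        rw [Finset.mul_sum]
        refine Finset.sum_congr rfl fun x _ => ?_
        rw [Finset.mul_sum]
        refine Finset.sum_congr rfl fun y _ => ?_
        ring

theorem trace_gr0 (N : ℕ) (L : Lt Q (ZMod Q)) (q p : ZMod Q) :
    (gr N L 0 0 q p).trace = (1 / (N : ℝ) ^ 2) * hs2 (L q p) := by
  rw [gr_zero, trace_smul, smul_eq_mul, ← PotL.hs2_transpose, hs2_eq, transpose_transpose]

/-- total trace of a function letter -/
theorem sum_trace_fl (X : ℕ → Mx Q) (m : ℕ) :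
    ∑ q : ZMod Q, ∑ p : ZMod Q, (gr (2 ^ m) (fl X m) 0 0 q p).trace ≤ ∑ x, ∑ y, X m x y ^ 2 := by
  have h := sum_hs2_rs (2 ^ m) (X m)
  calc ∑ q : ZMod Q, ∑ p : ZMod Q, (gr (2 ^ m) (fl X m) 0 0 q p).trace
      = (1 / ((2 ^ m : ℕ) : ℝ) ^ 2) * ∑ q : ZMod Q, ∑ p : ZMod Q, hs2 (rs (2 ^ m) (X m) q p) := by
        rw [Finset.mul_sum]
        refine Finset.sum_congr rfl fun q _ => ?_
        rw [Finset.mul_sum]
        refine Finset.sum_congr rfl fun p _ => ?_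
        rw [trace_gr0]
        rfl
    _ ≤ (1 / ((2 ^ m : ℕ) : ℝ) ^ 2) * (((2 ^ m : ℕ) : ℝ) ^ 2 * ∑ x, ∑ y, X m x y ^ 2) :=
        mul_le_mul_of_nonneg_left h (by positivity)
    _ = _ := by
        have : ((2 ^ m : ℕ) : ℝ) ≠ 0 := by positivity
        field_simp

variable {C : Mx Q} {al : ℕ → ZMod Q → ZMod Q → Prop} {R : ℕ → ZMod Q → ZMod Q → Mx Q}
  {w : ℕ → ZMod Q → ZMod Q → ℝ} {k M : ℕ} {n : ℝ}

/-- total trace of the killer letters -/
theorem sum_trace_kl (h : Kil C al R w k M n) {m : ℕ} (hm : m < M) :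
    ∑ q : ZMod Q, ∑ p : ZMod Q, (gr (2 ^ m) (kl C al R m) 0 0 q p).trace ≤ n := by
  classical
  refine le_trans (Finset.sum_le_sum fun q _ => Finset.sum_le_sum fun p _ => ?_) (h.sw m hm)
  rw [trace_gr0]
  unfold kl
  split_ifs with ha
  · have h1 := h.hs m 0 hm q p ha 0 (by norm_num) 0 (by norm_num)
    have e : (st m 0 : ZMod Q) = 0 := by unfold st; simp
    rw [e, add_zero, add_zero, add_zero] at h1
    have e4 : ((4 : ℝ) ^ m) = ((2 ^ m : ℕ) : ℝ) ^ 2 := by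
      push_cast
      rw [← pow_mul, mul_comm, pow_mul]
      norm_num
    rw [e4] at h1
    have h2 : (0 : ℝ) < ((2 ^ m : ℕ) : ℝ) ^ 2 := by positivity
    rw [one_div, inv_mul_le_iff₀ h2]
    exact h1
  · have : hs2 (0 : Matrix (ZMod Q) (ZMod Q) ℝ) = 0 := by simp [hs2]
    rw [this, mul_zero]

/-- the size of `phi` -/
theorem phi_le_trace {M : Mx Q} (hM : M.PosSemidef) {ω : ℝ} (h : ‖M‖ ≤ ω) :
    phi M ≤ Real.sqrt ω * M.trace :=
  (phi_le_nrm hM).trans (mul_le_mul_of_nonneg_right (Real.sqrt_le_sqrt h) hM.trace_nonneg)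

/-- reindexing of the partner box -/
theorem sum_refl (f : ZMod Q → ZMod Q → ℝ) (t : ZMod Q) :
    ∑ p : ZMod Q, ∑ q : ZMod Q, f (t - p - q) p = ∑ q : ZMod Q, ∑ p : ZMod Q, f q p := by
  rw [Finset.sum_comm (s := (Finset.univ : Finset (ZMod Q))) (t := (Finset.univ : Finset (ZMod Q)))
    (f := fun q p => f q p)]
  refine Finset.sum_congr rfl fun p _ => ?_
  exact Equiv.sum_comp (Equiv.subLeft (t - p)) (fun q => f q p)

/-- joint potential at the bottom -/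
theorem VJ_bot {X Z : ℕ → Lt Q (ZMod Q)} {m : ℕ} {a b : ℝ}
    (hX1 : ∀ q p, ‖gr (2 ^ m) (X m) 0 0 q p‖ ≤ 1) (hZ1 : ∀ q p, ‖gr (2 ^ m) (Z m) 0 0 q p‖ ≤ 1)
    (hX : ∑ q : ZMod Q, ∑ p : ZMod Q, (gr (2 ^ m) (X m) 0 0 q p).trace ≤ a)
    (hZ : ∑ q : ZMod Q, ∑ p : ZMod Q, (gr (2 ^ m) (Z m) 0 0 q p).trace ≤ b) :
    VJ X Z m 0 ≤ Real.sqrt 2 * (a + b) := by
  unfold VJ VV
  have hpos : 0 < 2 ^ 0 * 2 ^ m := by positivity
  refine le_trans (bl_mono (g := fun _ => Real.sqrt 2 * (a + b)) ?_ _ _)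
    (le_of_eq (bl_const _ hpos _))
  intro t
  unfold WW
  have h1 : ∀ p q : ZMod Q, phi (gr (2 ^ m) (X m) 0 0 q p + gr (2 ^ m) (Z m) 0 0 (t - p - q) p) ≤
      Real.sqrt 2 * (gr (2 ^ m) (X m) 0 0 q p).trace +
      Real.sqrt 2 * (gr (2 ^ m) (Z m) 0 0 (t - p - q) p).trace := by
    intro p q
    rw [← mul_add, ← trace_add]
    refine phi_le_trace ((gr_psd _ _ _ _ _ _).add (gr_psd _ _ _ _ _ _)) ?_
    refine (norm_add_le _ _).trans ?_
    have := hX1 q p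
    have := hZ1 (t - p - q) p
    linarith
  refine (Finset.sum_le_sum fun p _ => Finset.sum_le_sum fun q _ => h1 p q).trans ?_
  simp only [Finset.sum_add_distrib, ← Finset.mul_sum]
  rw [sum_refl (fun q p => (gr (2 ^ m) (Z m) 0 0 q p).trace) t]
  rw [Finset.sum_comm (s := (Finset.univ : Finset (ZMod Q))) (t := (Finset.univ : Finset (ZMod Q)))
    (f := fun p q => (gr (2 ^ m) (X m) 0 0 q p).trace), ← mul_add]
  exact mul_le_mul_of_nonneg_left (add_le_add hX hZ) (Real.sqrt_nonneg _)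

/-- own potential at the bottom -/
theorem EO_bot {L : Lt Q (ZMod Q)} {N : ℕ} {a : ℝ} (hL1 : ∀ q p, ‖gr N L 0 0 q p‖ ≤ 1)
    (hL : ∑ q : ZMod Q, ∑ p : ZMod Q, (gr N L 0 0 q p).trace ≤ a) :
    EO (gr N L) 0 0 ≤ a := by
  unfold EO
  refine le_trans (Finset.sum_le_sum fun p _ => Finset.sum_le_sum fun q _ =>
    phi_le_trace (gr_psd _ _ _ _ _ _) (hL1 q p)) ?_
  rw [Finset.sum_comm]
  simp only [Real.sqrt_one, one_mul]
  exact hL

/-- joint potential, one scale up -/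
theorem VJ_step {X Z : ℕ → Lt Q (ZMod Q)} {m : ℕ} (cX cZ : ZMod Q → ZMod Q → ℝ)
    (h : ∀ q q' p, phi (gr (2 ^ (m + 1)) (X (m + 1)) 0 0 q p +
        gr (2 ^ (m + 1)) (Z (m + 1)) 0 0 q' p) ≤
      phi (gr (2 ^ m) (X m) 1 1 q p + gr (2 ^ m) (Z m) 1 1 q' p) + cX q p + cZ q' p) :
    VJ X Z (m + 1) 0 - VJ X Z m 1 ≤
      ∑ q : ZMod Q, ∑ p : ZMod Q, cX q p + ∑ q : ZMod Q, ∑ p : ZMod Q, cZ q p := by
  rw [sub_le_iff_le_add']
  unfold VJ VV
  have e : 2 ^ 0 * 2 ^ (m + 1) = 2 ^ 1 * 2 ^ m := by rw [pow_succ]; ring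
  rw [e]
  have hpos : 0 < 2 ^ 1 * 2 ^ m := by positivity
  rw [← bl_const (Q := Q) (∑ q : ZMod Q, ∑ p : ZMod Q, cX q p + ∑ q : ZMod Q, ∑ p : ZMod Q, cZ q p)
    hpos (-2), ← bl_add]
  refine bl_mono (fun t => ?_) _ _
  unfold WW
  refine (Finset.sum_le_sum fun p _ => Finset.sum_le_sum fun q _ => h q (t - p - q) p).trans ?_
  simp only [Finset.sum_add_distrib]
  rw [sum_refl cZ t]
  rw [Finset.sum_comm (s := (Finset.univ : Finset (ZMod Q))) (t := (Finset.univ : Finset (ZMod Q)))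
    (f := fun p q => cX q p)]
  linarith

/-- own potential, `j` scales up -/
theorem EO_step {X : ℕ → Lt Q (ZMod Q)} {m j : ℕ} (c : ZMod Q → ZMod Q → ℝ)
    (h : ∀ q p, phi (gr (2 ^ (m + j)) (X (m + j)) 0 0 q p) ≤
      phi (gr (2 ^ m) (X m) j j q p) + c q p) :
    EO (gr (2 ^ (m + j)) (X (m + j))) 0 0 - EO (gr (2 ^ m) (X m)) j j ≤
      ∑ q : ZMod Q, ∑ p : ZMod Q, c q p := by
  rw [sub_le_iff_le_add']
  unfold EO
  refine (Finset.sum_le_sum fun p _ => Finset.sum_le_sum fun q _ => h q p).trans ?_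
  simp only [Finset.sum_add_distrib]
  rw [Finset.sum_comm (s := (Finset.univ : Finset (ZMod Q))) (t := (Finset.univ : Finset (ZMod Q)))
    (f := fun p q => c q p)]

end sums

section final

open scoped Matrix.Norms.L2Operator

variable {Q : ℕ} [NeZero Q]

theorem pow_le_Q {M i : ℕ} (hQ : 2 ^ M ∣ Q) (hi : i ≤ M) : 2 ^ i ≤ Q :=
  (Nat.pow_le_pow_right (by norm_num) hi).trans
    (Nat.le_of_dvd (Nat.pos_of_ne_zero (NeZero.ne Q)) hQ)

theorem pow_mul_le_Q {M m j : ℕ} (hQ : 2 ^ M ∣ Q) (hi : m + j ≤ M) : 2 ^ j * 2 ^ m ≤ Q := by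
  rw [← pow_add, add_comm]
  exact pow_le_Q hQ hi

theorem sum_trunc (f : ℕ → ZMod Q → ZMod Q → ℝ) (hf : ∀ m q p, 0 ≤ f m q p) {M1 M j : ℕ}
    (h : ∀ m < M1, m + j < M) :
    ∑ m ∈ range M1, ∑ q : ZMod Q, ∑ p : ZMod Q, f m q p ≤
      ∑ m ∈ range M, ∑ q : ZMod Q, ∑ p : ZMod Q, (if m + j < M then f m q p else 0) := by
  have h1 : ∑ m ∈ range M1, ∑ q : ZMod Q, ∑ p : ZMod Q, f m q p =
      ∑ m ∈ range M1, ∑ q : ZMod Q, ∑ p : ZMod Q, (if m + j < M then f m q p else 0) := by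
    refine Finset.sum_congr rfl fun m hm => ?_
    rw [Finset.mem_range] at hm
    simp only [h m hm, if_true]
  rw [h1]
  refine Finset.sum_le_sum_of_subset_of_nonneg ?_ ?_
  · intro m hm
    rw [Finset.mem_range] at hm ⊢
    have := h m hm
    omega
  · intro m _ _
    refine Finset.sum_nonneg fun q _ => Finset.sum_nonneg fun p _ => ?_
    split_ifs
    · exact hf m q p
    · exact le_rfl

open Classical in
theorem xc_nonneg {N K : ℕ} {w : ZMod Q → ZMod Q → ℝ} {al al' : ZMod Q → ZMod Q → Prop}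
    (hw : ∀ q p, 0 ≤ w q p) (q p : ZMod Q) : 0 ≤ xc N K w al al' q p := by
  unfold xc
  split_ifs
  · exact hw q p
  · exact le_rfl

/-- total weight of the exits -/
theorem sum_xc {C : Mx Q} {al : ℕ → ZMod Q → ZMod Q → Prop} {R : ℕ → ZMod Q → ZMod Q → Mx Q}
    {w : ℕ → ZMod Q → ZMod Q → ℝ} {k M : ℕ} {n : ℝ} (h : Kil C al R w k M n) {M1 j : ℕ}
    (hj : j ≤ k) (hM : ∀ m < M1, m + j < M) :
    ∑ m ∈ range M1, ∑ q : ZMod Q, ∑ p : ZMod Q,
      xc (2 ^ m) (2 ^ j) (w (m + j)) (al m) (al (m + j)) q p ≤ n := by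
  classical
  refine (sum_trunc _ (fun m q p => xc_nonneg (h.w0 (m + j)) q p) hM).trans
    (le_trans (le_of_eq ?_) (h.sx j hj))
  refine Finset.sum_congr rfl fun m _ => Finset.sum_congr rfl fun q _ =>
    Finset.sum_congr rfl fun p _ => ?_
  rw [xc_eq, ite_and]

theorem sum_smul3 (c : ℝ) (f : ℕ → ZMod Q → ZMod Q → ℝ) (M1 : ℕ) :
    ∑ m ∈ range M1, ∑ q : ZMod Q, ∑ p : ZMod Q, c * f m q p =
      c * ∑ m ∈ range M1, ∑ q : ZMod Q, ∑ p : ZMod Q, f m q p := by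
  simp only [← Finset.mul_sum]

/-- **assembly of the price of a word** at a vertex whose letters go up at prices `cX`, `cZ` -/
theorem WP_le (X Z : ℕ → Lt Q (ZMod Q)) (k M' : ℕ) {a b x1 z1 xk zk : ℝ}
    (cX cZ dX dZ : ℕ → ZMod Q → ZMod Q → ℝ)
    (h0 : VJ X Z 0 0 ≤ a)
    (h1 : ∀ m < M' - 1, ∀ q q' p, phi (gr (2 ^ (m + 1)) (X (m + 1)) 0 0 q p +
        gr (2 ^ (m + 1)) (Z (m + 1)) 0 0 q' p) ≤
      phi (gr (2 ^ m) (X m) 1 1 q p + gr (2 ^ m) (Z m) 1 1 q' p) + cX m q p + cZ m q' p)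
    (h2 : ∀ m < k, VO X Z m 0 ≤ b)
    (h3 : ∀ m < M' - k, ∀ q p, phi (gr (2 ^ (m + k)) (X (m + k)) 0 0 q p) ≤
      phi (gr (2 ^ m) (X m) k k q p) + dX m q p)
    (h4 : ∀ m < M' - k, ∀ q p, phi (gr (2 ^ (m + k)) (Z (m + k)) 0 0 q p) ≤
      phi (gr (2 ^ m) (Z m) k k q p) + dZ m q p)
    (sX : ∑ m ∈ range (M' - 1), ∑ q : ZMod Q, ∑ p : ZMod Q, cX m q p ≤ x1)
    (sZ : ∑ m ∈ range (M' - 1), ∑ q : ZMod Q, ∑ p : ZMod Q, cZ m q p ≤ z1)
    (tX : ∑ m ∈ range (M' - k), ∑ q : ZMod Q, ∑ p : ZMod Q, dX m q p ≤ xk)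
    (tZ : ∑ m ∈ range (M' - k), ∑ q : ZMod Q, ∑ p : ZMod Q, dZ m q p ≤ zk) :
    WP X Z k M' ≤ 4 * a + 4 * (x1 + z1) + 64 * (k * b) + 64 * (xk + zk) := by
  unfold WP
  have e1 : ∑ m ∈ range (M' - 1), (VJ X Z (m + 1) 0 - VJ X Z m 1) ≤ x1 + z1 := by
    refine le_trans (Finset.sum_le_sum fun m hm => VJ_step (cX m) (cZ m) (h1 m ?_)) ?_
    · exact Finset.mem_range.1 hm
    · rw [Finset.sum_add_distrib]
      exact add_le_add sX sZ
  have e2 : ∑ m ∈ range k, VO X Z m 0 ≤ k * b := by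
    refine (Finset.sum_le_sum fun m hm => h2 m (Finset.mem_range.1 hm)).trans (le_of_eq ?_)
    rw [Finset.sum_const, Finset.card_range, nsmul_eq_mul]
  have e3 : ∑ m ∈ range (M' - k), (VO X Z (m + k) 0 - VO X Z m k) ≤ xk + zk := by
    refine le_trans (Finset.sum_le_sum (g := fun m =>
      ∑ q : ZMod Q, ∑ p : ZMod Q, dX m q p + ∑ q : ZMod Q, ∑ p : ZMod Q, dZ m q p)
      fun m hm => ?_) ?_
    · have hm' := Finset.mem_range.1 hm
      have a1 := EO_step (X := X) (dX m) (h3 m hm')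
      have a2 := EO_step (X := Z) (dZ m) (h4 m hm')
      unfold VO EB
      linarith
    · rw [Finset.sum_add_distrib]
      exact add_le_add tX tZ
  linarith

/-- **(L5-0) vertex 0** -/
theorem vert0 : Vert0 := by
  intro k hk
  refine ⟨4 * (Real.sqrt 2 * 2) + 4 * (3 * Real.sqrt 2 + (9 / 2) * Real.sqrt 2 * 16 ^ 1) +
    64 * (k * 2) + 64 * (3 + (9 / 2) * 16 ^ k), by positivity, ?_⟩
  intro Q _ M M' n X C al R w hQ hM hX hC
  obtain ⟨v1, v10, v11, v12⟩ := hX.mv 1 hk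
  obtain ⟨vk, vk0, vk1, vk2⟩ := hX.mv k le_rfl
  have hM0 : 0 < M := by omega
  have trX : ∀ m < M, ∑ q : ZMod Q, ∑ p : ZMod Q, (gr (2 ^ m) (fl X m) 0 0 q p).trace ≤ n :=
    fun m hm => (sum_trace_fl X m).trans (hX.en m hm)
  have trZ : ∀ m < M, ∑ q : ZMod Q, ∑ p : ZMod Q, (gr (2 ^ m) (kl C al R m) 0 0 q p).trace ≤ n :=
    fun m hm => sum_trace_kl hC hm
  have n1 : ∀ m < M, ∀ q p, ‖gr (2 ^ m) (fl X m) 0 0 q p‖ ≤ 1 := fun m hm => gr_fl_nrm0 hX hm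
  have n2 : ∀ m < M, ∀ q p, ‖gr (2 ^ m) (kl C al R m) 0 0 q p‖ ≤ 1 := fun m hm =>
    gr_kl_nrm hC hm
  have hW := WP_le (fl X) (kl C al R) k M' (a := Real.sqrt 2 * (n + n)) (b := n + n)
    (x1 := 3 * Real.sqrt 2 * n) (z1 := (9 / 2) * Real.sqrt 2 * 16 ^ 1 * n)
    (xk := 3 * n) (zk := (9 / 2) * 16 ^ k * n)
    (fun m q p => 3 * Real.sqrt 2 * v1 m q p)
    (fun m q p => (9 / 2) * Real.sqrt 2 * 16 ^ 1 *
      xc (2 ^ m) (2 ^ 1) (w (m + 1)) (al m) (al (m + 1)) q p)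
    (fun m q p => 3 * vk m q p)
    (fun m q p => (9 / 2) * 16 ^ k *
      xc (2 ^ m) (2 ^ k) (w (m + k)) (al m) (al (m + k)) q p) ?_ ?_ ?_ ?_ ?_ ?_ ?_ ?_ ?_
  · refine hW.trans (le_of_eq ?_)
    ring
  · exact VJ_bot (n1 0 hM0) (n2 0 hM0) (trX 0 hM0) (trZ 0 hM0)
  · intro m hm q q' p
    have hm1 : m + 1 < M := by omega
    have hQ1 : 2 ^ 1 * 2 ^ m ≤ Q := pow_mul_le_Q hQ (by omega)
    have s1 := fl_step hX hk hm1 hQ1 q p (v11 m hm1 q p)
      (G := gr (2 ^ (m + 1)) (kl C al R (m + 1)) 0 0 q' p) (gr_psd _ _ _ _ _ _) (ω := 2)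
      ((norm_add_le _ _).trans (by
        have := n1 (m + 1) hm1 q p
        have := n2 (m + 1) hm1 q' p
        linarith))
    have s2 := kl_step hC hm1 hQ1 q' p (G := gr (2 ^ m) (fl X m) 1 1 q p) (gr_psd _ _ _ _ _ _)
      (ω := 2) (by norm_num) ((norm_add_le _ _).trans (by
        have := gr_fl_nrm hX hk hm1 hQ1 q p
        have := n2 (m + 1) hm1 q' p
        linarith))
    rw [add_comm (gr (2 ^ (m + 1)) (kl C al R (m + 1)) 0 0 q' p),
      add_comm (gr (2 ^ m) (kl C al R m) 1 1 q' p)] at s2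
    linarith
  · intro m hm
    have hm1 : m < M := by omega
    unfold VO EB
    exact add_le_add (EO_bot (n1 m hm1) (trX m hm1)) (EO_bot (n2 m hm1) (trZ m hm1))
  · intro m hm q p
    have hm1 : m + k < M := by omega
    have hQ1 : 2 ^ k * 2 ^ m ≤ Q := pow_mul_le_Q hQ (by omega)
    have s1 := fl_step hX le_rfl hm1 hQ1 q p (vk1 m hm1 q p) (G := 0) PosSemidef.zero (ω := 1)
      (by rw [add_zero]; exact n1 (m + k) hm1 q p)
    rwa [add_zero, add_zero, Real.sqrt_one, mul_one] at s1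
  · intro m hm q p
    have hm1 : m + k < M := by omega
    have hQ1 : 2 ^ k * 2 ^ m ≤ Q := pow_mul_le_Q hQ (by omega)
    have s1 := kl_step hC hm1 hQ1 q p (G := 0) PosSemidef.zero (ω := 1) (by norm_num)
      (by rw [add_zero]; exact n2 (m + k) hm1 q p)
    rwa [add_zero, add_zero, Real.sqrt_one, mul_one] at s1
  · rw [sum_smul3]
    refine mul_le_mul_of_nonneg_left ?_ (by positivity)
    exact (sum_trunc v1 v10 (fun m hm => by omega)).trans v12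
  · rw [sum_smul3]
    refine mul_le_mul_of_nonneg_left ?_ (by positivity)
    exact sum_xc hC hk (fun m hm => by omega)
  · rw [sum_smul3]
    refine mul_le_mul_of_nonneg_left ?_ (by positivity)
    exact (sum_trunc vk vk0 (fun m hm => by omega)).trans vk2
  · rw [sum_smul3]
    refine mul_le_mul_of_nonneg_left ?_ (by positivity)
    exact sum_xc hC le_rfl (fun m hm => by omega)

end final

end Crest.Agent.R079.CRv0x250
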