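import Crest.Agent.R079.CRm_371
import Crest.Agent.R079.CRf_250

/-! R079, RAGGED CORNER (CR), L5-1: the vertex with two function letters, literal `Vert1` of
CRdef2_253.  helper371. -/

set_option autoImplicit false
set_option linter.unusedVariables false
set_option linter.unusedSectionVars false
set_option linter.unusedSimpArgs false

namespace Crest.Agent.R079.CRv1x371

open Matrix Finset Crest.Agent.R072 Crest.Agent.R079.CR371
open Crest.Agent.R079.CRex250 (AB gr_eq rs rs_sum)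
open Crest.Agent.R079.CRdefx253 (Mx OpLe TrN Fl fl Vert1)
open Crest.Agent.R079.CR371m (opLe_iff)
open Crest.Agent.R079.PotL (bl)
open scoped MatrixOrder Matrix.Norms.L2Operator

section price

variable {m m' n : Type*} [Fintype m] [DecidableEq m] [Fintype m'] [DecidableEq m'] [Fintype n]
  [DecidableEq n]

theorem TrN_le {E : Matrix m n ℝ} {c : ℝ} (hE : TrN E c) {K : Matrix n m ℝ} {s : ℝ}
    (hK : ‖K‖ ≤ s) : |(K * E).trace| ≤ s * c := by
  have hs : 0 ≤ s := (norm_nonneg K).trans hK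
  rcases hs.eq_or_lt with h0 | h0
  · have hK0 : K = 0 := by
      rw [← norm_le_zero_iff]
      rw [← h0] at hK
      exact hK
    rw [hK0, Matrix.zero_mul, trace_zero, abs_zero, ← h0, zero_mul]
  · have h1 : OpLe (s⁻¹ • K) 1 := by
      rw [opLe_iff, norm_smul, norm_inv, Real.norm_of_nonneg hs]
      rw [inv_mul_le_iff₀ h0, mul_one]
      exact hK
    have h2 := hE _ h1
    rw [Matrix.smul_mul, trace_smul, smul_eq_mul, abs_mul, abs_inv, abs_of_pos h0,
      inv_mul_le_iff₀ h0] at h2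
    exact h2

theorem psd_g (X : Matrix m n ℝ) : (Xᵀ * X).PosSemidef := psd_gram X

/-- price of a change of one Gram matrix -/
theorem gram_price {M : Matrix n n ℝ} (hM : M.PosSemidef) {s : ℝ} (hs : ‖CFC.sqrt M‖ ≤ s)
    {a a' : Matrix m n ℝ} (ha : ‖a‖ ≤ 1) (ha' : ‖a'‖ ≤ 1) {u : ℝ} (hu : TrN (a - a') u) :
    (CFC.sqrt M * (aᵀ * a - a'ᵀ * a')).trace ≤ 2 * (s * u) := by
  have hs0 : 0 ≤ s := (norm_nonneg _).trans hs
  have e : aᵀ * a - a'ᵀ * a' = aᵀ * (a - a') + (a - a')ᵀ * a' := by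
    rw [transpose_sub]
    simp only [Matrix.mul_sub, Matrix.sub_mul]
    abel
  rw [e, Matrix.mul_add, trace_add]
  have h1 : (CFC.sqrt M * (aᵀ * (a - a'))).trace ≤ s * u := by
    rw [← Matrix.mul_assoc]
    refine (le_abs_self _).trans (TrN_le hu ?_)
    refine (l2_opNorm_mul _ _).trans ?_
    rw [nrm_t]
    calc ‖CFC.sqrt M‖ * ‖a‖ ≤ s * 1 := mul_le_mul hs ha (norm_nonneg _) hs0
      _ = s := mul_one s
  have h2 : (CFC.sqrt M * ((a - a')ᵀ * a')).trace ≤ s * u := by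
    have e2 : (CFC.sqrt M * ((a - a')ᵀ * a')).trace = ((CFC.sqrt M * a'ᵀ) * (a - a')).trace := by
      rw [← trace_transpose]
      rw [transpose_mul, transpose_mul, transpose_transpose, rt_transpose, Matrix.mul_assoc,
        trace_mul_comm, Matrix.mul_assoc, trace_mul_comm]
    rw [e2]
    refine (le_abs_self _).trans (TrN_le hu ?_)
    refine (l2_opNorm_mul _ _).trans ?_
    rw [nrm_t]
    calc ‖CFC.sqrt M‖ * ‖a'‖ ≤ s * 1 := mul_le_mul hs ha' (norm_nonneg _) hs0
      _ = s := mul_one s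
  linarith

theorem nrm_gram_le {a : Matrix m n ℝ} (ha : ‖a‖ ≤ 1) : ‖aᵀ * a‖ ≤ 1 := by
  rw [nrm_gram]
  nlinarith [norm_nonneg a]

/-- joint price -/
theorem price_pair {a a' : Matrix m n ℝ} {b b' : Matrix m' n ℝ} (ha : ‖a‖ ≤ 1) (ha' : ‖a'‖ ≤ 1)
    (hb : ‖b‖ ≤ 1) (hb' : ‖b'‖ ≤ 1) {u w : ℝ} (hu : TrN (a - a') u) (hw : TrN (b - b') w) :
    phi (aᵀ * a + bᵀ * b) ≤ phi (a'ᵀ * a' + b'ᵀ * b') + 6 * (u + w) := by
  have hM : (aᵀ * a + bᵀ * b).PosSemidef := (psd_gram a).add (psd_gram b)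
  have hM' : (a'ᵀ * a' + b'ᵀ * b').PosSemidef := (psd_gram a').add (psd_gram b')
  have h := phi_sub_le hM hM'
  have hn : ‖aᵀ * a + bᵀ * b‖ ≤ 4 := by
    refine (norm_add_le _ _).trans ?_
    have h1 := nrm_gram_le ha
    have h2 := nrm_gram_le hb
    linarith
  have hs : ‖CFC.sqrt (aᵀ * a + bᵀ * b)‖ ≤ 2 := by
    rw [nrm_rt hM]
    refine (Real.sqrt_le_sqrt hn).trans ?_
    rw [show (4 : ℝ) = 2 ^ 2 by norm_num, Real.sqrt_sq (by norm_num)]
  have e : aᵀ * a + bᵀ * b - (a'ᵀ * a' + b'ᵀ * b') =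
      (aᵀ * a - a'ᵀ * a') + (bᵀ * b - b'ᵀ * b') := by abel
  rw [e, Matrix.mul_add, trace_add] at h
  have h1 := gram_price hM hs ha ha' hu
  have h2 := gram_price hM hs hb hb' hw
  linarith

end price

section kernel

variable {Q : ℕ} [NeZero Q]

theorem box_eq_rs (F : Mx Q) (L : ℕ) (q p : ZMod Q) : CRdefx253.box F L q p = rs L F q p := rfl

/-- normalised Gram matrix of a kernel on a window -/
noncomputable def gk (N : ℕ) (K : Mx Q) (q p : ZMod Q) : Mx Q :=
  ((1 / (N : ℝ)) • rs N K q p)ᵀ * ((1 / (N : ℝ)) • rs N K q p)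

theorem gk_psd (N : ℕ) (K : Mx Q) (q p : ZMod Q) : (gk N K q p).PosSemidef := psd_gram _

theorem gk_eq (N : ℕ) (K : Mx Q) (q p : ZMod Q) :
    gk N K q p = (1 / (N : ℝ) ^ 2) • ((rs N K q p)ᵀ * rs N K q p) := by
  unfold gk
  rw [transpose_smul, smul_mul_smul_comm, one_div_mul_one_div, sq]

theorem AB_fl (X : ℕ → Mx Q) (m j : ℕ) (hj : 2 ^ j * 2 ^ m ≤ Q) (q p : ZMod Q) :
    AB (2 ^ m) (fl X m) j q p = rs (2 ^ j * 2 ^ m) (X m) q p := by
  rw [rs_sum (by positivity) hj]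
  rfl

theorem gr_fl (X : ℕ → Mx Q) (m j : ℕ) (hj : 2 ^ j * 2 ^ m ≤ Q) (q p : ZMod Q) :
    gr (2 ^ m) (fl X m) j j q p = gk (2 ^ j * 2 ^ m) (X m) q p := by
  rw [gr_eq (by positivity) (CR371y.fl_sup X m).2 j hj, AB_fl X m j hj, gk_eq]

theorem nrm_scaled {N : ℕ} {K : Mx Q} {q p : ZMod Q}
    (h : OpLe (CRdefx253.box K N q p) (N : ℝ)) : ‖(1 / (N : ℝ)) • rs N K q p‖ ≤ 1 := by
  rw [box_eq_rs, opLe_iff] at h
  rw [norm_smul, Real.norm_of_nonneg (by positivity)]
  rcases Nat.eq_zero_or_pos N with h0 | h0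
  · subst h0
    simp
  · have : (0 : ℝ) < N := by exact_mod_cast h0
    rw [one_div, inv_mul_le_iff₀ this, mul_one]
    exact h

theorem TrN_scaled {N : ℕ} (hN : 0 < N) {K K' : Mx Q} {q p : ZMod Q} {v : ℝ}
    (h : TrN (CRdefx253.box K N q p - CRdefx253.box K' N q p) ((N : ℝ) * v)) :
    TrN ((1 / (N : ℝ)) • rs N K q p - (1 / (N : ℝ)) • rs N K' q p) v := by
  intro Z hZ
  have hN' : (0 : ℝ) < N := by exact_mod_cast hN
  have h1 := h Z hZ
  rw [box_eq_rs, box_eq_rs] at h1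
  rw [← smul_sub, Matrix.mul_smul, trace_smul, smul_eq_mul, abs_mul, abs_of_nonneg (by positivity),
    one_div, inv_mul_le_iff₀ hN']
  exact h1

/-- data of one move at side `N` -/
structure Mv (N : ℕ) (K K' : Mx Q) (v : ZMod Q → ZMod Q → ℝ) : Prop where
  op : ∀ q p, OpLe (CRdefx253.box K N q p) (N : ℝ)
  op' : ∀ q p, OpLe (CRdefx253.box K' N q p) (N : ℝ)
  mv : ∀ q p, TrN (CRdefx253.box K N q p - CRdefx253.box K' N q p) ((N : ℝ) * v q p)

theorem pair_le {N : ℕ} (hN : 0 < N) {K K' L L' : Mx Q} {v w : ZMod Q → ZMod Q → ℝ}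
    (hK : Mv N K K' v) (hL : Mv N L L' w) (q q' p : ZMod Q) :
    phi (gk N K q p + gk N L q' p) ≤ phi (gk N K' q p + gk N L' q' p) + 6 * (v q p + w q' p) :=
  price_pair (nrm_scaled (hK.op q p)) (nrm_scaled (hK.op' q p)) (nrm_scaled (hL.op q' p))
    (nrm_scaled (hL.op' q' p)) (TrN_scaled hN (hK.mv q p)) (TrN_scaled hN (hL.mv q' p))

theorem TrN_zero {m n : Type*} [Fintype m] [Fintype n] : TrN (0 : Matrix m n ℝ) 0 := by
  intro K _
  rw [Matrix.mul_zero, trace_zero, abs_zero]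

theorem own_le {N : ℕ} (hN : 0 < N) {K K' : Mx Q} {v : ZMod Q → ZMod Q → ℝ}
    (hK : Mv N K K' v) (q p : ZMod Q) :
    phi (gk N K q p) ≤ phi (gk N K' q p) + 6 * v q p := by
  have h := price_pair (b := (0 : Mx Q)) (b' := (0 : Mx Q)) (w := 0) (nrm_scaled (hK.op q p))
    (nrm_scaled (hK.op' q p)) (by simp) (by simp) (TrN_scaled hN (hK.mv q p))
    (by rw [sub_zero]; exact TrN_zero)
  simp only [Matrix.mul_zero, add_zero] at h
  exact h

/-- sum over all windows of the mean square -/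
theorem sum_ind {N : ℕ} (hN : N ≤ Q) (x : ZMod Q) : ∑ q : ZMod Q, ind N q x = N := by
  have h1 : ∑ q : ZMod Q, ind N q x = ∑ d : ZMod Q, ind N 0 d := by
    rw [← Equiv.sum_comp (Equiv.subLeft x) (fun d => ind N 0 d)]
    refine Finset.sum_congr rfl fun q _ => ?_
    rw [Equiv.subLeft_apply]
    unfold ind
    rw [sub_zero]
  have h2 := sum_win (Q := Q) hN 0 (fun _ => (1 : ℝ))
  simp only [mul_one] at h2
  rw [h1, h2]
  simp

theorem sum_tr_gk {N : ℕ} (hN0 : 0 < N) (hN : N ≤ Q) (K : Mx Q) :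
    ∑ p : ZMod Q, ∑ q : ZMod Q, (gk N K q p).trace = ∑ x, ∑ y, K x y ^ 2 := by
  have hN' : (N : ℝ) ≠ 0 := by positivity
  have h1 : ∀ q p : ZMod Q, (gk N K q p).trace =
      (1 / (N : ℝ) ^ 2) * ∑ y, ∑ x, ind N q x * ind N p y * K x y ^ 2 := by
    intro q p
    rw [gk_eq, trace_smul, smul_eq_mul]
    congr 1
    unfold Matrix.trace
    refine Finset.sum_congr rfl fun y _ => ?_
    rw [Matrix.diag_apply, Matrix.mul_apply]
    refine Finset.sum_congr rfl fun x _ => ?_
    rw [transpose_apply, ← box_eq_rs, box_apply]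
    have a1 := ind_sq N q x
    have a2 := ind_sq N p y
    linear_combination (ind N p y * ind N p y * K x y ^ 2) * a1 + (ind N q x * K x y ^ 2) * a2
  simp_rw [h1, ← Finset.mul_sum]
  have h2 : ∑ p : ZMod Q, ∑ q : ZMod Q, ∑ y, ∑ x, ind N q x * ind N p y * K x y ^ 2 =
      ∑ y, ∑ x, (∑ p : ZMod Q, ind N p y) * (∑ q : ZMod Q, ind N q x) * K x y ^ 2 := by
    simp_rw [Finset.sum_comm (s := (Finset.univ : Finset (ZMod Q)))
      (t := (Finset.univ : Finset (ZMod Q))) (f := fun q y => ∑ x, ind N q x * ind N _ y * K x y ^ 2)]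
    rw [Finset.sum_comm]
    refine Finset.sum_congr rfl fun y _ => ?_
    simp_rw [Finset.sum_comm (s := (Finset.univ : Finset (ZMod Q)))
      (t := (Finset.univ : Finset (ZMod Q))) (f := fun q x => ind N q x * ind N _ y * K x y ^ 2)]
    rw [Finset.sum_comm]
    refine Finset.sum_congr rfl fun x _ => ?_
    rw [Finset.sum_mul_sum, Finset.sum_mul]
    refine Finset.sum_congr rfl fun p _ => ?_
    rw [Finset.sum_mul]
    refine Finset.sum_congr rfl fun q _ => ?_
    ring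
  rw [h2]
  simp_rw [sum_ind hN]
  rw [Finset.sum_comm, Finset.mul_sum]
  refine Finset.sum_congr rfl fun x _ => ?_
  rw [Finset.mul_sum]
  refine Finset.sum_congr rfl fun y _ => ?_
  field_simp

theorem phi_le_two {M : Mx Q} (hM : M.PosSemidef) (h : ‖M‖ ≤ 4) : phi M ≤ 2 * M.trace := by
  refine (phi_le_nrm hM).trans ?_
  refine mul_le_mul_of_nonneg_right ?_ hM.trace_nonneg
  refine (Real.sqrt_le_sqrt h).trans ?_
  rw [show (4 : ℝ) = 2 ^ 2 by norm_num, Real.sqrt_sq (by norm_num)]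

theorem nrm_gk {N : ℕ} {K : Mx Q} (q p : ZMod Q) (h : OpLe (CRdefx253.box K N q p) (N : ℝ)) :
    ‖gk N K q p‖ ≤ 1 := nrm_gram_le (nrm_scaled h)

/-- joint sum at the offset `n` -/
noncomputable def JS (N : ℕ) (K L : Mx Q) (n : ZMod Q) : ℝ :=
  ∑ p : ZMod Q, ∑ q : ZMod Q, phi (gk N K q p + gk N L (n - p - q) p)

/-- own sum -/
noncomputable def OS (N : ℕ) (K : Mx Q) : ℝ := ∑ p : ZMod Q, ∑ q : ZMod Q, phi (gk N K q p)

theorem sum_refl (n : ZMod Q) (f : ZMod Q → ZMod Q → ℝ) :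
    ∑ p : ZMod Q, ∑ q : ZMod Q, f (n - p - q) p = ∑ p : ZMod Q, ∑ q : ZMod Q, f q p := by
  refine Finset.sum_congr rfl fun p _ => ?_
  exact Equiv.sum_comp (Equiv.subLeft (n - p)) (fun q => f q p)

theorem JS_le {N : ℕ} (hN : 0 < N) {K K' L L' : Mx Q} {v w : ZMod Q → ZMod Q → ℝ}
    (hK : Mv N K K' v) (hL : Mv N L L' w) (n : ZMod Q) :
    JS N K L n ≤ JS N K' L' n + 6 * (∑ q : ZMod Q, ∑ p : ZMod Q, v q p +
      ∑ q : ZMod Q, ∑ p : ZMod Q, w q p) := by
  unfold JS
  have h1 : ∑ p : ZMod Q, ∑ q : ZMod Q, phi (gk N K q p + gk N L (n - p - q) p) ≤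
      ∑ p : ZMod Q, ∑ q : ZMod Q, (phi (gk N K' q p + gk N L' (n - p - q) p) +
        6 * (v q p + w (n - p - q) p)) :=
    Finset.sum_le_sum fun p _ => Finset.sum_le_sum fun q _ => pair_le hN hK hL q (n - p - q) p
  refine h1.trans (le_of_eq ?_)
  simp_rw [Finset.sum_add_distrib, ← Finset.mul_sum, Finset.sum_add_distrib]
  rw [sum_refl n w, Finset.sum_comm (f := fun p q => v q p), Finset.sum_comm (f := fun p q => w q p)]

theorem OS_le {N : ℕ} (hN : 0 < N) {K K' : Mx Q} {v : ZMod Q → ZMod Q → ℝ}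
    (hK : Mv N K K' v) : OS N K ≤ OS N K' + 6 * ∑ q : ZMod Q, ∑ p : ZMod Q, v q p := by
  unfold OS
  have h1 : ∑ p : ZMod Q, ∑ q : ZMod Q, phi (gk N K q p) ≤
      ∑ p : ZMod Q, ∑ q : ZMod Q, (phi (gk N K' q p) + 6 * v q p) :=
    Finset.sum_le_sum fun p _ => Finset.sum_le_sum fun q _ => own_le hN hK q p
  refine h1.trans (le_of_eq ?_)
  simp_rw [Finset.sum_add_distrib, ← Finset.mul_sum]
  rw [Finset.sum_comm (f := fun p q => v q p)]

theorem JS_bot {N : ℕ} (hN0 : 0 < N) (hN : N ≤ Q) {K L : Mx Q}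
    (hK : ∀ q p, OpLe (CRdefx253.box K N q p) (N : ℝ))
    (hL : ∀ q p, OpLe (CRdefx253.box L N q p) (N : ℝ)) (n : ZMod Q) :
    JS N K L n ≤ 2 * (∑ x, ∑ y, K x y ^ 2 + ∑ x, ∑ y, L x y ^ 2) := by
  unfold JS
  have h1 : ∑ p : ZMod Q, ∑ q : ZMod Q, phi (gk N K q p + gk N L (n - p - q) p) ≤
      ∑ p : ZMod Q, ∑ q : ZMod Q, (2 * (gk N K q p).trace + 2 * (gk N L (n - p - q) p).trace) := by
    refine Finset.sum_le_sum fun p _ => Finset.sum_le_sum fun q _ => ?_
    refine (phi_le_two ((gk_psd _ _ _ _).add (gk_psd _ _ _ _)) ?_).trans (le_of_eq ?_)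
    · refine (norm_add_le _ _).trans ?_
      have a1 := nrm_gk q p (hK q p)
      have a2 := nrm_gk (n - p - q) p (hL (n - p - q) p)
      linarith
    · rw [trace_add]
      ring
  refine h1.trans (le_of_eq ?_)
  simp_rw [Finset.sum_add_distrib, ← Finset.mul_sum]
  rw [sum_refl n (fun q p => (gk N L q p).trace), sum_tr_gk hN0 hN, sum_tr_gk hN0 hN]
  ring

theorem OS_bot {N : ℕ} (hN0 : 0 < N) (hN : N ≤ Q) {K : Mx Q}
    (hK : ∀ q p, OpLe (CRdefx253.box K N q p) (N : ℝ)) :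
    OS N K ≤ 2 * ∑ x, ∑ y, K x y ^ 2 := by
  unfold OS
  have h1 : ∑ p : ZMod Q, ∑ q : ZMod Q, phi (gk N K q p) ≤
      ∑ p : ZMod Q, ∑ q : ZMod Q, 2 * (gk N K q p).trace := by
    refine Finset.sum_le_sum fun p _ => Finset.sum_le_sum fun q _ => ?_
    refine phi_le_two (gk_psd _ _ _ _) ?_
    have a1 := nrm_gk q p (hK q p)
    linarith
  refine h1.trans (le_of_eq ?_)
  simp_rw [← Finset.mul_sum]
  rw [sum_tr_gk hN0 hN]

theorem VJ_fl (X Z : ℕ → Mx Q) (m j : ℕ) (hj : 2 ^ j * 2 ^ m ≤ Q) :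
    VJ (fl X) (fl Z) m j = bl (JS (2 ^ j * 2 ^ m) (X m) (Z m)) (2 ^ j * 2 ^ m) (-2) := by
  unfold VJ VV
  congr 1
  funext n
  unfold WW JS
  refine Finset.sum_congr rfl fun p _ => Finset.sum_congr rfl fun q _ => ?_
  rw [gr_fl X m j hj, gr_fl Z m j hj]

theorem VO_fl (X Z : ℕ → Mx Q) (m j : ℕ) (hj : 2 ^ j * 2 ^ m ≤ Q) :
    VO (fl X) (fl Z) m j = OS (2 ^ j * 2 ^ m) (X m) + OS (2 ^ j * 2 ^ m) (Z m) := by
  unfold VO EB EO OS
  simp_rw [gr_fl X m j hj, gr_fl Z m j hj]

theorem bl_le_add {f g : ZMod Q → ℝ} {c : ℝ} {N : ℕ} (hN : 0 < N) (l : ℤ)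
    (h : ∀ n, f n ≤ g n + c) : bl f N l ≤ bl g N l + c := by
  have hN' : (0 : ℝ) < N := by exact_mod_cast hN
  have e : bl (fun n => g n + c) N l = bl g N l + c := by
    unfold bl
    rw [Finset.sum_add_distrib, Finset.sum_const, Finset.card_range, nsmul_eq_mul]
    field_simp
  rw [← e]
  exact PotL.bl_mono h N l

theorem bl_le_const {f : ZMod Q → ℝ} {c : ℝ} {N : ℕ} (hN : 0 < N) (l : ℤ)
    (h : ∀ n, f n ≤ c) : bl f N l ≤ c := by
  have h1 := bl_le_add (g := fun _ => (0 : ℝ)) hN l (fun n => by simpa using h n)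
  have h2 : bl (fun _ : ZMod Q => (0 : ℝ)) N l = 0 := by
    unfold bl
    simp
  linarith

end kernel

theorem vert1 : Vert1 := by
  intro k hk
  refine ⟨16 + 48 + 256 * k + 768, by positivity, ?_⟩
  intro Q _ M M' n X Z hQ hM hX hZ
  have hQ' : 2 ^ M ≤ Q := Nat.le_of_dvd (Nat.pos_of_ne_zero (NeZero.ne Q)) hQ
  have hpow : ∀ a, a ≤ M → 2 ^ a ≤ Q := fun a ha =>
    (Nat.pow_le_pow_right (by norm_num) ha).trans hQ'
  have hn : 0 ≤ n := by
    have h1 := hX.en 0 (by omega)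
    have h2 : 0 ≤ ∑ x, ∑ y, X 0 x y ^ 2 := Finset.sum_nonneg fun _ _ =>
      Finset.sum_nonneg fun _ _ => sq_nonneg _
    linarith
  -- the joint moves
  have hJ : ∑ m ∈ range (M' - 1), (VJ (fl X) (fl Z) (m + 1) 0 - VJ (fl X) (fl Z) m 1) ≤ 12 * n := by
    obtain ⟨v, hv0, hv, hvn⟩ := hX.mv 1 hk
    obtain ⟨w, hw0, hw, hwn⟩ := hZ.mv 1 hk
    have h1 : ∀ m ∈ range (M' - 1), VJ (fl X) (fl Z) (m + 1) 0 - VJ (fl X) (fl Z) m 1 ≤
        6 * (∑ q : ZMod Q, ∑ p : ZMod Q, (if m + 1 < M then v m q p else 0) +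
          ∑ q : ZMod Q, ∑ p : ZMod Q, (if m + 1 < M then w m q p else 0)) := by
      intro m hm
      rw [Finset.mem_range] at hm
      have hmM : m + 1 < M := by omega
      have e0 : 2 ^ 0 * 2 ^ (m + 1) = 2 ^ (m + 1) := by ring
      have e1 : 2 ^ 1 * 2 ^ m = 2 ^ (m + 1) := by ring
      rw [VJ_fl X Z (m + 1) 0 (by rw [e0]; exact hpow _ (by omega)),
        VJ_fl X Z m 1 (by rw [e1]; exact hpow _ (by omega)), e0, e1]
      have mX : Mv (2 ^ (m + 1)) (X (m + 1)) (X m) (v m) := by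
        refine ⟨fun q p => ?_, fun q p => ?_, fun q p => ?_⟩
        · have := hX.op (m + 1) 0 (by omega) (by omega) q p
          simpa using this
        · have := hX.op m 1 hk (by omega) q p
          push_cast
          exact this
        · have := hv m (by omega) q p
          push_cast
          exact this
      have mZ : Mv (2 ^ (m + 1)) (Z (m + 1)) (Z m) (w m) := by
        refine ⟨fun q p => ?_, fun q p => ?_, fun q p => ?_⟩
        · have := hZ.op (m + 1) 0 (by omega) (by omega) q p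
          simpa using this
        · have := hZ.op m 1 hk (by omega) q p
          push_cast
          exact this
        · have := hw m (by omega) q p
          push_cast
          exact this
      have h2 := bl_le_add (N := 2 ^ (m + 1)) (by positivity) (-2)
        (fun n' => JS_le (by positivity) mX mZ n')
      simp only [if_pos hmM]
      linarith
    refine (Finset.sum_le_sum h1).trans ?_
    rw [← Finset.mul_sum, Finset.sum_add_distrib]
    have h3 : ∀ (f : ℕ → ZMod Q → ZMod Q → ℝ), (∀ m q p, 0 ≤ f m q p) →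
        ∑ m ∈ range (M' - 1), ∑ q : ZMod Q, ∑ p : ZMod Q, (if m + 1 < M then f m q p else 0) ≤
        ∑ m ∈ range M, ∑ q : ZMod Q, ∑ p : ZMod Q, (if m + 1 < M then f m q p else 0) := by
      intro f hf
      refine Finset.sum_le_sum_of_subset_of_nonneg
        (Finset.range_subset_range.2 (by omega)) fun m _ _ => ?_
      refine Finset.sum_nonneg fun q _ => Finset.sum_nonneg fun p _ => ?_
      split_ifs
      · exact hf m q p
      · exact le_rfl
    have h4 := h3 v hv0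
    have h5 := h3 w hw0
    linarith
  -- the own moves
  have hO : ∑ m ∈ range (M' - k), (VO (fl X) (fl Z) (m + k) 0 - VO (fl X) (fl Z) m k) ≤ 12 * n := by
    obtain ⟨v, hv0, hv, hvn⟩ := hX.mv k le_rfl
    obtain ⟨w, hw0, hw, hwn⟩ := hZ.mv k le_rfl
    have h1 : ∀ m ∈ range (M' - k), VO (fl X) (fl Z) (m + k) 0 - VO (fl X) (fl Z) m k ≤
        6 * (∑ q : ZMod Q, ∑ p : ZMod Q, (if m + k < M then v m q p else 0) +
          ∑ q : ZMod Q, ∑ p : ZMod Q, (if m + k < M then w m q p else 0)) := by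
      intro m hm
      rw [Finset.mem_range] at hm
      have hmM : m + k < M := by omega
      have e0 : 2 ^ 0 * 2 ^ (m + k) = 2 ^ (m + k) := by ring
      have e1 : 2 ^ k * 2 ^ m = 2 ^ (m + k) := by ring
      rw [VO_fl X Z (m + k) 0 (by rw [e0]; exact hpow _ (by omega)),
        VO_fl X Z m k (by rw [e1]; exact hpow _ (by omega)), e0, e1]
      have mX : Mv (2 ^ (m + k)) (X (m + k)) (X m) (v m) := by
        refine ⟨fun q p => ?_, fun q p => ?_, fun q p => ?_⟩
        · have := hX.op (m + k) 0 (by omega) (by omega) q p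
          simpa using this
        · have := hX.op m k le_rfl (by omega) q p
          push_cast
          exact this
        · have := hv m (by omega) q p
          push_cast
          exact this
      have mZ : Mv (2 ^ (m + k)) (Z (m + k)) (Z m) (w m) := by
        refine ⟨fun q p => ?_, fun q p => ?_, fun q p => ?_⟩
        · have := hZ.op (m + k) 0 (by omega) (by omega) q p
          simpa using this
        · have := hZ.op m k le_rfl (by omega) q p
          push_cast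
          exact this
        · have := hw m (by omega) q p
          push_cast
          exact this
      have h2 := OS_le (N := 2 ^ (m + k)) (by positivity) mX
      have h3 := OS_le (N := 2 ^ (m + k)) (by positivity) mZ
      simp only [if_pos hmM]
      linarith
    refine (Finset.sum_le_sum h1).trans ?_
    rw [← Finset.mul_sum, Finset.sum_add_distrib]
    have h3 : ∀ (f : ℕ → ZMod Q → ZMod Q → ℝ), (∀ m q p, 0 ≤ f m q p) →
        ∑ m ∈ range (M' - k), ∑ q : ZMod Q, ∑ p : ZMod Q, (if m + k < M then f m q p else 0) ≤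
        ∑ m ∈ range M, ∑ q : ZMod Q, ∑ p : ZMod Q, (if m + k < M then f m q p else 0) := by
      intro f hf
      refine Finset.sum_le_sum_of_subset_of_nonneg
        (Finset.range_subset_range.2 (by omega)) fun m _ _ => ?_
      refine Finset.sum_nonneg fun q _ => Finset.sum_nonneg fun p _ => ?_
      split_ifs
      · exact hf m q p
      · exact le_rfl
    have h4 := h3 v hv0
    have h5 := h3 w hw0
    linarith
  -- the bottom
  have hB : VJ (fl X) (fl Z) 0 0 ≤ 4 * n := by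
    have e0 : 2 ^ 0 * 2 ^ 0 = 1 := by norm_num
    rw [VJ_fl X Z 0 0 (by rw [e0]; exact hpow 0 (by omega)), e0]
    refine bl_le_const (by norm_num) _ fun n' => ?_
    have o1 : ∀ q p, OpLe (CRdefx253.box (X 0) 1 q p) ((1 : ℕ) : ℝ) := by
      intro q p
      have := hX.op 0 0 (by omega) (by omega) q p
      simpa using this
    have o2 : ∀ q p, OpLe (CRdefx253.box (Z 0) 1 q p) ((1 : ℕ) : ℝ) := by
      intro q p
      have := hZ.op 0 0 (by omega) (by omega) q p
      simpa using this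
    refine (JS_bot (by norm_num) (hpow 0 (by omega)) o1 o2 n').trans ?_
    have h1 := hX.en 0 (by omega)
    have h2 := hZ.en 0 (by omega)
    linarith
  have hV : ∑ m ∈ range k, VO (fl X) (fl Z) m 0 ≤ k * (4 * n) := by
    have h1 : ∀ m ∈ range k, VO (fl X) (fl Z) m 0 ≤ 4 * n := by
      intro m hm
      rw [Finset.mem_range] at hm
      have e0 : 2 ^ 0 * 2 ^ m = 2 ^ m := by ring
      rw [VO_fl X Z m 0 (by rw [e0]; exact hpow _ (by omega)), e0]
      have o1 : ∀ q p, OpLe (CRdefx253.box (X m) (2 ^ m) q p) ((2 ^ m : ℕ) : ℝ) := by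
        intro q p
        have := hX.op m 0 (by omega) (by omega) q p
        simpa using this
      have o2 : ∀ q p, OpLe (CRdefx253.box (Z m) (2 ^ m) q p) ((2 ^ m : ℕ) : ℝ) := by
        intro q p
        have := hZ.op m 0 (by omega) (by omega) q p
        simpa using this
      have b1 := OS_bot (by positivity) (hpow m (by omega)) o1
      have b2 := OS_bot (by positivity) (hpow m (by omega)) o2
      have h1 := hX.en m (by omega)
      have h2 := hZ.en m (by omega)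
      linarith
    refine (Finset.sum_le_sum h1).trans ?_
    rw [Finset.sum_const, Finset.card_range, nsmul_eq_mul]
  unfold WP
  have hk0 : (0 : ℝ) ≤ k := by positivity
  nlinarith

end Crest.Agent.R079.CRv1x371
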