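import Crest.Agent.R079.CRc_360
import Crest.Agent.R079.PLCost_931

/-! R079, ragged corner (CR), note 833 of helper371, leaf L5 (C4) (helper87): price of the MOVES of the
extraction kernels (global index `ZMod Q`, boxes = diagonal indicators `dg (bx Q N q)`).

`tr_move` : sum over all boxes of side `N` of `|tr (Z E_q (mvK Y S) E_p)|`.
`own_move`, `par_move` : price in the potentials, own side = second / first variable of the kernel. -/

set_option autoImplicit false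
set_option linter.unusedVariables false
set_option linter.unusedSectionVars false

namespace Crest.Agent.R079.CRe87

open Matrix Finset Crest.Agent.R072 Crest.Agent.R079.PotL Crest.Agent.R079.PotL.CR
open scoped MatrixOrder

local notation "rt" => CFC.sqrt

section op

variable {l m n : Type*} [Fintype l] [Fintype m] [Fintype n]

/-- operator norm at most `K` -/
def Opn (K : ℝ) (X : Matrix m n ℝ) : Prop := ∀ v, (X *ᵥ v) ⬝ᵥ (X *ᵥ v) ≤ K ^ 2 * (v ⬝ᵥ v)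

theorem dsn (v : n → ℝ) : 0 ≤ v ⬝ᵥ v := by
  rw [dotProduct]; exact Finset.sum_nonneg fun i _ => mul_self_nonneg _

theorem cs (u v : n → ℝ) : (u ⬝ᵥ v) ^ 2 ≤ (u ⬝ᵥ u) * (v ⬝ᵥ v) := by
  have h := Finset.sum_mul_sq_le_sq_mul_sq (Finset.univ : Finset n) u v
  simp only [dotProduct, ← sq]
  exact h

theorem Opn.mul {K L : ℝ} {X : Matrix l m ℝ} {Y : Matrix m n ℝ} (hX : Opn K X) (hY : Opn L Y) :
    Opn (K * L) (X * Y) := by
  intro v
  rw [← mulVec_mulVec]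
  have h1 := hX (Y *ᵥ v)
  have h2 := mul_le_mul_of_nonneg_left (hY v) (sq_nonneg K)
  calc _ ≤ _ := h1
    _ ≤ _ := h2
    _ = _ := by ring

theorem Opn.tr {K : ℝ} {X : Matrix m n ℝ} (h : Opn K X) : Opn K Xᵀ := by
  intro w
  set u := Xᵀ *ᵥ w with hu
  have e : u ⬝ᵥ u = w ⬝ᵥ (X *ᵥ u) := by
    rw [dotProduct_mulVec w, ← mulVec_transpose]
  have h1 := cs w (X *ᵥ u)
  rw [← e] at h1
  have h2 := mul_le_mul_of_nonneg_left (h u) (dsn w)
  rcases eq_or_lt_of_le (dsn u) with h0 | h0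
  · rw [← h0]
    exact mul_nonneg (sq_nonneg K) (dsn w)
  · have h3 : (u ⬝ᵥ u) * (u ⬝ᵥ u) ≤ (K ^ 2 * (w ⬝ᵥ w)) * (u ⬝ᵥ u) := by
      calc (u ⬝ᵥ u) * (u ⬝ᵥ u) = (u ⬝ᵥ u) ^ 2 := by ring
        _ ≤ _ := h1
        _ ≤ _ := h2
        _ = _ := by ring
    exact le_of_mul_le_mul_right h3 h0

theorem Opn.mono {K L : ℝ} {X : Matrix m n ℝ} (h : Opn K X) (hK : 0 ≤ K) (hL : K ≤ L) : Opn L X := by
  intro v
  refine (h v).trans (mul_le_mul_of_nonneg_right ?_ (dsn v))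
  exact pow_le_pow_left₀ hK hL 2

theorem Opn.neg {K : ℝ} {X : Matrix m n ℝ} (h : Opn K X) : Opn K (-X) := by
  intro v
  rw [neg_mulVec, neg_dotProduct_neg]
  exact h v

theorem Opn.smul {K : ℝ} {X : Matrix m n ℝ} (h : Opn K X) (c : ℝ) : Opn (c * K) (c • X) := by
  intro v
  rw [smul_mulVec, smul_dotProduct, dotProduct_smul, smul_eq_mul, smul_eq_mul]
  have := mul_le_mul_of_nonneg_left (h v) (sq_nonneg c)
  calc _ = c ^ 2 * ((X *ᵥ v) ⬝ᵥ (X *ᵥ v)) := by ring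
    _ ≤ _ := this
    _ = _ := by ring

theorem Opn.add {K L : ℝ} {X Y : Matrix m n ℝ} (hK : 0 ≤ K) (hL : 0 ≤ L) (hX : Opn K X)
    (hY : Opn L Y) : Opn (K + L) (X + Y) := by
  intro v
  rw [add_mulVec, add_dotProduct, dotProduct_add, dotProduct_add]
  set a := X *ᵥ v
  set b := Y *ᵥ v
  have h1 : a ⬝ᵥ a ≤ K ^ 2 * (v ⬝ᵥ v) := hX v
  have h2 : b ⬝ᵥ b ≤ L ^ 2 * (v ⬝ᵥ v) := hY v
  have hv := dsn v
  have h3 : (a ⬝ᵥ b) ^ 2 ≤ (K * L * (v ⬝ᵥ v)) ^ 2 := by
    calc (a ⬝ᵥ b) ^ 2 ≤ (a ⬝ᵥ a) * (b ⬝ᵥ b) := cs a b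
      _ ≤ (K ^ 2 * (v ⬝ᵥ v)) * (L ^ 2 * (v ⬝ᵥ v)) :=
          mul_le_mul h1 h2 (dsn b) (mul_nonneg (sq_nonneg _) hv)
      _ = _ := by ring
  have h4 : a ⬝ᵥ b ≤ K * L * (v ⬝ᵥ v) :=
    (abs_le_of_sq_le_sq' h3 (mul_nonneg (mul_nonneg hK hL) hv)).2
  have h5 : b ⬝ᵥ a = a ⬝ᵥ b := dotProduct_comm _ _
  rw [h5]
  nlinarith

theorem Opn.sub {K L : ℝ} {X Y : Matrix m n ℝ} (hK : 0 ≤ K) (hL : 0 ≤ L) (hX : Opn K X)
    (hY : Opn L Y) : Opn (K + L) (X - Y) := by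
  rw [sub_eq_add_neg]
  exact hX.add hK hL hY.neg

/-- quadratic form of the Gram matrix -/
theorem Opn.gram {K : ℝ} {X : Matrix m n ℝ} (h : Opn K X) (v : n → ℝ) :
    v ⬝ᵥ ((Xᵀ * X) *ᵥ v) ≤ K ^ 2 * (v ⬝ᵥ v) := by
  rw [← mulVec_mulVec, dotProduct_mulVec, vecMul_transpose]
  exact h v

variable [DecidableEq n]

theorem opn_rt {M : Matrix n n ℝ} (hM : M.PosSemidef) {ω : ℝ}
    (h : ∀ v, v ⬝ᵥ (M *ᵥ v) ≤ ω ^ 2 * (v ⬝ᵥ v)) : Opn ω (rt M) := by
  intro v
  have h1 : (rt M)ᵀ = rt M := rt_transpose _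
  have h2 : (rt M *ᵥ v) ⬝ᵥ (rt M *ᵥ v) = v ⬝ᵥ (M *ᵥ v) := by
    conv_rhs => rw [← rt_mul_rt hM]
    rw [← mulVec_mulVec, dotProduct_mulVec v, ← mulVec_transpose, h1]
  rw [h2]
  exact h v

theorem opn_dg (s : Finset n) : Opn 1 (dg s) := by
  intro v
  have e : ∀ i, (dg s *ᵥ v) i = if i ∈ s then v i else 0 := by
    intro i
    unfold dg
    rw [mulVec_diagonal]
    split_ifs <;> simp
  simp only [dotProduct, e, one_pow, one_mul]
  refine Finset.sum_le_sum fun i _ => ?_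
  split_ifs
  · exact le_rfl
  · rw [mul_zero]; exact mul_self_nonneg _

/-- trace against a projection -/
theorem tr_pr {K : Matrix n n ℝ} {k : ℝ} (hk : 0 ≤ k) (hK : Opn k K) {S : Matrix n n ℝ}
    (hS : IsPr S) : |(K * S).trace| ≤ k * S.trace := by
  have hsym : Sᵀ = S := hS.1
  have hid : S * S = S := hS.2
  have e1 : (K * S).trace = ∑ i, (fun j => S j i) ⬝ᵥ (K *ᵥ fun j => S j i) := by
    have h1 : (K * S).trace = (Sᵀ * (K * S)).trace := by
      rw [hsym, trace_mul_comm S (K * S), Matrix.mul_assoc, hid]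
    rw [h1, Matrix.trace]
    refine Finset.sum_congr rfl fun i _ => ?_
    rw [Matrix.diag_apply, Matrix.mul_apply]
    simp only [dotProduct]
    refine Finset.sum_congr rfl fun j _ => ?_
    rw [transpose_apply, Matrix.mul_apply]
    rfl
  have e2 : S.trace = ∑ i, (fun j => S j i) ⬝ᵥ (fun j => S j i) := by
    have h1 : S.trace = (Sᵀ * S).trace := by rw [hsym, hid]
    rw [h1, Matrix.trace]
    refine Finset.sum_congr rfl fun i _ => ?_
    rw [Matrix.diag_apply, Matrix.mul_apply]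
    rfl
  rw [e1, e2, Finset.mul_sum]
  refine (Finset.abs_sum_le_sum_abs _ _).trans (Finset.sum_le_sum fun i _ => ?_)
  set s : n → ℝ := fun j => S j i
  have hs := dsn s
  have h1 := cs s (K *ᵥ s)
  have h2 : (s ⬝ᵥ (K *ᵥ s)) ^ 2 ≤ (k * (s ⬝ᵥ s)) ^ 2 := by
    calc _ ≤ _ := h1
      _ ≤ (s ⬝ᵥ s) * (k ^ 2 * (s ⬝ᵥ s)) := mul_le_mul_of_nonneg_left (hK s) hs
      _ = _ := by ring
  exact abs_le_of_sq_le_sq h2 (mul_nonneg hk hs)

theorem isPr_trace_nonneg {S : Matrix n n ℝ} (hS : IsPr S) : 0 ≤ S.trace := by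
  have h1 : S.trace = (Sᵀ * S).trace := by rw [hS.1, hS.2]
  rw [h1, Matrix.trace]
  refine Finset.sum_nonneg fun i _ => ?_
  rw [Matrix.diag_apply, Matrix.mul_apply]
  exact Finset.sum_nonneg fun j _ => mul_self_nonneg _

end op

section moves

variable {Q : ℕ} [NeZero Q]

/-- the kernel `Y S` (cell dependent `S`) -/
def mvK (Y : Matrix (ZMod Q) (ZMod Q) ℝ) (S : ZMod Q → ZMod Q → Matrix (ZMod Q) (ZMod Q) ℝ) :
    Matrix (ZMod Q) (ZMod Q) ℝ := fun x y => ∑ u, Y x u * S x y u y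

/-- an admissible move of scale `m` with normalised size `η` -/
structure MvOK (m : ℕ) (Y : Matrix (ZMod Q) (ZMod Q) ℝ)
    (S : ZMod Q → ZMod Q → Matrix (ZMod Q) (ZMod Q) ℝ) (η : ℝ) : Prop where
  dvd : 2 ^ m ∣ Q
  nn : 0 ≤ η
  pr : ∀ x y, IsPr (S x y)
  cell : ∀ x y x' y', cel m x = cel m x' → cel m y = cel m y' → S x y = S x' y'
  supp : ∀ x y u v, S x y u v ≠ 0 → cel m u = cel m y ∧ cel m v = cel m y
  op : ∀ a b, Opn η (dg (cl Q m a) * Y * dg (cl Q m b))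

variable {m : ℕ} {Y : Matrix (ZMod Q) (ZMod Q) ℝ}
  {S : ZMod Q → ZMod Q → Matrix (ZMod Q) (ZMod Q) ℝ} {η : ℝ}

/-- cellwise decomposition -/
theorem MvOK.dec (h : MvOK m Y S η) : (4 : ℝ) ^ m • mvK Y S =
    ∑ x0, ∑ y0, dg (cl Q m (cel m x0)) * Y * S x0 y0 * dg (cl Q m (cel m y0)) := by
  ext x y
  rw [Matrix.smul_apply, Matrix.sum_apply]
  simp only [Matrix.sum_apply]
  have h1 : ∀ x0 y0, (dg (cl Q m (cel m x0)) * Y * S x0 y0 * dg (cl Q m (cel m y0))) x y =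
      if x0 ∈ cl Q m (cel m x) then (if y0 ∈ cl Q m (cel m y) then mvK Y S x y else 0) else 0 := by
    intro x0 y0
    rw [mul_dg, Matrix.mul_assoc, dg_mul]
    by_cases hx : cel m x0 = cel m x
    · by_cases hy : cel m y0 = cel m y
      · have e1 : x ∈ cl Q m (cel m x0) := mem_cl.2 hx.symm
        have e2 : y ∈ cl Q m (cel m y0) := mem_cl.2 hy.symm
        have e3 : x0 ∈ cl Q m (cel m x) := mem_cl.2 hx
        have e4 : y0 ∈ cl Q m (cel m y) := mem_cl.2 hy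
        rw [if_pos e1, if_pos e2, if_pos e3, if_pos e4, Matrix.mul_apply,
          h.cell x0 y0 x y hx hy]
        rfl
      · have e2 : y ∉ cl Q m (cel m y0) := fun h' => hy (mem_cl.1 h').symm
        have e4 : y0 ∉ cl Q m (cel m y) := fun h' => hy (mem_cl.1 h')
        rw [if_neg e2, if_neg e4, ite_self]
    · have e1 : x ∉ cl Q m (cel m x0) := fun h' => hx (mem_cl.1 h').symm
      have e3 : x0 ∉ cl Q m (cel m x) := fun h' => hx (mem_cl.1 h')
      rw [if_neg e1, if_neg e3, ite_self]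
  simp only [h1]
  have h2 : ∀ (a : ℕ) (z : ZMod Q) (c : ℝ), ∑ x0, (if x0 ∈ cl Q m (cel m z) then c else 0) =
      2 ^ m * c := by
    intro a z c
    rw [Finset.sum_ite_mem, Finset.univ_inter, Finset.sum_const, card_cl h.dvd, nsmul_eq_mul]
    push_cast
    rfl
  have h3 : ∀ x0, ∑ y0, (if x0 ∈ cl Q m (cel m x) then
      (if y0 ∈ cl Q m (cel m y) then mvK Y S x y else 0) else 0) =
      if x0 ∈ cl Q m (cel m x) then 2 ^ m * mvK Y S x y else 0 := by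
    intro x0
    split_ifs
    · exact h2 0 y _
    · simp
  rw [Finset.sum_congr rfl fun x0 _ => h3 x0, h2 0 x, smul_eq_mul, ← mul_assoc, ← mul_pow]
  norm_num

/-- number of boxes of side `N` meeting a cell -/
theorem card_meet {m : ℕ} (hm : 2 ^ m ∣ Q) {N : ℕ} (hN : 0 < N) (x0 : ZMod Q) :
    (univ.filter fun q : ZMod Q => ¬ Disjoint (bx Q N q) (cl Q m (cel m x0))).card ≤
      N + 2 ^ m := by
  classical
  have hp : 0 < 2 ^ m := by positivity
  set a0 : ZMod Q := ((2 ^ m * cel m x0 : ℕ) : ZMod Q) with ha0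
  have h1 : (univ.filter fun q : ZMod Q => ¬ Disjoint (bx Q N q) (cl Q m (cel m x0))) ⊆
      (range (N + 2 ^ m)).image fun t : ℕ => a0 - (N : ZMod Q) + (t : ZMod Q) := by
    intro q hq
    rw [Finset.mem_filter] at hq
    obtain ⟨x, hx1, hx2⟩ := Finset.not_disjoint_iff.1 hq.2
    unfold bx at hx1
    obtain ⟨j, hj, rfl⟩ := Finset.mem_image.1 hx1
    rw [Finset.mem_range] at hj
    rw [mem_cl] at hx2
    set x := q + (j : ZMod Q) with hx
    have e1 : x = a0 + ((x.val % 2 ^ m : ℕ) : ZMod Q) := by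
      have h2 : 2 ^ m * cel m x0 + x.val % 2 ^ m = x.val := by
        rw [← hx2]
        unfold cel
        exact Nat.div_add_mod _ _
      rw [ha0, ← Nat.cast_add, h2, ZMod.natCast_zmod_val]
    rw [Finset.mem_image]
    refine ⟨N + x.val % 2 ^ m - j, ?_, ?_⟩
    · rw [Finset.mem_range]
      have := Nat.mod_lt x.val hp
      omega
    · have e2 : q = x - (j : ZMod Q) := by rw [hx]; ring
      rw [Nat.cast_sub (by omega), e2]
      conv_rhs => rw [e1]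
      push_cast
      ring
  exact (Finset.card_le_card h1).trans (Finset.card_image_le.trans (by rw [Finset.card_range]))

/-- **(C4), trace form.** -/
theorem tr_move (h : MvOK m Y S η) {N : ℕ} (hN : 0 < N)
    (Z : ZMod Q → ZMod Q → Matrix (ZMod Q) (ZMod Q) ℝ) {ζ : ℝ} (hζ : 0 ≤ ζ)
    (hZ : ∀ q p, Opn ζ (Z q p)) :
    ∑ q, ∑ p, |(Z q p * (dg (bx Q N q) * mvK Y S * dg (bx Q N p))).trace| ≤
      ((N : ℝ) + 2 ^ m) ^ 2 / 4 ^ m * (ζ * η) * ∑ x, ∑ y, (S x y).trace := by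
  classical
  have h4 : (0 : ℝ) < 4 ^ m := by positivity
  have htr : ∀ x0 y0, 0 ≤ (S x0 y0).trace := fun x0 y0 => isPr_trace_nonneg (h.pr x0 y0)
  -- one box, one cell
  have key : ∀ q p x0 y0, |(Z q p * (dg (bx Q N q) * (dg (cl Q m (cel m x0)) * Y * S x0 y0 *
      dg (cl Q m (cel m y0))) * dg (bx Q N p))).trace| ≤
      (if ¬ Disjoint (bx Q N q) (cl Q m (cel m x0)) then (1 : ℝ) else 0) *
      (if ¬ Disjoint (bx Q N p) (cl Q m (cel m y0)) then (1 : ℝ) else 0) *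
      (ζ * η * (S x0 y0).trace) := by
    intro q p x0 y0
    set I := cl Q m (cel m x0) with hI
    set J := cl Q m (cel m y0) with hJ
    have hdisj : ∀ s t : Finset (ZMod Q), Disjoint s t → dg s * dg t = 0 := by
      intro s t hst
      ext a b
      rw [dg_mul]
      unfold dg
      by_cases hab : a = b
      · subst hab
        rw [diagonal_apply_eq]
        by_cases ha : a ∈ s
        · have : a ∉ t := Finset.disjoint_left.1 hst ha
          simp [ha, this]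
        · simp [ha]
      · simp [diagonal_apply_ne _ hab]
    by_cases h1 : Disjoint (bx Q N q) I
    · have e : dg (bx Q N q) * (dg I * Y * S x0 y0 * dg J) * dg (bx Q N p) = 0 := by
        have : dg (bx Q N q) * (dg I * Y * S x0 y0 * dg J) =
            dg (bx Q N q) * dg I * (Y * S x0 y0 * dg J) := by
          simp only [Matrix.mul_assoc]
        rw [this, hdisj _ _ h1, Matrix.zero_mul, Matrix.zero_mul]
      rw [e, Matrix.mul_zero, trace_zero, abs_zero]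
      simp [h1]
    by_cases h2 : Disjoint (bx Q N p) J
    · have e : dg (bx Q N q) * (dg I * Y * S x0 y0 * dg J) * dg (bx Q N p) = 0 := by
        have : dg (bx Q N q) * (dg I * Y * S x0 y0 * dg J) * dg (bx Q N p) =
            dg (bx Q N q) * (dg I * Y * S x0 y0) * (dg J * dg (bx Q N p)) := by
          simp only [Matrix.mul_assoc]
        rw [this, hdisj _ _ h2.symm, Matrix.mul_zero]
      rw [e, Matrix.mul_zero, trace_zero, abs_zero]
      simp [h2]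
    rw [if_pos h1, if_pos h2, one_mul, one_mul]
    -- `S = E_J S`
    have hS : dg J * S x0 y0 = S x0 y0 := by
      ext a b
      rw [dg_mul]
      split_ifs with ha
      · rfl
      · by_contra hne
        exact ha (mem_cl.2 (h.supp x0 y0 a b (Ne.symm hne)).1)
    have e : (Z q p * (dg (bx Q N q) * (dg I * Y * S x0 y0 * dg J) * dg (bx Q N p))).trace =
        ((dg J * dg (bx Q N p) * Z q p * dg (bx Q N q) * (dg I * Y * dg J)) * S x0 y0).trace := by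
      have e1 : Z q p * (dg (bx Q N q) * (dg I * Y * S x0 y0 * dg J) * dg (bx Q N p)) =
          (Z q p * dg (bx Q N q) * (dg I * Y) * S x0 y0) * (dg J * dg (bx Q N p)) := by
        simp only [Matrix.mul_assoc]
      rw [e1, trace_mul_comm]
      congr 1
      conv_lhs => rw [← hS]
      simp only [Matrix.mul_assoc]
    rw [e]
    have ho : Opn (1 * 1 * ζ * 1 * η)
        (dg J * dg (bx Q N p) * Z q p * dg (bx Q N q) * (dg I * Y * dg J)) :=
      ((((opn_dg J).mul (opn_dg _)).mul (hZ q p)).mul (opn_dg _)).mul (h.op _ _)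
    have := tr_pr (by have := h.nn; positivity) ho (h.pr x0 y0)
    simpa using this
  have hsum : ∀ q p, |(Z q p * (dg (bx Q N q) * mvK Y S * dg (bx Q N p))).trace| ≤
      1 / 4 ^ m * ∑ x0, ∑ y0,
      (if ¬ Disjoint (bx Q N q) (cl Q m (cel m x0)) then (1 : ℝ) else 0) *
      (if ¬ Disjoint (bx Q N p) (cl Q m (cel m y0)) then (1 : ℝ) else 0) *
      (ζ * η * (S x0 y0).trace) := by
    intro q p
    have e1 : mvK Y S = (1 / 4 ^ m : ℝ) • ∑ x0, ∑ y0,
        dg (cl Q m (cel m x0)) * Y * S x0 y0 * dg (cl Q m (cel m y0)) := by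
      rw [← h.dec, smul_smul, one_div, inv_mul_cancel₀ h4.ne', one_smul]
    have e2 : (Z q p * (dg (bx Q N q) * mvK Y S * dg (bx Q N p))).trace = (1 / 4 ^ m : ℝ) *
        ∑ x0, ∑ y0, (Z q p * (dg (bx Q N q) * (dg (cl Q m (cel m x0)) * Y * S x0 y0 *
      dg (cl Q m (cel m y0))) * dg (bx Q N p))).trace := by
      rw [e1]
      simp only [Matrix.mul_smul, Matrix.smul_mul, Matrix.mul_sum, Matrix.sum_mul, trace_smul,
        trace_sum, smul_eq_mul]
    rw [e2, abs_mul, abs_of_pos (by positivity : (0 : ℝ) < 1 / 4 ^ m)]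
    refine mul_le_mul_of_nonneg_left ?_ (by positivity)
    refine (Finset.abs_sum_le_sum_abs _ _).trans (Finset.sum_le_sum fun x0 _ => ?_)
    exact (Finset.abs_sum_le_sum_abs _ _).trans (Finset.sum_le_sum fun y0 _ => key q p x0 y0)
  have hcount : ∀ x0 : ZMod Q,
      ∑ q, (if ¬ Disjoint (bx Q N q) (cl Q m (cel m x0)) then (1 : ℝ) else 0) ≤ N + 2 ^ m := by
    intro x0
    rw [Finset.sum_boole]
    have := card_meet h.dvd hN x0
    exact_mod_cast this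
  calc _ ≤ ∑ q, ∑ p, 1 / 4 ^ m * ∑ x0, ∑ y0,
      (if ¬ Disjoint (bx Q N q) (cl Q m (cel m x0)) then (1 : ℝ) else 0) *
      (if ¬ Disjoint (bx Q N p) (cl Q m (cel m y0)) then (1 : ℝ) else 0) *
      (ζ * η * (S x0 y0).trace) :=
        Finset.sum_le_sum fun q _ => Finset.sum_le_sum fun p _ => hsum q p
    _ = 1 / 4 ^ m * ∑ x0, ∑ y0,
      (∑ q, (if ¬ Disjoint (bx Q N q) (cl Q m (cel m x0)) then (1 : ℝ) else 0)) *
      (∑ p, (if ¬ Disjoint (bx Q N p) (cl Q m (cel m y0)) then (1 : ℝ) else 0)) *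
      (ζ * η * (S x0 y0).trace) := by
        simp only [Finset.mul_sum, Finset.sum_mul]
        rw [Finset.sum_congr rfl fun q _ => Finset.sum_comm, Finset.sum_comm]
        refine Finset.sum_congr rfl fun x0 _ => ?_
        rw [Finset.sum_congr rfl fun q _ => Finset.sum_comm, Finset.sum_comm]
        refine Finset.sum_congr rfl fun y0 _ => ?_
        rw [Finset.sum_comm]
    _ ≤ 1 / 4 ^ m * ∑ x0, ∑ y0, (N + 2 ^ m) * (N + 2 ^ m) * (ζ * η * (S x0 y0).trace) := by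
        refine mul_le_mul_of_nonneg_left ?_ (by positivity)
        refine Finset.sum_le_sum fun x0 _ => Finset.sum_le_sum fun y0 _ => ?_
        have hz : 0 ≤ ζ * η * (S x0 y0).trace :=
          mul_nonneg (mul_nonneg hζ h.nn) (htr x0 y0)
        refine mul_le_mul_of_nonneg_right ?_ hz
        refine mul_le_mul (hcount x0) (hcount y0) ?_ (by positivity)
        exact Finset.sum_nonneg fun _ _ => by split_ifs <;> norm_num
    _ = _ := by
        simp only [← Finset.mul_sum]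
        ring

end moves

section price

variable {Q : ℕ} [NeZero Q]

/-- the box `(q, p)` of side `N` of a kernel -/
def bK (N : ℕ) (K : Matrix (ZMod Q) (ZMod Q) ℝ) (q p : ZMod Q) : Matrix (ZMod Q) (ZMod Q) ℝ :=
  dg (bx Q N q) * K * dg (bx Q N p)

/-- normalised Gram matrix of the box `(q, p)` in the second variable -/
noncomputable def Gb (N : ℕ) (K : Matrix (ZMod Q) (ZMod Q) ℝ) (q p : ZMod Q) :
    Matrix (ZMod Q) (ZMod Q) ℝ := (1 / (N : ℝ) ^ 2) • ((bK N K q p)ᵀ * bK N K q p)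

theorem bK_sub (N : ℕ) (K L : Matrix (ZMod Q) (ZMod Q) ℝ) (q p : ZMod Q) :
    bK N (K - L) q p = bK N K q p - bK N L q p := by
  unfold bK
  rw [Matrix.mul_sub, Matrix.sub_mul]

theorem bK_transpose (N : ℕ) (K : Matrix (ZMod Q) (ZMod Q) ℝ) (q p : ZMod Q) :
    (bK N K q p)ᵀ = bK N Kᵀ p q := by
  unfold bK
  rw [transpose_mul, transpose_mul, (dg_isPr (bx Q N p)).1, (dg_isPr (bx Q N q)).1,
    Matrix.mul_assoc]

theorem Gb_psd (N : ℕ) (K : Matrix (ZMod Q) (ZMod Q) ℝ) (q p : ZMod Q) :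
    (Gb N K q p).PosSemidef := (psd_tms _).smul (by positivity)

/-- price of one box -/
theorem phi_box {N : ℕ} (hN : 0 < N) (A A' : Matrix (ZMod Q) (ZMod Q) ℝ)
    {b : Matrix (ZMod Q) (ZMod Q) ℝ} (hb : b.PosSemidef) {ρ β : ℝ} (hρ : 0 ≤ ρ) (hβ : 0 ≤ β)
    (hA : Opn (ρ * N) A) (hb' : ∀ v, v ⬝ᵥ (b *ᵥ v) ≤ β ^ 2 * (v ⬝ᵥ v)) :
    ∃ W : Matrix (ZMod Q) (ZMod Q) ℝ, Wᵀ = W ∧ Opn (ρ + β) W ∧
      phi ((1 / (N : ℝ) ^ 2) • (Aᵀ * A) + b) - phi ((1 / (N : ℝ) ^ 2) • (A'ᵀ * A') + b) ≤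
        3 / (N : ℝ) ^ 2 * (W * (Aᵀ * (A - A'))).trace := by
  have hN' : (N : ℝ) ≠ 0 := by positivity
  have e : ∀ B : Matrix (ZMod Q) (ZMod Q) ℝ, (((1 / (N : ℝ)) • B)ᵀ * ((1 / (N : ℝ)) • B)) =
      (1 / (N : ℝ) ^ 2) • (Bᵀ * B) := by
    intro B
    rw [transpose_smul, smul_mul_smul_comm]
    congr 1
    field_simp
  refine ⟨rt ((1 / (N : ℝ) ^ 2) • (Aᵀ * A) + b), rt_transpose _, ?_, ?_⟩
  · refine opn_rt (((psd_tms A).smul (by positivity)).add hb) fun v => ?_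
    rw [add_mulVec, dotProduct_add, smul_mulVec, dotProduct_smul, smul_eq_mul]
    have h1 := hA.gram v
    have h2 := hb' v
    have h3 : 1 / (N : ℝ) ^ 2 * (v ⬝ᵥ ((Aᵀ * A) *ᵥ v)) ≤ ρ ^ 2 * (v ⬝ᵥ v) := by
      calc 1 / (N : ℝ) ^ 2 * (v ⬝ᵥ ((Aᵀ * A) *ᵥ v)) ≤
          1 / (N : ℝ) ^ 2 * ((ρ * N) ^ 2 * (v ⬝ᵥ v)) :=
            mul_le_mul_of_nonneg_left h1 (by positivity)
        _ = _ := by field_simp
    have h4 : 0 ≤ 2 * ρ * β * (v ⬝ᵥ v) := mul_nonneg (by positivity) (dsn v)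
    nlinarith
  · have h := phi_cost ((1 / (N : ℝ)) • A) ((1 / (N : ℝ)) • A') hb
    rw [e, e] at h
    refine h.trans (le_of_eq ?_)
    rw [← smul_sub, transpose_smul, smul_mul_smul_comm, Matrix.mul_smul, trace_smul, smul_eq_mul]
    field_simp

variable {ι : Type*}

/-- **(C4), own side = second variable of the kernel.** -/
theorem own_move (R : Finset ι) {mm : ι → ℕ} {YY : ι → Matrix (ZMod Q) (ZMod Q) ℝ}
    {SS : ι → ZMod Q → ZMod Q → Matrix (ZMod Q) (ZMod Q) ℝ} {ηη εε : ι → ℝ}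
    (h : ∀ r ∈ R, MvOK (mm r) (YY r) (SS r) (ηη r)) (hε : ∀ r ∈ R, |εε r| ≤ 1)
    {N : ℕ} (hN : 0 < N) (X X' : Matrix (ZMod Q) (ZMod Q) ℝ)
    (hX' : X - X' = ∑ r ∈ R, εε r • mvK (YY r) (SS r)) {ρ β : ℝ} (hρ : 0 ≤ ρ) (hβ : 0 ≤ β)
    (hX : ∀ q p, Opn (ρ * N) (bK N X q p)) (b : ZMod Q → ZMod Q → Matrix (ZMod Q) (ZMod Q) ℝ)
    (hb : ∀ q p, (b q p).PosSemidef) (hb' : ∀ q p v, v ⬝ᵥ (b q p *ᵥ v) ≤ β ^ 2 * (v ⬝ᵥ v)) :
    ∑ p, ∑ q, phi (Gb N X q p + b q p) ≤ ∑ p, ∑ q, phi (Gb N X' q p + b q p) +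
      3 * (ρ + β) * ρ / N * ∑ r ∈ R, ((N : ℝ) + 2 ^ mm r) ^ 2 / 4 ^ mm r * ηη r *
        ∑ x, ∑ y, (SS r x y).trace := by
  have hN' : (0 : ℝ) < N := by exact_mod_cast hN
  choose W hW1 hW2 hW3 using fun q p =>
    phi_box hN (bK N X q p) (bK N X' q p) (hb q p) hρ hβ (hX q p) (hb' q p)
  have hbox : ∀ q p, phi (Gb N X q p + b q p) - phi (Gb N X' q p + b q p) ≤
      3 / (N : ℝ) ^ 2 * ∑ r ∈ R, |((W q p * (bK N X q p)ᵀ) *
        (dg (bx Q N q) * mvK (YY r) (SS r) * dg (bx Q N p))).trace| := by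
    intro q p
    refine (hW3 q p).trans (mul_le_mul_of_nonneg_left ?_ (by positivity))
    rw [← bK_sub, hX']
    have e : (W q p * ((bK N X q p)ᵀ * bK N (∑ r ∈ R, εε r • mvK (YY r) (SS r)) q p)).trace =
        ∑ r ∈ R, εε r * ((W q p * (bK N X q p)ᵀ) *
        (dg (bx Q N q) * mvK (YY r) (SS r) * dg (bx Q N p))).trace := by
      unfold bK
      simp only [Matrix.mul_sum, Matrix.sum_mul, trace_sum, Matrix.mul_smul, Matrix.smul_mul,
        trace_smul, smul_eq_mul, Matrix.mul_assoc]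
    rw [e]
    refine Finset.sum_le_sum fun r hr => ?_
    refine (le_abs_self _).trans ?_
    rw [abs_mul]
    exact mul_le_of_le_one_left (abs_nonneg _) (hε r hr)
  have hsum : ∑ p, ∑ q, phi (Gb N X q p + b q p) - ∑ p, ∑ q, phi (Gb N X' q p + b q p) ≤
      3 / (N : ℝ) ^ 2 * ∑ r ∈ R, ∑ q, ∑ p, |((W q p * (bK N X q p)ᵀ) *
        (dg (bx Q N q) * mvK (YY r) (SS r) * dg (bx Q N p))).trace| := by
    rw [← Finset.sum_sub_distrib]
    simp only [← Finset.sum_sub_distrib]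
    refine (Finset.sum_le_sum fun p _ => Finset.sum_le_sum fun q _ => hbox q p).trans
      (le_of_eq ?_)
    simp only [← Finset.mul_sum]
    congr 1
    rw [Finset.sum_comm, Finset.sum_congr rfl fun q _ => Finset.sum_comm, Finset.sum_comm]
  have hmv : ∀ r ∈ R, ∑ q, ∑ p, |((W q p * (bK N X q p)ᵀ) *
        (dg (bx Q N q) * mvK (YY r) (SS r) * dg (bx Q N p))).trace| ≤
      ((N : ℝ) + 2 ^ mm r) ^ 2 / 4 ^ mm r * (((ρ + β) * (ρ * N)) * ηη r) *
        ∑ x, ∑ y, (SS r x y).trace := by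
    intro r hr
    exact tr_move (h r hr) hN (fun q p => W q p * (bK N X q p)ᵀ) (by positivity)
      fun q p => (hW2 q p).mul (hX q p).tr
  have h1 := mul_le_mul_of_nonneg_left (Finset.sum_le_sum hmv)
    (by positivity : (0 : ℝ) ≤ 3 / (N : ℝ) ^ 2)
  have h2 : 3 / (N : ℝ) ^ 2 * ∑ r ∈ R, ((N : ℝ) + 2 ^ mm r) ^ 2 / 4 ^ mm r *
      (((ρ + β) * (ρ * N)) * ηη r) * ∑ x, ∑ y, (SS r x y).trace =
      3 * (ρ + β) * ρ / N * ∑ r ∈ R, ((N : ℝ) + 2 ^ mm r) ^ 2 / 4 ^ mm r * ηη r *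
        ∑ x, ∑ y, (SS r x y).trace := by
    rw [Finset.mul_sum, Finset.mul_sum]
    refine Finset.sum_congr rfl fun r _ => ?_
    field_simp
  rw [h2] at h1
  linarith

/-- **(C4), own side = first variable of the kernel.** -/
theorem par_move (R : Finset ι) {mm : ι → ℕ} {YY : ι → Matrix (ZMod Q) (ZMod Q) ℝ}
    {SS : ι → ZMod Q → ZMod Q → Matrix (ZMod Q) (ZMod Q) ℝ} {ηη εε : ι → ℝ}
    (h : ∀ r ∈ R, MvOK (mm r) (YY r) (SS r) (ηη r)) (hε : ∀ r ∈ R, |εε r| ≤ 1)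
    {N : ℕ} (hN : 0 < N) (X X' : Matrix (ZMod Q) (ZMod Q) ℝ)
    (hX' : X - X' = ∑ r ∈ R, εε r • mvK (YY r) (SS r)) {ρ β : ℝ} (hρ : 0 ≤ ρ) (hβ : 0 ≤ β)
    (hX : ∀ q p, Opn (ρ * N) (bK N X q p)) (b : ZMod Q → ZMod Q → Matrix (ZMod Q) (ZMod Q) ℝ)
    (hb : ∀ q p, (b q p).PosSemidef) (hb' : ∀ q p v, v ⬝ᵥ (b q p *ᵥ v) ≤ β ^ 2 * (v ⬝ᵥ v)) :
    ∑ p, ∑ q, phi (Gb N Xᵀ q p + b q p) ≤ ∑ p, ∑ q, phi (Gb N X'ᵀ q p + b q p) +
      3 * (ρ + β) * ρ / N * ∑ r ∈ R, ((N : ℝ) + 2 ^ mm r) ^ 2 / 4 ^ mm r * ηη r *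
        ∑ x, ∑ y, (SS r x y).trace := by
  have hN' : (0 : ℝ) < N := by exact_mod_cast hN
  have hXT : ∀ q p, Opn (ρ * N) (bK N Xᵀ q p) := by
    intro q p
    rw [← bK_transpose]
    exact (hX p q).tr
  choose W hW1 hW2 hW3 using fun q p =>
    phi_box hN (bK N Xᵀ q p) (bK N X'ᵀ q p) (hb q p) hρ hβ (hXT q p) (hb' q p)
  have hbox : ∀ q p, phi (Gb N Xᵀ q p + b q p) - phi (Gb N X'ᵀ q p + b q p) ≤
      3 / (N : ℝ) ^ 2 * ∑ r ∈ R, |(((bK N Xᵀ q p) * W q p) *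
        (dg (bx Q N p) * mvK (YY r) (SS r) * dg (bx Q N q))).trace| := by
    intro q p
    refine (hW3 q p).trans (mul_le_mul_of_nonneg_left ?_ (by positivity))
    have e0 : bK N Xᵀ q p - bK N X'ᵀ q p =
        (bK N (∑ r ∈ R, εε r • mvK (YY r) (SS r)) p q)ᵀ := by
      rw [← bK_sub, ← transpose_sub, hX', bK_transpose]
    have e1 : (W q p * ((bK N Xᵀ q p)ᵀ * (bK N Xᵀ q p - bK N X'ᵀ q p))).trace =
        ((bK N Xᵀ q p * W q p) * bK N (∑ r ∈ R, εε r • mvK (YY r) (SS r)) p q).trace := by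
      rw [e0, ← trace_transpose, transpose_mul, transpose_mul, transpose_transpose,
        transpose_transpose, hW1, Matrix.mul_assoc, trace_mul_comm]
    have e : ((bK N Xᵀ q p * W q p) * bK N (∑ r ∈ R, εε r • mvK (YY r) (SS r)) p q).trace =
        ∑ r ∈ R, εε r * (((bK N Xᵀ q p) * W q p) *
        (dg (bx Q N p) * mvK (YY r) (SS r) * dg (bx Q N q))).trace := by
      unfold bK
      simp only [Matrix.mul_sum, Matrix.sum_mul, trace_sum, Matrix.mul_smul, Matrix.smul_mul,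
        trace_smul, smul_eq_mul, Matrix.mul_assoc]
    rw [e1, e]
    refine Finset.sum_le_sum fun r hr => ?_
    refine (le_abs_self _).trans ?_
    rw [abs_mul]
    exact mul_le_of_le_one_left (abs_nonneg _) (hε r hr)
  have hsum : ∑ p, ∑ q, phi (Gb N Xᵀ q p + b q p) - ∑ p, ∑ q, phi (Gb N X'ᵀ q p + b q p) ≤
      3 / (N : ℝ) ^ 2 * ∑ r ∈ R, ∑ p, ∑ q, |(((bK N Xᵀ q p) * W q p) *
        (dg (bx Q N p) * mvK (YY r) (SS r) * dg (bx Q N q))).trace| := by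
    rw [← Finset.sum_sub_distrib]
    simp only [← Finset.sum_sub_distrib]
    refine (Finset.sum_le_sum fun p _ => Finset.sum_le_sum fun q _ => hbox q p).trans
      (le_of_eq ?_)
    simp only [← Finset.mul_sum]
    congr 1
    rw [Finset.sum_congr rfl fun q _ => Finset.sum_comm, Finset.sum_comm]
  have hmv : ∀ r ∈ R, ∑ p, ∑ q, |(((bK N Xᵀ q p) * W q p) *
        (dg (bx Q N p) * mvK (YY r) (SS r) * dg (bx Q N q))).trace| ≤
      ((N : ℝ) + 2 ^ mm r) ^ 2 / 4 ^ mm r * (((ρ * N) * (ρ + β)) * ηη r) *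
        ∑ x, ∑ y, (SS r x y).trace := by
    intro r hr
    exact tr_move (h r hr) hN (fun p q => bK N Xᵀ q p * W q p) (by positivity)
      fun p q => (hXT q p).mul (hW2 q p)
  have h1 := mul_le_mul_of_nonneg_left (Finset.sum_le_sum hmv)
    (by positivity : (0 : ℝ) ≤ 3 / (N : ℝ) ^ 2)
  have h2 : 3 / (N : ℝ) ^ 2 * ∑ r ∈ R, ((N : ℝ) + 2 ^ mm r) ^ 2 / 4 ^ mm r *
      (((ρ * N) * (ρ + β)) * ηη r) * ∑ x, ∑ y, (SS r x y).trace =
      3 * (ρ + β) * ρ / N * ∑ r ∈ R, ((N : ℝ) + 2 ^ mm r) ^ 2 / 4 ^ mm r * ηη r *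
        ∑ x, ∑ y, (SS r x y).trace := by
    rw [Finset.mul_sum, Finset.mul_sum]
    refine Finset.sum_congr rfl fun r _ => ?_
    field_simp
  rw [h2] at h1
  linarith

end price

section extr

variable {Q : ℕ} [NeZero Q] {B B' : Matrix (ZMod Q) (ZMod Q) ℝ} {M : ℕ} {δ δ' n n' : ℝ}
  {Y Y' : ℕ → Matrix (ZMod Q) (ZMod Q) ℝ} {S S' : ℕ → ZMod Q → ZMod Q → Matrix (ZMod Q) (ZMod Q) ℝ}

theorem mulVec_box (K : Matrix (ZMod Q) (ZMod Q) ℝ) (s t : Finset (ZMod Q)) (v : ZMod Q → ℝ)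
    (x : ZMod Q) : ((dg s * K * dg t) *ᵥ v) x = if x ∈ s then ∑ y ∈ t, K x y * v y else 0 := by
  rw [Matrix.mulVec, dotProduct]
  have h1 : ∀ y, (dg s * K * dg t) x y * v y =
      if x ∈ s then (if y ∈ t then K x y * v y else 0) else 0 := by
    intro y
    rw [mul_dg, dg_mul]
    split_ifs <;> simp
  rw [Finset.sum_congr rfl fun y _ => h1 y]
  split_ifs
  · rw [Finset.sum_ite_mem, Finset.univ_inter]
  · simp

/-- norm of a box from the quadratic bound -/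
theorem opn_box {K : Matrix (ZMod Q) (ZMod Q) ℝ} {s t : Finset (ZMod Q)} {k : ℝ}
    (h : ∀ v : ZMod Q → ℝ, ∑ x ∈ s, (∑ y ∈ t, K x y * v y) ^ 2 ≤ k ^ 2 * ∑ y ∈ t, v y ^ 2) :
    Opn k (dg s * K * dg t) := by
  intro v
  have e : ((dg s * K * dg t) *ᵥ v) ⬝ᵥ ((dg s * K * dg t) *ᵥ v) =
      ∑ x ∈ s, (∑ y ∈ t, K x y * v y) ^ 2 := by
    rw [dotProduct]
    have h1 : ∀ x, ((dg s * K * dg t) *ᵥ v) x * ((dg s * K * dg t) *ᵥ v) x =
        if x ∈ s then (∑ y ∈ t, K x y * v y) ^ 2 else 0 := by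
      intro x
      rw [mulVec_box]
      split_ifs
      · ring
      · simp
    rw [Finset.sum_congr rfl fun x _ => h1 x, Finset.sum_ite_mem, Finset.univ_inter]
  rw [e]
  refine (h v).trans (mul_le_mul_of_nonneg_left ?_ (sq_nonneg k))
  rw [dotProduct]
  simp only [← sq]
  exact Finset.sum_le_sum_of_subset_of_nonneg (Finset.subset_univ _) fun y _ _ => sq_nonneg _

theorem Extr_delta (h : Extr B M δ n Y S) (hδ : 0 ≤ δ) {m : ℕ} (hm : m < M) (hQ : 2 ^ m ∣ Q)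
    (j : ℕ) (q p : ZMod Q) : Opn (2 * √δ * (2 ^ (m + j) : ℕ)) (bK (2 ^ (m + j)) (Y m) q p) := by
  refine opn_box fun v => ?_
  have h1 := h.op_box hm hQ hδ j q p v
  refine h1.trans (le_of_eq ?_)
  rw [mul_pow, mul_pow, Real.sq_sqrt hδ]
  push_cast
  ring

/-- the moves of an extraction -/
theorem Extr_mvOK (h : Extr B M δ n Y S) (hδ : 0 ≤ δ) {m : ℕ} (hm : m + 1 < M) (hQ : 2 ^ m ∣ Q) :
    MvOK m (Y (m + 1)) (S m) (2 * √δ * 2 ^ m) := by
  refine ⟨hQ, by positivity, h.pr m, h.cell m, h.supp m, fun a b => ?_⟩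
  refine opn_box fun v => ?_
  -- the cells of scale `m` are contained in cells of scale `m+1`
  by_cases hb : (cl Q m b).Nonempty
  swap
  · rw [Finset.not_nonempty_iff_eq_empty.1 hb]
    simp
  by_cases ha : (cl Q m a).Nonempty
  swap
  · rw [Finset.not_nonempty_iff_eq_empty.1 ha, Finset.sum_empty]
    exact mul_nonneg (sq_nonneg _) (Finset.sum_nonneg fun _ _ => sq_nonneg _)
  obtain ⟨x0, hx0⟩ := ha
  obtain ⟨y0, hy0⟩ := hb
  rw [mem_cl] at hx0 hy0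
  set w : ZMod Q → ℝ := fun y => if y ∈ cl Q m b then v y else 0 with hw
  have h1 := h.op (m + 1) hm (cel (m + 1) x0) (cel (m + 1) y0) w (by
    intro y hy
    have hy' : y ∈ cl Q m b := by
      by_contra hc
      exact hy (by simp [hw, hc])
    exact cel_nest (Nat.le_succ m) ((mem_cl.1 hy').trans hy0.symm))
  have e1 : ∀ x, ∑ y, Y (m + 1) x y * w y = ∑ y ∈ cl Q m b, Y (m + 1) x y * v y := by
    intro x
    rw [← Finset.univ_inter (cl Q m b), ← Finset.sum_ite_mem]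
    refine Finset.sum_congr rfl fun y _ => ?_
    rw [hw]
    simp only
    split_ifs <;> simp
  have e2 : ∑ y, w y ^ 2 = ∑ y ∈ cl Q m b, v y ^ 2 := by
    rw [← Finset.univ_inter (cl Q m b), ← Finset.sum_ite_mem]
    refine Finset.sum_congr rfl fun y _ => ?_
    rw [hw]
    simp only
    split_ifs <;> simp
  rw [e2] at h1
  simp only [e1] at h1
  have e3 : (2 * √δ * 2 ^ m) ^ 2 = δ * 4 ^ (m + 1) := by
    rw [mul_pow, mul_pow, Real.sq_sqrt hδ, ← pow_mul, mul_comm m 2, pow_mul]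
    norm_num
    ring
  rw [e3]
  refine le_trans (Finset.sum_le_sum_of_subset_of_nonneg ?_ fun x _ _ => sq_nonneg _) h1
  intro x hx
  rw [mem_cl] at hx ⊢
  exact cel_nest (Nat.le_succ m) (hx.trans hx0.symm)

/-- several steps of an extraction -/
theorem Extr_steps (h : Extr B M δ n Y S) (m i : ℕ) :
    Y (m + i) - Y m = ∑ m1 ∈ Ico m (m + i), mvK (Y (m1 + 1)) (S m1) := by
  induction i with
  | zero => simp
  | succ i ih =>
    rw [← add_assoc, Finset.sum_Ico_succ_top (by omega), ← ih]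
    ext x y
    simp only [Matrix.sub_apply, Matrix.add_apply]
    have := h.move (m + i) x y
    unfold mvK
    linarith

/-- rank used between the scales `m` and `m + i` -/
noncomputable def rkI (S S' : ℕ → ZMod Q → ZMod Q → Matrix (ZMod Q) (ZMod Q) ℝ) (m i : ℕ) : ℝ :=
  ∑ m1 ∈ Ico m (m + i), ∑ x, ∑ y, ((S m1 x y).trace + (S' m1 x y).trace)

section band

variable (h : Extr B M δ n Y S) (h' : Extr B' M δ' n' Y' S')
include h h'

theorem rkI_nonneg (m i : ℕ) : 0 ≤ rkI S S' m i :=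
  Finset.sum_nonneg fun _ _ => Finset.sum_nonneg fun _ _ => Finset.sum_nonneg fun _ _ =>
    add_nonneg (isPr_trace_nonneg (h.pr _ _ _)) (isPr_trace_nonneg (h'.pr _ _ _))

theorem band_opn (hδ : 0 ≤ δ') (hδ' : δ' ≤ δ) {m : ℕ} (hm : m < M) (hQ : 2 ^ m ∣ Q)
    (j : ℕ) (q p : ZMod Q) :
    Opn (4 * √δ * (2 ^ (m + j) : ℕ)) (bK (2 ^ (m + j)) (Y m - Y' m) q p) := by
  rw [bK_sub]
  have h1 := Extr_delta h (hδ.trans hδ') hm hQ j q p
  have h2 := Extr_delta h' hδ hm hQ j q p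
  have h3 : √δ' ≤ √δ := Real.sqrt_le_sqrt hδ'
  refine (h1.sub (by positivity) (by positivity) h2).mono (by positivity) ?_
  have : (0 : ℝ) ≤ (2 ^ (m + j) : ℕ) := Nat.cast_nonneg _
  nlinarith

theorem band_cost (hδ : 0 ≤ δ') (hδ' : δ' ≤ δ) (m i : ℕ) {β : ℝ} (hβ : 0 ≤ β) :
    3 * (4 * √δ + β) * (4 * √δ) / (2 ^ (m + i) : ℕ) *
      ∑ r ∈ Ico m (m + i) ×ˢ (univ : Finset Bool),
        (((2 ^ (m + i) : ℕ) : ℝ) + 2 ^ r.1) ^ 2 / 4 ^ r.1 *
          (if r.2 then 2 * √δ * 2 ^ r.1 else 2 * √δ' * 2 ^ r.1) *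
        ∑ x, ∑ y, ((if r.2 then S r.1 x y else S' r.1 x y : Matrix (ZMod Q) (ZMod Q) ℝ)).trace ≤
      96 * 2 ^ i * (4 * √δ + β) * δ * rkI S S' m i := by
  have h3 : √δ' ≤ √δ := Real.sqrt_le_sqrt hδ'
  have hd0 : 0 ≤ δ := hδ.trans hδ'
  have hN : (0 : ℝ) < (2 : ℝ) ^ (m + i) := by positivity
  have t1 : ∀ m1 x y, 0 ≤ (S m1 x y).trace := fun m1 x y => isPr_trace_nonneg (h.pr m1 x y)
  have t2 : ∀ m1 x y, 0 ≤ (S' m1 x y).trace := fun m1 x y => isPr_trace_nonneg (h'.pr m1 x y)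
  have hterm : ∀ m1 ∈ Ico m (m + i), ∀ (d T : ℝ), 0 ≤ d → d ≤ √δ → 0 ≤ T →
      (((2 ^ (m + i) : ℕ) : ℝ) + 2 ^ m1) ^ 2 / 4 ^ m1 * (2 * d * 2 ^ m1) * T ≤
        8 * (2 ^ i * 2 ^ (m + i)) * √δ * T := by
    intro m1 hm1 d T hd hd' hT
    rw [Finset.mem_Ico] at hm1
    refine mul_le_mul_of_nonneg_right ?_ hT
    have e1 : (2 : ℝ) ^ m1 ≤ 2 ^ (m + i) := pow_le_pow_right₀ (by norm_num) (by omega)
    have e2 : (2 : ℝ) ^ (m + i) ≤ 2 ^ i * 2 ^ m1 := by
      rw [← pow_add]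
      exact pow_le_pow_right₀ (by norm_num) (by omega)
    have e4 : (4 : ℝ) ^ m1 = 2 ^ m1 * 2 ^ m1 := by
      rw [← mul_pow]; norm_num
    have p1 : (0 : ℝ) < 2 ^ m1 := by positivity
    push_cast
    rw [e4]
    have e5 : ((2 : ℝ) ^ (m + i) + 2 ^ m1) ^ 2 / (2 ^ m1 * 2 ^ m1) * (2 * d * 2 ^ m1) =
        2 * d * (((2 : ℝ) ^ (m + i) + 2 ^ m1) ^ 2 / 2 ^ m1) := by
      field_simp
    rw [e5]
    have e6 : ((2 : ℝ) ^ (m + i) + 2 ^ m1) ^ 2 / 2 ^ m1 ≤ 4 * (2 ^ i * 2 ^ (m + i)) := by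
      rw [div_le_iff₀ p1]
      nlinarith
    calc 2 * d * (((2 : ℝ) ^ (m + i) + 2 ^ m1) ^ 2 / 2 ^ m1) ≤
        2 * d * (4 * (2 ^ i * 2 ^ (m + i))) := mul_le_mul_of_nonneg_left e6 (by positivity)
      _ ≤ 2 * √δ * (4 * (2 ^ i * 2 ^ (m + i))) :=
        mul_le_mul_of_nonneg_right (by linarith) (by positivity)
      _ = _ := by ring
  have hsum : ∑ r ∈ Ico m (m + i) ×ˢ (univ : Finset Bool),
        (((2 ^ (m + i) : ℕ) : ℝ) + 2 ^ r.1) ^ 2 / 4 ^ r.1 *
          (if r.2 then 2 * √δ * 2 ^ r.1 else 2 * √δ' * 2 ^ r.1) *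
        ∑ x, ∑ y, ((if r.2 then S r.1 x y else S' r.1 x y : Matrix (ZMod Q) (ZMod Q) ℝ)).trace ≤
      8 * (2 ^ i * 2 ^ (m + i)) * √δ * rkI S S' m i := by
    rw [Finset.sum_product]
    unfold rkI
    rw [Finset.mul_sum]
    refine Finset.sum_le_sum fun m1 hm1 => ?_
    rw [Fintype.sum_bool]
    simp only [if_true, Bool.false_eq_true, if_false]
    have k1 := hterm m1 hm1 (√δ) (∑ x, ∑ y, (S m1 x y).trace) (Real.sqrt_nonneg _) le_rfl
      (Finset.sum_nonneg fun _ _ => Finset.sum_nonneg fun _ _ => t1 _ _ _)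
    have k2 := hterm m1 hm1 (√δ') (∑ x, ∑ y, (S' m1 x y).trace) (Real.sqrt_nonneg _) h3
      (Finset.sum_nonneg fun _ _ => Finset.sum_nonneg fun _ _ => t2 _ _ _)
    have e : ∑ x, ∑ y, ((S m1 x y).trace + (S' m1 x y).trace) =
        ∑ x, ∑ y, (S m1 x y).trace + ∑ x, ∑ y, (S' m1 x y).trace := by
      simp only [Finset.sum_add_distrib]
    rw [e, mul_add]
    exact add_le_add k1 k2
  have h1 := mul_le_mul_of_nonneg_left hsum
    (by positivity : (0 : ℝ) ≤ 3 * (4 * √δ + β) * (4 * √δ) / (2 ^ (m + i) : ℕ))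
  refine h1.trans (le_of_eq ?_)
  have hs : √δ * √δ = δ := Real.mul_self_sqrt hd0
  push_cast
  generalize √δ = s at hs ⊢
  rw [← hs]
  field_simp
  ring

/-- (C4) for a difference of two extractions, own side = second variable -/
theorem band_own (hδ : 0 ≤ δ') (hδ' : δ' ≤ δ) {m i : ℕ} (hm : m + i < M)
    (hQ : ∀ m, m < M → 2 ^ m ∣ Q) {β : ℝ} (hβ : 0 ≤ β)
    (b : ZMod Q → ZMod Q → Matrix (ZMod Q) (ZMod Q) ℝ)
    (hb : ∀ q p, (b q p).PosSemidef) (hb' : ∀ q p v, v ⬝ᵥ (b q p *ᵥ v) ≤ β ^ 2 * (v ⬝ᵥ v)) :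
    ∑ p, ∑ q, phi (Gb (2 ^ (m + i)) (Y (m + i) - Y' (m + i)) q p + b q p) ≤
      ∑ p, ∑ q, phi (Gb (2 ^ (m + i)) (Y m - Y' m) q p + b q p) +
      96 * 2 ^ i * (4 * √δ + β) * δ * rkI S S' m i := by
  have hX : Y (m + i) - Y' (m + i) - (Y m - Y' m) = ∑ r ∈ Ico m (m + i) ×ˢ (univ : Finset Bool),
      (if r.2 then 1 else -1 : ℝ) • mvK (if r.2 then Y (r.1 + 1) else Y' (r.1 + 1))
        (fun x y => if r.2 then S r.1 x y else S' r.1 x y) := by
    rw [Finset.sum_product]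
    simp only [Fintype.sum_bool, if_true, Bool.false_eq_true, if_false, one_smul, neg_smul]
    rw [Finset.sum_add_distrib, Finset.sum_neg_distrib, ← Extr_steps h, ← Extr_steps h']
    abel
  have k := own_move (Ico m (m + i) ×ˢ (univ : Finset Bool)) (mm := fun r => r.1)
    (YY := fun r => if r.2 then Y (r.1 + 1) else Y' (r.1 + 1))
    (SS := fun r x y => if r.2 then S r.1 x y else S' r.1 x y)
    (ηη := fun r => if r.2 then 2 * √δ * 2 ^ r.1 else 2 * √δ' * 2 ^ r.1)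
    (εε := fun r => if r.2 then 1 else -1) (by
      rintro ⟨m1, bb⟩ hr
      rw [Finset.mem_product, Finset.mem_Ico] at hr
      cases bb
      · exact Extr_mvOK h' hδ (by have := hr.1; simp only at this; omega) (hQ _ (by have := hr.1; simp only at this; omega))
      · exact Extr_mvOK h (hδ.trans hδ') (by have := hr.1; simp only at this; omega) (hQ _ (by have := hr.1; simp only at this; omega)))
    (by rintro ⟨m1, bb⟩ _; cases bb <;> simp) (N := 2 ^ (m + i)) (by positivity) _ _ hX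
    (ρ := 4 * √δ) (by positivity) hβ (by
      intro q p
      have := band_opn h h' hδ hδ' hm (hQ _ hm) 0 q p
      simpa using this) b hb hb'
  refine k.trans (add_le_add le_rfl ?_)
  exact band_cost h h' hδ hδ' m i hβ

/-- (C4) for a difference of two extractions, own side = first variable -/
theorem band_par (hδ : 0 ≤ δ') (hδ' : δ' ≤ δ) {m i : ℕ} (hm : m + i < M)
    (hQ : ∀ m, m < M → 2 ^ m ∣ Q) {β : ℝ} (hβ : 0 ≤ β)
    (b : ZMod Q → ZMod Q → Matrix (ZMod Q) (ZMod Q) ℝ)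
    (hb : ∀ q p, (b q p).PosSemidef) (hb' : ∀ q p v, v ⬝ᵥ (b q p *ᵥ v) ≤ β ^ 2 * (v ⬝ᵥ v)) :
    ∑ p, ∑ q, phi (Gb (2 ^ (m + i)) (Y (m + i) - Y' (m + i))ᵀ q p + b q p) ≤
      ∑ p, ∑ q, phi (Gb (2 ^ (m + i)) (Y m - Y' m)ᵀ q p + b q p) +
      96 * 2 ^ i * (4 * √δ + β) * δ * rkI S S' m i := by
  have hX : Y (m + i) - Y' (m + i) - (Y m - Y' m) = ∑ r ∈ Ico m (m + i) ×ˢ (univ : Finset Bool),
      (if r.2 then 1 else -1 : ℝ) • mvK (if r.2 then Y (r.1 + 1) else Y' (r.1 + 1))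
        (fun x y => if r.2 then S r.1 x y else S' r.1 x y) := by
    rw [Finset.sum_product]
    simp only [Fintype.sum_bool, if_true, Bool.false_eq_true, if_false, one_smul, neg_smul]
    rw [Finset.sum_add_distrib, Finset.sum_neg_distrib, ← Extr_steps h, ← Extr_steps h']
    abel
  have k := par_move (Ico m (m + i) ×ˢ (univ : Finset Bool)) (mm := fun r => r.1)
    (YY := fun r => if r.2 then Y (r.1 + 1) else Y' (r.1 + 1))
    (SS := fun r x y => if r.2 then S r.1 x y else S' r.1 x y)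
    (ηη := fun r => if r.2 then 2 * √δ * 2 ^ r.1 else 2 * √δ' * 2 ^ r.1)
    (εε := fun r => if r.2 then 1 else -1) (by
      rintro ⟨m1, bb⟩ hr
      rw [Finset.mem_product, Finset.mem_Ico] at hr
      cases bb
      · exact Extr_mvOK h' hδ (by have := hr.1; simp only at this; omega) (hQ _ (by have := hr.1; simp only at this; omega))
      · exact Extr_mvOK h (hδ.trans hδ') (by have := hr.1; simp only at this; omega) (hQ _ (by have := hr.1; simp only at this; omega)))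
    (by rintro ⟨m1, bb⟩ _; cases bb <;> simp) (N := 2 ^ (m + i)) (by positivity) _ _ hX
    (ρ := 4 * √δ) (by positivity) hβ (by
      intro q p
      have := band_opn h h' hδ hδ' hm (hQ _ hm) 0 q p
      simpa using this) b hb hb'
  refine k.trans (add_le_add le_rfl ?_)
  exact band_cost h h' hδ hδ' m i hβ

/-- total rank of all comparisons -/
theorem sum_rkI (i : ℕ) : ∑ m ∈ (range M).filter (fun m => m + i < M), rkI S S' m i ≤
    i * (n + n') := by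
  have t : ∀ m1, 0 ≤ ∑ x, ∑ y, ((S m1 x y).trace + (S' m1 x y).trace) := fun m1 =>
    Finset.sum_nonneg fun _ _ => Finset.sum_nonneg fun _ _ =>
    add_nonneg (isPr_trace_nonneg (h.pr _ _ _)) (isPr_trace_nonneg (h'.pr _ _ _))
  have h1 : ∀ m, rkI S S' m i = ∑ k ∈ range i, ∑ x, ∑ y,
      ((S (m + k) x y).trace + (S' (m + k) x y).trace) := by
    intro m
    unfold rkI
    rw [Finset.sum_Ico_eq_sum_range, Nat.add_sub_cancel_left]
  simp only [h1]
  rw [Finset.sum_comm]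
  have h2 : ∀ k ∈ range i, ∑ m ∈ (range M).filter (fun m => m + i < M), ∑ x, ∑ y,
      ((S (m + k) x y).trace + (S' (m + k) x y).trace) ≤ n + n' := by
    intro k hk
    rw [Finset.mem_range] at hk
    have h3 : ∑ m ∈ (range M).filter (fun m => m + i < M), ∑ x, ∑ y,
      ((S (m + k) x y).trace + (S' (m + k) x y).trace) =
      ∑ m1 ∈ ((range M).filter (fun m => m + i < M)).image (fun m => m + k), ∑ x, ∑ y,
      ((S m1 x y).trace + (S' m1 x y).trace) := by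
      rw [Finset.sum_image]
      intro a _ b _ hab
      simpa using hab
    rw [h3]
    have h4 : ((range M).filter (fun m => m + i < M)).image (fun m => m + k) ⊆ range M := by
      intro a ha
      obtain ⟨b, hb, rfl⟩ := Finset.mem_image.1 ha
      rw [Finset.mem_filter] at hb
      rw [Finset.mem_range]
      omega
    refine (Finset.sum_le_sum_of_subset_of_nonneg h4 fun m1 _ _ => t m1).trans ?_
    have h5 : ∑ m1 ∈ range M, ∑ x, ∑ y, ((S m1 x y).trace + (S' m1 x y).trace) =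
        ∑ m1 ∈ range M, ∑ x, ∑ y, (S m1 x y).trace +
        ∑ m1 ∈ range M, ∑ x, ∑ y, (S' m1 x y).trace := by
      simp only [Finset.sum_add_distrib]
    rw [h5]
    exact add_le_add h.count h'.count
  refine (Finset.sum_le_sum h2).trans (le_of_eq ?_)
  rw [Finset.sum_const, Finset.card_range, nsmul_eq_mul]

end band

end extr

end Crest.Agent.R079.CRe87
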