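import Crest.Agent.R079.CRy_371
import Crest.Agent.R079.CRe_87
import Crest.Agent.R079.CRe_250

/-! R079, RAGGED CORNER (CR), leaf L5-2 (literal `Vert2` of CRdef2_253): comparison of scales at the
vertex where the own variable is the row variable of the killer.  helper87. -/

set_option autoImplicit false
set_option linter.unusedVariables false
set_option linter.unusedSectionVars false
set_option linter.unusedSimpArgs false

namespace Crest.Agent.R079.CRv2x87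

open Matrix Crest.Agent.R072
open Crest.Agent.R079.CR371 hiding kl kl_sup
open Finset hiding box
open Crest.Agent.R079.PotL (bl cel IsPr hs2 hsn bl_mono bl_add)
open Crest.Agent.R079.CRdefx253
open Crest.Agent.R079.CRe87 (Opn dsn phi_box opn_rt)
open Crest.Agent.R079.CRex250 (QF phi_row phi_price phi_mono hs2_eq)
open scoped MatrixOrder

section pure

variable {m n : Type*} [Fintype m] [Fintype n]

theorem opn_of {A : Matrix m n ℝ} {c : ℝ} (h : OpLe A c) : Opn c A := by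
  intro v
  have h1 := h.2 v
  simp only [dotProduct, Matrix.mulVec, ← sq]
  exact h1

theorem opLe_of {A : Matrix m n ℝ} {c : ℝ} (hc : 0 ≤ c) (h : Opn c A) : OpLe A c := by
  refine ⟨hc, fun v => ?_⟩
  have h1 := h v
  simp only [dotProduct, Matrix.mulVec, ← sq] at h1
  exact h1

theorem trN_le {K : Matrix n m ℝ} {E : Matrix m n ℝ} {k c : ℝ} (hk : 0 < k) (hK : Opn k K)
    (hE : TrN E c) : |(K * E).trace| ≤ k * c := by
  have h1 : OpLe ((1 / k) • K) 1 := by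
    have h2 := opLe_of (mul_nonneg (by positivity) hk.le) (hK.smul (1 / k))
    rwa [one_div_mul_cancel hk.ne'] at h2
  have h2 := hE _ h1
  rw [Matrix.smul_mul, trace_smul, smul_eq_mul, abs_mul, abs_of_pos (by positivity : 0 < 1 / k)] at h2
  rwa [div_mul_eq_mul_div, one_mul, div_le_iff₀' hk] at h2

end pure

section one

variable {Q : ℕ} [NeZero Q]

/-- move of a function letter in one box -/
theorem phi_mv {N : ℕ} (hN : 0 < N) {A A' b : Mx Q} (hb : b.PosSemidef) {β v : ℝ} (hβ : 0 ≤ β)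
    (hA : Opn N A) (hb' : ∀ v, v ⬝ᵥ (b *ᵥ v) ≤ β ^ 2 * (v ⬝ᵥ v)) (hE : TrN (A - A') (N * v)) :
    phi ((1 / (N : ℝ) ^ 2) • (Aᵀ * A) + b) ≤ phi ((1 / (N : ℝ) ^ 2) • (A'ᵀ * A') + b) +
      3 * (1 + β) * v := by
  have hN' : (0 : ℝ) < N := by exact_mod_cast hN
  obtain ⟨W, hW1, hW2, hW3⟩ := phi_box hN A A' hb (ρ := 1) zero_le_one hβ (by simpa using hA) hb'
  have h1 : Opn ((1 + β) * N) (W * Aᵀ) := hW2.mul hA.tr
  have h2 := trN_le (by positivity) h1 hE
  rw [Matrix.mul_assoc] at h2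
  have h3 := (le_abs_self _).trans h2
  have h4 := mul_le_mul_of_nonneg_left h3 (by positivity : (0 : ℝ) ≤ 3 / (N : ℝ) ^ 2)
  have e : 3 / (N : ℝ) ^ 2 * ((1 + β) * N * (N * v)) = 3 * (1 + β) * v := by
    field_simp
  rw [e] at h4
  linarith

/-- value at the bottom -/
theorem phi_bot {N : ℕ} (hN : 0 < N) {A b : Mx Q} (hb : b.PosSemidef) {β : ℝ} (hβ : 0 ≤ β)
    (hA : Opn N A) (hb' : ∀ v, v ⬝ᵥ (b *ᵥ v) ≤ β ^ 2 * (v ⬝ᵥ v)) :
    phi ((1 / (N : ℝ) ^ 2) • (Aᵀ * A) + b) ≤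
      (1 + β) * (1 / (N : ℝ) ^ 2 * hs2 A + b.trace) := by
  have hN' : (0 : ℝ) < N := by exact_mod_cast hN
  have hM : ((1 / (N : ℝ) ^ 2) • (Aᵀ * A) + b).PosSemidef :=
    ((psd_gram A).smul (by positivity)).add hb
  have h1 : ((1 + β) ^ 2 • (1 : Mx Q) - ((1 / (N : ℝ) ^ 2) • (Aᵀ * A) + b)).PosSemidef := by
    rw [posSemidef_iff_dotProduct_mulVec]
    refine ⟨?_, fun v => ?_⟩
    · exact ((isHermitian_one (α := ℝ) (n := ZMod Q)).smul (IsSelfAdjoint.all _)).sub hM.isHermitian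
    · rw [sub_mulVec, dotProduct_sub, smul_mulVec, one_mulVec, dotProduct_smul, smul_eq_mul,
        star_trivial, add_mulVec, dotProduct_add, smul_mulVec, dotProduct_smul, smul_eq_mul]
      have h1 := hA.gram v
      have h2 := hb' v
      have h3 : 1 / (N : ℝ) ^ 2 * (v ⬝ᵥ ((Aᵀ * A) *ᵥ v)) ≤ v ⬝ᵥ v := by
        calc 1 / (N : ℝ) ^ 2 * (v ⬝ᵥ ((Aᵀ * A) *ᵥ v)) ≤
            1 / (N : ℝ) ^ 2 * ((N : ℝ) ^ 2 * (v ⬝ᵥ v)) :=
              mul_le_mul_of_nonneg_left h1 (by positivity)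
          _ = _ := by field_simp
      have h4 : 0 ≤ 2 * β * (v ⬝ᵥ v) := mul_nonneg (by positivity) (dsn v)
      nlinarith
  have h2 := phi_le_of_le hM (by positivity) h1
  rw [Real.sqrt_sq (by positivity)] at h2
  refine h2.trans (le_of_eq ?_)
  rw [trace_add, trace_smul, smul_eq_mul]
  congr 3
  rw [trace_mul_comm, hs2_eq]

theorem opn_pr {P : Mx Q} (hP : IsPr P) : Opn 1 P := by
  intro v
  have h1 : (P *ᵥ v) ⬝ᵥ (P *ᵥ v) = v ⬝ᵥ (P *ᵥ v) := by
    have h2 : P *ᵥ (P *ᵥ v) = P *ᵥ v := by rw [mulVec_mulVec, hP.idem]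
    conv_rhs => rw [← h2]
    rw [dotProduct_mulVec v, ← mulVec_transpose, hP.symm]
  have h3 := CRe87.cs v (P *ᵥ v)
  rw [← h1] at h3
  rw [one_pow, one_mul]
  rcases eq_or_lt_of_le (dsn (P *ᵥ v)) with h0 | h0
  · rw [← h0]; exact dsn v
  · rw [sq] at h3
    exact le_of_mul_le_mul_right h3 h0

theorem opn_sum {ι : Type*} (s : Finset ι) (A : ι → Mx Q) (c : ℝ) (hc : 0 ≤ c)
    (h : ∀ i ∈ s, Opn c (A i)) : Opn (s.card * c) (∑ i ∈ s, A i) := by
  classical
  induction s using Finset.induction_on with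
  | empty =>
    intro v
    simp
  | insert a s ha ih =>
    rw [Finset.sum_insert ha, Finset.card_insert_of_notMem ha]
    have h1 := (h a (Finset.mem_insert_self a s)).add hc (by positivity)
      (ih fun i hi => h i (Finset.mem_insert_of_mem hi))
    have e : ((s.card + 1 : ℕ) : ℝ) * c = c + s.card * c := by push_cast; ring
    rw [e]
    exact h1

theorem hs2_sum_le {ι : Type*} (s : Finset ι) (A : ι → Mx Q) :
    hs2 (∑ i ∈ s, A i) ≤ s.card * ∑ i ∈ s, hs2 (A i) := by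
  unfold hs2
  have h1 : ∀ x y, (∑ i ∈ s, A i) x y ^ 2 ≤ s.card * ∑ i ∈ s, A i x y ^ 2 := by
    intro x y
    rw [Matrix.sum_apply]
    exact sq_sum_le_card_mul_sum_sq
  refine (Finset.sum_le_sum fun x _ => Finset.sum_le_sum fun y _ => h1 x y).trans (le_of_eq ?_)
  simp only [← Finset.mul_sum]
  congr 1
  rw [Finset.sum_congr rfl fun x _ => Finset.sum_comm, Finset.sum_comm]

theorem hs2_smul (c : ℝ) (A : Mx Q) : hs2 (c • A) = c ^ 2 * hs2 A := by
  unfold hs2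
  simp only [Matrix.smul_apply, smul_eq_mul, mul_pow, Finset.mul_sum]

end one

section asm

variable {Q : ℕ} [NeZero Q]

/-- assembled box of side `2^i N` -/
noncomputable def AB (N i : ℕ) (L : Lt Q (ZMod Q)) (q p : ZMod Q) : Mx Q :=
  ∑ s ∈ range (2 ^ i), RB N L i (q + (s : ZMod Q) * (N : ZMod Q)) p

/-- value in a sub window -/
theorem val_sub_mul {N i s : ℕ} (h : 2 ^ i * N ≤ Q) (hs : s < 2 ^ i) (q x : ZMod Q)
    (hx : (x - (q + (s : ZMod Q) * (N : ZMod Q))).val < N) :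
    (x - q).val = s * N + (x - (q + (s : ZMod Q) * (N : ZMod Q))).val := by
  have h1 : (s + 1) * N ≤ 2 ^ i * N := Nat.mul_le_mul_right N hs
  have h2 : (s + 1) * N = s * N + N := by ring
  have e : (s : ZMod Q) * (N : ZMod Q) = ((s * N : ℕ) : ZMod Q) := by push_cast; ring
  rw [e] at hx ⊢
  rw [val_sub_add x q (s * N) (by omega)] at hx ⊢
  split_ifs at hx ⊢ with h3
  · omega
  · omega

theorem orth_sub {N i s s' : ℕ} {L : Lt Q (ZMod Q)} (hL : RSup N L) (h : 2 ^ i * N ≤ Q)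
    (hs : s < 2 ^ i) (hs' : s' < 2 ^ i) (hne : s ≠ s') (q p : ZMod Q) :
    (RB N L i (q + (s : ZMod Q) * (N : ZMod Q)) p)ᵀ *
      RB N L i (q + (s' : ZMod Q) * (N : ZMod Q)) p = 0 := by
  ext y z
  rw [Matrix.mul_apply, Matrix.zero_apply]
  refine Finset.sum_eq_zero fun x _ => ?_
  rw [transpose_apply]
  by_cases h1 : N ≤ (x - (q + (s : ZMod Q) * (N : ZMod Q))).val
  · rw [RB_rsupp hL i _ p x y h1, zero_mul]
  by_cases h2 : N ≤ (x - (q + (s' : ZMod Q) * (N : ZMod Q))).val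
  · rw [RB_rsupp hL i _ p x z h2, mul_zero]
  exfalso
  push Not at h1 h2
  have e1 := val_sub_mul h hs q x h1
  have e2 := val_sub_mul h hs' q x h2
  have hN : 0 < N := lt_of_le_of_lt (Nat.zero_le _) h1
  have d1 : (x - q).val / N = s := by
    rw [e1, mul_comm, Nat.mul_add_div hN, Nat.div_eq_of_lt h1, add_zero]
  have d2 : (x - q).val / N = s' := by
    rw [e2, mul_comm, Nat.mul_add_div hN, Nat.div_eq_of_lt h2, add_zero]
  exact hne (d1.symm.trans d2)

/-- the Gram array on the diagonal is the Gram matrix of the assembled box -/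
theorem gr_AB {N i : ℕ} {L : Lt Q (ZMod Q)} (hL : RSup N L) (h : 2 ^ i * N ≤ Q) (q p : ZMod Q) :
    gr N L i i q p = (1 / ((2 ^ i * N : ℕ) : ℝ) ^ 2) • ((AB N i L q p)ᵀ * AB N i L q p) := by
  unfold gr
  rw [← sq]
  congr 1
  unfold AB
  rw [Matrix.transpose_sum, Finset.sum_mul_sum]
  refine Finset.sum_congr rfl fun s hs => ?_
  rw [Finset.sum_eq_single s]
  · intro s' hs' hne
    exact orth_sub hL h (Finset.mem_range.1 hs) (Finset.mem_range.1 hs') hne.symm q p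
  · intro hn
    exact absurd hs hn

theorem AB_eq (N i : ℕ) (L : Lt Q (ZMod Q)) (q p : ZMod Q) : AB N i L q p =
    ∑ s ∈ range (2 ^ i), ∑ t ∈ range (2 ^ i),
      L (q + (s : ZMod Q) * (N : ZMod Q)) (p + (t : ZMod Q) * (N : ZMod Q)) := rfl

theorem AB_trL (N i : ℕ) (L : Lt Q (ZMod Q)) (q p : ZMod Q) :
    AB N i (trL L) q p = (AB N i L p q)ᵀ := by
  rw [AB_eq, AB_eq, Matrix.transpose_sum, Finset.sum_comm]
  refine Finset.sum_congr rfl fun s _ => ?_
  rw [Matrix.transpose_sum]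
  rfl

theorem AB_zero (N : ℕ) (L : Lt Q (ZMod Q)) (q p : ZMod Q) : AB N 0 L q p = L q p := by
  rw [AB_eq]
  simp

theorem ind_pow (N i : ℕ) (h : 2 ^ i * N ≤ Q) (p x : ZMod Q) :
    ind (2 ^ i * N) p x = ∑ s ∈ range (2 ^ i), ind N (p + (s : ZMod Q) * (N : ZMod Q)) x := by
  induction i generalizing p with
  | zero => simp
  | succ i ih =>
    have h1 : 2 * (2 ^ i * N) ≤ Q := by
      rw [← mul_assoc, ← pow_succ']
      exact h
    have e : 2 ^ (i + 1) * N = 2 * (2 ^ i * N) := by rw [pow_succ']; ring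
    rw [e, ind_two _ h1, ih (by omega), ih (by omega), pow_succ, mul_two, Finset.sum_range_add]
    congr 1
    refine Finset.sum_congr rfl fun s _ => ?_
    congr 1
    push_cast
    ring

theorem box_split (F : Mx Q) {N i : ℕ} (h : 2 ^ i * N ≤ Q) (q p : ZMod Q) :
    box F (2 ^ i * N) q p = ∑ s ∈ range (2 ^ i), ∑ t ∈ range (2 ^ i),
      box F N (q + (s : ZMod Q) * (N : ZMod Q)) (p + (t : ZMod Q) * (N : ZMod Q)) := by
  ext x y
  rw [box_apply, ind_pow N i h, ind_pow N i h, Matrix.sum_apply, Finset.sum_mul, Finset.sum_mul]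
  refine Finset.sum_congr rfl fun s _ => ?_
  rw [Matrix.sum_apply, Finset.mul_sum]
  refine Finset.sum_congr rfl fun t _ => ?_
  rw [box_apply]

theorem AB_fl (X : ℕ → Mx Q) (m i : ℕ) (h : 2 ^ (m + i) ≤ Q) (q p : ZMod Q) :
    AB (2 ^ m) i (fl X m) q p = box (X m) (2 ^ (m + i)) q p := by
  have e : 2 ^ (m + i) = 2 ^ i * 2 ^ m := by rw [pow_add, mul_comm]
  rw [e] at h ⊢
  rw [box_split _ h, AB_eq]
  rfl

end asm

section killer

variable {Q : ℕ} [NeZero Q] {C : Mx Q} {al : ℕ → ZMod Q → ZMod Q → Prop}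
  {R : ℕ → ZMod Q → ZMod Q → Mx Q} {w : ℕ → ZMod Q → ZMod Q → ℝ} {k M : ℕ} {n : ℝ}

theorem st_eq (m a : ℕ) : (st m a : ZMod Q) = (a : ZMod Q) * ((2 ^ m : ℕ) : ZMod Q) := by
  unfold st
  push_cast
  ring

theorem kl_RSup (hK : Kil C al R w k M n) (m : ℕ) : RSup (2 ^ m) (kl C al R m) :=
  (CR371y.kl_sup C al R m fun q p u v h => hK.supp m q p u v h).2

theorem kl_CSup (hK : Kil C al R w k M n) (m : ℕ) : CSup (2 ^ m) (kl C al R m) :=
  (CR371y.kl_sup C al R m fun q p u v h => hK.supp m q p u v h).1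

theorem I1_box (F : Mx Q) (L : ℕ) (q p : ZMod Q) : I1 L q * box F L q p = box F L q p := by
  ext x y
  rw [I1_eq, diagonal_mul, box_apply, ← mul_assoc, ← mul_assoc, ind_sq]

open Classical in
/-- missing pieces of the killer -/
noncomputable def mis (C : Mx Q) (al : ℕ → ZMod Q → ZMod Q → Prop)
    (R : ℕ → ZMod Q → ZMod Q → Mx Q) (m i : ℕ) (q p : ZMod Q) : Mx Q :=
  ∑ s ∈ range (2 ^ i), ∑ t ∈ range (2 ^ i),
    if al m (q + st m s) (p + st m t) then 0 else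
      R m (q + st m s) (p + st m t) * box C (2 ^ m) (q + st m s) (p + st m t)

theorem AB_kl (m i : ℕ) (q p : ZMod Q) : AB (2 ^ m) i (kl C al R m) q p =
    ∑ s ∈ range (2 ^ i), ∑ t ∈ range (2 ^ i), kl C al R m (q + st m s) (p + st m t) := by
  rw [AB_eq]
  refine Finset.sum_congr rfl fun s _ => Finset.sum_congr rfl fun t _ => ?_
  rw [st_eq, st_eq]

open Classical in
theorem kil_new (hK : Kil C al R w k M n) {m i : ℕ} (hm : m + i < M) (hQ : 2 ^ (m + i) ≤ Q)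
    {q p : ZMod Q} (ha : al (m + i) q p) :
    kl C al R (m + i) q p =
      R (m + i) q p * (AB (2 ^ m) i (kl C al R m) q p + mis C al R m i q p) := by
  have e : 2 ^ (m + i) = 2 ^ i * 2 ^ m := by rw [pow_add, mul_comm]
  have h1 : kl C al R (m + i) q p = R (m + i) q p * box C (2 ^ (m + i)) q p := by
    unfold kl
    rw [if_pos ha]
  have hQ' := hQ
  rw [e] at hQ'
  rw [h1, e, box_split C hQ', AB_kl]
  unfold mis
  rw [← Finset.sum_add_distrib, Finset.mul_sum, Finset.mul_sum]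
  refine Finset.sum_congr rfl fun s hs => ?_
  rw [← Finset.sum_add_distrib, Finset.mul_sum, Finset.mul_sum]
  refine Finset.sum_congr rfl fun t ht => ?_
  have hs' := Finset.mem_range.1 hs
  have ht' := Finset.mem_range.1 ht
  rw [← st_eq, ← st_eq]
  have h2 : kl C al R m (q + st m s) (p + st m t) +
      (if al m (q + st m s) (p + st m t) then 0 else
      R m (q + st m s) (p + st m t) * box C (2 ^ m) (q + st m s) (p + st m t)) =
      R m (q + st m s) (p + st m t) * box C (2 ^ m) (q + st m s) (p + st m t) := by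
    unfold kl
    split_ifs
    · rw [add_zero]
    · rw [zero_add]
  rw [h2, ← Matrix.mul_assoc, ← hK.nest m i hm q p s hs' t ht', Matrix.mul_assoc, I1_box]

/-- pieces seen from the big space -/
theorem kil_piece (hK : Kil C al R w k M n) {m i : ℕ} (hm : m + i < M) (q p : ZMod Q) {s t : ℕ}
    (hs : s < 2 ^ i) (ht : t < 2 ^ i) :
    R (m + i) q p * (R m (q + st m s) (p + st m t) *
      box C (2 ^ m) (q + st m s) (p + st m t)) =
    R (m + i) q p * box C (2 ^ m) (q + st m s) (p + st m t) := by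
  rw [← Matrix.mul_assoc, ← hK.nest m i hm q p s hs t ht, Matrix.mul_assoc, I1_box]

theorem hs2_nn (A : Mx Q) : 0 ≤ hs2 A :=
  Finset.sum_nonneg fun _ _ => Finset.sum_nonneg fun _ _ => sq_nonneg _

theorem hs2_zero : hs2 (0 : Mx Q) = 0 := by
  unfold hs2
  simp

/-- double sums of pieces -/
theorem hs2_dsum (i : ℕ) (A : ℕ → ℕ → Mx Q) {c : ℝ} (hc : ∀ s < 2 ^ i, ∀ t < 2 ^ i, hs2 (A s t) ≤ c) :
    hs2 (∑ s ∈ range (2 ^ i), ∑ t ∈ range (2 ^ i), A s t) ≤ 16 ^ i * c := by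
  rw [← Finset.sum_product']
  refine (hs2_sum_le _ _).trans ?_
  have h1 : ∑ x ∈ range (2 ^ i) ×ˢ range (2 ^ i), hs2 (A x.1 x.2) ≤
      ∑ _x ∈ range (2 ^ i) ×ˢ range (2 ^ i), c := by
    refine Finset.sum_le_sum fun x hx => ?_
    rw [Finset.mem_product, Finset.mem_range, Finset.mem_range] at hx
    exact hc _ hx.1 _ hx.2
  rw [Finset.sum_const, nsmul_eq_mul] at h1
  rw [Finset.card_product, Finset.card_range] at h1 ⊢
  have h2 : (0 : ℝ) ≤ ((2 ^ i * 2 ^ i : ℕ) : ℝ) := Nat.cast_nonneg _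
  refine (mul_le_mul_of_nonneg_left h1 h2).trans (le_of_eq ?_)
  push_cast
  have : (16 : ℝ) ^ i = 2 ^ i * 2 ^ i * (2 ^ i * 2 ^ i) := by
    rw [← mul_pow, ← mul_pow]
    norm_num
  rw [this]
  ring

theorem hs2_old (hK : Kil C al R w k M n) {m i : ℕ} (hm : m + i < M) {q p : ZMod Q}
    (ha : al (m + i) q p) :
    hs2 (R (m + i) q p * AB (2 ^ m) i (kl C al R m) q p) ≤ 16 ^ i * (4 ^ (m + i) * w (m + i) q p) := by
  rw [AB_kl, Finset.mul_sum, Finset.sum_congr rfl fun s _ => Finset.mul_sum _ _ _]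
  refine hs2_dsum i _ fun s hs t ht => ?_
  unfold kl
  split_ifs
  · rw [kil_piece hK hm q p hs ht]
    exact hK.hs m i hm q p ha s hs t ht
  · rw [Matrix.mul_zero, hs2_zero]
    have := hK.w0 (m + i) q p
    positivity

theorem hs2_mis (hK : Kil C al R w k M n) {m i : ℕ} (hm : m + i < M) {q p : ZMod Q}
    (ha : al (m + i) q p) :
    hs2 (R (m + i) q p * mis C al R m i q p) ≤ 16 ^ i * (4 ^ (m + i) * w (m + i) q p) := by
  unfold mis
  rw [Finset.mul_sum, Finset.sum_congr rfl fun s _ => Finset.mul_sum _ _ _]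
  refine hs2_dsum i _ fun s hs t ht => ?_
  split_ifs
  · rw [Matrix.mul_zero, hs2_zero]
    have := hK.w0 (m + i) q p
    positivity
  · rw [kil_piece hK hm q p hs ht]
    exact hK.hs m i hm q p ha s hs t ht

/-- no exit: nothing is missing -/
theorem mis_zero {m i : ℕ} {q p : ZMod Q} (ha : al (m + i) q p) (he : ¬ Exit al i m q p) :
    mis C al R m i q p = 0 := by
  unfold mis
  refine Finset.sum_eq_zero fun s hs => Finset.sum_eq_zero fun t ht => ?_
  rw [if_pos]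
  by_contra hn
  exact he ⟨ha, s, Finset.mem_range.1 hs, t, Finset.mem_range.1 ht, hn⟩

/-- norm of the killer letters -/
theorem opn_kl (hK : Kil C al R w k M n) {m : ℕ} (hm : m < M) (q p : ZMod Q) :
    Opn (((2 ^ m : ℕ) : ℝ)) (kl C al R m q p) := by
  unfold kl
  split_ifs with ha
  · have h1 := (opn_pr (hK.pr m q p)).mul (opn_of (hK.op m hm q p ha))
    rw [one_mul] at h1
    push_cast
    exact h1
  · intro v
    rw [zero_mulVec, dotProduct_zero]
    exact mul_nonneg (sq_nonneg _) (dsn v)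

/-- norm of the assembled killer -/
theorem opn_AB (hK : Kil C al R w k M n) {m i : ℕ} (hm : m < M) (q p : ZMod Q) :
    Opn (2 ^ i * ((2 ^ (m + i) : ℕ) : ℝ)) (AB (2 ^ m) i (kl C al R m) q p) := by
  rw [AB_kl, ← Finset.sum_product']
  have h1 := opn_sum (range (2 ^ i) ×ˢ range (2 ^ i))
    (fun x => kl C al R m (q + st m x.1) (p + st m x.2)) (((2 ^ m : ℕ) : ℝ)) (Nat.cast_nonneg _)
    fun x _ => opn_kl hK hm _ _
  have e : ((range (2 ^ i) ×ˢ range (2 ^ i)).card : ℝ) * ((2 ^ m : ℕ) : ℝ) =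
      2 ^ i * ((2 ^ (m + i) : ℕ) : ℝ) := by
    rw [Finset.card_product, Finset.card_range]
    push_cast
    rw [pow_add]
    ring
  rwa [e] at h1

open Classical in
/-- **the killer goes up**, own variable = rows -/
theorem kil_step (hK : Kil C al R w k M n) {m i : ℕ} (hm : m + i < M) (hQ : 2 ^ (m + i) ≤ Q)
    (q p : ZMod Q) {G : Mx Q} (hG : G.PosSemidef) (hG1 : ∀ v, v ⬝ᵥ (G *ᵥ v) ≤ v ⬝ᵥ v)
    (hfix : al (m + i) q p → R (m + i) q p * G * R (m + i) q p = G) :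
    phi ((1 / ((2 ^ (m + i) : ℕ) : ℝ) ^ 2) • (kl C al R (m + i) q p *
        (kl C al R (m + i) q p)ᵀ) + G) ≤
      phi ((1 / ((2 ^ (m + i) : ℕ) : ℝ) ^ 2) • (AB (2 ^ m) i (kl C al R m) q p *
        (AB (2 ^ m) i (kl C al R m) q p)ᵀ) + G) +
      (if Exit al i m q p then 9 * 16 ^ i * w (m + i) q p else 0) := by
  have hw := hK.w0 (m + i) q p
  set N : ℝ := ((2 ^ (m + i) : ℕ) : ℝ) with hNd
  have hN : 0 < N := by rw [hNd]; positivity
  set O := AB (2 ^ m) i (kl C al R m) q p with hO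
  have hOp : ((1 / N ^ 2) • (O * Oᵀ) + G).PosSemidef :=
    ((CRex250.psd_mt O).smul (by positivity)).add hG
  by_cases ha : al (m + i) q p
  swap
  · have h0 : kl C al R (m + i) q p = 0 := by
      unfold kl
      rw [if_neg ha]
    rw [h0, Matrix.zero_mul, smul_zero, zero_add]
    have h1 : phi G ≤ phi ((1 / N ^ 2) • (O * Oᵀ) + G) := by
      refine phi_mono hG hOp ?_
      rw [add_sub_cancel_right]
      exact (CRex250.psd_mt O).smul (by positivity)
    have h2 : (0 : ℝ) ≤ (if Exit al i m q p then 9 * 16 ^ i * w (m + i) q p else 0) := by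
      split_ifs
      · positivity
      · exact le_rfl
    linarith
  set P := R (m + i) q p with hP
  set D := mis C al R m i q p with hD
  have hPr : IsPr P := hK.pr _ _ _
  have hnew : kl C al R (m + i) q p = P * (O + D) := kil_new hK hm hQ ha
  have hsc : ∀ A B : Mx Q, ((1 / N) • A) * ((1 / N) • B)ᵀ = (1 / N ^ 2) • (A * Bᵀ) := by
    intro A B
    rw [transpose_smul, smul_mul_smul_comm]
    congr 1
    field_simp
  have e1 : P * ((1 / N) • O + (1 / N) • D) = (1 / N) • kl C al R (m + i) q p := by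
    rw [← smul_add, Matrix.mul_smul, hnew]
  have hQF : QF ((P * ((1 / N) • O + (1 / N) • D)) * (P * ((1 / N) • O + (1 / N) • D))ᵀ + G)
      4 := by
    rw [e1, hsc]
    intro v
    rw [add_mulVec, dotProduct_add, smul_mulVec, dotProduct_smul, smul_eq_mul]
    have h1 := ((opn_kl hK hm q p).tr).gram v
    rw [transpose_transpose] at h1
    have h2 := hG1 v
    have h3 : 1 / N ^ 2 * (v ⬝ᵥ ((kl C al R (m + i) q p * (kl C al R (m + i) q p)ᵀ) *ᵥ v)) ≤
        v ⬝ᵥ v := by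
      calc 1 / N ^ 2 * (v ⬝ᵥ ((kl C al R (m + i) q p * (kl C al R (m + i) q p)ᵀ) *ᵥ v)) ≤
          1 / N ^ 2 * (N ^ 2 * (v ⬝ᵥ v)) := mul_le_mul_of_nonneg_left h1 (by positivity)
        _ = _ := by field_simp
    have h4 := dsn v
    linarith
  have key := phi_row hPr ((1 / N) • O) ((1 / N) • D) hG (hfix ha) (by norm_num : (0 : ℝ) ≤ 4) hQF
  rw [e1, hsc, hsc] at key
  have hs4 : Real.sqrt 4 = 2 := by
    rw [show (4 : ℝ) = 2 ^ 2 by norm_num]
    exact Real.sqrt_sq (by norm_num)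
  rw [hs4] at key
  have hX : hs2 (P * ((1 / N) • O)) ≤ 16 ^ i * w (m + i) q p := by
    rw [Matrix.mul_smul, hs2_smul]
    have h1 := hs2_old hK hm ha
    have e2 : (4 : ℝ) ^ (m + i) = N ^ 2 := by
      rw [hNd]
      push_cast
      rw [← pow_mul, mul_comm (m + i) 2, pow_mul]
      norm_num
    rw [e2] at h1
    calc (1 / N) ^ 2 * hs2 (P * O) ≤ (1 / N) ^ 2 * (16 ^ i * (N ^ 2 * w (m + i) q p)) :=
          mul_le_mul_of_nonneg_left h1 (by positivity)
      _ = _ := by field_simp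
  by_cases he : Exit al i m q p
  · rw [if_pos he]
    have hDD : hs2 (P * ((1 / N) • D)) ≤ 16 ^ i * w (m + i) q p := by
      rw [Matrix.mul_smul, hs2_smul]
      have h1 := hs2_mis hK hm ha
      have e2 : (4 : ℝ) ^ (m + i) = N ^ 2 := by
        rw [hNd]
        push_cast
        rw [← pow_mul, mul_comm (m + i) 2, pow_mul]
        norm_num
      rw [e2] at h1
      calc (1 / N) ^ 2 * hs2 (P * D) ≤ (1 / N) ^ 2 * (16 ^ i * (N ^ 2 * w (m + i) q p)) :=
            mul_le_mul_of_nonneg_left h1 (by positivity)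
        _ = _ := by field_simp
    have h5 : 2 * (hsn (P * ((1 / N) • O)) * hsn (P * ((1 / N) • D))) ≤
        hs2 (P * ((1 / N) • O)) + hs2 (P * ((1 / N) • D)) := by
      rw [← PotL.hsn_sq, ← PotL.hsn_sq]
      nlinarith [sq_nonneg (hsn (P * ((1 / N) • O)) - hsn (P * ((1 / N) • D)))]
    nlinarith
  · have hD0 : D = 0 := mis_zero ha he
    rw [if_neg he, add_zero]
    rw [hD0, smul_zero, Matrix.mul_zero, PotL.hsn_zero, hs2_zero] at key
    linarith

end killer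

section grams

variable {Q : ℕ} [NeZero Q] {C : Mx Q} {al : ℕ → ZMod Q → ZMod Q → Prop}
  {R : ℕ → ZMod Q → ZMod Q → Mx Q} {w : ℕ → ZMod Q → ZMod Q → ℝ} {k M : ℕ} {n : ℝ}

theorem gr_fl (X : ℕ → Mx Q) {m i : ℕ} (h : 2 ^ (m + i) ≤ Q) (q p : ZMod Q) :
    gr (2 ^ m) (fl X m) i i q p = (1 / ((2 ^ (m + i) : ℕ) : ℝ) ^ 2) •
      ((box (X m) (2 ^ (m + i)) q p)ᵀ * box (X m) (2 ^ (m + i)) q p) := by
  have e : 2 ^ (m + i) = 2 ^ i * 2 ^ m := by rw [pow_add, mul_comm]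
  rw [gr_AB (CR371y.fl_sup X m).2 (e ▸ h), AB_fl X m i h, e]

theorem gr_fl0 (X : ℕ → Mx Q) {m : ℕ} (h : 2 ^ m ≤ Q) (q p : ZMod Q) :
    gr (2 ^ m) (fl X m) 0 0 q p = (1 / ((2 ^ m : ℕ) : ℝ) ^ 2) •
      ((box (X m) (2 ^ m) q p)ᵀ * box (X m) (2 ^ m) q p) :=
  gr_fl X (i := 0) h q p

theorem gr_kl (hK : Kil C al R w k M n) {m i : ℕ} (h : 2 ^ (m + i) ≤ Q) (q p : ZMod Q) :
    gr (2 ^ m) (trL (kl C al R m)) i i q p = (1 / ((2 ^ (m + i) : ℕ) : ℝ) ^ 2) •
      (AB (2 ^ m) i (kl C al R m) p q * (AB (2 ^ m) i (kl C al R m) p q)ᵀ) := by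
  have e : 2 ^ (m + i) = 2 ^ i * 2 ^ m := by rw [pow_add, mul_comm]
  rw [gr_AB (trL_RSup (kl_CSup hK m)) (e ▸ h), AB_trL, transpose_transpose, e]

theorem gr_kl0 (hK : Kil C al R w k M n) {m : ℕ} (h : 2 ^ m ≤ Q) (q p : ZMod Q) :
    gr (2 ^ m) (trL (kl C al R m)) 0 0 q p = (1 / ((2 ^ m : ℕ) : ℝ) ^ 2) •
      (kl C al R m p q * (kl C al R m p q)ᵀ) := by
  have := gr_kl hK (i := 0) h q p
  rw [AB_zero] at this
  exact this

/-- the new band is fixed by the window projection -/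
theorem box_fix {X : ℕ → Mx Q} (hfix : FixB R X M 8) (hsupp : ∀ m q p u v, R m q p u v ≠ 0 →
    win (2 ^ m) q u ∧ win (2 ^ m) q v) {m : ℕ} (hm : m < M) (hQ : 2 ^ m ≤ Q) {q p q' : ZMod Q}
    {t : ℤ} (ht : |t| ≤ 7 * 2 ^ m) (hq : q = -p - q' + (t : ZMod Q)) :
    box (X m) (2 ^ m) q p * R m p q' = box (X m) (2 ^ m) q p := by
  ext x y
  rw [Matrix.mul_apply, box_apply]
  by_cases hx : win (2 ^ m) q x
  swap
  · have h0 : ind (2 ^ m) q x = 0 := if_neg hx
    rw [h0, zero_mul, zero_mul]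
    refine Finset.sum_eq_zero fun u _ => ?_
    rw [box_apply, h0, zero_mul, zero_mul, zero_mul]
  have h1 : ind (2 ^ m) q x = 1 := if_pos hx
  have h2 : ∀ u, box (X m) (2 ^ m) q p x u * R m p q' u y = X m x u * R m p q' u y := by
    intro u
    rw [box_apply, h1, one_mul]
    by_cases hu : R m p q' u y = 0
    · rw [hu, mul_zero, mul_zero]
    · have h3 : ind (2 ^ m) p u = 1 := if_pos (hsupp m p q' u y hu).1
      rw [h3, mul_one]
  rw [Finset.sum_congr rfl fun u _ => h2 u, h1, one_mul]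
  by_cases hy : win (2 ^ m) p y
  · have h4 : ind (2 ^ m) p y = 1 := if_pos hy
    rw [h4, mul_one]
    refine hfix m hm x p q' ⟨t + ((x - q).val : ℤ), ?_, ?_⟩ y hy
    · have hx' : (x - q).val < 2 ^ m := hx
      have hx2 : ((x - q).val : ℤ) < 2 ^ m := by exact_mod_cast hx'
      have hx3 : (0 : ℤ) ≤ ((x - q).val : ℤ) := Int.natCast_nonneg _
      rw [abs_le] at ht ⊢
      push_cast
      constructor <;> omega
    · push_cast
      rw [ZMod.natCast_zmod_val]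
      rw [show -p - q' + ((t : ZMod Q) + (x - q)) = (-p - q' + (t : ZMod Q)) + (x - q) by ring,
        ← hq]
      ring
  · have h4 : ind (2 ^ m) p y = 0 := if_neg hy
    rw [h4, mul_zero]
    refine Finset.sum_eq_zero fun u _ => ?_
    have : R m p q' u y = 0 := by
      by_contra h
      exact hy (hsupp m p q' u y h).2
    rw [this, mul_zero]

theorem opn_fl {X : ℕ → Mx Q} (hF : Fl k M n X) {m i : ℕ} (hi : i ≤ k) (hm : m + i < M)
    (q p : ZMod Q) : Opn (((2 ^ (m + i) : ℕ) : ℝ)) (box (X m) (2 ^ (m + i)) q p) := by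
  have := opn_of (hF.op m i hi hm q p)
  push_cast
  exact this

open Classical in
/-- exit price -/
noncomputable def ep (al : ℕ → ZMod Q → ZMod Q → Prop) (w : ℕ → ZMod Q → ZMod Q → ℝ) (i m : ℕ)
    (q p : ZMod Q) : ℝ := if Exit al i m q p then w (m + i) q p else 0

open Classical in
/-- **joint step in one pair of windows** -/
theorem joint_pt {X : ℕ → Mx Q} (hF : Fl k M n X) (hK : Kil C al R w k M n)
    (hfix : FixB R X M 8) {m i : ℕ} (hi : i ≤ k) (hm : m + i < M) (hQ : 2 ^ (m + i) ≤ Q)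
    {q p q' : ZMod Q} {v : ℝ} (hv : TrN (box (X (m + i)) (2 ^ (m + i)) q p -
      box (X m) (2 ^ (m + i)) q p) (2 ^ (m + i) * v)) {t : ℤ} (ht : |t| ≤ 7 * 2 ^ (m + i))
    (hq : q = -p - q' + (t : ZMod Q)) :
    phi (gr (2 ^ (m + i)) (fl X (m + i)) 0 0 q p +
        gr (2 ^ (m + i)) (trL (kl C al R (m + i))) 0 0 q' p) ≤
      phi (gr (2 ^ m) (fl X m) i i q p + gr (2 ^ m) (trL (kl C al R m)) i i q' p) +
        3 * (1 + 2 ^ i) * v + 9 * 16 ^ i * ep al w i m p q' := by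
  rw [gr_fl0 X hQ, gr_kl0 hK hQ, gr_fl X hQ, gr_kl hK hQ]
  set N : ℕ := 2 ^ (m + i) with hNd
  have hN : 0 < N := by positivity
  have hNr : (0 : ℝ) < (N : ℝ) := by exact_mod_cast hN
  set A := box (X (m + i)) N q p with hA
  set A' := box (X m) N q p with hA'
  set O := AB (2 ^ m) i (kl C al R m) p q' with hO
  have hAo : Opn (N : ℝ) A := by
    exact opn_fl hF (m := m + i) (i := 0) (Nat.zero_le _) (by omega) q p
  have hG : ((1 / (N : ℝ) ^ 2) • (Aᵀ * A)).PosSemidef := (psd_gram A).smul (by positivity)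
  have hG1 : ∀ v, v ⬝ᵥ (((1 / (N : ℝ) ^ 2) • (Aᵀ * A)) *ᵥ v) ≤ v ⬝ᵥ v := by
    intro v
    rw [smul_mulVec, dotProduct_smul, smul_eq_mul]
    calc 1 / (N : ℝ) ^ 2 * (v ⬝ᵥ ((Aᵀ * A) *ᵥ v)) ≤
        1 / (N : ℝ) ^ 2 * ((N : ℝ) ^ 2 * (v ⬝ᵥ v)) :=
          mul_le_mul_of_nonneg_left (hAo.gram v) (by positivity)
      _ = _ := by field_simp
  have hfx : R (m + i) p q' * ((1 / (N : ℝ) ^ 2) • (Aᵀ * A)) * R (m + i) p q' =
      (1 / (N : ℝ) ^ 2) • (Aᵀ * A) := by
    have h1 : A * R (m + i) p q' = A := box_fix hfix hK.supp hm hQ ht hq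
    have h2 : R (m + i) p q' * Aᵀ = Aᵀ := by
      have := congrArg transpose h1
      rwa [transpose_mul, (hK.pr (m + i) p q').symm] at this
    rw [Matrix.mul_smul, Matrix.smul_mul, ← Matrix.mul_assoc, h2, Matrix.mul_assoc, h1]
  have s1 := kil_step hK hm hQ p q' hG hG1 fun _ => hfx
  have hb : ((1 / (N : ℝ) ^ 2) • (O * Oᵀ)).PosSemidef :=
    (CRex250.psd_mt O).smul (by positivity)
  have hb' : ∀ v, v ⬝ᵥ (((1 / (N : ℝ) ^ 2) • (O * Oᵀ)) *ᵥ v) ≤ (2 ^ i) ^ 2 * (v ⬝ᵥ v) := by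
    intro v
    have h1 := ((opn_AB hK (m := m) (i := i) (by omega) p q').tr).gram v
    rw [transpose_transpose] at h1
    rw [smul_mulVec, dotProduct_smul, smul_eq_mul]
    calc 1 / (N : ℝ) ^ 2 * (v ⬝ᵥ ((O * Oᵀ) *ᵥ v)) ≤
        1 / (N : ℝ) ^ 2 * ((2 ^ i * (N : ℝ)) ^ 2 * (v ⬝ᵥ v)) :=
          mul_le_mul_of_nonneg_left h1 (by positivity)
      _ = _ := by field_simp
  have hv' : TrN (A - A') ((N : ℝ) * v) := by
    have e : (N : ℝ) = 2 ^ (m + i) := by rw [hNd]; push_cast; ring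
    rw [e]
    exact hv
  have s2 := phi_mv hN hb (β := 2 ^ i) (by positivity) hAo hb' hv'
  have e1 : (if Exit al i m p q' then 9 * 16 ^ i * w (m + i) p q' else 0) =
      9 * 16 ^ i * ep al w i m p q' := by
    unfold ep
    split_ifs
    · rfl
    · rw [mul_zero]
  rw [e1] at s1
  have c1 : (1 / (N : ℝ) ^ 2) • (Aᵀ * A) + (1 / (N : ℝ) ^ 2) • (kl C al R (m + i) p q' *
      (kl C al R (m + i) p q')ᵀ) = (1 / (N : ℝ) ^ 2) • (kl C al R (m + i) p q' *
      (kl C al R (m + i) p q')ᵀ) + (1 / (N : ℝ) ^ 2) • (Aᵀ * A) := add_comm _ _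
  have c2 : (1 / (N : ℝ) ^ 2) • (Aᵀ * A) + (1 / (N : ℝ) ^ 2) • (O * Oᵀ) =
      (1 / (N : ℝ) ^ 2) • (O * Oᵀ) + (1 / (N : ℝ) ^ 2) • (Aᵀ * A) := add_comm _ _
  rw [c1]
  rw [c2] at s2
  linarith

/-- own step of the function letter -/
theorem own_fl {X : ℕ → Mx Q} (hF : Fl k M n X) {m i : ℕ} (hi : i ≤ k) (hm : m + i < M)
    (hQ : 2 ^ (m + i) ≤ Q) {q p : ZMod Q} {v : ℝ} (hv : TrN (box (X (m + i)) (2 ^ (m + i)) q p -
      box (X m) (2 ^ (m + i)) q p) (2 ^ (m + i) * v)) :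
    phi (gr (2 ^ (m + i)) (fl X (m + i)) 0 0 q p) ≤ phi (gr (2 ^ m) (fl X m) i i q p) + 3 * v := by
  rw [gr_fl0 X hQ, gr_fl X hQ]
  set N : ℕ := 2 ^ (m + i) with hNd
  have hN : 0 < N := by positivity
  have hAo : Opn (N : ℝ) (box (X (m + i)) N q p) := by
    exact opn_fl hF (m := m + i) (i := 0) (Nat.zero_le _) (by omega) q p
  have hv' : TrN (box (X (m + i)) N q p - box (X m) N q p) ((N : ℝ) * v) := by
    have e : (N : ℝ) = 2 ^ (m + i) := by rw [hNd]; push_cast; ring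
    rw [e]
    exact hv
  have s := phi_mv hN (b := (0 : Mx Q)) PosSemidef.zero (β := 0) le_rfl hAo
    (fun v => by rw [zero_mulVec, dotProduct_zero]; simp) hv'
  rw [add_zero, add_zero, add_zero, mul_one] at s
  exact s

/-- own step of the killer -/
theorem own_kl (hK : Kil C al R w k M n) {m i : ℕ} (hm : m + i < M)
    (hQ : 2 ^ (m + i) ≤ Q) (q' p : ZMod Q) :
    phi (gr (2 ^ (m + i)) (trL (kl C al R (m + i))) 0 0 q' p) ≤
      phi (gr (2 ^ m) (trL (kl C al R m)) i i q' p) + 9 * 16 ^ i * ep al w i m p q' := by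
  rw [gr_kl0 hK hQ, gr_kl hK hQ]
  have s := kil_step hK hm hQ p q' (G := (0 : Mx Q)) PosSemidef.zero
    (fun v => by rw [zero_mulVec, dotProduct_zero]; exact dsn v) (fun _ => by simp)
  rw [add_zero, add_zero] at s
  refine s.trans (le_of_eq ?_)
  unfold ep
  split_ifs
  · rfl
  · rw [mul_zero]

end grams

section sums

variable {Q : ℕ} [NeZero Q] {C : Mx Q} {al : ℕ → ZMod Q → ZMod Q → Prop}
  {R : ℕ → ZMod Q → ZMod Q → Mx Q} {w : ℕ → ZMod Q → ZMod Q → ℝ} {k M : ℕ} {n : ℝ}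

theorem bl_blk {f g : ZMod Q → ℝ} {N : ℕ} (hN : 0 < N) (l : ℤ) (c : ℝ)
    (h : ∀ i < N, f ((l : ZMod Q) * (N : ZMod Q) + (i : ZMod Q)) ≤
      g ((l : ZMod Q) * (N : ZMod Q) + (i : ZMod Q)) + c) : bl f N l ≤ bl g N l + c := by
  have hN' : (0 : ℝ) < N := by exact_mod_cast hN
  unfold bl
  have h1 : ∑ i ∈ range N, f ((l : ZMod Q) * (N : ZMod Q) + (i : ZMod Q)) ≤
      ∑ i ∈ range N, (g ((l : ZMod Q) * (N : ZMod Q) + (i : ZMod Q)) + c) :=
    Finset.sum_le_sum fun i hi => h i (Finset.mem_range.1 hi)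
  rw [Finset.sum_add_distrib, Finset.sum_const, Finset.card_range, nsmul_eq_mul] at h1
  have h2 := mul_le_mul_of_nonneg_left h1 (by positivity : (0 : ℝ) ≤ 1 / N)
  refine h2.trans (le_of_eq ?_)
  rw [mul_add]
  congr 1
  field_simp

theorem ep_nonneg (hK : Kil C al R w k M n) (i m : ℕ) (q p : ZMod Q) : 0 ≤ ep al w i m q p := by
  unfold ep
  split_ifs
  · exact hK.w0 _ _ _
  · exact le_rfl

/-- joint step between two consecutive scales -/
theorem VJ_step {X : ℕ → Mx Q} (hF : Fl k M n X) (hK : Kil C al R w k M n)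
    (hfix : FixB R X M 8) {m : ℕ} (hk : 1 ≤ k) (hm : m + 1 < M) (hQ : 2 ^ (m + 1) ≤ Q)
    {v : ZMod Q → ZMod Q → ℝ} (hv : ∀ q p, TrN (box (X (m + 1)) (2 ^ (m + 1)) q p -
      box (X m) (2 ^ (m + 1)) q p) (2 ^ (m + 1) * v q p)) :
    VJ (fl X) (fun m => trL (kl C al R m)) (m + 1) 0 ≤
      VJ (fl X) (fun m => trL (kl C al R m)) m 1 +
        (9 * ∑ q, ∑ p, v q p + 144 * ∑ q, ∑ p, ep al w 1 m q p) := by
  unfold VJ VV
  have e0 : 2 ^ 0 * 2 ^ (m + 1) = 2 ^ (m + 1) := by ring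
  have e1 : 2 ^ 1 * 2 ^ m = 2 ^ (m + 1) := by ring
  rw [e0, e1]
  have hN : 0 < 2 ^ (m + 1) := by positivity
  refine bl_blk hN (-2) _ fun i0 hi0 => ?_
  set T : ZMod Q := ((-2 : ℤ) : ZMod Q) * ((2 ^ (m + 1) : ℕ) : ZMod Q) + (i0 : ZMod Q) with hT
  have hTz : T = ((-2 * 2 ^ (m + 1) + i0 : ℤ) : ZMod Q) := by
    rw [hT]; push_cast; ring
  have hb : |(-2 * 2 ^ (m + 1) + i0 : ℤ)| ≤ 7 * 2 ^ (m + 1) := by
    have h1 : (i0 : ℤ) < 2 ^ (m + 1) := by exact_mod_cast hi0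
    have h2 : (0 : ℤ) ≤ (i0 : ℤ) := Int.natCast_nonneg _
    rw [abs_le]
    constructor <;> omega
  have hpt : ∀ p q : ZMod Q,
      phi (gr (2 ^ (m + 1)) (fl X (m + 1)) 0 0 q p +
        gr (2 ^ (m + 1)) (trL (kl C al R (m + 1))) 0 0 (T - p - q) p) ≤
      phi (gr (2 ^ m) (fl X m) 1 1 q p + gr (2 ^ m) (trL (kl C al R m)) 1 1 (T - p - q) p) +
        9 * v q p + 144 * ep al w 1 m p (T - p - q) := by
    intro p q
    have h := joint_pt hF hK hfix hk hm hQ (q := q) (p := p) (q' := T - p - q) (hv q p) hb (by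
      rw [← hTz]; ring)
    norm_num at h
    linarith
  have hsum : ∑ p : ZMod Q, ∑ q : ZMod Q, ep al w 1 m p (T - p - q) =
      ∑ q, ∑ p, ep al w 1 m q p := by
    refine Finset.sum_congr rfl fun p _ => ?_
    exact Equiv.sum_comp (Equiv.subLeft (T - p)) (fun q => ep al w 1 m p q)
  have hv' : ∑ p : ZMod Q, ∑ q : ZMod Q, v q p = ∑ q, ∑ p, v q p := Finset.sum_comm
  unfold WW
  refine (Finset.sum_le_sum fun p _ => Finset.sum_le_sum fun q _ => hpt p q).trans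
    (le_of_eq ?_)
  simp only [Finset.sum_add_distrib, ← Finset.mul_sum]
  rw [hsum, hv']
  ring

/-- own step between the scales `m` and `m + i` -/
theorem VO_step {X : ℕ → Mx Q} (hF : Fl k M n X) (hK : Kil C al R w k M n)
    {m i : ℕ} (hi : i ≤ k) (hm : m + i < M) (hQ : 2 ^ (m + i) ≤ Q)
    {v : ZMod Q → ZMod Q → ℝ} (hv : ∀ q p, TrN (box (X (m + i)) (2 ^ (m + i)) q p -
      box (X m) (2 ^ (m + i)) q p) (2 ^ (m + i) * v q p)) :
    VO (fl X) (fun m => trL (kl C al R m)) (m + i) 0 ≤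
      VO (fl X) (fun m => trL (kl C al R m)) m i +
        (3 * ∑ q, ∑ p, v q p + 9 * 16 ^ i * ∑ q, ∑ p, ep al w i m q p) := by
  unfold VO EB EO
  have h1 : ∑ p : ZMod Q, ∑ q : ZMod Q, phi (gr (2 ^ (m + i)) (fl X (m + i)) 0 0 q p) ≤
      ∑ p : ZMod Q, ∑ q : ZMod Q, (phi (gr (2 ^ m) (fl X m) i i q p) + 3 * v q p) :=
    Finset.sum_le_sum fun p _ => Finset.sum_le_sum fun q _ => own_fl hF hi hm hQ (hv q p)
  have h2 : ∑ p : ZMod Q, ∑ q : ZMod Q,
      phi (gr (2 ^ (m + i)) (trL (kl C al R (m + i))) 0 0 q p) ≤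
      ∑ p : ZMod Q, ∑ q : ZMod Q, (phi (gr (2 ^ m) (trL (kl C al R m)) i i q p) +
        9 * 16 ^ i * ep al w i m p q) :=
    Finset.sum_le_sum fun p _ => Finset.sum_le_sum fun q _ => own_kl hK hm hQ q p
  simp only [Finset.sum_add_distrib, ← Finset.mul_sum] at h1 h2
  have hv' : ∑ p : ZMod Q, ∑ q : ZMod Q, v q p = ∑ q, ∑ p, v q p := Finset.sum_comm
  rw [hv'] at h1
  linarith

/-! ### bottom values -/

theorem sum_ind {N : ℕ} (hN : N ≤ Q) (x : ZMod Q) : ∑ q : ZMod Q, ind N q x = N := by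
  have h1 : ∑ q : ZMod Q, ind N q x = ∑ d : ZMod Q, ind N 0 d := by
    rw [← Equiv.sum_comp (Equiv.subLeft x) (fun d => ind N 0 d)]
    refine Finset.sum_congr rfl fun q _ => ?_
    unfold ind
    rw [Equiv.subLeft_apply, sub_zero]
  have h2 := sum_win hN (0 : ZMod Q) (fun _ => (1 : ℝ))
  simp only [mul_one] at h2
  rw [h1, h2, Finset.sum_const, Finset.card_univ, Fintype.card_fin, nsmul_eq_mul, mul_one]

theorem sum_hs_box {N : ℕ} (hN : N ≤ Q) (F : Mx Q) :
    ∑ q, ∑ p, hs2 (box F N q p) = (N : ℝ) ^ 2 * ∑ x, ∑ y, F x y ^ 2 := by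
  have h1 : ∀ q p, hs2 (box F N q p) = ∑ x, ∑ y, ind N q x * ind N p y * F x y ^ 2 := by
    intro q p
    unfold hs2
    refine Finset.sum_congr rfl fun x _ => Finset.sum_congr rfl fun y _ => ?_
    rw [box_apply]
    have a := ind_sq N q x
    have b := ind_sq N p y
    calc (ind N q x * F x y * ind N p y) ^ 2 =
        (ind N q x * ind N q x) * (ind N p y * ind N p y) * F x y ^ 2 := by ring
      _ = _ := by rw [a, b]
  simp only [h1]
  rw [Finset.sum_congr rfl fun q _ => Finset.sum_comm, Finset.sum_comm, Finset.mul_sum]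
  refine Finset.sum_congr rfl fun x _ => ?_
  rw [Finset.sum_congr rfl fun q _ => Finset.sum_comm, Finset.sum_comm, Finset.mul_sum]
  refine Finset.sum_congr rfl fun y _ => ?_
  have e : ∑ q, ∑ p, ind N q x * ind N p y * F x y ^ 2 =
      (∑ q, ind N q x) * (∑ p, ind N p y) * F x y ^ 2 := by
    rw [Finset.sum_mul_sum]
    simp only [Finset.sum_mul]
  rw [e, sum_ind hN, sum_ind hN]
  ring

open Classical in
theorem hs_kl (hK : Kil C al R w k M n) {m : ℕ} (hm : m < M) (q p : ZMod Q) :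
    hs2 (kl C al R m q p) ≤ 4 ^ m * (if al m q p then w m q p else 0) := by
  unfold kl
  split_ifs with ha
  · have h := hK.hs m 0 (by omega) q p ha 0 (by norm_num) 0 (by norm_num)
    have e : (st m 0 : ZMod Q) = 0 := by unfold st; simp
    simp only [e, add_zero] at h
    exact h
  · rw [hs2_zero, mul_zero]

open Classical in
theorem sum_hs_kl (hK : Kil C al R w k M n) {m : ℕ} (hm : m < M) :
    ∑ q, ∑ p, hs2 (kl C al R m q p) ≤ 4 ^ m * n := by
  refine (Finset.sum_le_sum fun q _ => Finset.sum_le_sum fun p _ => hs_kl hK hm q p).trans ?_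
  simp only [← Finset.mul_sum]
  exact mul_le_mul_of_nonneg_left (hK.sw m hm) (by positivity)

theorem phi_own_fl {X : ℕ → Mx Q} (hF : Fl k M n X) {m : ℕ} (hm : m < M) (hQ : 2 ^ m ≤ Q)
    (q p : ZMod Q) {b : Mx Q} (hb : b.PosSemidef) (hb' : ∀ v, v ⬝ᵥ (b *ᵥ v) ≤ 1 ^ 2 * (v ⬝ᵥ v)) :
    phi (gr (2 ^ m) (fl X m) 0 0 q p + b) ≤
      2 * (1 / 4 ^ m * hs2 (box (X m) (2 ^ m) q p) + b.trace) := by
  rw [gr_fl0 X hQ]
  have hAo : Opn (((2 ^ m : ℕ) : ℝ)) (box (X m) (2 ^ m) q p) :=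
    opn_fl hF (m := m) (i := 0) (Nat.zero_le _) (by omega) q p
  have h := phi_bot (N := 2 ^ m) (by positivity) hb zero_le_one hAo hb'
  refine h.trans (le_of_eq ?_)
  have e : (((2 ^ m : ℕ) : ℝ)) ^ 2 = 4 ^ m := by
    push_cast
    rw [← pow_mul, mul_comm m 2, pow_mul]
    norm_num
  rw [e]
  norm_num

/-- `Z Zᵀ` version of the bottom value -/
theorem kl_quad (hK : Kil C al R w k M n) {m : ℕ} (hm : m < M) (hQ : 2 ^ m ≤ Q) (q p : ZMod Q)
    (v : ZMod Q → ℝ) : v ⬝ᵥ (gr (2 ^ m) (trL (kl C al R m)) 0 0 q p *ᵥ v) ≤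
      1 ^ 2 * (v ⬝ᵥ v) := by
  rw [gr_kl0 hK hQ, smul_mulVec, dotProduct_smul, smul_eq_mul]
  have h1 := ((opn_kl hK hm p q).tr).gram v
  rw [transpose_transpose] at h1
  have hN : (0 : ℝ) < ((2 ^ m : ℕ) : ℝ) := by positivity
  calc 1 / ((2 ^ m : ℕ) : ℝ) ^ 2 * (v ⬝ᵥ ((kl C al R m p q * (kl C al R m p q)ᵀ) *ᵥ v)) ≤
      1 / ((2 ^ m : ℕ) : ℝ) ^ 2 * (((2 ^ m : ℕ) : ℝ) ^ 2 * (v ⬝ᵥ v)) :=
        mul_le_mul_of_nonneg_left h1 (by positivity)
    _ = _ := by field_simp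

theorem kl_trace (hK : Kil C al R w k M n) {m : ℕ} (hQ : 2 ^ m ≤ Q) (q p : ZMod Q) :
    (gr (2 ^ m) (trL (kl C al R m)) 0 0 q p).trace = 1 / 4 ^ m * hs2 (kl C al R m p q) := by
  rw [gr_kl0 hK hQ, trace_smul, smul_eq_mul, hs2_eq]
  congr 2
  push_cast
  rw [← pow_mul, mul_comm m 2, pow_mul]
  norm_num

theorem phi_own_kl (hK : Kil C al R w k M n) {m : ℕ} (hm : m < M) (hQ : 2 ^ m ≤ Q) (q p : ZMod Q) :
    phi (gr (2 ^ m) (trL (kl C al R m)) 0 0 q p) ≤ 1 / 4 ^ m * hs2 (kl C al R m p q) := by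
  have hM := gr_psd (2 ^ m) (trL (kl C al R m)) 0 0 q p
  have h := CR371.phi_le_of_le hM zero_le_one (by
    rw [posSemidef_iff_dotProduct_mulVec]
    refine ⟨?_, fun v => ?_⟩
    · exact ((isHermitian_one (α := ℝ) (n := ZMod Q)).smul (IsSelfAdjoint.all _)).sub
        hM.isHermitian
    · rw [sub_mulVec, dotProduct_sub, smul_mulVec, one_mulVec, dotProduct_smul, smul_eq_mul,
        star_trivial]
      have := kl_quad hK hm hQ q p v
      linarith)
  rw [Real.sqrt_one, one_mul, kl_trace hK hQ] at h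
  exact h

theorem VO_bot {X : ℕ → Mx Q} (hF : Fl k M n X) (hK : Kil C al R w k M n) {m : ℕ} (hm : m < M)
    (hQ : 2 ^ m ≤ Q) : VO (fl X) (fun m => trL (kl C al R m)) m 0 ≤ 3 * n := by
  unfold VO EB EO
  have h4 : (0 : ℝ) < 4 ^ m := by positivity
  have h1 : ∑ p : ZMod Q, ∑ q : ZMod Q, phi (gr (2 ^ m) (fl X m) 0 0 q p) ≤ 2 * n := by
    have hpt : ∀ p q : ZMod Q, phi (gr (2 ^ m) (fl X m) 0 0 q p) ≤
        2 * (1 / 4 ^ m * hs2 (box (X m) (2 ^ m) q p)) := by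
      intro p q
      have h := phi_own_fl hF hm hQ q p (b := 0) PosSemidef.zero
        (fun v => by rw [zero_mulVec, dotProduct_zero, one_pow, one_mul]; exact dsn v)
      rw [add_zero, trace_zero, add_zero] at h
      exact h
    refine (Finset.sum_le_sum fun p _ => Finset.sum_le_sum fun q _ => hpt p q).trans ?_
    simp only [← Finset.mul_sum]
    rw [Finset.sum_comm, sum_hs_box hQ]
    have e : (((2 ^ m : ℕ) : ℝ)) ^ 2 = 4 ^ m := by
      push_cast
      rw [← pow_mul, mul_comm m 2, pow_mul]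
      norm_num
    rw [e, ← mul_assoc (1 / (4 : ℝ) ^ m), one_div_mul_cancel h4.ne', one_mul]
    have := hF.en m hm
    linarith
  have h2 : ∑ p : ZMod Q, ∑ q : ZMod Q, phi (gr (2 ^ m) (trL (kl C al R m)) 0 0 q p) ≤ n := by
    refine (Finset.sum_le_sum fun p _ => Finset.sum_le_sum fun q _ =>
      phi_own_kl hK hm hQ q p).trans ?_
    simp only [← Finset.mul_sum]
    have h3 := sum_hs_kl hK hm
    calc 1 / 4 ^ m * ∑ p, ∑ q, hs2 (kl C al R m p q) ≤ 1 / 4 ^ m * (4 ^ m * n) :=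
          mul_le_mul_of_nonneg_left h3 (by positivity)
      _ = n := by rw [← mul_assoc, one_div_mul_cancel h4.ne', one_mul]
  linarith

theorem VJ_bot {X : ℕ → Mx Q} (hF : Fl k M n X) (hK : Kil C al R w k M n) (hM : 0 < M) :
    VJ (fl X) (fun m => trL (kl C al R m)) 0 0 ≤ 4 * n := by
  have hQ1 : 2 ^ 0 ≤ Q := by
    rw [pow_zero]
    exact Nat.one_le_iff_ne_zero.2 (NeZero.ne Q)
  unfold VJ VV
  have e0 : 2 ^ 0 * 2 ^ 0 = 1 := by norm_num
  rw [e0]
  have h := bl_blk (f := WW (gr (2 ^ 0) (fl X 0)) (gr (2 ^ 0) (trL (kl C al R 0))) 0 0)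
    (g := fun _ => (0 : ℝ)) (N := 1) one_pos (-2) (4 * n) fun i hi => by
      generalize ((-2 : ℤ) : ZMod Q) * ((1 : ℕ) : ZMod Q) + (i : ZMod Q) = T
      unfold WW
      have hpt : ∀ p q : ZMod Q, phi (gr (2 ^ 0) (fl X 0) 0 0 q p +
          gr (2 ^ 0) (trL (kl C al R 0)) 0 0 (T - p - q) p) ≤
          2 * (hs2 (box (X 0) (2 ^ 0) q p) + hs2 (kl C al R 0 p (T - p - q))) := by
        intro p q
        have h := phi_own_fl hF hM hQ1 q p (gr_psd _ _ _ _ (T - p - q) p)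
          (fun v => kl_quad hK hM hQ1 (T - p - q) p v)
        rw [kl_trace hK hQ1] at h
        refine h.trans (le_of_eq ?_)
        norm_num
      refine (Finset.sum_le_sum fun p _ => Finset.sum_le_sum fun q _ => hpt p q).trans ?_
      simp only [← Finset.mul_sum, Finset.sum_add_distrib]
      have h1 : ∑ p : ZMod Q, ∑ q : ZMod Q, hs2 (box (X 0) (2 ^ 0) q p) ≤ n := by
        rw [Finset.sum_comm, sum_hs_box hQ1]
        have := hF.en 0 hM
        norm_num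
        exact this
      have h2 : ∑ p : ZMod Q, ∑ q : ZMod Q, hs2 (kl C al R 0 p (T - p - q)) ≤ n := by
        have e : ∑ p : ZMod Q, ∑ q : ZMod Q, hs2 (kl C al R 0 p (T - p - q)) =
            ∑ p, ∑ q, hs2 (kl C al R 0 p q) := by
          refine Finset.sum_congr rfl fun p _ => ?_
          exact Equiv.sum_comp (Equiv.subLeft (T - p)) (fun q => hs2 (kl C al R 0 p q))
        rw [e]
        have := sum_hs_kl hK hM
        rw [pow_zero, one_mul] at this
        exact this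
      rw [zero_add]
      linarith
  refine h.trans (le_of_eq ?_)
  unfold bl
  simp

end sums

/-- **(L5-2)** -/
theorem vert2 : Vert2 := by
  classical
  intro k hk
  refine ⟨16 + 4 * 153 + 192 * k + 64 * (3 + 9 * 16 ^ k), by positivity, ?_⟩
  intro Q _ M M' n X C al R w hQ hM hF hK hfix
  have hQ0 : 0 < Q := Nat.pos_of_ne_zero (NeZero.ne Q)
  have hQm : ∀ m, m ≤ M → 2 ^ m ≤ Q := fun m hm =>
    (Nat.pow_le_pow_right (by norm_num) hm).trans (Nat.le_of_dvd hQ0 hQ)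
  have hn : 0 ≤ n := le_trans (Finset.sum_nonneg fun x _ => Finset.sum_nonneg fun y _ => sq_nonneg _)
    (hF.en 0 (by omega))
  obtain ⟨v1, hv1a, hv1b, hv1c⟩ := hF.mv 1 hk
  obtain ⟨vk, hvka, hvkb, hvkc⟩ := hF.mv k le_rfl
  have hx1 := hK.sx 1 hk
  have hxk := hK.sx k le_rfl
  unfold WP
  -- bottom
  have b1 := VJ_bot hF hK (by omega : 0 < M)
  have b2 : ∑ m ∈ range k, VO (fl X) (fun m => trL (kl C al R m)) m 0 ≤ k * (3 * n) := by
    refine (Finset.sum_le_sum fun m hm => VO_bot hF hK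
      (by have := Finset.mem_range.1 hm; omega) (hQm m (by have := Finset.mem_range.1 hm; omega))).trans
      (le_of_eq ?_)
    rw [Finset.sum_const, Finset.card_range, nsmul_eq_mul]
  -- sums restricted to the scales used
  have rest : ∀ (i M1 : ℕ) (f : ℕ → ZMod Q → ZMod Q → ℝ), (∀ m q p, 0 ≤ f m q p) →
      M1 + i < M + 1 → ∑ m ∈ range M, ∑ q : ZMod Q, ∑ p : ZMod Q,
        (if m + i < M then f m q p else 0) ≤ n →
      (∀ m < M1, m + i < M) → ∑ m ∈ range M1, ∑ q : ZMod Q, ∑ p : ZMod Q, f m q p ≤ n := by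
    intro i M1 f hf h1 h2 h3
    refine le_trans ?_ h2
    have e : ∀ m ∈ range M1, ∑ q : ZMod Q, ∑ p : ZMod Q, f m q p = ∑ q : ZMod Q, ∑ p : ZMod Q,
        (if m + i < M then f m q p else 0) := by
      intro m hm
      have := h3 m (Finset.mem_range.1 hm)
      simp only [if_pos this]
    rw [Finset.sum_congr rfl e]
    refine Finset.sum_le_sum_of_subset_of_nonneg (Finset.range_subset_range.2 (by omega)) ?_
    intro m _ _
    refine Finset.sum_nonneg fun q _ => Finset.sum_nonneg fun p _ => ?_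
    split_ifs
    · exact hf m q p
    · exact le_rfl
  have exr : ∀ (i M1 : ℕ), M1 + i < M + 1 → (∑ m ∈ range M, ∑ q : ZMod Q, ∑ p : ZMod Q,
      (if m + i < M ∧ Exit al i m q p then w (m + i) q p else 0) ≤ n) →
      (∀ m < M1, m + i < M) → ∑ m ∈ range M1, ∑ q : ZMod Q, ∑ p : ZMod Q, ep al w i m q p ≤ n := by
    intro i M1 h1 h2 h3
    refine rest i M1 (fun m => ep al w i m) (fun m q p => ep_nonneg hK i m q p) h1 ?_ h3
    refine le_trans (le_of_eq ?_) h2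
    refine Finset.sum_congr rfl fun m _ => Finset.sum_congr rfl fun q _ =>
      Finset.sum_congr rfl fun p _ => ?_
    unfold ep
    by_cases h4 : m + i < M
    · by_cases h5 : Exit al i m q p
      · rw [if_pos h4, if_pos h5, if_pos ⟨h4, h5⟩]
      · rw [if_pos h4, if_neg h5, if_neg fun h => h5 h.2]
    · rw [if_neg h4, if_neg fun h => h4 h.1]
  -- joint steps
  have j1 : ∑ m ∈ range (M' - 1), (VJ (fl X) (fun m => trL (kl C al R m)) (m + 1) 0 -
      VJ (fl X) (fun m => trL (kl C al R m)) m 1) ≤ 153 * n := by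
    have hst : ∀ m ∈ range (M' - 1), VJ (fl X) (fun m => trL (kl C al R m)) (m + 1) 0 -
        VJ (fl X) (fun m => trL (kl C al R m)) m 1 ≤
        9 * ∑ q, ∑ p, v1 m q p + 144 * ∑ q, ∑ p, ep al w 1 m q p := by
      intro m hm
      have hm' := Finset.mem_range.1 hm
      have := VJ_step hF hK hfix (m := m) hk (by omega) (hQm _ (by omega)) (v := v1 m)
        (fun q p => hv1b m (by omega) q p)
      linarith
    refine (Finset.sum_le_sum hst).trans ?_
    rw [Finset.sum_add_distrib, ← Finset.mul_sum, ← Finset.mul_sum]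
    have r1 := rest 1 (M' - 1) v1 hv1a (by omega) hv1c (fun m hm => by omega)
    have r2 := exr 1 (M' - 1) (by omega) hx1 (fun m hm => by omega)
    linarith
  -- own steps
  have o1 : ∑ m ∈ range (M' - k), (VO (fl X) (fun m => trL (kl C al R m)) (m + k) 0 -
      VO (fl X) (fun m => trL (kl C al R m)) m k) ≤ (3 + 9 * 16 ^ k) * n := by
    have hst : ∀ m ∈ range (M' - k), VO (fl X) (fun m => trL (kl C al R m)) (m + k) 0 -
        VO (fl X) (fun m => trL (kl C al R m)) m k ≤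
        3 * ∑ q, ∑ p, vk m q p + 9 * 16 ^ k * ∑ q, ∑ p, ep al w k m q p := by
      intro m hm
      have hm' := Finset.mem_range.1 hm
      have := VO_step hF hK (m := m) (i := k) le_rfl (by omega) (hQm _ (by omega)) (v := vk m)
        (fun q p => hvkb m (by omega) q p)
      linarith
    refine (Finset.sum_le_sum hst).trans ?_
    rw [Finset.sum_add_distrib, ← Finset.mul_sum, ← Finset.mul_sum]
    have r1 := rest k (M' - k) vk hvka (by omega) hvkc (fun m hm => by omega)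
    have r2 := exr k (M' - k) (by omega) hxk (fun m hm => by omega)
    have h16 : (0 : ℝ) ≤ 9 * 16 ^ k := by positivity
    nlinarith [mul_le_mul_of_nonneg_left r2 h16]
  have e : (16 + 4 * 153 + 192 * (k : ℝ) + 64 * (3 + 9 * 16 ^ k)) * n =
      4 * (4 * n) + 4 * (153 * n) + 64 * (k * (3 * n)) + 64 * ((3 + 9 * 16 ^ k) * n) := by ring
  rw [e]
  linarith

end Crest.Agent.R079.CRv2x87
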