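import Crest.Agent.R079.CRb_371

/-! R079, RAGGED CORNER (CR), L2 (second half): the assembled box of side `2N`, node inequality, one
scale estimate and the word inequality for letters which may change at every scale.  helper371. -/

set_option autoImplicit false
set_option linter.unusedVariables false
set_option linter.unusedSectionVars false
set_option linter.unusedSimpArgs false

namespace Crest.Agent.R079.CR371

open Matrix Finset Crest.Agent.R072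
open Crest.Agent.R072.Lattice (sum_sub_left' sum_add_right' sum_shift sum_range_mul_aux)
open Crest.Agent.R079.PotL (bl bl_mono bl_add bl_const_mul)
open scoped MatrixOrder

section node

variable {Q : ℕ} [NeZero Q]

/-- assembled box of side `2N` -/
noncomputable def DB (N : ℕ) (L : Lt Q (ZMod Q)) (q p : ZMod Q) : Matrix (ZMod Q) (ZMod Q) ℝ :=
  RB N L 1 q p + RB N L 1 (q + (N : ZMod Q)) p

theorem RB_one (N : ℕ) (L : Lt Q (ZMod Q)) (q p : ZMod Q) :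
    RB N L 1 q p = L q p + L q (p + (N : ZMod Q)) := by
  have h := RB_succ N L 0 q p
  rw [RB_zero, RB_zero, sh_zero, zero_add] at h
  exact h

theorem DB_eq (N : ℕ) (L : Lt Q (ZMod Q)) (q p : ZMod Q) :
    DB N L q p = L q p + L q (p + (N : ZMod Q)) +
      (L (q + (N : ZMod Q)) p + L (q + (N : ZMod Q)) (p + (N : ZMod Q))) := by
  unfold DB
  rw [RB_one, RB_one]

theorem DB_trL (N : ℕ) (L : Lt Q (ZMod Q)) (q p : ZMod Q) : DB N (trL L) p q = (DB N L q p)ᵀ := by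
  rw [DB_eq, DB_eq]
  unfold trL
  simp only [transpose_add]
  abel

theorem RB_rsupp {N : ℕ} {L : Lt Q (ZMod Q)} (hL : RSup N L) (j : ℕ) (q p x y : ZMod Q)
    (hx : N ≤ (x - q).val) : RB N L j q p x y = 0 := by
  unfold RB
  rw [Matrix.sum_apply]
  exact Finset.sum_eq_zero fun t _ => hL _ _ _ _ hx

theorem orth_rows {N : ℕ} (hN : 2 * N ≤ Q) (q : ZMod Q) {X Y : Matrix (ZMod Q) (ZMod Q) ℝ}
    (hX : ∀ x y, N ≤ (x - q).val → X x y = 0)
    (hY : ∀ x y, N ≤ (x - (q + (N : ZMod Q))).val → Y x y = 0) : Xᵀ * Y = 0 := by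
  refine orth_cols hN q ?_ hY
  intro x y hy
  rw [transpose_apply]
  exact hX y x hy

/-- the Gram matrix of the assembled box -/
theorem gram_DB {N : ℕ} {L : Lt Q (ZMod Q)} (hL : RSup N L) (hN : 2 * N ≤ Q) (q p : ZMod Q) :
    ((1 / ((N + N : ℕ) : ℝ)) • DB N L q p)ᵀ * ((1 / ((N + N : ℕ) : ℝ)) • DB N L q p) =
      gr N L 1 1 q p := by
  have h1 : (RB N L 1 q p)ᵀ * RB N L 1 (q + (N : ZMod Q)) p = 0 :=
    orth_rows hN q (fun x y hx => RB_rsupp hL 1 q p x y hx)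
      (fun x y hx => RB_rsupp hL 1 _ p x y hx)
  have h2 : (RB N L 1 (q + (N : ZMod Q)) p)ᵀ * RB N L 1 q p = 0 := by
    have := congrArg transpose h1
    rwa [transpose_mul, transpose_transpose, transpose_zero] at this
  have h3 : (DB N L q p)ᵀ * DB N L q p = (RB N L 1 q p)ᵀ * RB N L 1 q p +
      (RB N L 1 (q + (N : ZMod Q)) p)ᵀ * RB N L 1 (q + (N : ZMod Q)) p := by
    unfold DB
    rw [transpose_add, add_mul, mul_add, mul_add, h1, h2, add_zero, zero_add]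
  rw [transpose_smul, smul_mul_smul_comm, h3]
  unfold gr
  rw [pow_one, show (range 2) = {0, 1} from rfl, Finset.sum_pair (by norm_num)]
  push_cast
  rw [zero_mul, add_zero, one_mul]
  congr 1
  rw [one_div_mul_one_div, ← two_mul]

/-- the Haar box form of three letters, box of side `2N` at `(p0, p1, p2)` -/
noncomputable def TB (N : ℕ) (LA LB LC : Lt Q (ZMod Q)) (p0 p1 p2 : ZMod Q) : ℝ :=
  (1 / (((N + N : ℕ) : ℝ) ^ 3)) *
    (diagonal (sg N p0) * DB N LA p0 p1 * diagonal (sg N p1) * DB N LB p1 p2 *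
      diagonal (sg N p2) * DB N LC p2 p0).trace

/-- support of all kinds -/
def Sup (N : ℕ) (L : Lt Q (ZMod Q)) : Prop := CSup N L ∧ RSup N L

theorem Sup.tr {N : ℕ} {L : Lt Q (ZMod Q)} (h : Sup N L) : Sup N (trL L) :=
  ⟨trL_CSup h.2, trL_RSup h.1⟩

/-- node inequality -/
theorem TB_le {N : ℕ} {LA LB LC : Lt Q (ZMod Q)} (hA : Sup N LA) (hB : Sup N LB) (hC : Sup N LC)
    (hN : 2 * N ≤ Q) (p0 p1 p2 : ZMod Q) :
    |TB N LA LB LC p0 p1 p2| ≤ (Real.pi / 2) *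
      (Gam (sg N p0) (gr N (trL LA) 1 1 p1 p0 + gr N LC 1 1 p2 p0) +
        Gam (sg N p1) (gr N LA 1 1 p0 p1 + gr N (trL LB) 1 1 p2 p1) +
        Gam (sg N p2) (gr N LB 1 1 p1 p2 + gr N (trL LC) 1 1 p0 p2)) := by
  set c : ℝ := 1 / ((N + N : ℕ) : ℝ) with hc
  have h := node_ineq (c • DB N LA p0 p1) (c • DB N LB p1 p2) (c • DB N LC p2 p0)
    (sg N p0) (sg N p1) (sg N p2) (sg_mul_self _ _) (sg_mul_self _ _) (sg_mul_self _ _)
  have e1 : (c • DB N LA p0 p1) * (c • DB N LA p0 p1)ᵀ = gr N (trL LA) 1 1 p1 p0 := by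
    rw [← gram_DB hA.tr.2 hN p1 p0, DB_trL, transpose_smul, transpose_smul, transpose_transpose]
  have e2 : (c • DB N LB p1 p2) * (c • DB N LB p1 p2)ᵀ = gr N (trL LB) 1 1 p2 p1 := by
    rw [← gram_DB hB.tr.2 hN p2 p1, DB_trL, transpose_smul, transpose_smul, transpose_transpose]
  have e3 : (c • DB N LC p2 p0) * (c • DB N LC p2 p0)ᵀ = gr N (trL LC) 1 1 p0 p2 := by
    rw [← gram_DB hC.tr.2 hN p0 p2, DB_trL, transpose_smul, transpose_smul, transpose_transpose]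
  rw [e1, e2, e3, gram_DB hA.2 hN, gram_DB hB.2 hN, gram_DB hC.2 hN] at h
  have e : TB N LA LB LC p0 p1 p2 = (diagonal (sg N p0) * (c • DB N LA p0 p1) *
      diagonal (sg N p1) * (c • DB N LB p1 p2) * diagonal (sg N p2) *
      (c • DB N LC p2 p0)).trace := by
    unfold TB
    simp only [mul_smul_comm, smul_mul_assoc, trace_smul, smul_eq_mul]
    rw [hc]
    ring
  rw [e]
  exact h

end node

section scale

variable {Q : ℕ} [NeZero Q]

/-- reindexing `p0 ↦ p2 = n - p0 - p1` -/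
theorem sum_third (n : ZMod Q) (g : ZMod Q → ZMod Q → ZMod Q → ℝ) :
    ∑ p0 : ZMod Q, ∑ p1 : ZMod Q, g p0 p1 (n - p0 - p1) =
      ∑ p2 : ZMod Q, ∑ p1 : ZMod Q, g (n - p2 - p1) p1 p2 := by
  rw [Finset.sum_comm]
  rw [Finset.sum_comm (s := (Finset.univ : Finset (ZMod Q))) (t := (Finset.univ : Finset (ZMod Q)))
    (f := fun p2 p1 => g (n - p2 - p1) p1 p2)]
  refine Finset.sum_congr rfl fun p1 _ => ?_
  refine Fintype.sum_equiv ((Equiv.subLeft n).trans (Equiv.subRight p1)) _ _ fun p0 => ?_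
  simp only [Equiv.trans_apply, Equiv.subLeft_apply, Equiv.subRight_apply]
  have : n - (n - p0 - p1) - p1 = p0 := by ring
  rw [this]

theorem sum_G2 (n : ZMod Q) (F : ZMod Q → ZMod Q → ZMod Q → ℝ) :
    ∑ p0 : ZMod Q, ∑ p1 : ZMod Q, F p0 p1 (n - p0 - p1) =
      ∑ p : ZMod Q, ∑ q : ZMod Q, F q p (n - p - q) := by
  rw [Finset.sum_comm]
  refine Finset.sum_congr rfl fun p _ => Finset.sum_congr rfl fun q _ => ?_
  rw [sub_right_comm]

theorem sum_G3 (n : ZMod Q) (F : ZMod Q → ZMod Q → ZMod Q → ℝ) :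
    ∑ p0 : ZMod Q, ∑ p1 : ZMod Q, F p0 p1 (n - p0 - p1) =
      ∑ p : ZMod Q, ∑ q : ZMod Q, F (n - p - q) q p := by
  rw [sum_third]

theorem sum_TB_le {N : ℕ} {LA LB LC : Lt Q (ZMod Q)} (hA : Sup N LA) (hB : Sup N LB)
    (hC : Sup N LC) (hN : 2 * N ≤ Q) (n : ZMod Q) :
    ∑ p0 : ZMod Q, ∑ p1 : ZMod Q, |TB N LA LB LC p0 p1 (n - p0 - p1)| ≤ (Real.pi / 2) *
      (GG (sg N) (gr N (trL LA)) (gr N LC) n + GG (sg N) (gr N LA) (gr N (trL LB)) n +
        GG (sg N) (gr N LB) (gr N (trL LC)) n) := by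
  have h1 : ∀ p0 p1 : ZMod Q, |TB N LA LB LC p0 p1 (n - p0 - p1)| ≤ (Real.pi / 2) *
      (Gam (sg N p0) (gr N (trL LA) 1 1 p1 p0 + gr N LC 1 1 (n - p0 - p1) p0) +
        Gam (sg N p1) (gr N LA 1 1 p0 p1 + gr N (trL LB) 1 1 (n - p0 - p1) p1) +
        Gam (sg N (n - p0 - p1)) (gr N LB 1 1 p1 (n - p0 - p1) +
          gr N (trL LC) 1 1 p0 (n - p0 - p1))) := fun p0 p1 => TB_le hA hB hC hN p0 p1 _
  have e1 : ∑ p0 : ZMod Q, ∑ p1 : ZMod Q, Gam (sg N p0) (gr N (trL LA) 1 1 p1 p0 +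
      gr N LC 1 1 (n - p0 - p1) p0) = GG (sg N) (gr N (trL LA)) (gr N LC) n := rfl
  have e2 : ∑ p0 : ZMod Q, ∑ p1 : ZMod Q, Gam (sg N p1) (gr N LA 1 1 p0 p1 +
      gr N (trL LB) 1 1 (n - p0 - p1) p1) = GG (sg N) (gr N LA) (gr N (trL LB)) n :=
    sum_G2 n (fun p0 p1 p2 => Gam (sg N p1) (gr N LA 1 1 p0 p1 + gr N (trL LB) 1 1 p2 p1))
  have e3 : ∑ p0 : ZMod Q, ∑ p1 : ZMod Q, Gam (sg N (n - p0 - p1)) (gr N LB 1 1 p1 (n - p0 - p1) +
      gr N (trL LC) 1 1 p0 (n - p0 - p1)) = GG (sg N) (gr N LB) (gr N (trL LC)) n :=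
    sum_G3 n (fun p0 p1 p2 => Gam (sg N p2) (gr N LB 1 1 p1 p2 + gr N (trL LC) 1 1 p0 p2))
  rw [← e1, ← e2, ← e3, ← Finset.sum_add_distrib, ← Finset.sum_add_distrib, Finset.mul_sum]
  refine Finset.sum_le_sum fun p0 _ => ?_
  rw [← Finset.sum_add_distrib, ← Finset.sum_add_distrib, Finset.mul_sum]
  exact Finset.sum_le_sum fun p1 _ => h1 p0 p1

/-- one scale estimate for three letters -/
theorem one_scale {N κ : ℕ} {LA LB LC : Lt Q (ZMod Q)} (hA : Sup N LA) (hB : Sup N LB)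
    (hC : Sup N LC) (hN : 0 < N) (l : ℤ) (hκ : 2 * |l| + 20 ≤ (2 ^ κ : ℕ)) (hQ : 2 ^ κ * N ≤ Q) :
    bl (fun n => ∑ p0 : ZMod Q, ∑ p1 : ZMod Q, |TB N LA LB LC p0 p1 (n - p0 - p1)|) N l ≤
      (Real.pi / 2) *
      ((4 * (VV N (gr N (trL LA)) (gr N LC) 0 - VV N (gr N (trL LA)) (gr N LC) 1) +
          64 * (EB (gr N (trL LA)) (gr N LC) 0 - EB (gr N (trL LA)) (gr N LC) κ)) +
        (4 * (VV N (gr N LA) (gr N (trL LB)) 0 - VV N (gr N LA) (gr N (trL LB)) 1) +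
          64 * (EB (gr N LA) (gr N (trL LB)) 0 - EB (gr N LA) (gr N (trL LB)) κ)) +
        (4 * (VV N (gr N LB) (gr N (trL LC)) 0 - VV N (gr N LB) (gr N (trL LC)) 1) +
          64 * (EB (gr N LB) (gr N (trL LC)) 0 - EB (gr N LB) (gr N (trL LC)) κ))) := by
  have hκ1 : 1 ≤ κ := by
    rcases Nat.eq_zero_or_pos κ with h | h
    · exfalso
      rw [h] at hκ
      push_cast at hκ
      have := abs_nonneg l
      omega
    · exact h
  have h2 : 2 * N ≤ Q := by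
    refine le_trans ?_ hQ
    have : 2 ^ 1 ≤ 2 ^ κ := Nat.pow_le_pow_right (by norm_num) hκ1
    nlinarith
  have g1 := gap_arr hN (gr_APr hA.tr.1 hC.1 hκ1 hQ) l hκ
  have g2 := gap_arr hN (gr_APr hA.1 hB.tr.1 hκ1 hQ) l hκ
  have g3 := gap_arr hN (gr_APr hB.1 hC.tr.1 hκ1 hQ) l hκ
  have h0 : bl (fun n => ∑ p0 : ZMod Q, ∑ p1 : ZMod Q, |TB N LA LB LC p0 p1 (n - p0 - p1)|) N l ≤
      (Real.pi / 2) * (bl (GG (sg N) (gr N (trL LA)) (gr N LC)) N l +
        bl (GG (sg N) (gr N LA) (gr N (trL LB))) N l +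
        bl (GG (sg N) (gr N LB) (gr N (trL LC))) N l) := by
    rw [← bl_add, ← bl_add, ← bl_const_mul]
    exact bl_mono (fun n => sum_TB_le hA hB hC h2 n) _ _
  refine h0.trans (mul_le_mul_of_nonneg_left ?_ (by positivity))
  linarith

end scale

/-! ### telescoping -/

theorem tele1 (a b : ℕ → ℝ) (ha : 0 ≤ a 0) (hb : ∀ m, 0 ≤ b m) (M : ℕ) :
    ∑ m ∈ range M, (a m - b m) ≤ a 0 + ∑ m ∈ range (M - 1), (a (m + 1) - b m) := by
  rcases Nat.eq_zero_or_pos M with h | h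
  · subst h
    simpa using ha
  · obtain ⟨k, rfl⟩ : ∃ k, M = k + 1 := ⟨M - 1, by omega⟩
    rw [Nat.add_sub_cancel, Finset.sum_sub_distrib, Finset.sum_sub_distrib,
      Finset.sum_range_succ' a, Finset.sum_range_succ b]
    have := hb k
    linarith

theorem tele2 (e f : ℕ → ℝ) (he : ∀ m, 0 ≤ e m) (hf : ∀ m, 0 ≤ f m) (κ M : ℕ) :
    ∑ m ∈ range M, (e m - f m) ≤ ∑ m ∈ range κ, e m +
      ∑ m ∈ range (M - κ), (e (m + κ) - f m) := by
  rw [Finset.sum_sub_distrib, Finset.sum_sub_distrib]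
  rcases le_total M κ with h | h
  · have h1 : ∑ m ∈ range M, e m ≤ ∑ m ∈ range κ, e m :=
      Finset.sum_le_sum_of_subset_of_nonneg (Finset.range_subset_range.2 h) fun _ _ _ => he _
    have h2 : 0 ≤ ∑ m ∈ range M, f m := Finset.sum_nonneg fun _ _ => hf _
    rw [Nat.sub_eq_zero_of_le h]
    simp only [Finset.range_zero, Finset.sum_empty]
    linarith
  · have h1 : ∑ m ∈ range M, e m = ∑ m ∈ range κ, e m + ∑ m ∈ range (M - κ), e (m + κ) := by
      conv_lhs => rw [show M = κ + (M - κ) by omega]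
      rw [Finset.sum_range_add]
      congr 1
      exact Finset.sum_congr rfl fun m _ => by rw [add_comm]
    have h2 : ∑ m ∈ range (M - κ), f m ≤ ∑ m ∈ range M, f m :=
      Finset.sum_le_sum_of_subset_of_nonneg (Finset.range_subset_range.2 (by omega))
        fun _ _ _ => hf _
    linarith

section word

variable {Q : ℕ} [NeZero Q]

/-- joint potential of the letters `X, Z` of scale `2^m` on the boxes of side `2^(m+j)` -/
noncomputable def VJ (X Z : ℕ → Lt Q (ZMod Q)) (m j : ℕ) : ℝ :=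
  VV (2 ^ m) (gr (2 ^ m) (X m)) (gr (2 ^ m) (Z m)) j

/-- own potentials of the letters `X, Z` of scale `2^m` on the boxes of side `2^(m+j)` -/
noncomputable def VO (X Z : ℕ → Lt Q (ZMod Q)) (m j : ℕ) : ℝ :=
  EB (gr (2 ^ m) (X m)) (gr (2 ^ m) (Z m)) j

/-- the price of a word at one vertex -/
noncomputable def WP (X Z : ℕ → Lt Q (ZMod Q)) (κ M : ℕ) : ℝ :=
  4 * VJ X Z 0 0 + 4 * ∑ m ∈ range (M - 1), (VJ X Z (m + 1) 0 - VJ X Z m 1) +
    64 * ∑ m ∈ range κ, VO X Z m 0 + 64 * ∑ m ∈ range (M - κ), (VO X Z (m + κ) 0 - VO X Z m κ)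

theorem VJ_nonneg' {m κ : ℕ} {m' : Type*} {X Z : Lt Q (ZMod Q)} (hX : CSup (2 ^ m) X)
    (hZ : CSup (2 ^ m) Z) (hQ : 2 ^ κ * 2 ^ m ≤ Q) (j : ℕ) :
    0 ≤ VV (2 ^ m) (gr (2 ^ m) X) (gr (2 ^ m) Z) j :=
  VV_nonneg (gr_AOK hX hQ) (gr_AOK hZ hQ) j

theorem VJ_nonneg (X Z : ℕ → Lt Q (ZMod Q)) (m j : ℕ) : 0 ≤ VJ X Z m j := by
  unfold VJ VV bl WW
  refine mul_nonneg (by positivity) (Finset.sum_nonneg fun i _ => Finset.sum_nonneg fun p _ =>
    Finset.sum_nonneg fun q _ => phi_nonneg ((gr_psd _ _ _ _ _ _).add (gr_psd _ _ _ _ _ _)))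

theorem VO_nonneg (X Z : ℕ → Lt Q (ZMod Q)) (m j : ℕ) : 0 ≤ VO X Z m j := by
  unfold VO EB EO
  refine add_nonneg ?_ ?_ <;>
    exact Finset.sum_nonneg fun p _ => Finset.sum_nonneg fun q _ => phi_nonneg (gr_psd _ _ _ _ _ _)

/-- **word inequality** : letters `LA m, LB m, LC m` on the boxes of side `2^m`, `m < M`; only the
changes of the letters between the scales are paid. -/
theorem word_sum (LA LB LC : ℕ → Lt Q (ZMod Q)) (κ M : ℕ) (l : ℤ)
    (hκ : 2 * |l| + 20 ≤ (2 ^ κ : ℕ)) (hQ : 2 ^ (M + κ) ≤ Q)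
    (hA : ∀ m < M, Sup (2 ^ m) (LA m)) (hB : ∀ m < M, Sup (2 ^ m) (LB m))
    (hC : ∀ m < M, Sup (2 ^ m) (LC m)) :
    ∑ m ∈ range M, bl (fun n => ∑ p0 : ZMod Q, ∑ p1 : ZMod Q,
        |TB (2 ^ m) (LA m) (LB m) (LC m) p0 p1 (n - p0 - p1)|) (2 ^ m) l ≤
      (Real.pi / 2) * (WP (fun m => trL (LA m)) LC κ M + WP LA (fun m => trL (LB m)) κ M +
        WP LB (fun m => trL (LC m)) κ M) := by
  have hs : ∀ X Z : ℕ → Lt Q (ZMod Q), ∑ m ∈ range M, (4 * (VJ X Z m 0 - VJ X Z m 1) +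
      64 * (VO X Z m 0 - VO X Z m κ)) ≤ WP X Z κ M := by
    intro X Z
    have t1 := tele1 (fun m => VJ X Z m 0) (fun m => VJ X Z m 1) (VJ_nonneg X Z 0 0)
      (fun m => VJ_nonneg X Z m 1) M
    have t2 := tele2 (fun m => VO X Z m 0) (fun m => VO X Z m κ) (fun m => VO_nonneg X Z m 0)
      (fun m => VO_nonneg X Z m κ) κ M
    rw [Finset.sum_add_distrib, ← Finset.mul_sum, ← Finset.mul_sum]
    unfold WP
    linarith
  have h1 := hs (fun m => trL (LA m)) LC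
  have h2 := hs LA (fun m => trL (LB m))
  have h3 := hs LB (fun m => trL (LC m))
  have h0 : ∀ m ∈ range M, bl (fun n => ∑ p0 : ZMod Q, ∑ p1 : ZMod Q,
        |TB (2 ^ m) (LA m) (LB m) (LC m) p0 p1 (n - p0 - p1)|) (2 ^ m) l ≤
      (Real.pi / 2) * ((4 * (VJ (fun m => trL (LA m)) LC m 0 - VJ (fun m => trL (LA m)) LC m 1) +
          64 * (VO (fun m => trL (LA m)) LC m 0 - VO (fun m => trL (LA m)) LC m κ)) +
        (4 * (VJ LA (fun m => trL (LB m)) m 0 - VJ LA (fun m => trL (LB m)) m 1) +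
          64 * (VO LA (fun m => trL (LB m)) m 0 - VO LA (fun m => trL (LB m)) m κ)) +
        (4 * (VJ LB (fun m => trL (LC m)) m 0 - VJ LB (fun m => trL (LC m)) m 1) +
          64 * (VO LB (fun m => trL (LC m)) m 0 - VO LB (fun m => trL (LC m)) m κ))) := by
    intro m hm
    rw [Finset.mem_range] at hm
    refine one_scale (hA m hm) (hB m hm) (hC m hm) (by positivity) l hκ ?_
    rw [← pow_add]
    exact (Nat.pow_le_pow_right (by norm_num) (by omega)).trans hQ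
  refine (Finset.sum_le_sum h0).trans ?_
  rw [← Finset.mul_sum, Finset.sum_add_distrib, Finset.sum_add_distrib]
  refine mul_le_mul_of_nonneg_left ?_ (by positivity)
  linarith

end word

end Crest.Agent.R079.CR371
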