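import Crest.Agent.R079.CRdef_253
import Crest.Agent.R079.CRn_371

/-! R079, RAGGED CORNER (CR), literals of L5 (comparison of scales at the three vertices) and of the
exactness lemma (bare box form = form of the box letters), against `CRb_371` / `CRn_371`.
helper253. -/

set_option autoImplicit false
set_option linter.unusedVariables false
set_option linter.unusedSectionVars false

namespace Crest.Agent.R079.CRdefx253

open Matrix Finset Crest.Agent.R072 Crest.Agent.R079.CR371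
open Crest.Agent.R079.PotL (bl cel IsPr hs2)
open scoped MatrixOrder

variable {Q : ℕ} [NeZero Q]

/-- function letters as box letters -/
noncomputable def fl (X : ℕ → Mx Q) (m : ℕ) : Lt Q (ZMod Q) := fun q p => box (X m) (2 ^ m) q p

open Classical in
/-- killer letters -/
noncomputable def kl (C : Mx Q) (al : ℕ → ZMod Q → ZMod Q → Prop) (R : ℕ → ZMod Q → ZMod Q → Mx Q)
    (m : ℕ) : Lt Q (ZMod Q) := fun q p => if al m q p then R m q p * box C (2 ^ m) q p else 0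

/-- (L5-1) vertex 1: two function letters -/
def Vert1 : Prop := ∀ k : ℕ, 1 ≤ k → ∃ K : ℝ, 0 ≤ K ∧ ∀ (Q : ℕ) [NeZero Q] (M M' : ℕ) (n : ℝ)
  (X Z : ℕ → Mx Q), 2 ^ M ∣ Q → M' + k < M → Fl k M n X → Fl k M n Z →
    WP (fl X) (fl Z) k M' ≤ K * n

/-- (L5-0) vertex 0: own variable = columns of the killer -/
def Vert0 : Prop := ∀ k : ℕ, 1 ≤ k → ∃ K : ℝ, 0 ≤ K ∧ ∀ (Q : ℕ) [NeZero Q] (M M' : ℕ) (n : ℝ)
  (X : ℕ → Mx Q) (C : Mx Q) (al : ℕ → ZMod Q → ZMod Q → Prop) (R : ℕ → ZMod Q → ZMod Q → Mx Q)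
  (w : ℕ → ZMod Q → ZMod Q → ℝ), 2 ^ M ∣ Q → M' + k < M → Fl k M n X → Kil C al R w k M n →
    WP (fl X) (kl C al R) k M' ≤ K * n

/-- (L5-2) vertex 2: own variable = rows of the killer, the rows of the partner are fixed -/
def Vert2 : Prop := ∀ k : ℕ, 1 ≤ k → ∃ K : ℝ, 0 ≤ K ∧ ∀ (Q : ℕ) [NeZero Q] (M M' : ℕ) (n : ℝ)
  (X : ℕ → Mx Q) (C : Mx Q) (al : ℕ → ZMod Q → ZMod Q → Prop) (R : ℕ → ZMod Q → ZMod Q → Mx Q)
  (w : ℕ → ZMod Q → ZMod Q → ℝ), 2 ^ M ∣ Q → M' + k < M → Fl k M n X → Kil C al R w k M n →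
    FixB R X M 8 → WP (fl X) (fun m => trL (kl C al R m)) k M' ≤ K * n

/-- (EX) exactness: on a box with four alive half boxes the bare form is the form of the letters -/
def Exact : Prop := ∀ (Q : ℕ) [NeZero Q] (M k : ℕ) (n : ℝ) (A B : ℕ → Mx Q) (C : Mx Q)
  (al : ℕ → ZMod Q → ZMod Q → Prop) (R : ℕ → ZMod Q → ZMod Q → Mx Q)
  (w : ℕ → ZMod Q → ZMod Q → ℝ) (l : ℤ) (D : ℕ), 2 ^ M ∣ Q → l.natAbs + 8 ≤ D →
  Kil C al R w k M n → FixB R B M D → ∀ m, m + 1 < M → ∀ (i : ℕ), i < 2 ^ m → ∀ p0 p1 p2 : ZMod Q,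
    p0 + p1 + p2 = (l : ZMod Q) * ((2 ^ m : ℕ) : ZMod Q) + (i : ZMod Q) → Al4 al m p2 p0 →
    Tb (A m) (B m) C (2 ^ m) p0 p1 p2 = TB (2 ^ m) (fl A m) (fl B m) (kl C al R m) p0 p1 p2

end Crest.Agent.R079.CRdefx253
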