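import Crest.Agent.R079.CRx_371
import Crest.Agent.R079.CRdef2_253

/-! R079, RAGGED CORNER (CR): the literal `Exact` of CRdef2_253.  helper371. -/

set_option autoImplicit false
set_option linter.unusedVariables false
set_option linter.unusedSectionVars false

namespace Crest.Agent.R079.CR371y

open Matrix Crest.Agent.R072
open Crest.Agent.R079.CRdefx253 (Mx win box st Al4 Kil FixB Tb fl Exact)
open Crest.Agent.R079.CR371 (TB Lt Sup TB_fix SupR klR)

variable {Q : ℕ} [NeZero Q]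

theorem fl_eq (X : ℕ → Mx Q) (m : ℕ) : fl X m = CR371.kl (2 ^ m) (X m) := rfl

theorem kl_eq (C : Mx Q) (al : ℕ → ZMod Q → ZMod Q → Prop) (R : ℕ → ZMod Q → ZMod Q → Mx Q)
    (m : ℕ) : CRdefx253.kl C al R m = klR (2 ^ m) (R m) C (al m) := rfl

/-- supports of the letters -/
theorem fl_sup (X : ℕ → Mx Q) (m : ℕ) : Sup (2 ^ m) (fl X m) := by
  rw [fl_eq]
  exact CR371.kl_sup _ _

theorem kl_sup (C : Mx Q) (al : ℕ → ZMod Q → ZMod Q → Prop) (R : ℕ → ZMod Q → ZMod Q → Mx Q)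
    (m : ℕ) (hR : SupR (2 ^ m) (R m)) : Sup (2 ^ m) (CRdefx253.kl C al R m) := by
  rw [kl_eq]
  exact CR371.klR_sup hR _ _

theorem exact_of : Exact := by
  intro Q _ M k n A B C al R w l D hQ hD hK hF m hm i hi p0 p1 p2 hsum hal
  have hQ' : 2 ^ M ≤ Q := Nat.le_of_dvd (Nat.pos_of_ne_zero (NeZero.ne Q)) hQ
  have h2 : 2 * 2 ^ m ≤ Q := by
    refine le_trans ?_ hQ'
    rw [← pow_succ']
    exact Nat.pow_le_pow_right (by norm_num) (by omega)
  have h := TB_fix (M := M) (D := D) (m := m) (by omega) h2 (R := R)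
    (fun q p u v h => hK.supp m q p u v h) (A m) B C al hF l (by omega) i hi p0 p1 p2 hsum hal
  rw [← h]
  rfl

end Crest.Agent.R079.CR371y
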