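import Crest.Agent.R079.CRwb_253
import Crest.Agent.R079.CRbr_253
import Crest.Agent.R079.CRL3b_138
import Crest.Agent.R079.CRd_279
import Crest.Agent.R079.CRk_279
import Crest.Agent.R079.CRL4c_138
import Crest.Agent.R079.CRy_371
import Crest.Agent.R079.CRv0_250
import Crest.Agent.R079.CRv1_371
import Crest.Agent.R079.CRv2_87

/-! R079, RAGGED CORNER (CR): THEOREM `CornerR` (all leaves proved).  helper253. -/

set_option autoImplicit false

namespace Crest.Agent.R079.CRfinx253

open Crest.Agent.R079.CRdefx253

/-- **the ragged corner** -/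
theorem cornerR : CornerR :=
  CRwx253.cornerR_of CRbrx253.existsExtr CRbrx253.extrTriv CRL3bx138.flOfExtr CRdx279.existsSpc
    CRkx279.kilOfSpc CRL4cx138.kilLast CR371y.exact_of CRv0x250.vert0 CRv1x371.vert1 CRv2x87.vert2

end Crest.Agent.R079.CRfinx253
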