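import Crest.Agent.R079.KLdef_446
import Crest.Agent.R079.FrozenA_569
import Crest.Agent.R079.CRL3b_138

/-! R079, [KT] of helper446 (`KLdef_446`): the ragged corner on `ℤ` (`CornerZ`, one frozen value `w`)
from the ragged corner on `ZMod Q` (`CRdefx253.CornerR`).  helper279. -/

set_option autoImplicit false
set_option linter.unusedVariables false
set_option linter.unusedSectionVars false
set_option linter.unusedSimpArgs false

namespace Crest.Agent.R079.KTx279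

open Finset Crest.Agent.R079.Grid Crest.Agent.R079.Glue Crest.Agent.R079.KLx446
open Crest.Agent.R079.CRdefx253 (Mx OpLe win box st near Exit Al4 Reg Last Tb SA CornerR)
open Crest.Agent.R079.PotL (hs2 bl)
open Crest.Agent.R079.CRL3bx138 (box_apply)
open Crest.Agent.R072.LatticeInt (vma)

/-! ### sums -/

section sums

variable {Q : ℕ} [NeZero Q]

/-- double sum over `ZMod Q` through injections into `ℤ` -/
theorem zsum_le (φ ψ : ZMod Q → ℤ) (hφ : Function.Injective φ) (hψ : Function.Injective ψ)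
    (f : ℤ → ℤ → ℝ) (hf : ∀ x y, 0 ≤ f x y) (X Y : Finset ℤ)
    (hs : ∀ x y, f x y ≠ 0 → x ∈ X ∧ y ∈ Y) :
    ∑ q : ZMod Q, ∑ p : ZMod Q, f (φ q) (ψ p) ≤ ∑ x ∈ X, ∑ y ∈ Y, f x y := by
  rw [← Finset.sum_product', ← Finset.sum_product']
  rw [← Finset.sum_image (s := (Finset.univ : Finset (ZMod Q)) ×ˢ (Finset.univ : Finset (ZMod Q)))
    (f := fun z : ℤ × ℤ => f z.1 z.2) (g := fun z : ZMod Q × ZMod Q => (φ z.1, ψ z.2))]
  · rw [← Finset.sum_subset (Finset.inter_subset_left (s₂ := X ×ˢ Y))]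
    · exact Finset.sum_le_sum_of_subset_of_nonneg Finset.inter_subset_right fun z _ _ => hf _ _
    · intro z hz hz2
      by_contra hne
      apply hz2
      rw [Finset.mem_inter]
      exact ⟨hz, Finset.mem_product.2 (hs _ _ hne)⟩
  · intro a _ b _ hab
    have h1 := (Prod.mk.inj hab).1
    have h2 := (Prod.mk.inj hab).2
    exact Prod.ext (hφ h1) (hψ h2)

/-- window sum as an integer sum -/
theorem win_sum {N : ℕ} (hN : N ≤ Q) (q : ZMod Q) (q' : ℤ) (hq : (q' : ZMod Q) = q)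
    (h : ZMod Q → ℝ) :
    ∑ x : ZMod Q, (if win N q x then h x else 0) = ∑ x ∈ Ico q' (q' + N), h (x : ZMod Q) := by
  rw [← Finset.sum_filter]
  symm
  refine Finset.sum_bij (fun (x : ℤ) _ => (x : ZMod Q)) ?_ ?_ ?_ ?_
  · intro x hx
    rw [Finset.mem_Ico] at hx
    rw [Finset.mem_filter]
    refine ⟨Finset.mem_univ _, ?_⟩
    unfold win
    obtain ⟨k, hk⟩ := Int.eq_ofNat_of_zero_le (show 0 ≤ x - q' by linarith)
    have e : (x : ZMod Q) - q = (k : ZMod Q) := by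
      rw [← hq]
      have : ((x - q' : ℤ) : ZMod Q) = ((k : ℤ) : ZMod Q) := by rw [hk]
      push_cast at this
      exact this
    have hkN : k < N := by
      have : (k : ℤ) < N := by
        have := hx.2
        have h2 : (k : ℤ) = x - q' := hk.symm
        linarith
      exact_mod_cast this
    rw [e, ZMod.val_natCast]
    exact lt_of_le_of_lt (Nat.mod_le _ _) hkN
  · intro a ha b hb hab
    rw [Finset.mem_Ico] at ha hb
    have h1 : ((a : ℤ) : ZMod Q) = (b : ZMod Q) := hab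
    rw [ZMod.intCast_eq_intCast_iff_dvd_sub] at h1
    have h2 : |b - a| < (Q : ℤ) := by
      rw [abs_lt]
      have : (N : ℤ) ≤ Q := by exact_mod_cast hN
      constructor <;> linarith [ha.1, ha.2, hb.1, hb.2]
    have h3 := Int.eq_zero_of_abs_lt_dvd h1 h2
    linarith
  · intro x hx
    rw [Finset.mem_filter] at hx
    have hw : (x - q).val < N := hx.2
    refine ⟨q' + ((x - q).val : ℤ), ?_, ?_⟩
    · rw [Finset.mem_Ico]
      constructor
      · have : (0 : ℤ) ≤ ((x - q).val : ℤ) := by positivity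
        linarith
      · have : ((x - q).val : ℤ) < N := by exact_mod_cast hw
        linarith
    · push_cast
      rw [ZMod.natCast_zmod_val, hq]
      ring
  · intro x _; rfl

end sums

/-! ### windows -/

section windows

variable {Q : ℕ} [NeZero Q]

/-- `CQ` : the kernel of `C` (rows shifted by `w`) -/
def emC (Q : ℕ) [NeZero Q] (w : ℤ) (C : ℤ → ℤ → ℝ) : Mx Q :=
  fun x y => C (x.valMinAbs - w) y.valMinAbs

theorem win_cast {N : ℕ} (hN : N ≤ Q) {q : ZMod Q} {q' : ℤ} (hq : (q' : ZMod Q) = q) {x : ℤ}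
    (hx : x ∈ Ico q' (q' + N)) : win N q (x : ZMod Q) := by
  have h4 := win_sum hN q q' hq (fun z => if z = (x : ZMod Q) then 1 else 0)
  by_contra hne
  have h5 : ∑ z : ZMod Q, (if win N q z then
      (if z = (x : ZMod Q) then (1 : ℝ) else 0) else 0) = 0 := by
    refine Finset.sum_eq_zero fun z _ => ?_
    split_ifs with h6 h7
    · exact absurd (h7 ▸ h6) hne
    · rfl
    · rfl
  rw [h5] at h4
  have h6 : (1 : ℝ) ≤ ∑ z ∈ Ico q' (q' + (N : ℤ)),
      (if (z : ZMod Q) = (x : ZMod Q) then (1 : ℝ) else 0) := by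
    refine le_trans (by rw [if_pos rfl]) (Finset.single_le_sum
      (f := fun z : ℤ => if (z : ZMod Q) = (x : ZMod Q) then (1 : ℝ) else 0)
      (fun z _ => by split_ifs <;> norm_num) hx)
  linarith

/-- integer shift of a sum -/
theorem sum_shift (q' w : ℤ) (N : ℕ) (f : ℤ → ℝ) :
    ∑ x ∈ Ico q' (q' + N), f (x - w) = ∑ x ∈ Ico (q' - w) (q' - w + N), f x := by
  refine Finset.sum_bij (fun (x : ℤ) _ => x - w) ?_ ?_ ?_ ?_
  · intro x hx
    rw [Finset.mem_Ico] at hx ⊢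
    constructor <;> linarith [hx.1, hx.2]
  · intro a _ b _ hab; linarith
  · intro x hx
    refine ⟨x + w, ?_, by ring⟩
    rw [Finset.mem_Ico] at hx ⊢
    constructor <;> linarith [hx.1, hx.2]
  · intro x hx; rfl

/-- operator bound on one window -/
theorem opLe_em {N : ℕ} (hN : N ≤ Q) (w : ℤ) (C : ℤ → ℤ → ℝ) {q p : ZMod Q} {q' p' : ℤ}
    (hqc : (q' : ZMod Q) = q) (hpc : (p' : ZMod Q) = p)
    (hq : ∀ x ∈ Ico q' (q' + N), ((x : ℤ) : ZMod Q).valMinAbs = x)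
    (hp : ∀ x ∈ Ico p' (p' + N), ((x : ℤ) : ZMod Q).valMinAbs = x) {c : ℝ} (hc : 0 ≤ c)
    (hop : OpZ C N (q' - w) p' c) : OpLe (box (emC Q w C) N q p) c := by
  refine ⟨hc, fun v => ?_⟩
  set u : ZMod Q → ℝ := fun x => ∑ y, box (emC Q w C) N q p x y * v y with hu
  have hu0 : ∀ x, ¬ win N q x → u x = 0 := by
    intro x hx
    refine Finset.sum_eq_zero fun y _ => ?_
    rw [box_apply, if_neg (fun hh => hx hh.1), zero_mul]
  have e1 : ∑ x, u x ^ 2 = ∑ x ∈ Ico q' (q' + N), u (x : ZMod Q) ^ 2 := by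
    rw [← win_sum hN q q' hqc (fun x => u x ^ 2)]
    refine Finset.sum_congr rfl fun x _ => ?_
    split_ifs with hx
    · rfl
    · rw [hu0 x hx]; norm_num
  have e2 : ∀ x ∈ Ico q' (q' + (N : ℤ)), u (x : ZMod Q) =
      ∑ y ∈ Ico p' (p' + N), C (x - w) y * v (y : ZMod Q) := by
    intro x hx
    have hxw : win N q (x : ZMod Q) := win_cast hN hqc hx
    have e3 := win_sum hN p p' hpc (fun y => emC Q w C (x : ZMod Q) y * v y)
    have e4 : u (x : ZMod Q) = ∑ y : ZMod Q,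
        (if win N p y then emC Q w C (x : ZMod Q) y * v y else 0) := by
      refine Finset.sum_congr rfl fun y _ => ?_
      rw [box_apply]
      by_cases hy : win N p y
      · rw [if_pos ⟨hxw, hy⟩, if_pos hy]
      · rw [if_neg (fun hh => hy hh.2), if_neg hy, zero_mul]
    rw [e4, e3]
    refine Finset.sum_congr rfl fun y hy => ?_
    unfold emC
    rw [hq x hx, hp y hy]
  have e5 : ∑ x, u x ^ 2 = ∑ x ∈ Ico (q' - w) (q' - w + N),
      ∑ y ∈ Ico p' (p' + N), u ((x + w : ℤ) : ZMod Q) * C x y * v (y : ZMod Q) := by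
    rw [← sum_shift q' w N (fun x => ∑ y ∈ Ico p' (p' + (N : ℤ)),
      u ((x + w : ℤ) : ZMod Q) * C x y * v (y : ZMod Q)), e1]
    refine Finset.sum_congr rfl fun x hx => ?_
    rw [sub_add_cancel]
    have h := e2 x hx
    calc u (x : ZMod Q) ^ 2 = u (x : ZMod Q) * ∑ y ∈ Ico p' (p' + (N : ℤ)),
          C (x - w) y * v (y : ZMod Q) := by rw [← h, sq]
      _ = _ := by
        rw [Finset.mul_sum]
        exact Finset.sum_congr rfl fun y _ => by ring
  have e7 : ∑ x ∈ Ico (q' - w) (q' - w + N), u ((x + w : ℤ) : ZMod Q) ^ 2 = ∑ x, u x ^ 2 := by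
    rw [← sum_shift q' w N (fun x => u ((x + w : ℤ) : ZMod Q) ^ 2), e1]
    refine Finset.sum_congr rfl fun x hx => ?_
    rw [sub_add_cancel]
  have e8 : ∑ y ∈ Ico p' (p' + (N : ℤ)), v (y : ZMod Q) ^ 2 ≤ ∑ y, v y ^ 2 := by
    rw [← win_sum hN p p' hpc (fun y => v y ^ 2)]
    refine Finset.sum_le_sum fun y _ => ?_
    split_ifs
    · exact le_rfl
    · positivity
  have h6 := hop (fun x => u ((x + w : ℤ) : ZMod Q)) (fun y => v (y : ZMod Q))
  rw [← e5, e7] at h6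
  change ∑ x, u x ^ 2 ≤ _
  set X := ∑ x, u x ^ 2 with hX
  have hX0 : 0 ≤ X := Finset.sum_nonneg fun _ _ => sq_nonneg _
  have hV0 : 0 ≤ ∑ y, v y ^ 2 := Finset.sum_nonneg fun _ _ => sq_nonneg _
  have h7 : X ^ 2 ≤ c ^ 2 * (X * ∑ y, v y ^ 2) :=
    h6.trans (mul_le_mul_of_nonneg_left (mul_le_mul_of_nonneg_left e8 hX0) (sq_nonneg _))
  rcases hX0.eq_or_lt with h0 | h0
  · rw [← h0]; positivity
  · have h8 : X * X ≤ (c ^ 2 * ∑ y, v y ^ 2) * X := by nlinarith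
    exact le_of_mul_le_mul_right h8 h0

/-- energy of one window -/
theorem hs_em {N : ℕ} (hN : N ≤ Q) (w : ℤ) (C : ℤ → ℤ → ℝ) {q p : ZMod Q} {q' p' : ℤ}
    (hqc : (q' : ZMod Q) = q) (hpc : (p' : ZMod Q) = p)
    (hq : ∀ x ∈ Ico q' (q' + N), ((x : ℤ) : ZMod Q).valMinAbs = x)
    (hp : ∀ x ∈ Ico p' (p' + N), ((x : ℤ) : ZMod Q).valMinAbs = x) :
    hs2 (box (emC Q w C) N q p) =
      ∑ x ∈ Ico (q' - w) (q' - w + N), ∑ y ∈ Ico p' (p' + N), C x y ^ 2 := by
  unfold hs2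
  rw [← sum_shift q' w N (fun x => ∑ y ∈ Ico p' (p' + (N : ℤ)), C x y ^ 2)]
  have e1 : ∑ x : ZMod Q, ∑ y : ZMod Q, box (emC Q w C) N q p x y ^ 2 =
      ∑ x : ZMod Q, (if win N q x then (∑ y : ZMod Q,
        (if win N p y then emC Q w C x y ^ 2 else 0)) else 0) := by
    refine Finset.sum_congr rfl fun x _ => ?_
    split_ifs with hx
    · refine Finset.sum_congr rfl fun y _ => ?_
      rw [box_apply]
      split_ifs with h1 h2 h2
      · rfl
      · exact absurd h1.2 h2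
      · exact absurd ⟨hx, h2⟩ h1
      · norm_num
    · refine Finset.sum_eq_zero fun y _ => ?_
      rw [box_apply, if_neg (fun hh => hx hh.1)]
      norm_num
  rw [e1, win_sum hN q q' hqc]
  refine Finset.sum_congr rfl fun x hx => ?_
  rw [win_sum hN p p' hpc]
  refine Finset.sum_congr rfl fun y hy => ?_
  unfold emC
  rw [hq x hx, hp y hy]

end windows

/-! ### alive boxes -/

section alive

variable {Q : ℕ} [NeZero Q]

/-- kernels on `ZMod Q` -/
def emF (Q : ℕ) [NeZero Q] (A : ℤ → ℤ → ℝ) : Mx Q := fun x y => A x.valMinAbs y.valMinAbs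

/-- alive boxes on `ZMod Q` -/
def emA (Q : ℕ) [NeZero Q] (w : ℤ) (al : ℕ → ℤ → ℤ → Prop) (m : ℕ) (q p : ZMod Q) : Prop :=
  al m (q.valMinAbs - w) p.valMinAbs

/-- small integers are their own representatives -/
def Sm (Q : ℕ) [NeZero Q] (U : ℕ) : Prop :=
  ∀ x : ℤ, |x| ≤ 2 * U → ((x : ℤ) : ZMod Q).valMinAbs = x

theorem Sm_of {U : ℕ} (h : 4 * U < Q) : Sm Q U := by
  intro x hx
  apply vma
  have : (4 * U : ℤ) < Q := by exact_mod_cast h
  linarith

theorem st_em {U : ℕ} (hU : Sm Q U) (q : ZMod Q) (m a : ℕ) (hq : |q.valMinAbs| ≤ U)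
    (ha : a * 2 ^ m ≤ U) : (q + st m a).valMinAbs = q.valMinAbs + (a : ℤ) * 2 ^ m := by
  have e : q + st m a = ((q.valMinAbs + (a : ℤ) * 2 ^ m : ℤ) : ZMod Q) := by
    unfold Crest.Agent.R079.CRdefx253.st
    push_cast
    ring
  rw [e]
  apply hU
  have h1 : |(a : ℤ) * 2 ^ m| ≤ U := by
    rw [abs_of_nonneg (by positivity)]
    exact_mod_cast ha
  have h2 := abs_add_le q.valMinAbs ((a : ℤ) * 2 ^ m)
  linarith

theorem win_em {U N : ℕ} (hU : Sm Q U) (hN : N ≤ U) {q' : ℤ} (hq : |q'| ≤ U) :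
    ∀ x ∈ Ico q' (q' + (N : ℤ)), ((x : ℤ) : ZMod Q).valMinAbs = x := by
  intro x hx
  rw [Finset.mem_Ico] at hx
  apply hU
  have h1 : (N : ℤ) ≤ U := by exact_mod_cast hN
  rw [abs_le] at hq ⊢
  constructor <;> linarith [hx.1, hx.2, hq.1, hq.2]

theorem near_em {U D L : ℕ} (hU : Sm Q U) (hD : D * 2 ^ L ≤ U) {c q : ZMod Q}
    (hq : |q.valMinAbs| ≤ U) (hs : ∃ s : ℤ, |s| ≤ D * 2 ^ L ∧ q = c + (s : ZMod Q)) :
    |q.valMinAbs - c.valMinAbs| ≤ D * 2 ^ L := by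
  obtain ⟨s, hs1, hs2⟩ := hs
  have hs4 : |s| ≤ U := hs1.trans (by exact_mod_cast hD)
  have e : ((q.valMinAbs - s : ℤ) : ZMod Q) = c := by
    push_cast
    rw [hs2]
    ring
  have h7 := hU (q.valMinAbs - s) (by
    have := abs_sub q.valMinAbs s
    linarith)
  rw [e] at h7
  rw [h7]
  rw [show q.valMinAbs - (q.valMinAbs - s) = s by ring]
  exact hs1

theorem exit_em {U M' k' : ℕ} (hU : Sm Q U) (w : ℤ) {al : ℕ → ℤ → ℤ → Prop}
    (hdom : ∀ m q p, al m q p → m < M' ∧ |q + w| ≤ U ∧ |p| ≤ U) (hM : 2 ^ M' ≤ U) {m : ℕ}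
    {q p : ZMod Q} (h : Exit (emA Q w al) k' m q p) :
    m + k' < M' ∧ |q.valMinAbs| ≤ U ∧ |p.valMinAbs| ≤ U ∧
      ExitZ al k' m (q.valMinAbs - w) p.valMinAbs := by
  obtain ⟨h1, a, ha, b, hb, h2⟩ := h
  obtain ⟨h3, h4, h5⟩ := hdom _ _ _ h1
  rw [sub_add_cancel] at h4
  have hle : ∀ a, a < 2 ^ k' → a * 2 ^ m ≤ U := by
    intro a ha
    calc a * 2 ^ m ≤ 2 ^ k' * 2 ^ m := Nat.mul_le_mul_right _ ha.le
      _ = 2 ^ (m + k') := by rw [pow_add]; ring
      _ ≤ 2 ^ M' := Nat.pow_le_pow_right (by norm_num) h3.le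
      _ ≤ U := hM
  refine ⟨h3, h4, h5, h1, a, b, ha, hb, ?_⟩
  intro hal
  apply h2
  unfold emA
  rw [st_em hU q m a h4 (hle a ha), st_em hU p m b h5 (hle b hb)]
  have : q.valMinAbs + (a : ℤ) * 2 ^ m - w = q.valMinAbs - w + (a : ℤ) * 2 ^ m := by ring
  rw [this]
  exact hal

theorem inj1 (w : ℤ) : Function.Injective fun q : ZMod Q => q.valMinAbs - w := fun a b hab => by
  have : a.valMinAbs = b.valMinAbs := by simpa using hab
  exact ZMod.injective_valMinAbs this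

/-- counting through the injection -/
theorem count_em (w : ℤ) (P : ZMod Q → ZMod Q → Prop) [∀ q p, Decidable (P q p)] (X Y : Finset ℤ)
    (R : ℤ → ℤ → Prop) [∀ q p, Decidable (R q p)]
    (h : ∀ q p, P q p → q.valMinAbs - w ∈ X ∧ p.valMinAbs ∈ Y ∧ R (q.valMinAbs - w) p.valMinAbs) :
    ∑ q : ZMod Q, ∑ p : ZMod Q, (if P q p then (1 : ℝ) else 0) ≤
      ∑ x ∈ X, ∑ y ∈ Y, (if R x y then (1 : ℝ) else 0) := by
  set f : ℤ → ℤ → ℝ := fun x y => if x ∈ X ∧ y ∈ Y ∧ R x y then (1 : ℝ) else 0 with hf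
  have h1 : ∀ q p : ZMod Q, (if P q p then (1 : ℝ) else 0) ≤
      f (q.valMinAbs - w) p.valMinAbs := by
    intro q p
    rw [hf]
    simp only
    by_cases hP : P q p
    · rw [if_pos hP, if_pos (h q p hP)]
    · rw [if_neg hP]; split_ifs <;> norm_num
  refine (Finset.sum_le_sum fun q _ => Finset.sum_le_sum fun p _ => h1 q p).trans ?_
  refine (zsum_le _ _ (inj1 w) ZMod.injective_valMinAbs f (fun x y => by
    rw [hf]; simp only; split_ifs <;> norm_num) X Y ?_).trans ?_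
  · intro x y hxy
    rw [hf] at hxy
    simp only at hxy
    by_contra hne
    apply hxy
    rw [if_neg (fun hh => hne ⟨hh.1, hh.2.1⟩)]
  · refine Finset.sum_le_sum fun x hx => Finset.sum_le_sum fun y hy => ?_
    rw [hf]
    simp only
    by_cases hE : R x y
    · rw [if_pos hE]; split_ifs <;> norm_num
    · rw [if_neg hE, if_neg (fun hh => hE hh.2.2)]

open Classical in
theorem reg_em {U M' M D : ℕ} (hU : Sm Q U) (w : ℤ) {C : ℤ → ℤ → ℝ} {al : ℕ → ℤ → ℤ → Prop}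
    {S0 : ℕ} {τ C1 : ℝ} (hτ : 0 ≤ τ) (hD : D ≤ 31)
    (hdom : ∀ m q p, al m q p → m < M' ∧ |q + w| ≤ U ∧ |p| ≤ U) (hMM : M' ≤ M)
    (hM : 31 * 2 ^ M ≤ U) (hUQ : U ≤ Q) (hReg : RegZ C al M' 6 31 S0 τ C1) :
    Reg (emC Q w C) (emA Q w al) M 6 D τ C1 := by
  have hMU : 2 ^ M' ≤ U := by
    have : 2 ^ M' ≤ 2 ^ M := Nat.pow_le_pow_right (by norm_num) hMM
    omega
  constructor
  · intro m hm q p hal
    have hal' : al m (q.valMinAbs - w) p.valMinAbs := hal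
    obtain ⟨h1, h2, h3⟩ := hdom m _ _ hal'
    rw [sub_add_cancel] at h2
    have hN : 2 ^ m ≤ U := by
      have : 2 ^ m ≤ 2 ^ M := Nat.pow_le_pow_right (by norm_num) hm.le
      omega
    have h4 := opLe_em (N := 2 ^ m) (hN.trans hUQ) w C (ZMod.coe_valMinAbs q) (ZMod.coe_valMinAbs p)
      (win_em hU hN h2) (win_em hU hN h3) (c := 2 ^ m * τ) (by positivity) (hReg.op m _ _ hal')
    exact h4
  · intro k' hk' L hL c d
    refine le_trans ?_ (hReg.ex k' hk' L (c.valMinAbs - w) d.valMinAbs)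
    refine Finset.sum_le_sum fun m hm => ?_
    have hDL : D * 2 ^ L ≤ U := by
      have h1 : 2 ^ L ≤ 2 ^ M := Nat.pow_le_pow_right (by norm_num) hL
      calc D * 2 ^ L ≤ 31 * 2 ^ M := Nat.mul_le_mul hD h1
        _ ≤ U := hM
    have h31 : (D : ℤ) * 2 ^ L ≤ 31 * 2 ^ L :=
      mul_le_mul_of_nonneg_right (by exact_mod_cast hD) (by positivity)
    refine count_em (Q := Q) w _ _ _ (ExitZ al k' m) ?_
    rintro q p ⟨h2, h3, h4⟩
    obtain ⟨h5, h6, h7, h8⟩ := exit_em hU w hdom hMU h4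
    have h9 := abs_le.1 (near_em hU hDL h6 h3.1)
    have h10 := abs_le.1 (near_em hU hDL h7 h3.2)
    refine ⟨?_, ?_, h8⟩
    · rw [Finset.mem_Icc]; push_cast; constructor <;> linarith [h9.1, h9.2]
    · rw [Finset.mem_Icc]; push_cast; constructor <;> linarith [h10.1, h10.2]

open Classical in
theorem last_em {U M' M : ℕ} (hU : Sm Q U) (w : ℤ) {C : ℤ → ℤ → ℝ} {al : ℕ → ℤ → ℤ → Prop}
    {S0 : ℕ} {E0 Ar : ℝ}
    (hdom0 : ∀ m q p, al m q p → m < M' ∧ |q| ≤ S0 ∧ |p| ≤ S0)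
    (hdom : ∀ m q p, al m q p → m < M' ∧ |q + w| ≤ U ∧ |p| ≤ U) (hMM : M' ≤ M)
    (hM : 31 * 2 ^ M ≤ U) (hUQ : U ≤ Q) (hLast : LastZ C al M' 6 S0 E0 Ar) :
    Last (emC Q w C) (emA Q w al) M 6 E0 Ar := by
  have hMU : 2 ^ M' ≤ U := by
    have : 2 ^ M' ≤ 2 ^ M := Nat.pow_le_pow_right (by norm_num) hMM
    omega
  constructor
  · intro m hm q p hal
    have hal' : al m (q.valMinAbs - w) p.valMinAbs := hal
    obtain ⟨h1, h2, h3⟩ := hdom m _ _ hal'
    rw [sub_add_cancel] at h2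
    have hN : 2 ^ m ≤ U := by
      have : 2 ^ m ≤ 2 ^ M := Nat.pow_le_pow_right (by norm_num) hm.le
      omega
    rw [hs_em (N := 2 ^ m) (hN.trans hUQ) w C (ZMod.coe_valMinAbs q) (ZMod.coe_valMinAbs p)
      (win_em hU hN h2) (win_em hU hN h3)]
    have := hLast.hs m _ _ hal'
    push_cast
    exact this
  · intro m hm
    refine le_trans (count_em (Q := Q) w _ _ _ (al m) ?_) (hLast.ar m)
    intro q p hal
    have hal' : al m (q.valMinAbs - w) p.valMinAbs := hal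
    obtain ⟨h1, h2, h3⟩ := hdom0 m _ _ hal'
    exact ⟨Finset.mem_Icc.2 (abs_le.1 h2), Finset.mem_Icc.2 (abs_le.1 h3), hal'⟩
  · intro k' hk'
    refine le_trans ?_ (hLast.ex k' hk')
    have hsub : range M' ⊆ range M := by
      intro a ha
      rw [Finset.mem_range] at *
      omega
    rw [← Finset.sum_subset hsub]
    · refine Finset.sum_le_sum fun m hm => ?_
      refine count_em (Q := Q) w _ _ _ (ExitZ al k' m) ?_
      rintro q p ⟨h2, h4⟩
      obtain ⟨h5, h6, h7, h8⟩ := exit_em hU w hdom hMU h4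
      obtain ⟨_, h9, h10⟩ := hdom0 _ _ _ h8.1
      exact ⟨Finset.mem_Icc.2 (abs_le.1 h9), Finset.mem_Icc.2 (abs_le.1 h10), h8⟩
    · intro m _ hm
      refine Finset.sum_eq_zero fun q _ => Finset.sum_eq_zero fun p _ => ?_
      rw [if_neg]
      rintro ⟨h2, h4⟩
      obtain ⟨h5, _⟩ := exit_em hU w hdom hMU h4
      apply hm
      rw [Finset.mem_range]
      omega

end alive

/-! ### the final transfer -/

section final

variable {Q : ℕ} [NeZero Q]

theorem Tb_eq_Lbox (A B C : Mx Q) (N : ℕ) (p0 p1 p2 : ZMod Q) :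
    Tb A B C N p0 p1 p2 = Crest.Agent.R072.Lattice.Lbox A B C N p0 p1 p2 := by
  unfold Crest.Agent.R079.CRdefx253.Tb Crest.Agent.R072.Lattice.Lbox
  push_cast
  rfl

open Classical in
/-- one scale, one offset -/
theorem one_em {U L1 : ℕ} (hU : Sm Q U) {m M' : ℕ} (w : ℤ) (A B C : ℤ → ℤ → ℝ)
    (al : ℕ → ℤ → ℤ → Prop) (l : ℤ) (hl : |l| ≤ 7) (hbig : 2 * L1 + 16 * 2 ^ m ≤ U)
    (hUQ : 4 * U < Q) (i : ℕ) (hi : i < 2 ^ m) :
    ∑ p0 ∈ Icc (-(L1 : ℤ)) L1, ∑ p1 ∈ Icc (-(L1 : ℤ)) L1,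
      (if Al4Z al m (l * 2 ^ m + (i : ℤ) - w - p0 - p1) p0 then
        |Lb3r A B C (2 ^ m) p0 p1 (l * 2 ^ m + (i : ℤ) - w - p0 - p1)| else 0) ≤
    ∑ p0 : ZMod Q, ∑ p1 : ZMod Q,
      (if Al4 (emA Q w al) m ((l : ZMod Q) * ((2 ^ m : ℕ) : ZMod Q) + (i : ZMod Q) - p0 - p1) p0 then
        |Tb (emF Q A) (emF Q fun x y => B x (y - w)) (emC Q w C) (2 ^ m) p0 p1
          ((l : ZMod Q) * ((2 ^ m : ℕ) : ZMod Q) + (i : ZMod Q) - p0 - p1)| else 0) := by
  set n : ZMod Q := (l : ZMod Q) * ((2 ^ m : ℕ) : ZMod Q) + (i : ZMod Q) with hn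
  set f : ZMod Q → ZMod Q → ℝ := fun p0 p1 =>
    (if Al4 (emA Q w al) m (n - p0 - p1) p0 then
        |Tb (emF Q A) (emF Q fun x y => B x (y - w)) (emC Q w C) (2 ^ m) p0 p1 (n - p0 - p1)|
      else 0) with hf
  have hf0 : ∀ p0 p1, 0 ≤ f p0 p1 := by
    intro p0 p1
    rw [hf]; simp only
    split_ifs
    · exact abs_nonneg _
    · exact le_rfl
  have hUz : (2 * L1 + 16 * 2 ^ m : ℤ) ≤ U := by exact_mod_cast hbig
  have hQz : (4 * U : ℤ) < Q := by exact_mod_cast hUQ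
  have hL10 : (0 : ℤ) ≤ L1 := by positivity
  have hP0 : (0 : ℤ) < 2 ^ m := by positivity
  have hi0 : (0 : ℤ) ≤ i := by positivity
  have hiz : (i : ℤ) < 2 ^ m := by exact_mod_cast hi
  have e1 : ∀ p0 ∈ Icc (-(L1 : ℤ)) L1, ∀ p1 ∈ Icc (-(L1 : ℤ)) L1,
      (if Al4Z al m (l * 2 ^ m + (i : ℤ) - w - p0 - p1) p0 then
        |Lb3r A B C (2 ^ m) p0 p1 (l * 2 ^ m + (i : ℤ) - w - p0 - p1)| else 0) ≤
        f (p0 : ZMod Q) (p1 : ZMod Q) := by
    intro p0 h0 p1 h1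
    have hp0 : |p0| ≤ L1 := abs_le.2 (by simpa using Finset.mem_Icc.mp h0)
    have hp1 : |p1| ≤ L1 := abs_le.2 (by simpa using Finset.mem_Icc.mp h1)
    have hlm : |l * 2 ^ m| ≤ 7 * 2 ^ m := by
      rw [abs_mul, abs_of_pos hP0]
      exact mul_le_mul_of_nonneg_right hl hP0.le
    set p2 : ℤ := l * 2 ^ m + (i : ℤ) - p0 - p1 with hp2d
    have hp2 : |p2| ≤ 8 * 2 ^ m + 2 * L1 := by
      rw [abs_le] at hlm hp0 hp1 ⊢
      constructor <;> linarith [hlm.1, hlm.2, hp0.1, hp0.2, hp1.1, hp1.2]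
    have hcast : n - (p0 : ZMod Q) - (p1 : ZMod Q) = (p2 : ZMod Q) := by
      rw [hn, hp2d]; push_cast; rfl
    have e2 : l * 2 ^ m + (i : ℤ) - w - p0 - p1 = p2 - w := by rw [hp2d]; ring
    rw [e2]
    by_cases hal : Al4Z al m (p2 - w) p0
    · rw [if_pos hal, hf]
      simp only
      rw [hcast]
      have hal2 : Al4 (emA Q w al) m (p2 : ZMod Q) (p0 : ZMod Q) := by
        intro a ha b hb
        have h3 := hal a b ha hb
        unfold emA
        have h4 : ((p2 : ZMod Q) + st m a) = ((p2 + (a : ℤ) * 2 ^ m : ℤ) : ZMod Q) := by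
          unfold Crest.Agent.R079.CRdefx253.st
          push_cast
          ring
        have h5 : ((p0 : ZMod Q) + st m b) = ((p0 + (b : ℤ) * 2 ^ m : ℤ) : ZMod Q) := by
          unfold Crest.Agent.R079.CRdefx253.st
          push_cast
          ring
        have ha1 : (a : ℤ) ≤ 1 := by exact_mod_cast Nat.lt_succ_iff.1 ha
        have hb1 : (b : ℤ) ≤ 1 := by exact_mod_cast Nat.lt_succ_iff.1 hb
        have ha0 : (0 : ℤ) ≤ a := by positivity
        have hb0 : (0 : ℤ) ≤ b := by positivity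
        have h6 : |(a : ℤ) * 2 ^ m| ≤ 2 ^ m := by
          rw [abs_of_nonneg (by positivity)]; nlinarith
        have h7 : |(b : ℤ) * 2 ^ m| ≤ 2 ^ m := by
          rw [abs_of_nonneg (by positivity)]; nlinarith
        have h8 := abs_add_le p2 ((a : ℤ) * 2 ^ m)
        have h9 := abs_add_le p0 ((b : ℤ) * 2 ^ m)
        rw [h4, h5, hU _ (by linarith), hU _ (by linarith)]
        have h10 : p2 + (a : ℤ) * 2 ^ m - w = p2 - w + (a : ℤ) * 2 ^ m := by ring
        rw [h10]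
        exact h3
      rw [if_pos hal2]
      have h11 : Tb (emF Q A) (emF Q fun x y => B x (y - w)) (emC Q w C) (2 ^ m) (p0 : ZMod Q)
          (p1 : ZMod Q) (p2 : ZMod Q) = Crest.Agent.R072.Lattice.Lbox (em Q A)
          (em Q fun x y => B x (y - w)) (em Q fun x y => C (x - w) y) (2 ^ m) (p0 : ZMod Q)
          (p1 : ZMod Q) (p2 : ZMod Q) := Tb_eq_Lbox _ _ _ _ _ _ _
      have hNz : ((2 ^ m : ℕ) : ℤ) = 2 ^ m := by push_cast; rfl
      rw [h11, Lbox_em _ _ _ _ _ _ _ (by rw [hNz]; linarith) (by rw [hNz]; linarith)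
        (by rw [hNz]; linarith)]
      have h12 := Lb3r_shift A B C (2 ^ m) w p0 p1 (p2 - w)
      rw [sub_add_cancel] at h12
      rw [h12]
    · rw [if_neg hal]
      exact hf0 _ _
  have hLQ : 2 * L1 < Q := by
    have : 2 * L1 ≤ U := le_trans (Nat.le_add_right _ _) hbig
    omega
  have e3 : ∑ p0 ∈ Icc (-(L1 : ℤ)) L1, ∑ p1 ∈ Icc (-(L1 : ℤ)) L1,
      (if Al4Z al m (l * 2 ^ m + (i : ℤ) - w - p0 - p1) p0 then
        |Lb3r A B C (2 ^ m) p0 p1 (l * 2 ^ m + (i : ℤ) - w - p0 - p1)| else 0) ≤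
      ∑ p0 ∈ Icc (-(L1 : ℤ)) L1, (fun q => ∑ z : ZMod Q, f q z) (p0 : ZMod Q) := by
    refine Finset.sum_le_sum fun p0 h0 => ?_
    refine (Finset.sum_le_sum fun p1 h1 => e1 p0 h0 p1 h1).trans ?_
    exact sum_int_le (f (p0 : ZMod Q)) (hf0 _) L1 hLQ
  exact e3.trans (sum_int_le (fun q => ∑ z : ZMod Q, f q z)
    (fun q => Finset.sum_nonneg fun z _ => hf0 q z) L1 hLQ)

/-- total energy through the embedding -/
theorem en_em (sy : ℤ) (A : ℤ → ℤ → ℝ) (S0 : ℕ) (hA : ∀ x y, A x y ≠ 0 → |x| ≤ S0 ∧ |y| ≤ S0) :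
    ∑ x : ZMod Q, ∑ y : ZMod Q, emF Q (fun x y => A x (y - sy)) x y ^ 2 ≤
      ∑ x ∈ Icc (-(S0 : ℤ)) S0, ∑ y ∈ Icc (-(S0 : ℤ)) S0, A x y ^ 2 := by
  refine zsum_le (fun q : ZMod Q => q.valMinAbs) (fun q => q.valMinAbs - sy)
    ZMod.injective_valMinAbs (inj1 sy) (fun x y => A x y ^ 2) (fun x y => sq_nonneg _) _ _ ?_
  intro x y hxy
  have : A x y ≠ 0 := fun h => hxy (by simp only [h]; norm_num)
  obtain ⟨h1, h2⟩ := hA x y this
  exact ⟨Finset.mem_Icc.2 (abs_le.1 h1), Finset.mem_Icc.2 (abs_le.1 h2)⟩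

end final

/-- **[KT]** : the ragged corner on `ℤ` -/
theorem cornerZ_of_cornerR (hCR : CornerR) : CornerZ := by
  classical
  intro l hl C1
  have hl7 : l.natAbs ≤ 7 := by
    have : (l.natAbs : ℤ) ≤ 7 := by rw [Int.natCast_natAbs]; exact hl
    exact_mod_cast this
  obtain ⟨K, hK0, hK⟩ := hCR 6 l (by norm_num; linarith) C1
  refine ⟨K, hK0, ?_⟩
  intro M' J S0 A B C al w a2 b2 r τ E0 Ar ha2 hb2 hr hτ hA hB hC hA2 hB2 hAs hBs hReg hLast hJ L1
  -- sizes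
  set M : ℕ := M' + 7 with hM
  set U : ℕ := S0 + w.natAbs + 2 * L1 + 64 * 2 ^ M with hU
  set Q : ℕ := 2 ^ M * (4 * U + 1) with hQ
  have hN0pos : 0 < 2 ^ M := by positivity
  have hQpos : 0 < Q := by rw [hQ]; positivity
  have : NeZero Q := ⟨hQpos.ne'⟩
  have hUQ : 4 * U < Q := by
    rw [hQ]
    calc 4 * U < 4 * U + 1 := Nat.lt_succ_self _
      _ = 1 * (4 * U + 1) := (one_mul _).symm
      _ ≤ 2 ^ M * (4 * U + 1) := Nat.mul_le_mul_right _ hN0pos
  have hSm : Sm Q U := Sm_of hUQ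
  have hdom0 : ∀ m q p, al m q p → m < M' ∧ |q| ≤ S0 ∧ |p| ≤ S0 := hReg.dom
  have hUS : (S0 : ℤ) + |w| ≤ U := by
    have : S0 + w.natAbs ≤ U := by rw [hU]; omega
    have h2 : ((S0 + w.natAbs : ℕ) : ℤ) ≤ U := by exact_mod_cast this
    rw [Nat.cast_add, Int.natCast_natAbs] at h2
    exact h2
  have hdom : ∀ m q p, al m q p → m < M' ∧ |q + w| ≤ U ∧ |p| ≤ U := by
    intro m q p h
    obtain ⟨h1, h2, h3⟩ := hdom0 m q p h
    refine ⟨h1, ?_, ?_⟩
    · have := abs_add_le q w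
      linarith
    · have := abs_nonneg w
      linarith
  have hMU : 31 * 2 ^ M ≤ U := by rw [hU]; omega
  have hUQ' : U ≤ Q := by omega
  have hR : Reg (emC Q w C) (emA Q w al) M 6 (l.natAbs + 24) τ C1 :=
    reg_em hSm w hτ.le (by omega) hdom (by omega) hMU hUQ' hReg
  have hL : Last (emC Q w C) (emA Q w al) M 6 E0 Ar :=
    last_em hSm w hdom0 hdom (by omega) hMU hUQ' hLast
  have hAe : ∑ x : ZMod Q, ∑ y : ZMod Q, emF Q A x y ^ 2 ≤ a2 := by
    have := en_em (Q := Q) 0 A S0 hA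
    simp only [sub_zero] at this
    exact this.trans hA2
  have hBe := (en_em (Q := Q) w B S0 hB).trans hB2
  have hmain := hK Q M M' J (emF Q A) (emF Q fun x y => B x (y - w)) (emC Q w C) (emA Q w al)
    a2 b2 r τ E0 Ar ⟨_, rfl⟩ (by omega) ha2 hb2 hr hτ hAe hBe (fun x y => hAs _ _)
    (fun x y => hBs _ _) hR hL hJ
  refine le_trans ?_ hmain
  unfold Crest.Agent.R079.CRdefx253.SA
  refine Finset.sum_le_sum fun m hm => ?_
  rw [Finset.mem_range] at hm
  unfold Crest.Agent.R079.PotL.bl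
  have e : (1 / (2 : ℝ) ^ m) = 1 / (((2 ^ m : ℕ) : ℝ)) := by push_cast; rfl
  rw [e]
  refine mul_le_mul_of_nonneg_left (Finset.sum_le_sum fun i hi => ?_) (by positivity)
  rw [Finset.mem_range] at hi
  refine (one_em (M' := M') hSm w A B C al l hl ?_ hUQ i hi).trans (le_of_eq ?_)
  · have : 2 ^ m ≤ 2 ^ M := Nat.pow_le_pow_right (by norm_num) (by omega)
    rw [hU]; omega
  · refine Finset.sum_congr rfl fun p0 _ => Finset.sum_congr rfl fun p1 _ => ?_
    congr 1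

end Crest.Agent.R079.KTx279
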