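import Crest.Agent.R079.CKu_217
import Crest.Agent.R079.KT_279
import Crest.Agent.R079.CRfin_253

/-! R079 (helper217), CELLKILL part 8: HIGH, unconditional, in the form used by the assembly. -/

set_option autoImplicit false

namespace Crest.Agent.R079.CKk217

open Finset Crest.Agent.R079.Grid Crest.Agent.R079.Glue Crest.Agent.R079.Growth
  Crest.Agent.R079.QRed Crest.Agent.R079.KLx446 Crest.Agent.R079.CKgx37

theorem cornerZ : CornerZ := KTx279.cornerZ_of_cornerR CRfinx253.cornerR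

/-- **HighN** of the assembly -/
theorem highN_TR : ∃ K : ℝ, 0 ≤ K ∧ ∀ (i m a : Fin 4), i ≠ m → i ≠ a → m ≠ a → i ≠ 3 → m ≠ 3 → a ≠ 3 →
    ∀ (bb : ℤ) (ε : ℕ → ℤ → ℂ), Adm bb ε → ∀ (W : Finset Nd) (I : Nd), Full W I →
    ∀ (F : Fin 4 → Fn) (h V cap Hc Hx M3 : ℝ) (s0 b0 : ℤ) (S : Finset ℤ) (w : ℤ → ℝ) (u c : ℤ → ℂ)
      (ξ : ℤ → ℝ), 1 ≤ h → 1 ≤ cap → 1 ≤ Hc → 1 ≤ Hx → 0 < M3 →
    GrpD (lenN I) V cap Hc s0 b0 S w u c →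
    (∀ j, j ≠ i → ∀ p ∈ W, av p (F j) ≤ 1) → (∀ j, j ≠ i → ∀ y, ‖F j y‖ ≤ Hx) →
    (∀ y, ‖F 3 y‖ ≤ M3) → (∀ y ∈ iv I, F i y = grp S w u (hiC h c) ξ y) →
    ‖TR bb ε W F‖ ≤ K * (1 + Real.log (cap * Hc * Hx)) ^ 2 * (M3 * V / h) * len I := by
  obtain ⟨K, hK, hH⟩ := highN cornerZ
  refine ⟨K, hK, ?_⟩
  intro i m a him hia hma hi3 hm3 ha3 bb ε hA W I hW F h V cap Hc Hx M3 s0 b0 S w u c ξ hh hcap hHc hHx hM3
    hG hav hsup h3 hFi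
  exact (Qb247.norm_TR_le hA.2 W F).trans (hH i m 3 a ⟨him, hi3, hia, hm3, hma, Ne.symm ha3⟩ W I hW.reg
    hW.top bb hA.1 F h V cap Hc Hx M3 s0 b0 S w u c ξ hh hcap hHc hHx hM3 hG hav hsup h3 hFi)

end Crest.Agent.R079.CKk217
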