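import Crest.Agent.R079.PW_263

/-! R079 (helper112): **THE FINAL PARAMETERS** `PF x C ρ c`: all slots `g = f = 1`, cap exponent `x`,
cell parameter `C`, graded soft prices `gc j = c ρ ^ j`, `dc = 1`, `θ = 1 / (C + 2)`.

* `ok_PF`, `pos_PF`, `hst_PF` (the conditions of Step II, `ρ ≤ 1/8`);
* `target_of_PF` : the three open inputs (cells, op-atoms, Step I for the core data) for some admissible
  `x, C, ρ, c, q3` give the target. -/

set_option autoImplicit false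
set_option linter.unusedVariables false

namespace Crest.Agent.R079.NP112

open Finset Crest.Agent.R079.Grid Crest.Agent.R079.Growth Crest.Agent.R079.QRed
open Crest.Agent.R079.WS112 Crest.Agent.R079.WS0112 Crest.Agent.R079.POx263

/-- the final parameters -/
noncomputable def PF (x C ρ c : ℝ) : Prm where
  γ := fun _ => 1
  g := fun _ => 1
  x := fun _ => x
  f := fun _ => 1
  gc := fun j => c * ρ ^ (j : ℕ)
  dc := fun _ => 1
  Cc := fun _ => C
  θ := 1 / (C + 2)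

/-- exponent of the stopping in the slots (in units of `T = t ^ θ`: `c ρ ^ 3`) -/
noncomputable def dF (C ρ c : ℝ) : ℝ := 1 / (C + 2) * (c * ρ ^ 3)

/-- admissible numbers -/
structure Adm4 (x C ρ c : ℝ) : Prop where
  x0 : 1 ≤ x
  C0 : 6 ≤ C
  ρ0 : 0 < ρ
  ρ1 : ρ ≤ 1 / 8
  c0 : 0 < c
  c1 : c ≤ 1

section

variable {x C ρ c : ℝ} (h : Adm4 x C ρ c)

include h

theorem gc_le (j : Fin 4) : c * ρ ^ (j : ℕ) ≤ 1 := by
  have h1 : ρ ^ (j : ℕ) ≤ 1 := pow_le_one₀ h.ρ0.le (by have := h.ρ1; linarith)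
  have := h.c1
  have h2 : 0 ≤ ρ ^ (j : ℕ) := pow_nonneg h.ρ0.le _
  nlinarith [h.c0]

theorem gc_pos (j : Fin 4) : 0 < c * ρ ^ (j : ℕ) := mul_pos h.c0 (pow_pos h.ρ0 _)

theorem dF_pos : 0 < dF C ρ c := by
  have := h.C0
  exact mul_pos (one_div_pos.2 (by linarith)) (mul_pos h.c0 (pow_pos h.ρ0 _))

theorem θ_pos : 0 < (PF x C ρ c).θ := by
  have := h.C0
  exact one_div_pos.2 (by linarith)

theorem ok_PF : Ok0 (PF x C ρ c) := by
  have hC := h.C0
  have hθ := θ_pos h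
  have hx := h.x0
  have key : ∀ {a : ℝ}, a ≤ C + 2 → (PF x C ρ c).θ * a ≤ 1 := by
    intro a ha
    show 1 / (C + 2) * a ≤ 1
    rw [div_mul_eq_mul_div, one_mul, div_le_one (by linarith)]
    exact ha
  refine ⟨fun j => zero_le_one, fun j => ?_, fun j => zero_le_one, fun j => (gc_pos h j).le,
    fun j => zero_le_one, fun j => ?_, hθ, fun j => key ?_, fun j => key ?_⟩
  · show 0 ≤ x
    linarith
  · show 0 ≤ C
    linarith
  · show (1 : ℝ) ≤ C + 2
    linarith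
  · show C + c * ρ ^ (j : ℕ) + 1 ≤ C + 2
    have := gc_le h j
    linarith

theorem pos_PF : Pos0 (PF x C ρ c) :=
  ⟨fun j => one_pos, fun j => lt_of_lt_of_le one_pos h.x0, fun j => one_pos⟩

/-- grading: the prices of the higher slots are smaller by a factor `ρ` -/
theorem gc_graded {i m : Fin 4} (hmi : m < i) : c * ρ ^ (i : ℕ) ≤ ρ * (c * ρ ^ (m : ℕ)) := by
  have h1 : (m : ℕ) + 1 ≤ (i : ℕ) := hmi
  have h2 : ρ ^ (i : ℕ) ≤ ρ ^ ((m : ℕ) + 1) :=
    pow_le_pow_of_le_one h.ρ0.le (by have := h.ρ1; linarith) h1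
  calc c * ρ ^ (i : ℕ) ≤ c * ρ ^ ((m : ℕ) + 1) := mul_le_mul_of_nonneg_left h2 h.c0.le
    _ = ρ * (c * ρ ^ (m : ℕ)) := by rw [pow_succ]; ring

/-- the exponent of the local `L²` norms of the frozen letter is at most `3 ρ` times the price of the
killer slot -/
theorem clx_le {i m : Fin 4} (hmi : m < i) (hi3 : i ≠ 3) :
    clx (PF x C ρ c) (dF C ρ c) i ≤ 3 * ρ * ((PF x C ρ c).θ * (PF x C ρ c).gc m) := by
  have hθ := θ_pos h
  have h1 := gc_graded h hmi
  have h2 : c * ρ ^ 3 ≤ ρ * (c * ρ ^ (m : ℕ)) := by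
    have h3 : (m : ℕ) + 1 ≤ 3 := by
      have a1 : (m : ℕ) < (i : ℕ) := hmi
      have a2 := i.2
      omega
    have h4 : ρ ^ 3 ≤ ρ ^ ((m : ℕ) + 1) :=
      pow_le_pow_of_le_one h.ρ0.le (by have := h.ρ1; linarith) h3
    calc c * ρ ^ 3 ≤ c * ρ ^ ((m : ℕ) + 1) := mul_le_mul_of_nonneg_left h4 h.c0.le
      _ = ρ * (c * ρ ^ (m : ℕ)) := by rw [pow_succ]; ring
  show 2 * (1 / (C + 2) * (c * ρ ^ (i : ℕ))) + 1 / (C + 2) * (c * ρ ^ 3) ≤
    3 * ρ * (1 / (C + 2) * (c * ρ ^ (m : ℕ)))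
  have hθ' : 0 < 1 / (C + 2) := hθ
  have h5 := mul_le_mul_of_nonneg_left h1 hθ'.le
  have h6 := mul_le_mul_of_nonneg_left h2 hθ'.le
  linarith

/-- the conditions of Step II -/
theorem hst_PF (i m : Fin 4) (hmi : m < i) (hi3 : i ≠ 3) :
    2 * clx (PF x C ρ c) (dF C ρ c) i < (PF x C ρ c).θ * (PF x C ρ c).gc m ∧
      4 * (PF x C ρ c).g i < (PF x C ρ c).Cc m - (PF x C ρ c).gc m := by
  have hθ := θ_pos h
  have hg : 0 < (PF x C ρ c).gc m := gc_pos h m
  have hp := mul_pos hθ hg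
  have h1 := clx_le h hmi hi3
  have h2 := h.ρ1
  refine ⟨?_, ?_⟩
  · have h3 : 3 * ρ * ((PF x C ρ c).θ * (PF x C ρ c).gc m) ≤
        3 / 8 * ((PF x C ρ c).θ * (PF x C ρ c).gc m) :=
      mul_le_mul_of_nonneg_right (by linarith) hp.le
    linarith
  · show 4 * (1 : ℝ) < C - c * ρ ^ (m : ℕ)
    have h3 := gc_le h m
    have h4 := h.C0
    linarith

/-- **`S0106` from the three open inputs for the final parameters** -/
theorem target_of_PF {q3 : ℝ} (hq3 : 2 < q3)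
    (hL : LeavesC (PF x C ρ c) q3 (dF C ρ c)) : L0.Target :=
  target_of_leavesC (ok_PF h) (pos_PF h) hq3 (dF_pos h) (hst_PF h) hL

end

end Crest.Agent.R079.NP112
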