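import Crest.Agent.R079.OpKd_276

/-! R079 (helper276): **OpKill**, numerical form: from the kill lemma with the profile
`PhiL C r e1 e2 e4 e5` (`s + Hf^e1 Ht^e2 D^e4 / s^e5` up to logarithms of everything). -/

set_option autoImplicit false

namespace Crest.Agent.R079.OpK276

open Finset Crest.Agent.R079.Grid Crest.Agent.R079.Growth Crest.Agent.R079.QRed
  Crest.Agent.R079.Qe292 Crest.Agent.R079.TRec Crest.Agent.R079.T6ax252
  Crest.Agent.R079.TFrz679 Crest.Agent.R079.OLevSw Crest.Agent.R079.OpS276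

/-- the profile of the kill lemma -/
noncomputable def PhiL (C : ℝ) (r : ℕ) (e1 e2 e4 e5 : ℝ) (s D Ht Hf H : ℝ) : ℝ :=
  C * (1 + Real.log (2 + Ht * Hf * H / (s * D))) ^ r *
    (s + Hf ^ e1 * Ht ^ e2 * D ^ e4 / s ^ e5)

/-- logarithms cost any power -/
theorem log_pow_le (M : ℝ) (hM : 0 ≤ M) {η : ℝ} (hη : 0 < η) : ∃ K : ℝ, 0 ≤ K ∧ ∀ t : ℝ, 0 < t →
    t ≤ 1 → 1 + Real.log (2 + t ^ (-M)) ≤ K * t ^ (-η) := by
  refine ⟨1 + Real.log 3 + M / η, by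
    have := Real.log_nonneg (show (1 : ℝ) ≤ 3 by norm_num)
    positivity, fun t ht ht1 => ?_⟩
  have h0 : 1 ≤ t ^ (-M) :=
    Real.one_le_rpow_of_pos_of_le_one_of_nonpos ht ht1 (by linarith)
  have h1 : Real.log (2 + t ^ (-M)) ≤ Real.log (3 * t ^ (-M)) :=
    Real.log_le_log (by positivity) (by linarith)
  have h2 : Real.log (3 * t ^ (-M)) = Real.log 3 + M * -Real.log t := by
    rw [Real.log_mul (by norm_num) (by positivity), Real.log_rpow ht]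
    ring
  have h3 : -Real.log t ≤ t ^ (-η) / η := by
    have h4 := Real.log_le_rpow_div (inv_pos.2 ht).le hη
    rw [Real.log_inv, Real.inv_rpow ht.le, ← Real.rpow_neg ht.le] at h4
    exact h4
  have h5 : 1 ≤ t ^ (-η) := Real.one_le_rpow_of_pos_of_le_one_of_nonpos ht ht1 (by linarith)
  have h6 : 0 ≤ Real.log 3 := Real.log_nonneg (by norm_num)
  calc 1 + Real.log (2 + t ^ (-M)) ≤ 1 + (Real.log 3 + M * (t ^ (-η) / η)) := by
        rw [h2] at h1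
        have := mul_le_mul_of_nonneg_left h3 hM
        linarith
    _ = 1 + Real.log 3 + M / η * t ^ (-η) := by ring
    _ ≤ (1 + Real.log 3) * t ^ (-η) + M / η * t ^ (-η) := by
        nlinarith
    _ = _ := by ring

/-- the profile along powers of `t` -/
theorem phiL_num {C : ℝ} (hC : 0 ≤ C) {r : ℕ} {e1 e2 e4 e5 : ℝ} {σ X u v h G : ℝ}
    (hσ0 : 0 ≤ σ) (hX : 0 ≤ X) (hu : 0 ≤ u) (hv : 0 ≤ v) (hh : 0 ≤ h) (h1 : G < σ)
    (h2 : G < X * e4 - v * e1 - u * e2 - σ * e5) :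
    ∃ K t1 : ℝ, 0 ≤ K ∧ 0 < t1 ∧ ∀ t, 0 < t → t ≤ t1 →
      PhiL C r e1 e2 e4 e5 (280 * t ^ σ) (t ^ X) (t ^ (-u)) (t ^ (-v)) (t ^ (-h)) ≤
        K * t ^ G := by
  obtain ⟨η, hη, hη1, hη2⟩ : ∃ η : ℝ, 0 < η ∧ G + r * η ≤ σ ∧
      G + r * η ≤ X * e4 - v * e1 - u * e2 - σ * e5 := by
    refine ⟨min (σ - G) (X * e4 - v * e1 - u * e2 - σ * e5 - G) / (r + 1), ?_, ?_, ?_⟩
    · exact div_pos (lt_min (by linarith) (by linarith)) (by positivity)
    · have h3 : (r : ℝ) * (min (σ - G) (X * e4 - v * e1 - u * e2 - σ * e5 - G) / (r + 1)) ≤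
          min (σ - G) (X * e4 - v * e1 - u * e2 - σ * e5 - G) := by
        rw [← mul_div_assoc, div_le_iff₀ (by positivity)]
        have : 0 < min (σ - G) (X * e4 - v * e1 - u * e2 - σ * e5 - G) :=
          lt_min (by linarith) (by linarith)
        nlinarith
      have := min_le_left (σ - G) (X * e4 - v * e1 - u * e2 - σ * e5 - G)
      linarith
    · have h3 : (r : ℝ) * (min (σ - G) (X * e4 - v * e1 - u * e2 - σ * e5 - G) / (r + 1)) ≤
          min (σ - G) (X * e4 - v * e1 - u * e2 - σ * e5 - G) := by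
        rw [← mul_div_assoc, div_le_iff₀ (by positivity)]
        have : 0 < min (σ - G) (X * e4 - v * e1 - u * e2 - σ * e5 - G) :=
          lt_min (by linarith) (by linarith)
        nlinarith
      have := min_le_right (σ - G) (X * e4 - v * e1 - u * e2 - σ * e5 - G)
      linarith
  obtain ⟨K, hK, hlog⟩ := log_pow_le (u + v + h + σ + X) (by positivity) hη
  refine ⟨C * K ^ r * (280 + 1 / 280 ^ e5), 1, by positivity, one_pos, fun t ht ht1 => ?_⟩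
  have hp0 : ∀ a : ℝ, 0 < t ^ a := fun a => Real.rpow_pos_of_pos ht _
  have hpw : ∀ a b : ℝ, a ≤ b → t ^ b ≤ t ^ a := fun a b hab =>
    Real.rpow_le_rpow_of_exponent_ge ht ht1 hab
  unfold PhiL
  have e6 : t ^ (-u) * t ^ (-v) * t ^ (-h) / (280 * t ^ σ * t ^ X) ≤
      t ^ (-(u + v + h + σ + X)) := by
    have e7 : t ^ (-(u + v + h + σ + X)) = t ^ (-u) * t ^ (-v) * t ^ (-h) / (t ^ σ * t ^ X) := by
      rw [← Real.rpow_add ht, ← Real.rpow_add ht, ← Real.rpow_add ht, ← Real.rpow_sub ht]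
      congr 1; ring
    rw [e7]
    have h3 : 0 < t ^ (-u) * t ^ (-v) * t ^ (-h) :=
      mul_pos (mul_pos (hp0 _) (hp0 _)) (hp0 _)
    have h4 : 0 < t ^ σ * t ^ X := mul_pos (hp0 _) (hp0 _)
    refine div_le_div_of_nonneg_left h3.le h4 ?_
    nlinarith
  have e8 : 0 ≤ t ^ (-u) * t ^ (-v) * t ^ (-h) / (280 * t ^ σ * t ^ X) := by
    have := hp0 (-u); have := hp0 (-v); have := hp0 (-h); have := hp0 σ; have := hp0 X
    positivity
  have hL : 1 + Real.log (2 + t ^ (-u) * t ^ (-v) * t ^ (-h) / (280 * t ^ σ * t ^ X)) ≤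
      K * t ^ (-η) := by
    refine le_trans ?_ (hlog t ht ht1)
    have := Real.log_le_log (x := 2 + t ^ (-u) * t ^ (-v) * t ^ (-h) / (280 * t ^ σ * t ^ X))
      (y := 2 + t ^ (-(u + v + h + σ + X))) (by linarith) (by linarith)
    linarith
  have hL0 : 0 ≤ 1 + Real.log (2 + t ^ (-u) * t ^ (-v) * t ^ (-h) / (280 * t ^ σ * t ^ X)) := by
    have := Real.log_nonneg (x := 2 + t ^ (-u) * t ^ (-v) * t ^ (-h) / (280 * t ^ σ * t ^ X))
      (by linarith)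
    linarith
  have hLr := pow_le_pow_left₀ hL0 hL r
  have e9 : (t ^ (-v)) ^ e1 * (t ^ (-u)) ^ e2 * (t ^ X) ^ e4 / (280 * t ^ σ) ^ e5 =
      1 / 280 ^ e5 * t ^ (X * e4 - v * e1 - u * e2 - σ * e5) := by
    rw [Real.mul_rpow (by norm_num) (hp0 _).le, ← Real.rpow_mul ht.le, ← Real.rpow_mul ht.le,
      ← Real.rpow_mul ht.le, ← Real.rpow_mul ht.le, ← Real.rpow_add ht, ← Real.rpow_add ht]
    have e10 : t ^ (X * e4 - v * e1 - u * e2 - σ * e5) =
        t ^ (-v * e1 + -u * e2 + X * e4) / t ^ (σ * e5) := by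
      rw [← Real.rpow_sub ht]; congr 1; ring
    rw [e10]
    have h280 : (0 : ℝ) < 280 ^ e5 := Real.rpow_pos_of_pos (by norm_num) _
    have := hp0 (σ * e5)
    field_simp
  rw [e9]
  have h280 : (0 : ℝ) < 280 ^ e5 := Real.rpow_pos_of_pos (by norm_num) _
  have hfin : 280 * t ^ σ + 1 / 280 ^ e5 * t ^ (X * e4 - v * e1 - u * e2 - σ * e5) ≤
      (280 + 1 / 280 ^ e5) * t ^ (G + r * η) := by
    have a1 := hpw _ _ hη1
    have a2 := hpw _ _ hη2
    have a3 : 1 / 280 ^ e5 * t ^ (X * e4 - v * e1 - u * e2 - σ * e5) ≤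
        1 / 280 ^ e5 * t ^ (G + r * η) := mul_le_mul_of_nonneg_left a2 (by positivity)
    linarith
  have hpos : 0 ≤ 280 * t ^ σ + 1 / 280 ^ e5 * t ^ (X * e4 - v * e1 - u * e2 - σ * e5) := by
    have := hp0 σ; have := hp0 (X * e4 - v * e1 - u * e2 - σ * e5)
    positivity
  calc _ ≤ C * (K * t ^ (-η)) ^ r * ((280 + 1 / 280 ^ e5) * t ^ (G + r * η)) := by
        refine mul_le_mul (mul_le_mul_of_nonneg_left hLr hC) hfin hpos ?_
        have := hp0 (-η)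
        positivity
    _ = C * K ^ r * (280 + 1 / 280 ^ e5) * ((t ^ (-η)) ^ r * t ^ (G + r * η)) := by
        rw [mul_pow]; ring
    _ = _ := by
        have : (t ^ (-η)) ^ r * t ^ (G + r * η) = t ^ G := by
          rw [← Real.rpow_natCast, ← Real.rpow_mul ht.le, ← Real.rpow_add ht]
          congr 1; ring
        rw [this]

/-- **ONE OP-ATOM, numerical form**: exponents independent of `k` -/
theorem opKill_num {C : ℝ} (hC : 0 ≤ C) {r : ℕ} {e1 e2 e4 e5 : ℝ} (he2 : 0 ≤ e2)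
    (hKN : KillN (PhiL C r e1 e2 e4 e5)) {k q3 : ℝ} (hk : 0 < k) (hk1 : k ≤ 1)
    (hkq : 2 + k ≤ q3) {i m : Fin 4} (hi3 : i ≠ 3) (hm3 : m ≠ 3) (him : i ≠ m)
    {ga x0 f0 β g x f c0 : ℝ} (hga : 0 ≤ ga) (hc0 : 0 ≤ c0) (hx0 : 0 ≤ x0) (hf0 : 0 ≤ f0)
    (hβ : 0 < β) (hg : 0 < g) (hx : 0 ≤ x) (hf : 0 < f) (h1 : ga + c0 < β * min g f)
    (h2 : ga + c0 < β * x * e4 - (2 * f0 + 6 * (ga + c0)) * e1 -
      (2 * f0 + x0 + 6 * (ga + c0)) * e2 - β * min g f * e5) :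
    ∃ t0 K : ℝ, 0 < t0 ∧ t0 ≤ 1 ∧ 0 ≤ K ∧ ∀ (N : ℕ) (B : ℝ), 0 ≤ B → BN k q3 N B →
      ∀ t, 0 < t → t ≤ t0 → ∀ bb ε, Adm bb ε → ∀ W I, Full W I → I.1 ≤ N → ∀ F : Fin 4 → Fn,
      (∀ j, j ≠ i → ∀ p ∈ W, aq (qx k q3 j) p (F j) ≤ 1) →
      ∀ (j e e' : Fin 4) (n : ℕ) (ψ : Fn), Dst4 i j e e' →
      IsOpS i j e e' n (t ^ (-x0)) (t ^ (-(2 * f0))) ψ →
      (∀ y ∈ iv I, F i y = ((t ^ (-ga) / (n : ℝ) ^ 2 : ℝ) : ℂ) * ψ y) →
      (∀ p ∈ W, LvS g x f m (t ^ β) 1 p (F m)) →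
      ‖TR bb ε W F‖ ≤ K * (1 + B) * t ^ c0 * len I := by
  obtain ⟨κ, hκ, hκ2⟩ : ∃ κ : ℝ, 0 < κ ∧ ga + c0 < β * x * e4 - (2 * f0 + 6 * (ga + c0)) * e1 -
      (κ + 2 * f0 + x0 + 6 * (ga + c0)) * e2 - β * min g f * e5 := by
    set gap := β * x * e4 - (2 * f0 + 6 * (ga + c0)) * e1 -
      (2 * f0 + x0 + 6 * (ga + c0)) * e2 - β * min g f * e5 - (ga + c0) with hgap
    have hgap0 : 0 < gap := by rw [hgap]; linarith
    refine ⟨gap / (2 * (e2 + 1)), by positivity, ?_⟩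
    have h3 : gap / (2 * (e2 + 1)) * e2 ≤ gap / 2 := by
      rw [div_mul_eq_mul_div, div_le_div_iff₀ (by positivity) (by norm_num)]
      nlinarith
    nlinarith
  have hk2 : 0 < 2 * (2 + k) := by linarith
  refine opKill_core (h := 2 * ((ga + 2 * f0 + x0) + c0) / k + β * g) (C' := 6 * (ga + c0)) hKN hk
    hkq hi3 hm3 him hκ hx0 hf0 hβ hg hx hf (by positivity) (by positivity) ?_ ?_ ?_ ?_
  · rw [le_div_iff₀ hk2]
    nlinarith
  · have e : (2 * ((ga + 2 * f0 + x0) + c0) / k + β * g) * (k / 2) =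
        (ga + 2 * f0 + x0 + c0) + β * g * (k / 2) := by
      field_simp
    rw [e]
    have : 0 ≤ β * g * (k / 2) := by positivity
    linarith
  · have h3 : 0 ≤ 2 * ((ga + 2 * f0 + x0) + c0) / k := by positivity
    have h4 : 0 ≤ β * g := by positivity
    nlinarith
  · obtain ⟨KΦ, tΦ, h3, h4, h5⟩ := phiL_num (C := C) hC (r := r) (e1 := e1) (e2 := e2) (e4 := e4)
      (e5 := e5) (σ := β * min g f) (X := β * x) (u := κ + 2 * f0 + x0 + 6 * (ga + c0))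
      (v := 2 * f0 + 6 * (ga + c0)) (h := 2 * ((ga + 2 * f0 + x0) + c0) / k + β * g)
      (G := ga + c0) (by have := lt_min hg hf; positivity) (by positivity) (by positivity)
      (by positivity) (by positivity) h1 hκ2
    exact ⟨KΦ, tΦ, h3, h4, h5⟩

end Crest.Agent.R079.OpK276
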