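import Crest.Agent.R079.CKw_37
import Crest.Agent.R079.OpKe_276
import Crest.Agent.R079.NP_112

/-! R079 (helper37), CELLKILL part 9: **FIELD `cell` FOR THE FINAL PARAMETERS** `PF x C ρ c` of
`NP_112`, from the kill lemma in the LOG form `KillN (PhiL C r e1 0 1 2)` and from
`HighN (PsiL K r)`. -/

set_option autoImplicit false

namespace Crest.Agent.R079.CKgx37

open Finset Crest.Agent.R079.Grid Crest.Agent.R079.Glue Crest.Agent.R079.Growth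
  Crest.Agent.R079.QRed Crest.Agent.R079.Cell37 Crest.Agent.R079.OpS276 Crest.Agent.R079.OpK276
  Crest.Agent.R079.WS112 Crest.Agent.R079.WS0112 Crest.Agent.R079.T6bx252
  Crest.Agent.R079.NP112

/-- the log form of the kill lemma is tame -/
theorem tamP_phiL {C : ℝ} (hC : 0 ≤ C) (r : ℕ) (e1 : ℝ) : TamP (PhiL C r e1 0 1 2) := by
  intro σ ξ C1 h τ hσ hC1 hh hτ hτσ hξ
  obtain ⟨K, t1, hK, ht1, hb⟩ := phiL_num (r := r) (e1 := e1) (e2 := 0) (e4 := 1) (e5 := 2)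
    (σ := σ) (X := ξ) (u := C1) (v := 0) (h := h) (G := τ) hC hσ.le (by linarith) hC1 le_rfl hh hτσ
    (by linarith)
  refine ⟨K, t1, hK, ht1, fun t ht htt => ?_⟩
  have := hb t ht htt
  rwa [neg_zero, Real.rpow_zero] at this

/-- poly-log price of HIGH -/
noncomputable def PsiL (K : ℝ) (r : ℕ) (cap Hc Hx : ℝ) : ℝ :=
  K * (1 + Real.log (2 + cap * Hc * Hx)) ^ r

theorem tamH_psiL {K : ℝ} (hK : 0 ≤ K) (r : ℕ) : TamH (PsiL K r) := by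
  intro C1 C2 h ε hC1 hC2 hh hε
  obtain ⟨K1, hK1, hb⟩ := log_pow_le (C1 + C2 + h) (by positivity) (η := ε / (r + 1)) (by positivity)
  refine ⟨K * K1 ^ r, 1, by positivity, one_pos, fun t ht ht1 => ?_⟩
  unfold PsiL
  have e1 : t ^ (-C1) * t ^ (-C2) * t ^ (-h) = t ^ (-(C1 + C2 + h)) := by
    rw [← Real.rpow_add ht, ← Real.rpow_add ht]; congr 1; ring
  rw [e1]
  have h1 := hb t ht ht1
  have hp : 0 < t ^ (-(C1 + C2 + h)) := Real.rpow_pos_of_pos ht _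
  have h0 : 0 ≤ 1 + Real.log (2 + t ^ (-(C1 + C2 + h))) := by
    have := Real.log_nonneg (show (1 : ℝ) ≤ 2 + t ^ (-(C1 + C2 + h)) by linarith)
    linarith
  have h2 : (1 + Real.log (2 + t ^ (-(C1 + C2 + h)))) ^ r ≤ (K1 * t ^ (-(ε / (r + 1)))) ^ r :=
    pow_le_pow_left₀ h0 h1 r
  have h3 : (t ^ (-(ε / (r + 1)))) ^ r ≤ t ^ (-ε) := by
    rw [← Real.rpow_natCast, ← Real.rpow_mul ht.le]
    refine Real.rpow_le_rpow_of_exponent_ge ht ht1 ?_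
    have hr : (0 : ℝ) ≤ r := Nat.cast_nonneg r
    have h4 : ε / (r + 1) * r ≤ ε := by
      rw [div_mul_eq_mul_div, div_le_iff₀ (by positivity)]
      nlinarith
    linarith
  calc K * (1 + Real.log (2 + t ^ (-(C1 + C2 + h)))) ^ r ≤ K * (K1 * t ^ (-(ε / (r + 1)))) ^ r :=
        mul_le_mul_of_nonneg_left h2 hK
    _ = K * K1 ^ r * (t ^ (-(ε / (r + 1)))) ^ r := by rw [mul_pow]; ring
    _ ≤ _ := mul_le_mul_of_nonneg_left h3 (by positivity)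

/-- monotonicity of `HighN` -/
theorem HighN.mono {Ψ Ψ' : ℝ → ℝ → ℝ → ℝ} (h : HighN Ψ)
    (hle : ∀ cap Hc Hx, 1 ≤ cap → 1 ≤ Hc → 1 ≤ Hx → Ψ cap Hc Hx ≤ Ψ' cap Hc Hx) : HighN Ψ' := by
  intro i m a hd bb ε hA W I hW F V cap Hc Hx M3 hh s0 b0 S w u c ξ h1 h2 h3 h4 h5 hG hF hav hH h6
  refine (h i m a hd bb ε hA W I hW F V cap Hc Hx M3 hh s0 b0 S w u c ξ h1 h2 h3 h4 h5 hG hF hav hH
    h6).trans ?_
  have hV := hG.V0.le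
  have hl := (Growth.len_pos I).le
  exact mul_le_mul_of_nonneg_right (mul_le_mul_of_nonneg_right (hle cap Hc Hx h1 h2 h3)
    (by positivity)) hl

/-- **FIELD `cell` OF `LeavesC (PF x C ρ c) q3 d`** -/
theorem cell_PF {x C ρ c : ℝ} (hA : Adm4 x C ρ c) {Φ : ℝ → ℝ → ℝ → ℝ → ℝ → ℝ} (hKN : KillN Φ)
    (hΦ : TamP Φ) {Ψ : ℝ → ℝ → ℝ → ℝ} (hHN : HighN Ψ) (hΨ : TamH Ψ) (hc : c ≤ 1 / 8)
    (hx : 16 ≤ x) {q3 : ℝ} (hq : 25 + 40 * C ≤ q3) :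
    ∀ i m : Fin 4, i ≠ m → i ≠ 3 → m ≠ 3 → ∃ c0 e1 : ℝ, 0 < c0 ∧ 0 < e1 ∧
      ∀ e, 0 ≤ e → e ≤ e1 → ∃ k1 : ℝ, 0 < k1 ∧ ∀ k, 0 < k → k ≤ k1 → ∃ t0 K : ℝ, 0 < t0 ∧ 0 ≤ K ∧
        CellKill (DF0 (PF x C ρ c)) (CA0 (PF x C ρ c)) k q3 c0 (1 + e) 1 t0 K i m := by
  intro i m him hi3 hm3
  refine cell_DF0 (ok_PF hA) hKN hHN hΦ hΨ him hi3 hm3 (G := 1) ?_ one_pos ?_ ?_ ?_
  · show (1 : ℝ) = min 1 1
    rw [min_self]
  · show 8 * (c * ρ ^ (i : ℕ)) ≤ 1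
    have h1 : ρ ^ (i : ℕ) ≤ 1 := pow_le_one₀ hA.ρ0.le (by linarith [hA.ρ1])
    have h2 : 0 ≤ ρ ^ (i : ℕ) := pow_nonneg hA.ρ0.le _
    have h3 := hA.c0
    nlinarith
  · show 16 * (1 : ℝ) ≤ x
    linarith
  · show 5 + (20 * 1 + 40 * C) / 1 ≤ q3
    rw [div_one]
    linarith

end Crest.Agent.R079.CKgx37
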