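import Crest.Agent.R079.T6e_252

/-! R079, T6 (helper252): `T6e` for an ABSTRACT DATA PREDICATE (asked for by helper263, msg 4141).

`Q : ℝ → Finset Nd → Nd → (Fin 4 → Fn) → Prop` (`t`, region, top, letters); only `Q t W I F → Full W I`
is used.  `PRo` of `T6b` and the core data `PRc` of 263 are instances.
* `PairQ`, `GenQ`, `StatQ` : the literals; `pairQ_graded`, `pairQ_exists` : the assembly;
* `genQ_mono`, `statQ_mono`, `pairQ_mono`, `genQ_data`, `statQ_data`, `pairQ_data` (stronger data). -/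

set_option autoImplicit false

namespace Crest.Agent.R079.T6bx252

open Finset Crest.Agent.R079.Grid Crest.Agent.R079.Growth Crest.Agent.R079.QRed
open Crest.Agent.R079.TRec Crest.Agent.R079.AsmA844 Crest.Agent.R079.AsmG734

/-- data predicates: `t`, region, top, letters -/
abbrev DataQ : Type := ℝ → Finset Nd → Nd → (Fin 4 → Fn) → Prop

/-- rule (A) for the data `Q`, frozen slot `i` -/
def PairQ (Q : DataQ) (k q3 c0 t0 K : ℝ) (i : Fin 4) : Prop :=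
  ∀ (N : ℕ) (B : ℝ), 0 ≤ B → BN k q3 N B → ∀ t, 0 < t → t ≤ t0 → ∀ bb ε, Adm bb ε → ∀ W I F,
    Q t W I F → I.1 ≤ N → (∀ j, j ≠ i → ∀ p ∈ W, aq (qx k q3 j) p (F j) ≤ 1) →
      ‖TR bb ε W F‖ ≤ K * (1 + B) * t ^ c0 * len I

/-- **STEP I, energy form**, data `Q`, pair `(i, m)` -/
def GenQ (Q : DataQ) (k q3 c1 dl cG t0 K : ℝ) (i m : Fin 4) : Prop :=
  ∀ (N : ℕ) (B : ℝ), 0 ≤ B → BN k q3 N B → ∀ t, 0 < t → t ≤ t0 → ∀ W I F,
    Q t W I F → I.1 ≤ N → ∀ x y : Fin 4, Oth i m x y → ∀ bb ε, Adm bb ε →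
      ∃ r, 0 < r ∧ r ≤ K * t ^ (c1 / 2 - dl) ∧
        GenM (v4 bb ε F x y) k W (t ^ c1) (K * (1 + B) * t ^ cG) (K * t ^ (-dl)) r

/-- **STEP II**, data `Q`, pair `(i, m)` -/
def StatQ (Q : DataQ) (k q3 cS CS t0 K : ℝ) (i m : Fin 4) : Prop :=
  ∀ (N : ℕ) (B : ℝ), 0 ≤ B → BN k q3 N B → ∀ t, 0 < t → t ≤ t0 → ∀ bb W I F,
    Q t W I F → I.1 ≤ N → ∀ x y : Fin 4, Oth i m x y →
      ∃ TB : Finset Nd, Tops W I TB ∧ Cnt W TB (K * t ^ (-CS)) ∧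
        ∀ ε, Adm bb ε → It260.Piece (v4 bb ε F x y) (Sm k) W TB (K * (1 + B) * t ^ cS)

theorem pairO_iff {D : TRecN.Dict} {OA : TRec.Dict} {k q3 c0 a b cl t0 K : ℝ} {i m : Fin 4} :
    PairO D OA k q3 c0 a b cl t0 K i m ↔
      PairQ (fun t W I F => PRo D OA k a b cl t W I i m F) k q3 c0 t0 K i := Iff.rfl

theorem genOM_iff {D : TRecN.Dict} {OA : TRec.Dict} {k q3 a b cl c1 dl cG t0 K : ℝ}
    {i m : Fin 4} : GenOM D OA k q3 a b cl c1 dl cG t0 K i m ↔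
      GenQ (fun t W I F => PRo D OA k a b cl t W I i m F) k q3 c1 dl cG t0 K i m := Iff.rfl

theorem statO_iff {D : TRecN.Dict} {OA : TRec.Dict} {k q3 a b cl cS CS t0 K : ℝ}
    {i m : Fin 4} : StatO D OA k q3 a b cl cS CS t0 K i m ↔
      StatQ (fun t W I F => PRo D OA k a b cl t W I i m F) k q3 cS CS t0 K i m := Iff.rfl

theorem pairQ_data {Q Q' : DataQ} {k q3 c0 t0 K : ℝ} {i : Fin 4}
    (hQ : ∀ t W I F, 0 < t → t ≤ t0 → Q' t W I F → Q t W I F) (h : PairQ Q k q3 c0 t0 K i) :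
    PairQ Q' k q3 c0 t0 K i := fun N B hB hBN t h0 h1 bb ε hA W I F hD hI hF =>
  h N B hB hBN t h0 h1 bb ε hA W I F (hQ t W I F h0 h1 hD) hI hF

theorem genQ_data {Q Q' : DataQ} {k q3 c1 dl cG t0 K : ℝ} {i m : Fin 4}
    (hQ : ∀ t W I F, 0 < t → t ≤ t0 → Q' t W I F → Q t W I F)
    (h : GenQ Q k q3 c1 dl cG t0 K i m) : GenQ Q' k q3 c1 dl cG t0 K i m :=
  fun N B hB hBN t h0 h1 W I F hD hI x y hO bb ε hA =>
    h N B hB hBN t h0 h1 W I F (hQ t W I F h0 h1 hD) hI x y hO bb ε hA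

theorem statQ_data {Q Q' : DataQ} {k q3 cS CS t0 K : ℝ} {i m : Fin 4}
    (hQ : ∀ t W I F, 0 < t → t ≤ t0 → Q' t W I F → Q t W I F)
    (h : StatQ Q k q3 cS CS t0 K i m) : StatQ Q' k q3 cS CS t0 K i m :=
  fun N B hB hBN t h0 h1 bb W I F hD hI x y hO =>
    h N B hB hBN t h0 h1 bb W I F (hQ t W I F h0 h1 hD) hI x y hO

/-- **rule (A) for the data `Q` from GRADED Step I (energy form) + Step II** -/
theorem pairQ_graded {Q : DataQ} (hQ : ∀ t W I F, Q t W I F → Full W I)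
    {k q3 c1 cS CS t0 K c0 : ℝ}
    {dl cG : ℕ → ℝ} {i m : Fin 4} (him : i ≠ m) (hk : 0 < k)
    (hkq : 2 + k ≤ q3) (ht0 : t0 ≤ 1) (hK : 1 ≤ K) (hc1 : 0 ≤ c1) (hdl : ∀ j, 0 ≤ dl j) (n : ℕ)
    (h1 : c0 + 2 * ∑ i ∈ range n, dl i ≤ cS - c1)
    (h2 : ∀ j, j < n → c0 + 2 * ∑ i ∈ range j, dl i ≤ cG j)
    (h3 : c0 + CS ≤ n * c1 - 2 * ∑ i ∈ range n, dl i + cS)
    (hG : ∀ j, j < n → GenQ Q k q3 c1 (dl j) (cG j) t0 K i m)
    (hS : StatQ Q k q3 cS CS t0 K i m) :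
    PairQ Q k q3 c0 t0 (3 * (K ^ n * (K + n * K)) + K ^ (2 * n + 2)) i := by
  intro N B hB hBN t ht htt bb ε hA W I F hPR hI hF
  have hful := hQ t W I F hPR
  have ht1 : t ≤ 1 := htt.trans ht0
  have hK0 : 0 < K := by linarith
  obtain ⟨x, y, hxi, hxm, hyi, hym, hxy⟩ := exists_oth i m him
  have hO : Oth i m x y := ⟨hxi, hxm, hyi, hym, hxy⟩
  have hall : ∀ j, j ≠ i → ∀ p ∈ W, aq (2 + k) p (F j) ≤ 1 := fun j hj p hp =>
    (AsmA844.aq_le_aq (by linarith) (by unfold qx; split_ifs <;> linarith) p (F j)).trans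
      (hF j hj p hp)
  obtain ⟨TB, hTB, hc, hP⟩ := hS N B hB hBN t ht htt bb W I F hPR hI x y hO
  have hGen : ∀ j, ∃ r, 0 < r ∧ (j < n → r ≤ K * t ^ (c1 / 2 - dl j) ∧
      GenM (v4 bb ε F x y) k W (t ^ c1) (K * (1 + B) * t ^ (cG j)) (K * t ^ (-(dl j))) r) := by
    intro j
    by_cases hj : j < n
    · obtain ⟨r, h1, h2, h3⟩ := hG j hj N B hB hBN t ht htt W I F hPR hI x y hO bb ε hA
      exact ⟨r, h1, fun _ => ⟨h2, h3⟩⟩
    · exact ⟨1, one_pos, fun h => absurd h hj⟩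
  choose r hr0 hr using hGen
  have hδ : 0 < t ^ c1 := Real.rpow_pos_of_pos ht _
  have hδ1 : t ^ c1 ≤ 1 := Real.rpow_le_one ht.le ht1 hc1
  have hΛ : ∀ j, (1 : ℝ) ≤ K * t ^ (-(dl j)) := by
    intro j
    have g2 : (1 : ℝ) ≤ t ^ (-(dl j)) := Real.one_le_rpow_of_pos_of_le_one_of_nonpos ht ht1
      (by linarith [hdl j])
    nlinarith
  have hit := itM (v := v4 bb ε F x y) (k := k) hδ hful hTB hc
    (P := K * (1 + B) * t ^ cS) (by positivity) (hP ε hA) n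
    (κ := fun j => K * (1 + B) * t ^ (cG j)) (Λ := fun j => K * t ^ (-(dl j)))
    (r := r) (fun j => by positivity) hr0 hΛ (fun j hj => (hr j hj).2)
    (X := F x) (Y := F y) (fun p hp => ⟨hall x hxi p hp, hall y hyi p hp⟩)
  have e0 : TR bb ε W F = ∑ p ∈ W, v4 bb ε F x y (F x) (F y) p := by
    unfold TR v4
    rw [Function.update_eq_self, Function.update_eq_self]
  have hM3 : Ms (t ^ c1) 1 I (F x) (F y) ≤ 3 := by
    have hx : av I (F x) ≤ 1 :=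
      (TAsm398.av_le_aq (by linarith) I (F x)).trans (hall x hxi I hful.top)
    have hy : av I (F y) ≤ 1 :=
      (TAsm398.av_le_aq (by linarith) I (F y)).trans (hall y hyi I hful.top)
    have hx0 := Growth.av_nonneg I (F x)
    have hy0 := Growth.av_nonneg I (F y)
    unfold Ms
    nlinarith
  rw [e0]
  refine hit.trans (mul_le_mul_of_nonneg_right ?_ (Growth.len_pos I).le)
  refine le_trans (add_le_add le_rfl ?_)
    (numM ht ht1 hK hB (Ms_nonneg hδ.le _ _ _ _) hM3 hdl n h1 h2 h3)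
  have hprod : ∏ i ∈ range n, r i ^ 2 ≤ ∏ i ∈ range n, (K * t ^ (c1 / 2 - dl i)) ^ 2 :=
    Finset.prod_le_prod (fun i _ => sq_nonneg _) fun i hi =>
      pow_le_pow_left₀ (hr0 i).le (hr i (Finset.mem_range.1 hi)).1 2
  refine mul_le_mul_of_nonneg_right (mul_le_mul_of_nonneg_right hprod ?_) ?_
  · positivity
  · positivity

theorem statQ_mono {Q : DataQ} {k q3 cS CS t0 K t0' K' : ℝ}
    {i m : Fin 4} (h : StatQ Q k q3 cS CS t0 K i m) (ht : t0' ≤ t0) (hK : K ≤ K') :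
    StatQ Q k q3 cS CS t0' K' i m := by
  intro N B hB hBN t h0 h1 bb W I F hPR hI x y hO
  obtain ⟨TB, hTB, hc, hP⟩ := h N B hB hBN t h0 (h1.trans ht) bb W I F hPR hI x y hO
  refine ⟨TB, hTB, fun p hp => (hc p hp).trans ?_, fun ε hA s hs R J hR hRR hJ X Y hXY =>
    (hP ε hA s hs R J hR hRR hJ X Y hXY).trans ?_⟩
  · exact mul_le_mul_of_nonneg_right (mul_le_mul_of_nonneg_right hK (Real.rpow_nonneg h0.le _))
      (Growth.len_pos p).le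
  · have h4 : K * (1 + B) * t ^ cS ≤ K' * (1 + B) * t ^ cS :=
      mul_le_mul_of_nonneg_right (mul_le_mul_of_nonneg_right hK (by linarith))
        (Real.rpow_nonneg h0.le _)
    exact mul_le_mul_of_nonneg_right (mul_le_mul_of_nonneg_left h4 (sq_nonneg _))
      (Growth.len_pos J).le

theorem pairQ_mono {Q : DataQ} {k q3 c0 t0 K c0' t0' K' : ℝ} {i : Fin 4}
    (h : PairQ Q k q3 c0 t0 K i) (ht : t0' ≤ t0) (ht1 : t0' ≤ 1) (hc : c0' ≤ c0)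
    (hK0 : 0 ≤ K) (hK : K ≤ K') : PairQ Q k q3 c0' t0' K' i := by
  intro N B hB hBN t h0 h1 bb ε hA W I F hD hI hF
  have h2 := h N B hB hBN t h0 (h1.trans ht) bb ε hA W I F hD hI hF
  refine h2.trans (mul_le_mul_of_nonneg_right ?_ (Growth.len_pos I).le)
  have h3 : t ^ c0 ≤ t ^ c0' := Real.rpow_le_rpow_of_exponent_ge h0 (h1.trans ht1) hc
  have h4 : 0 ≤ t ^ c0 := Real.rpow_nonneg h0.le _
  calc K * (1 + B) * t ^ c0 ≤ K' * (1 + B) * t ^ c0 :=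
        mul_le_mul_of_nonneg_right (mul_le_mul_of_nonneg_right hK (by linarith)) h4
    _ ≤ K' * (1 + B) * t ^ c0' :=
        mul_le_mul_of_nonneg_left h3 (mul_nonneg (hK0.trans hK) (by linarith))

theorem genQ_mono {Q : DataQ} {k q3 c1 dl cG t0 K t0' K' : ℝ}
    {i m : Fin 4} (h : GenQ Q k q3 c1 dl cG t0 K i m) (ht : t0' ≤ t0) (hK : K ≤ K') :
    GenQ Q k q3 c1 dl cG t0' K' i m := by
  intro N B hB hBN t h0 h1 W I F hPR hI x y hO bb ε hA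
  obtain ⟨r, hr0, hr, hG⟩ := h N B hB hBN t h0 (h1.trans ht) W I F hPR hI x y hO bb ε hA
  refine ⟨r, hr0, hr.trans (mul_le_mul_of_nonneg_right hK (Real.rpow_nonneg h0.le _)),
    genM_mono (Real.rpow_nonneg h0.le _) hG ?_ ?_⟩
  · exact mul_le_mul_of_nonneg_right (mul_le_mul_of_nonneg_right hK (by linarith))
      (Real.rpow_nonneg h0.le _)
  · exact mul_le_mul_of_nonneg_right hK (Real.rpow_nonneg h0.le _)

/-- **rule (A) for the data `Q`, energy form, all parameters chosen**.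
Step II: `cS`, `CS`.  Step I: for every window exponent `c1 ≤ cm`, gain `g y`, loss `C y` at the weight
`y`.  Order `cS`, `CS`, `c1`, `y_j`, `e`, `k`, `t0`. -/
theorem pairQ_exists {q3 : ℝ} (hq3 : 2 < q3) (Q : ℝ → ℝ → DataQ)
    (hQ : ∀ e k t W I F, Q e k t W I F → Full W I) {i m : Fin 4} (him : i ≠ m)
    (hG : ∃ cm : ℝ, 0 < cm ∧ ∀ c1, 0 < c1 → c1 ≤ cm → ∃ C g ys : ℝ, 0 < C ∧ 0 < g ∧ 0 < ys ∧
      ∀ y, 0 < y → y ≤ ys → ∃ e1 : ℝ, 0 < e1 ∧ ∀ e, 0 < e → e ≤ e1 → ∃ k1 : ℝ, 0 < k1 ∧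
        ∀ k, 0 < k → k ≤ k1 → ∃ t0 K : ℝ, 0 < t0 ∧ 0 ≤ K ∧
          GenQ (Q e k) k q3 c1 (C * y) (g * y) t0 K i m)
    (hS : ∃ cS CS e2 : ℝ, 0 < cS ∧ 0 < e2 ∧ ∀ e, 0 < e → e ≤ e2 → ∃ k2 : ℝ, 0 < k2 ∧
      ∀ k, 0 < k → k ≤ k2 → ∃ t0 K : ℝ, 0 < t0 ∧ 0 ≤ K ∧
        StatQ (Q e k) k q3 cS CS t0 K i m) :
    ∃ c0 e1 : ℝ, 0 < c0 ∧ 0 < e1 ∧ ∀ e, 0 < e → e ≤ e1 → ∃ k1 : ℝ, 0 < k1 ∧
      ∀ k, 0 < k → k ≤ k1 → ∃ t0 K : ℝ, 0 < t0 ∧ t0 ≤ 1 ∧ 0 ≤ K ∧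
        PairQ (Q e k) k q3 c0 t0 K i := by
  obtain ⟨cS, CS, e2, hcS, he2, hS⟩ := hS
  obtain ⟨cm, hcm, hG⟩ := hG
  have hc1 : 0 < min cm (cS / 2) := lt_min hcm (by linarith)
  obtain ⟨C, g, ys, hC, hg, hys, hG⟩ := hG (min cm (cS / 2)) hc1 (min_le_left _ _)
  set c1 := min cm (cS / 2) with hc1d
  have hc1S : c1 ≤ cS / 2 := min_le_right _ _
  obtain ⟨n, y, c0, hc0, hy, hyy, n1, n2, n3⟩ :=
    exists_weights (CS := CS) (cS := cS - c1) hc1 hC hg hys (by linarith)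
  obtain ⟨e1, he1, hG⟩ := unif_small (n := n) fun j hj => hG (y j) (hy j) (hyy j hj)
  refine ⟨c0, min e1 e2, hc0, lt_min he1 he2, fun e he hee => ?_⟩
  obtain ⟨k1, hk1, hG⟩ := unif_small (n := n) fun j hj => hG e he (hee.trans (min_le_left _ _)) j hj
  obtain ⟨k2, hk2, hS⟩ := hS e he (hee.trans (min_le_right _ _))
  refine ⟨min (min k1 k2) (q3 - 2), lt_min (lt_min hk1 hk2) (by linarith), fun k hk hkk => ?_⟩
  have hkq : 2 + k ≤ q3 := by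
    have := hkk.trans (min_le_right _ _)
    linarith
  obtain ⟨t1, K1, ht1, ht11, hK1, hG⟩ := unif_tK (n := n)
    (Q := fun j t K => GenQ (Q e k) k q3 c1 (C * y j) (g * y j) t K i m)
    (fun j t K t' K' h => genQ_mono h)
    (fun j hj => hG k hk (hkk.trans ((min_le_left _ _).trans (min_le_left _ _))) j hj)
  obtain ⟨t2, K2, ht2, hK2, hS⟩ := hS k hk (hkk.trans ((min_le_left _ _).trans (min_le_right _ _)))
  refine ⟨min t1 t2, _, lt_min ht1 ht2, (min_le_left _ _).trans ht11, ?_,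
    pairQ_graded (hQ e k) (K := max K1 K2) him hk hkq
    ((min_le_left _ _).trans ht11) (hK1.trans (le_max_left _ _)) hc1.le
    (fun j => (mul_pos hC (hy j)).le) n n1 n2 (by linarith)
    (fun j hj => genQ_mono (hG j hj) (min_le_left _ _) (le_max_left _ _))
    (statQ_mono hS (min_le_right _ _) (le_max_right _ _))⟩
  have : (0 : ℝ) ≤ max K1 K2 := (zero_le_one.trans hK1).trans (le_max_left _ _)
  positivity

end Crest.Agent.R079.T6bx252
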