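import Crest.Agent.R079.WS1_112
import Crest.Agent.R079.T6q_252

/-! R079 (helper112): **TOP WIRING** for the final dictionary `DF0 P`.

`Leaves P q3 d` = the four open inputs in the exact literals of helper252 (`CellKill`, `OpKill`,
`GenQ`, `StatQ` for the data `PRo`), each with the order of the quantifiers
`exponents, e, k, (t0, K)`.  **`target_of_leaves0 : Leaves P q3 d → L0.Target`.**
`Leaves1` = the same with `PairO` (rule (A) for mixtures of op-atoms) instead of Step I + Step II;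
`target_of_leaves1`. -/

set_option autoImplicit false
set_option linter.unusedVariables false

namespace Crest.Agent.R079.WS0112

open Finset Crest.Agent.R079.Grid Crest.Agent.R079.Glue Crest.Agent.R079.Growth
  Crest.Agent.R079.QRed Crest.Agent.R079.WS112 Crest.Agent.R079.T6bx252

/-! ### uniformity over finitely many indices -/

theorem unif_fin {ι : Type} [Fintype ι] {Q : ι → ℝ → Prop}
    (h : ∀ j, ∃ x : ℝ, 0 < x ∧ ∀ y, 0 < y → y ≤ x → Q j y) :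
    ∃ x : ℝ, 0 < x ∧ ∀ y, 0 < y → y ≤ x → ∀ j, Q j y := by
  classical
  choose x hx hQ using h
  have key : ∀ s : Finset ι, ∃ z : ℝ, 0 < z ∧ ∀ j ∈ s, z ≤ x j := by
    intro s
    induction s using Finset.induction_on with
    | empty => exact ⟨1, one_pos, fun j hj => absurd hj (by simp)⟩
    | insert a s ha ih =>
      obtain ⟨z, hz, h1⟩ := ih
      refine ⟨min (x a) z, lt_min (hx a) hz, fun j hj => ?_⟩
      rcases Finset.mem_insert.1 hj with h2 | h2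
      · rw [h2]; exact min_le_left _ _
      · exact (min_le_right _ _).trans (h1 j h2)
  obtain ⟨z, hz, h1⟩ := key Finset.univ
  exact ⟨z, hz, fun y hy hyz j => hQ j y hy (hyz.trans (h1 j (Finset.mem_univ j)))⟩

theorem unif_tKf {ι : Type} [Fintype ι] {Q : ι → ℝ → ℝ → Prop}
    (hm : ∀ j t K t' K', Q j t K → 0 < t' → t' ≤ t → t' ≤ 1 → 0 ≤ K → K ≤ K' → Q j t' K')
    (h : ∀ j, ∃ t K : ℝ, 0 < t ∧ 0 ≤ K ∧ Q j t K) :
    ∃ t K : ℝ, 0 < t ∧ t ≤ 1 ∧ 0 ≤ K ∧ ∀ j, Q j t K := by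
  classical
  choose t K ht hK hQ using h
  have key : ∀ s : Finset ι, ∃ z L : ℝ, 0 < z ∧ z ≤ 1 ∧ 0 ≤ L ∧ ∀ j ∈ s, z ≤ t j ∧ K j ≤ L := by
    intro s
    induction s using Finset.induction_on with
    | empty => exact ⟨1, 0, one_pos, le_rfl, le_rfl, fun j hj => absurd hj (by simp)⟩
    | insert a s ha ih =>
      obtain ⟨z, L, hz, hz1, hL, h1⟩ := ih
      refine ⟨min (t a) z, max (K a) L, lt_min (ht a) hz, (min_le_right _ _).trans hz1,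
        hL.trans (le_max_right _ _), fun j hj => ?_⟩
      rcases Finset.mem_insert.1 hj with h2 | h2
      · rw [h2]; exact ⟨min_le_left _ _, le_max_left _ _⟩
      · exact ⟨(min_le_right _ _).trans (h1 j h2).1, (h1 j h2).2.trans (le_max_right _ _)⟩
  obtain ⟨z, L, hz, hz1, hL, h1⟩ := key Finset.univ
  exact ⟨z, L, hz, hz1, hL, fun j => hm j _ _ _ _ (hQ j) hz (h1 j (Finset.mem_univ j)).1 hz1 (hK j)
    (h1 j (Finset.mem_univ j)).2⟩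

/-! ### monotonicity in the parameter of the killer -/

/-- a finer level is stronger -/
theorem lv_mono {D : TRecN.Dict} (hD : TRecN.Dic D 0) {m : Fin 4} {s t r : ℝ} (hs : 0 < s)
    (hst : s ≤ t) (ht : t ≤ 1) {p : Nd} {g : Fn} (h : TRecN.Lv D m s r p g) :
    TRecN.Lv D m t r p g := fun φ hφ => h φ ((hD.mono m s t hs hst ht p φ).trans hφ)

theorem cellKill_b {D : TRecN.Dict} (hD : TRecN.Dic D 0) {CA : CDict} {k q3 c0 a b b' t0 K : ℝ}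
    (hb : 0 ≤ b) (hbb : b ≤ b') (ht0 : t0 ≤ 1) {i m : Fin 4}
    (h : CellKill D CA k q3 c0 a b t0 K i m) : CellKill D CA k q3 c0 a b' t0 K i m := by
  intro N B hB hBN t ht htt bb ε hA W I hW hI F hF x hx hFx hlv
  refine h N B hB hBN t ht htt bb ε hA W I hW hI F hF x hx hFx fun p hp => ?_
  exact lv_mono hD (Real.rpow_pos_of_pos ht _)
    (Real.rpow_le_rpow_of_exponent_ge ht (htt.trans ht0) hbb)
    (Real.rpow_le_one ht.le (htt.trans ht0) hb) (hlv p hp)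

theorem opKill_b {D : TRecN.Dict} (hD : TRecN.Dic D 0) {OA : TRec.Dict} {k q3 c0 a b b' t0 K : ℝ}
    (hb : 0 ≤ b) (hbb : b ≤ b') (ht0 : t0 ≤ 1) {i m : Fin 4}
    (h : OpKill D OA k q3 c0 a b t0 K i m) : OpKill D OA k q3 c0 a b' t0 K i m := by
  intro N B hB hBN t ht htt bb ε hA W I hW hI F hF hFx hlv
  refine h N B hB hBN t ht htt bb ε hA W I hW hI F hF hFx fun p hp => ?_
  exact lv_mono hD (Real.rpow_pos_of_pos ht _)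
    (Real.rpow_le_rpow_of_exponent_ge ht (htt.trans ht0) hbb)
    (Real.rpow_le_one ht.le (htt.trans ht0) hb) (hlv p hp)

/-! ### the open inputs -/

/-- exponent of the local `L²` norms of the mixture in the slot `i` -/
noncomputable def clx (P : Prm) (d : ℝ) (i : Fin 4) : ℝ := 2 * (P.θ * P.gc i) + d

/-- the data of a nontrivial pair -/
def QD (P : Prm) (d : ℝ) (i m : Fin 4) (e k : ℝ) : DataQ := fun t W I F =>
  PRo (DF0 P) (OA0 P) k (1 + e) 1 (clx P d i) t W I i m F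

/-- **THE OPEN INPUTS**, rule (A) for mixtures of op-atoms (`PairO` of helper252) as one input -/
structure Leaves1 (P : Prm) (q3 d : ℝ) : Prop where
  /-- cells, all pairs -/
  cell : ∀ i m : Fin 4, i ≠ m → i ≠ 3 → m ≠ 3 → ∃ c0 e1 : ℝ, 0 < c0 ∧ 0 < e1 ∧
    ∀ e, 0 ≤ e → e ≤ e1 → ∃ k1 : ℝ, 0 < k1 ∧ ∀ k, 0 < k → k ≤ k1 → ∃ t0 K : ℝ, 0 < t0 ∧ 0 ≤ K ∧
      CellKill (DF0 P) (CA0 P) k q3 c0 (1 + e) 1 t0 K i m
  /-- op-atoms, trivial pairs -/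
  op : ∀ i m : Fin 4, i < m → m ≠ 3 → ∃ d1 : ℝ, 0 < d1 ∧ ∀ δ, 0 < δ → δ ≤ d1 →
    ∃ c0 k1 : ℝ, 0 < c0 ∧ 0 < k1 ∧ ∀ k, 0 < k → k ≤ k1 → ∃ t0 K : ℝ, 0 < t0 ∧ 0 ≤ K ∧
      OpKill (DF0 P) (OA0 P) k q3 c0 1 (1 + δ) t0 K i m
  /-- mixtures of op-atoms, nontrivial pairs -/
  pair : ∀ i m : Fin 4, m < i → i ≠ 3 → ∃ c0 e1 : ℝ, 0 < c0 ∧ 0 < e1 ∧ ∀ e, 0 < e → e ≤ e1 →
    ∃ k1 : ℝ, 0 < k1 ∧ ∀ k, 0 < k → k ≤ k1 → ∃ t0 K : ℝ, 0 < t0 ∧ t0 ≤ 1 ∧ 0 ≤ K ∧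
      PairO (DF0 P) (OA0 P) k q3 c0 (1 + e) 1 (clx P d i) t0 K i m

/-- **THE OPEN INPUTS** -/
structure Leaves (P : Prm) (q3 d : ℝ) : Prop where
  /-- cells, all pairs -/
  cell : ∀ i m : Fin 4, i ≠ m → i ≠ 3 → m ≠ 3 → ∃ c0 e1 : ℝ, 0 < c0 ∧ 0 < e1 ∧
    ∀ e, 0 ≤ e → e ≤ e1 → ∃ k1 : ℝ, 0 < k1 ∧ ∀ k, 0 < k → k ≤ k1 → ∃ t0 K : ℝ, 0 < t0 ∧ 0 ≤ K ∧
      CellKill (DF0 P) (CA0 P) k q3 c0 (1 + e) 1 t0 K i m
  /-- op-atoms, trivial pairs -/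
  op : ∀ i m : Fin 4, i < m → m ≠ 3 → ∃ d1 : ℝ, 0 < d1 ∧ ∀ δ, 0 < δ → δ ≤ d1 →
    ∃ c0 k1 : ℝ, 0 < c0 ∧ 0 < k1 ∧ ∀ k, 0 < k → k ≤ k1 → ∃ t0 K : ℝ, 0 < t0 ∧ 0 ≤ K ∧
      OpKill (DF0 P) (OA0 P) k q3 c0 1 (1 + δ) t0 K i m
  /-- Step I -/
  gen : ∀ i m : Fin 4, m < i → i ≠ 3 → ∃ cm : ℝ, 0 < cm ∧ ∀ c1, 0 < c1 → c1 ≤ cm →
    ∃ C g ys : ℝ, 0 < C ∧ 0 < g ∧ 0 < ys ∧ ∀ y, 0 < y → y ≤ ys → ∃ e1 : ℝ, 0 < e1 ∧
      ∀ e, 0 < e → e ≤ e1 → ∃ k1 : ℝ, 0 < k1 ∧ ∀ k, 0 < k → k ≤ k1 → ∃ t0 K : ℝ, 0 < t0 ∧ 0 ≤ K ∧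
        GenQ (QD P d i m e k) k q3 c1 (C * y) (g * y) t0 K i m
  /-- Step II -/
  stat : ∀ i m : Fin 4, m < i → i ≠ 3 → ∃ cS CS e2 : ℝ, 0 < cS ∧ 0 < e2 ∧ ∀ e, 0 < e → e ≤ e2 →
    ∃ k2 : ℝ, 0 < k2 ∧ ∀ k, 0 < k → k ≤ k2 → ∃ t0 K : ℝ, 0 < t0 ∧ 0 ≤ K ∧
      StatQ (QD P d i m e k) k q3 cS CS t0 K i m

section

variable {P : Prm} {q3 d : ℝ}

/-- Step I and Step II give the mixtures -/
theorem Leaves.to1 (hq3 : 2 < q3) (hL : Leaves P q3 d) : Leaves1 P q3 d := by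
  refine ⟨hL.cell, hL.op, fun i m hmi hi3 => ?_⟩
  obtain ⟨c0, e1, hc0, he1, hO⟩ := pairQ_exists hq3 (fun e k => QD P d i m e k)
    (fun e k t W I F hQ => hQ.full) hmi.ne' (hL.gen i m hmi hi3) (hL.stat i m hmi hi3)
  refine ⟨c0, e1, hc0, he1, fun e he hee => ?_⟩
  obtain ⟨k1, hk1, hO⟩ := hO e he hee
  refine ⟨k1, hk1, fun k hk hkk => ?_⟩
  obtain ⟨t0, K, ht0, ht01, hK, hO⟩ := hO k hk hkk
  exact ⟨t0, K, ht0, ht01, hK, pairO_iff.2 hO⟩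

/-- one nontrivial pair -/
theorem pairN (h : Ok0 P) (hq3 : 2 < q3) (hd : 0 < d) (hL : Leaves1 P q3 d) {i m : Fin 4}
    (hmi : m < i) (hi3 : i ≠ 3) : ∃ c0 e1 : ℝ, 0 < c0 ∧ 0 < e1 ∧ ∀ e, 0 < e → e ≤ e1 →
      ∃ k1 : ℝ, 0 < k1 ∧ ∀ k, 0 < k → k ≤ k1 → ∃ t0 K : ℝ, 0 < t0 ∧ t0 ≤ 1 ∧ 0 ≤ K ∧
        PairG (DF0 P) k q3 c0 (1 + e) 1 t0 K i m := by
  have him : i ≠ m := hmi.ne'
  have hm3 : m ≠ 3 := by
    rintro rfl
    have := i.2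
    have h1 : (3 : ℕ) < i.1 := hmi
    omega
  obtain ⟨cC, e1, hcC, he1, hC⟩ := hL.cell i m him hi3 hm3
  obtain ⟨cO, e2, hcO, he2, hO⟩ := hL.pair i m hmi hi3
  refine ⟨min (min cO cC) d, min (min e1 e2) 1, lt_min (lt_min hcO hcC) hd,
    lt_min (lt_min he1 he2) one_pos, fun e he hee => ?_⟩
  obtain ⟨k1, hk1, hC⟩ := hC e he.le (hee.trans ((min_le_left _ _).trans (min_le_left _ _)))
  obtain ⟨k2, hk2, hO⟩ := hO e he (hee.trans ((min_le_left _ _).trans (min_le_right _ _)))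
  refine ⟨min (min k1 k2) (q3 - 2), lt_min (lt_min hk1 hk2) (by linarith), fun k hk hkk => ?_⟩
  have hkq : 2 + k ≤ q3 := by
    have := hkk.trans (min_le_right _ _)
    linarith
  obtain ⟨t1, K1, ht1, hK1, hC⟩ := hC k hk (hkk.trans ((min_le_left _ _).trans (min_le_left _ _)))
  obtain ⟨t2, K2, ht2, ht21, hK2, hO⟩ :=
    hO k hk (hkk.trans ((min_le_left _ _).trans (min_le_right _ _)))
  have hnn : ∀ t, 0 < t → t ≤ 1 → ∀ x ∈ CA0 P i t, ∀ q, 0 ≤ x.2 q := fun t ht ht1 x hx q =>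
    (spl_DF0 h).nn i t ht ht1 x hx q
  have he1' : e ≤ 1 := hee.trans (min_le_right _ _)
  refine ⟨min t1 t2, K2 + 2 * K1 + 2, lt_min ht1 ht2, (min_le_right _ _).trans ht21, by linarith, ?_⟩
  refine pairG_of_mix (spl_DF0 h) (a := 1 + e) (b := 1) (cl := clx P d i) hk hkq (by linarith)
    hd.le ((min_le_right _ _).trans ht21) hK1 hK2 him hi3 (mul_nonneg h.θ0.le (h.gc0 i)) ?_
    (cellKill_mono hC (min_le_left _ _) ((min_le_right _ _).trans ht21) (by linarith) hnn le_rfl hK1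
      le_rfl) ?_
  · have h1 : 0 ≤ P.θ * P.gc i := mul_nonneg h.θ0.le (h.gc0 i)
    show (1 + e) * (P.θ * P.gc i) + d ≤ 2 * (P.θ * P.gc i) + d
    nlinarith
  · exact pairO_iff.2 (pairQ_mono (pairO_iff.1 hO) (min_le_right _ _)
      ((min_le_right _ _).trans ht21) le_rfl hK2 le_rfl)

/-- one trivial pair -/
theorem pairT (h : Ok0 P) (hL : Leaves1 P q3 d) {i m : Fin 4} (him : i < m) (hm3 : m ≠ 3) {δ : ℝ}
    (hδ : 0 < δ) : ∃ c0 k1 : ℝ, 0 < c0 ∧ 0 < k1 ∧ ∀ k, 0 < k → k ≤ k1 → ∃ t0 K : ℝ, 0 < t0 ∧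
      t0 ≤ 1 ∧ 0 ≤ K ∧ PairG (DF0 P) k q3 c0 1 (1 + δ) t0 K i m := by
  have hi3 : i ≠ 3 := by
    rintro rfl
    have := m.2
    have h1 : (3 : ℕ) < m.1 := him
    omega
  obtain ⟨cC, e1, hcC, he1, hC⟩ := hL.cell i m him.ne hi3 hm3
  obtain ⟨k1, hk1, hC⟩ := hC 0 le_rfl he1.le
  obtain ⟨d1, hd1, hO⟩ := hL.op i m him hm3
  obtain ⟨cO, k2, hcO, hk2, hO⟩ := hO (min δ d1) (lt_min hδ hd1) (min_le_right _ _)
  refine ⟨min cO cC, min k1 k2, lt_min hcO hcC, lt_min hk1 hk2, fun k hk hkk => ?_⟩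
  obtain ⟨t1, K1, ht1, hK1, hC⟩ := hC k hk (hkk.trans (min_le_left _ _))
  obtain ⟨t2, K2, ht2, hK2, hO⟩ := hO k hk (hkk.trans (min_le_right _ _))
  rw [add_zero] at hC
  have hnn : ∀ t, 0 < t → t ≤ 1 → ∀ x ∈ CA0 P i t, ∀ q, 0 ≤ x.2 q := fun t ht ht1 x hx q =>
    (spl_DF0 h).nn i t ht ht1 x hx q
  set T := min (min t1 t2) 1 with hT
  have hT1 : T ≤ 1 := min_le_right _ _
  have h1 : T ≤ t1 := (min_le_left _ _).trans (min_le_left _ _)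
  have h2 : T ≤ t2 := (min_le_left _ _).trans (min_le_right _ _)
  refine ⟨T, 2 * max K1 K2, lt_min (lt_min ht1 ht2) one_pos, hT1,
    mul_nonneg two_pos.le (hK1.trans (le_max_left _ _)), ?_⟩
  refine pairG_of_op (spl_DF0 h) one_pos.le hT1 (hK1.trans (le_max_left _ _)) him.ne hi3 ?_ ?_
  · exact cellKill_b (dic_DF0 h) one_pos.le (by linarith) hT1
      (cellKill_mono hC h1 hT1 one_pos.le hnn (min_le_right _ _) hK1 (le_max_left _ _))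
  · exact opKill_b (dic_DF0 h) (b := 1 + min δ d1)
      (by have := (lt_min hδ hd1).le; linarith) (by have := min_le_left δ d1; linarith) hT1
      (opKill_mono hO h2 hT1 (min_le_left _ _) hK2 (le_max_right _ _))

/-- **`S0106` from the open inputs for the final dictionary** -/
theorem target_of_leaves1 (h : Ok0 P) (hp : Pos0 P) (hq3 : 2 < q3) (hd : 0 < d)
    (hL : Leaves1 P q3 d) : L0.Target := by
  refine target_of_DF0 hq3 (fun _ => P) (fun _ _ => h) (fun _ _ => hp) ?_ ?_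
  · -- nontrivial pairs
    have h1 : ∀ j : Fin 4 × Fin 4, ∃ c : ℝ, 0 < c ∧ ∀ c0, 0 < c0 → c0 ≤ c → ∃ e1 : ℝ, 0 < e1 ∧
        ∀ e, 0 < e → e ≤ e1 → ∃ k1 : ℝ, 0 < k1 ∧ ∀ k, 0 < k → k ≤ k1 → ∃ t0 K : ℝ, 0 < t0 ∧
          0 ≤ K ∧ (j.2 < j.1 → j.1 ≠ 3 → PairG (DF0 P) k q3 c0 (1 + e) 1 t0 K j.1 j.2) := by
      rintro ⟨i, m⟩
      by_cases hc : m < i ∧ i ≠ 3
      · obtain ⟨c, e1, hc0, he1, h1⟩ := pairN h hq3 hd hL hc.1 hc.2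
        refine ⟨c, hc0, fun c0 hc00 hcc => ⟨e1, he1, fun e he hee => ?_⟩⟩
        obtain ⟨k1, hk1, h1⟩ := h1 e he hee
        refine ⟨k1, hk1, fun k hk hkk => ?_⟩
        obtain ⟨t0, K, ht0, ht01, hK, h1⟩ := h1 k hk hkk
        exact ⟨t0, K, ht0, hK, fun _ _ => pairG_mono h1 le_rfl ht01 hcc hK le_rfl⟩
      · exact ⟨1, one_pos, fun c0 _ _ => ⟨1, one_pos, fun e _ _ => ⟨1, one_pos, fun k _ _ =>
          ⟨1, 0, one_pos, le_rfl, fun h2 h3 => absurd ⟨h2, h3⟩ hc⟩⟩⟩⟩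
    obtain ⟨c, hc, h1⟩ := unif_fin h1
    have h2 := h1 c hc le_rfl
    obtain ⟨e1, he1, h3⟩ := unif_fin h2
    refine ⟨e1, he1, fun e he hee => ?_⟩
    obtain ⟨k1, hk1, h4⟩ := unif_fin (h3 e he hee)
    refine ⟨c, k1, hc, hk1, fun k hk hkk => ?_⟩
    obtain ⟨t0, K, ht0, ht01, hK, h5⟩ := unif_tKf (Q := fun (j : Fin 4 × Fin 4) t0 K =>
        j.2 < j.1 → j.1 ≠ 3 → PairG (DF0 P) k q3 c (1 + e) 1 t0 K j.1 j.2)
      (fun j t K t' K' hQ ht' htt ht1 hK hKK ha hb =>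
        pairG_mono (hQ ha hb) htt ht1 le_rfl hK hKK) (h4 k hk hkk)
    refine ⟨t0, K, ht0, hK, ?_⟩
    intro N B hB hBN t ht htt bb ε hA W I hW hI F hF i m hmi hi3 hfz hlv
    exact h5 (i, m) hmi hi3 N B hB hBN t ht htt bb ε hA W I hW hI F hF hfz
      (by simpa using hlv)
  · -- trivial pairs
    refine ⟨1, one_pos, fun _ _ _ δ hδ => ?_⟩
    have h1 : ∀ j : Fin 4 × Fin 4, ∃ c : ℝ, 0 < c ∧ ∀ c0, 0 < c0 → c0 ≤ c → ∃ k1 : ℝ, 0 < k1 ∧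
        ∀ k, 0 < k → k ≤ k1 → ∃ t0 K : ℝ, 0 < t0 ∧ 0 ≤ K ∧
          (j.1 < j.2 → j.2 ≠ 3 → PairG (DF0 P) k q3 c0 1 (1 + δ) t0 K j.1 j.2) := by
      rintro ⟨i, m⟩
      by_cases hc : i < m ∧ m ≠ 3
      · obtain ⟨c, k1, hc0, hk1, h1⟩ := pairT h hL hc.1 hc.2 hδ
        refine ⟨c, hc0, fun c0 hc00 hcc => ⟨k1, hk1, fun k hk hkk => ?_⟩⟩
        obtain ⟨t0, K, ht0, ht01, hK, h1⟩ := h1 k hk hkk
        exact ⟨t0, K, ht0, hK, fun _ _ => pairG_mono h1 le_rfl ht01 hcc hK le_rfl⟩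
      · exact ⟨1, one_pos, fun c0 _ _ => ⟨1, one_pos, fun k _ _ =>
          ⟨1, 0, one_pos, le_rfl, fun h2 h3 => absurd ⟨h2, h3⟩ hc⟩⟩⟩
    obtain ⟨c, hc, h1⟩ := unif_fin h1
    obtain ⟨k1, hk1, h4⟩ := unif_fin (h1 c hc le_rfl)
    refine ⟨c, k1, hc, hk1, fun k hk hkk => ?_⟩
    obtain ⟨t0, K, ht0, ht01, hK, h5⟩ := unif_tKf (Q := fun (j : Fin 4 × Fin 4) t0 K =>
        j.1 < j.2 → j.2 ≠ 3 → PairG (DF0 P) k q3 c 1 (1 + δ) t0 K j.1 j.2)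
      (fun j t K t' K' hQ ht' htt ht1 hK hKK ha hb =>
        pairG_mono (hQ ha hb) htt ht1 le_rfl hK hKK) (h4 k hk hkk)
    refine ⟨t0, K, ht0, hK, ?_⟩
    intro N B hB hBN t ht htt bb ε hA W I hW hI F hF i m him hm3 hfz hlv
    exact h5 (i, m) him hm3 N B hB hBN t ht htt bb ε hA W I hW hI F hF
      (by simpa using hfz) hlv

/-- the same with Step I and Step II as inputs -/
theorem target_of_leaves0 (h : Ok0 P) (hp : Pos0 P) (hq3 : 2 < q3) (hd : 0 < d)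
    (hL : Leaves P q3 d) : L0.Target := target_of_leaves1 h hp hq3 hd (hL.to1 hq3)

end

end Crest.Agent.R079.WS0112
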