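import Crest.Agent.R079.CKz_37
import Crest.Agent.R079.WT_112

/-! R079 (helper37), CELLKILL part 8: **FIELD `cell` OF THE TOP WIRING** (`WT_112`) for the final
dictionary `DF0 P`, from `KillN Φ` and `HighN Ψ` with tame `Φ`, `Ψ`.

Inequalities: `8 gc_i ≤ G`, `16 G ≤ x_m`, `5 + (20 dc_i + 40 Cc_i) / G ≤ q3`, `G = min g_m f_m`. -/

set_option autoImplicit false

namespace Crest.Agent.R079.CKgx37

open Finset Crest.Agent.R079.Grid Crest.Agent.R079.Glue Crest.Agent.R079.Growth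
  Crest.Agent.R079.QRed Crest.Agent.R079.Cell37 Crest.Agent.R079.OpS276 Crest.Agent.R079.OpK276
  Crest.Agent.R079.WS112 Crest.Agent.R079.WS0112 Crest.Agent.R079.T6bx252

/-- size of the price of the kill lemma -/
def TamP (Φ : ℝ → ℝ → ℝ → ℝ → ℝ → ℝ) : Prop :=
  ∀ σ ξ C1 h τ : ℝ, 0 < σ → 0 ≤ C1 → 0 ≤ h → 0 ≤ τ → τ < σ → 8 * (σ + τ) < ξ →
    ∃ KΦ tΦ : ℝ, 0 ≤ KΦ ∧ 0 < tΦ ∧ ∀ t, 0 < t → t ≤ tΦ →
      Φ (280 * t ^ σ) (t ^ ξ) (t ^ (-C1)) 1 (t ^ (-h)) ≤ KΦ * t ^ τ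

/-- size of the price of HIGH -/
def TamH (Ψ : ℝ → ℝ → ℝ → ℝ) : Prop :=
  ∀ C1 C2 h ε : ℝ, 0 ≤ C1 → 0 ≤ C2 → 0 ≤ h → 0 < ε →
    ∃ KΨ tΨ : ℝ, 0 ≤ KΨ ∧ 0 < tΨ ∧ ∀ t, 0 < t → t ≤ tΨ →
      Ψ (t ^ (-C1)) (t ^ (-C2)) (t ^ (-h)) ≤ KΨ * t ^ (-ε)

set_option maxHeartbeats 2000000 in
/-- **CELLS ARE KILLED IN THE FINAL DICTIONARY** -/
theorem cell_DF0 {P : Prm} (hP : Ok0 P) {Φ : ℝ → ℝ → ℝ → ℝ → ℝ → ℝ} (hKN : KillN Φ)
    {Ψ : ℝ → ℝ → ℝ → ℝ} (hHN : HighN Ψ) (hΦ : TamP Φ) (hΨ : TamH Ψ) {i m : Fin 4} (him : i ≠ m)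
    (hi3 : i ≠ 3) (hm3 : m ≠ 3) {G : ℝ} (hG : G = min (P.g m) (P.f m)) (hG0 : 0 < G)
    (d1 : 8 * P.gc i ≤ G) (d2 : 16 * G ≤ P.x m) {q3 : ℝ}
    (d3 : 5 + (20 * P.dc i + 40 * P.Cc i) / G ≤ q3) :
    ∃ c0 e1 : ℝ, 0 < c0 ∧ 0 < e1 ∧
    ∀ e, 0 ≤ e → e ≤ e1 → ∃ k1 : ℝ, 0 < k1 ∧ ∀ k, 0 < k → k ≤ k1 → ∃ t0 K : ℝ, 0 < t0 ∧ 0 ≤ K ∧
      CellKill (DF0 P) (CA0 P) k q3 c0 (1 + e) 1 t0 K i m := by
  have hθ := hP.θ0
  have hgc := hP.gc0 i
  have hdc := hP.dc0 i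
  have hCc := hP.Cc0 i
  have hx := hP.x0 m
  have hgm : 0 < P.g m := lt_of_lt_of_le hG0 (hG ▸ min_le_left _ _)
  have hfm : 0 < P.f m := lt_of_lt_of_le hG0 (hG ▸ min_le_right _ _)
  set β : ℝ := P.θ with hβ
  have hβG : 0 < β * G := mul_pos hθ hG0
  refine ⟨β * G / 32, 1 / 4, by positivity, by norm_num, fun e he0 he1 => ⟨1, one_pos,
    fun k hk hk1 => ?_⟩⟩
  set a : ℝ := 1 + e with ha
  have ha0 : 0 ≤ a := by linarith
  have ha1 : a ≤ 5 / 4 := by linarith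
  -- exponents
  set C0 : ℝ := β * a * P.Cc i with hC0
  set δ0 : ℝ := β * a * P.dc i with hδ0
  set γ0 : ℝ := β * a * P.gc i with hγ0
  have hC00 : 0 ≤ C0 := by positivity
  have hδ00 : 0 ≤ δ0 := by positivity
  have hγ00 : 0 ≤ γ0 := by positivity
  have hC01 : C0 ≤ 5 / 4 * (β * P.Cc i) := by
    have : β * P.Cc i * a ≤ β * P.Cc i * (5 / 4) := mul_le_mul_of_nonneg_left ha1 (by positivity)
    rw [hC0]; linarith
  have hδ01 : δ0 ≤ 5 / 4 * (β * P.dc i) := by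
    have : β * P.dc i * a ≤ β * P.dc i * (5 / 4) := mul_le_mul_of_nonneg_left ha1 (by positivity)
    rw [hδ0]; linarith
  have hγ01 : γ0 ≤ 5 / 32 * (β * G) := by
    have h1 : β * P.gc i * a ≤ β * P.gc i * (5 / 4) := mul_le_mul_of_nonneg_left ha1 (by positivity)
    have h2 : β * (8 * P.gc i) ≤ β * G := mul_le_mul_of_nonneg_left d1 hθ.le
    rw [hγ0]; linarith
  set c1 : ℝ := γ0 + β * G / 32 with hc1
  have hc10 : 0 ≤ c1 := by positivity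
  have hc11 : c1 ≤ 3 / 16 * (β * G) := by rw [hc1]; linarith
  set Q0 : ℝ := c1 + δ0 + 2 * C0 with hQ
  have hQ0 : 0 ≤ Q0 := by positivity
  set h : ℝ := 2 * Q0 / k + β * P.g m with hh
  have hh0 : 0 ≤ h := by positivity
  have hx2 : β * (16 * G) ≤ β * P.x m := mul_le_mul_of_nonneg_left d2 hθ.le
  have hmin : β * min (P.g m) (P.f m) = β * G := by rw [← hG]
  -- the two prices
  have hPΦ := hΦ (β * min (P.g m) (P.f m)) (β * P.x m) (1 + 2 * C0 + δ0 + 2 * Q0) h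
    (β * G / 2 + c1) (by rw [hmin]; exact hβG) (by positivity) hh0 (by positivity)
    (by rw [hmin]; linarith) (by rw [hmin]; linarith)
  have hPΨ := hΨ (2 * C0 + δ0 + 2 * Q0) (2 * C0 + δ0) h (β * G / 2 - β * G / 8 - c1)
    (by positivity) (by positivity) hh0 (by linarith)
  -- the exponent of the letter 3
  have hq : Q0 ≤ β * G / 8 * ((q3 - 2) / 2) := by
    have h1 : β * G * (3 + (20 * P.dc i + 40 * P.Cc i) / G) ≤ β * G * (q3 - 2) :=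
      mul_le_mul_of_nonneg_left (by linarith) hβG.le
    have h2 : β * G * ((20 * P.dc i + 40 * P.Cc i) / G) = β * (20 * P.dc i + 40 * P.Cc i) := by
      field_simp
    have h3 : β * G * (3 + (20 * P.dc i + 40 * P.Cc i) / G) =
        3 * (β * G) + β * (20 * P.dc i + 40 * P.Cc i) := by rw [mul_add, h2]; ring
    rw [h3] at h1
    have h4 : β * (20 * P.dc i + 40 * P.Cc i) = 20 * (β * P.dc i) + 40 * (β * P.Cc i) := by ring
    rw [hQ]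
    linarith
  have hq3 : 5 ≤ q3 := by
    have : 0 ≤ (20 * P.dc i + 40 * P.Cc i) / G := by positivity
    linarith
  have hk2 : Q0 ≤ h * (k / 2) := by
    have e1 : h * (k / 2) = Q0 + β * P.g m * (k / 2) := by
      rw [hh]; field_simp
    rw [e1]
    have : 0 ≤ β * P.g m * (k / 2) := by positivity
    linarith
  have hk4 : β * P.g m ≤ h * (1 + k) := by
    have h1 : 0 ≤ 2 * Q0 / k := by positivity
    have h2 : β * P.g m ≤ h := by rw [hh]; linarith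
    have h3 : h ≤ h * (1 + k) := by nlinarith
    linarith
  obtain ⟨t0, K, ht0, ht01, hK, hmain⟩ := cellKill_core hKN hHN (k := k) (q3 := q3) hk
    (by linarith) hi3 hm3 him (C0 := C0) (δ0 := δ0) (β := β) (g := P.g m) (x := P.x m)
    (f := P.f m) (c1 := c1) (D0 := 2 * Q0) (h := h) (hc := β * G / 2) (s3 := β * G / 8) hC00 hδ00
    hθ hgm hx hfm (by positivity) hh0 (by positivity) (by positivity) (by linarith) hk2 hq hk4
    hPΦ hPΨ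
  refine ⟨t0, K, ht0, hK, ?_⟩
  intro N B hB hBN t ht htt bb ε hA W I hW hI F hF x hx' hFx hlv
  have ht1 : t ≤ 1 := htt.trans ht01
  obtain ⟨n, a', b', w, u, c, ξ, hcell, hx1, hx2'⟩ := hx'
  have hT : (t ^ a) ^ P.θ = t ^ (β * a) := by rw [← Real.rpow_mul ht.le, mul_comm]
  rw [hT] at hcell hx2'
  have e1 : (t ^ (β * a)) ^ (-(P.Cc i)) = t ^ (-C0) := by
    rw [← Real.rpow_mul ht.le, hC0]; congr 1; ring
  rw [e1] at hcell
  have hlvS : ∀ p ∈ W, LvS (P.g m) (P.x m) (P.f m) m (t ^ β) 1 p (F m) := by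
    intro p hp
    have h1 := hlv p hp
    rw [Real.rpow_one] at h1
    exact lvS_DF0 hP hm3 ht ht1 zero_le_one h1
  have h2 := hmain t ht htt bb ε hA W I hW F hF n a' b' w u c ξ hcell
    (fun y _ => by rw [hFx, hx1]) hlvS
  have e2 : x.2 I = t ^ γ0 * (t ^ δ0 + cS n a' w c I) := by
    rw [hx2']
    show (t ^ (β * a)) ^ (P.gc i) * ((t ^ (β * a)) ^ (P.dc i) + cS n a' w c I) = _
    rw [← Real.rpow_mul ht.le, ← Real.rpow_mul ht.le]
  have e3 : t ^ c1 = t ^ (β * G / 32) * t ^ γ0 := by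
    rw [← Real.rpow_add ht, hc1]; congr 1; ring
  have hcS0 : 0 ≤ cS n a' w c I := cS_nonneg hcell I
  have hL := (Growth.len_pos I).le
  have hR : 0 ≤ t ^ (β * G / 32) * (x.2 I * len I) := by
    rw [e2]
    have h3 := Real.rpow_pos_of_pos ht (β * G / 32)
    have h4 := Real.rpow_pos_of_pos ht γ0
    have h5 := Real.rpow_pos_of_pos ht δ0
    positivity
  calc ‖TR bb ε W F‖ ≤ K * t ^ c1 * (t ^ δ0 + cS n a' w c I) * len I := h2
    _ = K * (t ^ (β * G / 32) * (x.2 I * len I)) := by rw [e3, e2]; ring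
    _ ≤ (K * (1 + B)) * (t ^ (β * G / 32) * (x.2 I * len I)) := by
        refine mul_le_mul_of_nonneg_right ?_ hR
        nlinarith
    _ = _ := by ring

end Crest.Agent.R079.CKgx37
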