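import Crest.Agent.R079.CKv_217
import Crest.Agent.R079.CKu_37

/-! R079 (helper217), CELLKILL, end: the field `cell` is unconditional. -/

set_option autoImplicit false

namespace Crest.Agent.R079.CKk217

open Finset Crest.Agent.R079.Grid Crest.Agent.R079.Glue Crest.Agent.R079.Growth
  Crest.Agent.R079.QRed Crest.Agent.R079.KLx446 Crest.Agent.R079.CKgx37 Crest.Agent.R079.NP112

theorem highN_psiL : ∃ K : ℝ, 0 ≤ K ∧ HighN (PsiL K 2) := by
  obtain ⟨K, hK, hH⟩ := highN cornerZ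
  refine ⟨K, hK, ?_⟩
  intro i m a hD bb ε hA W I hW F V cap Hc Hx M3 h s0 b0 S w u c ξ hcap hHc hHx hM3 hh hG hFi hav hsup h3
  refine (Qb247.norm_TR_le hA.2 W F).trans ((hH i m 3 a hD W I hW.reg hW.top bb hA.1 F h V cap Hc Hx M3
    s0 b0 S w u c ξ hh hcap hHc hHx (by linarith) hG hav hsup h3 hFi).trans ?_)
  have hV := hG.V0
  have hL := Growth.len_pos I
  have hP : 1 ≤ cap * Hc * Hx :=
    one_le_mul_of_one_le_of_one_le (one_le_mul_of_one_le_of_one_le hcap hHc) hHx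
  have h0 : 0 ≤ Real.log (cap * Hc * Hx) := Real.log_nonneg hP
  have h1 : Real.log (cap * Hc * Hx) ≤ Real.log (2 + cap * Hc * Hx) :=
    Real.log_le_log (by linarith) (by linarith)
  unfold PsiL
  gcongr

/-- **FIELD `cell`** -/
theorem cellF_PF {x C ρ c q3 : ℝ} (hA : Adm4 x C ρ c) (hx : 40 ≤ x) (hc : c ≤ 1 / 8)
    (hq : 40 * C + 40 ≤ q3) : CellF (PF x C ρ c) q3 := by
  obtain ⟨K, hK, hH⟩ := highN_psiL
  exact cellF_of_high hK hH hA hx hc hq

end Crest.Agent.R079.CKk217
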