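import Crest.Agent.R079.T6d_252
import Crest.Agent.R079.GenT_934
import Crest.Agent.R079.GenP_934
import Crest.Agent.R079.TS1_653
import Crest.Agent.R079.BadN_360

/-! R079, Step I (helper45): BOOKKEEPING OF ONE GENERATION.

`SpM` : on every full subregion two letters of size `≤ 1` split on the windows of a set of tops into
`X = G + E`, `Y = G' + E'` with `av p (E w) ≤ r0` at all nodes of the windows, numbers of windows
`≤ A0 + A1 en`, energies `≤ L (δ + en)`, and word totals `(G, Y)`, `(X, G')`, `(G, G')` `≤ κ (δ + en)`.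

`TallW` : the tall part of a normalised letter is killed next to every normalised letter.

`genM_of_split` : `SpM` + `TallW` give `GenM` (the letters `E` are cut at the height `H r0`; the class
`Sm k` is recovered by interpolation, `r = r0 H ^ (k / (2 + k))`). -/

set_option autoImplicit false

namespace Crest.Agent.R079.GnMx45

open Finset Crest.Agent.R079.Grid Crest.Agent.R079.Growth Crest.Agent.R079.QRed
open Crest.Agent.R079.TRec Crest.Agent.R079.AsmA844 Crest.Agent.R079.GenT934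
open Crest.Agent.R079.T6bx252 Crest.Agent.R079.BadN360

/-- the node form only sees the values on the node interval -/
structure Loc (v : Fn → Fn → Nd → ℂ) : Prop where
  l1 : ∀ p X X' Y, (∀ y ∈ iv p, X y = X' y) → v X Y p = v X' Y p
  l2 : ∀ p X Y Y', (∀ y ∈ iv p, Y y = Y' y) → v X Y p = v X Y' p

theorem loc_v4 {bb : ℤ} {ε : ℕ → ℤ → ℂ} (hA : Adm bb ε) (F : Fin 4 → Fn) (a b : Fin 4) :
    Loc (v4 bb ε F a b) where
  l1 p X X' Y h := by
    unfold v4
    refine Qb247.TI_congr bb hA.1 ε _ _ p fun j y hy => ?_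
    by_cases hb : j = b
    · subst hb
      rw [Function.update_self, Function.update_self]
    · rw [Function.update_of_ne hb, Function.update_of_ne hb]
      by_cases ha : j = a
      · subst ha
        rw [Function.update_self, Function.update_self]
        exact h y hy
      · rw [Function.update_of_ne ha, Function.update_of_ne ha]
  l2 p X Y Y' h := by
    unfold v4
    refine Qb247.TI_congr bb hA.1 ε _ _ p fun j y hy => ?_
    by_cases hb : j = b
    · subst hb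
      rw [Function.update_self, Function.update_self]
      exact h y hy
    · rw [Function.update_of_ne hb, Function.update_of_ne hb]

/-- energy of the two letters at the top -/
noncomputable def en (p : Nd) (X Y : Fn) : ℝ := av p X ^ 2 + av p Y ^ 2

theorem en_nonneg (p : Nd) (X Y : Fn) : 0 ≤ en p X Y := add_nonneg (sq_nonneg _) (sq_nonneg _)

/-- **SPLITTING OF ONE GENERATION** (normalised letters; `G` = killed part, `E` = rest) -/
def SpM (v : Fn → Fn → Nd → ℂ) (k : ℝ) (R0 : Finset Nd) (δ κ A0 A1 L r0 : ℝ) : Prop :=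
  ∀ R J, Full R J → R ⊆ R0 → ∀ X Y, Sm k 1 R X Y →
    ∃ (T : Finset Nd) (G E G' E' : Nd → Fn), Tops R J T ∧
      (∀ w ∈ T, ∀ y ∈ iv w, X y = G w y + E w y) ∧
      (∀ w ∈ T, ∀ y ∈ iv w, Y y = G' w y + E' w y) ∧
      (∀ w ∈ T, ∀ p ∈ win R T w, av p (E w) ≤ r0 ∧ av p (E' w) ≤ r0) ∧
      ∑ w ∈ T, len w ≤ (A0 + A1 * en J X Y) * len J ∧
      ∑ w ∈ T, len w * en w (E w) (E' w) ≤ L * (δ + en J X Y) * len J ∧
      ‖∑ w ∈ T, ∑ p ∈ win R T w, v (G w) Y p‖ ≤ κ * (δ + en J X Y) * len J ∧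
      ‖∑ w ∈ T, ∑ p ∈ win R T w, v X (G' w) p‖ ≤ κ * (δ + en J X Y) * len J ∧
      ‖∑ w ∈ T, ∑ p ∈ win R T w, v (G w) (G' w) p‖ ≤ κ * (δ + en J X Y) * len J

/-- **THE TALL PART IS KILLED** next to every letter which is only bounded in `L²` -/
def TallW (v : Fn → Fn → Nd → ℂ) (R0 : Finset Nd) (H kT : ℝ) : Prop :=
  ∀ W I, Full W I → W ⊆ R0 → ∀ E Z : Fn, (∀ p ∈ W, av p E ≤ 1) → (∀ p ∈ W, av p Z ≤ 1) →
    ‖∑ p ∈ W, v (hi H E) Z p‖ ≤ kT * len I ∧ ‖∑ p ∈ W, v Z (hi H E) p‖ ≤ kT * len I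

theorem av_smul' (p : Nd) {a : ℝ} (ha : 0 ≤ a) (X : Fn) :
    av p (fun y => (a : ℂ) * X y) = a * av p X := GenP934.av_smul p a ha X

theorem av_nonneg' (p : Nd) (X : Fn) : 0 ≤ av p X := Growth.av_nonneg p X

theorem hi_smul {a : ℝ} (ha : 0 < a) (H : ℝ) (E : Fn) :
    hi H (fun y => ((a⁻¹ : ℝ) : ℂ) * E y) = fun y => ((a⁻¹ : ℝ) : ℂ) * hi (H * a) E y := by
  funext y
  unfold hi
  have e : ‖((a⁻¹ : ℝ) : ℂ) * E y‖ = a⁻¹ * ‖E y‖ := by
    rw [norm_mul, Complex.norm_real, Real.norm_of_nonneg (inv_nonneg.2 ha.le)]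
  rw [e]
  have h : a⁻¹ * ‖E y‖ ≤ H ↔ ‖E y‖ ≤ H * a := by
    rw [inv_mul_le_iff₀ ha, mul_comm a H]
  by_cases h1 : ‖E y‖ ≤ H * a
  · rw [if_pos (h.2 h1), if_pos h1, mul_zero]
  · rw [if_neg (fun h2 => h1 (h.1 h2)), if_neg h1]

section

variable {v : Fn → Fn → Nd → ℂ} {k : ℝ} {R0 : Finset Nd}

theorem sum_smul (hB : GenT934.Bil v) (W : Finset Nd) (a b : ℂ) (X Y : Fn) :
    ∑ p ∈ W, v (fun y => a * X y) (fun y => b * Y y) p = a * b * ∑ p ∈ W, v X Y p := by
  rw [Finset.mul_sum]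
  refine Finset.sum_congr rfl fun p _ => ?_
  rw [hB.smul1, hB.smul2]
  ring

/-- the tall part at the relative height `H a` -/
theorem tall_scale (hB : GenT934.Bil v) {H kT : ℝ} (hT : TallW v R0 H kT) {W : Finset Nd} {I : Nd}
    (hW : Full W I) (hWR : W ⊆ R0) {a : ℝ} (ha : 0 < a) {E Z : Fn} (hE : ∀ p ∈ W, av p E ≤ a)
    (hZ : ∀ p ∈ W, av p Z ≤ a) :
    ‖∑ p ∈ W, v (hi (H * a) E) Z p‖ ≤ kT * a ^ 2 * len I ∧
      ‖∑ p ∈ W, v Z (hi (H * a) E) p‖ ≤ kT * a ^ 2 * len I := by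
  have hai : 0 ≤ a⁻¹ := inv_nonneg.2 ha.le
  have h1 : ∀ (U : Fn), (∀ p ∈ W, av p U ≤ a) →
      ∀ p ∈ W, av p (fun y => ((a⁻¹ : ℝ) : ℂ) * U y) ≤ 1 := by
    intro U hU p hp
    rw [av_smul' p hai]
    have := mul_le_mul_of_nonneg_left (hU p hp) hai
    rwa [inv_mul_cancel₀ ha.ne'] at this
  obtain ⟨h2, h3⟩ := hT W I hW hWR _ _ (h1 E hE) (h1 Z hZ)
  rw [hi_smul ha, sum_smul hB] at h2 h3
  have ec : ‖(((a⁻¹ : ℝ) : ℂ) * ((a⁻¹ : ℝ) : ℂ))‖ = (a ^ 2)⁻¹ := by
    rw [norm_mul, Complex.norm_real, Real.norm_of_nonneg hai]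
    rw [sq, mul_inv]
  have ha2 : 0 < a ^ 2 := by positivity
  have conv : ∀ z : ℂ, ‖(((a⁻¹ : ℝ) : ℂ) * ((a⁻¹ : ℝ) : ℂ)) * z‖ ≤ kT * len I →
      ‖z‖ ≤ kT * a ^ 2 * len I := by
    intro z hz
    rw [norm_mul, ec] at hz
    have h4 := mul_le_mul_of_nonneg_left hz ha2.le
    rw [mul_inv_cancel_left₀ ha2.ne'] at h4
    calc ‖z‖ ≤ a ^ 2 * (kT * len I) := h4
      _ = kT * a ^ 2 * len I := by ring
  exact ⟨conv _ h2, conv _ h3⟩

/-- interpolation of the cut letter -/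
theorem aq_cut (hk : 0 < k) {H a : ℝ} (hH : 0 < H) (ha : 0 < a) {p : Nd} {E : Fn}
    (hE : av p E ≤ a) : aq (2 + k) p (lo (H * a) E) ≤ a * H ^ (k / (2 + k)) := by
  have hq0 : (0 : ℝ) < 2 + k := by linarith
  have h1 := TRec.aq_le_interp (q := 2 + k) (by linarith) p ha.le (mul_pos hH ha).le
    ((av_lo (H * a) p E).trans hE) (fun y _ => norm_lo_le (mul_pos hH ha).le E y)
  refine h1.trans (le_of_eq ?_)
  have e1 : a ^ 2 * (H * a) ^ (2 + k - 2) = a ^ (2 + k) * H ^ k := by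
    rw [show (2 : ℝ) + k - 2 = k by ring, Real.mul_rpow hH.le ha.le, Real.rpow_add ha,
      Real.rpow_two]
    ring
  rw [e1, Real.mul_rpow (Real.rpow_nonneg ha.le _) (Real.rpow_nonneg hH.le _),
    ← Real.rpow_mul ha.le, ← Real.rpow_mul hH.le, mul_one_div_cancel hq0.ne', Real.rpow_one,
    mul_one_div]

/-- **BOOKKEEPING OF ONE GENERATION** -/
theorem genM_of_split (hB : GenT934.Bil v) (hLo : Loc v) (hk : 0 < k) {δ κ A0 A1 L r0 H kT : ℝ}
    (hδ : 0 < δ) (hA0 : 0 ≤ A0) (hA1 : 0 ≤ A1) (hr0 : 0 < r0) (hH : 0 < H) (hkT : 0 ≤ kT)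
    (h : SpM v k R0 δ κ A0 A1 L r0) (hT : TallW v R0 H kT) :
    GenM v k R0 δ (3 * κ + 2 * kT * r0 ^ 2 * (A0 / δ + A1))
      (L + (r0 * H ^ (k / (2 + k))) ^ 2 * (A0 + δ * A1)) (r0 * H ^ (k / (2 + k))) := by
  classical
  intro s hs R J hR hRR X Y hXY
  have hsi : 0 ≤ s⁻¹ := inv_nonneg.2 hs.le
  set r : ℝ := r0 * H ^ (k / (2 + k)) with hr
  have hr' : 0 < r := mul_pos hr0 (Real.rpow_pos_of_pos hH _)
  set X1 : Fn := fun y => ((s⁻¹ : ℝ) : ℂ) * X y with hX1
  set Y1 : Fn := fun y => ((s⁻¹ : ℝ) : ℂ) * Y y with hY1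
  have hback : ∀ (Z : Fn), Z = fun y => (s : ℂ) * (((s⁻¹ : ℝ) : ℂ) * Z y) := by
    intro Z
    funext y
    have : (s : ℂ) * ((s⁻¹ : ℝ) : ℂ) = 1 := by
      push_cast
      exact mul_inv_cancel₀ (by exact_mod_cast hs.ne')
    rw [← mul_assoc, this, one_mul]
  have hN : Sm k 1 R X1 Y1 := by
    have := Sm_smul hk hXY hsi
    rwa [inv_mul_cancel₀ hs.ne'] at this
  obtain ⟨T, G, E, G', E', hTo, hX, hY, hE, hcnt, hen, w1, w2, w3⟩ := h R J hR hRR X1 Y1 hN
  have hlJ : 0 ≤ len J := (Growth.len_pos J).le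
  have hen1 : 0 ≤ en J X1 Y1 := en_nonneg _ _ _
  have hMs : Ms δ s J X Y = s ^ 2 * (δ + en J X1 Y1) := by
    have e1 : av J X = s * av J X1 := by
      conv_lhs => rw [hback X]
      exact av_smul' J hs.le X1
    have e2 : av J Y = s * av J Y1 := by
      conv_lhs => rw [hback Y]
      exact av_smul' J hs.le Y1
    unfold Ms en
    rw [e1, e2]
    ring
  set Ec : Nd → Fn := fun w => lo (H * r0) (E w) with hEc
  set Ec' : Nd → Fn := fun w => lo (H * r0) (E' w) with hEc'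
  refine ⟨T, fun w y => (s : ℂ) * Ec w y, fun w y => (s : ℂ) * Ec' w y, hTo, ?_, ?_, ?_⟩
  · -- size
    intro w hw
    have h1 : Sm k r (win R T w) (Ec w) (Ec' w) := fun p hp =>
      ⟨aq_cut hk hH hr0 (hE w hw p hp).1, aq_cut hk hH hr0 (hE w hw p hp).2⟩
    have h2 := Sm_smul hk h1 hs.le
    rwa [mul_comm s r] at h2
  · -- energy
    have h1 : ∀ w ∈ T, len w * Ms δ (r * s) w (fun y => (s : ℂ) * Ec w y)
        (fun y => (s : ℂ) * Ec' w y) ≤
        s ^ 2 * (δ * r ^ 2 * len w + len w * en w (E w) (E' w)) := by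
      intro w hw
      have hl := (Growth.len_pos w).le
      unfold Ms en
      rw [av_smul' w hs.le, av_smul' w hs.le]
      have g1 := pow_le_pow_left₀ (av_nonneg' w (Ec w)) (av_lo (H * r0) w (E w)) 2
      have g2 := pow_le_pow_left₀ (av_nonneg' w (Ec' w)) (av_lo (H * r0) w (E' w)) 2
      have hs2 : 0 ≤ s ^ 2 := sq_nonneg _
      calc len w * (δ * (r * s) ^ 2 + (s * av w (Ec w)) ^ 2 + (s * av w (Ec' w)) ^ 2)
          = s ^ 2 * (δ * r ^ 2 * len w + len w * (av w (Ec w) ^ 2 + av w (Ec' w) ^ 2)) := by ring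
        _ ≤ _ := mul_le_mul_of_nonneg_left (add_le_add le_rfl
            (mul_le_mul_of_nonneg_left (add_le_add g1 g2) hl)) hs2
    refine (Finset.sum_le_sum h1).trans ?_
    rw [← Finset.mul_sum, Finset.sum_add_distrib, ← Finset.mul_sum]
    have g1 : δ * r ^ 2 * ∑ w ∈ T, len w ≤
        δ * r ^ 2 * ((A0 + A1 * en J X1 Y1) * len J) :=
      mul_le_mul_of_nonneg_left hcnt (by positivity)
    have g2 : δ * r ^ 2 * ((A0 + A1 * en J X1 Y1) * len J) ≤
        r ^ 2 * (A0 + δ * A1) * (δ + en J X1 Y1) * len J := by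
      have g3 : δ * (A0 + A1 * en J X1 Y1) ≤ (A0 + δ * A1) * (δ + en J X1 Y1) := by
        nlinarith [mul_nonneg hA0 hen1, mul_nonneg (mul_nonneg hδ.le hA1) hδ.le]
      have g4 : 0 ≤ r ^ 2 * len J := by positivity
      calc _ = δ * (A0 + A1 * en J X1 Y1) * (r ^ 2 * len J) := by ring
        _ ≤ (A0 + δ * A1) * (δ + en J X1 Y1) * (r ^ 2 * len J) :=
            mul_le_mul_of_nonneg_right g3 g4
        _ = _ := by ring
    rw [hMs]
    have hs2 : 0 ≤ s ^ 2 := sq_nonneg _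
    calc s ^ 2 * (δ * r ^ 2 * ∑ w ∈ T, len w + ∑ w ∈ T, len w * en w (E w) (E' w))
        ≤ s ^ 2 * (r ^ 2 * (A0 + δ * A1) * (δ + en J X1 Y1) * len J +
            L * (δ + en J X1 Y1) * len J) :=
          mul_le_mul_of_nonneg_left (add_le_add (g1.trans g2) hen) hs2
      _ = _ := by ring
  · -- words
    have hwin : ∀ w ∈ T, Full (win R T w) w := fun w hw => win_full hR hTo hw
    have hwR : ∀ w, win R T w ⊆ R0 := fun w => win_sub.trans hRR
    have hiv : ∀ w ∈ T, ∀ p ∈ win R T w, iv p ⊆ iv w := fun w hw p hp => (hwin w hw).reg.1 p hp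
    have hexp : ∀ w ∈ T, ∀ p ∈ win R T w, v X1 Y1 p =
        v (G w) Y1 p + v X1 (G' w) p - v (G w) (G' w) p + (v (hi (H * r0) (E w)) (E' w) p +
          v (Ec w) (hi (H * r0) (E' w)) p + v (Ec w) (Ec' w) p) := by
      intro w hw p hp
      have e1 : v X1 Y1 p = v (fun y => G w y + E w y) Y1 p :=
        hLo.l1 p _ _ _ fun y hy => hX w hw y (hiv w hw p hp hy)
      have e2 : v (E w) Y1 p = v (E w) (fun y => G' w y + E' w y) p :=
        hLo.l2 p _ _ _ fun y hy => hY w hw y (hiv w hw p hp hy)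
      have e3 : v X1 (G' w) p = v (fun y => G w y + E w y) (G' w) p :=
        hLo.l1 p _ _ _ fun y hy => hX w hw y (hiv w hw p hp hy)
      have e4 : v (E w) (E' w) p = v (fun y => hi (H * r0) (E w) y + Ec w y) (E' w) p :=
        hLo.l1 p _ _ _ fun y _ => by
          rw [hEc, add_comm]; exact lo_add_hi (H * r0) (E w) y
      have e5 : v (Ec w) (E' w) p = v (Ec w) (fun y => hi (H * r0) (E' w) y + Ec' w y) p :=
        hLo.l2 p _ _ _ fun y _ => by
          rw [hEc', add_comm]; exact lo_add_hi (H * r0) (E' w) y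
      rw [e1, hB.add1, e2, hB.add2, e3, hB.add1, e4, hB.add1, e5, hB.add2]
      ring
    have hR0X : ∑ p ∈ R, v X Y p = (s : ℂ) * (s : ℂ) * ∑ p ∈ R, v X1 Y1 p := by
      rw [← sum_smul hB R (s : ℂ) (s : ℂ) X1 Y1, ← hback X, ← hback Y]
    have htot : ∑ p ∈ R, v X1 Y1 p =
        ((∑ w ∈ T, ∑ p ∈ win R T w, v (G w) Y1 p) +
        (∑ w ∈ T, ∑ p ∈ win R T w, v X1 (G' w) p) -
        (∑ w ∈ T, ∑ p ∈ win R T w, v (G w) (G' w) p)) +
        (∑ w ∈ T, ((∑ p ∈ win R T w, v (hi (H * r0) (E w)) (E' w) p) +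
          (∑ p ∈ win R T w, v (Ec w) (hi (H * r0) (E' w)) p) +
          (∑ p ∈ win R T w, v (Ec w) (Ec' w) p))) := by
      rw [sum_windows hR hTo, ← Finset.sum_add_distrib, ← Finset.sum_sub_distrib,
        ← Finset.sum_add_distrib]
      refine Finset.sum_congr rfl fun w hw => ?_
      rw [← Finset.sum_add_distrib, ← Finset.sum_sub_distrib, ← Finset.sum_add_distrib,
        ← Finset.sum_add_distrib, ← Finset.sum_add_distrib]
      exact Finset.sum_congr rfl fun p hp => hexp w hw p hp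
    have hnorm : ‖∑ p ∈ R, v X1 Y1 p‖ ≤ 3 * κ * (δ + en J X1 Y1) * len J +
        (2 * kT * r0 ^ 2 * ((A0 + A1 * en J X1 Y1) * len J) +
          ∑ w ∈ T, ‖∑ p ∈ win R T w, v (Ec w) (Ec' w) p‖) := by
      rw [htot]
      refine (norm_add_le _ _).trans (add_le_add ?_ ?_)
      · refine (norm_sub_le _ _).trans ?_
        have := norm_add_le (∑ w ∈ T, ∑ p ∈ win R T w, v (G w) Y1 p)
          (∑ w ∈ T, ∑ p ∈ win R T w, v X1 (G' w) p)
        linarith
      · refine (norm_sum_le _ _).trans ?_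
        have h1 : ∀ w ∈ T, ‖(∑ p ∈ win R T w, v (hi (H * r0) (E w)) (E' w) p) +
            (∑ p ∈ win R T w, v (Ec w) (hi (H * r0) (E' w)) p) +
            (∑ p ∈ win R T w, v (Ec w) (Ec' w) p)‖ ≤
            2 * kT * r0 ^ 2 * len w + ‖∑ p ∈ win R T w, v (Ec w) (Ec' w) p‖ := by
          intro w hw
          have g1 := (tall_scale hB hT (hwin w hw) (hwR w) hr0 (E := E w) (Z := E' w)
            (fun p hp => (hE w hw p hp).1) (fun p hp => (hE w hw p hp).2)).1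
          have g2 := (tall_scale hB hT (hwin w hw) (hwR w) hr0 (E := E' w) (Z := Ec w)
            (fun p hp => (hE w hw p hp).2)
            (fun p hp => (av_lo (H * r0) p (E w)).trans (hE w hw p hp).1)).2
          refine (norm_add_le _ _).trans (add_le_add ((norm_add_le _ _).trans ?_) le_rfl)
          linarith
        refine (Finset.sum_le_sum h1).trans ?_
        rw [Finset.sum_add_distrib, ← Finset.mul_sum]
        exact add_le_add (mul_le_mul_of_nonneg_left hcnt (by positivity)) le_rfl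
    have hback2 : ∀ w ∈ T, ‖∑ p ∈ win R T w, v (fun y => (s : ℂ) * Ec w y)
        (fun y => (s : ℂ) * Ec' w y) p‖ = s ^ 2 * ‖∑ p ∈ win R T w, v (Ec w) (Ec' w) p‖ := by
      intro w _
      rw [sum_smul hB, norm_mul, norm_mul, Complex.norm_real, Real.norm_of_nonneg hs.le, sq]
    rw [hR0X, norm_mul, norm_mul, Complex.norm_real, Real.norm_of_nonneg hs.le, hMs]
    have hs2 : 0 ≤ s ^ 2 := sq_nonneg _
    have g5 : 2 * kT * r0 ^ 2 * ((A0 + A1 * en J X1 Y1) * len J) ≤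
        2 * kT * r0 ^ 2 * (A0 / δ + A1) * (δ + en J X1 Y1) * len J := by
      have g6 : A0 + A1 * en J X1 Y1 ≤ (A0 / δ + A1) * (δ + en J X1 Y1) := by
        have g7 : A0 / δ * δ = A0 := by field_simp
        nlinarith [mul_nonneg (div_nonneg hA0 hδ.le) hen1, mul_nonneg hA1 hδ.le]
      have g8 : 0 ≤ 2 * kT * r0 ^ 2 * len J := by positivity
      calc _ = (A0 + A1 * en J X1 Y1) * (2 * kT * r0 ^ 2 * len J) := by ring
        _ ≤ (A0 / δ + A1) * (δ + en J X1 Y1) * (2 * kT * r0 ^ 2 * len J) :=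
            mul_le_mul_of_nonneg_right g6 g8
        _ = _ := by ring
    calc s * s * ‖∑ p ∈ R, v X1 Y1 p‖
        ≤ s ^ 2 * (3 * κ * (δ + en J X1 Y1) * len J +
          (2 * kT * r0 ^ 2 * (A0 / δ + A1) * (δ + en J X1 Y1) * len J +
          ∑ w ∈ T, ‖∑ p ∈ win R T w, v (Ec w) (Ec' w) p‖)) := by
          rw [← sq]
          exact mul_le_mul_of_nonneg_left (hnorm.trans (add_le_add le_rfl
            (add_le_add g5 le_rfl))) hs2
      _ = (3 * κ + 2 * kT * r0 ^ 2 * (A0 / δ + A1)) * (s ^ 2 * (δ + en J X1 Y1)) * len J +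
          ∑ w ∈ T, s ^ 2 * ‖∑ p ∈ win R T w, v (Ec w) (Ec' w) p‖ := by
          rw [← Finset.mul_sum]
          ring
      _ = _ := by
          congr 1
          exact Finset.sum_congr rfl fun w hw => (hback2 w hw).symm

end

end Crest.Agent.R079.GnMx45
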