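import Crest.Agent.R079.T6e_252
import Crest.Agent.R079.GnM_45

/-! R079, Step I (helper45): POWERS OF `t` IN ONE GENERATION (mixtures of operator atoms).

* `SpO` = `GnM_45.SpM` (splitting of one generation on windows) for the data `PRo`, all parameters powers
  of `t` with the loss `e0` and the gain `g`;
* `TallO` = `GnM_45.TallW` (the tall part of the two last letters is killed) for the data `PRo`;
* `genOM_of` : `SpO` + `TallO` => `T6e_252.GenOM`;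
* `genOM_exists` : the hypothesis `hG` of `T6e_252.pairO_existsM`. -/

set_option autoImplicit false

namespace Crest.Agent.R079.GnOx45

open Finset Crest.Agent.R079.Grid Crest.Agent.R079.Growth Crest.Agent.R079.QRed
open Crest.Agent.R079.TRec Crest.Agent.R079.AsmA844 Crest.Agent.R079.AsmG734
open Crest.Agent.R079.T6bx252 Crest.Agent.R079.GnMx45

/-- **THE SPLITTING OF ONE GENERATION** for the data `PRo` -/
def SpO (D : TRecN.Dict) (OA : TRec.Dict) (k q3 a b cl c1 e0 g t0 K : ℝ) (i m : Fin 4) : Prop :=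
  ∀ (N : ℕ) (B : ℝ), 0 ≤ B → BN k q3 N B → ∀ t, 0 < t → t ≤ t0 → ∀ W I F,
    PRo D OA k a b cl t W I i m F → I.1 ≤ N → ∀ x y : Fin 4, Oth i m x y → ∀ bb ε, Adm bb ε →
      SpM (v4 bb ε F x y) k W (t ^ c1) (K * (1 + B) * t ^ g) (K * t ^ (-(c1 + e0)))
        (K * t ^ (-(2 * c1 + e0))) (K * t ^ (-e0)) (K * t ^ (c1 / 2 - e0))

/-- **THE TALL PART** for the data `PRo` -/
def TallO (D : TRecN.Dict) (OA : TRec.Dict) (k q3 a b cl h gT t0 K : ℝ) (i m : Fin 4) : Prop :=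
  ∀ (N : ℕ) (B : ℝ), 0 ≤ B → BN k q3 N B → ∀ t, 0 < t → t ≤ t0 → ∀ W I F,
    PRo D OA k a b cl t W I i m F → I.1 ≤ N → ∀ x y : Fin 4, Oth i m x y → ∀ bb ε, Adm bb ε →
      TallW (v4 bb ε F x y) W (t ^ (-h)) (K * (1 + B) * t ^ gT)

theorem spM_mono {v : Fn → Fn → Nd → ℂ} {k : ℝ} {R0 : Finset Nd}
    {δ κ A0 A1 L r0 κ' A0' A1' L' r0' : ℝ} (hδ : 0 ≤ δ) (h : SpM v k R0 δ κ A0 A1 L r0)
    (hκ : κ ≤ κ') (h0 : A0 ≤ A0') (h1 : A1 ≤ A1') (hL : L ≤ L') (hr : r0 ≤ r0') :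
    SpM v k R0 δ κ' A0' A1' L' r0' := by
  intro R J hR hRR X Y hXY
  obtain ⟨T, G, E, G', E', hT, a1, a2, a3, a4, a5, a6, a7, a8⟩ := h R J hR hRR X Y hXY
  have hl := (Growth.len_pos J).le
  have he := en_nonneg J X Y
  have hm : 0 ≤ (δ + en J X Y) * len J := mul_nonneg (add_nonneg hδ he) hl
  have hκm : κ * (δ + en J X Y) * len J ≤ κ' * (δ + en J X Y) * len J := by
    rw [mul_assoc, mul_assoc]
    exact mul_le_mul_of_nonneg_right hκ hm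
  refine ⟨T, G, E, G', E', hT, a1, a2, fun w hw p hp =>
    ⟨(a3 w hw p hp).1.trans hr, (a3 w hw p hp).2.trans hr⟩, a4.trans ?_, a5.trans ?_,
    a6.trans hκm, a7.trans hκm, a8.trans hκm⟩
  · exact mul_le_mul_of_nonneg_right (add_le_add h0 (mul_le_mul_of_nonneg_right h1 he)) hl
  · rw [mul_assoc, mul_assoc]
    exact mul_le_mul_of_nonneg_right hL hm

theorem spO_mono {D : TRecN.Dict} {OA : TRec.Dict} {k q3 a b cl c1 e0 g t0 K t0' K' : ℝ}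
    {i m : Fin 4} (h : SpO D OA k q3 a b cl c1 e0 g t0 K i m) (ht : t0' ≤ t0) (hK : K ≤ K') :
    SpO D OA k q3 a b cl c1 e0 g t0' K' i m := by
  intro N B hB hBN t h0 h1 W I F hPR hI x y hO bb ε hA
  have hp : ∀ s : ℝ, K * t ^ s ≤ K' * t ^ s := fun s =>
    mul_le_mul_of_nonneg_right hK (Real.rpow_nonneg h0.le _)
  exact spM_mono (Real.rpow_nonneg h0.le _)
    (h N B hB hBN t h0 (h1.trans ht) W I F hPR hI x y hO bb ε hA)
    (mul_le_mul_of_nonneg_right (mul_le_mul_of_nonneg_right hK (by linarith))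
      (Real.rpow_nonneg h0.le _)) (hp _) (hp _) (hp _) (hp _)

theorem tallW_mono {v : Fn → Fn → Nd → ℂ} {R0 : Finset Nd} {H kT kT' : ℝ}
    (h : TallW v R0 H kT) (hk : kT ≤ kT') : TallW v R0 H kT' := by
  intro W I hW hWR E Z hE hZ
  have hl := mul_le_mul_of_nonneg_right hk (Growth.len_pos I).le
  exact ⟨(h W I hW hWR E Z hE hZ).1.trans hl, (h W I hW hWR E Z hE hZ).2.trans hl⟩

theorem tallO_mono {D : TRecN.Dict} {OA : TRec.Dict} {k q3 a b cl h gT t0 K t0' K' : ℝ}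
    {i m : Fin 4} (hh : TallO D OA k q3 a b cl h gT t0 K i m) (ht : t0' ≤ t0) (hK : K ≤ K') :
    TallO D OA k q3 a b cl h gT t0' K' i m := by
  intro N B hB hBN t h0 h1 W I F hPR hI x y hO bb ε hA
  exact tallW_mono (hh N B hB hBN t h0 (h1.trans ht) W I F hPR hI x y hO bb ε hA)
    (mul_le_mul_of_nonneg_right (mul_le_mul_of_nonneg_right hK (by linarith))
      (Real.rpow_nonneg h0.le _))

/-- **ONE GENERATION, powers of `t`** -/
theorem genOM_of {D : TRecN.Dict} {OA : TRec.Dict} {k q3 a b cl c1 e0 g h gT dl cG t0 K : ℝ}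
    {i m : Fin 4} (hk : 0 < k) (ht0 : t0 ≤ 1) (hK : 1 ≤ K)
    (hSp : SpO D OA k q3 a b cl c1 e0 g t0 K i m) (hT : TallO D OA k q3 a b cl h gT t0 K i m)
    (hh : 0 ≤ h) (he0 : 0 ≤ e0) (h1 : cG ≤ g) (h2 : cG ≤ gT - c1 - 3 * e0)
    (h3 : 3 * e0 + 2 * (h * (k / (2 + k))) ≤ dl) :
    GenOM D OA k q3 a b cl c1 dl cG t0 (3 * K + 4 * K ^ 4) i m := by
  intro N B hB hBN t ht htt W I F hPR hI x y hO bb ε hA
  have ht1 : t ≤ 1 := htt.trans ht0
  have hK0 : 0 < K := by linarith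
  have hB1 : 0 ≤ 1 + B := by linarith
  have P : ∀ s : ℝ, 0 < t ^ s := fun s => Real.rpow_pos_of_pos ht s
  have M : ∀ {s s' : ℝ}, s' ≤ s → t ^ s ≤ t ^ s' := fun hs =>
    Real.rpow_le_rpow_of_exponent_ge ht ht1 hs
  have A : ∀ s s' : ℝ, t ^ s * t ^ s' = t ^ (s + s') := fun s s' => (Real.rpow_add ht s s').symm
  have hgen := genM_of_split (GenT934.bil_v4 bb ε F hO.ab) (loc_v4 hA F x y) hk (P c1)
    (mul_pos hK0 (P _)).le (mul_pos hK0 (P _)).le (mul_pos hK0 (P _)) (P (-h))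
    (mul_nonneg (mul_nonneg hK0.le hB1) (P _).le)
    (hSp N B hB hBN t ht htt W I F hPR hI x y hO bb ε hA)
    (hT N B hB hBN t ht htt W I F hPR hI x y hO bb ε hA)
  set u : ℝ := h * (k / (2 + k)) with hu
  have hu0 : 0 ≤ u := mul_nonneg hh (div_nonneg hk.le (by linarith))
  have eH : (t ^ (-h)) ^ (k / (2 + k)) = t ^ (-u) := by
    rw [← Real.rpow_mul ht.le, hu]
    congr 1
    ring
  have er : K * t ^ (c1 / 2 - e0) * (t ^ (-h)) ^ (k / (2 + k)) = K * t ^ (c1 / 2 - e0 - u) := by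
    rw [eH, mul_assoc, A]
    congr 2
  have hr2 : (K * t ^ (c1 / 2 - e0 - u)) ^ 2 = K ^ 2 * t ^ (c1 - 2 * e0 - 2 * u) := by
    rw [mul_pow, sq (t ^ _), A]
    congr 2
    ring
  have hKK : K ≤ 3 * K + 4 * K ^ 4 := by
    have : 0 ≤ K ^ 4 := by positivity
    linarith
  refine ⟨_, mul_pos (mul_pos hK0 (P _)) (Real.rpow_pos_of_pos (P _) _), ?_,
    genM_mono (P c1).le hgen ?_ ?_⟩
  · rw [er]
    exact mul_le_mul hKK (M (by linarith)) (P _).le (by positivity)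
  · -- the gain
    have e1 : (K * t ^ (c1 / 2 - e0)) ^ 2 = K ^ 2 * t ^ (c1 - 2 * e0) := by
      rw [mul_pow, sq (t ^ _), A]
      congr 2
      ring
    have e2 : K * t ^ (-(c1 + e0)) / t ^ c1 = K * t ^ (-(2 * c1 + e0)) := by
      rw [mul_div_assoc, ← Real.rpow_sub ht]
      congr 2
      ring
    rw [e1, e2]
    have g1 : 3 * (K * (1 + B) * t ^ g) ≤ 3 * K * (1 + B) * t ^ cG := by
      have := mul_le_mul_of_nonneg_left (M h1) (by positivity : 0 ≤ 3 * K * (1 + B))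
      calc _ = 3 * K * (1 + B) * t ^ g := by ring
        _ ≤ _ := this
    have g2 : 2 * (K * (1 + B) * t ^ gT) * (K ^ 2 * t ^ (c1 - 2 * e0)) *
        (K * t ^ (-(2 * c1 + e0)) + K * t ^ (-(2 * c1 + e0))) ≤
        4 * K ^ 4 * (1 + B) * t ^ cG := by
      have e3 : t ^ gT * t ^ (c1 - 2 * e0) * t ^ (-(2 * c1 + e0)) = t ^ (gT - c1 - 3 * e0) := by
        rw [A, A]
        congr 1
        ring
      calc _ = 4 * K ^ 4 * (1 + B) * (t ^ gT * t ^ (c1 - 2 * e0) * t ^ (-(2 * c1 + e0))) := by ring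
        _ = 4 * K ^ 4 * (1 + B) * t ^ (gT - c1 - 3 * e0) := by rw [e3]
        _ ≤ _ := mul_le_mul_of_nonneg_left (M h2) (by positivity)
    calc _ ≤ 3 * K * (1 + B) * t ^ cG + 4 * K ^ 4 * (1 + B) * t ^ cG := add_le_add g1 g2
      _ = _ := by ring
  · -- the loss
    rw [er, hr2]
    have e3 : K ^ 2 * t ^ (c1 - 2 * e0 - 2 * u) *
        (K * t ^ (-(c1 + e0)) + t ^ c1 * (K * t ^ (-(2 * c1 + e0)))) =
        2 * K ^ 3 * t ^ (-(3 * e0 + 2 * u)) := by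
      have a1 : t ^ (c1 - 2 * e0 - 2 * u) * t ^ (-(c1 + e0)) = t ^ (-(3 * e0 + 2 * u)) := by
        rw [A]
        congr 1
        ring
      have a2 : t ^ c1 * t ^ (-(2 * c1 + e0)) = t ^ (-(c1 + e0)) := by
        rw [A]
        congr 1
        ring
      calc _ = K ^ 3 * (t ^ (c1 - 2 * e0 - 2 * u) * t ^ (-(c1 + e0)) +
            t ^ (c1 - 2 * e0 - 2 * u) * (t ^ c1 * t ^ (-(2 * c1 + e0)))) := by ring
        _ = _ := by
          rw [a2, a1]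
          ring
    rw [e3]
    have hK34 : K ^ 3 ≤ K ^ 4 := pow_le_pow_right₀ hK (by norm_num)
    have g1 : K * t ^ (-e0) ≤ K * t ^ (-dl) :=
      mul_le_mul_of_nonneg_left (M (by linarith)) hK0.le
    have g2 : 2 * K ^ 3 * t ^ (-(3 * e0 + 2 * u)) ≤ 2 * K ^ 4 * t ^ (-dl) :=
      mul_le_mul (by linarith) (M (by linarith)) (P _).le (by positivity)
    have g3 : 0 ≤ (2 * K + 2 * K ^ 4) * t ^ (-dl) := mul_nonneg (by positivity) (P _).le
    calc _ ≤ K * t ^ (-dl) + 2 * K ^ 4 * t ^ (-dl) := add_le_add g1 g2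
      _ ≤ (3 * K + 4 * K ^ 4) * t ^ (-dl) := by linarith

/-- **STEP I, parameters chosen**: the hypothesis `hG` of `pairO_existsM`.  The height `t ^ (-h)` is chosen
after `c1` only, `k` after `h`. -/
theorem genOM_exists {q3 : ℝ} (D : ℝ → ℝ → TRecN.Dict) (OA : ℝ → ℝ → TRec.Dict) {cl : ℝ}
    {i m : Fin 4}
    (hSp : ∃ cm : ℝ, 0 < cm ∧ ∀ c1, 0 < c1 → c1 ≤ cm → ∃ C g ys : ℝ, 0 < C ∧ 0 < g ∧ 0 < ys ∧
      ∀ y, 0 < y → y ≤ ys → ∃ e1 : ℝ, 0 < e1 ∧ ∀ e, 0 < e → e ≤ e1 → ∃ k1 : ℝ, 0 < k1 ∧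
        ∀ k, 0 < k → k ≤ k1 → ∃ t0 K : ℝ, 0 < t0 ∧ 0 ≤ K ∧
          SpO (D e k) (OA e k) k q3 (1 + e) 1 cl c1 (C * y) (g * y) t0 K i m)
    (hT : ∀ gT : ℝ, ∃ h e1 : ℝ, 0 ≤ h ∧ 0 < e1 ∧ ∀ e, 0 < e → e ≤ e1 → ∃ k1 : ℝ, 0 < k1 ∧
      ∀ k, 0 < k → k ≤ k1 → ∃ t0 K : ℝ, 0 < t0 ∧ 0 ≤ K ∧
        TallO (D e k) (OA e k) k q3 (1 + e) 1 cl h gT t0 K i m) :
    ∃ cm : ℝ, 0 < cm ∧ ∀ c1, 0 < c1 → c1 ≤ cm → ∃ C g ys : ℝ, 0 < C ∧ 0 < g ∧ 0 < ys ∧
      ∀ y, 0 < y → y ≤ ys → ∃ e1 : ℝ, 0 < e1 ∧ ∀ e, 0 < e → e ≤ e1 → ∃ k1 : ℝ, 0 < k1 ∧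
        ∀ k, 0 < k → k ≤ k1 → ∃ t0 K : ℝ, 0 < t0 ∧ 0 ≤ K ∧
          GenOM (D e k) (OA e k) k q3 (1 + e) 1 cl c1 (C * y) (g * y) t0 K i m := by
  obtain ⟨cm, hcm, hSp⟩ := hSp
  refine ⟨cm, hcm, fun c1 hc1 hc1m => ?_⟩
  obtain ⟨C, g, ys, hC, hg, hys, hSp⟩ := hSp c1 hc1 hc1m
  obtain ⟨h, e2, hh, he2, hT⟩ := hT (c1 + (3 * C + g) * ys)
  refine ⟨3 * C + 1, g, ys, by linarith, hg, hys, fun y hy hyy => ?_⟩
  obtain ⟨e1, he1, hSp⟩ := hSp y hy hyy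
  refine ⟨min e1 e2, lt_min he1 he2, fun e he hee => ?_⟩
  obtain ⟨k1, hk1, hSp⟩ := hSp e he (hee.trans (min_le_left _ _))
  obtain ⟨k2, hk2, hT⟩ := hT e he (hee.trans (min_le_right _ _))
  refine ⟨min (min k1 k2) (y / (h + 1)), lt_min (lt_min hk1 hk2) (by positivity),
    fun k hk hkk => ?_⟩
  have hkk' : k ≤ min k1 k2 := hkk.trans (min_le_left _ _)
  obtain ⟨t1, K1, ht1, hK1, hSp⟩ := hSp k hk (hkk'.trans (min_le_left _ _))
  obtain ⟨t2, K2, ht2, hK2, hT⟩ := hT k hk (hkk'.trans (min_le_right _ _))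
  set K : ℝ := max 1 (max K1 K2) with hKd
  have hK : 1 ≤ K := le_max_left _ _
  refine ⟨min 1 (min t1 t2), 3 * K + 4 * K ^ 4, lt_min one_pos (lt_min ht1 ht2), by positivity,
    genOM_of (e0 := C * y) (g := g * y) (h := h) (gT := c1 + (3 * C + g) * ys) hk
      (min_le_left _ _) hK
      (spO_mono hSp ((min_le_right _ _).trans (min_le_left _ _))
        ((le_max_left _ _).trans (le_max_right _ _)))
      (tallO_mono hT ((min_le_right _ _).trans (min_le_right _ _))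
        ((le_max_right _ _).trans (le_max_right _ _))) hh (by positivity) le_rfl ?_ ?_⟩
  · nlinarith [mul_le_mul_of_nonneg_left hyy (by positivity : 0 ≤ 3 * C + g)]
  · have hk3 : k / (2 + k) ≤ k / 2 :=
      div_le_div_of_nonneg_left hk.le (by norm_num) (by linarith)
    have hk4 : 2 * (h * (k / (2 + k))) ≤ (h + 1) * k := by
      nlinarith [mul_le_mul_of_nonneg_left hk3 hh]
    have hk5 : (h + 1) * k ≤ y := by
      have := hkk.trans (min_le_right _ _)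
      rw [le_div_iff₀ (by linarith)] at this
      linarith
    linarith

end Crest.Agent.R079.GnOx45
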