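import Crest.Agent.R079.KC_996

/-! R079, KILL LEMMA in the line model (`KLdef_446`): exit counts of the two alive families
(helper996).

`G` a level family of predicates `G x y r` (`ρ(x, y) ≥ r`), antitone in `r` and `1`-Lipschitz in `(x, y)`
(`Pw` is one: `pw_anti`, `pw_lip`).
* GOOD : `Om ∧ Dm2 ∧ ¬ G q u (128 2^m)` : `good_local`, `good_global`;
* REST : `Om ∧ Dm2 ∧ G q u (127 2^m)` : `rest_local`, `rest_global`;
* LAYER : `Om ∧ Dm2 ∧ ¬ G q u (128 2^m) ∧ G' q u (127 2^m)` : `layer_local`, `layer_global`. -/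

set_option autoImplicit false

namespace Crest.Agent.R079.KC996

open Finset Crest.Agent.R079.Grid Crest.Agent.R079.Glue Crest.Agent.R079.Growth
  Crest.Agent.R079.QRed Crest.Agent.R079.KLx446

/-- antitone in the radius, `1`-Lipschitz in the position -/
structure Lp (G : ℤ → ℤ → ℤ → Prop) : Prop where
  anti : ∀ x y r r', r' ≤ r → G x y r → G x y r'
  lip : ∀ x y x' y' r δ, |x' - x| ≤ δ → |y' - y| ≤ δ → G x y r → G x' y' (r - δ)

theorem lp_pw (R : Finset Nd) (J : Nd) (c : ℤ → ℤ → ℂ) (K : Fn) (α β γ : ℤ) (s ε : ℝ) (w : ℤ) :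
    Lp (Pw R J c K α β γ s ε w) := by
  constructor
  · rintro x y r r' h ⟨m, a, b, h1, h2, h3⟩
    exact ⟨m, a, b, h1, by linarith, by linarith⟩
  · rintro x y x' y' r δ hx hy ⟨m, a, b, h1, h2, h3⟩
    refine ⟨m, a, b, h1, ?_, ?_⟩
    · have : |x' - a * 2 ^ m| ≤ |x' - x| + |x - a * 2 ^ m| := by
        calc |x' - a * 2 ^ m| = |(x' - x) + (x - a * 2 ^ m)| := by ring_nf
          _ ≤ _ := abs_add_le _ _
      linarith
    · have : |y' - b * 2 ^ m| ≤ |y' - y| + |y - b * 2 ^ m| := by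
        calc |y' - b * 2 ^ m| = |(y' - y) + (y - b * 2 ^ m)| := by ring_nf
          _ ≤ _ := abs_add_le _ _
      linarith

/-- alive family GOOD -/
def AlG (R : Finset Nd) (α β γ w x0 x1 y0 y1 : ℤ) (G : ℤ → ℤ → ℤ → Prop) (m : ℕ) (q u : ℤ) : Prop :=
  (Om R α β γ w m q u ∧ Dm2 x0 x1 y0 y1 m q u) ∧ ¬ G q u (128 * 2 ^ m)

/-- alive family REST -/
def AlR (R : Finset Nd) (α β γ w x0 x1 y0 y1 : ℤ) (G : ℤ → ℤ → ℤ → Prop) (m : ℕ) (q u : ℤ) : Prop :=
  (Om R α β γ w m q u ∧ Dm2 x0 x1 y0 y1 m q u) ∧ G q u (127 * 2 ^ m)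

section
variable {G : ℤ → ℤ → ℤ → Prop}

lemma sub_pos {k' m a b : ℕ} (hk : k' ≤ 6) (ha : a < 2 ^ k') (hb : b < 2 ^ k') (q p : ℤ) :
    |q - (q + a * 2 ^ m)| ≤ 64 * 2 ^ m ∧ |p - (p + b * 2 ^ m)| ≤ 64 * 2 ^ m ∧
    |q + a * 2 ^ m - q| ≤ 2 ^ (m + k') ∧ |p + b * 2 ^ m - p| ≤ 2 ^ (m + k') := by
  have ha' : (a : ℤ) ≤ 2 ^ k' := by exact_mod_cast ha.le
  have hb' : (b : ℤ) ≤ 2 ^ k' := by exact_mod_cast hb.le
  have h64 : (2 : ℤ) ^ k' ≤ 64 := by
    calc (2 : ℤ) ^ k' ≤ 2 ^ 6 := pow_le_pow_right₀ (by norm_num) hk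
      _ = 64 := by norm_num
  have hm0 : (0 : ℤ) < 2 ^ m := by positivity
  have ha0 : (0 : ℤ) ≤ a := by positivity
  have hb0 : (0 : ℤ) ≤ b := by positivity
  have e : (2 : ℤ) ^ (m + k') = 2 ^ k' * 2 ^ m := by rw [pow_add]; ring
  have a1 : (a : ℤ) * 2 ^ m ≤ 2 ^ k' * 2 ^ m := mul_le_mul_of_nonneg_right ha' hm0.le
  have b1 : (b : ℤ) * 2 ^ m ≤ 2 ^ k' * 2 ^ m := mul_le_mul_of_nonneg_right hb' hm0.le
  have a2 : (2 : ℤ) ^ k' * 2 ^ m ≤ 64 * 2 ^ m := mul_le_mul_of_nonneg_right h64 hm0.le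
  have a0 : (0 : ℤ) ≤ a * 2 ^ m := by positivity
  have b0 : (0 : ℤ) ≤ b * 2 ^ m := by positivity
  refine ⟨?_, ?_, ?_, ?_⟩
  · rw [show q - (q + a * 2 ^ m) = -((a : ℤ) * 2 ^ m) by ring, abs_neg, abs_of_nonneg a0]
    linarith
  · rw [show p - (p + b * 2 ^ m) = -((b : ℤ) * 2 ^ m) by ring, abs_neg, abs_of_nonneg b0]
    linarith
  · rw [show q + a * 2 ^ m - q = (a : ℤ) * 2 ^ m by ring, abs_of_nonneg a0, e]
    exact a1
  · rw [show p + b * 2 ^ m - p = (b : ℤ) * 2 ^ m by ring, abs_of_nonneg b0, e]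
    exact b1

/-- a `ρ`-exit of GOOD: `64 2^m ≤ ρ < 128 2^(m+k')` -/
lemma exitG (hG : Lp G) {k' m : ℕ} (hk : k' ≤ 6) {q p : ℤ}
    (h : ExitZ (fun m q u => ¬ G q u (128 * 2 ^ m)) k' m q p) :
    G q p (64 * 2 ^ m) ∧ ¬ G q p (128 * 2 ^ (m + k')) := by
  obtain ⟨h1, a, b, ha, hb, h2⟩ := h
  rw [not_not] at h2
  obtain ⟨e1, e2, _, _⟩ := sub_pos (m := m) hk ha hb q p
  refine ⟨?_, h1⟩
  have := hG.lip _ _ q p _ _ e1 e2 h2
  refine hG.anti _ _ _ _ ?_ this
  linarith [show (0 : ℤ) < 2 ^ m by positivity]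

/-- REST has no `ρ`-exits -/
lemma exitR (hG : Lp G) {k' m : ℕ} (hk : k' ≤ 6) {q p : ℤ} :
    ¬ ExitZ (fun m q u => G q u (127 * 2 ^ m)) k' m q p := by
  rintro ⟨h1, a, b, ha, hb, h2⟩
  apply h2
  rcases Nat.eq_zero_or_pos k' with h0 | h0
  · subst h0
    have ha0 : a = 0 := by simpa using ha
    have hb0 : b = 0 := by simpa using hb
    subst ha0; subst hb0
    simpa using h1
  · obtain ⟨_, _, e3, e4⟩ := sub_pos (m := m) hk ha hb q p
    have := hG.lip _ _ _ _ _ _ e3 e4 h1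
    refine hG.anti _ _ _ _ ?_ this
    have e : (2 : ℤ) ^ (m + k') = 2 ^ k' * 2 ^ m := by rw [pow_add]; ring
    have h2k : (2 : ℤ) ≤ 2 ^ k' := by
      calc (2 : ℤ) = 2 ^ 1 := by norm_num
        _ ≤ 2 ^ k' := pow_le_pow_right₀ (by norm_num) h0
    have hm0 : (0 : ℤ) < 2 ^ m := by positivity
    rw [e]
    nlinarith

open Classical in
/-- every position has at most `k' + 1` exit scales of GOOD -/
lemma scalesG (hG : Lp G) {k' : ℕ} (hk : k' ≤ 6) (M : ℕ) (q p : ℤ) :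
    ((range M).filter fun m => ExitZ (fun m q u => ¬ G q u (128 * 2 ^ m)) k' m q p).card ≤ 7 := by
  rcases ((range M).filter fun m =>
    ExitZ (fun m q u => ¬ G q u (128 * 2 ^ m)) k' m q p).eq_empty_or_nonempty with h | h
  · rw [h]; simp
  · obtain ⟨m0, hm0, hmin⟩ := Finset.exists_min_image _ (fun m => m) h
    have hsub : ((range M).filter fun m =>
        ExitZ (fun m q u => ¬ G q u (128 * 2 ^ m)) k' m q p) ⊆ Finset.Ico m0 (m0 + 7) := by
      intro m hm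
      rw [Finset.mem_Ico]
      refine ⟨hmin m hm, ?_⟩
      rw [Finset.mem_filter] at hm hm0
      have h1 := (exitG hG hk hm.2).1
      have h2 := (exitG hG hk hm0.2).2
      by_contra hc
      push Not at hc
      apply h2
      refine hG.anti _ _ _ _ ?_ h1
      have e1 : (2 : ℤ) ^ (m0 + 7) = 128 * 2 ^ m0 := by rw [pow_add]; norm_num; ring
      have e2 : (2 : ℤ) ^ (m0 + k') ≤ 2 ^ (m0 + 6) := pow_le_pow_right₀ (by norm_num) (by omega)
      have e3 : (2 : ℤ) ^ (m0 + 6) = 64 * 2 ^ m0 := by rw [pow_add]; norm_num; ring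
      have e4 : (2 : ℤ) ^ (m0 + 7) ≤ 2 ^ m := pow_le_pow_right₀ (by norm_num) hc
      linarith
    refine (Finset.card_le_card hsub).trans ?_
    rw [Nat.card_Ico]
    omega

variable {R : Finset Nd} {J : Nd} {α β γ w x0 x1 y0 y1 : ℤ}

lemma exit_alG {k' m : ℕ} {q p : ℤ} (h : ExitZ (AlG R α β γ w x0 x1 y0 y1 G) k' m q p) :
    (ExitZ (Om R α β γ w) k' m q p ∧ Dm2 x0 x1 y0 y1 (m + k') q p) ∨
    (ExitZ (fun m q u => ¬ G q u (128 * 2 ^ m)) k' m q p ∧ Om R α β γ w (m + k') q p ∧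
      Dm2 x0 x1 y0 y1 (m + k') q p) := by
  have h0 := h.1
  rcases exit_and h with h1 | h1
  · rcases exit_and h1 with h2 | h2
    · exact Or.inl ⟨h2, h0.1.2⟩
    · exact absurd h2 exit_dom
  · exact Or.inr ⟨h1, h0.1.1, h0.1.2⟩

lemma exit_alR (hG : Lp G) {k' m : ℕ} (hk : k' ≤ 6) {q p : ℤ}
    (h : ExitZ (AlR R α β γ w x0 x1 y0 y1 G) k' m q p) :
    ExitZ (Om R α β γ w) k' m q p ∧ Dm2 x0 x1 y0 y1 (m + k') q p := by
  have h0 := h.1
  rcases exit_and h with h1 | h1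
  · rcases exit_and h1 with h2 | h2
    · exact ⟨h2, h0.1.2⟩
    · exact absurd h2 exit_dom
  · exact absurd h1 (exitR hG hk)

/-- constant of the local count -/
def KG : ℝ := KD 31 + 7 * (2 * 31 + 1) ^ 2

lemma KG_nonneg : 0 ≤ KG := by unfold KG; positivity

open Classical in
/-- GOOD, literal shape of `RegZ.ex` -/
theorem good_local (hR : IsRegion R J) (hc : Cof α β γ) (hG : Lp G) {k' : ℕ} (hk : k' ≤ 6)
    (L : ℕ) (c d : ℤ) :
    ∑ m ∈ range (L + 1), ∑ q ∈ Icc (c - (31 : ℕ) * 2 ^ L) (c + (31 : ℕ) * 2 ^ L),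
      ∑ p ∈ Icc (d - (31 : ℕ) * 2 ^ L) (d + (31 : ℕ) * 2 ^ L),
        (if ExitZ (AlG R α β γ w x0 x1 y0 y1 G) k' m q p then (1 : ℝ) else 0) ≤ KG * 4 ^ L := by
  refine (count_or (B := fun m q p => ExitZ (Om R α β γ w) k' m q p)
    (C := fun m q p => ExitZ (fun m q u => ¬ G q u (128 * 2 ^ m)) k' m q p)
    (fun m q p h => ?_) _ _ _).trans ?_
  · rcases exit_alG h with h | h
    · exact Or.inl h.1
    · exact Or.inr h.1
  · have h1 := ex_local hR hc w hk 31 L c d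
    have h2 := scale_count_local (A := fun m q p => ExitZ (fun m q u => ¬ G q u (128 * 2 ^ m)) k' m q p)
      (κ := 7) (D := 31) (L := L) (c := c) (d := d) (fun q p => scalesG hG hk (L + 1) q p)
    refine (add_le_add h1 h2).trans (le_of_eq ?_)
    unfold KG
    push_cast
    ring

open Classical in
/-- REST, literal shape of `RegZ.ex` -/
theorem rest_local (hR : IsRegion R J) (hc : Cof α β γ) (hG : Lp G) {k' : ℕ} (hk : k' ≤ 6)
    (L : ℕ) (c d : ℤ) :
    ∑ m ∈ range (L + 1), ∑ q ∈ Icc (c - (31 : ℕ) * 2 ^ L) (c + (31 : ℕ) * 2 ^ L),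
      ∑ p ∈ Icc (d - (31 : ℕ) * 2 ^ L) (d + (31 : ℕ) * 2 ^ L),
        (if ExitZ (AlR R α β γ w x0 x1 y0 y1 G) k' m q p then (1 : ℝ) else 0) ≤ KG * 4 ^ L := by
  refine (count_mono (B := fun m q p => ExitZ (Om R α β γ w) k' m q p)
    (fun m q p h => (exit_alR hG hk h).1) _ _ _).trans ((ex_local hR hc w hk 31 L c d).trans ?_)
  refine mul_le_mul_of_nonneg_right ?_ (by positivity)
  unfold KG
  linarith [show (0 : ℝ) ≤ 7 * (2 * 31 + 1) ^ 2 by positivity]

open Classical in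
/-- a count supported on `q ∈ [x0, x1)` -/
lemma count_restr {A : ℕ → ℤ → ℤ → Prop} (h : ∀ m q p, A m q p → q ∈ Ico x0 x1) (M : ℕ)
    (Q P : Finset ℤ) :
    ∑ m ∈ range M, ∑ q ∈ Q, ∑ p ∈ P, (if A m q p then (1 : ℝ) else 0) ≤
      ∑ m ∈ range M, ∑ q ∈ Ico x0 x1, ∑ p ∈ P, (if A m q p then (1 : ℝ) else 0) := by
  refine Finset.sum_le_sum fun m _ => ?_
  have e : ∑ q ∈ Q, ∑ p ∈ P, (if A m q p then (1 : ℝ) else 0) =
      ∑ q ∈ Q.filter (fun q => q ∈ Ico x0 x1), ∑ p ∈ P, (if A m q p then (1 : ℝ) else 0) := by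
    rw [Finset.sum_filter]
    refine Finset.sum_congr rfl fun q _ => ?_
    by_cases hq : q ∈ Ico x0 x1
    · rw [if_pos hq]
    · rw [if_neg hq]
      exact Finset.sum_eq_zero fun p _ => if_neg fun hA => hq (h m q p hA)
  rw [e]
  refine Finset.sum_le_sum_of_subset_of_nonneg (fun q hq => (Finset.mem_filter.1 hq).2) ?_
  intro q _ _
  exact Finset.sum_nonneg fun p _ => by split_ifs <;> norm_num

lemma dm2_mem {m : ℕ} {q p : ℤ} (h : Dm2 x0 x1 y0 y1 m q p) : q ∈ Ico x0 x1 := by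
  rw [Finset.mem_Ico]
  exact ⟨h.1, by linarith [h.2.1, show (0 : ℤ) < 2 ^ m by positivity]⟩

/-- the shadow of the corner of an alive box lies in the top -/
lemma om_top (hR : IsRegion R J) {m : ℕ} {q p : ℤ} (h : Om R α β γ w m q p) :
    α * w + β * q + γ * p ∈ iv J := by
  have hm0 : (0 : ℤ) < 2 ^ m := by positivity
  exact Rm_subset_top R J hR _ (h q (Finset.mem_Ico.2 ⟨le_rfl, by linarith⟩) p
    (Finset.mem_Ico.2 ⟨le_rfl, by linarith⟩))

open Classical in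
/-- area of the alive positions: `#Q · len J` -/
lemma row_len (hc : Cof α β γ) (q : ℤ) (P : Finset ℤ) :
    ((P.filter fun p => α * w + β * q + γ * p ∈ iv J).card : ℝ) ≤ len J := by
  have h : (P.filter fun p => α * w + β * q + γ * p ∈ iv J).card ≤ (iv J).card := by
    refine Finset.card_le_card_of_injOn (fun p => α * w + β * q + γ * p) ?_ ?_
    · intro p hp
      rw [Finset.mem_coe, Finset.mem_filter] at hp
      exact Finset.mem_coe.2 hp.2
    · intro p _ p' _ h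
      simp only at h
      have : γ * (p - p') = 0 := by linarith
      rcases mul_eq_zero.1 this with h | h
      · exact absurd h hc.γ0
      · linarith
  have hJ : (iv J).card = 2 ^ (J.1 + 7) := card_dI _ _
  rw [hJ] at h
  calc ((P.filter fun p => α * w + β * q + γ * p ∈ iv J).card : ℝ) ≤ ((2 ^ (J.1 + 7) : ℕ) : ℝ) := by
        exact_mod_cast h
    _ = len J := by unfold len; push_cast; rfl

open Classical in
/-- alive area at one scale (`LastZ.ar`) -/
theorem area_global (hR : IsRegion R J) (hc : Cof α β γ) {al : ℕ → ℤ → ℤ → Prop} (m : ℕ)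
    (h : ∀ q p, al m q p → Om R α β γ w m q p ∧ Dm2 x0 x1 y0 y1 m q p) (Q P : Finset ℤ) :
    ∑ q ∈ Q, ∑ p ∈ P, (if al m q p then (1 : ℝ) else 0) ≤ ((Ico x0 x1).card : ℝ) * len J := by
  have h0 := count_restr (A := fun _ q p => al m q p) (x0 := x0) (x1 := x1)
    (fun _ q p hA => dm2_mem (h q p hA).2) 1 Q P
  rw [Finset.sum_range_one, Finset.sum_range_one] at h0
  refine h0.trans ?_
  calc ∑ q ∈ Ico x0 x1, ∑ p ∈ P, (if al m q p then (1 : ℝ) else 0)
      ≤ ∑ _q ∈ Ico x0 x1, len J := by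
        refine Finset.sum_le_sum fun q _ => ?_
        refine le_trans ?_ (row_len (w := w) (J := J) hc q P)
        rw [Finset.card_filter]
        push_cast
        refine Finset.sum_le_sum fun p _ => ?_
        by_cases hA : al m q p
        · rw [if_pos hA, if_pos (om_top hR (h q p hA).1)]
        · rw [if_neg hA]
          split_ifs <;> norm_num
    _ = _ := by rw [Finset.sum_const, nsmul_eq_mul]

open Classical in
/-- REST, shape of `LastZ.ex` -/
theorem rest_global (hR : IsRegion R J) (hc : Cof α β γ) (hG : Lp G) {k' : ℕ} (hk : k' ≤ 6) (M : ℕ)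
    (Q P : Finset ℤ) :
    ∑ m ∈ range M, ∑ q ∈ Q, ∑ p ∈ P,
      (if ExitZ (AlR R α β γ w x0 x1 y0 y1 G) k' m q p then (1 : ℝ) else 0) ≤
      54 * ((Ico x0 x1).card * len J) := by
  refine (count_restr (x0 := x0) (x1 := x1)
    (fun m q p h => dm2_mem (exit_alR hG hk h).2) M Q P).trans ?_
  refine (count_mono (B := fun m q p => ExitZ (Om R α β γ w) k' m q p)
    (fun m q p h => (exit_alR hG hk h).1) _ _ _).trans ?_
  exact ex_global hR hc w hk M _ P

open Classical in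
/-- GOOD, shape of `LastZ.ex` -/
theorem good_global (hR : IsRegion R J) (hc : Cof α β γ) (hG : Lp G) {k' : ℕ} (hk : k' ≤ 6) (M : ℕ)
    (Q P : Finset ℤ) :
    ∑ m ∈ range M, ∑ q ∈ Q, ∑ p ∈ P,
      (if ExitZ (AlG R α β γ w x0 x1 y0 y1 G) k' m q p then (1 : ℝ) else 0) ≤
      61 * ((Ico x0 x1).card * len J) := by
  refine (count_restr (x0 := x0) (x1 := x1) (fun m q p h => ?_) M Q P).trans ?_
  · rcases exit_alG h with h | h
    · exact dm2_mem h.2
    · exact dm2_mem h.2.2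
  refine (count_or (B := fun m q p => ExitZ (Om R α β γ w) k' m q p)
    (C := fun m q p => ExitZ (fun m q u => ¬ G q u (128 * 2 ^ m)) k' m q p ∧
      α * w + β * q + γ * p ∈ iv J) (fun m q p h => ?_) _ _ _).trans ?_
  · rcases exit_alG h with h | h
    · exact Or.inl h.1
    · exact Or.inr ⟨h.1, om_top hR h.2.1⟩
  have h1 := ex_global hR hc w hk M (Ico x0 x1) P
  have h2 : ∑ m ∈ range M, ∑ q ∈ Ico x0 x1, ∑ p ∈ P,
      (if (ExitZ (fun m q u => ¬ G q u (128 * 2 ^ m)) k' m q p ∧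
        α * w + β * q + γ * p ∈ iv J) then (1 : ℝ) else 0) ≤
      7 * ((Ico x0 x1).card * len J) := by
    calc ∑ m ∈ range M, ∑ q ∈ Ico x0 x1, ∑ p ∈ P,
          (if (ExitZ (fun m q u => ¬ G q u (128 * 2 ^ m)) k' m q p ∧
            α * w + β * q + γ * p ∈ iv J) then (1 : ℝ) else 0)
        = ∑ q ∈ Ico x0 x1, ∑ p ∈ P, ∑ m ∈ range M,
          (if (ExitZ (fun m q u => ¬ G q u (128 * 2 ^ m)) k' m q p ∧
            α * w + β * q + γ * p ∈ iv J) then (1 : ℝ) else 0) := by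
          rw [Finset.sum_comm]
          refine Finset.sum_congr rfl fun q _ => ?_
          rw [Finset.sum_comm]
      _ ≤ ∑ q ∈ Ico x0 x1, ∑ p ∈ P,
          (if α * w + β * q + γ * p ∈ iv J then (7 : ℝ) else 0) := by
          refine Finset.sum_le_sum fun q _ => Finset.sum_le_sum fun p _ => ?_
          by_cases hp : α * w + β * q + γ * p ∈ iv J
          · rw [if_pos hp]
            simp only [hp, and_true]
            calc ∑ m ∈ range M, (if ExitZ (fun m q u => ¬ G q u (128 * 2 ^ m)) k' m q p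
                  then (1 : ℝ) else 0)
                = (((range M).filter fun m =>
                  ExitZ (fun m q u => ¬ G q u (128 * 2 ^ m)) k' m q p).card : ℝ) := by
                  rw [Finset.card_filter]
                  push_cast
                  rfl
              _ ≤ 7 := by exact_mod_cast scalesG hG hk M q p
          · rw [if_neg hp]
            refine le_of_eq (Finset.sum_eq_zero fun m _ => if_neg fun h => hp h.2)
      _ ≤ ∑ _q ∈ Ico x0 x1, 7 * len J := by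
          refine Finset.sum_le_sum fun q _ => ?_
          have := row_len (w := w) (J := J) hc q P
          calc ∑ p ∈ P, (if α * w + β * q + γ * p ∈ iv J then (7 : ℝ) else 0)
              = 7 * ((P.filter fun p => α * w + β * q + γ * p ∈ iv J).card : ℝ) := by
                rw [← Finset.sum_filter, Finset.sum_const, nsmul_eq_mul]
                ring
            _ ≤ _ := by linarith
      _ = _ := by rw [Finset.sum_const, nsmul_eq_mul]; ring
  refine le_trans (le_of_eq ?_) ((add_le_add h1 h2).trans (le_of_eq (by ring)))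
  congr!

/-! ### layers -/

/-- alive family of a layer -/
def AlL (R : Finset Nd) (α β γ w x0 x1 y0 y1 : ℤ) (G G' : ℤ → ℤ → ℤ → Prop) (m : ℕ) (q u : ℤ) :
    Prop :=
  AlG R α β γ w x0 x1 y0 y1 G m q u ∧ G' q u (127 * 2 ^ m)

lemma exit_alL {G' : ℤ → ℤ → ℤ → Prop} (hG' : Lp G') {k' m : ℕ} (hk : k' ≤ 6) {q p : ℤ}
    (h : ExitZ (AlL R α β γ w x0 x1 y0 y1 G G') k' m q p) :
    ExitZ (AlG R α β γ w x0 x1 y0 y1 G) k' m q p := by
  rcases exit_and h with h1 | h1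
  · exact h1
  · exact absurd h1 (exitR hG' hk)

open Classical in
/-- LAYER, literal shape of `RegZ.ex` -/
theorem layer_local (hR : IsRegion R J) (hc : Cof α β γ) (hG : Lp G) {G' : ℤ → ℤ → ℤ → Prop}
    (hG' : Lp G') {k' : ℕ} (hk : k' ≤ 6) (L : ℕ) (c d : ℤ) :
    ∑ m ∈ range (L + 1), ∑ q ∈ Icc (c - (31 : ℕ) * 2 ^ L) (c + (31 : ℕ) * 2 ^ L),
      ∑ p ∈ Icc (d - (31 : ℕ) * 2 ^ L) (d + (31 : ℕ) * 2 ^ L),
        (if ExitZ (AlL R α β γ w x0 x1 y0 y1 G G') k' m q p then (1 : ℝ) else 0) ≤ KG * 4 ^ L :=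
  (count_mono (fun _ _ _ h => exit_alL hG' hk h) _ _ _).trans (good_local hR hc hG hk L c d)

open Classical in
/-- LAYER, shape of `LastZ.ex` -/
theorem layer_global (hR : IsRegion R J) (hc : Cof α β γ) (hG : Lp G) {G' : ℤ → ℤ → ℤ → Prop}
    (hG' : Lp G') {k' : ℕ} (hk : k' ≤ 6) (M : ℕ) (Q P : Finset ℤ) :
    ∑ m ∈ range M, ∑ q ∈ Q, ∑ p ∈ P,
      (if ExitZ (AlL R α β γ w x0 x1 y0 y1 G G') k' m q p then (1 : ℝ) else 0) ≤
      61 * ((Ico x0 x1).card * len J) :=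
  (count_mono (fun _ _ _ h => exit_alL hG' hk h) _ _ _).trans (good_global hR hc hG hk M Q P)

end

end Crest.Agent.R079.KC996
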