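import Crest.Agent.R079.KT_279
import Crest.Agent.R079.CRfin_253

/-! R079: the ragged corner on `ℤ` is a theorem (`KT_279` + `CRfin_253`).  helper279. -/

set_option autoImplicit false

namespace Crest.Agent.R079.KTx279

/-- **the ragged corner on `ℤ`** -/
theorem cornerZ : Crest.Agent.R079.KLx446.CornerZ :=
  cornerZ_of_cornerR Crest.Agent.R079.CRfinx253.cornerR

end Crest.Agent.R079.KTx279
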