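import Crest.Agent.R079.KLa_446
import Crest.Agent.R079.KCb_996
import Crest.Agent.R079.KTz_279
import Crest.Agent.R079.ClW_59

/-! R079: THE GENERIC CORNER (`CornerZ`) AT ONE FROZEN VALUE `w` AND THE SUM OVER `w` (helper253).

* `AlC` : alive family whose boxes have their shadows in the region (`Om`), lie in a domain (`Dm2`) and
  whose exits are counted; instances `alC_good`, `alC_rest`, `alC_layer`, `alC_unif`;
* `tw_le` : one frozen value, all parameters of `CornerZ` chosen: price `1 + log (1 + …)`, scale free;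
* `sum_tw` : sum over the frozen values with floors `fa`, `fb`;
* `tw_le'`, `sum_tw'` : the same without the hypothesis `CornerZ` (`KTx279.cornerZ`);
* `opZ_of_opB`, `opZ_of_opS` : complex operator bounds => `OpZ` of real and imaginary parts. -/

set_option autoImplicit false

namespace Crest.Agent.R079.TwLx253

open Finset Crest.Agent.R079.Grid Crest.Agent.R079.Glue Crest.Agent.R079.Growth
  Crest.Agent.R079.QRed Crest.Agent.R079.KLx446 Crest.Agent.R079.KC996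

/-! ### alive families -/

open Classical in
/-- alive family with counted exits -/
structure AlC (R : Finset Nd) (J : Nd) (α β γ w x0 x1 y0 y1 : ℤ) (al : ℕ → ℤ → ℤ → Prop) :
    Prop where
  dom : ∀ m q p, al m q p → Om R α β γ w m q p ∧ Dm2 x0 x1 y0 y1 m q p
  exl : ∀ k' ≤ 6, ∀ (L : ℕ) (c d : ℤ), ∑ m ∈ range (L + 1),
    ∑ q ∈ Icc (c - (31 : ℕ) * 2 ^ L) (c + (31 : ℕ) * 2 ^ L),
      ∑ p ∈ Icc (d - (31 : ℕ) * 2 ^ L) (d + (31 : ℕ) * 2 ^ L),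
        (if ExitZ al k' m q p then (1 : ℝ) else 0) ≤ KG * 4 ^ L
  exg : ∀ k' ≤ 6, ∀ (M : ℕ) (Q P : Finset ℤ), ∑ m ∈ range M, ∑ q ∈ Q, ∑ p ∈ P,
    (if ExitZ al k' m q p then (1 : ℝ) else 0) ≤ 61 * (((Ico x0 x1).card : ℝ) * len J)

section inst

variable {R : Finset Nd} {J : Nd} {α β γ w x0 x1 y0 y1 : ℤ} {G G' : ℤ → ℤ → ℤ → Prop}

theorem alC_good (hR : IsRegion R J) (hc : Cof α β γ) (hG : Lp G) :
    AlC R J α β γ w x0 x1 y0 y1 (AlG R α β γ w x0 x1 y0 y1 G) where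
  dom := fun _ _ _ h => h.1
  exl := fun _ hk L c d => good_local hR hc hG hk L c d
  exg := fun _ hk M Q P => good_global hR hc hG hk M Q P

theorem alC_rest (hR : IsRegion R J) (hc : Cof α β γ) (hG : Lp G) :
    AlC R J α β γ w x0 x1 y0 y1 (AlR R α β γ w x0 x1 y0 y1 G) where
  dom := fun _ _ _ h => h.1
  exl := fun _ hk L c d => rest_local hR hc hG hk L c d
  exg := fun _ hk M Q P => (rest_global hR hc hG hk M Q P).trans
    (mul_le_mul_of_nonneg_right (by norm_num)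
      (mul_nonneg (Nat.cast_nonneg _) (Growth.len_pos J).le))

theorem alC_layer (hR : IsRegion R J) (hc : Cof α β γ) (hG : Lp G) (hG' : Lp G') :
    AlC R J α β γ w x0 x1 y0 y1 (AlL R α β γ w x0 x1 y0 y1 G G') where
  dom := fun _ _ _ h => h.1.1
  exl := fun _ hk L c d => layer_local hR hc hG hG' hk L c d
  exg := fun _ hk M Q P => layer_global hR hc hG hG' hk M Q P

/-- alive = all boxes of the region in the domain -/
def AlU (R : Finset Nd) (α β γ w x0 x1 y0 y1 : ℤ) (m : ℕ) (q u : ℤ) : Prop :=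
  Om R α β γ w m q u ∧ Dm2 x0 x1 y0 y1 m q u

theorem alC_unif (hR : IsRegion R J) (hc : Cof α β γ) :
    AlC R J α β γ w x0 x1 y0 y1 (AlU R α β γ w x0 x1 y0 y1) := by
  have hL : Lp (fun _ _ _ : ℤ => False) := ⟨fun _ _ _ _ _ h => h, fun _ _ _ _ _ _ _ _ h => h⟩
  have e : AlU R α β γ w x0 x1 y0 y1 = AlG R α β γ w x0 x1 y0 y1 (fun _ _ _ : ℤ => False) := by
    funext m q u
    unfold AlU AlG
    simp
  rw [e]
  exact alC_good hR hc hL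

end inst

/-- the killer edge of the box is inside the region -/
theorem gd_al4 {k k0 k1 k2 : Fin 4} {R : Finset (ℕ × ℤ)} {m : ℕ} {w p0 p1 p2 : ℤ}
    (h : Gd k k0 k1 k2 R m w p0 p1 p2) :
    Al4Z (fun m q u => Om R (sl k - sl k1) (sl k2 - sl k1) (sl k0 - sl k1) w m q u) m p2 p0 := by
  intro a b ha hb x hx y hy
  rw [Finset.mem_Ico] at hx hy
  have hm0 : (0 : ℤ) < 2 ^ m := by positivity
  have h2 : (2 : ℤ) ^ (m + 1) = 2 * 2 ^ m := by ring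
  have ha0 : (0 : ℤ) ≤ a := by positivity
  have hb0 : (0 : ℤ) ≤ b := by positivity
  have ha1 : (a : ℤ) ≤ 1 := by exact_mod_cast Nat.lt_succ_iff.1 ha
  have hb1 : (b : ℤ) ≤ 1 := by exact_mod_cast Nat.lt_succ_iff.1 hb
  have ha2 : (a : ℤ) * 2 ^ m ≤ 2 ^ m := by nlinarith
  have hb2 : (b : ℤ) * 2 ^ m ≤ 2 ^ m := by nlinarith
  have ha3 : (0 : ℤ) ≤ a * 2 ^ m := by positivity
  have hb3 : (0 : ℤ) ≤ b * 2 ^ m := by positivity
  have := (h (y - p0) 0 (x - p2) (by linarith) (by rw [h2]; linarith) le_rfl (by rw [h2]; linarith)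
    (by linarith) (by rw [h2]; linarith)).2.2
  unfold sha at this
  convert this using 1
  ring

/-- a box which meets the support of the killer is alive for `AlU` on an enlarged domain -/
theorem al4_unif {R : Finset Nd} {J : Nd} {α β γ w c0 c1 d0 d1 : ℤ} {m : ℕ} (hm : m ≤ J.1)
    {q u : ℤ} (h : Al4Z (fun m q u => Om R α β γ w m q u) m q u)
    (hx : ∃ i : ℤ, 0 ≤ i ∧ i < 2 ^ (m + 1) ∧ c0 ≤ q + i ∧ q + i < c1)
    (hy : ∃ i : ℤ, 0 ≤ i ∧ i < 2 ^ (m + 1) ∧ d0 ≤ u + i ∧ u + i < d1) :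
    Al4Z (AlU R α β γ w (c0 - 2 ^ (J.1 + 1)) (c1 + 2 ^ (J.1 + 1)) (d0 - 2 ^ (J.1 + 1))
      (d1 + 2 ^ (J.1 + 1))) m q u := by
  obtain ⟨i, hi0, hi1, hi2, hi3⟩ := hx
  obtain ⟨j, hj0, hj1, hj2, hj3⟩ := hy
  have hm0 : (0 : ℤ) < 2 ^ m := by positivity
  have h2 : (2 : ℤ) ^ (m + 1) = 2 * 2 ^ m := by ring
  have h3 : (2 : ℤ) ^ (m + 1) ≤ 2 ^ (J.1 + 1) := pow_le_pow_right₀ (by norm_num) (by omega)
  intro a b ha hb
  refine ⟨h a b ha hb, ?_⟩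
  have ha0 : (0 : ℤ) ≤ a := by positivity
  have hb0 : (0 : ℤ) ≤ b := by positivity
  have ha1 : (a : ℤ) ≤ 1 := by exact_mod_cast Nat.lt_succ_iff.1 ha
  have hb1 : (b : ℤ) ≤ 1 := by exact_mod_cast Nat.lt_succ_iff.1 hb
  have ha2 : (a : ℤ) * 2 ^ m ≤ 2 ^ m := by nlinarith
  have hb2 : (b : ℤ) * 2 ^ m ≤ 2 ^ m := by nlinarith
  have ha3 : (0 : ℤ) ≤ a * 2 ^ m := by positivity
  have hb3 : (0 : ℤ) ≤ b * 2 ^ m := by positivity
  refine ⟨by linarith, by linarith, by linarith, by linarith⟩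

/-! ### finite supports -/

/-- finite support of a kernel -/
def FS (A : ℤ → ℤ → ℝ) : Prop := ∃ S : ℕ, ∀ x y, A x y ≠ 0 → |x| ≤ S ∧ |y| ≤ S

theorem exists_absbd (T : Finset ℤ) : ∃ S : ℕ, ∀ x ∈ T, |x| ≤ S := by
  classical
  induction T using Finset.induction_on with
  | empty => exact ⟨0, fun x h => absurd h (Finset.notMem_empty x)⟩
  | insert a T _ ih =>
    obtain ⟨S, hS⟩ := ih
    refine ⟨max S a.natAbs, fun x hx => ?_⟩
    rw [Finset.mem_insert] at hx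
    rcases hx with rfl | hx
    · have h1 : |x| = (x.natAbs : ℤ) := (Int.natCast_natAbs x).symm
      rw [h1]
      exact_mod_cast le_max_right S x.natAbs
    · exact (hS x hx).trans (by exact_mod_cast le_max_left S a.natAbs)

theorem fs_of_mem {A : ℤ → ℤ → ℝ} {T T' : Finset ℤ} (h : ∀ x y, A x y ≠ 0 → x ∈ T ∧ y ∈ T') :
    FS A := by
  obtain ⟨S, hS⟩ := exists_absbd T
  obtain ⟨S', hS'⟩ := exists_absbd T'
  refine ⟨max S S', fun x y hxy => ?_⟩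
  obtain ⟨h1, h2⟩ := h x y hxy
  exact ⟨(hS x h1).trans (by exact_mod_cast le_max_left S S'),
    (hS' y h2).trans (by exact_mod_cast le_max_right S S')⟩

/-! ### one frozen value -/

/-- the form of a box vanishes when one of the kernels vanishes on the box -/
theorem Lb3r_zero_C {A B C : ℤ → ℤ → ℝ} {m : ℕ} {p0 p1 p2 : ℤ}
    (h : ¬ ∃ i j : ℕ, i < 2 ^ (m + 1) ∧ j < 2 ^ (m + 1) ∧ C (p2 + i) (p0 + j) ≠ 0) :
    Lb3r A B C (2 ^ m) p0 p1 p2 = 0 := by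
  unfold Lb3r
  rw [mul_eq_zero]
  right
  refine Finset.sum_eq_zero fun i0 _ => Finset.sum_eq_zero fun i1 _ => Finset.sum_eq_zero
    fun i2 _ => ?_
  have e : C (p2 + ((i2 : ℕ) : ℤ)) (p0 + ((i0 : ℕ) : ℤ)) = 0 := by
    by_contra hne
    exact h ⟨i2, i0, by have := i2.isLt; rw [pow_succ]; omega, by
      have := i0.isLt; rw [pow_succ]; omega, hne⟩
  rw [e]
  ring

theorem Lb3r_zero_A {A B C : ℤ → ℤ → ℝ} (h : ∀ x y, A x y = 0) (N : ℕ) (p0 p1 p2 : ℤ) :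
    Lb3r A B C N p0 p1 p2 = 0 := by
  unfold Lb3r
  simp [h]

theorem Lb3r_zero_B {A B C : ℤ → ℤ → ℝ} (h : ∀ x y, B x y = 0) (N : ℕ) (p0 p1 p2 : ℤ) :
    Lb3r A B C N p0 p1 p2 = 0 := by
  unfold Lb3r
  simp [h]

theorem tw_zero {Gm : ℕ → ℤ → ℤ → ℤ → Prop} {A B C : ℤ → ℤ → ℝ} {M L1 : ℕ} {l w : ℤ}
    (h : ∀ (N : ℕ) (p0 p1 p2 : ℤ), Lb3r A B C N p0 p1 p2 = 0) : Tw Gm A B C M L1 l w = 0 := by
  unfold Tw
  simp [h]

/-- elementary: number of dyadic steps -/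
theorem exists_steps (z : ℝ) (hz : 0 ≤ z) :
    ∃ J : ℕ, 61 * z ≤ 2 ^ J ∧ (2 * (J : ℝ) + 1) ≤ 300 * (1 + Real.log (1 + z)) := by
  have h1 : (1 : ℝ) ≤ 1 + 61 * z := by linarith
  set J := ⌈Real.logb 2 (1 + 61 * z)⌉₊ with hJ
  have hJ1 : Real.logb 2 (1 + 61 * z) ≤ J := Nat.le_ceil _
  have hlb0 : 0 ≤ Real.logb 2 (1 + 61 * z) := Real.logb_nonneg (by norm_num) h1
  have hJ2 : (J : ℝ) < Real.logb 2 (1 + 61 * z) + 1 := Nat.ceil_lt_add_one hlb0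
  refine ⟨J, ?_, ?_⟩
  · have h2 : (2 : ℝ) ^ (Real.logb 2 (1 + 61 * z)) = 1 + 61 * z :=
      Real.rpow_logb (by norm_num) (by norm_num) (by linarith)
    have h3 : (2 : ℝ) ^ (Real.logb 2 (1 + 61 * z)) ≤ (2 : ℝ) ^ (J : ℝ) :=
      Real.rpow_le_rpow_of_exponent_le (by norm_num) hJ1
    rw [h2, Real.rpow_natCast] at h3
    linarith
  · have hl2 : (1 / 2 : ℝ) < Real.log 2 := by
      have := Real.log_two_gt_d9
      linarith
    have e : Real.logb 2 (1 + 61 * z) = Real.log (1 + 61 * z) / Real.log 2 := rfl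
    have h4 : Real.log (1 + 61 * z) ≤ 60 + Real.log (1 + z) := by
      have h5 : 1 + 61 * z ≤ 61 * (1 + z) := by linarith
      have h6 := Real.log_le_log (by linarith) h5
      rw [Real.log_mul (by norm_num) (by linarith)] at h6
      have h7 : Real.log 61 ≤ 60 := by
        have := Real.log_le_sub_one_of_pos (show (0 : ℝ) < 61 by norm_num)
        linarith
      linarith
    have h0 : 0 ≤ Real.log (1 + z) := Real.log_nonneg (by linarith)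
    have h8 : Real.log (1 + 61 * z) / Real.log 2 ≤ 2 * (60 + Real.log (1 + z)) := by
      rw [div_le_iff₀ (by linarith)]
      nlinarith
    linarith

/-- constant of `tw_le` -/
theorem corner_const (hZ : CornerZ) : ∃ K : ℝ, 0 ≤ K ∧ ∀ (l : ℤ), |l| ≤ 7 →
    ∀ (M' J S0 : ℕ) (A B C : ℤ → ℤ → ℝ) (al : ℕ → ℤ → ℤ → Prop) (w : ℤ) (a2 b2 r τ E0 Ar : ℝ),
    0 < a2 → 0 < b2 → 0 < r → 0 < τ →
    (∀ x y, A x y ≠ 0 → |x| ≤ S0 ∧ |y| ≤ S0) → (∀ x y, B x y ≠ 0 → |x| ≤ S0 ∧ |y| ≤ S0) →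
    (∀ x y, C x y ≠ 0 → |x| ≤ S0 ∧ |y| ≤ S0) →
    ∑ x ∈ Icc (-(S0 : ℤ)) S0, ∑ y ∈ Icc (-(S0 : ℤ)) S0, A x y ^ 2 ≤ a2 →
    ∑ x ∈ Icc (-(S0 : ℤ)) S0, ∑ y ∈ Icc (-(S0 : ℤ)) S0, B x y ^ 2 ≤ b2 →
    (∀ x y, A x y ^ 2 ≤ a2 / r) → (∀ x y, B x y ^ 2 ≤ b2 / r) →
    RegZ C al M' 6 31 S0 τ KG → LastZ C al M' 6 S0 E0 Ar → E0 * Ar ≤ τ ^ 2 * (r * 2 ^ J) →
    ∀ (Gm : ℕ → ℤ → ℤ → ℤ → Prop), (∀ m p0 p1 p2, Gm m p0 p1 p2 → Al4Z al m p2 p0) →
    ∀ L1 : ℕ, Tw Gm A B C M' L1 l w ≤ K * (2 * J + 1) * (τ * √a2 * √b2) := by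
  classical
  have h := fun (l : ℤ) (hl : |l| ≤ 7) => hZ l hl KG
  choose! K hK0 hK using h
  refine ⟨∑ l ∈ Icc (-7 : ℤ) 7, |K l|, Finset.sum_nonneg fun _ _ => abs_nonneg _, ?_⟩
  intro l hl M' J S0 A B C al w a2 b2 r τ E0 Ar ha hb hr hτ sA sB sC eA eB hA hB hReg hLast hE Gm
    hGm L1
  have h1 := hK l hl M' J S0 A B C al w a2 b2 r τ E0 Ar ha hb hr hτ sA sB sC eA eB hA hB hReg
    hLast hE L1
  have h2 : Tw Gm A B C M' L1 l w ≤ K l * (2 * J + 1) * (τ * √a2 * √b2) := by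
    refine le_trans ?_ h1
    unfold Tw
    refine Finset.sum_le_sum fun m _ => mul_le_mul_of_nonneg_left ?_ (by positivity)
    refine Finset.sum_le_sum fun i _ => Finset.sum_le_sum fun p0 _ => Finset.sum_le_sum
      fun p1 _ => ?_
    by_cases hg : Gm m p0 p1 (l * 2 ^ m + (i : ℤ) - w - p0 - p1)
    · rw [if_pos hg, if_pos (hGm _ _ _ _ hg)]
    · rw [if_neg hg]
      split_ifs
      · exact abs_nonneg _
      · exact le_rfl
  refine h2.trans ?_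
  refine mul_le_mul_of_nonneg_right (mul_le_mul_of_nonneg_right ?_ (by positivity)) (by positivity)
  refine (le_abs_self _).trans ?_
  exact Finset.single_le_sum (f := fun l => |K l|) (fun _ _ => abs_nonneg _)
    (Finset.mem_Icc.2 (abs_le.1 hl))

/-- **THE CORNER AT ONE FROZEN VALUE, all parameters chosen** -/
theorem tw_le (hZ : CornerZ) : ∃ K : ℝ, 0 ≤ K ∧ ∀ (l : ℤ), |l| ≤ 7 →
    ∀ (R : Finset Nd) (J : Nd) (α β γ w x0 x1 y0 y1 : ℤ) (al : ℕ → ℤ → ℤ → Prop),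
    IsRegion R J → Cof α β γ → AlC R J α β γ w x0 x1 y0 y1 al →
    ∀ (A B C : ℤ → ℤ → ℝ) (τ HA HB HC a2 b2 : ℝ), FS A → FS B → FS C →
    0 < τ → 0 < a2 → 0 < b2 →
    (∀ x y, |A x y| ≤ HA) → (∀ x y, |B x y| ≤ HB) → (∀ x y, |C x y| ≤ HC) →
    (∀ X Y : Finset ℤ, ∑ x ∈ X, ∑ y ∈ Y, A x y ^ 2 ≤ a2) →
    (∀ X Y : Finset ℤ, ∑ x ∈ X, ∑ y ∈ Y, B x y ^ 2 ≤ b2) →
    (∀ m q p, al m q p → OpZ C (2 ^ m) q p (2 ^ m * τ)) →
    ∀ (Gm : ℕ → ℤ → ℤ → ℤ → Prop), (∀ m ≤ J.1, ∀ p0 p1 p2, Gm m p0 p1 p2 →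
      (∃ i j : ℕ, i < 2 ^ (m + 1) ∧ j < 2 ^ (m + 1) ∧ C (p2 + i) (p0 + j) ≠ 0) →
      Al4Z al m p2 p0) →
    ∀ L1 : ℕ, Tw Gm A B C (J.1 + 1) L1 l w ≤
      K * (1 + Real.log (1 + HC ^ 2 * (((Ico x0 x1).card : ℝ) * len J) *
        (HA ^ 2 / a2 + HB ^ 2 / b2) / τ ^ 2)) * (τ * √a2 * √b2) := by
  classical
  obtain ⟨K, hK0, hK⟩ := corner_const hZ
  refine ⟨300 * K, by positivity, ?_⟩
  intro l hl R J α β γ w x0 x1 y0 y1 al hR hc hal A B C τ HA HB HC a2 b2 sA sB sC hτ ha hb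
    hA hB hC eA eB hop Gm hGm L1
  set Ar0 : ℝ := ((Ico x0 x1).card : ℝ) * len J with hAr0
  have hAr0' : 0 ≤ Ar0 := mul_nonneg (Nat.cast_nonneg _) (Growth.len_pos J).le
  set D : ℝ := HA ^ 2 / a2 + HB ^ 2 / b2 with hD
  have hD0 : 0 ≤ D := by positivity
  set z : ℝ := HC ^ 2 * Ar0 * D / τ ^ 2 with hz
  have hz0 : 0 ≤ z := by positivity
  have hlog0 : 0 ≤ Real.log (1 + z) := Real.log_nonneg (by linarith)
  have hrhs : 0 ≤ 300 * K * (1 + Real.log (1 + z)) * (τ * √a2 * √b2) := by positivity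
  -- restrict to the boxes which meet the support of `C`
  set Gm' : ℕ → ℤ → ℤ → ℤ → Prop := fun m p0 p1 p2 => (m ≤ J.1 ∧ Gm m p0 p1 p2) ∧
    (∃ i j : ℕ, i < 2 ^ (m + 1) ∧ j < 2 ^ (m + 1) ∧ C (p2 + i) (p0 + j) ≠ 0) with hGm'
  have e0 : Tw Gm A B C (J.1 + 1) L1 l w = Tw Gm' A B C (J.1 + 1) L1 l w := by
    unfold Tw
    refine Finset.sum_congr rfl fun m hm => ?_
    have hm' : m ≤ J.1 := Nat.lt_succ_iff.1 (Finset.mem_range.1 hm)
    congr 1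
    refine Finset.sum_congr rfl fun i _ => Finset.sum_congr rfl fun p0 _ => Finset.sum_congr rfl
      fun p1 _ => ?_
    by_cases hg : Gm m p0 p1 (l * 2 ^ m + (i : ℤ) - w - p0 - p1)
    · by_cases hs : ∃ i' j : ℕ, i' < 2 ^ (m + 1) ∧ j < 2 ^ (m + 1) ∧
        C ((l * 2 ^ m + (i : ℤ) - w - p0 - p1) + i') (p0 + j) ≠ 0
      · rw [if_pos hg, if_pos ⟨⟨hm', hg⟩, hs⟩]
      · rw [if_pos hg, if_neg (fun h => hs h.2), Lb3r_zero_C hs, abs_zero]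
    · rw [if_neg hg, if_neg (fun h => hg h.1.2)]
  rw [e0]
  by_cases hD1 : D = 0
  · -- no letter at all
    have hA0 : ∀ x y, A x y = 0 := by
      have h1 : HA ^ 2 / a2 = 0 := by
        have h2 : 0 ≤ HA ^ 2 / a2 := by positivity
        have h3 : 0 ≤ HB ^ 2 / b2 := by positivity
        linarith
      have h4 : HA = 0 := by
        rcases div_eq_zero_iff.1 h1 with h | h
        · exact pow_eq_zero_iff (two_ne_zero) |>.1 h
        · exact absurd h ha.ne'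
      intro x y
      have := hA x y
      rw [h4] at this
      exact abs_eq_zero.1 (le_antisymm this (abs_nonneg _))
    rw [tw_zero (Lb3r_zero_A hA0)]
    exact hrhs
  have hDp : 0 < D := lt_of_le_of_ne hD0 (Ne.symm hD1)
  obtain ⟨SA, hSA⟩ := sA
  obtain ⟨SB, hSB⟩ := sB
  obtain ⟨SC, hSC⟩ := sC
  obtain ⟨SX, hSX⟩ := exists_absbd {x0, x1, y0, y1}
  set S0 : ℕ := max (max SA SB) (max SC SX) with hS0
  have iA : (SA : ℤ) ≤ S0 := by exact_mod_cast (le_max_left SA SB).trans (le_max_left _ _)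
  have iB : (SB : ℤ) ≤ S0 := by exact_mod_cast (le_max_right SA SB).trans (le_max_left _ _)
  have iC : (SC : ℤ) ≤ S0 := by exact_mod_cast (le_max_left SC SX).trans (le_max_right _ _)
  have iX : (SX : ℤ) ≤ S0 := by exact_mod_cast (le_max_right SC SX).trans (le_max_right _ _)
  have hx0 := abs_le.1 (hSX x0 (by simp))
  have hx1 := abs_le.1 (hSX x1 (by simp))
  have hy0 := abs_le.1 (hSX y0 (by simp))
  have hy1 := abs_le.1 (hSX y1 (by simp))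
  obtain ⟨J', hJ1, hJ2⟩ := exists_steps z hz0
  have hr : 0 < 1 / D := by positivity
  have main := hK l hl (J.1 + 1) J' S0 A B C al w a2 b2 (1 / D) τ (HC ^ 2) (61 * Ar0) ha hb hr hτ
    (fun x y h => ⟨(hSA x y h).1.trans iA, (hSA x y h).2.trans iA⟩)
    (fun x y h => ⟨(hSB x y h).1.trans iB, (hSB x y h).2.trans iB⟩)
    (fun x y h => ⟨(hSC x y h).1.trans iC, (hSC x y h).2.trans iC⟩)
    (eA _ _) (eB _ _)
    (fun x y => by
      have h1 : A x y ^ 2 ≤ HA ^ 2 := by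
        rw [← sq_abs (A x y)]
        exact pow_le_pow_left₀ (abs_nonneg _) (hA x y) 2
      have h2 : HA ^ 2 / a2 ≤ D := le_add_of_nonneg_right (by positivity)
      have h3 : a2 / (1 / D) = a2 * D := by field_simp
      rw [h3]
      rw [div_le_iff₀ ha] at h2
      linarith)
    (fun x y => by
      have h1 : B x y ^ 2 ≤ HB ^ 2 := by
        rw [← sq_abs (B x y)]
        exact pow_le_pow_left₀ (abs_nonneg _) (hB x y) 2
      have h2 : HB ^ 2 / b2 ≤ D := le_add_of_nonneg_left (by positivity)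
      have h3 : b2 / (1 / D) = b2 * D := by field_simp
      rw [h3]
      rw [div_le_iff₀ hb] at h2
      linarith)
    { dom := fun m q p h => by
        obtain ⟨h1, h2⟩ := hal.dom m q p h
        have hm0 : (0 : ℤ) < 2 ^ m := by positivity
        refine ⟨?_, ?_, ?_⟩
        · have h3 := h1 q (Finset.mem_Ico.2 ⟨le_rfl, by linarith⟩) p
            (Finset.mem_Ico.2 ⟨le_rfl, by linarith⟩)
          rw [mem_Rm] at h3
          have h4 := Glue.level_le R J hR _ h3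
          exact Nat.lt_succ_of_le h4
        · rw [abs_le]
          unfold Dm2 at h2
          constructor <;> linarith [h2.1, h2.2.1]
        · rw [abs_le]
          unfold Dm2 at h2
          constructor <;> linarith [h2.2.2.1, h2.2.2.2]
      op := hop
      ex := fun k' hk L c d => hal.exl k' hk L c d }
    { hs := fun m q p _ => by
        have h1 : ∀ x ∈ Ico q (q + (2 : ℤ) ^ m), ∀ y ∈ Ico p (p + (2 : ℤ) ^ m),
            C x y ^ 2 ≤ HC ^ 2 := by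
          intro x _ y _
          rw [← sq_abs (C x y)]
          exact pow_le_pow_left₀ (abs_nonneg _) (hC x y) 2
        refine (Finset.sum_le_sum fun x hx => Finset.sum_le_sum fun y hy => h1 x hx y hy).trans ?_
        rw [Finset.sum_const, Finset.sum_const, Int.card_Ico, Int.card_Ico, nsmul_eq_mul,
          nsmul_eq_mul]
        have e1 : ∀ c : ℤ, ((c + 2 ^ m - c).toNat : ℝ) = 2 ^ m := by
          intro c
          have : c + 2 ^ m - c = ((2 ^ m : ℕ) : ℤ) := by push_cast; ring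
          rw [this, Int.toNat_natCast]
          push_cast
          rfl
        rw [e1, e1]
        have e2 : (4 : ℝ) ^ m = 2 ^ m * 2 ^ m := by
          rw [← mul_pow]; norm_num
        rw [e2]
        exact le_of_eq (by ring)
      ar := fun m => by
        refine (area_global hR hc m (fun q p h => hal.dom m q p h) _ _).trans ?_
        change Ar0 ≤ _
        linarith
      ex := fun k' hk => hal.exg k' hk _ _ _ }
    (by
      have h1 : τ ^ 2 * (1 / D * 2 ^ J') = τ ^ 2 / D * 2 ^ J' := by ring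
      rw [h1]
      have h2 : HC ^ 2 * (61 * Ar0) = τ ^ 2 / D * (61 * z) := by
        rw [hz]
        field_simp
      rw [h2]
      exact mul_le_mul_of_nonneg_left hJ1 (by positivity))
    Gm' (fun m p0 p1 p2 h => hGm m h.1.1 p0 p1 p2 h.1.2 h.2) L1
  refine main.trans ?_
  have h5 : K * (2 * (J' : ℝ) + 1) ≤ 300 * K * (1 + Real.log (1 + z)) := by
    calc K * (2 * (J' : ℝ) + 1) ≤ K * (300 * (1 + Real.log (1 + z))) :=
          mul_le_mul_of_nonneg_left hJ2 hK0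
      _ = _ := by ring
  exact mul_le_mul_of_nonneg_right h5 (by positivity)

/-! ### sum over the frozen values -/

/-- **SUM OVER THE FROZEN VALUES**, floors `fa`, `fb` -/
theorem sum_tw (hZ : CornerZ) : ∃ K : ℝ, 0 ≤ K ∧ ∀ (l : ℤ), |l| ≤ 7 →
    ∀ (R : Finset Nd) (J : Nd) (α β γ x0 x1 y0 y1 : ℤ) (al : ℤ → ℕ → ℤ → ℤ → Prop),
    IsRegion R J → Cof α β γ → (∀ w, AlC R J α β γ w x0 x1 y0 y1 (al w)) →
    ∀ (A B C : ℤ → ℤ → ℤ → ℝ) (τ HA HB HC fa fb SA SB : ℝ) (W1 : Finset ℤ),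
    (∀ w, FS (A w)) → (∀ w, FS (B w)) → (∀ w, FS (C w)) →
    0 < τ → 0 < fa → 0 < fb →
    (∀ w x y, |A w x y| ≤ HA) → (∀ w x y, |B w x y| ≤ HB) → (∀ w x y, |C w x y| ≤ HC) →
    (∀ w, w ∉ W1 → (∀ x y, A w x y = 0) ∨ (∀ x y, B w x y = 0)) →
    (∀ X Y : Finset ℤ, ∑ w ∈ W1, ∑ x ∈ X, ∑ y ∈ Y, A w x y ^ 2 ≤ SA) →
    (∀ X Y : Finset ℤ, ∑ w ∈ W1, ∑ x ∈ X, ∑ y ∈ Y, B w x y ^ 2 ≤ SB) →
    (∀ w m q p, al w m q p → OpZ (C w) (2 ^ m) q p (2 ^ m * τ)) →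
    ∀ (Gm : ℤ → ℕ → ℤ → ℤ → ℤ → Prop), (∀ w, ∀ m ≤ J.1, ∀ p0 p1 p2, Gm w m p0 p1 p2 →
      (∃ i j : ℕ, i < 2 ^ (m + 1) ∧ j < 2 ^ (m + 1) ∧ C w (p2 + i) (p0 + j) ≠ 0) →
      Al4Z (al w) m p2 p0) →
    ∀ (Wf : Finset ℤ) (L1 : ℕ), ∑ w ∈ Wf, Tw (Gm w) (A w) (B w) (C w) (J.1 + 1) L1 l w ≤
      K * (1 + Real.log (1 + HC ^ 2 * (((Ico x0 x1).card : ℝ) * len J) *
        (HA ^ 2 / fa + HB ^ 2 / fb) / τ ^ 2)) *
        (τ * √(SA + W1.card * fa) * √(SB + W1.card * fb)) := by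
  classical
  obtain ⟨K, hK0, hK⟩ := tw_le hZ
  refine ⟨K, hK0, ?_⟩
  intro l hl R J α β γ x0 x1 y0 y1 al hR hc hal A B C τ HA HB HC fa fb SA SB W1 sA sB sC hτ hfa
    hfb hA hB hC h0 eA eB hop Gm hGm Wf L1
  set Ar0 : ℝ := ((Ico x0 x1).card : ℝ) * len J with hAr0
  have hAr0' : 0 ≤ Ar0 := mul_nonneg (Nat.cast_nonneg _) (Growth.len_pos J).le
  -- one box containing all supports
  obtain ⟨S, hS⟩ : ∃ S : ℕ, ∀ w ∈ W1, (∀ x y, A w x y ≠ 0 → |x| ≤ S ∧ |y| ≤ S) ∧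
      (∀ x y, B w x y ≠ 0 → |x| ≤ S ∧ |y| ≤ S) := by
    choose fA hfA using sA
    choose fB hfB using sB
    refine ⟨∑ w ∈ W1, (fA w + fB w), fun w hw => ?_⟩
    have h1 : fA w + fB w ≤ ∑ w ∈ W1, (fA w + fB w) :=
      Finset.single_le_sum (f := fun w => fA w + fB w) (fun _ _ => Nat.zero_le _) hw
    have h2 : (fA w : ℤ) + fB w ≤ ((∑ w ∈ W1, (fA w + fB w) : ℕ) : ℤ) := by exact_mod_cast h1
    refine ⟨fun x y hxy => ?_, fun x y hxy => ?_⟩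
    · have := hfA w x y hxy
      constructor <;> linarith [this.1, this.2, Int.natCast_nonneg (fB w)]
    · have := hfB w x y hxy
      constructor <;> linarith [this.1, this.2, Int.natCast_nonneg (fA w)]
  set IS : Finset ℤ := Icc (-(S : ℤ)) S with hIS
  set EA : ℤ → ℝ := fun w => ∑ x ∈ IS, ∑ y ∈ IS, A w x y ^ 2 with hEA
  set EB : ℤ → ℝ := fun w => ∑ x ∈ IS, ∑ y ∈ IS, B w x y ^ 2 with hEB
  have tot : ∀ (F : ℤ → ℤ → ℝ), (∀ x y, F x y ≠ 0 → |x| ≤ S ∧ |y| ≤ S) → ∀ X Y : Finset ℤ,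
      ∑ x ∈ X, ∑ y ∈ Y, F x y ^ 2 ≤ ∑ x ∈ IS, ∑ y ∈ IS, F x y ^ 2 := by
    intro F hF X Y
    have hm : ∀ x, |x| ≤ (S : ℤ) → x ∈ IS := fun x hx => by
      rw [hIS, Finset.mem_Icc]; exact abs_le.1 hx
    calc ∑ x ∈ X, ∑ y ∈ Y, F x y ^ 2 = ∑ z ∈ X ×ˢ Y, F z.1 z.2 ^ 2 := by
          rw [Finset.sum_product]
      _ = ∑ z ∈ (X ×ˢ Y).filter (fun z => F z.1 z.2 ≠ 0), F z.1 z.2 ^ 2 := by
          rw [Finset.sum_filter]
          refine Finset.sum_congr rfl fun z _ => ?_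
          by_cases hz : F z.1 z.2 = 0
          · simp [hz]
          · rw [if_pos hz]
      _ ≤ ∑ z ∈ IS ×ˢ IS, F z.1 z.2 ^ 2 := by
          refine Finset.sum_le_sum_of_subset_of_nonneg ?_ (fun _ _ _ => sq_nonneg _)
          intro z hz
          rw [Finset.mem_filter] at hz
          rw [Finset.mem_product]
          exact ⟨hm _ (hF _ _ hz.2).1, hm _ (hF _ _ hz.2).2⟩
      _ = _ := by rw [Finset.sum_product]
  set Lg : ℝ := 1 + Real.log (1 + HC ^ 2 * Ar0 * (HA ^ 2 / fa + HB ^ 2 / fb) / τ ^ 2) with hLg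
  have hLg0 : 0 ≤ Lg := by
    have : 0 ≤ Real.log (1 + HC ^ 2 * Ar0 * (HA ^ 2 / fa + HB ^ 2 / fb) / τ ^ 2) :=
      Real.log_nonneg (by
        have : 0 ≤ HC ^ 2 * Ar0 * (HA ^ 2 / fa + HB ^ 2 / fb) / τ ^ 2 := by positivity
        linarith)
    linarith
  have hEA0 : ∀ w, 0 ≤ EA w := fun w => Finset.sum_nonneg fun _ _ => Finset.sum_nonneg
    fun _ _ => sq_nonneg _
  have hEB0 : ∀ w, 0 ≤ EB w := fun w => Finset.sum_nonneg fun _ _ => Finset.sum_nonneg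
    fun _ _ => sq_nonneg _
  have one : ∀ w ∈ W1, Tw (Gm w) (A w) (B w) (C w) (J.1 + 1) L1 l w ≤
      K * Lg * (τ * √(EA w + fa) * √(EB w + fb)) := by
    intro w hw
    have h1 := hK l hl R J α β γ w x0 x1 y0 y1 (al w) hR hc (hal w) (A w) (B w) (C w) τ HA HB HC
      (EA w + fa) (EB w + fb) (sA w) (sB w) (sC w) hτ (by linarith [hEA0 w]) (by linarith [hEB0 w])
      (hA w) (hB w) (hC w)
      (fun X Y => (tot (A w) (hS w hw).1 X Y).trans (by simp only [hEA]; linarith))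
      (fun X Y => (tot (B w) (hS w hw).2 X Y).trans (by simp only [hEB]; linarith))
      (hop w) (Gm w) (hGm w) L1
    refine h1.trans (mul_le_mul_of_nonneg_right (mul_le_mul_of_nonneg_left ?_ hK0) (by positivity))
    have h2 : HA ^ 2 / (EA w + fa) ≤ HA ^ 2 / fa :=
      div_le_div_of_nonneg_left (sq_nonneg _) hfa (by linarith [hEA0 w])
    have h3 : HB ^ 2 / (EB w + fb) ≤ HB ^ 2 / fb :=
      div_le_div_of_nonneg_left (sq_nonneg _) hfb (by linarith [hEB0 w])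
    have h4 : HC ^ 2 * Ar0 * (HA ^ 2 / (EA w + fa) + HB ^ 2 / (EB w + fb)) / τ ^ 2 ≤
        HC ^ 2 * Ar0 * (HA ^ 2 / fa + HB ^ 2 / fb) / τ ^ 2 := by
      refine div_le_div_of_nonneg_right ?_ (by positivity)
      exact mul_le_mul_of_nonneg_left (add_le_add h2 h3) (by positivity)
    have h5 : 0 ≤ HC ^ 2 * Ar0 * (HA ^ 2 / (EA w + fa) + HB ^ 2 / (EB w + fb)) / τ ^ 2 := by
      have := hEA0 w
      have := hEB0 w
      positivity
    simp only [hLg]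
    have h6 := Real.log_le_log (by linarith) (by linarith : 1 + HC ^ 2 * Ar0 *
      (HA ^ 2 / (EA w + fa) + HB ^ 2 / (EB w + fb)) / τ ^ 2 ≤
        1 + HC ^ 2 * Ar0 * (HA ^ 2 / fa + HB ^ 2 / fb) / τ ^ 2)
    linarith
  have hzero : ∀ w ∈ Wf, w ∉ W1 → Tw (Gm w) (A w) (B w) (C w) (J.1 + 1) L1 l w = 0 := by
    intro w _ hw
    rcases h0 w hw with h | h
    · exact tw_zero (Lb3r_zero_A h)
    · exact tw_zero (Lb3r_zero_B h)
  have hTw0 : ∀ w, 0 ≤ Tw (Gm w) (A w) (B w) (C w) (J.1 + 1) L1 l w := by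
    intro w
    unfold Tw
    refine Finset.sum_nonneg fun m _ => mul_nonneg (by positivity) ?_
    refine Finset.sum_nonneg fun i _ => Finset.sum_nonneg fun p0 _ => Finset.sum_nonneg
      fun p1 _ => ?_
    split_ifs
    · exact abs_nonneg _
    · exact le_rfl
  calc ∑ w ∈ Wf, Tw (Gm w) (A w) (B w) (C w) (J.1 + 1) L1 l w
      = ∑ w ∈ Wf.filter (fun w => w ∈ W1), Tw (Gm w) (A w) (B w) (C w) (J.1 + 1) L1 l w := by
        rw [Finset.sum_filter]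
        refine Finset.sum_congr rfl fun w hw => ?_
        by_cases hw1 : w ∈ W1
        · rw [if_pos hw1]
        · rw [if_neg hw1, hzero w hw hw1]
    _ ≤ ∑ w ∈ W1, Tw (Gm w) (A w) (B w) (C w) (J.1 + 1) L1 l w :=
        Finset.sum_le_sum_of_subset_of_nonneg (fun w hw => (Finset.mem_filter.1 hw).2)
          (fun w _ _ => hTw0 w)
    _ ≤ ∑ w ∈ W1, K * Lg * (τ * √(EA w + fa) * √(EB w + fb)) := Finset.sum_le_sum one
    _ = K * Lg * (τ * ∑ w ∈ W1, √(EA w + fa) * √(EB w + fb)) := by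
        rw [Finset.mul_sum, Finset.mul_sum]
        refine Finset.sum_congr rfl fun w _ => by ring
    _ ≤ K * Lg * (τ * (√(SA + W1.card * fa) * √(SB + W1.card * fb))) := by
        refine mul_le_mul_of_nonneg_left (mul_le_mul_of_nonneg_left ?_ hτ.le) (by positivity)
        refine (Real.sum_sqrt_mul_sqrt_le W1 (fun w => by linarith [hEA0 w])
          (fun w => by linarith [hEB0 w])).trans ?_
        refine mul_le_mul (Real.sqrt_le_sqrt ?_) (Real.sqrt_le_sqrt ?_) (Real.sqrt_nonneg _)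
          (Real.sqrt_nonneg _)
        · rw [Finset.sum_add_distrib, Finset.sum_const, nsmul_eq_mul]
          linarith [eA IS IS]
        · rw [Finset.sum_add_distrib, Finset.sum_const, nsmul_eq_mul]
          linarith [eB IS IS]
    _ = _ := by ring

/-- `tw_le` without hypothesis -/
theorem tw_le' : ∃ K : ℝ, 0 ≤ K ∧ ∀ (l : ℤ), |l| ≤ 7 →
    ∀ (R : Finset Nd) (J : Nd) (α β γ w x0 x1 y0 y1 : ℤ) (al : ℕ → ℤ → ℤ → Prop),
    IsRegion R J → Cof α β γ → AlC R J α β γ w x0 x1 y0 y1 al →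
    ∀ (A B C : ℤ → ℤ → ℝ) (τ HA HB HC a2 b2 : ℝ), FS A → FS B → FS C →
    0 < τ → 0 < a2 → 0 < b2 →
    (∀ x y, |A x y| ≤ HA) → (∀ x y, |B x y| ≤ HB) → (∀ x y, |C x y| ≤ HC) →
    (∀ X Y : Finset ℤ, ∑ x ∈ X, ∑ y ∈ Y, A x y ^ 2 ≤ a2) →
    (∀ X Y : Finset ℤ, ∑ x ∈ X, ∑ y ∈ Y, B x y ^ 2 ≤ b2) →
    (∀ m q p, al m q p → OpZ C (2 ^ m) q p (2 ^ m * τ)) →
    ∀ (Gm : ℕ → ℤ → ℤ → ℤ → Prop), (∀ m ≤ J.1, ∀ p0 p1 p2, Gm m p0 p1 p2 →
      (∃ i j : ℕ, i < 2 ^ (m + 1) ∧ j < 2 ^ (m + 1) ∧ C (p2 + i) (p0 + j) ≠ 0) →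
      Al4Z al m p2 p0) →
    ∀ L1 : ℕ, Tw Gm A B C (J.1 + 1) L1 l w ≤
      K * (1 + Real.log (1 + HC ^ 2 * (((Ico x0 x1).card : ℝ) * len J) *
        (HA ^ 2 / a2 + HB ^ 2 / b2) / τ ^ 2)) * (τ * √a2 * √b2) :=
  tw_le KTx279.cornerZ

/-- `sum_tw` without hypothesis -/
theorem sum_tw' : ∃ K : ℝ, 0 ≤ K ∧ ∀ (l : ℤ), |l| ≤ 7 →
    ∀ (R : Finset Nd) (J : Nd) (α β γ x0 x1 y0 y1 : ℤ) (al : ℤ → ℕ → ℤ → ℤ → Prop),
    IsRegion R J → Cof α β γ → (∀ w, AlC R J α β γ w x0 x1 y0 y1 (al w)) →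
    ∀ (A B C : ℤ → ℤ → ℤ → ℝ) (τ HA HB HC fa fb SA SB : ℝ) (W1 : Finset ℤ),
    (∀ w, FS (A w)) → (∀ w, FS (B w)) → (∀ w, FS (C w)) →
    0 < τ → 0 < fa → 0 < fb →
    (∀ w x y, |A w x y| ≤ HA) → (∀ w x y, |B w x y| ≤ HB) → (∀ w x y, |C w x y| ≤ HC) →
    (∀ w, w ∉ W1 → (∀ x y, A w x y = 0) ∨ (∀ x y, B w x y = 0)) →
    (∀ X Y : Finset ℤ, ∑ w ∈ W1, ∑ x ∈ X, ∑ y ∈ Y, A w x y ^ 2 ≤ SA) →
    (∀ X Y : Finset ℤ, ∑ w ∈ W1, ∑ x ∈ X, ∑ y ∈ Y, B w x y ^ 2 ≤ SB) →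
    (∀ w m q p, al w m q p → OpZ (C w) (2 ^ m) q p (2 ^ m * τ)) →
    ∀ (Gm : ℤ → ℕ → ℤ → ℤ → ℤ → Prop), (∀ w, ∀ m ≤ J.1, ∀ p0 p1 p2, Gm w m p0 p1 p2 →
      (∃ i j : ℕ, i < 2 ^ (m + 1) ∧ j < 2 ^ (m + 1) ∧ C w (p2 + i) (p0 + j) ≠ 0) →
      Al4Z (al w) m p2 p0) →
    ∀ (Wf : Finset ℤ) (L1 : ℕ), ∑ w ∈ Wf, Tw (Gm w) (A w) (B w) (C w) (J.1 + 1) L1 l w ≤
      K * (1 + Real.log (1 + HC ^ 2 * (((Ico x0 x1).card : ℝ) * len J) *
        (HA ^ 2 / fa + HB ^ 2 / fb) / τ ^ 2)) *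
        (τ * √(SA + W1.card * fa) * √(SB + W1.card * fb)) :=
  sum_tw KTx279.cornerZ

/-! ### complex operator bounds -/

lemma pr_add (σ : Bool) (z z' : ℂ) : pr σ (z + z') = pr σ z + pr σ z' := by
  unfold pr; split_ifs <;> simp

lemma pr_sum {ι : Type*} (σ : Bool) (s : Finset ι) (f : ι → ℂ) :
    pr σ (∑ i ∈ s, f i) = ∑ i ∈ s, pr σ (f i) := by
  classical
  induction s using Finset.induction_on with
  | empty => simp [pr_zero]
  | insert a s ha ih => rw [Finset.sum_insert ha, Finset.sum_insert ha, pr_add, ih]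

lemma pr_real_mul (σ : Bool) (a b : ℝ) (z : ℂ) : pr σ ((a : ℂ) * z * (b : ℂ)) = a * pr σ z * b := by
  unfold pr
  split_ifs <;> simp [Complex.mul_re, Complex.mul_im]

/-- real and imaginary parts of a bounded kernel -/
theorem opZ_of_opB {K : ℤ → ℤ → ℂ} {N : ℕ} {q p : ℤ} {c : ℝ}
    (h : BadTx138.OpB K (Ico q (q + N)) (Ico p (p + N)) c) (σ : Bool) :
    OpZ (fun x y => pr σ (K x y)) N q p c := by
  intro f g
  have h1 := h (fun x => (f x : ℂ)) (fun y => (g y : ℂ))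
  have e1 : ∑ x ∈ Ico q (q + N), ∑ y ∈ Ico p (p + N), f x * pr σ (K x y) * g y =
      pr σ (∑ x ∈ Ico q (q + N), ∑ y ∈ Ico p (p + N), (f x : ℂ) * K x y * (g y : ℂ)) := by
    rw [pr_sum]
    refine Finset.sum_congr rfl fun x _ => ?_
    rw [pr_sum]
    exact Finset.sum_congr rfl fun y _ => (pr_real_mul σ _ _ _).symm
  rw [e1]
  have h2 : (pr σ (∑ x ∈ Ico q (q + N), ∑ y ∈ Ico p (p + N), (f x : ℂ) * K x y * (g y : ℂ))) ^ 2 ≤
      ‖∑ x ∈ Ico q (q + N), ∑ y ∈ Ico p (p + N), (f x : ℂ) * K x y * (g y : ℂ)‖ ^ 2 := by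
    rw [← sq_abs]
    exact pow_le_pow_left₀ (abs_nonneg _) (abs_pr_le σ _) 2
  refine h2.trans (h1.trans (le_of_eq ?_))
  simp

/-- real and imaginary parts of a bounded kernel, `OpS` form -/
theorem opB_of_opS {K : ℤ → ℤ → ℂ} {S S' : Finset ℤ} {c : ℝ} (h : ClW59.OpS S S' K c) :
    BadTx138.OpB K S S' c := by
  intro u v
  have h1 := h v
  have e1 : ∑ x ∈ S, ∑ y ∈ S', u x * K x y * v y = ∑ x ∈ S, u x * ∑ y ∈ S', K x y * v y := by
    refine Finset.sum_congr rfl fun x _ => ?_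
    rw [Finset.mul_sum]
    exact Finset.sum_congr rfl fun y _ => by ring
  rw [e1]
  have h2 : ‖∑ x ∈ S, u x * ∑ y ∈ S', K x y * v y‖ ≤
      ∑ x ∈ S, ‖u x‖ * ‖∑ y ∈ S', K x y * v y‖ :=
    (norm_sum_le _ _).trans (Finset.sum_le_sum fun x _ => (norm_mul _ _).le)
  have h3 : (∑ x ∈ S, ‖u x‖ * ‖∑ y ∈ S', K x y * v y‖) ^ 2 ≤
      (∑ x ∈ S, ‖u x‖ ^ 2) * ∑ x ∈ S, ‖∑ y ∈ S', K x y * v y‖ ^ 2 :=
    Finset.sum_mul_sq_le_sq_mul_sq S _ _
  calc ‖∑ x ∈ S, u x * ∑ y ∈ S', K x y * v y‖ ^ 2 ≤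
        (∑ x ∈ S, ‖u x‖ * ‖∑ y ∈ S', K x y * v y‖) ^ 2 := pow_le_pow_left₀ (norm_nonneg _) h2 2
    _ ≤ (∑ x ∈ S, ‖u x‖ ^ 2) * ∑ x ∈ S, ‖∑ y ∈ S', K x y * v y‖ ^ 2 := h3
    _ ≤ (∑ x ∈ S, ‖u x‖ ^ 2) * (c ^ 2 * ∑ y ∈ S', ‖v y‖ ^ 2) :=
        mul_le_mul_of_nonneg_left h1 (Finset.sum_nonneg fun _ _ => sq_nonneg _)
    _ = _ := by ring

theorem opZ_of_opS {K : ℤ → ℤ → ℂ} {N : ℕ} {q p : ℤ} {c : ℝ}
    (h : ClW59.OpS (Ico q (q + N)) (Ico p (p + N)) K c) (σ : Bool) :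
    OpZ (fun x y => pr σ (K x y)) N q p c := opZ_of_opB (opB_of_opS h) σ

end Crest.Agent.R079.TwLx253
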