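import Crest.Agent.R079.KLe_446
import Crest.Agent.R079.TwL_253

/-! R079, KILL LEMMA, assembly pieces (helper138, for 446's KLe/KLf):
(i) `hs_om`  : Hilbert–Schmidt norm of the frozen killer on a box all of whose shadows are in nodes of the
    level of the box; (ii) `op_om`, `opZ_om`; (iii) `rest_AB` : energies of the masked line letters
    `kA`, `kB` on the rest, in the coordinates of the letters. -/

set_option autoImplicit false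
set_option linter.unusedVariables false

namespace Crest.Agent.R079.KLrx138

open Finset Crest.Agent.R079.Grid Crest.Agent.R079.Glue Crest.Agent.R079.Growth
  Crest.Agent.R079.QRed Crest.Agent.R079.BadTx138 Crest.Agent.R079.KLx446
  Crest.Agent.R079.KLdx138

/-! ### (i), (ii) -/

variable {R : Finset Nd} {J : Nd} {K : Fn} {c : ℤ → ℤ → ℂ} {α β γ : ℤ} {A : ℝ}

/-- a row of an alive box -/
lemma row_om (hK : ∀ p ∈ R, av p K ≤ A) (hγ : γ ≠ 0) (hγ3 : |γ| ≤ 3) {m : ℕ} {η0 u : ℤ}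
    (h : ∀ y ∈ Ico u (u + 2 ^ m), η0 + γ * y ∈ Rm R m) :
    ∑ y ∈ Ico u (u + 2 ^ m), ‖K (η0 + γ * y)‖ ^ 2 ≤ 256 * 2 ^ m * A ^ 2 := by
  classical
  have hinj : Set.InjOn (fun y : ℤ => η0 + γ * y) (Ico u (u + 2 ^ m) : Finset ℤ) := by
    intro x _ y _ hxy
    have h1 : η0 + γ * x = η0 + γ * y := hxy
    have : γ * x = γ * y := by linarith
    exact mul_left_cancel₀ hγ this
  set l0 : ℤ := (η0 + γ * u - 3 * 2 ^ m) / 2 ^ (m + 7) with hl0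
  have e1 : ∑ y ∈ Ico u (u + 2 ^ m), ‖K (η0 + γ * y)‖ ^ 2 =
      ∑ z ∈ (Ico u (u + 2 ^ m)).image (fun y : ℤ => η0 + γ * y), ‖msk (Rm R m) K z‖ ^ 2 := by
    rw [Finset.sum_image hinj]
    refine Finset.sum_congr rfl fun y hy => ?_
    unfold msk
    rw [if_pos (h y hy)]
  have hsub : (Ico u (u + 2 ^ m)).image (fun y : ℤ => η0 + γ * y) ⊆
      (Icc l0 (l0 + 1)).biUnion fun l => dI (m + 7) l := by
    intro z hz
    rw [Finset.mem_image] at hz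
    obtain ⟨y, hy, rfl⟩ := hz
    rw [Finset.mem_Ico] at hy
    have hp : (0 : ℤ) < 2 ^ (m + 7) := by positivity
    have h1 : |γ * (y - u)| ≤ 3 * 2 ^ m := by
      rw [abs_mul]
      have h2 : |y - u| ≤ 2 ^ m := by
        rw [abs_of_nonneg (by linarith [hy.1])]
        linarith [hy.2]
      exact mul_le_mul hγ3 h2 (abs_nonneg _) (by norm_num)
    have h2 := abs_le.1 h1
    have e : η0 + γ * y = η0 + γ * u + γ * (y - u) := by ring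
    rw [Finset.mem_biUnion]
    refine ⟨(η0 + γ * y) / 2 ^ (m + 7), ?_, (Glue.mem_dI_iff _ _ _).2 rfl⟩
    rw [Finset.mem_Icc]
    constructor
    · rw [hl0]
      refine Int.ediv_le_ediv hp ?_
      rw [e]; linarith [h2.1]
    · have h9 : (η0 + γ * y) / 2 ^ (m + 7) ≤
          (η0 + γ * u - 3 * 2 ^ m + 1 * 2 ^ (m + 7)) / 2 ^ (m + 7) := by
        refine Int.ediv_le_ediv hp ?_
        have h3 : (2 : ℤ) ^ (m + 7) = 128 * 2 ^ m := by rw [pow_add]; ring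
        rw [e, h3]
        have : (0 : ℤ) < 2 ^ m := by positivity
        linarith [h2.2]
      rw [Int.add_mul_ediv_right _ _ hp.ne'] at h9
      exact h9
  rw [e1]
  refine (Finset.sum_le_sum_of_subset_of_nonneg hsub fun _ _ _ => by positivity).trans ?_
  refine (sum_biUnion_le' _ _ (fun y => ‖msk (Rm R m) K y‖ ^ 2) fun y => by positivity).trans ?_
  refine (Finset.sum_le_sum fun l _ => sum_msk_dI R m K A hK l).trans (le_of_eq ?_)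
  rw [Finset.sum_const, nsmul_eq_mul, Int.card_Icc,
    show l0 + 1 + 1 - l0 = ((2 : ℕ) : ℤ) by push_cast; ring, Int.toNat_natCast, pow_add]
  push_cast
  ring

/-- **(i)** -/
theorem hs_om (hC : Cof α β γ) (hK : ∀ p ∈ R, av p K ≤ A) (hc : ∀ x y, ‖c x y‖ ≤ 1) {w : ℤ} {m : ℕ}
    {q u : ℤ} (hOm : Om R α β γ w m q u) :
    ∑ x ∈ Ico q (q + 2 ^ m), ∑ y ∈ Ico u (u + 2 ^ m), ‖kw c K α β γ w x y‖ ^ 2 ≤
      256 * A ^ 2 * 4 ^ m := by
  have h1 : ∀ x ∈ Ico q (q + (2 : ℤ) ^ m), ∑ y ∈ Ico u (u + 2 ^ m), ‖kw c K α β γ w x y‖ ^ 2 ≤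
      256 * 2 ^ m * A ^ 2 := by
    intro x hx
    refine le_trans (Finset.sum_le_sum fun y _ => ?_)
      (row_om hK hC.γ0 hC.γ3 (η0 := α * w + β * x) (fun y hy => hOm x hx y hy))
    unfold kw
    rw [norm_mul, mul_pow]
    have h2 := pow_le_pow_left₀ (norm_nonneg _) (hc x y) 2
    rw [one_pow] at h2
    exact (mul_le_mul_of_nonneg_right h2 (sq_nonneg _)).trans (le_of_eq (one_mul _))
  refine (Finset.sum_le_sum h1).trans (le_of_eq ?_)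
  rw [Finset.sum_const, nsmul_eq_mul, Int.card_Ico,
    show q + (2 : ℤ) ^ m - q = ((2 ^ m : ℕ) : ℤ) by push_cast; ring, Int.toNat_natCast]
  push_cast
  have h4 : (4 : ℝ) ^ m = 2 ^ m * 2 ^ m := by rw [← mul_pow]; norm_num
  rw [h4]
  ring

/-- operator norm below the Hilbert–Schmidt norm -/
theorem opB_hs {K : ℤ → ℤ → ℂ} {I J : Finset ℤ} {t : ℝ}
    (h : ∑ x ∈ I, ∑ y ∈ J, ‖K x y‖ ^ 2 ≤ t ^ 2) : OpB K I J t := by
  intro u v
  have h1 : ‖∑ x ∈ I, ∑ y ∈ J, u x * K x y * v y‖ ≤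
      ∑ z ∈ I ×ˢ J, ‖K z.1 z.2‖ * (‖u z.1‖ * ‖v z.2‖) := by
    rw [Finset.sum_product]
    refine (norm_sum_le _ _).trans (Finset.sum_le_sum fun x _ => ?_)
    refine (norm_sum_le _ _).trans (Finset.sum_le_sum fun y _ => ?_)
    rw [norm_mul, norm_mul]
    exact le_of_eq (by ring)
  have h2 : (∑ z ∈ I ×ˢ J, ‖K z.1 z.2‖ * (‖u z.1‖ * ‖v z.2‖)) ^ 2 ≤
      (∑ z ∈ I ×ˢ J, ‖K z.1 z.2‖ ^ 2) * ∑ z ∈ I ×ˢ J, (‖u z.1‖ * ‖v z.2‖) ^ 2 :=
    Finset.sum_mul_sq_le_sq_mul_sq _ _ _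
  have h3 : ∑ z ∈ I ×ˢ J, (‖u z.1‖ * ‖v z.2‖) ^ 2 = (∑ x ∈ I, ‖u x‖ ^ 2) * ∑ y ∈ J, ‖v y‖ ^ 2 := by
    rw [Finset.sum_product, Finset.sum_mul_sum]
    exact Finset.sum_congr rfl fun x _ => Finset.sum_congr rfl fun y _ => mul_pow _ _ _
  have h4 : ∑ z ∈ I ×ˢ J, ‖K z.1 z.2‖ ^ 2 = ∑ x ∈ I, ∑ y ∈ J, ‖K x y‖ ^ 2 := Finset.sum_product _ _ _
  rw [h3, h4] at h2
  refine (pow_le_pow_left₀ (norm_nonneg _) h1 2).trans (h2.trans ?_)
  exact mul_le_mul_of_nonneg_right h (mul_nonneg (Finset.sum_nonneg fun _ _ => sq_nonneg _)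
    (Finset.sum_nonneg fun _ _ => sq_nonneg _))

/-- **(ii)** operator norm `16 A` side -/
theorem op_om (hC : Cof α β γ) (hK : ∀ p ∈ R, av p K ≤ A) (hc : ∀ x y, ‖c x y‖ ≤ 1) {w : ℤ} {m : ℕ}
    {q u : ℤ} (hOm : Om R α β γ w m q u) :
    OpB (kw c K α β γ w) (Ico q (q + 2 ^ m)) (Ico u (u + 2 ^ m)) (16 * A * 2 ^ m) := by
  refine opB_hs ((hs_om hC hK hc hOm).trans (le_of_eq ?_))
  have h4 : (4 : ℝ) ^ m = 2 ^ m * 2 ^ m := by rw [← mul_pow]; norm_num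
  rw [h4]
  ring

theorem opZ_om (hC : Cof α β γ) (hK : ∀ p ∈ R, av p K ≤ A) (hc : ∀ x y, ‖c x y‖ ≤ 1) {w : ℤ} {m : ℕ}
    {q u : ℤ} (hOm : Om R α β γ w m q u) (σ : Bool) :
    OpZ (fun x y => pr σ (kw c K α β γ w x y)) (2 ^ m) q u (2 ^ m * (16 * A)) := by
  have h := TwLx253.opZ_of_opB (N := 2 ^ m) (K := kw c K α β γ w) (q := q) (p := u)
    (c := 16 * A * 2 ^ m) (by
      have := op_om hC hK hc hOm
      push_cast
      exact this) σ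
  rw [mul_comm (16 * A)] at h
  exact h

/-! ### (iii) energies of the rest -/

/-- shadows of a zero sum point coincide -/
lemma sha_zero (k k0 k1 k2 : Fin 4) (w z0 z1 : ℤ) :
    sha k k2 k0 k1 w z0 z1 = sha k k1 k2 k0 w (-w - z0 - z1) z0 := by
  unfold sha; ring

lemma sha_zero' (k k0 k1 k2 : Fin 4) (w z1 z2 : ℤ) :
    sha k k0 k1 k2 w z1 z2 = sha k k1 k2 k0 w z2 (-w - z1 - z2) := by
  unfold sha; ring

open Classical in
/-- rest energy in face coordinates with an arbitrary position set, classical indicator -/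
theorem rest_face : ∃ C0 : ℝ, 0 ≤ C0 ∧ ∀ (R : Finset Nd) (J : Nd), Full R J →
    ∀ (c : ℤ → ℤ → ℂ) (K : Fn) (α β γ : ℤ), Cof α β γ → ∀ (s ε D : ℝ), 0 < ε → 0 ≤ D →
    ExD R c K α β γ s D → ∀ (th : ℤ → ℝ) (Ht : ℝ) (t1 : ℤ) (n : ℕ), (∀ z, 0 ≤ th z) → 1 ≤ Ht →
    (∀ z, th z ≤ Ht) → (∀ z, th z ≠ 0 → t1 ≤ z ∧ z < t1 + n) →
    ∀ (X : Fn) (A : ℝ), (∀ p ∈ R, av p X ≤ A) → ∀ (w0 : ℤ) (N : ℕ) (W1 : Finset ℤ),
    W1 ⊆ Ico w0 (w0 + N) → ∀ (Xf Yf : Finset ℤ),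
    ∑ w ∈ W1, ∑ x ∈ Xf, ∑ y ∈ Yf, (if RsP R J c K α β γ s ε w x y then
      th (-w - x - y) * ‖X (α * w + β * x + γ * y)‖ ^ 2 else 0) ≤
    C0 * A ^ 2 * (D / ε) * Ht ^ (1 / 3 : ℝ) * ((N + 2 ^ J.1) * 2 ^ J.1 *
      (∑ z ∈ Ico t1 (t1 + n), th z + n + 2 ^ J.1)) := by
  obtain ⟨C0, hC0, h⟩ := rest_energy
  refine ⟨C0, hC0, ?_⟩
  intro R J hR c K α β γ hC s ε D hε hD0 hD th Ht t1 n hth hHt hthH hsupp X A hX w0 N W1 hW Xf Yf
  refine le_trans ?_ (h R J hR c K α β γ hC s ε D hε hD0 hD th Ht t1 n hth hHt hthH hsupp X A hX w0 N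
    Xf Yf)
  refine (Finset.sum_le_sum_of_subset_of_nonneg hW fun w _ _ =>
    Finset.sum_nonneg fun x _ => Finset.sum_nonneg fun y _ => ?_).trans (le_of_eq ?_)
  · split_ifs
    · exact mul_nonneg (hth _) (sq_nonneg _)
    · exact le_rfl
  · rfl

open Classical in
/-- **(iii) ENERGIES OF THE MASKED LINE LETTERS ON THE REST.** -/
theorem rest_AB : ∃ C0 : ℝ, 0 ≤ C0 ∧ ∀ (k k0 k1 k2 : Fin 4), D4 k k0 k1 k2 →
    ∀ (R : Finset Nd) (J : Nd), Full R J →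
    ∀ (c : ℤ → ℤ → ℂ) (K : Fn) (s ε D : ℝ), 0 < ε → 0 ≤ D →
    ExD R c K (sl k - sl k1) (sl k2 - sl k1) (sl k0 - sl k1) s D →
    ∀ (th : ℤ → ℝ) (Ht Hf : ℝ) (t1 : ℤ) (n : ℕ), (∀ z, 0 ≤ th z) → 1 ≤ Ht → 0 ≤ Hf →
    (∀ z, th z ≤ Ht) → (∀ z, th z ≠ 0 → t1 ≤ z ∧ z < t1 + n) →
    ∀ (F : Fin 4 → Fn) (w0 : ℤ) (N : ℕ) (W1 : Finset ℤ), W1 ⊆ Ico w0 (w0 + N) →
    (∀ (T0 T1 : Finset ℤ) (a : ℤ → ℤ → ℂ) (A : ℝ), (∀ z0 z1, ‖a z0 z1‖ ^ 2 ≤ Hf * th z1) →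
      (∀ p ∈ R, av p (F k2) ≤ A) → ∀ (Xf Yf : Finset ℤ),
      ∑ w ∈ W1, ∑ z0 ∈ Xf, ∑ z1 ∈ Yf,
        (if RsP R J c K (sl k - sl k1) (sl k2 - sl k1) (sl k0 - sl k1) s ε w (-w - z0 - z1) z0 then
          ‖kA k k0 k1 k2 T0 T1 a F w z0 z1‖ ^ 2 else 0) ≤
      Hf * (C0 * A ^ 2 * (D / ε) * Ht ^ (1 / 3 : ℝ) * ((N + 2 ^ J.1) * 2 ^ J.1 *
        (∑ z ∈ Ico t1 (t1 + n), th z + n + 2 ^ J.1)))) ∧
    (∀ (T1 T2 : Finset ℤ) (b : ℤ → ℤ → ℂ) (A : ℝ), (∀ z1 z2, ‖b z1 z2‖ ^ 2 ≤ Hf * th z1) →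
      (∀ p ∈ R, av p (F k0) ≤ A) → ∀ (Xf Yf : Finset ℤ),
      ∑ w ∈ W1, ∑ z1 ∈ Xf, ∑ z2 ∈ Yf,
        (if RsP R J c K (sl k - sl k1) (sl k2 - sl k1) (sl k0 - sl k1) s ε w z2 (-w - z1 - z2) then
          ‖kB k k0 k1 k2 T1 T2 b F w z1 z2‖ ^ 2 else 0) ≤
      Hf * (C0 * A ^ 2 * (D / ε) * Ht ^ (1 / 3 : ℝ) * ((N + 2 ^ J.1) * 2 ^ J.1 *
        (∑ z ∈ Ico t1 (t1 + n), th z + n + 2 ^ J.1)))) := by
  obtain ⟨C0, hC0, h⟩ := rest_face
  refine ⟨C0, hC0, ?_⟩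
  intro k k0 k1 k2 hk R J hR c K s ε D hε hD0 hD th Ht Hf t1 n hth hHt hHf hthH hsupp F w0 N W1 hW
  have hC := hk.cof
  set α := sl k - sl k1 with hα
  set β := sl k2 - sl k1 with hβ
  set γ := sl k0 - sl k1 with hγ
  constructor
  · intro T0 T1 a A ha hA Xf Yf
    set G : ℤ → ℤ → ℤ → ℝ := fun w x y => if RsP R J c K α β γ s ε w x y then
      th (-w - x - y) * ‖F k2 (α * w + β * x + γ * y)‖ ^ 2 else 0 with hG
    have hG0 : ∀ w x y, 0 ≤ G w x y := by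
      intro w x y
      rw [hG]; simp only
      split_ifs
      · exact mul_nonneg (hth _) (sq_nonneg _)
      · exact le_rfl
    set P : Finset ℤ := ((W1 ×ˢ Xf) ×ˢ Yf).image (fun t => -t.1.1 - t.1.2 - t.2) with hP
    have h1 : ∀ w ∈ W1, ∀ z0 ∈ Xf, ∀ z1 ∈ Yf,
        (if RsP R J c K α β γ s ε w (-w - z0 - z1) z0 then
          ‖kA k k0 k1 k2 T0 T1 a F w z0 z1‖ ^ 2 else 0) ≤ Hf * G w (-w - z0 - z1) z0 := by
      intro w _ z0 _ z1 _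
      rw [hG]; simp only
      split_ifs with hr
      swap
      · rw [mul_zero]
      rw [show -w - (-w - z0 - z1) - z0 = z1 by ring]
      have e : sha k k1 k2 k0 w (-w - z0 - z1) z0 = α * w + β * (-w - z0 - z1) + γ * z0 := rfl
      rw [← e, ← sha_zero]
      unfold kA fr4
      split_ifs
      · rw [norm_mul, mul_pow, ← mul_assoc]
        exact mul_le_mul_of_nonneg_right (ha z0 z1) (sq_nonneg _)
      · rw [norm_zero, zero_pow (by norm_num)]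
        exact mul_nonneg hHf (mul_nonneg (hth _) (sq_nonneg _))
    have h2 : ∀ w ∈ W1, ∀ z0 ∈ Xf, ∑ z1 ∈ Yf, Hf * G w (-w - z0 - z1) z0 ≤
        Hf * ∑ x ∈ P, G w x z0 := by
      intro w hw z0 hz0
      rw [← Finset.mul_sum]
      refine mul_le_mul_of_nonneg_left ?_ hHf
      have hinj : Set.InjOn (fun z1 : ℤ => -w - z0 - z1) (Yf : Set ℤ) := by
        intro z _ z' _ hz
        have : -w - z0 - z = -w - z0 - z' := hz
        linarith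
      rw [← Finset.sum_image (f := fun x => G w x z0) hinj]
      refine Finset.sum_le_sum_of_subset_of_nonneg ?_ fun _ _ _ => hG0 _ _ _
      intro x hx
      rw [Finset.mem_image] at hx
      obtain ⟨z1, hz1, rfl⟩ := hx
      rw [hP, Finset.mem_image]
      exact ⟨((w, z0), z1), Finset.mem_product.2 ⟨Finset.mem_product.2 ⟨hw, hz0⟩, hz1⟩, rfl⟩
    refine (Finset.sum_le_sum fun w hw => Finset.sum_le_sum fun z0 hz0 =>
      (Finset.sum_le_sum fun z1 hz1 => h1 w hw z0 hz0 z1 hz1).trans (h2 w hw z0 hz0)).trans ?_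
    have h3 := h R J hR c K α β γ hC s ε D hε hD0 hD th Ht t1 n hth hHt hthH hsupp (F k2) A hA w0 N W1 hW
      P Xf
    refine le_trans (le_of_eq ?_) (mul_le_mul_of_nonneg_left h3 hHf)
    rw [Finset.mul_sum]
    refine Finset.sum_congr rfl fun w _ => ?_
    rw [← Finset.mul_sum, Finset.sum_comm]
  · intro T1 T2 b A hb hA Xf Yf
    set G : ℤ → ℤ → ℤ → ℝ := fun w x y => if RsP R J c K α β γ s ε w x y then
      th (-w - x - y) * ‖F k0 (α * w + β * x + γ * y)‖ ^ 2 else 0 with hG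
    have hG0 : ∀ w x y, 0 ≤ G w x y := by
      intro w x y
      rw [hG]; simp only
      split_ifs
      · exact mul_nonneg (hth _) (sq_nonneg _)
      · exact le_rfl
    set P : Finset ℤ := ((W1 ×ˢ Xf) ×ˢ Yf).image (fun t => -t.1.1 - t.1.2 - t.2) with hP
    have h1 : ∀ w ∈ W1, ∀ z1 ∈ Xf, ∀ z2 ∈ Yf,
        (if RsP R J c K α β γ s ε w z2 (-w - z1 - z2) then
          ‖kB k k0 k1 k2 T1 T2 b F w z1 z2‖ ^ 2 else 0) ≤ Hf * G w z2 (-w - z1 - z2) := by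
      intro w _ z1 _ z2 _
      rw [hG]; simp only
      split_ifs with hr
      swap
      · rw [mul_zero]
      rw [show -w - z2 - (-w - z1 - z2) = z1 by ring]
      have e : sha k k1 k2 k0 w z2 (-w - z1 - z2) = α * w + β * z2 + γ * (-w - z1 - z2) := rfl
      rw [← e, ← sha_zero']
      unfold kB fr4
      split_ifs
      · rw [norm_mul, mul_pow, ← mul_assoc]
        exact mul_le_mul_of_nonneg_right (hb z1 z2) (sq_nonneg _)
      · rw [norm_zero, zero_pow (by norm_num)]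
        exact mul_nonneg hHf (mul_nonneg (hth _) (sq_nonneg _))
    have h2 : ∀ w ∈ W1, ∀ z2 ∈ Yf, ∑ z1 ∈ Xf, Hf * G w z2 (-w - z1 - z2) ≤
        Hf * ∑ y ∈ P, G w z2 y := by
      intro w hw z2 hz2
      rw [← Finset.mul_sum]
      refine mul_le_mul_of_nonneg_left ?_ hHf
      have hinj : Set.InjOn (fun z1 : ℤ => -w - z1 - z2) (Xf : Set ℤ) := by
        intro z _ z' _ hz
        have : -w - z - z2 = -w - z' - z2 := hz
        linarith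
      rw [← Finset.sum_image (f := fun y => G w z2 y) hinj]
      refine Finset.sum_le_sum_of_subset_of_nonneg ?_ fun _ _ _ => hG0 _ _ _
      intro x hx
      rw [Finset.mem_image] at hx
      obtain ⟨z1, hz1, rfl⟩ := hx
      rw [hP, Finset.mem_image]
      exact ⟨((w, z1), z2), Finset.mem_product.2 ⟨Finset.mem_product.2 ⟨hw, hz1⟩, hz2⟩, rfl⟩
    have h4 : ∀ w ∈ W1, ∑ z1 ∈ Xf, ∑ z2 ∈ Yf,
        (if RsP R J c K α β γ s ε w z2 (-w - z1 - z2) then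
          ‖kB k k0 k1 k2 T1 T2 b F w z1 z2‖ ^ 2 else 0) ≤ Hf * ∑ z2 ∈ Yf, ∑ y ∈ P, G w z2 y := by
      intro w hw
      rw [Finset.sum_comm, Finset.mul_sum]
      exact Finset.sum_le_sum fun z2 hz2 =>
        (Finset.sum_le_sum fun z1 hz1 => h1 w hw z1 hz1 z2 hz2).trans (h2 w hw z2 hz2)
    refine (Finset.sum_le_sum h4).trans ?_
    rw [← Finset.mul_sum]
    exact mul_le_mul_of_nonneg_left (h R J hR c K α β γ hC s ε D hε hD0 hD th Ht t1 n hth hHt hthH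
      hsupp (F k0) A hA w0 N W1 hW Yf P) hHf

end Crest.Agent.R079.KLrx138
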