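import Crest.Agent.R079.OpKb_276
import Crest.Agent.R079.KLd_276

/-! R079 (helper276): **OpKill**: ONE op-atom of arbitrary side, position and special vertex in the frozen
slot, from the kill lemma `KillN` for atoms of side `2^I.1` with special vertex = killer slot and bounded
letters. -/

set_option autoImplicit false

namespace Crest.Agent.R079.OpK276

open Finset Crest.Agent.R079.Grid Crest.Agent.R079.Growth Crest.Agent.R079.QRed
  Crest.Agent.R079.Qe292 Crest.Agent.R079.TRec Crest.Agent.R079.T6ax252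
  Crest.Agent.R079.TFrz679 Crest.Agent.R079.OLevSw Crest.Agent.R079.OpS276

/-- `L¹` norm of a unit op-atom -/
theorem l1_opA {k j e e' : Fin 4} {n : ℕ} {Ht Hf : ℝ} {m : ℤ → ℤ → ℂ} {U V : Fin n → Fin n → ℂ}
    {α : Fin n → ℝ} (hD : SD n Ht Hf m U V α) (w q u : ℤ) (S : Finset ℤ) :
    ∑ y ∈ S, ‖opA k j e e' n w q u m U V y‖ ≤ (n : ℝ) ^ 3 := by
  have hn0 : (0 : ℝ) ≤ n := Nat.cast_nonneg n
  set L : Fin n → Fin n → Fin n → ℤ := fun c i i' => (sl j - sl k) * (w + ((c : ℕ) : ℤ)) +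
    (sl e - sl k) * (q + ((i : ℕ) : ℤ)) + (sl e' - sl k) * (u + ((i' : ℕ) : ℤ)) with hL
  have h1 : ∀ y, ‖opA k j e e' n w q u m U V y‖ ≤
      ∑ c : Fin n, ∑ i : Fin n, ∑ i' : Fin n, if L c i i' = y then ‖U c i‖ * ‖V c i'‖ else 0 := by
    intro y
    unfold opA
    refine (norm_sum_le _ _).trans (Finset.sum_le_sum fun c _ => ?_)
    refine (norm_sum_le _ _).trans (Finset.sum_le_sum fun i _ => ?_)
    refine (norm_sum_le _ _).trans (Finset.sum_le_sum fun i' _ => ?_)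
    simp only [hL]
    split_ifs
    · rw [norm_mul, norm_mul]
      have := hD.m1 (q + ((i : ℕ) : ℤ)) (u + ((i' : ℕ) : ℤ))
      calc ‖m (q + ((i : ℕ) : ℤ)) (u + ((i' : ℕ) : ℤ))‖ * ‖U c i‖ * ‖V c i'‖ ≤
          1 * ‖U c i‖ * ‖V c i'‖ := by gcongr
        _ = _ := by rw [one_mul]
    · simp
  have h2 : ∑ y ∈ S, ‖opA k j e e' n w q u m U V y‖ ≤
      ∑ c : Fin n, ∑ i : Fin n, ∑ i' : Fin n, ‖U c i‖ * ‖V c i'‖ := by
    refine (Finset.sum_le_sum fun y _ => h1 y).trans ?_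
    rw [Finset.sum_comm]
    refine Finset.sum_le_sum fun c _ => ?_
    rw [Finset.sum_comm]
    refine Finset.sum_le_sum fun i _ => ?_
    rw [Finset.sum_comm]
    refine Finset.sum_le_sum fun i' _ => ?_
    rw [Finset.sum_ite_eq]
    split_ifs
    · exact le_rfl
    · positivity
  refine h2.trans ?_
  have h3 : ∀ (W : Fin n → Fin n → ℂ), (∀ c, ∑ i, ‖W c i‖ ^ 2 ≤ n * α c) → ∀ c,
      ∑ i, ‖W c i‖ ≤ n * Real.sqrt (α c) := by
    intro W hW c
    have h4 : (∑ i, ‖W c i‖) ^ 2 ≤ (n : ℝ) * ∑ i, ‖W c i‖ ^ 2 := by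
      have := sq_sum_le_card_mul_sum_sq (s := (Finset.univ : Finset (Fin n)))
        (f := fun i => ‖W c i‖)
      simpa using this
    have h5 : (∑ i, ‖W c i‖) ^ 2 ≤ (n * Real.sqrt (α c)) ^ 2 := by
      rw [mul_pow, Real.sq_sqrt (hD.α0 c)]
      refine h4.trans ((mul_le_mul_of_nonneg_left (hW c) hn0).trans (le_of_eq ?_))
      ring
    exact (abs_le_of_sq_le_sq' h5 (by positivity)).2
  calc ∑ c : Fin n, ∑ i : Fin n, ∑ i' : Fin n, ‖U c i‖ * ‖V c i'‖ =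
      ∑ c : Fin n, (∑ i, ‖U c i‖) * ∑ i', ‖V c i'‖ := by
        refine Finset.sum_congr rfl fun c _ => ?_
        rw [Finset.sum_mul_sum]
    _ ≤ ∑ c : Fin n, (n * Real.sqrt (α c)) * (n * Real.sqrt (α c)) :=
        Finset.sum_le_sum fun c _ => mul_le_mul (h3 U hD.U2 c) (h3 V hD.V2 c)
          (Finset.sum_nonneg fun _ _ => norm_nonneg _) (by positivity)
    _ = (n : ℝ) ^ 2 * ∑ c, α c := by
        rw [Finset.mul_sum]
        refine Finset.sum_congr rfl fun c _ => ?_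
        have := Real.sq_sqrt (hD.α0 c)
        calc (n * Real.sqrt (α c)) * (n * Real.sqrt (α c)) =
            (n : ℝ) ^ 2 * Real.sqrt (α c) ^ 2 := by ring
          _ = _ := by rw [this]
    _ ≤ (n : ℝ) ^ 2 * n := mul_le_mul_of_nonneg_left hD.α1 (by positivity)
    _ = _ := by ring

/-- caps may be raised -/
theorem IsOpS.mono {k j e e' : Fin 4} {n : ℕ} {Ht Hf Ht' Hf' : ℝ} {φ : Fn}
    (h : IsOpS k j e e' n Ht Hf φ) (h1 : Ht ≤ Ht') (h2 : Hf ≤ Hf') :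
    IsOpS k j e e' n Ht' Hf' φ := by
  obtain ⟨w, q, u, m, U, V, α, hD, rfl⟩ := h
  exact ⟨w, q, u, m, U, V, α, ⟨hD.m1, hD.α0, hD.U2, hD.V2, hD.α1, fun c => (hD.αH c).trans h1,
    fun c i => (hD.UH c i).trans (mul_le_mul_of_nonneg_right h2 (hD.α0 c)),
    fun c i => (hD.VH c i).trans (mul_le_mul_of_nonneg_right h2 (hD.α0 c))⟩, rfl⟩

theorem exists_two : ∀ {i m : Fin 4}, i ≠ m → ∃ e1 e2 : Fin 4,
    m ≠ i ∧ m ≠ e1 ∧ m ≠ e2 ∧ i ≠ e1 ∧ i ≠ e2 ∧ e1 ≠ e2 := by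
  intro i m
  revert i m
  decide

/-- **the kill lemma** for ONE atom of side `2^I.1`, special vertex = killer slot `m`, all other letters of
height `≤ H` -/
def KillN (Φ : ℝ → ℝ → ℝ → ℝ → ℝ → ℝ) : Prop :=
  ∀ (i m e e' : Fin 4), i ≠ 3 → m ≠ 3 → Dst4 i m e e' → ∀ bb ε, Adm bb ε → ∀ W I, Full W I →
    ∀ (F : Fin 4 → Fn) (s D Ht Hf H : ℝ), 0 < s → s ≤ 1 → 0 < D → D ≤ 1 → 1 ≤ Ht → 1 ≤ Hf → 1 ≤ H →
    ∀ ψ, IsOpS i m e e' (2 ^ I.1) Ht Hf ψ → (∀ y ∈ iv I, F i y = ψ y / ((2 ^ I.1 : ℕ) : ℂ) ^ 2) →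
    (∀ j, j ≠ i → ∀ p ∈ W, av p (F j) ≤ 1) → (∀ j, j ≠ i → ∀ y, ‖F j y‖ ≤ H) →
    (∀ c : ℤ → ℤ → ℂ, (∀ z z', ‖c z z'‖ ≤ 1) →
      KLx446.ExD W c (F m) (sl i - sl m) (sl e - sl m) (sl e' - sl m) s D) →
    ‖TR bb ε W F‖ ≤ Φ s D Ht Hf H * len I

theorem len_eq (I : Nd) : len I = 128 * ((2 ^ I.1 : ℕ) : ℝ) := by
  unfold len
  push_cast
  rw [pow_add]
  ring

/-- an atom of arbitrary side, special vertex = killer slot: from `KillN` (bounded letters) -/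
theorem one_side {Φ : ℝ → ℝ → ℝ → ℝ → ℝ → ℝ} (hKN : KillN Φ) {k q3 : ℝ} (hk : 0 < k) (hkq : 2 + k ≤ q3)
    {N : ℕ} {B : ℝ} (hB : 0 ≤ B) (hBN : BN k q3 N B) {bb : ℤ} {ε : ℕ → ℤ → ℂ} (hA : Adm bb ε)
    {W : Finset Nd} {I : Nd} (hW : Full W I) (hI : I.1 ≤ N) {i m e e' : Fin 4} (hi3 : i ≠ 3)
    (hm3 : m ≠ 3) (hd : Dst4 i m e e') {F : Fin 4 → Fn}
    (hF : ∀ j, j ≠ i → ∀ p ∈ W, aq (qx k q3 j) p (F j) ≤ 1) {s D Ht Hf H Ht' Hf' τ : ℝ} (hs : 0 < s)
    (hs1 : s ≤ 1) (hD : 0 < D) (hD1 : D ≤ 1) (hHf : 1 ≤ Hf) (hHt : 1 ≤ Ht) (hH : 1 ≤ H)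
    (hτ : 0 < τ) (hτ1 : τ ≤ 1) (hHt' : (Hf + 1) * Ht + 1 ≤ Ht') (hHt2 : τ⁻¹ * Ht ≤ Ht')
    (hHf' : τ⁻¹ * Hf ≤ Hf') {n : ℕ} {ψ : Fn} (hψ : IsOpS i m e e' n Ht Hf ψ)
    (hFi : ∀ y ∈ iv I, F i y = ψ y / (n : ℂ) ^ 2) (hFH : ∀ j, j ≠ i → ∀ y, ‖F j y‖ ≤ H)
    (hE : ∀ c : ℤ → ℤ → ℂ, (∀ z z', ‖c z z'‖ ≤ 1) →
      KLx446.ExD W c (F m) (sl i - sl m) (sl e - sl m) (sl e' - sl m) s D) :
    ‖TR bb ε W F‖ ≤ (959 * Φ s D Ht' Hf' H + 3 * B * τ ^ (1 / (2 * (2 + k)))) * len I := by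
  have hW' : ∀ p ∈ W, iv p ⊆ iv I := fun p hp => hW.reg.1 p hp
  have hL := Growth.len_pos I
  have hq3 : 0 < q3 := by linarith
  have hτi : 1 ≤ τ⁻¹ := (one_le_inv₀ hτ).2 hτ1
  have hHf0 : 0 ≤ Hf := by linarith
  have hHf1 : 1 ≤ Hf' := by nlinarith
  have hHff : Hf ≤ Hf' := by nlinarith
  have hHt1 : 1 ≤ Ht' := by nlinarith
  have hp0 : 0 ≤ τ ^ (1 / (2 * (2 + k))) := Real.rpow_nonneg hτ.le _
  have hFav : ∀ j, j ≠ i → ∀ p ∈ W, av p (F j) ≤ 1 := fun j hj p hp =>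
    (TAsm398.av_le_aq (two_lt_qx hk (by linarith) j).le p (F j)).trans (hF j hj p hp)
  -- nonnegativity of `Φ`
  have hkill : ∀ ψ' : Fn, IsOpS i m e e' (2 ^ I.1) Ht' Hf' ψ' →
      ‖TR bb ε W (Function.update F i (fun y => ψ' y / ((2 ^ I.1 : ℕ) : ℂ) ^ 2))‖ ≤
        Φ s D Ht' Hf' H * len I := by
    intro ψ' hψ'
    have hmi : m ≠ i := hd.jk
    refine hKN i m e e' hi3 hm3 hd bb ε hA W I hW _ s D Ht' Hf' H hs hs1 hD hD1 hHt1 hHf1 hH ψ' hψ'
      (fun y _ => by rw [Function.update_self]) (fun j hj p hp => by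
        rw [Function.update_of_ne hj]; exact hFav j hj p hp) (fun j hj y => by
        rw [Function.update_of_ne hj]; exact hFH j hj y) (fun c hc => by
        rw [Function.update_of_ne hmi]; exact hE c hc)
  have hzero : IsOpS i m e e' (2 ^ I.1) Ht' Hf' (fun _ => 0) := by
    refine ⟨0, 0, 0, fun _ _ => 0, fun _ _ => 0, fun _ _ => 0, fun _ => 0,
      ⟨fun _ _ => by simp, fun _ => le_rfl, fun _ => by simp, fun _ => by simp, by simp,
        fun _ => by linarith, fun _ _ => by simp, fun _ _ => by simp⟩, ?_⟩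
    funext y
    unfold opA
    simp
  have hΦ0 : 0 ≤ Φ s D Ht' Hf' H := by
    have h1 := (norm_nonneg _).trans (hkill _ hzero)
    by_contra hcon
    push Not at hcon
    have := mul_neg_of_neg_of_pos hcon hL
    linarith
  have hN0 : 0 < 2 ^ I.1 := by positivity
  rcases le_or_gt (2 ^ I.1) n with hn | hn
  · -- large side
    obtain ⟨L, μ, ψ', hμ0, hψ', hμ1, hval⟩ := restr_opS hd hN0 hn (J := I) (by rw [len_eq])
      hHf0 hψ
    have h1 := TR_comb (ε := ε) hA hW' F i (fun l y => ψ' l y / ((2 ^ I.1 : ℕ) : ℂ) ^ 2)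
      (fun l => ((μ l : ℝ) : ℂ)) (fun y hy => by rw [hFi y hy]; exact hval y hy)
    rw [h1]
    calc ‖∑ l, ((μ l : ℝ) : ℂ) * TR bb ε W
          (Function.update F i (fun y => ψ' l y / ((2 ^ I.1 : ℕ) : ℂ) ^ 2))‖ ≤
        ∑ l, μ l * (Φ s D Ht' Hf' H * len I) := by
          refine (norm_sum_le _ _).trans (Finset.sum_le_sum fun l _ => ?_)
          rw [norm_mul, Complex.norm_real, Real.norm_of_nonneg (hμ0 l)]
          exact mul_le_mul_of_nonneg_left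
            (hkill _ (IsOpS.mono (hψ' l) hHt' hHff)) (hμ0 l)
      _ = (∑ l, μ l) * (Φ s D Ht' Hf' H * len I) := by rw [Finset.sum_mul]
      _ ≤ 959 * (Φ s D Ht' Hf' H * len I) :=
          mul_le_mul_of_nonneg_right hμ1 (by positivity)
      _ ≤ _ := by
          have : 0 ≤ 3 * B * τ ^ (1 / (2 * (2 + k))) * len I := by positivity
          linarith
  · rcases Nat.eq_zero_or_pos n with hn0 | hn0
    · -- no atom
      subst hn0
      have h1 := TR_comb (ε := ε) hA hW' F i (n := 0) (fun _ _ => 0) (fun _ => 0) (fun y hy => by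
        rw [hFi y hy]; simp)
      rw [h1]
      simp only [Finset.univ_eq_empty, Finset.sum_empty, norm_zero]
      positivity
    · have hnr : (0 : ℝ) < n := by exact_mod_cast hn0
      rcases le_or_gt (τ * (2 ^ I.1 : ℕ)) (n : ℝ) with hnt | hnt
      · -- comparable side
        obtain ⟨ψ', hψ', hval⟩ := emb_opS hn0 hn.le hHf0 hψ
        have hr : ((2 ^ I.1 : ℕ) : ℝ) / n ≤ τ⁻¹ := by
          rw [div_le_iff₀ hnr, inv_mul_eq_div, le_div_iff₀ hτ]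
          linarith
        have h1 := TR_scale (ε := ε) hA hW' F i (fun y => ψ' y / ((2 ^ I.1 : ℕ) : ℂ) ^ 2) 1
          (fun y hy => by rw [hFi y hy, one_mul]; exact hval y)
        rw [h1, one_mul]
        refine (hkill _ (IsOpS.mono hψ' ((mul_le_mul_of_nonneg_right hr (by linarith)).trans hHt2)
          ((mul_le_mul_of_nonneg_right hr hHf0).trans hHf'))).trans ?_
        have h2 : 0 ≤ 3 * B * τ ^ (1 / (2 * (2 + k))) * len I := by positivity
        have h3 : 0 ≤ Φ s D Ht' Hf' H * len I := by positivity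
        linarith
      · -- small side
        obtain ⟨w, q, u, m', U, V, α, hSD, rfl⟩ := hψ
        have hsup : ∀ y ∈ iv I, ‖F i y‖ ≤ 1 := by
          intro y hy
          rw [hFi y hy, norm_div, norm_pow, Complex.norm_natCast, div_le_one (by positivity)]
          exact sup_opA hd hSD w q u y
        have hl1 : ∑ y ∈ iv I, ‖F i y‖ ≤ 1 * τ * len I := by
          have h1 : ∑ y ∈ iv I, ‖F i y‖ = (∑ y ∈ iv I, ‖opA i m e e' n w q u m' U V y‖) / n ^ 2 := by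
            rw [Finset.sum_div]
            refine Finset.sum_congr rfl fun y hy => ?_
            rw [hFi y hy, norm_div, norm_pow, Complex.norm_natCast]
          rw [h1, div_le_iff₀ (by positivity)]
          refine (l1_opA hSD w q u (iv I)).trans ?_
          rw [len_eq]
          have h2 : (n : ℝ) ≤ 1 * τ * (128 * ((2 ^ I.1 : ℕ) : ℝ)) := by
            have : 0 ≤ τ * ((2 ^ I.1 : ℕ) : ℝ) := by positivity
            linarith
          calc (n : ℝ) ^ 3 = n * (n : ℝ) ^ 2 := by ring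
            _ ≤ _ := mul_le_mul_of_nonneg_right h2 (by positivity)
        have h1 := smallL1_B hk hq3 hB hBN hA hW hI hi3 hF one_pos hτ hτ1 hsup hl1
        refine h1.trans ?_
        have h3 : 0 ≤ 959 * Φ s D Ht' Hf' H * len I := by positivity
        linarith

/-- **one atom of arbitrary side and special vertex**, letters bounded -/
theorem one_atom {Φ : ℝ → ℝ → ℝ → ℝ → ℝ → ℝ} (hKN : KillN Φ) {k q3 : ℝ} (hk : 0 < k) (hkq : 2 + k ≤ q3)
    {N : ℕ} {B : ℝ} (hB : 0 ≤ B) (hBN : BN k q3 N B) {bb : ℤ} {ε : ℕ → ℤ → ℂ} (hA : Adm bb ε)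
    {W : Finset Nd} {I : Nd} (hW : Full W I) (hI : I.1 ≤ N) {i m : Fin 4} (hi3 : i ≠ 3)
    (hm3 : m ≠ 3) (him : i ≠ m) {F : Fin 4 → Fn}
    (hF : ∀ j, j ≠ i → ∀ p ∈ W, aq (qx k q3 j) p (F j) ≤ 1) {s D Ht Hf H Ht' Hf' τ : ℝ} (hs : 0 < s)
    (hs1 : s ≤ 1) (hD : 0 < D) (hD1 : D ≤ 1) (hHf : 1 ≤ Hf) (hHt : 1 ≤ Ht) (hH : 1 ≤ H)
    (hτ : 0 < τ) (hτ1 : τ ≤ 1) (hHt' : (Hf + 1) * Ht + 1 ≤ Ht') (hHt2 : τ⁻¹ * Ht ≤ Ht')
    (hHf' : τ⁻¹ * Hf ≤ Hf') {n : ℕ} {j e e' : Fin 4} (hd : Dst4 i j e e') {ψ : Fn}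
    (hψ : IsOpS i j e e' n Ht Hf ψ)
    (hFi : ∀ y ∈ iv I, F i y = ψ y / (n : ℂ) ^ 2) (hFH : ∀ j, j ≠ i → ∀ y, ‖F j y‖ ≤ H)
    (hE : ∀ e1 e2 : Fin 4, Dst4 i m e1 e2 → ∀ c : ℤ → ℤ → ℂ, (∀ z z', ‖c z z'‖ ≤ 1) →
      KLx446.ExD W c (F m) (sl i - sl m) (sl e1 - sl m) (sl e2 - sl m) s D) :
    ‖TR bb ε W F‖ ≤ 324 * (959 * Φ s D Ht' Hf' H + 3 * B * τ ^ (1 / (2 * (2 + k)))) * len I := by
  have hW' : ∀ p ∈ W, iv p ⊆ iv I := fun p hp => hW.reg.1 p hp
  have hL := Growth.len_pos I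
  -- the two other slots
  obtain ⟨e1, e2, hd'⟩ : ∃ e1 e2 : Fin 4, Dst4 i m e1 e2 := by
    obtain ⟨e1, e2, h1, h2, h3, h4, h5, h6⟩ := exists_two him
    exact ⟨e1, e2, h1, h2, h3, h4, h5, h6⟩
  rcases Nat.eq_zero_or_pos n with hn0 | hn0
  · subst hn0
    have h1 := one_side hKN hk hkq hB hBN hA hW hI hi3 hm3 hd' (F := F) hF hs hs1 hD hD1 hHf hHt
      hH hτ hτ1 hHt' hHt2 hHf' (n := 0) (ψ := fun _ => 0)
      ⟨0, 0, 0, fun _ _ => 0, fun _ _ => 0, fun _ _ => 0, fun _ => 0,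
        ⟨fun _ _ => by simp, fun _ => le_rfl, fun _ => by simp, fun _ => by simp, by simp,
          fun _ => by linarith, fun _ _ => by simp, fun _ _ => by simp⟩, by
            funext y; unfold opA; simp⟩ (fun y hy => by rw [hFi y hy]; simp) hFH
      (hE e1 e2 hd')
    refine h1.trans ?_
    have h2 := (norm_nonneg _).trans h1
    linarith
  · obtain ⟨M, ψ', hM, hψ', hsum⟩ := isOpS_any hd.jk (Ne.symm hd.ke) (Ne.symm hd.ke') hd.je hd.je'
      hd.ee' hn0 (by linarith : (0 : ℝ) ≤ Hf) hψ m e1 e2 hd'.jk (Ne.symm hd'.ke) (Ne.symm hd'.ke')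
      hd'.je hd'.je' hd'.ee'
    set R := (959 * Φ s D Ht' Hf' H + 3 * B * τ ^ (1 / (2 * (2 + k)))) * len I with hR
    have h1 : ∀ l, ‖TR bb ε W (Function.update F i (fun y => ψ' l y / (n : ℂ) ^ 2))‖ ≤ R := by
      intro l
      have hmi : m ≠ i := hd'.jk
      refine one_side hKN hk hkq hB hBN hA hW hI hi3 hm3 hd' (fun j hj p hp => by
        rw [Function.update_of_ne hj]; exact hF j hj p hp) hs hs1 hD hD1 hHf hHt hH hτ hτ1 hHt'
        hHt2 hHf' (hψ' l) (fun y _ => by rw [Function.update_self]) (fun j hj y => by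
        rw [Function.update_of_ne hj]; exact hFH j hj y) (by
        rw [Function.update_of_ne hmi]; exact hE e1 e2 hd')
    have hR0 : 0 ≤ R := by
      have h2 := one_side hKN hk hkq hB hBN hA hW hI hi3 hm3 hd' (F := Function.update F i 0)
        (fun j hj p hp => by rw [Function.update_of_ne hj]; exact hF j hj p hp) hs hs1 hD hD1 hHf
        hHt hH hτ hτ1 hHt' hHt2 hHf' (n := 0) (ψ := fun _ => 0)
        ⟨0, 0, 0, fun _ _ => 0, fun _ _ => 0, fun _ _ => 0, fun _ => 0,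
          ⟨fun _ _ => by simp, fun _ => le_rfl, fun _ => by simp, fun _ => by simp, by simp,
            fun _ => by linarith, fun _ _ => by simp, fun _ _ => by simp⟩, by
              funext y; unfold opA; simp⟩ (fun y _ => by rw [Function.update_self]; simp)
        (fun j hj y => by rw [Function.update_of_ne hj]; exact hFH j hj y) (by
          rw [Function.update_of_ne hd'.jk]; exact hE e1 e2 hd')
      exact (norm_nonneg _).trans h2
    have h3 := TR_comb (ε := ε) hA hW' F i (fun l y => ψ' l y / (n : ℂ) ^ 2) (fun _ => 1)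
      (fun y hy => by
        rw [hFi y hy, hsum]
        simp only [one_mul]
        rw [Finset.sum_div])
    rw [h3]
    calc ‖∑ l, (1 : ℂ) * TR bb ε W (Function.update F i (fun y => ψ' l y / (n : ℂ) ^ 2))‖ ≤
        ∑ _l : Fin M, R := by
          refine (norm_sum_le _ _).trans (Finset.sum_le_sum fun l _ => ?_)
          rw [one_mul]
          exact h1 l
      _ = M * R := by simp
      _ ≤ 324 * R := by
          have : (M : ℝ) ≤ 324 := by exact_mod_cast hM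
          exact mul_le_mul_of_nonneg_right this hR0
      _ = _ := by rw [hR]; ring

end Crest.Agent.R079.OpK276
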