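import Crest.Agent.R079.KLf_446
import Crest.Agent.R079.KLr_138
import Crest.Agent.R079.KLx_279
import Crest.Agent.R079.OpKc_276

/-! R079, KILL LEMMA, final part (helper446): **`killN`** = 276's `KillN Φ` with
`Φ = C ((1 + log (1 + H⁴ Hf Ht / s²)) s + (1 + log (1 + 5 H⁴ Ht / D)) Hf D Ht^(1/3) / s²)`. -/

set_option autoImplicit false

namespace Crest.Agent.R079.KLx446

open Finset Crest.Agent.R079.Grid Crest.Agent.R079.Glue Crest.Agent.R079.Growth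
  Crest.Agent.R079.QRed Crest.Agent.R079.BadTx138 Crest.Agent.R079.KC996 Crest.Agent.R079.KLdx138
  Crest.Agent.R079.TwLx253 Crest.Agent.R079.KLX279

lemma av_cutJ {J p : Nd} (h : iv p ⊆ iv J) (F : Fn) : av p (cutJ J F) = av p F := by
  unfold av av2
  congr 2
  refine Finset.sum_congr rfl fun y hy => ?_
  rw [cutJ_on (h hy)]

open Classical in
/-- masked gauge -/
noncomputable def mg (T T' : Finset ℤ) (c : ℤ → ℤ → ℂ) (x y : ℤ) : ℂ :=
  if x ∈ T ∧ y ∈ T' then c x y else 0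

lemma mg_le {T T' : Finset ℤ} {c : ℤ → ℤ → ℂ} (h : ∀ x y, ‖c x y‖ ≤ 1) (x y : ℤ) :
    ‖mg T T' c x y‖ ≤ 1 := by
  unfold mg
  split_ifs
  · exact h x y
  · simp

lemma fr4_eq_kw (T T' : Finset ℤ) (c : ℤ → ℤ → ℂ) (K : Fn) (α β γ w x y : ℤ) :
    fr4 T T' c K α β γ w x y = kw (mg T T' c) K α β γ w x y := by
  unfold fr4 kw mg
  split_ifs <;> simp

/-- the main part: the words of one atom -/
theorem kill_words : ∃ C : ℝ, 0 ≤ C ∧ ∀ (k k0 k1 k2 : Fin 4), D4 k k0 k1 k2 →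
    ∀ (R : Finset Nd) (J : Nd), Full R J → ∀ (F : Fin 4 → Fn) (s D Ht Hf H : ℝ),
    0 < s → s ≤ 1 → 0 < D → D ≤ 1 → 1 ≤ Ht → 1 ≤ Hf → 1 ≤ H →
    (∀ j, j ≠ k → ∀ p ∈ R, av p (F j) ≤ 1) → (∀ j, j ≠ k → ∀ y, ‖F j y‖ ≤ H) →
    ∀ (T0 T1 T2 : Finset ℤ) (a b c : ℤ → ℤ → ℂ) (th : ℤ → ℝ),
    OpK (2 ^ J.1) Ht Hf T0 T1 T2 a b c th →
    ExD R (mg T2 T0 c) (F k1) (sl k - sl k1) (sl k2 - sl k1) (sl k0 - sl k1) s D →
    ∀ l : ℤ, |l| ≤ 7 → ∀ (σ0 σ1 σ2 : Bool) (Wf : Finset ℤ) (L1 : ℕ),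
      ∑ w ∈ Wf, Tw (fun m' p0 p1 p2 => Gd k k0 k1 k2 R m' w p0 p1 p2)
        (fun z z' => pr σ0 (fr4 T0 T1 a (cutJ J (F k2)) (sl k - sl k2) (sl k0 - sl k2)
          (sl k1 - sl k2) w z z'))
        (fun z z' => pr σ1 (fr4 T1 T2 b (cutJ J (F k0)) (sl k - sl k0) (sl k1 - sl k0)
          (sl k2 - sl k0) w z z'))
        (fun z z' => pr σ2 (fr4 T2 T0 c (cutJ J (F k1)) (sl k - sl k1) (sl k2 - sl k1)
          (sl k0 - sl k1) w z z')) (J.1 + 1) L1 l w ≤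
      C * (((1 + Real.log (1 + H ^ 4 * Hf * Ht / s ^ 2)) * s +
        (1 + Real.log (1 + 5 * H ^ 4 * Ht / D)) * (Hf * D * Ht ^ (1 / 3 : ℝ) / s ^ 2)) *
        ((2 : ℝ) ^ J.1) ^ 3) := by
  classical
  obtain ⟨K1, hK1, hgood⟩ := good_words
  obtain ⟨K2, hK2, hrest⟩ := rest_words
  obtain ⟨C0, hC0, hAB⟩ := KLrx138.rest_AB
  refine ⟨K1 * (251 * 399) + K2 * (16 * (816 * C0 + 271)), by positivity, ?_⟩
  intro k k0 k1 k2 h4 R J hR F s D Ht Hf H hs hs1 hD hD1 hHt hHf hH hav hFH T0 T1 T2 a b c th hO hE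
    l hl σ0 σ1 σ2 Wf L1
  set α := sl k - sl k1 with hα
  set β := sl k2 - sl k1 with hβ
  set γ := sl k0 - sl k1 with hγ
  have hsub : ∀ p ∈ R, iv p ⊆ iv J := fun p hp => hR.reg.1 p hp
  have hJR : J ∈ R := hR.top
  set n : ℝ := (2 : ℝ) ^ J.1 with hn
  have hn0 : 0 < n := by positivity
  have hlen : len J = 128 * n := by unfold len; rw [pow_add]; norm_num; ring
  set F' : Fin 4 → Fn := fun j => cutJ J (F j) with hF'
  have hF'av : ∀ j, j ≠ k → ∀ p ∈ R, av p (F' j) ≤ 1 := fun j hj p hp => by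
    simp only [hF']
    rw [av_cutJ (hsub p hp)]
    exact hav j hj p hp
  have hF'H : ∀ j, j ≠ k → ∀ y, ‖F' j y‖ ≤ H := fun j hj y => norm_cutJ_le.trans (hFH j hj y)
  have hF'0 : ∀ j, ∀ y, y ∉ iv J → F' j y = 0 := fun j y hy => cutJ_off hy
  set c' := mg T2 T0 c with hc'
  have hE' : ExD R c' (F' k1) α β γ s D := exD_congr (fun p hp y hy => by
    simp only [hF']
    rw [cutJ_on (hsub p hp hy)]) hE
  set A : ℤ → ℤ → ℤ → ℝ := fun w z z' => pr σ0 (fr4 T0 T1 a (F' k2) (sl k - sl k2) (sl k0 - sl k2)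
          (sl k1 - sl k2) w z z') with hA
  set B : ℤ → ℤ → ℤ → ℝ := fun w z z' => pr σ1 (fr4 T1 T2 b (F' k0) (sl k - sl k0) (sl k1 - sl k0)
          (sl k2 - sl k0) w z z') with hB
  obtain ⟨q0, hq0⟩ := hO.i0
  obtain ⟨q1, hq1⟩ := hO.i1
  obtain ⟨q2, hq2⟩ := hO.i2
  -- supports
  have hcs : ∀ x y, c' x y ≠ 0 → q2 ≤ x ∧ x < q2 + 2 ^ J.1 ∧ q0 ≤ y ∧ y < q0 + 2 ^ J.1 := by
    intro x y h
    rw [hc'] at h
    unfold mg at h
    by_cases hm : x ∈ T2 ∧ y ∈ T0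
    · have h1 := hm.1
      have h2 := hm.2
      rw [hq2, Finset.mem_Ico] at h1
      rw [hq0, Finset.mem_Ico] at h2
      push_cast at h1 h2
      exact ⟨h1.1, h1.2, h2.1, h2.2⟩
    · rw [if_neg hm] at h
      exact absurd rfl h
  have hc1 : ∀ x y, ‖c' x y‖ ≤ 1 := mg_le hO.c1
  have hprz : ∀ σ : Bool, pr σ (0 : ℂ) = 0 := fun σ => by unfold pr; split_ifs <;> simp
  have hAfs : ∀ w, FS (A w) := fun w => fs_of_mem (T := T0) (T' := T1) fun x y hxy => by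
    refine supp_line (a := a) (F := F' k2) (al := sl k - sl k2) (be := sl k0 - sl k2)
      (ga := sl k1 - sl k2) (w := w) fun h0 => hxy ?_
    simp only [hA]
    rw [h0, hprz]
  have hBfs : ∀ w, FS (B w) := fun w => fs_of_mem (T := T1) (T' := T2) fun x y hxy => by
    refine supp_line (a := b) (F := F' k0) (al := sl k - sl k0) (be := sl k1 - sl k0)
      (ga := sl k2 - sl k0) (w := w) fun h0 => hxy ?_
    simp only [hB]
    rw [h0, hprz]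
  -- sup
  have hH0 : 0 ≤ H := by linarith
  have hHf0 : 0 ≤ Hf := by linarith
  set HA : ℝ := √(Hf * Ht) * H with hHA
  have hHA2 : HA ^ 2 = H ^ 2 * Hf * Ht := by
    rw [hHA, mul_pow, Real.sq_sqrt (by positivity)]; ring
  have hAs : ∀ w x y, |A w x y| ≤ HA := fun w x y =>
    (abs_pr_le _ _).trans (sup_line (Real.sqrt_nonneg _) hH0
      (fun z _ z' _ => Real.le_sqrt_of_sq_le (hO.a_sup hHf0 z z')) (hF'H k2 h4.h2.symm) _ _ _)
  have hBs : ∀ w x y, |B w x y| ≤ HA := fun w x y =>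
    (abs_pr_le _ _).trans (sup_line (Real.sqrt_nonneg _) hH0
      (fun z _ z' _ => Real.le_sqrt_of_sq_le (hO.b_sup hHf0 z z')) (hF'H k0 h4.h0.symm) _ _ _)
  -- frozen values
  obtain ⟨w0, hw0⟩ := fr4_w (T := T0) (T' := T1) (a := a) (F := F' k2) (J := J)
    (α := sl k - sl k2) (β := sl k0 - sl k2) (γ := sl k1 - sl k2) (hF'0 k2)
    ((sl_facts _ _).1 h4.h2) (sl_facts _ _).2 (sl_facts _ _).2 (t := q0) (t' := q1)
    (by rw [hq0]; push_cast; exact le_rfl) (by rw [hq1]; push_cast; exact le_rfl)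
  set W1 : Finset ℤ := Ico w0 (w0 + ((271 * 2 ^ J.1 : ℕ) : ℤ)) with hW1
  have hW1c : (W1.card : ℝ) = 271 * n := by
    rw [hW1, Int.card_Ico, add_sub_cancel_left, Int.toNat_natCast]
    push_cast
    rfl
  have h0 : ∀ w, w ∉ W1 → (∀ x y, A w x y = 0) ∨ (∀ x y, B w x y = 0) := fun w hw =>
    Or.inl fun x y => by
      simp only [hA]
      rw [hw0 w hw, hprz]
  -- energies
  have hn2 : ((2 ^ J.1 : ℕ) : ℝ) = n := by push_cast; rfl
  have hXe : ∀ j, j ≠ k → ∑ y ∈ iv J, ‖F' j y‖ ^ 2 ≤ 128 * n := fun j hj => by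
    refine (sum_sq_av (hF'av j hj J hJR)).trans (le_of_eq ?_)
    rw [hlen]; ring
  have hEA : ∀ X Y : Finset ℤ, ∑ w ∈ W1, ∑ x ∈ X, ∑ y ∈ Y, A w x y ^ 2 ≤ 128 * n ^ 3 := fun X Y => by
    refine (en_line_pr (T := T0) (T' := T1) (a := a) (be := sl k0 - sl k2) (ga := sl k1 - sl k2)
      ((sl_facts _ _).1 h4.h2) (hF'0 k2) σ0 W1 X Y).trans ?_
    have h1 := hO.a_all
    rw [hn2] at h1
    calc _ ≤ n ^ 2 * (128 * n) := mul_le_mul h1 (hXe k2 h4.h2.symm)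
          (Finset.sum_nonneg fun _ _ => sq_nonneg _) (by positivity)
      _ = _ := by ring
  have hEB : ∀ X Y : Finset ℤ, ∑ w ∈ W1, ∑ x ∈ X, ∑ y ∈ Y, B w x y ^ 2 ≤ 128 * n ^ 3 := fun X Y => by
    refine (en_line_pr (T := T1) (T' := T2) (a := b) (be := sl k1 - sl k0) (ga := sl k2 - sl k0)
      ((sl_facts _ _).1 h4.h0) (hF'0 k0) σ1 W1 X Y).trans ?_
    have h1 := hO.b_all
    rw [hn2] at h1
    calc _ ≤ n ^ 2 * (128 * n) := mul_le_mul h1 (hXe k0 h4.h0.symm)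
          (Finset.sum_nonneg fun _ _ => sq_nonneg _) (by positivity)
      _ = _ := by ring
  have hcard : ((Ico (q2 - 2 ^ (J.1 + 1)) (q2 + 2 ^ J.1 + 2 ^ (J.1 + 1))).card : ℝ) = 5 * n := by
    rw [Int.card_Ico, show q2 + 2 ^ J.1 + 2 ^ (J.1 + 1) - (q2 - 2 ^ (J.1 + 1)) =
      ((5 * 2 ^ J.1 : ℕ) : ℤ) by push_cast; rw [pow_succ]; ring, Int.toNat_natCast]
    push_cast
    rfl
  -- the killer
  have hCeq : ∀ w, (fun z z' => pr σ2 (fr4 T2 T0 c (F' k1) α β γ w z z')) =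
      fun z z' => pr σ2 (kw c' (F' k1) α β γ w z z') := fun w => by
    funext z z'
    rw [fr4_eq_kw]
  -- GOOD
  have hG : ∑ w ∈ Wf, Tw (fun m p0 p1 p2 => Gd k k0 k1 k2 R m w p0 p1 p2 ∧
      GoodB R J c' (F' k1) α β γ s (s ^ 2) w m p0 p2) (A w) (B w)
      (fun z z' => pr σ2 (kw c' (F' k1) α β γ w z z')) (J.1 + 1) L1 l w ≤
      K1 * (1 + Real.log (1 + H ^ 4 * Hf * Ht / s ^ 2)) * (251 * s * (399 * n ^ 3)) := by
    have hτ : 81 * s + 170 * 1 * √(s ^ 2) = 251 * s := by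
      rw [Real.sqrt_sq hs.le]; ring
    have h1 := hgood l hl k k0 k1 k2 h4 R J hR c' (F' k1) q2 (q2 + 2 ^ J.1) q0 (q0 + 2 ^ J.1) hc1
      hcs s (s ^ 2) 1 hs.le (sq_nonneg _) zero_le_one (by rw [hτ]; positivity)
      (hF'av k1 h4.h1.symm) H (hF'H k1 h4.h1.symm) σ2 A B HA HA (n ^ 2) (n ^ 2) (128 * n ^ 3)
      (128 * n ^ 3) W1 hAfs hBfs (by positivity) (by positivity) hAs hBs h0 hEA hEB Wf L1
    refine h1.trans ?_
    rw [hτ, hcard, hW1c, hlen, hHA2]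
    have e1 : 128 * n ^ 3 + 271 * n * n ^ 2 = 399 * n ^ 3 := by ring
    rw [e1]
    have e2 : 251 * s * √(399 * n ^ 3) * √(399 * n ^ 3) = 251 * s * (399 * n ^ 3) := by
      rw [mul_assoc, Real.mul_self_sqrt (by positivity)]
    rw [e2]
    refine mul_le_mul_of_nonneg_right ?_ (by positivity)
    refine mul_le_mul_of_nonneg_left ?_ hK1
    refine add_le_add le_rfl (Real.log_le_log (by positivity) ?_)
    refine add_le_add le_rfl ?_
    have e3 : H ^ 2 * (5 * n * (128 * n)) * (H ^ 2 * Hf * Ht / n ^ 2 + H ^ 2 * Hf * Ht / n ^ 2) /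
        (251 * s) ^ 2 = (1280 / 63001) * (H ^ 4 * Hf * Ht / s ^ 2) := by
      field_simp
      ring
    rw [e3]
    have h5 : 0 ≤ H ^ 4 * Hf * Ht / s ^ 2 := by positivity
    linarith
  -- REST
  set ρ : ℝ := Hf * D * Ht ^ (1 / 3 : ℝ) / s ^ 2 with hρ
  have hHt3 : 1 ≤ Ht ^ (1 / 3 : ℝ) := Real.one_le_rpow hHt (by norm_num)
  have hρ0 : 0 < ρ := by positivity
  have hAB' := hAB k k0 k1 k2 h4 R J hR c' (F' k1) s (s ^ 2) D (by positivity) hD.le hE' th Ht Hf q1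
    (2 ^ J.1) hO.th0 hHt hHf0 hO.thH (fun z hz => by
      by_contra hcon
      refine hz (hO.ths z fun hm => hcon ?_)
      rw [hq1, Finset.mem_Ico] at hm
      exact hm) F' w0 (271 * 2 ^ J.1) W1 le_rfl
  have hbd : Hf * (C0 * 1 ^ 2 * (D / s ^ 2) * Ht ^ (1 / 3 : ℝ) *
      ((((271 * 2 ^ J.1 : ℕ) : ℝ) + 2 ^ J.1) * 2 ^ J.1 *
      (∑ z ∈ Ico q1 (q1 + ((2 ^ J.1 : ℕ) : ℤ)), th z + ((2 ^ J.1 : ℕ) : ℝ) + 2 ^ J.1))) ≤
      816 * C0 * ρ * n ^ 3 := by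
    have h1 : ∑ z ∈ Ico q1 (q1 + ((2 ^ J.1 : ℕ) : ℤ)), th z ≤ n := by
      have := hO.thS
      rw [hq1, hn2] at this
      exact this
    have e1 : ((271 * 2 ^ J.1 : ℕ) : ℝ) = 271 * n := by push_cast; rfl
    rw [e1, hn2, ← hn]
    have h2 : (271 * n + n) * n * (∑ z ∈ Ico q1 (q1 + ((2 ^ J.1 : ℕ) : ℤ)), th z + n + n) ≤
        816 * n ^ 3 := by
      calc _ ≤ (271 * n + n) * n * (n + n + n) := by
            refine mul_le_mul_of_nonneg_left ?_ (by positivity)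
            linarith
        _ = _ := by ring
    calc _ ≤ Hf * (C0 * 1 ^ 2 * (D / s ^ 2) * Ht ^ (1 / 3 : ℝ) * (816 * n ^ 3)) := by
          refine mul_le_mul_of_nonneg_left ?_ hHf0
          exact mul_le_mul_of_nonneg_left h2 (by positivity)
      _ = _ := by rw [hρ]; ring
  have hRA : ∀ X Y : Finset ℤ, ∑ w ∈ W1, ∑ x ∈ X, ∑ y ∈ Y,
      (if RsP R J c' (F' k1) α β γ s (s ^ 2) w (-w - x - y) x then A w x y ^ 2 else 0) ≤
      816 * C0 * ρ * n ^ 3 := by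
    intro X Y
    refine le_trans ?_ ((hAB'.1 T0 T1 a 1 hO.aH (hF'av k2 h4.h2.symm) X Y).trans hbd)
    refine Finset.sum_le_sum fun w _ => Finset.sum_le_sum fun x _ => Finset.sum_le_sum fun y _ => ?_
    split_ifs
    · rw [← sq_abs]
      exact pow_le_pow_left₀ (abs_nonneg _) (abs_pr_le _ _) 2
    · exact le_rfl
  have hRB : ∀ X Y : Finset ℤ, ∑ w ∈ W1, ∑ x ∈ X, ∑ y ∈ Y,
      (if RsP R J c' (F' k1) α β γ s (s ^ 2) w y (-w - x - y) then B w x y ^ 2 else 0) ≤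
      816 * C0 * ρ * n ^ 3 := by
    intro X Y
    refine le_trans ?_ ((hAB'.2 T1 T2 b 1 hO.bH (hF'av k0 h4.h0.symm) X Y).trans hbd)
    refine Finset.sum_le_sum fun w _ => Finset.sum_le_sum fun x _ => Finset.sum_le_sum fun y _ => ?_
    split_ifs
    · rw [← sq_abs]
      exact pow_le_pow_left₀ (abs_nonneg _) (abs_pr_le _ _) 2
    · exact le_rfl
  have hRr : ∑ w ∈ Wf, Tw (fun m p0 p1 p2 => Gd k k0 k1 k2 R m w p0 p1 p2 ∧
      ¬ GoodB R J c' (F' k1) α β γ s (s ^ 2) w m p0 p2) (A w) (B w)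
      (fun z z' => pr σ2 (kw c' (F' k1) α β γ w z z')) (J.1 + 1) L1 l w ≤
      K2 * (1 + Real.log (1 + 5 * H ^ 4 * Ht / D)) * (16 * ((816 * C0 + 271) * ρ * n ^ 3)) := by
    have h1 := hrest l hl k k0 k1 k2 h4 R J hR c' (F' k1) q2 (q2 + 2 ^ J.1) q0 (q0 + 2 ^ J.1) hc1
      hcs s (s ^ 2) 16 (by norm_num) (fun w m q u hOm => by
        have := KLrx138.op_om h4.cof (hF'av k1 h4.h1.symm) hc1 hOm
        rw [mul_one] at this
        exact this) H (hF'H k1 h4.h1.symm) σ2 A B HA HA (ρ * n ^ 2) (ρ * n ^ 2)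
      (816 * C0 * ρ * n ^ 3) (816 * C0 * ρ * n ^ 3) W1 hAfs hBfs (by positivity) (by positivity)
      hAs hBs h0 hRA hRB Wf L1
    refine h1.trans ?_
    rw [hcard, hW1c, hlen, hHA2]
    have e1 : 816 * C0 * ρ * n ^ 3 + 271 * n * (ρ * n ^ 2) = (816 * C0 + 271) * ρ * n ^ 3 := by ring
    rw [e1]
    have e2 : 16 * √((816 * C0 + 271) * ρ * n ^ 3) * √((816 * C0 + 271) * ρ * n ^ 3) =
        16 * ((816 * C0 + 271) * ρ * n ^ 3) := by
      rw [mul_assoc, Real.mul_self_sqrt (by positivity)]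
    rw [e2]
    refine mul_le_mul_of_nonneg_right ?_ (by positivity)
    refine mul_le_mul_of_nonneg_left ?_ hK2
    refine add_le_add le_rfl (Real.log_le_log (by positivity) ?_)
    refine add_le_add le_rfl ?_
    have e3 : H ^ 2 * (5 * n * (128 * n)) * (H ^ 2 * Hf * Ht / (ρ * n ^ 2) +
        H ^ 2 * Hf * Ht / (ρ * n ^ 2)) / 16 ^ 2 = 5 * H ^ 4 * (Hf * Ht / ρ) := by
      field_simp
      ring
    rw [e3, show 5 * H ^ 4 * Ht / D = 5 * H ^ 4 * (Ht / D) by ring]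
    refine mul_le_mul_of_nonneg_left ?_ (by positivity)
    rw [div_le_div_iff₀ hρ0 hD]
    -- `Hf Ht D ≤ Ht ρ`
    have h5 : Hf * D ≤ ρ := by
      rw [hρ, le_div_iff₀ (by positivity)]
      calc Hf * D * s ^ 2 ≤ Hf * D * 1 := by
            refine mul_le_mul_of_nonneg_left ?_ (by positivity)
            exact pow_le_one₀ hs.le hs1
        _ ≤ Hf * D * Ht ^ (1 / 3 : ℝ) := mul_le_mul_of_nonneg_left hHt3 (by positivity)
    calc Hf * Ht * D = Ht * (Hf * D) := by ring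
      _ ≤ Ht * ρ := mul_le_mul_of_nonneg_left h5 (by linarith)
  -- sum
  have hsplit : ∑ w ∈ Wf, Tw (fun m' p0 p1 p2 => Gd k k0 k1 k2 R m' w p0 p1 p2) (A w) (B w)
      (fun z z' => pr σ2 (fr4 T2 T0 c (F' k1) α β γ w z z')) (J.1 + 1) L1 l w ≤
      K1 * (1 + Real.log (1 + H ^ 4 * Hf * Ht / s ^ 2)) * (251 * s * (399 * n ^ 3)) +
      K2 * (1 + Real.log (1 + 5 * H ^ 4 * Ht / D)) * (16 * ((816 * C0 + 271) * ρ * n ^ 3)) := by
    refine le_trans ?_ (add_le_add hG hRr)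
    rw [← Finset.sum_add_distrib]
    refine Finset.sum_le_sum fun w _ => ?_
    rw [hCeq w]
    refine Tw_split _ _ _ _ _ _ _ fun m p0 p1 p2 hg => ?_
    by_cases hgd : GoodB R J c' (F' k1) α β γ s (s ^ 2) w m p0 p2
    · exact Or.inl ⟨hg, hgd⟩
    · exact Or.inr ⟨hg, hgd⟩
  refine hsplit.trans ?_
  have hl1 : 0 ≤ Real.log (1 + H ^ 4 * Hf * Ht / s ^ 2) := Real.log_nonneg (by
    have : 0 ≤ H ^ 4 * Hf * Ht / s ^ 2 := by positivity
    linarith)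
  have hl2 : 0 ≤ Real.log (1 + 5 * H ^ 4 * Ht / D) := Real.log_nonneg (by
    have : 0 ≤ 5 * H ^ 4 * Ht / D := by positivity
    linarith)
  set La := 1 + Real.log (1 + H ^ 4 * Hf * Ht / s ^ 2) with hLa
  set Lb := 1 + Real.log (1 + 5 * H ^ 4 * Ht / D) with hLb
  have hLa0 : 0 ≤ La := by linarith
  have hLb0 : 0 ≤ Lb := by linarith
  have t1 : 0 ≤ K1 * (251 * 399) * (Lb * ρ * n ^ 3) := by positivity
  have t2 : 0 ≤ K2 * (16 * (816 * C0 + 271)) * (La * s * n ^ 3) := by positivity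
  nlinarith [t1, t2]

/-- **THE KILL LEMMA** in 276's literal -/
theorem killN : ∃ C : ℝ, 0 ≤ C ∧ OpK276.KillN (fun s D Ht Hf H =>
    C * ((1 + Real.log (1 + H ^ 4 * Hf * Ht / s ^ 2)) * s +
      (1 + Real.log (1 + 5 * H ^ 4 * Ht / D)) * (Hf * D * Ht ^ (1 / 3 : ℝ) / s ^ 2))) := by
  obtain ⟨C, hC, hmain⟩ := kill_words
  refine ⟨C / 16, by positivity, ?_⟩
  intro i m e e' hi hm hd bb ε hA W I hW F s D Ht Hf H hs hs1 hD hD1 hHt hHf hH ψ hψ hFi hav hFH hE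
  set n : ℝ := (2 : ℝ) ^ I.1 with hn
  have hn0 : 0 < n := by positivity
  have hlen : len I = 128 * n := by unfold len; rw [pow_add]; norm_num; ring
  set Q : ℝ := (1 + Real.log (1 + H ^ 4 * Hf * Ht / s ^ 2)) * s +
      (1 + Real.log (1 + 5 * H ^ 4 * Ht / D)) * (Hf * D * Ht ^ (1 / 3 : ℝ) / s ^ 2) with hQ
  have h1 := TR_opS (κ := 1 / n ^ 2) hd (by linarith) (by linarith) (C * (Q * n ^ 3)) hA hW.reg F
    (by positivity) hψ (fun y hy => by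
      rw [hFi y hy, hn]
      push_cast
      ring) (fun T0 T1 T2 a b c th hO l hl σ0 σ1 σ2 Wf L1 =>
      hmain i e' m e (d4_of hd) W I hW F s D Ht Hf H hs hs1 hD hD1 hHt hHf hH hav hFH T0 T1 T2 a b c
        th hO (hE _ (mg_le hO.c1)) l hl σ0 σ1 σ2 Wf L1)
  refine h1.trans (le_of_eq ?_)
  show 1 / n ^ 2 * (8 * (C * (Q * n ^ 3))) = C / 16 * Q * len I
  rw [hlen]
  field_simp
  ring

end Crest.Agent.R079.KLx446
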