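import Crest.Agent.R079.OpKh_276
import Crest.Agent.R079.KLg_446
import Crest.Agent.R079.NG_112

/-! R079 (helper276): **the leaf `op` is closed** (`OpF (PF x C ρ c) q3` for `24 ≤ x`), from helper446's kill
lemma. -/

set_option autoImplicit false

namespace Crest.Agent.R079.OpK276

open Finset Crest.Agent.R079.Grid Crest.Agent.R079.Growth Crest.Agent.R079.QRed
  Crest.Agent.R079.T6bx252 Crest.Agent.R079.OpS276
  Crest.Agent.R079.WS0112 Crest.Agent.R079.WS112 Crest.Agent.R079.NP112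

/-- the kill lemma with the profile `Phi446` -/
theorem killN_446 : ∃ C : ℝ, 0 ≤ C ∧ KillN (Phi446 C 5) := by
  obtain ⟨C, hC, h⟩ := KLx446.killN
  refine ⟨C, hC, h.mono fun s D Ht Hf H hs hs1 hD hD1 h1 h2 h3 => ?_⟩
  unfold Phi446
  have hHt3 : 0 < Ht ^ ((1 : ℝ) / 3) := Real.rpow_pos_of_pos (by linarith) _
  have a1 : H ^ 4 * Hf * Ht / s ^ 2 ≤ 5 * H ^ 4 * Hf * Ht / s ^ 2 := by
    refine div_le_div_of_nonneg_right ?_ (by positivity)
    have : 0 ≤ H ^ 4 * Hf * Ht := by positivity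
    nlinarith
  have a2 : 5 * H ^ 4 * Ht / D ≤ 5 * H ^ 4 * Hf * Ht / D := by
    refine div_le_div_of_nonneg_right ?_ hD.le
    have h4 : 0 ≤ 5 * H ^ 4 * Ht := by positivity
    calc 5 * H ^ 4 * Ht = 5 * H ^ 4 * Ht * 1 := by ring
      _ ≤ 5 * H ^ 4 * Ht * Hf := mul_le_mul_of_nonneg_left h2 h4
      _ = _ := by ring
  have b0 : 0 ≤ H ^ 4 * Hf * Ht / s ^ 2 := by positivity
  have b1 : 0 ≤ 5 * H ^ 4 * Ht / D := by positivity
  have c1 : Real.log (1 + H ^ 4 * Hf * Ht / s ^ 2) ≤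
      Real.log (1 + 5 * H ^ 4 * Hf * Ht / s ^ 2) := Real.log_le_log (by linarith) (by linarith)
  have c2 : Real.log (1 + 5 * H ^ 4 * Ht / D) ≤
      Real.log (1 + 5 * H ^ 4 * Hf * Ht / D) := Real.log_le_log (by linarith) (by linarith)
  have hZ : 0 ≤ Hf * D * Ht ^ ((1 : ℝ) / 3) / s ^ 2 := by positivity
  refine mul_le_mul_of_nonneg_left (add_le_add ?_ ?_) hC
  · exact mul_le_mul_of_nonneg_right (by linarith) hs.le
  · exact mul_le_mul_of_nonneg_right (by linarith) hZ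

/-- **THE LEAF `op`** for the final parameters, unconditional -/
theorem opF_PF {x C ρ c q3 : ℝ} (h : Adm4 x C ρ c) (hx : 24 ≤ x) (hq3 : 2 < q3) :
    OpF (PF x C ρ c) q3 := by
  obtain ⟨C0, hC0, hKN⟩ := killN_446
  exact op_PF hC0 (by norm_num) hKN h hx hq3

/-- the hypothesis `ho` of `target_of_three` -/
theorem ho_three {x C ρ c q3 : ℝ} (h : Adm4 x C ρ c) (hx : 40 ≤ x) (hq3 : 2 < q3) :
    OpF (PF x C ρ c) q3 := opF_PF h (by linarith) hq3

end Crest.Agent.R079.OpK276
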