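import Crest.Agent.R079.CoE5_255
import Crest.Agent.R079.GenT_934
import Crest.Agent.R079.WinB_222
import Crest.Agent.R079.Rs_530

/-! R079, Step II of `RuleNT` (helper255): `stat_core` in the form of helper252's `StatO` / `StatQ`
(static tops `TB`, `It260.Piece`). -/

set_option autoImplicit false
set_option linter.unusedVariables false

namespace Crest.Agent.R079.CoEx255

open Finset Crest.Agent.R079.Grid Crest.Agent.R079.Growth Crest.Agent.R079.QRed
  Crest.Agent.R079.Glue Crest.Agent.R079.TWin Crest.Agent.R079.TRec Crest.Agent.R079.BadN360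
  Crest.Agent.R079.BAt112 Crest.Agent.R079.NC237 Crest.Agent.R079.AsmA844

/-- a full region without interior tops lies in one window -/
theorem sub_window {W S : Finset Nd} {V : Nd → Finset Nd} {C : ℝ} (h : Part W S V C)
    {R : Finset Nd} {J : Nd} (hR : Full R J) (hRW : R ⊆ W) (hT : ∀ q ∈ S, q ∈ R → q = J) :
    ∃ K ∈ S, R ⊆ V K := by
  obtain ⟨K, hK, hJK⟩ := h.cover J (hRW hR.top)
  refine ⟨K, hK, fun p hp => ?_⟩
  obtain ⟨A, hA, hpA⟩ := h.cover p (hRW hp)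
  have h1 : iv p ⊆ iv A := (h.full A hA).reg.1 p hpA
  have h2 : iv p ⊆ iv J := hR.reg.1 p hp
  rcases Qe292.sub_total h1 h2 with h3 | h3
  · have hAR : A ∈ R := hR.reg.2 p hp A h1 h3
    have hAJ : A = J := hT A hA hAR
    have hKA : K = A := by
      refine WinA222.own_unique h hK hA hJK ?_
      rw [← hAJ]; exact (h.full A hA).top
    rw [hKA]; exact hpA
  · have hJA : J ∈ V A := (h.full A hA).reg.2 p hpA J h2 h3
    have hKA : K = A := WinA222.own_unique h hK hA hJK hJA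
    rw [hKA]; exact hpA

/-- windows with a bound for normalised letters give `Tops`, `Cnt`, `Piece` -/
theorem piece_of_part {k : ℝ} (hk : 0 < k) {W S : Finset Nd} {V : Nd → Finset Nd} {C α : ℝ}
    (hα : 0 ≤ α) (hP : Part W S V C) {bb : ℤ} {ε : ℕ → ℤ → ℂ} {F : Fin 4 → Fn} {i m x y : Fin 4}
    (him : i ≠ m) (hO : Oth i m x y)
    (h : ∀ K' ∈ S, ∀ W' J, Full W' J → W' ⊆ V K' → ∀ F' : Fin 4 → Fn, F' i = F i → F' m = F m →
      (∀ j, j ≠ i → j ≠ m → ∀ p ∈ W', aq (2 + k) p (F' j) ≤ 1) → ‖TR bb ε W' F'‖ ≤ α * len J) :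
    It260.Piece (v4 bb ε F x y) (Sm k) W S α := by
  intro s hs R J hR hRW hT X Y hXY
  obtain ⟨K, hK, hRK⟩ := sub_window hP hR hRW hT
  have hq : (0 : ℝ) < 2 + k := by linarith
  have hB := GenT934.bil_v4 bb ε F hO.ab
  set X' : Fn := fun y => ((s⁻¹ : ℝ) : ℂ) * X y with hX'
  set Y' : Fn := fun y => ((s⁻¹ : ℝ) : ℂ) * Y y with hY'
  have hN := GenT934.Sm_smul hk hXY (inv_nonneg.2 hs.le)
  rw [inv_mul_cancel₀ hs.ne'] at hN
  have hsc : ∀ (Z : Fn), Z = fun y => (s : ℂ) * (((s⁻¹ : ℝ) : ℂ) * Z y) := by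
    intro Z
    funext y
    have : (s : ℂ) * ((s⁻¹ : ℝ) : ℂ) = 1 := by
      push_cast
      exact mul_inv_cancel₀ (by exact_mod_cast hs.ne')
    rw [← mul_assoc, this, one_mul]
  have e1 : ∀ p, v4 bb ε F x y X Y p = (s : ℂ) ^ 2 * v4 bb ε F x y X' Y' p := by
    intro p
    have e : v4 bb ε F x y X Y p =
        v4 bb ε F x y (fun y => (s : ℂ) * X' y) (fun y => (s : ℂ) * Y' y) p := by
      conv_lhs => rw [hsc X, hsc Y]
    rw [e, hB.smul1, hB.smul2]
    ring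
  have e2 : ∑ p ∈ R, v4 bb ε F x y X Y p = (s : ℂ) ^ 2 *
      TR bb ε R (Function.update (Function.update F x X') y Y') := by
    unfold TR
    rw [Finset.mul_sum]
    exact Finset.sum_congr rfl fun p _ => e1 p
  rw [e2, norm_mul, norm_pow, Complex.norm_real, Real.norm_of_nonneg hs.le]
  have h1 := h K hK R J hR hRK (Function.update (Function.update F x X') y Y')
    (by rw [Function.update_of_ne hO.bi.symm, Function.update_of_ne hO.ai.symm])
    (by rw [Function.update_of_ne hO.bm.symm, Function.update_of_ne hO.am.symm])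
    (fun j hji hjm p hp => by
      have hj : j = x ∨ j = y := by
        obtain ⟨a1, a2, a3, a4, a5⟩ := hO
        clear * - hji hjm a1 a2 a3 a4 a5 him
        revert i m x y j; decide
      by_cases hjy : j = y
      · subst hjy
        rw [Function.update_self]
        exact (hN p hp).2
      · have hjx : j = x := by tauto
        subst hjx
        rw [Function.update_of_ne hjy, Function.update_self]
        exact (hN p hp).1)
  calc s ^ 2 * ‖TR bb ε R (Function.update (Function.update F x X') y Y')‖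
      ≤ s ^ 2 * (α * len J) := mul_le_mul_of_nonneg_left h1 (by positivity)
    _ = s ^ 2 * α * len J := by ring

/-- **STEP II, dictionary-free, in the form of `StatO`** -/
theorem stat_piece {C1 hh cl gm dx cS : ℝ} (hC1 : 0 ≤ C1) (hcS : 0 < cS) (hgm : 0 ≤ gm)
    (h1 : 2 * cS ≤ gm - 2 * cl) (h2 : 2 * cS ≤ dx - 2 * hh)
    {k A1 A2 A3 A4 : ℝ} (hk : 0 < k) (hA1 : 0 ≤ A1) (hA2 : 0 ≤ A2) (hA3 : 0 ≤ A3) (hA4 : 0 ≤ A4) :
    ∃ t0 K : ℝ, 0 < t0 ∧ t0 ≤ 1 ∧ 0 ≤ K ∧ ∀ t, 0 < t → t ≤ t0 → ∀ (W : Finset Nd) (I : Nd),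
      Full W I → ∀ i m : Fin 4, i ≠ m → ∀ F : Fin 4 → Fn, RepB i I (F i) (A1 * t ^ (-C1)) →
      (∀ y ∈ iv I, ‖F i y‖ ≤ A4 * t ^ (-hh)) →
      (∀ p ∈ W, av p (F i) ≤ A3 * t ^ (-cl)) → (∀ p ∈ W, aq (2 + k) p (F m) ≤ 1) →
      NCol W (F m) (A2 * t ^ gm) (A2 * t ^ dx) → ∀ x y : Fin 4, Oth i m x y →
      ∃ TB : Finset Nd, Tops W I TB ∧ Cnt W TB (K * t ^ (-cnE C1 gm cS)) ∧
        ∀ bb ε, Adm bb ε → It260.Piece (v4 bb ε F x y) (Sm k) W TB (K * t ^ cS) := by
  obtain ⟨t0, K, g1, g2, g3, g4⟩ := stat_coreH hC1 hcS hgm h1 h2 hk hA1 hA2 hA3 hA4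
  refine ⟨t0, K, g1, g2, g3, ?_⟩
  intro t ht htt W I hW i m him F hrep hH haP haR hNC x y hO
  obtain ⟨S, V, hP, hS⟩ := g4 t ht htt W I hW i m him (F i) (F m) hrep hH haP haR hNC
  refine ⟨S, WinA222.tops_of_part hW hP, WinA222.cnt_of_part hP, fun bb ε hε => ?_⟩
  exact piece_of_part hk (mul_nonneg g3 (Real.rpow_nonneg ht.le _)) hP him hO
    fun K' hK' W' J hW' hsub F' hFi hFm hF => hS K' hK' W' J hW' hsub F' hFi hFm hF bb ε hε

end Crest.Agent.R079.CoEx255
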