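import Crest.Agent.R079.PQ_263
import Crest.Agent.R079.WT_112
import Crest.Agent.R079.CoE6_255

/-! R079, T2/T6 (helper263): **LEAVES FOR THE CORE DATA.**

`QP P d i m e e' ε k` = the core data (`QC`) of a nontrivial pair for the final dictionary `DF0 P`.
* `statC` : Step II for the core data (`stat_piece` of 255);
* `LeavesC` : the open inputs `cell`, `op`, `genC` (Step I for the core data);
* `leaves1_of_core` : `LeavesC → Leaves1` (112), `target_of_leavesC`. -/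

set_option autoImplicit false
set_option linter.unusedVariables false

namespace Crest.Agent.R079.POx263

open Finset Crest.Agent.R079.Grid Crest.Agent.R079.Growth Crest.Agent.R079.QRed
open Crest.Agent.R079.TRec Crest.Agent.R079.T6ax252 Crest.Agent.R079.T6bx252
open Crest.Agent.R079.OpS276 Crest.Agent.R079.OLevSw Crest.Agent.R079.Qe292
open Crest.Agent.R079.BAt112 Crest.Agent.R079.DicB112 Crest.Agent.R079.WS112
open Crest.Agent.R079.WS0112 Crest.Agent.R079.AsmA844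

/-- exponent of the cap of the weight -/
noncomputable def xxC (P : Prm) (i : Fin 4) : ℝ := 2 * (P.θ * (P.x i + 2 * P.f i + 12 * P.g i))

/-- exponent of the fibre cap -/
noncomputable def ffC (P : Prm) (i : Fin 4) : ℝ := 2 * (P.θ * (2 * P.f i + 12 * P.g i))

/-- **core data of a nontrivial pair** -/
def QP (P : Prm) (d : ℝ) (i m e e' : Fin 4) (ε k : ℝ) : DataQ :=
  QC (DF0 P) k 1 (clx P d i) ((1 + ε) * (P.θ * P.g i)) (xxC P i) (ffC P i) i m e e'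

/-- **Step II for the core data** -/
theorem statC {P : Prm} (h : Ok0 P) {d q3 : ℝ} {i m e e' : Fin 4} (hdd : Dst4 i m e e')
    (hm3 : m ≠ 3) (hc1 : 2 * clx P d i < P.θ * P.gc m) (hc2 : 4 * P.g i < P.Cc m - P.gc m)
    (hd : 0 ≤ d) :
    ∃ cS CS e2 : ℝ, 0 < cS ∧ 0 < e2 ∧ ∀ ε, 0 < ε → ε ≤ e2 → ∃ k2 : ℝ, 0 < k2 ∧
      ∀ k, 0 < k → k ≤ k2 → ∃ t0 K : ℝ, 0 < t0 ∧ 0 ≤ K ∧
        StatQ (QP P d i m e e' ε k) k q3 cS CS t0 K i m := by
  have hθ := h.θ0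
  have hg : 0 ≤ P.θ * P.g i := mul_nonneg hθ.le (h.g0 i)
  have hx : 0 ≤ P.θ * P.x i := mul_nonneg hθ.le (h.x0 i)
  have hf : 0 ≤ P.θ * P.f i := mul_nonneg hθ.le (h.f0 i)
  have hgc : 0 ≤ P.θ * P.gc m := mul_nonneg hθ.le (h.gc0 m)
  set gm : ℝ := 1 * (P.θ * P.gc m) with hgm
  set dx : ℝ := 1 * (P.θ * (P.Cc m - P.gc m)) with hdx
  set hh : ℝ := 2 * (P.θ * P.g i) with hhd
  set cl : ℝ := clx P d i with hcl
  set C1 : ℝ := 2 * (P.θ * P.g i) + ffC P i + xxC P i with hC1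
  have hxx0 : 0 ≤ xxC P i := by unfold xxC; nlinarith
  have hff0 : 0 ≤ ffC P i := by unfold ffC; nlinarith
  have hC10 : 0 ≤ C1 := by positivity
  have hdh : 2 * hh < dx := by
    have := mul_lt_mul_of_pos_left hc2 hθ
    rw [hhd, hdx]
    linarith
  set cS : ℝ := min ((gm - 2 * cl) / 2) ((dx - 2 * hh) / 2) with hcS
  have hcS0 : 0 < cS := lt_min (by rw [hgm]; linarith) (by linarith)
  have hs1 : 2 * cS ≤ gm - 2 * cl := by
    have := min_le_left ((gm - 2 * cl) / 2) ((dx - 2 * hh) / 2)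
    linarith
  have hs2 : 2 * cS ≤ dx - 2 * hh := by
    have := min_le_right ((gm - 2 * cl) / 2) ((dx - 2 * hh) / 2)
    linarith
  have hCg : P.gc m ≤ P.Cc m := by have := h.g0 i; linarith
  refine ⟨cS, CoEx255.cnE C1 gm cS, 1, hcS0, one_pos, fun ε hε hε1 => ⟨1, one_pos, fun k hk hk1 => ?_⟩⟩
  obtain ⟨t0, K, ht0, ht01, hK, hP⟩ := CoEx255.stat_piece (C1 := C1) (hh := hh) (cl := cl) (gm := gm)
    (dx := dx) (cS := cS) hC10 hcS0 (by rw [hgm]; linarith) hs1 hs2 (k := k) (A1 := 1864296)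
    (A2 := 3) (A3 := 4) (A4 := 621432) hk (by norm_num) (by norm_num) (by norm_num) (by norm_num)
  refine ⟨t0, K, ht0, hK, ?_⟩
  intro N B hB hBN t ht htt bb W I F hQ hI x y hO
  have ht1 : t ≤ 1 := htt.trans ht01
  have hQ' : PRc (DF0 P) k 1 cl t (621432 * t ^ (-((1 + ε) * (P.θ * P.g i)))) (3 * t ^ (-(xxC P i)))
    (t ^ (-(ffC P i))) W I i m e e' F := hQ
  have hpow : ∀ {r s : ℝ}, s ≤ r → t ^ r ≤ t ^ s := fun h =>
    Real.rpow_le_rpow_of_exponent_ge ht ht1 h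
  have hla : t ^ (-((1 + ε) * (P.θ * P.g i))) ≤ t ^ (-hh) := hpow (by rw [hhd]; nlinarith)
  have hrep : RepB i I (F i) (1864296 * t ^ (-C1)) := by
    refine (Rc.repB hdd (by positivity) (by positivity) hQ'.mix).mono ?_
    have h1 : t ^ (-C1) = t ^ (-hh) * (t ^ (-(ffC P i)) * t ^ (-(xxC P i))) := by
      rw [← Real.rpow_add ht, ← Real.rpow_add ht]
      congr 1
      rw [hC1, hhd]; ring
    rw [h1]
    have h2 : 0 ≤ t ^ (-(ffC P i)) * t ^ (-(xxC P i)) := by positivity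
    calc 621432 * t ^ (-((1 + ε) * (P.θ * P.g i))) * (t ^ (-(ffC P i)) * (3 * t ^ (-(xxC P i)))) =
        1864296 * (t ^ (-((1 + ε) * (P.θ * P.g i))) * (t ^ (-(ffC P i)) * t ^ (-(xxC P i)))) := by
          ring
      _ ≤ _ := mul_le_mul_of_nonneg_left (mul_le_mul_of_nonneg_right hla h2) (by norm_num)
  have hsup : ∀ y ∈ iv I, ‖F i y‖ ≤ 621432 * t ^ (-hh) := fun y hy =>
    (Rc.sup hdd hQ'.mix hy).trans (mul_le_mul_of_nonneg_left hla (by norm_num))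
  have hnc : NC237.NCol W (F m) (3 * t ^ gm) (3 * t ^ dx) := by
    have h1 := hQ'.ncol h hdd hk.le hm3 zero_le_one hCg ht ht1
    intro p hp p' hp' hl
    obtain ⟨Bd, h3, h4⟩ := h1 p hp p' hp' hl
    refine ⟨Bd, h3.trans ?_, h4⟩
    have hlp : 0 < len p := QVar181.len_pos' p
    have h5 : 0 < t ^ dx := Real.rpow_pos_of_pos ht _
    refine mul_le_mul_of_nonneg_right ?_ hlp.le
    show 2 * t ^ dx ≤ 3 * t ^ dx
    linarith
  obtain ⟨TB, hTB, hc, hPc⟩ := hP t ht htt W I hQ'.full i m hdd.jk.symm F hrep hsup hQ'.avP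
    hQ'.nR hnc x y hO
  refine ⟨TB, hTB, hc, fun ε' hA s hs R J hR hRR hJ X Y hXY =>
    (hPc bb ε' hA s hs R J hR hRR hJ X Y hXY).trans ?_⟩
  have h4 : K * t ^ cS ≤ K * (1 + B) * t ^ cS := by
    have h5 : 0 ≤ t ^ cS := Real.rpow_nonneg ht.le _
    have h6 : K * 1 * t ^ cS ≤ K * (1 + B) * t ^ cS :=
      mul_le_mul_of_nonneg_right (mul_le_mul_of_nonneg_left (by linarith) hK) h5
    linarith
  exact mul_le_mul_of_nonneg_right (mul_le_mul_of_nonneg_left h4 (sq_nonneg _))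
    (Growth.len_pos J).le

/-- **THE OPEN INPUTS**, Step I for the core data -/
structure LeavesC (P : Prm) (q3 d : ℝ) : Prop where
  /-- cells, all pairs -/
  cell : ∀ i m : Fin 4, i ≠ m → i ≠ 3 → m ≠ 3 → ∃ c0 e1 : ℝ, 0 < c0 ∧ 0 < e1 ∧
    ∀ e, 0 ≤ e → e ≤ e1 → ∃ k1 : ℝ, 0 < k1 ∧ ∀ k, 0 < k → k ≤ k1 → ∃ t0 K : ℝ, 0 < t0 ∧ 0 ≤ K ∧
      CellKill (DF0 P) (CA0 P) k q3 c0 (1 + e) 1 t0 K i m
  /-- op-atoms, trivial pairs -/
  op : ∀ i m : Fin 4, i < m → m ≠ 3 → ∃ d1 : ℝ, 0 < d1 ∧ ∀ δ, 0 < δ → δ ≤ d1 →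
    ∃ c0 k1 : ℝ, 0 < c0 ∧ 0 < k1 ∧ ∀ k, 0 < k → k ≤ k1 → ∃ t0 K : ℝ, 0 < t0 ∧ 0 ≤ K ∧
      OpKill (DF0 P) (OA0 P) k q3 c0 1 (1 + δ) t0 K i m
  /-- Step I for the core data -/
  gen : ∀ i m e e' : Fin 4, Dst4 i m e e' → m < i → i ≠ 3 → ∃ cm : ℝ, 0 < cm ∧
    ∀ c1, 0 < c1 → c1 ≤ cm →
    ∃ C g ys : ℝ, 0 < C ∧ 0 < g ∧ 0 < ys ∧ ∀ y, 0 < y → y ≤ ys → ∃ e1 : ℝ, 0 < e1 ∧
      ∀ ε, 0 < ε → ε ≤ e1 → ∃ k1 : ℝ, 0 < k1 ∧ ∀ k, 0 < k → k ≤ k1 → ∃ t0 K : ℝ, 0 < t0 ∧ 0 ≤ K ∧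
        GenQ (QP P d i m e e' ε k) k q3 c1 (C * y) (g * y) t0 K i m

/-- rule (A) for mixtures of op-atoms, from the core data -/
theorem leaves1_of_core {P : Prm} (h : Ok0 P) (hp : Pos0 P) {q3 d : ℝ} (hq3 : 2 < q3) (hd : 0 ≤ d)
    (hst : ∀ i m : Fin 4, m < i → i ≠ 3 → 2 * clx P d i < P.θ * P.gc m ∧
      4 * P.g i < P.Cc m - P.gc m)
    (hL : LeavesC P q3 d) : Leaves1 P q3 d := by
  refine ⟨hL.cell, hL.op, fun i m hmi hi3 => ?_⟩
  have him : i ≠ m := hmi.ne'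
  have hm3 : m ≠ 3 := by
    rintro rfl
    have := i.2
    have h1 : (3 : ℕ) < i.1 := hmi
    omega
  obtain ⟨x, y, hxi, hxm, hyi, hym, hxy⟩ := exists_oth i m him
  have hdd : Dst4 i m x y := ⟨him.symm, hxm.symm, hym.symm, hxi.symm, hyi.symm, hxy⟩
  have hg : 0 < P.θ * P.g i := mul_pos h.θ0 (hp.g i)
  obtain ⟨c0, e1, hc0, he1, hO⟩ := pairQ_exists hq3 (fun ε k => QP P d i m x y ε k)
    (fun ε k t W I F hQ => PRc.full hQ) him (hL.gen i m x y hdd hmi hi3)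
    (statC h hdd hm3 (hst i m hmi hi3).1 (hst i m hmi hi3).2 hd)
  refine ⟨min c0 (P.θ * P.g i), min e1 1, lt_min hc0 hg, lt_min he1 one_pos, fun ε hε hεe => ?_⟩
  have hε1 : ε ≤ 1 := hεe.trans (min_le_right _ _)
  obtain ⟨k1, hk1, hO⟩ := hO ε hε (hεe.trans (min_le_left _ _))
  refine ⟨min k1 1, lt_min hk1 one_pos, fun k hk hkk => ?_⟩
  obtain ⟨t0, K, ht0, ht01, hK, hO⟩ := hO k hk (hkk.trans (min_le_left _ _))
  refine ⟨t0, K + 3, ht0, ht01, by linarith, ?_⟩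
  have hx0 : 0 ≤ P.θ * P.x i := mul_nonneg h.θ0.le (h.x0 i)
  have hf0 : 0 ≤ P.θ * P.f i := mul_nonneg h.θ0.le (h.f0 i)
  have hcl : 0 ≤ clx P d i := by
    have := mul_nonneg h.θ0.le (h.gc0 i)
    unfold clx
    linarith
  have h1 := pairO_of_pairQ (D := DF0 P) (OA := OA0 P) (k := k) (q3 := q3) (cO := c0) (a := 1 + ε)
    (b := 1) (cl := clx P d i) (th := P.θ) (γ := P.g i) (x := P.x i) (f := P.f i)
    (ω := 12 * ((1 + ε) * P.θ * P.g i)) (la := (1 + ε) * (P.θ * P.g i)) (xx := xxC P i)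
    (ff := ffC P i) (t0 := t0) (K := K) hdd hi3 hk (hkk.trans (min_le_right _ _)) hq3 (by linarith)
    h.θ0.le (h.g0 i) (h.x0 i) (h.f0 i) (by nlinarith) hcl ht01 hK (fun s hs hs1 => ?_)
    (by linarith) ?_ ?_ hO
  · refine pairO_iff.2 (pairQ_mono h1 le_rfl ht01 ?_ (by linarith) le_rfl)
    refine min_le_min le_rfl ?_
    nlinarith
  · rw [oA0_eq]
  · unfold xxC; nlinarith
  · unfold ffC; nlinarith

/-- **`S0106` from the open inputs for the core data** -/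
theorem target_of_leavesC {P : Prm} (h : Ok0 P) (hp : Pos0 P) {q3 d : ℝ} (hq3 : 2 < q3)
    (hd : 0 < d)
    (hst : ∀ i m : Fin 4, m < i → i ≠ 3 → 2 * clx P d i < P.θ * P.gc m ∧
      4 * P.g i < P.Cc m - P.gc m)
    (hL : LeavesC P q3 d) : L0.Target :=
  target_of_leaves1 h hp hq3 hd (leaves1_of_core h hp hq3 hd.le hst hL)

end Crest.Agent.R079.POx263
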