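import Crest.Agent.R079.TKf_248
import Crest.Agent.R079.GnQ_45
import Crest.Agent.R079.PW_263

/-! R079 (helper248): **`TallW` / `TallQ` for the core data**: the tall part (height `> H`) of a letter with
local `L²` averages `≤ 1` is killed next to a core mixture of op-atoms and two letters with local `L²`
averages `≤ 1`: `kT = K La H⁻¹ (1 + log ..)`, hence any power of `t` at the height `t ^ (-h)`.

* `tallW_of` : `GnM_45.TallW` from `Rc`;
* `tallQ_QC`, `tallQ_QP` : the hypothesis `hT` of `GnQ_45.genQ_exists` for 263's `QP`. -/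

set_option autoImplicit false

namespace Crest.Agent.R079.TKx248

open Finset Crest.Agent.R079.Grid Crest.Agent.R079.Growth Crest.Agent.R079.QRed
  Crest.Agent.R079.OpS276 Crest.Agent.R079.POx263 Crest.Agent.R079.BadN360
  Crest.Agent.R079.GnMx45 Crest.Agent.R079.GnQx45 Crest.Agent.R079.AsmA844
  Crest.Agent.R079.T6bx252 Crest.Agent.R079.TRec Crest.Agent.R079.AsmG734
  Crest.Agent.R079.GnOx45 Crest.Agent.R079.WS0112

lemma oth_cases : ∀ {i m x y j : Fin 4}, i ≠ m → x ≠ i → x ≠ m → y ≠ i → y ≠ m → x ≠ y → j ≠ i →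
    j = m ∨ j = x ∨ j = y := by
  decide

/-- **`TallW`** for a core mixture -/
theorem tallW_of : ∃ K : ℝ, 0 ≤ K ∧ ∀ (i m e e' : Fin 4), Dst4 i m e e' →
    ∀ {bb : ℤ} {ε : ℕ → ℤ → ℂ}, Adm bb ε → ∀ (R0 : Finset Nd) (I : Nd), Full R0 I →
    ∀ (F : Fin 4 → Fn) (Ht Hf La H : ℝ), 0 < Ht → 0 < Hf → 1 ≤ H →
    Rc i m e e' I Ht Hf La (F i) → (∀ p ∈ R0, av p (F m) ≤ 1) →
    ∀ x y : Fin 4, Oth i m x y →
    TallW (v4 bb ε F x y) R0 H (K * (1 + (Real.log (1 + Hf * Ht) + Real.log H)) * (La / H)) := by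
  obtain ⟨K, hK0, hK⟩ := tall_TR
  refine ⟨K, hK0, ?_⟩
  intro i m e e' hd bb ε hA R0 I hR0 F Ht Hf La H hHt hHf hH hF hFm x y hO
  have hxi := hO.ai
  have hyi := hO.bi
  have hxy := hO.ab
  intro W J hW hWR E Z hE hZ
  have hJI : iv J ⊆ iv I := hR0.reg.1 J (hWR hW.top)
  have key : ∀ (G : Fin 4 → Fn), G i = F i → G m = F m → (∀ p ∈ W, av p (G x) ≤ 1) →
      (∀ p ∈ W, av p (G y) ≤ 1) → ∀ s, s ≠ i →
      ‖TR bb ε W (Function.update G s (hi H (G s)))‖ ≤
        K * (1 + (Real.log (1 + Hf * Ht) + Real.log H)) * (La / H) * len J := by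
    intro G hGi hGm hGx hGy s hs
    have h1 := hK i m e e' s hd hs hA W J I hW hJI G Ht Hf La H hHt hHf hH (by rw [hGi]; exact hF)
      (fun j hj p hp => by
        rcases oth_cases hd.jk.symm hxi hO.am hyi hO.bm hxy hj with rfl | rfl | rfl
        · rw [hGm]; exact hFm p (hWR hp)
        · exact hGx p hp
        · exact hGy p hp)
    refine h1.trans (le_of_eq ?_)
    ring
  have e1 : Function.update (Function.update (Function.update F x E) y Z) x (hi H E) =
      Function.update (Function.update F x (hi H E)) y Z := by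
    funext j
    by_cases hjx : j = x
    · subst hjx
      rw [Function.update_self, Function.update_of_ne hxy, Function.update_self]
    · rw [Function.update_of_ne hjx]
      by_cases hjy : j = y
      · subst hjy
        rw [Function.update_self, Function.update_self]
      · rw [Function.update_of_ne hjy, Function.update_of_ne hjy, Function.update_of_ne hjx,
          Function.update_of_ne hjx]
  have e2 : Function.update (Function.update (Function.update F x Z) y E) y (hi H E) =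
      Function.update (Function.update F x Z) y (hi H E) := Function.update_idem _ _ _
  have f1 := key (Function.update (Function.update F x E) y Z)
    (by rw [Function.update_of_ne hyi.symm, Function.update_of_ne hxi.symm])
    (by rw [Function.update_of_ne hO.bm.symm, Function.update_of_ne hO.am.symm])
    (by rw [Function.update_of_ne hxy, Function.update_self]; exact hE)
    (by rw [Function.update_self]; exact hZ) x hxi
  have f2 := key (Function.update (Function.update F x Z) y E)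
    (by rw [Function.update_of_ne hyi.symm, Function.update_of_ne hxi.symm])
    (by rw [Function.update_of_ne hO.bm.symm, Function.update_of_ne hO.am.symm])
    (by rw [Function.update_of_ne hxy, Function.update_self]; exact hZ)
    (by rw [Function.update_self]; exact hE) y hyi
  rw [Function.update_of_ne hxy, Function.update_self, e1] at f1
  rw [Function.update_self, e2] at f2
  unfold TR at f1 f2
  unfold v4
  exact ⟨f1, f2⟩

/-- logarithms against `t⁻¹` -/
lemma log_pow {t c h : ℝ} (ht : 0 < t) (ht1 : t ≤ 1) (hc : 0 ≤ c) (hh : 0 ≤ h) {P : ℝ}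
    (hP0 : 0 ≤ P) (hP : P ≤ 3 * t ^ (-c)) :
    1 + (Real.log (1 + P) + Real.log (t ^ (-h))) ≤ (4 + c + h) * t ^ (-1 : ℝ) := by
  have hti : 1 ≤ t ^ (-1 : ℝ) := Real.one_le_rpow_of_pos_of_le_one_of_nonpos ht ht1 (by norm_num)
  have hlog : -Real.log t ≤ t ^ (-1 : ℝ) := by
    have h1 := Real.log_le_sub_one_of_pos (inv_pos.2 ht)
    rw [Real.log_inv] at h1
    rw [Real.rpow_neg_one]
    linarith
  have htc : 1 ≤ t ^ (-c) := Real.one_le_rpow_of_pos_of_le_one_of_nonpos ht ht1 (by linarith)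
  have h1 : 1 + P ≤ 4 * t ^ (-c) := by linarith
  have h2 := Real.log_le_log (by linarith : (0 : ℝ) < 1 + P) h1
  rw [Real.log_mul (by norm_num) (by linarith [htc] : t ^ (-c) ≠ 0) , Real.log_rpow ht] at h2
  have h4 : Real.log 4 ≤ 3 := by
    have := Real.log_le_sub_one_of_pos (show (0 : ℝ) < 4 by norm_num)
    linarith
  rw [Real.log_rpow ht]
  have h5 : c * (-Real.log t) ≤ c * t ^ (-1 : ℝ) := mul_le_mul_of_nonneg_left hlog hc
  have h6 : h * (-Real.log t) ≤ h * t ^ (-1 : ℝ) := mul_le_mul_of_nonneg_left hlog hh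
  nlinarith

/-- **`TallQ` for the core data**, any power -/
theorem tallQ_QC {D : TRecN.Dict} {i m e e' : Fin 4} (hd : Dst4 i m e e') {k q3 b cl la xx ff gT h : ℝ}
    (hk : 0 < k) (hh : 0 ≤ h) (hc : 0 ≤ xx + ff) (h1 : gT ≤ h - la - 1) :
    ∃ K : ℝ, 0 ≤ K ∧ TallQ (QC D k b cl la xx ff i m e e') k q3 h gT 1 K i m := by
  obtain ⟨K, hK0, hK⟩ := tallW_of
  refine ⟨K * 621432 * (4 + (xx + ff) + h), by positivity, ?_⟩
  intro N B hB _ t ht ht1 W I F hQ _ x y hO bb ε hA
  have hQ' : PRc D k b cl t (621432 * t ^ (-la)) (3 * t ^ (-xx)) (t ^ (-ff)) W I i m e e' F := hQ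
  have P : ∀ s : ℝ, 0 < t ^ s := fun s => Real.rpow_pos_of_pos ht s
  have hH : 1 ≤ t ^ (-h) := Real.one_le_rpow_of_pos_of_le_one_of_nonpos ht ht1 (by linarith)
  have h2 := hK i m e e' hd hA W I hQ'.full F (3 * t ^ (-xx)) (t ^ (-ff)) (621432 * t ^ (-la))
    (t ^ (-h)) (mul_pos (by norm_num) (P _)) (P _) hH hQ'.mix
    (fun p hp => (TAsm398.av_le_aq (by linarith) p (F m)).trans (hQ'.nR p hp)) x y hO
  refine tallW_mono h2 ?_
  have h3 : t ^ (-ff) * (3 * t ^ (-xx)) = 3 * t ^ (-(xx + ff)) := by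
    have : t ^ (-(xx + ff)) = t ^ (-xx) * t ^ (-ff) := by
      rw [← Real.rpow_add ht]
      congr 1
      ring
    rw [this]
    ring
  have h4 := log_pow (P := t ^ (-ff) * (3 * t ^ (-xx))) ht ht1 hc hh
    (mul_pos (P _) (mul_pos (by norm_num) (P _))).le h3.le
  have h5 : 621432 * t ^ (-la) / t ^ (-h) = 621432 * t ^ (h - la) := by
    rw [mul_div_assoc, ← Real.rpow_sub ht]
    congr 2
    ring
  rw [h5]
  have h6 : 0 ≤ K * (621432 * t ^ (h - la)) := mul_nonneg hK0 (mul_pos (by norm_num) (P _)).le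
  have h7 : t ^ (-1 : ℝ) * t ^ (h - la) ≤ t ^ gT := by
    rw [← Real.rpow_add ht]
    exact Real.rpow_le_rpow_of_exponent_ge ht ht1 (by linarith)
  calc K * (1 + (Real.log (1 + t ^ (-ff) * (3 * t ^ (-xx))) + Real.log (t ^ (-h)))) *
      (621432 * t ^ (h - la)) = K * (621432 * t ^ (h - la)) *
        (1 + (Real.log (1 + t ^ (-ff) * (3 * t ^ (-xx))) + Real.log (t ^ (-h)))) := by ring
    _ ≤ K * (621432 * t ^ (h - la)) * ((4 + (xx + ff) + h) * t ^ (-1 : ℝ)) :=
        mul_le_mul_of_nonneg_left h4 h6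
    _ = K * 621432 * (4 + (xx + ff) + h) * (t ^ (-1 : ℝ) * t ^ (h - la)) := by ring
    _ ≤ K * 621432 * (4 + (xx + ff) + h) * t ^ gT :=
        mul_le_mul_of_nonneg_left h7 (by positivity)
    _ ≤ K * 621432 * (4 + (xx + ff) + h) * (1 + B) * t ^ gT := by
        have h8 : 0 ≤ K * 621432 * (4 + (xx + ff) + h) := by positivity
        have h9 : K * 621432 * (4 + (xx + ff) + h) * 1 ≤ K * 621432 * (4 + (xx + ff) + h) * (1 + B) :=
          mul_le_mul_of_nonneg_left (by linarith) h8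
        have := mul_le_mul_of_nonneg_right h9 (P gT).le
        linarith

/-- **the hypothesis `hT` of `genQ_exists`** for the core data of a nontrivial pair -/
theorem tallQ_QP {P : WS112.Prm} (hP : WS0112.Ok0 P) {q3 d : ℝ} {i m e e' : Fin 4}
    (hdd : Dst4 i m e e') : ∀ gT : ℝ, ∃ h e1 : ℝ, 0 ≤ h ∧ 0 < e1 ∧ ∀ ε, 0 < ε → ε ≤ e1 →
      ∃ k1 : ℝ, 0 < k1 ∧ ∀ k, 0 < k → k ≤ k1 → ∃ t0 K : ℝ, 0 < t0 ∧ 0 ≤ K ∧
        TallQ (QP P d i m e e' ε k) k q3 h gT t0 K i m := by
  intro gT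
  have hθ := hP.θ0
  have hg : 0 ≤ P.θ * P.g i := mul_nonneg hθ.le (hP.g0 i)
  have hx : 0 ≤ P.θ * P.x i := mul_nonneg hθ.le (hP.x0 i)
  have hf : 0 ≤ P.θ * P.f i := mul_nonneg hθ.le (hP.f0 i)
  have hxx0 : 0 ≤ xxC P i := by unfold xxC; nlinarith
  have hff0 : 0 ≤ ffC P i := by unfold ffC; nlinarith
  refine ⟨max 0 (gT + 2 * (P.θ * P.g i) + 1), 1, le_max_left _ _, one_pos, fun ε hε hε1 =>
    ⟨1, one_pos, fun k hk hk1 => ?_⟩⟩
  obtain ⟨K, hK0, hK⟩ := tallQ_QC (D := WS0112.DF0 P) hdd (k := k) (q3 := q3) (b := 1)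
    (cl := clx P d i) (la := (1 + ε) * (P.θ * P.g i)) (xx := xxC P i) (ff := ffC P i) (gT := gT)
    (h := max 0 (gT + 2 * (P.θ * P.g i) + 1)) hk (le_max_left _ _) (by linarith) (by
      have h1 := le_max_right 0 (gT + 2 * (P.θ * P.g i) + 1)
      have h2 : (1 + ε) * (P.θ * P.g i) ≤ 2 * (P.θ * P.g i) :=
        mul_le_mul_of_nonneg_right (by linarith) hg
      linarith)
  exact ⟨1, K, one_pos, hK0, hK⟩

end Crest.Agent.R079.TKx248
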