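import Crest.Agent.R079.NG_112
import Crest.Agent.R079.OpKi_276
import Crest.Agent.R079.TKg_248
import Crest.Agent.R079.GnQ_45

/-! R079 (helper112): **THE TWO REMAINING INPUTS**: `CellF` (cells) and `SpF` (splitting of one
generation, `GnQ_45.SpQ`, for the core data `QP` of helper263).  The leaf `op` (276, 446) and the tall
kill (248) are theorems.  **`target_of_two`**. -/

set_option autoImplicit false
set_option linter.unusedVariables false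

namespace Crest.Agent.R079.NP112

open Finset Crest.Agent.R079.Grid Crest.Agent.R079.Growth Crest.Agent.R079.QRed
open Crest.Agent.R079.WS112 Crest.Agent.R079.WS0112 Crest.Agent.R079.POx263
open Crest.Agent.R079.T6bx252 Crest.Agent.R079.OpS276 Crest.Agent.R079.GnQx45

/-- **THE LAST LITERAL OF STEP I**: the splitting of one generation for the core data -/
def SpF (P : Prm) (q3 d : ℝ) : Prop :=
  ∀ i m e e' : Fin 4, Dst4 i m e e' → m < i → i ≠ 3 → ∃ cm : ℝ, 0 < cm ∧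
    ∀ c1, 0 < c1 → c1 ≤ cm →
    ∃ C g ys : ℝ, 0 < C ∧ 0 < g ∧ 0 < ys ∧ ∀ y, 0 < y → y ≤ ys → ∃ e1 : ℝ, 0 < e1 ∧
      ∀ ε, 0 < ε → ε ≤ e1 → ∃ k1 : ℝ, 0 < k1 ∧ ∀ k, 0 < k → k ≤ k1 → ∃ t0 K : ℝ, 0 < t0 ∧ 0 ≤ K ∧
        SpQ (QP P d i m e e' ε k) k q3 c1 (C * y) (g * y) t0 K i m

/-- Step I from the splitting and the tall kill -/
theorem genF_of_spF {P : Prm} (h : Ok0 P) {q3 d : ℝ} (hS : SpF P q3 d) : GenF P q3 d :=
  fun i m e e' hdd hmi hi3 => genQ_exists (q3 := q3) (QP P d i m e e') (hS i m e e' hdd hmi hi3)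
    (TKx248.tallQ_QP h hdd)

/-- **`S0106` from the cells and the splitting of one generation** -/
theorem target_of_two
    (hc : ∀ {x C ρ c q3 : ℝ}, Adm4 x C ρ c → 40 ≤ x → c ≤ 1 / 8 → 40 * C + 40 ≤ q3 →
      CellF (PF x C ρ c) q3)
    (hs : ∃ x0 : ℝ, ∀ x, x0 ≤ x → ∃ ρ0 : ℝ, 0 < ρ0 ∧ ∀ ρ, 0 < ρ → ρ ≤ ρ0 → ∃ c0 : ℝ, 0 < c0 ∧
      ∀ c, 0 < c → c ≤ c0 → ∃ C0 : ℝ, ∀ C, C0 ≤ C → ∀ q3, 2 < q3 → Adm4 x C ρ c →
        SpF (PF x C ρ c) q3 (dF C ρ c)) : L0.Target := by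
  refine target_of_three hc (fun h hx hq => OpK276.ho_three h hx hq) ?_
  obtain ⟨x0, hs⟩ := hs
  refine ⟨x0, fun x hx => ?_⟩
  obtain ⟨ρ0, hρ0, hs⟩ := hs x hx
  refine ⟨ρ0, hρ0, fun ρ hρ hρρ => ?_⟩
  obtain ⟨c0, hc0, hs⟩ := hs ρ hρ hρρ
  refine ⟨c0, hc0, fun c hc hcc => ?_⟩
  obtain ⟨C0, hs⟩ := hs c hc hcc
  exact ⟨C0, fun C hC q3 hq hA => genF_of_spF (ok_PF hA) (hs C hC q3 hq hA)⟩

end Crest.Agent.R079.NP112
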