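import Crest.Agent.R079.CKu_37
import Crest.Agent.R079.CKv_217
import Crest.Agent.R079.NH_112

/-! R079 (helper37), CELLKILL part 11: **THE FIELD `cell` IS CLOSED** (`cellF_PF`, no hypothesis left):
HIGH is `CKk217.highN_TR` (helper217, from the ragged corner of helper253), LOW is the kill lemma of
helper446.  `target_of_gen`: `S0106` from the splitting of one generation alone. -/

set_option autoImplicit false

namespace Crest.Agent.R079.CKgx37

open Finset Crest.Agent.R079.Grid Crest.Agent.R079.Glue Crest.Agent.R079.Growth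
  Crest.Agent.R079.QRed Crest.Agent.R079.OpK276 Crest.Agent.R079.WS112 Crest.Agent.R079.WS0112
  Crest.Agent.R079.NP112

/-- HIGH, unconditional -/
theorem highN_psiL : ∃ K : ℝ, 0 ≤ K ∧ HighN (PsiL K 2) := by
  obtain ⟨K, hK, h⟩ := CKk217.highN_TR
  refine ⟨K, hK, ?_⟩
  have h1 : HighN (fun cap Hc Hx => K * (1 + Real.log (cap * Hc * Hx)) ^ 2) := by
    intro i m a hd bb ε hA W I hW F V cap Hc Hx M3 hh s0 b0 S w u c ξ g1 g2 g3 g4 g5 hG hF hav hH g6
    exact h i m a hd.h0 hd.h2 hd.h02 hd.h1 hd.h01 (Ne.symm hd.h12) bb ε hA W I hW F hh V cap Hc Hx M3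
      s0 b0 S w u c ξ g5 g1 g2 g3 (by linarith) hG hav hH g6 hF
  refine h1.mono fun cap Hc Hx g1 g2 g3 => ?_
  unfold PsiL
  have hp : 1 ≤ cap * Hc * Hx := by
    have := mul_le_mul (mul_le_mul g1 g2 zero_le_one (by linarith)) g3 zero_le_one (by positivity)
    linarith
  have hl : Real.log (cap * Hc * Hx) ≤ Real.log (2 + cap * Hc * Hx) :=
    Real.log_le_log (by linarith) (by linarith)
  have h0 : 0 ≤ Real.log (cap * Hc * Hx) := Real.log_nonneg hp
  exact mul_le_mul_of_nonneg_left (pow_le_pow_left₀ (by linarith) (by linarith) 2) hK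

/-- **FIELD `cell` OF `LeavesC (PF x C ρ c) q3 d`, NO HYPOTHESIS** -/
theorem cellF_PF {x C ρ c q3 : ℝ} (hA : Adm4 x C ρ c) (hx : 40 ≤ x) (hc : c ≤ 1 / 8)
    (hq : 40 * C + 40 ≤ q3) : CellF (PF x C ρ c) q3 := by
  obtain ⟨K, hK, hH⟩ := highN_psiL
  exact cellF_of_high hK hH hA hx hc hq

/-- **`S0106` FROM THE SPLITTING OF ONE GENERATION** (`gen` is the only input left) -/
theorem target_of_gen
    (hs : ∃ x0 : ℝ, ∀ x, x0 ≤ x → ∃ ρ0 : ℝ, 0 < ρ0 ∧ ∀ ρ, 0 < ρ → ρ ≤ ρ0 → ∃ c0 : ℝ, 0 < c0 ∧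
      ∀ c, 0 < c → c ≤ c0 → ∃ C0 : ℝ, ∀ C, C0 ≤ C → ∀ q3, 2 < q3 → Adm4 x C ρ c →
        SpF (PF x C ρ c) q3 (dF C ρ c)) : L0.Target :=
  target_of_two (fun hA hx hc hq => cellF_PF hA hx hc hq) hs

end Crest.Agent.R079.CKgx37
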