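import Crest.Agent.R079.OpKc_276

/-! R079 (helper276): **OpKill with exponents** (dictionary-free): `opKill_core`. -/

set_option autoImplicit false

namespace Crest.Agent.R079.OpK276

open Finset Crest.Agent.R079.Grid Crest.Agent.R079.Growth Crest.Agent.R079.QRed
  Crest.Agent.R079.Qe292 Crest.Agent.R079.TRec Crest.Agent.R079.T6ax252
  Crest.Agent.R079.TFrz679 Crest.Agent.R079.OLevSw Crest.Agent.R079.OpS276

theorem OpP.mono {c : ℤ → ℤ → ℂ} {K : Fn} {α β γ : ℤ} {s s' : ℝ} (hs : 0 ≤ s) (h : s ≤ s') {p : Nd}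
    {w a b : ℤ} (hO : KLx446.OpP c K α β γ s p w a b) : KLx446.OpP c K α β γ s' p w a b := by
  intro u v
  refine (hO u v).trans ?_
  have h1 : (s * 2 ^ p.1) ^ 2 ≤ (s' * 2 ^ p.1) ^ 2 :=
    pow_le_pow_left₀ (by positivity) (mul_le_mul_of_nonneg_right h (by positivity)) 2
  exact mul_le_mul_of_nonneg_right h1 (mul_nonneg (Finset.sum_nonneg fun _ _ => sq_nonneg _)
    (Finset.sum_nonneg fun _ _ => sq_nonneg _))

theorem ExD.mono {R : Finset Nd} {c : ℤ → ℤ → ℂ} {K : Fn} {α β γ : ℤ} {s s' D D' : ℝ} (hs : 0 ≤ s)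
    (h : s ≤ s') (hD : D ≤ D') (hE : KLx446.ExD R c K α β γ s D) :
    KLx446.ExD R c K α β γ s' D' := by
  classical
  intro p hp w a b
  refine le_trans ?_ ((hE p hp w a b).trans (mul_le_mul_of_nonneg_right hD (by positivity)))
  refine Nat.cast_le.2 (Finset.card_le_card ?_)
  intro z hz
  rw [Finset.mem_filter] at hz ⊢
  exact ⟨hz.1, fun h' => hz.2 (OpP.mono hs h h')⟩

set_option maxHeartbeats 1000000 in
/-- **ONE OP-ATOM of arbitrary side, position and special vertex is killed** (exponents) -/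
theorem opKill_core {Φ : ℝ → ℝ → ℝ → ℝ → ℝ → ℝ} (hKN : KillN Φ) {k q3 : ℝ} (hk : 0 < k)
    (hkq : 2 + k ≤ q3) {i m : Fin 4} (hi3 : i ≠ 3) (hm3 : m ≠ 3) (him : i ≠ m)
    {ga x0 f0 β g x f c0 C' h κ : ℝ} (hκ : 0 < κ) (hx0 : 0 ≤ x0) (hf0 : 0 ≤ f0) (hβ : 0 < β)
    (hg : 0 < g) (hx : 0 ≤ x) (hf : 0 < f) (hC' : 0 ≤ C') (hh : 0 ≤ h)
    (c1 : ga + c0 ≤ C' / (2 * (2 + k))) (c2 : (ga + 2 * f0 + x0) + c0 ≤ h * (k / 2))
    (c3 : β * g ≤ h * (1 + k))
    (hΦ : ∃ KΦ tΦ : ℝ, 0 ≤ KΦ ∧ 0 < tΦ ∧ ∀ t, 0 < t → t ≤ tΦ →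
      Φ (280 * t ^ (β * min g f)) (t ^ (β * x)) (t ^ (-(κ + 2 * f0 + x0 + C')))
        (t ^ (-(2 * f0 + C'))) (t ^ (-h)) ≤ KΦ * t ^ (ga + c0)) :
    ∃ t0 K : ℝ, 0 < t0 ∧ t0 ≤ 1 ∧ 0 ≤ K ∧ ∀ (N : ℕ) (B : ℝ), 0 ≤ B → BN k q3 N B →
      ∀ t, 0 < t → t ≤ t0 → ∀ bb ε, Adm bb ε → ∀ W I, Full W I → I.1 ≤ N → ∀ F : Fin 4 → Fn,
      (∀ j, j ≠ i → ∀ p ∈ W, aq (qx k q3 j) p (F j) ≤ 1) →
      ∀ (j e e' : Fin 4) (n : ℕ) (ψ : Fn), Dst4 i j e e' →
      IsOpS i j e e' n (t ^ (-x0)) (t ^ (-(2 * f0))) ψ →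
      (∀ y ∈ iv I, F i y = ((t ^ (-ga) / (n : ℝ) ^ 2 : ℝ) : ℂ) * ψ y) →
      (∀ p ∈ W, LvS g x f m (t ^ β) 1 p (F m)) →
      ‖TR bb ε W F‖ ≤ K * (1 + B) * t ^ c0 * len I := by
  obtain ⟨K1, hK1, hcut⟩ := cut_all
  obtain ⟨KΦ, tΦ, hKΦ, htΦ, hΦb⟩ := hΦ
  set σ : ℝ := β * min g f with hσ
  have hσ0 : 0 < σ := mul_pos hβ (lt_min hg hf)
  set t1 : ℝ := (1 / 280 : ℝ) ^ (1 / σ) with ht1
  have ht10 : 0 < t1 := Real.rpow_pos_of_pos (by norm_num) _
  set t2 : ℝ := (1 / 3 : ℝ) ^ (1 / κ) with ht2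
  have ht20 : 0 < t2 := Real.rpow_pos_of_pos (by norm_num) _
  refine ⟨min (min tΦ t1) (min t2 1), 324 * 959 * KΦ + 972 + 3 * K1, by positivity,
    (min_le_right _ _).trans (min_le_right _ _), by positivity, ?_⟩
  intro N B hB hBN t ht htt bb ε hA W I hW hI F hF j e e' n ψ hd hψ hFi hlv
  have htΦ' : t ≤ tΦ := htt.trans ((min_le_left _ _).trans (min_le_left _ _))
  have htt1 : t ≤ t1 := htt.trans ((min_le_left _ _).trans (min_le_right _ _))
  have ht3 : t ≤ t2 := htt.trans ((min_le_right _ _).trans (min_le_left _ _))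
  have htle : t ≤ 1 := htt.trans ((min_le_right _ _).trans (min_le_right _ _))
  have hW' : ∀ p ∈ W, iv p ⊆ iv I := fun p hp => hW.reg.1 p hp
  have hL := Growth.len_pos I
  have hmi : m ≠ i := him.symm
  -- powers
  have hpw : ∀ a b : ℝ, a ≤ b → t ^ b ≤ t ^ a := fun a b hab =>
    Real.rpow_le_rpow_of_exponent_ge ht htle hab
  have hp0 : ∀ a : ℝ, 0 < t ^ a := fun a => Real.rpow_pos_of_pos ht _
  have hone : ∀ a : ℝ, 0 ≤ a → 1 ≤ t ^ (-a) := fun a ha =>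
    Real.one_le_rpow_of_pos_of_le_one_of_nonpos ht htle (by linarith)
  set H : ℝ := t ^ (-h) with hH
  have hH1 : 1 ≤ H := hone h hh
  have hH0 : 0 < H := hp0 _
  set T : ℝ := t ^ β with hT
  have hT0 : 0 < T := hp0 _
  have hT1 : T ≤ 1 := Real.rpow_le_one ht.le htle hβ.le
  -- the height cut
  set M : ℝ := t ^ (-(ga + 2 * f0 + x0)) with hM
  have hM0 : 0 < M := hp0 _
  obtain ⟨w, q, u, m', U, V, α, hSD, hψe⟩ := id hψ
  have hrep : Rep i I (F i) M := by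
    set H0 : ℝ := Real.sqrt (t ^ (-(2 * f0)) * t ^ (-x0)) with hH0'
    have hH2 : H0 ^ 2 = t ^ (-(2 * f0)) * t ^ (-x0) := Real.sq_sqrt (by
      have := hp0 (-(2 * f0)); have := hp0 (-x0); positivity)
    have h1 := rep_opA hd hSD w q u (H := H0) (κ := t ^ (-ga) / (n : ℝ) ^ 2) (M := M)
      (by have := hp0 (-ga); positivity) (Real.sqrt_nonneg _) (hp0 _).le hH2.ge hM0 (by
        rw [hH2]
        have e1 : t ^ (-ga) * (t ^ (-(2 * f0)) * t ^ (-x0)) = M := by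
          rw [hM, ← Real.rpow_add ht, ← Real.rpow_add ht]; congr 1; ring
        rcases Nat.eq_zero_or_pos n with hn | hn
        · subst hn
          simpa using hM0.le
        · have hn' : (0 : ℝ) < n := by exact_mod_cast hn
          refine le_of_eq ?_
          rw [← e1]
          field_simp) I
    obtain ⟨n', φ', c', h2, h3, h4⟩ := h1
    exact ⟨n', φ', c', h2, fun y hy => by rw [hFi y hy, hψe]; exact h3 y hy, h4⟩
  have hq3 : 2 < q3 := by linarith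
  have h1 := hcut hA hW hk hq3 hF hH0 hM0.le hrep
  set F' := cutS H ((Finset.univ : Finset (Fin 4)).erase i) F with hF'
  have hF'i : F' i = F i := by
    rw [hF']; unfold cutS; rw [if_neg (Finset.notMem_erase i _)]
  have hF'j : ∀ j, j ≠ i → F' j = BadN360.lo H (F j) := by
    intro j hj
    rw [hF']; unfold cutS; rw [if_pos (Finset.mem_erase.2 ⟨hj, Finset.mem_univ j⟩)]
  have herr : K1 * M * (∑ j ∈ (Finset.univ : Finset (Fin 4)).erase i, etaq k q3 H j) * len I ≤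
      3 * K1 * t ^ c0 * len I := by
    have h2 := sum_etaq hk hkq hH1 i
    have h3 : M * H ^ (-(k / 2)) ≤ t ^ c0 := by
      rw [hM, hH, ← Real.rpow_mul ht.le, ← Real.rpow_add ht]
      refine hpw _ _ ?_
      have : -h * -(k / 2) = h * (k / 2) := by ring
      rw [this]; linarith
    calc _ ≤ K1 * M * (3 * H ^ (-(k / 2))) * len I :=
          mul_le_mul_of_nonneg_right (mul_le_mul_of_nonneg_left h2 (by positivity)) hL.le
      _ = 3 * K1 * (M * H ^ (-(k / 2))) * len I := by ring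
      _ ≤ _ := mul_le_mul_of_nonneg_right
          (mul_le_mul_of_nonneg_left h3 (by positivity)) hL.le
  -- normalisation of the atom
  have h2 := TR_scale (ε := ε) hA hW' F' i (fun y => ψ y / (n : ℂ) ^ 2) ((t ^ (-ga) : ℝ) : ℂ)
    (fun y hy => by
      rw [hF'i, hFi y hy]
      push_cast
      ring)
  -- the exceptional sets of the cut killer
  have hE : ∀ e1 e2 : Fin 4, Dst4 i m e1 e2 → ∀ c : ℤ → ℤ → ℂ, (∀ z z', ‖c z z'‖ ≤ 1) →
      KLx446.ExD W c (Function.update F' i (fun y => ψ y / (n : ℂ) ^ 2) m) (sl i - sl m)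
        (sl e1 - sl m) (sl e2 - sl m) (280 * t ^ σ) (t ^ (β * x)) := by
    intro e1 e2 hd' c hc
    rw [Function.update_of_ne hmi, hF'j m hmi]
    have hqm : qx k q3 m = 2 + k := by unfold qx; rw [if_neg hm3]
    have hs0 : 1 + T ^ (-g) * H ^ (-(1 + k)) ≤ 2 := by
      have : T ^ (-g) * H ^ (-(1 + k)) ≤ 1 := by
        rw [hT, hH, ← Real.rpow_mul ht.le, ← Real.rpow_mul ht.le, ← Real.rpow_add ht]
        refine Real.rpow_le_one ht.le htle ?_
        have e1 : β * -g + -h * -(1 + k) = h * (1 + k) - β * g := by ring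
        rw [e1]; linarith
      linarith
    have hd'' : Dst4 m i e1 e2 :=
      ⟨him, hd'.ke, hd'.ke', hd'.je, hd'.je', hd'.ee'⟩
    have h3 := exD_of_lvS hd'' hT0 (s := 2) (A := 1) (by norm_num) zero_le_one (R := W)
      (K := BadN360.lo H (F m)) (g := g) (x := x) (f := f)
      (fun p hp => (lvS_cut hT0 (hlv p hp) hk hH0 (by
        have := hF m hmi p hp; rwa [hqm] at this)).mono hs0)
      (fun p hp => (BadN360.av_lo H p _).trans
        ((TAsm398.av_le_aq (two_lt_qx hk hq3 m).le p (F m)).trans (hF m hmi p hp))) hc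
    have e3 : 128 * 2 * T ^ g + 24 * 1 * T ^ f ≤ 280 * t ^ σ := by
      have e4 : T ^ g ≤ t ^ σ := by
        rw [hT, ← Real.rpow_mul ht.le]
        exact hpw _ _ (mul_le_mul_of_nonneg_left (min_le_left _ _) hβ.le)
      have e5 : T ^ f ≤ t ^ σ := by
        rw [hT, ← Real.rpow_mul ht.le]
        exact hpw _ _ (mul_le_mul_of_nonneg_left (min_le_right _ _) hβ.le)
      linarith
    have e6 : T ^ x ≤ t ^ (β * x) := by rw [hT, ← Real.rpow_mul ht.le]
    refine ExD.mono ?_ e3 e6 h3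
    have := Real.rpow_pos_of_pos hT0 g
    have := Real.rpow_pos_of_pos hT0 f
    positivity
  -- caps
  have hHf1 : 1 ≤ t ^ (-(2 * f0)) := hone _ (by linarith)
  have hHt1 : 1 ≤ t ^ (-x0) := hone _ hx0
  have hs1 : 280 * t ^ σ ≤ 1 := by
    have h3 : t ^ σ ≤ t1 ^ σ := Real.rpow_le_rpow ht.le htt1 hσ0.le
    have h4 : t1 ^ σ = 1 / 280 := by
      rw [ht1, ← Real.rpow_mul (by norm_num), one_div_mul_cancel hσ0.ne', Real.rpow_one]
    rw [h4] at h3
    linarith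
  have hcap1 : (t ^ (-(2 * f0)) + 1) * t ^ (-x0) + 1 ≤ t ^ (-(κ + 2 * f0 + x0 + C')) := by
    have a1 : (t ^ (-(2 * f0)) + 1) * t ^ (-x0) + 1 ≤ 3 * (t ^ (-(2 * f0)) * t ^ (-x0)) := by
      nlinarith
    have a2 : 3 ≤ t ^ (-κ) := by
      have b1 : t ^ κ ≤ 1 / 3 := by
        have b2 : t ^ κ ≤ t2 ^ κ := Real.rpow_le_rpow ht.le ht3 hκ.le
        have b3 : t2 ^ κ = 1 / 3 := by
          rw [ht2, ← Real.rpow_mul (by norm_num), one_div_mul_cancel hκ.ne', Real.rpow_one]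
        rwa [b3] at b2
      rw [Real.rpow_neg ht.le, le_inv_comm₀ (by norm_num) (hp0 _)]
      linarith
    have a3 : t ^ (-κ) * (t ^ (-(2 * f0)) * t ^ (-x0)) = t ^ (-(κ + 2 * f0 + x0)) := by
      rw [← Real.rpow_add ht, ← Real.rpow_add ht]; congr 1; ring
    calc _ ≤ 3 * (t ^ (-(2 * f0)) * t ^ (-x0)) := a1
      _ ≤ t ^ (-κ) * (t ^ (-(2 * f0)) * t ^ (-x0)) :=
          mul_le_mul_of_nonneg_right a2 (by positivity)
      _ = t ^ (-(κ + 2 * f0 + x0)) := a3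
      _ ≤ _ := hpw _ _ (by linarith)
  have hτi : (t ^ C')⁻¹ = t ^ (-C') := (Real.rpow_neg ht.le C').symm
  have hcap2 : (t ^ C')⁻¹ * t ^ (-x0) ≤ t ^ (-(κ + 2 * f0 + x0 + C')) := by
    rw [hτi, ← Real.rpow_add ht]
    exact hpw _ _ (by linarith)
  have hcap3 : (t ^ C')⁻¹ * t ^ (-(2 * f0)) ≤ t ^ (-(2 * f0 + C')) := by
    rw [hτi, ← Real.rpow_add ht]
    exact hpw _ _ (by linarith)
  have h3 := one_atom hKN hk hkq hB hBN hA hW hI hi3 hm3 him
    (F := Function.update F' i (fun y => ψ y / (n : ℂ) ^ 2)) (fun j hj p hp => by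
      rw [Function.update_of_ne hj, hF'j j hj]
      have hqj : 0 < qx k q3 j := by unfold qx; split_ifs <;> linarith
      exact (BadN360.aq_lo hqj H p _).trans (hF j hj p hp))
    (s := 280 * t ^ σ) (D := t ^ (β * x)) (Ht := t ^ (-x0)) (Hf := t ^ (-(2 * f0))) (H := H)
    (Ht' := t ^ (-(κ + 2 * f0 + x0 + C'))) (Hf' := t ^ (-(2 * f0 + C'))) (τ := t ^ C')
    (by have := hp0 σ; positivity) hs1 (hp0 _)
    (Real.rpow_le_one ht.le htle (mul_nonneg hβ.le hx)) hHf1 hHt1 hH1 (hp0 _)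
    (Real.rpow_le_one ht.le htle hC') hcap1 hcap2 hcap3 hd hψ
    (fun y _ => by rw [Function.update_self]) (fun j hj y => by
      rw [Function.update_of_ne hj, hF'j j hj]
      exact BadN360.norm_lo_le hH0.le _ y) hE
  have h4 := hΦb t ht htΦ'
  have h5 : (t ^ C') ^ (1 / (2 * (2 + k))) ≤ t ^ (ga + c0) := by
    rw [← Real.rpow_mul ht.le, mul_one_div]
    exact hpw _ _ c1
  have h6 : t ^ (-ga) * t ^ (ga + c0) = t ^ c0 := by
    rw [← Real.rpow_add ht]; congr 1; ring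
  -- total
  have hga : 0 < t ^ (-ga) := hp0 _
  rw [h2, norm_mul, Complex.norm_real, Real.norm_of_nonneg hga.le] at h1
  have h7 : t ^ (-ga) * ‖TR bb ε W (Function.update F' i (fun y => ψ y / (n : ℂ) ^ 2))‖ ≤
      (324 * 959 * KΦ + 972 * B) * t ^ c0 * len I := by
    calc _ ≤ t ^ (-ga) * (324 * (959 * (KΦ * t ^ (ga + c0)) + 3 * B * t ^ (ga + c0)) * len I) := by
          refine mul_le_mul_of_nonneg_left (h3.trans ?_) hga.le
          refine mul_le_mul_of_nonneg_right ?_ hL.le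
          have := mul_le_mul_of_nonneg_left h5 (by positivity : (0 : ℝ) ≤ 3 * B)
          linarith
      _ = (324 * 959 * KΦ + 972 * B) * (t ^ (-ga) * t ^ (ga + c0)) * len I := by ring
      _ = _ := by rw [h6]
  have h8 : 0 ≤ t ^ c0 * len I := by have := hp0 c0; positivity
  calc ‖TR bb ε W F‖ ≤ (324 * 959 * KΦ + 972 * B) * t ^ c0 * len I + 3 * K1 * t ^ c0 * len I :=
        h1.trans (add_le_add h7 herr)
    _ = (324 * 959 * KΦ + 972 * B + 3 * K1) * (t ^ c0 * len I) := by ring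
    _ ≤ ((324 * 959 * KΦ + 972 + 3 * K1) * (1 + B)) * (t ^ c0 * len I) := by
        refine mul_le_mul_of_nonneg_right ?_ h8
        nlinarith
    _ = _ := by ring

end Crest.Agent.R079.OpK276
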