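import Crest.Agent.R079.CKn_37
import Crest.Agent.R079.CKs_217
import Crest.Agent.R079.OpKd_276

/-! R079 (helper37), CELLKILL part 7: **A CELL IS KILLED, WITH EXPONENTS** (`cellKill_core`), from the
kill lemma `KillN` of `OpKc_276` (LOW) and from `HighN` (HIGH, helper217). -/

set_option autoImplicit false

namespace Crest.Agent.R079.CKgx37

open Finset Crest.Agent.R079.Grid Crest.Agent.R079.Glue Crest.Agent.R079.Growth
  Crest.Agent.R079.QRed Crest.Agent.R079.Cell37 Crest.Agent.R079.KLx446 Crest.Agent.R079.OpS276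
  Crest.Agent.R079.OLevSw Crest.Agent.R079.OpK276 Crest.Agent.R079.Qe292 Crest.Agent.R079.TRec
  Crest.Agent.R079.TFrz679

/-- **HIGH**: a group whose base function is cut from below at `h` -/
def HighN (Ψ : ℝ → ℝ → ℝ → ℝ) : Prop :=
  ∀ (i m a : Fin 4), D4 i m 3 a → ∀ bb ε, Adm bb ε → ∀ W I, Full W I →
    ∀ (F : Fin 4 → Fn) (V cap Hc Hx M3 h : ℝ) (s0 b0 : ℤ) (S : Finset ℤ) (w : ℤ → ℝ) (u c : ℤ → ℂ)
      (ξ : ℤ → ℝ), 1 ≤ cap → 1 ≤ Hc → 1 ≤ Hx → 1 ≤ M3 → 1 ≤ h →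
      GrpD (lenN I) V cap Hc s0 b0 S w u c →
      (∀ y ∈ iv I, F i y = grp S w u (hiC h c) ξ y) →
      (∀ j, j ≠ i → ∀ p ∈ W, av p (F j) ≤ 1) → (∀ j, j ≠ i → ∀ y, ‖F j y‖ ≤ Hx) →
      (∀ y, ‖F 3 y‖ ≤ M3) →
      ‖TR bb ε W F‖ ≤ Ψ cap Hc Hx * (M3 * V / h) * len I

set_option maxRecDepth 20000 in
theorem exists_third : ∀ {i m : Fin 4}, i ≠ 3 → m ≠ 3 → i ≠ m → ∃ a : Fin 4,
    i ≠ a ∧ m ≠ a ∧ (3 : Fin 4) ≠ a := by
  intro i m
  revert i m
  decide

set_option maxHeartbeats 1000000 in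
/-- **ONE CELL IS KILLED** (exponents) -/
theorem cellKill_core {Φ : ℝ → ℝ → ℝ → ℝ → ℝ → ℝ} (hKN : KillN Φ) {Ψ : ℝ → ℝ → ℝ → ℝ} (hHN : HighN Ψ)
    {k q3 : ℝ} (hk : 0 < k) (hkq : 2 + k ≤ q3) {i m : Fin 4} (hi3 : i ≠ 3) (hm3 : m ≠ 3)
    (him : i ≠ m) {C0 δ0 β g x f c1 D0 h hc s3 : ℝ} (hC0 : 0 ≤ C0) (hδ0 : 0 ≤ δ0) (hβ : 0 < β)
    (hg : 0 < g) (hx : 0 ≤ x) (hf : 0 < f) (hD0 : 0 ≤ D0) (hh : 0 ≤ h) (hhc : 0 ≤ hc)
    (hs3 : 0 ≤ s3) (n1 : c1 + δ0 + 2 * C0 ≤ D0 / 2) (n2 : c1 + δ0 + 2 * C0 ≤ h * (k / 2))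
    (n3 : c1 + δ0 + 2 * C0 ≤ s3 * ((q3 - 2) / 2)) (n4 : β * g ≤ h * (1 + k))
    (hΦ : ∃ KΦ tΦ : ℝ, 0 ≤ KΦ ∧ 0 < tΦ ∧ ∀ t, 0 < t → t ≤ tΦ →
      Φ (280 * t ^ (β * min g f)) (t ^ (β * x)) (t ^ (-(1 + 2 * C0 + δ0 + D0))) 1 (t ^ (-h)) ≤
        KΦ * t ^ (hc + c1))
    (hΨ : ∃ KΨ tΨ : ℝ, 0 ≤ KΨ ∧ 0 < tΨ ∧ ∀ t, 0 < t → t ≤ tΨ →
      Ψ (t ^ (-(2 * C0 + δ0 + D0))) (t ^ (-(2 * C0 + δ0))) (t ^ (-h)) ≤
        KΨ * t ^ (-(hc - s3 - c1))) :
    ∃ t0 K : ℝ, 0 < t0 ∧ t0 ≤ 1 ∧ 0 ≤ K ∧ ∀ t, 0 < t → t ≤ t0 → ∀ bb ε, Adm bb ε →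
      ∀ W I, Full W I → ∀ F : Fin 4 → Fn,
      (∀ j, j ≠ i → ∀ p ∈ W, aq (qx k q3 j) p (F j) ≤ 1) →
      ∀ (n : ℕ) (a b : ℤ) (w : ℤ → ℝ) (u c : ℤ → ℂ) (ξ : ℤ → ℝ), CellD n a b (t ^ (-C0)) w u c →
      (∀ y ∈ iv I, F i y = cph n a w u c ξ y) →
      (∀ p ∈ W, LvS g x f m (t ^ β) 1 p (F m)) →
      ‖TR bb ε W F‖ ≤ K * t ^ c1 * (t ^ δ0 + cS n a w c I) * len I := by
  obtain ⟨K1, hK1, hcut⟩ := cut_all
  obtain ⟨K2, hK2, hstep⟩ := cut_step
  obtain ⟨K3, hK3, hsmall⟩ := CKx217.small_cell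
  obtain ⟨KΦ, tΦ, hKΦ, htΦ, hΦb⟩ := hΦ
  obtain ⟨KΨ, tΨ, hKΨ, htΨ, hΨb⟩ := hΨ
  obtain ⟨a3, ha1, ha2, ha3⟩ := exists_third hi3 hm3 him
  obtain ⟨e1, e2, hmi, hme1, hme2, hie1, hie2, he12⟩ := exists_two him
  set σ : ℝ := β * min g f with hσ
  have hσ0 : 0 < σ := mul_pos hβ (lt_min hg hf)
  set t1 : ℝ := (1 / 280 : ℝ) ^ (1 / σ) with ht1
  have ht10 : 0 < t1 := Real.rpow_pos_of_pos (by norm_num) _
  refine ⟨min (min (min tΦ tΨ) t1) (1 / 257),
    K3 + 768 * (3 * K1 + K2) + 9 * (378805 * KΦ + KΨ), by positivity,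
    (min_le_right _ _).trans (by norm_num), by positivity, ?_⟩
  intro t ht htt bb ε hA W I hW F hF n a b w u c ξ hcell hFi hlv
  have htΦ' : t ≤ tΦ :=
    htt.trans ((min_le_left _ _).trans ((min_le_left _ _).trans (min_le_left _ _)))
  have htΨ' : t ≤ tΨ :=
    htt.trans ((min_le_left _ _).trans ((min_le_left _ _).trans (min_le_right _ _)))
  have htt1 : t ≤ t1 := htt.trans ((min_le_left _ _).trans (min_le_right _ _))
  have ht3 : t ≤ 1 / 257 := htt.trans (min_le_right _ _)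
  have htle : t ≤ 1 := by linarith
  have hW' : ∀ p ∈ W, iv p ⊆ iv I := fun p hp => hW.reg.1 p hp
  have hL := Growth.len_pos I
  have hq3 : 2 < q3 := by linarith
  -- powers
  have hpw : ∀ a b : ℝ, a ≤ b → t ^ b ≤ t ^ a := fun a b hab =>
    Real.rpow_le_rpow_of_exponent_ge ht htle hab
  have hp0 : ∀ a : ℝ, 0 < t ^ a := fun a => Real.rpow_pos_of_pos ht _
  have hone : ∀ a : ℝ, 0 ≤ a → 1 ≤ t ^ (-a) := fun a ha =>
    Real.one_le_rpow_of_pos_of_le_one_of_nonpos ht htle (by linarith)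
  have hadd : ∀ a b : ℝ, t ^ a * t ^ b = t ^ (a + b) := fun a b => (Real.rpow_add ht a b).symm
  set H : ℝ := t ^ (-C0) with hH
  have hH1 : 1 ≤ H := hone C0 hC0
  have hH0 : 0 < H := hp0 _
  have hH2 : H ^ 2 = t ^ (-(2 * C0)) := by
    rw [sq, hH, hadd]; congr 1; ring
  have hcS0 : 0 ≤ cS n a w c I := cS_nonneg hcell I
  have hgoal0 : t ^ (c1 + δ0) ≤ t ^ c1 * (t ^ δ0 + cS n a w c I) := by
    rw [← hadd]
    exact mul_le_mul_of_nonneg_left (by linarith) (hp0 _).le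
  have hR0 : 0 ≤ t ^ c1 * (t ^ δ0 + cS n a w c I) := (hp0 _).le.trans hgoal0
  have hav : ∀ j, j ≠ i → ∀ p ∈ W, av p (F j) ≤ 1 := fun j hj p hp =>
    (TAsm398.av_le_aq (two_lt_qx hk hq3 j).le p (F j)).trans (hF j hj p hp)
  -- small cells
  by_cases hn : t ^ D0 * len I ≤ n
  swap
  · push Not at hn
    have hD1 : t ^ D0 ≤ 1 := Real.rpow_le_one ht.le htle hD0
    have hnl : (n : ℝ) ≤ len I := hn.le.trans (mul_le_of_le_one_left hL.le hD1)
    have h1 := hsmall bb F i W I n a b H w u c ξ hA.1 hW.reg hav hcell hH1 hFi hnl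
    have h2 : Real.sqrt (n / len I) ≤ t ^ (D0 / 2) := by
      have e1 : t ^ (D0 / 2) = Real.sqrt (t ^ D0) := by
        rw [Real.sqrt_eq_rpow, ← Real.rpow_mul ht.le]; congr 1; ring
      rw [e1]
      refine Real.sqrt_le_sqrt ?_
      rw [div_le_iff₀ hL]
      exact hn.le
    have h3 : H ^ 2 * Real.sqrt (n / len I) ≤ t ^ (c1 + δ0) := by
      calc H ^ 2 * Real.sqrt (n / len I) ≤ t ^ (-(2 * C0)) * t ^ (D0 / 2) := by
            rw [hH2]
            exact mul_le_mul_of_nonneg_left h2 (hp0 _).le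
        _ = t ^ (-(2 * C0) + D0 / 2) := hadd _ _
        _ ≤ _ := hpw _ _ (by linarith)
    calc ‖TR bb ε W F‖ ≤ K3 * H ^ 2 * Real.sqrt (n / len I) * len I :=
          (norm_TR_abs hA W F).trans h1
      _ = K3 * (H ^ 2 * Real.sqrt (n / len I)) * len I := by ring
      _ ≤ K3 * (t ^ c1 * (t ^ δ0 + cS n a w c I)) * len I := by
          refine mul_le_mul_of_nonneg_right (mul_le_mul_of_nonneg_left (h3.trans hgoal0) hK3) hL.le
      _ ≤ (K3 + 768 * (3 * K1 + K2) + 9 * (378805 * KΦ + KΨ)) *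
          (t ^ c1 * (t ^ δ0 + cS n a w c I)) * len I := by
          refine mul_le_mul_of_nonneg_right (mul_le_mul_of_nonneg_right ?_ hR0) hL.le
          have : 0 ≤ 768 * (3 * K1 + K2) + 9 * (378805 * KΦ + KΨ) := by positivity
          linarith
      _ = _ := by ring
  -- the mass of the cell
  set M : ℝ := 768 * H ^ 2 with hM
  have hM0 : 0 ≤ M := by positivity
  have hrep : Rep i I (F i) M := by
    obtain ⟨n', φ', c', h2, h3, h4⟩ := rep_cell hcell hH0 ξ i I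
    exact ⟨n', φ', c', h2, fun y hy => by rw [hFi y hy]; exact h3 y hy, h4⟩
  -- cut of the letter 3
  set M3 : ℝ := t ^ (-s3) with hM3
  have hM31 : 1 ≤ M3 := hone _ hs3
  have hM30 : 0 < M3 := hp0 _
  have c1' := hstep hA hW hk hq3 hF (H := M3) hM30 hM0 hrep ∅ 3 (Finset.notMem_empty _)
    (Finset.notMem_empty _) (Ne.symm hi3)
  have ecut0 : cutS M3 ∅ F = F := by
    funext j; unfold cutS; rw [if_neg (Finset.notMem_empty j)]
  rw [ecut0] at c1'
  set F1 := cutS M3 (insert 3 ∅) F with hF1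
  have hF13 : F1 3 = BadN360.lo M3 (F 3) := by
    rw [hF1]; unfold cutS; rw [if_pos (Finset.mem_insert_self _ _)]
  have hF1j : ∀ j, j ≠ 3 → F1 j = F j := by
    intro j hj
    rw [hF1]; unfold cutS
    rw [if_neg (fun hh => by
      rcases Finset.mem_insert.1 hh with hh | hh
      · exact hj hh
      · exact Finset.notMem_empty _ hh)]
  have hF1q : ∀ j, j ≠ i → ∀ p ∈ W, aq (qx k q3 j) p (F1 j) ≤ 1 := by
    intro j hj p hp
    by_cases h3 : j = 3
    · subst h3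
      rw [hF13]
      have hqj : 0 < qx k q3 3 := by unfold qx; split_ifs <;> linarith
      exact (BadN360.aq_lo hqj M3 p _).trans (hF 3 hj p hp)
    · rw [hF1j j h3]; exact hF j hj p hp
  -- cut of all letters
  set Hx : ℝ := t ^ (-h) with hHx
  have hHx1 : 1 ≤ Hx := hone h hh
  have hHx0 : 0 < Hx := hp0 _
  have c2' := hcut hA hW hk hq3 hF1q hHx0 hM0 (by rw [hF1j i hi3]; exact hrep)
  set F2 := cutS Hx ((Finset.univ : Finset (Fin 4)).erase i) F1 with hF2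
  have hF2i : F2 i = F i := by
    rw [hF2]; unfold cutS; rw [if_neg (Finset.notMem_erase i _), hF1j i hi3]
  have hF2j : ∀ j, j ≠ i → F2 j = BadN360.lo Hx (F1 j) := by
    intro j hj
    rw [hF2]; unfold cutS; rw [if_pos (Finset.mem_erase.2 ⟨hj, Finset.mem_univ j⟩)]
  have hF2av : ∀ j, j ≠ i → ∀ p ∈ W, av p (F2 j) ≤ 1 := by
    intro j hj p hp
    rw [hF2j j hj]
    exact (BadN360.av_lo Hx p _).trans
      ((TAsm398.av_le_aq (two_lt_qx hk hq3 j).le p (F1 j)).trans (hF1q j hj p hp))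
  have hF2H : ∀ j, j ≠ i → ∀ y, ‖F2 j y‖ ≤ Hx := by
    intro j hj y
    rw [hF2j j hj]
    exact BadN360.norm_lo_le hHx0.le _ y
  have hF23 : ∀ y, ‖F2 3 y‖ ≤ M3 := by
    intro y
    rw [hF2j 3 (Ne.symm hi3)]
    refine (BadN360.norm_lo_le' Hx _ y).trans ?_
    rw [hF13]
    exact BadN360.norm_lo_le hM30.le _ y
  -- errors of the two cuts
  have her1 : K2 * M * etaq k q3 M3 3 * len I ≤
      768 * K2 * (t ^ c1 * (t ^ δ0 + cS n a w c I)) * len I := by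
    have h1 : H ^ 2 * etaq k q3 M3 3 ≤ t ^ (c1 + δ0) := by
      unfold etaq
      have e1 : qx k q3 3 = q3 := by unfold qx; rw [if_pos rfl]
      rw [e1, hM3, ← Real.rpow_mul ht.le, hH2, hadd]
      refine hpw _ _ ?_
      have : -s3 * -((q3 - 2) / 2) = s3 * ((q3 - 2) / 2) := by ring
      rw [this]; linarith
    calc K2 * M * etaq k q3 M3 3 * len I = 768 * K2 * (H ^ 2 * etaq k q3 M3 3) * len I := by
          rw [hM]; ring
      _ ≤ _ := mul_le_mul_of_nonneg_right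
          (mul_le_mul_of_nonneg_left (h1.trans hgoal0) (by positivity)) hL.le
  have her2 : K1 * M * (∑ j ∈ (Finset.univ : Finset (Fin 4)).erase i, etaq k q3 Hx j) * len I ≤
      768 * (3 * K1) * (t ^ c1 * (t ^ δ0 + cS n a w c I)) * len I := by
    have h2 := sum_etaq hk hkq hHx1 i
    have h1 : H ^ 2 * Hx ^ (-(k / 2)) ≤ t ^ (c1 + δ0) := by
      rw [hHx, ← Real.rpow_mul ht.le, hH2, hadd]
      refine hpw _ _ ?_
      have : -h * -(k / 2) = h * (k / 2) := by ring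
      rw [this]; linarith
    calc _ ≤ K1 * M * (3 * Hx ^ (-(k / 2))) * len I :=
          mul_le_mul_of_nonneg_right (mul_le_mul_of_nonneg_left h2 (by positivity)) hL.le
      _ = 768 * (3 * K1) * (H ^ 2 * Hx ^ (-(k / 2))) * len I := by rw [hM]; ring
      _ ≤ _ := mul_le_mul_of_nonneg_right
          (mul_le_mul_of_nonneg_left (h1.trans hgoal0) (by positivity)) hL.le
  -- exceptional sets of the cut killer
  have hE : ∀ X : Fn, ∀ c : ℤ → ℤ → ℂ, (∀ z z', ‖c z z'‖ ≤ 1) →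
      KLx446.ExD W c (Function.update F2 i X m) (sl i - sl m)
        (sl e1 - sl m) (sl e2 - sl m) (280 * t ^ σ) (t ^ (β * x)) := by
    intro X c hc
    rw [Function.update_of_ne hmi, hF2j m hmi, hF1j m hm3]
    have hqm : qx k q3 m = 2 + k := by unfold qx; rw [if_neg hm3]
    set T : ℝ := t ^ β with hT
    have hT0 : 0 < T := hp0 _
    have hs0 : 1 + T ^ (-g) * Hx ^ (-(1 + k)) ≤ 2 := by
      have : T ^ (-g) * Hx ^ (-(1 + k)) ≤ 1 := by
        rw [hT, hHx, ← Real.rpow_mul ht.le, ← Real.rpow_mul ht.le, ← Real.rpow_add ht]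
        refine Real.rpow_le_one ht.le htle ?_
        have e1 : β * -g + -h * -(1 + k) = h * (1 + k) - β * g := by ring
        rw [e1]; linarith
      linarith
    have hd'' : Dst4 m i e1 e2 := ⟨him, hie1, hie2, hme1, hme2, he12⟩
    have h3 := exD_of_lvS hd'' hT0 (s := 2) (A := 1) (by norm_num) zero_le_one (R := W)
      (K := BadN360.lo Hx (F m)) (g := g) (x := x) (f := f)
      (fun p hp => (lvS_cut hT0 (hlv p hp) hk hHx0 (by
        have := hF m hmi p hp; rwa [hqm] at this)).mono hs0)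
      (fun p hp => (BadN360.av_lo Hx p _).trans
        ((TAsm398.av_le_aq (two_lt_qx hk hq3 m).le p (F m)).trans (hF m hmi p hp))) hc
    have e3 : 128 * 2 * T ^ g + 24 * 1 * T ^ f ≤ 280 * t ^ σ := by
      have e4 : T ^ g ≤ t ^ σ := by
        rw [hT, ← Real.rpow_mul ht.le]
        exact hpw _ _ (mul_le_mul_of_nonneg_left (min_le_left _ _) hβ.le)
      have e5 : T ^ f ≤ t ^ σ := by
        rw [hT, ← Real.rpow_mul ht.le]
        exact hpw _ _ (mul_le_mul_of_nonneg_left (min_le_right _ _) hβ.le)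
      linarith
    have e6 : T ^ x ≤ t ^ (β * x) := by rw [hT, ← Real.rpow_mul ht.le]
    refine ExD.mono ?_ e3 e6 h3
    have := Real.rpow_pos_of_pos hT0 g
    have := Real.rpow_pos_of_pos hT0 f
    positivity
  have hs1 : 280 * t ^ σ ≤ 1 := by
    have h3 : t ^ σ ≤ t1 ^ σ := Real.rpow_le_rpow ht.le htt1 hσ0.le
    have h4 : t1 ^ σ = 1 / 280 := by
      rw [ht1, ← Real.rpow_mul (by norm_num), one_div_mul_cancel hσ0.ne', Real.rpow_one]
    rw [h4] at h3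
    linarith
  -- numbers of the groups
  set η : ℝ := t ^ (δ0 + C0) with hη
  have hη0 : 0 < η := hp0 _
  have hη1 : η ≤ 1 := Real.rpow_le_one ht.le htle (by linarith)
  have hHη : H * η = t ^ δ0 := by
    rw [hH, hη, hadd]; congr 1; ring
  have hcap : H / (η * t ^ D0) = t ^ (-(2 * C0 + δ0 + D0)) := by
    rw [hH, hη, hadd, ← Real.rpow_sub ht]; congr 1; ring
  have hHc : H / η = t ^ (-(2 * C0 + δ0)) := by
    rw [hH, hη, ← Real.rpow_sub ht]; congr 1; ring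
  have hcapt : 256 * (H / (η * t ^ D0)) + 1 ≤ t ^ (-(1 + 2 * C0 + δ0 + D0)) := by
    rw [hcap]
    have a1 : 1 ≤ t ^ (-(2 * C0 + δ0 + D0)) := hone _ (by linarith)
    have a2 : (257 : ℝ) ≤ t ^ (-(1 : ℝ)) := by
      rw [Real.rpow_neg_one, le_inv_comm₀ (by norm_num) ht]
      linarith
    calc 256 * t ^ (-(2 * C0 + δ0 + D0)) + 1 ≤ 257 * t ^ (-(2 * C0 + δ0 + D0)) := by linarith
      _ ≤ t ^ (-(1 : ℝ)) * t ^ (-(2 * C0 + δ0 + D0)) :=
          mul_le_mul_of_nonneg_right a2 (hp0 _).le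
      _ = _ := by rw [hadd]; congr 1; ring
  have hd4 : D4 i e1 m e2 := ⟨hie1, him, hie2, hme1.symm, he12, hme2⟩
  have hd4' : D4 i m 3 a3 := ⟨him, hi3, ha1, hm3, ha2, ha3⟩
  have hdst : Dst4 i m e1 e2 := ⟨hmi, hme1, hme2, hie1, hie2, he12⟩
  set hb : ℝ := t ^ (-hc) with hhb
  have hb1 : 1 ≤ hb := hone _ hhc
  have hb0 : 0 < hb := hp0 _
  -- LOW
  have hlow : ∀ (V : ℝ) (s0 b0 : ℤ) (S : Finset ℤ) (c' : ℤ → ℂ),
      GrpD (lenN I) V (H / (η * t ^ D0)) (H / η) s0 b0 S w u c' →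
      ‖TR bb ε W (Function.update F2 i (grp S w u (loC hb c') ξ))‖ ≤
        378805 * (KΦ * t ^ (hc + c1)) * len I * (V * hb) := by
    intro V s0 b0 S c' hG
    have h1 := low_TR' (ε := ε) hA hW' hd4 hG hb0 (norm_loC hb0.le c') ξ
      (Function.update F2 i (grp S w u (loC hb c') ξ)) (fun y _ => by rw [Function.update_self])
      (X := KΦ * t ^ (hc + c1) * len I) (fun ψ hψ => by
        rw [Function.update_idem]
        have h2 := hKN i m e1 e2 hi3 hm3 hdst bb ε hA W I hW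
          (Function.update F2 i (fun y => ψ y / ((2 ^ I.1 : ℕ) : ℂ) ^ 2))
          (280 * t ^ σ) (t ^ (β * x)) (t ^ (-(1 + 2 * C0 + δ0 + D0))) 1 Hx
          (by have := hp0 σ; positivity) hs1 (hp0 _)
          (Real.rpow_le_one ht.le htle (mul_nonneg hβ.le hx)) (hone _ (by linarith)) le_rfl hHx1
          ψ (IsOpS.mono hψ hcapt le_rfl) (fun y _ => by rw [Function.update_self])
          (fun j hj p hp => by rw [Function.update_of_ne hj]; exact hF2av j hj p hp)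
          (fun j hj y => by rw [Function.update_of_ne hj]; exact hF2H j hj y)
          (fun c hc => hE _ c hc)
        exact h2.trans (mul_le_mul_of_nonneg_right (hΦb t ht htΦ') hL.le))
    calc _ ≤ 378805 * (V * hb) * (KΦ * t ^ (hc + c1) * len I) := h1
      _ = _ := by ring
  -- HIGH
  have hhigh : ∀ (V : ℝ) (s0 b0 : ℤ) (S : Finset ℤ) (c' : ℤ → ℂ),
      GrpD (lenN I) V (H / (η * t ^ D0)) (H / η) s0 b0 S w u c' →
      ‖TR bb ε W (Function.update F2 i (grp S w u (hiC hb c') ξ))‖ ≤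
        KΨ * t ^ c1 * len I * V := by
    intro V s0 b0 S c' hG
    have h1 := hHN i m a3 hd4' bb ε hA W I hW (Function.update F2 i (grp S w u (hiC hb c') ξ)) V
      (H / (η * t ^ D0)) (H / η) Hx M3 hb s0 b0 S w u c' ξ (by rw [hcap]; exact hone _ (by linarith))
      (by rw [hHc]; exact hone _ (by linarith)) hHx1 hM31 hb1 hG
      (fun y _ => by rw [Function.update_self])
      (fun j hj p hp => by rw [Function.update_of_ne hj]; exact hF2av j hj p hp)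
      (fun j hj y => by rw [Function.update_of_ne hj]; exact hF2H j hj y)
      (fun y => by rw [Function.update_of_ne (Ne.symm hi3)]; exact hF23 y)
    have h2 := hΨb t ht htΨ'
    rw [← hcap, ← hHc] at h2
    have hV := hG.V0.le
    have h3 : M3 * V / hb = V * t ^ (hc - s3) := by
      rw [hM3, hhb, mul_comm, mul_div_assoc, ← Real.rpow_sub ht]
      congr 2; ring
    rw [h3] at h1
    calc _ ≤ Ψ (H / (η * t ^ D0)) (H / η) Hx * (V * t ^ (hc - s3)) * len I := h1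
      _ ≤ (KΨ * t ^ (-(hc - s3 - c1))) * (V * t ^ (hc - s3)) * len I := by
          refine mul_le_mul_of_nonneg_right (mul_le_mul_of_nonneg_right h2 ?_) hL.le
          exact mul_nonneg hV (hp0 _).le
      _ = KΨ * (t ^ (-(hc - s3 - c1)) * t ^ (hc - s3)) * len I * V := by ring
      _ = _ := by
          rw [hadd]
          have : -(hc - s3 - c1) + (hc - s3) = c1 := by ring
          rw [this]
  have hcell' : ∀ y ∈ iv I, F2 i y = cph n a w u c ξ y := fun y hy => by rw [hF2i]; exact hFi y hy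
  have h8 := cell_TR (ε := ε) hA hW' hcell ξ hH1 hη0 hη1 (hp0 D0)
    (Real.rpow_le_one ht.le htle hD0) hn F2 i hcell'
    (XL := 378805 * (KΦ * t ^ (hc + c1)) * len I) (XH := KΨ * t ^ c1 * len I)
    (by have := hp0 (hc + c1); positivity) (by have := hp0 c1; positivity) hb0 hlow hhigh
  have h9 : ‖TR bb ε W F2‖ ≤
      9 * (378805 * KΦ + KΨ) * (t ^ c1 * (t ^ δ0 + cS n a w c I)) * len I := by
    have e1 : 378805 * (KΦ * t ^ (hc + c1)) * len I * hb + KΨ * t ^ c1 * len I =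
        (378805 * KΦ + KΨ) * t ^ c1 * len I := by
      have : t ^ (hc + c1) * hb = t ^ c1 := by
        rw [hhb, hadd]; congr 1; ring
      calc _ = 378805 * KΦ * (t ^ (hc + c1) * hb) * len I + KΨ * t ^ c1 * len I := by ring
        _ = _ := by rw [this]; ring
    rw [e1] at h8
    have e2 : 2 * cS n a w c I + 9 * H * η ≤ 9 * (t ^ δ0 + cS n a w c I) := by
      rw [mul_assoc, hHη]; linarith
    calc ‖TR bb ε W F2‖ ≤ (2 * cS n a w c I + 9 * H * η) *
          ((378805 * KΦ + KΨ) * t ^ c1 * len I) := h8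
      _ ≤ (9 * (t ^ δ0 + cS n a w c I)) * ((378805 * KΦ + KΨ) * t ^ c1 * len I) :=
          mul_le_mul_of_nonneg_right e2 (by have := hp0 c1; positivity)
      _ = _ := by ring
  calc ‖TR bb ε W F‖ ≤ ‖TR bb ε W F1‖ + K2 * M * etaq k q3 M3 3 * len I := c1'
    _ ≤ (‖TR bb ε W F2‖ + K1 * M *
        (∑ j ∈ (Finset.univ : Finset (Fin 4)).erase i, etaq k q3 Hx j) * len I) +
        K2 * M * etaq k q3 M3 3 * len I := by linarith [c2']
    _ ≤ (9 * (378805 * KΦ + KΨ) * (t ^ c1 * (t ^ δ0 + cS n a w c I)) * len I +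
        768 * (3 * K1) * (t ^ c1 * (t ^ δ0 + cS n a w c I)) * len I) +
        768 * K2 * (t ^ c1 * (t ^ δ0 + cS n a w c I)) * len I :=
          add_le_add (add_le_add h9 her2) her1
    _ ≤ _ := by
        have h10 : 0 ≤ K3 * (t ^ c1 * (t ^ δ0 + cS n a w c I) * len I) := by
          have := mul_nonneg hR0 hL.le
          positivity
        nlinarith

end Crest.Agent.R079.CKgx37
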