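import Crest.Agent.R079.CRL4c_138

/-! R079, RAGGED CORNER (CR), leaf L4d (`CRdefx253.RegOfDead`): exit counting for a region given by
dead aligned cells.  helper138. -/

set_option autoImplicit false
set_option linter.unusedVariables false
set_option linter.unusedSectionVars false

namespace Crest.Agent.R079.CRL4dx138

open Matrix Finset Crest.Agent.R072
open Crest.Agent.R079.PotL (bl cel IsPr hs2)
open Crest.Agent.R079.CRdefx253
open Crest.Agent.R079.CRL3bx138 (meet card_meet)
open scoped MatrixOrder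

variable {Q : ℕ} [NeZero Q]

/-- first dead at scale `s` -/
def FS (dd : ℕ → ZMod Q → ZMod Q → Prop) (s : ℕ) (u v : ZMod Q) : Prop := dd s u v ∧ ¬ dd (s + 1) u v

/-- points within `R` -/
def nr (R : ℕ) (c u : ZMod Q) : Prop := ∃ i : ℤ, |i| ≤ R ∧ u = c + (i : ZMod Q)

theorem dead_down {dd : ℕ → ZMod Q → ZMod Q → Prop} {M : ℕ} (h : Dead dd M) {s s' : ℕ} (hs : s ≤ s')
    (hM : s' < M) {u v : ZMod Q} (hd : dd s' u v) : dd s u v := by
  induction s' with
  | zero =>
    have : s = 0 := by omega
    rw [this]; exact hd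
  | succ t ih =>
    rcases Nat.lt_or_ge t s with h1 | h1
    · have : s = t + 1 := by omega
      rw [this]; exact hd
    · exact ih h1 (by omega) (h.down t hM u v hd)

theorem FS_unique {dd : ℕ → ZMod Q → ZMod Q → Prop} {M : ℕ} (h : Dead dd M) {s s' : ℕ}
    (hs : s + 1 < M) (hs' : s' + 1 < M) {u v : ZMod Q} (h1 : FS dd s u v) (h2 : FS dd s' u v) :
    s = s' := by
  by_contra hne
  rcases Nat.lt_or_gt_of_ne hne with hlt | hlt
  · exact h1.2 (dead_down h (by omega) (by omega) h2.1)
  · exact h2.2 (dead_down h (by omega) (by omega) h1.1)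

theorem FS_cell {dd : ℕ → ZMod Q → ZMod Q → Prop} {M : ℕ} (h : Dead dd M) {s : ℕ} {u v u' v' : ZMod Q}
    (hu : cel s u = cel s u') (hv : cel s v = cel s v') (h1 : FS dd s u v) : FS dd s u' v' :=
  ⟨h.cell s u v u' v' hu hv h1.1, fun h2 => h1.2 (h.cell (s + 1) u' v' u v
    (PotL.CR.cel_nest (Nat.le_succ s) hu.symm) (PotL.CR.cel_nest (Nat.le_succ s) hv.symm) h2)⟩

open Classical in
theorem card_nr (R : ℕ) (c : ZMod Q) :
    ((Finset.univ.filter fun u : ZMod Q => nr R c u).card : ℝ) ≤ 2 * R + 1 := by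
  have hsub : (Finset.univ.filter fun u : ZMod Q => nr R c u) ⊆
      (Finset.Icc (-(R : ℤ)) R).image fun i : ℤ => c + (i : ZMod Q) := by
    intro u hu
    rw [Finset.mem_filter] at hu
    obtain ⟨-, i, hi, rfl⟩ := hu
    rw [Finset.mem_image]
    exact ⟨i, Finset.mem_Icc.2 (abs_le.1 hi), rfl⟩
  have h := (Finset.card_le_card hsub).trans Finset.card_image_le
  rw [Int.card_Icc] at h
  have h2 : ((R : ℤ) + 1 - -(R : ℤ)).toNat = 2 * R + 1 := by omega
  rw [h2] at h
  exact_mod_cast h

/-- points of one cell differ by less than `2^s` -/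
theorem cell_diff {s : ℕ} {u u0 : ZMod Q} (h : cel s u = cel s u0) :
    ∃ i : ℤ, |i| ≤ 2 ^ s ∧ u = u0 + (i : ZMod Q) := by
  refine ⟨(u.val : ℤ) - (u0.val : ℤ), ?_, ?_⟩
  · unfold cel at h
    have hp : 0 < 2 ^ s := by positivity
    have h1 := Nat.div_add_mod u.val (2 ^ s)
    have h2 := Nat.div_add_mod u0.val (2 ^ s)
    have h3 := Nat.mod_lt u.val hp
    have h4 := Nat.mod_lt u0.val hp
    rw [h] at h1
    have h5 : ((2 : ℤ) ^ s) = ((2 ^ s : ℕ) : ℤ) := by push_cast; rfl
    rw [h5, abs_le]
    constructor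
    · omega
    · omega
  · push_cast
    rw [ZMod.natCast_zmod_val, ZMod.natCast_zmod_val]
    ring

open Classical in
theorem regOfDead : RegOfDead := by
  intro k D
  refine ⟨k * 4 ^ (k + 1) * (2 * (D + 2 * 2 ^ k) + 1) ^ 2, ?_⟩
  intro Q _ C M τ dd hQ hD hop
  refine ⟨hop, ?_⟩
  intro k' hk L hL c d
  set R : ℕ := D * 2 ^ L + 2 * 2 ^ (L + k) with hR
  have hQ0 : 0 < Q := Nat.pos_of_ne_zero (NeZero.ne Q)
  -- the weight of scale `s`
  set V : ℕ → ℝ := fun s => ∑ u : ZMod Q, ∑ v : ZMod Q,
    (if (s + 1 < M ∧ FS dd s u v) ∧ (nr R c u ∧ nr R d v) then (1 : ℝ) else 0) with hV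
  have hV0 : ∀ s, 0 ≤ V s := fun s => Finset.sum_nonneg fun u _ => Finset.sum_nonneg fun v _ => by
    split_ifs
    · exact zero_le_one
    · exact le_rfl
  -- one window
  have one : ∀ m ≤ L, m + k' < M → ∀ q p : ZMod Q,
      (if m + k' < M ∧ near D L c d q p ∧ Exit (alD dd) k' m q p then (1 : ℝ) else 0) ≤
      ∑ s ∈ Ico m (m + k'), (1 / (4 : ℝ) ^ s) * ∑ u : ZMod Q, ∑ v : ZMod Q,
        (if ((s + 1 < M ∧ FS dd s u v) ∧ (nr R c u ∧ nr R d v)) ∧
          (meet s (2 ^ (m + k')) q u ∧ meet s (2 ^ (m + k')) p v) then (1 : ℝ) else 0) := by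
    intro m hm hmk q p
    have hnn : ∀ s ∈ Ico m (m + k'), 0 ≤ (1 / (4 : ℝ) ^ s) * ∑ u : ZMod Q, ∑ v : ZMod Q,
        (if ((s + 1 < M ∧ FS dd s u v) ∧ (nr R c u ∧ nr R d v)) ∧
          (meet s (2 ^ (m + k')) q u ∧ meet s (2 ^ (m + k')) p v) then (1 : ℝ) else 0) := by
      intro s _
      refine mul_nonneg (by positivity) (Finset.sum_nonneg fun u _ => Finset.sum_nonneg fun v _ => ?_)
      split_ifs
      · exact zero_le_one
      · exact le_rfl
    by_cases hE : m + k' < M ∧ near D L c d q p ∧ Exit (alD dd) k' m q p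
    · rw [if_pos hE]
      obtain ⟨-, ⟨⟨s1, hs1, hq⟩, ⟨t1, ht1, hp⟩⟩, hal, a, ha, b, hb, hna⟩ := hE
      -- the dead point
      unfold alD at hna
      simp only [not_forall, not_not] at hna
      obtain ⟨u0, v0, hu0, hv0, hdd⟩ := hna
      have hN : 2 ^ (m + k') ≤ Q :=
        (Nat.pow_le_pow_right (by norm_num) hmk.le).trans (Nat.le_of_dvd hQ0 hQ)
      have hwu := CRL4cx138.win_sub ha hN hu0
      have hwv := CRL4cx138.win_sub hb hN hv0
      have hnd : ¬ dd (m + k') u0 v0 := hal u0 v0 hwu hwv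
      -- the scale
      obtain ⟨s, hs, hFS⟩ : ∃ s ∈ Ico m (m + k'), FS dd s u0 v0 := by
        by_contra hcon
        push Not at hcon
        have : ∀ j, j ≤ k' → dd (m + j) u0 v0 := by
          intro j
          induction j with
          | zero => intro _; exact hdd
          | succ j ih =>
            intro hj
            have h1 := ih (by omega)
            by_contra h2
            exact hcon (m + j) (Finset.mem_Ico.2 ⟨by omega, by omega⟩) ⟨h1, h2⟩
        exact hnd (this k' le_rfl)
      have hs' := Finset.mem_Ico.1 hs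
      refine le_trans ?_ (Finset.single_le_sum hnn hs)
      -- all points of the cell
      have hall : ∀ u v : ZMod Q, cel s u = cel s u0 → cel s v = cel s v0 →
          ((s + 1 < M ∧ FS dd s u v) ∧ (nr R c u ∧ nr R d v)) ∧
          (meet s (2 ^ (m + k')) q u ∧ meet s (2 ^ (m + k')) p v) := by
        intro u v hu hv
        have hnr : ∀ (c q u0 u : ZMod Q) (s1 : ℤ), |s1| ≤ D * 2 ^ L → q = c + (s1 : ZMod Q) →
            win (2 ^ (m + k')) q u0 → cel s u = cel s u0 → nr R c u := by
          intro c q u0 u s1 hs1 hq hw hu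
          obtain ⟨i, hi, hi2⟩ := cell_diff hu
          refine ⟨s1 + ((u0 - q).val : ℤ) + i, ?_, ?_⟩
          · have h1 : (u0 - q).val < 2 ^ (m + k') := hw
            have h2 : (2 : ℤ) ^ (m + k') ≤ 2 ^ (L + k) := pow_le_pow_right₀ (by norm_num) (by omega)
            have h3 : (2 : ℤ) ^ s ≤ 2 ^ (L + k) := pow_le_pow_right₀ (by norm_num) (by omega)
            have h4 : (((u0 - q).val : ℕ) : ℤ) < 2 ^ (m + k') := by exact_mod_cast h1
            have h5 : (0 : ℤ) ≤ (((u0 - q).val : ℕ) : ℤ) := Int.natCast_nonneg _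
            rw [abs_le] at hs1 hi ⊢
            rw [hR]
            push_cast
            constructor <;> linarith [hs1.1, hs1.2, hi.1, hi.2]
          · rw [hi2]
            push_cast
            rw [ZMod.natCast_zmod_val, hq]
            ring
        exact ⟨⟨⟨by omega, FS_cell hD hu.symm hv.symm hFS⟩, hnr c q u0 u s1 hs1 hq hwu hu,
          hnr d p v0 v t1 ht1 hp hwv hv⟩, ⟨u0, hwu, hu.symm⟩, ⟨v0, hwv, hv.symm⟩⟩
      have hcu : ((Finset.univ.filter fun u : ZMod Q => cel s u = cel s u0).card : ℝ) = 2 ^ s := by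
        have h1 := PotL.CR.card_cl (m := s) ((pow_dvd_pow 2 (by omega)).trans hQ) u0
        unfold PotL.CR.cl at h1
        rw [h1]; push_cast; rfl
      have hcv : ((Finset.univ.filter fun v : ZMod Q => cel s v = cel s v0).card : ℝ) = 2 ^ s := by
        have h1 := PotL.CR.card_cl (m := s) ((pow_dvd_pow 2 (by omega)).trans hQ) v0
        unfold PotL.CR.cl at h1
        rw [h1]; push_cast; rfl
      have h6 : (4 : ℝ) ^ s ≤ ∑ u : ZMod Q, ∑ v : ZMod Q,
        (if ((s + 1 < M ∧ FS dd s u v) ∧ (nr R c u ∧ nr R d v)) ∧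
          (meet s (2 ^ (m + k')) q u ∧ meet s (2 ^ (m + k')) p v) then (1 : ℝ) else 0) := by
        calc (4 : ℝ) ^ s = ((Finset.univ.filter fun u : ZMod Q => cel s u = cel s u0).card : ℝ) *
              ((Finset.univ.filter fun v : ZMod Q => cel s v = cel s v0).card : ℝ) := by
              rw [hcu, hcv, ← mul_pow]; norm_num
          _ = ∑ u : ZMod Q, ∑ v : ZMod Q,
              (if cel s u = cel s u0 ∧ cel s v = cel s v0 then (1 : ℝ) else 0) := by
              rw [Finset.card_filter, Finset.card_filter]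
              push_cast
              rw [Finset.sum_mul_sum]
              refine Finset.sum_congr rfl fun u _ => Finset.sum_congr rfl fun v _ => ?_
              by_cases h1 : cel s u = cel s u0 <;> by_cases h2 : cel s v = cel s v0 <;> simp [h1, h2]
          _ ≤ _ := by
              refine Finset.sum_le_sum fun u _ => Finset.sum_le_sum fun v _ => ?_
              by_cases h1 : cel s u = cel s u0 ∧ cel s v = cel s v0
              · rw [if_pos h1, if_pos (hall u v h1.1 h1.2)]
              · rw [if_neg h1]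
                split_ifs
                · exact zero_le_one
                · exact le_rfl
      have h7 : (0 : ℝ) < 4 ^ s := by positivity
      rw [one_div, ← div_eq_inv_mul, le_div_iff₀ h7, one_mul]
      exact h6
    · rw [if_neg hE]
      exact Finset.sum_nonneg hnn
  -- sum over the windows of one scale
  have two : ∀ m ≤ L, ∑ q : ZMod Q, ∑ p : ZMod Q,
      (if m + k' < M ∧ near D L c d q p ∧ Exit (alD dd) k' m q p then (1 : ℝ) else 0) ≤
      4 ^ (k' + 1) * ∑ s ∈ Ico m (m + k'), V s := by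
    intro m hm
    by_cases hmk : m + k' < M
    · refine (Finset.sum_le_sum fun q _ => Finset.sum_le_sum fun p _ => one m hm hmk q p).trans ?_
      have e1 : ∑ q : ZMod Q, ∑ p : ZMod Q, ∑ s ∈ Ico m (m + k'), (1 / (4 : ℝ) ^ s) *
          ∑ u : ZMod Q, ∑ v : ZMod Q,
          (if ((s + 1 < M ∧ FS dd s u v) ∧ (nr R c u ∧ nr R d v)) ∧
            (meet s (2 ^ (m + k')) q u ∧ meet s (2 ^ (m + k')) p v) then (1 : ℝ) else 0) =
          ∑ s ∈ Ico m (m + k'), (1 / (4 : ℝ) ^ s) * ∑ u : ZMod Q, ∑ v : ZMod Q,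
            (if (s + 1 < M ∧ FS dd s u v) ∧ (nr R c u ∧ nr R d v) then (1 : ℝ) else 0) *
            (((Finset.univ.filter fun q : ZMod Q => meet s (2 ^ (m + k')) q u).card : ℝ) *
              ((Finset.univ.filter fun p : ZMod Q => meet s (2 ^ (m + k')) p v).card : ℝ)) := by
        rw [Finset.sum_congr rfl fun q _ => Finset.sum_comm, Finset.sum_comm]
        refine Finset.sum_congr rfl fun s _ => ?_
        simp only [← Finset.mul_sum]
        congr 1
        calc ∑ q : ZMod Q, ∑ p : ZMod Q, ∑ u : ZMod Q, ∑ v : ZMod Q,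
              (if ((s + 1 < M ∧ FS dd s u v) ∧ (nr R c u ∧ nr R d v)) ∧
              (meet s (2 ^ (m + k')) q u ∧ meet s (2 ^ (m + k')) p v) then (1 : ℝ) else 0)
            = ∑ q : ZMod Q, ∑ u : ZMod Q, ∑ p : ZMod Q, ∑ v : ZMod Q,
              (if ((s + 1 < M ∧ FS dd s u v) ∧ (nr R c u ∧ nr R d v)) ∧
              (meet s (2 ^ (m + k')) q u ∧ meet s (2 ^ (m + k')) p v) then (1 : ℝ) else 0) :=
              Finset.sum_congr rfl fun q _ => Finset.sum_comm
          _ = ∑ u : ZMod Q, ∑ q : ZMod Q, ∑ p : ZMod Q, ∑ v : ZMod Q,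
              (if ((s + 1 < M ∧ FS dd s u v) ∧ (nr R c u ∧ nr R d v)) ∧
              (meet s (2 ^ (m + k')) q u ∧ meet s (2 ^ (m + k')) p v) then (1 : ℝ) else 0) :=
              Finset.sum_comm
          _ = _ := by
              refine Finset.sum_congr rfl fun u _ => ?_
              rw [Finset.sum_congr rfl fun q _ => Finset.sum_comm, Finset.sum_comm]
              refine Finset.sum_congr rfl fun v _ => ?_
              rw [Finset.card_filter, Finset.card_filter]
              push_cast
              rw [Finset.sum_mul_sum, Finset.mul_sum]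
              refine Finset.sum_congr rfl fun q _ => ?_
              rw [Finset.mul_sum]
              refine Finset.sum_congr rfl fun p _ => ?_
              by_cases h0 : (s + 1 < M ∧ FS dd s u v) ∧ (nr R c u ∧ nr R d v) <;>
                by_cases h1 : meet s (2 ^ (m + k')) q u <;>
                by_cases h2 : meet s (2 ^ (m + k')) p v <;> simp [h0, h1, h2]
      rw [e1, Finset.mul_sum]
      refine Finset.sum_le_sum fun s hs => ?_
      have hs' := Finset.mem_Ico.1 hs
      have hc : ∀ u : ZMod Q,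
          ((Finset.univ.filter fun q : ZMod Q => meet s (2 ^ (m + k')) q u).card : ℝ) ≤
            2 * 2 ^ (m + k') := by
        intro u
        refine (card_meet u).trans ?_
        push_cast
        have : (2 : ℝ) ^ s ≤ 2 ^ (m + k') := pow_le_pow_right₀ (by norm_num) (by omega)
        linarith
      have h1 : ∑ u : ZMod Q, ∑ v : ZMod Q,
            (if (s + 1 < M ∧ FS dd s u v) ∧ (nr R c u ∧ nr R d v) then (1 : ℝ) else 0) *
            (((Finset.univ.filter fun q : ZMod Q => meet s (2 ^ (m + k')) q u).card : ℝ) *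
              ((Finset.univ.filter fun p : ZMod Q => meet s (2 ^ (m + k')) p v).card : ℝ)) ≤
          V s * (2 * 2 ^ (m + k')) ^ 2 := by
        rw [hV]
        simp only
        rw [Finset.sum_mul]
        refine Finset.sum_le_sum fun u _ => ?_
        rw [Finset.sum_mul]
        refine Finset.sum_le_sum fun v _ => ?_
        refine mul_le_mul_of_nonneg_left ?_ (by split_ifs; exact zero_le_one; exact le_rfl)
        rw [sq]
        exact mul_le_mul (hc u) (hc v) (by positivity) (by positivity)
      calc (1 / (4 : ℝ) ^ s) * _ ≤ (1 / (4 : ℝ) ^ s) * (V s * (2 * 2 ^ (m + k')) ^ 2) :=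
            mul_le_mul_of_nonneg_left h1 (by positivity)
        _ = (4 ^ (m + k' + 1) / 4 ^ s) * V s := by
            have : (2 * (2 : ℝ) ^ (m + k')) ^ 2 = 4 ^ (m + k' + 1) := by
              rw [mul_pow, ← pow_mul, mul_comm (m + k') 2, pow_mul, pow_succ (4 : ℝ)]; norm_num; ring
            rw [this]; ring
        _ ≤ 4 ^ (k' + 1) * V s := by
            refine mul_le_mul_of_nonneg_right ?_ (hV0 s)
            rw [div_le_iff₀ (by positivity), ← pow_add]
            exact pow_le_pow_right₀ (by norm_num) (by omega)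
    · have h0 : ∀ q p : ZMod Q,
          (if m + k' < M ∧ near D L c d q p ∧ Exit (alD dd) k' m q p then (1 : ℝ) else 0) = 0 :=
        fun q p => if_neg fun h => hmk h.1
      simp only [h0, Finset.sum_const_zero]
      exact mul_nonneg (by positivity) (Finset.sum_nonneg fun s _ => hV0 s)
  -- every scale `s` is used at most `k'` times
  have three : ∑ m ∈ range (L + 1), ∑ s ∈ Ico m (m + k'), V s ≤ k' * ∑ s ∈ range (L + 1 + k'), V s := by
    have e1 : ∀ m, ∑ s ∈ Ico m (m + k'), V s = ∑ j ∈ range k', V (m + j) := by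
      intro m
      rw [Finset.sum_Ico_eq_sum_range]
      simp
    rw [Finset.sum_congr rfl fun m _ => e1 m, Finset.sum_comm]
    have h1 : ∀ j ∈ range k', ∑ m ∈ range (L + 1), V (m + j) ≤ ∑ s ∈ range (L + 1 + k'), V s := by
      intro j hj
      rw [Finset.mem_range] at hj
      rw [← Finset.sum_image (s := range (L + 1)) (g := fun m => m + j) (f := V)
        (fun a _ b _ hab => by simpa using hab)]
      refine Finset.sum_le_sum_of_subset_of_nonneg ?_ fun _ _ _ => hV0 _
      intro z hz
      rw [Finset.mem_image] at hz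
      obtain ⟨a, ha, rfl⟩ := hz
      rw [Finset.mem_range] at ha ⊢
      omega
    refine (Finset.sum_le_sum h1).trans (le_of_eq ?_)
    rw [Finset.sum_const, Finset.card_range, nsmul_eq_mul]
  -- the first dead scales are disjoint
  have four : ∑ s ∈ range (L + 1 + k'), V s ≤ (2 * R + 1) ^ 2 := by
    rw [hV]
    simp only
    rw [Finset.sum_comm]
    have e1 : ∀ u : ZMod Q, ∑ s ∈ range (L + 1 + k'), ∑ v : ZMod Q,
        (if (s + 1 < M ∧ FS dd s u v) ∧ (nr R c u ∧ nr R d v) then (1 : ℝ) else 0) ≤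
        ∑ v : ZMod Q, (if nr R c u ∧ nr R d v then (1 : ℝ) else 0) := by
      intro u
      rw [Finset.sum_comm]
      refine Finset.sum_le_sum fun v _ => ?_
      by_cases hn : nr R c u ∧ nr R d v
      · rw [if_pos hn]
        by_cases hex : ∃ s ∈ range (L + 1 + k'), s + 1 < M ∧ FS dd s u v
        · obtain ⟨s, hs, h1, h2⟩ := hex
          rw [Finset.sum_eq_single_of_mem s hs]
          · split_ifs
            · exact le_rfl
            · exact zero_le_one
          · intro s' hs' hne
            rw [if_neg]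
            rintro ⟨⟨h3, h4⟩, -⟩
            exact hne (FS_unique hD h3 h1 h4 h2)
        · rw [Finset.sum_eq_zero]
          · exact zero_le_one
          · intro s hs
            rw [if_neg]
            rintro ⟨h3, -⟩
            exact hex ⟨s, hs, h3⟩
      · rw [if_neg hn]
        refine le_of_eq (Finset.sum_eq_zero fun s _ => ?_)
        rw [if_neg]
        exact fun h => hn h.2
    refine (Finset.sum_le_sum fun u _ => e1 u).trans ?_
    have e2 : ∑ u : ZMod Q, ∑ v : ZMod Q, (if nr R c u ∧ nr R d v then (1 : ℝ) else 0) =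
        ((Finset.univ.filter fun u : ZMod Q => nr R c u).card : ℝ) *
        ((Finset.univ.filter fun v : ZMod Q => nr R d v).card : ℝ) := by
      rw [Finset.card_filter, Finset.card_filter]
      push_cast
      rw [Finset.sum_mul_sum]
      refine Finset.sum_congr rfl fun u _ => Finset.sum_congr rfl fun v _ => ?_
      by_cases h1 : nr R c u <;> by_cases h2 : nr R d v <;> simp [h1, h2]
    rw [e2, sq]
    exact mul_le_mul (card_nr R c) (card_nr R d) (by positivity) (by positivity)
  calc ∑ m ∈ range (L + 1), ∑ q : ZMod Q, ∑ p : ZMod Q,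
        (if m + k' < M ∧ near D L c d q p ∧ Exit (alD dd) k' m q p then (1 : ℝ) else 0)
      ≤ ∑ m ∈ range (L + 1), 4 ^ (k' + 1) * ∑ s ∈ Ico m (m + k'), V s :=
        Finset.sum_le_sum fun m hm => two m (by rw [Finset.mem_range] at hm; omega)
    _ = 4 ^ (k' + 1) * ∑ m ∈ range (L + 1), ∑ s ∈ Ico m (m + k'), V s := by rw [Finset.mul_sum]
    _ ≤ 4 ^ (k' + 1) * (k' * (2 * R + 1) ^ 2) :=
        mul_le_mul_of_nonneg_left (three.trans (mul_le_mul_of_nonneg_left four (Nat.cast_nonneg _)))
          (by positivity)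
    _ ≤ 4 ^ (k + 1) * (k * ((2 * (D + 2 * 2 ^ k) + 1) * 2 ^ L) ^ 2) := by
        have h1 : (4 : ℝ) ^ (k' + 1) ≤ 4 ^ (k + 1) := pow_le_pow_right₀ (by norm_num) (by omega)
        have h2 : (k' : ℝ) ≤ k := by exact_mod_cast hk
        have h3 : 2 * (R : ℝ) + 1 ≤ (2 * (D + 2 * 2 ^ k) + 1) * 2 ^ L := by
          rw [hR]
          push_cast
          have : (1 : ℝ) ≤ 2 ^ L := one_le_pow₀ (by norm_num)
          rw [pow_add]
          nlinarith
        have h4 : (2 * (R : ℝ) + 1) ^ 2 ≤ ((2 * (D + 2 * 2 ^ k) + 1) * 2 ^ L) ^ 2 :=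
          pow_le_pow_left₀ (by positivity) h3 2
        exact mul_le_mul h1 (mul_le_mul h2 h4 (by positivity) (Nat.cast_nonneg _)) (by positivity)
          (by positivity)
    _ = _ := by
        have : (4 : ℝ) ^ L = 2 ^ L * 2 ^ L := by rw [← mul_pow]; norm_num
        rw [this]; ring

end Crest.Agent.R079.CRL4dx138
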