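import Crest.Agent.R079.PLDefs_931
import Crest.Agent.R072.Node

/-! R079, RAGGED CORNER (CR) in the line model, L1: the one scale estimate for ARRAYS of Gram
matrices (box letters).  `g i j q p` = Gram matrix of the own box of side `2^j N` at `p`, averaged
over the partner box of side `2^i N` at `q`; one index type `n` for all boxes.  Array version of
PLLat_931 for `phi M = tr M^{3/2}`.  helper371. -/

set_option autoImplicit false
set_option linter.unusedVariables false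
set_option linter.unusedSectionVars false

namespace Crest.Agent.R079.CR371

open Matrix Finset Crest.Agent.R072
open Crest.Agent.R072.Lattice (sum_sub_left' sum_add_right' sum_shift sum_range_mul_aux)
open Crest.Agent.R079.PotL (bl)
open scoped MatrixOrder

variable {Q : ℕ} [NeZero Q] {n : Type*} [Fintype n] [DecidableEq n]

/-- arrays -/
abbrev Arr (Q : ℕ) (n : Type*) : Type _ := ℕ → ℕ → ZMod Q → ZMod Q → Matrix n n ℝ

/-- shift by `2^i N` -/
def sh (N i : ℕ) : ZMod Q := ((2 ^ i * N : ℕ) : ZMod Q)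

theorem sh_succ (N i : ℕ) : (sh N (i + 1) : ZMod Q) = sh N i + sh N i := by
  unfold sh
  rw [← Nat.cast_add]
  congr 1
  ring

theorem sh_zero (N : ℕ) : (sh N 0 : ZMod Q) = (N : ZMod Q) := by
  unfold sh
  rw [pow_zero, one_mul]

/-- one array -/
structure AOK (N κ : ℕ) (g : Arr Q n) : Prop where
  psd : ∀ i j q p, (g i j q p).PosSemidef
  dbl : ∀ i j q p, g (i + 1) j q p = (1 / 2 : ℝ) • (g i j q p + g i j (q + sh N i) p)
  own : ∀ i j, j < κ → ∀ q p,
    2 * phi (g i (j + 1) q p) ≤ phi (g i j q p) + phi (g i j q (p + sh N j))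

/-- sum over the positions -/
noncomputable def WW (g h : Arr Q n) (i j : ℕ) (t : ZMod Q) : ℝ :=
  ∑ p : ZMod Q, ∑ q : ZMod Q, phi (g i j q p + h i j (t - p - q) p)

/-- own potential -/
noncomputable def EO (g : Arr Q n) (i j : ℕ) : ℝ := ∑ p : ZMod Q, ∑ q : ZMod Q, phi (g i j q p)

/-- both own potentials -/
noncomputable def EB (g h : Arr Q n) (j : ℕ) : ℝ := EO g j j + EO h j j

/-- gains of all boxes of side `2N` -/
noncomputable def GG (u : ZMod Q → n → ℝ) (g h : Arr Q n) (t : ZMod Q) : ℝ :=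
  ∑ p : ZMod Q, ∑ q : ZMod Q, Gam (u p) (g 1 1 q p + h 1 1 (t - p - q) p)

/-- a pair of arrays with the half box signs `u` -/
structure APr (N κ : ℕ) (u : ZMod Q → n → ℝ) (g h : Arr Q n) : Prop where
  og : AOK N κ g
  oh : AOK N κ h
  sq : ∀ p x, u p x * u p x = 1
  pin : ∀ q q' p, Gam (u p) (g 1 1 q p + h 1 1 q' p) =
    phi (g 1 0 q p + h 1 0 q' p) + phi (g 1 0 q (p + sh N 0) + h 1 0 q' (p + sh N 0)) -
      2 * phi (g 1 1 q p + h 1 1 q' p)

section basic

variable {N κ : ℕ} {u : ZMod Q → n → ℝ} {g h : Arr Q n}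

theorem WW_nonneg (hg : AOK N κ g) (hh : AOK N κ h) (i j : ℕ) (t : ZMod Q) : 0 ≤ WW g h i j t :=
  Finset.sum_nonneg fun _ _ => Finset.sum_nonneg fun _ _ =>
    phi_nonneg ((hg.psd _ _ _ _).add (hh.psd _ _ _ _))

theorem EO_nonneg (hg : AOK N κ g) (i j : ℕ) : 0 ≤ EO g i j :=
  Finset.sum_nonneg fun _ _ => Finset.sum_nonneg fun _ _ => phi_nonneg (hg.psd _ _ _ _)

theorem EB_nonneg (hg : AOK N κ g) (hh : AOK N κ h) (j : ℕ) : 0 ≤ EB g h j :=
  add_nonneg (EO_nonneg hg _ _) (EO_nonneg hh _ _)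

theorem GG_nonneg (h' : APr N κ u g h) (t : ZMod Q) : 0 ≤ GG u g h t :=
  Finset.sum_nonneg fun p _ => Finset.sum_nonneg fun _ _ =>
    Gam_nonneg ((h'.og.psd _ _ _ _).add (h'.oh.psd _ _ _ _)) _ (h'.sq p)

theorem WW_double (hg : AOK N κ g) (hh : AOK N κ h) (i j : ℕ) (t : ZMod Q) :
    WW g h (i + 1) j t ≤ WW g h i j (t + sh N i) := by
  have key : ∀ p q : ZMod Q, phi (g (i + 1) j q p + h (i + 1) j (t - p - q) p) ≤
      (1 / 2) * phi (g i j q p + h i j (t + sh N i - p - q) p) +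
      (1 / 2) * phi (g i j (q + sh N i) p + h i j (t + sh N i - p - (q + sh N i)) p) := by
    intro p q
    have e : g (i + 1) j q p + h (i + 1) j (t - p - q) p =
        (1 / 2 : ℝ) • ((g i j q p + h i j (t + sh N i - p - q) p) +
          (g i j (q + sh N i) p + h i j (t + sh N i - p - (q + sh N i)) p)) := by
      rw [hg.dbl, hh.dbl, ← smul_add]
      congr 1
      have e1 : t + sh N i - p - q = t - p - q + sh N i := by ring
      have e2 : t + sh N i - p - (q + sh N i) = t - p - q := by ring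
      rw [e1, e2]
      abel
    rw [e]
    have := phi_mid_le (n := n) ((hg.psd i j q p).add (hh.psd i j (t + sh N i - p - q) p))
      ((hg.psd i j (q + sh N i) p).add (hh.psd i j (t + sh N i - p - (q + sh N i)) p))
    linarith
  unfold WW
  refine Finset.sum_le_sum fun p _ => ?_
  refine (Finset.sum_le_sum fun q _ => key p q).trans ?_
  rw [Finset.sum_add_distrib, ← Finset.mul_sum, ← Finset.mul_sum,
    sum_add_right' (fun q => phi (g i j q p + h i j (t + sh N i - p - q) p)) (sh N i)]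
  linarith

theorem GG_eq (h' : APr N κ u g h) (t : ZMod Q) :
    GG u g h t = WW g h 1 0 t + WW g h 1 0 (t + N) - 2 * WW g h 1 1 t := by
  unfold GG WW
  simp only [h'.pin, Finset.sum_sub_distrib, Finset.sum_add_distrib, Finset.mul_sum]
  congr 2
  rw [← sum_add_right' (fun p => ∑ q : ZMod Q, phi (g 1 0 q p + h 1 0 (t + N - p - q) p)) (N : ZMod Q)]
  refine Finset.sum_congr rfl fun p _ => Finset.sum_congr rfl fun q _ => ?_
  have e : t + N - (p + N) - q = t - p - q := by ring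
  rw [e, sh_zero]

theorem GG_le (h' : APr N κ u g h) (t : ZMod Q) :
    GG u g h t ≤ WW g h 0 0 (t + N) + WW g h 0 0 (t + 2 * N) - 2 * WW g h 1 1 t := by
  have h1 := GG_eq h' t
  have h2 := WW_double h'.og h'.oh 0 0 t
  have h3 := WW_double h'.og h'.oh 0 0 (t + N)
  rw [sh_zero] at h2 h3
  have e : t + N + N = t + 2 * (N : ZMod Q) := by ring
  rw [e] at h3
  simp only [zero_add] at h2 h3
  linarith

theorem EO_succ_i (hg : AOK N κ g) (i j : ℕ) : EO g (i + 1) j ≤ EO g i j := by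
  unfold EO
  refine Finset.sum_le_sum fun p _ => ?_
  have key : ∀ q : ZMod Q, phi (g (i + 1) j q p) ≤ (1 / 2) * phi (g i j q p) +
      (1 / 2) * phi (g i j (q + sh N i) p) := by
    intro q
    rw [hg.dbl]
    have := phi_mid_le (n := n) (hg.psd i j q p) (hg.psd i j (q + sh N i) p)
    linarith
  refine (Finset.sum_le_sum fun q _ => key q).trans ?_
  rw [Finset.sum_add_distrib, ← Finset.mul_sum, ← Finset.mul_sum,
    sum_add_right' (fun q => phi (g i j q p)) (sh N i)]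
  linarith

theorem EO_succ_j (hg : AOK N κ g) (i : ℕ) {j : ℕ} (hj : j < κ) : EO g i (j + 1) ≤ EO g i j := by
  have key : ∀ p q : ZMod Q, phi (g i (j + 1) q p) ≤
      (1 / 2) * phi (g i j q p) + (1 / 2) * phi (g i j q (p + sh N j)) := by
    intro p q
    have := hg.own i j hj q p
    linarith
  unfold EO
  refine (Finset.sum_le_sum fun p _ => Finset.sum_le_sum fun q _ => key p q).trans ?_
  simp only [Finset.sum_add_distrib, ← Finset.mul_sum]
  rw [sum_add_right' (fun p => ∑ q : ZMod Q, phi (g i j q p)) (sh N j)]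
  linarith

theorem EO_le_j (hg : AOK N κ g) (i j : ℕ) (d : ℕ) (hj : j + d ≤ κ) : EO g i (j + d) ≤ EO g i j := by
  induction d with
  | zero => simp
  | succ d ih => exact (EO_succ_j hg i (j := j + d) (by omega)).trans (ih (by omega))

/-- average over `2^k` partner boxes -/
theorem avg_pow (hg : AOK N κ g) (j k : ℕ) (q p : ZMod Q) :
    g k j q p = (1 / ((2 ^ k : ℕ) : ℝ)) • ∑ i ∈ range (2 ^ k), g 0 j (q + (i : ZMod Q) * N) p := by
  induction k generalizing q with
  | zero => simp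
  | succ k ih =>
    rw [hg.dbl, ih, ih]
    have h1 : ∑ i ∈ range (2 ^ (k + 1)), g 0 j (q + (i : ZMod Q) * N) p =
        ∑ i ∈ range (2 ^ k), g 0 j (q + (i : ZMod Q) * N) p +
          ∑ i ∈ range (2 ^ k), g 0 j ((q + sh N k) + (i : ZMod Q) * (N : ZMod Q)) p := by
      rw [pow_succ, mul_two, Finset.sum_range_add]
      congr 1
      refine Finset.sum_congr rfl fun i _ => ?_
      congr 1
      unfold sh
      push_cast
      ring
    rw [h1, ← smul_add, smul_smul]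
    congr 1
    push_cast
    rw [pow_succ]
    field_simp

end basic

/-! ### Bregman remainders -/

section breg

/-- Bregman remainder -/
noncomputable def bz (Z X : Matrix n n ℝ) : ℝ := breg X Z

theorem bz_nonneg {Z X : Matrix n n ℝ} (hZ : Z.PosSemidef) (hX : X.PosSemidef) : 0 ≤ bz Z X :=
  breg_nonneg hZ hX

/-- midpoint gap -/
noncomputable def mg (X Y : Matrix n n ℝ) : ℝ := gap X Y

theorem mg_comm (X Y : Matrix n n ℝ) : mg X Y = mg Y X := gap_comm X Y

theorem mg_le_bz {Z X Y : Matrix n n ℝ} (hZ : Z.PosSemidef) (hX : X.PosSemidef)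
    (hY : Y.PosSemidef) : mg X Y ≤ bz Z X + bz Z Y := by
  have h1 := bz_nonneg hZ (X := (1 / 2 : ℝ) • (X + Y)) ((hX.add hY).smul (by norm_num))
  have e : (CFC.sqrt Z * (X - Z)).trace + (CFC.sqrt Z * (Y - Z)).trace =
      2 * (CFC.sqrt Z * ((1 / 2 : ℝ) • (X + Y) - Z)).trace := by
    have e0 : (X - Z) + (Y - Z) = (2 : ℝ) • ((1 / 2 : ℝ) • (X + Y) - Z) := by
      rw [smul_sub, smul_smul]
      norm_num
      rw [two_smul]
      abel
    rw [← trace_add, ← mul_add, e0, mul_smul_comm, trace_smul, smul_eq_mul]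
  unfold bz breg at h1 ⊢
  unfold mg gap
  linarith

theorem bz_mid_le {Z X Y : Matrix n n ℝ} (hZ : Z.PosSemidef) (hX : X.PosSemidef)
    (hY : Y.PosSemidef) : bz Z ((1 / 2 : ℝ) • (X + Y)) ≤ (bz Z X + bz Z Y) / 2 := by
  have h1 := phi_mid_le hX hY
  have e : (CFC.sqrt Z * (X - Z)).trace + (CFC.sqrt Z * (Y - Z)).trace =
      2 * (CFC.sqrt Z * ((1 / 2 : ℝ) • (X + Y) - Z)).trace := by
    have e0 : (X - Z) + (Y - Z) = (2 : ℝ) • ((1 / 2 : ℝ) • (X + Y) - Z) := by
      rw [smul_sub, smul_smul]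
      norm_num
      rw [two_smul]
      abel
    rw [← trace_add, ← mul_add, e0, mul_smul_comm, trace_smul, smul_eq_mul]
  unfold bz breg
  linarith

theorem sum_bz_avg {K : ℕ} (hK : 0 < K) (x : ℕ → Matrix n n ℝ) {Z : Matrix n n ℝ}
    (hz : Z = (1 / (K : ℝ)) • ∑ i ∈ range K, x i) :
    ∑ i ∈ range K, bz Z (x i) = ∑ i ∈ range K, phi (x i) - K * phi Z := by
  have hK' : (K : ℝ) ≠ 0 := by positivity
  unfold bz breg
  rw [Finset.sum_sub_distrib, Finset.sum_sub_distrib, ← Finset.mul_sum, ← trace_sum,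
    ← Finset.mul_sum, Finset.sum_sub_distrib, Finset.sum_const, Finset.sum_const,
    Finset.card_range]
  have e : ∑ i ∈ range K, x i - K • Z = 0 := by
    rw [hz, ← Nat.cast_smul_eq_nsmul ℝ, smul_smul, mul_one_div_cancel hK', one_smul, sub_self]
  rw [e, mul_zero, trace_zero, nsmul_eq_mul]
  ring

end breg

section shift

variable {N κ : ℕ} {g : Arr Q n}

/-- Bregman remainder of the `i`-th block -/
noncomputable def SB (g : Arr Q n) (N k j : ℕ) (p : ZMod Q) (i : ℕ) : ℝ :=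
  ∑ q : ZMod Q, bz (g k j q p) (g 0 j (q + (i : ZMod Q) * N) p)

theorem SB_nonneg (hg : AOK N κ g) (k j : ℕ) (p : ZMod Q) (i : ℕ) : 0 ≤ SB g N k j p i :=
  Finset.sum_nonneg fun q _ => bz_nonneg (hg.psd _ _ _ _) (hg.psd _ _ _ _)

theorem sum_SB (hg : AOK N κ g) (k j : ℕ) (p : ZMod Q) :
    ∑ i ∈ range (2 ^ k), SB g N k j p i =
      ((2 ^ k : ℕ) : ℝ) * (∑ q : ZMod Q, phi (g 0 j q p) - ∑ q : ZMod Q, phi (g k j q p)) := by
  unfold SB
  rw [Finset.sum_comm]
  have h1 : ∀ q : ZMod Q, ∑ i ∈ range (2 ^ k), bz (g k j q p) (g 0 j (q + (i : ZMod Q) * N) p) =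
      ∑ i ∈ range (2 ^ k), phi (g 0 j (q + (i : ZMod Q) * N) p) -
        ((2 ^ k : ℕ) : ℝ) * phi (g k j q p) := fun q =>
    sum_bz_avg (by positivity) (fun i => g 0 j (q + (i : ZMod Q) * N) p) (avg_pow hg j k q p)
  rw [Finset.sum_congr rfl fun q _ => h1 q, Finset.sum_sub_distrib, Finset.sum_comm,
    ← Finset.mul_sum]
  have h2 : ∀ i ∈ range (2 ^ k), ∑ q : ZMod Q, phi (g 0 j (q + (i : ZMod Q) * N) p) =
      ∑ q : ZMod Q, phi (g 0 j q p) := fun i _ =>
    sum_shift (fun q => phi (g 0 j q p)) ((i : ZMod Q) * N)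
  rw [Finset.sum_congr rfl h2, Finset.sum_const, Finset.card_range, nsmul_eq_mul]
  ring

theorem sum_SB_shift_le (hg : AOK N κ g) (k j : ℕ) (p : ZMod Q) (L c : ℕ) (hL : L + c ≤ 2 ^ k) :
    ∑ i ∈ range L, SB g N k j p (i + c) ≤ ∑ i ∈ range (2 ^ k), SB g N k j p i := by
  have h1 : ∑ i ∈ range L, SB g N k j p (i + c) = ∑ i ∈ Finset.Ico c (L + c), SB g N k j p i := by
    rw [Finset.sum_Ico_eq_sum_range]
    simp [add_comm]
  rw [h1]
  apply Finset.sum_le_sum_of_subset_of_nonneg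
  · intro i hi
    rw [Finset.mem_Ico] at hi
    exact Finset.mem_range.2 (by omega)
  · intro i _ _
    exact SB_nonneg hg k j p i

theorem gap_shift_nat (hg : AOK N κ g) (s k j : ℕ) (hs : 2 * s ≤ 2 ^ k) (p : ZMod Q) :
    ∑ q : ZMod Q, mg (g 0 j q p) (g 0 j (q + (s : ZMod Q) * N) p) ≤
      4 * (∑ q : ZMod Q, phi (g 0 j q p) - ∑ q : ZMod Q, phi (g k j q p)) := by
  set K := 2 ^ k with hKd
  have hK : 0 < K := by positivity
  set S := ∑ q : ZMod Q, mg (g 0 j q p) (g 0 j (q + (s : ZMod Q) * N) p) with hG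
  set D := ∑ q : ZMod Q, phi (g 0 j q p) - ∑ q : ZMod Q, phi (g k j q p) with hD
  have hsum : ∑ i ∈ range K, SB g N k j p i = K * D := sum_SB hg k j p
  have hi : ∀ i : ℕ, S ≤ SB g N k j p i + SB g N k j p (i + s) := by
    intro i
    have e1 : S = ∑ q : ZMod Q, mg (g 0 j (q + (i : ZMod Q) * N) p)
        (g 0 j (q + ((i + s : ℕ) : ZMod Q) * N) p) := by
      rw [hG, ← sum_shift _ ((i : ZMod Q) * (N : ZMod Q))]
      refine Finset.sum_congr rfl fun q _ => ?_
      have : q + (i : ZMod Q) * N + (s : ZMod Q) * N = q + ((i + s : ℕ) : ZMod Q) * N := by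
        push_cast; ring
      rw [this]
    rw [e1]
    unfold SB
    rw [← Finset.sum_add_distrib]
    exact Finset.sum_le_sum fun q _ => mg_le_bz (hg.psd _ _ _ _) (hg.psd _ _ _ _) (hg.psd _ _ _ _)
  have hD0 : 0 ≤ D := by
    have h1 : 0 ≤ ∑ i ∈ range K, SB g N k j p i :=
      Finset.sum_nonneg fun i _ => SB_nonneg hg k j p i
    rw [hsum] at h1
    have : (0 : ℝ) < K := by exact_mod_cast hK
    exact nonneg_of_mul_nonneg_right h1 this
  have hsum2 : ((K - s : ℕ) : ℝ) * S ≤ 2 * (K * D) := by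
    have h1 : ∑ _i ∈ range (K - s), S ≤
        ∑ i ∈ range (K - s), (SB g N k j p i + SB g N k j p (i + s)) :=
      Finset.sum_le_sum fun i _ => hi i
    rw [Finset.sum_const, Finset.card_range, nsmul_eq_mul, Finset.sum_add_distrib] at h1
    have h2 := sum_SB_shift_le hg k j p (K - s) 0 (by omega)
    have h3 := sum_SB_shift_le hg k j p (K - s) s (by omega)
    simp only [add_zero] at h2
    rw [← hKd] at h2 h3
    rw [hsum] at h2 h3
    linarith
  have hKs : (K : ℝ) ≤ 2 * ((K - s : ℕ) : ℝ) := by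
    have : K ≤ 2 * (K - s) := by omega
    exact_mod_cast this
  have hpos : (0 : ℝ) < ((K - s : ℕ) : ℝ) := by
    have : 0 < K - s := by omega
    exact_mod_cast this
  have h5 : ((K - s : ℕ) : ℝ) * S ≤ ((K - s : ℕ) : ℝ) * (4 * D) := by
    nlinarith
  exact le_of_mul_le_mul_left h5 hpos

theorem gap_shift_two_nat (hg : AOK N κ g) (s k j : ℕ) (hs : 2 * (s + 1) ≤ 2 ^ k) (p : ZMod Q) :
    ∑ q : ZMod Q, mg (g 1 j q p) (g 1 j (q + (s : ZMod Q) * N) p) ≤
      4 * (∑ q : ZMod Q, phi (g 0 j q p) - ∑ q : ZMod Q, phi (g k j q p)) := by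
  set K := 2 ^ k with hKd
  have hK : 0 < K := by positivity
  set S := ∑ q : ZMod Q, mg (g 1 j q p) (g 1 j (q + (s : ZMod Q) * N) p) with hG
  set D := ∑ q : ZMod Q, phi (g 0 j q p) - ∑ q : ZMod Q, phi (g k j q p) with hD
  have hsum : ∑ i ∈ range K, SB g N k j p i = K * D := sum_SB hg k j p
  have hD0 : 0 ≤ D := by
    have h1 : 0 ≤ ∑ i ∈ range K, SB g N k j p i :=
      Finset.sum_nonneg fun i _ => SB_nonneg hg k j p i
    rw [hsum] at h1
    have : (0 : ℝ) < K := by exact_mod_cast hK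
    exact nonneg_of_mul_nonneg_right h1 this
  have hb : ∀ (q : ZMod Q) (i : ℕ),
      bz (g k j q p) (g 1 j (q + (i : ZMod Q) * N) p) ≤
      (bz (g k j q p) (g 0 j (q + (i : ZMod Q) * N) p) +
        bz (g k j q p) (g 0 j (q + ((i + 1 : ℕ) : ZMod Q) * N) p)) / 2 := by
    intro q i
    have e1 := hg.dbl 0 j (q + (i : ZMod Q) * N) p
    rw [zero_add, sh_zero] at e1
    rw [e1]
    have : q + (i : ZMod Q) * N + N = q + ((i + 1 : ℕ) : ZMod Q) * N := by
      push_cast; ring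
    rw [this]
    exact bz_mid_le (hg.psd _ _ _ _) (hg.psd _ _ _ _) (hg.psd _ _ _ _)
  have hi : ∀ i : ℕ, S ≤ (SB g N k j p i + SB g N k j p (i + 1)) / 2 +
      (SB g N k j p (i + s) + SB g N k j p (i + (s + 1))) / 2 := by
    intro i
    have e1 : S = ∑ q : ZMod Q, mg (g 1 j (q + (i : ZMod Q) * N) p)
        (g 1 j (q + ((i + s : ℕ) : ZMod Q) * N) p) := by
      rw [hG, ← sum_shift _ ((i : ZMod Q) * (N : ZMod Q))]
      refine Finset.sum_congr rfl fun q _ => ?_
      have : q + (i : ZMod Q) * N + (s : ZMod Q) * N = q + ((i + s : ℕ) : ZMod Q) * N := by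
        push_cast; ring
      rw [this]
    have e2 : (SB g N k j p i + SB g N k j p (i + 1)) / 2 +
        (SB g N k j p (i + s) + SB g N k j p (i + (s + 1))) / 2 =
        ∑ q : ZMod Q,
          ((bz (g k j q p) (g 0 j (q + (i : ZMod Q) * N) p) +
            bz (g k j q p) (g 0 j (q + ((i + 1 : ℕ) : ZMod Q) * N) p)) / 2 +
          (bz (g k j q p) (g 0 j (q + ((i + s : ℕ) : ZMod Q) * N) p) +
            bz (g k j q p) (g 0 j (q + ((i + s + 1 : ℕ) : ZMod Q) * N) p)) / 2) := by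
      unfold SB
      rw [← add_assoc i s 1]
      rw [Finset.sum_add_distrib, ← Finset.sum_div, ← Finset.sum_div, Finset.sum_add_distrib,
        Finset.sum_add_distrib]
    rw [e1, e2]
    refine Finset.sum_le_sum fun q _ => ?_
    refine (mg_le_bz (hg.psd k j q p) (hg.psd _ _ _ _) (hg.psd _ _ _ _)).trans ?_
    exact add_le_add (hb q i) (hb q (i + s))
  have hsum2 : ((K - (s + 1) : ℕ) : ℝ) * S ≤ 2 * (K * D) := by
    have h1 : ∑ _i ∈ range (K - (s + 1)), S ≤
        ∑ i ∈ range (K - (s + 1)), ((SB g N k j p i + SB g N k j p (i + 1)) / 2 +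
          (SB g N k j p (i + s) + SB g N k j p (i + (s + 1))) / 2) :=
      Finset.sum_le_sum fun i _ => hi i
    rw [Finset.sum_const, Finset.card_range, nsmul_eq_mul, Finset.sum_add_distrib,
      ← Finset.sum_div, ← Finset.sum_div, Finset.sum_add_distrib, Finset.sum_add_distrib] at h1
    have h2 := sum_SB_shift_le hg k j p (K - (s + 1)) 0 (by omega)
    have h3 := sum_SB_shift_le hg k j p (K - (s + 1)) 1 (by omega)
    have h4 := sum_SB_shift_le hg k j p (K - (s + 1)) s (by omega)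
    have h5 := sum_SB_shift_le hg k j p (K - (s + 1)) (s + 1) (by omega)
    simp only [add_zero] at h2
    rw [← hKd] at h2 h3 h4 h5
    rw [hsum] at h2 h3 h4 h5
    linarith
  have hKs : (K : ℝ) ≤ 2 * ((K - (s + 1) : ℕ) : ℝ) := by
    have : K ≤ 2 * (K - (s + 1)) := by omega
    exact_mod_cast this
  have hpos : (0 : ℝ) < ((K - (s + 1) : ℕ) : ℝ) := by
    have : 0 < K - (s + 1) := by omega
    exact_mod_cast this
  have h5 : ((K - (s + 1) : ℕ) : ℝ) * S ≤ ((K - (s + 1) : ℕ) : ℝ) * (4 * D) := by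
    nlinarith
  exact le_of_mul_le_mul_left h5 hpos

/-- (SL) -/
theorem gap_shift (hg : AOK N κ g) (s : ℤ) (k j : ℕ) (hs : 2 * |s| ≤ (2 ^ k : ℕ)) :
    ∑ p : ZMod Q, ∑ q : ZMod Q, mg (g 0 j q p) (g 0 j (q + (s : ZMod Q) * N) p) ≤
      4 * (EO g 0 j - EO g k j) := by
  have hs' : 2 * s.natAbs ≤ 2 ^ k := by
    have : ((s.natAbs : ℕ) : ℤ) = |s| := Int.natCast_natAbs s
    omega
  unfold EO
  rw [← Finset.sum_sub_distrib, Finset.mul_sum]
  refine Finset.sum_le_sum fun p _ => ?_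
  refine le_trans (le_of_eq ?_) (gap_shift_nat hg s.natAbs k j hs' p)
  rcases Int.natAbs_eq s with h' | h'
  · rw [h']; simp
  · rw [← sum_shift (fun q => mg (g 0 j q p) (g 0 j (q + (s : ZMod Q) * N) p))
      ((s.natAbs : ZMod Q) * N)]
    refine Finset.sum_congr rfl fun q _ => ?_
    have e : q + (s.natAbs : ZMod Q) * N + (s : ZMod Q) * N = q := by
      have : (s : ZMod Q) = -((s.natAbs : ℕ) : ZMod Q) := by
        have h2 : (s : ZMod Q) = ((-(s.natAbs : ℤ) : ℤ) : ZMod Q) := congrArg _ h'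
        rw [h2, Int.cast_neg, Int.cast_natCast]
      rw [this]; ring
    rw [e, mg_comm]

theorem gap_shift_two (hg : AOK N κ g) (s : ℤ) (k j : ℕ) (hs : 2 * (|s| + 1) ≤ (2 ^ k : ℕ)) :
    ∑ p : ZMod Q, ∑ q : ZMod Q, mg (g 1 j q p) (g 1 j (q + (s : ZMod Q) * N) p) ≤
      4 * (EO g 0 j - EO g k j) := by
  have hs' : 2 * (s.natAbs + 1) ≤ 2 ^ k := by
    have : ((s.natAbs : ℕ) : ℤ) = |s| := Int.natCast_natAbs s
    omega
  unfold EO
  rw [← Finset.sum_sub_distrib, Finset.mul_sum]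
  refine Finset.sum_le_sum fun p _ => ?_
  refine le_trans (le_of_eq ?_) (gap_shift_two_nat hg s.natAbs k j hs' p)
  rcases Int.natAbs_eq s with h' | h'
  · rw [h']; simp
  · rw [← sum_shift (fun q => mg (g 1 j q p) (g 1 j (q + (s : ZMod Q) * N) p))
      ((s.natAbs : ZMod Q) * N)]
    refine Finset.sum_congr rfl fun q _ => ?_
    have e : q + (s.natAbs : ZMod Q) * N + (s : ZMod Q) * N = q := by
      have : (s : ZMod Q) = -((s.natAbs : ℕ) : ZMod Q) := by
        have h2 : (s : ZMod Q) = ((-(s.natAbs : ℤ) : ℤ) : ZMod Q) := congrArg _ h'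
        rw [h2, Int.cast_neg, Int.cast_natCast]
      rw [this]; ring
    rw [e, mg_comm]

end shift

section mixed

variable {N κ : ℕ} {g h : Arr Q n}

theorem WW_mixed_gen (hg : AOK N κ g) (hh : AOK N κ h) (i j : ℕ) (t a b : ZMod Q) (ex ez : ℝ)
    (hX : ∑ p : ZMod Q, ∑ q : ZMod Q, mg (g i j q p) (g i j (q + a) p) ≤ 4 * ex)
    (hZ : ∑ p : ZMod Q, ∑ q : ZMod Q, mg (h i j q p) (h i j (q + b) p) ≤ 4 * ez) :
    |WW g h i j t + WW g h i j (t + (a + b)) - WW g h i j (t + a) - WW g h i j (t + b)| ≤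
      16 * (ex + ez) := by
  have e11 : WW g h i j (t + (a + b)) = ∑ p : ZMod Q, ∑ q : ZMod Q,
      phi (g i j (q + a) p + h i j (t - p - q + b) p) := by
    unfold WW
    refine Finset.sum_congr rfl fun p _ => ?_
    rw [← sum_shift _ a]
    refine Finset.sum_congr rfl fun q _ => ?_
    have : t + (a + b) - p - (q + a) = t - p - q + b := by ring
    rw [this]
  have e10 : WW g h i j (t + a) = ∑ p : ZMod Q, ∑ q : ZMod Q,
      phi (g i j (q + a) p + h i j (t - p - q) p) := by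
    unfold WW
    refine Finset.sum_congr rfl fun p _ => ?_
    rw [← sum_shift _ a]
    refine Finset.sum_congr rfl fun q _ => ?_
    have : t + a - p - (q + a) = t - p - q := by ring
    rw [this]
  have e01 : WW g h i j (t + b) = ∑ p : ZMod Q, ∑ q : ZMod Q,
      phi (g i j q p + h i j (t - p - q + b) p) := by
    unfold WW
    refine Finset.sum_congr rfl fun p _ => Finset.sum_congr rfl fun q _ => ?_
    have : t + b - p - q = t - p - q + b := by ring
    rw [this]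
  have e00 : WW g h i j t = ∑ p : ZMod Q, ∑ q : ZMod Q, phi (g i j q p + h i j (t - p - q) p) := rfl
  have hZ' : ∑ p : ZMod Q, ∑ q : ZMod Q, mg (h i j (t - p - q) p) (h i j (t - p - q + b) p) ≤
      4 * ez := by
    refine le_trans (le_of_eq ?_) hZ
    refine Finset.sum_congr rfl fun p _ => ?_
    exact Equiv.sum_comp (Equiv.subLeft (t - p)) (fun q => mg (h i j q p) (h i j (q + b) p))
  have hup : ∀ p q : ZMod Q,
      |phi (g i j q p + h i j (t - p - q) p) + phi (g i j (q + a) p + h i j (t - p - q + b) p) -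
        phi (g i j (q + a) p + h i j (t - p - q) p) -
        phi (g i j q p + h i j (t - p - q + b) p)| ≤
      4 * (mg (g i j q p) (g i j (q + a) p) + mg (h i j (t - p - q) p) (h i j (t - p - q + b) p)) := by
    intro p q
    have h1 := phi_mixed_abs (hg.psd i j q p) (hg.psd i j (q + a) p) (hh.psd i j (t - p - q) p)
      (hh.psd i j (t - p - q + b) p)
    unfold mg
    rw [abs_le] at h1 ⊢
    constructor <;> linarith [h1.1, h1.2]
  rw [e00, e11, e10, e01]
  simp only [← Finset.sum_add_distrib, ← Finset.sum_sub_distrib]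
  calc _ ≤ ∑ p : ZMod Q, ∑ q : ZMod Q,
      |phi (g i j q p + h i j (t - p - q) p) + phi (g i j (q + a) p + h i j (t - p - q + b) p) -
        phi (g i j (q + a) p + h i j (t - p - q) p) -
        phi (g i j q p + h i j (t - p - q + b) p)| :=
        (Finset.abs_sum_le_sum_abs _ _).trans
          (Finset.sum_le_sum fun p _ => Finset.abs_sum_le_sum_abs _ _)
    _ ≤ ∑ p : ZMod Q, ∑ q : ZMod Q,
      4 * (mg (g i j q p) (g i j (q + a) p) + mg (h i j (t - p - q) p) (h i j (t - p - q + b) p)) :=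
        Finset.sum_le_sum fun p _ => Finset.sum_le_sum fun q _ => hup p q
    _ = 4 * (∑ p : ZMod Q, ∑ q : ZMod Q, mg (g i j q p) (g i j (q + a) p) +
        ∑ p : ZMod Q, ∑ q : ZMod Q, mg (h i j (t - p - q) p) (h i j (t - p - q + b) p)) := by
        simp only [← Finset.mul_sum, Finset.sum_add_distrib]
    _ ≤ 4 * (4 * ex + 4 * ez) := by linarith
    _ = 16 * (ex + ez) := by ring

theorem WW_mixed (hg : AOK N κ g) (hh : AOK N κ h) (j : ℕ) (t : ZMod Q) (a b : ℤ) (k : ℕ)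
    (hs : 2 * |a| ≤ (2 ^ k : ℕ)) (ht : 2 * |b| ≤ (2 ^ k : ℕ)) :
    |WW g h 0 j t + WW g h 0 j (t + (a + b : ℤ) * N) - WW g h 0 j (t + (a : ZMod Q) * N) -
        WW g h 0 j (t + (b : ZMod Q) * N)| ≤
      16 * (EO g 0 j - EO g k j + (EO h 0 j - EO h k j)) := by
  have h' := WW_mixed_gen hg hh 0 j t ((a : ZMod Q) * N) ((b : ZMod Q) * N) _ _
    (gap_shift hg a k j hs) (gap_shift hh b k j ht)
  have e : ((a + b : ℤ) : ZMod Q) * N = (a : ZMod Q) * N + (b : ZMod Q) * N := by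
    push_cast; ring
  rw [e]
  exact h'

theorem WW_mixed_two (hg : AOK N κ g) (hh : AOK N κ h) (j : ℕ) (t : ZMod Q) (a b : ℤ) (k : ℕ)
    (hs : 2 * (|a| + 1) ≤ (2 ^ k : ℕ)) (ht : 2 * (|b| + 1) ≤ (2 ^ k : ℕ)) :
    |WW g h 1 j t + WW g h 1 j (t + (a + b : ℤ) * N) - WW g h 1 j (t + (a : ZMod Q) * N) -
        WW g h 1 j (t + (b : ZMod Q) * N)| ≤
      16 * (EO g 0 j - EO g k j + (EO h 0 j - EO h k j)) := by
  have h' := WW_mixed_gen hg hh 1 j t ((a : ZMod Q) * N) ((b : ZMod Q) * N) _ _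
    (gap_shift_two hg a k j hs) (gap_shift_two hh b k j ht)
  have e : ((a + b : ℤ) : ZMod Q) * N = (a : ZMod Q) * N + (b : ZMod Q) * N := by
    push_cast; ring
  rw [e]
  exact h'

end mixed

section pot

variable {N κ : ℕ} {u : ZMod Q → n → ℝ} {g h : Arr Q n}

/-- pointwise one scale estimate -/
theorem gap_pt (h' : APr N κ u g h) (l : ℤ) (hκ : 2 * |l| + 20 ≤ (2 ^ κ : ℕ)) (i : ZMod Q) :
    GG u g h ((l : ZMod Q) * (N : ZMod Q) + i) ≤
      4 * WW g h 0 0 (((-2 : ℤ) : ZMod Q) * (N : ZMod Q) + i) -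
      2 * (WW g h 1 1 (((-4 : ℤ) : ZMod Q) * (N : ZMod Q) + i) +
          WW g h 1 1 (((-3 : ℤ) : ZMod Q) * (N : ZMod Q) + i)) +
      64 * (EB g h 0 - EB g h κ) := by
  have hg := h'.og
  have hh := h'.oh
  set K : ℕ := 2 ^ κ with hKdef
  have hl1 := le_abs_self l
  have hl2 := neg_abs_le l
  have h1 := GG_le h' ((l : ZMod Q) * (N : ZMod Q) + i)
  have h2 := GG_le h' (((-7 - l : ℤ) : ZMod Q) * (N : ZMod Q) + i)
  have h2' := GG_nonneg h' (((-7 - l : ℤ) : ZMod Q) * (N : ZMod Q) + i)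
  set DX := EO g 0 0 - EO g κ κ with hDX
  set DZ := EO h 0 0 - EO h κ κ with hDZ
  have hκ1 : 1 ≤ κ := by
    rcases Nat.eq_zero_or_pos κ with h | h
    · exfalso
      rw [hKdef, h] at hκ
      push_cast at hκ
      have := abs_nonneg l
      omega
    · exact h
  have hEKX : EO g κ κ ≤ EO g κ 0 := by
    have := EO_le_j hg κ 0 κ (by omega)
    simpa using this
  have hEKZ : EO h κ κ ≤ EO h κ 0 := by
    have := EO_le_j hh κ 0 κ (by omega)
    simpa using this
  have hEK2X : EO g κ κ ≤ EO g κ 1 := by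
    have := EO_le_j hg κ 1 (κ - 1) (by omega)
    rwa [show 1 + (κ - 1) = κ by omega] at this
  have hEK2Z : EO h κ κ ≤ EO h κ 1 := by
    have := EO_le_j hh κ 1 (κ - 1) (by omega)
    rwa [show 1 + (κ - 1) = κ by omega] at this
  have hE2X : EO g 0 1 ≤ EO g 0 0 := EO_succ_j hg 0 (by omega)
  have hE2Z : EO h 0 1 ≤ EO h 0 0 := EO_succ_j hh 0 (by omega)
  -- N-scale comparison
  have hA : ∀ j : ℤ, |j| ≤ |l| + 2 →
      WW g h 0 0 ((j : ZMod Q) * N + i) + WW g h 0 0 (((-4 - j : ℤ) : ZMod Q) * N + i) ≤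
        2 * WW g h 0 0 (((-2 : ℤ) : ZMod Q) * N + i) + 16 * (DX + DZ) := by
    intro j hj
    have hj1 := le_abs_self j
    have hj2 := neg_abs_le j
    have h3 := WW_mixed hg hh 0 (((-2 : ℤ) : ZMod Q) * N + i) (j + 2) (-2 - j) κ
      (by rcases abs_cases (j + 2) with h | h <;> omega)
      (by rcases abs_cases (-2 - j) with h | h <;> omega)
    have e1 : ((-2 : ℤ) : ZMod Q) * N + i + ((j + 2 + (-2 - j) : ℤ) : ZMod Q) * N =
        ((-2 : ℤ) : ZMod Q) * N + i := by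
      push_cast; ring
    have e2 : ((-2 : ℤ) : ZMod Q) * N + i + ((j + 2 : ℤ) : ZMod Q) * N =
        (j : ZMod Q) * N + i := by
      push_cast; ring
    have e3 : ((-2 : ℤ) : ZMod Q) * N + i + ((-2 - j : ℤ) : ZMod Q) * N =
        ((-4 - j : ℤ) : ZMod Q) * N + i := by
      push_cast; ring
    rw [e1, e2, e3] at h3
    have h4 := (abs_le.1 h3).1
    linarith
  -- 2N-scale comparison
  have hB : WW g h 1 1 (((-4 : ℤ) : ZMod Q) * N + i) +
        WW g h 1 1 (((-3 : ℤ) : ZMod Q) * N + i) - 16 * (DX + DZ) ≤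
      WW g h 1 1 ((l : ZMod Q) * N + i) + WW g h 1 1 (((-7 - l : ℤ) : ZMod Q) * N + i) := by
    have h3 := WW_mixed_two hg hh 1 (((-4 : ℤ) : ZMod Q) * N + i) (l + 4) (-3 - l) κ
      (by rcases abs_cases (l + 4) with h | h <;> omega)
      (by rcases abs_cases (-3 - l) with h | h <;> omega)
    have e1 : ((-4 : ℤ) : ZMod Q) * N + i + ((l + 4 + (-3 - l) : ℤ) : ZMod Q) * N =
        ((-3 : ℤ) : ZMod Q) * N + i := by
      push_cast; ring
    have e2 : ((-4 : ℤ) : ZMod Q) * N + i + ((l + 4 : ℤ) : ZMod Q) * N =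
        (l : ZMod Q) * N + i := by
      push_cast; ring
    have e3 : ((-4 : ℤ) : ZMod Q) * N + i + ((-3 - l : ℤ) : ZMod Q) * N =
        ((-7 - l : ℤ) : ZMod Q) * N + i := by
      push_cast; ring
    rw [e1, e2, e3] at h3
    have h4 := (abs_le.1 h3).2
    linarith
  have hA1 := hA (l + 1) (by rcases abs_cases (l + 1) with h | h <;> omega)
  have hA2 := hA (l + 2) (by rcases abs_cases (l + 2) with h | h <;> omega)
  have f1 : ((l + 1 : ℤ) : ZMod Q) * N + i = (l : ZMod Q) * N + i + N := by push_cast; ring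
  have f2 : ((-4 - (l + 1) : ℤ) : ZMod Q) * N + i =
      ((-7 - l : ℤ) : ZMod Q) * N + i + 2 * N := by push_cast; ring
  have f3 : ((l + 2 : ℤ) : ZMod Q) * N + i = (l : ZMod Q) * N + i + 2 * N := by push_cast; ring
  have f4 : ((-4 - (l + 2) : ℤ) : ZMod Q) * N + i =
      ((-7 - l : ℤ) : ZMod Q) * N + i + N := by push_cast; ring
  rw [f1, f2] at hA1
  rw [f3, f4] at hA2
  have hEE : EB g h 0 - EB g h κ = DX + DZ := by
    unfold EB; rw [hDX, hDZ]; ring
  rw [hEE]
  linarith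

/-- the joint potential at side `2^j N`, block `-2` -/
noncomputable def VV (N : ℕ) (g h : Arr Q n) (j : ℕ) : ℝ := bl (WW g h j j) (2 ^ j * N) (-2)

theorem VV_nonneg (hg : AOK N κ g) (hh : AOK N κ h) (j : ℕ) : 0 ≤ VV N g h j :=
  mul_nonneg (by positivity) (Finset.sum_nonneg fun _ _ => WW_nonneg hg hh _ _ _)

theorem VV_double (N : ℕ) (hN : 0 < N) (g h : Arr Q n) :
    (1 / (N : ℝ)) * ∑ i ∈ range N,
      (WW g h 1 1 (((-4 : ℤ) : ZMod Q) * (N : ZMod Q) + (i : ZMod Q)) +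
        WW g h 1 1 (((-3 : ℤ) : ZMod Q) * (N : ZMod Q) + (i : ZMod Q))) = 2 * VV N g h 1 := by
  have hN' : (N : ℝ) ≠ 0 := by positivity
  have e0 : 2 ^ 1 * N = N + N := by ring
  unfold VV bl
  rw [e0, Finset.sum_range_add, Finset.sum_add_distrib]
  have h1 : ∀ i ∈ range N,
      WW g h 1 1 (((-2 : ℤ) : ZMod Q) * ((N + N : ℕ) : ZMod Q) + (i : ZMod Q)) =
      WW g h 1 1 (((-4 : ℤ) : ZMod Q) * (N : ZMod Q) + (i : ZMod Q)) := by
    intro i _
    congr 1
    push_cast; ring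
  have h2 : ∀ i ∈ range N,
      WW g h 1 1 (((-2 : ℤ) : ZMod Q) * ((N + N : ℕ) : ZMod Q) + ((N + i : ℕ) : ZMod Q)) =
      WW g h 1 1 (((-3 : ℤ) : ZMod Q) * (N : ZMod Q) + (i : ZMod Q)) := by
    intro i _
    congr 1
    push_cast; ring
  rw [Finset.sum_congr rfl h1, Finset.sum_congr rfl h2]
  have h3 : (1 / ((N + N : ℕ) : ℝ)) = (1 / 2) * (1 / (N : ℝ)) := by
    push_cast
    field_simp
    norm_num
  rw [h3]
  ring

/-- **(L1) one scale estimate for arrays.** -/
theorem gap_arr (hN : 0 < N) (h' : APr N κ u g h) (l : ℤ) (hκ : 2 * |l| + 20 ≤ (2 ^ κ : ℕ)) :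
    bl (GG u g h) N l ≤ 4 * (VV N g h 0 - VV N g h 1) + 64 * (EB g h 0 - EB g h κ) := by
  have hN' : (N : ℝ) ≠ 0 := by positivity
  have hV := VV_double N hN g h
  set D := EB g h 0 - EB g h κ with hD
  have h1 : bl (GG u g h) N l ≤ (1 / (N : ℝ)) *
      ∑ i ∈ range N, (4 * WW g h 0 0 (((-2 : ℤ) : ZMod Q) * (N : ZMod Q) + (i : ZMod Q)) -
        2 * (WW g h 1 1 (((-4 : ℤ) : ZMod Q) * (N : ZMod Q) + (i : ZMod Q)) +
          WW g h 1 1 (((-3 : ℤ) : ZMod Q) * (N : ZMod Q) + (i : ZMod Q))) + 64 * D) := by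
    unfold bl
    refine mul_le_mul_of_nonneg_left (Finset.sum_le_sum fun i _ => ?_) (by positivity)
    exact gap_pt h' l hκ (i : ZMod Q)
  refine h1.trans (le_of_eq ?_)
  rw [Finset.sum_add_distrib, Finset.sum_sub_distrib, ← Finset.mul_sum, ← Finset.mul_sum,
    Finset.sum_const, Finset.card_range, nsmul_eq_mul, mul_add, mul_sub]
  have h2 : (1 / (N : ℝ)) * (2 * ∑ i ∈ range N,
      (WW g h 1 1 (((-4 : ℤ) : ZMod Q) * (N : ZMod Q) + (i : ZMod Q)) +
          WW g h 1 1 (((-3 : ℤ) : ZMod Q) * (N : ZMod Q) + (i : ZMod Q)))) =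
      2 * (2 * VV N g h 1) := by
    rw [← hV]; ring
  have h3 : (1 / (N : ℝ)) * ((N : ℝ) * (64 * D)) = 64 * D := by
    field_simp
  have h4 : (1 / (N : ℝ)) * (4 * ∑ i ∈ range N,
      WW g h 0 0 (((-2 : ℤ) : ZMod Q) * (N : ZMod Q) + (i : ZMod Q))) = 4 * VV N g h 0 := by
    unfold VV bl
    rw [pow_zero, one_mul]
    ring
  rw [h2, h3, h4]
  ring

end pot

end Crest.Agent.R079.CR371
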