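import Crest.Agent.R079.CRa_371
import Crest.Agent.R079.PLPhi_931

/-! R079, RAGGED CORNER (CR), L2: facts about `phi M = tr M^{3/2}` (orthogonal sums, compressions,
operator norms), box letters on the global index `ZMod Q`, their Gram arrays `gr`, the assembled box
of side `2N`, the node inequality and the word inequality.  helper371. -/

set_option autoImplicit false
set_option linter.unusedVariables false
set_option linter.unusedSectionVars false
set_option linter.unusedSimpArgs false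

namespace Crest.Agent.R079.CR371

open Matrix Finset Crest.Agent.R072
open Crest.Agent.R072.Lattice (sum_sub_left' sum_add_right' sum_shift sum_range_mul_aux)
open Crest.Agent.R079.PotL (bl bl_mono bl_add bl_const_mul)
open scoped MatrixOrder

section phi

variable {m n : Type*} [Fintype m] [DecidableEq m] [Fintype n] [DecidableEq n]

theorem eq_zero_of_trace {T : Matrix m n ℝ} (h : (Tᵀ * T).trace = 0) : T = 0 := by
  rw [← conjTranspose_eq_transpose_of_trivial] at h
  exact Matrix.trace_conjTranspose_mul_self_eq_zero_iff.1 h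

theorem rt_mul_rt_eq_zero {X Y : Matrix n n ℝ} (hX : X.PosSemidef) (hY : Y.PosSemidef)
    (h : X * Y = 0) : CFC.sqrt X * CFC.sqrt Y = 0 := by
  apply eq_zero_of_trace
  rw [transpose_mul, rt_transpose, rt_transpose]
  have e : CFC.sqrt Y * CFC.sqrt X * (CFC.sqrt X * CFC.sqrt Y) =
      CFC.sqrt Y * (X * CFC.sqrt Y) := by
    rw [mul_assoc, ← mul_assoc (CFC.sqrt X), rt_mul_rt hX]
  rw [e, trace_mul_comm, mul_assoc, rt_mul_rt hY, h, trace_zero]

theorem rt_add_orth {X Y : Matrix n n ℝ} (hX : X.PosSemidef) (hY : Y.PosSemidef)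
    (h : X * Y = 0) : CFC.sqrt (X + Y) = CFC.sqrt X + CFC.sqrt Y := by
  have h1 := rt_mul_rt_eq_zero hX hY h
  have h2 : CFC.sqrt Y * CFC.sqrt X = 0 := by
    have := congrArg transpose h1
    rwa [transpose_mul, rt_transpose, rt_transpose, transpose_zero] at this
  apply rt_unique ((rt_psd X).add (rt_psd Y))
  rw [add_mul, mul_add, mul_add, h1, h2, rt_mul_rt hX, rt_mul_rt hY, add_zero, zero_add]

/-- `phi` is additive on orthogonal sums -/
theorem phi_add_orth {X Y : Matrix n n ℝ} (hX : X.PosSemidef) (hY : Y.PosSemidef)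
    (h : X * Y = 0) : phi (X + Y) = phi X + phi Y := by
  have h1 := rt_mul_rt_eq_zero hX hY h
  have h2 : CFC.sqrt Y * CFC.sqrt X = 0 := by
    have := congrArg transpose h1
    rwa [transpose_mul, rt_transpose, rt_transpose, transpose_zero] at this
  have h3 : CFC.sqrt X * Y = 0 := by
    have : CFC.sqrt X * (CFC.sqrt Y * CFC.sqrt Y) = 0 := by rw [← mul_assoc, h1, zero_mul]
    rwa [rt_mul_rt hY] at this
  have h4 : CFC.sqrt Y * X = 0 := by
    have : CFC.sqrt Y * (CFC.sqrt X * CFC.sqrt X) = 0 := by rw [← mul_assoc, h2, zero_mul]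
    rwa [rt_mul_rt hX] at this
  unfold phi
  rw [rt_add_orth hX hY h, add_mul, mul_add, mul_add, h3, h4, add_zero, zero_add, trace_add]

/-- compression contracts `phi` -/
theorem phi_proj_le {M P : Matrix n n ℝ} (hM : M.PosSemidef) (hP : Pᵀ = P) (hPP : P * P = P) :
    phi (P * M * P) ≤ phi M := by
  have hN : (P * M * P).PosSemidef := by
    have := psd_conj hM P
    rwa [hP] at this
  have h := phi_sub_le hN hM
  set R := CFC.sqrt (P * M * P) with hR
  have hRR : R * R = P * M * P := rt_mul_rt hN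
  have hRt : Rᵀ = R := rt_transpose _
  have h0 : R * (1 - P) = 0 := by
    apply eq_zero_of_trace
    have e : (R * (1 - P))ᵀ * (R * (1 - P)) = (1 - P) * (R * R) * (1 - P) := by
      rw [transpose_mul, hRt, transpose_sub, transpose_one, hP]
      simp only [mul_assoc]
    have e2 : (1 - P) * (P * M * P) * (1 - P) = 0 := by
      have : (1 - P) * P = 0 := by rw [sub_mul, one_mul, hPP, sub_self]
      rw [mul_assoc P M P, ← mul_assoc (1 - P) P, this, zero_mul, zero_mul]
    rw [e, hRR, e2, trace_zero]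
  have h1 : R * P = R := by
    rw [mul_sub, mul_one, sub_eq_zero] at h0
    exact h0.symm
  have h2 : P * R = R := by
    have := congrArg transpose h1
    rwa [transpose_mul, hRt, hP] at this
  have h3 : (R * (P * M * P - M)).trace = 0 := by
    rw [mul_sub, trace_sub, ← mul_assoc, ← mul_assoc, h1, trace_mul_comm (R * M) P, ← mul_assoc, h2,
      sub_self]
  rw [h3] at h
  linarith

/-- Gram form: `phi(P Xᵀ X P) ≤ phi(Xᵀ X)` etc. -/
theorem psd_gram (X : Matrix m n ℝ) : (Xᵀ * X).PosSemidef := by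
  have := posSemidef_conjTranspose_mul_self X
  rwa [conjTranspose_eq_transpose_of_trivial] at this

theorem phi_le_of_le {M : Matrix n n ℝ} (hM : M.PosSemidef) {c : ℝ} (hc : 0 ≤ c)
    (h : (c • (1 : Matrix n n ℝ) - M).PosSemidef) : phi M ≤ √c * M.trace := by
  have h1 : (c • (1 : Matrix n n ℝ)).PosSemidef := PosSemidef.one.smul hc
  have h2 := rt_mono' hM h1 h
  have h3 : CFC.sqrt (c • (1 : Matrix n n ℝ)) = √c • 1 := by
    apply rt_unique (PosSemidef.one.smul (Real.sqrt_nonneg c))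
    rw [smul_mul_smul_comm, mul_one, Real.mul_self_sqrt hc]
  rw [h3] at h2
  have h4 := trace_mul_le_trace_mul hM h2
  rw [mul_smul_comm, mul_one, trace_smul, smul_eq_mul, trace_mul_comm] at h4
  exact h4

end phi

section norms

open scoped Matrix.Norms.L2Operator

variable {m n k : Type*} [Fintype m] [DecidableEq m] [Fintype n] [DecidableEq n]
  [Fintype k] [DecidableEq k]

theorem nrm_t (K : Matrix m n ℝ) : ‖Kᵀ‖ = ‖K‖ := by
  rw [← conjTranspose_eq_transpose_of_trivial, l2_opNorm_conjTranspose]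

theorem nrm_gram (K : Matrix m n ℝ) : ‖Kᵀ * K‖ = ‖K‖ ^ 2 := by
  rw [← conjTranspose_eq_transpose_of_trivial, l2_opNorm_conjTranspose_mul_self, sq]

theorem nrm_rt {M : Matrix n n ℝ} (hM : M.PosSemidef) : ‖CFC.sqrt M‖ = √‖M‖ := by
  have h := nrm_gram (CFC.sqrt M)
  rw [rt_transpose, rt_mul_rt hM] at h
  rw [h, Real.sqrt_sq (norm_nonneg _)]

theorem dot_mulVec_le (K : Matrix m n ℝ) (v : n → ℝ) :
    (K *ᵥ v) ⬝ᵥ (K *ᵥ v) ≤ ‖K‖ ^ 2 * (v ⬝ᵥ v) := by
  have h := l2_opNorm_mulVec K (WithLp.toLp 2 v)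
  have h1 : ‖(WithLp.toLp 2 (K *ᵥ v) : EuclideanSpace ℝ m)‖ ^ 2 = (K *ᵥ v) ⬝ᵥ (K *ᵥ v) := by
    rw [EuclideanSpace.norm_sq_eq]
    simp [dotProduct, ← sq]
  have h2 : ‖(WithLp.toLp 2 v : EuclideanSpace ℝ n)‖ ^ 2 = v ⬝ᵥ v := by
    rw [EuclideanSpace.norm_sq_eq]
    simp [dotProduct, ← sq]
  rw [← h1, ← h2, ← mul_pow]
  exact pow_le_pow_left₀ (norm_nonneg _) h 2

theorem nrm_le_of_dot {K : Matrix m n ℝ} {c : ℝ} (hc : 0 ≤ c)
    (h : ∀ v : n → ℝ, (K *ᵥ v) ⬝ᵥ (K *ᵥ v) ≤ c ^ 2 * (v ⬝ᵥ v)) : ‖K‖ ≤ c := by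
  rw [l2_opNorm_def]
  refine ContinuousLinearMap.opNorm_le_bound _ hc fun v => ?_
  have h1 := h v.ofLp
  have h2 : ‖v‖ ^ 2 = v.ofLp ⬝ᵥ v.ofLp := by
    rw [EuclideanSpace.norm_sq_eq]
    simp [dotProduct, ← sq]
  have h3 : ‖(WithLp.toLp 2 (K *ᵥ v.ofLp) : EuclideanSpace ℝ m)‖ ^ 2 =
      (K *ᵥ v.ofLp) ⬝ᵥ (K *ᵥ v.ofLp) := by
    rw [EuclideanSpace.norm_sq_eq]
    simp [dotProduct, ← sq]
  rw [← h2, ← h3, ← mul_pow] at h1
  exact le_of_sq_le_sq h1 (by positivity)

theorem nrm_proj_le {P : Matrix n n ℝ} (hP : Pᵀ = P) (hPP : P * P = P) : ‖P‖ ≤ 1 := by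
  have h := nrm_gram P
  rw [hP, hPP] at h
  nlinarith [norm_nonneg P]

theorem psd_nrm_sub {M : Matrix n n ℝ} (hM : M.PosSemidef) {c : ℝ} (hc : ‖M‖ ≤ c) :
    (c • (1 : Matrix n n ℝ) - M).PosSemidef := by
  have h := dot_mulVec_le (CFC.sqrt M)
  rw [posSemidef_iff_dotProduct_mulVec]
  refine ⟨?_, fun v => ?_⟩
  · exact ((isHermitian_one (α := ℝ) (n := n)).smul (IsSelfAdjoint.all c)).sub hM.isHermitian
  · have h1 := h v
    have h2 : (CFC.sqrt M *ᵥ v) ⬝ᵥ (CFC.sqrt M *ᵥ v) = v ⬝ᵥ (M *ᵥ v) := by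
      rw [dotProduct_mulVec, ← mulVec_transpose, rt_transpose, mulVec_mulVec, rt_mul_rt hM,
        dotProduct_comm]
    rw [h2, nrm_rt hM, Real.sq_sqrt (norm_nonneg _)] at h1
    have h3 : 0 ≤ v ⬝ᵥ v := by
      have := dotProduct_self_star_nonneg v
      simpa using this
    rw [sub_mulVec, dotProduct_sub, smul_mulVec, one_mulVec, dotProduct_smul, smul_eq_mul,
      star_trivial]
    nlinarith

theorem phi_le_nrm {M : Matrix n n ℝ} (hM : M.PosSemidef) : phi M ≤ √‖M‖ * M.trace :=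
  phi_le_of_le hM (norm_nonneg _) (psd_nrm_sub hM le_rfl)

theorem hs_mul_le (K : Matrix m n ℝ) (S : Matrix n k ℝ) :
    ((K * S)ᵀ * (K * S)).trace ≤ ‖K‖ ^ 2 * (Sᵀ * S).trace := by
  have e : ∀ T : Matrix m k ℝ, (Tᵀ * T).trace = ∑ j, T.col j ⬝ᵥ T.col j := by
    intro T
    simp [trace, Matrix.mul_apply, dotProduct, Matrix.col]
  have e2 : ∀ T : Matrix n k ℝ, (Tᵀ * T).trace = ∑ j, T.col j ⬝ᵥ T.col j := by
    intro T
    simp [trace, Matrix.mul_apply, dotProduct, Matrix.col]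
  rw [e, e2, Finset.mul_sum]
  refine Finset.sum_le_sum fun j _ => ?_
  have : (K * S).col j = K *ᵥ S.col j := by
    ext i
    simp [Matrix.mul_apply, mulVec, dotProduct, Matrix.col]
  rw [this]
  exact dot_mulVec_le K _

theorem trace_cs (A : Matrix m n ℝ) (B : Matrix m n ℝ) :
    |(Aᵀ * B).trace| ≤ √((Aᵀ * A).trace) * √((Bᵀ * B).trace) := by
  have e : ∀ A B : Matrix m n ℝ, (Aᵀ * B).trace = ∑ x : n × m, A x.2 x.1 * B x.2 x.1 := by
    intro A B
    simp [trace, Matrix.mul_apply, Fintype.sum_prod_type]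
  rw [e, e, e]
  have h := Finset.sum_mul_sq_le_sq_mul_sq (Finset.univ : Finset (n × m))
    (fun x => A x.2 x.1) (fun x => B x.2 x.1)
  rw [← Real.sqrt_mul (Finset.sum_nonneg fun x _ => mul_self_nonneg _)]
  apply Real.abs_le_sqrt
  simpa [sq] using h

/-- `|tr (K S)| ≤ ‖K‖ tr S` for a projection `S` -/
theorem trace_mul_proj_le (K : Matrix n n ℝ) {S : Matrix n n ℝ} (hS : Sᵀ = S) (hSS : S * S = S) :
    |(K * S).trace| ≤ ‖K‖ * S.trace := by
  have hSt : (Sᵀ * S).trace = S.trace := by rw [hS, hSS]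
  have h0 : 0 ≤ S.trace := by rw [← hSt]; exact (psd_gram S).trace_nonneg
  have e : (K * S).trace = (Sᵀ * (K * S)).trace := by
    rw [hS, trace_mul_comm S, mul_assoc, hSS]
  rw [e]
  refine (trace_cs _ _).trans ?_
  have h1 := hs_mul_le K S
  rw [hSt] at h1 ⊢
  calc √S.trace * √((K * S)ᵀ * (K * S)).trace ≤ √S.trace * √(‖K‖ ^ 2 * S.trace) :=
        mul_le_mul_of_nonneg_left (Real.sqrt_le_sqrt h1) (Real.sqrt_nonneg _)
    _ = ‖K‖ * S.trace := by
        rw [Real.sqrt_mul (by positivity), Real.sqrt_sq (norm_nonneg _)]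
        have := Real.mul_self_sqrt h0
        linear_combination ‖K‖ * this

end norms

section boxes

variable {Q : ℕ} [NeZero Q]

/-- indicator of the box of side `r` at `p` -/
noncomputable def ind (r : ℕ) (p x : ZMod Q) : ℝ := if (x - p).val < r then 1 else 0

/-- box projection -/
noncomputable def Eb (r : ℕ) (p : ZMod Q) : Matrix (ZMod Q) (ZMod Q) ℝ := diagonal (ind r p)

/-- half box sign of the box of side `2r` at `p` -/
noncomputable def sg (r : ℕ) (p x : ZMod Q) : ℝ :=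
  if r ≤ (x - p).val ∧ (x - p).val < 2 * r then -1 else 1

theorem sg_mul_self (r : ℕ) (p x : ZMod Q) : sg r p x * sg r p x = 1 := by
  unfold sg; split <;> norm_num

theorem val_sub_nat (d : ZMod Q) (r : ℕ) (hr : r ≤ Q) :
    (d - (r : ZMod Q)).val = if r ≤ d.val then d.val - r else d.val + Q - r := by
  have hd : d.val < Q := ZMod.val_lt d
  split_ifs with h
  · have e : d - (r : ZMod Q) = ((d.val - r : ℕ) : ZMod Q) := by
      rw [Nat.cast_sub h, ZMod.natCast_zmod_val]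
    rw [e, ZMod.val_natCast, Nat.mod_eq_of_lt (by omega)]
  · have e : d - (r : ZMod Q) = ((d.val + Q - r : ℕ) : ZMod Q) := by
      rw [Nat.cast_sub (by omega), Nat.cast_add, ZMod.natCast_self, add_zero,
        ZMod.natCast_zmod_val]
    rw [e, ZMod.val_natCast, Nat.mod_eq_of_lt (by omega)]

theorem val_sub_add (x p : ZMod Q) (r : ℕ) (hr : r ≤ Q) :
    (x - (p + (r : ZMod Q))).val =
      if r ≤ (x - p).val then (x - p).val - r else (x - p).val + Q - r := by
  rw [← sub_sub]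
  exact val_sub_nat _ _ hr

theorem ind_two (r : ℕ) (hr : 2 * r ≤ Q) (p x : ZMod Q) :
    ind (2 * r) p x = ind r p x + ind r (p + (r : ZMod Q)) x := by
  have hd : (x - p).val < Q := ZMod.val_lt _
  unfold ind
  rw [val_sub_add x p r (by omega)]
  by_cases h : r ≤ (x - p).val
  · rw [if_pos h, if_neg (show ¬ (x - p).val < r by omega), zero_add]
    by_cases h2 : (x - p).val < 2 * r
    · rw [if_pos h2, if_pos (by omega)]
    · rw [if_neg h2, if_neg (by omega)]
  · rw [if_neg h, if_pos (show (x - p).val < r by omega), if_pos (by omega), if_neg (by omega),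
      add_zero]

theorem ind_sq (r : ℕ) (p x : ZMod Q) : ind r p x * ind r p x = ind r p x := by
  unfold ind; split <;> norm_num

theorem ind_disj (r : ℕ) (hr : 2 * r ≤ Q) (p x : ZMod Q) :
    ind r p x * ind r (p + (r : ZMod Q)) x = 0 := by
  unfold ind
  rw [val_sub_add x p r (by omega)]
  by_cases h : r ≤ (x - p).val
  · rw [if_neg (show ¬ (x - p).val < r by omega), zero_mul]
  · rw [if_neg h, if_neg (show ¬ ((x - p).val + Q - r < r) by omega), mul_zero]

/-- letters of boxes -/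
abbrev Lt (Q : ℕ) (m : Type*) : Type _ := ZMod Q → ZMod Q → Matrix m (ZMod Q) ℝ

variable {m : Type*} [Fintype m]

/-- column support -/
def CSup (N : ℕ) (L : Lt Q m) : Prop := ∀ q p x y, N ≤ (y - p).val → L q p x y = 0

/-- row support -/
def RSup (N : ℕ) (L : Lt Q (ZMod Q)) : Prop := ∀ q p x y, N ≤ (x - q).val → L q p x y = 0

/-- transposed letter -/
def trL (L : Lt Q (ZMod Q)) : Lt Q (ZMod Q) := fun q p => (L p q)ᵀ

theorem trL_CSup {N : ℕ} {L : Lt Q (ZMod Q)} (h : RSup N L) : CSup N (trL L) :=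
  fun q p x y hy => h p q y x hy

theorem trL_RSup {N : ℕ} {L : Lt Q (ZMod Q)} (h : CSup N L) : RSup N (trL L) :=
  fun q p x y hy => h p q y x hy

theorem trL_trL (L : Lt Q (ZMod Q)) : trL (trL L) = L := by
  funext q p
  unfold trL
  rw [transpose_transpose]

/-- row of `2^j` boxes -/
noncomputable def RB (N : ℕ) (L : Lt Q m) (j : ℕ) (q p : ZMod Q) : Matrix m (ZMod Q) ℝ :=
  ∑ t ∈ range (2 ^ j), L q (p + (t : ZMod Q) * (N : ZMod Q))

/-- Gram array of a letter -/
noncomputable def gr (N : ℕ) (L : Lt Q m) : Arr Q (ZMod Q) := fun i j q p =>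
  (1 / (((2 ^ i * N : ℕ) : ℝ) * ((2 ^ j * N : ℕ) : ℝ))) • ∑ s ∈ range (2 ^ i),
    (RB N L j (q + (s : ZMod Q) * (N : ZMod Q)) p)ᵀ *
      RB N L j (q + (s : ZMod Q) * (N : ZMod Q)) p

theorem RB_zero (N : ℕ) (L : Lt Q m) (q p : ZMod Q) : RB N L 0 q p = L q p := by
  simp [RB]

theorem RB_succ (N : ℕ) (L : Lt Q m) (j : ℕ) (q p : ZMod Q) :
    RB N L (j + 1) q p = RB N L j q p + RB N L j q (p + sh N j) := by
  unfold RB
  rw [pow_succ, mul_two, Finset.sum_range_add]
  congr 1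
  refine Finset.sum_congr rfl fun t _ => ?_
  congr 1
  unfold sh
  push_cast
  ring

theorem RB_supp {N : ℕ} {L : Lt Q m} (hL : CSup N L) (j : ℕ) (hj : 2 ^ j * N ≤ Q) (q p : ZMod Q)
    (x : m) (y : ZMod Q) (hy : 2 ^ j * N ≤ (y - p).val) : RB N L j q p x y = 0 := by
  unfold RB
  rw [Matrix.sum_apply]
  refine Finset.sum_eq_zero fun t ht => ?_
  rw [Finset.mem_range] at ht
  apply hL
  have h1 : (t + 1) * N ≤ 2 ^ j * N := Nat.mul_le_mul_right N ht
  have h2 : (t + 1) * N = t * N + N := by ring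
  have e : (t : ZMod Q) * (N : ZMod Q) = ((t * N : ℕ) : ZMod Q) := by push_cast; ring
  rw [e, val_sub_add y p (t * N) (by omega), if_pos (by omega)]
  omega

theorem gr_psd (N : ℕ) (L : Lt Q m) (i j : ℕ) (q p : ZMod Q) : (gr N L i j q p).PosSemidef := by
  classical
  refine PosSemidef.smul (posSemidef_sum _ fun s _ => ?_) (by positivity)
  have := posSemidef_conjTranspose_mul_self (RB N L j (q + (s : ZMod Q) * (N : ZMod Q)) p)
  rwa [conjTranspose_eq_transpose_of_trivial] at this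

theorem gr_dbl (N : ℕ) (L : Lt Q m) (i j : ℕ) (q p : ZMod Q) :
    gr N L (i + 1) j q p = (1 / 2 : ℝ) • (gr N L i j q p + gr N L i j (q + sh N i) p) := by
  unfold gr
  rw [← smul_add, smul_smul, pow_succ, mul_two, Finset.sum_range_add]
  congr 1
  · push_cast
    rcases eq_or_ne (N : ℝ) 0 with hN | hN
    · simp [hN]
    · field_simp
      norm_num
  · congr 1
    refine Finset.sum_congr rfl fun s _ => ?_
    have e : q + ((2 ^ i + s : ℕ) : ZMod Q) * (N : ZMod Q) =
        q + sh N i + (s : ZMod Q) * (N : ZMod Q) := by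
      unfold sh
      push_cast
      ring
    rw [e]

/-- pinching of a sum of Gram matrices -/
theorem pinch_sum {ι : Type*} (s : Finset ι) (a b : ι → Matrix m (ZMod Q) ℝ) (u : ZMod Q → ℝ)
    (ha : ∀ i ∈ s, a i * diagonal u = a i) (hb : ∀ i ∈ s, b i * diagonal u = -(b i)) :
    ∑ i ∈ s, (a i + b i)ᵀ * (a i + b i) +
        diagonal u * (∑ i ∈ s, (a i + b i)ᵀ * (a i + b i)) * diagonal u =
      (2 : ℝ) • ∑ i ∈ s, (a i)ᵀ * a i + (2 : ℝ) • ∑ i ∈ s, (b i)ᵀ * b i := by
  rw [Finset.mul_sum, Finset.sum_mul, Finset.smul_sum, Finset.smul_sum, ← Finset.sum_add_distrib,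
    ← Finset.sum_add_distrib]
  refine Finset.sum_congr rfl fun i hi => ?_
  have h1 : diagonal u * ((a i + b i)ᵀ * (a i + b i)) * diagonal u =
      (a i - b i)ᵀ * (a i - b i) := by
    have e : (a i + b i) * diagonal u = a i - b i := by
      rw [Matrix.add_mul, ha i hi, hb i hi, sub_eq_add_neg]
    have e2 : diagonal u * (a i + b i)ᵀ = (a i - b i)ᵀ := by
      rw [← e, transpose_mul, diagonal_transpose]
    rw [← Matrix.mul_assoc, e2, Matrix.mul_assoc, e]
  rw [h1, transpose_add, transpose_sub, Matrix.add_mul, Matrix.mul_add, Matrix.mul_add,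
    Matrix.sub_mul, Matrix.mul_sub, Matrix.mul_sub, two_smul, two_smul]
  abel

theorem sg_left {r : ℕ} (hr : 2 * r ≤ Q) (p : ZMod Q) {a : Matrix m (ZMod Q) ℝ}
    (ha : ∀ x y, r ≤ (y - p).val → a x y = 0) : a * diagonal (sg r p) = a := by
  ext x y
  rw [mul_diagonal]
  by_cases h : r ≤ (y - p).val
  · rw [ha x y h, zero_mul]
  · rw [sg, if_neg (by tauto), mul_one]

theorem sg_right {r : ℕ} (hr : 2 * r ≤ Q) (p : ZMod Q) {b : Matrix m (ZMod Q) ℝ}
    (hb : ∀ x y, r ≤ (y - (p + (r : ZMod Q))).val → b x y = 0) :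
    b * diagonal (sg r p) = -b := by
  ext x y
  rw [mul_diagonal, Matrix.neg_apply]
  have hd : (y - p).val < Q := ZMod.val_lt _
  by_cases h : r ≤ (y - (p + (r : ZMod Q))).val
  · rw [hb x y h, zero_mul, neg_zero]
  · rw [val_sub_add y p r (by omega)] at h
    by_cases h2 : r ≤ (y - p).val
    · rw [if_pos h2] at h
      rw [sg, if_pos ⟨h2, by omega⟩, mul_neg_one]
    · rw [if_neg h2] at h
      omega

theorem orth_cols {r : ℕ} (hr : 2 * r ≤ Q) (p : ZMod Q) {X Y : Matrix (ZMod Q) (ZMod Q) ℝ}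
    (hX : ∀ x y, r ≤ (y - p).val → X x y = 0)
    (hY : ∀ x y, r ≤ (x - (p + (r : ZMod Q))).val → Y x y = 0) : X * Y = 0 := by
  ext x z
  rw [Matrix.mul_apply, Matrix.zero_apply]
  refine Finset.sum_eq_zero fun y _ => ?_
  by_cases h : r ≤ (y - p).val
  · rw [hX x y h, zero_mul]
  · rw [hY y z ?_, mul_zero]
    have hd : (y - p).val < Q := ZMod.val_lt _
    rw [val_sub_add y p r (by omega), if_neg h]
    omega

/-- columns (and rows) of the Gram array -/
theorem gr_supp {N : ℕ} {L : Lt Q m} (hL : CSup N L) (i j : ℕ) (hj : 2 ^ j * N ≤ Q) (q p : ZMod Q)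
    (x y : ZMod Q) (hy : 2 ^ j * N ≤ (y - p).val) : gr N L i j q p x y = 0 := by
  unfold gr
  rw [Matrix.smul_apply, Matrix.sum_apply]
  have : ∑ s ∈ range (2 ^ i), ((RB N L j (q + (s : ZMod Q) * (N : ZMod Q)) p)ᵀ *
      RB N L j (q + (s : ZMod Q) * (N : ZMod Q)) p) x y = 0 := by
    refine Finset.sum_eq_zero fun s _ => ?_
    rw [Matrix.mul_apply]
    refine Finset.sum_eq_zero fun z _ => ?_
    rw [RB_supp hL j hj _ p z y hy, mul_zero]
  rw [this, smul_zero]

theorem gr_symm (N : ℕ) (L : Lt Q m) (i j : ℕ) (q p : ZMod Q) :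
    (gr N L i j q p)ᵀ = gr N L i j q p := psd_transpose (gr_psd N L i j q p)

theorem gr_supp' {N : ℕ} {L : Lt Q m} (hL : CSup N L) (i j : ℕ) (hj : 2 ^ j * N ≤ Q)
    (q p : ZMod Q) (x y : ZMod Q) (hx : 2 ^ j * N ≤ (x - p).val) : gr N L i j q p x y = 0 := by
  rw [← gr_symm, transpose_apply]
  exact gr_supp hL i j hj q p y x hx

/-- the pinching relation for the Gram array -/
theorem gr_pinch {N : ℕ} {L : Lt Q m} (hL : CSup N L) (i j : ℕ) (hj : 2 * (2 ^ j * N) ≤ Q)
    (q p : ZMod Q) :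
    gr N L i (j + 1) q p + diagonal (sg (2 ^ j * N) p) * gr N L i (j + 1) q p *
      diagonal (sg (2 ^ j * N) p) = gr N L i j q p + gr N L i j q (p + sh N j) := by
  have hsh : (sh N j : ZMod Q) = ((2 ^ j * N : ℕ) : ZMod Q) := rfl
  have h := pinch_sum (range (2 ^ i))
    (fun s => RB N L j (q + (s : ZMod Q) * (N : ZMod Q)) p)
    (fun s => RB N L j (q + (s : ZMod Q) * (N : ZMod Q)) (p + sh N j)) (sg (2 ^ j * N) p)
    (fun s _ => sg_left hj p (fun x y => RB_supp hL j (by omega) _ p x y))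
    (fun s _ => sg_right hj p (by
      intro x y hy
      rw [← hsh] at hy
      exact RB_supp hL j (by omega) _ _ x y hy))
  unfold gr
  simp only [RB_succ]
  rw [mul_smul_comm, smul_mul_assoc, ← smul_add, h, ← smul_add, ← smul_add, smul_smul]
  congr 1
  push_cast
  rcases eq_or_ne (N : ℝ) 0 with hN | hN
  · simp [hN]
  · field_simp
    ring

theorem gr_AOK {N κ : ℕ} {L : Lt Q m} (hL : CSup N L) (hκ : 2 ^ κ * N ≤ Q) :
    AOK N κ (gr N L) where
  psd := gr_psd N L
  dbl := gr_dbl N L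
  own := by
    intro i j hj q p
    have h2 : 2 ^ (j + 1) * N ≤ Q := by
      refine le_trans (Nat.mul_le_mul_right N ?_) hκ
      exact Nat.pow_le_pow_right (by norm_num) hj
    have h3 : 2 * (2 ^ j * N) ≤ Q := by
      rw [pow_succ] at h2
      nlinarith
    have hG := Gam_nonneg (gr_psd N L i (j + 1) q p) (sg (2 ^ j * N) p)
      (sg_mul_self _ _)
    unfold Gam at hG
    rw [gr_pinch hL i j h3] at hG
    rw [phi_add_orth (gr_psd _ _ _ _ _ _) (gr_psd _ _ _ _ _ _)] at hG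
    · linarith
    · exact orth_cols h3 p (fun x y hy => gr_supp hL i j (by omega) q p x y hy)
        (fun x y hx => gr_supp' hL i j (by omega) q _ x y hx)

theorem gr_APr {N κ : ℕ} {m' : Type*} [Fintype m'] {L : Lt Q m} {L' : Lt Q m'} (hL : CSup N L)
    (hL' : CSup N L') (hκ1 : 1 ≤ κ) (hκ : 2 ^ κ * N ≤ Q) :
    APr N κ (sg N) (gr N L) (gr N L') where
  og := gr_AOK hL hκ
  oh := gr_AOK hL' hκ
  sq := fun p x => sg_mul_self _ _ _
  pin := by
    intro q q' p
    have h2 : 2 * (2 ^ 0 * N) ≤ Q := by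
      refine le_trans ?_ hκ
      have : 2 ^ 1 ≤ 2 ^ κ := Nat.pow_le_pow_right (by norm_num) hκ1
      nlinarith
    have e1 := gr_pinch hL 1 0 h2 q p
    have e2 := gr_pinch hL' 1 0 h2 q' p
    rw [pow_zero, one_mul, zero_add] at e1 e2
    have e : gr N L 1 1 q p + gr N L' 1 1 q' p + diagonal (sg N p) *
        (gr N L 1 1 q p + gr N L' 1 1 q' p) * diagonal (sg N p) =
        (gr N L 1 0 q p + gr N L' 1 0 q' p) +
          (gr N L 1 0 q (p + sh N 0) + gr N L' 1 0 q' (p + sh N 0)) := by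
      rw [mul_add, add_mul]
      have : gr N L 1 1 q p + gr N L' 1 1 q' p + (diagonal (sg N p) * gr N L 1 1 q p *
          diagonal (sg N p) + diagonal (sg N p) * gr N L' 1 1 q' p * diagonal (sg N p)) =
          (gr N L 1 1 q p + diagonal (sg N p) * gr N L 1 1 q p * diagonal (sg N p)) +
          (gr N L' 1 1 q' p + diagonal (sg N p) * gr N L' 1 1 q' p * diagonal (sg N p)) := by
        abel
      rw [this, e1, e2]
      abel
    unfold Gam
    rw [e]
    rw [phi_add_orth ((gr_psd _ _ _ _ _ _).add (gr_psd _ _ _ _ _ _))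
      ((gr_psd _ _ _ _ _ _).add (gr_psd _ _ _ _ _ _))]
    refine orth_cols (r := 2 ^ 0 * N) h2 p ?_ ?_
    · intro x y hy
      rw [Matrix.add_apply, gr_supp hL 1 0 (by omega) q p x y hy,
        gr_supp hL' 1 0 (by omega) q' p x y hy, add_zero]
    · intro x y hx
      have hsh : (sh N 0 : ZMod Q) = ((2 ^ 0 * N : ℕ) : ZMod Q) := rfl
      rw [← hsh] at hx
      rw [Matrix.add_apply, gr_supp' hL 1 0 (by omega) q _ x y hx,
        gr_supp' hL' 1 0 (by omega) q' _ x y hx, add_zero]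

end boxes

end Crest.Agent.R079.CR371
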