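import Crest.Agent.R079.PLF7_377
import Crest.Agent.R079.CRa_371

/-! R079, RAGGED CORNER (CR) in the line model (text of record: note 833 of helper371), literals of
team T3.  Scalar real letters on `ZMod Q`:  `A(x0,x1)`, `B(x1,x2)`, `C(x2,x0)` (killer).
A box of the killer = window of side `L` at `(q, p)`: rows `x2 ∈ q + [0,L)`, columns
`x0 ∈ p + [0,L)`, ALL translates.  helper253.

L3 (360) : `Extr`, existence `ExistsExtr`, trivial record `ExtrTriv`.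
L3b (138): `FlOfExtr` (function letters of a word have good operator bounds and cheap moves).
L4 (279) : `ExistsSpc` (window spaces).          L4b (804): `KilOfSpc`, `RegOfDead` (counting).
L5 (250, 87): comparison of scales (typed in CRdef2_253 against CRb_371).
L6 (253): word, ladder, last word, `CornerR`.    L7 (446): wrapper.  -/

set_option autoImplicit false
set_option linter.unusedVariables false
set_option linter.unusedSectionVars false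

namespace Crest.Agent.R079.CRdefx253

open Matrix Finset Crest.Agent.R072
open Crest.Agent.R079.PotL (bl cel IsPr hs2)
open scoped MatrixOrder

/-- kernels -/
abbrev Mx (Q : ℕ) : Type := Matrix (ZMod Q) (ZMod Q) ℝ

section gen

variable {m n : Type*} [Fintype m] [Fintype n]

/-- operator norm at most `c` -/
def OpLe (A : Matrix m n ℝ) (c : ℝ) : Prop :=
  0 ≤ c ∧ ∀ v : n → ℝ, ∑ i, (∑ j, A i j * v j) ^ 2 ≤ c ^ 2 * ∑ j, v j ^ 2

/-- trace norm at most `c` (by duality) -/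
def TrN (E : Matrix m n ℝ) (c : ℝ) : Prop :=
  ∀ K : Matrix n m ℝ, OpLe K 1 → |(K * E).trace| ≤ c

end gen

variable {Q : ℕ} [NeZero Q]

/-- `x` is in the window `p + [0, L)` -/
def win (L : ℕ) (p x : ZMod Q) : Prop := (x - p).val < L

instance (L : ℕ) (p x : ZMod Q) : Decidable (win L p x) := inferInstanceAs (Decidable (_ < _))

/-- restriction to the window -/
noncomputable def I1 (L : ℕ) (p : ZMod Q) : Mx Q := diagonal fun x => if win L p x then 1 else 0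

/-- the part of the kernel in the box of side `L` at `(q, p)` -/
noncomputable def box (F : Mx Q) (L : ℕ) (q p : ZMod Q) : Mx Q := I1 L q * F * I1 L p

/-- `a` steps of length `2^m` -/
def st (m a : ℕ) : ZMod Q := ((a * 2 ^ m : ℕ) : ZMod Q)

/-- `(q, p)` is within `D 2^L` of `(c, d)` -/
def near (D L : ℕ) (c d q p : ZMod Q) : Prop :=
  (∃ s : ℤ, |s| ≤ D * 2 ^ L ∧ q = c + (s : ZMod Q)) ∧ ∃ t : ℤ, |t| ≤ D * 2 ^ L ∧ p = d + (t : ZMod Q)

/-- exit: box of scale `m + k'` alive, one of its sub boxes of scale `m` dead -/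
def Exit (al : ℕ → ZMod Q → ZMod Q → Prop) (k' m : ℕ) (q p : ZMod Q) : Prop :=
  al (m + k') q p ∧ ∃ a < 2 ^ k', ∃ b < 2 ^ k', ¬ al m (q + st m a) (p + st m b)

/-- the four half boxes of the box of side `2^(m+1)` at `(q, p)` are alive -/
def Al4 (al : ℕ → ZMod Q → ZMod Q → Prop) (m : ℕ) (q p : ZMod Q) : Prop :=
  ∀ a < 2, ∀ b < 2, al m (q + st m a) (p + st m b)

open Classical in
/-- region: alive boxes, local operator norm at most `τ`, exits have bounded density -/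
structure Reg (C : Mx Q) (al : ℕ → ZMod Q → ZMod Q → Prop) (M k D : ℕ) (τ C1 : ℝ) : Prop where
  op : ∀ m < M, ∀ q p, al m q p → OpLe (box C (2 ^ m) q p) (2 ^ m * τ)
  ex : ∀ k' ≤ k, ∀ L ≤ M, ∀ c d : ZMod Q, ∑ m ∈ range (L + 1), ∑ q : ZMod Q, ∑ p : ZMod Q,
    (if m + k' < M ∧ near D L c d q p ∧ Exit al k' m q p then (1 : ℝ) else 0) ≤ C1 * 4 ^ L

open Classical in
/-- what the last word needs: local mean square of `C` at most `E0` on the alive boxes, at most `Ar`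
alive boxes of each scale, at most `Ar` exits -/
structure Last (C : Mx Q) (al : ℕ → ZMod Q → ZMod Q → Prop) (M k : ℕ) (E0 Ar : ℝ) : Prop where
  hs : ∀ m < M, ∀ q p, al m q p → hs2 (box C (2 ^ m) q p) ≤ 4 ^ m * E0
  ar : ∀ m < M, ∑ q : ZMod Q, ∑ p : ZMod Q, (if al m q p then (1 : ℝ) else 0) ≤ Ar
  ex : ∀ k' ≤ k, ∑ m ∈ range M, ∑ q : ZMod Q, ∑ p : ZMod Q,
    (if m + k' < M ∧ Exit al k' m q p then (1 : ℝ) else 0) ≤ Ar

/-- region given by dead aligned cells (downward closed); alive = the window meets no dead cell -/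
structure Dead (dd : ℕ → ZMod Q → ZMod Q → Prop) (M : ℕ) : Prop where
  cell : ∀ m u v u' v', cel m u = cel m u' → cel m v = cel m v' → dd m u v → dd m u' v'
  down : ∀ m, m + 1 < M → ∀ u v, dd (m + 1) u v → dd m u v

/-- alive windows of a dead cell structure -/
def alD (dd : ℕ → ZMod Q → ZMod Q → Prop) (m : ℕ) (q p : ZMod Q) : Prop :=
  ∀ u v, win (2 ^ m) q u → win (2 ^ m) p v → ¬ dd m u v

/-- the Haar box form -/
noncomputable def Tb (A B C : Mx Q) (N : ℕ) (p0 p1 p2 : ZMod Q) : ℝ :=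
  (1 / (((N + N : ℕ) : ℝ) ^ 3)) * ∑ i0 : Fin (N + N), ∑ i1 : Fin (N + N), ∑ i2 : Fin (N + N),
    hsgn N i0 * hsgn N i1 * hsgn N i2 *
      (A (p0 + ((i0 : ℕ) : ZMod Q)) (p1 + ((i1 : ℕ) : ZMod Q)) *
        B (p1 + ((i1 : ℕ) : ZMod Q)) (p2 + ((i2 : ℕ) : ZMod Q)) *
        C (p2 + ((i2 : ℕ) : ZMod Q)) (p0 + ((i0 : ℕ) : ZMod Q)))

open Classical in
/-- sum over the scales `m < M`, the offsets of block `l`, and all boxes of side `2^(m+1)` whose four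
half boxes on the killer face are alive -/
noncomputable def SA (al : ℕ → ZMod Q → ZMod Q → Prop) (A B : ℕ → Mx Q) (C : Mx Q) (M : ℕ) (l : ℤ) :
    ℝ :=
  ∑ m ∈ range M, bl (fun n => ∑ p0 : ZMod Q, ∑ p1 : ZMod Q,
    if Al4 al m (n - p0 - p1) p0 then |Tb (A m) (B m) C (2 ^ m) p0 p1 (n - p0 - p1)| else 0)
      (2 ^ m) l

/-- **THE RAGGED CORNER**, final statement. -/
def CornerR : Prop := ∀ (k : ℕ) (l : ℤ), 2 * |l| + 20 ≤ 2 ^ k → ∀ C1 : ℝ, ∃ K : ℝ, 0 ≤ K ∧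
  ∀ (Q : ℕ) [NeZero Q] (M M' J : ℕ) (A B C : Mx Q) (al : ℕ → ZMod Q → ZMod Q → Prop)
    (a2 b2 r τ E0 Ar : ℝ), 2 ^ M ∣ Q → M' + k < M → 0 < a2 → 0 < b2 → 0 < r → 0 < τ →
    ∑ x, ∑ y, A x y ^ 2 ≤ a2 → ∑ x, ∑ y, B x y ^ 2 ≤ b2 →
    (∀ x y, A x y ^ 2 ≤ a2 / r) → (∀ x y, B x y ^ 2 ≤ b2 / r) →
    Reg C al M k (l.natAbs + 24) τ C1 → Last C al M k E0 Ar → E0 * Ar ≤ τ ^ 2 * (r * 2 ^ J) →
    SA al (fun _ => A) (fun _ => B) C M' l ≤ K * (2 * J + 1) * (τ * √a2 * √b2)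

/-! ### L3: extraction -/

/-- extraction record of `B(x1, x2)`: projections act on the second variable; `S m x y` belongs to
the aligned cell of side `2^m` of `(x, y)` and lives on the second side of that cell -/
structure Extr (B : Mx Q) (M : ℕ) (dl n : ℝ) (Y : ℕ → Mx Q) (S : ℕ → ZMod Q → ZMod Q → Mx Q) :
    Prop where
  pr : ∀ m (x y : ZMod Q), IsPr (S m x y)
  cell : ∀ m (x y x' y' : ZMod Q), cel m x = cel m x' → cel m y = cel m y' → S m x y = S m x' y'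
  supp : ∀ m (x y u v : ZMod Q), S m x y u v ≠ 0 → cel m u = cel m y ∧ cel m v = cel m y
  topY : ∀ m, M ≤ m → Y m = B
  topS : ∀ m, M ≤ m → ∀ x y : ZMod Q, S m x y = 0
  step : ∀ m (x y : ZMod Q), Y m x y = Y (m + 1) x y - ∑ u, Y (m + 1) x u * S m x y u y
  op : ∀ m < M, ∀ (x y : ZMod Q) (v : ZMod Q → ℝ), (∀ u, cel m u ≠ cel m y → v u = 0) →
    ∑ x' with cel m x' = cel m x, (∑ u, Y m x' u * v u) ^ 2 ≤ dl * 4 ^ m * ∑ u, v u ^ 2
  hs : ∀ m, ∑ x, ∑ y, Y m x y ^ 2 ≤ ∑ x, ∑ y, Y (m + 1) x y ^ 2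
  count : ∑ m ∈ range M, ∑ x : ZMod Q, ∑ y : ZMod Q, (S m x y).trace ≤ n

def ExistsExtr : Prop := ∀ (Q : ℕ) [NeZero Q] (B : Mx Q) (M : ℕ) (dl : ℝ), 2 ^ M ∣ Q → 0 < dl →
  ∃ Y S, Extr B M dl ((∑ x, ∑ y, B x y ^ 2) / dl) Y S

def ExtrTriv : Prop := ∀ (Q : ℕ) [NeZero Q] (B : Mx Q) (M : ℕ) (dl : ℝ), 2 ^ M ∣ Q → 0 ≤ dl →
  (∀ x y, B x y ^ 2 ≤ dl) → Extr B M dl 0 (fun _ => B) (fun _ _ _ => 0)

/-- function letters moving with the scale; normalised to operator norm `1` -/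
structure Fl (k M : ℕ) (n : ℝ) (X : ℕ → Mx Q) : Prop where
  op : ∀ m k', k' ≤ k → m + k' < M → ∀ q p, OpLe (box (X m) (2 ^ (m + k')) q p) (2 ^ (m + k'))
  mv : ∀ k' ≤ k, ∃ v : ℕ → ZMod Q → ZMod Q → ℝ, (∀ m q p, 0 ≤ v m q p) ∧
    (∀ m, m + k' < M → ∀ q p, TrN (box (X (m + k')) (2 ^ (m + k')) q p -
      box (X m) (2 ^ (m + k')) q p) (2 ^ (m + k') * v m q p)) ∧
    ∑ m ∈ range M, ∑ q : ZMod Q, ∑ p : ZMod Q, (if m + k' < M then v m q p else 0) ≤ n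
  en : ∀ m < M, ∑ x, ∑ y, X m x y ^ 2 ≤ n

/-- (L3b) one extracted letter, and the band between two levels, are function letters (up to a
constant `c` depending on `k`), also transposed.  `dl ≤ 1` normalisation. -/
def FlOfExtr : Prop := ∀ k : ℕ, ∃ c : ℝ, 0 < c ∧ ∀ (Q : ℕ) [NeZero Q] (B : Mx Q) (M : ℕ)
  (n : ℝ) (Y Y' : ℕ → Mx Q) (S S' : ℕ → ZMod Q → ZMod Q → Mx Q), 2 ^ M ∣ Q →
  Extr B M 1 n Y S → Extr B M 1 n Y' S' → ∑ x, ∑ y, B x y ^ 2 ≤ n →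
    Fl k M (c⁻¹ * n) (fun m => c • Y m) ∧ Fl k M (c⁻¹ * n) (fun m => c • (Y m - Y' m)) ∧
    Fl k M (c⁻¹ * n) (fun m => c • (Y m)ᵀ) ∧ Fl k M (c⁻¹ * n) (fun m => c • (Y m - Y' m)ᵀ)

/-! ### L4: window spaces -/

open Classical in
/-- spaces of the windows (rows `x2 ∈ q + [0, 2^m)`, partner window of `x0` at `p`) -/
structure Spc (B : Mx Q) (M D : ℕ) (Y Y' : ℕ → Mx Q) (S S' : ℕ → ZMod Q → ZMod Q → Mx Q)
    (R : ℕ → ZMod Q → ZMod Q → Mx Q) : Prop where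
  pr : ∀ m q p, IsPr (R m q p)
  supp : ∀ m q p u v, R m q p u v ≠ 0 → win (2 ^ m) q u ∧ win (2 ^ m) q v
  nest : ∀ m k', m + k' < M → ∀ q p, ∀ a < 2 ^ k', ∀ b < 2 ^ k',
    R (m + k') q p * I1 (2 ^ m) (q + st m a) = R (m + k') q p * R m (q + st m a) (p + st m b)
  fix : ∀ m < M, ∀ x q p : ZMod Q, (∃ t : ℤ, |t| ≤ D * 2 ^ m ∧ x = -q - p + (t : ZMod Q)) →
    ∀ y, win (2 ^ m) q y → ∑ u, (Y m - Y' m) x u * R m q p u y = (Y m - Y' m) x y
  tr : ∀ m < M, ∀ q p, (R m q p).trace ≤ ∑ m' ∈ Ico m M, ∑ x : ZMod Q, ∑ y : ZMod Q,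
    (if near (D + 16) m' y (-x - y) q p then ((S m' x y).trace + (S' m' x y).trace) / 4 ^ m' else 0)

def ExistsSpc : Prop := ∀ (Q : ℕ) [NeZero Q] (B : Mx Q) (M D : ℕ) (dl dl' n n' : ℝ)
  (Y Y' : ℕ → Mx Q) (S S' : ℕ → ZMod Q → ZMod Q → Mx Q), 2 ^ M ∣ Q → Extr B M dl n Y S →
  Extr B M dl' n' Y' S' → ∃ R, Spc B M D Y Y' S S' R

/-! ### the killer (input of L5); covers both kinds of words -/

open Classical in
/-- box letters `R m q p * box C (2^m) q p` on the alive boxes, `0` on the others; normalised to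
operator norm `1`; `w` = weight of a box -/
structure Kil (C : Mx Q) (al : ℕ → ZMod Q → ZMod Q → Prop) (R : ℕ → ZMod Q → ZMod Q → Mx Q)
    (w : ℕ → ZMod Q → ZMod Q → ℝ) (k M : ℕ) (n : ℝ) : Prop where
  pr : ∀ m q p, IsPr (R m q p)
  supp : ∀ m q p u v, R m q p u v ≠ 0 → win (2 ^ m) q u ∧ win (2 ^ m) q v
  nest : ∀ m k', m + k' < M → ∀ q p, ∀ a < 2 ^ k', ∀ b < 2 ^ k',
    R (m + k') q p * I1 (2 ^ m) (q + st m a) = R (m + k') q p * R m (q + st m a) (p + st m b)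
  op : ∀ m < M, ∀ q p, al m q p → OpLe (box C (2 ^ m) q p) (2 ^ m)
  hs : ∀ m k', m + k' < M → ∀ q p, al (m + k') q p → ∀ a < 2 ^ k', ∀ b < 2 ^ k',
    hs2 (R (m + k') q p * box C (2 ^ m) (q + st m a) (p + st m b)) ≤ 4 ^ (m + k') * w (m + k') q p
  w0 : ∀ m q p, 0 ≤ w m q p
  sw : ∀ m < M, ∑ q : ZMod Q, ∑ p : ZMod Q, (if al m q p then w m q p else 0) ≤ n
  sx : ∀ k' ≤ k, ∑ m ∈ range M, ∑ q : ZMod Q, ∑ p : ZMod Q,
    (if m + k' < M ∧ Exit al k' m q p then w (m + k') q p else 0) ≤ n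

/-- the rows of the band are fixed by the window projections -/
def FixB (R : ℕ → ZMod Q → ZMod Q → Mx Q) (Bd : ℕ → Mx Q) (M D : ℕ) : Prop :=
  ∀ m < M, ∀ x q p : ZMod Q, (∃ t : ℤ, |t| ≤ D * 2 ^ m ∧ x = -q - p + (t : ZMod Q)) →
    ∀ y, win (2 ^ m) q y → ∑ u, Bd m x u * R m q p u y = Bd m x y

/-- (L4b) compressed killer of a band: weight = trace of the space -/
def KilOfSpc : Prop := ∀ (k D : ℕ) (C1 : ℝ), ∃ K : ℝ, 0 ≤ K ∧ ∀ (Q : ℕ) [NeZero Q] (B C : Mx Q)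
  (M : ℕ) (dl dl' n : ℝ) (Y Y' : ℕ → Mx Q) (S S' R : ℕ → ZMod Q → ZMod Q → Mx Q)
  (al : ℕ → ZMod Q → ZMod Q → Prop), 2 ^ M ∣ Q → Extr B M dl n Y S → Extr B M dl' n Y' S' →
  Spc B M D Y Y' S S' R → Reg C al M k (D + 16) 1 C1 →
    Kil C al R (fun m q p => (R m q p).trace) k M (K * n)

/-- (L4c) uncompressed killer of the last word: weight constant -/
def KilLast : Prop := ∀ (Q : ℕ) [NeZero Q] (C : Mx Q) (M k D : ℕ) (C1 E0 Ar : ℝ)
  (al : ℕ → ZMod Q → ZMod Q → Prop), 2 ^ M ∣ Q → 0 ≤ E0 → Reg C al M k D 1 C1 →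
  Last C al M k E0 Ar → Kil C al (fun m q _ => I1 (2 ^ m) q) (fun _ _ _ => E0) k M (E0 * Ar)

/-- (L4d) exit counting for dead cell structures -/
def RegOfDead : Prop := ∀ (k D : ℕ), ∃ C1 : ℝ, ∀ (Q : ℕ) [NeZero Q] (C : Mx Q) (M : ℕ) (τ : ℝ)
  (dd : ℕ → ZMod Q → ZMod Q → Prop), 2 ^ M ∣ Q → Dead dd M →
  (∀ m < M, ∀ q p, alD dd m q p → OpLe (box C (2 ^ m) q p) (2 ^ m * τ)) →
    Reg C (alD dd) M k D τ C1

end Crest.Agent.R079.CRdefx253
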