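import Crest.Agent.R079.CRdef_253

/-! R079, RAGGED CORNER (CR): corollary of `CornerR` without the parameters `r`, `J` (crude height
bound `H` of the two partners, floor `δ` in the energies).  helper371. -/

set_option autoImplicit false
set_option linter.unusedVariables false
set_option linter.unusedSectionVars false

namespace Crest.Agent.R079.CR371h

open Matrix Crest.Agent.R072
open Crest.Agent.R079.CRdefx253 (Mx CornerR Reg Last SA)

/-- `CornerR` with heights: partners of height `≤ H`, energies raised by `δ Ar`. -/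
def CornerH : Prop := ∀ (k : ℕ) (l : ℤ), 2 * |l| + 20 ≤ 2 ^ k → ∀ C1 : ℝ, ∃ K : ℝ, 0 ≤ K ∧
  ∀ (Q : ℕ) [NeZero Q] (M M' : ℕ) (A B C : Mx Q) (al : ℕ → ZMod Q → ZMod Q → Prop)
    (τ E0 Ar H δ : ℝ), 2 ^ M ∣ Q → M' + k < M → 0 < τ → 0 ≤ E0 → 0 < Ar → 0 < H → 0 < δ →
    (∀ x y, |A x y| ≤ H) → (∀ x y, |B x y| ≤ H) →
    Reg C al M k (l.natAbs + 24) τ C1 → Last C al M k E0 Ar →
    SA al (fun _ => A) (fun _ => B) C M' l ≤
      K * (1 + Real.log (1 + E0 * H ^ 2 / (τ ^ 2 * δ))) *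
        (τ * √(∑ x, ∑ y, A x y ^ 2 + δ * Ar) * √(∑ x, ∑ y, B x y ^ 2 + δ * Ar))

theorem cornerH_of (h : CornerR) : CornerH := by
  intro k l hk C1
  obtain ⟨K, hK0, hK⟩ := h k l hk C1
  refine ⟨K * 6, by positivity, ?_⟩
  intro Q _ M M' A B C al τ E0 Ar H δ hQ hM hτ hE hAr hH hδ hA hB hR hL
  set X : ℝ := E0 * H ^ 2 / (τ ^ 2 * δ) with hX
  have hX0 : 0 ≤ X := by positivity
  obtain ⟨J, hJ1, hJ2⟩ : ∃ J : ℕ, X ≤ 2 ^ J ∧ ((J : ℝ) ≤ 1 + 2 * Real.log (1 + X)) := by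
    refine ⟨⌈Real.logb 2 (1 + X)⌉₊, ?_, ?_⟩
    · have h1 : Real.logb 2 (1 + X) ≤ (⌈Real.logb 2 (1 + X)⌉₊ : ℝ) := Nat.le_ceil _
      have h2 : (1 + X) = (2 : ℝ) ^ (Real.logb 2 (1 + X)) := by
        rw [Real.rpow_logb (by norm_num) (by norm_num) (by linarith)]
      have h3 : (2 : ℝ) ^ (Real.logb 2 (1 + X)) ≤ (2 : ℝ) ^ ((⌈Real.logb 2 (1 + X)⌉₊ : ℕ) : ℝ) :=
        Real.rpow_le_rpow_of_exponent_le (by norm_num) h1
      rw [← h2, Real.rpow_natCast] at h3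
      linarith
    · have h0 : 0 ≤ Real.logb 2 (1 + X) := Real.logb_nonneg (by norm_num) (by linarith)
      have h1 := (Nat.ceil_lt_add_one h0).le
      have h2 : Real.logb 2 (1 + X) ≤ 2 * Real.log (1 + X) := by
        rw [Real.logb, div_le_iff₀ (Real.log_pos (by norm_num))]
        have h3 : (1 / 2 : ℝ) ≤ Real.log 2 := by
          have := Real.log_two_gt_d9
          linarith
        have h4 : 0 ≤ Real.log (1 + X) := Real.log_nonneg (by linarith)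
        nlinarith
      linarith
  have hp : 0 < τ ^ 2 * δ := by positivity
  have hsA : 0 ≤ ∑ x, ∑ y, A x y ^ 2 := Finset.sum_nonneg fun _ _ => Finset.sum_nonneg fun _ _ =>
    sq_nonneg _
  have hsB : 0 ≤ ∑ x, ∑ y, B x y ^ 2 := Finset.sum_nonneg fun _ _ => Finset.sum_nonneg fun _ _ =>
    sq_nonneg _
  have hr : 0 < δ * Ar / H ^ 2 := by positivity
  have key : ∀ (F : Mx Q), (∀ x y, |F x y| ≤ H) → 0 ≤ ∑ x, ∑ y, F x y ^ 2 → ∀ x y,
      F x y ^ 2 ≤ (∑ x, ∑ y, F x y ^ 2 + δ * Ar) / (δ * Ar / H ^ 2) := by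
    intro F hF hs x y
    have h1 : F x y ^ 2 ≤ H ^ 2 := by
      have := hF x y
      rw [← sq_abs]
      exact pow_le_pow_left₀ (abs_nonneg _) this 2
    refine h1.trans ?_
    rw [le_div_iff₀ hr]
    have : H ^ 2 * (δ * Ar / H ^ 2) = δ * Ar := by
      field_simp
    rw [this]
    linarith
  have hmain := hK Q M M' J A B C al (∑ x, ∑ y, A x y ^ 2 + δ * Ar)
    (∑ x, ∑ y, B x y ^ 2 + δ * Ar) (δ * Ar / H ^ 2) τ E0 Ar hQ hM (by positivity) (by positivity)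
    hr hτ (by linarith [mul_pos hδ hAr]) (by linarith [mul_pos hδ hAr]) (key A hA hsA)
    (key B hB hsB) hR hL ?_
  · refine hmain.trans ?_
    have hl0 : 0 ≤ Real.log (1 + X) := Real.log_nonneg (by linarith)
    have h5 : K * (2 * (J : ℝ) + 1) ≤ K * 6 * (1 + Real.log (1 + X)) := by
      rw [mul_assoc]
      refine mul_le_mul_of_nonneg_left ?_ hK0
      linarith
    exact mul_le_mul_of_nonneg_right h5 (by positivity)
  · have h6 : X * (τ ^ 2 * δ) = E0 * H ^ 2 := by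
      rw [hX, div_mul_cancel₀]
      positivity
    have h7 : E0 * H ^ 2 ≤ 2 ^ J * (τ ^ 2 * δ) := by
      rw [← h6]
      exact mul_le_mul_of_nonneg_right hJ1 hp.le
    have h8 : τ ^ 2 * (δ * Ar / H ^ 2 * 2 ^ J) = (2 ^ J * (τ ^ 2 * δ)) * Ar / H ^ 2 := by
      ring
    rw [h8, le_div_iff₀ (by positivity)]
    nlinarith

end Crest.Agent.R079.CR371h
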