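import Crest.Agent.R079.CRy_371

/-! R079, RAGGED CORNER (CR): the mirror symmetry (exchange of the variables `x0`, `x2`).
helper371. -/

set_option autoImplicit false
set_option linter.unusedVariables false
set_option linter.unusedSectionVars false

namespace Crest.Agent.R079.CR371m

open Matrix Crest.Agent.R072
open Crest.Agent.R079.PotL (bl cel IsPr hs2)
open Crest.Agent.R079.CRdefx253 (Mx win I1 box st near Exit Al4 OpLe Reg Last Dead alD Tb SA)

variable {Q : ℕ} [NeZero Q]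

/-- transposed region -/
def alT (al : ℕ → ZMod Q → ZMod Q → Prop) : ℕ → ZMod Q → ZMod Q → Prop := fun m q p => al m p q

theorem Tb_tr (A B C : Mx Q) (N : ℕ) (p0 p1 p2 : ZMod Q) :
    Tb A B C N p0 p1 p2 = Tb Bᵀ Aᵀ Cᵀ N p2 p1 p0 := by
  unfold Tb
  congr 1
  rw [Finset.sum_comm]
  conv_rhs => rw [Finset.sum_comm]
  refine Finset.sum_congr rfl fun i1 _ => ?_
  rw [Finset.sum_comm]
  refine Finset.sum_congr rfl fun i2 _ => Finset.sum_congr rfl fun i0 _ => ?_
  simp only [transpose_apply]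
  ring

theorem Al4_tr (al : ℕ → ZMod Q → ZMod Q → Prop) (m : ℕ) (q p : ZMod Q) :
    Al4 (alT al) m q p ↔ Al4 al m p q := by
  unfold Al4 alT
  constructor
  · intro h a ha b hb
    exact h b hb a ha
  · intro h a ha b hb
    exact h b hb a ha

theorem SA_tr (al : ℕ → ZMod Q → ZMod Q → Prop) (A B : ℕ → Mx Q) (C : Mx Q) (M : ℕ) (l : ℤ) :
    SA al A B C M l = SA (alT al) (fun m => (B m)ᵀ) (fun m => (A m)ᵀ) Cᵀ M l := by
  classical
  unfold SA
  refine Finset.sum_congr rfl fun m _ => ?_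
  congr 1
  funext n
  have h := CR371.sum_third n (fun p0 p1 p2 =>
    if Al4 al m p2 p0 then |Tb (A m) (B m) C (2 ^ m) p0 p1 p2| else 0)
  refine Eq.trans ?_ (h.trans ?_)
  · refine Finset.sum_congr rfl fun p0 _ => Finset.sum_congr rfl fun p1 _ => ?_
    congr
  · refine Finset.sum_congr rfl fun p2 _ => Finset.sum_congr rfl fun p1 _ => ?_
    have e : (n - p2 - p1 : ZMod Q) = n - p2 - p1 := rfl
    rw [Tb_tr (A m) (B m) C (2 ^ m) (n - p2 - p1) p1 p2]
    by_cases hA : Al4 al m p2 (n - p2 - p1)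
    · rw [if_pos hA, if_pos ((Al4_tr al m _ _).2 hA)]
    · rw [if_neg hA, if_neg (fun h => hA ((Al4_tr al m _ _).1 h))]

/-- windows of the transposed kernel -/
theorem box_tr (F : Mx Q) (L : ℕ) (q p : ZMod Q) : (box F L q p)ᵀ = box Fᵀ L p q := by
  ext x y
  rw [transpose_apply, CR371.box_apply, CR371.box_apply, transpose_apply]
  ring

section op

open scoped Matrix.Norms.L2Operator

variable {m n : Type*} [Fintype m] [DecidableEq m] [Fintype n] [DecidableEq n]

theorem opLe_iff (A : Matrix m n ℝ) (c : ℝ) : OpLe A c ↔ ‖A‖ ≤ c := by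
  constructor
  · rintro ⟨hc, h⟩
    refine CR371.nrm_le_of_dot hc fun v => ?_
    have := h v
    simpa [dotProduct, mulVec, ← sq] using this
  · intro h
    refine ⟨(norm_nonneg A).trans h, fun v => ?_⟩
    have h1 := CR371.dot_mulVec_le A v
    have h2 : ‖A‖ ^ 2 ≤ c ^ 2 := pow_le_pow_left₀ (norm_nonneg A) h 2
    have h3 : 0 ≤ ∑ j, v j ^ 2 := Finset.sum_nonneg fun _ _ => sq_nonneg _
    have h4 : (A *ᵥ v) ⬝ᵥ (A *ᵥ v) = ∑ i, (∑ j, A i j * v j) ^ 2 := by
      simp [dotProduct, mulVec, ← sq]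
    have h5 : v ⬝ᵥ v = ∑ j, v j ^ 2 := by simp [dotProduct, ← sq]
    rw [h4, h5] at h1
    nlinarith

theorem OpLe_tr {A : Matrix m n ℝ} {c : ℝ} (h : OpLe A c) : OpLe Aᵀ c := by
  rw [opLe_iff] at h ⊢
  rwa [CR371.nrm_t]

end op

theorem hs2_tr (A : Mx Q) : hs2 Aᵀ = hs2 A := by
  unfold hs2
  rw [Finset.sum_comm]
  rfl

theorem near_tr {D L : ℕ} {c d q p : ZMod Q} : near D L c d q p ↔ near D L d c p q := by
  unfold near
  exact and_comm

theorem Exit_tr (al : ℕ → ZMod Q → ZMod Q → Prop) (k m : ℕ) (q p : ZMod Q) :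
    Exit (alT al) k m q p ↔ Exit al k m p q := by
  unfold Exit alT
  constructor
  · rintro ⟨h1, a, ha, b, hb, h⟩
    exact ⟨h1, b, hb, a, ha, h⟩
  · rintro ⟨h1, a, ha, b, hb, h⟩
    exact ⟨h1, b, hb, a, ha, h⟩

theorem Reg_tr {C : Mx Q} {al : ℕ → ZMod Q → ZMod Q → Prop} {M k D : ℕ} {τ C1 : ℝ}
    (h : Reg C al M k D τ C1) : Reg Cᵀ (alT al) M k D τ C1 where
  op := by
    intro m hm q p ha
    rw [← box_tr]
    exact OpLe_tr (h.op m hm p q ha)
  ex := by
    intro k' hk L hL c d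
    refine le_trans (le_of_eq ?_) (h.ex k' hk L hL d c)
    refine Finset.sum_congr rfl fun m _ => ?_
    rw [Finset.sum_comm]
    refine Finset.sum_congr rfl fun p _ => Finset.sum_congr rfl fun q _ => ?_
    have e : (m + k' < M ∧ near D L c d q p ∧ Exit (alT al) k' m q p) ↔
        (m + k' < M ∧ near D L d c p q ∧ Exit al k' m p q) := by rw [Exit_tr, near_tr]
    by_cases hE : m + k' < M ∧ near D L d c p q ∧ Exit al k' m p q
    · rw [if_pos hE, if_pos (e.2 hE)]
    · rw [if_neg hE, if_neg (fun h' => hE (e.1 h'))]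

theorem Last_tr {C : Mx Q} {al : ℕ → ZMod Q → ZMod Q → Prop} {M k : ℕ} {E0 Ar : ℝ}
    (h : Last C al M k E0 Ar) : Last Cᵀ (alT al) M k E0 Ar where
  hs := by
    intro m hm q p ha
    rw [← box_tr, hs2_tr]
    exact h.hs m hm p q ha
  ar := by
    intro m hm
    rw [Finset.sum_comm]
    exact h.ar m hm
  ex := by
    intro k' hk
    refine le_trans (le_of_eq ?_) (h.ex k' hk)
    refine Finset.sum_congr rfl fun m _ => ?_
    rw [Finset.sum_comm]
    refine Finset.sum_congr rfl fun p _ => Finset.sum_congr rfl fun q _ => ?_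
    have e : (m + k' < M ∧ Exit (alT al) k' m q p) ↔ (m + k' < M ∧ Exit al k' m p q) := by
      rw [Exit_tr]
    by_cases hE : m + k' < M ∧ Exit al k' m p q
    · rw [if_pos hE, if_pos (e.2 hE)]
    · rw [if_neg hE, if_neg (fun h' => hE (e.1 h'))]

end Crest.Agent.R079.CR371m
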