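import Crest.Agent.R079.CRdef2_253

/-! R079, RAGGED CORNER (CR), L6: normalised word, mirror, words I, II, last, ladder, `CornerR` from
the leaves L3, L3b, L4, L5, (EX).  helper253. -/

set_option autoImplicit false
set_option linter.unusedVariables false
set_option linter.unusedSectionVars false
set_option linter.unusedSimpArgs false

namespace Crest.Agent.R079.CRwx253

open Matrix Finset Crest.Agent.R072 Crest.Agent.R079.CR371 Crest.Agent.R079.CRdefx253
open Crest.Agent.R079.PotL (bl cel IsPr hs2 bl_mono bl_add bl_const_mul)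
open scoped MatrixOrder

section gen

variable {m n : Type*} [Fintype m] [Fintype n]

theorem OpLe.tr {A : Matrix m n ℝ} {c : ℝ} (h : OpLe A c) : OpLe Aᵀ c := by
  classical
  refine ⟨h.1, fun w => ?_⟩
  have h1 := PotL.F4303.op_transpose (A := Aᵀ) (τ := c) (fun v => ?_) w
  · simpa [mulVec, dotProduct, ← sq] using h1
  · have h2 := h.2 v
    simpa [mulVec, dotProduct, ← sq] using h2

theorem TrN.tr {E : Matrix m n ℝ} {c : ℝ} (h : TrN E c) : TrN Eᵀ c := by
  intro K hK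
  have h1 := h Kᵀ (OpLe.tr hK)
  have e : (K * Eᵀ).trace = (Kᵀ * E).trace := by
    rw [← trace_transpose (K * Eᵀ), transpose_mul, transpose_transpose, trace_mul_comm]
  rw [e]
  exact h1

end gen

variable {Q : ℕ} [NeZero Q]

theorem I1_tr (L : ℕ) (p : ZMod Q) : (I1 L p)ᵀ = I1 L p := by
  unfold I1; rw [diagonal_transpose]

theorem box_tr (F : Mx Q) (L : ℕ) (q p : ZMod Q) : box Fᵀ L q p = (box F L p q)ᵀ := by
  unfold CRdefx253.box
  rw [transpose_mul, transpose_mul, I1_tr, I1_tr, Matrix.mul_assoc]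

theorem box_apply (F : Mx Q) (L : ℕ) (q p x y : ZMod Q) :
    box F L q p x y = if win L q x ∧ win L p y then F x y else 0 := by
  unfold CRdefx253.box I1
  rw [mul_diagonal, diagonal_mul]
  by_cases h1 : win L q x <;> by_cases h2 : win L p y <;> simp [h1, h2]

theorem box_smul (c : ℝ) (F : Mx Q) (L : ℕ) (q p : ZMod Q) : box (c • F) L q p = c • box F L q p := by
  ext x y
  rw [box_apply, Matrix.smul_apply, Matrix.smul_apply, box_apply]
  split_ifs <;> simp

theorem box_sub (F G : Mx Q) (L : ℕ) (q p : ZMod Q) :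
    box (F - G) L q p = box F L q p - box G L q p := by
  ext x y
  rw [box_apply, Matrix.sub_apply, Matrix.sub_apply, box_apply, box_apply]
  split_ifs <;> simp

/-- function letters are symmetric -/
theorem Fl.tr {k M : ℕ} {n : ℝ} {X : ℕ → Mx Q} (h : Fl k M n X) : Fl k M n (fun m => (X m)ᵀ) := by
  refine ⟨fun m k' hk hm q p => ?_, fun k' hk => ?_, fun m hm => ?_⟩
  · rw [box_tr]
    exact OpLe.tr (h.op m k' hk hm p q)
  · obtain ⟨v, v0, h1, h2⟩ := h.mv k' hk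
    refine ⟨fun m q p => v m p q, fun m q p => v0 m p q, fun m hm q p => ?_, ?_⟩
    · rw [box_tr, box_tr, ← transpose_sub]
      exact TrN.tr (h1 m hm p q)
    · refine le_trans (le_of_eq ?_) h2
      exact Finset.sum_congr rfl fun m _ => Finset.sum_comm
  · refine le_trans (le_of_eq ?_) (h.en m hm)
    exact Finset.sum_comm

theorem trL_fl (X : ℕ → Mx Q) (m : ℕ) : trL (fl X m) = fl (fun m => (X m)ᵀ) m := by
  funext q p
  unfold trL fl
  rw [box_tr]

theorem fl_Sup (X : ℕ → Mx Q) (m : ℕ) : Sup (2 ^ m) (fl X m) := by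
  constructor
  · intro q p x y hy
    unfold fl
    rw [box_apply, if_neg]
    rintro ⟨_, h⟩
    unfold win at h
    omega
  · intro q p x y hx
    unfold fl
    rw [box_apply, if_neg]
    rintro ⟨h, _⟩
    unfold win at h
    omega

theorem kl_Sup {C : Mx Q} {al : ℕ → ZMod Q → ZMod Q → Prop} {R : ℕ → ZMod Q → ZMod Q → Mx Q}
    (hR : ∀ m q p u v, R m q p u v ≠ 0 → win (2 ^ m) q u ∧ win (2 ^ m) q v) (m : ℕ) :
    Sup (2 ^ m) (kl C al R m) := by
  constructor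
  · intro q p x y hy
    unfold kl
    split_ifs with h
    · rw [Matrix.mul_apply]
      refine Finset.sum_eq_zero fun u _ => ?_
      rw [box_apply, if_neg, mul_zero]
      rintro ⟨_, h⟩
      unfold win at h
      omega
    · rfl
  · intro q p x y hx
    unfold kl
    split_ifs with h
    · rw [Matrix.mul_apply]
      refine Finset.sum_eq_zero fun u _ => ?_
      by_cases h0 : R m q p x u = 0
      · rw [h0, zero_mul]
      · have := (hR m q p x u h0).1
        unfold win at this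
        omega
    · rfl

theorem bl_mono_on {f g : ZMod Q → ℝ} {N : ℕ} {l : ℤ}
    (h : ∀ i < N, f ((l : ZMod Q) * (N : ZMod Q) + (i : ZMod Q)) ≤
      g ((l : ZMod Q) * (N : ZMod Q) + (i : ZMod Q))) : bl f N l ≤ bl g N l := by
  unfold bl
  exact mul_le_mul_of_nonneg_left (Finset.sum_le_sum fun i hi => h i (Finset.mem_range.1 hi))
    (by positivity)

/-- **the normalised word** -/
theorem word_norm (hX : Exact) (h0 : Vert0) (h1 : Vert1) (h2 : Vert2) (k : ℕ) (l : ℤ)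
    (hk : 2 * |l| + 20 ≤ 2 ^ k) : ∃ K : ℝ, 0 ≤ K ∧ ∀ (Q : ℕ) [NeZero Q] (M M' : ℕ) (n : ℝ)
      (A B : ℕ → Mx Q) (C : Mx Q) (al : ℕ → ZMod Q → ZMod Q → Prop)
      (R : ℕ → ZMod Q → ZMod Q → Mx Q) (w : ℕ → ZMod Q → ZMod Q → ℝ), 2 ^ M ∣ Q → M' + k < M →
      Fl k M n A → Fl k M n B → Kil C al R w k M n → FixB R B M (l.natAbs + 8) →
      SA al A B C M' l ≤ K * n := by
  classical
  have hk1 : 1 ≤ k := by
    rcases Nat.eq_zero_or_pos k with h | h
    · exfalso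
      rw [h] at hk
      have := abs_nonneg l
      omega
    · exact h
  obtain ⟨K0, hK0, H0⟩ := h0 k hk1
  obtain ⟨K1, hK1, H1⟩ := h1 k hk1
  obtain ⟨K2, hK2, H2⟩ := h2 k hk1
  refine ⟨(Real.pi / 2) * (K0 + K1 + K2), by positivity, ?_⟩
  intro Q _ M M' n A B C al R w hQ hM hA hB hK hfix
  have hQ' : 2 ^ M ≤ Q := Nat.le_of_dvd (Nat.pos_of_ne_zero (NeZero.ne Q)) hQ
  have hQk : 2 ^ (M' + k) ≤ Q := (Nat.pow_le_pow_right (by norm_num) hM.le).trans hQ'
  have hk' : 2 * |l| + 20 ≤ ((2 ^ k : ℕ) : ℤ) := by push_cast; exact hk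
  have hsum := word_sum (fl A) (fl B) (kl C al R) k M' l hk' hQk (fun m _ => fl_Sup A m)
    (fun m _ => fl_Sup B m) (fun m _ => kl_Sup hK.supp m)
  have e1 : (fun m => trL (fl A m)) = fl (fun m => (A m)ᵀ) := by
    funext m; exact trL_fl A m
  have e2 : (fun m => trL (fl B m)) = fl (fun m => (B m)ᵀ) := by
    funext m; exact trL_fl B m
  rw [e1, e2] at hsum
  have hfix8 : FixB R B M 8 := by
    intro m hm x q p ⟨t, ht, hx⟩ y hy
    refine hfix m hm x q p ⟨t, ht.trans ?_, hx⟩ y hy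
    push_cast
    have : (0 : ℤ) ≤ 2 ^ m := by positivity
    nlinarith [abs_nonneg l]
  have w0 := H0 Q M M' n (fun m => (A m)ᵀ) C al R w hQ hM (Fl.tr hA) hK
  have w1 := H1 Q M M' n A (fun m => (B m)ᵀ) hQ hM hA (Fl.tr hB)
  have w2 := H2 Q M M' n B C al R w hQ hM hB hK hfix8
  have hSA : SA al A B C M' l ≤ ∑ m ∈ range M', bl (fun n => ∑ p0 : ZMod Q, ∑ p1 : ZMod Q,
        |TB (2 ^ m) (fl A m) (fl B m) (kl C al R m) p0 p1 (n - p0 - p1)|) (2 ^ m) l := by
    unfold SA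
    refine Finset.sum_le_sum fun m hm => ?_
    rw [Finset.mem_range] at hm
    refine bl_mono_on fun i hi => ?_
    refine Finset.sum_le_sum fun p0 _ => Finset.sum_le_sum fun p1 _ => ?_
    split_ifs with hal
    · have := hX Q M k n A B C al R w l (l.natAbs + 8) hQ le_rfl hK hfix m (by omega) i hi p0 p1
        ((l : ZMod Q) * ((2 ^ m : ℕ) : ZMod Q) + (i : ZMod Q) - p0 - p1) (by ring) hal
      rw [this]
    · exact abs_nonneg _
  refine hSA.trans (hsum.trans ?_)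
  have hpi : 0 ≤ Real.pi / 2 := by positivity
  calc _ ≤ (Real.pi / 2) * (K0 * n + K1 * n + K2 * n) :=
        mul_le_mul_of_nonneg_left (by linarith) hpi
    _ = _ := by ring

/-! ### mirror -/

/-- mirrored alive sets -/
def mir (al : ℕ → ZMod Q → ZMod Q → Prop) : ℕ → ZMod Q → ZMod Q → Prop := fun m q p => al m p q

theorem Tb_mirror (A B C : Mx Q) (N : ℕ) (p0 p1 p2 : ZMod Q) :
    Tb A B C N p0 p1 p2 = Tb Bᵀ Aᵀ Cᵀ N p2 p1 p0 := by
  unfold Tb
  congr 1
  rw [Finset.sum_comm]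
  rw [Finset.sum_congr rfl fun i1 _ => Finset.sum_comm]
  rw [Finset.sum_comm]
  refine Finset.sum_congr rfl fun i2 _ => Finset.sum_congr rfl fun i1 _ =>
    Finset.sum_congr rfl fun i0 _ => ?_
  simp only [transpose_apply]
  ring

theorem Al4_mir (al : ℕ → ZMod Q → ZMod Q → Prop) (m : ℕ) (q p : ZMod Q) :
    Al4 (mir al) m q p ↔ Al4 al m p q := by
  unfold Al4 mir
  exact ⟨fun h a ha b hb => h b hb a ha, fun h a ha b hb => h b hb a ha⟩

theorem SA_mirror (al : ℕ → ZMod Q → ZMod Q → Prop) (A B : ℕ → Mx Q) (C : Mx Q) (M : ℕ) (l : ℤ) :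
    SA al A B C M l = SA (mir al) (fun m => (B m)ᵀ) (fun m => (A m)ᵀ) Cᵀ M l := by
  classical
  unfold SA
  refine Finset.sum_congr rfl fun m _ => ?_
  congr 1
  funext n
  rw [sum_third n (fun p0 p1 p2 => if Al4 al m p2 p0 then |Tb (A m) (B m) C (2 ^ m) p0 p1 p2| else 0)]
  refine Finset.sum_congr rfl fun p2 _ => Finset.sum_congr rfl fun p1 _ => ?_
  rw [Tb_mirror]
  exact if_congr (Al4_mir al m _ _).symm rfl rfl

theorem Exit_mir (al : ℕ → ZMod Q → ZMod Q → Prop) (k' m : ℕ) (q p : ZMod Q) :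
    Exit (mir al) k' m q p ↔ Exit al k' m p q := by
  unfold Exit mir
  constructor
  · rintro ⟨h1, a, ha, b, hb, h⟩
    exact ⟨h1, b, hb, a, ha, h⟩
  · rintro ⟨h1, a, ha, b, hb, h⟩
    exact ⟨h1, b, hb, a, ha, h⟩

theorem near_swap (D L : ℕ) (c d q p : ZMod Q) : near D L c d q p ↔ near D L d c p q := by
  unfold near
  exact and_comm

theorem Reg.mir {C : Mx Q} {al : ℕ → ZMod Q → ZMod Q → Prop} {M k D : ℕ} {τ C1 : ℝ}
    (h : Reg C al M k D τ C1) : Reg Cᵀ (mir al) M k D τ C1 := by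
  classical
  refine ⟨fun m hm q p hal => ?_, fun k' hk L hL c d => ?_⟩
  · rw [box_tr]
    exact OpLe.tr (h.op m hm p q hal)
  · refine le_trans (le_of_eq ?_) (h.ex k' hk L hL d c)
    refine Finset.sum_congr rfl fun m _ => ?_
    rw [Finset.sum_comm]
    refine Finset.sum_congr rfl fun q _ => Finset.sum_congr rfl fun p _ => ?_
    refine if_congr ?_ rfl rfl
    rw [Exit_mir, near_swap]

/-! ### scaling and linearity -/

theorem Tb_smul (a b c : ℝ) (A B C : Mx Q) (N : ℕ) (p0 p1 p2 : ZMod Q) :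
    Tb (a • A) (b • B) (c • C) N p0 p1 p2 = a * b * c * Tb A B C N p0 p1 p2 := by
  unfold Tb
  simp only [Matrix.smul_apply, smul_eq_mul, Finset.mul_sum]
  refine Finset.sum_congr rfl fun i0 _ => Finset.sum_congr rfl fun i1 _ =>
    Finset.sum_congr rfl fun i2 _ => ?_
  ring

theorem Tb_sub0 (A A' B C : Mx Q) (N : ℕ) (p0 p1 p2 : ZMod Q) :
    Tb (A - A') B C N p0 p1 p2 = Tb A B C N p0 p1 p2 - Tb A' B C N p0 p1 p2 := by
  unfold Tb
  simp only [Matrix.sub_apply, sub_mul, mul_sub, Finset.sum_sub_distrib]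

theorem Tb_sub1 (A B B' C : Mx Q) (N : ℕ) (p0 p1 p2 : ZMod Q) :
    Tb A (B - B') C N p0 p1 p2 = Tb A B C N p0 p1 p2 - Tb A B' C N p0 p1 p2 := by
  unfold Tb
  simp only [Matrix.sub_apply, sub_mul, mul_sub, Finset.sum_sub_distrib]

theorem SA_smul (al : ℕ → ZMod Q → ZMod Q → Prop) (a b c : ℝ) (A B : ℕ → Mx Q) (C : Mx Q)
    (M : ℕ) (l : ℤ) (h : 0 ≤ a * b * c) :
    SA al (fun m => a • A m) (fun m => b • B m) (c • C) M l = a * b * c * SA al A B C M l := by
  classical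
  unfold SA
  rw [Finset.mul_sum]
  refine Finset.sum_congr rfl fun m _ => ?_
  rw [← bl_const_mul]
  congr 1
  funext n
  rw [Finset.mul_sum]
  refine Finset.sum_congr rfl fun p0 _ => ?_
  rw [Finset.mul_sum]
  refine Finset.sum_congr rfl fun p1 _ => ?_
  rw [Tb_smul, abs_mul, abs_of_nonneg h]
  split_ifs <;> simp

theorem SA_le3 {al : ℕ → ZMod Q → ZMod Q → Prop} {A A1 A2 A3 B B1 B2 B3 : ℕ → Mx Q} {C : Mx Q}
    {M : ℕ} {l : ℤ}
    (h : ∀ m N p0 p1 p2, Tb (A m) (B m) C N p0 p1 p2 = Tb (A1 m) (B1 m) C N p0 p1 p2 +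
      Tb (A2 m) (B2 m) C N p0 p1 p2 + Tb (A3 m) (B3 m) C N p0 p1 p2) :
    SA al A B C M l ≤ SA al A1 B1 C M l + SA al A2 B2 C M l + SA al A3 B3 C M l := by
  classical
  unfold SA
  rw [← Finset.sum_add_distrib, ← Finset.sum_add_distrib]
  refine Finset.sum_le_sum fun m _ => ?_
  rw [← bl_add, ← bl_add]
  refine bl_mono (fun n => ?_) _ _
  rw [← Finset.sum_add_distrib, ← Finset.sum_add_distrib]
  refine Finset.sum_le_sum fun p0 _ => ?_
  rw [← Finset.sum_add_distrib, ← Finset.sum_add_distrib]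
  refine Finset.sum_le_sum fun p1 _ => ?_
  split_ifs
  · rw [h]
    exact abs_add_three _ _ _
  · simp

theorem OpLe.smul {m n : Type*} [Fintype m] [Fintype n] {A : Matrix m n ℝ} {a c : ℝ} (hc : 0 ≤ c)
    (h : OpLe A a) : OpLe (c • A) (c * a) := by
  refine ⟨mul_nonneg hc h.1, fun v => ?_⟩
  have h1 := h.2 v
  have e : ∀ i, ∑ j, (c • A) i j * v j = c * ∑ j, A i j * v j := by
    intro i
    rw [Finset.mul_sum]
    exact Finset.sum_congr rfl fun j _ => by rw [Matrix.smul_apply, smul_eq_mul]; ring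
  simp only [e, mul_pow, ← Finset.mul_sum]
  rw [mul_assoc]
  exact mul_le_mul_of_nonneg_left h1 (sq_nonneg c)

theorem Reg.scale {C : Mx Q} {al : ℕ → ZMod Q → ZMod Q → Prop} {M k D : ℕ} {τ C1 : ℝ}
    (hτ : 0 < τ) (h : Reg C al M k D τ C1) : Reg (τ⁻¹ • C) al M k D 1 C1 := by
  refine ⟨fun m hm q p hal => ?_, h.ex⟩
  rw [box_smul]
  have := OpLe.smul (inv_nonneg.2 hτ.le) (h.op m hm q p hal)
  have e : τ⁻¹ * (2 ^ m * τ) = 2 ^ m * 1 := by field_simp
  rwa [e] at this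

theorem Last.scale {C : Mx Q} {al : ℕ → ZMod Q → ZMod Q → Prop} {M k : ℕ} {E0 Ar : ℝ} (c : ℝ)
    (h : Last C al M k E0 Ar) : Last (c • C) al M k (c ^ 2 * E0) Ar := by
  refine ⟨fun m hm q p hal => ?_, h.ar, h.ex⟩
  rw [box_smul, PotL.hs2_smul]
  have := h.hs m hm q p hal
  calc _ ≤ c ^ 2 * (4 ^ m * E0) := mul_le_mul_of_nonneg_left this (sq_nonneg c)
    _ = _ := by ring

theorem Last.up {C : Mx Q} {al : ℕ → ZMod Q → ZMod Q → Prop} {M k : ℕ} {E0 E1 Ar : ℝ}
    (h : Last C al M k E0 Ar) (hE : E0 ≤ E1) : Last C al M k E1 Ar :=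
  ⟨fun m hm q p hal => (h.hs m hm q p hal).trans (mul_le_mul_of_nonneg_left hE (by positivity)),
    h.ar, h.ex⟩

theorem Extr.up {B : Mx Q} {M : ℕ} {dl dl' n n' : ℝ} {Y : ℕ → Mx Q}
    {S : ℕ → ZMod Q → ZMod Q → Mx Q} (h : Extr B M dl n Y S) (hd : dl ≤ dl') (hn : n ≤ n') :
    Extr B M dl' n' Y S :=
  ⟨h.pr, h.cell, h.supp, h.topY, h.topS, h.step, fun m hm x y v hv => (h.op m hm x y v hv).trans
    (mul_le_mul_of_nonneg_right (mul_le_mul_of_nonneg_right hd (by positivity))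
      (Finset.sum_nonneg fun _ _ => sq_nonneg _)), h.hs, h.count.trans hn⟩

theorem Extr.scale {B : Mx Q} {M : ℕ} {dl n : ℝ} {Y : ℕ → Mx Q}
    {S : ℕ → ZMod Q → ZMod Q → Mx Q} (h : Extr B M dl n Y S) (c : ℝ) :
    Extr (c • B) M (c ^ 2 * dl) n (fun m => c • Y m) S := by
  refine ⟨h.pr, h.cell, h.supp, fun m hm => by rw [h.topY m hm], h.topS, fun m x y => ?_,
    fun m hm x y v hv => ?_, fun m => ?_, h.count⟩
  · rw [Matrix.smul_apply, h.step m x y, Matrix.smul_apply, smul_eq_mul, smul_eq_mul, mul_sub,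
      Finset.mul_sum]
    congr 1
    refine Finset.sum_congr rfl fun u _ => ?_
    rw [Matrix.smul_apply, smul_eq_mul]
    ring
  · have e : ∀ x', ∑ u, (c • Y m) x' u * v u = c * ∑ u, Y m x' u * v u := by
      intro x'
      rw [Finset.mul_sum]
      exact Finset.sum_congr rfl fun j _ => by rw [Matrix.smul_apply, smul_eq_mul]; ring
    simp only [e, mul_pow, ← Finset.mul_sum]
    calc _ ≤ c ^ 2 * (dl * 4 ^ m * ∑ u, v u ^ 2) :=
          mul_le_mul_of_nonneg_left (h.op m hm x y v hv) (sq_nonneg c)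
      _ = _ := by ring
  · have e : ∀ m', ∑ x, ∑ y, (c • Y m') x y ^ 2 = c ^ 2 * ∑ x, ∑ y, Y m' x y ^ 2 := by
      intro m'
      rw [Finset.mul_sum]
      refine Finset.sum_congr rfl fun x _ => ?_
      rw [Finset.mul_sum]
      refine Finset.sum_congr rfl fun y _ => ?_
      rw [Matrix.smul_apply, smul_eq_mul]
      ring
    show ∑ x, ∑ y, (c • Y m) x y ^ 2 ≤ ∑ x, ∑ y, (c • Y (m + 1)) x y ^ 2
    rw [e, e]
    exact mul_le_mul_of_nonneg_left (h.hs m) (sq_nonneg c)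

theorem Fl.up {k M : ℕ} {n n' : ℝ} {X : ℕ → Mx Q} (h : Fl k M n X) (hn : n ≤ n') : Fl k M n' X := by
  refine ⟨h.op, fun k' hk => ?_, fun m hm => (h.en m hm).trans hn⟩
  obtain ⟨v, v0, h1, h2⟩ := h.mv k' hk
  exact ⟨v, v0, h1, h2.trans hn⟩

theorem Kil.up {C : Mx Q} {al : ℕ → ZMod Q → ZMod Q → Prop} {R : ℕ → ZMod Q → ZMod Q → Mx Q}
    {w : ℕ → ZMod Q → ZMod Q → ℝ} {k M : ℕ} {n n' : ℝ} (h : Kil C al R w k M n) (hn : n ≤ n') :
    Kil C al R w k M n' :=
  ⟨h.pr, h.supp, h.nest, h.op, h.hs, h.w0, fun m hm => (h.sw m hm).trans hn,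
    fun k' hk => (h.sx k' hk).trans hn⟩

theorem FixB.smul {R : ℕ → ZMod Q → ZMod Q → Mx Q} {Bd : ℕ → Mx Q} {M D : ℕ} (h : FixB R Bd M D)
    (c : ℝ) : FixB R (fun m => c • Bd m) M D := by
  intro m hm x q p ht y hy
  have := h m hm x q p ht y hy
  simp only [Matrix.smul_apply, smul_eq_mul, mul_assoc, ← Finset.mul_sum]
  rw [this]

theorem sum_sq_smul (c : ℝ) (A : Mx Q) :
    ∑ x, ∑ y, (c • A) x y ^ 2 = c ^ 2 * ∑ x, ∑ y, A x y ^ 2 := by
  rw [Finset.mul_sum]
  refine Finset.sum_congr rfl fun x _ => ?_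
  rw [Finset.mul_sum]
  refine Finset.sum_congr rfl fun y _ => ?_
  rw [Matrix.smul_apply, smul_eq_mul]
  ring

theorem sum_sq_tr (A : Mx Q) : ∑ x, ∑ y, Aᵀ x y ^ 2 = ∑ x, ∑ y, A x y ^ 2 := by
  rw [Finset.sum_comm]
  rfl

end Crest.Agent.R079.CRwx253
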