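import Crest.Agent.R079.CRw_253

/-! R079, RAGGED CORNER (CR), L6 (second half): words I and last, ladder, `CornerR` from the leaves.
helper253. -/

set_option autoImplicit false
set_option linter.unusedVariables false
set_option linter.unusedSectionVars false
set_option linter.unusedSimpArgs false

namespace Crest.Agent.R079.CRwx253

open Matrix Finset Crest.Agent.R072 Crest.Agent.R079.CR371 Crest.Agent.R079.CRdefx253
open Crest.Agent.R079.PotL (bl cel IsPr hs2 bl_mono bl_add bl_const_mul)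
open scoped MatrixOrder

/-- **word I** : `A` low (any extraction of `Aᵀ`), band of `B`, killer compressed at vertex 2 -/
theorem word_I (hFl : FlOfExtr) (hS : ExistsSpc) (hK : KilOfSpc) (hX : Exact) (h0 : Vert0)
    (h1 : Vert1) (h2 : Vert2) (k : ℕ) (l : ℤ) (hk : 2 * |l| + 20 ≤ 2 ^ k) (C1 : ℝ) :
    ∃ K : ℝ, 0 ≤ K ∧ ∀ (Q : ℕ) [NeZero Q] (M M' : ℕ) (A B C : Mx Q)
      (al : ℕ → ZMod Q → ZMod Q → Prop) (YA Y Y' : ℕ → Mx Q) (U S S' : ℕ → ZMod Q → ZMod Q → Mx Q)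
      (da db n τ : ℝ), 2 ^ M ∣ Q → M' + k < M → 0 < da → 0 < db → 0 ≤ n → 0 < τ →
      Extr Aᵀ M da n YA U → Extr B M db n Y S → Extr B M db n Y' S' →
      ∑ x, ∑ y, A x y ^ 2 ≤ da * n → ∑ x, ∑ y, B x y ^ 2 ≤ db * n →
      Reg C al M k (l.natAbs + 24) τ C1 →
      SA al (fun m => (YA m)ᵀ) (fun m => Y m - Y' m) C M' l ≤ K * (√da * √db * τ * n) := by
  obtain ⟨c, hc, Hc⟩ := hFl k
  obtain ⟨K3, hK3, H3⟩ := hK k (l.natAbs + 8) C1
  obtain ⟨K0, hK0, H0⟩ := word_norm hX h0 h1 h2 k l hk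
  refine ⟨K0 * (c⁻¹ + K3) * (c⁻¹) ^ 2, by positivity, ?_⟩
  intro Q _ M M' A B C al YA Y Y' U S S' da db n τ hQ hM hda hdb hn hτ EA EB EB' hA hB hR
  have sa : 0 < √da := Real.sqrt_pos.2 hda
  have sb : 0 < √db := Real.sqrt_pos.2 hdb
  have qa : (√da)⁻¹ ^ 2 * da = 1 := by
    rw [inv_pow, Real.sq_sqrt hda.le, inv_mul_cancel₀ hda.ne']
  have qb : (√db)⁻¹ ^ 2 * db = 1 := by
    rw [inv_pow, Real.sq_sqrt hdb.le, inv_mul_cancel₀ hdb.ne']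
  have EA' := Extr.scale EA (√da)⁻¹
  have EB1 := Extr.scale EB (√db)⁻¹
  have EB2 := Extr.scale EB' (√db)⁻¹
  rw [qa] at EA'
  rw [qb] at EB1 EB2
  have hA' : ∑ x, ∑ y, ((√da)⁻¹ • Aᵀ) x y ^ 2 ≤ n := by
    rw [sum_sq_smul, sum_sq_tr]
    calc _ ≤ (√da)⁻¹ ^ 2 * (da * n) := mul_le_mul_of_nonneg_left hA (by positivity)
      _ = n := by rw [← mul_assoc, qa, one_mul]
  have hB' : ∑ x, ∑ y, ((√db)⁻¹ • B) x y ^ 2 ≤ n := by
    rw [sum_sq_smul]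
    calc _ ≤ (√db)⁻¹ ^ 2 * (db * n) := mul_le_mul_of_nonneg_left hB (by positivity)
      _ = n := by rw [← mul_assoc, qb, one_mul]
  obtain ⟨-, -, FA, -⟩ := Hc Q _ M n _ _ U U hQ EA' EA' hA'
  obtain ⟨-, FB, -, -⟩ := Hc Q _ M n _ _ S S' hQ EB1 EB2 hB'
  obtain ⟨R, hR'⟩ := hS Q _ M (l.natAbs + 8) 1 1 n n _ _ S S' hQ EB1 EB2
  have hreg : Reg (τ⁻¹ • C) al M k (l.natAbs + 8 + 16) 1 C1 := Reg.scale hτ hR
  have hkil := H3 Q _ (τ⁻¹ • C) M 1 1 n _ _ S S' R al hQ EB1 EB2 hR' hreg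
  have hfix : FixB R (fun m => c • ((√db)⁻¹ • Y m - (√db)⁻¹ • Y' m)) M (l.natAbs + 8) :=
    FixB.smul hR'.fix c
  have hn1 : c⁻¹ * n ≤ (c⁻¹ + K3) * n := by nlinarith
  have hn2 : K3 * n ≤ (c⁻¹ + K3) * n := by
    have : 0 ≤ c⁻¹ * n := mul_nonneg (inv_nonneg.2 hc.le) hn
    nlinarith
  have hw := H0 Q M M' ((c⁻¹ + K3) * n) _ _ (τ⁻¹ • C) al R _ hQ hM (Fl.up FA hn1)
    (Fl.up FB hn1) (Kil.up hkil hn2) hfix
  have e1 : (fun m => c • ((√da)⁻¹ • YA m)ᵀ) = fun m => (c * (√da)⁻¹) • (YA m)ᵀ := by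
    funext m
    rw [transpose_smul, smul_smul]
  have e2 : (fun m => c • ((√db)⁻¹ • Y m - (√db)⁻¹ • Y' m)) =
      fun m => (c * (√db)⁻¹) • (Y m - Y' m) := by
    funext m
    rw [← smul_sub, smul_smul]
  rw [e1, e2, SA_smul al _ _ _ (fun m => (YA m)ᵀ) (fun m => Y m - Y' m) C M' l (by positivity)] at hw
  set X := SA al (fun m => (YA m)ᵀ) (fun m => Y m - Y' m) C M' l with hXd
  have e3 : X = (c⁻¹ ^ 2 * (√da * √db * τ)) * (c * (√da)⁻¹ * (c * (√db)⁻¹) * τ⁻¹ * X) := by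
    field_simp
  rw [e3]
  calc _ ≤ (c⁻¹ ^ 2 * (√da * √db * τ)) * (K0 * ((c⁻¹ + K3) * n)) :=
        mul_le_mul_of_nonneg_left hw (by positivity)
    _ = _ := by ring

/-- **last word** : killer not compressed -/
theorem word_last (hFl : FlOfExtr) (hKL : KilLast) (hX : Exact) (h0 : Vert0)
    (h1 : Vert1) (h2 : Vert2) (k : ℕ) (l : ℤ) (hk : 2 * |l| + 20 ≤ 2 ^ k) (C1 : ℝ) :
    ∃ K : ℝ, 0 ≤ K ∧ ∀ (Q : ℕ) [NeZero Q] (M M' : ℕ) (A B C : Mx Q)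
      (al : ℕ → ZMod Q → ZMod Q → Prop) (YA Y : ℕ → Mx Q) (U S : ℕ → ZMod Q → ZMod Q → Mx Q)
      (da db n τ E0 Ar : ℝ), 2 ^ M ∣ Q → M' + k < M → 0 < da → 0 < db → 0 ≤ n → 0 < τ →
      Extr Aᵀ M da n YA U → Extr B M db n Y S →
      ∑ x, ∑ y, A x y ^ 2 ≤ da * n → ∑ x, ∑ y, B x y ^ 2 ≤ db * n →
      Reg C al M k (l.natAbs + 24) τ C1 → Last C al M k E0 Ar → E0 * Ar ≤ τ ^ 2 * n →
      SA al (fun m => (YA m)ᵀ) (fun m => Y m) C M' l ≤ K * (√da * √db * τ * n) := by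
  obtain ⟨c, hc, Hc⟩ := hFl k
  obtain ⟨K0, hK0, H0⟩ := word_norm hX h0 h1 h2 k l hk
  refine ⟨K0 * (c⁻¹ + 1) * (c⁻¹) ^ 2, by positivity, ?_⟩
  intro Q _ M M' A B C al YA Y U S da db n τ E0 Ar hQ hM hda hdb hn hτ EA EB hA hB hR hL hE
  have sa : 0 < √da := Real.sqrt_pos.2 hda
  have sb : 0 < √db := Real.sqrt_pos.2 hdb
  have qa : (√da)⁻¹ ^ 2 * da = 1 := by
    rw [inv_pow, Real.sq_sqrt hda.le, inv_mul_cancel₀ hda.ne']
  have qb : (√db)⁻¹ ^ 2 * db = 1 := by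
    rw [inv_pow, Real.sq_sqrt hdb.le, inv_mul_cancel₀ hdb.ne']
  have EA' := Extr.scale EA (√da)⁻¹
  have EB1 := Extr.scale EB (√db)⁻¹
  rw [qa] at EA'
  rw [qb] at EB1
  have hA' : ∑ x, ∑ y, ((√da)⁻¹ • Aᵀ) x y ^ 2 ≤ n := by
    rw [sum_sq_smul, sum_sq_tr]
    calc _ ≤ (√da)⁻¹ ^ 2 * (da * n) := mul_le_mul_of_nonneg_left hA (by positivity)
      _ = n := by rw [← mul_assoc, qa, one_mul]
  have hB' : ∑ x, ∑ y, ((√db)⁻¹ • B) x y ^ 2 ≤ n := by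
    rw [sum_sq_smul]
    calc _ ≤ (√db)⁻¹ ^ 2 * (db * n) := mul_le_mul_of_nonneg_left hB (by positivity)
      _ = n := by rw [← mul_assoc, qb, one_mul]
  obtain ⟨-, -, FA, -⟩ := Hc Q _ M n _ _ U U hQ EA' EA' hA'
  obtain ⟨FB, -, -, -⟩ := Hc Q _ M n _ _ S S hQ EB1 EB1 hB'
  have hreg : Reg (τ⁻¹ • C) al M k (l.natAbs + 24) 1 C1 := Reg.scale hτ hR
  have hlast : Last (τ⁻¹ • C) al M k (τ⁻¹ ^ 2 * max E0 0) Ar :=
    Last.scale τ⁻¹ (Last.up hL (le_max_left _ _))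
  have hkil := hKL Q (τ⁻¹ • C) M k (l.natAbs + 24) C1 (τ⁻¹ ^ 2 * max E0 0) Ar al hQ
    (by positivity) hreg hlast
  have hE' : τ⁻¹ ^ 2 * max E0 0 * Ar ≤ n := by
    rcases le_total E0 0 with h | h
    · rw [max_eq_right h, mul_zero, zero_mul]
      exact hn
    · rw [max_eq_left h, mul_assoc]
      calc _ ≤ τ⁻¹ ^ 2 * (τ ^ 2 * n) := mul_le_mul_of_nonneg_left hE (by positivity)
        _ = n := by field_simp
  have hfix : FixB (fun m q _ => I1 (2 ^ m) q) (fun m => c • ((√db)⁻¹ • Y m)) M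
      (l.natAbs + 8) := by
    intro m hm x q p _ y hy
    have e : ∀ u, (c • ((√db)⁻¹ • Y m)) x u * I1 (2 ^ m) q u y =
        if u = y then (c • ((√db)⁻¹ • Y m)) x u else 0 := by
      intro u
      unfold I1
      rw [diagonal_apply]
      by_cases h : u = y
      · rw [if_pos h, if_pos h, h, if_pos hy, mul_one]
      · rw [if_neg h, if_neg h, mul_zero]
    rw [Finset.sum_congr rfl fun u _ => e u, Finset.sum_ite_eq' univ y, if_pos (mem_univ y)]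
  have hn1 : c⁻¹ * n ≤ (c⁻¹ + 1) * n := by nlinarith
  have hn2 : τ⁻¹ ^ 2 * max E0 0 * Ar ≤ (c⁻¹ + 1) * n := by
    have : 0 ≤ c⁻¹ * n := mul_nonneg (inv_nonneg.2 hc.le) hn
    nlinarith
  have hw := H0 Q M M' ((c⁻¹ + 1) * n) _ _ (τ⁻¹ • C) al _ _ hQ hM (Fl.up FA hn1)
    (Fl.up FB hn1) (Kil.up hkil hn2) hfix
  have e1 : (fun m => c • ((√da)⁻¹ • YA m)ᵀ) = fun m => (c * (√da)⁻¹) • (YA m)ᵀ := by
    funext m
    rw [transpose_smul, smul_smul]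
  have e2 : (fun m => c • ((√db)⁻¹ • Y m)) = fun m => (c * (√db)⁻¹) • Y m := by
    funext m
    rw [smul_smul]
  rw [e1, e2, SA_smul al _ _ _ (fun m => (YA m)ᵀ) (fun m => Y m) C M' l (by positivity)] at hw
  set X := SA al (fun m => (YA m)ᵀ) (fun m => Y m) C M' l with hXd
  have e3 : X = (c⁻¹ ^ 2 * (√da * √db * τ)) * (c * (√da)⁻¹ * (c * (√db)⁻¹) * τ⁻¹ * X) := by
    field_simp
  rw [e3]
  calc _ ≤ (c⁻¹ ^ 2 * (√da * √db * τ)) * (K0 * ((c⁻¹ + 1) * n)) :=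
        mul_le_mul_of_nonneg_left hw (by positivity)
    _ = _ := by ring

/-- **THE RAGGED CORNER** from the leaves -/
theorem cornerR_of (hE : ExistsExtr) (hT : ExtrTriv) (hFl : FlOfExtr) (hS : ExistsSpc)
    (hK : KilOfSpc) (hKL : KilLast) (hX : Exact) (h0 : Vert0) (h1 : Vert1) (h2 : Vert2) :
    CornerR := by
  intro k l hk C1
  obtain ⟨K1, hK1, W1⟩ := word_I hFl hS hK hX h0 h1 h2 k l hk C1
  obtain ⟨K2, hK2, W2⟩ := word_last hFl hKL hX h0 h1 h2 k l hk C1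
  refine ⟨2 * (K1 + K2), by positivity, ?_⟩
  intro Q _ M M' J A B C al a2 b2 r τ E0 Ar hQ hM ha hb hr hτ hA hB hA0 hB0 hR hL hEA
  have hr' : ∀ i : ℕ, 0 < r * 2 ^ i := fun i => by positivity
  have ext : ∀ (F : Mx Q) (f2 : ℝ), 0 < f2 → ∑ x, ∑ y, F x y ^ 2 ≤ f2 →
      (∀ x y, F x y ^ 2 ≤ f2 / r) → ∀ i : ℕ, ∃ (Y : ℕ → Mx Q) (S : ℕ → ZMod Q → ZMod Q → Mx Q),
        Extr F M (f2 / (r * 2 ^ i)) (r * 2 ^ i) Y S ∧ (i = 0 → Y = fun _ => F) := by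
    intro F f2 hf hs h0 i
    rcases Nat.eq_zero_or_pos i with hi | hi
    · subst hi
      refine ⟨fun _ => F, fun _ _ _ => 0, Extr.up (hT Q F M (f2 / (r * 2 ^ 0)) hQ (by positivity)
        (by simpa using h0)) le_rfl (hr' 0).le, fun _ => rfl⟩
    · obtain ⟨Y, S, h⟩ := hE Q F M (f2 / (r * 2 ^ i)) hQ (div_pos hf (hr' i))
      refine ⟨Y, S, Extr.up h le_rfl ?_, fun h => by omega⟩
      rw [div_le_iff₀ (div_pos hf (hr' i))]
      refine hs.trans (le_of_eq ?_)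
      field_simp
  choose YA UA hYA hYA0 using ext Aᵀ a2 ha (by rw [sum_sq_tr]; exact hA) (fun x y => hA0 y x)
  choose YB UB hYB hYB0 using ext B b2 hb hB hB0
  set T : ℝ := τ * √a2 * √b2 with hTd
  have hT0 : 0 ≤ T := by positivity
  set X : ℕ → ℝ := fun i => SA al (fun m => (YA i m)ᵀ) (fun m => YB i m) C M' l with hXd
  have e2 : ∀ i, r * 2 ^ (i + 1) = 2 * (r * 2 ^ i) := fun i => by ring
  have hdiv : ∀ (i : ℕ) {a : ℝ}, 0 < a → a / (r * 2 ^ (i + 1)) ≤ a / (r * 2 ^ i) := by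
    intro i a ha
    apply div_le_div_of_nonneg_left ha.le (hr' i)
    rw [e2]
    linarith [hr' i]
  have hdd : ∀ (i : ℕ) (a : ℝ), a / (r * 2 ^ i) * (r * 2 ^ i) = a := by
    intro i a
    have := (hr' i).ne'
    field_simp
  have hprod : ∀ i : ℕ, √(a2 / (r * 2 ^ i)) * √(b2 / (r * 2 ^ i)) * τ * (r * 2 ^ i) = T := by
    intro i
    rw [Real.sqrt_div ha.le, Real.sqrt_div hb.le, hTd]
    have h3 : √(r * 2 ^ i) * √(r * 2 ^ i) = r * 2 ^ i := Real.mul_self_sqrt (hr' i).le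
    have h4 : 0 < √(r * 2 ^ i) := Real.sqrt_pos.2 (hr' i)
    calc _ = √a2 * √b2 * τ * ((r * 2 ^ i) / (√(r * 2 ^ i) * √(r * 2 ^ i))) := by
          field_simp
      _ = _ := by rw [h3, div_self (hr' i).ne']; ring
  have hprod' : ∀ i : ℕ, √(b2 / (r * 2 ^ i)) * √(a2 / (r * 2 ^ i)) * τ * (r * 2 ^ i) = T := by
    intro i
    rw [mul_comm (√(b2 / (r * 2 ^ i)))]
    exact hprod i
  have hstep : ∀ i, X i ≤ K1 * (2 * T) + K1 * (2 * T) + X (i + 1) := by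
    intro i
    have ri := hr' i
    have da : 0 < a2 / (r * 2 ^ i) := by positivity
    have db : 0 < b2 / (r * 2 ^ i) := by positivity
    have hnn : r * 2 ^ i ≤ r * 2 ^ (i + 1) := by rw [e2]; linarith
    have hAn : ∑ x, ∑ y, A x y ^ 2 ≤ a2 / (r * 2 ^ i) * (r * 2 ^ (i + 1)) := by
      rw [e2]
      have := hdd i a2
      nlinarith
    have hBn : ∑ x, ∑ y, B x y ^ 2 ≤ b2 / (r * 2 ^ i) * (r * 2 ^ (i + 1)) := by
      rw [e2]
      have := hdd i b2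
      nlinarith
    have w1 := W1 Q M M' A B C al (YA i) (YB i) (YB (i + 1)) (UA i) (UB i) (UB (i + 1))
      (a2 / (r * 2 ^ i)) (b2 / (r * 2 ^ i)) (r * 2 ^ (i + 1)) τ hQ hM da db (hr' _).le hτ
      (Extr.up (hYA i) le_rfl hnn) (Extr.up (hYB i) le_rfl hnn)
      (Extr.up (hYB (i + 1)) (hdiv i hb) le_rfl) hAn hBn hR
    have w2 := W1 Q M M' Bᵀ Aᵀ Cᵀ (mir al) (YB (i + 1)) (YA i) (YA (i + 1)) (UB (i + 1)) (UA i)
      (UA (i + 1)) (b2 / (r * 2 ^ i)) (a2 / (r * 2 ^ i)) (r * 2 ^ (i + 1)) τ hQ hM db da (hr' _).le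
      hτ (by rw [transpose_transpose]; exact Extr.up (hYB (i + 1)) (hdiv i hb) le_rfl)
      (Extr.up (hYA i) le_rfl hnn) (Extr.up (hYA (i + 1)) (hdiv i ha) le_rfl)
      (by rw [sum_sq_tr]; exact hBn) (by rw [sum_sq_tr]; exact hAn) (Reg.mir hR)
    have e3 : √(a2 / (r * 2 ^ i)) * √(b2 / (r * 2 ^ i)) * τ * (r * 2 ^ (i + 1)) = 2 * T := by
      rw [e2, ← hprod i]; ring
    have e4 : √(b2 / (r * 2 ^ i)) * √(a2 / (r * 2 ^ i)) * τ * (r * 2 ^ (i + 1)) = 2 * T := by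
      rw [e2, ← hprod' i]; ring
    rw [e3] at w1
    rw [e4] at w2
    have hm := SA_mirror al (fun m => (YA i m - YA (i + 1) m)ᵀ) (fun m => YB (i + 1) m) C M' l
    simp only [transpose_transpose] at hm
    rw [← hm] at w2
    refine (SA_le3 (al := al) (A := fun m => (YA i m)ᵀ) (B := fun m => YB i m)
      (A1 := fun m => (YA i m)ᵀ) (B1 := fun m => YB i m - YB (i + 1) m)
      (A2 := fun m => (YA i m - YA (i + 1) m)ᵀ) (B2 := fun m => YB (i + 1) m)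
      (A3 := fun m => (YA (i + 1) m)ᵀ) (B3 := fun m => YB (i + 1) m) ?_).trans
      (add_le_add (add_le_add w1 w2) le_rfl)
    intro m N p0 p1 p2
    rw [transpose_sub, Tb_sub1, Tb_sub0]
    ring
  have hlast : X J ≤ K2 * T := by
    have w := W2 Q M M' A B C al (YA J) (YB J) (UA J) (UB J) (a2 / (r * 2 ^ J))
      (b2 / (r * 2 ^ J)) (r * 2 ^ J) τ E0 Ar hQ hM (by positivity) (by positivity) (hr' J).le hτ
      (hYA J) (hYB J) (by rw [hdd]; exact hA) (by rw [hdd]; exact hB) hR hL hEA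
    rw [hprod] at w
    exact w
  have hind : ∀ i : ℕ, X 0 ≤ 4 * i * (K1 * T) + X i := by
    intro i
    induction i with
    | zero => simp
    | succ i ih =>
      have := hstep i
      push_cast
      linarith
  have h0' : X 0 = SA al (fun _ => A) (fun _ => B) C M' l := by
    simp only [hXd]
    rw [hYA0 0 rfl, hYB0 0 rfl]
    simp only [transpose_transpose]
  rw [← h0']
  have hJ := hind J
  have hKT : 0 ≤ K1 * T := mul_nonneg hK1 hT0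
  have hKT2 : 0 ≤ K2 * T := mul_nonneg hK2 hT0
  have hJ0 : (0 : ℝ) ≤ J := by positivity
  have : 2 * (K1 + K2) * (2 * (J : ℝ) + 1) * T = 4 * J * (K1 * T) + 4 * J * (K2 * T) +
      2 * (K1 * T) + 2 * (K2 * T) := by ring
  rw [this]
  have h5 : 0 ≤ 4 * J * (K2 * T) := by positivity
  linarith

end Crest.Agent.R079.CRwx253
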