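import Crest.Agent.R079.CRn_371
import Crest.Agent.R079.CRdef_253

/-! R079, RAGGED CORNER (CR): kernel letters, the bare box form `Tb` of CRdef_253 as the form `TB` of
the letters, and EXACTNESS of the compressed killer (the rows of the band lie in the window spaces).
helper371. -/

set_option autoImplicit false
set_option linter.unusedVariables false
set_option linter.unusedSectionVars false
set_option linter.unusedSimpArgs false

namespace Crest.Agent.R079.CR371

open Matrix Crest.Agent.R072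
open Finset hiding box
open Crest.Agent.R079.PotL (bl bl_mono bl_add bl_const_mul cel IsPr hs2)
open Crest.Agent.R079.CRdefx253
open scoped MatrixOrder

section windows

variable {Q : ℕ} [NeZero Q]

/-- sums over windows -/
theorem sum_win {L : ℕ} (hL : L ≤ Q) (p : ZMod Q) (f : ZMod Q → ℝ) :
    ∑ x : ZMod Q, ind L p x * f x = ∑ i : Fin L, f (p + ((i : ℕ) : ZMod Q)) := by
  have h1 : ∀ x : ZMod Q, ind L p x * f x = if (x - p).val < L then f x else 0 := by
    intro x
    unfold ind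
    split_ifs <;> simp
  rw [Finset.sum_congr rfl fun x _ => h1 x, ← Finset.sum_filter]
  symm
  refine Finset.sum_bij (fun (i : Fin L) _ => p + ((i : ℕ) : ZMod Q)) ?_ ?_ ?_ ?_
  · intro i _
    rw [Finset.mem_filter]
    refine ⟨Finset.mem_univ _, ?_⟩
    rw [add_sub_cancel_left, ZMod.val_natCast, Nat.mod_eq_of_lt (by omega)]
    exact i.2
  · intro i _ j _ h
    have h2 : ((i : ℕ) : ZMod Q) = ((j : ℕ) : ZMod Q) := add_left_cancel h
    have h3 := congrArg ZMod.val h2
    rw [ZMod.val_natCast, ZMod.val_natCast, Nat.mod_eq_of_lt (by omega),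
      Nat.mod_eq_of_lt (by omega)] at h3
    exact Fin.ext h3
  · intro x hx
    rw [Finset.mem_filter] at hx
    refine ⟨⟨(x - p).val, hx.2⟩, Finset.mem_univ _, ?_⟩
    simp
  · intro i _
    rfl

theorem I1_eq (L : ℕ) (p : ZMod Q) : I1 L p = diagonal (ind L p) := by
  unfold I1 ind win
  rfl

theorem box_apply (F : Mx Q) (L : ℕ) (q p x y : ZMod Q) :
    box F L q p x y = ind L q x * F x y * ind L p y := by
  unfold box
  rw [I1_eq, I1_eq, mul_diagonal, diagonal_mul]

/-- kernel letters -/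
noncomputable def kl (N : ℕ) (K : Mx Q) : Lt Q (ZMod Q) := fun q p => box K N q p

theorem kl_sup (N : ℕ) (K : Mx Q) : Sup N (kl N K) := by
  constructor
  · intro q p x y hy
    unfold kl
    rw [box_apply]
    have : ind N p y = 0 := by
      unfold ind
      rw [if_neg (by omega)]
    rw [this, mul_zero]
  · intro q p x y hx
    unfold kl
    rw [box_apply]
    have : ind N q x = 0 := by
      unfold ind
      rw [if_neg (by omega)]
    rw [this, zero_mul, zero_mul]

theorem trL_kl (N : ℕ) (K : Mx Q) : trL (kl N K) = kl N Kᵀ := by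
  funext q p
  unfold trL kl
  ext x y
  rw [transpose_apply, box_apply, box_apply, transpose_apply]
  ring

theorem DB_kl {N : ℕ} (hN : 2 * N ≤ Q) (K : Mx Q) (q p : ZMod Q) :
    DB N (kl N K) q p = box K (N + N) q p := by
  rw [DB_eq]
  unfold kl
  ext x y
  simp only [Matrix.add_apply, box_apply]
  rw [← two_mul N, ind_two N hN, ind_two N hN]
  ring

/-- trace of the signed product as a triple sum -/
theorem tr_box {N : ℕ} (hN : 2 * N ≤ Q) (A B C : Mx Q) (p0 p1 p2 : ZMod Q) :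
    (diagonal (sg N p0) * box A (N + N) p0 p1 * diagonal (sg N p1) * box B (N + N) p1 p2 *
      diagonal (sg N p2) * box C (N + N) p2 p0).trace =
    ∑ i0 : Fin (N + N), ∑ i1 : Fin (N + N), ∑ i2 : Fin (N + N),
    hsgn N i0 * hsgn N i1 * hsgn N i2 *
      (A (p0 + ((i0 : ℕ) : ZMod Q)) (p1 + ((i1 : ℕ) : ZMod Q)) *
        B (p1 + ((i1 : ℕ) : ZMod Q)) (p2 + ((i2 : ℕ) : ZMod Q)) *
        C (p2 + ((i2 : ℕ) : ZMod Q)) (p0 + ((i0 : ℕ) : ZMod Q))) := by
  have hs : ∀ (p : ZMod Q) (i : Fin (N + N)), sg N p (p + ((i : ℕ) : ZMod Q)) = hsgn N i := by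
    intro p i
    have hi := i.2
    unfold sg hsgn
    rw [add_sub_cancel_left, ZMod.val_natCast, Nat.mod_eq_of_lt (by omega)]
    by_cases h : (i : ℕ) < N
    · rw [if_pos h, if_neg (by omega)]
    · rw [if_neg h, if_pos (by omega)]
  have h1 : (diagonal (sg N p0) * box A (N + N) p0 p1 * diagonal (sg N p1) *
      box B (N + N) p1 p2 * diagonal (sg N p2) * box C (N + N) p2 p0).trace =
      ∑ x0 : ZMod Q, ind (N + N) p0 x0 * ∑ x1 : ZMod Q, ind (N + N) p1 x1 *
        ∑ x2 : ZMod Q, ind (N + N) p2 x2 * (sg N p0 x0 * sg N p1 x1 * sg N p2 x2 *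
          (A x0 x1 * B x1 x2 * C x2 x0)) := by
    have e1 : ∀ x0 x2 : ZMod Q, (diagonal (sg N p0) * box A (N + N) p0 p1 * diagonal (sg N p1) *
        box B (N + N) p1 p2 * diagonal (sg N p2)) x0 x2 =
        ∑ x1 : ZMod Q, sg N p0 x0 * (ind (N + N) p0 x0 * A x0 x1 * ind (N + N) p1 x1) *
          sg N p1 x1 * (ind (N + N) p1 x1 * B x1 x2 * ind (N + N) p2 x2) * sg N p2 x2 := by
      intro x0 x2
      rw [mul_diagonal, Matrix.mul_apply, Finset.sum_mul]
      refine Finset.sum_congr rfl fun x1 _ => ?_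
      rw [mul_diagonal, diagonal_mul, box_apply, box_apply]
    unfold Matrix.trace
    refine Finset.sum_congr rfl fun x0 _ => ?_
    rw [Matrix.diag_apply, Matrix.mul_apply]
    simp_rw [e1, box_apply, Finset.sum_mul, Finset.mul_sum]
    rw [Finset.sum_comm]
    refine Finset.sum_congr rfl fun x1 _ => Finset.sum_congr rfl fun x2 _ => ?_
    have a0 := ind_sq (N + N) p0 x0
    have a1 := ind_sq (N + N) p1 x1
    have a2 := ind_sq (N + N) p2 x2
    calc _ = (ind (N + N) p0 x0 * ind (N + N) p0 x0) * (ind (N + N) p1 x1 * ind (N + N) p1 x1) *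
          (ind (N + N) p2 x2 * ind (N + N) p2 x2) * (sg N p0 x0 * sg N p1 x1 * sg N p2 x2 *
          (A x0 x1 * B x1 x2 * C x2 x0)) := by ring
      _ = _ := by rw [a0, a1, a2]; ring
  rw [h1]
  rw [sum_win (by omega) p0 (fun x0 => ∑ x1 : ZMod Q, ind (N + N) p1 x1 *
        ∑ x2 : ZMod Q, ind (N + N) p2 x2 * (sg N p0 x0 * sg N p1 x1 * sg N p2 x2 *
          (A x0 x1 * B x1 x2 * C x2 x0)))]
  refine Finset.sum_congr rfl fun i0 _ => ?_
  rw [sum_win (by omega) p1 (fun x1 => ∑ x2 : ZMod Q, ind (N + N) p2 x2 *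
    (sg N p0 (p0 + ((i0 : ℕ) : ZMod Q)) * sg N p1 x1 * sg N p2 x2 *
          (A (p0 + ((i0 : ℕ) : ZMod Q)) x1 * B x1 x2 * C x2 (p0 + ((i0 : ℕ) : ZMod Q)))))]
  refine Finset.sum_congr rfl fun i1 _ => ?_
  rw [sum_win (by omega) p2]
  refine Finset.sum_congr rfl fun i2 _ => ?_
  rw [hs, hs, hs]

/-- bare form -/
theorem TB_kl {N : ℕ} (hN : 2 * N ≤ Q) (A B C : Mx Q) (p0 p1 p2 : ZMod Q) :
    TB N (kl N A) (kl N B) (kl N C) p0 p1 p2 = Tb A B C N p0 p1 p2 := by
  unfold TB Tb
  rw [DB_kl hN, DB_kl hN, DB_kl hN, tr_box hN]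

/-! ### exactness -/

open Classical in
/-- the killer letter: compressed on the alive boxes, zero on the others -/
noncomputable def klR (N : ℕ) (R : ZMod Q → ZMod Q → Mx Q) (C : Mx Q)
    (al : ZMod Q → ZMod Q → Prop) : Lt Q (ZMod Q) :=
  fun q p => if al q p then R q p * box C N q p else 0

/-- support of a window space -/
def SupR (N : ℕ) (R : ZMod Q → ZMod Q → Mx Q) : Prop :=
  ∀ q p u v, R q p u v ≠ 0 → win N q u ∧ win N q v

theorem klR_sup {N : ℕ} {R : ZMod Q → ZMod Q → Mx Q} (hR : SupR N R) (C : Mx Q)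
    (al : ZMod Q → ZMod Q → Prop) : Sup N (klR N R C al) := by
  constructor
  · intro q p x y hy
    unfold klR
    split_ifs
    · rw [Matrix.mul_apply]
      refine Finset.sum_eq_zero fun z _ => ?_
      rw [box_apply]
      have : ind N p y = 0 := by
        unfold ind
        rw [if_neg (by omega)]
      rw [this, mul_zero, mul_zero]
    · rfl
  · intro q p x y hx
    unfold klR
    split_ifs
    · rw [Matrix.mul_apply]
      refine Finset.sum_eq_zero fun z _ => ?_
      have : R q p x z = 0 := by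
        by_contra h
        have := (hR q p x z h).1
        unfold win at this
        omega
      rw [this, zero_mul]
    · rfl

theorem ind_win {L : ℕ} {p x : ZMod Q} (h : win L p x) : ind L p x = 1 := by
  exact if_pos h

theorem ind_not_win {L : ℕ} {p x : ZMod Q} (h : ¬ win L p x) : ind L p x = 0 := by
  exact if_neg h

/-- one block -/
theorem exact1 {N : ℕ} {R : ZMod Q → ZMod Q → Mx Q} (hR : SupR N R) (Bd C : Mx Q)
    (p1 p2 q p : ZMod Q) (s : ℝ)
    (hs : ∀ u, win N q u → sg N p2 u = s ∧ ind (N + N) p2 u = 1)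
    (hfix : ∀ x, win (N + N) p1 x → ∀ y, win N q y → ∑ u, Bd x u * R q p u y = Bd x y) :
    box Bd (N + N) p1 p2 * diagonal (sg N p2) * (R q p * box C N q p) =
      box Bd (N + N) p1 p2 * diagonal (sg N p2) * box C N q p := by
  ext x z
  rw [Matrix.mul_apply, Matrix.mul_apply]
  have h1 : ∀ u, (box Bd (N + N) p1 p2 * diagonal (sg N p2)) x u * (R q p * box C N q p) u z =
      ∑ y, ind (N + N) p1 x * s * (Bd x u * R q p u y) * (ind N q y * C y z * ind N p z) := by
    intro u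
    rw [mul_diagonal, box_apply, Matrix.mul_apply, Finset.mul_sum]
    refine Finset.sum_congr rfl fun y _ => ?_
    rw [box_apply]
    by_cases h : R q p u y = 0
    · rw [h]; ring
    · obtain ⟨e1, e2⟩ := hs u (hR q p u y h).1
      rw [e1, e2]
      ring
  rw [Finset.sum_congr rfl fun u _ => h1 u, Finset.sum_comm]
  refine Finset.sum_congr rfl fun y _ => ?_
  rw [mul_diagonal, box_apply, box_apply]
  by_cases hy : win N q y
  · obtain ⟨e1, e2⟩ := hs y hy
    rw [e1, e2, ← Finset.sum_mul, ← Finset.mul_sum]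
    by_cases hx : win (N + N) p1 x
    · rw [hfix x hx y hy]
      ring
    · rw [ind_not_win hx]
      ring
  · rw [ind_not_win hy]
    simp

theorem win_lo {N : ℕ} {p u : ZMod Q} (h : win N p u) : sg N p u = 1 ∧ ind (N + N) p u = 1 := by
  unfold win at h
  constructor
  · unfold sg
    rw [if_neg (by omega)]
  · unfold ind
    rw [if_pos (by omega)]

theorem win_hi {N : ℕ} (hN : 2 * N ≤ Q) {p u : ZMod Q} (h : win N (p + (N : ZMod Q)) u) :
    sg N p u = -1 ∧ ind (N + N) p u = 1 := by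
  have hd : (u - p).val < Q := ZMod.val_lt _
  unfold win at h
  rw [val_sub_add u p N (by omega)] at h
  by_cases h2 : N ≤ (u - p).val
  · rw [if_pos h2] at h
    constructor
    · unfold sg
      rw [if_pos ⟨h2, by omega⟩]
    · unfold ind
      rw [if_pos (by omega)]
  · rw [if_neg h2] at h
    omega

/-- the compressed killer gives the same box form -/
theorem TB_exact {N : ℕ} (hN : 2 * N ≤ Q) {R : ZMod Q → ZMod Q → Mx Q} (hR : SupR N R)
    (LA : Lt Q (ZMod Q)) (Bd C : Mx Q) (al : ZMod Q → ZMod Q → Prop) (p0 p1 p2 : ZMod Q)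
    (hal : ∀ a < 2, ∀ b < 2, al (p2 + ((a * N : ℕ) : ZMod Q)) (p0 + ((b * N : ℕ) : ZMod Q)))
    (hfix : ∀ a < 2, ∀ b < 2, ∀ x, win (N + N) p1 x → ∀ y, win N (p2 + ((a * N : ℕ) : ZMod Q)) y →
      ∑ u, Bd x u * R (p2 + ((a * N : ℕ) : ZMod Q)) (p0 + ((b * N : ℕ) : ZMod Q)) u y = Bd x y) :
    TB N LA (kl N Bd) (klR N R C al) p0 p1 p2 = TB N LA (kl N Bd) (kl N C) p0 p1 p2 := by
  have key : DB N (kl N Bd) p1 p2 * diagonal (sg N p2) * DB N (klR N R C al) p2 p0 =
      DB N (kl N Bd) p1 p2 * diagonal (sg N p2) * DB N (kl N C) p2 p0 := by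
    have e0 : ∀ x : ZMod Q, x + ((0 * N : ℕ) : ZMod Q) = x := by intro x; simp
    have e1 : ∀ x : ZMod Q, x + ((1 * N : ℕ) : ZMod Q) = x + (N : ZMod Q) := by intro x; simp
    have a00 := hal 0 (by norm_num) 0 (by norm_num)
    have a01 := hal 0 (by norm_num) 1 (by norm_num)
    have a10 := hal 1 (by norm_num) 0 (by norm_num)
    have a11 := hal 1 (by norm_num) 1 (by norm_num)
    have f00 := hfix 0 (by norm_num) 0 (by norm_num)
    have f01 := hfix 0 (by norm_num) 1 (by norm_num)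
    have f10 := hfix 1 (by norm_num) 0 (by norm_num)
    have f11 := hfix 1 (by norm_num) 1 (by norm_num)
    simp only [e0, e1] at a00 a01 a10 a11 f00 f01 f10 f11
    rw [DB_kl hN, DB_eq, DB_eq]
    have k : ∀ q p, al q p → klR N R C al q p = R q p * box C N q p := by
      intro q p h
      unfold klR
      rw [if_pos h]
    rw [k _ _ a00, k _ _ a01, k _ _ a10, k _ _ a11]
    simp only [mul_add]
    rw [exact1 hR Bd C p1 p2 p2 p0 1 (fun u hu => win_lo hu) f00,
      exact1 hR Bd C p1 p2 p2 (p0 + (N : ZMod Q)) 1 (fun u hu => win_lo hu) f01,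
      exact1 hR Bd C p1 p2 (p2 + (N : ZMod Q)) p0 (-1) (fun u hu => win_hi hN hu) f10,
      exact1 hR Bd C p1 p2 (p2 + (N : ZMod Q)) (p0 + (N : ZMod Q)) (-1)
        (fun u hu => win_hi hN hu) f11]
    rfl
  unfold TB
  congr 2
  have e : ∀ K : Mx Q, diagonal (sg N p0) * DB N LA p0 p1 * diagonal (sg N p1) *
      DB N (kl N Bd) p1 p2 * diagonal (sg N p2) * K = diagonal (sg N p0) * DB N LA p0 p1 *
      diagonal (sg N p1) * (DB N (kl N Bd) p1 p2 * diagonal (sg N p2) * K) := by
    intro K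
    simp only [mul_assoc]
  rw [e, e, key]

end windows

section word

variable {Q : ℕ} [NeZero Q]

/-- the box form of the compressed killer equals the bare one on the boxes of block `l` with four
alive half boxes on the killer face -/
theorem TB_fix {M D m : ℕ} (hm : m < M) (hQ : 2 * 2 ^ m ≤ Q) {R : ℕ → ZMod Q → ZMod Q → Mx Q}
    (hR : SupR (2 ^ m) (R m)) (A : Mx Q) (Bd : ℕ → Mx Q) (C : Mx Q)
    (al : ℕ → ZMod Q → ZMod Q → Prop) (hF : FixB R Bd M D) (l : ℤ) (hD : l.natAbs + 5 ≤ D)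
    (i : ℕ) (hi : i < 2 ^ m) (p0 p1 p2 : ZMod Q)
    (hsum : p0 + p1 + p2 = (l : ZMod Q) * ((2 ^ m : ℕ) : ZMod Q) + (i : ZMod Q))
    (hal : Al4 al m p2 p0) :
    TB (2 ^ m) (kl (2 ^ m) A) (kl (2 ^ m) (Bd m)) (klR (2 ^ m) (R m) C (al m)) p0 p1 p2 =
      Tb A (Bd m) C (2 ^ m) p0 p1 p2 := by
  rw [← TB_kl hQ]
  refine TB_exact hQ hR _ _ _ _ _ _ _ ?_ ?_
  · exact hal
  · intro a ha b hb x hx y hy
    refine hF m hm x _ _ ?_ y hy
    have hx' : ((x - p1).val : ZMod Q) = x - p1 := ZMod.natCast_zmod_val _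
    unfold win at hx
    set N : ℕ := 2 ^ m with hN
    have hcast : ((2 : ℤ) ^ m) = (N : ℤ) := by rw [hN]; push_cast; rfl
    refine ⟨l * (N : ℤ) + (i : ℤ) + ((x - p1).val : ℤ) + (a : ℤ) * N + (b : ℤ) * N, ?_, ?_⟩
    · rw [hcast]
      have h1 : |l * (N : ℤ)| = (l.natAbs : ℤ) * N := by
        rw [abs_mul, Int.abs_eq_natAbs, Nat.abs_cast]
      have h2 : (0 : ℤ) ≤ N := by positivity
      have ha' : (a : ℤ) ≤ 1 := by omega
      have hb' : (b : ℤ) ≤ 1 := by omega
      have h3 : (a : ℤ) * N ≤ N := by nlinarith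
      have h4 : (b : ℤ) * N ≤ N := by nlinarith
      have h5 : 0 ≤ (a : ℤ) * N := by positivity
      have h6 : 0 ≤ (b : ℤ) * N := by positivity
      have h7 : (i : ℤ) ≤ N := by omega
      have h8 : ((x - p1).val : ℤ) ≤ 2 * N := by omega
      have h9 : ((l.natAbs : ℤ) + 5) * N ≤ (D : ℤ) * N := by
        apply mul_le_mul_of_nonneg_right _ h2
        exact_mod_cast hD
      rw [abs_le] at *
      obtain ⟨g1, g2⟩ := abs_le.1 (le_of_eq h1)
      constructor <;> nlinarith
    · push_cast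
      rw [hx']
      have : (l : ZMod Q) * (N : ZMod Q) + (i : ZMod Q) = p0 + p1 + p2 := hsum.symm
      linear_combination -this

/-- the sum over the alive boxes is at most the sum of the forms of the letters -/
theorem SA_le {M k D : ℕ} (hQ : 2 ^ M ≤ Q) (M' : ℕ) (hM : M' < M)
    {R : ℕ → ZMod Q → ZMod Q → Mx Q} (hR : ∀ m < M', SupR (2 ^ m) (R m))
    (A : ℕ → Mx Q) (Bd : ℕ → Mx Q) (C : Mx Q)
    (al : ℕ → ZMod Q → ZMod Q → Prop) (hF : FixB R Bd M D) (l : ℤ) (hD : l.natAbs + 5 ≤ D) :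
    SA al A Bd C M' l ≤ ∑ m ∈ range M', bl (fun n => ∑ p0 : ZMod Q, ∑ p1 : ZMod Q,
      |TB (2 ^ m) (kl (2 ^ m) (A m)) (kl (2 ^ m) (Bd m)) (klR (2 ^ m) (R m) C (al m)) p0 p1
        (n - p0 - p1)|) (2 ^ m) l := by
  unfold SA
  refine Finset.sum_le_sum fun m hm => ?_
  rw [Finset.mem_range] at hm
  have h2 : 2 * 2 ^ m ≤ Q := by
    refine le_trans ?_ hQ
    rw [← pow_succ']
    exact Nat.pow_le_pow_right (by norm_num) (by omega)
  unfold bl
  refine mul_le_mul_of_nonneg_left (Finset.sum_le_sum fun i hi => ?_) (by positivity)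
  rw [Finset.mem_range] at hi
  refine Finset.sum_le_sum fun p0 _ => Finset.sum_le_sum fun p1 _ => ?_
  split_ifs with h
  · rw [TB_fix (by omega) h2 (hR m hm) (A m) Bd C al hF l hD i hi p0 p1 _ (by ring) h]
  · exact abs_nonneg _

end word

end Crest.Agent.R079.CR371
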