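import Crest.Agent.R079.Cell_37
import Crest.Agent.R079.TWin3_903

/-! R079, T2 (helper37): cells, part 2: the local `L²` norm of a cell is at most its cost `cS`
(every node), hence `av q x.1 ≤ t^(-γ) x.2 q` for the family; smaller scale = larger scale with larger
height (`CellD.scale`). -/

set_option autoImplicit false

namespace Crest.Agent.R079.Cell37

open Finset Crest.Agent.R079.Grid Crest.Agent.R079.Glue Crest.Agent.R079.Growth
  Crest.Agent.R079.QRed

theorem av_mono' {q : Nd} {f g : Fn} (h : ∀ y ∈ iv q, ‖f y‖ ≤ ‖g y‖) : av q f ≤ av q g := by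
  unfold av av2
  refine Real.sqrt_le_sqrt ?_
  refine mul_le_mul_of_nonneg_left ?_ (by positivity)
  exact Finset.sum_le_sum fun y hy => pow_le_pow_left₀ (norm_nonneg _) (h y hy) 2

theorem av_zero' (q : Nd) : av q (fun _ => 0) = 0 := by
  unfold av av2
  simp

theorem av_smul' (q : Nd) (z : ℂ) (f : Fn) : av q (fun y => z * f y) = ‖z‖ * av q f := by
  unfold av av2
  simp only [norm_mul, mul_pow]
  rw [← Finset.mul_sum, mul_left_comm, Real.sqrt_mul (by positivity),
    Real.sqrt_sq (norm_nonneg _)]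

theorem av_sum_le {ι : Type*} (q : Nd) (s : Finset ι) (f : ι → Fn) :
    av q (fun y => ∑ i ∈ s, f i y) ≤ ∑ i ∈ s, av q (f i) := by
  classical
  induction s using Finset.induction_on with
  | empty => simp [av_zero']
  | insert i s hi ih =>
    simp only [Finset.sum_insert hi]
    exact (TWin.av_add_le q (f i) (fun y => ∑ i ∈ s, f i y)).trans (by linarith)

/-- **the local `L²` norm of a cell is at most its cost** -/
theorem av_cph_le {n : ℕ} {a b : ℤ} {H : ℝ} {w : ℤ → ℝ} {u c : ℤ → ℂ} (h : CellD n a b H w u c)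
    (ξ : ℤ → ℝ) (q : Nd) : av q (cph n a w u c ξ) ≤ cS n a w c q := by
  unfold cph cS
  refine (av_sum_le q _ _).trans (Finset.sum_le_sum fun s _ => ?_)
  have h1 : av q (fun y => (w s : ℂ) * u s * c (y - s) * ee (ξ s * ((y - s : ℤ) : ℝ))) ≤
      av q (fun y => (w s : ℂ) * c (y - s)) := by
    refine av_mono' fun y _ => ?_
    rw [norm_mul, norm_mul, norm_mul, norm_ee, mul_one, norm_mul]
    refine mul_le_mul_of_nonneg_right ?_ (norm_nonneg _)
    exact mul_le_of_le_one_right (norm_nonneg _) (h.u1 s)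
  refine h1.trans (le_of_eq ?_)
  rw [av_smul' q (w s : ℂ) (fun y => c (y - s)), Complex.norm_real,
    Real.norm_of_nonneg (h.w0 s)]

/-- the same for the family -/
theorem cel_av {γ δ C t : ℝ} {x : Fn × (Nd → ℝ)} (ht : 0 < t) (hx : x ∈ Cel γ δ C t) (q : Nd) :
    t ^ γ * av q x.1 ≤ x.2 q := by
  obtain ⟨n, a, b, w, u, c, ξ, h, h1, h2⟩ := hx
  rw [h1, h2]
  have h3 : 0 ≤ t ^ γ := (Real.rpow_pos_of_pos ht _).le
  have h4 : 0 ≤ t ^ δ := (Real.rpow_pos_of_pos ht _).le
  refine mul_le_mul_of_nonneg_left ?_ h3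
  have := av_cph_le h ξ q
  linarith

/-- a cell of scale `n` is a cell of scale `n' ≥ n`, height `H n'/n` -/
theorem CellD.scale {n n' : ℕ} {a b : ℤ} {H : ℝ} {w : ℤ → ℝ} {u c : ℤ → ℂ}
    (h : CellD n a b H w u c) (hn : n ≤ n') (hw : ∀ s, s ∉ Finset.Ico a (a + (n : ℤ)) → w s = 0) :
    CellD n' a b (H * (n' / n)) w u c := by
  have hn0 : (0 : ℝ) < n := by exact_mod_cast h.n0
  have hnn : (n : ℝ) ≤ n' := by exact_mod_cast hn
  have h1 : (1 : ℝ) ≤ n' / n := by rw [le_div_iff₀ hn0]; linarith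
  have hz : (n : ℤ) ≤ (n' : ℤ) := by exact_mod_cast hn
  refine ⟨lt_of_lt_of_le h.n0 hn, h.w0, fun s => ?_, ?_, h.u1, fun y => ?_, fun y hy => ?_⟩
  · have h2 := h.wH s
    calc (n' : ℝ) * w s = (n * w s) * (n' / n) := by field_simp
      _ ≤ H * (n' / n) := mul_le_mul_of_nonneg_right h2 (by positivity)
  · rw [← Finset.sum_subset (s₁ := Finset.Ico a (a + (n : ℤ)))]
    · exact h.w1
    · intro s hs
      rw [Finset.mem_Ico] at hs ⊢
      constructor <;> linarith [hs.1, hs.2]
    · intro s _ hs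
      exact hw s hs
  · refine (h.cH y).trans ?_
    have := h.H0
    nlinarith
  · refine h.supp y fun hy' => hy ?_
    rw [Finset.mem_Ico] at hy' ⊢
    constructor <;> linarith [hy'.1, hy'.2]

end Crest.Agent.R079.Cell37
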