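import Crest.Agent.R079.BAt_112
import Crest.Agent.R079.DicOp_679
import Crest.Agent.R079.TStg_853

/-! R079, RuleS assembly (n4) (helper112): masses in BOUNDED atoms (`BAt112.RepB`).

`repB_bdd` : atoms with bounded kernels; `repB3`, `repB_opT` : op-test functions (any vertex, two
independent heights); `BPl γ` : bounded atoms at price `t ^ γ j`; `FamB` : admissible families with
bounded mass; `fam_of_famB`, `FamB.union`; `HB` of the generated dictionary `TStg853.DG`. -/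

set_option autoImplicit false
set_option linter.unusedVariables false

namespace Crest.Agent.R079.DicB112

open Finset Crest.Agent.R079.Grid Crest.Agent.R079.Glue Crest.Agent.R079.Growth
  Crest.Agent.R079.QRed Crest.Agent.R079.BAt112 Crest.Agent.R079.TFrz679
  Crest.Agent.R079.Dic679 Crest.Agent.R079.DicOp679

theorem n2_le {T T' : Finset ℤ} {a : ℤ → ℤ → ℂ} (h : ∀ z z', ‖a z z'‖ ≤ 1) {L : ℝ}
    (hL : (T.card : ℝ) * T'.card ≤ L) : n2 T T' a ≤ L := by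
  unfold n2
  calc ∑ z ∈ T, ∑ z' ∈ T', ‖a z z'‖ ^ 2 ≤ ∑ z ∈ T, ∑ z' ∈ T', (1 : ℝ) := by
        refine Finset.sum_le_sum fun z _ => Finset.sum_le_sum fun z' _ => ?_
        exact pow_le_one₀ (norm_nonneg _) (h z z')
    _ = (T.card : ℝ) * T'.card := by simp
    _ ≤ L := hL

/-- normalised kernel -/
noncomputable def nk (T T' : Finset ℤ) (a : ℤ → ℤ → ℂ) (h : ℝ) (z z' : ℤ) : ℂ :=
  cut T T' a z z' / (h : ℂ)

theorem nk_le {T T' : Finset ℤ} {a : ℤ → ℤ → ℂ} {h : ℝ} (h0 : 0 ≤ h)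
    (ha : ∀ z ∈ T, ∀ z' ∈ T', ‖a z z'‖ ≤ h) (z z' : ℤ) : ‖nk T T' a h z z'‖ ≤ 1 := by
  unfold nk cut
  rw [norm_div, Complex.norm_real, Real.norm_of_nonneg h0]
  split_ifs with hz
  · exact div_le_one_of_le₀ (ha z hz.1 z' hz.2) h0
  · simp

theorem nk_eq {T T' : Finset ℤ} {a : ℤ → ℤ → ℂ} {h : ℝ} (h0 : 0 ≤ h)
    (ha : ∀ z ∈ T, ∀ z' ∈ T', ‖a z z'‖ ≤ h) {z z' : ℤ} (hz : z ∈ T) (hz' : z' ∈ T') :
    a z z' = (h : ℂ) * nk T T' a h z z' := by
  unfold nk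
  rw [cut_on hz hz']
  rcases eq_or_lt_of_le h0 with h1 | h1
  · have := ha z hz z' hz'
    rw [← h1] at this
    have h2 : a z z' = 0 := norm_le_zero_iff.1 this
    rw [h2]; simp
  · have : (h : ℂ) ≠ 0 := by exact_mod_cast h1.ne'
    field_simp

/-- **atoms with bounded kernels are multiples of bounded atoms** -/
theorem repB_bdd {j : Fin 4} {κ : ℝ} (hκ : 0 ≤ κ) {T : Fin 3 → Finset ℤ} {a b c : ℤ → ℤ → ℂ}
    {ha hb hc : ℝ} (ha0 : 0 ≤ ha) (hb0 : 0 ≤ hb) (hc0 : 0 ≤ hc)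
    (h0 : ∀ z ∈ T 0, ∀ z' ∈ T 1, ‖a z z'‖ ≤ ha) (h1 : ∀ z ∈ T 1, ∀ z' ∈ T 2, ‖b z z'‖ ≤ hb)
    (h2 : ∀ z ∈ T 2, ∀ z' ∈ T 0, ‖c z z'‖ ≤ hc) {L : ℝ} (hL : 0 < L)
    (l0 : ((T 0).card : ℝ) * (T 1).card ≤ L) (l1 : ((T 1).card : ℝ) * (T 2).card ≤ L)
    (l2 : ((T 2).card : ℝ) * (T 0).card ≤ L) {M : ℝ} (h : κ * L * (ha * hb * hc) ≤ M) (p : Nd) :
    RepB j p (atom j κ T a b c) M := by
  refine RepB.of_bat (φ := atom j (1 / L) T (nk (T 0) (T 1) a ha) (nk (T 1) (T 2) b hb)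
    (nk (T 2) (T 0) c hc)) ⟨1 / L, by positivity, T, _, _, _, ⟨nk_le ha0 h0, nk_le hb0 h1,
      nk_le hc0 h2, ?_, ?_, ?_, fun y => rfl⟩⟩ ((κ * L * (ha * hb * hc) : ℝ) : ℂ) ?_ p
      (fun y _ => ?_)
  · rw [div_mul_eq_mul_div, one_mul]
    exact div_le_one_of_le₀ (n2_le (nk_le ha0 h0) l0) hL.le
  · rw [div_mul_eq_mul_div, one_mul]
    exact div_le_one_of_le₀ (n2_le (nk_le hb0 h1) l1) hL.le
  · rw [div_mul_eq_mul_div, one_mul]
    exact div_le_one_of_le₀ (n2_le (nk_le hc0 h2) l2) hL.le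
  · rw [Complex.norm_real, Real.norm_of_nonneg (by positivity)]
    exact h
  · unfold atom
    have e1 : ∑ z0 ∈ T 0, ∑ z1 ∈ T 1, ∑ z2 ∈ T 2,
        (if cf j 0 * z0 + cf j 1 * z1 + cf j 2 * z2 = y then a z0 z1 * b z1 z2 * c z2 z0 else 0) =
        ((ha * hb * hc : ℝ) : ℂ) * ∑ z0 ∈ T 0, ∑ z1 ∈ T 1, ∑ z2 ∈ T 2,
        (if cf j 0 * z0 + cf j 1 * z1 + cf j 2 * z2 = y then nk (T 0) (T 1) a ha z0 z1 *
          nk (T 1) (T 2) b hb z1 z2 * nk (T 2) (T 0) c hc z2 z0 else 0) := by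
      simp only [Finset.mul_sum]
      refine Finset.sum_congr rfl fun z0 hz0 => Finset.sum_congr rfl fun z1 hz1 =>
        Finset.sum_congr rfl fun z2 hz2 => ?_
      rw [mul_ite, mul_zero]
      refine if_congr Iff.rfl ?_ rfl
      rw [nk_eq ha0 h0 hz0 hz1, nk_eq hb0 h1 hz1 hz2, nk_eq hc0 h2 hz2 hz0]
      push_cast
      ring
    rw [e1]
    have hL' : (L : ℂ) ≠ 0 := by exact_mod_cast hL.ne'
    push_cast
    field_simp

set_option maxHeartbeats 2000000 in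
/-- three-fold sum with an arbitrary vertex: bounded mass -/
theorem repB3 {k : Fin 4} (i0 i1 i2 : Fin 3) (h01 : i0 ≠ i1) (h02 : i0 ≠ i2) (h12 : i1 ≠ i2)
    (Tj Te Te' : Finset ℤ) {n : ℕ} (hn : 0 < n) (cj : Tj.card ≤ n) (ce : Te.card ≤ n)
    (ce' : Te'.card ≤ n) (m U V : ℤ → ℤ → ℂ) {HU HV κ M : ℝ} (hκ : 0 ≤ κ) (hHU : 0 ≤ HU)
    (hHV : 0 ≤ HV) (hm : ∀ z z', ‖m z z'‖ ≤ 1)
    (hU : ∀ z z', ‖U z z'‖ ≤ HU) (hV : ∀ z z', ‖V z z'‖ ≤ HV)
    (hMM : κ * ((n : ℝ) ^ 2 * (HU * HV)) ≤ M) (p : Nd) :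
    RepB k p (fun y => (κ : ℂ) * ∑ zj ∈ Tj, ∑ ze ∈ Te, ∑ ze' ∈ Te',
      if cf k i0 * zj + cf k i1 * ze + cf k i2 * ze' = y then m ze ze' * U zj ze * V zj ze'
      else 0) M := by
  have hL : (0 : ℝ) < (n : ℝ) ^ 2 := by positivity
  have hcc : ∀ S S' : Finset ℤ, S.card ≤ n → S'.card ≤ n → (S.card : ℝ) * S'.card ≤ (n : ℝ) ^ 2 := by
    intro S S' h h'
    have h1 : (S.card : ℝ) ≤ n := by exact_mod_cast h
    have h2 : (S'.card : ℝ) ≤ n := by exact_mod_cast h'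
    rw [sq]
    exact mul_le_mul h1 h2 (by positivity) (by positivity)
  have hb1 : κ * (n : ℝ) ^ 2 * (HU * 1 * HV) ≤ M := by
    refine le_trans (le_of_eq ?_) hMM; ring
  have hb1' : κ * (n : ℝ) ^ 2 * (HV * 1 * HU) ≤ M := by
    refine le_trans (le_of_eq ?_) hMM; ring
  have hb2 : κ * (n : ℝ) ^ 2 * (HU * HV * 1) ≤ M := by
    refine le_trans (le_of_eq ?_) hMM; ring
  have hb2' : κ * (n : ℝ) ^ 2 * (HV * HU * 1) ≤ M := by
    refine le_trans (le_of_eq ?_) hMM; ring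
  have hb3 : κ * (n : ℝ) ^ 2 * (1 * HV * HU) ≤ M := by
    refine le_trans (le_of_eq ?_) hMM; ring
  have hb3' : κ * (n : ℝ) ^ 2 * (1 * HU * HV) ≤ M := by
    refine le_trans (le_of_eq ?_) hMM; ring
  have key : ∀ {f g : Fn}, (∀ y, f y = g y) → RepB k p g M → RepB k p f M := by
    intro f g hfg hg
    have : f = g := funext hfg
    rw [this]; exact hg
  fin_cases i0 <;> fin_cases i1 <;> fin_cases i2 <;>
    first
    | exact absurd rfl h01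
    | exact absurd rfl h02
    | exact absurd rfl h12
    | skip
  · -- (0,1,2)
    refine key (g := atom k κ ![Tj, Te, Te'] (fun z0 z1 => U z0 z1) (fun z1 z2 => m z1 z2)
      (fun z2 z0 => V z0 z2)) (fun y => ?_) (repB_bdd hκ hHU zero_le_one hHV ?_ ?_ ?_ hL
        (hcc _ _ cj ce) (hcc _ _ ce ce') (hcc _ _ ce' cj) hb1 p)
    · unfold atom
      congr 1
      refine Finset.sum_congr rfl fun a _ => Finset.sum_congr rfl fun b _ =>
        Finset.sum_congr rfl fun c _ => ?_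
      refine if_congr (by constructor <;> intro h <;> (simp at h ⊢; linarith)) (by ring) rfl
    · exact fun _ _ _ _ => hU _ _
    · exact fun _ _ _ _ => hm _ _
    · exact fun _ _ _ _ => hV _ _
  · -- (0,2,1)
    refine key (g := atom k κ ![Tj, Te', Te] (fun z0 z1 => V z0 z1) (fun z1 z2 => m z2 z1)
      (fun z2 z0 => U z0 z2)) (fun y => ?_) (repB_bdd hκ hHV zero_le_one hHU ?_ ?_ ?_ hL
        (hcc _ _ cj ce') (hcc _ _ ce' ce) (hcc _ _ ce cj) hb1' p)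
    · unfold atom
      congr 1
      refine Finset.sum_congr rfl fun a _ => ?_
      rw [Finset.sum_comm]
      refine Finset.sum_congr rfl fun b _ => Finset.sum_congr rfl fun c _ => ?_
      refine if_congr (by constructor <;> intro h <;> (simp at h ⊢; linarith)) (by ring) rfl
    · exact fun _ _ _ _ => hV _ _
    · exact fun _ _ _ _ => hm _ _
    · exact fun _ _ _ _ => hU _ _
  · -- (1,0,2)
    refine key (g := atom k κ ![Te, Tj, Te'] (fun z0 z1 => U z1 z0) (fun z1 z2 => V z1 z2)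
      (fun z2 z0 => m z0 z2)) (fun y => ?_) (repB_bdd hκ hHU hHV zero_le_one ?_ ?_ ?_ hL
        (hcc _ _ ce cj) (hcc _ _ cj ce') (hcc _ _ ce' ce) hb2 p)
    · unfold atom
      congr 1
      rw [Finset.sum_comm]
      refine Finset.sum_congr rfl fun a _ => Finset.sum_congr rfl fun b _ =>
        Finset.sum_congr rfl fun c _ => ?_
      refine if_congr (by constructor <;> intro h <;> (simp at h ⊢; linarith)) (by ring) rfl
    · exact fun _ _ _ _ => hU _ _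
    · exact fun _ _ _ _ => hV _ _
    · exact fun _ _ _ _ => hm _ _
  · -- (1,2,0)
    refine key (g := atom k κ ![Te', Tj, Te] (fun z0 z1 => V z1 z0) (fun z1 z2 => U z1 z2)
      (fun z2 z0 => m z2 z0)) (fun y => ?_) (repB_bdd hκ hHV hHU zero_le_one ?_ ?_ ?_ hL
        (hcc _ _ ce' cj) (hcc _ _ cj ce) (hcc _ _ ce ce') hb2' p)
    · unfold atom
      congr 1
      have e1 : ∀ (G : ℤ → ℤ → ℤ → ℂ), ∑ a ∈ Tj, ∑ b ∈ Te, ∑ c ∈ Te', G a b c =
          ∑ c ∈ Te', ∑ a ∈ Tj, ∑ b ∈ Te, G a b c := by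
        intro G
        rw [Finset.sum_comm]
        rw [Finset.sum_congr rfl fun b _ => Finset.sum_comm]
        rw [Finset.sum_comm]
        refine Finset.sum_congr rfl fun c _ => ?_
        rw [Finset.sum_comm]
      rw [e1]
      refine Finset.sum_congr rfl fun a _ => Finset.sum_congr rfl fun b _ =>
        Finset.sum_congr rfl fun c _ => ?_
      refine if_congr (by constructor <;> intro h <;> (simp at h ⊢; linarith)) (by ring) rfl
    · exact fun _ _ _ _ => hV _ _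
    · exact fun _ _ _ _ => hU _ _
    · exact fun _ _ _ _ => hm _ _
  · -- (2,0,1)
    refine key (g := atom k κ ![Te, Te', Tj] (fun z0 z1 => m z0 z1) (fun z1 z2 => V z2 z1)
      (fun z2 z0 => U z2 z0)) (fun y => ?_) (repB_bdd hκ zero_le_one hHV hHU ?_ ?_ ?_ hL
        (hcc _ _ ce ce') (hcc _ _ ce' cj) (hcc _ _ cj ce) hb3 p)
    · unfold atom
      congr 1
      have e1 : ∀ (G : ℤ → ℤ → ℤ → ℂ), ∑ a ∈ Tj, ∑ b ∈ Te, ∑ c ∈ Te', G a b c =
          ∑ b ∈ Te, ∑ c ∈ Te', ∑ a ∈ Tj, G a b c := by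
        intro G
        rw [Finset.sum_comm]
        refine Finset.sum_congr rfl fun b _ => ?_
        rw [Finset.sum_comm]
      rw [e1]
      refine Finset.sum_congr rfl fun a _ => Finset.sum_congr rfl fun b _ =>
        Finset.sum_congr rfl fun c _ => ?_
      refine if_congr (by constructor <;> intro h <;> (simp at h ⊢; linarith)) (by ring) rfl
    · exact fun _ _ _ _ => hm _ _
    · exact fun _ _ _ _ => hV _ _
    · exact fun _ _ _ _ => hU _ _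
  · -- (2,1,0)
    refine key (g := atom k κ ![Te', Te, Tj] (fun z0 z1 => m z1 z0) (fun z1 z2 => U z2 z1)
      (fun z2 z0 => V z2 z0)) (fun y => ?_) (repB_bdd hκ zero_le_one hHU hHV ?_ ?_ ?_ hL
        (hcc _ _ ce' ce) (hcc _ _ ce cj) (hcc _ _ cj ce') hb3' p)
    · unfold atom
      congr 1
      have e1 : ∀ (G : ℤ → ℤ → ℤ → ℂ), ∑ a ∈ Tj, ∑ b ∈ Te, ∑ c ∈ Te', G a b c =
          ∑ c ∈ Te', ∑ b ∈ Te, ∑ a ∈ Tj, G a b c := by
        intro G
        rw [Finset.sum_comm]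
        rw [Finset.sum_congr rfl fun b _ => Finset.sum_comm]
        rw [Finset.sum_comm]
      rw [e1]
      refine Finset.sum_congr rfl fun a _ => Finset.sum_congr rfl fun b _ =>
        Finset.sum_congr rfl fun c _ => ?_
      refine if_congr (by constructor <;> intro h <;> (simp at h ⊢; linarith)) (by ring) rfl
    · exact fun _ _ _ _ => hm _ _
    · exact fun _ _ _ _ => hU _ _
    · exact fun _ _ _ _ => hV _ _

/-- **bounded mass of an op-test function** (no condition on the weights, only heights) -/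
theorem repB_opT {k j e e' : Fin 4} (hjk : j ≠ k) (hje : j ≠ e) (hje' : j ≠ e') (hke : k ≠ e)
    (hke' : k ≠ e') (hee' : e ≠ e') {n : ℕ} {m : ℤ → ℤ → ℂ} {U V : Fin n → Fin n → ℂ}
    (hm : ∀ z z', ‖m z z'‖ ≤ 1) (w q u : ℤ) {HU HV κ M : ℝ} (hκ : 0 ≤ κ)
    (hHU : 0 ≤ HU) (hHV : 0 ≤ HV) (hU : ∀ c i, ‖U c i‖ ≤ HU) (hV : ∀ c i, ‖V c i‖ ≤ HV)
    (hMM : κ * ((n : ℝ) ^ 2 * (HU * HV)) ≤ M) (p : Nd) :
    RepB k p (fun y => (κ : ℂ) * opT k j e e' n w q u m U V y) M := by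
  rcases Nat.eq_zero_or_pos n with hn | hn
  · subst hn
    refine RepB.of_bat (BAt.pt k 0) 0 (by simpa using hMM) p fun y _ => ?_
    simp [opT]
  obtain ⟨i0, rfl⟩ := Fin.exists_succAbove_eq hjk
  obtain ⟨i1, rfl⟩ := Fin.exists_succAbove_eq (Ne.symm hke)
  obtain ⟨i2, rfl⟩ := Fin.exists_succAbove_eq (Ne.symm hke')
  have h01 : i0 ≠ i1 := fun hh => hje (by rw [hh])
  have h02 : i0 ≠ i2 := fun hh => hje' (by rw [hh])
  have h12 : i1 ≠ i2 := fun hh => hee' (by rw [hh])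
  have hcard : ∀ w : ℤ, (Finset.Ico w (w + (n : ℤ))).card ≤ n := by
    intro w; simp
  have := repB3 (k := k) i0 i1 i2 h01 h02 h12 (Finset.Ico w (w + (n : ℤ)))
    (Finset.Ico q (q + (n : ℤ))) (Finset.Ico u (u + (n : ℤ))) hn (hcard w) (hcard q) (hcard u)
    m (ext w q U) (ext w u V) hκ hHU hHV hm (ext_le w q U hHU hU) (ext_le w u V hHV hV) hMM p
  have hfun : (fun y => (κ : ℂ) * opT k (k.succAbove i0) (k.succAbove i1) (k.succAbove i2) n w q u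
      m U V y) = (fun y => (κ : ℂ) * ∑ zj ∈ Finset.Ico w (w + (n : ℤ)),
        ∑ ze ∈ Finset.Ico q (q + (n : ℤ)), ∑ ze' ∈ Finset.Ico u (u + (n : ℤ)),
      if cf k i0 * zj + cf k i1 * ze + cf k i2 * ze' = y then
        m ze ze' * ext w q U zj ze * ext w u V zj ze' else 0) := by
    funext y
    congr 1
    unfold opT
    rw [sum_Ico_fin]
    refine Finset.sum_congr rfl fun c _ => ?_
    rw [sum_Ico_fin]
    refine Finset.sum_congr rfl fun i _ => ?_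
    rw [sum_Ico_fin]
    refine Finset.sum_congr rfl fun i' _ => ?_
    rw [ext_val, ext_val]
    rfl
  rw [hfun]
  exact this

theorem RepB.conj {j : Fin 4} {p : Nd} {f : Fn} {M : ℝ} (h : RepB j p f M) :
    RepB j p (fun y => (starRingEnd ℂ) (f y)) M := by
  obtain ⟨n, φ, c, h1, h2, h3⟩ := h
  refine ⟨n, fun i y => (starRingEnd ℂ) (φ i y), fun i => (starRingEnd ℂ) (c i),
    fun i => (h1 i).conj, fun y hy => ?_, ?_⟩
  · show (starRingEnd ℂ) (f y) = _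
    rw [h2 y hy, map_sum]
    exact Finset.sum_congr rfl fun i _ => map_mul _ _ _
  · simpa only [RCLike.norm_conj] using h3

theorem RepB.cmul {j : Fin 4} {p : Nd} {f : Fn} {M : ℝ} (h : RepB j p f M) (z : ℂ) :
    RepB j p (fun y => z * f y) (‖z‖ * M) := by
  obtain ⟨n, φ, c, h1, h2, h3⟩ := h
  refine ⟨n, φ, fun i => z * c i, h1, fun y hy => ?_, ?_⟩
  · show z * f y = _
    rw [h2 y hy, Finset.mul_sum]
    exact Finset.sum_congr rfl fun i _ => by ring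
  · calc ∑ i, ‖z * c i‖ = ‖z‖ * ∑ i, ‖c i‖ := by
          rw [Finset.mul_sum]; exact Finset.sum_congr rfl fun i _ => norm_mul _ _
      _ ≤ _ := mul_le_mul_of_nonneg_left h3 (norm_nonneg _)

theorem RepB.cmul_le {j : Fin 4} {p : Nd} {f : Fn} {M : ℝ} (hM : 0 ≤ M) (h : RepB j p f M) {c : ℝ}
    (hc : 0 ≤ c) (hc1 : c ≤ 1) : RepB j p (fun y => (c : ℂ) * f y) M := by
  refine (RepB.cmul h (c : ℂ)).mono ?_
  rw [Complex.norm_real, Real.norm_of_nonneg hc]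
  exact mul_le_of_le_one_left hM hc1

theorem RepB.zero {j : Fin 4} {p : Nd} {M : ℝ} (hM : 0 ≤ M) : RepB j p (fun _ => 0) M :=
  ⟨0, Fin.elim0, Fin.elim0, fun i => i.elim0, fun y _ => by simp, by simpa using hM⟩

theorem RepB.add {j : Fin 4} {p : Nd} {f g : Fn} {M M' : ℝ} (h : RepB j p f M)
    (h' : RepB j p g M') : RepB j p (fun y => f y + g y) (M + M') := by
  obtain ⟨n, φ, c, h1, h2, h3⟩ := h
  obtain ⟨n', φ', c', h1', h2', h3'⟩ := h'
  refine ⟨n + n', Fin.append φ φ', Fin.append c c', fun i => ?_, fun y hy => ?_, ?_⟩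
  · refine Fin.addCases (fun i => ?_) (fun i => ?_) i
    · rw [Fin.append_left]; exact h1 i
    · rw [Fin.append_right]; exact h1' i
  · show f y + g y = _
    rw [h2 y hy, h2' y hy, Fin.sum_univ_add]
    simp only [Fin.append_left, Fin.append_right]
  · rw [Fin.sum_univ_add]
    simp only [Fin.append_left, Fin.append_right]
    linarith

/-! ### admissible families with bounded mass -/

/-- admissible family: sup `≤ t⁻¹`, mass `≤ A t^(-C)` in BOUNDED atoms -/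
structure FamB (S : Fin 4 → ℝ → Set Fn) : Prop where
  sup : ∀ j, j ≠ 3 → ∀ t, 0 < t → t ≤ 1 → ∀ φ ∈ S j t, ∀ y, ‖φ y‖ ≤ t⁻¹
  mass : ∃ A C : ℝ, 0 ≤ A ∧ 0 ≤ C ∧ ∀ j, j ≠ 3 → ∀ t, 0 < t → t ≤ 1 → ∀ φ ∈ S j t, ∀ p : Nd,
    RepB j p φ (A * t ^ (-C))

theorem FamB.fam {S : Fin 4 → ℝ → Set Fn} (h : FamB S) : Fam S := by
  obtain ⟨A, C, hA, hC, hm⟩ := h.mass
  exact ⟨h.sup, A, C, hA, hC, fun j hj t ht ht1 φ hφ p => (hm j hj t ht ht1 φ hφ p).rep⟩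

theorem FamB.union {S S' : Fin 4 → ℝ → Set Fn} (h : FamB S) (h' : FamB S') :
    FamB (fun j t => S j t ∪ S' j t) := by
  refine ⟨?_, ?_⟩
  · rintro j hj t ht ht1 φ (hφ | hφ) y
    · exact h.sup j hj t ht ht1 φ hφ y
    · exact h'.sup j hj t ht ht1 φ hφ y
  · obtain ⟨A, C, hA, hC, hm⟩ := h.mass
    obtain ⟨A', C', hA', hC', hm'⟩ := h'.mass
    refine ⟨A + A', C + C', by positivity, by positivity, ?_⟩
    rintro j hj t ht ht1 φ (hφ | hφ) p
    · refine (hm j hj t ht ht1 φ hφ p).mono ?_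
      have e1 : t ^ (-C) ≤ t ^ (-(C + C')) :=
        Real.rpow_le_rpow_of_exponent_ge ht ht1 (by linarith)
      have e2 : 0 ≤ A' * t ^ (-(C + C')) := by positivity
      have e3 := mul_le_mul_of_nonneg_left e1 hA
      linarith
    · refine (hm' j hj t ht ht1 φ hφ p).mono ?_
      have e1 : t ^ (-C') ≤ t ^ (-(C + C')) :=
        Real.rpow_le_rpow_of_exponent_ge ht ht1 (by linarith)
      have e2 : 0 ≤ A * t ^ (-(C + C')) := by positivity
      have e3 := mul_le_mul_of_nonneg_left e1 hA'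
      linarith

theorem FamB.empty : FamB (fun _ _ => (∅ : Set Fn)) := by
  refine ⟨?_, ⟨0, 0, le_rfl, le_rfl, ?_⟩⟩
  · rintro j hj t ht ht1 φ hφ
    exact absurd hφ (Set.notMem_empty φ)
  · rintro j hj t ht ht1 φ hφ
    exact absurd hφ (Set.notMem_empty φ)

/-- bounded atoms at price `t ^ γ j` -/
def BPl (γ : Fin 4 → ℝ) (j : Fin 4) (t : ℝ) : Set Fn :=
  {φ | ∃ ψ, BAt j ψ ∧ φ = fun y => ((t ^ (-(γ j)) : ℝ) : ℂ) * ψ y}

theorem famB_BPl {γ : Fin 4 → ℝ} (hγ1 : ∀ j, γ j ≤ 1) : FamB (BPl γ) := by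
  have hQa : Qa := Crest.Agent.R079.Qa246.qa
  have hb : ∀ (j : Fin 4) (t : ℝ), 0 < t → t ≤ 1 → t ^ (-(γ j)) ≤ t⁻¹ := by
    intro j t ht ht1
    rw [← Real.rpow_neg_one]
    exact Real.rpow_le_rpow_of_exponent_ge ht ht1 (by linarith [hγ1 j])
  refine ⟨?_, ⟨1, 1, zero_le_one, zero_le_one, ?_⟩⟩
  · rintro j hj t ht ht1 φ ⟨ψ, hψ, rfl⟩ y
    show ‖((t ^ (-(γ j)) : ℝ) : ℂ) * ψ y‖ ≤ _
    rw [norm_mul, Complex.norm_real, Real.norm_of_nonneg (by positivity)]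
    calc t ^ (-(γ j)) * ‖ψ y‖ ≤ t ^ (-(γ j)) * 1 :=
          mul_le_mul_of_nonneg_left (hQa j ψ hψ.isAtom y) (by positivity)
      _ ≤ t⁻¹ := by rw [mul_one]; exact hb j t ht ht1
  · rintro j hj t ht ht1 φ ⟨ψ, hψ, rfl⟩ p
    refine RepB.of_bat hψ ((t ^ (-(γ j)) : ℝ) : ℂ) ?_ p fun y _ => rfl
    rw [Complex.norm_real, Real.norm_of_nonneg (by positivity), one_mul, Real.rpow_neg_one]
    exact hb j t ht ht1

theorem famB_Pt : FamB TStg853.Pt := by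
  refine ⟨?_, ⟨1, 1, zero_le_one, zero_le_one, ?_⟩⟩
  · rintro j hj t ht ht1 φ ⟨z, rfl⟩ y
    show ‖(if y = z then ((t : ℂ))⁻¹ else 0)‖ ≤ t⁻¹
    split_ifs
    · rw [norm_inv, Complex.norm_real, Real.norm_of_nonneg ht.le]
    · rw [norm_zero]; positivity
  · rintro j hj t ht ht1 φ ⟨z, rfl⟩ p
    refine RepB.of_bat (BAt.pt j z) ((t : ℂ)⁻¹) ?_ p fun y _ => ?_
    · rw [norm_inv, Complex.norm_real, Real.norm_of_nonneg ht.le, one_mul, Real.rpow_neg_one]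
    · simp

/-- the op-test family has bounded mass -/
theorem famB_opF {γ C : ℝ} (hγ : γ ≤ 1) (hC : 0 ≤ C) : FamB (OpF γ C) := by
  refine ⟨(fam_opF hγ hC).sup, ⟨1, 1 + 2 * C, zero_le_one, by linarith, ?_⟩⟩
  rintro k hk t ht ht1 φ ⟨j, e, e', n, w, q, u, m, U, V, α, hD, hU, hV, rfl⟩ p
  have hg : t ^ (-γ) ≤ t⁻¹ := by
    rw [← Real.rpow_neg_one]
    exact Real.rpow_le_rpow_of_exponent_ge ht ht1 (by linarith)
  have ht0 : 0 ≤ t ^ (-γ) := (Real.rpow_pos_of_pos ht _).le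
  have hH0 : 0 ≤ t ^ (-C) := (Real.rpow_pos_of_pos ht _).le
  refine repB_opT hD.jk hD.je hD.je' hD.ke hD.ke' hD.ee' hD.m1 w q u (by positivity) hH0 hH0 hU hV
    ?_ p
  have e1 : t ^ (-γ) * (t ^ (-C)) ^ 2 ≤ 1 * t ^ (-(1 + 2 * C)) := by
    have e2 : t ^ (-(1 + 2 * C)) = t⁻¹ * (t ^ (-C)) ^ 2 := by
      rw [← Real.rpow_neg_one, ← Real.rpow_natCast (t ^ (-C)) 2, ← Real.rpow_mul ht.le,
        ← Real.rpow_add ht]
      congr 1
      push_cast; ring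
    rw [one_mul, e2]
    exact mul_le_mul_of_nonneg_right hg (by positivity)
  refine le_trans ?_ e1
  rcases Nat.eq_zero_or_pos n with hn | hn
  · subst hn
    have : 0 ≤ t ^ (-γ) * (t ^ (-C)) ^ 2 := by positivity
    simpa using this
  · have hn' : (0 : ℝ) < n := by exact_mod_cast hn
    refine le_of_eq ?_
    field_simp

/-- **(B) for the generated dictionary** -/
theorem hB_DG {G : Fin 4 → ℝ → Set Fn} (hG : FamB G) : ∃ A C : ℝ, 0 ≤ A ∧ 0 ≤ C ∧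
    HB (TStg853.DG G) A C := by
  obtain ⟨A, C, hA, hC, hm⟩ := hG.mass
  refine ⟨A, C, hA, hC, ?_⟩
  rintro j hj t ht ht1 φ ⟨-, s, hts, hs1, ψ, hψ, c, hc, hc1, hφ⟩ p
  have hs : 0 < s := lt_of_lt_of_le ht hts
  have hM0 : 0 ≤ A * t ^ (-C) := by positivity
  have h1 : RepB j p ψ (A * t ^ (-C)) := by
    refine (hm j hj s hs hs1 ψ hψ p).mono ?_
    have h2 : s ^ (-C) ≤ t ^ (-C) := Real.rpow_le_rpow_of_nonpos ht hts (by linarith)
    exact mul_le_mul_of_nonneg_left h2 hA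
  rcases hφ with rfl | rfl
  · exact RepB.cmul_le hM0 h1 hc hc1
  · exact RepB.cmul_le hM0 (RepB.conj h1) hc hc1

/-- the dictionary generated by bounded atoms at prices `t ^ γ j`, point masses and `S` -/
def DGB (γ : Fin 4 → ℝ) (S : Fin 4 → ℝ → Set Fn) : TRec.Dict :=
  TStg853.DG (fun j t => (BPl γ j t ∪ TStg853.Pt j t) ∪ S j t)

theorem famB_all {γ : Fin 4 → ℝ} (hγ1 : ∀ j, γ j ≤ 1) {S : Fin 4 → ℝ → Set Fn} (hS : FamB S) :
    FamB (fun j t => (BPl γ j t ∪ TStg853.Pt j t) ∪ S j t) :=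
  ((famB_BPl hγ1).union famB_Pt).union hS

theorem dic_DGB {γ : Fin 4 → ℝ} (hγ1 : ∀ j, γ j ≤ 1) {S : Fin 4 → ℝ → Set Fn} (hS : FamB S) :
    TRec.Dic (DGB γ S) 0 :=
  TStg853.dic_DG (famB_all hγ1 hS).fam fun _ _ _ _ _ y => Or.inl (Or.inr ⟨y, rfl⟩)

theorem frzBd_DGB {γ : Fin 4 → ℝ} (hγ1 : ∀ j, γ j ≤ 1) {S : Fin 4 → ℝ → Set Fn} (hS : FamB S)
    {k q3 : ℝ} (hk : 0 ≤ k) (hq3 : 2 ≤ q3) : TRec.FrzBd (DGB γ S) k q3 :=
  TStg853.frzBd_DG (famB_all hγ1 hS).fam hk hq3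

theorem hB_DGB {γ : Fin 4 → ℝ} (hγ1 : ∀ j, γ j ≤ 1) {S : Fin 4 → ℝ → Set Fn} (hS : FamB S) :
    ∃ A C : ℝ, 0 ≤ A ∧ 0 ≤ C ∧ HB (DGB γ S) A C := hB_DG (famB_all hγ1 hS)

/-- level against a member of the extra family -/
theorem lv_mem {γ : Fin 4 → ℝ} {S : Fin 4 → ℝ → Set Fn} {j : Fin 4} (hj : j ≠ 3) {t : ℝ}
    (ht1 : t ≤ 1) {u : ℝ} {p : Nd} {g : Fn} (h : TRec.Lv (DGB γ S) j t u p g) {φ : Fn}
    (hφ : φ ∈ S j t) : ‖∑ y ∈ iv p, g y * φ y‖ ≤ u * len p :=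
  h φ (TStg853.mem_DG hj ht1 (Or.inr hφ))

/-- level against bounded atoms: `t ^ γ j` -/
theorem lv_bpl {γ : Fin 4 → ℝ} {S : Fin 4 → ℝ → Set Fn} {j : Fin 4} (hj : j ≠ 3) {t : ℝ}
    (ht : 0 < t) (ht1 : t ≤ 1) {u : ℝ} {p : Nd} {g : Fn} (h : TRec.Lv (DGB γ S) j t u p g) {φ : Fn}
    (hφ : BAt j φ) : ‖∑ y ∈ iv p, g y * φ y‖ ≤ u * t ^ (γ j) * len p := by
  have h1 := h (fun y => ((t ^ (-(γ j)) : ℝ) : ℂ) * φ y)
    (TStg853.mem_DG hj ht1 (Or.inl (Or.inl ⟨φ, hφ, rfl⟩)))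
  have h2 : ∑ y ∈ iv p, g y * (((t ^ (-(γ j)) : ℝ) : ℂ) * φ y) =
      ((t ^ (-(γ j)) : ℝ) : ℂ) * ∑ y ∈ iv p, g y * φ y := by
    rw [Finset.mul_sum]
    exact Finset.sum_congr rfl fun y _ => by ring
  rw [h2, norm_mul, Complex.norm_real, Real.norm_of_nonneg (by positivity), Real.rpow_neg ht.le,
    inv_mul_le_iff₀ (by positivity)] at h1
  linarith

/-- level against `RepB` functions -/
theorem lv_repB {γ : Fin 4 → ℝ} {S : Fin 4 → ℝ → Set Fn} {j : Fin 4} (hj : j ≠ 3) {t : ℝ}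
    (ht : 0 < t) (ht1 : t ≤ 1) {u : ℝ} (hu : 0 ≤ u) {p : Nd} {g : Fn}
    (h : TRec.Lv (DGB γ S) j t u p g) {φ : Fn} {M : ℝ} (hφ : RepB j p φ M) :
    ‖∑ y ∈ iv p, g y * φ y‖ ≤ u * t ^ (γ j) * M * len p := by
  obtain ⟨n, ψ, c, h1, h2, h3⟩ := hφ
  have e : ∑ y ∈ iv p, g y * φ y = ∑ i, c i * ∑ y ∈ iv p, g y * ψ i y := by
    rw [Finset.sum_congr rfl fun y hy => by rw [h2 y hy, Finset.mul_sum], Finset.sum_comm]
    refine Finset.sum_congr rfl fun i _ => ?_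
    rw [Finset.mul_sum]
    exact Finset.sum_congr rfl fun y _ => by ring
  rw [e]
  have hl : 0 ≤ len p := by unfold len; positivity
  calc ‖∑ i, c i * ∑ y ∈ iv p, g y * ψ i y‖ ≤ ∑ i, ‖c i‖ * (u * t ^ (γ j) * len p) := by
        refine (norm_sum_le _ _).trans (Finset.sum_le_sum fun i _ => ?_)
        rw [norm_mul]
        exact mul_le_mul_of_nonneg_left (lv_bpl hj ht ht1 h (h1 i)) (norm_nonneg _)
    _ = (∑ i, ‖c i‖) * (u * t ^ (γ j) * len p) := by rw [Finset.sum_mul]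
    _ ≤ M * (u * t ^ (γ j) * len p) := mul_le_mul_of_nonneg_right h3 (by positivity)
    _ = _ := by ring

end Crest.Agent.R079.DicB112
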