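import Crest.Agent.R079.Cell_37
import Crest.Agent.R079.DicB_112

/-! R079 (helper112): the mass of a CELL (helper37) in BOUNDED atoms. -/

set_option autoImplicit false

namespace Crest.Agent.R079.CellB112

open Finset Crest.Agent.R079.Grid Crest.Agent.R079.Glue Crest.Agent.R079.Growth
  Crest.Agent.R079.QRed Crest.Agent.R079.TFrz679 Crest.Agent.R079.Dic679 Crest.Agent.R079.DicOp679
  Crest.Agent.R079.Cell37 Crest.Agent.R079.BAt112 Crest.Agent.R079.DicB112

/-- **the mass of a cell in bounded atoms (every node, every slot)** -/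
theorem repB_cell {n : ℕ} {a b : ℤ} {H : ℝ} {w : ℤ → ℝ} {u c : ℤ → ℂ} (h : CellD n a b H w u c)
    (ξ : ℤ → ℝ) (j : Fin 4) (p : Nd) : RepB j p (cph n a w u c ξ) (768 * H ^ 2) := by
  have hH : 0 ≤ H := h.H0
  obtain ⟨i0, i1, i2, h01, h02, h12, hσ, hd, he3, hd3⟩ := exists_unit j
  set e := cf j i0 with he
  set σ := cf j i1 with hσd
  set d := cf j i2 with hdd
  have hn0 : (0 : ℝ) < n := by exact_mod_cast h.n0
  -- one class
  have hcl : ∀ r : Fin 3, RepB j p (fun y => ∑ s ∈ Finset.Ico a (a + (n : ℤ)),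
      if s % d = ((r : ℕ) : ℤ) then tm w u c ξ s y else 0) (256 * H ^ 2) := by
    intro r
    by_cases hr : ((r : ℕ) : ℤ) < |d|
    · have hfun : (fun y => ∑ s ∈ Finset.Ico a (a + (n : ℤ)),
          if s % d = ((r : ℕ) : ℤ) then tm w u c ξ s y else 0) = fun y =>
          ((1 / (n : ℝ) ^ 2 : ℝ) : ℂ) * ∑ z0 ∈ Finset.Ico (0 : ℤ) (16 * (n : ℤ)),
          ∑ z1 ∈ Finset.Ico (σ * b - 8 * (n : ℤ)) (σ * b + 8 * (n : ℤ)),
          ∑ z2 ∈ Finset.Ico (a / d - 8 * (n : ℤ)) (a / d + 8 * (n : ℤ)),
          (if cf j i0 * z0 + cf j i1 * z1 + cf j i2 * z2 = y then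
            kM ξ σ d r z1 z2 * kU n c e σ r z0 z1 * kV n a w u ξ e d r z0 z2 else 0) := by
        funext y
        exact (class_id h ξ he3 hσ hd hd3 (by positivity) hr y).symm
      rw [hfun]
      refine repB3 i0 i1 i2 h01 h02 h12 _ _ _ (n := 16 * n) (by have := h.n0; omega)
        (by rw [Int.card_Ico]; omega) ?_ ?_
        (kM ξ σ d r) (kU n c e σ r) (kV n a w u ξ e d r) (HU := H) (HV := H) (by positivity) hH hH
        ?_ ?_ ?_ ?_ p
      · rw [Int.card_Ico]; omega
      · rw [Int.card_Ico]; omega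
      · intro z z'
        exact (norm_ee _).le
      · intro z z'
        unfold kU
        split_ifs
        · exact h.cH _
        · simpa using hH
      · intro z z'
        unfold kV
        split_ifs
        · rw [norm_mul, norm_mul, norm_ee, mul_one, Complex.norm_real,
            Real.norm_of_nonneg (mul_nonneg hn0.le (h.w0 _))]
          calc (n : ℝ) * w (d * z' + ↑↑r) * ‖u (d * z' + ↑↑r)‖ ≤ H * 1 :=
                mul_le_mul (h.wH _) (h.u1 _) (norm_nonneg _) hH
            _ = H := mul_one H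
        · simpa using hH
      · push_cast
        refine le_of_eq ?_
        field_simp
        ring
    · have hfun : (fun y => ∑ s ∈ Finset.Ico a (a + (n : ℤ)),
          if s % d = ((r : ℕ) : ℤ) then tm w u c ξ s y else 0) = fun _ => 0 := by
        funext y
        refine Finset.sum_eq_zero fun s _ => ?_
        rw [if_neg]
        intro hs
        exact hr (hs ▸ Int.emod_lt_abs s hd)
      rw [hfun]
      exact RepB.zero (by positivity)
  have h3 : RepB j p (cph n a w u c ξ) (3 * (256 * H ^ 2)) := by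
    refine RepB.comb (n := 3) (c := fun _ => 1) (by positivity) hcl (by norm_num) ?_
    intro y _
    unfold cph
    simp only [one_mul]
    rw [Finset.sum_comm]
    refine Finset.sum_congr rfl fun s _ => ?_
    have h4 := Int.emod_nonneg s hd
    have h5 := Int.emod_lt_abs s hd
    have h6 : s % d = 0 ∨ s % d = 1 ∨ s % d = 2 := by omega
    rw [Fin.sum_univ_three]
    rcases h6 with h6 | h6 | h6 <;> simp [h6, tm]
  have : 3 * (256 * H ^ 2) = 768 * H ^ 2 := by ring
  rwa [this] at h3

/-- mass of the members of the family, relative to their cost -/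
theorem repB_cel {γ δ C t : ℝ} (ht : 0 < t) {x : Fn × (Nd → ℝ)} (hx : x ∈ Cel γ δ C t)
    (j : Fin 4) (p : Nd) : RepB j p x.1 (768 * t ^ (-(2 * C + γ + δ)) * x.2 p) := by
  have hf := cel_floor ht hx p
  obtain ⟨n, a, b, w, u, c, ξ, h, h1, h2⟩ := hx
  rw [h1]
  refine (repB_cell h ξ j p).mono ?_
  have h4 : (t ^ (-C)) ^ 2 = t ^ (-(2 * C + γ + δ)) * t ^ (γ + δ) := by
    rw [← Real.rpow_natCast (t ^ (-C)) 2, ← Real.rpow_mul ht.le, ← Real.rpow_add ht]
    congr 1
    push_cast; ring
  rw [h4, mul_assoc]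
  exact mul_le_mul_of_nonneg_left
    (mul_le_mul_of_nonneg_left hf (Real.rpow_pos_of_pos ht _).le) (by norm_num)

end Crest.Agent.R079.CellB112
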