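import Crest.Agent.R079.Cell_37

/-! R079, T2: KILLER FACTS FROM THE CELLS (helper37; note 852, 3(H2)).

* `LvC γ δ C t s q g`: level of `g` at the node `q` against the cells `Cel γ δ C t`;
* `acor q g h ξ = ∑_{y, y-h ∈ iv q} g(y) conj g(y-h) e(ξ y)`;
* `noncoll`: a function of level `s` at `q` (ANY height, `av q g ≤ A`) has
  `sup_ξ |acor q g h ξ| ≤ (s t^γ (t^δ + A) + A³ t^C/ε) len q` off `ε len q` shifts `h` (`ε ≥ 2 t^C`);
* `hankel_op`: the operator norm of `k (α x + β y)` on any box is at most the sup of the Fourier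
  transform of `k` (`α, β ≠ 0` integers). -/

set_option autoImplicit false

namespace Crest.Agent.R079.CellH237

open Finset Crest.Agent.R079.Grid Crest.Agent.R079.Glue Crest.Agent.R079.Growth
  Crest.Agent.R079.QRed Crest.Agent.R079.Cell37

/-- level against the cells at the node `q` -/
def LvC (γ δ C t s : ℝ) (q : Nd) (g : Fn) : Prop :=
  ∀ x ∈ Cel γ δ C t, ‖∑ y ∈ iv q, g y * x.1 y‖ ≤ s * x.2 q * len q

/-- the function `z ↦ g z conj (g (z-h))` on the interval of the node `q` -/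
noncomputable def cr (q : Nd) (g : Fn) (h : ℤ) (y : ℤ) : ℂ :=
  if y ∈ iv q ∧ y - h ∈ iv q then g y * (starRingEnd ℂ) (g (y - h)) else 0

/-- correlation at the shift `h` and the frequency `ξ` -/
noncomputable def acor (q : Nd) (g : Fn) (h : ℤ) (ξ : ℝ) : ℂ :=
  ∑ y ∈ iv q, cr q g h y * ee (ξ * (y : ℝ))

/-- length as a natural number -/
def Ln (q : Nd) : ℕ := 2 ^ (q.1 + 7)

theorem Ln_pos (q : Nd) : 0 < Ln q := by unfold Ln; positivity

theorem len_eq (q : Nd) : len q = (Ln q : ℝ) := by unfold len Ln; push_cast; rfl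

theorem iv_eq (q : Nd) : iv q = Finset.Ico (q.2 * (Ln q : ℤ)) (q.2 * (Ln q : ℤ) + (Ln q : ℤ)) := by
  unfold iv dI Ln
  push_cast
  congr 1
  ring

/-- Cauchy-Schwarz on a node -/
theorem l1_le {q : Nd} {g : Fn} {A : ℝ} (hA : av q g ≤ A) : ∑ y ∈ iv q, ‖g y‖ ≤ A * len q := by
  have hl : 0 < len q := QVar181.len_pos' q
  have hA0 : 0 ≤ A := (av_nonneg' q g).trans hA
  have h1 := Finset.sum_mul_sq_le_sq_mul_sq (iv q) (fun _ => (1 : ℝ)) (fun y => ‖g y‖)
  simp only [one_mul, one_pow, Finset.sum_const, nsmul_eq_mul, mul_one, QVar181.card_iv'] at h1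
  have h2 : ∑ y ∈ iv q, ‖g y‖ ^ 2 = av q g ^ 2 * len q := by
    rw [QVar181.av_sq]; field_simp
  rw [h2] at h1
  have h3 : av q g ^ 2 ≤ A ^ 2 := pow_le_pow_left₀ (av_nonneg' q g) hA 2
  have h4 : (∑ y ∈ iv q, ‖g y‖) ^ 2 ≤ (A * len q) ^ 2 := by
    refine h1.trans ?_
    calc len q * (av q g ^ 2 * len q) ≤ len q * (A ^ 2 * len q) := by gcongr
      _ = (A * len q) ^ 2 := by ring
  exact (sq_le_sq₀ (Finset.sum_nonneg fun _ _ => norm_nonneg _) (by positivity)).1 h4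

theorem l2_le {q : Nd} {g : Fn} {A : ℝ} (hA : av q g ≤ A) :
    ∑ y ∈ iv q, ‖g y‖ ^ 2 ≤ A ^ 2 * len q := by
  have hl : 0 < len q := QVar181.len_pos' q
  have h2 : ∑ y ∈ iv q, ‖g y‖ ^ 2 = av q g ^ 2 * len q := by
    rw [QVar181.av_sq]; field_simp
  rw [h2]
  have h3 : av q g ^ 2 ≤ A ^ 2 := pow_le_pow_left₀ (av_nonneg' q g) hA 2
  gcongr

/-- the base function of the test -/
noncomputable def bs (q : Nd) (g : Fn) (H : ℝ) (y : ℤ) : ℂ :=
  if y ∈ iv q ∧ ‖g y‖ ≤ H then (starRingEnd ℂ) (g y) else 0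

theorem bs_le (q : Nd) (g : Fn) {H : ℝ} (hH : 0 ≤ H) (y : ℤ) : ‖bs q g H y‖ ≤ H := by
  unfold bs
  split_ifs with h
  · rw [RCLike.norm_conj]; exact h.2
  · simpa using hH

/-- local averages of the translates of the base function -/
theorem av_bs {q : Nd} {g : Fn} {A H : ℝ} (hA : av q g ≤ A) (h : ℤ) :
    av q (fun y => bs q g H (y - h)) ≤ A := by
  have hl : 0 < len q := QVar181.len_pos' q
  have hA0 : 0 ≤ A := (av_nonneg' q g).trans hA
  have h1 : ∑ y ∈ iv q, ‖bs q g H (y - h)‖ ^ 2 ≤ ∑ z ∈ iv q, ‖g z‖ ^ 2 := by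
    have h2 : ∀ y ∈ iv q, ‖bs q g H (y - h)‖ ^ 2 ≤ (if y - h ∈ iv q then ‖g (y - h)‖ ^ 2 else 0) := by
      intro y _
      unfold bs
      by_cases h3 : y - h ∈ iv q
      · rw [if_pos h3]
        split_ifs
        · rw [RCLike.norm_conj]
        · rw [norm_zero, zero_pow two_ne_zero]; exact sq_nonneg _
      · rw [if_neg h3, if_neg (fun hh => h3 hh.1)]
        simp
    refine (Finset.sum_le_sum h2).trans ?_
    rw [← Finset.sum_filter]
    have h4 : ∑ y ∈ (iv q).filter (fun y => y - h ∈ iv q), ‖g (y - h)‖ ^ 2 =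
        ∑ z ∈ ((iv q).filter (fun y => y - h ∈ iv q)).image (fun y => y - h), ‖g z‖ ^ 2 := by
      rw [Finset.sum_image]
      intro y _ y' _ hh
      simpa using hh
    rw [h4]
    refine Finset.sum_le_sum_of_subset_of_nonneg ?_ fun _ _ _ => by positivity
    intro z hz
    obtain ⟨y, hy, rfl⟩ := Finset.mem_image.1 hz
    exact (Finset.mem_filter.1 hy).2
  have h2 : av q (fun y => bs q g H (y - h)) ^ 2 ≤ A ^ 2 := by
    rw [QVar181.av_sq]
    calc (1 / len q) * ∑ y ∈ iv q, ‖bs q g H (y - h)‖ ^ 2 ≤ (1 / len q) * (A ^ 2 * len q) := by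
          have := h1.trans (l2_le hA)
          gcongr
      _ = A ^ 2 := by field_simp
  exact (sq_le_sq₀ (av_nonneg' _ _) hA0).1 h2

/-- the tall part costs `|g|²/H` -/
theorem tall_pt {g z : ℂ} {H : ℝ} (hH : 0 < H) (h : H < ‖z‖) :
    ‖g‖ * ‖z‖ ≤ ‖g‖ * (‖z‖ ^ 2 / H) := by
  refine mul_le_mul_of_nonneg_left ?_ (norm_nonneg _)
  rw [le_div_iff₀ hH, sq]
  exact mul_le_mul_of_nonneg_left h.le (norm_nonneg _)

/-- pairing with one shift -/
noncomputable def Bq (q : Nd) (g : Fn) (H : ℝ) (ξ : ℤ → ℝ) (h : ℤ) : ℂ :=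
  ∑ y ∈ iv q, g y * bs q g H (y - h) * ee (ξ h * ((y - h : ℤ) : ℝ))

/-- the tall rest at one shift -/
noncomputable def Tq (q : Nd) (g : Fn) (H : ℝ) (h : ℤ) : ℝ :=
  ∑ y ∈ iv q, ‖g y‖ * (if y - h ∈ iv q then ‖g (y - h)‖ ^ 2 / H else 0)

theorem acor_le (q : Nd) (g : Fn) {H : ℝ} (hH : 0 < H) (ξ : ℤ → ℝ) (h : ℤ) :
    ‖acor q g h (ξ h)‖ ≤ ‖Bq q g H ξ h‖ + Tq q g H h := by
  have e1 : acor q g h (ξ h) = ee (ξ h * (h : ℝ)) * Bq q g H ξ h +
      ∑ y ∈ iv q, (cr q g h y - g y * bs q g H (y - h)) * ee (ξ h * (y : ℝ)) := by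
    unfold acor Bq
    rw [Finset.mul_sum, ← Finset.sum_add_distrib]
    refine Finset.sum_congr rfl fun y _ => ?_
    have e2 : ee (ξ h * (y : ℝ)) = ee (ξ h * (h : ℝ)) * ee (ξ h * ((y - h : ℤ) : ℝ)) := by
      rw [← ee_add]; congr 1; push_cast; ring
    rw [e2]; ring
  rw [e1]
  refine (norm_add_le _ _).trans (add_le_add ?_ ?_)
  · rw [norm_mul, norm_ee, one_mul]
  · refine (norm_sum_le _ _).trans ?_
    unfold Tq
    refine Finset.sum_le_sum fun y hy => ?_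
    rw [norm_mul, norm_ee, mul_one]
    unfold cr bs
    by_cases h1 : y - h ∈ iv q
    · rw [if_pos (⟨hy, h1⟩ : y ∈ iv q ∧ y - h ∈ iv q), if_pos h1]
      by_cases h2 : ‖g (y - h)‖ ≤ H
      · rw [if_pos ⟨h1, h2⟩, sub_self, norm_zero]
        positivity
      · rw [if_neg (fun hh => h2 hh.2), mul_zero, sub_zero, norm_mul, RCLike.norm_conj]
        exact tall_pt hH (not_le.1 h2)
    · rw [if_neg (fun hh => h1 hh.2), if_neg (fun hh => h1 hh.1), if_neg h1]
      simp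

theorem sum_Tq {q : Nd} {g : Fn} {A H : ℝ} (hA : av q g ≤ A) (hH : 0 < H) (Bad : Finset ℤ) :
    ∑ h ∈ Bad, Tq q g H h ≤ A ^ 3 * len q ^ 2 / H := by
  have hl : 0 < len q := QVar181.len_pos' q
  have hA0 : 0 ≤ A := (av_nonneg' q g).trans hA
  unfold Tq
  rw [Finset.sum_comm]
  have h1 : ∀ y ∈ iv q, ∑ h ∈ Bad, ‖g y‖ * (if y - h ∈ iv q then ‖g (y - h)‖ ^ 2 / H else 0) ≤
      ‖g y‖ * (A ^ 2 * len q / H) := by
    intro y _
    rw [← Finset.mul_sum]
    refine mul_le_mul_of_nonneg_left ?_ (norm_nonneg _)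
    rw [← Finset.sum_filter]
    have h4 : ∑ h ∈ Bad.filter (fun h => y - h ∈ iv q), ‖g (y - h)‖ ^ 2 / H =
        ∑ z ∈ (Bad.filter (fun h => y - h ∈ iv q)).image (fun h => y - h), ‖g z‖ ^ 2 / H := by
      rw [Finset.sum_image]
      intro h _ h' _ hh
      have hh' : y - h = y - h' := hh
      linarith
    rw [h4]
    calc ∑ z ∈ (Bad.filter (fun h => y - h ∈ iv q)).image (fun h => y - h), ‖g z‖ ^ 2 / H ≤
        ∑ z ∈ iv q, ‖g z‖ ^ 2 / H := by
          refine Finset.sum_le_sum_of_subset_of_nonneg ?_ fun _ _ _ => by positivity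
          intro z hz
          obtain ⟨h, hh, rfl⟩ := Finset.mem_image.1 hz
          exact (Finset.mem_filter.1 hh).2
      _ = (∑ z ∈ iv q, ‖g z‖ ^ 2) / H := by rw [Finset.sum_div]
      _ ≤ A ^ 2 * len q / H := by
          have := l2_le hA
          gcongr
  calc _ ≤ ∑ y ∈ iv q, ‖g y‖ * (A ^ 2 * len q / H) := Finset.sum_le_sum h1
    _ = (∑ y ∈ iv q, ‖g y‖) * (A ^ 2 * len q / H) := by rw [Finset.sum_mul]
    _ ≤ (A * len q) * (A ^ 2 * len q / H) :=
        mul_le_mul_of_nonneg_right (l1_le hA) (by positivity)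
    _ = A ^ 3 * len q ^ 2 / H := by ring

/-- **NON-COLLISION** of a function of small cell level, any height -/
theorem noncoll {γ δ C t s A ε : ℝ} (ht : 0 < t) (hs : 0 ≤ s) {q : Nd} {g : Fn}
    (hlv : LvC γ δ C t s q g) (hA : av q g ≤ A) (hε : 2 * t ^ C ≤ ε) (Bad : Finset ℤ)
    (ξ : ℤ → ℝ)
    (hbad : ∀ h ∈ Bad, (s * (t ^ γ * (t ^ δ + A)) + A ^ 3 * t ^ C / ε) * len q <
      ‖acor q g h (ξ h)‖) : (Bad.card : ℝ) ≤ ε * len q := by
  by_contra hcon
  rw [not_le] at hcon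
  have hl : 0 < len q := QVar181.len_pos' q
  have hA0 : 0 ≤ A := (av_nonneg' q g).trans hA
  have htC : 0 < t ^ C := Real.rpow_pos_of_pos ht _
  have htγ : 0 < t ^ γ := Real.rpow_pos_of_pos ht _
  have htδ : 0 < t ^ δ := Real.rpow_pos_of_pos ht _
  have hε0 : 0 < ε := by linarith
  set H : ℝ := t ^ (-C) with hH
  have hH0 : 0 < H := Real.rpow_pos_of_pos ht _
  have hHC : t ^ C * H = 1 := by rw [hH, ← Real.rpow_add ht]; simp
  have hcard : 0 < (Bad.card : ℝ) := lt_of_le_of_lt (by positivity) hcon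
  set lam : ℝ := s * (t ^ γ * (t ^ δ + A)) + A ^ 3 * t ^ C / ε with hlam
  have hlam0 : 0 ≤ lam := by positivity
  have hL := Ln_pos q
  have hL' : (0 : ℤ) < (Ln q : ℤ) := by exact_mod_cast hL
  -- the shifts lie in `[-L, L)`
  have hrange : ∀ h ∈ Bad, h ∈ Finset.Ico (-(Ln q : ℤ)) (-(Ln q : ℤ) + ((2 * Ln q : ℕ) : ℤ)) := by
    intro h hh
    by_contra hout
    have h1 := hbad h hh
    have h2 : acor q g h (ξ h) = 0 := by
      unfold acor
      refine Finset.sum_eq_zero fun y _ => ?_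
      unfold cr
      rw [if_neg, zero_mul]
      rintro ⟨h3, h4⟩
      rw [iv_eq, Finset.mem_Ico] at h3 h4
      apply hout
      rw [Finset.mem_Ico]
      push_cast
      constructor <;> linarith
    rw [h2, norm_zero] at h1
    exact absurd h1 (not_lt.2 (by positivity))
  set w : ℤ → ℝ := fun h => if h ∈ Bad then 1 / (Bad.card : ℝ) else 0 with hw
  set u : ℤ → ℂ := fun h => (starRingEnd ℂ) (Bq q g H ξ h) / ((‖Bq q g H ξ h‖ : ℝ) : ℂ) with hu
  have hcell : CellD (2 * Ln q) (-(Ln q : ℤ)) (q.2 * (Ln q : ℤ)) H w u (bs q g H) := by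
    refine ⟨by omega, ?_, ?_, ?_, ?_, fun y => bs_le q g hH0.le y, ?_⟩
    · intro h
      simp only [hw]
      split_ifs <;> positivity
    · intro h
      simp only [hw]
      split_ifs
      · have h1 : 2 * t ^ C * len q ≤ (Bad.card : ℝ) :=
          (mul_le_mul_of_nonneg_right hε hl.le).trans hcon.le
        rw [len_eq] at h1
        push_cast
        rw [mul_one_div, div_le_iff₀ hcard]
        have h2 : (2 * (Ln q : ℝ)) = (2 * t ^ C * (Ln q : ℝ)) * H := by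
          rw [show 2 * t ^ C * (Ln q : ℝ) * H = 2 * (Ln q : ℝ) * (t ^ C * H) by ring, hHC, mul_one]
        rw [h2, mul_comm H]
        exact mul_le_mul_of_nonneg_right h1 hH0.le
      · rw [mul_zero]; exact hH0.le
    · simp only [hw]
      rw [← Finset.sum_filter, Finset.sum_const, nsmul_eq_mul, mul_one_div, div_le_one hcard]
      have : (Finset.filter (fun h => h ∈ Bad) (Finset.Ico (-(Ln q : ℤ))
          (-(Ln q : ℤ) + ((2 * Ln q : ℕ) : ℤ)))).card ≤ Bad.card :=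
        Finset.card_le_card fun h hh => (Finset.mem_filter.1 hh).2
      exact_mod_cast this
    · intro h
      simp only [hu]
      rw [norm_div, RCLike.norm_conj, Complex.norm_real, norm_norm]
      exact div_self_le_one _
    · intro y hy
      unfold bs
      rw [if_neg]
      rintro ⟨h1, -⟩
      apply hy
      rw [iv_eq, Finset.mem_Ico] at h1
      rw [Finset.mem_Ico]
      push_cast
      constructor <;> linarith
  have hx := hlv (cph (2 * Ln q) (-(Ln q : ℤ)) w u (bs q g H) ξ,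
    fun p => t ^ γ * (t ^ δ + cS (2 * Ln q) (-(Ln q : ℤ)) w (bs q g H) p))
    ⟨_, _, _, w, u, _, ξ, hcell, rfl, rfl⟩
  simp only at hx
  -- value of the pairing
  have hpair : ∑ y ∈ iv q, g y * cph (2 * Ln q) (-(Ln q : ℤ)) w u (bs q g H) ξ y =
      (((1 / (Bad.card : ℝ)) * ∑ h ∈ Bad, ‖Bq q g H ξ h‖ : ℝ) : ℂ) := by
    unfold cph
    simp only [Finset.mul_sum]
    rw [Finset.sum_comm]
    have h1 : ∀ h : ℤ, ∑ y ∈ iv q, g y * ((w h : ℂ) * u h * bs q g H (y - h) *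
        ee (ξ h * ((y - h : ℤ) : ℝ))) = if h ∈ Bad then
          (((1 / (Bad.card : ℝ)) * ‖Bq q g H ξ h‖ : ℝ) : ℂ) else 0 := by
      intro h
      have h2 : ∑ y ∈ iv q, g y * ((w h : ℂ) * u h * bs q g H (y - h) *
          ee (ξ h * ((y - h : ℤ) : ℝ))) = (w h : ℂ) * (u h * Bq q g H ξ h) := by
        unfold Bq
        rw [Finset.mul_sum, Finset.mul_sum]
        refine Finset.sum_congr rfl fun y _ => ?_
        ring
      rw [h2]
      have h3 : u h * Bq q g H ξ h = ((‖Bq q g H ξ h‖ : ℝ) : ℂ) := by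
        simp only [hu]
        rw [div_mul_eq_mul_div, mul_comm ((starRingEnd ℂ) _), Complex.mul_conj,
          Complex.normSq_eq_norm_sq]
        rcases eq_or_ne (‖Bq q g H ξ h‖ : ℝ) 0 with h4 | h4
        · rw [h4]; simp
        · have : ((‖Bq q g H ξ h‖ : ℝ) : ℂ) ≠ 0 := by exact_mod_cast h4
          push_cast
          field_simp
      rw [h3]
      simp only [hw]
      split_ifs
      · push_cast; ring
      · simp
    rw [Finset.sum_congr rfl fun h _ => h1 h, ← Finset.sum_filter]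
    have h5 : Finset.filter (fun h => h ∈ Bad) (Finset.Ico (-(Ln q : ℤ))
          (-(Ln q : ℤ) + ((2 * Ln q : ℕ) : ℤ))) = Bad := by
      ext h
      rw [Finset.mem_filter]
      exact ⟨fun hh => hh.2, fun hh => ⟨hrange h hh, hh⟩⟩
    rw [h5]
    push_cast
    rfl
  rw [hpair, Complex.norm_real, Real.norm_of_nonneg (by positivity)] at hx
  -- the cost
  have hS : cS (2 * Ln q) (-(Ln q : ℤ)) w (bs q g H) q ≤ A := by
    unfold cS
    calc _ ≤ ∑ h ∈ Finset.Ico (-(Ln q : ℤ)) (-(Ln q : ℤ) + ((2 * Ln q : ℕ) : ℤ)), w h * A :=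
          Finset.sum_le_sum fun h _ => mul_le_mul_of_nonneg_left (av_bs hA h) (hcell.w0 h)
      _ = (∑ h ∈ Finset.Ico (-(Ln q : ℤ)) (-(Ln q : ℤ) + ((2 * Ln q : ℕ) : ℤ)), w h) * A := by
          rw [Finset.sum_mul]
      _ ≤ 1 * A := mul_le_mul_of_nonneg_right hcell.w1 hA0
      _ = A := one_mul A
  have hx2 : (1 / (Bad.card : ℝ)) * ∑ h ∈ Bad, ‖Bq q g H ξ h‖ ≤
      s * (t ^ γ * (t ^ δ + A)) * len q := by
    refine hx.trans ?_
    gcongr
  have hx3 : ∑ h ∈ Bad, ‖Bq q g H ξ h‖ ≤ (Bad.card : ℝ) * (s * (t ^ γ * (t ^ δ + A)) * len q) := by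
    rw [one_div, inv_mul_le_iff₀ hcard] at hx2
    exact hx2
  -- sum over the bad shifts
  have hlow : (Bad.card : ℝ) * (lam * len q) < ∑ h ∈ Bad, ‖acor q g h (ξ h)‖ := by
    have : ∑ _h ∈ Bad, lam * len q < ∑ h ∈ Bad, ‖acor q g h (ξ h)‖ := by
      refine Finset.sum_lt_sum_of_nonempty ?_ hbad
      rw [← Finset.card_pos]
      exact_mod_cast hcard
    rwa [Finset.sum_const, nsmul_eq_mul] at this
  have hup : ∑ h ∈ Bad, ‖acor q g h (ξ h)‖ ≤
      (Bad.card : ℝ) * (s * (t ^ γ * (t ^ δ + A)) * len q) + A ^ 3 * len q ^ 2 / H := by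
    calc ∑ h ∈ Bad, ‖acor q g h (ξ h)‖ ≤ ∑ h ∈ Bad, (‖Bq q g H ξ h‖ + Tq q g H h) :=
          Finset.sum_le_sum fun h _ => acor_le q g hH0 ξ h
      _ = ∑ h ∈ Bad, ‖Bq q g H ξ h‖ + ∑ h ∈ Bad, Tq q g H h := Finset.sum_add_distrib
      _ ≤ _ := add_le_add hx3 (sum_Tq hA hH0 Bad)
  have hfin : A ^ 3 * len q ^ 2 / H ≤ (Bad.card : ℝ) * (A ^ 3 * t ^ C / ε * len q) := by
    have h1 : A ^ 3 * len q ^ 2 / H = A ^ 3 * len q ^ 2 * t ^ C := by
      rw [div_eq_iff hH0.ne', mul_assoc, hHC, mul_one]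
    rw [h1]
    have h2 : A ^ 3 * len q ^ 2 * t ^ C = (ε * len q) * (A ^ 3 * t ^ C / ε * len q) := by
      field_simp
    rw [h2]
    exact mul_le_mul_of_nonneg_right hcon.le (by positivity)
  have : (Bad.card : ℝ) * (lam * len q) =
      (Bad.card : ℝ) * (s * (t ^ γ * (t ^ δ + A)) * len q) +
        (Bad.card : ℝ) * (A ^ 3 * t ^ C / ε * len q) := by
    rw [hlam]; ring
  linarith

end Crest.Agent.R079.CellH237
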