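import Crest.Agent.R079.DicOp_679
import Crest.Agent.R079.QVar_181
import Crest.Agent.R079.Max_292

/-! R079, T2: CELLS (helper37; note 852, section 2(b), without the cut-off at a node).

`CellD n a b H w u c`: a cell of scale `n` and height `H`: weights `w ≥ 0` on the shifts
`s ∈ [a, a+n)`, `n w s ≤ H`, total weight `≤ 1`, unimodular factors `u s`, base function `c`, bounded
by `H`, supported in `[b, b+n)`, arbitrary frequencies `ξ s`.

* test function `cph n a w u c ξ y = ∑ s, w s * u s * c (y-s) * e(ξ s (y-s))`;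
* cost `cS n a w c q = ∑ s, w s * |c(·-s)|_{2,q}` (local `L²`, EVERY node `q`).

Results: `cS_super` (super-averaging, exact), `norm_cph_le` (sup), `cS_le`, `cph_conj`,
`rep_cell` (plain `A₃` mass `≤ 768 H²` at EVERY node, every slot) and, for the family
`Cel γ δ C t` (height `t^(-C)`, cost `t^γ (t^δ + cS)`), the dictionary axioms. -/

set_option autoImplicit false

namespace Crest.Agent.R079.Cell37

open Finset Crest.Agent.R079.Grid Crest.Agent.R079.Glue Crest.Agent.R079.Growth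
  Crest.Agent.R079.QRed Crest.Agent.R079.TFrz679 Crest.Agent.R079.Dic679 Crest.Agent.R079.DicOp679

/-! ### the phase -/

/-- `e(x)` -/
noncomputable def ee (x : ℝ) : ℂ := Complex.exp ((2 * Real.pi * x : ℝ) * Complex.I)

theorem norm_ee (x : ℝ) : ‖ee x‖ = 1 := by
  unfold ee
  exact Complex.norm_exp_ofReal_mul_I _

theorem ee_add (x y : ℝ) : ee (x + y) = ee x * ee y := by
  unfold ee
  rw [← Complex.exp_add]
  congr 1
  push_cast
  ring

theorem ee_conj (x : ℝ) : (starRingEnd ℂ) (ee x) = ee (-x) := by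
  unfold ee
  rw [← Complex.exp_conj]
  congr 1
  rw [map_mul, Complex.conj_ofReal, Complex.conj_I]
  push_cast
  ring

/-! ### cells -/

/-- data of a cell of scale `n`, height `H` -/
structure CellD (n : ℕ) (a b : ℤ) (H : ℝ) (w : ℤ → ℝ) (u c : ℤ → ℂ) : Prop where
  n0 : 0 < n
  w0 : ∀ s, 0 ≤ w s
  wH : ∀ s, (n : ℝ) * w s ≤ H
  w1 : ∑ s ∈ Finset.Ico a (a + (n : ℤ)), w s ≤ 1
  u1 : ∀ s, ‖u s‖ ≤ 1
  cH : ∀ y, ‖c y‖ ≤ H
  supp : ∀ y, y ∉ Finset.Ico b (b + (n : ℤ)) → c y = 0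

/-- the test function of a cell -/
noncomputable def cph (n : ℕ) (a : ℤ) (w : ℤ → ℝ) (u c : ℤ → ℂ) (ξ : ℤ → ℝ) : Fn := fun y =>
  ∑ s ∈ Finset.Ico a (a + (n : ℤ)), (w s : ℂ) * u s * c (y - s) * ee (ξ s * ((y - s : ℤ) : ℝ))

/-- the cost of a cell at the node `q` -/
noncomputable def cS (n : ℕ) (a : ℤ) (w : ℤ → ℝ) (c : ℤ → ℂ) (q : Nd) : ℝ :=
  ∑ s ∈ Finset.Ico a (a + (n : ℤ)), w s * av q (fun y => c (y - s))

/-! ### super-averaging -/

theorem av_nonneg' (q : Nd) (f : Fn) : 0 ≤ av q f := by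
  unfold av av2; exact Real.sqrt_nonneg _

/-- local `L²` norms are super-averaging -/
theorem av_super (m : ℕ) (l : ℤ) (f : Fn) :
    av (m, 2 * l) f + av (m, 2 * l + 1) f ≤ 2 * av (m + 1, l) f := by
  have h := L0e.av2_sq_succ (m + 7) l f
  have h0 : 0 ≤ av (m, 2 * l) f := av_nonneg' _ _
  have h1 : 0 ≤ av (m, 2 * l + 1) f := av_nonneg' _ _
  have h2 : 0 ≤ av (m + 1, l) f := av_nonneg' _ _
  have h' : 2 * av (m + 1, l) f ^ 2 = av (m, 2 * l) f ^ 2 + av (m, 2 * l + 1) f ^ 2 := by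
    unfold av
    simp only
    rw [show m + 1 + 7 = m + 7 + 1 by omega]
    exact h
  nlinarith [sq_nonneg (av (m, 2 * l) f - av (m, 2 * l + 1) f)]

section
variable {n : ℕ} {a b : ℤ} {H : ℝ} {w : ℤ → ℝ} {u c : ℤ → ℂ}

theorem CellD.H0 (h : CellD n a b H w u c) : 0 ≤ H := (norm_nonneg _).trans (h.cH 0)

theorem cS_nonneg (h : CellD n a b H w u c) (q : Nd) : 0 ≤ cS n a w c q :=
  Finset.sum_nonneg fun s _ => mul_nonneg (h.w0 s) (av_nonneg' _ _)

/-- **super-averaging of the cost (every node)** -/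
theorem cS_super (h : CellD n a b H w u c) (m : ℕ) (l : ℤ) :
    cS n a w c (m, 2 * l) + cS n a w c (m, 2 * l + 1) ≤ 2 * cS n a w c (m + 1, l) := by
  unfold cS
  rw [← Finset.sum_add_distrib, Finset.mul_sum]
  refine Finset.sum_le_sum fun s _ => ?_
  have := mul_le_mul_of_nonneg_left (av_super m l (fun y => c (y - s))) (h.w0 s)
  linarith

/-- the local `L²` average of a function bounded by `H` -/
theorem av_le_sup {q : Nd} {f : Fn} {A : ℝ} (hA : 0 ≤ A) (h : ∀ y ∈ iv q, ‖f y‖ ≤ A) :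
    av q f ≤ A := by
  have h1 : av q f ^ 2 ≤ A ^ 2 := by
    rw [QVar181.av_sq]
    have hl : 0 < len q := QVar181.len_pos' q
    have h2 : ∑ y ∈ iv q, ‖f y‖ ^ 2 ≤ ∑ _y ∈ iv q, A ^ 2 :=
      Finset.sum_le_sum fun y hy => pow_le_pow_left₀ (norm_nonneg _) (h y hy) 2
    rw [Finset.sum_const, nsmul_eq_mul, QVar181.card_iv'] at h2
    calc (1 / len q) * ∑ y ∈ iv q, ‖f y‖ ^ 2 ≤ (1 / len q) * (len q * A ^ 2) := by gcongr
      _ = A ^ 2 := by field_simp
  exact (sq_le_sq₀ (av_nonneg' _ _) hA).1 h1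

theorem cS_le (h : CellD n a b H w u c) (q : Nd) : cS n a w c q ≤ H := by
  unfold cS
  calc ∑ s ∈ Finset.Ico a (a + (n : ℤ)), w s * av q (fun y => c (y - s)) ≤
      ∑ s ∈ Finset.Ico a (a + (n : ℤ)), w s * H :=
        Finset.sum_le_sum fun s _ => mul_le_mul_of_nonneg_left
          (av_le_sup h.H0 fun y _ => h.cH _) (h.w0 s)
    _ = (∑ s ∈ Finset.Ico a (a + (n : ℤ)), w s) * H := by rw [Finset.sum_mul]
    _ ≤ 1 * H := mul_le_mul_of_nonneg_right h.w1 h.H0
    _ = H := one_mul H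

/-- **sup bound** -/
theorem norm_cph_le (h : CellD n a b H w u c) (ξ : ℤ → ℝ) (y : ℤ) :
    ‖cph n a w u c ξ y‖ ≤ H := by
  unfold cph
  calc ‖_‖ ≤ ∑ s ∈ Finset.Ico a (a + (n : ℤ)), w s * H := by
        refine (norm_sum_le _ _).trans (Finset.sum_le_sum fun s _ => ?_)
        rw [norm_mul, norm_mul, norm_mul, norm_ee, mul_one, Complex.norm_real,
          Real.norm_of_nonneg (h.w0 s)]
        calc w s * ‖u s‖ * ‖c (y - s)‖ ≤ w s * 1 * H :=
              mul_le_mul (mul_le_mul_of_nonneg_left (h.u1 s) (h.w0 s)) (h.cH _) (norm_nonneg _)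
                (mul_nonneg (h.w0 s) zero_le_one)
          _ = w s * H := by ring
    _ = (∑ s ∈ Finset.Ico a (a + (n : ℤ)), w s) * H := by rw [Finset.sum_mul]
    _ ≤ 1 * H := mul_le_mul_of_nonneg_right h.w1 h.H0
    _ = H := one_mul H

/-! ### closure properties -/

theorem CellD.mono {H' : ℝ} (h : CellD n a b H w u c) (hH : H ≤ H') : CellD n a b H' w u c :=
  ⟨h.n0, h.w0, fun s => (h.wH s).trans hH, h.w1, h.u1, fun y => (h.cH y).trans hH, h.supp⟩

theorem CellD.conj (h : CellD n a b H w u c) :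
    CellD n a b H w (fun s => (starRingEnd ℂ) (u s)) (fun y => (starRingEnd ℂ) (c y)) :=
  ⟨h.n0, h.w0, h.wH, h.w1, fun s => by rw [RCLike.norm_conj]; exact h.u1 s,
    fun y => by rw [RCLike.norm_conj]; exact h.cH y, fun y hy => by rw [h.supp y hy, map_zero]⟩

theorem cph_conj (n : ℕ) (a : ℤ) (w : ℤ → ℝ) (u c : ℤ → ℂ) (ξ : ℤ → ℝ) (y : ℤ) :
    (starRingEnd ℂ) (cph n a w u c ξ y) = cph n a w (fun s => (starRingEnd ℂ) (u s))
      (fun y => (starRingEnd ℂ) (c y)) (fun s => -ξ s) y := by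
  unfold cph
  rw [map_sum]
  refine Finset.sum_congr rfl fun s _ => ?_
  rw [map_mul, map_mul, map_mul, Complex.conj_ofReal, ee_conj]
  congr 2
  ring

theorem cS_conj (n : ℕ) (a : ℤ) (w : ℤ → ℝ) (c : ℤ → ℂ) (q : Nd) :
    cS n a w (fun y => (starRingEnd ℂ) (c y)) q = cS n a w c q := by
  unfold cS av av2
  simp only [RCLike.norm_conj]

end

/-! ### mass -/

/-- there is a coordinate with coefficient `±1` -/
theorem exists_unit (j : Fin 4) : ∃ (i0 i1 i2 : Fin 3), i0 ≠ i1 ∧ i0 ≠ i2 ∧ i1 ≠ i2 ∧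
    (cf j i1 = 1 ∨ cf j i1 = -1) ∧ cf j i2 ≠ 0 ∧ |cf j i0| ≤ 3 ∧ |cf j i2| ≤ 3 := by
  fin_cases j
  · exact ⟨1, 0, 2, by decide, by decide, by decide, by decide, by decide, by decide, by decide⟩
  · exact ⟨1, 0, 2, by decide, by decide, by decide, by decide, by decide, by decide, by decide⟩
  · exact ⟨0, 1, 2, by decide, by decide, by decide, by decide, by decide, by decide, by decide⟩
  · exact ⟨1, 0, 2, by decide, by decide, by decide, by decide, by decide, by decide, by decide⟩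

/-- kernels of the class `r` -/
noncomputable def kU (n : ℕ) (c : ℤ → ℂ) (e σ r : ℤ) (z0 z1 : ℤ) : ℂ :=
  if z0 < n then c (e * z0 + σ * z1 - r) else 0

noncomputable def kV (n : ℕ) (a : ℤ) (w : ℤ → ℝ) (u : ℤ → ℂ) (ξ : ℤ → ℝ) (e d r : ℤ)
    (z0 z2 : ℤ) : ℂ :=
  if d * z2 + r ∈ Finset.Ico a (a + (n : ℤ)) then
    ((n * w (d * z2 + r) : ℝ) : ℂ) * u (d * z2 + r) * ee (ξ (d * z2 + r) * ((e * z0 : ℤ) : ℝ))
  else 0

noncomputable def kM (ξ : ℤ → ℝ) (σ d r : ℤ) (z1 z2 : ℤ) : ℂ :=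
  ee (ξ (d * z2 + r) * ((σ * z1 - r : ℤ) : ℝ))

/-- one term of a cell -/
noncomputable def tm (w : ℤ → ℝ) (u c : ℤ → ℂ) (ξ : ℤ → ℝ) (s y : ℤ) : ℂ :=
  (w s : ℂ) * u s * c (y - s) * ee (ξ s * ((y - s : ℤ) : ℝ))

theorem class_z2 {n : ℕ} (hn : 0 < n) {a d r : ℤ} (hd : d ≠ 0) (hd3 : |d| ≤ 3) (hr0 : 0 ≤ r)
    (hr : r < |d|) (G : ℤ → ℂ) :
    ∑ z2 ∈ Finset.Ico (a / d - 8 * (n : ℤ)) (a / d + 8 * (n : ℤ)),
      (if d * z2 + r ∈ Finset.Ico a (a + (n : ℤ)) then G (d * z2 + r) else 0) =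
    ∑ s ∈ Finset.Ico a (a + (n : ℤ)), if s % d = r then G s else 0 := by
  rw [← Finset.sum_filter, ← Finset.sum_filter]
  refine Finset.sum_bij (fun z _ => d * z + r) ?_ ?_ ?_ ?_
  · intro z hz
    rw [Finset.mem_filter] at hz ⊢
    refine ⟨hz.2, ?_⟩
    rw [Int.mul_add_emod_self_left]
    rw [← Int.emod_abs]
    exact Int.emod_eq_of_lt hr0 hr
  · intro z _ z' _ h
    have h1 : d * z = d * z' := by linarith
    exact mul_left_cancel₀ hd h1
  · intro s hs
    rw [Finset.mem_filter] at hs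
    have h1 := Int.mul_ediv_add_emod s d
    rw [hs.2] at h1
    refine ⟨s / d, ?_, h1⟩
    rw [Finset.mem_filter, h1]
    refine ⟨?_, hs.1⟩
    have hs1 := Finset.mem_Ico.1 hs.1
    have h2 := Int.mul_ediv_add_emod a d
    have h3 := Int.emod_nonneg a hd
    have h4 := Int.emod_lt_abs a hd
    have hd' := abs_le.1 hd3
    have hn' : (1 : ℤ) ≤ n := by exact_mod_cast hn
    rw [Finset.mem_Ico]
    generalize s / d = S at *
    generalize a / d = A at *
    generalize a % d = R at *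
    obtain ⟨hd1, hd2⟩ := hd'
    have hcase : d = -3 ∨ d = -2 ∨ d = -1 ∨ d = 1 ∨ d = 2 ∨ d = 3 := by omega
    rcases hcase with rfl | rfl | rfl | rfl | rfl | rfl <;> (norm_num at hr h4; omega)
  · intro z _; rfl

/-- the class `r` of a cell as a triple sum -/
theorem class_id {n : ℕ} {a b : ℤ} {H : ℝ} {w : ℤ → ℝ} {u c : ℤ → ℂ} (h : CellD n a b H w u c)
    (ξ : ℤ → ℝ) {e σ d r : ℤ} (he : |e| ≤ 3) (hσ : σ = 1 ∨ σ = -1) (hd : d ≠ 0) (hd3 : |d| ≤ 3)
    (hr0 : 0 ≤ r) (hr : r < |d|) (y : ℤ) :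
    ((1 / (n : ℝ) ^ 2 : ℝ) : ℂ) * ∑ z0 ∈ Finset.Ico (0 : ℤ) (16 * (n : ℤ)),
      ∑ z1 ∈ Finset.Ico (σ * b - 8 * (n : ℤ)) (σ * b + 8 * (n : ℤ)),
      ∑ z2 ∈ Finset.Ico (a / d - 8 * (n : ℤ)) (a / d + 8 * (n : ℤ)),
        (if e * z0 + σ * z1 + d * z2 = y then
          kM ξ σ d r z1 z2 * kU n c e σ r z0 z1 * kV n a w u ξ e d r z0 z2 else 0) =
    ∑ s ∈ Finset.Ico a (a + (n : ℤ)), if s % d = r then tm w u c ξ s y else 0 := by
  have hn' : (1 : ℤ) ≤ n := by exact_mod_cast h.n0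
  have hσ2 : σ * σ = 1 := by rcases hσ with rfl | rfl <;> norm_num
  -- inner sum over `z1`
  have key : ∀ z0 ∈ Finset.Ico (0 : ℤ) (16 * (n : ℤ)), ∀ z2 : ℤ,
      ∑ z1 ∈ Finset.Ico (σ * b - 8 * (n : ℤ)) (σ * b + 8 * (n : ℤ)),
        (if e * z0 + σ * z1 + d * z2 = y then
          kM ξ σ d r z1 z2 * kU n c e σ r z0 z1 * kV n a w u ξ e d r z0 z2 else 0) =
      if z0 < n then (if d * z2 + r ∈ Finset.Ico a (a + (n : ℤ)) then
        (n : ℂ) * tm w u c ξ (d * z2 + r) y else 0) else 0 := by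
    intro z0 hz0 z2
    have hz0' := Finset.mem_Ico.1 hz0
    have hcond : ∀ z1 : ℤ, (e * z0 + σ * z1 + d * z2 = y) ↔ z1 = σ * (y - e * z0 - d * z2) := by
      intro z1
      constructor
      · intro hh
        have : σ * (y - e * z0 - d * z2) = σ * σ * z1 := by rw [← hh]; ring
        rw [this, hσ2, one_mul]
      · intro hh
        rw [hh]
        have : σ * (σ * (y - e * z0 - d * z2)) = y - e * z0 - d * z2 := by
          rw [← mul_assoc, hσ2, one_mul]
        linarith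
    simp only [hcond]
    rw [Finset.sum_ite_eq']
    set Z := σ * (y - e * z0 - d * z2) with hZ
    have hσZ : σ * Z = y - e * z0 - d * z2 := by rw [hZ, ← mul_assoc, hσ2, one_mul]
    have hval : kM ξ σ d r Z z2 * kU n c e σ r z0 Z * kV n a w u ξ e d r z0 z2 =
        if z0 < n then (if d * z2 + r ∈ Finset.Ico a (a + (n : ℤ)) then
        (n : ℂ) * tm w u c ξ (d * z2 + r) y else 0) else 0 := by
      unfold kM kU kV tm
      by_cases h1 : z0 < n
      · rw [if_pos h1, if_pos h1]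
        by_cases h2 : d * z2 + r ∈ Finset.Ico a (a + (n : ℤ))
        · rw [if_pos h2, if_pos h2]
          have e1 : e * z0 + σ * Z - r = y - (d * z2 + r) := by rw [hσZ]; ring
          rw [e1]
          have e2 : ee (ξ (d * z2 + r) * ((y - (d * z2 + r) : ℤ) : ℝ)) =
              ee (ξ (d * z2 + r) * ((σ * Z - r : ℤ) : ℝ)) *
                ee (ξ (d * z2 + r) * ((e * z0 : ℤ) : ℝ)) := by
            rw [← ee_add, ← mul_add, ← Int.cast_add]
            congr 3
            rw [hσZ]; ring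
          rw [e2]
          push_cast
          ring
        · rw [if_neg h2, if_neg h2, mul_zero]
      · rw [if_neg h1, if_neg h1, mul_zero, zero_mul]
    by_cases hmem : Z ∈ Finset.Ico (σ * b - 8 * (n : ℤ)) (σ * b + 8 * (n : ℤ))
    · rw [if_pos hmem, hval]
    · rw [if_neg hmem]
      by_cases h1 : z0 < n
      · rw [if_pos h1]
        have hc0 : c (y - (d * z2 + r)) = 0 := by
          refine h.supp _ fun hin => hmem ?_
          have hin' := Finset.mem_Ico.1 hin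
          have hez := abs_le.1 he
          have hE1 : e * z0 ≤ 3 * n := by nlinarith
          have hE2 : -(3 * n) ≤ e * z0 := by nlinarith
          have hr3 : r < 3 := lt_of_lt_of_le hr hd3
          rw [Finset.mem_Ico]
          rcases hσ with rfl | rfl
          · rw [one_mul] at hσZ
            constructor <;> linarith
          · have : Z = -(y - e * z0 - d * z2) := by linarith
            constructor <;> linarith
        unfold tm
        rw [hc0]
        simp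
      · rw [if_neg h1]
  have step : ∑ z0 ∈ Finset.Ico (0 : ℤ) (16 * (n : ℤ)),
      ∑ z1 ∈ Finset.Ico (σ * b - 8 * (n : ℤ)) (σ * b + 8 * (n : ℤ)),
      ∑ z2 ∈ Finset.Ico (a / d - 8 * (n : ℤ)) (a / d + 8 * (n : ℤ)),
        (if e * z0 + σ * z1 + d * z2 = y then
          kM ξ σ d r z1 z2 * kU n c e σ r z0 z1 * kV n a w u ξ e d r z0 z2 else 0) =
      (n : ℂ) * ((n : ℂ) *
        ∑ s ∈ Finset.Ico a (a + (n : ℤ)), if s % d = r then tm w u c ξ s y else 0) := by
    calc _ = ∑ z0 ∈ Finset.Ico (0 : ℤ) (16 * (n : ℤ)), if z0 < n then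
          ((n : ℂ) * ∑ s ∈ Finset.Ico a (a + (n : ℤ)), if s % d = r then tm w u c ξ s y else 0)
          else 0 := by
          refine Finset.sum_congr rfl fun z0 hz0 => ?_
          rw [Finset.sum_comm, Finset.sum_congr rfl fun z2 _ => key z0 hz0 z2]
          split_ifs with h1
          · rw [class_z2 h.n0 hd hd3 hr0 hr (fun s => (n : ℂ) * tm w u c ξ s y), Finset.mul_sum]
            refine Finset.sum_congr rfl fun s _ => ?_
            split_ifs <;> simp
          · simp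
      _ = _ := by
          rw [← Finset.sum_filter, Finset.sum_const]
          have : (Finset.Ico (0 : ℤ) (16 * (n : ℤ))).filter (fun z => z < (n : ℤ)) =
              Finset.Ico (0 : ℤ) n := by
            ext z
            simp only [Finset.mem_filter, Finset.mem_Ico]
            omega
          rw [this, Int.card_Ico, nsmul_eq_mul]
          simp
  rw [step]
  have hn0 : (n : ℂ) ≠ 0 := by
    have := h.n0
    exact_mod_cast this.ne'
  push_cast
  field_simp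

/-- **the plain mass of a cell (every node, every slot)** -/
theorem rep_cell {n : ℕ} {a b : ℤ} {H : ℝ} {w : ℤ → ℝ} {u c : ℤ → ℂ} (h : CellD n a b H w u c)
    (hH : 0 < H) (ξ : ℤ → ℝ) (j : Fin 4) (p : Nd) : Rep j p (cph n a w u c ξ) (768 * H ^ 2) := by
  obtain ⟨i0, i1, i2, h01, h02, h12, hσ, hd, he3, hd3⟩ := exists_unit j
  set e := cf j i0 with he
  set σ := cf j i1 with hσd
  set d := cf j i2 with hdd
  have hn0 : (0 : ℝ) < n := by exact_mod_cast h.n0
  -- one class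
  have hcl : ∀ r : Fin 3, Rep j p (fun y => ∑ s ∈ Finset.Ico a (a + (n : ℤ)),
      if s % d = ((r : ℕ) : ℤ) then tm w u c ξ s y else 0) (256 * H ^ 2) := by
    intro r
    by_cases hr : ((r : ℕ) : ℤ) < |d|
    · have hfun : (fun y => ∑ s ∈ Finset.Ico a (a + (n : ℤ)),
          if s % d = ((r : ℕ) : ℤ) then tm w u c ξ s y else 0) = fun y =>
          ((1 / (n : ℝ) ^ 2 : ℝ) : ℂ) * ∑ z0 ∈ Finset.Ico (0 : ℤ) (16 * (n : ℤ)),
          ∑ z1 ∈ Finset.Ico (σ * b - 8 * (n : ℤ)) (σ * b + 8 * (n : ℤ)),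
          ∑ z2 ∈ Finset.Ico (a / d - 8 * (n : ℤ)) (a / d + 8 * (n : ℤ)),
          (if cf j i0 * z0 + cf j i1 * z1 + cf j i2 * z2 = y then
            kM ξ σ d r z1 z2 * kU n c e σ r z0 z1 * kV n a w u ξ e d r z0 z2 else 0) := by
        funext y
        exact (class_id h ξ he3 hσ hd hd3 (by positivity) hr y).symm
      rw [hfun]
      refine rep3 i0 i1 i2 h01 h02 h12 _ _ _ (n := 16 * n) (by rw [Int.card_Ico]; omega) ?_ ?_
        (kM ξ σ d r) (kU n c e σ r) (kV n a w u ξ e d r) (H := H) (by positivity) hH.le ?_ ?_ ?_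
        (by positivity) ?_ p
      · rw [Int.card_Ico]; omega
      · rw [Int.card_Ico]; omega
      · intro z z'
        exact (norm_ee _).le
      · intro z z'
        unfold kU
        split_ifs
        · exact h.cH _
        · simpa using hH.le
      · intro z z'
        unfold kV
        split_ifs
        · rw [norm_mul, norm_mul, norm_ee, mul_one, Complex.norm_real,
            Real.norm_of_nonneg (mul_nonneg hn0.le (h.w0 _))]
          calc (n : ℝ) * w (d * z' + ↑↑r) * ‖u (d * z' + ↑↑r)‖ ≤ H * 1 :=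
                mul_le_mul (h.wH _) (h.u1 _) (norm_nonneg _) hH.le
            _ = H := mul_one H
        · simpa using hH.le
      · push_cast
        refine le_of_eq ?_
        field_simp
        ring
    · have hfun : (fun y => ∑ s ∈ Finset.Ico a (a + (n : ℤ)),
          if s % d = ((r : ℕ) : ℤ) then tm w u c ξ s y else 0) = fun _ => 0 := by
        funext y
        refine Finset.sum_eq_zero fun s _ => ?_
        rw [if_neg]
        intro hs
        exact hr (hs ▸ Int.emod_lt_abs s hd)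
      rw [hfun]
      exact ⟨0, Fin.elim0, Fin.elim0, fun i => Fin.elim0 i, fun y _ => by simp, by simp; positivity⟩
  have h3 : Rep j p (cph n a w u c ξ) (3 * (256 * H ^ 2)) := by
    refine rep_comb (n := 3) (c := fun _ => 1) (by positivity) hcl (by norm_num) ?_
    intro y _
    unfold cph
    simp only [one_mul]
    rw [Finset.sum_comm]
    refine Finset.sum_congr rfl fun s _ => ?_
    have h4 := Int.emod_nonneg s hd
    have h5 := Int.emod_lt_abs s hd
    have h6 : s % d = 0 ∨ s % d = 1 ∨ s % d = 2 := by omega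
    rw [Fin.sum_univ_three]
    rcases h6 with h6 | h6 | h6 <;> simp [h6, tm]
  have : 3 * (256 * H ^ 2) = 768 * H ^ 2 := by ring
  rwa [this] at h3

/-! ### the family -/

/-- the family of the cells at parameter `t`: (test function, cost at every node) -/
def Cel (γ δ C : ℝ) (t : ℝ) : Set (Fn × (Nd → ℝ)) :=
  {x | ∃ (n : ℕ) (a b : ℤ) (w : ℤ → ℝ) (u c : ℤ → ℂ) (ξ : ℤ → ℝ), CellD n a b (t ^ (-C)) w u c ∧
    x.1 = cph n a w u c ξ ∧ x.2 = fun q => t ^ γ * (t ^ δ + cS n a w c q)}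

section
variable {γ δ C t : ℝ} {x : Fn × (Nd → ℝ)}

/-- floor of the cost -/
theorem cel_floor (ht : 0 < t) (hx : x ∈ Cel γ δ C t) (q : Nd) : t ^ (γ + δ) ≤ x.2 q := by
  obtain ⟨n, a, b, w, u, c, ξ, h, -, h2⟩ := hx
  rw [h2]
  show t ^ (γ + δ) ≤ t ^ γ * (t ^ δ + cS n a w c q)
  rw [Real.rpow_add ht]
  have h3 : 0 ≤ t ^ γ := (Real.rpow_pos_of_pos ht _).le
  have := mul_nonneg h3 (cS_nonneg h q)
  linarith

theorem cel_nonneg (ht : 0 < t) (hx : x ∈ Cel γ δ C t) (q : Nd) : 0 ≤ x.2 q :=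
  (Real.rpow_pos_of_pos ht _).le.trans (cel_floor ht hx q)

/-- super-averaging -/
theorem cel_super (ht : 0 < t) (hx : x ∈ Cel γ δ C t) (m : ℕ) (l : ℤ) :
    x.2 (m, 2 * l) + x.2 (m, 2 * l + 1) ≤ 2 * x.2 (m + 1, l) := by
  obtain ⟨n, a, b, w, u, c, ξ, h, -, h2⟩ := hx
  rw [h2]
  have h3 : 0 ≤ t ^ γ := (Real.rpow_pos_of_pos ht _).le
  have h4 := mul_le_mul_of_nonneg_left (cS_super h m l) h3
  simp only
  linarith

/-- upper bound of the cost -/
theorem cel_le (ht : 0 < t) (hx : x ∈ Cel γ δ C t) (q : Nd) :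
    x.2 q ≤ t ^ γ * (t ^ δ + t ^ (-C)) := by
  obtain ⟨n, a, b, w, u, c, ξ, h, -, h2⟩ := hx
  rw [h2]
  have h3 : 0 ≤ t ^ γ := (Real.rpow_pos_of_pos ht _).le
  exact mul_le_mul_of_nonneg_left (add_le_add le_rfl (cS_le h q)) h3

/-- sup bound -/
theorem cel_norm (hx : x ∈ Cel γ δ C t) (y : ℤ) : ‖x.1 y‖ ≤ t ^ (-C) := by
  obtain ⟨n, a, b, w, u, c, ξ, h, h1, -⟩ := hx
  rw [h1]
  exact norm_cph_le h ξ y

/-- sup bound relative to the cost -/
theorem cel_sup (ht : 0 < t) (hx : x ∈ Cel γ δ C t) (q : Nd) (y : ℤ) :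
    ‖x.1 y‖ ≤ t ^ (-(C + γ + δ)) * x.2 q := by
  refine (cel_norm hx y).trans ?_
  calc t ^ (-C) = t ^ (-(C + γ + δ)) * t ^ (γ + δ) := by
        rw [← Real.rpow_add ht]; congr 1; ring
    _ ≤ t ^ (-(C + γ + δ)) * x.2 q :=
        mul_le_mul_of_nonneg_left (cel_floor ht hx q) (Real.rpow_pos_of_pos ht _).le

/-- smaller parameter: same functions, smaller costs -/
theorem cel_mono {s : ℝ} (hs : 0 < s) (hst : s ≤ t) (hγ : 0 ≤ γ) (hδ : 0 ≤ δ) (hC : 0 ≤ C)
    (hx : x ∈ Cel γ δ C t) : ∃ x' ∈ Cel γ δ C s, x'.1 = x.1 ∧ ∀ q, x'.2 q ≤ x.2 q := by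
  obtain ⟨n, a, b, w, u, c, ξ, h, h1, h2⟩ := hx
  have h3 : t ^ (-C) ≤ s ^ (-C) := Real.rpow_le_rpow_of_nonpos hs hst (by linarith)
  refine ⟨(x.1, fun q => s ^ γ * (s ^ δ + cS n a w c q)),
    ⟨n, a, b, w, u, c, ξ, h.mono h3, h1, rfl⟩, rfl, fun q => ?_⟩
  rw [h2]
  have e1 : s ^ γ ≤ t ^ γ := Real.rpow_le_rpow hs.le hst hγ
  have e2 : s ^ δ ≤ t ^ δ := Real.rpow_le_rpow hs.le hst hδ
  have e3 : 0 ≤ s ^ δ := (Real.rpow_pos_of_pos hs _).le
  have e4 : 0 ≤ t ^ γ := Real.rpow_nonneg (hs.le.trans hst) _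
  exact mul_le_mul e1 (add_le_add e2 le_rfl) (add_nonneg e3 (cS_nonneg h q)) e4

/-- complex conjugation -/
theorem cel_conj (hx : x ∈ Cel γ δ C t) :
    ((fun y => (starRingEnd ℂ) (x.1 y), x.2) : Fn × (Nd → ℝ)) ∈ Cel γ δ C t := by
  obtain ⟨n, a, b, w, u, c, ξ, h, h1, h2⟩ := hx
  refine ⟨n, a, b, w, fun s => (starRingEnd ℂ) (u s), fun y => (starRingEnd ℂ) (c y),
    fun s => -ξ s, h.conj, ?_, ?_⟩
  · funext y
    show (starRingEnd ℂ) (x.1 y) = _
    rw [h1, cph_conj]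
  · show x.2 = _
    rw [h2]
    funext q
    rw [cS_conj]

/-- plain mass -/
theorem cel_rep (ht : 0 < t) (hx : x ∈ Cel γ δ C t) (j : Fin 4) (p : Nd) :
    Rep j p x.1 (768 * t ^ (-(2 * C))) := by
  obtain ⟨n, a, b, w, u, c, ξ, h, h1, h2⟩ := hx
  rw [h1]
  have h3 := rep_cell h (Real.rpow_pos_of_pos ht _) ξ j p
  have h4 : (t ^ (-C)) ^ 2 = t ^ (-(2 * C)) := by
    rw [← Real.rpow_natCast (t ^ (-C)) 2, ← Real.rpow_mul ht.le]
    congr 1
    push_cast; ring
  rwa [h4] at h3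

end

end Crest.Agent.R079.Cell37
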