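import Crest.Agent.R079.NonCol_37

/-! R079, T2/T4 (helper37): NON-COLLISION BETWEEN TWO NODES OF THE SAME LEVEL.

Literal of helper254: `NC2 p p' g d R` = off a set of at most `d len p` shifts `h`,
`sup_ξ |∑_{y ∈ iv p, y+h ∈ iv p'} R(y) conj R(y+h) e(ξ y)| ≤ g len p`.

`nc2_of_lv`: level `s` against the cells AT THE NODE `p` and `av ≤ A` on both nodes give `NC2` with
`g = s t^γ (t^δ + A) + A³ t^C/ε`, `d = ε ≥ 2 t^C`.  No height of `R`. -/

set_option autoImplicit false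

namespace Crest.Agent.R079.NC237

open Finset Crest.Agent.R079.Grid Crest.Agent.R079.Glue Crest.Agent.R079.Growth
  Crest.Agent.R079.QRed Crest.Agent.R079.Cell37 Crest.Agent.R079.CellH237 Crest.Agent.R079.Hank37

/-- **the literal** (helper254) -/
def NC2 (p p' : Nd) (g d : ℝ) (R : Fn) : Prop :=
  ∃ Z : Finset ℤ, (Z.card : ℝ) ≤ d * len p ∧ ∀ h ∉ Z, ∀ ξ : ℝ,
    ‖∑ y ∈ iv p, (if y + h ∈ iv p' then R y * (starRingEnd ℂ) (R (y + h)) * ee (ξ * (y : ℝ))
      else 0)‖ ≤ g * len p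

theorem NC2.mono {p p' : Nd} {g d g' d' : ℝ} {R : Fn} (h : NC2 p p' g d R) (hg : g ≤ g')
    (hd : d ≤ d') : NC2 p p' g' d' R := by
  obtain ⟨Z, h1, h2⟩ := h
  have hl : 0 < len p := QVar181.len_pos' p
  exact ⟨Z, h1.trans (mul_le_mul_of_nonneg_right hd hl.le),
    fun h hh ξ => (h2 h hh ξ).trans (mul_le_mul_of_nonneg_right hg hl.le)⟩

/-- correlation at the shift `h` and the frequency `ξ` -/
noncomputable def ac (p p' : Nd) (g : Fn) (h : ℤ) (ξ : ℝ) : ℂ :=
  ∑ y ∈ iv p, (if y - h ∈ iv p' then g y * (starRingEnd ℂ) (g (y - h)) else 0) * ee (ξ * (y : ℝ))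

/-- pairing with one shift -/
noncomputable def Bq (p p' : Nd) (g : Fn) (H : ℝ) (ξ : ℤ → ℝ) (h : ℤ) : ℂ :=
  ∑ y ∈ iv p, g y * bs p' g H (y - h) * ee (ξ h * ((y - h : ℤ) : ℝ))

/-- the tall rest at one shift -/
noncomputable def Tq (p p' : Nd) (g : Fn) (H : ℝ) (h : ℤ) : ℝ :=
  ∑ y ∈ iv p, ‖g y‖ * (if y - h ∈ iv p' then ‖g (y - h)‖ ^ 2 / H else 0)

theorem ac_le (p p' : Nd) (g : Fn) {H : ℝ} (hH : 0 < H) (ξ : ℤ → ℝ) (h : ℤ) :
    ‖ac p p' g h (ξ h)‖ ≤ ‖Bq p p' g H ξ h‖ + Tq p p' g H h := by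
  have e1 : ac p p' g h (ξ h) = ee (ξ h * (h : ℝ)) * Bq p p' g H ξ h +
      ∑ y ∈ iv p, ((if y - h ∈ iv p' then g y * (starRingEnd ℂ) (g (y - h)) else 0) -
        g y * bs p' g H (y - h)) * ee (ξ h * (y : ℝ)) := by
    unfold ac Bq
    rw [Finset.mul_sum, ← Finset.sum_add_distrib]
    refine Finset.sum_congr rfl fun y _ => ?_
    have e2 : ee (ξ h * (y : ℝ)) = ee (ξ h * (h : ℝ)) * ee (ξ h * ((y - h : ℤ) : ℝ)) := by
      rw [← ee_add]; congr 1; push_cast; ring
    rw [e2]; ring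
  rw [e1]
  refine (norm_add_le _ _).trans (add_le_add ?_ ?_)
  · rw [norm_mul, norm_ee, one_mul]
  · refine (norm_sum_le _ _).trans ?_
    unfold Tq
    refine Finset.sum_le_sum fun y hy => ?_
    rw [norm_mul, norm_ee, mul_one]
    unfold bs
    by_cases h1 : y - h ∈ iv p'
    · rw [if_pos h1, if_pos h1]
      by_cases h2 : ‖g (y - h)‖ ≤ H
      · rw [if_pos ⟨h1, h2⟩, sub_self, norm_zero]
        positivity
      · rw [if_neg (fun hh => h2 hh.2), mul_zero, sub_zero, norm_mul, RCLike.norm_conj]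
        exact tall_pt hH (not_le.1 h2)
    · rw [if_neg h1, if_neg (fun hh => h1 hh.1), if_neg h1]
      simp

theorem sum_Tq {p p' : Nd} {g : Fn} {A H : ℝ} (hA : av p g ≤ A) (hA' : av p' g ≤ A)
    (hlen : len p' = len p) (hH : 0 < H) (Bad : Finset ℤ) :
    ∑ h ∈ Bad, Tq p p' g H h ≤ A ^ 3 * len p ^ 2 / H := by
  have hl : 0 < len p := QVar181.len_pos' p
  have hA0 : 0 ≤ A := (av_nonneg' p g).trans hA
  unfold Tq
  rw [Finset.sum_comm]
  have h1 : ∀ y ∈ iv p, ∑ h ∈ Bad, ‖g y‖ * (if y - h ∈ iv p' then ‖g (y - h)‖ ^ 2 / H else 0) ≤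
      ‖g y‖ * (A ^ 2 * len p / H) := by
    intro y _
    rw [← Finset.mul_sum]
    refine mul_le_mul_of_nonneg_left ?_ (norm_nonneg _)
    rw [← Finset.sum_filter]
    have h4 : ∑ h ∈ Bad.filter (fun h => y - h ∈ iv p'), ‖g (y - h)‖ ^ 2 / H =
        ∑ z ∈ (Bad.filter (fun h => y - h ∈ iv p')).image (fun h => y - h), ‖g z‖ ^ 2 / H := by
      rw [Finset.sum_image]
      intro h _ h' _ hh
      have hh' : y - h = y - h' := hh
      linarith
    rw [h4]
    calc ∑ z ∈ (Bad.filter (fun h => y - h ∈ iv p')).image (fun h => y - h), ‖g z‖ ^ 2 / H ≤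
        ∑ z ∈ iv p', ‖g z‖ ^ 2 / H := by
          refine Finset.sum_le_sum_of_subset_of_nonneg ?_ fun _ _ _ => by positivity
          intro z hz
          obtain ⟨h, hh, rfl⟩ := Finset.mem_image.1 hz
          exact (Finset.mem_filter.1 hh).2
      _ = (∑ z ∈ iv p', ‖g z‖ ^ 2) / H := by rw [Finset.sum_div]
      _ ≤ A ^ 2 * len p / H := by
          have := l2_le hA'
          rw [hlen] at this
          gcongr
  calc _ ≤ ∑ y ∈ iv p, ‖g y‖ * (A ^ 2 * len p / H) := Finset.sum_le_sum h1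
    _ = (∑ y ∈ iv p, ‖g y‖) * (A ^ 2 * len p / H) := by rw [Finset.sum_mul]
    _ ≤ (A * len p) * (A ^ 2 * len p / H) :=
        mul_le_mul_of_nonneg_right (l1_le hA) (by positivity)
    _ = A ^ 3 * len p ^ 2 / H := by ring

/-- local averages of the translates of the base function of another node of the same level -/
theorem av_bs2 {p p' : Nd} {g : Fn} {A H : ℝ} (hA' : av p' g ≤ A) (hlen : len p' = len p) (h : ℤ) :
    av p (fun y => bs p' g H (y - h)) ≤ A := by
  have hl : 0 < len p := QVar181.len_pos' p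
  have hA0 : 0 ≤ A := (av_nonneg' p' g).trans hA'
  have h1 : ∑ y ∈ iv p, ‖bs p' g H (y - h)‖ ^ 2 ≤ ∑ z ∈ iv p', ‖g z‖ ^ 2 := by
    have h2 : ∀ y ∈ iv p, ‖bs p' g H (y - h)‖ ^ 2 ≤
        (if y - h ∈ iv p' then ‖g (y - h)‖ ^ 2 else 0) := by
      intro y _
      unfold bs
      by_cases h3 : y - h ∈ iv p'
      · rw [if_pos h3]
        split_ifs
        · rw [RCLike.norm_conj]
        · rw [norm_zero, zero_pow two_ne_zero]; exact sq_nonneg _
      · rw [if_neg h3, if_neg (fun hh => h3 hh.1)]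
        simp
    refine (Finset.sum_le_sum h2).trans ?_
    rw [← Finset.sum_filter]
    have h4 : ∑ y ∈ (iv p).filter (fun y => y - h ∈ iv p'), ‖g (y - h)‖ ^ 2 =
        ∑ z ∈ ((iv p).filter (fun y => y - h ∈ iv p')).image (fun y => y - h), ‖g z‖ ^ 2 := by
      rw [Finset.sum_image]
      intro y _ y' _ hh
      simpa using hh
    rw [h4]
    refine Finset.sum_le_sum_of_subset_of_nonneg ?_ fun _ _ _ => by positivity
    intro z hz
    obtain ⟨y, hy, rfl⟩ := Finset.mem_image.1 hz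
    exact (Finset.mem_filter.1 hy).2
  have h2 : av p (fun y => bs p' g H (y - h)) ^ 2 ≤ A ^ 2 := by
    rw [QVar181.av_sq]
    calc (1 / len p) * ∑ y ∈ iv p, ‖bs p' g H (y - h)‖ ^ 2 ≤ (1 / len p) * (A ^ 2 * len p) := by
          have := h1.trans (l2_le hA')
          rw [hlen] at this
          gcongr
      _ = A ^ 2 := by field_simp
  exact (sq_le_sq₀ (av_nonneg' _ _) hA0).1 h2

/-- **NON-COLLISION between two nodes** of a function of small cell level at `p`, any height -/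
theorem noncoll {γ δ C t s A ε : ℝ} (ht : 0 < t) (hs : 0 ≤ s) {p p' : Nd} (hpp : p'.1 = p.1)
    {g : Fn} (hlv : LvC γ δ C t s p g) (hA : av p g ≤ A) (hA' : av p' g ≤ A)
    (hε : 2 * t ^ C ≤ ε) (Bad : Finset ℤ) (ξ : ℤ → ℝ)
    (hbad : ∀ h ∈ Bad, (s * (t ^ γ * (t ^ δ + A)) + A ^ 3 * t ^ C / ε) * len p <
      ‖ac p p' g h (ξ h)‖) : (Bad.card : ℝ) ≤ ε * len p := by
  by_contra hcon
  rw [not_le] at hcon
  have hLL : Ln p' = Ln p := by unfold Ln; rw [hpp]
  have hlen : len p' = len p := by rw [len_eq, len_eq, hLL]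
  have hl : 0 < len p := QVar181.len_pos' p
  have hA0 : 0 ≤ A := (av_nonneg' p g).trans hA
  have htC : 0 < t ^ C := Real.rpow_pos_of_pos ht _
  have htγ : 0 < t ^ γ := Real.rpow_pos_of_pos ht _
  have htδ : 0 < t ^ δ := Real.rpow_pos_of_pos ht _
  have hε0 : 0 < ε := by linarith
  set H : ℝ := t ^ (-C) with hH
  have hH0 : 0 < H := Real.rpow_pos_of_pos ht _
  have hHC : t ^ C * H = 1 := by rw [hH, ← Real.rpow_add ht]; simp
  have hcard : 0 < (Bad.card : ℝ) := lt_of_le_of_lt (by positivity) hcon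
  set lam : ℝ := s * (t ^ γ * (t ^ δ + A)) + A ^ 3 * t ^ C / ε with hlam
  have hlam0 : 0 ≤ lam := by positivity
  have hL := Ln_pos p
  have hL' : (0 : ℤ) < (Ln p : ℤ) := by exact_mod_cast hL
  set a : ℤ := (p.2 - p'.2) * (Ln p : ℤ) - (Ln p : ℤ) with ha
  -- the shifts lie in `[a, a + 2 L)`
  have hrange : ∀ h ∈ Bad, h ∈ Finset.Ico a (a + ((2 * Ln p : ℕ) : ℤ)) := by
    intro h hh
    by_contra hout
    have h1 := hbad h hh
    have h2 : ac p p' g h (ξ h) = 0 := by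
      unfold ac
      refine Finset.sum_eq_zero fun y h3 => ?_
      rw [if_neg, zero_mul]
      intro h4
      rw [iv_eq, Finset.mem_Ico] at h3 h4
      rw [hLL] at h4
      apply hout
      rw [Finset.mem_Ico, ha]
      push_cast
      constructor <;> linarith
    rw [h2, norm_zero] at h1
    exact absurd h1 (not_lt.2 (by positivity))
  set w : ℤ → ℝ := fun h => if h ∈ Bad then 1 / (Bad.card : ℝ) else 0 with hw
  set u : ℤ → ℂ := fun h =>
    (starRingEnd ℂ) (Bq p p' g H ξ h) / ((‖Bq p p' g H ξ h‖ : ℝ) : ℂ) with hu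
  have hcell : CellD (2 * Ln p) a (p'.2 * (Ln p' : ℤ)) H w u (bs p' g H) := by
    refine ⟨by omega, ?_, ?_, ?_, ?_, fun y => bs_le p' g hH0.le y, ?_⟩
    · intro h
      simp only [hw]
      split_ifs <;> positivity
    · intro h
      simp only [hw]
      split_ifs
      · have h1 : 2 * t ^ C * len p ≤ (Bad.card : ℝ) :=
          (mul_le_mul_of_nonneg_right hε hl.le).trans hcon.le
        rw [len_eq] at h1
        push_cast
        rw [mul_one_div, div_le_iff₀ hcard]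
        have h2 : (2 * (Ln p : ℝ)) = (2 * t ^ C * (Ln p : ℝ)) * H := by
          rw [show 2 * t ^ C * (Ln p : ℝ) * H = 2 * (Ln p : ℝ) * (t ^ C * H) by ring, hHC, mul_one]
        rw [h2, mul_comm H]
        exact mul_le_mul_of_nonneg_right h1 hH0.le
      · rw [mul_zero]; exact hH0.le
    · simp only [hw]
      rw [← Finset.sum_filter, Finset.sum_const, nsmul_eq_mul, mul_one_div, div_le_one hcard]
      have : (Finset.filter (fun h => h ∈ Bad) (Finset.Ico a
          (a + ((2 * Ln p : ℕ) : ℤ)))).card ≤ Bad.card :=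
        Finset.card_le_card fun h hh => (Finset.mem_filter.1 hh).2
      exact_mod_cast this
    · intro h
      simp only [hu]
      rw [norm_div, RCLike.norm_conj, Complex.norm_real, norm_norm]
      exact div_self_le_one _
    · intro y hy
      unfold bs
      rw [if_neg]
      rintro ⟨h1, -⟩
      apply hy
      rw [iv_eq, Finset.mem_Ico] at h1
      rw [Finset.mem_Ico]
      rw [hLL] at h1 ⊢
      push_cast
      constructor <;> linarith
  have hx := hlv (cph (2 * Ln p) a w u (bs p' g H) ξ,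
    fun q => t ^ γ * (t ^ δ + cS (2 * Ln p) a w (bs p' g H) q))
    ⟨_, _, _, w, u, _, ξ, hcell, rfl, rfl⟩
  simp only at hx
  -- value of the pairing
  have hpair : ∑ y ∈ iv p, g y * cph (2 * Ln p) a w u (bs p' g H) ξ y =
      (((1 / (Bad.card : ℝ)) * ∑ h ∈ Bad, ‖Bq p p' g H ξ h‖ : ℝ) : ℂ) := by
    unfold cph
    simp only [Finset.mul_sum]
    rw [Finset.sum_comm]
    have h1 : ∀ h : ℤ, ∑ y ∈ iv p, g y * ((w h : ℂ) * u h * bs p' g H (y - h) *
        ee (ξ h * ((y - h : ℤ) : ℝ))) = if h ∈ Bad then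
          (((1 / (Bad.card : ℝ)) * ‖Bq p p' g H ξ h‖ : ℝ) : ℂ) else 0 := by
      intro h
      have h2 : ∑ y ∈ iv p, g y * ((w h : ℂ) * u h * bs p' g H (y - h) *
          ee (ξ h * ((y - h : ℤ) : ℝ))) = (w h : ℂ) * (u h * Bq p p' g H ξ h) := by
        unfold Bq
        rw [Finset.mul_sum, Finset.mul_sum]
        refine Finset.sum_congr rfl fun y _ => ?_
        ring
      rw [h2]
      have h3 : u h * Bq p p' g H ξ h = ((‖Bq p p' g H ξ h‖ : ℝ) : ℂ) := by
        simp only [hu]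
        rw [div_mul_eq_mul_div, mul_comm ((starRingEnd ℂ) _), Complex.mul_conj,
          Complex.normSq_eq_norm_sq]
        rcases eq_or_ne (‖Bq p p' g H ξ h‖ : ℝ) 0 with h4 | h4
        · rw [h4]; simp
        · have : ((‖Bq p p' g H ξ h‖ : ℝ) : ℂ) ≠ 0 := by exact_mod_cast h4
          push_cast
          field_simp
      rw [h3]
      simp only [hw]
      split_ifs
      · push_cast; ring
      · simp
    rw [Finset.sum_congr rfl fun h _ => h1 h, ← Finset.sum_filter]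
    have h5 : Finset.filter (fun h => h ∈ Bad) (Finset.Ico a
          (a + ((2 * Ln p : ℕ) : ℤ))) = Bad := by
      ext h
      rw [Finset.mem_filter]
      exact ⟨fun hh => hh.2, fun hh => ⟨hrange h hh, hh⟩⟩
    rw [h5]
    push_cast
    rfl
  rw [hpair, Complex.norm_real, Real.norm_of_nonneg (by positivity)] at hx
  -- the cost
  have hS : cS (2 * Ln p) a w (bs p' g H) p ≤ A := by
    unfold cS
    calc _ ≤ ∑ h ∈ Finset.Ico a (a + ((2 * Ln p : ℕ) : ℤ)), w h * A :=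
          Finset.sum_le_sum fun h _ =>
            mul_le_mul_of_nonneg_left (av_bs2 hA' hlen h) (hcell.w0 h)
      _ = (∑ h ∈ Finset.Ico a (a + ((2 * Ln p : ℕ) : ℤ)), w h) * A := by
          rw [Finset.sum_mul]
      _ ≤ 1 * A := mul_le_mul_of_nonneg_right hcell.w1 hA0
      _ = A := one_mul A
  have hx2 : (1 / (Bad.card : ℝ)) * ∑ h ∈ Bad, ‖Bq p p' g H ξ h‖ ≤
      s * (t ^ γ * (t ^ δ + A)) * len p := by
    refine hx.trans ?_
    gcongr
  have hx3 : ∑ h ∈ Bad, ‖Bq p p' g H ξ h‖ ≤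
      (Bad.card : ℝ) * (s * (t ^ γ * (t ^ δ + A)) * len p) := by
    rw [one_div, inv_mul_le_iff₀ hcard] at hx2
    exact hx2
  -- sum over the bad shifts
  have hlow : (Bad.card : ℝ) * (lam * len p) < ∑ h ∈ Bad, ‖ac p p' g h (ξ h)‖ := by
    have : ∑ _h ∈ Bad, lam * len p < ∑ h ∈ Bad, ‖ac p p' g h (ξ h)‖ := by
      refine Finset.sum_lt_sum_of_nonempty ?_ hbad
      rw [← Finset.card_pos]
      exact_mod_cast hcard
    rwa [Finset.sum_const, nsmul_eq_mul] at this
  have hup : ∑ h ∈ Bad, ‖ac p p' g h (ξ h)‖ ≤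
      (Bad.card : ℝ) * (s * (t ^ γ * (t ^ δ + A)) * len p) + A ^ 3 * len p ^ 2 / H := by
    calc ∑ h ∈ Bad, ‖ac p p' g h (ξ h)‖ ≤ ∑ h ∈ Bad, (‖Bq p p' g H ξ h‖ + Tq p p' g H h) :=
          Finset.sum_le_sum fun h _ => ac_le p p' g hH0 ξ h
      _ = ∑ h ∈ Bad, ‖Bq p p' g H ξ h‖ + ∑ h ∈ Bad, Tq p p' g H h := Finset.sum_add_distrib
      _ ≤ _ := add_le_add hx3 (sum_Tq hA hA' hlen hH0 Bad)
  have hfin : A ^ 3 * len p ^ 2 / H ≤ (Bad.card : ℝ) * (A ^ 3 * t ^ C / ε * len p) := by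
    have h1 : A ^ 3 * len p ^ 2 / H = A ^ 3 * len p ^ 2 * t ^ C := by
      rw [div_eq_iff hH0.ne', mul_assoc, hHC, mul_one]
    rw [h1]
    have h2 : A ^ 3 * len p ^ 2 * t ^ C = (ε * len p) * (A ^ 3 * t ^ C / ε * len p) := by
      field_simp
    rw [h2]
    exact mul_le_mul_of_nonneg_right hcon.le (by positivity)
  have : (Bad.card : ℝ) * (lam * len p) =
      (Bad.card : ℝ) * (s * (t ^ γ * (t ^ δ + A)) * len p) +
        (Bad.card : ℝ) * (A ^ 3 * t ^ C / ε * len p) := by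
    rw [hlam]; ring
  linarith

/-- **`NC2` from the cell level at `p`** (`R` of any height, `p, p'` of the same level) -/
theorem nc2_of_lv {γ δ C t s A ε : ℝ} (ht : 0 < t) (hs : 0 ≤ s) {p p' : Nd} (hpp : p'.1 = p.1)
    {R : Fn} (hlv : LvC γ δ C t s p R) (hA : av p R ≤ A) (hA' : av p' R ≤ A)
    (hε : 2 * t ^ C ≤ ε) :
    NC2 p p' (s * (t ^ γ * (t ^ δ + A)) + A ^ 3 * t ^ C / ε) ε R := by
  classical
  set lam : ℝ := s * (t ^ γ * (t ^ δ + A)) + A ^ 3 * t ^ C / ε with hlam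
  have hl : 0 < len p := QVar181.len_pos' p
  have hA0 : 0 ≤ A := (av_nonneg' p R).trans hA
  have htC : 0 < t ^ C := Real.rpow_pos_of_pos ht _
  have htγ : 0 < t ^ γ := Real.rpow_pos_of_pos ht _
  have htδ : 0 < t ^ δ := Real.rpow_pos_of_pos ht _
  have hε0 : 0 < ε := by linarith
  have hlam0 : 0 ≤ lam := by positivity
  have hLL : Ln p' = Ln p := by unfold Ln; rw [hpp]
  set a : ℤ := (p.2 - p'.2) * (Ln p : ℤ) - (Ln p : ℤ) with ha
  set Bad : Finset ℤ := (Finset.Ico a (a + 2 * (Ln p : ℤ))).filter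
    (fun h => ∃ ξ : ℝ, lam * len p < ‖ac p p' R h ξ‖) with hBad
  have hex : ∀ h : ℤ, ∃ ξ : ℝ, h ∈ Bad → lam * len p < ‖ac p p' R h ξ‖ := by
    intro h
    by_cases hh : h ∈ Bad
    · obtain ⟨ξ, hξ⟩ := (Finset.mem_filter.1 hh).2
      exact ⟨ξ, fun _ => hξ⟩
    · exact ⟨0, fun h1 => absurd h1 hh⟩
  choose ξ hξ using hex
  refine ⟨Bad.image (fun h => -h), ?_, ?_⟩
  · have h1 := noncoll ht hs hpp hlv hA hA' hε Bad ξ fun h hh => hξ h hh
    have h2 : (Bad.image (fun h => -h)).card ≤ Bad.card := Finset.card_image_le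
    have h3 : ((Bad.image (fun h => -h)).card : ℝ) ≤ (Bad.card : ℝ) := by exact_mod_cast h2
    linarith
  · intro h hh x
    have hb : -h ∉ Bad := fun hb => hh (Finset.mem_image.2 ⟨-h, hb, neg_neg h⟩)
    have he : ∑ y ∈ iv p, (if y + h ∈ iv p' then R y * (starRingEnd ℂ) (R (y + h)) *
        ee (x * (y : ℝ)) else 0) = ac p p' R (-h) x := by
      unfold ac
      refine Finset.sum_congr rfl fun y _ => ?_
      rw [sub_neg_eq_add]
      split_ifs <;> simp
    rw [he]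
    by_cases h1 : -h ∈ Finset.Ico a (a + 2 * (Ln p : ℤ))
    · by_contra hcon
      rw [not_le] at hcon
      exact hb (Finset.mem_filter.2 ⟨h1, x, hcon⟩)
    · have h2 : ac p p' R (-h) x = 0 := by
        unfold ac
        refine Finset.sum_eq_zero fun y h3 => ?_
        rw [if_neg, zero_mul]
        intro h4
        rw [iv_eq, Finset.mem_Ico] at h3 h4
        rw [hLL] at h4
        apply h1
        rw [Finset.mem_Ico, ha]
        constructor <;> linarith
      rw [h2, norm_zero]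
      positivity

end Crest.Agent.R079.NC237
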