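import Crest.Agent.R079.Leaf_259
import Crest.Agent.R079.NC2_37

/-! R079 (T4, two-sided Step II), helper254: LEAF VALUE OF THE STATIC PAIR `(P, R)` FROM THE NON-COLLISION OF
`R` (no height of `R`, of the free letters; only `|P| ≤ H`).

* `good_le` : `∑_{x,z} b(x) A(αx+γz+σ) C(α'x+γ'z+ρ) ≤ |γ| sup|Ĉ| |b|₂ |A|₂`;
* `win_nc`  : `∑_z |∑_{x ∈ V} conj β(x) P(αx+γz+σ) R(α'x+γ'z+ρ)|² ≤ (|γ| g |P|₂² + #Bad H² |R|₂²) |β|₂²`. -/

set_option autoImplicit false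

namespace Crest.Agent.R079.HLfx254

open Finset Crest.Agent.R079.Cell37

/-- change of variable in a sum with finite support -/
theorem shift_sum {M : Type*} [AddCommMonoid M] (S N : Finset ℤ) (f : ℤ → M) (c : ℤ)
    (h1 : ∀ z, f z ≠ 0 → z ∈ S) (h2 : ∀ n, f (n - c) ≠ 0 → n ∈ N) :
    ∑ z ∈ S, f z = ∑ n ∈ N, f (n - c) := by
  classical
  have e1 : ∑ᶠ z, f z = ∑ z ∈ S, f z :=
    finsum_eq_sum_of_support_subset f (fun z hz => by exact_mod_cast h1 z hz)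
  have e2 : ∑ᶠ n, f (n - c) = ∑ n ∈ N, f (n - c) :=
    finsum_eq_sum_of_support_subset (fun n => f (n - c)) (fun z hz => by exact_mod_cast h2 z hz)
  rw [← e1, ← e2]
  exact (finsum_comp_equiv (Equiv.subRight c) (f := f)).symm

/-- solutions `n` of `c + d n ∈ U` -/
noncomputable def pre (c d : ℤ) (U : Finset ℤ) : Finset ℤ := by
  classical exact (U.image (fun y => (y - c) / d)).filter (fun n => c + d * n ∈ U)

theorem mem_pre {c d : ℤ} (hd : d ≠ 0) {U : Finset ℤ} {n : ℤ} : n ∈ pre c d U ↔ c + d * n ∈ U := by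
  classical
  unfold pre
  rw [Finset.mem_filter]
  constructor
  · exact fun h => h.2
  · intro h
    refine ⟨Finset.mem_image.2 ⟨c + d * n, h, ?_⟩, h⟩
    rw [add_sub_cancel_left, Int.mul_ediv_cancel_left n hd]

theorem sum_pre_le {c d : ℤ} (hd : d ≠ 0) {U : Finset ℤ} (f : ℤ → ℝ) (hf : ∀ y, 0 ≤ f y) :
    ∑ n ∈ pre c d U, f (c + d * n) ≤ ∑ y ∈ U, f y := by
  classical
  have hinj : Set.InjOn (fun n : ℤ => c + d * n) (pre c d U : Set ℤ) := by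
    intro x _ y _ h
    simp only at h
    exact mul_left_cancel₀ hd (by linarith)
  rw [← Finset.sum_image (f := f) hinj]
  refine Finset.sum_le_sum_of_subset_of_nonneg ?_ fun y _ _ => hf y
  intro y hy
  obtain ⟨n, hn, rfl⟩ := Finset.mem_image.1 hy
  exact (mem_pre hd).1 hn

/-- **the Toeplitz bound with two linear forms** -/
theorem good_le (X Zp U : Finset ℤ) (b A C : ℤ → ℂ) {al ga al' ga' σ ρ : ℤ} (hga : ga ≠ 0)
    (hga' : ga' ≠ 0) (hD : al' * ga - ga' * al ≠ 0) (hA : ∀ s, A s ≠ 0 → s ∈ U)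
    (hC : ∀ y, C y ≠ 0 → y ∈ U) {g : ℝ}
    (hG : ∀ ξ : ℝ, ‖∑ y ∈ U, C y * ee (ξ * (y : ℝ))‖ ≤ g)
    (hZ : ∀ x ∈ X, ∀ z, al * x + ga * z + σ ∈ U → z ∈ Zp) :
    ‖∑ x ∈ X, ∑ z ∈ Zp, b x * (A (al * x + ga * z + σ) * C (al' * x + ga' * z + ρ))‖ ≤
      |(ga : ℝ)| * (g * Real.sqrt (∑ x ∈ X, ‖b x‖ ^ 2) * Real.sqrt (∑ s ∈ U, ‖A s‖ ^ 2)) := by
  classical
  have hg0 : 0 ≤ g := (norm_nonneg _).trans (hG 0)
  set F : ℤ → ℂ := fun x =>
    ∑ z ∈ Zp, b x * (A (al * x + ga * z + σ) * C (al' * x + ga' * z + ρ)) with hF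
  set T : Finset ℤ := Finset.Ico 0 |ga| with hT
  have hmaps : ∀ x ∈ X, x % ga ∈ T := by
    intro x _
    rw [hT, Finset.mem_Ico]
    exact ⟨Int.emod_nonneg x hga, Int.emod_lt_abs x hga⟩
  have hsplit : ∑ x ∈ X, F x = ∑ x0 ∈ T, ∑ x ∈ X with x % ga = x0, F x :=
    (Finset.sum_fiberwise_of_maps_to hmaps F).symm
  have hclass : ∀ x0 ∈ T, ‖∑ x ∈ X with x % ga = x0, F x‖ ≤
      g * Real.sqrt (∑ x ∈ X, ‖b x‖ ^ 2) * Real.sqrt (∑ s ∈ U, ‖A s‖ ^ 2) := by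
    intro x0 _
    set X0 := X.filter (fun x => x % ga = x0) with hX0
    set X1 := X0.image (fun x => x / ga) with hX1
    set N := pre (al * x0 + σ) ga U with hN
    have hx : ∀ x ∈ X0, x = x0 + ga * (x / ga) := by
      intro x hx
      have h1 := (Finset.mem_filter.1 hx).2
      have h2 := Int.emod_add_mul_ediv x ga
      rw [← h1]; exact h2.symm
    have hinj : Set.InjOn (fun x : ℤ => x / ga) (X0 : Set ℤ) := by
      intro x h1 y h2 h
      have e1 := hx x h1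
      have e2 := hx y h2
      simp only at h
      rw [e1, e2, h]
    have hFx : ∀ x ∈ X0, F x = ∑ n ∈ N, (if (al' * ga - ga' * al) * (x / ga) + ga' * n +
        (al' * x0 + ρ) ∈ U then C ((al' * ga - ga' * al) * (x / ga) + ga' * n + (al' * x0 + ρ))
        else 0) * b (x0 + ga * (x / ga)) * A ((al * x0 + σ) + ga * n) := by
      intro x hx0
      have hxe := hx x hx0
      set x1 := x / ga with hx1
      have hxX := (Finset.mem_filter.1 hx0).1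
      have h1 := shift_sum Zp N
        (fun z => b x * (A (al * x + ga * z + σ) * C (al' * x + ga' * z + ρ))) (al * x1)
        (fun z hz => by
          refine hZ x hxX z (hA _ fun h0 => hz ?_)
          simp only [h0, zero_mul, mul_zero])
        (fun n hn => by
          refine (mem_pre hga).2 (hA _ fun h0 => hn ?_)
          have e : al * x + ga * (n - al * x1) + σ = al * x0 + σ + ga * n := by
            rw [hxe]; ring
          simp only [e, h0, zero_mul, mul_zero])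
      simp only [hF]
      rw [h1]
      refine Finset.sum_congr rfl fun n _ => ?_
      have e1 : al * x + ga * (n - al * x1) + σ = al * x0 + σ + ga * n := by
        rw [hxe]; ring
      have e2 : al' * x + ga' * (n - al * x1) + ρ =
          (al' * ga - ga' * al) * x1 + ga' * n + (al' * x0 + ρ) := by
        rw [hxe]; ring
      rw [e1, e2, ← hxe]
      split_ifs with hmem
      · ring
      · have : C ((al' * ga - ga' * al) * x1 + ga' * n + (al' * x0 + ρ)) = 0 := by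
          by_contra hne
          exact hmem (hC _ hne)
        rw [this]; ring
    have e1 : ∑ x ∈ X0, F x = ∑ x1 ∈ X1, ∑ n ∈ N, (if (al' * ga - ga' * al) * x1 + ga' * n +
        (al' * x0 + ρ) ∈ U then C ((al' * ga - ga' * al) * x1 + ga' * n + (al' * x0 + ρ))
        else 0) * b (x0 + ga * x1) * A ((al * x0 + σ) + ga * n) := by
      rw [hX1, Finset.sum_image hinj]
      exact Finset.sum_congr rfl fun x hx => hFx x hx
    rw [e1]
    refine (Hank37.hankel_op U X1 N C (fun x1 => b (x0 + ga * x1))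
      (fun n => A ((al * x0 + σ) + ga * n)) hD hga' (al' * x0 + ρ) hG).trans ?_
    have h2 : ∑ x1 ∈ X1, ‖b (x0 + ga * x1)‖ ^ 2 ≤ ∑ x ∈ X, ‖b x‖ ^ 2 := by
      rw [hX1, Finset.sum_image hinj]
      have e : ∑ x ∈ X0, ‖b (x0 + ga * (x / ga))‖ ^ 2 = ∑ x ∈ X0, ‖b x‖ ^ 2 :=
        Finset.sum_congr rfl fun x hx' => by rw [← hx x hx']
      rw [e]
      exact Finset.sum_le_sum_of_subset_of_nonneg (Finset.filter_subset _ _)
        fun _ _ _ => by positivity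
    have h3 : ∑ n ∈ N, ‖A ((al * x0 + σ) + ga * n)‖ ^ 2 ≤ ∑ s ∈ U, ‖A s‖ ^ 2 :=
      sum_pre_le hga (fun s => ‖A s‖ ^ 2) fun s => by positivity
    exact mul_le_mul (mul_le_mul_of_nonneg_left (Real.sqrt_le_sqrt h2) hg0)
      (Real.sqrt_le_sqrt h3) (Real.sqrt_nonneg _) (by positivity)
  rw [hsplit]
  refine (norm_sum_le _ _).trans ((Finset.sum_le_sum hclass).trans ?_)
  rw [Finset.sum_const, nsmul_eq_mul]
  refine mul_le_mul_of_nonneg_right (le_of_eq ?_) (by positivity)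
  rw [hT, Int.card_Ico, sub_zero]
  have h4 : ((|ga|.toNat : ℕ) : ℤ) = |ga| := Int.toNat_of_nonneg (abs_nonneg ga)
  have h5 : ((|ga|.toNat : ℕ) : ℝ) = ((|ga| : ℤ) : ℝ) := by rw [← h4]; push_cast; rfl
  rw [h5, Int.cast_abs]

/-- differences of the elements of `V` -/
noncomputable def Hs (V : Finset ℤ) : Finset ℤ := (V ×ˢ V).image (fun q => q.2 - q.1)

theorem diff_sum {M : Type*} [AddCommMonoid M] (V : Finset ℤ) (T : ℤ → ℤ → M) :
    ∑ x ∈ V, ∑ x' ∈ V, T x x' = ∑ h ∈ Hs V, ∑ x ∈ V with x + h ∈ V, T x (x + h) := by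
  classical
  have h1 : ∀ x ∈ V, ∑ x' ∈ V, T x x' = ∑ h ∈ Hs V, if x + h ∈ V then T x (x + h) else 0 := by
    intro x hx
    rw [← Finset.sum_filter]
    refine Finset.sum_bij' (fun x' _ => x' - x) (fun h _ => x + h) ?_ ?_ ?_ ?_ ?_
    · intro x' hx'
      rw [Finset.mem_filter]
      refine ⟨Finset.mem_image.2 ⟨(x, x'), Finset.mem_product.2 ⟨hx, hx'⟩, rfl⟩, ?_⟩
      have : x + (x' - x) = x' := by ring
      rw [this]; exact hx'
    · intro h hh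
      exact (Finset.mem_filter.1 hh).2
    · intro x' _
      show x + (x' - x) = x'
      ring
    · intro h _
      show x + h - x = h
      ring
    · intro x' _
      have : x + (x' - x) = x' := by ring
      rw [this]
  rw [Finset.sum_congr rfl h1, Finset.sum_comm]
  refine Finset.sum_congr rfl fun h _ => ?_
  rw [Finset.sum_filter]

theorem inj_sum_le {c d : ℤ} (hd : d ≠ 0) (S U : Finset ℤ) (f : ℤ → ℝ) (hf : ∀ y, 0 ≤ f y)
    (hU : ∀ y, f y ≠ 0 → y ∈ U) : ∑ h ∈ S, f (c + d * h) ≤ ∑ y ∈ U, f y := by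
  classical
  have h1 : ∑ h ∈ S, f (c + d * h) ≤ ∑ n ∈ pre c d U, f (c + d * n) := by
    have e : ∑ h ∈ S, f (c + d * h) = ∑ h ∈ S with h ∈ pre c d U, f (c + d * h) := by
      rw [Finset.sum_filter]
      refine Finset.sum_congr rfl fun h _ => ?_
      split_ifs with hh
      · rfl
      · by_contra hne
        exact hh ((mem_pre hd).2 (hU _ hne))
    rw [e]
    exact Finset.sum_le_sum_of_subset_of_nonneg
      (fun h hh => (Finset.mem_filter.1 hh).2) fun _ _ _ => hf _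
  exact h1.trans (sum_pre_le hd f hf)

theorem sum_diff_prod (V : Finset ℤ) (f : ℤ → ℝ) :
    ∑ h ∈ Hs V, ∑ x ∈ V with x + h ∈ V, f x * f (x + h) = (∑ x ∈ V, f x) ^ 2 := by
  rw [← diff_sum V (fun x x' => f x * f x'), sq, Finset.sum_mul_sum]

/-- **ONE WINDOW**: non-collision of `R` (the function `G`), `|P| ≤ H` -/
theorem win_nc {V Zs U : Finset ℤ} {al ga al' ga' σ ρ : ℤ} (hal : al ≠ 0) (hga : ga ≠ 0)
    (hga' : ga' ≠ 0) (hD : al' * ga - ga' * al ≠ 0) (β P G : ℤ → ℂ)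
    (hU : ∀ x ∈ V, ∀ z ∈ Zs, al * x + ga * z + σ ∈ U ∧ al' * x + ga' * z + ρ ∈ U)
    {H g : ℝ} (hH0 : 0 ≤ H) (hg0 : 0 ≤ g) (hH : ∀ y ∈ U, ‖P y‖ ≤ H) (Bad : Finset ℤ)
    (hNC : ∀ h ∈ Hs V, h ∉ Bad → ∀ ξ : ℝ, ‖∑ y ∈ U, (if y + al' * h ∈ U then
      G y * (starRingEnd ℂ) (G (y + al' * h)) else 0) * ee (ξ * (y : ℝ))‖ ≤ g) :
    ∑ z ∈ Zs, ‖∑ x ∈ V, star (β x) * (P (al * x + ga * z + σ) * G (al' * x + ga' * z + ρ))‖ ^ 2 ≤
      (|(ga : ℝ)| * g * (∑ y ∈ U, ‖P y‖ ^ 2) + Bad.card * (H ^ 2 * ∑ y ∈ U, ‖G y‖ ^ 2)) *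
        ∑ x ∈ V, ‖β x‖ ^ 2 := by
  classical
  set Pt : ℤ → ℂ := fun y => if y ∈ U then P y else 0 with hPt
  set Gt : ℤ → ℂ := fun y => if y ∈ U then G y else 0 with hGt
  set Zp : Finset ℤ := Zs ∪ V.biUnion (fun x => pre (al * x + σ) ga U) with hZp
  set SB : ℝ := ∑ x ∈ V, ‖β x‖ ^ 2 with hSB
  set SP : ℝ := ∑ y ∈ U, ‖P y‖ ^ 2 with hSP
  set SG : ℝ := ∑ y ∈ U, ‖G y‖ ^ 2 with hSG
  have hSB0 : 0 ≤ SB := Finset.sum_nonneg fun _ _ => by positivity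
  have hSP0 : 0 ≤ SP := Finset.sum_nonneg fun _ _ => by positivity
  have hSG0 : 0 ≤ SG := Finset.sum_nonneg fun _ _ => by positivity
  have hPs : ∀ y, Pt y ≠ 0 → y ∈ U := by
    intro y hy; by_contra hc; exact hy (if_neg hc)
  have hGs : ∀ y, Gt y ≠ 0 → y ∈ U := by
    intro y hy; by_contra hc; exact hy (if_neg hc)
  have hPH : ∀ y, ‖Pt y‖ ≤ H := by
    intro y
    simp only [hPt]
    split_ifs with h
    · exact hH y h
    · simpa using hH0
  have hPt2 : ∑ y ∈ U, ‖Pt y‖ ^ 2 = SP :=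
    Finset.sum_congr rfl fun y hy => by simp only [hPt, if_pos hy]
  have hGt2 : ∑ y ∈ U, ‖Gt y‖ ^ 2 = SG :=
    Finset.sum_congr rfl fun y hy => by simp only [hGt, if_pos hy]
  set a : ℤ → ℤ → ℂ := fun x z =>
    star (β x) * (Pt (al * x + ga * z + σ) * Gt (al' * x + ga' * z + ρ)) with ha
  -- the sum over `Zs` is dominated by the full sum of the truncated kernel
  have e1 : ∑ z ∈ Zs, ‖∑ x ∈ V, star (β x) *
      (P (al * x + ga * z + σ) * G (al' * x + ga' * z + ρ))‖ ^ 2 ≤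
      ∑ z ∈ Zp, ‖∑ x ∈ V, a x z‖ ^ 2 := by
    have : ∑ z ∈ Zs, ‖∑ x ∈ V, star (β x) *
      (P (al * x + ga * z + σ) * G (al' * x + ga' * z + ρ))‖ ^ 2 = ∑ z ∈ Zs, ‖∑ x ∈ V, a x z‖ ^ 2 := by
      refine Finset.sum_congr rfl fun z hz => ?_
      congr 2
      refine Finset.sum_congr rfl fun x hx => ?_
      obtain ⟨h1, h2⟩ := hU x hx z hz
      simp only [ha, hPt, hGt, if_pos h1, if_pos h2]
    rw [this]
    exact Finset.sum_le_sum_of_subset_of_nonneg Finset.subset_union_left fun _ _ _ => by positivity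
  -- correlations
  set T : ℤ → ℤ → ℂ := fun x x' => ∑ z ∈ Zp, a x z * (starRingEnd ℂ) (a x' z) with hT
  have e2 : ∑ z ∈ Zp, ‖∑ x ∈ V, a x z‖ ^ 2 ≤
      ∑ h ∈ Hs V, ‖∑ x ∈ V with x + h ∈ V, T x (x + h)‖ := by
    have h1 : ((∑ z ∈ Zp, ‖∑ x ∈ V, a x z‖ ^ 2 : ℝ) : ℂ) = ∑ x ∈ V, ∑ x' ∈ V, T x x' := by
      push_cast
      have h2 : ∀ z ∈ Zp, ((‖∑ x ∈ V, a x z‖ : ℝ) : ℂ) ^ 2 =
          ∑ x ∈ V, ∑ x' ∈ V, a x z * (starRingEnd ℂ) (a x' z) := by
        intro z _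
        rw [← Complex.mul_conj', map_sum, Finset.sum_mul_sum]
      rw [Finset.sum_congr rfl h2, Finset.sum_comm]
      refine Finset.sum_congr rfl fun x _ => ?_
      rw [Finset.sum_comm]
    rw [diff_sum] at h1
    have h3 : 0 ≤ ∑ z ∈ Zp, ‖∑ x ∈ V, a x z‖ ^ 2 := Finset.sum_nonneg fun _ _ => by positivity
    have h4 : ‖((∑ z ∈ Zp, ‖∑ x ∈ V, a x z‖ ^ 2 : ℝ) : ℂ)‖ = ∑ z ∈ Zp, ‖∑ x ∈ V, a x z‖ ^ 2 := by
      rw [Complex.norm_real, Real.norm_of_nonneg h3]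
    rw [← h4, h1]
    exact norm_sum_le _ _
  -- the form for one shift
  obtain ⟨bh, hbh⟩ : ∃ f : ℤ → ℤ → ℂ, ∀ h x, f h x = star (β x) * β (x + h) := ⟨_, fun _ _ => rfl⟩
  obtain ⟨Ah, hAh⟩ : ∃ f : ℤ → ℤ → ℂ, ∀ h s, f h s = Pt s * (starRingEnd ℂ) (Pt (s + al * h)) :=
    ⟨_, fun _ _ => rfl⟩
  obtain ⟨Ch, hCh⟩ : ∃ f : ℤ → ℤ → ℂ, ∀ h s, f h s = Gt s * (starRingEnd ℂ) (Gt (s + al' * h)) :=
    ⟨_, fun _ _ => rfl⟩
  have e3 : ∀ h : ℤ, ∑ x ∈ V with x + h ∈ V, T x (x + h) =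
      ∑ x ∈ V with x + h ∈ V, ∑ z ∈ Zp, bh h x *
        (Ah h (al * x + ga * z + σ) * Ch h (al' * x + ga' * z + ρ)) := by
    intro h
    refine Finset.sum_congr rfl fun x _ => ?_
    simp only [hT]
    refine Finset.sum_congr rfl fun z _ => ?_
    simp only [ha, hbh, hAh, hCh]
    have g1 : al * (x + h) + ga * z + σ = al * x + ga * z + σ + al * h := by ring
    have g2 : al' * (x + h) + ga' * z + ρ = al' * x + ga' * z + ρ + al' * h := by ring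
    rw [g1, g2, map_mul, map_mul]
    have g3 : (starRingEnd ℂ) (star (β (x + h))) = β (x + h) := by
      rw [show star (β (x + h)) = (starRingEnd ℂ) (β (x + h)) from rfl, Complex.conj_conj]
    rw [g3]
    ring
  -- good shifts
  have hgood : ∀ h ∈ Hs V, h ∉ Bad → ‖∑ x ∈ V with x + h ∈ V, T x (x + h)‖ ≤
      |(ga : ℝ)| * g * (Real.sqrt (∑ x ∈ V with x + h ∈ V, ‖β x‖ ^ 2 * ‖β (x + h)‖ ^ 2) *
        Real.sqrt (∑ s ∈ U, ‖Pt s‖ ^ 2 * ‖Pt (s + al * h)‖ ^ 2)) := by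
    intro h hh hb
    rw [e3]
    have k1 : ∀ s, Ah h s ≠ 0 → s ∈ U := by
      intro s hs
      exact hPs s fun h0 => hs (by rw [hAh, h0, zero_mul])
    have k2 : ∀ y, Ch h y ≠ 0 → y ∈ U := by
      intro y hy
      exact hGs y fun h0 => hy (by rw [hCh, h0, zero_mul])
    have k3 : ∀ ξ : ℝ, ‖∑ y ∈ U, Ch h y * ee (ξ * (y : ℝ))‖ ≤ g := by
      intro ξ
      refine le_trans (le_of_eq ?_) (hNC h hh hb ξ)
      congr 1
      refine Finset.sum_congr rfl fun y hy => ?_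
      rw [hCh]
      simp only [hGt, if_pos hy]
      split_ifs <;> simp
    have k4 : ∀ x ∈ V.filter (fun x => x + h ∈ V), ∀ z, al * x + ga * z + σ ∈ U → z ∈ Zp := by
      intro x hx z hz
      rw [hZp, Finset.mem_union]
      right
      refine Finset.mem_biUnion.2 ⟨x, (Finset.mem_filter.1 hx).1, (mem_pre hga).2 ?_⟩
      have : al * x + σ + ga * z = al * x + ga * z + σ := by ring
      rw [this]; exact hz
    have k5 := good_le (V.filter (fun x => x + h ∈ V)) Zp U (bh h) (Ah h) (Ch h)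
      (al := al) (ga := ga) (al' := al') (ga' := ga') (σ := σ) (ρ := ρ) hga hga' hD k1 k2 k3 k4
    refine k5.trans (le_of_eq ?_)
    have g1 : ∑ x ∈ V with x + h ∈ V, ‖bh h x‖ ^ 2 =
        ∑ x ∈ V with x + h ∈ V, ‖β x‖ ^ 2 * ‖β (x + h)‖ ^ 2 :=
      Finset.sum_congr rfl fun x _ => by rw [hbh, norm_mul, norm_star, mul_pow]
    have g2 : ∑ s ∈ U, ‖Ah h s‖ ^ 2 =
        ∑ s ∈ U, ‖Pt s‖ ^ 2 * ‖Pt (s + al * h)‖ ^ 2 :=
      Finset.sum_congr rfl fun x _ => by rw [hAh, norm_mul, RCLike.norm_conj, mul_pow]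
    rw [g1, g2]
    ring
  -- bad shifts
  have hbad : ∀ h : ℤ, ‖∑ x ∈ V with x + h ∈ V, T x (x + h)‖ ≤ H ^ 2 * SG * SB := by
    intro h
    rw [e3]
    have h1 : ∀ x ∈ V, ∑ z ∈ Zp, ‖Gt (al' * x + ga' * z + ρ)‖ *
        ‖Gt (al' * x + ga' * z + ρ + al' * h)‖ ≤ SG := by
      intro x _
      have g1 : ∀ c : ℤ, ∑ z ∈ Zp, ‖Gt (c + ga' * z)‖ ^ 2 ≤ SG := by
        intro c
        rw [← hGt2]
        exact inj_sum_le hga' Zp U (fun y => ‖Gt y‖ ^ 2) (fun y => by positivity)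
          (fun y hy => hGs y fun h0 => hy (by rw [h0]; simp))
      have g2 := Finset.sum_mul_sq_le_sq_mul_sq Zp (fun z => ‖Gt (al' * x + ga' * z + ρ)‖)
        (fun z => ‖Gt (al' * x + ga' * z + ρ + al' * h)‖)
      have g3 : ∑ z ∈ Zp, ‖Gt (al' * x + ga' * z + ρ)‖ ^ 2 ≤ SG := by
        refine le_trans (le_of_eq ?_) (g1 (al' * x + ρ))
        refine Finset.sum_congr rfl fun z _ => ?_
        congr 3; ring
      have g4 : ∑ z ∈ Zp, ‖Gt (al' * x + ga' * z + ρ + al' * h)‖ ^ 2 ≤ SG := by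
        refine le_trans (le_of_eq ?_) (g1 (al' * x + ρ + al' * h))
        refine Finset.sum_congr rfl fun z _ => ?_
        congr 3; ring
      have g5 : (∑ z ∈ Zp, ‖Gt (al' * x + ga' * z + ρ)‖ *
          ‖Gt (al' * x + ga' * z + ρ + al' * h)‖) ^ 2 ≤ SG ^ 2 := by
        refine g2.trans ?_
        rw [sq SG]
        exact mul_le_mul g3 g4 (Finset.sum_nonneg fun _ _ => by positivity) hSG0
      exact (sq_le_sq₀ (Finset.sum_nonneg fun _ _ => by positivity) hSG0).1 g5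
    have h2 : ∀ x ∈ V.filter (fun x => x + h ∈ V), ‖∑ z ∈ Zp, bh h x *
        (Ah h (al * x + ga * z + σ) * Ch h (al' * x + ga' * z + ρ))‖ ≤
        (H ^ 2 * SG) * (‖β x‖ * ‖β (x + h)‖) := by
      intro x hx
      have hxV := (Finset.mem_filter.1 hx).1
      refine (norm_sum_le _ _).trans ?_
      have g1 : ∀ z ∈ Zp, ‖bh h x *
        (Ah h (al * x + ga * z + σ) * Ch h (al' * x + ga' * z + ρ))‖ ≤
          (‖β x‖ * ‖β (x + h)‖ * H ^ 2) * (‖Gt (al' * x + ga' * z + ρ)‖ *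
            ‖Gt (al' * x + ga' * z + ρ + al' * h)‖) := by
        intro z _
        rw [hbh, hAh, hCh]
        simp only [norm_mul, norm_star, RCLike.norm_conj]
        have g2 : ‖Pt (al * x + ga * z + σ)‖ * ‖Pt (al * x + ga * z + σ + al * h)‖ ≤ H ^ 2 := by
          rw [sq]
          exact mul_le_mul (hPH _) (hPH _) (norm_nonneg _) hH0
        calc _ = (‖β x‖ * ‖β (x + h)‖) * ((‖Pt (al * x + ga * z + σ)‖ *
              ‖Pt (al * x + ga * z + σ + al * h)‖) * (‖Gt (al' * x + ga' * z + ρ)‖ *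
            ‖Gt (al' * x + ga' * z + ρ + al' * h)‖)) := by ring
          _ ≤ (‖β x‖ * ‖β (x + h)‖) * (H ^ 2 * (‖Gt (al' * x + ga' * z + ρ)‖ *
            ‖Gt (al' * x + ga' * z + ρ + al' * h)‖)) := by
              refine mul_le_mul_of_nonneg_left (mul_le_mul_of_nonneg_right g2 ?_) ?_ <;> positivity
          _ = _ := by ring
      refine (Finset.sum_le_sum g1).trans ?_
      rw [← Finset.mul_sum]
      calc _ ≤ (‖β x‖ * ‖β (x + h)‖ * H ^ 2) * SG :=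
            mul_le_mul_of_nonneg_left (h1 x hxV) (by positivity)
        _ = _ := by ring
    refine (norm_sum_le _ _).trans ((Finset.sum_le_sum h2).trans ?_)
    rw [← Finset.mul_sum]
    refine mul_le_mul_of_nonneg_left ?_ (by positivity)
    -- `∑ |β(x)||β(x+h)| ≤ ∑ |β|²`
    have g2 := Finset.sum_mul_sq_le_sq_mul_sq (V.filter (fun x => x + h ∈ V)) (fun x => ‖β x‖)
      (fun x => ‖β (x + h)‖)
    have g3 : ∑ x ∈ V with x + h ∈ V, ‖β x‖ ^ 2 ≤ SB :=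
      Finset.sum_le_sum_of_subset_of_nonneg (Finset.filter_subset _ _) fun _ _ _ => by positivity
    have g4 : ∑ x ∈ V with x + h ∈ V, ‖β (x + h)‖ ^ 2 ≤ SB := by
      have hinj : Set.InjOn (fun x : ℤ => x + h) (V.filter (fun x => x + h ∈ V) : Set ℤ) :=
        fun x _ y _ e => by simpa using e
      rw [← Finset.sum_image (f := fun y => ‖β y‖ ^ 2) hinj]
      refine Finset.sum_le_sum_of_subset_of_nonneg ?_ fun _ _ _ => by positivity
      intro y hy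
      obtain ⟨x, hx, rfl⟩ := Finset.mem_image.1 hy
      exact (Finset.mem_filter.1 hx).2
    have g5 : (∑ x ∈ V with x + h ∈ V, ‖β x‖ * ‖β (x + h)‖) ^ 2 ≤ SB ^ 2 := by
      refine g2.trans ?_
      rw [sq SB]
      exact mul_le_mul g3 g4 (Finset.sum_nonneg fun _ _ => by positivity) hSB0
    exact (sq_le_sq₀ (Finset.sum_nonneg fun _ _ => by positivity) hSB0).1 g5
  -- summation over the shifts
  have hsumB : ∑ h ∈ Hs V, ∑ x ∈ V with x + h ∈ V, ‖β x‖ ^ 2 * ‖β (x + h)‖ ^ 2 = SB ^ 2 :=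
    sum_diff_prod V (fun x => ‖β x‖ ^ 2)
  have hsumP : ∑ h ∈ Hs V, ∑ s ∈ U, ‖Pt s‖ ^ 2 * ‖Pt (s + al * h)‖ ^ 2 ≤ SP ^ 2 := by
    rw [Finset.sum_comm]
    have h1 : ∀ s ∈ U, ∑ h ∈ Hs V, ‖Pt s‖ ^ 2 * ‖Pt (s + al * h)‖ ^ 2 ≤ ‖Pt s‖ ^ 2 * SP := by
      intro s _
      rw [← Finset.mul_sum]
      refine mul_le_mul_of_nonneg_left ?_ (by positivity)
      rw [← hPt2]
      exact inj_sum_le hal (Hs V) U (fun y => ‖Pt y‖ ^ 2) (fun y => by positivity)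
        (fun y hy => hPs y fun h0 => hy (by rw [h0]; simp))
    refine (Finset.sum_le_sum h1).trans (le_of_eq ?_)
    rw [← Finset.sum_mul, hPt2, sq]
  have e4 : ∑ h ∈ Hs V, ‖∑ x ∈ V with x + h ∈ V, T x (x + h)‖ ≤
      ∑ h ∈ Hs V, (|(ga : ℝ)| * g * (Real.sqrt (∑ x ∈ V with x + h ∈ V, ‖β x‖ ^ 2 * ‖β (x + h)‖ ^ 2) *
        Real.sqrt (∑ s ∈ U, ‖Pt s‖ ^ 2 * ‖Pt (s + al * h)‖ ^ 2)) +
        (if h ∈ Bad then H ^ 2 * SG * SB else 0)) := by
    refine Finset.sum_le_sum fun h hh => ?_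
    by_cases hb : h ∈ Bad
    · rw [if_pos hb]
      have : 0 ≤ |(ga : ℝ)| * g * (Real.sqrt (∑ x ∈ V with x + h ∈ V, ‖β x‖ ^ 2 * ‖β (x + h)‖ ^ 2) *
        Real.sqrt (∑ s ∈ U, ‖Pt s‖ ^ 2 * ‖Pt (s + al * h)‖ ^ 2)) := by positivity
      linarith [hbad h]
    · rw [if_neg hb, add_zero]
      exact hgood h hh hb
  have e5 : ∑ h ∈ Hs V, (Real.sqrt (∑ x ∈ V with x + h ∈ V, ‖β x‖ ^ 2 * ‖β (x + h)‖ ^ 2) *
        Real.sqrt (∑ s ∈ U, ‖Pt s‖ ^ 2 * ‖Pt (s + al * h)‖ ^ 2)) ≤ SB * SP := by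
    refine (Real.sum_sqrt_mul_sqrt_le (Hs V)
      (fun h => Finset.sum_nonneg fun _ _ => by positivity)
      (fun h => Finset.sum_nonneg fun _ _ => by positivity)).trans ?_
    rw [hsumB, Real.sqrt_sq hSB0]
    refine mul_le_mul_of_nonneg_left ?_ hSB0
    calc _ ≤ Real.sqrt (SP ^ 2) := Real.sqrt_le_sqrt hsumP
      _ = SP := Real.sqrt_sq hSP0
  have e6 : ∑ h ∈ Hs V, (if h ∈ Bad then H ^ 2 * SG * SB else 0) ≤ Bad.card * (H ^ 2 * SG * SB) := by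
    rw [← Finset.sum_filter, Finset.sum_const, nsmul_eq_mul]
    refine mul_le_mul_of_nonneg_right ?_ (by positivity)
    exact_mod_cast Finset.card_le_card (fun h hh => (Finset.mem_filter.1 hh).2)
  rw [Finset.sum_add_distrib, ← Finset.mul_sum] at e4
  calc _ ≤ _ := e1
    _ ≤ _ := e2
    _ ≤ _ := e4
    _ ≤ |(ga : ℝ)| * g * (SB * SP) + Bad.card * (H ^ 2 * SG * SB) :=
        add_le_add (mul_le_mul_of_nonneg_left e5 (by positivity)) e6
    _ = _ := by ring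

/-! ### clusters of nodes of one level -/

open Crest.Agent.R079.Grid Crest.Agent.R079.Growth Crest.Agent.R079.QRed Crest.Agent.R079.NC237

theorem mem_iv2 {k : ℕ} {l y : ℤ} : y ∈ iv (k, l) ↔ y / 2 ^ (k + 7) = l := by
  rw [Crest.Agent.R079.Qh249.mem_iv (p := (k, l))]

/-- union of the nodes `(k, l)`, `l ∈ Lx` -/
noncomputable def clU (k : ℕ) (Lx : Finset ℤ) : Finset ℤ := Lx.biUnion (fun l => iv (k, l))

theorem mem_clU {k : ℕ} {Lx : Finset ℤ} {y : ℤ} : y ∈ clU k Lx ↔ y / 2 ^ (k + 7) ∈ Lx := by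
  unfold clU
  rw [Finset.mem_biUnion]
  constructor
  · rintro ⟨l, hl, hy⟩
    have : y / 2 ^ (k + 7) = l := mem_iv2.1 hy
    rwa [this]
  · intro h
    exact ⟨_, h, mem_iv2.2 rfl⟩

theorem iv_disj {k : ℕ} {l l' : ℤ} (h : l ≠ l') : Disjoint (iv (k, l)) (iv (k, l')) := by
  rw [Finset.disjoint_left]
  intro y hy hy'
  have h1 : y / 2 ^ (k + 7) = l := mem_iv2.1 hy
  have h2 : y / 2 ^ (k + 7) = l' := mem_iv2.1 hy'
  exact h (h1.symm.trans h2)

theorem sum_clU {M : Type*} [AddCommMonoid M] (k : ℕ) (Lx : Finset ℤ) (f : ℤ → M) :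
    ∑ y ∈ clU k Lx, f y = ∑ l ∈ Lx, ∑ y ∈ iv (k, l), f y := by
  unfold clU
  exact Finset.sum_biUnion fun l _ l' _ h => iv_disj h

theorem ite_clU {M : Type*} [AddCommMonoid M] (k : ℕ) (Lx : Finset ℤ) (y : ℤ) (v : M) :
    (if y ∈ clU k Lx then v else 0) = ∑ l ∈ Lx, if y ∈ iv (k, l) then v else 0 := by
  classical
  by_cases h : y / 2 ^ (k + 7) ∈ Lx
  · rw [if_pos (mem_clU.2 h), Finset.sum_eq_single (y / 2 ^ (k + 7))]
    · rw [if_pos (mem_iv2.2 rfl)]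
    · intro l _ hl
      rw [if_neg]
      intro hy
      exact hl (mem_iv2.1 hy).symm
    · intro h'
      exact absurd h h'
  · rw [if_neg (fun h' => h (mem_clU.1 h')), Finset.sum_eq_zero]
    intro l hl
    rw [if_neg]
    intro hy
    apply h
    have : y / 2 ^ (k + 7) = l := mem_iv2.1 hy
    rwa [this]

/-- **non-collision on a cluster**, shifts `al * h` -/
theorem cluster_nc {k : ℕ} {Lx : Finset ℤ} {R : ℤ → ℂ} {g δ : ℝ}
    (hn : ∀ l ∈ Lx, ∀ l' ∈ Lx, NC2 (k, l) (k, l') g δ R) {al : ℤ} (hal : al ≠ 0) :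
    ∃ Bad : Finset ℤ, (Bad.card : ℝ) ≤ (Lx.card : ℝ) ^ 2 * (δ * 2 ^ (k + 7)) ∧
      ∀ h ∉ Bad, ∀ ξ : ℝ, ‖∑ y ∈ clU k Lx, (if y + al * h ∈ clU k Lx then
        R y * (starRingEnd ℂ) (R (y + al * h)) else 0) * ee (ξ * (y : ℝ))‖ ≤
        (Lx.card : ℝ) ^ 2 * (g * 2 ^ (k + 7)) := by
  classical
  have hn' : ∀ l l' : ℤ, ∃ Z : Finset ℤ, l ∈ Lx → l' ∈ Lx → (Z.card : ℝ) ≤ δ * 2 ^ (k + 7) ∧
      ∀ h ∉ Z, ∀ ξ : ℝ, ‖∑ y ∈ iv (k, l), (if y + h ∈ iv (k, l') then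
        R y * (starRingEnd ℂ) (R (y + h)) * ee (ξ * (y : ℝ)) else 0)‖ ≤ g * 2 ^ (k + 7) := by
    intro l l'
    by_cases h : l ∈ Lx ∧ l' ∈ Lx
    · obtain ⟨Z, h1, h2⟩ := hn l h.1 l' h.2
      exact ⟨Z, fun _ _ => ⟨h1, h2⟩⟩
    · exact ⟨∅, fun h1 h2 => absurd ⟨h1, h2⟩ h⟩
  choose Z hZ using hn'
  set ZZ : Finset ℤ := (Lx ×ˢ Lx).biUnion (fun q => Z q.1 q.2) with hZZ
  refine ⟨pre 0 al ZZ, ?_, ?_⟩
  · have h1 : ((pre 0 al ZZ).card : ℝ) ≤ ZZ.card := by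
      have h2 : (pre 0 al ZZ).card ≤ ZZ.card := by
        refine Finset.card_le_card_of_injOn (fun n => 0 + al * n) ?_ ?_
        · intro n hn
          exact (mem_pre hal).1 hn
        · intro x _ y _ h
          simp only [zero_add] at h
          exact mul_left_cancel₀ hal h
      exact_mod_cast h2
    refine h1.trans ?_
    have h3 : (ZZ.card : ℝ) ≤ ∑ q ∈ Lx ×ˢ Lx, ((Z q.1 q.2).card : ℝ) := by
      exact_mod_cast (Finset.card_biUnion_le (s := Lx ×ˢ Lx) (t := fun q => Z q.1 q.2))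
    refine h3.trans ?_
    have h4 : ∑ q ∈ Lx ×ˢ Lx, ((Z q.1 q.2).card : ℝ) ≤ ∑ _q ∈ Lx ×ˢ Lx, δ * 2 ^ (k + 7) := by
      refine Finset.sum_le_sum fun q hq => ?_
      obtain ⟨h5, h6⟩ := Finset.mem_product.1 hq
      exact (hZ q.1 q.2 h5 h6).1
    refine h4.trans (le_of_eq ?_)
    rw [Finset.sum_const, Finset.card_product, nsmul_eq_mul]
    push_cast
    ring
  · intro h hh ξ
    have hmem : ∀ l ∈ Lx, ∀ l' ∈ Lx, al * h ∉ Z l l' := by
      intro l hl l' hl' hc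
      apply hh
      refine (mem_pre hal).2 ?_
      rw [zero_add]
      exact Finset.mem_biUnion.2 ⟨(l, l'), Finset.mem_product.2 ⟨hl, hl'⟩, hc⟩
    have e1 : ∑ y ∈ clU k Lx, (if y + al * h ∈ clU k Lx then
        R y * (starRingEnd ℂ) (R (y + al * h)) else 0) * ee (ξ * (y : ℝ)) =
        ∑ l ∈ Lx, ∑ l' ∈ Lx, ∑ y ∈ iv (k, l), (if y + al * h ∈ iv (k, l') then
          R y * (starRingEnd ℂ) (R (y + al * h)) * ee (ξ * (y : ℝ)) else 0) := by
      rw [sum_clU]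
      refine Finset.sum_congr rfl fun l _ => ?_
      rw [Finset.sum_comm]
      refine Finset.sum_congr rfl fun y _ => ?_
      rw [← ite_clU k Lx (y + al * h) (R y * (starRingEnd ℂ) (R (y + al * h)) * ee (ξ * (y : ℝ)))]
      split_ifs
      · rfl
      · rw [zero_mul]
    rw [e1]
    refine (norm_sum_le _ _).trans ?_
    have h2 : ∀ l ∈ Lx, ‖∑ l' ∈ Lx, ∑ y ∈ iv (k, l), (if y + al * h ∈ iv (k, l') then
          R y * (starRingEnd ℂ) (R (y + al * h)) * ee (ξ * (y : ℝ)) else 0)‖ ≤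
        Lx.card * (g * 2 ^ (k + 7)) := by
      intro l hl
      refine (norm_sum_le _ _).trans ?_
      refine (Finset.sum_le_sum fun l' hl' =>
        (hZ l l' hl hl').2 (al * h) (hmem l hl l' hl') ξ).trans (le_of_eq ?_)
      rw [Finset.sum_const, nsmul_eq_mul]
    refine (Finset.sum_le_sum h2).trans (le_of_eq ?_)
    rw [Finset.sum_const, nsmul_eq_mul]
    ring

theorem sum_clU_le {k : ℕ} {Lx : Finset ℤ} {f : ℤ → ℝ} {A : ℝ}
    (h : ∀ l ∈ Lx, ∑ y ∈ iv (k, l), f y ≤ A) : ∑ y ∈ clU k Lx, f y ≤ Lx.card * A := by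
  rw [sum_clU]
  refine (Finset.sum_le_sum h).trans (le_of_eq ?_)
  rw [Finset.sum_const, nsmul_eq_mul]

/-! ### the leaf value -/

open Crest.Agent.R079.Wb71 Crest.Agent.R079.Wa71 Crest.Agent.R079.Cmp408 Crest.Agent.R079.LfK71
open Crest.Agent.R079.F2 Crest.Agent.R079.Leaf259

lemma sl_ne {c e : Fin 4} (h : c ≠ e) : sl c - sl e ≠ 0 := by revert c e; decide

lemma card_Xs_le {c d : ℤ} (hd : d ≠ 0) (p : Nd) : ((Xs c d p).card : ℝ) ≤ len p := by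
  classical
  have h1 : (Xs c d p).card ≤ (iv p).card := by
    refine Finset.card_le_card_of_injOn (fun n => c + d * n) ?_ ?_
    · intro n hn
      exact (mem_Xs hd).1 hn
    · intro x _ y _ h
      simp only [add_right_inj] at h
      exact mul_left_cancel₀ hd h
  have h2 : ((iv p).card : ℝ) = len p := QVar181.card_iv' p
  rw [← h2]
  exact_mod_cast h1

/-- **LEAF VALUE ON A CLUSTER**: `R` non-collided between the nodes of the cluster `Lx` which contains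
all shadows, `|P| ≤ H` there. -/
theorem LK_nc {i m a b : Fin 4} (hD : Dst i m a b) (p : Nd) (r : ℤ) (P R : ℤ → ℂ) (β : ℤ → ℂ)
    (Lx : Finset ℤ) {c' d' c d : ℤ} (hd' : d' ≠ 0) {B' AP AR H g δ : ℝ} (hB0 : 0 ≤ B')
    (hH0 : 0 ≤ H) (hg0 : 0 ≤ g) (hAR0 : 0 ≤ AR)
    (hB : ∀ q : ℤ, ∑ u ∈ range (2 ^ p.1), ‖β (q + (u : ℤ))‖ ^ 2 ≤ B' * len p)
    (hP : ∀ l ∈ Lx, ∑ y ∈ iv (p.1, l), ‖P y‖ ^ 2 ≤ AP * len p)
    (hPH : ∀ l ∈ Lx, ∀ y ∈ iv (p.1, l), ‖P y‖ ≤ H)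
    (hR : ∀ l ∈ Lx, ∑ y ∈ iv (p.1, l), ‖R y‖ ^ 2 ≤ AR * len p)
    (hn : ∀ l ∈ Lx, ∀ l' ∈ Lx, NC2 (p.1, l) (p.1, l') g δ R)
    (hU : ∀ q ∈ Xs c' d' p, ∀ u : ℕ, u < 2 ^ p.1 → ∀ z ∈ Xs c d p,
      ((sl i * r + sl a * (q + (u : ℤ)) + sl b * z) - sl i * (r + (q + (u : ℤ)) + z)) /
        2 ^ (p.1 + 7) ∈ Lx ∧
      ((sl i * r + sl a * (q + (u : ℤ)) + sl b * z) - sl m * (r + (q + (u : ℤ)) + z)) /
        2 ^ (p.1 + 7) ∈ Lx) :
    LK c' d' c d (K2 i i m a b P R r) β p ≤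
      2 ^ 14 * (Lx.card : ℝ) ^ 3 * B' * (3 * g * AP + δ * (H ^ 2 * AR)) * len p := by
  classical
  obtain ⟨him, hia, hib, hma, hmb, hab⟩ := hD
  have hlp := len_pos' p
  have hlen : len p = 128 * (2 : ℝ) ^ p.1 := by
    show (2 : ℝ) ^ (p.1 + 7) = _
    rw [pow_add]; ring
  have hlen' : len p = (2 : ℝ) ^ (p.1 + 7) := rfl
  have hL0 : (0 : ℝ) < (2 : ℝ) ^ p.1 := by positivity
  set U := clU p.1 Lx with hUdef
  obtain ⟨Bad, hBad1, hBad2⟩ := cluster_nc hn (al := sl a - sl m) (sl_ne hma.symm)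
  have hSP : ∑ y ∈ U, ‖P y‖ ^ 2 ≤ Lx.card * (AP * len p) := sum_clU_le hP
  have hSR : ∑ y ∈ U, ‖R y‖ ^ 2 ≤ Lx.card * (AR * len p) := sum_clU_le hR
  have hHU : ∀ y ∈ U, ‖P y‖ ≤ H := by
    intro y hy
    have h1 := mem_clU.1 hy
    exact hPH _ h1 y (mem_iv2.2 rfl)
  have hdet : (sl a - sl m) * (sl b - sl i) - (sl b - sl m) * (sl a - sl i) ≠ 0 := by
    have e : (sl a - sl m) * (sl b - sl i) - (sl b - sl m) * (sl a - sl i) =
      (sl i - sl m) * (sl b - sl a) := by ring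
    rw [e]
    exact mul_ne_zero (sl_ne him) (sl_ne hab.symm)
  have hga3 : |((sl b - sl i : ℤ) : ℝ)| ≤ 3 := by
    have : |sl b - sl i| ≤ 3 := sl_abs b i
    rw [← Int.cast_abs]
    exact_mod_cast this
  set N2 : ℝ := (Lx.card : ℝ) with hN2
  have hN20 : 0 ≤ N2 := Nat.cast_nonneg _
  have hAP0 : 0 ≤ N2 * (AP * len p) := (Finset.sum_nonneg fun _ _ => by positivity).trans hSP
  have hδ0 : 0 ≤ N2 ^ 2 * (δ * 2 ^ (p.1 + 7)) := (Nat.cast_nonneg _).trans hBad1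
  -- one window
  have hwin : ∀ q ∈ Xs c' d' p, ∑ z ∈ Xs c d p, ‖(1 / 2 ^ p.1 : ℂ) * ∑ u ∈ range (2 ^ p.1),
      star (β (q + (u : ℤ))) * K2 i i m a b P R r (q + (u : ℤ)) z‖ ^ 2 ≤
      (1 / (2 : ℝ) ^ p.1) ^ 2 * ((3 * (N2 ^ 2 * (g * len p)) * (N2 * (AP * len p)) +
        N2 ^ 2 * (δ * len p) * (H ^ 2 * (N2 * (AR * len p)))) * (B' * len p)) := by
    intro q hq
    set V : Finset ℤ := (range (2 ^ p.1)).image (fun u : ℕ => q + (u : ℤ)) with hV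
    have hinj : Set.InjOn (fun u : ℕ => q + (u : ℤ)) (range (2 ^ p.1) : Set ℕ) := by
      intro x _ y _ h
      simp only [add_right_inj, Nat.cast_inj] at h
      exact h
    have e1 : ∀ z, ∑ u ∈ range (2 ^ p.1), star (β (q + (u : ℤ))) *
        K2 i i m a b P R r (q + (u : ℤ)) z = ∑ x ∈ V, star (β x) *
          (P ((sl a - sl i) * x + (sl b - sl i) * z + 0) *
            R ((sl a - sl m) * x + (sl b - sl m) * z + (sl i - sl m) * r)) := by
      intro z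
      rw [hV, Finset.sum_image hinj]
      refine Finset.sum_congr rfl fun u _ => ?_
      unfold K2
      congr 3
      · ring
      · ring
    have hw := win_nc (V := V) (Zs := Xs c d p) (U := U) (al := sl a - sl i) (ga := sl b - sl i)
      (al' := sl a - sl m) (ga' := sl b - sl m) (σ := 0) (ρ := (sl i - sl m) * r)
      (sl_ne hia.symm) (sl_ne hib.symm) (sl_ne hmb.symm) hdet β P R
      (by
        intro x hx z hz
        obtain ⟨u, hu, rfl⟩ := Finset.mem_image.1 hx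
        obtain ⟨g1, g2⟩ := hU q hq u (Finset.mem_range.1 hu) z hz
        constructor
        · refine mem_clU.2 ?_
          have e : (sl a - sl i) * (q + (u : ℤ)) + (sl b - sl i) * z + 0 =
            (sl i * r + sl a * (q + (u : ℤ)) + sl b * z) - sl i * (r + (q + (u : ℤ)) + z) := by ring
          rw [e]; exact g1
        · refine mem_clU.2 ?_
          have e : (sl a - sl m) * (q + (u : ℤ)) + (sl b - sl m) * z + (sl i - sl m) * r =
            (sl i * r + sl a * (q + (u : ℤ)) + sl b * z) - sl m * (r + (q + (u : ℤ)) + z) := by ring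
          rw [e]; exact g2)
      (H := H) (g := N2 ^ 2 * (g * len p)) hH0 (by positivity) hHU Bad
      (fun h _ hb ξ => hBad2 h hb ξ)
    have hβV : ∑ x ∈ V, ‖β x‖ ^ 2 ≤ B' * len p := by
      rw [hV, Finset.sum_image hinj]
      exact hB q
    have e2 : ∀ z ∈ Xs c d p, ‖(1 / 2 ^ p.1 : ℂ) * ∑ u ∈ range (2 ^ p.1),
      star (β (q + (u : ℤ))) * K2 i i m a b P R r (q + (u : ℤ)) z‖ ^ 2 =
        (1 / (2 : ℝ) ^ p.1) ^ 2 * ‖∑ x ∈ V, star (β x) *
          (P ((sl a - sl i) * x + (sl b - sl i) * z + 0) *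
            R ((sl a - sl m) * x + (sl b - sl m) * z + (sl i - sl m) * r))‖ ^ 2 := by
      intro z _
      rw [e1, norm_mul, mul_pow, norm_div, norm_one, norm_pow, Complex.norm_ofNat]
    rw [Finset.sum_congr rfl e2, ← Finset.mul_sum]
    refine mul_le_mul_of_nonneg_left (hw.trans ?_) (by positivity)
    refine mul_le_mul ?_ hβV (Finset.sum_nonneg fun _ _ => by positivity) ?_
    · refine add_le_add ?_ ?_
      · refine mul_le_mul ?_ hSP (Finset.sum_nonneg fun _ _ => by positivity) (by positivity)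
        exact mul_le_mul_of_nonneg_right hga3 (by positivity)
      · refine mul_le_mul ?_ ?_ (by positivity) ?_
        · rw [hlen']; exact hBad1
        · exact mul_le_mul_of_nonneg_left hSR (by positivity)
        · rw [hlen']; exact hδ0
    · have h1 : 0 ≤ N2 ^ 2 * (δ * len p) := by rw [hlen']; exact hδ0
      positivity
  calc LK c' d' c d (K2 i i m a b P R r) β p
      ≤ ∑ _q ∈ Xs c' d' p, (1 / len p) * ((1 / (2 : ℝ) ^ p.1) ^ 2 *
        ((3 * (N2 ^ 2 * (g * len p)) * (N2 * (AP * len p)) +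
        N2 ^ 2 * (δ * len p) * (H ^ 2 * (N2 * (AR * len p)))) * (B' * len p))) := by
        unfold LK
        exact Finset.sum_le_sum fun q hq => mul_le_mul_of_nonneg_left (hwin q hq) (by positivity)
    _ = ((Xs c' d' p).card : ℝ) * ((1 / len p) * ((1 / (2 : ℝ) ^ p.1) ^ 2 *
        ((3 * (N2 ^ 2 * (g * len p)) * (N2 * (AP * len p)) +
        N2 ^ 2 * (δ * len p) * (H ^ 2 * (N2 * (AR * len p)))) * (B' * len p)))) := by
        rw [Finset.sum_const, nsmul_eq_mul]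
    _ ≤ len p * ((1 / len p) * ((1 / (2 : ℝ) ^ p.1) ^ 2 *
        ((3 * (N2 ^ 2 * (g * len p)) * (N2 * (AP * len p)) +
        N2 ^ 2 * (δ * len p) * (H ^ 2 * (N2 * (AR * len p)))) * (B' * len p)))) := by
        refine mul_le_mul_of_nonneg_right (card_Xs_le hd' p) ?_
        have h1 : 0 ≤ N2 ^ 2 * (δ * len p) := by rw [hlen']; exact hδ0
        positivity
    _ = 2 ^ 14 * N2 ^ 3 * B' * (3 * g * AP + δ * (H ^ 2 * AR)) * len p := by
        rw [hlen]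
        field_simp
        ring

/-- **hypothesis `hleaf` of `Wr408.wr_total` (two-sided Step II)** from the non-collision of `R` -/
theorem hleaf_nc {i m a b : Fin 4} (hD : Dst i m a b) {W : Finset Nd}
    (C : ℕ) (hC : 7 ≤ C) (r : ℤ) (f F : ℤ → ℂ)
    (hf : ∀ z, ‖f z‖ ≤ ‖F ((sl i - sl b) * r + -dd a b * z)‖) {P R : ℤ → ℂ}
    {AF AP AR H g δ : ℝ} (hAF0 : 0 ≤ AF) (hAP0 : 0 ≤ AP) (hAR0 : 0 ≤ AR)
    (hH0 : 0 ≤ H) (hg0 : 0 ≤ g) (hδ0 : 0 ≤ δ)
    (hA : ∀ p ∈ W, ∑ y ∈ iv p, ‖F y‖ ^ 2 ≤ AF * len p)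
    (hP : ∀ p ∈ W, ∑ y ∈ iv p, ‖P y‖ ^ 2 ≤ AP * len p)
    (hPH : ∀ p ∈ W, ∀ y ∈ iv p, ‖P y‖ ≤ H)
    (hR : ∀ p ∈ W, ∑ y ∈ iv p, ‖R y‖ ^ 2 ≤ AR * len p)
    (hn : ∀ p ∈ W, ∀ p' ∈ W, p'.1 = p.1 → NC2 p p' g δ R)
    (n : ℕ) (p : Nd) (hp : p ∈ Wa71.Pn W C ((sl i - sl b) * r) (-dd a b) n) :
    LK ((sl i - sl b) * r) (-dd a b) ((sl i - sl a) * r) (dd a b) (K2 i i m a b P R r)
      (Wb71.mk W C ((sl i - sl b) * r) (-dd a b) f n) p ≤
      2 ^ 28 * AF * (g * AP + δ * (H ^ 2 * AR)) * len p := by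
  classical
  have hpm : p.1 = n := (Wa71.mem_Pn.1 hp).2.1
  subst hpm
  obtain ⟨hd1, hd3⟩ := dd_natAbs i m a b hD
  have hd : dd a b ≠ 0 := by
    intro h0; rw [h0] at hd1; simp at hd1
  have hd' : -dd a b ≠ 0 := neg_ne_zero.2 hd
  have hdz : |-dd a b| ≤ 3 := by
    rw [abs_neg, Int.abs_eq_natAbs]
    exact_mod_cast hd3
  have hlp := len_pos' p
  set β := Wb71.mk W C ((sl i - sl b) * r) (-dd a b) f p.1 with hβ
  have hR0 : 0 ≤ 2 ^ 28 * AF * (g * AP + δ * (H ^ 2 * AR)) * len p := by positivity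
  by_cases hall : ∀ q ∈ Xs ((sl i - sl b) * r) (-dd a b) p, ∀ u : ℕ, u < 2 ^ p.1 →
      β (q + (u : ℤ)) = 0
  · rw [LK_zero hall]; exact hR0
  push Not at hall
  obtain ⟨q1, hq1, u1, hu1, hne⟩ := hall
  have hAA : AA W C ((sl i - sl b) * r) (-dd a b) p.1 (q1 + (u1 : ℤ)) := by
    by_contra hcn
    exact hne (by rw [hβ]; unfold Wb71.mk; rw [if_neg hcn])
  have hnear : ∀ l ∈ Finset.Icc (p.2 - 5) (p.2 + 5), ((p.1, l) : Nd) ∈ W := fun l hl =>
    er_near hC hdz ((mem_Xs hd').1 hq1) hu1 hAA (Finset.mem_Icc.1 hl).1 (Finset.mem_Icc.1 hl).2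
  have hDm : Dst m i a b := by
    obtain ⟨g1, g2, g3, g4, g5, g6⟩ := hD
    exact ⟨g1.symm, g4, g5, g2, g3, g6⟩
  have h := LK_nc hD p r P R β (Finset.Icc (p.2 - 5) (p.2 + 5)) (c' := (sl i - sl b) * r)
    (d' := -dd a b) (c := (sl i - sl a) * r) (d := dd a b) hd' (B' := 3 * AF) (AP := AP) (AR := AR)
    (H := H) (g := g) (δ := δ) (by positivity) hH0 hg0 hAR0
    (fun q => by
      have h1 := mk_win W C ((sl i - sl b) * r) hd' (by linarith) f F p.1 hf AF hAF0 hA q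
      exact h1)
    (fun l hl => hP _ (hnear l hl)) (fun l hl => hPH _ (hnear l hl))
    (fun l hl => hR _ (hnear l hl))
    (fun l hl l' hl' => hn _ (hnear l hl) _ (hnear l' hl') rfl)
    (fun q hq u hu z hz => ⟨slot_near hD p r q z u hu ((mem_Xs hd').1 hq) ((mem_Xs hd).1 hz),
      slot_near hDm p r q z u hu ((mem_Xs hd').1 hq) ((mem_Xs hd).1 hz)⟩)
  refine h.trans ?_
  have hcard : ((Finset.Icc (p.2 - 5) (p.2 + 5)).card : ℝ) = 11 := by
    rw [Int.card_Icc]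
    have : (p.2 + 5 + 1 - (p.2 - 5)).toNat = 11 := by
      rw [show p.2 + 5 + 1 - (p.2 - 5) = 11 by ring]; rfl
    rw [this]; norm_num
  rw [hcard]
  refine mul_le_mul_of_nonneg_right ?_ hlp.le
  have h1 : 0 ≤ AF * (g * AP) := by positivity
  have h2 : 0 ≤ AF * (δ * (H ^ 2 * AR)) := by positivity
  nlinarith [h1, h2]

end Crest.Agent.R079.HLfx254
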