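import Crest.Agent.R079.NC2_37

/-! R079, T2/T4 (helper37): `NCol W R g dl` (literal of helper255): non-collision of `R` between all
pairs of nodes of `W` of the same level. `ncol_of_lv`, `ncol_of_nc2`. -/

set_option autoImplicit false

namespace Crest.Agent.R079.NC237

open Finset Crest.Agent.R079.Grid Crest.Agent.R079.Glue Crest.Agent.R079.Growth
  Crest.Agent.R079.QRed Crest.Agent.R079.Cell37 Crest.Agent.R079.CellH237 Crest.Agent.R079.Hank37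

/-- **the literal** (helper255) -/
def NCol (W : Finset Nd) (R : ℤ → ℂ) (g dl : ℝ) : Prop :=
  ∀ p ∈ W, ∀ p' ∈ W, p'.1 = p.1 → ∃ Bd : Finset ℤ, (Bd.card : ℝ) ≤ dl * len p ∧
    ∀ h, h ∉ Bd → ∀ ξ : ℝ,
      ‖∑ y ∈ (iv p).filter (fun y => y + h ∈ iv p'),
        R y * (starRingEnd ℂ) (R (y + h)) * ee (ξ * (y : ℝ))‖ ≤ g * len p

theorem ncol_of_nc2 {W : Finset Nd} {R : ℤ → ℂ} {g dl : ℝ}
    (h : ∀ p ∈ W, ∀ p' ∈ W, p'.1 = p.1 → NC2 p p' g dl R) : NCol W R g dl := by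
  intro p hp p' hp' hl
  obtain ⟨Z, h1, h2⟩ := h p hp p' hp' hl
  refine ⟨Z, h1, fun h hh ξ => ?_⟩
  rw [Finset.sum_filter]
  exact h2 h hh ξ

theorem nc2_of_ncol {W : Finset Nd} {R : ℤ → ℂ} {g dl : ℝ} (h : NCol W R g dl) {p p' : Nd}
    (hp : p ∈ W) (hp' : p' ∈ W) (hl : p'.1 = p.1) : NC2 p p' g dl R := by
  obtain ⟨Z, h1, h2⟩ := h p hp p' hp' hl
  refine ⟨Z, h1, fun h hh ξ => ?_⟩
  rw [← Finset.sum_filter]
  exact h2 h hh ξ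

/-- **`NCol` from the cell level at all nodes** (`R` of any height) -/
theorem ncol_of_lv {γ δ C t s A ε : ℝ} (ht : 0 < t) (hs : 0 ≤ s) {W : Finset Nd} {R : Fn}
    (hlv : ∀ p ∈ W, LvC γ δ C t s p R) (hA : ∀ p ∈ W, av p R ≤ A) (hε : 2 * t ^ C ≤ ε) :
    NCol W R (s * (t ^ γ * (t ^ δ + A)) + A ^ 3 * t ^ C / ε) ε :=
  ncol_of_nc2 fun p hp p' hp' hl => nc2_of_lv ht hs hl (hlv p hp) (hA p hp) (hA p' hp') hε

/-- numbers: `s = 1`, `δ = γ`, `C ≥ 2 γ`, `ε = 2 t^γ`: `NCol` with `g = (1 + A + A³) t^γ`, `dl = 2 t^γ` -/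
theorem ncol_of_lv1 {γ C t A : ℝ} (ht : 0 < t) (ht1 : t ≤ 1) (hγ : 0 ≤ γ) (hC : 2 * γ ≤ C)
    {W : Finset Nd} {R : Fn} (hlv : ∀ p ∈ W, LvC γ γ C t 1 p R) (hA0 : 0 ≤ A)
    (hA : ∀ p ∈ W, av p R ≤ A) : NCol W R ((1 + A + A ^ 3) * t ^ γ) (2 * t ^ γ) := by
  have htC : t ^ C ≤ t ^ γ * t ^ γ := by
    rw [← Real.rpow_add ht]
    exact Real.rpow_le_rpow_of_exponent_ge ht ht1 (by linarith)
  have htγ0 : 0 < t ^ γ := Real.rpow_pos_of_pos ht _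
  have htγ1 : t ^ γ ≤ 1 := Real.rpow_le_one ht.le ht1 hγ
  have hε : 2 * t ^ C ≤ 2 * t ^ γ := by nlinarith
  have h1 := ncol_of_lv (ε := 2 * t ^ γ) ht zero_le_one hlv hA hε
  have h2 : 1 * (t ^ γ * (t ^ γ + A)) + A ^ 3 * t ^ C / (2 * t ^ γ) ≤ (1 + A + A ^ 3) * t ^ γ := by
    have e1 : A ^ 3 * t ^ C / (2 * t ^ γ) ≤ A ^ 3 * t ^ γ := by
      rw [div_le_iff₀ (by positivity)]
      have : A ^ 3 * t ^ C ≤ A ^ 3 * (t ^ γ * t ^ γ) :=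
        mul_le_mul_of_nonneg_left htC (by positivity)
      nlinarith [pow_nonneg hA0 3, mul_nonneg (pow_nonneg hA0 3) (mul_pos htγ0 htγ0).le]
    nlinarith
  intro p hp p' hp' hl
  obtain ⟨Bd, h3, h4⟩ := h1 p hp p' hp' hl
  have hlp : 0 < len p := QVar181.len_pos' p
  exact ⟨Bd, h3, fun h hh ξ => (h4 h hh ξ).trans (mul_le_mul_of_nonneg_right h2 hlp.le)⟩

end Crest.Agent.R079.NC237
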