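import Crest.Agent.R079.CoE3_255
import Crest.Agent.R079.HLf_254
import Crest.Agent.R079.NCol_37
import Crest.Agent.R079.BadN_360
import Crest.Agent.R079.BAt_112

/-! R079, Step II of `RuleNT` (helper255): DICTIONARY-FREE STATIC RULE for the two-sided scheme.

Frozen slot `i` (mixture of bounded atoms of mass `A1 t^(-C1)`, local `L²` norms `≤ A3 t^(-cl)`), killer slot
`m ≠ i` with the non-collision property `NCol W R (A2 t^gm) (A2 t^dx)`, two further letters in local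
`L^(2+k)`.  `NodeB` = literal of the bad nodes (helper254). -/

set_option autoImplicit false
set_option linter.unusedVariables false

namespace Crest.Agent.R079.CoEx255

open Finset Crest.Agent.R079.Grid Crest.Agent.R079.Growth Crest.Agent.R079.QRed
  Crest.Agent.R079.Glue Crest.Agent.R079.TWin Crest.Agent.R079.TRec Crest.Agent.R079.BadN360
  Crest.Agent.R079.BAt112 Crest.Agent.R079.NC237 Crest.Agent.R079.Ero526
open Crest.Agent.R079.RuS256 (AtD)

/-! ### heights of bounded atoms -/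

theorem cf_ne (j : Fin 4) (e : Fin 3) : cf j e ≠ 0 := by
  revert j e; decide

/-- a bounded unit atom is bounded by `1` -/
theorem bat_le {j : Fin 4} {φ : Fn} (h : BAt j φ) (y : ℤ) : ‖φ y‖ ≤ 1 := by
  classical
  obtain ⟨κ, hκ, T, a, b, c, hf⟩ := h
  rw [hf.eq y]
  unfold atom
  rw [norm_mul, Complex.norm_real, Real.norm_eq_abs, abs_of_pos hκ]
  have h1 : ‖∑ z0 ∈ T 0, ∑ z1 ∈ T 1, ∑ z2 ∈ T 2,
      (if cf j 0 * z0 + cf j 1 * z1 + cf j 2 * z2 = y then a z0 z1 * b z1 z2 * c z2 z0 else 0)‖ ≤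
      (1 / 2) * n2 (T 0) (T 1) a + (1 / 2) * n2 (T 1) (T 2) b := by
    have e1 : ‖∑ z0 ∈ T 0, ∑ z1 ∈ T 1, ∑ z2 ∈ T 2,
        (if cf j 0 * z0 + cf j 1 * z1 + cf j 2 * z2 = y then a z0 z1 * b z1 z2 * c z2 z0 else 0)‖ ≤
        ∑ z0 ∈ T 0, ∑ z1 ∈ T 1, ∑ z2 ∈ T 2,
          (if cf j 0 * z0 + cf j 1 * z1 + cf j 2 * z2 = y then
            (1 / 2) * ‖a z0 z1‖ ^ 2 + (1 / 2) * ‖b z1 z2‖ ^ 2 else 0) := by
      refine (norm_sum_le _ _).trans (Finset.sum_le_sum fun z0 _ => (norm_sum_le _ _).trans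
        (Finset.sum_le_sum fun z1 _ => (norm_sum_le _ _).trans
          (Finset.sum_le_sum fun z2 _ => ?_)))
      split_ifs
      · rw [norm_mul, norm_mul]
        have h2 := hf.hc z2 z0
        have h3 : ‖a z0 z1‖ * ‖b z1 z2‖ * ‖c z2 z0‖ ≤ ‖a z0 z1‖ * ‖b z1 z2‖ :=
          mul_le_of_le_one_right (by positivity) h2
        nlinarith [sq_nonneg (‖a z0 z1‖ - ‖b z1 z2‖)]
      · simp
    refine e1.trans ?_
    have e2 : ∑ z0 ∈ T 0, ∑ z1 ∈ T 1, ∑ z2 ∈ T 2,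
          (if cf j 0 * z0 + cf j 1 * z1 + cf j 2 * z2 = y then
            (1 / 2) * ‖a z0 z1‖ ^ 2 + (1 / 2) * ‖b z1 z2‖ ^ 2 else 0) =
        ∑ z0 ∈ T 0, ∑ z1 ∈ T 1, ∑ z2 ∈ T 2,
          (if cf j 0 * z0 + cf j 1 * z1 + cf j 2 * z2 = y then (1 / 2) * ‖a z0 z1‖ ^ 2 else 0) +
        ∑ z0 ∈ T 0, ∑ z1 ∈ T 1, ∑ z2 ∈ T 2,
          (if cf j 0 * z0 + cf j 1 * z1 + cf j 2 * z2 = y then (1 / 2) * ‖b z1 z2‖ ^ 2 else 0) := by
      simp only [← Finset.sum_add_distrib]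
      refine Finset.sum_congr rfl fun z0 _ => Finset.sum_congr rfl fun z1 _ =>
        Finset.sum_congr rfl fun z2 _ => ?_
      split_ifs <;> simp
    rw [e2]
    refine add_le_add ?_ ?_
    · unfold n2
      rw [Finset.mul_sum]
      refine Finset.sum_le_sum fun z0 _ => ?_
      rw [Finset.mul_sum]
      refine Finset.sum_le_sum fun z1 _ => ?_
      rw [← Finset.sum_filter, Finset.sum_const, nsmul_eq_mul]
      refine mul_le_of_le_one_left (by positivity) ?_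
      have : ((T 2).filter (fun z2 => cf j 0 * z0 + cf j 1 * z1 + cf j 2 * z2 = y)).card ≤ 1 := by
        refine Finset.card_le_one.2 fun u hu v hv => ?_
        have h3 := (Finset.mem_filter.1 hu).2
        have h4 := (Finset.mem_filter.1 hv).2
        exact mul_left_cancel₀ (cf_ne j 2) (by linarith)
      exact_mod_cast this
    · rw [Finset.sum_comm]
      unfold n2
      rw [Finset.mul_sum]
      refine Finset.sum_le_sum fun z1 _ => ?_
      rw [Finset.sum_comm, Finset.mul_sum]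
      refine Finset.sum_le_sum fun z2 _ => ?_
      rw [← Finset.sum_filter, Finset.sum_const, nsmul_eq_mul]
      refine mul_le_of_le_one_left (by positivity) ?_
      have : ((T 0).filter (fun z0 => cf j 0 * z0 + cf j 1 * z1 + cf j 2 * z2 = y)).card ≤ 1 := by
        refine Finset.card_le_one.2 fun u hu v hv => ?_
        have h3 := (Finset.mem_filter.1 hu).2
        have h4 := (Finset.mem_filter.1 hv).2
        exact mul_left_cancel₀ (cf_ne j 0) (by linarith)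
      exact_mod_cast this
  calc _ ≤ κ * ((1 / 2) * n2 (T 0) (T 1) a + (1 / 2) * n2 (T 1) (T 2) b) :=
        mul_le_mul_of_nonneg_left h1 hκ.le
    _ = (1 / 2) * (κ * n2 (T 0) (T 1) a) + (1 / 2) * (κ * n2 (T 1) (T 2) b) := by ring
    _ ≤ 1 := by linarith [hf.na, hf.nb]

theorem repB_height {j : Fin 4} {p : Nd} {f : Fn} {M : ℝ} (h : RepB j p f M) {y : ℤ}
    (hy : y ∈ iv p) : ‖f y‖ ≤ M := by
  obtain ⟨n, φ, c, h1, h2, h3⟩ := h
  rw [h2 y hy]
  refine (norm_sum_le _ _).trans ((Finset.sum_le_sum fun l _ => ?_).trans h3)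
  rw [norm_mul]
  exact mul_le_of_le_one_right (norm_nonneg _) (bat_le (h1 l) y)

/-! ### the low part keeps the non-collision property -/

theorem lo_eq_sub (H : ℝ) (G : Fn) (y : ℤ) : lo H G y = G y - hi H G y := by
  rw [lo_add_hi H G y]; ring

/-- shifted energies -/
theorem shift_le {p p' : Nd} (hl : p'.1 = p.1) (h : ℤ) {f : Fn} {A : ℝ}
    (hf : ∑ y ∈ iv p', ‖f y‖ ^ 2 ≤ A * len p') :
    ∑ y ∈ (iv p).filter (fun y => y + h ∈ iv p'), ‖f (y + h)‖ ^ 2 ≤ A * len p := by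
  have e : len p = len p' := by unfold len; rw [hl]
  rw [e]
  refine le_trans ?_ hf
  have h1 : ∑ y ∈ (iv p).filter (fun y => y + h ∈ iv p'), ‖f (y + h)‖ ^ 2 =
      ∑ y ∈ ((iv p).filter (fun y => y + h ∈ iv p')).image (fun y => y + h), ‖f y‖ ^ 2 := by
    rw [Finset.sum_image fun a _ b _ hab => by simpa using hab]
  rw [h1]
  refine Finset.sum_le_sum_of_subset_of_nonneg (fun x hx => ?_) fun _ _ _ => by positivity
  obtain ⟨y, hy, rfl⟩ := Finset.mem_image.1 hx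
  exact (Finset.mem_filter.1 hy).2

theorem ncol_lo {W : Finset Nd} {R : Fn} {g dl H η : ℝ} (hη : 0 ≤ η) (h : NCol W R g dl)
    (hR : ∀ p ∈ W, ∑ y ∈ iv p, ‖R y‖ ^ 2 ≤ len p)
    (hh : ∀ p ∈ W, ∑ y ∈ iv p, ‖hi H R y‖ ^ 2 ≤ η ^ 2 * len p) :
    NCol W (lo H R) (g + 2 * η) dl := by
  intro p hp p' hp' hl
  obtain ⟨Bd, h1, h2⟩ := h p hp p' hp' hl
  refine ⟨Bd, h1, fun h0 hh0 ξ => ?_⟩
  set S : Finset ℤ := (iv p).filter (fun y => y + h0 ∈ iv p') with hS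
  have hlp : 0 < len p := Growth.len_pos p
  have e : ∑ y ∈ S, lo H R y * (starRingEnd ℂ) (lo H R (y + h0)) * Cell37.ee (ξ * (y : ℝ)) =
      ∑ y ∈ S, R y * (starRingEnd ℂ) (R (y + h0)) * Cell37.ee (ξ * (y : ℝ)) -
      ∑ y ∈ S, hi H R y * (starRingEnd ℂ) (R (y + h0)) * Cell37.ee (ξ * (y : ℝ)) -
      ∑ y ∈ S, lo H R y * (starRingEnd ℂ) (hi H R (y + h0)) * Cell37.ee (ξ * (y : ℝ)) := by
    rw [← Finset.sum_sub_distrib, ← Finset.sum_sub_distrib]
    refine Finset.sum_congr rfl fun y _ => ?_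
    rw [lo_eq_sub H R (y + h0), lo_eq_sub H R y, map_sub]
    ring
  -- Cauchy-Schwarz
  have cs : ∀ (u v : ℤ → ℂ), (∑ y ∈ S, ‖u y‖ ^ 2) * (∑ y ∈ S, ‖v (y + h0)‖ ^ 2) ≤
      (η * len p) ^ 2 → ‖∑ y ∈ S, u y * (starRingEnd ℂ) (v (y + h0)) *
        Cell37.ee (ξ * (y : ℝ))‖ ≤ η * len p := by
    intro u v huv
    have h3 : ‖∑ y ∈ S, u y * (starRingEnd ℂ) (v (y + h0)) * Cell37.ee (ξ * (y : ℝ))‖ ≤
        ∑ y ∈ S, ‖u y‖ * ‖v (y + h0)‖ := by
      refine (norm_sum_le _ _).trans (Finset.sum_le_sum fun y _ => ?_)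
      rw [norm_mul, norm_mul, Cell37.norm_ee, mul_one, RCLike.norm_conj]
    have h4 := Finset.sum_mul_sq_le_sq_mul_sq S (fun y => ‖u y‖) (fun y => ‖v (y + h0)‖)
    have h5 : (∑ y ∈ S, ‖u y‖ * ‖v (y + h0)‖) ^ 2 ≤ (η * len p) ^ 2 := h4.trans huv
    exact h3.trans (abs_le_of_sq_le_sq' h5 (by positivity)).2
  have hSs : S ⊆ iv p := Finset.filter_subset _ _
  have sub : ∀ (u : ℤ → ℂ) (A : ℝ), ∑ y ∈ iv p, ‖u y‖ ^ 2 ≤ A → ∑ y ∈ S, ‖u y‖ ^ 2 ≤ A :=
    fun u A hA => (Finset.sum_le_sum_of_subset_of_nonneg hSs fun _ _ _ => by positivity).trans hA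
  have lo1 : ∑ y ∈ iv p, ‖lo H R y‖ ^ 2 ≤ len p :=
    (Finset.sum_le_sum fun y _ => pow_le_pow_left₀ (norm_nonneg _) (norm_lo_le' H R y) 2).trans
      (hR p hp)
  have t1 : ‖∑ y ∈ S, hi H R y * (starRingEnd ℂ) (R (y + h0)) * Cell37.ee (ξ * (y : ℝ))‖ ≤
      η * len p := by
    refine cs _ _ ?_
    have a1 := sub _ _ (hh p hp)
    have a2 := shift_le (A := 1) hl h0 (f := R) (by rw [one_mul]; exact hR p' hp')
    rw [← hS] at a2
    calc _ ≤ (η ^ 2 * len p) * (1 * len p) := mul_le_mul a1 a2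
          (Finset.sum_nonneg fun _ _ => by positivity) (by positivity)
      _ = _ := by ring
  have t2 : ‖∑ y ∈ S, lo H R y * (starRingEnd ℂ) (hi H R (y + h0)) * Cell37.ee (ξ * (y : ℝ))‖ ≤
      η * len p := by
    refine cs _ _ ?_
    have a1 := sub _ _ lo1
    have a2 := shift_le (A := η ^ 2) hl h0 (f := hi H R) (hh p' hp')
    rw [← hS] at a2
    calc _ ≤ len p * (η ^ 2 * len p) := mul_le_mul a1 a2
          (Finset.sum_nonneg fun _ _ => by positivity) hlp.le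
      _ = _ := by ring
  have t0 := h2 h0 hh0 ξ
  rw [e]
  calc _ ≤ ‖∑ y ∈ S, R y * (starRingEnd ℂ) (R (y + h0)) * Cell37.ee (ξ * (y : ℝ))‖ +
        ‖∑ y ∈ S, hi H R y * (starRingEnd ℂ) (R (y + h0)) * Cell37.ee (ξ * (y : ℝ))‖ +
        ‖∑ y ∈ S, lo H R y * (starRingEnd ℂ) (hi H R (y + h0)) * Cell37.ee (ξ * (y : ℝ))‖ :=
        (norm_sub_le _ _).trans (add_le_add (norm_sub_le _ _) le_rfl)
    _ ≤ g * len p + η * len p + η * len p := add_le_add (add_le_add t0 t1) t2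
    _ = _ := by ring

end Crest.Agent.R079.CoEx255
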