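import Crest.Agent.R079.HLf_254
import Crest.Agent.R079.F2_408
import Crest.Agent.R079.Qb_247

/-! R079 (T4, two-sided Step II), helper254: ONE NODE, letters `P` (slot `i`, `|P| ≤ H`) and `R` (slot `m`,
non-collided at the node), the two other letters arbitrary in the local `L²`.

* `box_nc`  : `|Lbox| ≤ 2^12 √(3 g AP + δ H² AR) |F_a|_2 |F_b|_2` for every box of the node;
* `node_nc` : summed over the boxes of the node. -/

set_option autoImplicit false

namespace Crest.Agent.R079.NodeBx254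

open Finset Crest.Agent.R079.Cell37 Crest.Agent.R079.HLfx254
open Crest.Agent.R079.Grid Crest.Agent.R079.Growth Crest.Agent.R079.QRed Crest.Agent.R079.NC237
open Crest.Agent.R079.F2

/-- the shadows of a box in the reduced coordinates -/
lemma yv_red (i m a b : Fin 4) (h : Dst i m a b) (N : ℕ) (bb x r q : ℤ)
    (ui um ua ub : Fin (N + N)) (hx : xq i m a b bb N q r ui um = x) :
    ((sl a - sl i) * (q + ((ua : ℕ) : ℤ)) + (sl b - sl i) * (off bb N r ui um - q + ((ub : ℕ) : ℤ)) =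
      yv N bb x (F2.mk i m a ui um ua ub) i) ∧
    ((sl i - sl m) * r + (sl a - sl m) * (q + ((ua : ℕ) : ℤ)) +
      (sl b - sl m) * (off bb N r ui um - q + ((ub : ℕ) : ℤ)) =
      yv N bb x (F2.mk i m a ui um ua ub) m) ∧
    ((sl i - sl a) * r + dd a b * (off bb N r ui um - q + ((ub : ℕ) : ℤ)) =
      yv N bb x (F2.mk i m a ui um ua ub) a) ∧
    ((sl i - sl b) * r - dd a b * (q + ((ua : ℕ) : ℤ)) =
      yv N bb x (F2.mk i m a ui um ua ub) b) := by
  have h' := h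
  obtain ⟨h1, h2, h3, h4, h5, h6⟩ := h
  have e1 : F2.mk i m a ui um ua ub i = ui := by simp [F2.mk]
  have e2 : F2.mk i m a ui um ua ub m = um := by simp [F2.mk, h1.symm]
  have e3 : F2.mk i m a ui um ua ub a = ua := by simp [F2.mk, h2.symm, h4.symm]
  have e4 : F2.mk i m a ui um ua ub b = ub := by simp [F2.mk, h3.symm, h5.symm, h6.symm]
  have ey : ∀ k : Fin 4, yv N bb x (F2.mk i m a ui um ua ub) k =
      x + ((sl i - sl k) * ((ui : ℕ) : ℤ) + (sl m - sl k) * ((um : ℕ) : ℤ) +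
        (sl a - sl k) * ((ua : ℕ) : ℤ) + (sl b - sl k) * ((ub : ℕ) : ℤ)) - sl k * (bb * N) := by
    intro k
    unfold yv
    rw [sum4 i m a b h', e1, e2, e3, e4]
  rw [ey i, ey m, ey a, ey b]
  subst hx
  simp only [xq, off, dd]
  refine ⟨?_, ?_, ?_, ?_⟩ <;> ring

/-- half sign as a function on `ℤ` -/
noncomputable def hz (N : ℕ) (v : ℤ) : ℂ := if v < N then 1 else -1

lemma norm_hz (N : ℕ) (v : ℤ) : ‖hz N v‖ = 1 := by
  unfold hz; split_ifs <;> simp

lemma hz_fin (N : ℕ) (u : Fin (N + N)) : hz N ((u : ℕ) : ℤ) = (hsg N u : ℂ) := by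
  unfold hz hsg
  by_cases h : (u : ℕ) < N
  · rw [if_pos h, if_pos (by exact_mod_cast h)]; simp
  · rw [if_neg h, if_neg (by exact_mod_cast h)]; simp

/-- **ONE BOX** -/
theorem box_nc {i m a b : Fin 4} (hD : Dst i m a b) {p : Nd} {bb : ℤ} (hbb : bb = -1 ∨ bb = -7)
    {x : ℤ} (hx : x ∈ adm p.1 p.2) (F : Fin 4 → ℤ → ℂ) {SA SB AP AR H g δ : ℝ}
    (hSA0 : 0 ≤ SA) (hSB0 : 0 ≤ SB)
    (hH0 : 0 ≤ H) (hg0 : 0 ≤ g) (hAP0 : 0 ≤ AP) (hAR0 : 0 ≤ AR) (hδ0 : 0 ≤ δ)
    (hP : ∑ y ∈ iv p, ‖F i y‖ ^ 2 ≤ AP * len p) (hPH : ∀ y ∈ iv p, ‖F i y‖ ≤ H)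
    (hR : ∑ y ∈ iv p, ‖F m y‖ ^ 2 ≤ AR * len p) (hn : NC2 p p g δ (F m))
    (hA : ∑ y ∈ iv p, ‖F a y‖ ^ 2 ≤ SA * len p) (hB : ∑ y ∈ iv p, ‖F b y‖ ^ 2 ≤ SB * len p) :
    ‖Lbox (2 ^ p.1) bb F x‖ ≤
      2 ^ 12 * Real.sqrt ((3 * g * AP + δ * (H ^ 2 * AR)) * SB) * Real.sqrt SA := by
  classical
  obtain ⟨him, hia, hib, hma, hmb, hab⟩ := id hD
  set N : ℕ := 2 ^ p.1 with hN
  have hN0 : 0 < N := by rw [hN]; positivity
  have hNR : (0 : ℝ) < (N : ℝ) := by exact_mod_cast hN0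
  have hlp := Leaf259.len_pos' p
  have hlen : len p = 128 * (N : ℝ) := by
    show (2 : ℝ) ^ (p.1 + 7) = _
    rw [pow_add, hN]; push_cast; ring
  -- non collision in terms of the cluster `{p.2}`
  obtain ⟨Bad, hBad1, hBad2⟩ := cluster_nc (k := p.1) (Lx := {p.2}) (R := F m) (g := g) (δ := δ)
    (fun l hl l' hl' => by
      rw [Finset.mem_singleton] at hl hl'
      rw [hl, hl']; exact hn) (al := sl a - sl m) (sl_ne hma.symm)
  have hU : clU p.1 {p.2} = iv p := by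
    unfold clU
    rw [Finset.singleton_biUnion]
  rw [hU] at hBad2
  simp only [Finset.card_singleton, Nat.cast_one, one_pow, one_mul] at hBad1 hBad2
  have hdet : (sl a - sl m) * (sl b - sl i) - (sl b - sl m) * (sl a - sl i) ≠ 0 := by
    have e : (sl a - sl m) * (sl b - sl i) - (sl b - sl m) * (sl a - sl i) =
      (sl i - sl m) * (sl b - sl a) := by ring
    rw [e]
    exact mul_ne_zero (sl_ne him) (sl_ne hab.symm)
  have hga3 : |((sl b - sl i : ℤ) : ℝ)| ≤ 3 := by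
    have : |sl b - sl i| ≤ 3 := LfK71.sl_abs b i
    rw [← Int.cast_abs]
    exact_mod_cast this
  -- the data `(r, q)` of the box
  have hex : ∀ (ui um : Fin (N + N)), ∃ t : ℕ × ℤ, t.1 < (dd a b).natAbs ∧
      xq i m a b bb N t.2 t.1 ((ui : ℕ) : ℤ) ((um : ℕ) : ℤ) = x := by
    intro ui um
    obtain ⟨r, hr, q, hq⟩ := exists_rq i m a b hD bb N x ((ui : ℕ) : ℤ) ((um : ℕ) : ℤ)
    exact ⟨(r, q), hr, hq⟩
  choose t ht1 ht2 using hex
  -- one bracket
  have hbr : ∀ ui um : Fin (N + N), ‖br i m a b F N (t ui um).1 (t ui um).2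
      (off bb N (t ui um).1 ((ui : ℕ) : ℤ) ((um : ℕ) : ℤ) - (t ui um).2)‖ ≤
      2 ^ 12 * Real.sqrt ((3 * g * AP + δ * (H ^ 2 * AR)) * SB) * Real.sqrt SA := by
    intro ui um
    set r : ℕ := (t ui um).1 with hr
    set q : ℤ := (t ui um).2 with hq
    have hxq : xq i m a b bb N q r ((ui : ℕ) : ℤ) ((um : ℕ) : ℤ) = x := ht2 ui um
    set qb : ℤ := off bb N r ((ui : ℕ) : ℤ) ((um : ℕ) : ℤ) - q with hqb
    have hyv : ∀ (ua ub : Fin (N + N)) (j : Fin 4),
        yv N bb x (F2.mk i m a ui um ua ub) j ∈ iv p := fun ua ub j =>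
      yv_mem p.1 p.2 bb x hbb hx _ j
    have hr4 := fun ua ub => yv_red i m a b hD N bb x r q ui um ua ub hxq
    rw [← hqb] at hr4
    set V : Finset ℤ := (univ : Finset (Fin (N + N))).image (fun u : Fin (N + N) => q + ((u : ℕ) : ℤ)) with hV
    set Zs : Finset ℤ := (univ : Finset (Fin (N + N))).image (fun u : Fin (N + N) => qb + ((u : ℕ) : ℤ)) with hZs
    have hinj : ∀ c : ℤ, Set.InjOn (fun u : Fin (N + N) => c + ((u : ℕ) : ℤ))
        ((univ : Finset (Fin (N + N))) : Set (Fin (N + N))) := by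
      intro c u _ v _ h
      simp only [add_right_inj, Nat.cast_inj] at h
      exact Fin.ext h
    set β : ℤ → ℂ := fun z => star (hz N (z - q) * Yb i a b F r z) with hβ
    have e1 : br i m a b F N r q qb = (1 / ((N : ℂ) + N) ^ 2) * ∑ z ∈ Zs,
        (hz N (z - qb) * Ya i a b F r z) * ∑ y ∈ V, star (β y) *
          (F i ((sl a - sl i) * y + (sl b - sl i) * z + 0) *
            F m ((sl a - sl m) * y + (sl b - sl m) * z + (sl i - sl m) * r)) := by
      unfold br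
      congr 1
      rw [hZs, Finset.sum_image (hinj qb), Finset.sum_comm]
      refine Finset.sum_congr rfl fun ub _ => ?_
      rw [hV, Finset.sum_image (hinj q), Finset.mul_sum]
      refine Finset.sum_congr rfl fun ua _ => ?_
      have g1 : qb + ((ub : ℕ) : ℤ) - qb = ((ub : ℕ) : ℤ) := by ring
      have g2 : q + ((ua : ℕ) : ℤ) - q = ((ua : ℕ) : ℤ) := by ring
      simp only [hβ, star_star, g1, g2, hz_fin]
      unfold Kk
      have g3 : (sl a - sl i) * (q + ((ua : ℕ) : ℤ)) + (sl b - sl i) * (qb + ((ub : ℕ) : ℤ)) + 0 =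
        (sl a - sl i) * (q + ((ua : ℕ) : ℤ)) + (sl b - sl i) * (qb + ((ub : ℕ) : ℤ)) := by ring
      have g4 : (sl a - sl m) * (q + ((ua : ℕ) : ℤ)) + (sl b - sl m) * (qb + ((ub : ℕ) : ℤ)) +
          (sl i - sl m) * (r : ℤ) = (sl i - sl m) * (r : ℤ) + (sl a - sl m) * (q + ((ua : ℕ) : ℤ)) +
          (sl b - sl m) * (qb + ((ub : ℕ) : ℤ)) := by ring
      rw [g3, g4]
      push_cast
      ring
    have hw := win_nc (V := V) (Zs := Zs) (U := iv p) (al := sl a - sl i) (ga := sl b - sl i)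
      (al' := sl a - sl m) (ga' := sl b - sl m) (σ := 0) (ρ := (sl i - sl m) * (r : ℤ))
      (sl_ne hia.symm) (sl_ne hib.symm) (sl_ne hmb.symm) hdet β (F i) (F m)
      (by
        intro y hy z hz
        obtain ⟨ua, _, rfl⟩ := Finset.mem_image.1 hy
        obtain ⟨ub, _, rfl⟩ := Finset.mem_image.1 hz
        obtain ⟨g1, g2, _, _⟩ := hr4 ua ub
        constructor
        · have e : (sl a - sl i) * (q + ((ua : ℕ) : ℤ)) + (sl b - sl i) * (qb + ((ub : ℕ) : ℤ)) + 0 =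
            yv N bb x (F2.mk i m a ui um ua ub) i := by rw [← g1]; ring
          rw [e]; exact hyv ua ub i
        · have e : (sl a - sl m) * (q + ((ua : ℕ) : ℤ)) + (sl b - sl m) * (qb + ((ub : ℕ) : ℤ)) +
              (sl i - sl m) * (r : ℤ) = yv N bb x (F2.mk i m a ui um ua ub) m := by
            rw [← g2]; ring
          rw [e]; exact hyv ua ub m)
      (H := H) (g := g * len p) hH0 (by positivity) hPH Bad
      (fun h _ hb ξ => hBad2 h hb ξ)
    have hβ2 : ∑ y ∈ V, ‖β y‖ ^ 2 ≤ SB * len p := by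
      have u0 : Fin (N + N) := ⟨0, by omega⟩
      have e2 : ∀ y ∈ V, ‖β y‖ ^ 2 = ‖F b ((sl i - sl b) * r + (-dd a b) * y)‖ ^ 2 := by
        intro y _
        simp only [hβ, norm_star, norm_mul, norm_hz, one_mul]
        unfold Yb
        congr 3
        ring
      rw [Finset.sum_congr rfl e2]
      refine le_trans ?_ hB
      have hd : -dd a b ≠ 0 := by
        unfold dd
        rw [neg_sub]
        exact sl_ne hab
      set ff : ℤ → ℝ := fun y => if y ∈ iv p then ‖F b y‖ ^ 2 else 0 with hff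
      have e3 : ∀ y ∈ V, ‖F b ((sl i - sl b) * r + (-dd a b) * y)‖ ^ 2 =
          ff ((sl i - sl b) * r + (-dd a b) * y) := by
        intro y hy
        obtain ⟨ua, _, rfl⟩ := Finset.mem_image.1 hy
        obtain ⟨_, _, _, g4⟩ := hr4 ua u0
        have e : (sl i - sl b) * (r : ℤ) + (-dd a b) * (q + ((ua : ℕ) : ℤ)) =
            yv N bb x (F2.mk i m a ui um ua u0) b := by rw [← g4]; ring
        simp only [hff]
        rw [if_pos]
        rw [e]; exact hyv ua u0 b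
      rw [Finset.sum_congr rfl e3]
      refine (inj_sum_le hd V (iv p) ff (fun y => by simp only [hff]; split_ifs <;> positivity)
        (fun y hy => by
          by_contra hc
          exact hy (by simp only [hff]; rw [if_neg hc]))).trans (le_of_eq ?_)
      exact Finset.sum_congr rfl fun y hy => by simp only [hff]; rw [if_pos hy]
    have hα2 : ∑ z ∈ Zs, ‖hz N (z - qb) * Ya i a b F r z‖ ^ 2 ≤ SA * len p := by
      have u0 : Fin (N + N) := ⟨0, by omega⟩
      have e2 : ∀ y ∈ Zs, ‖hz N (y - qb) * Ya i a b F r y‖ ^ 2 =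
          ‖F a ((sl i - sl a) * r + (dd a b) * y)‖ ^ 2 := by
        intro y _
        simp only [norm_mul, norm_hz, one_mul]
        unfold Ya
        rfl
      rw [Finset.sum_congr rfl e2]
      refine le_trans ?_ hA
      have hd : dd a b ≠ 0 := by
        unfold dd
        exact sl_ne hab.symm
      set ff : ℤ → ℝ := fun y => if y ∈ iv p then ‖F a y‖ ^ 2 else 0 with hff
      have e3 : ∀ y ∈ Zs, ‖F a ((sl i - sl a) * r + (dd a b) * y)‖ ^ 2 =
          ff ((sl i - sl a) * r + (dd a b) * y) := by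
        intro y hy
        obtain ⟨ub, _, rfl⟩ := Finset.mem_image.1 hy
        obtain ⟨_, _, g3, _⟩ := hr4 u0 ub
        simp only [hff]
        rw [if_pos]
        rw [g3]; exact hyv u0 ub a
      rw [Finset.sum_congr rfl e3]
      refine (inj_sum_le hd Zs (iv p) ff (fun y => by simp only [hff]; split_ifs <;> positivity)
        (fun y hy => by
          by_contra hc
          exact hy (by simp only [hff]; rw [if_neg hc]))).trans (le_of_eq ?_)
      exact Finset.sum_congr rfl fun y hy => by simp only [hff]; rw [if_pos hy]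
    set Wn : ℤ → ℂ := fun z => ∑ y ∈ V, star (β y) *
          (F i ((sl a - sl i) * y + (sl b - sl i) * z + 0) *
            F m ((sl a - sl m) * y + (sl b - sl m) * z + (sl i - sl m) * r)) with hWn
    have hW2 : ∑ z ∈ Zs, ‖Wn z‖ ^ 2 ≤
        ((3 * g * AP + δ * (H ^ 2 * AR)) * SB) * (len p ^ 3) := by
      refine hw.trans ?_
      have k1 : |((sl b - sl i : ℤ) : ℝ)| * (g * len p) * ∑ y ∈ iv p, ‖F i y‖ ^ 2 ≤
          3 * (g * len p) * (AP * len p) := by
        refine mul_le_mul ?_ hP (Finset.sum_nonneg fun _ _ => by positivity) (by positivity)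
        exact mul_le_mul_of_nonneg_right hga3 (by positivity)
      have k2 : (Bad.card : ℝ) * (H ^ 2 * ∑ y ∈ iv p, ‖F m y‖ ^ 2) ≤
          (δ * len p) * (H ^ 2 * (AR * len p)) := by
        refine mul_le_mul hBad1 ?_ (by positivity) (by positivity)
        exact mul_le_mul_of_nonneg_left hR (by positivity)
      calc _ ≤ (3 * (g * len p) * (AP * len p) + (δ * len p) * (H ^ 2 * (AR * len p))) *
            (SB * len p) :=
            mul_le_mul (add_le_add k1 k2) hβ2 (Finset.sum_nonneg fun _ _ => by positivity)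
              (by positivity)
        _ = _ := by ring
    rw [e1, norm_mul]
    have hn1 : ‖(1 / ((N : ℂ) + N) ^ 2)‖ = 1 / (2 * (N : ℝ)) ^ 2 := by
      rw [norm_div, norm_one, norm_pow]
      congr 2
      rw [← Nat.cast_add, Complex.norm_natCast, Nat.cast_add]
      ring
    have k3 : ‖∑ z ∈ Zs, (hz N (z - qb) * Ya i a b F r z) * Wn z‖ ≤
        Real.sqrt (SA * len p) *
          Real.sqrt (((3 * g * AP + δ * (H ^ 2 * AR)) * SB) * (len p ^ 3)) := by
      have k4 : ‖∑ z ∈ Zs, (hz N (z - qb) * Ya i a b F r z) * Wn z‖ ≤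
          ∑ z ∈ Zs, ‖hz N (z - qb) * Ya i a b F r z‖ * ‖Wn z‖ :=
        (norm_sum_le _ _).trans (Finset.sum_le_sum fun z _ => by rw [norm_mul])
      refine k4.trans ((Real.sum_mul_le_sqrt_mul_sqrt _ _ _).trans ?_)
      exact mul_le_mul (Real.sqrt_le_sqrt hα2) (Real.sqrt_le_sqrt hW2) (Real.sqrt_nonneg _)
        (Real.sqrt_nonneg _)
    rw [hn1]
    refine (mul_le_mul_of_nonneg_left k3 (by positivity)).trans (le_of_eq ?_)
    set Q : ℝ := (3 * g * AP + δ * (H ^ 2 * AR)) * SB with hQ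
    have hQ0 : 0 ≤ Q := by positivity
    rw [Real.sqrt_mul hSA0, Real.sqrt_mul hQ0]
    have k5 : Real.sqrt (len p) * Real.sqrt (len p ^ 3) = len p ^ 2 := by
      rw [← Real.sqrt_mul hlp.le, show len p * len p ^ 3 = (len p ^ 2) ^ 2 by ring,
        Real.sqrt_sq (by positivity)]
    calc 1 / (2 * (N : ℝ)) ^ 2 * (Real.sqrt SA * Real.sqrt (len p) *
          (Real.sqrt Q * Real.sqrt (len p ^ 3)))
        = 1 / (2 * (N : ℝ)) ^ 2 * (Real.sqrt SA * Real.sqrt Q *
          (Real.sqrt (len p) * Real.sqrt (len p ^ 3))) := by ring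
      _ = 2 ^ 12 * Real.sqrt Q * Real.sqrt SA := by
          rw [k5, hlen]
          field_simp
          ring
  -- summation over `u_i, u_m`
  rw [Lbox_eq i m a b hD F N bb x (fun ui um => (t ui um).1) (fun ui um => (t ui um).2)
      (fun ui um => ht2 ui um), norm_mul]
  have hn1 : ‖(1 / ((N : ℂ) + N) ^ 2)‖ = 1 / (2 * (N : ℝ)) ^ 2 := by
    rw [norm_div, norm_one, norm_pow]
    congr 2
    rw [← Nat.cast_add, Complex.norm_natCast, Nat.cast_add]
    ring
  rw [hn1]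
  set Cst : ℝ := 2 ^ 12 * Real.sqrt ((3 * g * AP + δ * (H ^ 2 * AR)) * SB) * Real.sqrt SA with hCst
  have k1 : ‖∑ ui : Fin (N + N), ∑ um : Fin (N + N), ((hsg N ui * hsg N um : ℝ) : ℂ) *
        br i m a b F N (t ui um).1 (t ui um).2
          (off bb N (t ui um).1 ((ui : ℕ) : ℤ) ((um : ℕ) : ℤ) - (t ui um).2)‖ ≤
      ∑ _ui : Fin (N + N), ∑ _um : Fin (N + N), Cst := by
    refine (norm_sum_le _ _).trans (Finset.sum_le_sum fun ui _ => ?_)
    refine (norm_sum_le _ _).trans (Finset.sum_le_sum fun um _ => ?_)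
    rw [norm_mul, Complex.ofReal_mul, norm_mul, norm_hsg, norm_hsg, one_mul, one_mul]
    exact hbr ui um
  refine (mul_le_mul_of_nonneg_left k1 (by positivity)).trans (le_of_eq ?_)
  simp only [Finset.sum_const, Finset.card_univ, Fintype.card_fin, nsmul_eq_mul]
  push_cast
  field_simp
  ring

lemma card_adm_le (p : Nd) : ((adm p.1 p.2).card : ℝ) ≤ len p := by
  unfold adm
  rw [Int.card_Ico]
  have h1 : (((p.2 + 1) * 2 ^ (p.1 + 7) - 11 * 2 ^ (p.1 + 1) + 1 -
      (p.2 * 2 ^ (p.1 + 7) + 5 * 2 ^ (p.1 + 1))).toNat : ℤ) ≤ 2 ^ (p.1 + 7) := by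
    have h2 : (0 : ℤ) < 2 ^ (p.1 + 1) := by positivity
    have h3 : (2 : ℤ) ^ (p.1 + 7) = 64 * 2 ^ (p.1 + 1) := by ring
    rw [Int.toNat_eq_max]
    refine max_le ?_ (by positivity)
    rw [h3]
    linarith
  show _ ≤ (2 : ℝ) ^ (p.1 + 7)
  exact_mod_cast h1

/-- **ONE NODE** -/
theorem node_nc {i m a b : Fin 4} (hD : Dst i m a b) (p : Nd) {bb : ℤ} (hbb : bb = -1 ∨ bb = -7)
    (F : Fin 4 → ℤ → ℂ) {AP AR H g δ : ℝ}
    (hH0 : 0 ≤ H) (hg0 : 0 ≤ g) (hAP0 : 0 ≤ AP) (hAR0 : 0 ≤ AR) (hδ0 : 0 ≤ δ)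
    (hP : ∑ y ∈ iv p, ‖F i y‖ ^ 2 ≤ AP * len p) (hPH : ∀ y ∈ iv p, ‖F i y‖ ≤ H)
    (hR : ∑ y ∈ iv p, ‖F m y‖ ^ 2 ≤ AR * len p) (hn : NC2 p p g δ (F m)) :
    ∑ x ∈ adm p.1 p.2, ‖Lbox (2 ^ p.1) bb F x‖ ≤
      2 ^ 12 * Real.sqrt (3 * g * AP + δ * (H ^ 2 * AR)) * av p (F a) * av p (F b) * len p := by
  have hlp := Leaf259.len_pos' p
  have h1 : ∀ f : ℤ → ℂ, ∑ y ∈ iv p, ‖f y‖ ^ 2 ≤ (av p f) ^ 2 * len p := fun f =>
    Leaf259.sum2_of_av le_rfl
  have hav : ∀ f : ℤ → ℂ, 0 ≤ av p f := fun f => Real.sqrt_nonneg _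
  have h2 : ∀ x ∈ adm p.1 p.2, ‖Lbox (2 ^ p.1) bb F x‖ ≤
      2 ^ 12 * Real.sqrt (3 * g * AP + δ * (H ^ 2 * AR)) * av p (F a) * av p (F b) := by
    intro x hx
    refine (box_nc hD hbb hx F (SA := av p (F a) ^ 2) (SB := av p (F b) ^ 2) (by positivity)
      (by positivity) hH0 hg0 hAP0 hAR0 hδ0 hP hPH hR hn (h1 _) (h1 _)).trans (le_of_eq ?_)
    rw [Real.sqrt_mul (by positivity), Real.sqrt_sq (hav _), Real.sqrt_sq (hav _)]
    ring
  refine (Finset.sum_le_sum h2).trans ?_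
  rw [Finset.sum_const, nsmul_eq_mul, mul_comm]
  exact mul_le_mul_of_nonneg_left (card_adm_le p) (by
    have := hav (F a)
    have := hav (F b)
    positivity)

end Crest.Agent.R079.NodeBx254
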