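import Crest.Agent.R079.CoE4_255
import Crest.Agent.R079.NodeB_254

/-! R079, Step II of `RuleNT` (helper255): **DICTIONARY-FREE STATIC RULE** of the two-sided scheme.

`stat_core`: frozen slot `i` (mixture of bounded atoms of mass `A1 t^(-C1)`, local `L²` norms
`≤ A3 t^(-cl)`), killer slot `m ≠ i` with `NCol W R (A2 t^gm) (A2 t^dx)` and `aq (2+k) ≤ 1`: windows
(`Part W S V (K t^(-CS))`) such that on every full window `W' ⊆ V K'`, with any two letters of local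
`L^(2+k)` norms `≤ 1` in the other slots, `‖TR bb ε W' F‖ ≤ K t^cS len J`.
Conditions: `2 cS ≤ gm - 2 cl`, `2 cS ≤ dx - 2 C1`. -/

set_option autoImplicit false
set_option linter.unusedVariables false

namespace Crest.Agent.R079.CoEx255

open Finset Crest.Agent.R079.Grid Crest.Agent.R079.Growth Crest.Agent.R079.QRed
  Crest.Agent.R079.Glue Crest.Agent.R079.TWin Crest.Agent.R079.TRec Crest.Agent.R079.BadN360
  Crest.Agent.R079.BAt112 Crest.Agent.R079.NC237 Crest.Agent.R079.Ero526 Crest.Agent.R079.F24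
  Crest.Agent.R079.LK990 Crest.Agent.R079.LfK71
open Crest.Agent.R079.RuS256 (AtD)
open Crest.Agent.R079.F2 (dd)

/-- the edge of a pair of slots -/
theorem exists_edge (i m : Fin 4) (h : i ≠ m) : ∃ e : Fin 3, i.succAbove (e + 2) = m := by
  revert i m; decide

/-- exponent of the number of windows -/
noncomputable def cnE (C1 gm cS : ℝ) : ℝ := 7 * (gm + 20 * (C1 + cS)) + 4 * C1 + 4 * cS

theorem cnE_nonneg {C1 gm cS : ℝ} (h1 : 0 ≤ C1) (h2 : 0 ≤ gm) (h3 : 0 ≤ cS) : 0 ≤ cnE C1 gm cS := by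
  unfold cnE; positivity

/-- **TALL WORDS OF THE SLOT `m`** next to a frozen letter of the slot `i` -/
theorem tall_slot : ∃ K : ℝ, 0 ≤ K ∧ ∀ bb, (bb = -1 ∨ bb = -7) → ∀ R J, IsRegion R J →
    ∀ (F : Fin 4 → Fn) (i m : Fin 4), i ≠ m → ∀ M η : ℝ, 0 ≤ η →
      (∀ j, j ≠ i → j ≠ m → ∀ p ∈ R, av p (F j) ≤ 1) → (∀ p ∈ R, av p (F m) ≤ η) →
      Rep i J (F i) M →
      ∑ p ∈ R, ∑ x ∈ adm p.1 p.2, ‖Lbox (2 ^ p.1) bb F x‖ ≤ K * M * η * len J := by
  obtain ⟨K, hK, hq⟩ := abs_qb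
  refine ⟨K, hK, ?_⟩
  intro bb hbb R J hR F i m him M η hη hF hm hrep
  -- sizes: `i` is not used by `abs_qb` except through a finite bound
  obtain ⟨A0, hA0, hA⟩ : ∃ A0 : ℝ, 0 ≤ A0 ∧ ∀ p ∈ R, av p (F i) ≤ A0 := by
    refine ⟨∑ p ∈ R, av p (F i), Finset.sum_nonneg fun p _ => Real.sqrt_nonneg _, fun p hp => ?_⟩
    exact Finset.single_le_sum (f := fun p => av p (F i)) (fun p _ => Real.sqrt_nonneg _) hp
  have h := hq bb hbb R J hR F (fun j => if j = i then A0 else if j = m then η else 1)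
    (fun j => by split_ifs <;> first | exact hA0 | exact hη | norm_num)
    (fun j p hp => by
      split_ifs with h1 h2
      · subst h1; exact hA p hp
      · subst h2; exact hm p hp
      · exact hF j h1 h2 p hp) i M hrep
  refine h.trans (le_of_eq ?_)
  have : (∏ j : Fin 3, (if i.succAbove j = i then A0 else
      if i.succAbove j = m then η else (1 : ℝ))) = η := by
    have e1 : ∀ j : Fin 3, (if i.succAbove j = i then A0 else
      if i.succAbove j = m then η else (1 : ℝ)) = if i.succAbove j = m then η else (1 : ℝ) := by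
      intro j; rw [if_neg (Fin.succAbove_ne i j)]
    rw [Finset.prod_congr rfl fun j _ => e1 j]
    obtain ⟨j0, hj0⟩ := Fin.exists_succAbove_eq him.symm
    rw [← hj0]
    rw [Finset.prod_eq_single j0]
    · rw [if_pos rfl]
    · intro b _ hb
      rw [if_neg (fun hc => hb (Fin.succAbove_right_injective hc))]
    · intro hc; exact absurd (Finset.mem_univ _) hc
  rw [this]

/-- numbers of the leaf values / node values -/
theorem num_k1 {t C1 cl gm dx cS A1 A2 A3 b : ℝ} (ht : 0 < t) (ht1 : t ≤ 1)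
    (hA2 : 0 ≤ A2) (h1 : 2 * cS ≤ gm - 2 * cl) (h2 : 2 * cS ≤ dx - 2 * C1) (hb : gm ≤ b) :
    (A2 * t ^ gm + 2 * t ^ b) * (A3 * t ^ (-cl)) ^ 2 + A2 * t ^ dx * (A1 * t ^ (-C1)) ^ 2 ≤
      ((A2 + 2) * A3 ^ 2 + A2 * A1 ^ 2) * t ^ (2 * cS) := by
  have e1 : (A3 * t ^ (-cl)) ^ 2 = A3 ^ 2 * t ^ (-(2 * cl)) := by
    rw [mul_pow, ← Real.rpow_natCast (t ^ _), ← Real.rpow_mul ht.le]
    congr 2
    push_cast
    ring
  have e2 : (A1 * t ^ (-C1)) ^ 2 = A1 ^ 2 * t ^ (-(2 * C1)) := by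
    rw [mul_pow, ← Real.rpow_natCast (t ^ _), ← Real.rpow_mul ht.le]
    congr 2
    push_cast
    ring
  have f0 : t ^ b ≤ t ^ gm := Real.rpow_le_rpow_of_exponent_ge ht ht1 hb
  have f1 : t ^ gm * t ^ (-(2 * cl)) ≤ t ^ (2 * cS) := by
    rw [← Real.rpow_add ht]
    exact Real.rpow_le_rpow_of_exponent_ge ht ht1 (by linarith)
  have f2 : t ^ dx * t ^ (-(2 * C1)) ≤ t ^ (2 * cS) := by
    rw [← Real.rpow_add ht]
    exact Real.rpow_le_rpow_of_exponent_ge ht ht1 (by linarith)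
  rw [e1, e2]
  have g0 : 0 ≤ t ^ (-(2 * cl)) := Real.rpow_nonneg ht.le _
  have g1 : (A2 * t ^ gm + 2 * t ^ b) * (A3 ^ 2 * t ^ (-(2 * cl))) ≤
      ((A2 + 2) * A3 ^ 2) * t ^ (2 * cS) := by
    calc (A2 * t ^ gm + 2 * t ^ b) * (A3 ^ 2 * t ^ (-(2 * cl)))
        ≤ (A2 * t ^ gm + 2 * t ^ gm) * (A3 ^ 2 * t ^ (-(2 * cl))) :=
          mul_le_mul_of_nonneg_right (by linarith) (by positivity)
      _ = ((A2 + 2) * A3 ^ 2) * (t ^ gm * t ^ (-(2 * cl))) := by ring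
      _ ≤ _ := mul_le_mul_of_nonneg_left f1 (by positivity)
  have g2 : A2 * t ^ dx * (A1 ^ 2 * t ^ (-(2 * C1))) ≤ (A2 * A1 ^ 2) * t ^ (2 * cS) := by
    calc A2 * t ^ dx * (A1 ^ 2 * t ^ (-(2 * C1))) = (A2 * A1 ^ 2) * (t ^ dx * t ^ (-(2 * C1))) := by
          ring
      _ ≤ _ := mul_le_mul_of_nonneg_left f2 (by positivity)
  calc _ ≤ ((A2 + 2) * A3 ^ 2) * t ^ (2 * cS) + (A2 * A1 ^ 2) * t ^ (2 * cS) := add_le_add g1 g2
    _ = _ := by ring

theorem sqrt_num {Q t cS x : ℝ} (ht : 0 < t) (hQ : 0 ≤ Q) (hx : x ≤ Q * t ^ (2 * cS)) :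
    √x ≤ √Q * t ^ cS := by
  refine (Real.sqrt_le_sqrt hx).trans (le_of_eq ?_)
  rw [Real.sqrt_mul hQ]
  congr 1
  have htc : 0 < t ^ cS := Real.rpow_pos_of_pos ht _
  have : t ^ (2 * cS) = (t ^ cS) ^ 2 := by
    rw [← Real.rpow_natCast, ← Real.rpow_mul ht.le]
    congr 1
    push_cast
    ring
  rw [this, Real.sqrt_sq htc.le]

theorem num_main {t C1 cS A1 b : ℝ} (ht : 0 < t) (ht1 : t ≤ 1) (hA1 : 0 ≤ A1)
    (hb : 10 * (C1 + cS) ≤ b) :
    2 ^ 31 * ((A1 + 1) * t ^ (-C1)) ^ 2 * (t ^ b) ^ (1 / 5 : ℝ) +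
      t ^ (b + C1 + 2 * cS) * (1 / t ^ b * ((A1 + 1) * t ^ (-C1))) ≤
      (2 ^ 31 * (A1 + 1) ^ 2 + (A1 + 1)) * t ^ (2 * cS) := by
  have e2 : ((A1 + 1) * t ^ (-C1)) ^ 2 = (A1 + 1) ^ 2 * t ^ (-(2 * C1)) := by
    rw [mul_pow, ← Real.rpow_natCast (t ^ _), ← Real.rpow_mul ht.le]
    congr 2
    push_cast
    ring
  have e3 : (t ^ b) ^ (1 / 5 : ℝ) = t ^ (b / 5) := by
    rw [← Real.rpow_mul ht.le]
    congr 1
    ring
  have f1 : t ^ (-(2 * C1)) * t ^ (b / 5) ≤ t ^ (2 * cS) := by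
    rw [← Real.rpow_add ht]
    exact Real.rpow_le_rpow_of_exponent_ge ht ht1 (by linarith)
  have f2 : t ^ (b + C1 + 2 * cS) * (1 / t ^ b * ((A1 + 1) * t ^ (-C1))) =
      (A1 + 1) * t ^ (2 * cS) := by
    rw [one_div, ← Real.rpow_neg ht.le]
    have : t ^ (b + C1 + 2 * cS) * (t ^ (-b) * ((A1 + 1) * t ^ (-C1))) =
        (A1 + 1) * (t ^ (b + C1 + 2 * cS) * t ^ (-b) * t ^ (-C1)) := by ring
    rw [this, ← Real.rpow_add ht, ← Real.rpow_add ht]
    congr 2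
    ring
  rw [e2, e3, f2]
  have g1 : 2 ^ 31 * ((A1 + 1) ^ 2 * t ^ (-(2 * C1))) * t ^ (b / 5) ≤
      2 ^ 31 * (A1 + 1) ^ 2 * t ^ (2 * cS) := by
    calc _ = 2 ^ 31 * (A1 + 1) ^ 2 * (t ^ (-(2 * C1)) * t ^ (b / 5)) := by ring
      _ ≤ _ := mul_le_mul_of_nonneg_left f1 (by positivity)
  calc _ ≤ 2 ^ 31 * (A1 + 1) ^ 2 * t ^ (2 * cS) + (A1 + 1) * t ^ (2 * cS) := add_le_add g1 le_rfl
    _ = _ := by ring

/-- splitting one slot of `TR` -/
theorem TR_split (bb : ℤ) (ε : ℕ → ℤ → ℂ) (W : Finset Nd) (F : Fin 4 → Fn) (m : Fin 4) (H : ℝ) :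
    TR bb ε W F = TR bb ε W (Function.update F m (lo H (F m))) +
      TR bb ε W (Function.update F m (hi H (F m))) := by
  unfold TR TI
  rw [← Finset.sum_add_distrib]
  refine Finset.sum_congr rfl fun p _ => ?_
  rw [← Finset.sum_add_distrib]
  refine Finset.sum_congr rfl fun x _ => ?_
  rw [← mul_add]
  congr 1
  rw [← Lbox_upd_add]
  congr 1
  funext j
  by_cases hj : j = m
  · subst hj
    rw [Function.update_self]
    funext y
    exact lo_add_hi H (F j) y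
  · rw [Function.update_of_ne hj]

set_option maxHeartbeats 2000000 in
open Classical in
/-- **THE STATIC RULE, dictionary-free** (height `A4 t^(-h1)` of the frozen letter separate from its mass
`A1 t^(-C1)`) -/
theorem stat_coreH {C1 hh cl gm dx cS : ℝ} (hC1 : 0 ≤ C1) (hcS : 0 < cS) (hgm : 0 ≤ gm)
    (h1 : 2 * cS ≤ gm - 2 * cl) (h2 : 2 * cS ≤ dx - 2 * hh)
    {k A1 A2 A3 A4 : ℝ} (hk : 0 < k) (hA1 : 0 ≤ A1) (hA2 : 0 ≤ A2) (hA3 : 0 ≤ A3) (hA4 : 0 ≤ A4) :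
    ∃ t0 K : ℝ, 0 < t0 ∧ t0 ≤ 1 ∧ 0 ≤ K ∧ ∀ t, 0 < t → t ≤ t0 → ∀ (W : Finset Nd) (I : Nd),
      Full W I → ∀ i m : Fin 4, i ≠ m → ∀ P R : Fn, RepB i I P (A1 * t ^ (-C1)) →
      (∀ y ∈ iv I, ‖P y‖ ≤ A4 * t ^ (-hh)) →
      (∀ p ∈ W, av p P ≤ A3 * t ^ (-cl)) → (∀ p ∈ W, aq (2 + k) p R ≤ 1) →
      NCol W R (A2 * t ^ gm) (A2 * t ^ dx) →
      ∃ (S : Finset Nd) (V : Nd → Finset Nd), Part W S V (K * t ^ (-cnE C1 gm cS)) ∧
        ∀ K' ∈ S, ∀ W' J, Full W' J → W' ⊆ V K' → ∀ F : Fin 4 → Fn, F i = P → F m = R →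
          (∀ j, j ≠ i → j ≠ m → ∀ p ∈ W', aq (2 + k) p (F j) ≤ 1) →
          ∀ bb ε, Adm bb ε → ‖TR bb ε W' F‖ ≤ K * t ^ cS * len J := by
  obtain ⟨K1, hK1, hreg⟩ := region_core
  obtain ⟨K2, hK2, htall⟩ := tall_slot
  set b : ℝ := gm + 20 * (C1 + cS) with hb
  have hCc : 0 ≤ C1 + cS := by linarith
  have hb0 : 0 < b := by rw [hb]; positivity
  have hb1 : gm ≤ b := by rw [hb]; linarith
  have hb2 : 10 * (C1 + cS) ≤ b := by rw [hb]; linarith
  have hb3 : C1 + cS ≤ b / 20 := by rw [hb]; linarith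
  have hb4 : cS ≤ -C1 + b := by rw [hb]; linarith
  set Q1 : ℝ := (A2 + 2) * A3 ^ 2 + A2 * A4 ^ 2 with hQ1
  have hQ10 : 0 ≤ Q1 := by positivity
  set Q0 : ℝ := 2 ^ 28 * Q1 + (2 ^ 31 * (A1 + 1) ^ 2 + (A1 + 1)) with hQ0
  have hQ00 : 0 ≤ Q0 := by positivity
  set K0 : ℝ := K1 * √Q0 + K1 * (1 + 1 / k) * (A1 + 1) +
    16 * (2 * ((7 : ℕ) + 1) + 1) * (2 ^ 12 * √(3 * Q1)) + K2 * A1 with hK0d
  have hK0 : 0 ≤ K0 := by positivity
  set K : ℝ := K0 + (7 + 120 * (A1 + 1) ^ 2) * 19 with hK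
  have hKn : 0 ≤ K := by positivity
  refine ⟨min 1 ((1 / 2 ^ 60 : ℝ) ^ (1 / b)), K, lt_min one_pos (Real.rpow_pos_of_pos (by norm_num) _),
    min_le_left _ _, hKn, ?_⟩
  intro t ht htt W I hW i m him P R hrep hPH haP haR hNC
  have ht1 : t ≤ 1 := htt.trans (min_le_left _ _)
  obtain ⟨e, rfl⟩ := exists_edge i m him
  have hσs : t ^ b ≤ 1 / 2 ^ 60 := by
    have h1 : t ≤ (1 / 2 ^ 60 : ℝ) ^ (1 / b) := htt.trans (min_le_right _ _)
    calc t ^ b ≤ ((1 / 2 ^ 60 : ℝ) ^ (1 / b)) ^ b := Real.rpow_le_rpow ht.le h1 hb0.le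
      _ = 1 / 2 ^ 60 := by
          rw [← Real.rpow_mul (by norm_num), one_div_mul_cancel hb0.ne', Real.rpow_one]
  have htC : 0 < t ^ (-C1) := Real.rpow_pos_of_pos ht _
  have htC1 : 1 ≤ t ^ (-C1) := RuS256.one_le_neg ht ht1 hC1
  obtain ⟨κ, hκ, hκ1, f, hf, hPf⟩ := one_atom hrep
  set M : ℝ := (A1 + 1) * t ^ (-C1) with hM
  have hM0 : 0 < M := by positivity
  have hf' : BA i κ M f := hf.mono (by rw [hM]; linarith)
  obtain ⟨T, a, b', c', hBA⟩ := hf'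
  have hσ : 0 < t ^ b := Real.rpow_pos_of_pos ht _
  have hθ : 0 < t ^ (b + C1 + 2 * cS) := Real.rpow_pos_of_pos ht _
  -- the low letter
  set H : ℝ := (t ^ b) ^ (-(2 / k)) with hH
  have hH0 : 0 < H := Real.rpow_pos_of_pos hσ _
  set G : Fn := lo H R with hG
  have haG : ∀ p ∈ W, aq (2 + k) p G ≤ 1 := fun p hp =>
    (aq_lo (by linarith) H p R).trans (haR p hp)
  have s2 : ∀ p : Nd, ∀ u : Fn, aq (2 + k) p u ≤ 1 → ∑ y ∈ iv p, ‖u y‖ ^ 2 ≤ len p := by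
    intro p u hu
    have h3 := Leaf259.sum2_of_av ((TWL649.av_le_aq (by linarith) p u).trans hu)
    rwa [one_pow, one_mul] at h3
  have hhi : ∀ p ∈ W, ∑ y ∈ iv p, ‖hi H R y‖ ^ 2 ≤ (t ^ b) ^ 2 * len p := by
    intro p hp
    have h3 := RuS256.tall_energy hk hσ (haR p hp)
    rw [RuS256.tl_eq_hi, ← hH] at h3
    exact h3
  have hNG : NCol W G (A2 * t ^ gm + 2 * t ^ b) (A2 * t ^ dx) :=
    ncol_lo hσ.le hNC (fun p hp => s2 p R (haR p hp)) hhi
  have hth : 0 ≤ t ^ (-hh) := Real.rpow_nonneg ht.le _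
  have hP2 : ∀ p ∈ W, ∑ y ∈ iv p, ‖P y‖ ^ 2 ≤ (A3 * t ^ (-cl)) ^ 2 * len p := fun p hp =>
    Leaf259.sum2_of_av (haP p hp)
  have hg0 : 0 ≤ A2 * t ^ gm + 2 * t ^ b := by
    have := Real.rpow_nonneg ht.le gm
    positivity
  have hd0 : 0 ≤ A2 * t ^ dx := mul_nonneg hA2 (Real.rpow_nonneg ht.le _)
  have hk1 := num_k1 (C1 := hh) (A1 := A4) (cl := cl) (A3 := A3) (b := b) ht ht1 hA2 h1 h2 hb1
  set X1 : ℝ := (A2 * t ^ gm + 2 * t ^ b) * (A3 * t ^ (-cl)) ^ 2 +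
    A2 * t ^ dx * (A4 * t ^ (-hh)) ^ 2 with hX1
  have hX10 : 0 ≤ X1 := by positivity
  -- leaf values
  have hHL : ∀ W' J, Full W' J → W' ⊆ W → HL i e P G W' 7 (2 ^ 28 * X1) := by
    intro W' J hW' hsub fb hfb r hr n p hp
    have h3 := HLfx254.hleaf_nc (MainEx255.dst_j i e) 7 le_rfl (r : ℤ)
      (fun z => star (fb ((sl i - sl (i.succAbove (e + 1))) * r +
            -dd (i.succAbove e) (i.succAbove (e + 1)) * z))) fb
      (fun z => by rw [norm_star]) (P := P) (R := G) (AF := 1) (AP := (A3 * t ^ (-cl)) ^ 2)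
      (AR := 1) (H := A4 * t ^ (-hh)) (g := A2 * t ^ gm + 2 * t ^ b) (δ := A2 * t ^ dx)
      zero_le_one (by positivity) zero_le_one (by positivity) hg0 hd0 hfb
      (fun p hp => hP2 p (hsub hp))
      (fun p hp y hy => hPH y (hW.reg.1 p (hsub hp) hy))
      (fun p hp => by rw [one_mul]; exact s2 p G (haG p (hsub hp)))
      (fun p hp p' hp' hl => nc2_of_ncol hNG (hsub hp) (hsub hp') hl) n p hp
    refine h3.trans (le_of_eq ?_)
    rw [hX1]; ring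
  obtain ⟨S, V, hPt, hS⟩ := hreg i e k κ M (t ^ b) (t ^ (b + C1 + 2 * cS)) (2 ^ 28 * X1) hk hσ hσs
    hθ (by positivity) T ![a, b', c']
    { k0 := hκ, M0 := hM0, g0 := hBA.ha, g1 := hBA.hb, g2 := hBA.hc, n0 := hBA.na, n1 := hBA.nb,
      n2 := hBA.nc } P G W I hW
    (fun y hy => by rw [hPf y hy, hBA.eq y]; rfl) (fun y => norm_lo_le hH0.le R y)
    (fun p hp => s2 p G (haG p hp)) hHL
  have htS : 0 < t ^ (-cnE C1 gm cS) := Real.rpow_pos_of_pos ht _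
  refine ⟨S, V, WinA222.part_mono hPt ?_, ?_⟩
  · have h3 := RuS256.num_cnt (C := C1 / 2) (A := A1) (b := b) (t := t) (c := cS) hA1
      (by positivity) hb0.le hcS.le ht ht1
    rw [show 2 * (C1 / 2) = C1 by ring] at h3
    have e3 : -(7 * b + 8 * (C1 / 2) + 4 * cS) = -cnE C1 gm cS := by unfold cnE; rw [← hb]; ring
    rw [e3] at h3
    refine h3.trans (mul_le_mul_of_nonneg_right ?_ htS.le)
    rw [hK]; linarith
  · intro K' hK' W' J hW' hsub F hFi hFm hF bb ε hε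
    have hl := Growth.len_pos J
    have htc : 0 < t ^ cS := Real.rpow_pos_of_pos ht _
    have hWsub : ∀ p ∈ W', p ∈ W := fun p hp => hPt.wsub K' hK' (hsub hp)
    have hJI : iv J ⊆ iv I := hW.reg.1 J (hWsub J hW'.top)
    have hmi : i.succAbove (e + 2) ≠ i := Fin.succAbove_ne i (e + 2)
    have him' : i ≠ i.succAbove (e + 2) := hmi.symm
    -- low word
    set F' : Fin 4 → Fn := Function.update F (i.succAbove (e + 2)) (lo H (F (i.succAbove (e + 2))))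
      with hF'
    have hF'i : F' i = P := by rw [hF', Function.update_of_ne him', hFi]
    have hF'm : F' (i.succAbove (e + 2)) = G := by rw [hF', Function.update_self, hFm]
    have hF'o : ∀ j, j ≠ i → j ≠ i.succAbove (e + 2) → F' j = F j := fun j _ hj => by
      rw [hF', Function.update_of_ne hj]
    obtain ⟨Ka, Kb, g1, g2, g3⟩ := hS K' hK' W' J hW' hsub F' hF'i hF'm
      (fun j hj hjm p hp => by rw [hF'o j hj hjm]; exact hF j hj hjm p hp) bb hε.1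
    have hav : ∀ j, j ≠ i → j ≠ i.succAbove (e + 2) → ∀ p ∈ W', av p (F j) ≤ 1 :=
      fun j hj hjm p hp => (TWL649.av_le_aq (by linarith) p (F j)).trans (hF j hj hjm p hp)
    have m1 : √(2 ^ 28 * X1 + 2 ^ 31 * M ^ 2 * (t ^ b) ^ (1 / 5 : ℝ) +
        t ^ (b + C1 + 2 * cS) * (1 / t ^ b * M)) ≤ √Q0 * t ^ cS := by
      refine sqrt_num ht hQ00 ?_
      have h3 := num_main (t := t) (C1 := C1) (cS := cS) (A1 := A1) (b := b) ht ht1 hA1 hb2
      rw [← hM] at h3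
      calc _ = 2 ^ 28 * X1 + (2 ^ 31 * M ^ 2 * (t ^ b) ^ (1 / 5 : ℝ) +
            t ^ (b + C1 + 2 * cS) * (1 / t ^ b * M)) := by ring
        _ ≤ 2 ^ 28 * (Q1 * t ^ (2 * cS)) +
            (2 ^ 31 * (A1 + 1) ^ 2 + (A1 + 1)) * t ^ (2 * cS) :=
            add_le_add (mul_le_mul_of_nonneg_left hk1 (by norm_num)) h3
        _ = _ := by rw [hQ0]; ring
    have m2 : K1 * (1 + 1 / k) * (t ^ b) ^ (1 / 20 : ℝ) * M ≤ K1 * (1 + 1 / k) * (A1 + 1) * t ^ cS := by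
      have h4 := RuS256.num_K (C := C1 / 2) (A := A1) (b := b) (t := t) (c := cS) hA1
        (by linarith) ht ht1
      rw [show 2 * (C1 / 2) = C1 by ring] at h4
      calc K1 * (1 + 1 / k) * (t ^ b) ^ (1 / 20 : ℝ) * M
          = K1 * (1 + 1 / k) * ((t ^ b) ^ (1 / 20 : ℝ) * ((A1 + 1) * t ^ (-C1))) := by
            rw [hM]; ring
        _ ≤ K1 * (1 + 1 / k) * ((A1 + 1) * t ^ cS) :=
            mul_le_mul_of_nonneg_left h4 (by positivity)
        _ = K1 * (1 + 1 / k) * (A1 + 1) * t ^ cS := by ring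
    have m3 : 2 ^ 12 * √(3 * (A2 * t ^ gm + 2 * t ^ b) * (A3 * t ^ (-cl)) ^ 2 +
        A2 * t ^ dx * ((A4 * t ^ (-hh)) ^ 2 * 1)) ≤ 2 ^ 12 * √(3 * Q1) * t ^ cS := by
      rw [mul_assoc (2 ^ 12 : ℝ) (√(3 * Q1)) (t ^ cS)]
      refine mul_le_mul_of_nonneg_left (sqrt_num ht (by positivity) ?_) (by positivity)
      have h5 : 0 ≤ A2 * t ^ dx * (A4 * t ^ (-hh)) ^ 2 := by positivity
      calc _ ≤ 3 * X1 := by rw [hX1]; linarith
        _ ≤ 3 * (Q1 * t ^ (2 * cS)) := mul_le_mul_of_nonneg_left hk1 (by norm_num)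
        _ = _ := by ring
    have hlow : ‖TR bb ε W' F'‖ ≤ (K1 * (√Q0 * t ^ cS) + K1 * (1 + 1 / k) * (A1 + 1) * t ^ cS +
        16 * (2 * ((7 : ℕ) + 1) + 1) * (2 ^ 12 * √(3 * Q1) * t ^ cS)) * len J := by
      refine S2D530.window_split hε hW' 7 F' Ka Kb g1 (by positivity)
        (g2.trans (mul_le_mul_of_nonneg_right (mul_le_mul_of_nonneg_left m1 hK1) hl.le))
        (g3.trans (mul_le_mul_of_nonneg_right m2 hl.le)) ?_
      intro p hp _
      have hpW := hWsub p hp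
      obtain ⟨d1, d2, d3, d4, d5, d6⟩ := MainEx255.dst_j i e
      have hn := NodeBx254.node_nc (MainEx255.dst_j i e) p hε.1 F'
        (AP := (A3 * t ^ (-cl)) ^ 2) (AR := 1) (H := A4 * t ^ (-hh))
        (g := A2 * t ^ gm + 2 * t ^ b) (δ := A2 * t ^ dx) (by positivity) hg0 (by positivity)
        zero_le_one hd0 (by rw [hF'i]; exact hP2 p hpW)
        (fun y hy => by rw [hF'i]; exact hPH y (hW.reg.1 p hpW hy))
        (by rw [hF'm, one_mul]; exact s2 p G (haG p hpW))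
        (by rw [hF'm]; exact nc2_of_ncol hNG hpW hpW rfl)
      refine hn.trans ?_
      have ha : av p (F' (i.succAbove e)) ≤ 1 := by
        rw [hF'o _ (Fin.succAbove_ne i e) d4.symm]
        exact hav _ (Fin.succAbove_ne i e) d4.symm p hp
      have hb' : av p (F' (i.succAbove (e + 1))) ≤ 1 := by
        rw [hF'o _ (Fin.succAbove_ne i (e + 1)) d5.symm]
        exact hav _ (Fin.succAbove_ne i (e + 1)) d5.symm p hp
      have hlp : 0 < len p := Growth.len_pos p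
      have hn1 : ∀ u : Fn, 0 ≤ av p u := fun u => Real.sqrt_nonneg _
      refine mul_le_mul_of_nonneg_right ?_ hlp.le
      calc _ ≤ 2 ^ 12 * √(3 * (A2 * t ^ gm + 2 * t ^ b) * (A3 * t ^ (-cl)) ^ 2 +
            A2 * t ^ dx * ((A4 * t ^ (-hh)) ^ 2 * 1)) * 1 * 1 :=
            mul_le_mul (mul_le_mul_of_nonneg_left ha (by positivity)) hb' (hn1 _) (by positivity)
        _ ≤ _ := by rw [mul_one, mul_one]; exact m3
    -- tall word
    have hrepJ : Rep i J (F i) (A1 * t ^ (-C1)) := by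
      rw [hFi]; exact rep_mono hrep.rep hJI
    have hhi2 : ‖TR bb ε W' (Function.update F (i.succAbove (e + 2))
        (hi H (F (i.succAbove (e + 2)))))‖ ≤ K2 * (A1 * t ^ (-C1)) * t ^ b * len J := by
      refine (Qb247.norm_TR_le hε.2 W' _).trans (htall bb hε.1 W' J hW'.reg _ i
        (i.succAbove (e + 2)) him' _ _ hσ.le (fun j hj hjm p hp => ?_) (fun p hp => ?_) ?_)
      · rw [Function.update_of_ne hjm]; exact hav j hj hjm p hp
      · rw [Function.update_self, hFm]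
        have h3 := av_hi (q := 2 + k) (by linarith) hH0 (haR p (hWsub p hp))
        have e3 : H ^ (-((2 + k - 2) / 2)) = t ^ b := by
          rw [hH, ← Real.rpow_mul hσ.le]
          have : -(2 / k) * -((2 + k - 2) / 2) = 1 := by field_simp; ring
          rw [this, Real.rpow_one]
        rwa [e3] at h3
      · rw [Function.update_of_ne him']; exact hrepJ
    have hhi3 : K2 * (A1 * t ^ (-C1)) * t ^ b ≤ K2 * A1 * t ^ cS := by
      have f1 : t ^ (-C1) * t ^ b ≤ t ^ cS := by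
        rw [← Real.rpow_add ht]
        exact Real.rpow_le_rpow_of_exponent_ge ht ht1 hb4
      calc _ = K2 * A1 * (t ^ (-C1) * t ^ b) := by ring
        _ ≤ _ := mul_le_mul_of_nonneg_left f1 (by positivity)
    rw [TR_split bb ε W' F (i.succAbove (e + 2)) H]
    refine (norm_add_le _ _).trans ?_
    calc _ ≤ (K1 * (√Q0 * t ^ cS) + K1 * (1 + 1 / k) * (A1 + 1) * t ^ cS +
        16 * (2 * ((7 : ℕ) + 1) + 1) * (2 ^ 12 * √(3 * Q1) * t ^ cS)) * len J +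
          K2 * A1 * t ^ cS * len J := add_le_add hlow
            (hhi2.trans (mul_le_mul_of_nonneg_right hhi3 hl.le))
      _ = K0 * (t ^ cS * len J) := by rw [hK0d]; ring
      _ ≤ K * (t ^ cS * len J) := by
          refine mul_le_mul_of_nonneg_right ?_ (by positivity)
          rw [hK]
          have : 0 ≤ (7 + 120 * (A1 + 1) ^ 2) * 19 := by positivity
          linarith
      _ = _ := by ring

/-- the same with the height of a mixture of bounded atoms -/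
theorem stat_core {C1 cl gm dx cS : ℝ} (hC1 : 0 ≤ C1) (hcS : 0 < cS) (hgm : 0 ≤ gm)
    (h1 : 2 * cS ≤ gm - 2 * cl) (h2 : 2 * cS ≤ dx - 2 * C1)
    {k A1 A2 A3 : ℝ} (hk : 0 < k) (hA1 : 0 ≤ A1) (hA2 : 0 ≤ A2) (hA3 : 0 ≤ A3) :
    ∃ t0 K : ℝ, 0 < t0 ∧ t0 ≤ 1 ∧ 0 ≤ K ∧ ∀ t, 0 < t → t ≤ t0 → ∀ (W : Finset Nd) (I : Nd),
      Full W I → ∀ i m : Fin 4, i ≠ m → ∀ P R : Fn, RepB i I P (A1 * t ^ (-C1)) →
      (∀ p ∈ W, av p P ≤ A3 * t ^ (-cl)) → (∀ p ∈ W, aq (2 + k) p R ≤ 1) →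
      NCol W R (A2 * t ^ gm) (A2 * t ^ dx) →
      ∃ (S : Finset Nd) (V : Nd → Finset Nd), Part W S V (K * t ^ (-cnE C1 gm cS)) ∧
        ∀ K' ∈ S, ∀ W' J, Full W' J → W' ⊆ V K' → ∀ F : Fin 4 → Fn, F i = P → F m = R →
          (∀ j, j ≠ i → j ≠ m → ∀ p ∈ W', aq (2 + k) p (F j) ≤ 1) →
          ∀ bb ε, Adm bb ε → ‖TR bb ε W' F‖ ≤ K * t ^ cS * len J := by
  obtain ⟨t0, K, g1, g2, g3, g4⟩ := stat_coreH hC1 hcS hgm h1 h2 hk hA1 hA2 hA3 hA1
  exact ⟨t0, K, g1, g2, g3, fun t ht htt W I hW i m him P R hrep haP haR hNC =>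
    g4 t ht htt W I hW i m him P R hrep (fun y hy => repB_height hrep hy) haP haR hNC⟩

end Crest.Agent.R079.CoEx255
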