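import Crest.Agent.R079.ElG_69
import Crest.Agent.R079.CelD_159

/-! R079, windows cure (notes 1119 (C3)/(C6), 1128 (4)/(7)), part (B) (helper250), operators on
rectangles: triangle inequality, Schur test for sums of kernels over rectangles with bounded row and
column sums of the sides, and the OP LEMMA: the part of an admissible kernel over the strip of one
node `q` has operator norm `≤ r * len q` on the whole fibre. -/

set_option autoImplicit false

namespace Crest.Agent.R079.DLx250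

open Finset Crest.Agent.R079.Grid Crest.Agent.R079.Growth Crest.Agent.R079.QRed
  Crest.Agent.R079.Qh249 Crest.Agent.R079.QVar181 Crest.Agent.R079.TWin
open Crest.Agent.R079.ThA159 Crest.Agent.R079.Cel159 Crest.Agent.R079.PjC881
open Crest.Agent.R079.ClW59 (OpS DQ cl nq opS_zero)

/-! ### triangle inequality -/

lemma sqrt_sum_add {α : Type*} (S : Finset α) (a b : α → ℂ) :
    Real.sqrt (∑ x ∈ S, ‖a x + b x‖ ^ 2)
      ≤ Real.sqrt (∑ x ∈ S, ‖a x‖ ^ 2) + Real.sqrt (∑ x ∈ S, ‖b x‖ ^ 2) := by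
  have ha0 : 0 ≤ ∑ x ∈ S, ‖a x‖ ^ 2 := Finset.sum_nonneg fun _ _ => sq_nonneg _
  have hb0 : 0 ≤ ∑ x ∈ S, ‖b x‖ ^ 2 := Finset.sum_nonneg fun _ _ => sq_nonneg _
  have h2 := Real.sum_mul_le_sqrt_mul_sqrt S (fun x => ‖a x‖) (fun x => ‖b x‖)
  have h3 : ∑ x ∈ S, ‖a x + b x‖ ^ 2 ≤ ∑ x ∈ S, ‖a x‖ ^ 2 + 2 * (∑ x ∈ S, ‖a x‖ * ‖b x‖)
      + ∑ x ∈ S, ‖b x‖ ^ 2 := by
    rw [Finset.mul_sum, ← Finset.sum_add_distrib, ← Finset.sum_add_distrib]
    refine Finset.sum_le_sum fun x _ => ?_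
    have h := pow_le_pow_left₀ (norm_nonneg _) (norm_add_le (a x) (b x)) 2
    nlinarith
  rw [← Real.sqrt_sq (add_nonneg (Real.sqrt_nonneg _) (Real.sqrt_nonneg _))]
  refine Real.sqrt_le_sqrt (h3.trans ?_)
  have e1 := Real.sq_sqrt ha0
  have e2 := Real.sq_sqrt hb0
  nlinarith

/-- operator bound in square root form -/
lemma opS_sqrt {S S' : Finset ℤ} {B : ℤ → ℤ → ℂ} {s : ℝ} (hs : 0 ≤ s) (h : OpS S S' B s)
    (f : ℤ → ℂ) : Real.sqrt (∑ x ∈ S, ‖∑ y ∈ S', B x y * f y‖ ^ 2)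
      ≤ s * Real.sqrt (∑ y ∈ S', ‖f y‖ ^ 2) := by
  have h1 := Real.sqrt_le_sqrt (h f)
  rwa [Real.sqrt_mul (sq_nonneg _), Real.sqrt_sq hs] at h1

lemma opS_of_sqrt {S S' : Finset ℤ} {B : ℤ → ℤ → ℂ} {s : ℝ}
    (h : ∀ f : ℤ → ℂ, Real.sqrt (∑ x ∈ S, ‖∑ y ∈ S', B x y * f y‖ ^ 2)
      ≤ s * Real.sqrt (∑ y ∈ S', ‖f y‖ ^ 2)) : OpS S S' B s := by
  intro f
  have h0 : 0 ≤ ∑ x ∈ S, ‖∑ y ∈ S', B x y * f y‖ ^ 2 := Finset.sum_nonneg fun _ _ => sq_nonneg _
  have h1 : 0 ≤ ∑ y ∈ S', ‖f y‖ ^ 2 := Finset.sum_nonneg fun _ _ => sq_nonneg _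
  have h2 := pow_le_pow_left₀ (Real.sqrt_nonneg _) (h f) 2
  rwa [Real.sq_sqrt h0, mul_pow, Real.sq_sqrt h1] at h2

lemma opS_mono {S S' : Finset ℤ} {B : ℤ → ℤ → ℂ} {s t : ℝ} (hs : 0 ≤ s) (hst : s ≤ t)
    (h : OpS S S' B s) : OpS S S' B t := by
  intro f
  refine (h f).trans ?_
  exact mul_le_mul_of_nonneg_right (pow_le_pow_left₀ hs hst 2)
    (Finset.sum_nonneg fun _ _ => sq_nonneg _)

/-- **triangle inequality** for a finite family of kernels -/
theorem opS_sum {κ : Type*} (s : Finset κ) {S S' : Finset ℤ} (T : κ → ℤ → ℤ → ℂ) (c : κ → ℝ)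
    (hc : ∀ i ∈ s, 0 ≤ c i) (hT : ∀ i ∈ s, OpS S S' (T i) (c i)) :
    OpS S S' (fun x y => ∑ i ∈ s, T i x y) (∑ i ∈ s, c i) := by
  classical
  refine opS_of_sqrt fun f => ?_
  induction s using Finset.induction_on with
  | empty => simp
  | insert i s hi ih =>
    have h1 := ih (fun j hj => hc j (Finset.mem_insert_of_mem hj))
      (fun j hj => hT j (Finset.mem_insert_of_mem hj))
    have h2 := opS_sqrt (hc i (Finset.mem_insert_self i s)) (hT i (Finset.mem_insert_self i s)) f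
    have e : ∀ x, ∑ y ∈ S', (∑ j ∈ insert i s, T j x y) * f y
        = ∑ y ∈ S', T i x y * f y + ∑ y ∈ S', (∑ j ∈ s, T j x y) * f y := by
      intro x
      rw [← Finset.sum_add_distrib]
      refine Finset.sum_congr rfl fun y _ => ?_
      rw [Finset.sum_insert hi, add_mul]
    simp only [e]
    refine (sqrt_sum_add S _ _).trans ?_
    rw [Finset.sum_insert hi, add_mul]
    exact add_le_add h2 h1

/-! ### Schur test over rectangles -/

/-- **Schur test**: kernels over rectangles `A c × B c` with norms `≤ ρ w c`; the weights of the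
rectangles over a row, and over a column, add up to `≤ M` -/
theorem opS_rect {κ : Type*} (cells : Finset κ) {S S' : Finset ℤ} (A B : κ → Finset ℤ) (w : κ → ℝ)
    (T : κ → ℤ → ℤ → ℂ) {ρ M : ℝ} (hM : 0 ≤ M) (hw : ∀ c ∈ cells, 0 < w c)
    (hA : ∀ c ∈ cells, A c ⊆ S) (hB : ∀ c ∈ cells, B c ⊆ S')
    (hT : ∀ c ∈ cells, OpS (A c) (B c) (T c) (ρ * w c))
    (h0 : ∀ c ∈ cells, ∀ x y, ¬ (x ∈ A c ∧ y ∈ B c) → T c x y = 0)
    (hrow : ∀ x ∈ S, ∑ c ∈ cells.filter (fun c => x ∈ A c), w c ≤ M)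
    (hcol : ∀ y ∈ S', ∑ c ∈ cells.filter (fun c => y ∈ B c), w c ≤ M) :
    OpS S S' (fun x y => ∑ c ∈ cells, T c x y) (ρ * M) := by
  classical
  intro f
  set g : κ → ℤ → ℂ := fun c x => ∑ y ∈ B c, T c x y * f y with hg
  have e1 : ∀ x, ∑ y ∈ S', (∑ c ∈ cells, T c x y) * f y
      = ∑ c ∈ cells.filter (fun c => x ∈ A c), g c x := by
    intro x
    have h1 : ∑ y ∈ S', (∑ c ∈ cells, T c x y) * f y
        = ∑ c ∈ cells, ∑ y ∈ S', T c x y * f y := by
      rw [Finset.sum_comm]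
      exact Finset.sum_congr rfl fun y _ => Finset.sum_mul _ _ _
    rw [h1, Finset.sum_filter]
    refine Finset.sum_congr rfl fun c hc => ?_
    split_ifs with hx
    · refine (Finset.sum_subset (hB c hc) fun y _ hy => ?_).symm
      rw [h0 c hc x y fun h => hy h.2, zero_mul]
    · exact Finset.sum_eq_zero fun y _ => by rw [h0 c hc x y fun h => hx h.1, zero_mul]
  have h2 : ∀ x ∈ S, ‖∑ c ∈ cells.filter (fun c => x ∈ A c), g c x‖ ^ 2
      ≤ M * ∑ c ∈ cells.filter (fun c => x ∈ A c), ‖g c x‖ ^ 2 / w c := by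
    intro x hx
    set F := cells.filter (fun c => x ∈ A c) with hF
    have hwF : ∀ c ∈ F, 0 < w c := fun c hc => hw c (Finset.mem_filter.1 hc).1
    have h3 : ‖∑ c ∈ F, g c x‖ ≤ ∑ c ∈ F, Real.sqrt (w c) * (‖g c x‖ / Real.sqrt (w c)) := by
      refine (norm_sum_le _ _).trans (le_of_eq ?_)
      refine Finset.sum_congr rfl fun c hc => ?_
      have : Real.sqrt (w c) ≠ 0 := (Real.sqrt_pos.2 (hwF c hc)).ne'
      field_simp
    have h4 := Finset.sum_mul_sq_le_sq_mul_sq F (fun c => Real.sqrt (w c))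
      (fun c => ‖g c x‖ / Real.sqrt (w c))
    have e2 : ∑ c ∈ F, Real.sqrt (w c) ^ 2 = ∑ c ∈ F, w c :=
      Finset.sum_congr rfl fun c hc => Real.sq_sqrt (hwF c hc).le
    have e3 : ∑ c ∈ F, (‖g c x‖ / Real.sqrt (w c)) ^ 2 = ∑ c ∈ F, ‖g c x‖ ^ 2 / w c :=
      Finset.sum_congr rfl fun c hc => by rw [div_pow, Real.sq_sqrt (hwF c hc).le]
    rw [e2, e3] at h4
    refine (pow_le_pow_left₀ (norm_nonneg _) h3 2).trans (h4.trans ?_)
    exact mul_le_mul_of_nonneg_right (hrow x hx)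
      (Finset.sum_nonneg fun c hc => div_nonneg (sq_nonneg _) (hwF c hc).le)
  have h5 : ∑ x ∈ S, ‖∑ y ∈ S', (∑ c ∈ cells, T c x y) * f y‖ ^ 2
      ≤ M * ∑ c ∈ cells, (∑ x ∈ A c, ‖g c x‖ ^ 2) / w c := by
    have h6 : ∑ x ∈ S, ‖∑ y ∈ S', (∑ c ∈ cells, T c x y) * f y‖ ^ 2
        ≤ ∑ x ∈ S, M * ∑ c ∈ cells.filter (fun c => x ∈ A c), ‖g c x‖ ^ 2 / w c := by
      refine Finset.sum_le_sum fun x hx => ?_
      rw [e1 x]
      exact h2 x hx
    refine h6.trans (le_of_eq ?_)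
    rw [← Finset.mul_sum]
    congr 1
    have e4 : ∀ x, ∑ c ∈ cells.filter (fun c => x ∈ A c), ‖g c x‖ ^ 2 / w c
        = ∑ c ∈ cells, if x ∈ A c then ‖g c x‖ ^ 2 / w c else 0 := fun x => Finset.sum_filter _ _
    simp only [e4]
    rw [Finset.sum_comm]
    refine Finset.sum_congr rfl fun c hc => ?_
    rw [Finset.sum_div, ← Finset.sum_filter]
    refine Finset.sum_congr ?_ fun _ _ => rfl
    ext x
    rw [Finset.mem_filter]
    exact ⟨fun h => h.2, fun h => ⟨hA c hc h, h⟩⟩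
  refine h5.trans ?_
  have h7 : ∑ c ∈ cells, (∑ x ∈ A c, ‖g c x‖ ^ 2) / w c
      ≤ ∑ c ∈ cells, ρ ^ 2 * (w c * ∑ y ∈ B c, ‖f y‖ ^ 2) := by
    refine Finset.sum_le_sum fun c hc => ?_
    have hwc := hw c hc
    rw [div_le_iff₀ hwc]
    refine (hT c hc f).trans (le_of_eq ?_)
    ring
  have h8 : ∑ c ∈ cells, ρ ^ 2 * (w c * ∑ y ∈ B c, ‖f y‖ ^ 2)
      ≤ ρ ^ 2 * (M * ∑ y ∈ S', ‖f y‖ ^ 2) := by
    rw [← Finset.mul_sum]
    refine mul_le_mul_of_nonneg_left ?_ (sq_nonneg _)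
    have e5 : ∑ c ∈ cells, w c * ∑ y ∈ B c, ‖f y‖ ^ 2
        = ∑ y ∈ S', (∑ c ∈ cells.filter (fun c => y ∈ B c), w c) * ‖f y‖ ^ 2 := by
      have e6 : ∀ c ∈ cells, w c * ∑ y ∈ B c, ‖f y‖ ^ 2
          = ∑ y ∈ S', if y ∈ B c then w c * ‖f y‖ ^ 2 else 0 := by
        intro c hc
        rw [← Finset.sum_filter, Finset.mul_sum]
        refine Finset.sum_congr ?_ fun _ _ => rfl
        ext y
        rw [Finset.mem_filter]
        exact ⟨fun h => ⟨hB c hc h, h⟩, fun h => h.2⟩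
      rw [Finset.sum_congr rfl e6, Finset.sum_comm]
      refine Finset.sum_congr rfl fun y _ => ?_
      rw [Finset.sum_mul, Finset.sum_filter]
    rw [e5, Finset.mul_sum]
    exact Finset.sum_le_sum fun y hy => mul_le_mul_of_nonneg_right (hcol y hy) (sq_nonneg _)
  refine (mul_le_mul_of_nonneg_left (h7.trans h8) hM).trans (le_of_eq ?_)
  ring

/-! ### the strip of one node -/

/-- number of points of a fibre line in a node -/
lemma card_line {Z : ℤ → ℤ} (hZ : Function.Injective Z) (q : Nd) (V : Finset ℤ)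
    (h : ∀ v ∈ V, Z v ∈ iv q) : (V.card : ℝ) ≤ len q := by
  classical
  rw [← Growth.card_iv q]
  have h1 : V.card = (V.image Z).card := (Finset.card_image_of_injective V hZ).symm
  rw [h1]
  exact_mod_cast Finset.card_le_card fun y hy => by
    obtain ⟨v, hv, rfl⟩ := Finset.mem_image.1 hy
    exact h v hv

open Classical in
/-- **OP LEMMA, own cells** (1119 (C3), 1128 (4), line model): a kernel supported on the strip of
the node `q`, with operator norm `≤ r 2^n` on every maximal cell of `q`, has operator norm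
`≤ r * len q` on the whole fibre -/
theorem op_strip {Y : ℤ → ℤ → ℤ → ℤ} {k : ℕ} {T₀ T₁ T₂ : Finset ℤ}
    (hY1 : ∀ z u, Function.Injective fun v => Y z u v)
    (hY2 : ∀ z v, Function.Injective fun u => Y z u v) {q : Nd} {r : ℝ} (hr : 0 ≤ r)
    {B : ℤ × ℤ × ℤ → ℂ}
    (hB0 : ∀ ω, ω ∉ (T₀ ×ˢ T₁ ×ˢ T₂).filter (fun ω => Y ω.1 ω.2.1 ω.2.2 ∈ iv q) → B ω = 0)
    (hB : NmP (T₀ ×ˢ T₁ ×ˢ T₂) cf (okc Y k) q B ≤ r) (z : ℤ) :
    OpS T₁ T₂ (fun u v => B (z, u, v)) (r * len q) := by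
  classical
  set Bd : Finset (ℤ × ℤ × ℤ) :=
    (T₀ ×ˢ T₁ ×ˢ T₂).filter (fun ω => Y ω.1 ω.2.1 ω.2.2 ∈ iv q) with hBd
  set cells : Finset (ℤ × ℕ × ℤ × ℤ) := Bd.image (mcell Y k q) with hcells
  have hs := split_cell (Y := Y) (k := k) (T₀ := T₀) (T₁ := T₁) (T₂ := T₂) q
  rw [← hBd, ← hcells] at hs
  have hop := (hs.adm r hr B hB0).1 hB
  have hMx : ∀ c ∈ cells, Mx (Y c.1) k q c.2.1 c.2.2.1 c.2.2.2 := by
    intro c hc
    obtain ⟨ω, hω, rfl⟩ := Finset.mem_image.1 hc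
    rw [hBd, Finset.mem_filter] at hω
    exact Mx_mcell hω.2
  set F : Finset (ℤ × ℕ × ℤ × ℤ) := cells.filter (fun c => c.1 = z) with hF
  have hFc : ∀ c ∈ F, c ∈ cells ∧ c.1 = z := fun c hc => Finset.mem_filter.1 hc
  set A : ℤ × ℕ × ℤ × ℤ → Finset ℤ := fun c => dI c.2.1 c.2.2.1 ∩ T₁ with hA
  set A' : ℤ × ℕ × ℤ × ℤ → Finset ℤ := fun c => dI c.2.1 c.2.2.2 ∩ T₂ with hA'
  have hL := (Growth.len_pos q).le
  have hcard : ∀ (n : ℕ) (a : ℤ), ((dI n a).card : ℝ) = 2 ^ n := by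
    intro n a
    unfold dI
    rw [Int.card_Ico]
    have : ((a + 1) * 2 ^ n - a * 2 ^ n : ℤ) = ((2 ^ n : ℕ) : ℤ) := by push_cast; ring
    rw [this, Int.toNat_natCast]
    push_cast
    ring
  have h1 := opS_rect F (S := T₁) (S' := T₂) A A' (fun c => (2 : ℝ) ^ c.2.1)
    (fun c u v => if u ∈ A c ∧ v ∈ A' c then B (z, u, v) else 0) (ρ := r) (M := len q) hL
    (fun c _ => by positivity) (fun c _ => Finset.inter_subset_right)
    (fun c _ => Finset.inter_subset_right)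
    (fun c hc => by
      obtain ⟨h1, h2⟩ := hFc c hc
      refine opS_congr (hop c h1) fun u hu v hv => ?_
      rw [if_pos ⟨hu, hv⟩, h2])
    (fun c _ u v h => if_neg h) ?_ ?_
  · refine opS_congr h1 fun u hu v hv => ?_
    by_cases hω : (z, u, v) ∈ Bd
    · obtain ⟨c, hc, hm⟩ := (hs.mem _).1 hω
      rw [Finset.mem_product, Finset.mem_product, Finset.mem_singleton] at hm
      obtain ⟨hz, hu', hv'⟩ := hm
      have hcF : c ∈ F := Finset.mem_filter.2 ⟨hc, hz.symm⟩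
      rw [Finset.sum_eq_single_of_mem c hcF]
      · exact if_pos ⟨hu', hv'⟩
      · intro c' hc' hne
        refine if_neg fun h => hne ?_
        by_contra hcon
        obtain ⟨h3, h4⟩ := hFc c' hc'
        refine hs.dj c' h3 c hc hcon (z, u, v) ?_ ?_
        · rw [Finset.mem_product, Finset.mem_product, Finset.mem_singleton]
          exact ⟨h4.symm, h⟩
        · rw [Finset.mem_product, Finset.mem_product, Finset.mem_singleton]
          exact ⟨hz, hu', hv'⟩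
    · rw [hB0 _ hω]
      refine Finset.sum_eq_zero fun c hc => ?_
      split_ifs <;> rfl
  · -- rows
    intro u _
    set Fu := F.filter (fun c => u ∈ A c) with hFu
    have hdj : ∀ c ∈ Fu, ∀ c' ∈ Fu, c ≠ c' →
        Disjoint (dI c.2.1 c.2.2.2) (dI c'.2.1 c'.2.2.2) := by
      intro c hc c' hc' hne
      rw [Finset.disjoint_left]
      intro v hv hv'
      obtain ⟨hc1, hcu⟩ := Finset.mem_filter.1 hc
      obtain ⟨hc1', hcu'⟩ := Finset.mem_filter.1 hc'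
      obtain ⟨hc2, hz⟩ := hFc c hc1
      obtain ⟨hc2', hz'⟩ := hFc c' hc1'
      have hm := hMx c hc2
      have hm' := hMx c' hc2'
      rw [hz] at hm
      rw [hz'] at hm'
      obtain ⟨e1, e2, e3⟩ := Mx_eq hm hm' (Finset.mem_inter.1 hcu).1 (Finset.mem_inter.1 hcu').1
        hv hv'
      exact hne (Prod.ext (hz.trans hz'.symm) (Prod.ext e1 (Prod.ext e2 e3)))
    have e : ∑ c ∈ Fu, (2 : ℝ) ^ c.2.1 = ((Fu.biUnion fun c => dI c.2.1 c.2.2.2).card : ℝ) := by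
      rw [Finset.card_biUnion hdj]
      push_cast
      exact Finset.sum_congr rfl fun c _ => (hcard _ _).symm
    rw [e]
    refine card_line (hY1 z u) q _ fun v hv => ?_
    obtain ⟨c, hc, hv⟩ := Finset.mem_biUnion.1 hv
    obtain ⟨hc1, hcu⟩ := Finset.mem_filter.1 hc
    obtain ⟨hc2, hz⟩ := hFc c hc1
    have hm := hMx c hc2
    rw [hz] at hm
    exact hm.2.1 u (Finset.mem_inter.1 hcu).1 v hv
  · -- columns
    intro v _
    set Fv := F.filter (fun c => v ∈ A' c) with hFv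
    have hdj : ∀ c ∈ Fv, ∀ c' ∈ Fv, c ≠ c' →
        Disjoint (dI c.2.1 c.2.2.1) (dI c'.2.1 c'.2.2.1) := by
      intro c hc c' hc' hne
      rw [Finset.disjoint_left]
      intro u hu hu'
      obtain ⟨hc1, hcu⟩ := Finset.mem_filter.1 hc
      obtain ⟨hc1', hcu'⟩ := Finset.mem_filter.1 hc'
      obtain ⟨hc2, hz⟩ := hFc c hc1
      obtain ⟨hc2', hz'⟩ := hFc c' hc1'
      have hm := hMx c hc2
      have hm' := hMx c' hc2'
      rw [hz] at hm
      rw [hz'] at hm'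
      obtain ⟨e1, e2, e3⟩ := Mx_eq hm hm' hu hu' (Finset.mem_inter.1 hcu).1
        (Finset.mem_inter.1 hcu').1
      exact hne (Prod.ext (hz.trans hz'.symm) (Prod.ext e1 (Prod.ext e2 e3)))
    have e : ∑ c ∈ Fv, (2 : ℝ) ^ c.2.1 = ((Fv.biUnion fun c => dI c.2.1 c.2.2.1).card : ℝ) := by
      rw [Finset.card_biUnion hdj]
      push_cast
      exact Finset.sum_congr rfl fun c _ => (hcard _ _).symm
    rw [e]
    refine card_line (hY2 z v) q _ fun u hu => ?_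
    obtain ⟨c, hc, hu⟩ := Finset.mem_biUnion.1 hu
    obtain ⟨hc1, hcv⟩ := Finset.mem_filter.1 hc
    obtain ⟨hc2, hz⟩ := hFc c hc1
    have hm := hMx c hc2
    rw [hz] at hm
    exact hm.2.1 u hu v (Finset.mem_inter.1 hcv).1

open Classical in
/-- **OP LEMMA, raw letter**: rows from the `L²` size of the letter on the node -/
theorem raw_op {Z : ℤ → ℤ → ℤ} (hY1 : ∀ u, Function.Injective fun v => Z u v)
    (hY2 : ∀ v, Function.Injective fun u => Z u v) {T₁ T₂ : Finset ℤ} {q : Nd}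
    {al : ℤ → ℤ → ℂ} {g : Fn} {H s : ℝ} (hal : ∀ u v, ‖al u v‖ ≤ H)
    (hs : av q g ≤ s) :
    OpS T₁ T₂ (fun u v => if Z u v ∈ iv q then al u v * g (Z u v) else 0) (H * s * len q) := by
  classical
  have hs0 : 0 ≤ s := (Growth.av_nonneg q g).trans hs
  have hL := (Growth.len_pos q).le
  intro f
  set K : ℤ → ℤ → ℂ := fun u v => if Z u v ∈ iv q then al u v * g (Z u v) else 0 with hK
  have hrow : ∀ u, ∑ v ∈ T₂, ‖K u v‖ ^ 2 ≤ H ^ 2 * (len q * s ^ 2) := by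
    intro u
    have h1 : ∑ v ∈ T₂, ‖K u v‖ ^ 2 ≤ ∑ v ∈ T₂.filter (fun v => Z u v ∈ iv q),
        H ^ 2 * ‖g (Z u v)‖ ^ 2 := by
      rw [Finset.sum_filter]
      refine Finset.sum_le_sum fun v _ => ?_
      simp only [hK]
      split_ifs with h
      · rw [norm_mul, mul_pow]
        exact mul_le_mul_of_nonneg_right (pow_le_pow_left₀ (norm_nonneg _) (hal u v) 2)
          (sq_nonneg _)
      · simp
    have h2 : ∑ v ∈ T₂.filter (fun v => Z u v ∈ iv q), ‖g (Z u v)‖ ^ 2 ≤ ∑ y ∈ iv q, ‖g y‖ ^ 2 := by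
      rw [← Finset.sum_image (f := fun y => ‖g y‖ ^ 2) (g := fun v => Z u v)
        (fun a _ b _ h => hY1 u h)]
      refine Finset.sum_le_sum_of_subset_of_nonneg (fun y hy => ?_) fun _ _ _ => sq_nonneg _
      obtain ⟨v, hv, rfl⟩ := Finset.mem_image.1 hy
      exact (Finset.mem_filter.1 hv).2
    rw [Crest.Agent.R079.RelW653.sum_av'] at h2
    refine h1.trans ?_
    rw [← Finset.mul_sum]
    refine mul_le_mul_of_nonneg_left (h2.trans ?_) (sq_nonneg _)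
    exact mul_le_mul_of_nonneg_left (pow_le_pow_left₀ (Growth.av_nonneg q g) hs 2) hL
  have h3 : ∀ u, ‖∑ v ∈ T₂, K u v * f v‖ ^ 2
      ≤ H ^ 2 * (len q * s ^ 2) * ∑ v ∈ T₂.filter (fun v => Z u v ∈ iv q), ‖f v‖ ^ 2 := by
    intro u
    have e : ∑ v ∈ T₂, K u v * f v = ∑ v ∈ T₂.filter (fun v => Z u v ∈ iv q), K u v * f v := by
      rw [Finset.sum_filter]
      refine Finset.sum_congr rfl fun v _ => ?_
      split_ifs with h
      · rfl
      · simp only [hK, if_neg h, zero_mul]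
    rw [e]
    have h4 : ‖∑ v ∈ T₂.filter (fun v => Z u v ∈ iv q), K u v * f v‖
        ≤ ∑ v ∈ T₂.filter (fun v => Z u v ∈ iv q), ‖K u v‖ * ‖f v‖ :=
      (norm_sum_le _ _).trans (le_of_eq (Finset.sum_congr rfl fun v _ => norm_mul _ _))
    refine (pow_le_pow_left₀ (norm_nonneg _) h4 2).trans
      ((Finset.sum_mul_sq_le_sq_mul_sq _ _ _).trans ?_)
    refine mul_le_mul_of_nonneg_right ?_ (Finset.sum_nonneg fun _ _ => sq_nonneg _)
    exact (Finset.sum_le_sum_of_subset_of_nonneg (Finset.filter_subset _ _)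
      fun _ _ _ => sq_nonneg _).trans (hrow u)
  refine (Finset.sum_le_sum fun u _ => h3 u).trans ?_
  rw [← Finset.mul_sum]
  have h5 : ∑ u ∈ T₁, ∑ v ∈ T₂.filter (fun v => Z u v ∈ iv q), ‖f v‖ ^ 2
      ≤ len q * ∑ v ∈ T₂, ‖f v‖ ^ 2 := by
    have e : ∀ u, ∑ v ∈ T₂.filter (fun v => Z u v ∈ iv q), ‖f v‖ ^ 2
        = ∑ v ∈ T₂, if Z u v ∈ iv q then ‖f v‖ ^ 2 else 0 := fun u => Finset.sum_filter _ _
    simp only [e]
    rw [Finset.sum_comm, Finset.mul_sum]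
    refine Finset.sum_le_sum fun v _ => ?_
    rw [← Finset.sum_filter, Finset.sum_const, nsmul_eq_mul]
    refine mul_le_mul_of_nonneg_right ?_ (sq_nonneg _)
    exact card_line (hY2 v) q _ fun u hu => (Finset.mem_filter.1 hu).2
  have h6 := mul_le_mul_of_nonneg_left h5 (show 0 ≤ H ^ 2 * (len q * s ^ 2) by positivity)
  refine h6.trans (le_of_eq ?_)
  ring

end Crest.Agent.R079.DLx250
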