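import Crest.Agent.R079.It_260
import Crest.Agent.R079.GenT_934

/-! R079, rule (A) = MIX: ENERGY-AWARE ITERATION (helper249).

The windows of Step I with small local norms at ALL nodes (notes 1119 of helper55, 1128 of helper323) are
about `δ^(-2)` in number while the local norms `|e|_p^2` are only `≤ δ`: what is conserved from one
generation to the next is the ENERGY `∑ len w |e_w|_w^2` of the letters at the tops.  So one generation is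

* `GenE κ1 κ2 A0 A1 L r` : for letters of size `s` on `R` with energy `En I X Y` at the top there are
  windows `T` with `s² ∑ len w ≤ (A0 s² + A1 En) len I`, letters of size `r s` on them, total energy
  `≤ L En len I`, and the words lost are `≤ (κ1 s² + κ2 En) len I`;
* `ClE s α β γ` : `‖∑_R v X Y‖ ≤ (α s² + β En I X Y) len I + γ s² bT TB R I`;
* `stepE` : `GenE` and `ClE (r s) α β γ` give `ClE s (κ1 + A0 r² α) (κ2 + A1 r² α + L β) (r² γ)`;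
* `iterE`, `itE` : `n` generations, parameters depending on the generation. -/

set_option autoImplicit false

namespace Crest.Agent.R079.EItx249

open Finset Crest.Agent.R079.Grid Crest.Agent.R079.Growth Crest.Agent.R079.QRed
open Crest.Agent.R079.TRec

/-- one generation with energies -/
def GenE (v : Fn → Fn → Nd → ℂ) (Sm : ℝ → Finset Nd → Fn → Fn → Prop) (En : Nd → Fn → Fn → ℝ)
    (R0 : Finset Nd) (κ1 κ2 A0 A1 L r : ℝ) : Prop :=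
  ∀ s, 0 < s → ∀ R I, Full R I → R ⊆ R0 → ∀ X Y, Sm s R X Y →
    ∃ (T : Finset Nd) (X' Y' : Nd → Fn), Tops R I T ∧
      s ^ 2 * ∑ w ∈ T, len w ≤ (A0 * s ^ 2 + A1 * En I X Y) * len I ∧
      (∀ w ∈ T, Sm (r * s) (win R T w) (X' w) (Y' w)) ∧
      ∑ w ∈ T, len w * En w (X' w) (Y' w) ≤ L * En I X Y * len I ∧
      ‖∑ p ∈ R, v X Y p‖ ≤ (κ1 * s ^ 2 + κ2 * En I X Y) * len I +
        ∑ w ∈ T, ‖∑ p ∈ win R T w, v (X' w) (Y' w) p‖

/-- claim of size `s` with coefficients `α` (size), `β` (energy), `γ` (static tops) -/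
def ClE (v : Fn → Fn → Nd → ℂ) (Sm : ℝ → Finset Nd → Fn → Fn → Prop) (En : Nd → Fn → Fn → ℝ)
    (R0 TB : Finset Nd) (s α β γ : ℝ) : Prop :=
  ∀ R I, Full R I → R ⊆ R0 → ∀ X Y, Sm s R X Y →
    ‖∑ p ∈ R, v X Y p‖ ≤ (α * s ^ 2 + β * En I X Y) * len I + γ * s ^ 2 * It260.bT TB R I

variable {v : Fn → Fn → Nd → ℂ} {Sm : ℝ → Finset Nd → Fn → Fn → Prop} {En : Nd → Fn → Fn → ℝ}
  {R0 TB : Finset Nd}

/-- **BASE** -/
theorem baseE (hmono : ∀ s R R' X Y, Sm s R X Y → R' ⊆ R → Sm s R' X Y) {I0 : Nd}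
    (hR0 : Full R0 I0) (hTB : Tops R0 I0 TB) {α : ℝ} (hα : 0 ≤ α)
    (hP : It260.Piece v Sm R0 TB α) : ∀ s, 0 < s → ClE v Sm En R0 TB s α 0 α := by
  intro s hs R I hR hRR X Y hXY
  refine (It260.base hmono hR0 hTB hα hP s hs R I hR hRR X Y hXY).trans (le_of_eq ?_)
  ring

theorem clE_mono (hEn : ∀ I X Y, 0 ≤ En I X Y) {s α β γ α' β' γ' : ℝ}
    (h : ClE v Sm En R0 TB s α β γ) (hα : α ≤ α') (hβ : β ≤ β') (hγ : γ ≤ γ') :
    ClE v Sm En R0 TB s α' β' γ' := by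
  intro R I hR hRR X Y hXY
  refine (h R I hR hRR X Y hXY).trans ?_
  have h1 : α * s ^ 2 + β * En I X Y ≤ α' * s ^ 2 + β' * En I X Y :=
    add_le_add (mul_le_mul_of_nonneg_right hα (sq_nonneg _))
      (mul_le_mul_of_nonneg_right hβ (hEn I X Y))
  exact add_le_add (mul_le_mul_of_nonneg_right h1 (Growth.len_pos I).le)
    (mul_le_mul_of_nonneg_right (mul_le_mul_of_nonneg_right hγ (sq_nonneg _))
      (It260.bT_nonneg _ _ _))

/-- **STEP**: one generation -/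
theorem stepE {κ1 κ2 A0 A1 L r : ℝ} (hG : GenE v Sm En R0 κ1 κ2 A0 A1 L r) {s α β γ : ℝ}
    (hs : 0 < s) (hα : 0 ≤ α) (hβ : 0 ≤ β) (hγ : 0 ≤ γ)
    (h : ClE v Sm En R0 TB (r * s) α β γ) :
    ClE v Sm En R0 TB s (κ1 + A0 * r ^ 2 * α) (κ2 + A1 * r ^ 2 * α + L * β) (r ^ 2 * γ) := by
  intro R I hR hRR X Y hXY
  obtain ⟨T, X', Y', hT, hc, hS, hE, hV⟩ := hG s hs R I hR hRR X Y hXY
  refine hV.trans ?_
  have h1 : ∑ w ∈ T, ‖∑ p ∈ win R T w, v (X' w) (Y' w) p‖ ≤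
      ∑ w ∈ T, ((α * (r * s) ^ 2 + β * En w (X' w) (Y' w)) * len w +
        γ * (r * s) ^ 2 * It260.bT TB (win R T w) w) :=
    Finset.sum_le_sum fun w hw =>
      h _ w (win_full hR hT hw) (win_sub.trans hRR) _ _ (hS w hw)
  have h2 : ∑ w ∈ T, ((α * (r * s) ^ 2 + β * En w (X' w) (Y' w)) * len w +
        γ * (r * s) ^ 2 * It260.bT TB (win R T w) w) =
      α * r ^ 2 * (s ^ 2 * ∑ w ∈ T, len w) + β * ∑ w ∈ T, len w * En w (X' w) (Y' w) +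
        γ * (r * s) ^ 2 * ∑ w ∈ T, It260.bT TB (win R T w) w := by
    rw [Finset.sum_add_distrib, ← Finset.mul_sum]
    have e : ∑ w ∈ T, (α * (r * s) ^ 2 + β * En w (X' w) (Y' w)) * len w =
        α * (r * s) ^ 2 * ∑ w ∈ T, len w + β * ∑ w ∈ T, len w * En w (X' w) (Y' w) := by
      rw [Finset.mul_sum, Finset.mul_sum, ← Finset.sum_add_distrib]
      exact Finset.sum_congr rfl fun w _ => by ring
    rw [e]
    ring
  have g1 : α * r ^ 2 * (s ^ 2 * ∑ w ∈ T, len w) ≤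
      α * r ^ 2 * ((A0 * s ^ 2 + A1 * En I X Y) * len I) :=
    mul_le_mul_of_nonneg_left hc (mul_nonneg hα (sq_nonneg _))
  have g2 : β * ∑ w ∈ T, len w * En w (X' w) (Y' w) ≤ β * (L * En I X Y * len I) :=
    mul_le_mul_of_nonneg_left hE hβ
  have g3 : γ * (r * s) ^ 2 * ∑ w ∈ T, It260.bT TB (win R T w) w ≤
      γ * (r * s) ^ 2 * It260.bT TB R I :=
    mul_le_mul_of_nonneg_left (It260.sum_bT hR hT TB) (mul_nonneg hγ (sq_nonneg _))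
  calc (κ1 * s ^ 2 + κ2 * En I X Y) * len I + ∑ w ∈ T, ‖∑ p ∈ win R T w, v (X' w) (Y' w) p‖
      ≤ (κ1 * s ^ 2 + κ2 * En I X Y) * len I +
        (α * r ^ 2 * ((A0 * s ^ 2 + A1 * En I X Y) * len I) + β * (L * En I X Y * len I) +
          γ * (r * s) ^ 2 * It260.bT TB R I) :=
        add_le_add le_rfl (h1.trans (h2.le.trans (add_le_add (add_le_add g1 g2) g3)))
    _ = _ := by ring

/-- sums of products of losses -/
theorem prod_shift {Λ : ℕ → ℝ} (n : ℕ) (κ : ℕ → ℝ) :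
    ∑ j ∈ range (n + 1), (∏ i ∈ range j, Λ i) * κ j =
      κ 0 + Λ 0 * ∑ j ∈ range n, (∏ i ∈ range j, Λ (i + 1)) * κ (j + 1) := by
  rw [Finset.sum_range_succ', Finset.mul_sum, add_comm]
  simp only [Finset.range_zero, Finset.prod_empty, one_mul]
  congr 1
  refine Finset.sum_congr rfl fun j _ => ?_
  rw [Finset.prod_range_succ']
  ring

/-- the size coefficient after `n` generations -/
noncomputable def al (Λ κ1 : ℕ → ℝ) (P : ℝ) (n : ℕ) : ℝ :=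
  (∏ i ∈ range n, Λ i) * P + ∑ j ∈ range n, (∏ i ∈ range j, Λ i) * κ1 j

theorem al_nonneg {Λ κ1 : ℕ → ℝ} {P : ℝ} (hΛ : ∀ j, 1 ≤ Λ j) (hκ : ∀ j, 0 ≤ κ1 j) (hP : 0 ≤ P)
    (n : ℕ) : 0 ≤ al Λ κ1 P n := by
  have hΛ0 : ∀ j, 0 ≤ Λ j := fun j => zero_le_one.trans (hΛ j)
  exact add_nonneg (mul_nonneg (Finset.prod_nonneg fun i _ => hΛ0 _) hP)
    (Finset.sum_nonneg fun j _ => mul_nonneg (Finset.prod_nonneg fun i _ => hΛ0 _) (hκ _))

theorem al_succ (Λ κ1 : ℕ → ℝ) (P : ℝ) (n : ℕ) :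
    al Λ κ1 P (n + 1) = κ1 0 + Λ 0 * al (fun j => Λ (j + 1)) (fun j => κ1 (j + 1)) P n := by
  unfold al
  rw [prod_shift n κ1, Finset.prod_range_succ']
  ring

/-- **`n` GENERATIONS**, parameters depending on the generation: losses `Λ j ≥ A0 j r_j²`, `L j`;
`A1 j r_j² ≤ b Λ j` -/
theorem iterE (hEn : ∀ I X Y, 0 ≤ En I X Y) {P P' b : ℝ}
    (hP : ∀ s, 0 < s → ClE v Sm En R0 TB s P 0 P') (hP0 : 0 ≤ P) (hP1 : 0 ≤ P') (hb : 0 ≤ b)
    (n : ℕ) : ∀ (κ1 κ2 A0 A1 L r Λ : ℕ → ℝ), (∀ j, 0 ≤ κ1 j) → (∀ j, 0 ≤ κ2 j) → (∀ j, 0 < r j) →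
    (∀ j, 1 ≤ Λ j) → (∀ j, A0 j * r j ^ 2 ≤ Λ j) → (∀ j, L j ≤ Λ j) →
    (∀ j, A1 j * r j ^ 2 ≤ b * Λ j) →
    (∀ j, j < n → GenE v Sm En R0 (κ1 j) (κ2 j) (A0 j) (A1 j) (L j) (r j)) →
    ∀ s, 0 < s → ClE v Sm En R0 TB s (al Λ κ1 P n)
      (∑ j ∈ range n, (∏ i ∈ range j, Λ i) * κ2 j + n * b * al Λ κ1 P n)
      ((∏ i ∈ range n, r i ^ 2) * P') := by
  induction n with
  | zero =>
    intro κ1 κ2 A0 A1 L r Λ _ _ _ _ _ _ _ _ s hs
    simpa [al] using hP s hs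
  | succ n ih =>
    intro κ1 κ2 A0 A1 L r Λ hκ1 hκ2 hr hΛ hA0 hL hA1 hG s hs
    have hΛ0 : ∀ j, 0 ≤ Λ j := fun j => zero_le_one.trans (hΛ j)
    have h0 := ih (fun j => κ1 (j + 1)) (fun j => κ2 (j + 1)) (fun j => A0 (j + 1))
      (fun j => A1 (j + 1)) (fun j => L (j + 1)) (fun j => r (j + 1)) (fun j => Λ (j + 1))
      (fun j => hκ1 _) (fun j => hκ2 _) (fun j => hr _) (fun j => hΛ _) (fun j => hA0 _)
      (fun j => hL _) (fun j => hA1 _) (fun j hj => hG (j + 1) (by omega)) (r 0 * s)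
      (mul_pos (hr 0) hs)
    set a' := al (fun j => Λ (j + 1)) (fun j => κ1 (j + 1)) P n with ha'
    have hα : 0 ≤ a' := al_nonneg (fun j => hΛ _) (fun j => hκ1 _) hP0 n
    set S2 := ∑ j ∈ range n, (∏ i ∈ range j, Λ (i + 1)) * κ2 (j + 1) with hS2
    have hS20 : 0 ≤ S2 := Finset.sum_nonneg fun j _ =>
      mul_nonneg (Finset.prod_nonneg fun i _ => hΛ0 _) (hκ2 _)
    have hβ : 0 ≤ S2 + n * b * a' := by positivity
    have hγ : 0 ≤ (∏ i ∈ range n, r (i + 1) ^ 2) * P' :=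
      mul_nonneg (Finset.prod_nonneg fun i _ => sq_nonneg _) hP1
    have h1 := stepE (hG 0 (by omega)) hs hα hβ hγ h0
    have ea := al_succ Λ κ1 P n
    refine clE_mono hEn h1 ?_ ?_ (le_of_eq ?_)
    · rw [ea]
      exact add_le_add le_rfl (mul_le_mul_of_nonneg_right (hA0 0) hα)
    · rw [prod_shift n κ2]
      have g1 : A1 0 * r 0 ^ 2 * a' ≤ b * Λ 0 * a' := mul_le_mul_of_nonneg_right (hA1 0) hα
      have g2 : L 0 * (S2 + n * b * a') ≤ Λ 0 * (S2 + n * b * a') :=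
        mul_le_mul_of_nonneg_right (hL 0) hβ
      have g3 : Λ 0 * a' ≤ al Λ κ1 P (n + 1) := by
        rw [ea]
        linarith [hκ1 0]
      have g4 : ((n : ℝ) + 1) * b * (Λ 0 * a') ≤ ((n : ℝ) + 1) * b * al Λ κ1 P (n + 1) :=
        mul_le_mul_of_nonneg_left g3 (by positivity)
      push_cast
      calc κ2 0 + A1 0 * r 0 ^ 2 * a' + L 0 * (S2 + n * b * a') ≤
          κ2 0 + b * Λ 0 * a' + Λ 0 * (S2 + n * b * a') := by linarith
        _ = (κ2 0 + Λ 0 * S2) + ((n : ℝ) + 1) * b * (Λ 0 * a') := by ring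
        _ ≤ _ := add_le_add le_rfl g4
    · rw [Finset.prod_range_succ']
      ring

/-- **[IT] with energies** -/
theorem itE (hmono : ∀ s R R' X Y, Sm s R X Y → R' ⊆ R → Sm s R' X Y)
    (hEn : ∀ I X Y, 0 ≤ En I X Y) {I0 : Nd}
    (hR0 : Full R0 I0) (hTB : Tops R0 I0 TB) {AB : ℝ} (hc : Cnt R0 TB AB)
    {P b : ℝ} (hP0 : 0 ≤ P) (hb : 0 ≤ b) (hP : It260.Piece v Sm R0 TB P) (n : ℕ)
    {κ1 κ2 A0 A1 L r Λ : ℕ → ℝ} (hκ1 : ∀ j, 0 ≤ κ1 j) (hκ2 : ∀ j, 0 ≤ κ2 j) (hr : ∀ j, 0 < r j)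
    (hΛ : ∀ j, 1 ≤ Λ j) (hA0 : ∀ j, A0 j * r j ^ 2 ≤ Λ j) (hL : ∀ j, L j ≤ Λ j)
    (hA1 : ∀ j, A1 j * r j ^ 2 ≤ b * Λ j)
    (hG : ∀ j, j < n → GenE v Sm En R0 (κ1 j) (κ2 j) (A0 j) (A1 j) (L j) (r j)) {X Y : Fn}
    (hXY : Sm 1 R0 X Y) {M : ℝ} (hM : En I0 X Y ≤ M) :
    ‖∑ p ∈ R0, v X Y p‖ ≤ (al Λ κ1 P n +
      (∑ j ∈ range n, (∏ i ∈ range j, Λ i) * κ2 j + n * b * al Λ κ1 P n) * M +
      (∏ i ∈ range n, r i ^ 2) * P * AB) * len I0 := by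
  have h1 := iterE hEn (baseE hmono hR0 hTB hP0 hP) hP0 hP0 hb n κ1 κ2 A0 A1 L r Λ hκ1 hκ2 hr hΛ
    hA0 hL hA1 hG 1 one_pos R0 I0 hR0 subset_rfl X Y hXY
  refine h1.trans ?_
  have hΛ0 : ∀ j, 0 ≤ Λ j := fun j => zero_le_one.trans (hΛ j)
  have hal := al_nonneg hΛ hκ1 hP0 n
  have hS : 0 ≤ ∑ j ∈ range n, (∏ i ∈ range j, Λ i) * κ2 j + n * b * al Λ κ1 P n :=
    add_nonneg (Finset.sum_nonneg fun j _ => mul_nonneg (Finset.prod_nonneg fun i _ => hΛ0 _)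
      (hκ2 _)) (by positivity)
  have h0 : 0 ≤ (∏ i ∈ range n, r i ^ 2) * P :=
    mul_nonneg (Finset.prod_nonneg fun i _ => sq_nonneg _) hP0
  have h2 := mul_le_mul_of_nonneg_left (It260.bT_le hR0 hc) h0
  have h3 := mul_le_mul_of_nonneg_left hM hS
  have hl := (Growth.len_pos I0).le
  have h4 := mul_le_mul_of_nonneg_right (add_le_add (le_refl (al Λ κ1 P n * 1 ^ 2)) h3) hl
  calc _ ≤ (al Λ κ1 P n * 1 ^ 2 + (∑ j ∈ range n, (∏ i ∈ range j, Λ i) * κ2 j +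
        n * b * al Λ κ1 P n) * M) * len I0 + (∏ i ∈ range n, r i ^ 2) * P * (AB * len I0) := by
        refine add_le_add h4 (le_trans (le_of_eq ?_) h2)
        ring
    _ = _ := by ring

end Crest.Agent.R079.EItx249
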