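import Crest.Agent.R079.NrD_276

/-! R079 (helper276), (T4) of note 1820, part 2: the deficiency on 881's `Split` cells.
`dst_cells`, `dfc_cells` : distance and deficiency are sums over the cells;
`stp_cell` : the steps of the own ladder on a cell; `near_cells` : near-norming summed over the cells. -/

set_option autoImplicit false

namespace Crest.Agent.R079.NrDx276

open Finset Crest.Agent.R079.Grid Crest.Agent.R079.Growth Crest.Agent.R079.QRed
  Crest.Agent.R079.Qh249 Crest.Agent.R079.QVar181 Crest.Agent.R079.TWin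
open Crest.Agent.R079.RelW653 (vl NMP Jv Dv av_par sum_av' lf_sum_eq')
open Crest.Agent.R079.RelV653 Crest.Agent.R079.ThA159 Crest.Agent.R079.ThB159
open Crest.Agent.R079.ElS440 (Ln LnF Ln_sub)
open Crest.Agent.R079.ElU440 (upto lad_eq0 ThL0)
open Crest.Agent.R079.PjC881 (Split Pj_cell)
open Crest.Agent.R079.ClW59 (OpS cl DQ cl_dist DQ_le cl_op)

section cells

variable {C : Type*} {Bd : Nd → Finset (ℤ × ℤ × ℤ)} {pos : ℤ × ℤ × ℤ → ℤ}
  {N : Nd → (ℤ × ℤ × ℤ → ℂ) → ℝ} {ν : ℝ} {p : Nd}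
  {cells : Finset C} {z : C → ℤ} {S T : C → Finset ℤ} {w : C → ℝ}

/-- sums over the band are sums over the cells -/
theorem sum_cells (hs : Split Bd N p cells z S T w) (F : ℤ × ℤ × ℤ → ℝ) :
    ∑ ω ∈ Bd p, F ω = ∑ c ∈ cells, ∑ u ∈ S c, ∑ v ∈ T c, F (z c, u, v) := by
  classical
  have h1 : Bd p = cells.biUnion (fun c => ({z c} : Finset ℤ) ×ˢ (S c ×ˢ T c)) := by
    ext ω
    rw [hs.mem, Finset.mem_biUnion]
  rw [h1, Finset.sum_biUnion]
  · refine Finset.sum_congr rfl fun c _ => ?_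
    rw [Finset.sum_product, Finset.sum_singleton, Finset.sum_product]
  · intro c hc c' hc' hne
    exact Finset.disjoint_left.2 fun ω hω => hs.dj c hc c' hc' hne ω hω

theorem dst_cells (hs : Split Bd N p cells z S T w) (A B : ℤ × ℤ × ℤ → ℂ) :
    dst Bd p A B = ∑ c ∈ cells, ∑ u ∈ S c, ∑ v ∈ T c, ‖A (z c, u, v) - B (z c, u, v)‖ ^ 2 :=
  sum_cells hs fun ω => ‖A ω - B ω‖ ^ 2

/-- the gap of a rectangle: squared distance of `B` minus squared distance of the clip -/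
noncomputable def gpS (A B : ℤ → ℤ → ℂ) (S T : Finset ℤ) (th : ℝ) : ℝ :=
  ∑ u ∈ S, ∑ v ∈ T, ‖A u v - B u v‖ ^ 2 - ∑ u ∈ S, ∑ v ∈ T, ‖A u v - cl A S T th u v‖ ^ 2

lemma gpS_nonneg (A : ℤ → ℤ → ℂ) {S T : Finset ℤ} {th : ℝ} (hth : 0 ≤ th) {B : ℤ → ℤ → ℂ}
    (hB : OpS S T B th) : 0 ≤ gpS A B S T th := by
  have h := DQ_le A hth hB
  unfold gpS
  rw [cl_dist]
  linarith

/-- **the deficiency is the sum of the gaps of the cells** -/
theorem dfc_cells (hB : Bnd Bd pos N ν) (hs : Split Bd N p cells z S T w) {r : ℝ} (hr : 0 ≤ r)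
    (A B : ℤ × ℤ × ℤ → ℂ) :
    dfc Bd N r p A B = ∑ c ∈ cells,
      gpS (fun u v => A (z c, u, v)) (fun u v => B (z c, u, v)) (S c) (T c) (r * w c) := by
  unfold dfc gpS
  rw [dst_cells hs, dst_cells hs, ← Finset.sum_sub_distrib]
  refine Finset.sum_congr rfl fun c hc => ?_
  congr 1
  refine Finset.sum_congr rfl fun u hu => Finset.sum_congr rfl fun v hv => ?_
  rw [Pj_cell hB hs hr A hc u hu v hv]

/-- the steps of the own ladder on a cell, below the last one -/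
theorem stp_cell (hB : Bnd Bd pos N ν) (hs : Split Bd N p cells z S T w) {r : ℕ → ℝ}
    (hr : ∀ j, 0 ≤ r j) {K i : ℕ} (hi : i + 1 < K) (A : ℤ × ℤ × ℤ → ℂ) {c : C} (hc : c ∈ cells) :
    ∀ u ∈ S c, ∀ v ∈ T c, stp Bd N r K p A i (z c, u, v)
      = cl (fun u v => A (z c, u, v)) (S c) (T c) (r (i + 1) * w c) u v
        - cl (fun u v => A (z c, u, v)) (S c) (T c) (r i * w c) u v := by
  intro u hu v hv
  unfold stp upto
  simp only [if_pos hi, if_pos (Nat.lt_of_succ_lt hi)]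
  rw [Pj_cell hB hs (hr _) A hc u hu v hv, Pj_cell hB hs (hr _) A hc u hu v hv]

/-- the last step of the own ladder on a cell -/
theorem stp_cell_last (hB : Bnd Bd pos N ν) (hs : Split Bd N p cells z S T w) {r : ℕ → ℝ}
    (hr : ∀ j, 0 ≤ r j) {K i : ℕ} (hi : i + 1 = K) (A : ℤ × ℤ × ℤ → ℂ) {c : C} (hc : c ∈ cells) :
    ∀ u ∈ S c, ∀ v ∈ T c, stp Bd N r K p A i (z c, u, v)
      = A (z c, u, v) - cl (fun u v => A (z c, u, v)) (S c) (T c) (r i * w c) u v := by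
  intro u hu v hv
  unfold stp upto
  have h1 : ¬ (i + 1 < K) := by omega
  have h2 : i < K := by omega
  simp only [if_neg h1, if_pos h2]
  rw [Pj_cell hB hs (hr _) A hc u hu v hv]

/-- an admissible kernel of the node is bounded on every cell -/
theorem adm_cell (hs : Split Bd N p cells z S T w) {r : ℝ} (hr : 0 ≤ r) {B : ℤ × ℤ × ℤ → ℂ}
    (h : Adm Bd N r p B) {c : C} (hc : c ∈ cells) :
    OpS (S c) (T c) (fun u v => B (z c, u, v)) (r * w c) :=
  (hs.adm r hr B h.1).1 h.2 c hc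

/-- an admissible kernel: every gap is nonnegative -/
theorem gap_nonneg (hs : Split Bd N p cells z S T w) {r : ℝ} (hr : 0 ≤ r)
    (A : ℤ × ℤ × ℤ → ℂ) {B : ℤ × ℤ × ℤ → ℂ} (h : Adm Bd N r p B) {c : C} (hc : c ∈ cells) :
    0 ≤ gpS (fun u v => A (z c, u, v)) (fun u v => B (z c, u, v)) (S c) (T c) (r * w c) :=
  gpS_nonneg _ (mul_nonneg hr (hs.w0 c hc)) (adm_cell hs hr h hc)

end cells

section family

variable {ι : Type*} [Fintype ι] {Bd : ι → Nd → Finset (ℤ × ℤ × ℤ)}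
  {pos : ι → ℤ × ℤ × ℤ → ℤ} {N : ι → Nd → (ℤ × ℤ × ℤ → ℂ) → ℝ} {ν : ι → ℝ}
  {a : ι → ℤ × ℤ × ℤ → ℂ} {r : ι → ℕ → ℝ} {κ : ι → ℝ} {X : Fn} {η : ℝ} {f : Nd → Fn}

/-- **near-norming on cells**: the gaps of the cells of `p`, all gauges and thresholds -/
theorem near_cells {K : ℕ} (hB : ∀ i, Bnd (Bd i) (pos i) (N i) (ν i)) (hr : ∀ i j, 0 ≤ r i j)
    (hκ : ∀ i, 0 ≤ κ i) (h : NMP (fun _ _ => True) (ThL0 K Bd pos N ν a r κ) X η f)
    {W : Finset Nd} {I : Nd} (hW : Full W I) {δ : ℝ}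
    (hG : GdP (ThL0 K Bd pos N ν a r κ) X η f δ W I) {p : Nd} (hp : p ∈ W)
    {C : ι → Type*} {cells : ∀ i, Finset (C i)} {z : ∀ i, C i → ℤ} {S T : ∀ i, C i → Finset ℤ}
    {wt : ∀ i, C i → ℝ}
    (hs : ∀ i, Split (Bd i) (N i) p (cells i) (z i) (S i) (T i) (wt i)) :
    ∑ w, κ w * (ν w * ∑ j ∈ range K, ∑ c ∈ cells w,
      gpS (fun u v => ag (Bd w) (pos w) (a w) p (gl W f) (z w c, u, v))
        (fun u v => Bgl (Bd w) (pos w) (N w) (a w) (r w j) W p (gl W f) (z w c, u, v))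
        (S w c) (T w c) (r w j * wt w c)) ≤ len p * (δ + η) := by
  refine le_trans (le_of_eq ?_) (near_win0 hB hr hκ h hW hG hp)
  refine Finset.sum_congr rfl fun w _ => ?_
  congr 2
  refine Finset.sum_congr rfl fun j _ => ?_
  rw [dfc_cells (hB w) (hs w) (hr w j)]

/-- near-norming for any lower bounds of the gaps -/
theorem near_lower {K : ℕ} (hB : ∀ i, Bnd (Bd i) (pos i) (N i) (ν i)) (hr : ∀ i j, 0 ≤ r i j)
    (hκ : ∀ i, 0 ≤ κ i) (h : NMP (fun _ _ => True) (ThL0 K Bd pos N ν a r κ) X η f)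
    {W : Finset Nd} {I : Nd} (hW : Full W I) {δ : ℝ}
    (hG : GdP (ThL0 K Bd pos N ν a r κ) X η f δ W I) {p : Nd} (hp : p ∈ W)
    {C : ι → Type*} {cells : ∀ i, Finset (C i)} {z : ∀ i, C i → ℤ} {S T : ∀ i, C i → Finset ℤ}
    {wt : ∀ i, C i → ℝ}
    (hs : ∀ i, Split (Bd i) (N i) p (cells i) (z i) (S i) (T i) (wt i))
    (G : ∀ w, ℕ → C w → ℝ)
    (hGp : ∀ w, ∀ j < K, ∀ c ∈ cells w, 2 * G w j c ≤
      gpS (fun u v => ag (Bd w) (pos w) (a w) p (gl W f) (z w c, u, v))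
        (fun u v => Bgl (Bd w) (pos w) (N w) (a w) (r w j) W p (gl W f) (z w c, u, v))
        (S w c) (T w c) (r w j * wt w c)) :
    ∑ w, κ w * (ν w * ∑ j ∈ range K, ∑ c ∈ cells w, G w j c) ≤ len p * ((δ + η) / 2) := by
  have h1 := near_cells hB hr hκ h hW hG hp hs
  have h2 : 2 * ∑ w, κ w * (ν w * ∑ j ∈ range K, ∑ c ∈ cells w, G w j c)
      ≤ ∑ w, κ w * (ν w * ∑ j ∈ range K, ∑ c ∈ cells w,
      gpS (fun u v => ag (Bd w) (pos w) (a w) p (gl W f) (z w c, u, v))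
        (fun u v => Bgl (Bd w) (pos w) (N w) (a w) (r w j) W p (gl W f) (z w c, u, v))
        (S w c) (T w c) (r w j * wt w c)) := by
    rw [Finset.mul_sum]
    refine Finset.sum_le_sum fun w _ => ?_
    have hκν : 0 ≤ κ w * ν w := mul_nonneg (hκ w) (hB w).nu.le
    have h3 : 2 * ∑ j ∈ range K, ∑ c ∈ cells w, G w j c ≤ ∑ j ∈ range K, ∑ c ∈ cells w,
      gpS (fun u v => ag (Bd w) (pos w) (a w) p (gl W f) (z w c, u, v))
        (fun u v => Bgl (Bd w) (pos w) (N w) (a w) (r w j) W p (gl W f) (z w c, u, v))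
        (S w c) (T w c) (r w j * wt w c) := by
      rw [Finset.mul_sum]
      refine Finset.sum_le_sum fun j hj => ?_
      rw [Finset.mul_sum]
      exact Finset.sum_le_sum fun c hc => hGp w j (Finset.mem_range.1 hj) c hc
    have h4 := mul_le_mul_of_nonneg_left h3 hκν
    refine le_trans (le_of_eq ?_) (h4.trans (le_of_eq ?_))
    · ring
    · ring
  have h5 := h2.trans h1
  linarith

end family

end Crest.Agent.R079.NrDx276
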