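import Crest.Agent.R079.ElG_69
import Crest.Agent.R079.CelD_159
import Crest.Agent.R079.NrE_276

/-! R079, note 1922 (T8) (helper255): **the frame letter `PsiK` of a sub-top and the energy of its error
letter**, gauges with the fibre condition `FibG` (tall gauges).

* `PsiK` : `LnF` of `∑ (q+1) Zk q`;
* `el_psi` : Euler-Lagrange + replacement of the step kernels (276's `stp`);
* `mkL` : kernels exact on the labels `Lay`, `Zf` elsewhere;
* `err_cells` : **error of `PsiK`** from the per-cell input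
  `∑_{cell, off Lay} |stp - Zf|² ≤ C1 G + C2 |A|²`, `2 G ≤ gpS`. -/

set_option autoImplicit false

namespace Crest.Agent.R079.ErKx255

open Finset Crest.Agent.R079.Grid Crest.Agent.R079.Growth Crest.Agent.R079.QRed
  Crest.Agent.R079.Qh249 Crest.Agent.R079.QVar181 Crest.Agent.R079.TWin
open Crest.Agent.R079.RelW653 (vl NMP Jv Dv av_par sum_av' lf_sum_eq')
open Crest.Agent.R079.RelV653 Crest.Agent.R079.ThA159 Crest.Agent.R079.ThB159
open Crest.Agent.R079.ElS440 (Ln LnF Ln_sub)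
open Crest.Agent.R079.ElW778 (Ln_congr Ln_sum tele)
open Crest.Agent.R079.ElT440 (GrF_eq)
open Crest.Agent.R079.ElU440 (upto ThL0)
open Crest.Agent.R079.ElGx69
open Crest.Agent.R079.NrDx276
open Crest.Agent.R079.PjC881 (Split)

section one

variable {Ω : Type*} {Bd : Nd → Finset Ω} {N : Nd → (Ω → ℂ) → ℝ}

/-- kernel of the frames -/
noncomputable def wsum (K : ℕ) (Zk : ℕ → Ω → ℂ) : Ω → ℂ :=
  fun ω => ∑ q ∈ range K, ((q : ℂ) + 1) * Zk q ω

open Classical in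
/-- masked kernels: exact on the labels `Lay`, `Zf` elsewhere -/
noncomputable def mkL (pos : Ω → ℤ) (Lay : Finset ℤ) (G Zf : Ω → ℂ) : Ω → ℂ :=
  fun ω => if pos ω ∈ Lay then G ω else Zf ω

open Classical in
lemma dst_mkL (pos : Ω → ℤ) (Lay : Finset ℤ) (p : Nd) (G Zf : Ω → ℂ) :
    dst Bd p G (mkL pos Lay G Zf) =
      ∑ ω ∈ Bd p, if pos ω ∈ Lay then 0 else ‖G ω - Zf ω‖ ^ 2 := by
  unfold dst
  refine Finset.sum_congr rfl fun ω _ => ?_
  unfold mkL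
  by_cases h : pos ω ∈ Lay
  · simp [h]
  · simp [h]

end one

section family

variable {ι : Type*} [Fintype ι] {Ω : ι → Type*} {Bd : ∀ i, Nd → Finset (Ω i)}
  {pos : ∀ i, Ω i → ℤ} {N : ∀ i, Nd → (Ω i → ℂ) → ℝ} {ν : ι → ℝ} {a : ∀ i, Ω i → ℂ} {r : ι → ℕ → ℝ}
  {κ : ι → ℝ} {X : Fn} {η : ℝ} {f : Nd → Fn}

/-- **THE FRAME LETTER** of the node `p` -/
noncomputable def PsiK (Bd : ∀ i, Nd → Finset (Ω i)) (pos : ∀ i, Ω i → ℤ) (ν : ι → ℝ)
    (a : ∀ i, Ω i → ℂ) (κ : ι → ℝ) (K : ℕ) (p : Nd) (Zk : ∀ i, ℕ → Ω i → ℂ) : Fn :=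
  LnF Bd pos ν a κ p (fun w => wsum K (Zk w))

/-- `GrF` of the ladder is the letter of the step kernels -/
theorem GrF_stp {K : ℕ} (p : Nd) (g : Fn) :
    GrF (ι := ι × Fin K) (fun i => Bd i.1) (fun i => pos i.1)
      (fun i => N i.1) (fun i => ν i.1) (fun i => a i.1) (fun i => r i.1 i.2) (fun i => κ i.1) p g
      = PsiK Bd pos ν a κ K p (fun w => stp (Bd w) (N w) (r w) K p (ag (Bd w) (pos w) (a w) p g)) := by
  rw [GrF_eq]
  funext y
  unfold PsiK LnF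
  rw [Fintype.sum_prod_type]
  refine Finset.sum_congr rfl fun w _ => ?_
  show ∑ j : Fin K, (κ w : ℂ) * Ln (Bd w) (pos w) (ν w) (a w) p
    (Rs (Bd w) (pos w) (N w) (a w) (r w j) p g) y = _
  rw [← Finset.mul_sum]
  congr 1
  have h3 := Ln_sum (Bd := Bd w) (pos := pos w) (ν := ν w) (a := a w) (p := p)
    (Finset.univ : Finset (Fin K))
    (fun j => Rs (Bd w) (pos w) (N w) (a w) (r w j) p g) y
  refine h3.trans ?_
  refine congrFun (Ln_congr fun ω _ => ?_) y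
  refine Eq.trans ?_ (stp_sum (Bd := Bd w) (N := N w) (r w) K p (ag (Bd w) (pos w) (a w) p g) ω)
  exact Fin.sum_univ_eq_sum_range (fun j => ag (Bd w) (pos w) (a w) p g ω -
    Pj (Bd w) (N w) (r w j) p (ag (Bd w) (pos w) (a w) p g) ω) K

/-- **error of the frame letter at a node of a window** -/
theorem el_psi {K : ℕ} (hB : ∀ i, Bnd (Bd i) (pos i) (N i) (ν i))
    (ha : ∀ i, FibG (Bd i) (pos i) (ν i) (a i))
    (hr : ∀ i j, 0 ≤ r i j) (hκ : ∀ i, 0 ≤ κ i)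
    (h : NMP (fun _ _ => True) (ThL0 K Bd pos N ν a r κ) X η f)
    {W : Finset Nd} {I : Nd} (hW : Full W I) {δ : ℝ}
    (hG : GdP (ThL0 K Bd pos N ν a r κ) X η f δ W I) {p : Nd} (hp : p ∈ W)
    (Zk : ∀ i, ℕ → Ω i → ℂ) :
    len p * av p (fun y => X y - gl W f y - PsiK Bd pos ν a κ K p Zk y) ^ 2 ≤
      2 * (1 + K * ∑ i, κ i) * (δ + η) * len p +
      2 * ((∑ i, κ i) * (K : ℝ) ^ 3) * ∑ i, κ i * (ν i * ∑ q ∈ range K, dst (Bd i) p
        (stp (Bd i) (N i) (r i) K p (ag (Bd i) (pos i) (a i) p (gl W f)) q) (Zk i q)) := by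
  have hP : PenC 0 (fun _ _ => True) (ThL0 K Bd pos N ν a r κ) :=
    pen_ThF (fun i => hB i.1) (fun i => hr i.1 i.2) (fun i => hκ i.1)
  have hM0 : 0 ≤ ∑ i, κ i := Finset.sum_nonneg fun i _ => hκ i
  have hM : ∑ i : ι × Fin K, κ i.1 = K * ∑ i, κ i := by
    rw [Fintype.sum_prod_type, Finset.mul_sum]
    refine Finset.sum_congr rfl fun i _ => ?_
    simp
  have hL := Growth.len_pos p
  set g := gl W f with hg
  have h1 := el_win (Ψ := GrF (ι := ι × Fin K) (fun i => Bd i.1) (fun i => pos i.1)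
    (fun i => N i.1) (fun i => ν i.1) (fun i => a i.1) (fun i => r i.1 i.2) (fun i => κ i.1) p
    (gl W f)) (M := ∑ i : ι × Fin K, κ i.1) hP h hW hG hp
    (Finset.sum_nonneg fun i _ => hκ i.1)
    (fv_ThFG (ι := ι × Fin K) (a := fun i => a i.1) (r := fun i => r i.1 i.2)
      (κ := fun i => κ i.1) (fun i => hB i.1) (fun i => ha i.1) (fun i => hr i.1 i.2)
      (fun i => hκ i.1) p _ _)
    trivial
  rw [← hg, hM, GrF_stp] at h1
  set Gk : ∀ i, ℕ → Ω i → ℂ := fun w => stp (Bd w) (N w) (r w) K p (ag (Bd w) (pos w) (a w) p g)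
    with hGk
  have h2 := LnF_dstG hB ha hκ p (fun w => wsum K (Gk w)) (fun w => wsum K (Zk w))
  set G := PsiK Bd pos ν a κ K p Gk with hGG
  set L := PsiK Bd pos ν a κ K p Zk with hLL
  have h3 : ∑ i, κ i * (ν i * dst (Bd i) p (wsum K (Gk i)) (wsum K (Zk i))) ≤
      (K : ℝ) ^ 3 * ∑ i, κ i * (ν i * ∑ q ∈ range K, dst (Bd i) p (Gk i q) (Zk i q)) := by
    rw [Finset.mul_sum]
    refine Finset.sum_le_sum fun i _ => ?_
    have h4 := mul_le_mul_of_nonneg_left (mul_le_mul_of_nonneg_left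
      (wsum_dst (Bd i) K p (Gk i) (Zk i)) (hB i).nu.le) (hκ i)
    refine h4.trans (le_of_eq ?_)
    ring
  have h5 : len p * av p (fun y => X y - g y - L y) ^ 2
      ≤ len p * (2 * av p (fun y => X y - g y - G y) ^ 2)
        + 2 * (len p * av p (fun y => G y - L y) ^ 2) := by
    rw [mul_left_comm (len p) 2, ← sum_av', ← sum_av',
      ← sum_av', Finset.mul_sum, Finset.mul_sum, ← Finset.sum_add_distrib]
    refine Finset.sum_le_sum fun y _ => ?_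
    have e : X y - g y - L y = (X y - g y - G y) + (G y - L y) := by ring
    rw [e]
    have h5 := norm_add_le (X y - g y - G y) (G y - L y)
    have h6 := pow_le_pow_left₀ (norm_nonneg _) h5 2
    nlinarith [sq_nonneg (‖X y - g y - G y‖ - ‖G y - L y‖)]
  have h6 : len p * av p (fun y => G y - L y) ^ 2 ≤ (∑ i, κ i) *
      ((K : ℝ) ^ 3 * ∑ i, κ i * (ν i * ∑ q ∈ range K, dst (Bd i) p (Gk i q) (Zk i q))) :=
    h2.trans (mul_le_mul_of_nonneg_left h3 hM0)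
  have h7 := mul_le_mul_of_nonneg_left h1 hL.le
  nlinarith [h5, h6, h7]

end family

section cells

variable {ι : Type*} [Fintype ι] {Bd : ι → Nd → Finset (ℤ × ℤ × ℤ)}
  {pos : ι → ℤ × ℤ × ℤ → ℤ} {N : ι → Nd → (ℤ × ℤ × ℤ → ℂ) → ℝ} {ν : ι → ℝ}
  {a : ι → ℤ × ℤ × ℤ → ℂ} {r : ι → ℕ → ℝ} {κ : ι → ℝ} {X : Fn} {η : ℝ} {f : Nd → Fn}

/-- kernels of the frame letter, with the exact steps on the labels `Lay` -/
noncomputable def ZL (Bd : ι → Nd → Finset (ℤ × ℤ × ℤ)) (pos : ι → ℤ × ℤ × ℤ → ℤ)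
    (N : ι → Nd → (ℤ × ℤ × ℤ → ℂ) → ℝ) (a : ι → ℤ × ℤ × ℤ → ℂ) (r : ι → ℕ → ℝ) (K : ℕ) (p : Nd)
    (g : Fn) (Lay : Finset ℤ) (Zf : ι → ℕ → ℤ × ℤ × ℤ → ℂ) (w : ι) (q : ℕ) : ℤ × ℤ × ℤ → ℂ :=
  mkL (pos w) Lay (stp (Bd w) (N w) (r w) K p (ag (Bd w) (pos w) (a w) p g) q) (Zf w q)

open Classical in
/-- **ERROR OF THE FRAME LETTER, from the cells** -/
theorem err_cells {K : ℕ} (hB : ∀ i, Bnd (Bd i) (pos i) (N i) (ν i))
    (ha : ∀ i, FibG (Bd i) (pos i) (ν i) (a i))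
    (hr : ∀ i j, 0 ≤ r i j) (hκ : ∀ i, 0 ≤ κ i)
    (h : NMP (fun _ _ => True) (ThL0 K Bd pos N ν a r κ) X η f)
    {W : Finset Nd} {I : Nd} (hW : Full W I) {δ : ℝ}
    (hG : GdP (ThL0 K Bd pos N ν a r κ) X η f δ W I) {p : Nd} (hp : p ∈ W)
    {C : ι → Type*} {cells : ∀ i, Finset (C i)} {z : ∀ i, C i → ℤ} {S T : ∀ i, C i → Finset ℤ}
    {wt : ∀ i, C i → ℝ}
    (hs : ∀ i, Split (Bd i) (N i) p (cells i) (z i) (S i) (T i) (wt i))
    (G : ∀ w, ℕ → C w → ℝ)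
    (hGp : ∀ w, ∀ j < K, ∀ c ∈ cells w, 2 * G w j c ≤
      gpS (fun u v => ag (Bd w) (pos w) (a w) p (gl W f) (z w c, u, v))
        (fun u v => Bgl (Bd w) (pos w) (N w) (a w) (r w j) W p (gl W f) (z w c, u, v))
        (S w c) (T w c) (r w j * wt w c))
    (Lay : Finset ℤ) (Zf : ι → ℕ → ℤ × ℤ × ℤ → ℂ) {C1 C2 : ℝ} (hC1 : 0 ≤ C1) (hC2 : 0 ≤ C2)
    (hcell : ∀ w, ∀ j < K, ∀ c ∈ cells w, ∑ u ∈ S w c, ∑ v ∈ T w c,
      (if pos w (z w c, u, v) ∈ Lay then 0 else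
        ‖stp (Bd w) (N w) (r w) K p (ag (Bd w) (pos w) (a w) p (gl W f)) j (z w c, u, v)
          - Zf w j (z w c, u, v)‖ ^ 2) ≤
      C1 * G w j c + C2 * ∑ u ∈ S w c, ∑ v ∈ T w c,
        ‖ag (Bd w) (pos w) (a w) p (gl W f) (z w c, u, v)‖ ^ 2) :
    len p * av p (fun y => X y - gl W f y - PsiK Bd pos ν a κ K p
        (ZL Bd pos N a r K p (gl W f) Lay Zf) y) ^ 2 ≤
      ((2 * (1 + K * ∑ i, κ i) + (∑ i, κ i) * (K : ℝ) ^ 3 * C1) * (δ + η) +
        2 * (∑ i, κ i) ^ 2 * (K : ℝ) ^ 4 * C2 * av p (gl W f) ^ 2) * len p := by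
  have hM0 : 0 ≤ ∑ i, κ i := Finset.sum_nonneg fun i _ => hκ i
  have h1 := el_psi hB ha hr hκ h hW hG hp (ZL Bd pos N a r K p (gl W f) Lay Zf)
  have h2 := near_lower hB hr hκ h hW hG hp hs G hGp
  -- energy of the gauged letter
  have h3 : ∀ w, ν w * ∑ ω ∈ Bd w p, ‖ag (Bd w) (pos w) (a w) p (gl W f) ω‖ ^ 2 ≤
      len p * av p (gl W f) ^ 2 := by
    intro w
    rw [← sum_av']
    refine le_trans (le_of_eq ?_) (fib_sumG (hB w) (ha w) p (fun y => ‖gl W f y‖ ^ 2)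
      fun y => sq_nonneg _)
    congr 1
    exact Finset.sum_congr rfl fun ω hω => by rw [ag_eq hω, norm_mul, mul_pow]
  -- distances
  have h4 : ∀ w, ∑ q ∈ range K, dst (Bd w) p
      (stp (Bd w) (N w) (r w) K p (ag (Bd w) (pos w) (a w) p (gl W f)) q)
      (ZL Bd pos N a r K p (gl W f) Lay Zf w q) ≤
      C1 * ∑ j ∈ range K, ∑ c ∈ cells w, G w j c +
      C2 * (K * ∑ ω ∈ Bd w p, ‖ag (Bd w) (pos w) (a w) p (gl W f) ω‖ ^ 2) := by
    intro w
    have h5 : ∀ q ∈ range K, dst (Bd w) p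
        (stp (Bd w) (N w) (r w) K p (ag (Bd w) (pos w) (a w) p (gl W f)) q)
        (ZL Bd pos N a r K p (gl W f) Lay Zf w q) ≤
        C1 * ∑ c ∈ cells w, G w q c +
        C2 * ∑ ω ∈ Bd w p, ‖ag (Bd w) (pos w) (a w) p (gl W f) ω‖ ^ 2 := by
      intro q hq
      unfold ZL
      rw [dst_mkL, sum_cells (hs w), sum_cells (hs w) (fun ω =>
        ‖ag (Bd w) (pos w) (a w) p (gl W f) ω‖ ^ 2), Finset.mul_sum, Finset.mul_sum,
        ← Finset.sum_add_distrib]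
      exact Finset.sum_le_sum fun c hc => hcell w q (Finset.mem_range.1 hq) c hc
    refine (Finset.sum_le_sum h5).trans (le_of_eq ?_)
    rw [Finset.sum_add_distrib, ← Finset.mul_sum, Finset.sum_const, Finset.card_range,
      nsmul_eq_mul]
    ring
  have h6 : ∑ i, κ i * (ν i * ∑ q ∈ range K, dst (Bd i) p
        (stp (Bd i) (N i) (r i) K p (ag (Bd i) (pos i) (a i) p (gl W f)) q)
        (ZL Bd pos N a r K p (gl W f) Lay Zf i q)) ≤
      C1 * (len p * ((δ + η) / 2)) + C2 * (K * ((∑ i, κ i) * (len p * av p (gl W f) ^ 2))) := by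
    have h7 : ∀ i, κ i * (ν i * ∑ q ∈ range K, dst (Bd i) p
        (stp (Bd i) (N i) (r i) K p (ag (Bd i) (pos i) (a i) p (gl W f)) q)
        (ZL Bd pos N a r K p (gl W f) Lay Zf i q)) ≤
        C1 * (κ i * (ν i * ∑ j ∈ range K, ∑ c ∈ cells i, G i j c)) +
        C2 * (K * (κ i * (len p * av p (gl W f) ^ 2))) := by
      intro i
      have h8 := mul_le_mul_of_nonneg_left (h4 i) (mul_nonneg (hκ i) (hB i).nu.le)
      have h9 := mul_le_mul_of_nonneg_left (h3 i) (hκ i)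
      have h10 := mul_le_mul_of_nonneg_left h9 (show 0 ≤ C2 * (K : ℝ) by positivity)
      calc _ = κ i * ν i * ∑ q ∈ range K, dst (Bd i) p
            (stp (Bd i) (N i) (r i) K p (ag (Bd i) (pos i) (a i) p (gl W f)) q)
            (ZL Bd pos N a r K p (gl W f) Lay Zf i q) := by ring
        _ ≤ _ := h8
        _ = C1 * (κ i * (ν i * ∑ j ∈ range K, ∑ c ∈ cells i, G i j c)) +
            C2 * K * (κ i * (ν i * ∑ ω ∈ Bd i p,
              ‖ag (Bd i) (pos i) (a i) p (gl W f) ω‖ ^ 2)) := by ring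
        _ ≤ C1 * (κ i * (ν i * ∑ j ∈ range K, ∑ c ∈ cells i, G i j c)) +
            C2 * K * (κ i * (len p * av p (gl W f) ^ 2)) := by linarith
        _ = _ := by ring
    refine (Finset.sum_le_sum fun i _ => h7 i).trans ?_
    rw [Finset.sum_add_distrib, ← Finset.mul_sum, ← Finset.mul_sum, ← Finset.mul_sum,
      ← Finset.sum_mul]
    exact add_le_add (mul_le_mul_of_nonneg_left h2 hC1) le_rfl
  have h8 := mul_le_mul_of_nonneg_left h6
    (show 0 ≤ 2 * ((∑ i, κ i) * (K : ℝ) ^ 3) by positivity)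
  refine h1.trans ((add_le_add (le_refl _) h8).trans (le_of_eq ?_))
  ring

end cells

end Crest.Agent.R079.ErKx255
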