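import Crest.Agent.R079.SbY_795

/-! R079, notes 1820 + 1922 (helper228), line (T2), part (d) (helper795): STRUCTURE OF THE SUB-WINDOWS in
the form used by T3 / T5 / T5b / T7 / T8.

`QQ V k0 j0 n0 K` = grid nodes `q0 ∈ V` of level `K.1 - j0` below `K`, not in the layer (case B; empty in
case A).  Every node of `WW K` is coarse (`K.1 ≤ p.1 + j0`), bottom (`p.1 < n0`) or lies below a `q0 ∈ QQ`
with `dq q0 ≤ p.1`; half of `q0` is alive at every level between `dq q0` and the level of `q0`; every block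
`b` of level `K.1 - k0` is half alive at level `K.1 - j0`. -/

set_option autoImplicit false

namespace Crest.Agent.R079.SbWx795

open Finset Crest.Agent.R079.Grid Crest.Agent.R079.Growth Crest.Agent.R079.QRed
  Crest.Agent.R079.TWin Crest.Agent.R079.Qe292 Crest.Agent.R079.Qh249
  Crest.Agent.R079.GLA110 Crest.Agent.R079.Chn110 Crest.Agent.R079.HWx323

variable {V : Finset Nd} {P K : Nd} {k0 j0 n0 : ℕ}

open Classical in
/-- grid nodes of the sub-top `K` -/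
noncomputable def QQ (V : Finset Nd) (k0 j0 n0 : ℕ) (K : Nd) : Finset Nd :=
  if CB V k0 j0 n0 K then V.filter (fun q => q.1 = K.1 - j0 ∧ iv q ⊆ iv K ∧ ¬ lay K q) else ∅

open Classical in
lemma mem_QQ {q : Nd} : q ∈ QQ V k0 j0 n0 K ↔
    CB V k0 j0 n0 K ∧ q ∈ V ∧ q.1 = K.1 - j0 ∧ iv q ⊆ iv K ∧ ¬ lay K q := by
  unfold QQ
  split_ifs with h
  · rw [Finset.mem_filter]
    tauto
  · constructor
    · intro h1
      exact absurd h1 (Finset.notMem_empty _)
    · rintro ⟨h1, _⟩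
      exact absurd h1 h

/-- data of a grid node -/
lemma QQ_spec (hV : Full V P) {q : Nd} (hq : q ∈ QQ V k0 j0 n0 K) :
    q ∈ V ∧ q.1 + j0 = K.1 ∧ iv q ⊆ iv K ∧ ¬ lay K q ∧ n0 ≤ dq V n0 q ∧ dq V n0 q ≤ q.1 ∧
      (∀ d, dq V n0 q ≤ d → d ≤ q.1 → len q / 2 ≤ al V d q) ∧
      ∀ b : Nd, b.1 + k0 = K.1 → iv b ⊆ iv K → len b / 2 ≤ al V q.1 b := by
  obtain ⟨hB, h1, h2, h3, h4⟩ := mem_QQ.1 hq
  have hn : n0 ≤ q.1 := by have := hB.1; omega
  have hs := dq_spec h1 hn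
  refine ⟨h1, by have := hB.1; omega, h3, h4, hs.1, hs.2.2,
    fun d hd hd' => dq_alive hV h1 hn hd hd', fun b hb hbK => ?_⟩
  rw [h2]
  exact hB.2 b hb hbK

/-- nodes of the structural window -/
lemma UU_fine (hk : 1 ≤ k0) (hkj : k0 ≤ j0) {p : Nd}
    (hp : p ∈ UU V k0 j0 n0 K) (hc : ¬ K.1 ≤ p.1 + j0) (hb : ¬ p.1 < n0) :
    ∃ q ∈ QQ V k0 j0 n0 K, iv p ⊆ iv q ∧ dq V n0 q ≤ p.1 := by
  by_cases hB : CB V k0 j0 n0 K
  · rw [UU_caseB hB] at hp
    obtain ⟨h1, h2, h3⟩ := mem_UB.1 hp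
    rcases h3 with h3 | ⟨q0, h3, h4, h5, h6, h7, h8⟩
    · omega
    · refine ⟨q0, mem_QQ.2 ⟨hB, h3, h4, h6, h7⟩, h5, ?_⟩
      unfold fl at h8
      split_ifs at h8 with he
      · omega
      · exact h8
  · rcases UU_near hk hkj hB hp with h1 | h1
    · have hKp : ∀ q, q ∈ UU V k0 j0 n0 K → iv q ⊆ iv K := by
        intro q hq
        unfold UU at hq
        rw [if_neg hB] at hq
        exact (mem_Wf.1 hq).2.1
      have := Qe292.iv_level (hKp p hp)
      omega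
    · omega

/-- the grid nodes are pairwise disjoint -/
lemma QQ_disj {q q' : Nd} (hq : q ∈ QQ V k0 j0 n0 K) (hq' : q' ∈ QQ V k0 j0 n0 K) (hne : q ≠ q') :
    Disjoint (iv q) (iv q') :=
  disj_level ((mem_QQ.1 hq).2.2.1.trans (mem_QQ.1 hq').2.2.1.symm) hne

lemma QQ_len : ∑ q ∈ QQ V k0 j0 n0 K, len q ≤ len K :=
  sum_len_disj _ K (fun _ hq => (mem_QQ.1 hq).2.2.2.1) fun _ hq _ hq' hne => QQ_disj hq hq' hne

/-- a node of level `≤ K.1 - 4` which is not in the layer is disjoint from both blocks -/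
lemma not_lay_disj {q : Nd} (h4 : q.1 ≤ K.1 - 4) (h : ¬ lay K q) :
    Disjoint (iv q) (iv (K.1 - 4, 16 * K.2)) ∧ Disjoint (iv q) (iv (K.1 - 4, 16 * K.2 + 15)) := by
  unfold lay at h
  push Not at h
  constructor
  · rw [Finset.disjoint_left]
    intro y hy hy'
    exact h.1 (sub_of_level hy hy' h4)
  · rw [Finset.disjoint_left]
    intro y hy hy'
    exact h.2 (sub_of_level hy hy' h4)

/-- a grid node which is not in the layer: distance to both ends of `K` at least `2^(K.1+3)` -/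
lemma not_lay_pos {q : Nd} (hq : q.1 + 4 ≤ K.1) (hK : iv q ⊆ iv K) (h : ¬ lay K q) {y : ℤ}
    (hy : y ∈ iv q) : K.2 * 2 ^ (K.1 + 7) + 2 ^ (K.1 + 3) ≤ y ∧
      y < (K.2 + 1) * 2 ^ (K.1 + 7) - 2 ^ (K.1 + 3) := by
  obtain ⟨h1, h2⟩ := not_lay_disj (by omega) h
  have hyK := hK hy
  have n1 := Finset.disjoint_left.1 h1 hy
  have n2 := Finset.disjoint_left.1 h2 hy
  rw [mem_iv] at hyK n1 n2
  simp only at n1 n2
  rw [show K.1 - 4 + 7 = K.1 + 3 by omega] at n1 n2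
  have hs : (0 : ℤ) < 2 ^ (K.1 + 3) := by positivity
  have e7 : (2 : ℤ) ^ (K.1 + 7) = 16 * 2 ^ (K.1 + 3) := by ring
  rw [e7] at hyK ⊢
  set s : ℤ := 2 ^ (K.1 + 3) with hsdef
  have a1 : K.2 * (16 * s) ≤ y := by
    rw [← hyK]
    exact Int.ediv_mul_le y (by omega)
  have a2 : y < (K.2 + 1) * (16 * s) := by
    rw [← hyK]
    exact Int.lt_ediv_add_one_mul_self y (by omega)
  constructor
  · by_contra hcon
    push Not at hcon
    apply n1
    have b1 : 16 * K.2 * s ≤ y := by linarith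
    have b2 : y < (16 * K.2 + 1) * s := by linarith
    exact le_antisymm (Int.lt_add_one_iff.1 ((Int.ediv_lt_iff_lt_mul hs).2 b2))
      ((Int.le_ediv_iff_mul_le hs).2 b1)
  · by_contra hcon
    push Not at hcon
    apply n2
    have b1 : (16 * K.2 + 15) * s ≤ y := by linarith
    have b2 : y < (16 * K.2 + 15 + 1) * s := by linarith
    exact le_antisymm (Int.lt_add_one_iff.1 ((Int.ediv_lt_iff_lt_mul hs).2 b2))
      ((Int.le_ediv_iff_mul_le hs).2 b1)

section WWs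

variable {R : Finset Nd} {J : Nd} {D : Nd → ℝ} {dev : Nd → Nd → ℝ} {μ τ : ℝ} {Er : Nd → Nd → ℝ}

/-- **nodes of the window `WW K`**: coarse, bottom, or below a grid node at an alive level -/
theorem WW_fine (hk : 1 ≤ k0) (hkj : k0 ≤ j0) {p : Nd}
    (hp : p ∈ WW R D dev μ k0 j0 n0 Er τ K) (hc : ¬ K.1 ≤ p.1 + j0) (hb : ¬ p.1 < n0) :
    ∃ q ∈ QQ (VK R D dev μ K) k0 j0 n0 K, iv p ⊆ iv q ∧ dq (VK R D dev μ K) n0 q ≤ p.1 :=
  UU_fine hk hkj (WW_sub hp) hc hb

/-- the part of the window below a grid node (or any node of the window) is full -/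
lemma WW_below (hR : Full R J) (hK : K ∈ R) (hk : 1 ≤ k0) (hkj : k0 ≤ j0) {q : Nd}
    (hq : q ∈ WW R D dev μ k0 j0 n0 Er τ K) :
    Full (Wf (WW R D dev μ k0 j0 n0 Er τ K) q 0) q :=
  Wf_full (WW_full hR hK hk hkj) hq (Nat.zero_le _)

/-- alive nodes are nodes of the range; their leaves tile them -/
lemma al_leaves {V : Finset Nd} {P : Nd} (hV : Full V P) {q : Nd} (hq : q ∈ V) :
    ∑ L ∈ (lf V).filter (fun L => iv L ⊆ iv q), len L = len q := by
  have h := SL_const hV 1 q hq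
  unfold SL at h
  simp only [mul_one] at h
  exact h

end WWs

end Crest.Agent.R079.SbWx795
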