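import Crest.Agent.R079.ErK_255
import Crest.Agent.R079.SbZ_795
import Crest.Agent.R079.GaD_571

/-! R079, note 1922 (T8) (helper255), second file: THE COMMON INSTANCE (571's `PhiE`, 263's `Fam`).

* `LayK` : labels of the top `K` outside the grid nodes `QQ` (795); in case A all labels;
* `PsiF` : frame letter of the family at `K`, exact steps on `LayK`, `Zf` on the grid nodes;
* `CellIn` : per-cell input of (T3), `gpS` form;
* `err_fam` : energy of `X - gl V_K f - PsiF` on `K`;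
* `he_fam` : 795's hypothesis `HE` for both letters. -/

set_option autoImplicit false

namespace Crest.Agent.R079.ErLx255

open Finset Crest.Agent.R079.Grid Crest.Agent.R079.Growth Crest.Agent.R079.QRed
  Crest.Agent.R079.Qh249 Crest.Agent.R079.QVar181 Crest.Agent.R079.TWin
open Crest.Agent.R079.RelW653 (vl NMP Jv Dv sum_av')
open Crest.Agent.R079.RelV653 Crest.Agent.R079.ThA159 Crest.Agent.R079.ThB159
open Crest.Agent.R079.Cel159 (NmP cf okc mcell split_cell)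
open Crest.Agent.R079.ElS440 (Ln LnF)
open Crest.Agent.R079.ElU440 (upto ThL0)
open Crest.Agent.R079.ElGx69 Crest.Agent.R079.NrDx276 Crest.Agent.R079.ErKx255
open Crest.Agent.R079.GaFx371 Crest.Agent.R079.GaDx571 Crest.Agent.R079.PFx263
open Crest.Agent.R079.SbWx795 Crest.Agent.R079.FLDx263 Crest.Agent.R079.HWx323
open Crest.Agent.R079.GnSx263 (ek)

/-- labels of `K` outside the grid nodes -/
noncomputable def LayK (V : Finset Nd) (k0 j0 n0 : ℕ) (K : Nd) : Finset ℤ :=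
  iv K \ (QQ V k0 j0 n0 K).biUnion iv

variable {n : ℕ}

/-- gauged letter at `K` -/
noncomputable def AK (i : Fin 4) (e : Fin 3) (T : Fin n → Fin 3 → Finset ℤ)
    (g : Fin n → Fin 3 → ℤ → ℤ → ℂ) (I K : Nd) (G : Fn) (l : Fin n) : ℤ × ℤ × ℤ → ℂ :=
  ag (BdE i e (T l) I) (poE i e) (fun ω => g l e ω.2.1 ω.2.2) K G

/-- step kernels at `K` -/
noncomputable def stK (i : Fin 4) (e : Fin 3) (T : Fin n → Fin 3 → Finset ℤ)
    (g : Fin n → Fin 3 → ℤ → ℤ → ℂ) (I : Nd) (kc Kl : ℕ) (r : ℕ → ℝ) (K : Nd) (G : Fn)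
    (l : Fin n) (q : ℕ) : ℤ × ℤ × ℤ → ℂ :=
  stp (BdE i e (T l) I) (NmP (SE i e (T l) I) cf (okc (Ye i e) kc)) r Kl K (AK i e T g I K G l) q

/-- glued leaf projections at `K` -/
noncomputable def BK (i : Fin 4) (e : Fin 3) (T : Fin n → Fin 3 → Finset ℤ)
    (g : Fin n → Fin 3 → ℤ → ℤ → ℂ) (I : Nd) (kc : ℕ) (r : ℕ → ℝ) (V : Finset Nd) (K : Nd) (G : Fn)
    (l : Fin n) (q : ℕ) : ℤ × ℤ × ℤ → ℂ :=
  Bgl (BdE i e (T l) I) (poE i e) (NmP (SE i e (T l) I) cf (okc (Ye i e) kc))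
    (fun ω => g l e ω.2.1 ω.2.2) (r q) V K G

/-- kernels of the frame letter -/
noncomputable def ZK (i : Fin 4) (e : Fin 3) (T : Fin n → Fin 3 → Finset ℤ)
    (g : Fin n → Fin 3 → ℤ → ℤ → ℂ) (I : Nd) (kc Kl : ℕ) (r : ℕ → ℝ) (K : Nd) (G : Fn)
    (Lay : Finset ℤ) (Zf : Fin n → ℕ → ℤ × ℤ × ℤ → ℂ) (l : Fin n) (q : ℕ) : ℤ × ℤ × ℤ → ℂ :=
  mkL (poE i e) Lay (stK i e T g I kc Kl r K G l q) (Zf l q)

/-- **THE FRAME LETTER OF THE FAMILY** -/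
noncomputable def PsiF (i : Fin 4) (e : Fin 3) (T : Fin n → Fin 3 → Finset ℤ)
    (g : Fin n → Fin 3 → ℤ → ℤ → ℂ) (μ : Fin n → ℝ) (I : Nd) (La kap : ℝ) (kc Kl : ℕ)
    (r : ℕ → ℝ) (K : Nd) (G : Fn) (Lay : Finset ℤ) (Zf : Fin n → ℕ → ℤ × ℤ × ℤ → ℂ) : Fn :=
  PsiK (fun l => BdE i e (T l) I) (fun _ => poE i e) (fun _ => 1 / (sd I : ℝ) ^ 2)
    (fun l ω => g l e ω.2.1 ω.2.2) (fun l => kap * μ l / La) Kl K (ZK i e T g I kc Kl r K G Lay Zf)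

/-- cells of the family at `K` -/
noncomputable def cel (i : Fin 4) (e : Fin 3) (T : Fin n → Fin 3 → Finset ℤ) (I : Nd) (kc : ℕ)
    (K : Nd) (l : Fin n) : Finset (ℤ × ℕ × ℤ × ℤ) :=
  (BdE i e (T l) I K).image (mcell (Ye i e) kc K)

open Classical in
/-- **per-cell input of (T3)** -/
def CellIn (i : Fin 4) (e : Fin 3) (T : Fin n → Fin 3 → Finset ℤ)
    (g : Fin n → Fin 3 → ℤ → ℤ → ℂ) (I : Nd) (kc Kl : ℕ) (r : ℕ → ℝ) (V : Finset Nd) (K : Nd)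
    (G : Fn) (Lay : Finset ℤ) (Zf : Fin n → ℕ → ℤ × ℤ × ℤ → ℂ) (C1 C2 : ℝ) : Prop :=
  ∀ l, ∀ q < Kl, ∀ t ∈ cel i e T I kc K l,
    ∑ u ∈ dI t.2.1 t.2.2.1 ∩ T l e, ∑ v ∈ dI t.2.1 t.2.2.2 ∩ T l (e + 1),
      (if poE i e (t.1, u, v) ∈ Lay then 0 else
        ‖stK i e T g I kc Kl r K G l q (t.1, u, v) - Zf l q (t.1, u, v)‖ ^ 2) ≤
      C1 * gpS (fun u v => AK i e T g I K G l (t.1, u, v))
        (fun u v => BK i e T g I kc r V K G l q (t.1, u, v))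
        (dI t.2.1 t.2.2.1 ∩ T l e) (dI t.2.1 t.2.2.2 ∩ T l (e + 1)) (r q * 2 ^ t.2.1) +
      C2 * ∑ u ∈ dI t.2.1 t.2.2.1 ∩ T l e, ∑ v ∈ dI t.2.1 t.2.2.2 ∩ T l (e + 1),
        ‖AK i e T g I K G l (t.1, u, v)‖ ^ 2

section

variable {i m : Fin 4} {v : Fin 3} {I : Nd} {Ht Hf La : ℝ} {fl : Fn}
  {T : Fin n → Fin 3 → Finset ℤ} {g : Fin n → Fin 3 → ℤ → ℤ → ℂ} {θ : Fin n → ℤ → ℝ}
  {μf : Fin n → ℝ} (h : Fam i m v I Ht Hf La n fl T g θ μf)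

include h

/-- **ENERGY OF THE ERROR LETTER OF THE FAMILY** -/
theorem err_fam (e : Fin 3) (hLa : 0 < La) {kap : ℝ} (hkap : 0 ≤ kap) (kc Kl : ℕ) {r : ℕ → ℝ}
    (hr : ∀ q, 0 ≤ r q) {X : Fn} {η : ℝ} {f : Nd → Fn}
    (hf : NMP (fun _ _ => True) (PhiE i e T g μf I La kap kc Kl r) X η f)
    {V : Finset Nd} {K : Nd} (hV : Full V K) {δ : ℝ}
    (hG : GdP (PhiE i e T g μf I La kap kc Kl r) X η f δ V K) (hδ : 0 ≤ δ)
    (Lay : Finset ℤ) (Zf : Fin n → ℕ → ℤ × ℤ × ℤ → ℂ) {C1 C2 : ℝ} (hC1 : 0 ≤ C1) (hC2 : 0 ≤ C2)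
    (hcell : CellIn i e T g I kc Kl r V K (gl V f) Lay Zf C1 C2) :
    len K * av K (fun y => X y - gl V f y -
        PsiF i e T g μf I La kap kc Kl r K (gl V f) Lay Zf y) ^ 2 ≤
      ((2 * (1 + Kl * kap) + 2 * kap * (Kl : ℝ) ^ 3 * C1) * (δ + η) +
        2 * kap ^ 2 * (Kl : ℝ) ^ 4 * C2 * av K (gl V f) ^ 2) * len K := by
  classical
  have hκ : ∀ l, 0 ≤ kap * μf l / La := fun l =>
    div_nonneg (mul_nonneg hkap (h.μ0 l)) hLa.le
  have hS : ∑ l, kap * μf l / La ≤ kap := by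
    rw [← Finset.sum_div, ← Finset.mul_sum, div_le_iff₀ hLa]
    exact mul_le_mul_of_nonneg_left h.μ1 hkap
  have hS0 : 0 ≤ ∑ l, kap * μf l / La := Finset.sum_nonneg fun l _ => hκ l
  have hnn : 0 < 2 ^ I.1 := by positivity
  have h1 := err_cells (ι := Fin n) (K := Kl) (Bd := fun l => BdE i e (T l) I)
    (pos := fun _ => poE i e) (N := fun l => NmP (SE i e (T l) I) cf (okc (Ye i e) kc))
    (ν := fun _ => 1 / (sd I : ℝ) ^ 2) (a := fun l ω => g l e ω.2.1 ω.2.2) (r := fun _ q => r q)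
    (κ := fun l => kap * μf l / La) (X := X) (η := η) (f := f)
    (fun l => bnd_E i e I (sd_pos I) (h.opD l).card kc)
    (fun l => (h.opD l).fib hnn i e I)
    (fun _ q => hr q) hκ hf hV hG hV.top
    (C := fun _ => ℤ × ℕ × ℤ × ℤ) (cells := fun l => cel i e T I kc K l)
    (z := fun _ c => c.1) (S := fun l c => dI c.2.1 c.2.2.1 ∩ T l e)
    (T := fun l c => dI c.2.1 c.2.2.2 ∩ T l (e + 1)) (wt := fun _ c => 2 ^ c.2.1)
    (fun l => split_cell (Y := Ye i e) (k := kc) (T₀ := W0 i e (T l) I) (T₁ := T l e)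
      (T₂ := T l (e + 1)) K)
    (fun l q t => gpS (fun u v => AK i e T g I K (gl V f) l (t.1, u, v))
        (fun u v => BK i e T g I kc r V K (gl V f) l q (t.1, u, v))
        (dI t.2.1 t.2.2.1 ∩ T l e) (dI t.2.1 t.2.2.2 ∩ T l (e + 1)) (r q * 2 ^ t.2.1) / 2)
    (fun l q _ t _ => by
      have e1 : ∀ x : ℝ, 2 * (x / 2) = x := fun x => by ring
      rw [e1]
      exact le_refl _)
    Lay Zf (C1 := 2 * C1) (C2 := C2) (by linarith) hC2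
    (fun l q hq t ht => by
      refine (hcell l q hq t ht).trans (le_of_eq ?_)
      congr 1
      ring)
  have hav : 0 ≤ av K (gl V f) ^ 2 := sq_nonneg _
  have hη : 0 ≤ η := hf.eta
  refine h1.trans (mul_le_mul_of_nonneg_right ?_ (Growth.len_pos K).le)
  have hK0 : (0 : ℝ) ≤ Kl := Nat.cast_nonneg _
  refine add_le_add (mul_le_mul_of_nonneg_right ?_ (by linarith)) ?_
  · have a1 : (Kl : ℝ) * ∑ l, kap * μf l / La ≤ Kl * kap := mul_le_mul_of_nonneg_left hS hK0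
    have a2 : (∑ l, kap * μf l / La) * (Kl : ℝ) ^ 3 * (2 * C1) ≤ kap * (Kl : ℝ) ^ 3 * (2 * C1) := by
      gcongr
    linarith
  · have a3 : (∑ l, kap * μf l / La) ^ 2 ≤ kap ^ 2 := pow_le_pow_left₀ hS0 hS 2
    gcongr

end

end Crest.Agent.R079.ErLx255
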