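import Crest.Agent.R079.GnS_263
import Crest.Agent.R079.GnQ_45

/-! R079, Step I (helper263): `SpQ` (45) from the data of one generation (`GnS_263.GenD`), powers of `t`. -/

set_option autoImplicit false

namespace Crest.Agent.R079.GnNx263

open Finset Crest.Agent.R079.Grid Crest.Agent.R079.Growth Crest.Agent.R079.QRed
open Crest.Agent.R079.TRec Crest.Agent.R079.AsmA844 Crest.Agent.R079.AsmG734
open Crest.Agent.R079.T6bx252 Crest.Agent.R079.GnMx45 Crest.Agent.R079.GnOx45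
open Crest.Agent.R079.GnSx263 Crest.Agent.R079.GnQx45

/-- number of stacks -/
noncomputable def nn (t nE : ℝ) : ℕ := ⌈t ^ (-nE)⌉₊

lemma nn_ge {t nE : ℝ} : t ^ (-nE) ≤ nn t nE + 1 := by
  have := Nat.le_ceil (t ^ (-nE))
  unfold nn
  linarith

lemma nn_le {t nE : ℝ} (ht : 0 < t) (ht1 : t ≤ 1) (hn : 0 ≤ nE) :
    ((nn t nE : ℕ) : ℝ) ≤ 2 * t ^ (-nE) := by
  have h1 : 1 ≤ t ^ (-nE) := by
    rw [Real.rpow_neg ht.le]
    exact (one_le_inv₀ (Real.rpow_pos_of_pos ht _)).2 (Real.rpow_le_one ht.le ht1 hn)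
  have h2 := Nat.ceil_lt_add_one (show 0 ≤ t ^ (-nE) by linarith)
  unfold nn
  linarith

/-- **THE DATA OF ONE GENERATION**, powers of `t`, for the data predicate `Q` -/
def GenP (Q : DataQ) (k q3 c1 e g CM nE t0 K : ℝ) (i m : Fin 4) : Prop :=
  ∀ (N : ℕ) (B : ℝ), 0 ≤ B → BN k q3 N B → ∀ t, 0 < t → t ≤ t0 → ∀ W I F,
    Q t W I F → I.1 ≤ N → ∀ x y : Fin 4, Oth i m x y → ∀ bb ε, Adm bb ε →
      ∀ R J, Full R J → R ⊆ W → ∀ X Y, Sm k 1 R X Y →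
        GenD (v4 bb ε F x y) R J X Y (t ^ c1) (K * t ^ (-e)) (K * t ^ (-e)) (K * t ^ (-e))
          (K * (1 + B) * t ^ g) (K * t ^ (-CM)) (nn t nE)

theorem spQ_of_genP {Q : DataQ} {k q3 c1 e g CM nE t0 K : ℝ} {i m : Fin 4} (ht0 : t0 ≤ 1)
    (hK : 1 ≤ K) (he : 0 ≤ e) (hc1 : 0 ≤ c1) (hn : CM + e + 2 * c1 + g ≤ nE)
    (h : GenP Q k q3 c1 e g CM nE t0 K i m) :
    SpQ Q k q3 c1 (2 * e) g t0 (50 * K ^ 2) i m := by
  intro N B hB hBN t ht htt W I F hQ hI x y hO bb ε hA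
  have ht1 : t ≤ 1 := htt.trans ht0
  have hK0 : 0 < K := by linarith
  have hK2 : K ≤ K ^ 2 := by nlinarith
  have P : ∀ s : ℝ, 0 < t ^ s := fun s => Real.rpow_pos_of_pos ht s
  have M : ∀ {s s' : ℝ}, s' ≤ s → t ^ s ≤ t ^ s' := fun hs =>
    Real.rpow_le_rpow_of_exponent_ge ht ht1 hs
  have A : ∀ s s' : ℝ, t ^ s * t ^ s' = t ^ (s + s') := fun s s' => (Real.rpow_add ht s s').symm
  have hμ1 : t ^ c1 ≤ 1 := Real.rpow_le_one ht.le ht1 hc1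
  have hsp := spM_of_genD (k := k) (R0 := W) (P c1) hμ1 (mul_pos hK0 (P (-e))).le
    (mul_pos hK0 (P (-e))).le (mul_pos hK0 (P (-CM))).le
    (h N B hB hBN t ht htt W I F hQ hI x y hO bb ε hA)
  have hsq : (t ^ c1) ^ 2 = t ^ (2 * c1) := by
    rw [sq, A]
    congr 1
    ring
  refine spM_mono (P c1).le hsp ?_ ?_ ?_ ?_ ?_
  · -- words
    have h1 : 2 * (K * t ^ (-CM)) * (K * t ^ (-e)) / ((t ^ c1) ^ 2 * ((nn t nE : ℝ) + 1)) ≤
        2 * K ^ 2 * t ^ g := by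
      have hn0 : 0 < (nn t nE : ℝ) + 1 := by positivity
      rw [div_le_iff₀ (mul_pos (by rw [hsq]; exact P _) hn0), hsq]
      have h2 : t ^ (-CM) * t ^ (-e) ≤ t ^ g * (t ^ (2 * c1) * t ^ (-nE)) := by
        rw [A, A, A]
        exact M (by linarith)
      have h3 : t ^ g * (t ^ (2 * c1) * t ^ (-nE)) ≤ t ^ g * (t ^ (2 * c1) * ((nn t nE : ℝ) + 1)) :=
        mul_le_mul_of_nonneg_left (mul_le_mul_of_nonneg_left nn_ge (P _).le) (P _).le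
      have h4 := mul_le_mul_of_nonneg_left (h2.trans h3) (show 0 ≤ 2 * K ^ 2 by positivity)
      calc _ = 2 * K ^ 2 * (t ^ (-CM) * t ^ (-e)) := by ring
        _ ≤ _ := h4
        _ = _ := by ring
    have h5 : 2 * K ^ 2 * t ^ g ≤ 2 * K ^ 2 * (1 + B) * t ^ g := by
      have := mul_nonneg (show 0 ≤ 2 * K ^ 2 * B by positivity) (P g).le
      nlinarith
    have h6 : K * (1 + B) * t ^ g ≤ K ^ 2 * (1 + B) * t ^ g :=
      mul_le_mul_of_nonneg_right (mul_le_mul_of_nonneg_right hK2 (by linarith)) (P g).le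
    have h7 : 0 ≤ K ^ 2 * (1 + B) * t ^ g :=
      mul_nonneg (mul_nonneg (sq_nonneg K) (by linarith)) (P g).le
    calc _ ≤ K ^ 2 * (1 + B) * t ^ g + 2 * K ^ 2 * (1 + B) * t ^ g := add_le_add h6 (h1.trans h5)
      _ ≤ 50 * K ^ 2 * (1 + B) * t ^ g := by linarith
  · -- A0
    have h1 : 2 * (K * t ^ (-e)) / t ^ c1 = 2 * K * t ^ (-(c1 + e)) := by
      rw [← mul_assoc, mul_div_assoc, ← Real.rpow_sub ht]
      congr 2
      ring
    rw [h1]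
    have h2 : t ^ (-(c1 + e)) ≤ t ^ (-(c1 + 2 * e)) := M (by linarith)
    calc 2 * K * t ^ (-(c1 + e)) ≤ 2 * K * t ^ (-(c1 + 2 * e)) :=
          mul_le_mul_of_nonneg_left h2 (by positivity)
      _ ≤ _ := mul_le_mul_of_nonneg_right (by nlinarith) (P _).le
  · -- A1
    have h1 : K * t ^ (-e) / (t ^ c1) ^ 2 = K * t ^ (-(2 * c1 + e)) := by
      rw [hsq, mul_div_assoc, ← Real.rpow_sub ht]
      congr 2
      ring
    rw [h1]
    have h2 : t ^ (-(2 * c1 + e)) ≤ t ^ (-(2 * c1 + 2 * e)) := M (by linarith)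
    calc K * t ^ (-(2 * c1 + e)) ≤ K * t ^ (-(2 * c1 + 2 * e)) :=
          mul_le_mul_of_nonneg_left h2 (by positivity)
      _ ≤ _ := mul_le_mul_of_nonneg_right (by nlinarith) (P _).le
  · -- L
    have h1 : t ^ (-e) ≤ t ^ (-(2 * e)) := M (by linarith)
    have h2 : t ^ (-e) * t ^ (-e) = t ^ (-(2 * e)) := by
      rw [A]
      congr 1
      ring
    calc K * t ^ (-e) * (8 * (K * t ^ (-e)) + 32) =
        8 * K ^ 2 * (t ^ (-e) * t ^ (-e)) + 32 * K * t ^ (-e) := by ring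
      _ ≤ 8 * K ^ 2 * t ^ (-(2 * e)) + 32 * K ^ 2 * t ^ (-(2 * e)) := by
          rw [h2]
          refine add_le_add le_rfl ?_
          exact mul_le_mul (by linarith) h1 (P _).le (by positivity)
      _ ≤ _ := by
          have := mul_nonneg (sq_nonneg K) (P (-(2 * e))).le
          linarith
  · -- r0
    refine Real.sqrt_le_iff.2 ⟨by positivity, ?_⟩
    have h1 : (50 * K ^ 2 * t ^ (c1 / 2 - 2 * e)) ^ 2 = 2500 * K ^ 4 * t ^ (c1 - 4 * e) := by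
      rw [mul_pow, sq (t ^ _), A]
      have : c1 / 2 - 2 * e + (c1 / 2 - 2 * e) = c1 - 4 * e := by ring
      rw [this]
      ring
    rw [h1]
    have h2 : (1 : ℝ) ≤ t ^ (-e) := by
      have := M (show -e ≤ 0 by linarith)
      rwa [Real.rpow_zero] at this
    have h3 : (2 * (K * t ^ (-e)) + 16) * t ^ c1 ≤ 18 * K * (t ^ (-e) * t ^ c1) := by
      have h4 : 16 ≤ 16 * (K * t ^ (-e)) := by nlinarith
      have := mul_le_mul_of_nonneg_right h4 (P c1).le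
      nlinarith
    refine h3.trans ?_
    rw [A]
    have h5 : t ^ (-e + c1) ≤ t ^ (c1 - 4 * e) := M (by linarith)
    have hK4 : K ≤ K ^ 4 := by
      have : K ^ 2 ≤ K ^ 4 := pow_le_pow_right₀ hK (by norm_num)
      linarith
    exact mul_le_mul (by nlinarith) h5 (P _).le (by positivity)

/-- quantifier form: `SpF`'s inner part from `GenP` -/
theorem spQ_exists {q3 : ℝ} (Q : ℝ → ℝ → DataQ) {i m : Fin 4}
    (h : ∃ cm : ℝ, 0 < cm ∧ ∀ c1, 0 < c1 → c1 ≤ cm → ∃ C g ys : ℝ, 0 < C ∧ 0 < g ∧ 0 < ys ∧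
      ∀ y, 0 < y → y ≤ ys → ∃ e1 : ℝ, 0 < e1 ∧ ∀ e, 0 < e → e ≤ e1 → ∃ k1 : ℝ, 0 < k1 ∧
        ∀ k, 0 < k → k ≤ k1 → ∃ t0 K CM nE : ℝ, 0 < t0 ∧ t0 ≤ 1 ∧ 1 ≤ K ∧
          CM + C * y + 2 * c1 + g * y ≤ nE ∧
          GenP (Q e k) k q3 c1 (C * y) (g * y) CM nE t0 K i m) :
    ∃ cm : ℝ, 0 < cm ∧ ∀ c1, 0 < c1 → c1 ≤ cm → ∃ C g ys : ℝ, 0 < C ∧ 0 < g ∧ 0 < ys ∧
      ∀ y, 0 < y → y ≤ ys → ∃ e1 : ℝ, 0 < e1 ∧ ∀ e, 0 < e → e ≤ e1 → ∃ k1 : ℝ, 0 < k1 ∧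
        ∀ k, 0 < k → k ≤ k1 → ∃ t0 K : ℝ, 0 < t0 ∧ 0 ≤ K ∧
          SpQ (Q e k) k q3 c1 (C * y) (g * y) t0 K i m := by
  obtain ⟨cm, hcm, h⟩ := h
  refine ⟨cm, hcm, fun c1 hc1 hc1m => ?_⟩
  obtain ⟨C, g, ys, hC, hg, hys, h⟩ := h c1 hc1 hc1m
  refine ⟨2 * C, g, ys, by linarith, hg, hys, fun y hy hyy => ?_⟩
  obtain ⟨e1, he1, h⟩ := h y hy hyy
  refine ⟨e1, he1, fun e he hee => ?_⟩
  obtain ⟨k1, hk1, h⟩ := h e he hee
  refine ⟨k1, hk1, fun k hk hkk => ?_⟩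
  obtain ⟨t0, K, CM, nE, ht0, ht01, hK, hn, h⟩ := h k hk hkk
  refine ⟨t0, 50 * K ^ 2, ht0, by positivity, ?_⟩
  have := spQ_of_genP ht01 hK (by positivity) hc1.le hn h
  rwa [← mul_assoc] at this

end Crest.Agent.R079.GnNx263
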