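import Crest.Agent.R079.NH_112
import Crest.Agent.R079.CKx_217
import Crest.Agent.R079.GnN_263

/-! R079 (helper112): **THE ONE REMAINING INPUT** of `S0106`: `SpF` (splitting of one generation for the
core data), or `GDF` (= 263's `GenP`: tree, frame errors, word totals).  The leaves `cell` (217, 37, 446)
and `op` (276, 446) and the tall kill (248) are theorems.  **`target_of_one`**, **`target_of_genP`**. -/

set_option autoImplicit false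
set_option linter.unusedVariables false

namespace Crest.Agent.R079.NP112

open Finset Crest.Agent.R079.Grid Crest.Agent.R079.Growth Crest.Agent.R079.QRed
open Crest.Agent.R079.WS112 Crest.Agent.R079.WS0112 Crest.Agent.R079.POx263
open Crest.Agent.R079.T6bx252 Crest.Agent.R079.OpS276 Crest.Agent.R079.GnQx45

/-- **`S0106` from the splitting of one generation** -/
theorem target_of_one
    (hs : ∃ x0 : ℝ, ∀ x, x0 ≤ x → ∃ ρ0 : ℝ, 0 < ρ0 ∧ ∀ ρ, 0 < ρ → ρ ≤ ρ0 → ∃ c0 : ℝ, 0 < c0 ∧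
      ∀ c, 0 < c → c ≤ c0 → ∃ C0 : ℝ, ∀ C, C0 ≤ C → ∀ q3, 2 < q3 → Adm4 x C ρ c →
        SpF (PF x C ρ c) q3 (dF C ρ c)) : L0.Target :=
  target_of_two (fun hA hx hc hq => CKk217.cellF_PF hA hx hc hq) hs

/-- tree, frame errors and word totals of one generation for the core data (263's `GenP`) -/
def GDF (P : Prm) (q3 d : ℝ) : Prop :=
  ∀ i m e e' : Fin 4, Dst4 i m e e' → m < i → i ≠ 3 → ∃ cm : ℝ, 0 < cm ∧
    ∀ c1, 0 < c1 → c1 ≤ cm →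
    ∃ C g ys : ℝ, 0 < C ∧ 0 < g ∧ 0 < ys ∧ ∀ y, 0 < y → y ≤ ys → ∃ e1 : ℝ, 0 < e1 ∧
      ∀ ε, 0 < ε → ε ≤ e1 → ∃ k1 : ℝ, 0 < k1 ∧ ∀ k, 0 < k → k ≤ k1 →
        ∃ t0 K CM nE : ℝ, 0 < t0 ∧ t0 ≤ 1 ∧ 1 ≤ K ∧ CM + C * y + 2 * c1 + g * y ≤ nE ∧
          GnNx263.GenP (QP P d i m e e' ε k) k q3 c1 (C * y) (g * y) CM nE t0 K i m

theorem spF_of_GDF {P : Prm} {q3 d : ℝ} (h : GDF P q3 d) : SpF P q3 d :=
  fun i m e e' hdd hmi hi3 =>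
    GnNx263.spQ_exists (q3 := q3) (QP P d i m e e') (h i m e e' hdd hmi hi3)

/-- **`S0106` from tree, frame errors and word totals of one generation** -/
theorem target_of_genP
    (hs : ∃ x0 : ℝ, ∀ x, x0 ≤ x → ∃ ρ0 : ℝ, 0 < ρ0 ∧ ∀ ρ, 0 < ρ → ρ ≤ ρ0 → ∃ c0 : ℝ, 0 < c0 ∧
      ∀ c, 0 < c → c ≤ c0 → ∃ C0 : ℝ, ∀ C, C0 ≤ C → ∀ q3, 2 < q3 → Adm4 x C ρ c →
        GDF (PF x C ρ c) q3 (dF C ρ c)) : L0.Target := by
  refine target_of_one ?_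
  obtain ⟨x0, hs⟩ := hs
  refine ⟨x0, fun x hx => ?_⟩
  obtain ⟨ρ0, hρ0, hs⟩ := hs x hx
  refine ⟨ρ0, hρ0, fun ρ hρ hρρ => ?_⟩
  obtain ⟨c0, hc0, hs⟩ := hs ρ hρ hρρ
  refine ⟨c0, hc0, fun c hc hcc => ?_⟩
  obtain ⟨C0, hs⟩ := hs c hc hcc
  exact ⟨C0, fun C hC q3 hq hA => spF_of_GDF (hs C hC q3 hq hA)⟩

end Crest.Agent.R079.NP112
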