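import Crest.Agent.R079.StkA_242
import Crest.Agent.R079.TS0_903
import Crest.Agent.R079.GnM_45

/-! R079, Step I (helper726): THE TAIL OF THE STACKS.

The words paid by MOVE cost `log (number of stacks)`, and the stack index `idx T w` of the tops of one
generation is only bounded by the depth of the region.  Here the generation is truncated: the tops of
index `n + 1` get the whole rest of the region as window, with the trivial splitting `X = X + 0`,
`Y = Y + 0`; these windows are paid by the plain mass of the frozen letter.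

* `tops_trunc`, `win_trunc`, `sum_last` (average count only), `sum_split`;
* `tail_v4` : the trivial bound of one window, from `BadN360.abs_qb`;
* `spM_trunc` : the truncated splitting. -/

set_option autoImplicit false

namespace Crest.Agent.R079.Tailx726

open Finset Crest.Agent.R079.Grid Crest.Agent.R079.Growth Crest.Agent.R079.QRed
open Crest.Agent.R079.TRec Crest.Agent.R079.AsmA844 Crest.Agent.R079.GenT934
open Crest.Agent.R079.T6bx252 Crest.Agent.R079.BadN360 Crest.Agent.R079.Stk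
open Crest.Agent.R079.TWin (sub_ch0 sub_ch1)
open Crest.Agent.R079.GnMx45 (en)

variable {R : Finset Nd} {J : Nd} {T : Finset Nd}

/-- the tops of stack index at most `n + 1` -/
noncomputable def trunc (T : Finset Nd) (n : ℕ) : Finset Nd := T.filter (fun w => idx T w ≤ n + 1)

lemma mem_trunc {n : ℕ} {w : Nd} : w ∈ trunc T n ↔ w ∈ T ∧ idx T w ≤ n + 1 := by
  unfold trunc
  rw [Finset.mem_filter]

lemma idx_topT (hR : Full R J) (hT : Tops R J T) : idx T J = 1 := by
  classical
  unfold idx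
  rw [Finset.card_eq_one]
  refine ⟨J, ?_⟩
  ext K
  rw [Finset.mem_filter, Finset.mem_singleton]
  constructor
  · rintro ⟨hK, h⟩
    exact iv_eq_of_level h (Growth.iv_level (hR.reg.1 K (hT.sub hK)))
  · rintro rfl
    exact ⟨hT.top, subset_rfl⟩

lemma idx_sibT (hT : Tops R J T) {m : ℕ} {l : ℤ} (hp : (m + 1, l) ∈ R) :
    idx T (m, 2 * l) = idx T (m, 2 * l + 1) := by
  classical
  have hS := hT.sib m l hp
  rw [idx_child (S := T) (sub_ch0 m l) rfl, idx_child (S := T) (sub_ch1 m l) rfl]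
  by_cases h : (m, 2 * l) ∈ T
  · rw [if_pos h, if_pos (hS.1 h)]
  · rw [if_neg h, if_neg (fun h' => h (hS.2 h'))]

theorem tops_trunc (hR : Full R J) (hT : Tops R J T) (n : ℕ) : Tops R J (trunc T n) := by
  refine ⟨fun w hw => hT.sub (mem_trunc.1 hw).1, mem_trunc.2 ⟨hT.top, ?_⟩, fun m l h => ?_⟩
  · rw [idx_topT hR hT]
    omega
  · rw [mem_trunc, mem_trunc, hT.sib m l h, idx_sibT hT h]

/-- a top strictly inside `w` which contains `p` forces a top of index `idx w + 1` -/
lemma next_top {w p K : Nd} (hK : K ∈ T) (hpK : iv p ⊆ iv K) (hKw : iv K ⊆ iv w)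
    (hne : K ≠ w) : ∃ K' ∈ T, iv p ⊆ iv K' ∧ iv K' ⊆ iv w ∧ K' ≠ w ∧ idx T K' = idx T w + 1 := by
  classical
  obtain ⟨K', hK', hmax⟩ := Finset.exists_max_image
    (T.filter (fun K => iv p ⊆ iv K ∧ iv K ⊆ iv w ∧ K ≠ w)) (fun K => K.1)
    ⟨K, Finset.mem_filter.2 ⟨hK, hpK, hKw, hne⟩⟩
  rw [Finset.mem_filter] at hK'
  obtain ⟨hKT, h1, h2, h3⟩ := hK'
  refine ⟨K', hKT, h1, h2, h3, ?_⟩
  have hnot : K' ∉ T.filter (fun K => iv w ⊆ iv K) := by
    rw [Finset.mem_filter]
    rintro ⟨_, h⟩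
    exact h3 (Qe292.iv_antisymm h2 h)
  unfold idx
  rw [← Finset.card_insert_of_notMem hnot]
  congr 1
  ext A
  rw [Finset.mem_filter, Finset.mem_insert, Finset.mem_filter]
  constructor
  · rintro ⟨hA, hKA⟩
    rcases Qe292.sub_total (hKA) h2 with h | h
    · by_cases hAw : A = w
      · right
        exact ⟨hA, by rw [hAw]⟩
      · left
        have h4 := hmax A (Finset.mem_filter.2 ⟨hA, h1.trans hKA, h, hAw⟩)
        exact iv_eq_of_level hKA h4
    · exact Or.inr ⟨hA, h⟩
  · rintro (rfl | ⟨hA, hwA⟩)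
    · exact ⟨hKT, subset_rfl⟩
    · exact ⟨hA, h2.trans hwA⟩

theorem wn_trunc {n : ℕ} {w p : Nd} (hw : w ∈ T) (hn : idx T w ≤ n) :
    Wn (trunc T n) w p ↔ Wn T w p := by
  constructor
  · rintro ⟨_, h1, h2⟩
    refine ⟨hw, h1, fun I' hI' hp => ?_⟩
    by_contra hno
    have hsub : iv I' ⊆ iv w := by
      rcases Qe292.sub_total h1 hp with h | h
      · exact absurd h hno
      · exact h
    have hne : I' ≠ w := fun h => hno (by rw [h])
    obtain ⟨K', hK', h3, h4, h5, h6⟩ := next_top hI' hp hsub hne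
    have h7 := h2 K' (mem_trunc.2 ⟨hK', by omega⟩) h3
    exact h5 (Qe292.iv_antisymm h4 h7)
  · rintro ⟨_, h1, h2⟩
    exact ⟨mem_trunc.2 ⟨hw, by omega⟩, h1, fun I' hI' hp => h2 I' (mem_trunc.1 hI').1 hp⟩

theorem win_trunc {n : ℕ} {w : Nd} (hw : w ∈ T) (hn : idx T w ≤ n) :
    win R (trunc T n) w = win R T w := by
  ext p
  rw [mem_win, mem_win, wn_trunc hw hn]

/-- two nested tops of the same index are equal -/
lemma idx_inj {A B : Nd} (hA : A ∈ T) (hAB : iv A ⊆ iv B) (hi : idx T A = idx T B) :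
    A = B := by
  classical
  by_contra hne
  have hsub : T.filter (fun K => iv B ⊆ iv K) ⊆ T.filter (fun K => iv A ⊆ iv K) := by
    intro K hK
    rw [Finset.mem_filter] at hK ⊢
    exact ⟨hK.1, hAB.trans hK.2⟩
  have heq := Finset.eq_of_subset_of_card_le hsub (by unfold idx at hi; exact hi.le)
  have h1 : A ∈ T.filter (fun K => iv A ⊆ iv K) := Finset.mem_filter.2 ⟨hA, subset_rfl⟩
  rw [← heq, Finset.mem_filter] at h1
  exact hne (Qe292.iv_antisymm hAB h1.2)

/-- **the last tops are small**, by the average count -/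
theorem sum_last (hR : Full R J) (hT : Tops R J T) (n : ℕ) :
    ((n : ℝ) + 1) * ∑ w ∈ T.filter (fun w => idx T w = n + 1), len w ≤ ∑ w ∈ T, len w := by
  classical
  have hcard : ∀ (S : Finset Nd), S ⊆ T → ∑ K ∈ S, len K =
      ∑ y ∈ iv J, (((S.filter (fun K => y ∈ iv K)).card : ℕ) : ℝ) := by
    intro S hS
    have e : ∀ K ∈ S, len K = ∑ y ∈ iv J, (if y ∈ iv K then (1 : ℝ) else 0) := by
      intro K hK
      have hs : iv K ⊆ iv J := hR.reg.1 K (hT.sub (hS hK))
      have hi : iv J ∩ iv K = iv K := Finset.inter_eq_right.2 hs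
      rw [Finset.sum_ite_mem, hi, Finset.sum_const, nsmul_eq_mul, mul_one, Growth.card_iv]
    rw [Finset.sum_congr rfl e, Finset.sum_comm]
    refine Finset.sum_congr rfl fun y _ => ?_
    rw [Finset.sum_boole]
  rw [hcard _ (Finset.filter_subset _ _), hcard T subset_rfl, Finset.mul_sum]
  refine Finset.sum_le_sum fun y _ => ?_
  set S := T.filter (fun w => idx T w = n + 1) with hS
  by_cases h : (S.filter (fun K => y ∈ iv K)).Nonempty
  · obtain ⟨A, hA⟩ := h
    rw [Finset.mem_filter, hS, Finset.mem_filter] at hA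
    have h1 : S.filter (fun K => y ∈ iv K) ⊆ {A} := by
      intro B hB
      rw [Finset.mem_filter, hS, Finset.mem_filter] at hB
      rw [Finset.mem_singleton]
      rcases iv_nest hB.2 hA.2 with h2 | h2
      · exact idx_inj hB.1.1 h2 (by rw [hB.1.2, hA.1.2])
      · exact (idx_inj hA.1.1 h2 (by rw [hB.1.2, hA.1.2])).symm
    have h2 : ((S.filter (fun K => y ∈ iv K)).card : ℝ) ≤ 1 := by
      have := Finset.card_le_card h1
      rw [Finset.card_singleton] at this
      exact_mod_cast this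
    have h3 : (n : ℝ) + 1 ≤ ((T.filter (fun K => y ∈ iv K)).card : ℝ) := by
      have h4 : idx T A ≤ (T.filter (fun K => y ∈ iv K)).card := by
        unfold idx
        refine Finset.card_le_card fun K hK => ?_
        rw [Finset.mem_filter] at hK ⊢
        exact ⟨hK.1, hK.2 hA.2⟩
      rw [hA.1.2] at h4
      exact_mod_cast h4
    have h5 : (0 : ℝ) ≤ (n : ℝ) + 1 := by positivity
    calc ((n : ℝ) + 1) * ((S.filter (fun K => y ∈ iv K)).card : ℝ) ≤ ((n : ℝ) + 1) * 1 :=
          mul_le_mul_of_nonneg_left h2 h5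
      _ ≤ _ := by linarith
  · rw [Finset.not_nonempty_iff_eq_empty] at h
    rw [h]
    simp

/-- sum over the truncated tops -/
theorem sum_split {β : Type*} [AddCommMonoid β] (n : ℕ) (f : Nd → β) :
    ∑ w ∈ trunc T n, f w =
      ∑ w ∈ T.filter (fun w => idx T w ≤ n), f w +
        ∑ w ∈ T.filter (fun w => idx T w = n + 1), f w := by
  classical
  have e : trunc T n = T.filter (fun w => idx T w ≤ n) ∪ T.filter (fun w => idx T w = n + 1) := by
    ext w
    rw [mem_trunc, Finset.mem_union, Finset.mem_filter, Finset.mem_filter, ← and_or_left]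
    refine and_congr_right fun _ => ?_
    omega
  rw [e, Finset.sum_union]
  rw [Finset.disjoint_left]
  intro w h1 h2
  rw [Finset.mem_filter] at h1 h2
  omega

/-! ### stacks in the language of `Tops` -/

/-- the index is constant on the windows -/
lemma idx_wn {w p : Nd} (h : Wn T w p) : idx T p = idx T w := by
  classical
  unfold idx
  congr 1
  refine Finset.filter_congr fun K hK => ?_
  exact ⟨fun h1 => h.2.2 K hK h1, fun h1 => h.2.1.trans h1⟩

/-- the sum over the windows of index `≤ n`, stack by stack -/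
theorem sum_stackT {β : Type*} [AddCommMonoid β] (hR : Full R J) (hT : Tops R J T) (n : ℕ)
    (G : ℕ → Nd → β) :
    ∑ w ∈ T.filter (fun w => idx T w ≤ n), ∑ p ∈ win R T w, G (idx T w) p =
      ∑ k ∈ range (n + 1), ∑ p ∈ R.filter (fun p => idx T p = k), G k p := by
  classical
  have e : R.filter (fun p => idx T p ≤ n) =
      (T.filter (fun w => idx T w ≤ n)).biUnion (fun w => win R T w) := by
    ext p
    rw [Finset.mem_biUnion, Finset.mem_filter]
    constructor
    · rintro ⟨hp, hn⟩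
      obtain ⟨I, hI⟩ := hT.exists_wn hR hp
      exact ⟨I, Finset.mem_filter.2 ⟨hI.1, by rwa [← idx_wn hI]⟩, mem_win.2 ⟨hp, hI⟩⟩
    · rintro ⟨I, hI, hp⟩
      have h1 := mem_win.1 hp
      exact ⟨h1.1, by rw [idx_wn h1.2]; exact (Finset.mem_filter.1 hI).2⟩
  have h1 : ∑ w ∈ T.filter (fun w => idx T w ≤ n), ∑ p ∈ win R T w, G (idx T w) p =
      ∑ p ∈ R.filter (fun p => idx T p ≤ n), G (idx T p) p := by
    rw [e, Finset.sum_biUnion fun I _ I' _ hne => win_disj hne]
    refine Finset.sum_congr rfl fun w _ => Finset.sum_congr rfl fun p hp => ?_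
    rw [idx_wn (mem_win.1 hp).2]
  rw [h1, ← Finset.sum_fiberwise_of_maps_to (s := R.filter (fun p => idx T p ≤ n))
    (t := range (n + 1)) (g := idx T)
    (fun p hp => Finset.mem_range.2 (Nat.lt_succ_of_le (Finset.mem_filter.1 hp).2))]
  refine Finset.sum_congr rfl fun k hk => ?_
  have e2 : (R.filter (fun p => idx T p ≤ n)).filter (fun p => idx T p = k) =
      R.filter (fun p => idx T p = k) := by
    ext p
    rw [Finset.mem_filter, Finset.mem_filter, Finset.mem_filter]
    have := Finset.mem_range.1 hk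
    constructor
    · rintro ⟨⟨h1, _⟩, h2⟩
      exact ⟨h1, h2⟩
    · rintro ⟨h1, h2⟩
      exact ⟨⟨h1, by omega⟩, h2⟩
  rw [e2]
  refine Finset.sum_congr rfl fun p hp => ?_
  rw [(Finset.mem_filter.1 hp).2]

/-- the windows of a `Part` are the windows of its tops -/
theorem win_of_part {W : Nd → Finset Nd} {C : ℝ} (hP : TWin.Part R T W C) {K : Nd}
    (hK : K ∈ T) : win R T K = W K := by
  have key : ∀ {K p : Nd}, K ∈ T → p ∈ W K → Wn T K p := by
    intro K p hK hp
    refine ⟨hK, (hP.full K hK).reg.1 p hp, fun I' hI' h => ?_⟩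
    rcases Qe292.sub_total ((hP.full K hK).reg.1 p hp) h with h1 | h1
    · exact h1
    · have h2 := up_mem hP hK hp h h1
      rw [win_eq hP hK hI' h2 (hP.full I' hI').top]
  ext p
  rw [mem_win]
  constructor
  · rintro ⟨hp, hw⟩
    obtain ⟨K', hK', hp'⟩ := hP.cover p hp
    rw [hw.unique (key hK' hp')]
    exact hp'
  · exact fun hp => ⟨hP.wsub K hK hp, key hK hp⟩

/-! ### the trivial bound of one window -/

lemma oth_eq : ∀ {i m a b j : Fin 4}, i ≠ m → Oth i m a b → j ≠ i → j ≠ a → j ≠ b → j = m := by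
  intro i m a b j him hO hi ha hb
  have h1 := hO.ai
  have h2 := hO.am
  have h3 := hO.bi
  have h4 := hO.bm
  have h5 := hO.ab
  omega

/-- **the plain mass of the frozen letter pays every word** -/
theorem tail_v4 : ∃ K : ℝ, 0 ≤ K ∧ ∀ bb ε, Adm bb ε → ∀ W I, Full W I → ∀ (F : Fin 4 → Fn)
    (i m a b : Fin 4), i ≠ m → Oth i m a b → ∀ M, Rep i I (F i) M → (∀ p ∈ W, av p (F m) ≤ 1) →
    ∀ X Y : Fn, (∀ p ∈ W, av p X ≤ 1) → (∀ p ∈ W, av p Y ≤ 1) →
      ‖∑ p ∈ W, v4 bb ε F a b X Y p‖ ≤ K * M * len I := by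
  obtain ⟨K, hK, hq⟩ := abs_qb
  refine ⟨K, hK, ?_⟩
  intro bb ε hA W I hW F i m a b him hO M hrep hm X Y hX hY
  set F' := Function.update (Function.update F a X) b Y with hF'
  have hFi : F' i = F i := by
    rw [hF', Function.update_of_ne hO.bi.symm, Function.update_of_ne hO.ai.symm]
  have hav : ∀ j, j ≠ i → ∀ p ∈ W, av p (F' j) ≤ 1 := by
    intro j hj p hp
    by_cases hb : j = b
    · subst hb
      rw [hF', Function.update_self]
      exact hY p hp
    by_cases ha : j = a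
    · subst ha
      rw [hF', Function.update_of_ne hb, Function.update_self]
      exact hX p hp
    · rw [hF', Function.update_of_ne hb, Function.update_of_ne ha]
      have hjm : j = m := oth_eq him hO hj ha hb
      rw [hjm]
      exact hm p hp
  set A : Fin 4 → ℝ := fun j => if j = i then ∑ p ∈ W, av p (F' i) else 1 with hA'
  have hA0 : ∀ j, 0 ≤ A j := by
    intro j
    simp only [hA']
    split_ifs
    · exact Finset.sum_nonneg fun p _ => Growth.av_nonneg p _
    · norm_num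
  have hq' := hq bb hA.1 W I hW.reg F' A hA0 (fun j p hp => by
    simp only [hA']
    split_ifs with h
    · rw [h]
      exact Finset.single_le_sum (f := fun p => av p (F' i))
        (fun p _ => Growth.av_nonneg p _) hp
    · exact hav j h p hp) i M (by rw [hFi]; exact hrep)
  have hprod : ∏ j : Fin 3, A (i.succAbove j) = 1 := by
    refine Finset.prod_eq_one fun j _ => ?_
    simp only [hA', if_neg (Fin.succAbove_ne i j)]
  rw [hprod, mul_one] at hq'
  refine le_trans ?_ hq'
  refine (norm_sum_le _ _).trans (Finset.sum_le_sum fun p _ => ?_)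
  unfold v4 TI
  refine (norm_sum_le _ _).trans (Finset.sum_le_sum fun x _ => ?_)
  rw [norm_mul]
  exact mul_le_of_le_one_left (norm_nonneg _) (hA.2 _ _)

/-! ### the truncated splitting -/

open Classical in
/-- the letter of the truncated splitting: `A w` on the tops of index `≤ n`, `B` on the last ones -/
noncomputable def tl (T : Finset Nd) (n : ℕ) (A : Nd → Fn) (B : Fn) (w : Nd) : Fn :=
  if idx T w ≤ n then A w else B

lemma tl_le {n : ℕ} {A : Nd → Fn} {B : Fn} {w : Nd} (h : idx T w ≤ n) : tl T n A B w = A w := by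
  unfold tl
  rw [if_pos h]

lemma tl_gt {n : ℕ} {A : Nd → Fn} {B : Fn} {w : Nd} (h : ¬ idx T w ≤ n) : tl T n A B w = B := by
  unfold tl
  rw [if_neg h]

/-- the last windows, summed -/
lemma last_sum (hR : Full R J) (hT : Tops R J T) (n : ℕ) {M : ℝ} (hM0 : 0 ≤ M) {f : Nd → ℂ}
    (hM : ∀ W I, Full W I → W ⊆ R → ‖∑ p ∈ W, f p‖ ≤ M * len I) :
    ‖∑ w ∈ T.filter (fun w => idx T w = n + 1), ∑ p ∈ win R (trunc T n) w, f p‖ ≤
      M * ((∑ w ∈ T, len w) / (n + 1)) := by
  have hT' := tops_trunc hR hT n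
  have h1 : ‖∑ w ∈ T.filter (fun w => idx T w = n + 1), ∑ p ∈ win R (trunc T n) w, f p‖ ≤
      ∑ w ∈ T.filter (fun w => idx T w = n + 1), M * len w := by
    refine (norm_sum_le _ _).trans (Finset.sum_le_sum fun w hw => ?_)
    rw [Finset.mem_filter] at hw
    exact hM _ w (win_full hR hT' (mem_trunc.2 ⟨hw.1, hw.2.le⟩)) win_sub
  refine h1.trans ?_
  rw [← Finset.mul_sum]
  refine mul_le_mul_of_nonneg_left ?_ hM0
  have h2 := sum_last hR hT n
  have hn : (0 : ℝ) < (n : ℝ) + 1 := by positivity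
  rw [le_div_iff₀ hn, mul_comm]
  exact h2

/-- a word of the truncated splitting -/
lemma word_trunc (hR : Full R J) (hT : Tops R J T) (n : ℕ) {M : ℝ} (hM0 : 0 ≤ M)
    (g : Nd → Nd → ℂ) {f : Nd → ℂ} (hM : ∀ W I, Full W I → W ⊆ R → ‖∑ p ∈ W, f p‖ ≤ M * len I)
    (h : Nd → Nd → ℂ) (hle : ∀ w, idx T w ≤ n → ∀ p, h w p = g w p)
    (hgt : ∀ w, ¬ idx T w ≤ n → ∀ p, h w p = f p) :
    ‖∑ w ∈ trunc T n, ∑ p ∈ win R (trunc T n) w, h w p‖ ≤
      ‖∑ w ∈ T.filter (fun w => idx T w ≤ n), ∑ p ∈ win R T w, g w p‖ +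
        M * ((∑ w ∈ T, len w) / (n + 1)) := by
  rw [sum_split]
  refine (norm_add_le _ _).trans (add_le_add (le_of_eq ?_) ?_)
  · congr 1
    refine Finset.sum_congr rfl fun w hw => ?_
    rw [Finset.mem_filter] at hw
    rw [win_trunc hw.1 hw.2]
    exact Finset.sum_congr rfl fun p _ => hle w hw.2 p
  · refine le_trans (le_of_eq ?_) (last_sum hR hT n hM0 hM)
    congr 1
    refine Finset.sum_congr rfl fun w hw => Finset.sum_congr rfl fun p _ => ?_
    rw [Finset.mem_filter] at hw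
    exact hgt w (by omega) p

/-- **THE TRUNCATED SPLITTING**: data only on the windows of index `≤ n` -/
theorem split_trunc {v : Fn → Fn → Nd → ℂ} (hR : Full R J) (hT : Tops R J T) (n : ℕ) {X Y : Fn}
    {G E G' E' : Nd → Fn} {r0 M : ℝ} (hr0 : 0 ≤ r0) (hM0 : 0 ≤ M)
    (hX : ∀ w ∈ T, idx T w ≤ n → ∀ y ∈ iv w, X y = G w y + E w y)
    (hY : ∀ w ∈ T, idx T w ≤ n → ∀ y ∈ iv w, Y y = G' w y + E' w y)
    (hs : ∀ w ∈ T, idx T w ≤ n → ∀ p ∈ win R T w, av p (E w) ≤ r0 ∧ av p (E' w) ≤ r0)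
    (hM : ∀ W I, Full W I → W ⊆ R → ‖∑ p ∈ W, v X Y p‖ ≤ M * len I) :
    ∃ (T1 : Finset Nd) (G1 E1 G1' E1' : Nd → Fn), Tops R J T1 ∧ T1 ⊆ T ∧
      (∀ w ∈ T1, ∀ y ∈ iv w, X y = G1 w y + E1 w y) ∧
      (∀ w ∈ T1, ∀ y ∈ iv w, Y y = G1' w y + E1' w y) ∧
      (∀ w ∈ T1, ∀ p ∈ win R T1 w, av p (E1 w) ≤ r0 ∧ av p (E1' w) ≤ r0) ∧
      ∑ w ∈ T1, len w * en w (E1 w) (E1' w) ≤
        ∑ w ∈ T.filter (fun w => idx T w ≤ n), len w * en w (E w) (E' w) ∧
      ‖∑ w ∈ T1, ∑ p ∈ win R T1 w, v (G1 w) Y p‖ ≤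
        ‖∑ w ∈ T.filter (fun w => idx T w ≤ n), ∑ p ∈ win R T w, v (G w) Y p‖ +
          M * ((∑ w ∈ T, len w) / (n + 1)) ∧
      ‖∑ w ∈ T1, ∑ p ∈ win R T1 w, v X (G1' w) p‖ ≤
        ‖∑ w ∈ T.filter (fun w => idx T w ≤ n), ∑ p ∈ win R T w, v X (G' w) p‖ +
          M * ((∑ w ∈ T, len w) / (n + 1)) ∧
      ‖∑ w ∈ T1, ∑ p ∈ win R T1 w, v (G1 w) (G1' w) p‖ ≤
        ‖∑ w ∈ T.filter (fun w => idx T w ≤ n), ∑ p ∈ win R T w, v (G w) (G' w) p‖ +
          M * ((∑ w ∈ T, len w) / (n + 1)) := by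
  classical
  have av0 : ∀ p, av p (fun _ : ℤ => (0 : ℂ)) = 0 := by
    intro p
    unfold av av2
    simp
  refine ⟨trunc T n, tl T n G X, tl T n E (fun _ => 0), tl T n G' Y, tl T n E' (fun _ => 0),
    tops_trunc hR hT n, fun w hw => (mem_trunc.1 hw).1, ?_, ?_, ?_, ?_, ?_, ?_, ?_⟩
  · intro w hw y hy
    by_cases h : idx T w ≤ n
    · rw [tl_le h, tl_le h]
      exact hX w (mem_trunc.1 hw).1 h y hy
    · rw [tl_gt h, tl_gt h, add_zero]
  · intro w hw y hy
    by_cases h : idx T w ≤ n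
    · rw [tl_le h, tl_le h]
      exact hY w (mem_trunc.1 hw).1 h y hy
    · rw [tl_gt h, tl_gt h, add_zero]
  · intro w hw p hp
    by_cases h : idx T w ≤ n
    · rw [tl_le h, tl_le h]
      rw [win_trunc (mem_trunc.1 hw).1 h] at hp
      exact hs w (mem_trunc.1 hw).1 h p hp
    · rw [tl_gt h, tl_gt h, av0]
      exact ⟨hr0, hr0⟩
  · rw [sum_split]
    have h1 : ∑ w ∈ T.filter (fun w => idx T w = n + 1),
        len w * en w (tl T n E (fun _ => 0) w) (tl T n E' (fun _ => 0) w) = 0 := by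
      refine Finset.sum_eq_zero fun w hw => ?_
      rw [Finset.mem_filter] at hw
      have h : ¬ idx T w ≤ n := by omega
      unfold en
      rw [tl_gt h, tl_gt h, av0]
      simp
    rw [h1, add_zero]
    refine le_of_eq (Finset.sum_congr rfl fun w hw => ?_)
    rw [Finset.mem_filter] at hw
    rw [tl_le hw.2, tl_le hw.2]
  · exact word_trunc hR hT n hM0 (fun w p => v (G w) Y p) hM
      (fun w p => v (tl T n G X w) Y p) (fun w h p => by simp only [tl_le h])
      (fun w h p => by simp only [tl_gt h])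
  · exact word_trunc hR hT n hM0 (fun w p => v X (G' w) p) hM
      (fun w p => v X (tl T n G' Y w) p) (fun w h p => by simp only [tl_le h])
      (fun w h p => by simp only [tl_gt h])
  · exact word_trunc hR hT n hM0 (fun w p => v (G w) (G' w) p) hM
      (fun w p => v (tl T n G X w) (tl T n G' Y w) p) (fun w h p => by simp only [tl_le h])
      (fun w h p => by simp only [tl_gt h])

end Crest.Agent.R079.Tailx726
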