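import Crest.Agent.R079.GAd_263
import Crest.Agent.R079.Tail_726
import Crest.Agent.R079.WinB_222

/-! R079, Step I (helper263): ONE GENERATION, bookkeeping between the tree lemma and `GnM_45.SpM`.

Letters `Z 0 = X`, `Z 1 = Y` with near-minimisers `f c`, label ranges `Rg K` (deep exits, frames), windows
`W K` (actual exits), frame letters `Psi c K`, error letters `err c K = Z c - gl (Rg K) (f c) - Psi c K`.
`G c K = gl (W K) (f c) + Psi c K`, `E c K = Z c - G c K = err c K + (gl (Rg K) (f c) - gl (W K) (f c))`.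

* `TreeO` : output of the tree lemma (HW_323 / HN_255);
* **`spM_data`** : tree output + error letters + word totals over the windows of index `≤ n` give the
  data of `SpM` for one region. -/

set_option autoImplicit false

namespace Crest.Agent.R079.GnSx263

open Finset Crest.Agent.R079.Grid Crest.Agent.R079.Growth Crest.Agent.R079.QRed
  Crest.Agent.R079.TWin
open Crest.Agent.R079.RelW653 (vl NMP Jv Dv)
open Crest.Agent.R079.RelV653 Crest.Agent.R079.HWx323 Crest.Agent.R079.Chn110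
open Crest.Agent.R079.TRec Crest.Agent.R079.Tailx726 Crest.Agent.R079.Stk Crest.Agent.R079.AsmA844
open Crest.Agent.R079.GnMx45 (en en_nonneg)
open Crest.Agent.R079.FLDx263

/-- output of the tree lemma -/
structure TreeO (R : Finset Nd) (J : Nd) (D : Nd → ℝ) (dev : Nd → Nd → ℝ) (μ ω Ct : ℝ)
    (S : Finset Nd) (W Rg : Nd → Finset Nd) (dlt : Nd → ℝ) (Er : Nd → Nd → ℝ) : Prop where
  part : ∃ C, Part R S W C
  full : ∀ K ∈ S, Full (Rg K) K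
  sub : ∀ K ∈ S, W K ⊆ Rg K
  good : ∀ K ∈ S, ∀ p ∈ Rg K, gs D dev K p ≤ μ
  err : ∀ K ∈ S, ∀ p ∈ W K, Er K p ≤ ω * μ
  cnt : ∑ K ∈ S, len K ≤ Ct * (len J / μ + dr R D J / μ ^ 2)
  ene : ∑ K ∈ S, (∑ q ∈ Rg K \ lf (Rg K), len q * D q + μ * dlt K) ≤
    Ct * (dr R D J + μ * len J)

section

variable {R : Finset Nd} {J : Nd} {c : Fin 2 → ℝ} {Kw : Fin 2 → Nd → Fn → Prop}
  {Φ : Fin 2 → Nd → Fn → ℝ} {Z : Fin 2 → Fn} {η : ℝ} {f : Fin 2 → Nd → Fn}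
  {μ ω Ct Λ : ℝ} {S : Finset Nd} {W Rg : Nd → Finset Nd} {dlt : Nd → ℝ} {Er : Nd → Nd → ℝ}
  {Psi : Fin 2 → Nd → Fn}

/-- the killed letter of the window -/
noncomputable def Gk (f : Fin 2 → Nd → Fn) (W : Nd → Finset Nd) (Psi : Fin 2 → Nd → Fn)
    (c : Fin 2) (K : Nd) : Fn := fun y => gl (W K) (f c) y + Psi c K y

/-- the rest -/
noncomputable def Ek (Z : Fin 2 → Fn) (f : Fin 2 → Nd → Fn) (W : Nd → Finset Nd)
    (Psi : Fin 2 → Nd → Fn) (c : Fin 2) (K : Nd) : Fn := fun y => Z c y - Gk f W Psi c K y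

/-- error letter of the frames -/
noncomputable def ek (Z : Fin 2 → Fn) (f : Fin 2 → Nd → Fn) (Rg : Nd → Finset Nd)
    (Psi : Fin 2 → Nd → Fn) (c : Fin 2) (K : Nd) : Fn :=
  fun y => Z c y - gl (Rg K) (f c) y - Psi c K y

lemma Ek_two (Z : Fin 2 → Fn) (f : Fin 2 → Nd → Fn) (W Rg : Nd → Finset Nd)
    (Psi : Fin 2 → Nd → Fn) (c : Fin 2) (K p : Nd) :
    av p (Ek Z f W Psi c K) ^ 2 ≤ 2 * av p (ek Z f Rg Psi c K) ^ 2 +
      2 * av p (fun y => gl (W K) (f c) y - gl (Rg K) (f c) y) ^ 2 := by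
  have h := av_two p (fun y => Z c y - Psi c K y) (gl (W K) (f c)) (gl (Rg K) (f c))
  have e1 : av p (fun y => (Z c y - Psi c K y) - gl (W K) (f c) y) = av p (Ek Z f W Psi c K) := by
    congr 1
    funext y
    unfold Ek Gk
    ring
  have e2 : av p (fun y => gl (Rg K) (f c) y - (Z c y - Psi c K y)) =
      av p (ek Z f Rg Psi c K) := by
    have e3 : (fun y => gl (Rg K) (f c) y - (Z c y - Psi c K y)) =
        fun y => -(ek Z f Rg Psi c K y) := by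
      funext y
      unfold ek
      ring
    rw [e3]
    unfold av av2
    simp only [norm_neg]
  have e4 : av p (fun y => gl (Rg K) (f c) y - gl (W K) (f c) y) =
      av p (fun y => gl (W K) (f c) y - gl (Rg K) (f c) y) := by
    unfold av av2
    simp only [norm_sub_rev]
  rw [e1, e2, e4] at h
  exact h

/-- **THE DATA OF `SpM` for one region** -/
theorem spM_data {v : Fn → Fn → Nd → ℂ} (hR : Full R J)
    (hP : ∀ c', PenC (c c') (Kw c') (Φ c')) (hf : ∀ c', NMP (Kw c') (Φ c') (Z c') η (f c'))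
    (hT : TreeO R J (DF Φ Z f η) (dvF f) μ ω Ct S W Rg dlt Er)
    (hμ : 0 < μ) (hμ1 : μ ≤ 1) (hCt : 0 ≤ Ct) (hΛ : 0 ≤ Λ)
    (hEr : ∀ K ∈ S, ∀ p ∈ W K, ∑ c', av p (ek Z f Rg Psi c' K) ^ 2 ≤ Er K p)
    {η' : ℝ} (hη' : 0 ≤ η') (hη3 : η' ≤ μ ^ 3)
    (htop : ∀ K ∈ S, len K * Er K K ≤
      Λ * (∑ q ∈ Rg K \ lf (Rg K), len q * DF Φ Z f η q + μ * dlt K + η' * len K))
    (hdlt : ∀ K ∈ S, 0 ≤ dlt K)
    (hdr : dr R (DF Φ Z f η) J ≤ (μ + en J (Z 0) (Z 1)) * len J)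
    {n : ℕ} {κ1 M : ℝ} (hM0 : 0 ≤ M)
    (hM : ∀ W I, Full W I → W ⊆ R → ‖∑ p ∈ W, v (Z 0) (Z 1) p‖ ≤ M * len I)
    (w1 : ‖∑ w ∈ S.filter (fun w => idx S w ≤ n), ∑ p ∈ W w, v (Gk f W Psi 0 w) (Z 1) p‖ ≤
      κ1 * (μ + en J (Z 0) (Z 1)) * len J)
    (w2 : ‖∑ w ∈ S.filter (fun w => idx S w ≤ n), ∑ p ∈ W w, v (Z 0) (Gk f W Psi 1 w) p‖ ≤
      κ1 * (μ + en J (Z 0) (Z 1)) * len J)
    (w3 : ‖∑ w ∈ S.filter (fun w => idx S w ≤ n), ∑ p ∈ W w,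
      v (Gk f W Psi 0 w) (Gk f W Psi 1 w) p‖ ≤ κ1 * (μ + en J (Z 0) (Z 1)) * len J) :
    ∃ (T : Finset Nd) (G E G' E' : Nd → Fn), Tops R J T ∧
      (∀ w ∈ T, ∀ y ∈ iv w, Z 0 y = G w y + E w y) ∧
      (∀ w ∈ T, ∀ y ∈ iv w, Z 1 y = G' w y + E' w y) ∧
      (∀ w ∈ T, ∀ p ∈ win R T w, av p (E w) ≤ √((2 * ω + 16) * μ) ∧
        av p (E' w) ≤ √((2 * ω + 16) * μ)) ∧
      ∑ w ∈ T, len w ≤ (2 * Ct / μ + Ct / μ ^ 2 * en J (Z 0) (Z 1)) * len J ∧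
      ∑ w ∈ T, len w * en w (E w) (E' w) ≤
        (Ct * (8 * Λ + 32)) * (μ + en J (Z 0) (Z 1)) * len J ∧
      ‖∑ w ∈ T, ∑ p ∈ win R T w, v (G w) (Z 1) p‖ ≤
        (κ1 + 2 * M * Ct / (μ ^ 2 * (n + 1))) * (μ + en J (Z 0) (Z 1)) * len J ∧
      ‖∑ w ∈ T, ∑ p ∈ win R T w, v (Z 0) (G' w) p‖ ≤
        (κ1 + 2 * M * Ct / (μ ^ 2 * (n + 1))) * (μ + en J (Z 0) (Z 1)) * len J ∧
      ‖∑ w ∈ T, ∑ p ∈ win R T w, v (G w) (G' w) p‖ ≤
        (κ1 + 2 * M * Ct / (μ ^ 2 * (n + 1))) * (μ + en J (Z 0) (Z 1)) * len J := by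
  classical
  obtain ⟨C, hPt⟩ := hT.part
  have hTo : Tops R J S := Crest.Agent.R079.WinA222.tops_of_part hR hPt
  have hlJ : 0 ≤ len J := (Growth.len_pos J).le
  set e0 : ℝ := en J (Z 0) (Z 1) with he0
  have hen : 0 ≤ e0 := en_nonneg _ _ _
  have hD0 : ∀ q, 0 ≤ DF Φ Z f η q := DF_nonneg hP hf
  set rK : Nd → ℝ := fun K => ∑ q ∈ Rg K \ lf (Rg K), len q * DF Φ Z f η q with hrK
  have hrK0 : ∀ K, 0 ≤ rK K := fun K =>
    Finset.sum_nonneg fun q _ => mul_nonneg (Growth.len_pos q).le (hD0 q)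
  -- sizes
  have hsz : ∀ K ∈ S, ∀ p ∈ W K, ∀ c', av p (Ek Z f W Psi c' K) ≤ √((2 * ω + 16) * μ) := by
    intro K hK p hp c'
    have h1 := Ek_two Z f W Rg Psi c' K p
    have h2 : av p (ek Z f Rg Psi c' K) ^ 2 ≤ ω * μ := by
      have h3 : av p (ek Z f Rg Psi c' K) ^ 2 ≤ ∑ c'', av p (ek Z f Rg Psi c'' K) ^ 2 :=
        Finset.single_le_sum (f := fun c'' => av p (ek Z f Rg Psi c'' K) ^ 2)
          (fun _ _ => sq_nonneg _) (Finset.mem_univ c')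
      exact h3.trans ((hEr K hK p hp).trans (hT.err K hK p hp))
    have h4 := gl_gl (hP c') (hf c') (hT.full K hK) (hPt.full K hK) (hT.sub K hK)
      (gdP_of_gs hP hf (hT.good K hK) c') hp
    refine Real.le_sqrt_of_sq_le (h1.trans ?_)
    linarith
  -- energy of one window
  have hen1 : ∀ K ∈ S, len K * en K (Ek Z f W Psi 0 K) (Ek Z f W Psi 1 K) ≤
      (2 * Λ + 16) * (rK K + μ * dlt K) + 2 * Λ * η' * len K := by
    intro K hK
    have hKK : K ∈ W K := (hPt.full K hK).top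
    have h1 : ∀ c', len K * av K (Ek Z f W Psi c' K) ^ 2 ≤
        2 * (len K * av K (ek Z f Rg Psi c' K) ^ 2) +
          16 * ∑ q ∈ Rg K \ lf (Rg K), len q * DP (Jv (Φ c') (Z c') (f c')) η q := by
      intro c'
      have h2 := mul_le_mul_of_nonneg_left (Ek_two Z f W Rg Psi c' K K) (Growth.len_pos K).le
      have h3 := gl_gl_top (hP c') (hf c') (hT.full K hK) (hPt.full K hK) (hT.sub K hK)
      linarith
    have h4 : len K * en K (Ek Z f W Psi 0 K) (Ek Z f W Psi 1 K) =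
        ∑ c', len K * av K (Ek Z f W Psi c' K) ^ 2 := by
      rw [Fin.sum_univ_two]
      unfold en
      ring
    have h5 : ∑ c', 16 * ∑ q ∈ Rg K \ lf (Rg K), len q * DP (Jv (Φ c') (Z c') (f c')) η q =
        16 * rK K := by
      rw [← Finset.mul_sum, Finset.sum_comm]
      congr 1
      refine Finset.sum_congr rfl fun q _ => ?_
      rw [← Finset.mul_sum]
      rfl
    have h6 : ∑ c', 2 * (len K * av K (ek Z f Rg Psi c' K) ^ 2) ≤ 2 * (len K * Er K K) := by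
      rw [← Finset.mul_sum, ← Finset.mul_sum]
      exact mul_le_mul_of_nonneg_left (mul_le_mul_of_nonneg_left (hEr K hK K hKK)
        (Growth.len_pos K).le) (by norm_num)
    have h7 := htop K hK
    have h8 := Finset.sum_le_sum fun c' (_ : c' ∈ (Finset.univ : Finset (Fin 2))) => h1 c'
    rw [Finset.sum_add_distrib, h5] at h8
    rw [h4]
    have h9 : 0 ≤ μ * dlt K := mul_nonneg hμ.le (hdlt K hK)
    have h10 := hrK0 K
    have h7' : len K * Er K K ≤ Λ * (rK K + μ * dlt K + η' * len K) := h7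
    nlinarith [h8, h6, h7']
  -- count
  have hcnt : ∑ w ∈ S, len w ≤ (2 * Ct / μ + Ct / μ ^ 2 * e0) * len J := by
    refine hT.cnt.trans ?_
    have h1 : dr R (DF Φ Z f η) J / μ ^ 2 ≤ (μ + e0) * len J / μ ^ 2 :=
      div_le_div_of_nonneg_right hdr (by positivity)
    have h2 := mul_le_mul_of_nonneg_left (add_le_add (le_refl (len J / μ)) h1) hCt
    refine h2.trans (le_of_eq ?_)
    field_simp
    ring
  have hcnt0 : ∀ T ⊆ S, ∑ w ∈ T, len w ≤ ∑ w ∈ S, len w := fun T hTS =>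
    Finset.sum_le_sum_of_subset_of_nonneg hTS fun q _ _ => (Growth.len_pos q).le
  -- total energy
  have hene : ∑ K ∈ S, len K * en K (Ek Z f W Psi 0 K) (Ek Z f W Psi 1 K) ≤
      (Ct * (8 * Λ + 32)) * (μ + e0) * len J := by
    refine (Finset.sum_le_sum hen1).trans ?_
    rw [Finset.sum_add_distrib, ← Finset.mul_sum, ← Finset.mul_sum]
    have h1 : ∑ K ∈ S, (rK K + μ * dlt K) ≤ Ct * ((μ + e0) * len J + μ * len J) :=
      hT.ene.trans (mul_le_mul_of_nonneg_left (add_le_add hdr le_rfl) hCt)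
    have h2 := mul_le_mul_of_nonneg_left h1 (show 0 ≤ 2 * Λ + 16 by linarith)
    have h3 := mul_le_mul_of_nonneg_left hcnt (show 0 ≤ 2 * Λ * η' by positivity)
    have h4 : η' * (2 * Ct / μ + Ct / μ ^ 2 * e0) ≤ Ct * (2 * μ + e0) := by
      have h5 : η' * (2 * Ct / μ + Ct / μ ^ 2 * e0) ≤
          μ ^ 3 * (2 * Ct / μ + Ct / μ ^ 2 * e0) :=
        mul_le_mul_of_nonneg_right hη3 (by positivity)
      have h6 : μ ^ 3 * (2 * Ct / μ + Ct / μ ^ 2 * e0) = Ct * (2 * μ ^ 2 + μ * e0) := by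
        field_simp
      rw [h6] at h5
      refine h5.trans (mul_le_mul_of_nonneg_left ?_ hCt)
      nlinarith [mul_nonneg hμ.le (show 0 ≤ 1 - μ by linarith),
        mul_nonneg hen (show 0 ≤ 1 - μ by linarith)]
    have h7 := mul_le_mul_of_nonneg_left (mul_le_mul_of_nonneg_right h4 hlJ)
      (show 0 ≤ 2 * Λ by positivity)
    have h8 : 0 ≤ Ct * e0 * len J := by positivity
    have h9 : 0 ≤ Ct * μ * len J := by positivity
    have h10 : 0 ≤ Ct * Λ * e0 * len J := by positivity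
    have h11 : 0 ≤ Ct * Λ * μ * len J := by positivity
    nlinarith [h2, h3, h7, h8, h9, h10, h11]
  -- truncation
  obtain ⟨T1, G1, E1, G1', E1', hTo1, hT1S, hX, hY, hs, he, u1, u2, u3⟩ :=
    split_trunc (v := v) hR hTo n (X := Z 0) (Y := Z 1) (G := Gk f W Psi 0) (E := Ek Z f W Psi 0)
      (G' := Gk f W Psi 1) (E' := Ek Z f W Psi 1) (r0 := √((2 * ω + 16) * μ)) (M := M)
      (Real.sqrt_nonneg _) hM0 (fun w _ _ y _ => by unfold Ek; ring)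
      (fun w _ _ y _ => by unfold Ek; ring)
      (fun w hw _ p hp => by
        rw [win_of_part hPt hw] at hp
        exact ⟨hsz w hw p hp 0, hsz w hw p hp 1⟩) hM
  have hsubn : S.filter (fun w => idx S w ≤ n) ⊆ S := Finset.filter_subset _ _
  have hlast : M * ((∑ w ∈ S, len w) / (n + 1)) ≤
      2 * M * Ct / (μ ^ 2 * (n + 1)) * (μ + e0) * len J := by
    have hn : (0 : ℝ) < (n : ℝ) + 1 := by positivity
    have h1 : (∑ w ∈ S, len w) / ((n : ℝ) + 1) ≤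
        (2 * Ct / μ + Ct / μ ^ 2 * e0) * len J / (n + 1) :=
      div_le_div_of_nonneg_right hcnt hn.le
    refine (mul_le_mul_of_nonneg_left h1 hM0).trans ?_
    have h2 : 2 * Ct / μ + Ct / μ ^ 2 * e0 ≤ 2 * Ct / μ ^ 2 * (μ + e0) := by
      have h3 : 2 * Ct / μ ^ 2 * (μ + e0) = 2 * Ct / μ + 2 * (Ct / μ ^ 2 * e0) := by
        field_simp
      have h4 : 0 ≤ Ct / μ ^ 2 * e0 := by positivity
      linarith
    have h5 : M * ((2 * Ct / μ + Ct / μ ^ 2 * e0) * len J / (n + 1)) ≤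
        M * (2 * Ct / μ ^ 2 * (μ + e0) * len J / (n + 1)) :=
      mul_le_mul_of_nonneg_left (div_le_div_of_nonneg_right
        (mul_le_mul_of_nonneg_right h2 hlJ) hn.le) hM0
    refine h5.trans (le_of_eq ?_)
    field_simp
  have hword : ∀ {g : Nd → Nd → ℂ},
      ‖∑ w ∈ S.filter (fun w => idx S w ≤ n), ∑ p ∈ W w, g w p‖ ≤ κ1 * (μ + e0) * len J →
      ‖∑ w ∈ S.filter (fun w => idx S w ≤ n), ∑ p ∈ win R S w, g w p‖ +
        M * ((∑ w ∈ S, len w) / (n + 1)) ≤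
      (κ1 + 2 * M * Ct / (μ ^ 2 * (n + 1))) * (μ + e0) * len J := by
    intro g hg
    have e1 : ∑ w ∈ S.filter (fun w => idx S w ≤ n), ∑ p ∈ win R S w, g w p =
        ∑ w ∈ S.filter (fun w => idx S w ≤ n), ∑ p ∈ W w, g w p := by
      refine Finset.sum_congr rfl fun w hw => ?_
      rw [win_of_part hPt (hsubn hw)]
    rw [e1]
    have := add_le_add hg hlast
    refine this.trans (le_of_eq ?_)
    ring
  refine ⟨T1, G1, E1, G1', E1', hTo1, hX, hY, hs, (hcnt0 T1 hT1S).trans hcnt, ?_,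
    u1.trans (hword w1), u2.trans (hword w2), u3.trans (hword w3)⟩
  refine he.trans (le_trans ?_ hene)
  exact Finset.sum_le_sum_of_subset_of_nonneg hsubn fun q _ _ =>
    mul_nonneg (Growth.len_pos q).le (en_nonneg _ _ _)

/-- **all data of one generation for the region `R`, top `J`, letters `X`, `Y`** -/
def GenD (v : Fn → Fn → Nd → ℂ) (R : Finset Nd) (J : Nd) (X Y : Fn) (μ ω Ct Λ κ1 M : ℝ) (n : ℕ) :
    Prop :=
  ∃ (c : Fin 2 → ℝ) (Kw : Fin 2 → Nd → Fn → Prop) (Φ : Fin 2 → Nd → Fn → ℝ) (Z : Fin 2 → Fn)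
    (η : ℝ) (f : Fin 2 → Nd → Fn) (S : Finset Nd) (W Rg : Nd → Finset Nd) (dlt : Nd → ℝ)
    (Er : Nd → Nd → ℝ) (Psi : Fin 2 → Nd → Fn) (η' : ℝ), Z 0 = X ∧ Z 1 = Y ∧
    (∀ c', PenC (c c') (Kw c') (Φ c')) ∧ (∀ c', NMP (Kw c') (Φ c') (Z c') η (f c')) ∧
    TreeO R J (DF Φ Z f η) (dvF f) μ ω Ct S W Rg dlt Er ∧
    (∀ K ∈ S, ∀ p ∈ W K, ∑ c', av p (ek Z f Rg Psi c' K) ^ 2 ≤ Er K p) ∧
    0 ≤ η' ∧ η' ≤ μ ^ 3 ∧
    (∀ K ∈ S, len K * Er K K ≤
      Λ * (∑ q ∈ Rg K \ lf (Rg K), len q * DF Φ Z f η q + μ * dlt K + η' * len K)) ∧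
    (∀ K ∈ S, 0 ≤ dlt K) ∧ dr R (DF Φ Z f η) J ≤ (μ + en J X Y) * len J ∧
    (∀ W I, Full W I → W ⊆ R → ‖∑ p ∈ W, v X Y p‖ ≤ M * len I) ∧
    ‖∑ w ∈ S.filter (fun w => idx S w ≤ n), ∑ p ∈ W w, v (Gk f W Psi 0 w) Y p‖ ≤
      κ1 * (μ + en J X Y) * len J ∧
    ‖∑ w ∈ S.filter (fun w => idx S w ≤ n), ∑ p ∈ W w, v X (Gk f W Psi 1 w) p‖ ≤
      κ1 * (μ + en J X Y) * len J ∧
    ‖∑ w ∈ S.filter (fun w => idx S w ≤ n), ∑ p ∈ W w,
      v (Gk f W Psi 0 w) (Gk f W Psi 1 w) p‖ ≤ κ1 * (μ + en J X Y) * len J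

/-- **`SpM` from the data of one generation** -/
theorem spM_of_genD {v : Fn → Fn → Nd → ℂ} {k : ℝ} {R0 : Finset Nd} {μ ω Ct Λ κ1 M : ℝ} {n : ℕ}
    (hμ : 0 < μ) (hμ1 : μ ≤ 1) (hCt : 0 ≤ Ct) (hΛ : 0 ≤ Λ) (hM0 : 0 ≤ M)
    (h : ∀ R J, Full R J → R ⊆ R0 → ∀ X Y, Sm k 1 R X Y → GenD v R J X Y μ ω Ct Λ κ1 M n) :
    GnMx45.SpM v k R0 μ (κ1 + 2 * M * Ct / (μ ^ 2 * (n + 1))) (2 * Ct / μ) (Ct / μ ^ 2)
      (Ct * (8 * Λ + 32)) √((2 * ω + 16) * μ) := by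
  intro R J hR hRR X Y hXY
  obtain ⟨c, Kw, Φ, Z, η, f, S, W, Rg, dlt, Er, Psi, η', rfl, rfl, hP, hf, hT, hEr, h1, h2, h3,
    h4, h5, h6, w1, w2, w3⟩ := h R J hR hRR X Y hXY
  exact spM_data hR hP hf hT hμ hμ1 hCt hΛ hEr h1 h2 h3 h4 h5 hM0 h6 w1 w2 w3

end

end Crest.Agent.R079.GnSx263
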