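import Crest.Agent.R079.HWb_323

/-! R079, notes 1119 (helper55) + 1128 (helper323): THE TREE LEMMA of the windows with holes
(helper323).

Every window `K` has ONE exit depth `dp K`; its range `rg K (dp K)` has pointwise `dev + acc ≤ μ s`,
average drift `≤ μ² s`, dead exits of total length `≤ μ len K`; the node set is cut by the look-ahead
quantity `E K (dp K) p ≤ ω μ s`.  Number of windows `≤ 4 / μ * len J + 16 / (μ² s) * drift`;
energies `∑ (rd + μ s dl) ≤ 16 (drift + μ s len J)`. -/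

set_option autoImplicit false

namespace Crest.Agent.R079.HWx323

open Finset Crest.Agent.R079.Grid Crest.Agent.R079.Growth Crest.Agent.R079.QRed
  Crest.Agent.R079.TWin Crest.Agent.R079.Qe292 Crest.Agent.R079.Qh249
  Crest.Agent.R079.GLA110 Crest.Agent.R079.Chn110

/-- property of a window with holes -/
def Gt (R : Finset Nd) (V : Nd → Finset Nd) (D : Nd → ℝ) (dev : Nd → Nd → ℝ) (E : Nd → ℕ → Nd → ℝ)
    (μ s ω : ℝ) (K : Nd) (W : Finset Nd) (_ d : ℕ) : Prop :=
  d ≤ K.1 ∧ W = Wd (rg V D dev (μ * s) K d) (fun _ p => E K d p) (ω * μ * s) K ∧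
    rd V D dev (μ * s) K d ≤ μ ^ 2 * s * len K ∧ dl R V D dev (μ * s) K d ≤ μ * len K

/-- look-ahead hypothesis -/
def LA (R : Finset Nd) (V : Nd → Finset Nd) (D : Nd → ℝ) (dev : Nd → Nd → ℝ) (E : Nd → ℕ → Nd → ℝ)
    (μ s Λ : ℝ) : Prop :=
  ∀ K ∈ R, ∀ d ≤ K.1, rd V D dev (μ * s) K d ≤ μ ^ 2 * s * len K →
    dl R V D dev (μ * s) K d ≤ μ * len K →
    ∀ A ⊆ rg V D dev (μ * s) K d, (∀ c ∈ A, ∀ c' ∈ A, c ≠ c' → Disjoint (iv c) (iv c')) →
      ∑ p ∈ A, len p * E K d p ≤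
        Λ * (rd V D dev (μ * s) K d + μ * s * dl R V D dev (μ * s) K d)

variable {R : Finset Nd} {J I : Nd} {D : Nd → ℝ} {dev : Nd → Nd → ℝ} {V : Nd → Finset Nd}
  {E : Nd → ℕ → Nd → ℝ} {μ s Λ ω : ℝ} {W0 : Finset Nd}

lemma ex_rg_eq {d : ℕ} : ex (rg V D dev (μ * s) I d)
    (Wd (rg V D dev (μ * s) I d) (fun _ p => E I d p) (ω * μ * s) I) =
    Tp (rg V D dev (μ * s) I d) (fun _ p => E I d p) (ω * μ * s) I := by
  ext c
  rw [mem_ex, mem_Tp]
  constructor
  · rintro ⟨h1, h2, h3⟩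
    exact ⟨h1, (iv_par c).trans (mem_Wd.1 h3).2.1, h2, h3⟩
  · rintro ⟨h1, _, h2, h3⟩
    exact ⟨h1, h2, h3⟩

/-- **(P1)** length of the look-ahead stops against the look-ahead quantity -/
lemma la_stops (hV : Full (V I) I) (hE0 : ∀ K d p, 0 ≤ E K d p)
    (hLA : LA R V D dev E μ s Λ) (hI : I ∈ R) {d : ℕ} (hd : d ≤ I.1)
    (h1 : rd V D dev (μ * s) I d ≤ μ ^ 2 * s * len I)
    (h2 : dl R V D dev (μ * s) I d ≤ μ * len I) :
    ω * μ * s / 2 * ∑ x ∈ ex (rg V D dev (μ * s) I d)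
      (Wd (rg V D dev (μ * s) I d) (fun _ p => E I d p) (ω * μ * s) I), len x ≤
      Λ * (rd V D dev (μ * s) I d + μ * s * dl R V D dev (μ * s) I d) := by
  have hF := rg_full (D := D) (dev := dev) (τ := μ * s) hV hd
  have hW : Full (Wd (rg V D dev (μ * s) I d) (fun _ p => E I d p) (ω * μ * s) I) I :=
    Wd_full hF hF.top
  refine le_trans ?_ (hLA I hI d hd h1 h2 _ (fun c hc => (mem_ex.1 hc).1)
    fun c hc c' hc' hne => ex_disj_iv hW hc hc' hne)
  rw [ex_rg_eq]
  exact half_sum (hE0 I d) (fun c hc => Tp_sib hF hc) fun c hc => Tp_bad hc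

lemma top_E (hV : Full (V I) I) (hμ : 0 < μ) (hμ8 : μ ≤ 1 / 8) (hs : 0 < s) (hΛ : 1 ≤ Λ)
    (hω : 16 * Λ ≤ ω)
    (hLA : LA R V D dev E μ s Λ) (hI : I ∈ R) {d : ℕ} (hd : d ≤ I.1)
    (h1 : rd V D dev (μ * s) I d ≤ μ ^ 2 * s * len I)
    (h2 : dl R V D dev (μ * s) I d ≤ μ * len I) : E I d I ≤ ω * μ * s := by
  have hF := rg_full (D := D) (dev := dev) (τ := μ * s) hV hd
  have h3 := hLA I hI d hd h1 h2 {I} (Finset.singleton_subset_iff.2 hF.top) (by
    intro c hc c' hc' hne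
    rw [Finset.mem_singleton] at hc hc'
    exact absurd (hc.trans hc'.symm) hne)
  rw [Finset.sum_singleton] at h3
  have hl := Growth.len_pos I
  have h4 : μ * s * dl R V D dev (μ * s) I d ≤ μ * s * (μ * len I) :=
    mul_le_mul_of_nonneg_left h2 (by positivity)
  have h5 : Λ * (rd V D dev (μ * s) I d + μ * s * dl R V D dev (μ * s) I d) ≤
      Λ * (2 * (μ ^ 2 * s * len I)) :=
    mul_le_mul_of_nonneg_left (by nlinarith) (by linarith)
  have h6 : Λ * (2 * (μ ^ 2 * s * len I)) ≤ len I * (ω * μ * s) := by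
    have e1 : Λ * (2 * (μ ^ 2 * s * len I)) = 2 * μ * Λ * (μ * s * len I) := by ring
    have e2 : len I * (ω * μ * s) = ω * (μ * s * len I) := by ring
    rw [e1, e2]
    refine mul_le_mul_of_nonneg_right ?_ (by positivity)
    nlinarith
  exact le_of_mul_le_mul_left (h3.trans (h5.trans h6)) hl

/-- look-ahead stops are short -/
lemma la_short (hV : Full (V I) I) (hμ : 0 < μ) (hs : 0 < s) (hΛ : 1 ≤ Λ)
    (hω : 16 * Λ ≤ ω) (hE0 : ∀ K d p, 0 ≤ E K d p)
    (hLA : LA R V D dev E μ s Λ) (hI : I ∈ R) {d : ℕ} (hd : d ≤ I.1)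
    (h1 : rd V D dev (μ * s) I d ≤ μ ^ 2 * s * len I)
    (h2 : dl R V D dev (μ * s) I d ≤ μ * len I) :
    ∑ x ∈ ex (rg V D dev (μ * s) I d)
      (Wd (rg V D dev (μ * s) I d) (fun _ p => E I d p) (ω * μ * s) I), len x ≤
      μ / 4 * len I := by
  have h3 := la_stops (ω := ω) hV hE0 hLA hI hd h1 h2
  set L := ∑ x ∈ ex (rg V D dev (μ * s) I d)
      (Wd (rg V D dev (μ * s) I d) (fun _ p => E I d p) (ω * μ * s) I), len x with hL
  have hL0 : 0 ≤ L := Finset.sum_nonneg fun q _ => (Growth.len_pos q).le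
  have hl := Growth.len_pos I
  have h4 : μ * s * dl R V D dev (μ * s) I d ≤ μ * s * (μ * len I) :=
    mul_le_mul_of_nonneg_left h2 (by positivity)
  have h5 : Λ * (rd V D dev (μ * s) I d + μ * s * dl R V D dev (μ * s) I d) ≤
      Λ * (2 * (μ ^ 2 * s * len I)) :=
    mul_le_mul_of_nonneg_left (by nlinarith) (by linarith)
  have hms : 0 < μ * s := mul_pos hμ hs
  have h6 : 16 * Λ * (μ * s) / 2 * L ≤ ω * μ * s / 2 * L := by
    refine mul_le_mul_of_nonneg_right ?_ hL0
    nlinarith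
  have h7 : Λ * (μ * s) * (8 * L) ≤ Λ * (μ * s) * (2 * (μ * len I)) := by
    nlinarith
  have h8 := le_of_mul_le_mul_left h7 (by positivity : 0 < Λ * (μ * s))
  linarith

/-- the depth of the top itself is admissible -/
lemma cond_top (hV : Full (V I) I) (hμ : 0 < μ) (hs : 0 < s) :
    rd V D dev (μ * s) I I.1 ≤ μ ^ 2 * s * len I ∧ dl R V D dev (μ * s) I I.1 ≤ μ * len I := by
  have hl := Growth.len_pos I
  have hF := rg_full (D := D) (dev := dev) (τ := μ * s) hV (le_refl I.1)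
  have e1 : rd V D dev (μ * s) I I.1 = 0 := by
    unfold rd
    refine Finset.sum_eq_zero fun q hq => ?_
    have hq' := Finset.mem_sdiff.1 hq
    have h1 := inner_level hq'.1 hq'.2
    have h2 := Qe292.iv_level (hF.reg.1 q hq'.1)
    omega
  have e2 : dl R V D dev (μ * s) I I.1 = 0 := by
    unfold dl
    refine Finset.sum_eq_zero fun z hz => ?_
    have h1 := mem_dead.1 hz
    have h2 := Qe292.iv_level (hF.reg.1 z (mem_lf.1 h1.1).1)
    omega
  rw [e1, e2]
  constructor <;> positivity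

lemma par_eq_cases {c c' : Nd} (h : par c' = par c) : c' = c ∨ c' = sib c := by
  have h1 := congrArg Prod.fst h
  have h2 := congrArg Prod.snd h
  simp only [par] at h1 h2
  have e1 : c'.1 = c.1 := by omega
  rcases (by omega : c'.2 = c.2 ∨ c'.2 = 4 * (c.2 / 2) + 1 - c.2) with h3 | h3
  · exact Or.inl (Prod.ext e1 h3)
  · exact Or.inr (Prod.ext e1 h3)

/-- exits inside the adapted region which are not in the range are below dead exits -/
lemma sum_stops_le (hV : Full (V I) I) {d : ℕ} (hd : d ≤ I.1) {W : Finset Nd} (hW : Full W I)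
    (hWr : W ⊆ rg V D dev (μ * s) I d) :
    ∑ c ∈ (ex R W).filter (fun c => c ∈ V I ∧ d ≤ c.1 ∧ c ∉ rg V D dev (μ * s) I d), len c ≤
      dl R V D dev (μ * s) I d := by
  classical
  have hF := rg_full (D := D) (dev := dev) (τ := μ * s) hV hd
  set G := rg V D dev (μ * s) I d with hG
  have hmaps : ∀ c ∈ (ex R W).filter (fun c => c ∈ V I ∧ d ≤ c.1 ∧ c ∉ G),
      par c ∈ dead R V D dev (μ * s) I d := by
    intro c hc
    have hc' := Finset.mem_filter.1 hc
    have hx := mem_ex.1 hc'.1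
    have hpG : par c ∈ G := hWr hx.2.2
    refine mem_dead.2 ⟨?_, by simp only [par]; omega, fun c' hc' hpar => ?_⟩
    · by_contra hcon
      obtain ⟨m, l, he, h0, h1⟩ := children_mem hF hpG hcon
      have e0 : par (m, 2 * l) = (m + 1, l) := Prod.ext rfl (by simp only [par]; omega)
      rcases par_eq_cases (c := (m, 2 * l)) (c' := c) (by rw [e0, he]) with h | h
      · exact hc'.2.2.2 (h ▸ h0)
      · have e2 : sib (m, 2 * l) = (m, 2 * l + 1) :=
          Prod.ext rfl (by simp only [sib]; omega)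
        rw [e2] at h
        exact hc'.2.2.2 (h ▸ h1)
    · have hl : c' ∉ V I := by
        unfold lay at hc'
        exact (Finset.mem_filter.1 hc').2.1
      rcases par_eq_cases hpar with h | h
      · rw [h] at hl
        exact hl (Finset.mem_filter.1 hc).2.1
      · rw [h] at hl
        exact hl (sib_mem hV (Finset.mem_filter.1 hc).2.1 (rg_subV hpG))
  unfold dl
  rw [← Finset.sum_fiberwise_of_maps_to hmaps]
  refine Finset.sum_le_sum fun z _ => sum_len_disj _ z (fun c hc => ?_) fun c hc c' hc' hne => ?_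
  · have := (Finset.mem_filter.1 hc).2
    rw [← this]
    exact iv_par c
  · exact ex_disj_iv hW (Finset.mem_filter.1 (Finset.mem_filter.1 hc).1).1
      (Finset.mem_filter.1 (Finset.mem_filter.1 hc').1).1 hne

open Classical in
/-- own drift and the drift of the next regions -/
lemma own_add_dr (hW : Full W0 I) (hWR : W0 ⊆ R) (hD : ∀ q, 0 ≤ D q) :
    own R D W0 + ∑ x ∈ ex R W0, dr R D x ≤ dr R D I := by
  unfold own dr
  rw [← Finset.sum_biUnion, ← Finset.sum_union]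
  · refine Finset.sum_le_sum_of_subset_of_nonneg ?_
      fun q _ _ => mul_nonneg (Growth.len_pos q).le (hD q)
    intro q hq
    rw [Finset.mem_filter, Finset.mem_sdiff]
    rcases Finset.mem_union.1 hq with h1 | h1
    · rw [Finset.mem_filter] at h1
      exact ⟨⟨hWR h1.1, h1.2⟩, hW.reg.1 q h1.1⟩
    · obtain ⟨x, hx, h1⟩ := Finset.mem_biUnion.1 h1
      rw [Finset.mem_filter, Finset.mem_sdiff] at h1
      exact ⟨h1.1, h1.2.trans (ex_sub hW hx)⟩
  · rw [Finset.disjoint_left]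
    intro q hq hq'
    obtain ⟨x, hx, h1⟩ := Finset.mem_biUnion.1 hq'
    rw [Finset.mem_filter] at h1 hq
    exact ex_notMem hW hx h1.2 hq.1
  · intro x hx x' hx' hne
    rw [Function.onFun, Finset.disjoint_left]
    intro q hq hq'
    rw [Finset.mem_filter] at hq hq'
    exact hne (ex_disj hW (by exact_mod_cast hx) (by exact_mod_cast hx') hq.2 hq'.2)

/-- **ONE WINDOW PAYS**: either the next tops are short, or the own drift is large -/
lemma pays (hR : Full R J) (h : FldH R D dev) (hV : ∀ K ∈ R, Full (V K) K ∧ V K ⊆ R)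
    (hlay : ∀ K ∈ R, ∑ c ∈ lay R V K, len c ≤ len K / 8)
    (hμ : 0 < μ) (hμ8 : μ ≤ 1 / 8) (hs : 0 < s) (hΛ : 1 ≤ Λ) (hω : 16 * Λ ≤ ω)
    (hE0 : ∀ K d p, 0 ≤ E K d p) (hLA : LA R V D dev E μ s Λ) (hI : I ∈ R) {d : ℕ} (hdI : d ≤ I.1)
    (h1 : rd V D dev (μ * s) I d ≤ μ ^ 2 * s * len I)
    (h2 : dl R V D dev (μ * s) I d ≤ μ * len I)
    (hmin : ∀ m, m < d → ¬ (rd V D dev (μ * s) I m ≤ μ ^ 2 * s * len I ∧
      dl R V D dev (μ * s) I m ≤ μ * len I))
    (W0 : Finset Nd)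
    (hW0 : W0 = Wd (rg V D dev (μ * s) I d) (fun _ p => E I d p) (ω * μ * s) I) :
    len I + 4 / μ * ∑ x ∈ ex R W0, len x ≤
      4 / μ * len I + 16 / (μ ^ 2 * s) * own R D W0 := by
  classical
  obtain ⟨hVI, hVR⟩ := hV I hI
  have hl := Growth.len_pos I
  have hF := rg_full (D := D) (dev := dev) (τ := μ * s) hVI hdI
  have hW : Full W0 I := by rw [hW0]; exact Wd_full hF hF.top
  have hWr : W0 ⊆ rg V D dev (μ * s) I d := by rw [hW0]; exact Wd_sub
  have hms : 0 < μ * s := mul_pos hμ hs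
  have hrgR : rg V D dev (μ * s) I d ⊆ R := rg_subV.trans hVR
  have hT3 := la_short (ω := ω) hVI hμ hs hΛ hω hE0 hLA hI hdI h1 h2
  rw [← hW0] at hT3
  set L3 := ∑ x ∈ ex (rg V D dev (μ * s) I d) W0, len x with hL3
  set LT := ∑ x ∈ ex R W0, len x with hLT
  have hLT1 : LT ≤ len I := sum_ex_le hW
  have hO0 := own_nonneg (R := R) h.D0 W0
  have h4μ : 0 < 4 / μ := by positivity
  have h16 : 0 < 16 / (μ ^ 2 * s) := by positivity
  rcases Nat.eq_zero_or_pos d with hd0 | hd0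
  · -- no cut
    have hs1 : LT ≤ ∑ c ∈ lay R V I, len c + (∑ c ∈ (ex R W0).filter
        (fun c => c ∈ V I ∧ d ≤ c.1 ∧ c ∉ rg V D dev (μ * s) I d), len c + L3) := by
      have hsub : ex R W0 ⊆ lay R V I ∪ ((ex R W0).filter
          (fun c => c ∈ V I ∧ d ≤ c.1 ∧ c ∉ rg V D dev (μ * s) I d) ∪
          ex (rg V D dev (μ * s) I d) W0) := by
        intro c hc
        have hc' := mem_ex.1 hc
        by_cases hcV : c ∈ V I
        · refine Finset.mem_union_right _ ?_
          by_cases hcG : c ∈ rg V D dev (μ * s) I d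
          · exact Finset.mem_union_right _ (mem_ex.2 ⟨hcG, hc'.2.1, hc'.2.2⟩)
          · exact Finset.mem_union_left _ (Finset.mem_filter.2 ⟨hc, hcV, by omega, hcG⟩)
        · refine Finset.mem_union_left _ ?_
          unfold lay
          exact Finset.mem_filter.2 ⟨hc'.1, hcV, rg_subV (hWr hc'.2.2)⟩
      have hnn : ∀ q : Nd, 0 ≤ len q := fun q => (Growth.len_pos q).le
      refine (Finset.sum_le_sum_of_subset_of_nonneg hsub fun q _ _ => hnn q).trans ?_
      exact (rd_le.sum_union_le' _ _ _ hnn).trans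
        (add_le_add le_rfl (rd_le.sum_union_le' _ _ _ hnn))
    have hs2 := sum_stops_le (R := R) (D := D) (dev := dev) (μ := μ) (s := s) hVI hdI hW hWr
    have hs3 := hlay I hI
    have hs4 : LT ≤ len I / 2 := by nlinarith
    have hs5 : 4 / μ * LT ≤ 4 / μ * (len I / 2) := mul_le_mul_of_nonneg_left hs4 h4μ.le
    have hs6 : len I ≤ 4 / μ * (len I / 2) := by
      have : 1 ≤ 4 / μ * (1 / 2) := by
        rw [show 4 / μ * (1 / 2) = 2 / μ by ring, le_div_iff₀ hμ]
        linarith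
      nlinarith
    have hs7 : 0 ≤ 16 / (μ ^ 2 * s) * own R D W0 := mul_nonneg h16.le hO0
    linarith
  · -- the depth `d - 1` is not admissible
    obtain ⟨m, rfl⟩ : ∃ m, d = m + 1 := ⟨d - 1, by omega⟩
    have hc := hmin m (Nat.lt_succ_self _)
    have p2 := rd_le (τ := μ * s) h hms.le hVI hVR (Nat.le_succ m) (le_refl (m + 1)) hdI hW hWr
    have p3 := dl_le (R := R) (D := D) (dev := dev) (τ := μ * s) hVI (Nat.le_succ m)
      (le_refl (m + 1)) hdI hW hWr
    have p4 := ud_le (τ := μ * s) hR h hI hVI hVR (Nat.le_succ m) hdI hW hWr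
    set Z := ∑ z ∈ (dead R V D dev (μ * s) I m).filter (fun z => z ∈ W0 ∧ z ∈ lf R), len z
      with hZ
    set U := ∑ z ∈ ud R V D dev (μ * s) I m W0, len z with hU
    have hZT : LT + Z ≤ len I := by
      rw [hLT, hZ, ← Finset.sum_union]
      · refine sum_len_disj _ I (fun c hc => ?_) fun c hc c' hc' hne => ?_
        · rcases Finset.mem_union.1 hc with h' | h'
          · exact ex_sub hW h'
          · exact hW.reg.1 c (Finset.mem_filter.1 h').2.1
        · rcases Finset.mem_union.1 hc with h' | h' <;> rcases Finset.mem_union.1 hc' with h'' | h''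
          · exact ex_disj_iv hW h' h'' hne
          · have := (Finset.mem_filter.1 h'').2
            exact (lf_ex_disj hW this.2 this.1 h').symm
          · have := (Finset.mem_filter.1 h').2
            exact lf_ex_disj hW this.2 this.1 h''
          · exact lf_disj (Finset.mem_filter.1 h').2.2 (Finset.mem_filter.1 h'').2.2 hne
      · rw [Finset.disjoint_left]
        intro c hc hc'
        exact (mem_ex.1 hc).2.1 (Finset.mem_filter.1 hc').2.1
    have hLT2 : 4 / μ * LT ≤ 4 / μ * len I := mul_le_mul_of_nonneg_left hLT1 h4μ.le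
    have hpay : ∀ o : ℝ, μ ^ 2 * s * len I / 16 ≤ o → len I ≤ 16 / (μ ^ 2 * s) * o := by
      intro o ho
      have := mul_le_mul_of_nonneg_left ho h16.le
      have e : 16 / (μ ^ 2 * s) * (μ ^ 2 * s * len I / 16) = len I := by field_simp
      linarith
    by_cases hA : rd V D dev (μ * s) I m ≤ μ ^ 2 * s * len I
    · -- dead exits
      have hB : μ * len I < dl R V D dev (μ * s) I m := by
        by_contra hcon
        push Not at hcon
        exact hc ⟨hA, hcon⟩
      have hZU : 3 / 4 * (μ * len I) ≤ Z + U := by nlinarith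
      by_cases hU2 : 3 / 8 * (μ * len I) ≤ U
      · have h5 : μ * s / 4 * (3 / 8 * (μ * len I)) ≤ own R D W0 :=
          (mul_le_mul_of_nonneg_left hU2 (by positivity)).trans p4
        have h6 : μ ^ 2 * s * len I / 16 ≤ own R D W0 := by
          have : 0 ≤ μ ^ 2 * s * len I := by positivity
          nlinarith
        have := hpay _ h6
        linarith
      · push Not at hU2
        have hZ2 : 3 / 8 * (μ * len I) ≤ Z := by linarith
        have h5 : LT ≤ len I - 3 / 8 * (μ * len I) := by linarith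
        have h6 := mul_le_mul_of_nonneg_left h5 h4μ.le
        have e : 4 / μ * (len I - 3 / 8 * (μ * len I)) = 4 / μ * len I - 3 / 2 * len I := by
          field_simp
          ring
        have hs7 : 0 ≤ 16 / (μ ^ 2 * s) * own R D W0 := mul_nonneg h16.le hO0
        linarith
    · push Not at hA
      have h5 : μ * s * L3 ≤ μ * s * (μ / 4 * len I) := mul_le_mul_of_nonneg_left hT3 hms.le
      have h6 : μ ^ 2 * s * len I / 16 ≤ own R D W0 := by
        have : 0 ≤ μ ^ 2 * s * len I := by positivity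
        have e : μ * s * (μ / 4 * len I) = μ ^ 2 * s * len I / 4 := by ring
        linarith
      have := hpay _ h6
      linarith

/-- the recursion -/
theorem tree_rec (hR : Full R J) (h : FldH R D dev) (hV : ∀ K ∈ R, Full (V K) K ∧ V K ⊆ R)
    (hlay : ∀ K ∈ R, ∑ c ∈ lay R V K, len c ≤ len K / 8)
    (hμ : 0 < μ) (hμ8 : μ ≤ 1 / 8) (hs : 0 < s) (hΛ : 1 ≤ Λ) (hω : 16 * Λ ≤ ω)
    (hE0 : ∀ K d p, 0 ≤ E K d p) (hLA : LA R V D dev E μ s Λ) :
    ∀ (N : ℕ) (I : Nd), I ∈ R → I.1 < N →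
      ∃ (S : Finset Nd) (X : Nd → Finset Nd) (lv dp : Nd → ℕ),
        Sys (Wf R I 0) S X lv dp (Gt R V D dev E μ s ω) ∧
        ∑ K ∈ S, len K * (1 : ℝ) ≤ 4 / μ * len I + 16 / (μ ^ 2 * s) * dr R D I := by
  classical
  intro N
  induction N with
  | zero => intro I _ h; omega
  | succ N ih =>
    intro I hI hN
    obtain ⟨hVI, hVR⟩ := hV I hI
    have hct := cond_top (R := R) (D := D) (dev := dev) (μ := μ) (s := s) hVI hμ hs
    have hex : ∃ m, rd V D dev (μ * s) I m ≤ μ ^ 2 * s * len I ∧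
        dl R V D dev (μ * s) I m ≤ μ * len I := ⟨I.1, hct⟩
    obtain ⟨d, hd, hmin⟩ : ∃ d, (rd V D dev (μ * s) I d ≤ μ ^ 2 * s * len I ∧
        dl R V D dev (μ * s) I d ≤ μ * len I) ∧ ∀ m, m < d → ¬
        (rd V D dev (μ * s) I m ≤ μ ^ 2 * s * len I ∧ dl R V D dev (μ * s) I m ≤ μ * len I) :=
      ⟨Nat.find hex, Nat.find_spec hex, fun m hm => Nat.find_min hex hm⟩
    have hdI : d ≤ I.1 := by
      by_contra hcon
      push Not at hcon
      exact hmin I.1 hcon hct
    have hF := rg_full (D := D) (dev := dev) (τ := μ * s) hVI hdI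
    set W0 : Finset Nd := Wd (rg V D dev (μ * s) I d) (fun _ p => E I d p) (ω * μ * s) I with hW0
    have hW : Full W0 I := Wd_full hF hF.top
    have hWR : W0 ⊆ R := (Wd_sub.trans rg_subV).trans hVR
    have hsys : ∀ x : Nd, ∃ (S : Finset Nd) (X : Nd → Finset Nd) (lv dp : Nd → ℕ), x ∈ ex R W0 →
        (Sys (Wf R x 0) S X lv dp (Gt R V D dev E μ s ω) ∧
        ∑ K ∈ S, len K * (1 : ℝ) ≤ 4 / μ * len x + 16 / (μ ^ 2 * s) * dr R D x) := by
      intro x
      by_cases hx : x ∈ ex R W0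
      · have h1 := ex_level hW hx
        obtain ⟨S, X, lv, dp, a, b⟩ := ih x (mem_ex.1 hx).1 (by omega)
        exact ⟨S, X, lv, dp, fun _ => ⟨a, b⟩⟩
      · exact ⟨∅, fun _ => ∅, fun _ => 0, fun _ => 0, fun h => absurd h hx⟩
    choose S X lv dp hS using hsys
    obtain ⟨S', X', lv', dp', hSys, hsum⟩ := assemble (R' := Wf R I 0) (W0 := W0) (T := ex R W0)
      (I := I) (Rg := fun x => Wf R x 0) (j := 0) (d := d) (G := Gt R V D dev E μ s ω)
      hW (fun p hp => mem_Wf.2 ⟨hWR hp, hW.reg.1 p hp, Nat.zero_le _⟩)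
      ⟨hdI, rfl, hd.1, hd.2⟩
      (fun x hx p hp => by
        have h1 := mem_Wf.1 hp
        exact mem_Wf.2 ⟨h1.1, h1.2.1.trans (ex_sub hW hx), Nat.zero_le _⟩)
      (fun x hx => by
        rw [Finset.disjoint_left]
        intro p hp hpx
        exact ex_notMem hW hx (mem_Wf.1 hpx).2.1 hp)
      (fun x hx x' hx' hne => by
        rw [Finset.disjoint_left]
        intro p hp hp'
        exact hne (ex_disj hW hx hx' (mem_Wf.1 hp).2.1 (mem_Wf.1 hp').2.1))
      (fun p hp => by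
        have h1 := mem_Wf.1 hp
        by_cases hw : p ∈ W0
        · exact Or.inl hw
        · obtain ⟨c, hc, hpc⟩ := ex_cover' hR hW hWR h1.1 h1.2.1 hw
          exact Or.inr ⟨c, hc, mem_Wf.2 ⟨h1.1, hpc, Nat.zero_le _⟩⟩)
      S X lv dp (fun x hx => (hS x hx).1) (fun _ => (1 : ℝ))
    refine ⟨S', X', lv', dp', hSys, hsum.trans ?_⟩
    have s1 : ∑ x ∈ ex R W0, ∑ K ∈ S x, len K * (1 : ℝ)
        ≤ 4 / μ * ∑ x ∈ ex R W0, len x + 16 / (μ ^ 2 * s) * ∑ x ∈ ex R W0, dr R D x := by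
      rw [Finset.mul_sum, Finset.mul_sum, ← Finset.sum_add_distrib]
      exact Finset.sum_le_sum fun x hx => (hS x hx).2
    have s2 := own_add_dr hW hWR h.D0
    have s3 := pays hR h hV hlay hμ hμ8 hs hΛ hω hE0 hLA hI hdI hd.1 hd.2 hmin W0 hW0
    have h16 : 0 < 16 / (μ ^ 2 * s) := by positivity
    have s4 := mul_le_mul_of_nonneg_left s2 h16.le
    rw [mul_add] at s4
    rw [mul_one]
    linarith

/-- **energy of one window** -/
lemma energy_one (hR : Full R J) (h : FldH R D dev) (hV : Full (V I) I) (hVR : V I ⊆ R)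
    (hμ : 0 < μ) (hs : 0 < s) (hΛ : 1 ≤ Λ) (hω : 16 * Λ ≤ ω)
    (hE0 : ∀ K d p, 0 ≤ E K d p) (hLA : LA R V D dev E μ s Λ) (hI : I ∈ R) {lv d : ℕ}
    (hG : Gt R V D dev E μ s ω I W0 lv d) :
    rd V D dev (μ * s) I d + μ * s * dl R V D dev (μ * s) I d ≤
      7 * own R D W0 + 2 * (μ * s) * zl R W0 := by
  classical
  obtain ⟨hdI, hW0, h1, h2⟩ := hG
  have hF := rg_full (D := D) (dev := dev) (τ := μ * s) hV hdI
  have hW : Full W0 I := by rw [hW0]; exact Wd_full hF hF.top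
  have hWr : W0 ⊆ rg V D dev (μ * s) I d := by rw [hW0]; exact Wd_sub
  have hms : 0 < μ * s := mul_pos hμ hs
  have p1 := la_stops (ω := ω) hV hE0 hLA hI hdI h1 h2
  rw [← hW0] at p1
  have p2 := rd_le (τ := μ * s) h hms.le hV hVR (le_refl d) (Nat.le_succ d) hdI hW hWr
  have p3 := dl_le (R := R) (D := D) (dev := dev) (τ := μ * s) hV (le_refl d)
      (Nat.le_succ d) hdI hW hWr
  have p4 := ud_le (τ := μ * s) hR h hI hV hVR (le_refl d) hdI hW hWr
  set L3 := ∑ x ∈ ex (rg V D dev (μ * s) I d) W0, len x with hL3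
  set Z := ∑ z ∈ (dead R V D dev (μ * s) I d).filter (fun z => z ∈ W0 ∧ z ∈ lf R), len z with hZ
  set U := ∑ z ∈ ud R V D dev (μ * s) I d W0, len z with hU
  set r := rd V D dev (μ * s) I d with hr
  set e := dl R V D dev (μ * s) I d with he
  have hL30 : 0 ≤ L3 := Finset.sum_nonneg fun q _ => (Growth.len_pos q).le
  have hO0 := own_nonneg (R := R) h.D0 W0
  have hZz : Z ≤ zl R W0 := by
    rw [hZ]
    unfold zl
    refine Finset.sum_le_sum_of_subset_of_nonneg ?_ fun q _ _ => (Growth.len_pos q).le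
    intro z hz
    have := (Finset.mem_filter.1 hz).2
    exact Finset.mem_filter.2 ⟨this.1, this.2⟩
  have p1' : μ * s * L3 ≤ (r + μ * s * e) / 8 := by
    have h6 : 16 * Λ * (μ * s) / 2 * L3 ≤ ω * μ * s / 2 * L3 := by
      refine mul_le_mul_of_nonneg_right ?_ hL30
      nlinarith
    have h7 : Λ * (8 * (μ * s * L3)) ≤ Λ * (r + μ * s * e) := by linarith
    have := le_of_mul_le_mul_left h7 (by linarith : 0 < Λ)
    linarith
  have p3' : μ * s * e ≤ μ * s * (Z + U + L3) := mul_le_mul_of_nonneg_left p3 hms.le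
  have p4' : μ * s * Z ≤ μ * s * zl R W0 := mul_le_mul_of_nonneg_left hZz hms.le
  have hz0 : 0 ≤ μ * s * zl R W0 := mul_nonneg hms.le (zl_nonneg W0)
  have e1 : μ * s * (Z + U + L3) = μ * s * Z + 4 * (μ * s / 4 * U) + μ * s * L3 := by ring
  have e2 : 2 * (μ * s) * zl R W0 = 2 * (μ * s * zl R W0) := by ring
  rw [e2]
  rw [e1] at p3'
  linarith

lemma sum_own_le {S : Finset Nd} {W : Nd → Finset Nd} {C : ℝ} (hR : Full R J) (hD : ∀ q, 0 ≤ D q)
    (hP : Part R S W C) : ∑ K ∈ S, own R D (W K) ≤ dr R D J := by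
  classical
  unfold own dr
  rw [← Finset.sum_biUnion]
  · refine Finset.sum_le_sum_of_subset_of_nonneg ?_
      fun q _ _ => mul_nonneg (Growth.len_pos q).le (hD q)
    intro q hq
    obtain ⟨K, hK, hq⟩ := Finset.mem_biUnion.1 hq
    have hq' := Finset.mem_filter.1 hq
    have hqR := hP.wsub K hK hq'.1
    exact Finset.mem_filter.2 ⟨Finset.mem_sdiff.2 ⟨hqR, hq'.2⟩, hR.reg.1 q hqR⟩
  · intro K hK K' hK' hne
    rw [Function.onFun, Finset.disjoint_left]
    intro q hq hq'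
    exact Finset.disjoint_left.1 (hP.disj K (by exact_mod_cast hK) K' (by exact_mod_cast hK') hne)
      (Finset.mem_filter.1 hq).1 (Finset.mem_filter.1 hq').1

lemma sum_zl_le {S : Finset Nd} {W : Nd → Finset Nd} {C : ℝ} (hR : Full R J)
    (hP : Part R S W C) : ∑ K ∈ S, zl R (W K) ≤ len J := by
  classical
  unfold zl
  rw [← Finset.sum_biUnion]
  · refine sum_len_disj _ J (fun c hc => ?_) fun c hc c' hc' hne => ?_
    · obtain ⟨K, hK, hq⟩ := Finset.mem_biUnion.1 hc
      exact hR.reg.1 c (hP.wsub K hK (Finset.mem_filter.1 hq).1)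
    · obtain ⟨K, hK, hq⟩ := Finset.mem_biUnion.1 hc
      obtain ⟨K', hK', hq'⟩ := Finset.mem_biUnion.1 hc'
      exact lf_disj (Finset.mem_filter.1 hq).2 (Finset.mem_filter.1 hq').2 hne
  · intro K hK K' hK' hne
    rw [Function.onFun, Finset.disjoint_left]
    intro q hq hq'
    exact Finset.disjoint_left.1 (hP.disj K (by exact_mod_cast hK) K' (by exact_mod_cast hK') hne)
      (Finset.mem_filter.1 hq).1 (Finset.mem_filter.1 hq').1

/-- **TREE LEMMA OF THE WINDOWS WITH HOLES** -/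
theorem tree (hR : Full R J) (h : FldH R D dev) (hV : ∀ K ∈ R, Full (V K) K ∧ V K ⊆ R)
    (hlay : ∀ K ∈ R, ∑ c ∈ lay R V K, len c ≤ len K / 8)
    (hμ : 0 < μ) (hμ8 : μ ≤ 1 / 8) (hs : 0 < s) (hΛ : 1 ≤ Λ) (hω : 16 * Λ ≤ ω)
    (hE0 : ∀ K d p, 0 ≤ E K d p)
    -- look-ahead quantity (error letter of the masked frames of `(K, d)`)
    (hE : ∀ K ∈ R, ∀ d ≤ K.1, rd V D dev (μ * s) K d ≤ μ ^ 2 * s * len K →
      dl R V D dev (μ * s) K d ≤ μ * len K →
      ∀ A ⊆ rg V D dev (μ * s) K d, (∀ c ∈ A, ∀ c' ∈ A, c ≠ c' → Disjoint (iv c) (iv c')) →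
        ∑ p ∈ A, len p * E K d p ≤
          Λ * (rd V D dev (μ * s) K d + μ * s * dl R V D dev (μ * s) K d)) :
    ∃ (S : Finset Nd) (W : Nd → Finset Nd) (dp : Nd → ℕ),
      Part R S W (∑ K ∈ S, len K) ∧
      (∀ K ∈ S, dp K ≤ K.1 ∧
        W K = Wd (rg V D dev (μ * s) K (dp K)) (fun _ p => E K (dp K) p) (ω * μ * s) K ∧
        W K ⊆ rg V D dev (μ * s) K (dp K) ∧
        (∀ p ∈ rg V D dev (μ * s) K (dp K), dev K p + acc D K p ≤ μ * s) ∧
        (∀ p ∈ W K, E K (dp K) p ≤ ω * μ * s) ∧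
        rd V D dev (μ * s) K (dp K) ≤ μ ^ 2 * s * len K ∧
        dl R V D dev (μ * s) K (dp K) ≤ μ * len K ∧
        rd V D dev (μ * s) K (dp K) + μ * s * dl R V D dev (μ * s) K (dp K) ≤
          7 * own R D (W K) + 2 * (μ * s) * zl R (W K)) ∧
      -- COUNT
      ∑ K ∈ S, len K ≤ 4 / μ * len J + 16 / (μ ^ 2 * s) * dr R D J ∧
      -- ENERGY
      ∑ K ∈ S, (rd V D dev (μ * s) K (dp K) + μ * s * dl R V D dev (μ * s) K (dp K)) ≤
        16 * (dr R D J + μ * s * len J) := by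
  have hLA : LA R V D dev E μ s Λ := hE
  obtain ⟨S, W, lv, dp, hsys, hw⟩ := tree_rec hR h hV hlay hμ hμ8 hs hΛ hω hE0 hLA (J.1 + 1) J
    hR.top (Nat.lt_succ_self _)
  have e : Wf R J 0 = R := by
    ext p
    rw [mem_Wf]
    exact ⟨fun h => h.1, fun h => ⟨h, hR.reg.1 p h, Nat.zero_le _⟩⟩
  rw [e] at hsys
  simp only [mul_one] at hw
  have hms : 0 < μ * s := mul_pos hμ hs
  have hone : ∀ K ∈ S, rd V D dev (μ * s) K (dp K) + μ * s * dl R V D dev (μ * s) K (dp K) ≤
      7 * own R D (W K) + 2 * (μ * s) * zl R (W K) := fun K hK =>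
    energy_one hR h (hV K (hsys.sub hK)).1 (hV K (hsys.sub hK)).2 hμ hs hΛ hω hE0 hLA
      (hsys.sub hK) (hsys.good K hK)
  refine ⟨S, W, dp, hsys.part, fun K hK => ?_, hw, ?_⟩
  · have hg := hsys.good K hK
    have hVK := hV K (hsys.sub hK)
    refine ⟨hg.1, hg.2.1, by rw [hg.2.1]; exact Wd_sub, fun p hp => ?_, fun p hp => ?_, hg.2.2.1,
      hg.2.2.2, hone K hK⟩
    · exact rg_good h hms.le hp
    · by_cases hpK : p = K
      · rw [hpK]
        exact top_E hVK.1 hμ hμ8 hs hΛ hω hLA (hsys.sub hK) hg.1 hg.2.2.1 hg.2.2.2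
      · rw [hg.2.1] at hp
        have := mem_Wd.1 hp
        exact (this.2.2 p this.1 subset_rfl this.2.1 hpK).1
  · refine (Finset.sum_le_sum hone).trans ?_
    rw [Finset.sum_add_distrib, ← Finset.mul_sum, ← Finset.mul_sum]
    have h1 := sum_own_le hR h.D0 hsys.part
    have h2 := sum_zl_le hR hsys.part
    have h3 := mul_le_mul_of_nonneg_left h2 (by positivity : 0 ≤ 2 * (μ * s))
    have h4 := dr_nonneg (R := R) h.D0 J
    have h5 : 0 ≤ μ * s * len J := mul_nonneg hms.le (Growth.len_pos J).le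
    linarith

end Crest.Agent.R079.HWx323
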