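import Crest.Agent.R079.SbX_795
import Crest.Agent.R079.GnS_263
import Crest.Agent.R079.HW_323

/-! R079, notes 1820 + 1922 (helper228), line (T2), part (c) (helper795): THE TREE OF THE SUB-WINDOWS.

For every `K ∈ R` (region `R`, field `D`, `dev`):
* `VK R D dev μ K` = range of `K` (nodes of `R` below `K`, above the stops of `gs D dev K ≤ μ`);
* `UU (VK K) k0 j0 n0 K` = structural window (case A / case B, `SbX_795`);
* `WW K = Wd (UU ..) (Er K) (ω μ) K` = minus what is below the spots of `Er K`.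
Exits of `WW K` inside `R`: total length `≤ (1 - 2^{-(k0+2)}) len K + 4 / μ * own R D (WW K)`.

**`treeO`** : hypothesis (HE) for every antichain of the structural window ⇒ `GnS_263.TreeO` with
`Rg = VK`, `dlt = len`. -/

set_option autoImplicit false

namespace Crest.Agent.R079.SbWx795

open Finset Crest.Agent.R079.Grid Crest.Agent.R079.Growth Crest.Agent.R079.QRed
  Crest.Agent.R079.TWin Crest.Agent.R079.Qe292 Crest.Agent.R079.Qh249
  Crest.Agent.R079.GLA110 Crest.Agent.R079.Chn110 Crest.Agent.R079.HWx323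

variable {R : Finset Nd} {J I K : Nd} {W : Nd → Finset Nd} {θ B : ℝ} {D : Nd → ℝ}
  {dev : Nd → Nd → ℝ} {μ ω L τ : ℝ} {Er : Nd → Nd → ℝ} {k0 j0 n0 : ℕ}

/-! ### geometric recursion with own payments -/

/-- every node of `R` carries a window whose exits cost `θ len K + B * own`: total length -/
theorem geo_own (hR : Full R J) (hD : ∀ q, 0 ≤ D q) (hB : 0 ≤ B) (hθ1 : θ < 1)
    (hW : ∀ K ∈ R, Full (W K) K) (hWR : ∀ K ∈ R, W K ⊆ R)
    (hex : ∀ K ∈ R, ∑ c ∈ ex R (W K), len c ≤ θ * len K + B * own R D (W K)) :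
    ∃ S : Finset Nd, Part R S W (∑ K ∈ S, len K) ∧
      (1 - θ) * ∑ K ∈ S, len K ≤ len J + B * dr R D J := by
  classical
  have hrec : ∀ (n : ℕ) (I : Nd), I ∈ R → I.1 < n → ∃ S : Finset Nd, S ⊆ R ∧
      (∀ K ∈ S, iv K ⊆ iv I) ∧
      (∀ K ∈ S, ∀ K' ∈ S, K ≠ K' → Disjoint (W K) (W K')) ∧
      (∀ p ∈ R, iv p ⊆ iv I → ∃ K ∈ S, p ∈ W K) ∧
      (1 - θ) * ∑ K ∈ S, len K ≤ len I + B * dr R D I := by
    intro n
    induction n with
    | zero => intro I _ h; omega
    | succ n ih =>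
      intro I hI hn
      have hWI := hW I hI
      have hexR : ∀ c : Nd, ∃ S : Finset Nd, c ∈ ex R (W I) → (S ⊆ R ∧ (∀ K ∈ S, iv K ⊆ iv c) ∧
        (∀ K ∈ S, ∀ K' ∈ S, K ≠ K' → Disjoint (W K) (W K')) ∧
        (∀ p ∈ R, iv p ⊆ iv c → ∃ K ∈ S, p ∈ W K) ∧
        (1 - θ) * ∑ K ∈ S, len K ≤ len c + B * dr R D c) := by
        intro c
        by_cases hc : c ∈ ex R (W I)
        · have hl := ex_level hWI hc
          obtain ⟨S, hS⟩ := ih c (mem_ex.1 hc).1 (by omega)
          exact ⟨S, fun _ => hS⟩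
        · exact ⟨∅, fun h => absurd h hc⟩
      choose S hS using hexR
      have hd : Set.PairwiseDisjoint (ex R (W I) : Set Nd) S := by
        intro c hc c' hc' hne
        rw [Function.onFun, Finset.disjoint_left]
        intro K hK hK'
        exact hne (ex_disj hWI (by exact_mod_cast hc) (by exact_mod_cast hc')
          ((hS c (by exact_mod_cast hc)).2.1 K hK)
          ((hS c' (by exact_mod_cast hc')).2.1 K hK'))
      refine ⟨{I} ∪ (ex R (W I)).biUnion S, ?_, ?_, ?_, ?_, ?_⟩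
      · refine Finset.union_subset (Finset.singleton_subset_iff.2 hI) ?_
        exact Finset.biUnion_subset.2 fun c hc => (hS c hc).1
      · intro K hK
        rcases Finset.mem_union.1 hK with h | h
        · rw [Finset.mem_singleton.1 h]
        · obtain ⟨c, hc, hKc⟩ := Finset.mem_biUnion.1 h
          exact ((hS c hc).2.1 K hKc).trans (ex_sub hWI hc)
      · have hA : ∀ K ∈ (ex R (W I)).biUnion S, Disjoint (W I) (W K) := by
          intro K hK
          obtain ⟨c, hc, hKc⟩ := Finset.mem_biUnion.1 hK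
          rw [Finset.disjoint_left]
          intro p hpI hpK
          have hKR := (hS c hc).1 hKc
          have h1 : iv p ⊆ iv c := ((hW K hKR).reg.1 p hpK).trans ((hS c hc).2.1 K hKc)
          exact ex_notMem hWI hc h1 hpI
        intro K hK K' hK' hne
        rcases Finset.mem_union.1 hK with h | h <;> rcases Finset.mem_union.1 hK' with h' | h'
        · rw [Finset.mem_singleton.1 h, Finset.mem_singleton.1 h'] at hne
          exact absurd rfl hne
        · rw [Finset.mem_singleton.1 h]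
          exact hA K' h'
        · rw [Finset.mem_singleton.1 h']
          exact (hA K h).symm
        · obtain ⟨c, hc, hKc⟩ := Finset.mem_biUnion.1 h
          obtain ⟨c', hc', hKc'⟩ := Finset.mem_biUnion.1 h'
          by_cases hcc : c = c'
          · subst hcc
            exact (hS c hc).2.2.1 K hKc K' hKc' hne
          · rw [Finset.disjoint_left]
            intro p hp hp'
            exact hcc (ex_disj hWI hc hc'
              (((hW K ((hS c hc).1 hKc)).reg.1 p hp).trans ((hS c hc).2.1 K hKc))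
              (((hW K' ((hS c' hc').1 hKc')).reg.1 p hp').trans ((hS c' hc').2.1 K' hKc')))
      · intro p hp hpI
        by_cases hw : p ∈ W I
        · exact ⟨I, Finset.mem_union_left _ (Finset.mem_singleton_self I), hw⟩
        · obtain ⟨c, hc, hpc⟩ := ex_cover' hR hWI (hWR I hI) hp hpI hw
          obtain ⟨K, hK, hK'⟩ := (hS c hc).2.2.2.1 p hp hpc
          exact ⟨K, Finset.mem_union_right _ (Finset.mem_biUnion.2 ⟨c, hc, hK⟩), hK'⟩
      · have h1 : ∑ K ∈ {I} ∪ (ex R (W I)).biUnion S, len K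
            ≤ len I + ∑ c ∈ ex R (W I), ∑ K ∈ S c, len K := by
          rw [← Finset.sum_biUnion hd]
          have := Finset.sum_union_inter (s₁ := ({I} : Finset Nd))
            (s₂ := (ex R (W I)).biUnion S) (f := len)
          rw [Finset.sum_singleton] at this
          have h0 : 0 ≤ ∑ K ∈ {I} ∩ (ex R (W I)).biUnion S, len K :=
            Finset.sum_nonneg fun K _ => (Growth.len_pos K).le
          linarith
        have h2 := mul_le_mul_of_nonneg_left h1 (by linarith : 0 ≤ 1 - θ)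
        have h3 : (1 - θ) * ∑ c ∈ ex R (W I), ∑ K ∈ S c, len K ≤
            ∑ c ∈ ex R (W I), (len c + B * dr R D c) := by
          rw [Finset.mul_sum]
          exact Finset.sum_le_sum fun c hc => (hS c hc).2.2.2.2
        rw [Finset.sum_add_distrib, ← Finset.mul_sum] at h3
        have h4 := hex I hI
        have h5 := mul_le_mul_of_nonneg_left (own_add_dr hWI (hWR I hI) hD) hB
        rw [mul_add] at h5
        linarith
  obtain ⟨S, hSR, _, hSd, hSc, hcnt⟩ := hrec (J.1 + 1) J hR.top (Nat.lt_succ_self _)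
  refine ⟨S, ⟨hSR, fun K hK => hW K (hSR hK), fun K hK => hWR K (hSR hK), hSd,
    fun p hp => hSc p hp (hR.reg.1 p hp), fun p _ => ?_⟩, hcnt⟩
  have h0 : 0 ≤ ∑ K ∈ S, len K := Finset.sum_nonneg fun K _ => (Growth.len_pos K).le
  have h1 : 1 ≤ len p := by
    unfold len
    exact one_le_pow₀ (by norm_num)
  refine (Finset.sum_le_sum_of_subset_of_nonneg (Finset.filter_subset _ _)
    fun K _ _ => (Growth.len_pos K).le).trans ?_
  nlinarith

/-! ### the windows -/

/-- range of the top `K` -/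
noncomputable def VK (R : Finset Nd) (D : Nd → ℝ) (dev : Nd → Nd → ℝ) (μ : ℝ) (K : Nd) :
    Finset Nd :=
  rg (fun K => Wf R K 0) D dev μ K 0

lemma VK_full (hR : Full R J) (hK : K ∈ R) : Full (VK R D dev μ K) K :=
  rg_full (V := fun K => Wf R K 0) (Wf_full hR hK (Nat.zero_le _)) (Nat.zero_le _)

lemma VK_sub : VK R D dev μ K ⊆ R := fun _ hp => Wf_sub (rg_subV hp)

lemma VK_good (h : FldH R D dev) (hμ : 0 ≤ μ) {p : Nd} (hp : p ∈ VK R D dev μ K) :
    gs D dev K p ≤ μ := rg_good h hμ hp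

/-- total drift of the range -/
lemma VK_drift (hR : Full R J) (h : FldH R D dev) (hμ : 0 ≤ μ) (hK : K ∈ R) :
    ∑ q ∈ VK R D dev μ K \ lf (VK R D dev μ K), len q * D q ≤ μ * len K := by
  classical
  have hF := VK_full (D := D) (dev := dev) (μ := μ) hR hK
  have h1 := drift_below_le (τ := μ) hF h.D0 (fun L hL => by
    have h2 := VK_good h hμ hL
    unfold gs at h2
    linarith [h.dev0 K L]) hF.top
  refine le_trans (le_of_eq ?_) h1
  refine Finset.sum_congr ?_ fun _ _ => rfl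
  exact (Finset.filter_eq_self.2 fun q hq => hF.reg.1 q (Finset.mem_sdiff.1 hq).1).symm

/-- **stops of the field**: the exits of a window which leave the range are paid by its own drift -/
theorem stops_le (hR : Full R J) (h : FldH R D dev) (hμ : 0 < μ) (hK : K ∈ R)
    {W : Finset Nd} (hW : Full W K) (hWV : W ⊆ VK R D dev μ K) :
    ∑ c ∈ (ex R W).filter (fun c => c ∉ VK R D dev μ K), len c ≤ 4 / μ * own R D W := by
  classical
  have hF := VK_full (D := D) (dev := dev) (μ := μ) hR hK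
  have hWR : W ⊆ R := hWV.trans VK_sub
  set A := (ex R W).filter (fun c => c ∉ VK R D dev μ K) with hA
  have mA : ∀ {c}, c ∈ A ↔ (c ∈ R ∧ c ∉ W ∧ par c ∈ W) ∧ c ∉ VK R D dev μ K := by
    intro c
    rw [hA, Finset.mem_filter, mem_ex]
  have hAW : ∀ c ∈ A, par c ∈ W := fun c hc => (mA.1 hc).1.2.2
  have hAs : ∀ c ∈ A, sib c ∈ A := by
    intro c hc
    have hm := mA.1 hc
    have h1 : sib c ∈ ex R W := ex_sib hR hW hWR (mem_ex.2 hm.1)
    refine mA.2 ⟨mem_ex.1 h1, fun hs => hm.2 ?_⟩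
    have h2 := sib_mem hF hs (by rw [par_sib]; exact hWV hm.1.2.2)
    rwa [sib_sib] at h2
  have hAn : ∀ c ∈ A, c ∉ W := fun c hc => (mA.1 hc).1.2.1
  have hATp : ∀ c ∈ A, c ∈ Tp (Wf (Wf R K 0) K 0) (gs D dev) μ K := by
    intro c hc
    have hm := mA.1 hc
    have hcK : iv c ⊆ iv K := (iv_par c).trans (hW.reg.1 _ hm.1.2.2)
    exact mem_Tp.2 ⟨mem_Wf.2 ⟨mem_Wf.2 ⟨hm.1.1, hcK, Nat.zero_le _⟩, hcK, Nat.zero_le _⟩, hcK,
      hm.2, hWV hm.1.2.2⟩
  have hfull := full_add hW hAW hAs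
  have hlf := add_sub_lf hW hAW hAn
  have hWAR : W ∪ A ⊆ R := Finset.union_subset hWR fun c hc => (mA.1 hc).1.1
  have c0 : ∑ q ∈ (W ∪ A) \ lf (W ∪ A), len q * D q ≤ own R D W := by
    unfold own
    refine Finset.sum_le_sum_of_subset_of_nonneg ?_
      fun q _ _ => mul_nonneg (Growth.len_pos q).le (h.D0 q)
    intro q hq
    have hq' := Finset.mem_sdiff.1 hq
    refine Finset.mem_filter.2 ⟨?_, (nl_sub hWAR hq'.1 hq'.2).2⟩
    rcases Finset.mem_union.1 hq'.1 with h1 | h1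
    · exact h1
    · exact absurd (hlf h1) hq'.2
  have c1 := h.le K hK _ hfull hWAR
  have c2 : ∑ c ∈ A, len c * dev K c ≤ ∑ p ∈ lf (W ∪ A), len p * dev K p :=
    Finset.sum_le_sum_of_subset_of_nonneg hlf fun p _ _ =>
      mul_nonneg (Growth.len_pos p).le (h.dev0 K p)
  have c3 := acc_lf_eq hfull D
  have c4 : ∑ c ∈ A, len c * acc D K c ≤ ∑ p ∈ lf (W ∪ A), len p * acc D K p :=
    Finset.sum_le_sum_of_subset_of_nonneg hlf fun p _ _ =>
      mul_nonneg (Growth.len_pos p).le (acc_nonneg h.D0 K p)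
  have c5 : ∑ c ∈ A, len c * gs D dev K c =
      ∑ c ∈ A, len c * dev K c + ∑ c ∈ A, len c * acc D K c := by
    unfold gs
    simp only [mul_add, Finset.sum_add_distrib]
  have c6 := half_sum (τ := μ) (A := A) (g := gs D dev K) (gs_nonneg h K) hAs
    fun c hc => Tp_bad (hATp c hc)
  have c7 : μ / 2 * ∑ c ∈ A, len c ≤ 2 * own R D W := by linarith
  have e : 4 / μ * own R D W = (2 * own R D W) / (μ / 2) := by field_simp; ring
  rw [e, le_div_iff₀ (by positivity)]
  linarith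

/-- structural window of `K` -/
noncomputable def RK (R : Finset Nd) (D : Nd → ℝ) (dev : Nd → Nd → ℝ) (μ : ℝ) (k0 j0 n0 : ℕ)
    (K : Nd) : Finset Nd := UU (VK R D dev μ K) k0 j0 n0 K

/-- window of `K` -/
noncomputable def WW (R : Finset Nd) (D : Nd → ℝ) (dev : Nd → Nd → ℝ) (μ : ℝ) (k0 j0 n0 : ℕ)
    (Er : Nd → Nd → ℝ) (τ : ℝ) (K : Nd) : Finset Nd :=
  Wd (RK R D dev μ k0 j0 n0 K) Er τ K

lemma RK_full (hR : Full R J) (hK : K ∈ R) (hk : 1 ≤ k0) (hkj : k0 ≤ j0) :
    Full (RK R D dev μ k0 j0 n0 K) K :=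
  UU_full (VK_full hR hK) (VK_full hR hK).top hk hkj

lemma RK_sub : RK R D dev μ k0 j0 n0 K ⊆ VK R D dev μ K := UU_sub

lemma WW_full (hR : Full R J) (hK : K ∈ R) (hk : 1 ≤ k0) (hkj : k0 ≤ j0) :
    Full (WW R D dev μ k0 j0 n0 Er τ K) K :=
  Wd_full (RK_full hR hK hk hkj) (RK_full hR hK hk hkj).top

lemma WW_sub : WW R D dev μ k0 j0 n0 Er τ K ⊆ RK R D dev μ k0 j0 n0 K := Wd_sub

/-- hypothesis on the error quantity: `L μ` on every antichain of the structural window -/
def HE (R : Finset Nd) (D : Nd → ℝ) (dev : Nd → Nd → ℝ) (μ : ℝ) (k0 j0 n0 : ℕ)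
    (Er : Nd → Nd → ℝ) (L : ℝ) : Prop :=
  ∀ K ∈ R, ∀ A ⊆ RK R D dev μ k0 j0 n0 K,
    (∀ c ∈ A, ∀ c' ∈ A, c ≠ c' → Disjoint (iv c) (iv c')) →
    ∑ p ∈ A, len p * Er K p ≤ L * μ * len K

/-- **total length of the exits of the window of `K`** -/
theorem WW_ex_le (hR : Full R J) (h : FldH R D dev) (hμ : 0 < μ) (hK : K ∈ R) (hk : 4 ≤ k0)
    (hkj : k0 ≤ j0) (hE0 : ∀ K p, 0 ≤ Er K p) (hE : HE R D dev μ k0 j0 n0 Er L) (hω : 0 < ω)
    (hL : 2 ^ (k0 + 3) * L ≤ ω) :
    ∑ c ∈ ex R (WW R D dev μ k0 j0 n0 Er (ω * μ) K), len c ≤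
      (1 - 1 / 2 ^ (k0 + 2)) * len K + 4 / μ * own R D (WW R D dev μ k0 j0 n0 Er (ω * μ) K) := by
  classical
  set V := VK R D dev μ K with hV
  set U := RK R D dev μ k0 j0 n0 K with hU
  set W := WW R D dev μ k0 j0 n0 Er (ω * μ) K with hW
  have hVF : Full V K := VK_full hR hK
  have hUF : Full U K := RK_full hR hK (by omega) hkj
  have hWF : Full W K := WW_full hR hK (by omega) hkj
  have hWU : W ⊆ U := WW_sub
  have hUV : U ⊆ V := RK_sub
  have h1 : ∑ c ∈ (ex R W).filter (fun c => c ∉ V), len c ≤ 4 / μ * own R D W :=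
    stops_le hR h hμ hK hWF (hWU.trans hUV)
  have h2 : ∑ c ∈ ex V U, len c ≤ (1 - 1 / 2 ^ (k0 + 1)) * len K :=
    UU_ex_le (V := V) (P := K) (k0 := k0) (j0 := j0) (n0 := n0) hVF hVF.top hk hkj
  -- spots
  set T := Tp U Er (ω * μ) K with hT
  have hTW : W = Wd U Er (ω * μ) K := rfl
  have hTd : ∀ c ∈ T, ∀ c' ∈ T, c ≠ c' → Disjoint (iv c) (iv c') := by
    intro c hc c' hc' hne
    rw [Finset.disjoint_left]
    intro y hy hy'
    rcases iv_nest hy hy' with h3 | h3
    · exact hne (Tp_disj hUF hUF.top hc hc' subset_rfl h3)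
    · exact hne (Tp_disj hUF hUF.top hc hc' h3 subset_rfl)
  have h3 : ω * μ / 2 * ∑ c ∈ T, len c ≤ ∑ c ∈ T, len c * Er K c :=
    half_sum (hE0 K) (fun c hc => Tp_sib hUF hc) fun c hc => Tp_bad hc
  have h4 := hE K hK T (fun c hc => (mem_Tp.1 hc).1) hTd
  have h5 : ∑ c ∈ T, len c ≤ 1 / 2 ^ (k0 + 2) * len K := by
    have h6 : ω * μ / 2 * ∑ c ∈ T, len c ≤ ω * μ / 2 * (1 / 2 ^ (k0 + 2) * len K) := by
      refine (h3.trans h4).trans ?_
      have h7 : ω * μ / 2 * (1 / 2 ^ (k0 + 2) * len K) = ω / 2 ^ (k0 + 3) * (μ * len K) := by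
        have e2 : (2 : ℝ) ^ (k0 + 3) = 2 * 2 ^ (k0 + 2) := by ring
        rw [e2]
        field_simp
      rw [h7, mul_assoc]
      refine mul_le_mul_of_nonneg_right ?_ (mul_nonneg hμ.le (Growth.len_pos K).le)
      rw [le_div_iff₀ (by positivity)]
      linarith
    exact le_of_mul_le_mul_left h6 (by positivity)
  -- the exits
  have hsub : ex R W ⊆ (ex R W).filter (fun c => c ∉ V) ∪ (ex V U ∪ T) := by
    intro c hc
    have hm := mem_ex.1 hc
    by_cases hcV : c ∈ V
    · refine Finset.mem_union_right _ ?_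
      by_cases hcU : c ∈ U
      · refine Finset.mem_union_right _ (mem_Tp.2 ⟨hcU, hUF.reg.1 c hcU, hm.2.1, hm.2.2⟩)
      · exact Finset.mem_union_left _ (mem_ex.2 ⟨hcV, hcU, hWU hm.2.2⟩)
    · exact Finset.mem_union_left _ (Finset.mem_filter.2 ⟨hc, hcV⟩)
  have hun : ∀ T T' : Finset Nd, ∑ c ∈ T ∪ T', len c ≤ ∑ c ∈ T, len c + ∑ c ∈ T', len c := by
    intro T T'
    have h8 := Finset.sum_union_inter (s₁ := T) (s₂ := T') (f := len)
    have h9 : 0 ≤ ∑ c ∈ T ∩ T', len c := Finset.sum_nonneg fun c _ => (Growth.len_pos c).le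
    linarith
  have h6 := Finset.sum_le_sum_of_subset_of_nonneg hsub fun c _ _ => (Growth.len_pos c).le
  have h7 := hun ((ex R W).filter (fun c => c ∉ V)) (ex V U ∪ T)
  have h8 := hun (ex V U) T
  have h9 : (1 - 1 / 2 ^ (k0 + 2)) * len K =
      (1 - 1 / 2 ^ (k0 + 1)) * len K + 1 / 2 ^ (k0 + 2) * len K := by
    have e2 : (2 : ℝ) ^ (k0 + 2) = 2 * 2 ^ (k0 + 1) := by ring
    rw [e2]
    field_simp
    ring
  rw [h9]
  linarith

open Crest.Agent.R079.GnSx263 (TreeO)

/-- **THE TREE** -/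
theorem treeO (hR : Full R J) (h : FldH R D dev) (hμ : 0 < μ) (hμ1 : μ ≤ 1) (hk : 4 ≤ k0)
    (hkj : k0 ≤ j0) (hE0 : ∀ K p, 0 ≤ Er K p) (hE : HE R D dev μ k0 j0 n0 Er L) (hω : 0 < ω)
    (hL : 2 ^ (k0 + 3) * L ≤ ω) :
    ∃ S : Finset Nd, TreeO R J D dev μ ω (2 ^ (k0 + 5)) S
      (WW R D dev μ k0 j0 n0 Er (ω * μ)) (VK R D dev μ) len Er := by
  classical
  set W := WW R D dev μ k0 j0 n0 Er (ω * μ) with hW
  have hpk : (0 : ℝ) < 2 ^ (k0 + 2) := by positivity
  have hlJ := (Growth.len_pos J).le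
  have hdr := dr_nonneg (R := R) h.D0 J
  obtain ⟨S, hP, hcnt⟩ := geo_own (W := W) (θ := 1 - 1 / 2 ^ (k0 + 2)) (B := 4 / μ) hR h.D0
    (by positivity) (by linarith [show (0 : ℝ) < 1 / 2 ^ (k0 + 2) by positivity])
    (fun K hK => WW_full hR hK (by omega) hkj)
    (fun K hK => (WW_sub.trans RK_sub).trans VK_sub)
    (fun K hK => WW_ex_le hR h hμ hK hk hkj hE0 hE hω hL)
  have hcnt2 : ∑ K ∈ S, len K ≤ 2 ^ (k0 + 2) * (len J + 4 / μ * dr R D J) := by
    have e : (1 - (1 - 1 / 2 ^ (k0 + 2))) * ∑ K ∈ S, len K = (∑ K ∈ S, len K) / 2 ^ (k0 + 2) := by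
      ring
    rw [e, div_le_iff₀ hpk] at hcnt
    linarith
  have h2k : (2 : ℝ) ^ (k0 + 5) = 8 * 2 ^ (k0 + 2) := by
    rw [show k0 + 5 = (k0 + 2) + 3 by omega, pow_add]
    norm_num
    ring
  refine ⟨S, ⟨⟨_, hP⟩, fun K hK => VK_full hR (hP.sub hK), fun K _ => WW_sub.trans RK_sub,
    fun K hK p hp => VK_good h hμ.le hp, fun K hK p hp => ?_, ?_, ?_⟩⟩
  · -- err
    have hKR := hP.sub hK
    by_cases hpK : p = K
    · have h1 := hE K hKR {K} (Finset.singleton_subset_iff.2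
        (RK_full hR hKR (by omega) hkj).top) (by
          intro c hc c' hc' hne
          rw [Finset.mem_singleton] at hc hc'
          exact absurd (hc.trans hc'.symm) hne)
      rw [Finset.sum_singleton] at h1
      have hl := Growth.len_pos K
      have h2 : Er K K ≤ L * μ := by
        have h3 : len K * Er K K ≤ len K * (L * μ) := by linarith
        exact le_of_mul_le_mul_left h3 hl
      rw [hpK]
      have h4 : L ≤ ω := by
        rcases le_or_gt 0 L with hL0 | hL0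
        · have : (1 : ℝ) ≤ 2 ^ (k0 + 3) := one_le_pow₀ (by norm_num)
          nlinarith
        · linarith
      nlinarith
    · have := mem_Wd.1 hp
      exact (this.2.2 p this.1 subset_rfl this.2.1 hpK).1
  · -- count
    refine hcnt2.trans ?_
    rw [h2k]
    have h1 : len J ≤ len J / μ := by
      rw [le_div_iff₀ hμ]
      nlinarith
    have h2 : 4 / μ * dr R D J ≤ 4 * (dr R D J / μ ^ 2) := by
      have h3 : dr R D J / μ ≤ dr R D J / μ ^ 2 := by
        refine div_le_div_of_nonneg_left hdr (by positivity) ?_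
        nlinarith
      have e : 4 / μ * dr R D J = 4 * (dr R D J / μ) := by ring
      rw [e]
      linarith
    have h3 : 0 ≤ dr R D J / μ ^ 2 := by positivity
    have h4 : 0 ≤ len J / μ := by positivity
    have h5 : len J + 4 / μ * dr R D J ≤ 8 * (len J / μ + dr R D J / μ ^ 2) := by linarith
    have h6 := mul_le_mul_of_nonneg_left h5 hpk.le
    linarith
  · -- energy
    have h1 : ∀ K ∈ S, ∑ q ∈ VK R D dev μ K \ lf (VK R D dev μ K), len q * D q + μ * len K ≤
        2 * μ * len K := fun K hK => by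
      have := VK_drift hR h hμ.le (hP.sub hK)
      linarith
    refine (Finset.sum_le_sum h1).trans ?_
    rw [← Finset.mul_sum]
    have h2 := mul_le_mul_of_nonneg_left hcnt2 (by positivity : 0 ≤ 2 * μ)
    refine h2.trans ?_
    have e : 2 * μ * (2 ^ (k0 + 2) * (len J + 4 / μ * dr R D J)) =
        2 ^ (k0 + 2) * (2 * (μ * len J) + 8 * dr R D J) := by
      field_simp
      ring
    rw [e, h2k]
    have h3 : 0 ≤ μ * len J := by positivity
    have h4 : 2 * (μ * len J) + 8 * dr R D J ≤ 8 * (dr R D J + μ * len J) := by linarith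
    have h5 := mul_le_mul_of_nonneg_left h4 hpk.le
    linarith

end Crest.Agent.R079.SbWx795
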