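import Crest.Agent.R079.TKg_248

/-! R079 (helper446): **the trivial bound of the words** (hypothesis `M` of `GnS_263.GenD`): next to a core
mixture of op-atoms and three letters bounded only in local `L²`,
`|Σ_{p ∈ W} v4 X Y p| ≤ K (1 + log (1 + Hf Ht)) La |J|` — no power of `Ht`.

* `tr_triv` : the form with a general datum `F`;
* `trivM` : `v4` on the full sub-windows of the region;
* `trivM_QC`, `trivM_QP` : powers of `t` for the core data (`CM = la + a`, any `a > 0`). -/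

set_option autoImplicit false

namespace Crest.Agent.R079.TrMx446

open Finset Crest.Agent.R079.Grid Crest.Agent.R079.Growth Crest.Agent.R079.QRed
  Crest.Agent.R079.OpS276 Crest.Agent.R079.POx263 Crest.Agent.R079.BadN360
  Crest.Agent.R079.GnMx45 Crest.Agent.R079.GnQx45 Crest.Agent.R079.AsmA844
  Crest.Agent.R079.T6bx252 Crest.Agent.R079.TRec Crest.Agent.R079.AsmG734
  Crest.Agent.R079.GnOx45 Crest.Agent.R079.WS0112 Crest.Agent.R079.TKx248

lemma l1_of_av {p : Nd} {f : Fn} (h : av p f ≤ 1) : ∑ y ∈ iv p, ‖f y‖ ≤ len p := by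
  have h1 : ∑ y ∈ iv p, ‖f y‖ ^ 2 ≤ len p := en_of_av h
  have h2 : ∑ y ∈ iv p, ‖f y‖ ≤ ∑ y ∈ iv p, (1 / 2 + ‖f y‖ ^ 2 / 2) :=
    Finset.sum_le_sum fun y _ => by nlinarith [sq_nonneg (‖f y‖ - 1)]
  refine h2.trans ?_
  have h3 : ∑ _y ∈ iv p, (1 / 2 : ℝ) = len p / 2 := by
    rw [Finset.sum_const, nsmul_eq_mul]
    rw [card_iv]
    ring
  rw [Finset.sum_add_distrib, h3, ← Finset.sum_div]
  linarith

open Classical in
/-- **trivial bound of a word** -/
theorem tr_triv : ∃ K : ℝ, 0 ≤ K ∧ ∀ (i m e e' : Fin 4), Dst4 i m e e' →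
    ∀ {bb : ℤ} {ε : ℕ → ℤ → ℂ}, Adm bb ε → ∀ (W : Finset Nd) (J I : Nd), Full W J → iv J ⊆ iv I →
    ∀ (F : Fin 4 → Fn) (Ht Hf La : ℝ), 0 < Ht → 0 < Hf →
    Rc i m e e' I Ht Hf La (F i) →
    (∀ j, j ≠ i → ∀ p ∈ W, av p (F j) ≤ 1) →
    ‖TR bb ε W F‖ ≤ K * (1 + Real.log (1 + Hf * Ht)) * (La * len J) := by
  obtain ⟨K1, hK1, h1⟩ := word3
  obtain ⟨K2, hK2, h2⟩ := tall_TR
  refine ⟨K1 + 3 * K2, by positivity, ?_⟩
  intro i m e e' hd bb ε hA W J I hW hJI F Ht Hf La hHt hHf hF hav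
  have hlJ := (Growth.len_pos J).le
  have hLa : 0 ≤ La := by
    obtain ⟨n, ψ, α, h0, -, -, h3⟩ := hF
    exact (Finset.sum_nonneg fun l _ => h0 l).trans h3
  set L : ℝ := 1 + Real.log (1 + Hf * Ht) with hL
  have hL0 : 0 ≤ L := by
    have : 0 ≤ Real.log (1 + Hf * Ht) := Real.log_nonneg (by nlinarith [mul_pos hHf hHt])
    rw [hL]
    linarith
  -- one step
  have step : ∀ (G : Fin 4 → Fn) (s : Fin 4), s ≠ i → G i = F i →
      (∀ j, j ≠ i → ∀ p ∈ W, av p (G j) ≤ 1) →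
      ‖TR bb ε W G‖ ≤ K2 * L * (La * len J) +
        ‖TR bb ε W (Function.update G s (lo 1 (G s)))‖ := by
    intro G s hs hGi hGav
    have e1 : TR bb ε W G - TR bb ε W (Function.update G s (lo 1 (G s))) =
        TR bb ε W (Function.update G s (hi 1 (G s))) := by
      have e2 := TR_sub bb ε W G s (G s) (lo 1 (G s))
      rw [Function.update_eq_self] at e2
      rw [e2]
      congr 2
      funext y
      rw [sub_eq_iff_eq_add', ← lo_add_hi]
    have e3 : TR bb ε W G = TR bb ε W (Function.update G s (hi 1 (G s))) +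
        TR bb ε W (Function.update G s (lo 1 (G s))) := by
      rw [← e1]
      ring
    have e4 := h2 i m e e' s hd hs hA W J I hW hJI G Ht Hf La 1 hHt hHf le_rfl
      (by rw [hGi]; exact hF) hGav
    rw [Real.log_one, add_zero, div_one] at e4
    rw [e3]
    exact (norm_add_le _ _).trans (add_le_add (e4.trans (le_of_eq (by rw [hL]))) le_rfl)
  have hi_m : m ≠ i := hd.jk
  obtain ⟨p, q, hmi', hmp, hmq, hip, hiq, hpq⟩ := exists_two' (Ne.symm hi_m)
  have huniv := univ4 (Ne.symm hi_m) hip hiq hmp hmq hpq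
  -- the three letters
  set G1 : Fin 4 → Fn := Function.update F m (lo 1 (F m)) with hG1
  set G2 : Fin 4 → Fn := Function.update G1 p (lo 1 (G1 p)) with hG2
  set G3 : Fin 4 → Fn := Function.update G2 q (lo 1 (G2 q)) with hG3
  have upd : ∀ (G : Fin 4 → Fn) (s : Fin 4), (∀ j, j ≠ i → ∀ p ∈ W, av p (G j) ≤ 1) →
      ∀ j, j ≠ i → ∀ p ∈ W, av p (Function.update G s (lo 1 (G s)) j) ≤ 1 := by
    intro G s hG j hj p hp
    by_cases hjs : j = s
    · subst hjs
      rw [Function.update_self]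
      exact (av_mono fun y _ => norm_lo_le' 1 (G j) y).trans (hG j hj p hp)
    · rw [Function.update_of_ne hjs]
      exact hG j hj p hp
  have a1 := upd F m hav
  have a2 := upd G1 p a1
  have a3 := upd G2 q a2
  have i1 : G1 i = F i := by rw [hG1, Function.update_of_ne (Ne.symm hi_m)]
  have i2 : G2 i = F i := by rw [hG2, Function.update_of_ne hip, i1]
  have i3 : G3 i = F i := by rw [hG3, Function.update_of_ne hiq, i2]
  have s1 := step F m hi_m rfl hav
  have s2 := step G1 p hip.symm i1 a1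
  have s3 := step G2 q hiq.symm i2 a2
  have hlow : ∀ j, j ≠ i → ∀ y, ‖G3 j y‖ ≤ 1 := by
    intro j hj y
    rcases huniv j with rfl | rfl | rfl | rfl
    · exact absurd rfl hj
    · have : G3 j = lo 1 (F j) := by
        rw [hG3, Function.update_of_ne hmq, hG2, Function.update_of_ne hmp, hG1,
          Function.update_self]
      rw [this]
      exact norm_lo_le zero_le_one _ _
    · have : G3 j = lo 1 (G1 j) := by
        rw [hG3, Function.update_of_ne hpq, hG2, Function.update_self]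
      rw [this]
      exact norm_lo_le zero_le_one _ _
    · have : G3 j = lo 1 (G2 j) := by
        rw [hG3, Function.update_self]
      rw [this]
      exact norm_lo_le zero_le_one _ _
  have h3 := h1 i m e e' m hd hi_m hA W J I hW hJI G3 Ht Hf La 1 1 hHt hHf one_pos one_pos
    (by rw [i3]; exact hF) (fun p hp => by rw [one_mul]; exact l1_of_av (a3 m hi_m p hp)) a3
    (fun j hj _ y _ => hlow j hj y)
  simp only [one_pow, mul_one, div_one] at h3
  calc ‖TR bb ε W F‖ ≤ K2 * L * (La * len J) + (K2 * L * (La * len J) +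
        (K2 * L * (La * len J) + K1 * L * (La * len J))) := by
        refine s1.trans (add_le_add le_rfl (s2.trans (add_le_add le_rfl
          (s3.trans (add_le_add le_rfl ?_)))))
        exact h3
    _ = _ := by ring

/-- **the constant `M` of `GenD`** -/
theorem trivM : ∃ K : ℝ, 0 ≤ K ∧ ∀ (i m e e' : Fin 4), Dst4 i m e e' →
    ∀ {bb : ℤ} {ε : ℕ → ℤ → ℂ}, Adm bb ε → ∀ (R0 : Finset Nd) (I : Nd), Full R0 I →
    ∀ (F : Fin 4 → Fn) (Ht Hf La : ℝ), 0 < Ht → 0 < Hf →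
    Rc i m e e' I Ht Hf La (F i) → (∀ p ∈ R0, av p (F m) ≤ 1) →
    ∀ x y : Fin 4, Oth i m x y → ∀ W J, Full W J → W ⊆ R0 → ∀ X Y : Fn,
      (∀ p ∈ W, av p X ≤ 1) → (∀ p ∈ W, av p Y ≤ 1) →
      ‖∑ p ∈ W, v4 bb ε F x y X Y p‖ ≤ K * (1 + Real.log (1 + Hf * Ht)) * La * len J := by
  obtain ⟨K, hK0, hK⟩ := tr_triv
  refine ⟨K, hK0, ?_⟩
  intro i m e e' hd bb ε hA R0 I hR0 F Ht Hf La hHt hHf hF hFm x y hO W J hW hWR X Y hX hY
  have hJI : iv J ⊆ iv I := hR0.reg.1 J (hWR hW.top)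
  have h1 := hK i m e e' hd hA W J I hW hJI (Function.update (Function.update F x X) y Y) Ht Hf La
    hHt hHf (by rw [Function.update_of_ne hO.bi.symm, Function.update_of_ne hO.ai.symm]; exact hF)
    (fun j hj p hp => by
      rcases oth_cases hd.jk.symm hO.ai hO.am hO.bi hO.bm hO.ab hj with rfl | rfl | rfl
      · rw [Function.update_of_ne hO.bm.symm, Function.update_of_ne hO.am.symm]
        exact hFm p (hWR hp)
      · rw [Function.update_of_ne hO.ab, Function.update_self]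
        exact hX p hp
      · rw [Function.update_self]
        exact hY p hp)
  unfold TR at h1
  unfold v4
  refine h1.trans (le_of_eq ?_)
  ring

/-- logarithms against small powers of `t⁻¹` -/
lemma log_small {t c a : ℝ} (ht : 0 < t) (ht1 : t ≤ 1) (hc : 0 ≤ c) (ha : 0 < a) {P : ℝ}
    (hP0 : 0 ≤ P) (hP : P ≤ 3 * t ^ (-c)) :
    1 + Real.log (1 + P) ≤ (4 + c / a) * t ^ (-a) := by
  have hta : 1 ≤ t ^ (-a) := Real.one_le_rpow_of_pos_of_le_one_of_nonpos ht ht1 (by linarith)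
  have hlog : -Real.log t ≤ t ^ (-a) / a := by
    have h1 := Real.log_le_rpow_div (inv_pos.2 ht).le ha
    rwa [Real.log_inv, Real.inv_rpow ht.le, ← Real.rpow_neg ht.le] at h1
  have htc : 1 ≤ t ^ (-c) := Real.one_le_rpow_of_pos_of_le_one_of_nonpos ht ht1 (by linarith)
  have h1 : 1 + P ≤ 4 * t ^ (-c) := by linarith
  have h2 := Real.log_le_log (by linarith : (0 : ℝ) < 1 + P) h1
  rw [Real.log_mul (by norm_num) (by linarith [htc] : t ^ (-c) ≠ 0) , Real.log_rpow ht] at h2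
  have h4 : Real.log 4 ≤ 3 := by
    have := Real.log_le_sub_one_of_pos (show (0 : ℝ) < 4 by norm_num)
    linarith
  have h5 : c * (-Real.log t) ≤ c * (t ^ (-a) / a) := mul_le_mul_of_nonneg_left hlog hc
  have h6 : c * (t ^ (-a) / a) = c / a * t ^ (-a) := by ring
  rw [h6] at h5
  nlinarith

/-- **the constant `M`, powers of `t`** (core data) -/
theorem trivM_QC {D : TRecN.Dict} {i m e e' : Fin 4} (hd : Dst4 i m e e')
    {k b cl la xx ff a : ℝ} (hk : 0 < k) (hc : 0 ≤ xx + ff) (ha : 0 < a) :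
    ∃ K : ℝ, 1 ≤ K ∧ ∀ t, 0 < t → t ≤ 1 → ∀ W I F, QC D k b cl la xx ff i m e e' t W I F →
      ∀ x y : Fin 4, Oth i m x y → ∀ bb ε, Adm bb ε → ∀ R J, Full R J → R ⊆ W →
        ∀ X Y, Sm k 1 R X Y → ∀ W' I', Full W' I' → W' ⊆ R →
          ‖∑ p ∈ W', v4 bb ε F x y X Y p‖ ≤ K * t ^ (-(la + a)) * len I' := by
  obtain ⟨K, hK0, hK⟩ := trivM
  refine ⟨max 1 (K * 621432 * (4 + (xx + ff) / a)), le_max_left _ _, ?_⟩
  intro t ht ht1 W I F hQ x y hO bb ε hA R J hR hRW X Y hS W' I' hW' hW'R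
  have hQ' : PRc D k b cl t (621432 * t ^ (-la)) (3 * t ^ (-xx)) (t ^ (-ff)) W I i m e e' F := hQ
  have P : ∀ s : ℝ, 0 < t ^ s := fun s => Real.rpow_pos_of_pos ht s
  have hlI := (Growth.len_pos I').le
  have h2 := hK i m e e' hd hA W I hQ'.full F (3 * t ^ (-xx)) (t ^ (-ff)) (621432 * t ^ (-la))
    (mul_pos (by norm_num) (P _)) (P _) hQ'.mix
    (fun p hp => (TAsm398.av_le_aq (by linarith) p (F m)).trans (hQ'.nR p hp)) x y hO
    W' I' hW' (hW'R.trans hRW) X Y
    (fun p hp => (TAsm398.av_le_aq (by linarith) p X).trans (hS p (hW'R hp)).1)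
    (fun p hp => (TAsm398.av_le_aq (by linarith) p Y).trans (hS p (hW'R hp)).2)
  refine h2.trans (mul_le_mul_of_nonneg_right ?_ hlI)
  have h3 : t ^ (-ff) * (3 * t ^ (-xx)) = 3 * t ^ (-(xx + ff)) := by
    have : t ^ (-(xx + ff)) = t ^ (-xx) * t ^ (-ff) := by
      rw [← Real.rpow_add ht]
      congr 1
      ring
    rw [this]
    ring
  have h4 := log_small (P := t ^ (-ff) * (3 * t ^ (-xx))) ht ht1 hc ha
    (mul_pos (P _) (mul_pos (by norm_num) (P _))).le h3.le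
  have h5 : 0 ≤ K * (621432 * t ^ (-la)) := mul_nonneg hK0 (mul_pos (by norm_num) (P _)).le
  have h6 : t ^ (-a) * t ^ (-la) = t ^ (-(la + a)) := by
    rw [← Real.rpow_add ht]
    congr 1
    ring
  calc K * (1 + Real.log (1 + t ^ (-ff) * (3 * t ^ (-xx)))) * (621432 * t ^ (-la)) =
        K * (621432 * t ^ (-la)) * (1 + Real.log (1 + t ^ (-ff) * (3 * t ^ (-xx)))) := by ring
    _ ≤ K * (621432 * t ^ (-la)) * ((4 + (xx + ff) / a) * t ^ (-a)) :=
        mul_le_mul_of_nonneg_left h4 h5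
    _ = K * 621432 * (4 + (xx + ff) / a) * (t ^ (-a) * t ^ (-la)) := by ring
    _ = K * 621432 * (4 + (xx + ff) / a) * t ^ (-(la + a)) := by rw [h6]
    _ ≤ _ := mul_le_mul_of_nonneg_right (le_max_right _ _) (P _).le

/-- **the constant `M` of `GenP`** for `QP` : `CM = (1 + ε) θ g_i + a`, any `a > 0` -/
theorem trivM_QP {P : WS112.Prm} (hP : WS0112.Ok0 P) {d : ℝ} {i m e e' : Fin 4}
    (hdd : Dst4 i m e e') {ε k a : ℝ} (hk : 0 < k) (ha : 0 < a) :
    ∃ K : ℝ, 1 ≤ K ∧ ∀ t, 0 < t → t ≤ 1 → ∀ W I F, QP P d i m e e' ε k t W I F →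
      ∀ x y : Fin 4, Oth i m x y → ∀ bb ε', Adm bb ε' → ∀ R J, Full R J → R ⊆ W →
        ∀ X Y, Sm k 1 R X Y → ∀ W' I', Full W' I' → W' ⊆ R →
          ‖∑ p ∈ W', v4 bb ε' F x y X Y p‖ ≤
            K * t ^ (-((1 + ε) * (P.θ * P.g i) + a)) * len I' := by
  have hθ := hP.θ0
  have hg : 0 ≤ P.θ * P.g i := mul_nonneg hθ.le (hP.g0 i)
  have hx : 0 ≤ P.θ * P.x i := mul_nonneg hθ.le (hP.x0 i)
  have hf : 0 ≤ P.θ * P.f i := mul_nonneg hθ.le (hP.f0 i)
  have hxx0 : 0 ≤ xxC P i := by unfold xxC; nlinarith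
  have hff0 : 0 ≤ ffC P i := by unfold ffC; nlinarith
  exact trivM_QC (D := WS0112.DF0 P) hdd (k := k) (b := 1) (cl := clx P d i)
    (la := (1 + ε) * (P.θ * P.g i)) (xx := xxC P i) (ff := ffC P i) hk (by linarith) ha

end Crest.Agent.R079.TrMx446
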