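import Crest.Agent.R079.GnS_263

/-! R079, Step I (helper276): **the three word totals of one generation** (`w1`, `w2`, `w3` of
`GnS_263.spM_data` / `GenD`) from the (G) totals and the per-window (S) bounds. -/

set_option autoImplicit false

namespace Crest.Agent.R079.WdTx276

open Finset Crest.Agent.R079.Grid Crest.Agent.R079.Growth Crest.Agent.R079.QRed
  Crest.Agent.R079.TWin
open Crest.Agent.R079.RelW653 (vl NMP Jv Dv)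
open Crest.Agent.R079.RelV653 Crest.Agent.R079.HWx323 Crest.Agent.R079.Chn110
open Crest.Agent.R079.TRec Crest.Agent.R079.Tailx726 Crest.Agent.R079.Stk Crest.Agent.R079.AsmA844
open Crest.Agent.R079.GnMx45 (en en_nonneg)
open Crest.Agent.R079.FLDx263 Crest.Agent.R079.GnSx263

section

variable {v : Fn → Fn → Nd → ℂ} (hB : GenT934.Bil v) {T : Finset Nd} {W : Nd → Finset Nd}

include hB

theorem sum_add1 (g P : Nd → Fn) (Y : Nd → Fn) :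
    ∑ w ∈ T, ∑ p ∈ W w, v (fun y => g w y + P w y) (Y w) p =
      ∑ w ∈ T, ∑ p ∈ W w, v (g w) (Y w) p + ∑ w ∈ T, ∑ p ∈ W w, v (P w) (Y w) p := by
  rw [← Finset.sum_add_distrib]
  refine Finset.sum_congr rfl fun w _ => ?_
  rw [← Finset.sum_add_distrib]
  exact Finset.sum_congr rfl fun p _ => hB.add1 p _ _ _

theorem sum_add2 (X : Nd → Fn) (g P : Nd → Fn) :
    ∑ w ∈ T, ∑ p ∈ W w, v (X w) (fun y => g w y + P w y) p =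
      ∑ w ∈ T, ∑ p ∈ W w, v (X w) (g w) p + ∑ w ∈ T, ∑ p ∈ W w, v (X w) (P w) p := by
  rw [← Finset.sum_add_distrib]
  refine Finset.sum_congr rfl fun w _ => ?_
  rw [← Finset.sum_add_distrib]
  exact Finset.sum_congr rfl fun p _ => hB.add2 p _ _ _

omit hB in
/-- a per-window bound summed -/
theorem sum_win {u : Nd → Nd → ℂ} {κ Cn A : ℝ} (hκ : 0 ≤ κ)
    (h : ∀ w ∈ T, ‖∑ p ∈ W w, u w p‖ ≤ κ * len w) (hc : ∑ w ∈ T, len w ≤ Cn * A) :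
    ‖∑ w ∈ T, ∑ p ∈ W w, u w p‖ ≤ κ * Cn * A := by
  refine (norm_sum_le _ _).trans ((Finset.sum_le_sum h).trans ?_)
  rw [← Finset.mul_sum, mul_assoc]
  exact mul_le_mul_of_nonneg_left hc hκ

/-- **the three totals** -/
theorem totals {g0 g1 P0 P1 X Y : Nd → Fn} {κG κS Cn A : ℝ} (hκS : 0 ≤ κS)
    (hc : ∑ w ∈ T, len w ≤ Cn * A)
    (hG1 : ‖∑ w ∈ T, ∑ p ∈ W w, v (g0 w) (Y w) p‖ ≤ κG * A)
    (hG2 : ‖∑ w ∈ T, ∑ p ∈ W w, v (X w) (g1 w) p‖ ≤ κG * A)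
    (hG3 : ‖∑ w ∈ T, ∑ p ∈ W w, v (g0 w) (g1 w) p‖ ≤ κG * A)
    (hS1 : ∀ w ∈ T, ‖∑ p ∈ W w, v (P0 w) (Y w) p‖ ≤ κS * len w)
    (hS2 : ∀ w ∈ T, ‖∑ p ∈ W w, v (X w) (P1 w) p‖ ≤ κS * len w)
    (hS3 : ∀ w ∈ T, ‖∑ p ∈ W w, v (P0 w) (g1 w) p‖ ≤ κS * len w)
    (hS4 : ∀ w ∈ T, ‖∑ p ∈ W w, v (g0 w) (P1 w) p‖ ≤ κS * len w)
    (hS5 : ∀ w ∈ T, ‖∑ p ∈ W w, v (P0 w) (P1 w) p‖ ≤ κS * len w) :
    ‖∑ w ∈ T, ∑ p ∈ W w, v (fun y => g0 w y + P0 w y) (Y w) p‖ ≤ (κG + 3 * κS * Cn) * A ∧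
    ‖∑ w ∈ T, ∑ p ∈ W w, v (X w) (fun y => g1 w y + P1 w y) p‖ ≤ (κG + 3 * κS * Cn) * A ∧
    ‖∑ w ∈ T, ∑ p ∈ W w, v (fun y => g0 w y + P0 w y) (fun y => g1 w y + P1 w y) p‖ ≤
      (κG + 3 * κS * Cn) * A := by
  have hCA : 0 ≤ Cn * A := (Finset.sum_nonneg fun q _ => (Growth.len_pos q).le).trans hc
  have hk : 0 ≤ κS * (Cn * A) := mul_nonneg hκS hCA
  have s1 := sum_win hκS hS1 hc
  have s2 := sum_win hκS hS2 hc
  have s3 := sum_win hκS hS3 hc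
  have s4 := sum_win hκS hS4 hc
  have s5 := sum_win hκS hS5 hc
  refine ⟨?_, ?_, ?_⟩
  · rw [sum_add1 hB]
    refine (norm_add_le _ _).trans ((add_le_add hG1 s1).trans ?_)
    nlinarith
  · rw [sum_add2 hB]
    refine (norm_add_le _ _).trans ((add_le_add hG2 s2).trans ?_)
    nlinarith
  · rw [sum_add1 hB g0 P0 (fun w y => g1 w y + P1 w y), sum_add2 hB g0 g1 P1,
      sum_add2 hB P0 g1 P1]
    refine (norm_add_le _ _).trans ((add_le_add (norm_add_le _ _) (norm_add_le _ _)).trans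
      ((add_le_add (add_le_add hG3 s4) (add_le_add s3 s5)).trans ?_))
    nlinarith

end

/-- the count of the tree in the form used for the per-window bounds -/
theorem cnt_of {R : Finset Nd} {J : Nd} {D : Nd → ℝ} {dev : Nd → Nd → ℝ} {μ ω Ct : ℝ}
    {S : Finset Nd} {W Rg : Nd → Finset Nd} {dlt : Nd → ℝ} {Er : Nd → Nd → ℝ} {X Y : Fn}
    (hT : TreeO R J D dev μ ω Ct S W Rg dlt Er) (hμ : 0 < μ) (hCt : 0 ≤ Ct)
    (hdr : dr R D J ≤ (μ + en J X Y) * len J) {T : Finset Nd} (hTS : T ⊆ S) :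
    ∑ w ∈ T, len w ≤ 2 * Ct / μ ^ 2 * ((μ + en J X Y) * len J) := by
  have hlJ : 0 ≤ len J := (Growth.len_pos J).le
  have hen : 0 ≤ en J X Y := en_nonneg _ _ _
  have h0 : ∑ w ∈ T, len w ≤ ∑ w ∈ S, len w :=
    Finset.sum_le_sum_of_subset_of_nonneg hTS fun q _ _ => (Growth.len_pos q).le
  refine h0.trans (hT.cnt.trans ?_)
  have h1 : len J / μ ≤ (μ + en J X Y) * len J / μ ^ 2 := by
    rw [div_le_div_iff₀ hμ (by positivity)]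
    have : 0 ≤ en J X Y * len J * μ := by positivity
    nlinarith
  have h2 : dr R D J / μ ^ 2 ≤ (μ + en J X Y) * len J / μ ^ 2 :=
    div_le_div_of_nonneg_right hdr (by positivity)
  calc Ct * (len J / μ + dr R D J / μ ^ 2) ≤
      Ct * ((μ + en J X Y) * len J / μ ^ 2 + (μ + en J X Y) * len J / μ ^ 2) :=
        mul_le_mul_of_nonneg_left (add_le_add h1 h2) hCt
    _ = _ := by ring

/-- **`w1`, `w2`, `w3` of `GenD`** -/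
theorem words_genD {v : Fn → Fn → Nd → ℂ} (hB : GenT934.Bil v) {R : Finset Nd} {J : Nd}
    {D : Nd → ℝ} {dev : Nd → Nd → ℝ} {μ ω Ct : ℝ} {S : Finset Nd} {W Rg : Nd → Finset Nd}
    {dlt : Nd → ℝ} {Er : Nd → Nd → ℝ} {X Y : Fn}
    (hT : TreeO R J D dev μ ω Ct S W Rg dlt Er) (hμ : 0 < μ) (hCt : 0 ≤ Ct)
    (hdr : dr R D J ≤ (μ + en J X Y) * len J) {f : Fin 2 → Nd → Fn} {Psi : Fin 2 → Nd → Fn}
    {n : ℕ} {κG κS : ℝ} (hκS : 0 ≤ κS)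
    (hG1 : ‖∑ w ∈ S.filter (fun w => idx S w ≤ n), ∑ p ∈ W w, v (gl (W w) (f 0)) Y p‖ ≤
      κG * ((μ + en J X Y) * len J))
    (hG2 : ‖∑ w ∈ S.filter (fun w => idx S w ≤ n), ∑ p ∈ W w, v X (gl (W w) (f 1)) p‖ ≤
      κG * ((μ + en J X Y) * len J))
    (hG3 : ‖∑ w ∈ S.filter (fun w => idx S w ≤ n), ∑ p ∈ W w,
      v (gl (W w) (f 0)) (gl (W w) (f 1)) p‖ ≤ κG * ((μ + en J X Y) * len J))
    (hS1 : ∀ w ∈ S, idx S w ≤ n → ‖∑ p ∈ W w, v (Psi 0 w) Y p‖ ≤ κS * len w)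
    (hS2 : ∀ w ∈ S, idx S w ≤ n → ‖∑ p ∈ W w, v X (Psi 1 w) p‖ ≤ κS * len w)
    (hS3 : ∀ w ∈ S, idx S w ≤ n → ‖∑ p ∈ W w, v (Psi 0 w) (gl (W w) (f 1)) p‖ ≤ κS * len w)
    (hS4 : ∀ w ∈ S, idx S w ≤ n → ‖∑ p ∈ W w, v (gl (W w) (f 0)) (Psi 1 w) p‖ ≤ κS * len w)
    (hS5 : ∀ w ∈ S, idx S w ≤ n → ‖∑ p ∈ W w, v (Psi 0 w) (Psi 1 w) p‖ ≤ κS * len w) :
    ‖∑ w ∈ S.filter (fun w => idx S w ≤ n), ∑ p ∈ W w, v (Gk f W Psi 0 w) Y p‖ ≤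
      (κG + 6 * κS * Ct / μ ^ 2) * (μ + en J X Y) * len J ∧
    ‖∑ w ∈ S.filter (fun w => idx S w ≤ n), ∑ p ∈ W w, v X (Gk f W Psi 1 w) p‖ ≤
      (κG + 6 * κS * Ct / μ ^ 2) * (μ + en J X Y) * len J ∧
    ‖∑ w ∈ S.filter (fun w => idx S w ≤ n), ∑ p ∈ W w,
      v (Gk f W Psi 0 w) (Gk f W Psi 1 w) p‖ ≤
      (κG + 6 * κS * Ct / μ ^ 2) * (μ + en J X Y) * len J := by
  have hc := cnt_of hT hμ hCt hdr (Finset.filter_subset (fun w => idx S w ≤ n) S)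
  have key : ∀ {u : Nd → Nd → ℂ}, (∀ w ∈ S, idx S w ≤ n → ‖∑ p ∈ W w, u w p‖ ≤ κS * len w) →
      ∀ w ∈ S.filter (fun w => idx S w ≤ n), ‖∑ p ∈ W w, u w p‖ ≤ κS * len w := fun h w hw =>
    h w (Finset.mem_filter.1 hw).1 (Finset.mem_filter.1 hw).2
  obtain ⟨t1, t2, t3⟩ := totals hB (X := fun _ => X) (Y := fun _ => Y) hκS hc hG1 hG2 hG3
    (key hS1) (key hS2) (key hS3) (key hS4) (key hS5)
  have e : (κG + 3 * κS * (2 * Ct / μ ^ 2)) * ((μ + en J X Y) * len J) =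
      (κG + 6 * κS * Ct / μ ^ 2) * (μ + en J X Y) * len J := by ring
  rw [e] at t1 t2 t3
  exact ⟨t1, t2, t3⟩

end Crest.Agent.R079.WdTx276
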