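import Crest.Agent.R079.GaD_571
import Crest.Agent.R079.NI_112
import Crest.Agent.R079.WdT_276
import Crest.Agent.R079.SbY_795
import Crest.Agent.R079.TrM_446

/-! R079, T7 (helper263): SETUP of one generation for the core data.

* `Su` : the data of one generation: core data `QP` at the parameter `t`, the family `Fam` of the frozen
  letter, the two free letters `Z 0`, `Z 1` in the slots `xy 0`, `xy 1` = `i.succAbove (es c + 2)`;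
* `Gn1` : what the tree, the frames and the words have to deliver;
* **`genP_of`** : `GnN_263.GenP` from `Gn1` for all small `η` and all near-minimisers of 571's `PhiE`. -/

set_option autoImplicit false

namespace Crest.Agent.R079.GnUx263

open Finset Crest.Agent.R079.Grid Crest.Agent.R079.Growth Crest.Agent.R079.QRed
  Crest.Agent.R079.TWin
open Crest.Agent.R079.RelW653 (vl NMP Jv Dv)
open Crest.Agent.R079.RelV653 Crest.Agent.R079.HWx323 Crest.Agent.R079.Chn110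
open Crest.Agent.R079.TRec Crest.Agent.R079.T6bx252 Crest.Agent.R079.Tailx726 Crest.Agent.R079.Stk
  Crest.Agent.R079.AsmA844
open Crest.Agent.R079.GnMx45 (en en_nonneg)
open Crest.Agent.R079.FLDx263 Crest.Agent.R079.GnSx263 Crest.Agent.R079.GnNx263
  Crest.Agent.R079.PFx263 Crest.Agent.R079.GaDx571 Crest.Agent.R079.GaFx371
  Crest.Agent.R079.WS112 Crest.Agent.R079.WS0112 Crest.Agent.R079.POx263
  Crest.Agent.R079.OpS276

lemma f3e : ∀ v : Fin 3, v + 1 + 2 = v := by decide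

/-- cap of the weight -/
noncomputable def HtC (P : Prm) (i : Fin 4) (t : ℝ) : ℝ := 3 * t ^ (-(xxC P i))

/-- fibre cap -/
noncomputable def HfC (P : Prm) (i : Fin 4) (t : ℝ) : ℝ := t ^ (-(ffC P i))

/-- mass -/
noncomputable def LaC (P : Prm) (ε : ℝ) (i : Fin 4) (t : ℝ) : ℝ :=
  621432 * t ^ (-((1 + ε) * (P.θ * P.g i)))

lemma HtC_pos (P : Prm) (i : Fin 4) {t : ℝ} (ht : 0 < t) : 0 < HtC P i t :=
  mul_pos (by norm_num) (Real.rpow_pos_of_pos ht _)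

lemma HfC_pos (P : Prm) (i : Fin 4) {t : ℝ} (ht : 0 < t) : 0 < HfC P i t :=
  Real.rpow_pos_of_pos ht _

lemma LaC_pos (P : Prm) (ε : ℝ) (i : Fin 4) {t : ℝ} (ht : 0 < t) : 0 < LaC P ε i t :=
  mul_pos (by norm_num) (Real.rpow_pos_of_pos ht _)

/-- **SETUP of one generation** -/
structure Su (P : Prm) (d ε k q3 : ℝ) (i m e e' : Fin 4) (N : ℕ) (B t : ℝ) (W : Finset Nd) (I : Nd)
    (F : Fin 4 → Fn) (xy : Fin 2 → Fin 4) (bb : ℤ) (E : ℕ → ℤ → ℂ) (R : Finset Nd) (J : Nd)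
    (Z : Fin 2 → Fn) (v : Fin 3) (n : ℕ) (T : Fin n → Fin 3 → Finset ℤ)
    (g : Fin n → Fin 3 → ℤ → ℤ → ℂ) (al : Fin n → ℤ → ℝ) (mu : Fin n → ℝ) (es : Fin 2 → Fin 3) :
    Prop where
  dst : Dst4 i m e e'
  B0 : 0 ≤ B
  BN : BN k q3 N B
  t0 : 0 < t
  Q : QP P d i m e e' ε k t W I F
  lN : I.1 ≤ N
  oth : Oth i m (xy 0) (xy 1)
  adm : Adm bb E
  full : Full R J
  sub : R ⊆ W
  sm : Sm k 1 R (Z 0) (Z 1)
  fam : Fam i m v I (HtC P i t) (HfC P i t) (LaC P ε i t) n (F i) T g al mu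
  slot : ∀ c, i.succAbove (es c + 2) = xy c

section

variable {P : Prm} {d ε k q3 : ℝ} {i m e e' : Fin 4} {N : ℕ} {B t : ℝ} {W : Finset Nd} {I : Nd}
  {F : Fin 4 → Fn} {xy : Fin 2 → Fin 4} {bb : ℤ} {E : ℕ → ℤ → ℂ} {R : Finset Nd} {J : Nd}
  {Z : Fin 2 → Fn} {v : Fin 3} {n : ℕ} {T : Fin n → Fin 3 → Finset ℤ}
  {g : Fin n → Fin 3 → ℤ → ℤ → ℂ} {al : Fin n → ℤ → ℝ} {mu : Fin n → ℝ} {es : Fin 2 → Fin 3}

/-- core data -/
theorem Su.prc (h : Su P d ε k q3 i m e e' N B t W I F xy bb E R J Z v n T g al mu es) :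
    PRc (DF0 P) k 1 (clx P d i) t (LaC P ε i t) (HtC P i t) (HfC P i t) W I i m e e' F := h.Q

theorem Su.W_full (h : Su P d ε k q3 i m e e' N B t W I F xy bb E R J Z v n T g al mu es) :
    Full W I := h.prc.full

theorem Su.JI (h : Su P d ε k q3 i m e e' N B t W I F xy bb E R J Z v n T g al mu es) :
    iv J ⊆ iv I := h.W_full.reg.1 J (h.sub h.full.top)

theorem Su.lev (h : Su P d ε k q3 i m e e' N B t W I F xy bb E R J Z v n T g al mu es) :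
    J.1 ≤ I.1 := Growth.iv_level h.JI

theorem Su.eps (h : Su P d ε k q3 i m e e' N B t W I F xy bb E R J Z v n T g al mu es) :
    ∀ m x, ‖E m x‖ ≤ 1 := h.adm.2

theorem Su.avZ (h : Su P d ε k q3 i m e e' N B t W I F xy bb E R J Z v n T g al mu es)
    (hk : 0 ≤ k) (c : Fin 2) : ∀ p ∈ R, av p (Z c) ≤ 1 := by
  intro p hp
  have h1 := h.sm p hp
  fin_cases c
  · exact (TAsm398.av_le_aq (by linarith) p _).trans h1.1
  · exact (TAsm398.av_le_aq (by linarith) p _).trans h1.2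

theorem Su.avm (h : Su P d ε k q3 i m e e' N B t W I F xy bb E R J Z v n T g al mu es)
    (hk : 0 ≤ k) : ∀ p ∈ W, av p (F m) ≤ 1 := fun p hp =>
  (TAsm398.av_le_aq (by linarith) p _).trans (h.prc.nR p hp)

theorem Su.avi (h : Su P d ε k q3 i m e e' N B t W I F xy bb E R J Z v n T g al mu es) :
    ∀ p ∈ W, av p (F i) ≤ 4 * t ^ (-(clx P d i)) := h.prc.avP

/-- the slots of the free letters -/
theorem Su.es_ne (h : Su P d ε k q3 i m e e' N B t W I F xy bb E R J Z v n T g al mu es)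
    (c : Fin 2) : es c ≠ v + 1 := by
  intro hc
  have h1 := h.slot c
  have h2 : es c + 2 = v := by rw [hc]; exact Crest.Agent.R079.GnUx263.f3e v
  rw [h2, h.fam.vm] at h1
  fin_cases c
  · exact h.oth.am h1.symm
  · exact h.oth.bm h1.symm

theorem Su.es01 (h : Su P d ε k q3 i m e e' N B t W I F xy bb E R J Z v n T g al mu es) :
    es 0 ≠ es 1 := by
  intro hc
  apply h.oth.ab
  rw [← h.slot 0, ← h.slot 1, hc]

end

/-- **what one generation has to deliver** (`μ = t ^ c1`) -/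
def Gn1 (m0 ω Ct κ1 : ℝ) (nS : ℕ) (xy : Fin 2 → Fin 4) (F : Fin 4 → Fn)
    (bb : ℤ) (E : ℕ → ℤ → ℂ) (R : Finset Nd) (J : Nd) (Z : Fin 2 → Fn) (Φ : Fin 2 → Nd → Fn → ℝ)
    (η : ℝ) (f : Fin 2 → Nd → Fn) : Prop :=
  ∃ (S : Finset Nd) (W' Rg : Nd → Finset Nd) (Psi : Fin 2 → Nd → Fn),
    TreeO R J (DF Φ Z f η) (dvF f) m0 ω Ct S W' Rg len
      (fun K p => ∑ c', av p (ek Z f Rg Psi c' K) ^ 2) ∧
    ‖∑ w ∈ S.filter (fun w => idx S w ≤ nS), ∑ p ∈ W' w,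
      v4 bb E F (xy 0) (xy 1) (Gk f W' Psi 0 w) (Z 1) p‖ ≤
      κ1 * (m0 + en J (Z 0) (Z 1)) * len J ∧
    ‖∑ w ∈ S.filter (fun w => idx S w ≤ nS), ∑ p ∈ W' w,
      v4 bb E F (xy 0) (xy 1) (Z 0) (Gk f W' Psi 1 w) p‖ ≤
      κ1 * (m0 + en J (Z 0) (Z 1)) * len J ∧
    ‖∑ w ∈ S.filter (fun w => idx S w ≤ nS), ∑ p ∈ W' w,
      v4 bb E F (xy 0) (xy 1) (Gk f W' Psi 0 w) (Gk f W' Psi 1 w) p‖ ≤
      κ1 * (m0 + en J (Z 0) (Z 1)) * len J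

/-- the functionals of the two slots (571's `PhiE`) -/
noncomputable def PhiC (P : Prm) (ε : ℝ) (i : Fin 4) {n : ℕ} (T : Fin n → Fin 3 → Finset ℤ)
    (g : Fin n → Fin 3 → ℤ → ℤ → ℂ) (mu : Fin n → ℝ) (I : Nd) (t kap : ℝ) (kc Kl : ℕ) (r : ℕ → ℝ)
    (es : Fin 2 → Fin 3) (c : Fin 2) : Nd → Fn → ℝ :=
  PhiE i (es c) T g mu I (LaC P ε i t) kap kc Kl r

/-- **`GenP` from one generation** for all small `η` and all near-minimisers of the functionals `PhiC` -/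
theorem genP_of {P : Prm} {d ε k q3 : ℝ} {i m e e' : Fin 4} (hdd : Dst4 i m e e')
    {c1 a gE CM nE t0 K : ℝ} (ht01 : t0 ≤ 1) (kap : ℝ → ℝ) (kc : ℝ → ℕ) (Kl : ℝ → ℕ)
    (r : ℝ → ℕ → ℝ) (hkap : ∀ t, 0 < t → t ≤ t0 → 0 ≤ kap t)
    (hr : ∀ t, 0 < t → t ≤ t0 → ∀ q, 0 ≤ r t q)
    (hM : ∀ {N : ℕ} {B t : ℝ} {W : Finset Nd} {I : Nd} {F : Fin 4 → Fn} {xy : Fin 2 → Fin 4}
      {bb : ℤ} {E : ℕ → ℤ → ℂ} {R : Finset Nd} {J : Nd} {Z : Fin 2 → Fn} {v : Fin 3} {n : ℕ}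
      {T : Fin n → Fin 3 → Finset ℤ} {g : Fin n → Fin 3 → ℤ → ℤ → ℂ} {al : Fin n → ℤ → ℝ}
      {mu : Fin n → ℝ} {es : Fin 2 → Fin 3},
      Su P d ε k q3 i m e e' N B t W I F xy bb E R J Z v n T g al mu es → t ≤ t0 →
      ∀ W' I', Full W' I' → W' ⊆ R →
        ‖∑ p ∈ W', v4 bb E F (xy 0) (xy 1) (Z 0) (Z 1) p‖ ≤ K * t ^ (-CM) * len I')
    (hG : ∀ {N : ℕ} {B t : ℝ} {W : Finset Nd} {I : Nd} {F : Fin 4 → Fn} {xy : Fin 2 → Fin 4}
      {bb : ℤ} {E : ℕ → ℤ → ℂ} {R : Finset Nd} {J : Nd} {Z : Fin 2 → Fn} {v : Fin 3} {n : ℕ}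
      {T : Fin n → Fin 3 → Finset ℤ} {g : Fin n → Fin 3 → ℤ → ℤ → ℂ} {al : Fin n → ℤ → ℝ}
      {mu : Fin n → ℝ} {es : Fin 2 → Fin 3},
      Su P d ε k q3 i m e e' N B t W I F xy bb E R J Z v n T g al mu es → t ≤ t0 →
      ∃ η0 : ℝ, 0 < η0 ∧ ∀ η, 0 < η → η ≤ η0 → ∀ f : Fin 2 → Nd → Fn,
        (∀ c', NMP (fun _ _ => True)
          (PhiC P ε i T g mu I t (kap t) (kc t) (Kl t) (r t) es c') (Z c') η (f c')) →
        Gn1 (t ^ c1) (K * t ^ (-a)) (K * t ^ (-a)) (K * (1 + B) * t ^ gE) (nn t nE) xy F bb E R J Z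
          (PhiC P ε i T g mu I t (kap t) (kc t) (Kl t) (r t) es) η f) :
    GenP (QP P d i m e e' ε k) k q3 c1 a gE CM nE t0 K i m := by
  intro N B hB hBN t ht htt W I F hQ hIN x y hO bb E hA R J hR hRW X Y hXY
  have ht1 : t ≤ 1 := htt.trans ht01
  obtain ⟨v, n, T, g, al, mu, hfam⟩ := PRc.fam hdd (HfC_pos P i ht).le
    (show PRc (DF0 P) k 1 (clx P d i) t (LaC P ε i t) (HtC P i t) (HfC P i t) W I i m e e' F from hQ)
  -- the slots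
  have hslot : ∀ a : Fin 4, a ≠ i → ∃ s : Fin 3, i.succAbove (s + 2) = a := by
    intro a ha
    obtain ⟨s, hs⟩ := Fin.exists_succAbove_eq ha
    refine ⟨s + 1, ?_⟩
    rw [f3e, hs]
  obtain ⟨s0, hs0⟩ := hslot x hO.ai
  obtain ⟨s1, hs1⟩ := hslot y hO.bi
  set xy : Fin 2 → Fin 4 := ![x, y] with hxy
  set es : Fin 2 → Fin 3 := ![s0, s1] with hes
  set Z : Fin 2 → Fn := ![X, Y] with hZ
  have hSu : Su P d ε k q3 i m e e' N B t W I F xy bb E R J Z v n T g al mu es :=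
    { dst := hdd, B0 := hB, BN := hBN, t0 := ht, Q := hQ, lN := hIN, oth := hO, adm := hA,
      full := hR, sub := hRW, sm := hXY, fam := hfam,
      slot := fun c => by fin_cases c; exacts [hs0, hs1] }
  obtain ⟨η0, hη0, hG1⟩ := hG hSu htt
  set Φ := PhiC P ε i T g mu I t (kap t) (kc t) (Kl t) (r t) es with hΦ
  have hP : ∀ c', PenC 0 (fun _ _ => True) (Φ c') := fun c' =>
    penPhi hfam (es c') (hkap t ht htt) (LaC_pos P ε i ht) (kc t) (Kl t) (hr t ht htt)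
  set m0 : ℝ := t ^ c1 with hm0
  have hm0p : 0 < m0 := Real.rpow_pos_of_pos ht _
  set η1 : ℝ := m0 / (2 * (1 + 2 * J.1)) with hη1
  have hJ0 : (0 : ℝ) ≤ J.1 := Nat.cast_nonneg _
  have hη1p : 0 < η1 := by positivity
  set η : ℝ := min η0 η1 with hη
  have hηp : 0 < η := lt_min hη0 hη1p
  have hex : ∀ c', ∃ f : Nd → Fn, NMP (fun _ _ => True) (Φ c') (Z c') η f := fun c' =>
    exists_NMP (hP c') (Z c') hηp
  choose f hf using hex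
  obtain ⟨S, W', Rg, Psi, hT, w1, w2, w3⟩ := hG1 η hηp (min_le_left _ _) f hf
  refine ⟨fun _ => 0, fun _ _ _ => True, Φ, Z, η, f, S, W', Rg, len,
    fun K p => ∑ c', av p (ek Z f Rg Psi c' K) ^ 2, Psi, 0, rfl, rfl, hP, hf, hT,
    fun K _ p _ => le_refl _, le_refl _, by positivity, ?_, fun K _ => (Growth.len_pos K).le, ?_,
    fun W' I' h1 h2 => hM hSu htt W' I' h1 h2, w1, w2, w3⟩
  · intro K' hK'
    obtain ⟨C, hPt⟩ := hT.part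
    have hKK : K' ∈ W' K' := (hPt.full K' hK').top
    have h1 := hT.err K' hK' K' hKK
    have h2 : 0 ≤ ∑ c', av K' (ek Z f Rg Psi c' K') ^ 2 := Finset.sum_nonneg fun _ _ => sq_nonneg _
    have h3 : 0 ≤ K * t ^ (-a) := by
      by_contra h4
      push Not at h4
      have : K * t ^ (-a) * m0 < 0 := mul_neg_of_neg_of_pos h4 hm0p
      linarith
    have h5 : 0 ≤ ∑ q ∈ Rg K' \ lf (Rg K'), len q * DF Φ Z f η q :=
      Finset.sum_nonneg fun q _ => mul_nonneg (Growth.len_pos q).le (DF_nonneg hP hf q)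
    have h6 := mul_le_mul_of_nonneg_left h1 (Growth.len_pos K').le
    have h7 := mul_nonneg h3 h5
    calc len K' * ∑ c', av K' (ek Z f Rg Psi c' K') ^ 2 ≤ len K' * (K * t ^ (-a) * m0) := h6
      _ ≤ _ := by nlinarith
  · refine (dr_fam hP hf hR hR.top).trans ?_
    rw [Fin.sum_univ_two]
    have h1 : η * (1 + 2 * (J.1 : ℝ)) ≤ m0 / 2 := by
      have h2 : η ≤ η1 := min_le_right _ _
      have h3 : η * (1 + 2 * (J.1 : ℝ)) ≤ η1 * (1 + 2 * J.1) :=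
        mul_le_mul_of_nonneg_right h2 (by positivity)
      refine h3.trans (le_of_eq ?_)
      rw [hη1]
      field_simp
    have h4 := (Growth.len_pos J).le
    have e0 : av J (Z 0) = av J X := rfl
    have e1 : av J (Z 1) = av J Y := rfl
    rw [e0, e1]
    unfold en
    nlinarith [mul_le_mul_of_nonneg_left h1 h4]

/-! ### one generation from the errors of the frames and the words -/

section

open Crest.Agent.R079.SbWx795

variable {R : Finset Nd} {J : Nd} {Z : Fin 2 → Fn} {Φ : Fin 2 → Nd → Fn → ℝ} {η : ℝ}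
  {f : Fin 2 → Nd → Fn} {m0 L : ℝ} {k0 j0 n0 : ℕ} {Psi : Fin 2 → Nd → Fn}

/-- range of the top `K` -/
noncomputable def VG (R : Finset Nd) (Φ : Fin 2 → Nd → Fn → ℝ) (Z : Fin 2 → Fn) (η : ℝ)
    (f : Fin 2 → Nd → Fn) (m0 : ℝ) : Nd → Finset Nd := VK R (DF Φ Z f η) (dvF f) m0

/-- error field of the frames -/
noncomputable def ErG (R : Finset Nd) (Φ : Fin 2 → Nd → Fn → ℝ) (Z : Fin 2 → Fn) (η : ℝ)
    (f : Fin 2 → Nd → Fn) (m0 : ℝ) (Psi : Fin 2 → Nd → Fn) (K p : Nd) : ℝ :=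
  ∑ c', av p (ek Z f (VG R Φ Z η f m0) Psi c' K) ^ 2

/-- window of the top `K` -/
noncomputable def WG (R : Finset Nd) (Φ : Fin 2 → Nd → Fn → ℝ) (Z : Fin 2 → Fn) (η : ℝ)
    (f : Fin 2 → Nd → Fn) (m0 : ℝ) (k0 j0 n0 : ℕ) (Psi : Fin 2 → Nd → Fn) (ω : ℝ) :
    Nd → Finset Nd :=
  WW R (DF Φ Z f η) (dvF f) m0 k0 j0 n0 (ErG R Φ Z η f m0 Psi) (ω * m0)

lemma ErG_nonneg (K p : Nd) : 0 ≤ ErG R Φ Z η f m0 Psi K p :=
  Finset.sum_nonneg fun _ _ => sq_nonneg _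

/-- the hypothesis `HE` of the tree from the energy of the errors at the tops -/
theorem hE_of (hR : Full R J)
    (hE : ∀ K ∈ R, ∑ c', len K * av K (ek Z f (VG R Φ Z η f m0) Psi c' K) ^ 2 ≤ L * m0 * len K) :
    HE R (DF Φ Z f η) (dvF f) m0 k0 j0 n0 (ErG R Φ Z η f m0 Psi) L := by
  intro K hK A hA hdis
  refine le_trans ?_ (hE K hK)
  unfold ErG
  simp only [Finset.mul_sum]
  rw [Finset.sum_comm]
  refine Finset.sum_le_sum fun c' _ => ?_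
  have hsub : ∀ p ∈ A, iv p ⊆ iv K := fun p hp =>
    (VK_full (D := DF Φ Z f η) (dev := dvF f) (μ := m0) hR hK).reg.1 p (RK_sub (hA hp))
  have h1 : ∀ p : Nd, len p * av p (ek Z f (VG R Φ Z η f m0) Psi c' K) ^ 2 =
      ∑ y ∈ iv p, ‖ek Z f (VG R Φ Z η f m0) Psi c' K y‖ ^ 2 := fun p => (Growth.sum_av _ _).symm
  rw [h1 K]
  simp only [h1]
  rw [← Finset.sum_biUnion (fun p hp q hq hpq => hdis p hp q hq hpq)]
  exact Finset.sum_le_sum_of_subset_of_nonneg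
    (Finset.biUnion_subset.2 fun p hp => hsub p hp) fun _ _ _ => sq_nonneg _

/-- **`Gn1` from the frames and the words** -/
theorem gn1_of {c : Fin 2 → ℝ} {Kw : Fin 2 → Nd → Fn → Prop}
    (hP : ∀ c', PenC (c c') (Kw c') (Φ c')) (hf : ∀ c', NMP (Kw c') (Φ c') (Z c') η (f c'))
    (hR : Full R J) (hm : 0 < m0) (hm1 : m0 ≤ 1) (hk : 4 ≤ k0) (hkj : k0 ≤ j0)
    {ω Ct κ1 κG κS : ℝ} {nS : ℕ} {xy : Fin 2 → Fin 4} (hxy : xy 0 ≠ xy 1) {F : Fin 4 → Fn} {bb : ℤ}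
    {E : ℕ → ℤ → ℂ} (hω : 0 < ω) (hL : 2 ^ (k0 + 3) * L ≤ ω) (hCt : 2 ^ (k0 + 5) ≤ Ct)
    (hκS : 0 ≤ κS) (hκ : κG + 6 * κS * 2 ^ (k0 + 5) / m0 ^ 2 ≤ κ1)
    (hdr : dr R (DF Φ Z f η) J ≤ (m0 + en J (Z 0) (Z 1)) * len J)
    (hE : ∀ K ∈ R, ∑ c', len K * av K (ek Z f (VG R Φ Z η f m0) Psi c' K) ^ 2 ≤ L * m0 * len K)
    (hG : ∀ S, TreeO R J (DF Φ Z f η) (dvF f) m0 ω (2 ^ (k0 + 5)) S
        (WG R Φ Z η f m0 k0 j0 n0 Psi ω) (VG R Φ Z η f m0) len (ErG R Φ Z η f m0 Psi) →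
      ‖∑ w ∈ S.filter (fun w => idx S w ≤ nS), ∑ p ∈ WG R Φ Z η f m0 k0 j0 n0 Psi ω w,
        v4 bb E F (xy 0) (xy 1) (gl (WG R Φ Z η f m0 k0 j0 n0 Psi ω w) (f 0)) (Z 1) p‖ ≤
        κG * ((m0 + en J (Z 0) (Z 1)) * len J) ∧
      ‖∑ w ∈ S.filter (fun w => idx S w ≤ nS), ∑ p ∈ WG R Φ Z η f m0 k0 j0 n0 Psi ω w,
        v4 bb E F (xy 0) (xy 1) (Z 0) (gl (WG R Φ Z η f m0 k0 j0 n0 Psi ω w) (f 1)) p‖ ≤
        κG * ((m0 + en J (Z 0) (Z 1)) * len J) ∧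
      ‖∑ w ∈ S.filter (fun w => idx S w ≤ nS), ∑ p ∈ WG R Φ Z η f m0 k0 j0 n0 Psi ω w,
        v4 bb E F (xy 0) (xy 1) (gl (WG R Φ Z η f m0 k0 j0 n0 Psi ω w) (f 0))
          (gl (WG R Φ Z η f m0 k0 j0 n0 Psi ω w) (f 1)) p‖ ≤
        κG * ((m0 + en J (Z 0) (Z 1)) * len J))
    (hS : ∀ w ∈ R,
      ‖∑ p ∈ WG R Φ Z η f m0 k0 j0 n0 Psi ω w, v4 bb E F (xy 0) (xy 1) (Psi 0 w) (Z 1) p‖ ≤
        κS * len w ∧
      ‖∑ p ∈ WG R Φ Z η f m0 k0 j0 n0 Psi ω w, v4 bb E F (xy 0) (xy 1) (Z 0) (Psi 1 w) p‖ ≤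
        κS * len w ∧
      ‖∑ p ∈ WG R Φ Z η f m0 k0 j0 n0 Psi ω w, v4 bb E F (xy 0) (xy 1) (Psi 0 w)
        (gl (WG R Φ Z η f m0 k0 j0 n0 Psi ω w) (f 1)) p‖ ≤ κS * len w ∧
      ‖∑ p ∈ WG R Φ Z η f m0 k0 j0 n0 Psi ω w, v4 bb E F (xy 0) (xy 1)
        (gl (WG R Φ Z η f m0 k0 j0 n0 Psi ω w) (f 0)) (Psi 1 w) p‖ ≤ κS * len w ∧
      ‖∑ p ∈ WG R Φ Z η f m0 k0 j0 n0 Psi ω w, v4 bb E F (xy 0) (xy 1) (Psi 0 w) (Psi 1 w) p‖ ≤
        κS * len w) :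
    Gn1 m0 ω Ct κ1 nS xy F bb E R J Z Φ η f := by
  obtain ⟨S, hT⟩ := treeO (k0 := k0) (j0 := j0) (n0 := n0) hR (fldH_fam hP hf R) hm hm1 hk hkj
    (fun K p => ErG_nonneg (R := R) (Φ := Φ) (Z := Z) (η := η) (f := f) (m0 := m0) (Psi := Psi) K p)
    (hE_of hR hE) hω hL
  obtain ⟨g1, g2, g3⟩ := hG S hT
  obtain ⟨C, hPt⟩ := hT.part
  have hSR : S ⊆ R := hPt.sub
  have hen : 0 ≤ en J (Z 0) (Z 1) := en_nonneg _ _ _
  have hlJ : 0 ≤ len J := (Growth.len_pos J).le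
  obtain ⟨t1, t2, t3⟩ := WdTx276.words_genD (GenT934.bil_v4 bb E F hxy) hT hm (by positivity) hdr
    hκS g1 g2 g3 (fun w hw _ => (hS w (hSR hw)).1) (fun w hw _ => (hS w (hSR hw)).2.1)
    (fun w hw _ => (hS w (hSR hw)).2.2.1) (fun w hw _ => (hS w (hSR hw)).2.2.2.1)
    (fun w hw _ => (hS w (hSR hw)).2.2.2.2)
  have hmono : (κG + 6 * κS * 2 ^ (k0 + 5) / m0 ^ 2) * (m0 + en J (Z 0) (Z 1)) * len J ≤
      κ1 * (m0 + en J (Z 0) (Z 1)) * len J :=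
    mul_le_mul_of_nonneg_right (mul_le_mul_of_nonneg_right hκ (by positivity)) hlJ
  refine ⟨S, _, _, Psi, ⟨hT.part, hT.full, hT.sub, hT.good, hT.err, ?_, ?_⟩,
    t1.trans hmono, t2.trans hmono, t3.trans hmono⟩
  · refine hT.cnt.trans (mul_le_mul_of_nonneg_right hCt ?_)
    have := dr_nonneg (R := R) (DF_nonneg hP hf) J
    positivity
  · refine hT.ene.trans (mul_le_mul_of_nonneg_right hCt ?_)
    have := dr_nonneg (R := R) (DF_nonneg hP hf) J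
    positivity

end

end Crest.Agent.R079.GnUx263
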