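import Crest.Agent.R079.ErL_255
import Crest.Agent.R079.GnU_263

/-! R079, note 1922 (T8) (helper255), third file: the frame letters of one generation (263's `Su`) and the
energy hypothesis `hE` of `gn1_of` / the error half of 112's `InES`.

* `PsiS` : frame letters of both slots, `V = VG`, labels `LayK (V K) k0 j0 n0 K`, kernels `Zf c K`;
* `lnum` : the number;
* **`hE_su`** : `∑_c len K * av K (ek ..)² ≤ lnum * len K` from the per-cell input `CellIn`. -/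

set_option autoImplicit false

namespace Crest.Agent.R079.ErMx255

open Finset Crest.Agent.R079.Grid Crest.Agent.R079.Growth Crest.Agent.R079.QRed
  Crest.Agent.R079.TWin
open Crest.Agent.R079.RelW653 (vl NMP Jv Dv)
open Crest.Agent.R079.RelV653 Crest.Agent.R079.HWx323 Crest.Agent.R079.Chn110
open Crest.Agent.R079.TRec Crest.Agent.R079.T6bx252
open Crest.Agent.R079.FLDx263 Crest.Agent.R079.GnSx263 Crest.Agent.R079.GnNx263
  Crest.Agent.R079.PFx263 Crest.Agent.R079.GaDx571 Crest.Agent.R079.GaFx371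
  Crest.Agent.R079.WS112 Crest.Agent.R079.WS0112 Crest.Agent.R079.POx263
  Crest.Agent.R079.OpS276 Crest.Agent.R079.GnUx263 Crest.Agent.R079.SbWx795
open Crest.Agent.R079.ErLx255

/-- **frame letters of one generation** -/
noncomputable def PsiS (i : Fin 4) {n : ℕ} (T : Fin n → Fin 3 → Finset ℤ)
    (g : Fin n → Fin 3 → ℤ → ℤ → ℂ) (mu : Fin n → ℝ) (I : Nd) (La kap : ℝ) (kc Kl : ℕ) (r : ℕ → ℝ)
    (es : Fin 2 → Fin 3) (f : Fin 2 → Nd → Fn) (V : Nd → Finset Nd) (k0 j0 n0 : ℕ)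
    (Zf : Fin 2 → Nd → Fin n → ℕ → ℤ × ℤ × ℤ → ℂ) (c : Fin 2) (K : Nd) : Fn :=
  PsiF i (es c) T g mu I La kap kc Kl r K (gl (V K) (f c)) (LayK (V K) k0 j0 n0 K) (Zf c K)

/-- the number of the error energy -/
noncomputable def lnum (kap : ℝ) (Kl : ℕ) (C1 C2 m0 : ℝ) : ℝ :=
  2 * ((2 * (1 + Kl * kap) + 2 * kap * (Kl : ℝ) ^ 3 * C1) * (2 * m0) +
    2 * kap ^ 2 * (Kl : ℝ) ^ 4 * C2 * 6)

section

variable {P : Prm} {d ε k q3 : ℝ} {i m e e' : Fin 4} {N : ℕ} {B t : ℝ} {W : Finset Nd} {I : Nd}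
  {F : Fin 4 → Fn} {xy : Fin 2 → Fin 4} {bb : ℤ} {E : ℕ → ℤ → ℂ} {R : Finset Nd} {J : Nd}
  {Z : Fin 2 → Fn} {v : Fin 3} {n : ℕ} {T : Fin n → Fin 3 → Finset ℤ}
  {g : Fin n → Fin 3 → ℤ → ℤ → ℂ} {al : Fin n → ℤ → ℝ} {mu : Fin n → ℝ} {es : Fin 2 → Fin 3}

/-- **ENERGY OF THE ERROR LETTERS OF ONE GENERATION** -/
theorem hE_su (h : Su P d ε k q3 i m e e' N B t W I F xy bb E R J Z v n T g al mu es) (hk : 0 ≤ k)
    {kap m0 η : ℝ} (hkap : 0 ≤ kap) (kc Kl : ℕ) {r : ℕ → ℝ} (hr : ∀ q, 0 ≤ r q)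
    (hm0 : 0 ≤ m0) (hη1 : η ≤ m0) (hηh : η ≤ 1) {f : Fin 2 → Nd → Fn}
    (hf : ∀ c', NMP (fun _ _ => True) (PhiC P ε i T g mu I t kap kc Kl r es c') (Z c') η (f c'))
    (k0 j0 n0 : ℕ) (Zf : Fin 2 → Nd → Fin n → ℕ → ℤ × ℤ × ℤ → ℂ) {C1 C2 : ℝ} (hC1 : 0 ≤ C1)
    (hC2 : 0 ≤ C2) {K : Nd} (hK : K ∈ R)
    (hcell : ∀ c', CellIn i (es c') T g I kc Kl r
      (VG R (PhiC P ε i T g mu I t kap kc Kl r es) Z η f m0 K) K
      (gl (VG R (PhiC P ε i T g mu I t kap kc Kl r es) Z η f m0 K) (f c'))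
      (LayK (VG R (PhiC P ε i T g mu I t kap kc Kl r es) Z η f m0 K) k0 j0 n0 K) (Zf c' K) C1 C2) :
    ∑ c', len K * av K (ek Z f (VG R (PhiC P ε i T g mu I t kap kc Kl r es) Z η f m0)
      (PsiS i T g mu I (LaC P ε i t) kap kc Kl r es f
        (VG R (PhiC P ε i T g mu I t kap kc Kl r es) Z η f m0) k0 j0 n0 Zf) c' K) ^ 2 ≤
      lnum kap Kl C1 C2 m0 * len K := by
  set Φ := PhiC P ε i T g mu I t kap kc Kl r es with hΦ
  have hLa := LaC_pos P ε i h.t0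
  have hP : ∀ c', PenC 0 (fun _ _ => True) (Φ c') := fun c' =>
    penPhi h.fam (es c') hkap hLa kc Kl hr
  set V := VG R Φ Z η f m0 with hV
  have hVf : Full (V K) K := VK_full h.full hK
  have hη0 : 0 ≤ η := (hf 0).eta
  have hL := Growth.len_pos K
  have key : ∀ c', len K * av K (ek Z f V (PsiS i T g mu I (LaC P ε i t) kap kc Kl r es f V
      k0 j0 n0 Zf) c' K) ^ 2 ≤
      ((2 * (1 + Kl * kap) + 2 * kap * (Kl : ℝ) ^ 3 * C1) * (2 * m0) +
        2 * kap ^ 2 * (Kl : ℝ) ^ 4 * C2 * 6) * len K := by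
    intro c'
    have hG : GdP (Φ c') (Z c') η (f c') m0 (V K) K :=
      gdP_of_gs hP hf (fun p hp => VK_good (fldH_fam hP hf R) hm0 hp) c'
    have h1 := err_fam h.fam (es c') hLa hkap kc Kl hr (hf c') hVf hG hm0
      (LayK (V K) k0 j0 n0 K) (Zf c' K) hC1 hC2 (hcell c')
    have h2 : av K (gl (V K) (f c')) ^ 2 ≤ 6 := by
      have h3 := av_gl_le (hP c') (hf c') hVf hVf.top
      have h4 := h.avZ hk c' K hK
      have h5 := Growth.av_nonneg K (Z c')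
      nlinarith
    have hK0 : (0 : ℝ) ≤ Kl := Nat.cast_nonneg _
    refine h1.trans (mul_le_mul_of_nonneg_right ?_ hL.le)
    refine add_le_add (mul_le_mul_of_nonneg_left (by linarith) (by positivity)) ?_
    exact mul_le_mul_of_nonneg_left h2 (by positivity)
  refine (Finset.sum_le_sum fun c' _ => key c').trans (le_of_eq ?_)
  rw [Finset.sum_const, Finset.card_univ, Fintype.card_fin, nsmul_eq_mul]
  unfold lnum
  push_cast
  ring

end

end Crest.Agent.R079.ErMx255
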