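import Crest.Agent.R079.PjD_881

/-! # R079 (S0106), cure of the nest-depth count, T3: singular value interface on a cell
(helper228).

`SvC A S T s Y X`: the singular value decomposition of the kernel `A` on the rectangle `S × T`
in `Finset ℤ` clothes (labels `k ∈ T`, zero extended).  `cl_eq`: the clip of `ClW_59` at height `ρ` is
`∑ min (s k) ρ Y_k conj X_k`.  `dfc`: the deficit `ρ - Re ⟨B X_k, Y_k⟩` of a competitor `B`.
`gap`: `Σ|A-B|² - Σ|A-cl|² = Σ|cl-B|² + 2 Σ_k (s k - ρ)₊ dfc k`. -/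

set_option autoImplicit false

namespace Crest.Agent.R079.NrAx228

open Finset Crest.Agent.R079.Grid Crest.Agent.R079.Growth Crest.Agent.R079.QRed
  Crest.Agent.R079.Qh249 Crest.Agent.R079.TWin Crest.Agent.R079.Whit Crest.Agent.R079.HiF881
  Crest.Agent.R079.ClW59 Crest.Agent.R079.ClW59 Crest.Agent.R079.PjC881

open scoped ComplexConjugate

/-- singular value decomposition of `A` on `S × T` -/
structure SvC (A : ℤ → ℤ → ℂ) (S T : Finset ℤ) (s : ℤ → ℝ) (Y X : ℤ → ℤ → ℂ) : Prop where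
  nn : ∀ k, 0 ≤ s k
  x0 : ∀ k v, ¬ (k ∈ T ∧ v ∈ T) → X k v = 0
  y0 : ∀ k u, ¬ (k ∈ T ∧ u ∈ S) → Y k u = 0
  ox : ∀ k ∈ T, ∀ l ∈ T, ∑ v ∈ T, conj (X k v) * X l v = if k = l then 1 else 0
  oy : ∀ k l, ∑ u ∈ S, conj (Y k u) * Y l u = if k = l ∧ 0 < s k then 1 else 0
  eq : ∀ u ∈ S, ∀ v ∈ T, A u v = ∑ k ∈ T, (s k : ℂ) * Y k u * conj (X k v)

theorem exists_svC (A : ℤ → ℤ → ℂ) (S T : Finset ℤ) : ∃ s Y X, SvC A S T s Y X := by
  classical
  set A' : {x // x ∈ S} → {y // y ∈ T} → ℂ := fun x y => A x y with hA'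
  obtain ⟨X', s', h⟩ := exists_SVD A'
  set s : ℤ → ℝ := fun k => if hk : k ∈ T then s' ⟨k, hk⟩ else 0 with hs
  set X : ℤ → ℤ → ℂ := fun k v => if hk : k ∈ T ∧ v ∈ T then X' ⟨k, hk.1⟩ ⟨v, hk.2⟩ else 0 with hX
  set Y : ℤ → ℤ → ℂ := fun k u => if hk : k ∈ T ∧ u ∈ S then
    ((s' ⟨k, hk.1⟩ : ℂ))⁻¹ * AX A' X' ⟨k, hk.1⟩ ⟨u, hk.2⟩ else 0 with hY
  have sv : ∀ k : {y // y ∈ T}, s k = s' k := fun k => by simp [hs]
  have Xv : ∀ (k v : {y // y ∈ T}), X k v = X' k v := fun k v => by simp [hX]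
  have Yv : ∀ (k : {y // y ∈ T}) (u : {x // x ∈ S}), Y k u = ((s' k : ℂ))⁻¹ * AX A' X' k u :=
    fun k v => by simp [hY]
  have g0 : ∀ (k : {y // y ∈ T}), s' k = 0 → ∀ u, AX A' X' k u = 0 := by
    intro k hk u
    have h1 := h.gram k k
    rw [if_pos rfl, hk] at h1
    have h2 : ∑ x, ‖AX A' X' k x‖ ^ 2 = 0 := by
      have h3 : ∑ x, conj (AX A' X' k x) * (AX A' X' k x) = 0 := by
        unfold AX; rw [h1]; simp
      have h4 : ∀ x, conj (AX A' X' k x) * (AX A' X' k x) = ((‖AX A' X' k x‖ ^ 2 : ℝ) : ℂ) :=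
        fun x => conj_mul_self _
      rw [Finset.sum_congr rfl fun x _ => h4 x] at h3
      exact_mod_cast h3
    have h5 := (Finset.sum_eq_zero_iff_of_nonneg (fun _ _ => sq_nonneg _)).1 h2 u (mem_univ _)
    simpa using h5
  refine ⟨s, Y, X, ?_, ?_, ?_, ?_, ?_, ?_⟩
  · intro k
    simp only [hs]
    split_ifs with hk
    · exact h.nn _
    · exact le_rfl
  · intro k v hkv
    simp only [hX]
    rw [dif_neg hkv]
  · intro k u hku
    simp only [hY]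
    rw [dif_neg hku]
  · intro k hk l hl
    have h1 := h.orth ⟨k, hk⟩ ⟨l, hl⟩
    rw [← Finset.sum_coe_sort T]
    rw [Finset.sum_congr rfl fun v _ => by rw [Xv ⟨k, hk⟩ v, Xv ⟨l, hl⟩ v], h1]
    simp
  · intro k l
    by_cases hk : k ∈ T
    · by_cases hl : l ∈ T
      · have h1 := h.gram ⟨k, hk⟩ ⟨l, hl⟩
        rw [← Finset.sum_coe_sort S]
        rw [Finset.sum_congr rfl fun u _ => by rw [Yv ⟨k, hk⟩ u, Yv ⟨l, hl⟩ u]]
        have h2 : ∀ u, conj (((s' ⟨k, hk⟩ : ℂ))⁻¹ * AX A' X' ⟨k, hk⟩ u) *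
            (((s' ⟨l, hl⟩ : ℂ))⁻¹ * AX A' X' ⟨l, hl⟩ u) =
            (((s' ⟨k, hk⟩ : ℂ))⁻¹ * ((s' ⟨l, hl⟩ : ℂ))⁻¹) *
              (conj (∑ y, A' u y * X' ⟨k, hk⟩ y) * (∑ y, A' u y * X' ⟨l, hl⟩ y)) := by
          intro u
          simp only [AX, map_mul, map_inv₀, Complex.conj_ofReal]
          ring
        rw [Finset.sum_congr rfl fun u _ => h2 u, ← Finset.mul_sum, h1]
        by_cases hkl : k = l
        · subst hkl
          have hsk : s k = s' ⟨k, hk⟩ := sv ⟨k, hk⟩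
          rw [if_pos rfl]
          by_cases h0 : 0 < s k
          · rw [if_pos ⟨rfl, h0⟩]
            have hne : (s' ⟨k, hk⟩ : ℂ) ≠ 0 := by
              rw [← hsk]; exact_mod_cast h0.ne'
            field_simp
          · rw [if_neg (fun h => h0 h.2)]
            have h00 : s' ⟨k, hk⟩ = 0 := by
              have := h.nn ⟨k, hk⟩
              rw [hsk] at h0
              linarith
            rw [h00]; simp
        · have hne : ¬ ((⟨k, hk⟩ : {y // y ∈ T}) = ⟨l, hl⟩) := by simpa using hkl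
          rw [if_neg hne, if_neg (fun h => hkl h.1), mul_zero]
      · rw [if_neg (fun (h : k = l ∧ 0 < s k) => hl (h.1 ▸ hk))]
        refine Finset.sum_eq_zero fun u _ => ?_
        have : Y l u = 0 := by simp only [hY]; rw [dif_neg (fun h => hl h.1)]
        rw [this, mul_zero]
    · have h0 : s k = 0 := by simp only [hs]; rw [dif_neg hk]
      rw [if_neg (fun h => by rw [h0] at h; exact lt_irrefl _ h.2)]
      refine Finset.sum_eq_zero fun u _ => ?_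
      have : Y k u = 0 := by simp only [hY]; rw [dif_neg (fun h => hk h.1)]
      rw [this, map_zero, zero_mul]
  · intro u hu v hv
    have h1 := expand h ⟨u, hu⟩ ⟨v, hv⟩
    rw [← Finset.sum_coe_sort T]
    have h2 : A u v = A' ⟨u, hu⟩ ⟨v, hv⟩ := rfl
    rw [h2, h1]
    refine Finset.sum_congr rfl fun k _ => ?_
    have e1 : Y k u = ((s' k : ℂ))⁻¹ * AX A' X' k ⟨u, hu⟩ := Yv k ⟨u, hu⟩
    have e2 : X k v = X' k ⟨v, hv⟩ := Xv k ⟨v, hv⟩
    rw [sv k, e1, e2]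
    by_cases h0 : s' k = 0
    · rw [g0 k h0, h0]; simp
    · have hne : (s' k : ℂ) ≠ 0 := by exact_mod_cast h0
      field_simp

variable {A : ℤ → ℤ → ℂ} {S T : Finset ℤ} {s : ℤ → ℝ} {Y X : ℤ → ℤ → ℂ}

theorem SvC.s0 (h : SvC A S T s Y X) {k : ℤ} (hk : k ∉ T) : s k = 0 := by
  by_contra hne
  have h0 : 0 < s k := lt_of_le_of_ne (h.nn k) (Ne.symm hne)
  have h1 := h.oy k k
  rw [if_pos ⟨rfl, h0⟩] at h1
  have h2 : ∑ u ∈ S, conj (Y k u) * Y k u = 0 :=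
    Finset.sum_eq_zero fun u _ => by rw [h.y0 k u (fun h => hk h.1), mul_zero]
  rw [h2] at h1
  exact zero_ne_one h1

theorem SvC.nX (h : SvC A S T s Y X) {k : ℤ} (hk : k ∈ T) : ∑ v ∈ T, ‖X k v‖ ^ 2 = 1 := by
  have h1 := h.ox k hk k hk
  rw [if_pos rfl] at h1
  have h2 : ∀ v, conj (X k v) * X k v = ((‖X k v‖ ^ 2 : ℝ) : ℂ) := fun v => conj_mul_self _
  rw [Finset.sum_congr rfl fun v _ => h2 v] at h1
  exact_mod_cast h1

theorem SvC.nY (h : SvC A S T s Y X) (k : ℤ) :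
    ∑ u ∈ S, ‖Y k u‖ ^ 2 = if 0 < s k then 1 else 0 := by
  have h1 := h.oy k k
  have h2 : ∀ v, conj (Y k v) * Y k v = ((‖Y k v‖ ^ 2 : ℝ) : ℂ) := fun v => conj_mul_self _
  rw [Finset.sum_congr rfl fun v _ => h2 v] at h1
  by_cases h0 : 0 < s k
  · rw [if_pos ⟨rfl, h0⟩] at h1
    rw [if_pos h0]
    exact_mod_cast h1
  · rw [if_neg (fun h => h0 h.2)] at h1
    rw [if_neg h0]
    exact_mod_cast h1

theorem SvC.nY_le (h : SvC A S T s Y X) (k : ℤ) : ∑ u ∈ S, ‖Y k u‖ ^ 2 ≤ 1 := by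
  rw [h.nY k]; split_ifs <;> norm_num

theorem SvC.nX_le (h : SvC A S T s Y X) (k : ℤ) : ∑ v ∈ T, ‖X k v‖ ^ 2 ≤ 1 := by
  by_cases hk : k ∈ T
  · exact (h.nX hk).le
  · rw [Finset.sum_eq_zero fun v _ => by rw [h.x0 k v (fun h => hk h.1)]; simp]
    exact zero_le_one

/-! ## orthogonal families -/

/-- norm of a combination of an orthogonal family -/
theorem gram_sum {K S : Finset ℤ} {Y : ℤ → ℤ → ℂ} {w : ℤ → ℝ}
    (hY : ∀ k ∈ K, ∀ l ∈ K, ∑ u ∈ S, conj (Y k u) * Y l u = if k = l then (w k : ℂ) else 0)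
    (a : ℤ → ℂ) :
    ∑ u ∈ S, ‖∑ k ∈ K, a k * Y k u‖ ^ 2 = ∑ k ∈ K, ‖a k‖ ^ 2 * w k := by
  have key : ∑ u ∈ S, conj (∑ k ∈ K, a k * Y k u) * (∑ k ∈ K, a k * Y k u) =
      ∑ k ∈ K, (conj (a k) * a k) * (w k : ℂ) := by
    simp only [map_sum, Finset.sum_mul_sum]
    rw [Finset.sum_comm]
    refine Finset.sum_congr rfl fun k hk => ?_
    rw [Finset.sum_comm]
    have h1 : ∀ l ∈ K, ∑ u ∈ S, conj (a k * Y k u) * (a l * Y l u) =
        (conj (a k) * a l) * (if k = l then (w k : ℂ) else 0) := by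
      intro l hl
      rw [← hY k hk l hl, Finset.mul_sum]
      refine Finset.sum_congr rfl fun u _ => ?_
      rw [map_mul]; ring
    rw [Finset.sum_congr rfl h1]
    simp only [mul_ite, mul_zero, Finset.sum_ite_eq, if_pos hk]
  have h2 : ∀ z : ℂ, conj z * z = ((‖z‖ ^ 2 : ℝ) : ℂ) := fun z => conj_mul_self z
  simp only [h2] at key
  exact_mod_cast key

/-- Bessel for an orthogonal family with norms `≤ 1` -/
theorem bessel {K S : Finset ℤ} {Y : ℤ → ℤ → ℂ} {w : ℤ → ℝ} (hw : ∀ k ∈ K, w k ≤ 1)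
    (hY : ∀ k ∈ K, ∀ l ∈ K, ∑ u ∈ S, conj (Y k u) * Y l u = if k = l then (w k : ℂ) else 0)
    (f : ℤ → ℂ) :
    ∑ k ∈ K, ‖∑ u ∈ S, conj (Y k u) * f u‖ ^ 2 ≤ ∑ u ∈ S, ‖f u‖ ^ 2 := by
  set g : ℤ → ℂ := fun k => ∑ u ∈ S, conj (Y k u) * f u with hg
  have h1 := gram_sum hY g
  have h3 : ∀ u, ‖f u - ∑ k ∈ K, g k * Y k u‖ ^ 2 = ‖f u‖ ^ 2 -
      2 * (conj (∑ k ∈ K, g k * Y k u) * f u).re + ‖∑ k ∈ K, g k * Y k u‖ ^ 2 := by
    intro u
    simp only [← Complex.normSq_eq_norm_sq]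
    rw [Complex.normSq_sub, mul_comm (f u)]
    ring
  have h4 : ∑ u ∈ S, conj (∑ k ∈ K, g k * Y k u) * f u = ((∑ k ∈ K, ‖g k‖ ^ 2 : ℝ) : ℂ) := by
    push_cast
    simp only [map_sum, Finset.sum_mul]
    rw [Finset.sum_comm]
    refine Finset.sum_congr rfl fun k _ => ?_
    have h5 : ∀ u, conj (g k * Y k u) * f u = conj (g k) * (conj (Y k u) * f u) := by
      intro u; rw [map_mul]; ring
    rw [Finset.sum_congr rfl fun u _ => h5 u, ← Finset.mul_sum]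
    have h6 : conj (g k) * g k = ((‖g k‖ ^ 2 : ℝ) : ℂ) := conj_mul_self _
    push_cast at h6
    exact h6
  have h5 : ∑ u ∈ S, (conj (∑ k ∈ K, g k * Y k u) * f u).re = ∑ k ∈ K, ‖g k‖ ^ 2 := by
    rw [← Complex.re_sum, h4, Complex.ofReal_re]
  have h6 : 0 ≤ ∑ u ∈ S, ‖f u - ∑ k ∈ K, g k * Y k u‖ ^ 2 :=
    Finset.sum_nonneg fun _ _ => sq_nonneg _
  rw [Finset.sum_congr rfl fun u _ => h3 u, Finset.sum_add_distrib, Finset.sum_sub_distrib,
    ← Finset.mul_sum, h5, h1] at h6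
  have h7 : ∑ k ∈ K, ‖g k‖ ^ 2 * w k ≤ ∑ k ∈ K, ‖g k‖ ^ 2 :=
    Finset.sum_le_sum fun k hk => by nlinarith [hw k hk, sq_nonneg (‖g k‖)]
  show ∑ k ∈ K, ‖g k‖ ^ 2 ≤ _
  linarith

theorem SvC.gX (h : SvC A S T s Y X) : ∀ k ∈ T, ∀ l ∈ T, ∑ v ∈ T, conj (X k v) * X l v =
    if k = l then ((fun _ : ℤ => (1 : ℝ)) k : ℂ) else 0 := by
  intro k hk l hl
  rw [h.ox k hk l hl]
  simp

theorem SvC.gXc (h : SvC A S T s Y X) : ∀ k ∈ T, ∀ l ∈ T,
    ∑ v ∈ T, conj (conj (X k v)) * conj (X l v) =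
    if k = l then ((fun _ : ℤ => (1 : ℝ)) k : ℂ) else 0 := by
  intro k hk l hl
  have h1 := congrArg (starRingEnd ℂ) (h.gX k hk l hl)
  rw [map_sum] at h1
  rw [Finset.sum_congr rfl fun v _ => (map_mul (starRingEnd ℂ) (conj (X k v)) (X l v)).symm, h1]
  by_cases hkl : k = l
  · simp [hkl]
  · simp [hkl]

theorem SvC.gY (h : SvC A S T s Y X) : ∀ k ∈ T, ∀ l ∈ T, ∑ u ∈ S, conj (Y k u) * Y l u =
    if k = l then ((fun k : ℤ => if 0 < s k then (1 : ℝ) else 0) k : ℂ) else 0 := by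
  intro k _ l _
  rw [h.oy k l]
  by_cases hkl : k = l
  · subst hkl
    by_cases h0 : 0 < s k
    · simp [h0]
    · simp [h0]
  · simp [hkl]

theorem SvC.gYc (h : SvC A S T s Y X) : ∀ k ∈ T, ∀ l ∈ T,
    ∑ u ∈ S, conj (conj (Y k u)) * conj (Y l u) =
    if k = l then ((fun k : ℤ => if 0 < s k then (1 : ℝ) else 0) k : ℂ) else 0 := by
  intro k hk l hl
  have h1 := congrArg (starRingEnd ℂ) (h.gY k hk l hl)
  rw [map_sum] at h1
  rw [Finset.sum_congr rfl fun v _ => (map_mul (starRingEnd ℂ) (conj (Y k v)) (Y l v)).symm, h1]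
  by_cases hkl : k = l
  · subst hkl
    by_cases h0 : 0 < s k
    · simp [h0]
    · simp [h0]
  · simp [hkl]

/-- Bessel in the right singular vectors -/
theorem SvC.bX (h : SvC A S T s Y X) (f : ℤ → ℂ) :
    ∑ k ∈ T, ‖∑ v ∈ T, f v * X k v‖ ^ 2 ≤ ∑ v ∈ T, ‖f v‖ ^ 2 := by
  have h1 := bessel (K := T) (S := T) (Y := fun k v => conj (X k v)) (w := fun _ => 1)
    (fun _ _ => le_rfl) h.gXc f
  refine le_trans (le_of_eq ?_) h1
  refine Finset.sum_congr rfl fun k _ => ?_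
  congr 2
  refine Finset.sum_congr rfl fun v _ => ?_
  rw [Complex.conj_conj]; ring

/-- Bessel in the right singular vectors, conjugate form -/
theorem SvC.bXc (h : SvC A S T s Y X) (f : ℤ → ℂ) :
    ∑ k ∈ T, ‖∑ v ∈ T, f v * conj (X k v)‖ ^ 2 ≤ ∑ v ∈ T, ‖f v‖ ^ 2 := by
  have h1 := bessel (K := T) (S := T) (Y := X) (w := fun _ => 1) (fun _ _ => le_rfl) h.gX f
  refine le_trans (le_of_eq ?_) h1
  refine Finset.sum_congr rfl fun k _ => ?_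
  congr 2
  exact Finset.sum_congr rfl fun v _ => by ring

/-- Bessel in the left singular vectors -/
theorem SvC.bY (h : SvC A S T s Y X) (f : ℤ → ℂ) :
    ∑ k ∈ T, ‖∑ u ∈ S, f u * Y k u‖ ^ 2 ≤ ∑ u ∈ S, ‖f u‖ ^ 2 := by
  have h1 := bessel (K := T) (S := S) (Y := fun k v => conj (Y k v))
    (w := fun k : ℤ => if 0 < s k then (1 : ℝ) else 0)
    (fun k _ => by show (if 0 < s k then (1 : ℝ) else 0) ≤ 1; split_ifs <;> norm_num) h.gYc f
  refine le_trans (le_of_eq ?_) h1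
  refine Finset.sum_congr rfl fun k _ => ?_
  congr 2
  refine Finset.sum_congr rfl fun v _ => ?_
  rw [Complex.conj_conj]; ring

/-- Bessel in the left singular vectors, conjugate form -/
theorem SvC.bYc (h : SvC A S T s Y X) (f : ℤ → ℂ) :
    ∑ k ∈ T, ‖∑ u ∈ S, f u * conj (Y k u)‖ ^ 2 ≤ ∑ u ∈ S, ‖f u‖ ^ 2 := by
  have h1 := bessel (K := T) (S := S) (Y := Y)
    (w := fun k : ℤ => if 0 < s k then (1 : ℝ) else 0)
    (fun k _ => by show (if 0 < s k then (1 : ℝ) else 0) ≤ 1; split_ifs <;> norm_num) h.gY f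
  refine le_trans (le_of_eq ?_) h1
  refine Finset.sum_congr rfl fun k _ => ?_
  congr 2
  exact Finset.sum_congr rfl fun v _ => by ring

/-- Hilbert-Schmidt norm against the right singular vectors (any left family) -/
theorem SvC.hsX (h : SvC A S T s Y X) (I : Finset ℤ) (e : ℤ → ℤ → ℂ) :
    ∑ u ∈ I, ∑ v ∈ T, ‖∑ k ∈ T, e k u * conj (X k v)‖ ^ 2 = ∑ k ∈ T, ∑ u ∈ I, ‖e k u‖ ^ 2 := by
  rw [Finset.sum_comm (s := T)]
  refine Finset.sum_congr rfl fun u _ => ?_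
  rw [gram_sum (Y := fun k v => conj (X k v)) h.gXc (fun k => e k u)]
  simp

/-- Hilbert-Schmidt norm against the left singular vectors (any right family) -/
theorem SvC.hsY (h : SvC A S T s Y X) (J : Finset ℤ) (e : ℤ → ℤ → ℂ) :
    ∑ u ∈ S, ∑ v ∈ J, ‖∑ k ∈ T, Y k u * e k v‖ ^ 2 ≤ ∑ k ∈ T, ∑ v ∈ J, ‖e k v‖ ^ 2 := by
  rw [Finset.sum_comm (s := T), Finset.sum_comm]
  refine Finset.sum_le_sum fun v _ => ?_
  have h1 := gram_sum (Y := Y) h.gY (fun k => e k v)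
  have h2 : ∑ u ∈ S, ‖∑ k ∈ T, Y k u * e k v‖ ^ 2 = ∑ u ∈ S, ‖∑ k ∈ T, e k v * Y k u‖ ^ 2 :=
    Finset.sum_congr rfl fun u _ => by
      rw [Finset.sum_congr rfl fun k _ => mul_comm (Y k u) (e k v)]
  rw [h2, h1]
  refine Finset.sum_le_sum fun k _ => ?_
  have h3 : (fun k : ℤ => if 0 < s k then (1 : ℝ) else 0) k ≤ 1 := by
    show (if 0 < s k then (1 : ℝ) else 0) ≤ 1
    split_ifs <;> norm_num
  nlinarith [sq_nonneg ‖e k v‖]

/-! ## the clip in the singular vectors -/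

/-- pairing `⟨B X_k, Y_k⟩` -/
noncomputable def pr (B : ℤ → ℤ → ℂ) (S T : Finset ℤ) (y x : ℤ → ℂ) : ℂ :=
  ∑ u ∈ S, ∑ v ∈ T, conj (y u) * B u v * x v

/-- deficit of the competitor `B` at the label `k` -/
noncomputable def dfc (B : ℤ → ℤ → ℂ) (S T : Finset ℤ) (Y X : ℤ → ℤ → ℂ) (ρ : ℝ) (k : ℤ) : ℝ :=
  ρ - (∑ u ∈ S, ∑ v ∈ T, conj (Y k u) * B u v * X k v).re

/-- unit vectors: the pairing is at most the operator norm -/
theorem pr_le {B : ℤ → ℤ → ℂ} {ρ : ℝ} (hρ : 0 ≤ ρ) (hB : OpS S T B ρ) {y x : ℤ → ℂ}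
    (hy : ∑ u ∈ S, ‖y u‖ ^ 2 ≤ 1) (hx : ∑ v ∈ T, ‖x v‖ ^ 2 ≤ 1) :
    (∑ u ∈ S, ∑ v ∈ T, conj (y u) * B u v * x v).re ≤ ρ := by
  have h1 := bil_of_opS hρ hB (fun u => conj (y u)) x
  have h2 : ∑ u ∈ S, ∑ v ∈ T, B u v * (conj (y u) * x v) =
      ∑ u ∈ S, ∑ v ∈ T, conj (y u) * B u v * x v :=
    Finset.sum_congr rfl fun u _ => Finset.sum_congr rfl fun v _ => by ring
  rw [h2] at h1
  have h3 : ∑ u ∈ S, ‖conj (y u)‖ ^ 2 = ∑ u ∈ S, ‖y u‖ ^ 2 :=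
    Finset.sum_congr rfl fun u _ => by rw [RCLike.norm_conj]
  rw [h3] at h1
  have h4 : Real.sqrt (∑ u ∈ S, ‖y u‖ ^ 2) ≤ 1 := by
    rw [← Real.sqrt_one]; exact Real.sqrt_le_sqrt hy
  have h5 : Real.sqrt (∑ v ∈ T, ‖x v‖ ^ 2) ≤ 1 := by
    rw [← Real.sqrt_one]; exact Real.sqrt_le_sqrt hx
  have h6 : Real.sqrt (∑ u ∈ S, ‖y u‖ ^ 2) * Real.sqrt (∑ v ∈ T, ‖x v‖ ^ 2) ≤ 1 := by
    nlinarith [Real.sqrt_nonneg (∑ u ∈ S, ‖y u‖ ^ 2), Real.sqrt_nonneg (∑ v ∈ T, ‖x v‖ ^ 2)]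
  refine (Complex.re_le_norm _).trans (h1.trans ?_)
  nlinarith

theorem dfc_nonneg {B : ℤ → ℤ → ℂ} {ρ : ℝ} (hρ : 0 ≤ ρ) (h : SvC A S T s Y X)
    (hB : OpS S T B ρ) (k : ℤ) : 0 ≤ dfc B S T Y X ρ k :=
  sub_nonneg.2 (pr_le hρ hB (h.nY_le k) (h.nX_le k))

/-- pairing with a diagonal kernel -/
theorem SvC.pr_diag (h : SvC A S T s Y X) (c : ℤ → ℝ) {k : ℤ} (hk : k ∈ T) :
    ∑ u ∈ S, ∑ v ∈ T, conj (Y k u) * (∑ l ∈ T, (c l : ℂ) * Y l u * conj (X l v)) * X k v =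
      if 0 < s k then (c k : ℂ) else 0 := by
  have h1 : ∀ u v, conj (Y k u) * (∑ l ∈ T, (c l : ℂ) * Y l u * conj (X l v)) * X k v =
      ∑ l ∈ T, (c l : ℂ) * (conj (Y k u) * Y l u) * (conj (X l v) * X k v) := by
    intro u v
    rw [Finset.mul_sum, Finset.sum_mul]
    exact Finset.sum_congr rfl fun l _ => by ring
  have h2 : ∑ u ∈ S, ∑ v ∈ T, conj (Y k u) * (∑ l ∈ T, (c l : ℂ) * Y l u * conj (X l v)) * X k v =
      ∑ l ∈ T, (c l : ℂ) * (∑ u ∈ S, conj (Y k u) * Y l u) * (∑ v ∈ T, conj (X l v) * X k v) := by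
    rw [Finset.sum_congr rfl fun u _ => Finset.sum_congr rfl fun v _ => h1 u v]
    rw [Finset.sum_congr rfl fun u _ => Finset.sum_comm, Finset.sum_comm]
    refine Finset.sum_congr rfl fun l _ => ?_
    rw [mul_assoc, Finset.sum_mul_sum, Finset.mul_sum]
    refine Finset.sum_congr rfl fun u _ => ?_
    rw [Finset.mul_sum]
    exact Finset.sum_congr rfl fun v _ => by ring
  rw [h2]
  rw [Finset.sum_congr rfl fun l hl => by rw [h.oy k l, h.ox l hl k hk]]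
  rw [Finset.sum_eq_single_of_mem k hk]
  · by_cases h0 : 0 < s k
    · simp [h0]
    · simp [h0]
  · intro l _ hlk
    rw [if_neg hlk, mul_zero]

/-- pairing of a diagonal kernel with any kernel -/
theorem diag_pair (c : ℤ → ℝ) (D : ℤ → ℤ → ℂ) (S T : Finset ℤ) (Y X : ℤ → ℤ → ℂ) :
    ∑ u ∈ S, ∑ v ∈ T, ((∑ k ∈ T, (c k : ℂ) * Y k u * conj (X k v)) * conj (D u v)).re =
      ∑ k ∈ T, c k * (∑ u ∈ S, ∑ v ∈ T, conj (Y k u) * D u v * X k v).re := by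
  have h1 : ∀ k u v, (((c k : ℂ) * Y k u * conj (X k v)) * conj (D u v)).re =
      c k * (conj (Y k u) * D u v * X k v).re := by
    intro k u v
    have e : ((c k : ℂ) * Y k u * conj (X k v)) * conj (D u v) =
        (c k : ℂ) * conj (conj (Y k u) * D u v * X k v) := by
      simp only [map_mul, Complex.conj_conj]; ring
    rw [e, Complex.re_ofReal_mul, Complex.conj_re]
  have h2 : ∀ u v, ((∑ k ∈ T, (c k : ℂ) * Y k u * conj (X k v)) * conj (D u v)).re =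
      ∑ k ∈ T, c k * (conj (Y k u) * D u v * X k v).re := by
    intro u v
    rw [Finset.sum_mul, Complex.re_sum]
    exact Finset.sum_congr rfl fun k _ => h1 k u v
  rw [Finset.sum_congr rfl fun u _ => Finset.sum_congr rfl fun v _ => h2 u v]
  rw [Finset.sum_congr rfl fun u _ => Finset.sum_comm, Finset.sum_comm]
  refine Finset.sum_congr rfl fun k _ => ?_
  simp only [Complex.re_sum, Finset.mul_sum]

/-- operator norm of a diagonal kernel -/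
theorem SvC.diag_op (h : SvC A S T s Y X) {c : ℤ → ℝ} {ρ : ℝ} (hc : ∀ k ∈ T, |c k| ≤ ρ) :
    OpS S T (fun u v => ∑ k ∈ T, (c k : ℂ) * Y k u * conj (X k v)) ρ := by
  intro f
  have h1 : ∀ u, ∑ v ∈ T, (∑ k ∈ T, (c k : ℂ) * Y k u * conj (X k v)) * f v =
      ∑ k ∈ T, ((c k : ℂ) * ∑ v ∈ T, f v * conj (X k v)) * Y k u := by
    intro u
    simp only [Finset.sum_mul, Finset.mul_sum]
    rw [Finset.sum_comm]
    exact Finset.sum_congr rfl fun k _ => Finset.sum_congr rfl fun v _ => by ring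
  rw [Finset.sum_congr rfl fun u _ => by rw [h1 u]]
  rw [gram_sum (Y := Y) h.gY (fun k => (c k : ℂ) * ∑ v ∈ T, f v * conj (X k v))]
  have h2 : ∀ k ∈ T, ‖(c k : ℂ) * ∑ v ∈ T, f v * conj (X k v)‖ ^ 2 *
      (fun k : ℤ => if 0 < s k then (1 : ℝ) else 0) k ≤
      ρ ^ 2 * ‖∑ v ∈ T, f v * conj (X k v)‖ ^ 2 := by
    intro k hk
    have h3 : (fun k : ℤ => if 0 < s k then (1 : ℝ) else 0) k ≤ 1 := by
      show (if 0 < s k then (1 : ℝ) else 0) ≤ 1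
      split_ifs <;> norm_num
    have h4 : ‖(c k : ℂ) * ∑ v ∈ T, f v * conj (X k v)‖ ^ 2 =
        c k ^ 2 * ‖∑ v ∈ T, f v * conj (X k v)‖ ^ 2 := by
      rw [norm_mul, mul_pow, Complex.norm_real, Real.norm_eq_abs, sq_abs]
    have h5 : c k ^ 2 ≤ ρ ^ 2 := by
      rw [← sq_abs (c k)]
      have := abs_nonneg (c k)
      nlinarith [hc k hk]
    calc ‖(c k : ℂ) * ∑ v ∈ T, f v * conj (X k v)‖ ^ 2 *
        (fun k : ℤ => if 0 < s k then (1 : ℝ) else 0) k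
        ≤ ‖(c k : ℂ) * ∑ v ∈ T, f v * conj (X k v)‖ ^ 2 * 1 :=
          mul_le_mul_of_nonneg_left h3 (sq_nonneg _)
      _ = c k ^ 2 * ‖∑ v ∈ T, f v * conj (X k v)‖ ^ 2 := by rw [mul_one, h4]
      _ ≤ _ := mul_le_mul_of_nonneg_right h5 (sq_nonneg _)
  refine (Finset.sum_le_sum h2).trans ?_
  rw [← Finset.mul_sum]
  exact mul_le_mul_of_nonneg_left (h.bXc f) (sq_nonneg _)

/-- **the clip in the singular vectors** -/
theorem SvC.cl_eq (h : SvC A S T s Y X) {ρ : ℝ} (hρ : 0 ≤ ρ) :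
    ∀ u ∈ S, ∀ v ∈ T, cl A S T ρ u v = ∑ k ∈ T, ((min (s k) ρ : ℝ) : ℂ) * Y k u * conj (X k v) := by
  set C : ℤ → ℤ → ℂ := fun u v => ∑ k ∈ T, ((min (s k) ρ : ℝ) : ℂ) * Y k u * conj (X k v) with hC
  have hop : OpS S T C ρ := h.diag_op fun k _ => by
    rw [abs_of_nonneg (le_min (h.nn k) hρ)]
    exact min_le_right _ _
  have hAC : ∀ u ∈ S, ∀ v ∈ T, A u v - C u v =
      ∑ k ∈ T, ((s k - min (s k) ρ : ℝ) : ℂ) * Y k u * conj (X k v) := by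
    intro u hu v hv
    rw [h.eq u hu v hv, hC, ← Finset.sum_sub_distrib]
    refine Finset.sum_congr rfl fun k _ => ?_
    push_cast
    ring
  have key := near_eq_cl_var (A := A) hρ hop ?_
  · intro u hu v hv
    exact (key u hu v hv).symm
  · intro B hB
    rw [Finset.sum_congr rfl fun u hu => Finset.sum_congr rfl fun v hv => by rw [hAC u hu v hv]]
    rw [diag_pair (fun k => s k - min (s k) ρ) (fun u v => B u v - C u v) S T Y X]
    refine Finset.sum_nonpos fun k hk => ?_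
    have e1 : ∑ u ∈ S, ∑ v ∈ T, conj (Y k u) * (B u v - C u v) * X k v =
        ∑ u ∈ S, ∑ v ∈ T, conj (Y k u) * B u v * X k v -
          ∑ u ∈ S, ∑ v ∈ T, conj (Y k u) * C u v * X k v := by
      simp only [← Finset.sum_sub_distrib]
      exact Finset.sum_congr rfl fun u _ => Finset.sum_congr rfl fun v _ => by ring
    rw [e1, h.pr_diag (fun k => min (s k) ρ) hk, Complex.sub_re]
    rcases le_or_gt (s k) ρ with h1 | h1
    · rw [min_eq_left h1, sub_self, zero_mul]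
    · rw [if_pos (lt_of_le_of_lt hρ h1), min_eq_right h1.le, Complex.ofReal_re]
      have h2 := pr_le hρ hB (h.nY_le k) (h.nX_le k)
      exact mul_nonpos_of_nonneg_of_nonpos (sub_nonneg.2 h1.le) (by linarith)

/-- **deficit identity** -/
theorem SvC.gap (h : SvC A S T s Y X) {ρ : ℝ} (hρ : 0 ≤ ρ) (B : ℤ → ℤ → ℂ) :
    ∑ u ∈ S, ∑ v ∈ T, ‖A u v - B u v‖ ^ 2 = ∑ u ∈ S, ∑ v ∈ T, ‖A u v - cl A S T ρ u v‖ ^ 2 +
      ∑ u ∈ S, ∑ v ∈ T, ‖cl A S T ρ u v - B u v‖ ^ 2 +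
      2 * ∑ k ∈ T, max (s k - ρ) 0 * dfc B S T Y X ρ k := by
  set C : ℤ → ℤ → ℂ := fun u v => ∑ k ∈ T, ((min (s k) ρ : ℝ) : ℂ) * Y k u * conj (X k v) with hC
  have hcl : ∀ u ∈ S, ∀ v ∈ T, cl A S T ρ u v = C u v := h.cl_eq hρ
  have hAC : ∀ u ∈ S, ∀ v ∈ T, A u v - C u v =
      ∑ k ∈ T, ((s k - min (s k) ρ : ℝ) : ℂ) * Y k u * conj (X k v) := by
    intro u hu v hv
    rw [h.eq u hu v hv, hC, ← Finset.sum_sub_distrib]
    refine Finset.sum_congr rfl fun k _ => ?_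
    push_cast
    ring
  have h1 : ∀ u v, ‖A u v - B u v‖ ^ 2 = ‖A u v - C u v‖ ^ 2 + ‖C u v - B u v‖ ^ 2 +
      2 * ((A u v - C u v) * conj (C u v - B u v)).re := by
    intro u v
    have e : A u v - B u v = (A u v - C u v) + (C u v - B u v) := by ring
    rw [e]
    simp only [← Complex.normSq_eq_norm_sq]
    rw [Complex.normSq_add]
  have h2 : ∑ u ∈ S, ∑ v ∈ T, ((A u v - C u v) * conj (C u v - B u v)).re =
      ∑ k ∈ T, max (s k - ρ) 0 * dfc B S T Y X ρ k := by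
    rw [Finset.sum_congr rfl fun u hu => Finset.sum_congr rfl fun v hv => by rw [hAC u hu v hv]]
    rw [diag_pair (fun k => s k - min (s k) ρ) (fun u v => C u v - B u v) S T Y X]
    refine Finset.sum_congr rfl fun k hk => ?_
    have e1 : ∑ u ∈ S, ∑ v ∈ T, conj (Y k u) * (C u v - B u v) * X k v =
        ∑ u ∈ S, ∑ v ∈ T, conj (Y k u) * C u v * X k v -
          ∑ u ∈ S, ∑ v ∈ T, conj (Y k u) * B u v * X k v := by
      simp only [← Finset.sum_sub_distrib]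
      exact Finset.sum_congr rfl fun u _ => Finset.sum_congr rfl fun v _ => by ring
    rw [e1, h.pr_diag (fun k => min (s k) ρ) hk, Complex.sub_re]
    rcases le_or_gt (s k) ρ with h3 | h3
    · rw [min_eq_left h3, sub_self, zero_mul, max_eq_right (by linarith), zero_mul]
    · rw [if_pos (lt_of_le_of_lt hρ h3), min_eq_right h3.le, Complex.ofReal_re,
        max_eq_left (by linarith)]
      rfl
  rw [Finset.sum_congr rfl fun u _ => Finset.sum_congr rfl fun v _ => h1 u v]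
  simp only [Finset.sum_add_distrib, ← Finset.mul_sum]
  rw [h2]
  have e1 : ∑ u ∈ S, ∑ v ∈ T, ‖A u v - cl A S T ρ u v‖ ^ 2 =
      ∑ u ∈ S, ∑ v ∈ T, ‖A u v - C u v‖ ^ 2 :=
    Finset.sum_congr rfl fun u hu => Finset.sum_congr rfl fun v hv => by rw [hcl u hu v hv]
  have e2 : ∑ u ∈ S, ∑ v ∈ T, ‖cl A S T ρ u v - B u v‖ ^ 2 =
      ∑ u ∈ S, ∑ v ∈ T, ‖C u v - B u v‖ ^ 2 :=
    Finset.sum_congr rfl fun u hu => Finset.sum_congr rfl fun v hv => by rw [hcl u hu v hv]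
  rw [e1, e2]

/-- the deficits are paid by the gap (form for T4) -/
theorem SvC.gap_le (h : SvC A S T s Y X) {ρ : ℝ} (hρ : 0 ≤ ρ) (B : ℤ → ℤ → ℂ) :
    2 * ∑ k ∈ T, max (s k - ρ) 0 * dfc B S T Y X ρ k ≤
      ∑ u ∈ S, ∑ v ∈ T, ‖A u v - B u v‖ ^ 2 - ∑ u ∈ S, ∑ v ∈ T, ‖A u v - cl A S T ρ u v‖ ^ 2 := by
  rw [h.gap hρ B]
  have h1 : 0 ≤ ∑ u ∈ S, ∑ v ∈ T, ‖cl A S T ρ u v - B u v‖ ^ 2 :=
    Finset.sum_nonneg fun _ _ => Finset.sum_nonneg fun _ _ => sq_nonneg _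
  linarith

/-! ## one step of the ladder -/

/-- coefficient of the step `ρ → ρ'` -/
noncomputable def dk (s : ℤ → ℝ) (ρ ρ' : ℝ) (k : ℤ) : ℝ := min (s k) ρ' - min (s k) ρ

theorem SvC.step_eq (h : SvC A S T s Y X) {ρ ρ' : ℝ} (hρ : 0 ≤ ρ) (hρ' : 0 ≤ ρ') :
    ∀ u ∈ S, ∀ v ∈ T, cl A S T ρ' u v - cl A S T ρ u v =
      ∑ k ∈ T, (dk s ρ ρ' k : ℂ) * Y k u * conj (X k v) := by
  intro u hu v hv
  rw [h.cl_eq hρ u hu v hv, h.cl_eq hρ' u hu v hv, ← Finset.sum_sub_distrib]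
  refine Finset.sum_congr rfl fun k _ => ?_
  unfold dk
  push_cast
  ring

theorem dk_nonneg {ρ ρ' : ℝ} (h : ρ ≤ ρ') (k : ℤ) : 0 ≤ dk s ρ ρ' k :=
  sub_nonneg.2 (min_le_min_left _ h)

theorem dk_le_max {ρ ρ' : ℝ} (k : ℤ) : dk s ρ ρ' k ≤ max (s k - ρ) 0 := by
  unfold dk
  rcases le_or_gt (s k) ρ with h1 | h1
  · rw [min_eq_left h1]
    have := min_le_left (s k) ρ'
    exact le_trans (by linarith) (le_max_right _ _)
  · rw [min_eq_right h1.le]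
    have := min_le_left (s k) ρ'
    exact le_trans (by linarith) (le_max_left _ _)

theorem dk_le {ρ ρ' : ℝ} (h : ρ ≤ ρ') (k : ℤ) : dk s ρ ρ' k ≤ ρ' - ρ := by
  unfold dk
  rcases le_or_gt (s k) ρ with h1 | h1
  · rw [min_eq_left h1]
    have := min_le_left (s k) ρ'
    linarith
  · rw [min_eq_right h1.le]
    have := min_le_right (s k) ρ'
    linarith

theorem dk_sq {ρ ρ' : ℝ} (h : ρ ≤ ρ') (k : ℤ) :
    dk s ρ ρ' k ^ 2 ≤ (ρ' - ρ) * max (s k - ρ) 0 := by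
  have h1 := dk_nonneg (s := s) h k
  have h2 := dk_le (s := s) h k
  have h3 := dk_le_max (s := s) (ρ := ρ) (ρ' := ρ') k
  nlinarith [le_max_right (s k - ρ) 0]

theorem dk_zero {ρ ρ' : ℝ} (h : ρ ≤ ρ') {k : ℤ} (hk : s k ≤ ρ) : dk s ρ ρ' k = 0 := by
  unfold dk
  rw [min_eq_left hk, min_eq_left (hk.trans h), sub_self]

/-- Hilbert-Schmidt norm of a step -/
theorem SvC.step_hs (h : SvC A S T s Y X) {ρ ρ' : ℝ} (hρ : 0 ≤ ρ) (hρ' : ρ ≤ ρ') :
    ∑ k ∈ T, dk s ρ ρ' k ^ 2 =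
      ∑ u ∈ S, ∑ v ∈ T, ‖cl A S T ρ' u v - cl A S T ρ u v‖ ^ 2 := by
  have h1 : ∀ u ∈ S, ∀ v ∈ T, cl A S T ρ' u v - cl A S T ρ u v =
      ∑ k ∈ T, ((dk s ρ ρ' k : ℂ) * Y k u) * conj (X k v) := fun u hu v hv => by
    rw [h.step_eq hρ (hρ.trans hρ') u hu v hv]
  rw [Finset.sum_congr rfl fun u hu => Finset.sum_congr rfl fun v hv => by rw [h1 u hu v hv]]
  rw [h.hsX S (fun k u => (dk s ρ ρ' k : ℂ) * Y k u)]
  refine Finset.sum_congr rfl fun k _ => ?_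
  have h2 : ∀ u, ‖(dk s ρ ρ' k : ℂ) * Y k u‖ ^ 2 = dk s ρ ρ' k ^ 2 * ‖Y k u‖ ^ 2 := by
    intro u
    rw [norm_mul, mul_pow, Complex.norm_real, Real.norm_eq_abs, sq_abs]
  rw [Finset.sum_congr rfl fun u _ => h2 u, ← Finset.mul_sum, h.nY k]
  by_cases h0 : 0 < s k
  · rw [if_pos h0, mul_one]
  · have h3 : s k ≤ ρ := (not_lt.1 h0).trans hρ
    rw [dk_zero hρ' h3]; simp

/-- Hilbert-Schmidt norm of the kernel -/
theorem SvC.hsA (h : SvC A S T s Y X) :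
    ∑ k ∈ T, s k ^ 2 = ∑ u ∈ S, ∑ v ∈ T, ‖A u v‖ ^ 2 := by
  have h1 : ∀ u ∈ S, ∀ v ∈ T, A u v = ∑ k ∈ T, ((s k : ℂ) * Y k u) * conj (X k v) :=
    fun u hu v hv => h.eq u hu v hv
  rw [Finset.sum_congr rfl fun u hu => Finset.sum_congr rfl fun v hv => by rw [h1 u hu v hv]]
  rw [h.hsX S (fun k u => (s k : ℂ) * Y k u)]
  refine Finset.sum_congr rfl fun k _ => ?_
  have h2 : ∀ u, ‖(s k : ℂ) * Y k u‖ ^ 2 = s k ^ 2 * ‖Y k u‖ ^ 2 := by
    intro u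
    rw [norm_mul, mul_pow, Complex.norm_real, Real.norm_eq_abs, sq_abs]
  rw [Finset.sum_congr rfl fun u _ => h2 u, ← Finset.mul_sum, h.nY k]
  by_cases h0 : 0 < s k
  · rw [if_pos h0, mul_one]
  · have h3 : s k = 0 := le_antisymm (not_lt.1 h0) (h.nn k)
    rw [h3]; simp

/-- a kernel in the ball is its own clip -/
theorem cl_self {ρ : ℝ} (hρ : 0 ≤ ρ) (hA : OpS S T A ρ) : ∀ u ∈ S, ∀ v ∈ T,
    A u v = cl A S T ρ u v := by
  have h1 := DQ_gap A hρ hA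
  have h2 : nq (fun x y => A x y - A x y) S T = 0 := by unfold nq; simp
  rw [h2] at h1
  have h3 := DQ_nonneg A S T ρ
  have h4 := nq_nonneg (fun x y => cl A S T ρ x y - A x y) S T
  have h5 : nq (fun x y => cl A S T ρ x y - A x y) S T = 0 := by linarith
  intro u hu v hv
  unfold nq at h5
  have h6 := (Finset.sum_eq_zero_iff_of_nonneg
    (fun _ _ => Finset.sum_nonneg fun _ _ => sq_nonneg _)).1 h5 u hu
  have h7 := (Finset.sum_eq_zero_iff_of_nonneg (fun _ _ => sq_nonneg _)).1 h6 v hv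
  have h8 : cl A S T ρ u v - A u v = 0 := by simpa using h7
  exact (sub_eq_zero.1 h8).symm

end Crest.Agent.R079.NrAx228
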