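import Crest.Agent.R079.NrM_259

/-! R079, notes 1820 / 1922 (T3), helper259: dyadic tiles of a dyadic cell (the frozen literals).

* `Tlg m a b Ti` : the dyadic squares of `Ti` tile the cell `dI m a × dI m b`;
* `mc` : normalised row sum of a tile, `lemA` / `lemA_col` : Lemma A for arbitrary vectors,
  `defi_nn` : the deficiency of unit vectors is nonnegative;
* `wt`, `avg`, `jen` : mean over the alive tiles of a row;
* `mB` : the kernel masked to the alive tiles, `mB_sum`, `op_strip` (Schur), `spreadR` / `spreadC` :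
  operator norm of the masked kernel on a block of rows / columns;
* `Bes.dual`, `bes_of_dual` : the two forms of a Bessel bound. -/

set_option autoImplicit false

namespace Crest.Agent.R079.NrTx259

open Finset Crest.Agent.R079.Grid Crest.Agent.R079.NrMx259
open Crest.Agent.R079.ClW59 (OpS)

open scoped ComplexConjugate

/-- dyadic squares tiling a dyadic cell -/
structure Tlg (m : ℕ) (a b : ℤ) (Ti : Finset (ℕ × ℤ × ℤ)) : Prop where
  sub : ∀ c ∈ Ti, dI c.1 c.2.1 ⊆ dI m a ∧ dI c.1 c.2.2 ⊆ dI m b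
  cov : ∀ u ∈ dI m a, ∀ v ∈ dI m b, ∃ c ∈ Ti, u ∈ dI c.1 c.2.1 ∧ v ∈ dI c.1 c.2.2
  dis : ∀ c ∈ Ti, ∀ c' ∈ Ti, ∀ u v, u ∈ dI c.1 c.2.1 → v ∈ dI c.1 c.2.2 → u ∈ dI c'.1 c'.2.1 →
    v ∈ dI c'.1 c'.2.2 → c = c'

/-- rows of a tile -/
noncomputable abbrev Rw (c : ℕ × ℤ × ℤ) : Finset ℤ := dI c.1 c.2.1

/-- columns of a tile -/
noncomputable abbrev Cl (c : ℕ × ℤ × ℤ) : Finset ℤ := dI c.1 c.2.2

/-- side of a tile -/
noncomputable abbrev sd (c : ℕ × ℤ × ℤ) : ℝ := 2 ^ c.1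

lemma card_dI (n : ℕ) (a : ℤ) : ((dI n a).card : ℝ) = 2 ^ n := by
  unfold dI
  rw [Int.card_Ico]
  have e : (a + 1) * 2 ^ n - a * 2 ^ n = ((2 ^ n : ℕ) : ℤ) := by
    push_cast; ring
  rw [e, Int.toNat_natCast]
  push_cast
  rfl

lemma mem_dI {k : ℕ} {l y : ℤ} : y ∈ dI k l ↔ y / 2 ^ k = l := by
  unfold dI
  rw [Finset.mem_Ico]
  have h2 : (0 : ℤ) < 2 ^ k := by positivity
  constructor
  · rintro ⟨h, h'⟩
    refine le_antisymm ?_ ?_
    · exact Int.lt_add_one_iff.1 (Int.ediv_lt_of_lt_mul h2 h')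
    · exact (Int.le_ediv_iff_mul_le h2).2 h
  · rintro rfl
    exact ⟨Int.ediv_mul_le _ h2.ne', Int.lt_ediv_add_one_mul_self _ h2⟩

lemma nest {x c c' : ℤ} {s t : ℕ} (hst : s ≤ t) (hx : x ∈ dI s c) (hx' : x ∈ dI t c') :
    dI s c ⊆ dI t c' := by
  intro y hy
  rw [mem_dI] at hx hx' hy ⊢
  obtain ⟨d, rfl⟩ := Nat.exists_eq_add_of_le hst
  rw [pow_add] at hx' ⊢
  rw [← Int.ediv_ediv_of_nonneg (by positivity)] at hx' ⊢
  rw [hy, ← hx, hx']

section tl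

variable {m : ℕ} {a b : ℤ} {Ti : Finset (ℕ × ℤ × ℤ)}

lemma Tlg.swap (h : Tlg m a b Ti) : Tlg m b a (Ti.image fun c => (c.1, c.2.2, c.2.1)) where
  sub c hc := by
    obtain ⟨c', hc', rfl⟩ := Finset.mem_image.1 hc
    exact ⟨(h.sub c' hc').2, (h.sub c' hc').1⟩
  cov v hv u hu := by
    obtain ⟨c, hc, h1, h2⟩ := h.cov u hu v hv
    exact ⟨_, Finset.mem_image_of_mem _ hc, h2, h1⟩
  dis c hc c' hc' v u h1 h2 h3 h4 := by
    obtain ⟨d, hd, rfl⟩ := Finset.mem_image.1 hc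
    obtain ⟨d', hd', rfl⟩ := Finset.mem_image.1 hc'
    rw [h.dis d hd d' hd' u v h2 h1 h4 h3]

lemma Tlg.part (h : Tlg m a b Ti) {u v : ℤ} (hu : u ∈ dI m a) (hv : v ∈ dI m b) :
    ∃! c, c ∈ Ti ∧ u ∈ Rw c ∧ v ∈ Cl c := by
  obtain ⟨c, hc, h1, h2⟩ := h.cov u hu v hv
  exact ⟨c, ⟨hc, h1, h2⟩, fun c' hc' => h.dis c' hc'.1 c hc u v hc'.2.1 hc'.2.2 h1 h2⟩

/-- the column sets of tiles on one row are disjoint -/
lemma Tlg.cdis (h : Tlg m a b Ti) {A : Finset (ℕ × ℤ × ℤ)} (hA : A ⊆ Ti) {u : ℤ}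
    (hu : ∀ c ∈ A, u ∈ Rw c) : ∀ c ∈ A, ∀ c' ∈ A, c ≠ c' → Disjoint (Cl c) (Cl c') := by
  intro c hc c' hc' hne
  rw [Finset.disjoint_left]
  intro v hv hv'
  exact hne (h.dis c (hA hc) c' (hA hc') u v (hu c hc) hv (hu c' hc') hv')

lemma Tlg.rdis (h : Tlg m a b Ti) {A : Finset (ℕ × ℤ × ℤ)} (hA : A ⊆ Ti) {v : ℤ}
    (hv : ∀ c ∈ A, v ∈ Cl c) : ∀ c ∈ A, ∀ c' ∈ A, c ≠ c' → Disjoint (Rw c) (Rw c') := by
  intro c hc c' hc' hne
  rw [Finset.disjoint_left]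
  intro u hu hu'
  exact hne (h.dis c (hA hc) c' (hA hc') u v hu (hv c hc) hu' (hv c' hc'))

/-- total side of tiles with disjoint column sets inside `J` -/
lemma sum_side {A : Finset (ℕ × ℤ × ℤ)} {J : Finset ℤ} (hJ : ∀ c ∈ A, Cl c ⊆ J)
    (hd : ∀ c ∈ A, ∀ c' ∈ A, c ≠ c' → Disjoint (Cl c) (Cl c')) :
    ∑ c ∈ A, sd c ≤ J.card := by
  have h1 : ∑ c ∈ A, sd c = ((A.biUnion Cl).card : ℝ) := by
    rw [Finset.card_biUnion (fun c hc c' hc' hne => hd c hc c' hc' hne)]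
    push_cast
    exact Finset.sum_congr rfl fun c _ => (card_dI _ _).symm
  rw [h1]
  exact_mod_cast Finset.card_le_card (Finset.biUnion_subset.2 hJ)

lemma sum_side_row {A : Finset (ℕ × ℤ × ℤ)} {I : Finset ℤ} (hI : ∀ c ∈ A, Rw c ⊆ I)
    (hd : ∀ c ∈ A, ∀ c' ∈ A, c ≠ c' → Disjoint (Rw c) (Rw c')) :
    ∑ c ∈ A, sd c ≤ I.card := by
  have h1 : ∑ c ∈ A, sd c = ((A.biUnion Rw).card : ℝ) := by
    rw [Finset.card_biUnion (fun c hc c' hc' hne => hd c hc c' hc' hne)]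
    push_cast
    exact Finset.sum_congr rfl fun c _ => (card_dI _ _).symm
  rw [h1]
  exact_mod_cast Finset.card_le_card (Finset.biUnion_subset.2 hI)

lemma Tlg.til (h : Tlg m a b Ti) : Til Ti (dI m a) (dI m b) Rw Cl sd (2 ^ m) where
  pos c _ := by positivity
  ro c hc := (h.sub c hc).1
  co c hc := (h.sub c hc).2
  part u hu v hv := h.part hu hv
  row u _ := by
    rw [← card_dI m b]
    exact sum_side (fun c hc => (h.sub c (Finset.mem_filter.1 hc).1).2)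
      (h.cdis (Finset.filter_subset _ _) fun c hc => (Finset.mem_filter.1 hc).2)
  col v _ := by
    rw [← card_dI m a]
    exact sum_side_row (fun c hc => (h.sub c (Finset.mem_filter.1 hc).1).1)
      (h.rdis (Finset.filter_subset _ _) fun c hc => (Finset.mem_filter.1 hc).2)

/-- normalised sum of the row `u` of the tile `c` -/
noncomputable def mc (B : ℤ → ℤ → ℂ) (r : ℝ) (x : ℤ → ℂ) (c : ℕ × ℤ × ℤ) (u : ℤ) : ℂ :=
  (∑ v ∈ Cl c, B u v * x v) / ((r * 2 ^ c.1 : ℝ) : ℂ)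

lemma mc_eq (B : ℤ → ℤ → ℂ) (r : ℝ) (x : ℤ → ℂ) (c : ℕ × ℤ × ℤ) (u : ℤ) :
    mc B r x c u = mm Cl sd B x c u / (r : ℂ) := by
  unfold mc mm
  rw [div_div]
  congr 1
  push_cast
  ring

/-- normalised sum of the column `v` of the tile `c` -/
noncomputable def mcc (B : ℤ → ℤ → ℂ) (r : ℝ) (y : ℤ → ℂ) (c : ℕ × ℤ × ℤ) (v : ℤ) : ℂ :=
  (∑ u ∈ Rw c, conj (B u v) * y u) / ((r * 2 ^ c.1 : ℝ) : ℂ)

variable {B : ℤ → ℤ → ℂ} {r : ℝ}

/-- Lemma A, abstract tiles, arbitrary vectors -/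
theorem til_lemA {τ : Type*} {Tl : Finset τ} {I J : Finset ℤ} {Ro Co : τ → Finset ℤ} {sz : τ → ℝ}
    {s : ℝ} (h : Til Tl I J Ro Co sz s) (hs : 0 < s) (hr : 0 < r)
    (hop : ∀ c ∈ Tl, OpS (Ro c) (Co c) B (r * sz c)) (y x : ℤ → ℂ) :
    ∑ u ∈ I, ∑ c ∈ Tl.filter (fun c => u ∈ Ro c), sz c / s * ‖y u - mm Co sz B x c u / (r : ℂ)‖ ^ 2
      ≤ ∑ u ∈ I, ‖y u‖ ^ 2 + ∑ v ∈ J, ‖x v‖ ^ 2 -
        2 / (r * s) * (∑ u ∈ I, ∑ v ∈ J, conj (y u) * (B u v * x v)).re := by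
  have e0 : (∑ u ∈ I, ∑ v ∈ J, conj (y u) * (B u v * x v)).re =
      ∑ u ∈ I, ∑ v ∈ J, (conj (y u) * (B u v * x v)).re := by
    rw [Complex.re_sum]
    exact Finset.sum_congr rfl fun u _ => Complex.re_sum _ _
  have e1 : ∑ u ∈ I, ∑ c ∈ Tl.filter (fun c => u ∈ Ro c),
        sz c / s * ‖y u - mm Co sz B x c u / (r : ℂ)‖ ^ 2 =
      ∑ u ∈ I, (∑ c ∈ Tl.filter (fun c => u ∈ Ro c), sz c) / s * ‖y u‖ ^ 2 -
        2 / (r * s) * ∑ u ∈ I, ∑ v ∈ J, (conj (y u) * (B u v * x v)).re +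
        (∑ u ∈ I, ∑ c ∈ Tl.filter (fun c => u ∈ Ro c), sz c / s * ‖mm Co sz B x c u‖ ^ 2) /
          r ^ 2 := by
    rw [Finset.mul_sum, Finset.sum_div, ← Finset.sum_sub_distrib, ← Finset.sum_add_distrib]
    refine Finset.sum_congr rfl fun u hu => ?_
    have e2 : ∑ v ∈ J, (conj (y u) * (B u v * x v)).re =
        ∑ c ∈ Tl.filter (fun c => u ∈ Ro c), sz c * (conj (y u) * mm Co sz B x c u).re := by
      have e3 := h.sum_row hu (fun v => conj (y u) * (B u v * x v))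
      have e4 := congrArg Complex.re e3
      rw [Complex.re_sum, Complex.re_sum] at e4
      rw [← e4]
      refine Finset.sum_congr rfl fun c hc => ?_
      have hp := h.pos c (Finset.mem_filter.1 hc).1
      have hpc : (sz c : ℂ) ≠ 0 := by exact_mod_cast hp.ne'
      rw [← Finset.mul_sum, ← Complex.re_ofReal_mul]
      congr 1
      unfold mm
      field_simp
    rw [e2, Finset.sum_div, Finset.mul_sum, Finset.sum_div, Finset.sum_mul,
      ← Finset.sum_sub_distrib, ← Finset.sum_add_distrib]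
    refine Finset.sum_congr rfl fun c hc => ?_
    rw [sq_expand _ _ hr]
    field_simp
  have h1 : ∑ u ∈ I, (∑ c ∈ Tl.filter (fun c => u ∈ Ro c), sz c) / s * ‖y u‖ ^ 2 ≤
      ∑ u ∈ I, ‖y u‖ ^ 2 := by
    refine Finset.sum_le_sum fun u hu => ?_
    have := mul_le_mul_of_nonneg_right ((div_le_one hs).2 (h.row u hu)) (sq_nonneg ‖y u‖)
    linarith
  have h2 : (∑ u ∈ I, ∑ c ∈ Tl.filter (fun c => u ∈ Ro c), sz c / s * ‖mm Co sz B x c u‖ ^ 2) /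
      r ^ 2 ≤ ∑ v ∈ J, ‖x v‖ ^ 2 := by
    rw [div_le_iff₀ (by positivity)]
    refine (h.mass hs hop x).trans (le_of_eq ?_)
    ring
  rw [e1, e0]
  linarith

/-- **LEMMA A** -/
theorem lemA (h : Tlg m a b Ti) (hr : 0 < r) (hop : ∀ c ∈ Ti, OpS (Rw c) (Cl c) B (r * 2 ^ c.1))
    (y x : ℤ → ℂ) :
    ∑ u ∈ dI m a, ∑ c ∈ Ti.filter (fun c => u ∈ Rw c), (2 : ℝ) ^ c.1 / 2 ^ m *
        ‖y u - mc B r x c u‖ ^ 2
      ≤ ∑ u ∈ dI m a, ‖y u‖ ^ 2 + ∑ v ∈ dI m b, ‖x v‖ ^ 2 -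
        2 / (r * 2 ^ m) * (∑ u ∈ dI m a, ∑ v ∈ dI m b, conj (y u) * (B u v * x v)).re := by
  simp only [mc_eq]
  exact til_lemA h.til (by positivity) hr hop y x

/-- transposed operator bound -/
lemma opS_swap {S T : Finset ℤ} {K : ℤ → ℤ → ℂ} {o : ℝ} (_ho : 0 ≤ o) (h : OpS S T K o) :
    OpS T S (fun v u => conj (K u v)) o := by
  intro f
  set g : ℤ → ℂ := fun v => ∑ u ∈ S, conj (K u v) * f u with hg
  set G : ℝ := ∑ v ∈ T, ‖g v‖ ^ 2 with hG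
  have hG0 : 0 ≤ G := Finset.sum_nonneg fun _ _ => sq_nonneg _
  have hF0 : 0 ≤ ∑ u ∈ S, ‖f u‖ ^ 2 := Finset.sum_nonneg fun _ _ => sq_nonneg _
  -- `G = ∑ conj (f u) (K g) u`
  have e1 : (G : ℂ) = ∑ u ∈ S, conj (f u) * ∑ v ∈ T, K u v * g v := by
    have e2 : (G : ℂ) = ∑ v ∈ T, conj (g v) * g v := by
      rw [hG]
      push_cast
      refine Finset.sum_congr rfl fun v _ => ?_
      rw [Complex.conj_mul']
    rw [e2]
    have e3 : ∀ v ∈ T, conj (g v) * g v = ∑ u ∈ S, conj (f u) * (K u v * g v) := by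
      intro v _
      have : conj (g v) = ∑ u ∈ S, conj (f u) * K u v := by
        rw [hg]
        simp only [map_sum, map_mul, Complex.conj_conj]
        exact Finset.sum_congr rfl fun u _ => by ring
      rw [this, Finset.sum_mul]
      exact Finset.sum_congr rfl fun u _ => by ring
    rw [Finset.sum_congr rfl e3, Finset.sum_comm]
    exact Finset.sum_congr rfl fun u _ => by rw [Finset.mul_sum]
  have h1 : G ≤ ∑ u ∈ S, ‖f u‖ * ‖∑ v ∈ T, K u v * g v‖ := by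
    have e4 : G = ‖(G : ℂ)‖ := by rw [Complex.norm_real, Real.norm_of_nonneg hG0]
    rw [e4, e1]
    refine (norm_sum_le _ _).trans (le_of_eq (Finset.sum_congr rfl fun u _ => ?_))
    rw [norm_mul, RCLike.norm_conj]
  have h2 : G ^ 2 ≤ (∑ u ∈ S, ‖f u‖ ^ 2) * (o ^ 2 * G) := by
    have a1 := Finset.sum_mul_sq_le_sq_mul_sq S (fun u => ‖f u‖)
      (fun u => ‖∑ v ∈ T, K u v * g v‖)
    have a2 := mul_le_mul_of_nonneg_left (h g) hF0
    exact (pow_le_pow_left₀ hG0 h1 2).trans (a1.trans a2)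
  rcases hG0.eq_or_lt with h0 | hpos
  · rw [← h0]
    positivity
  · have h3 : G * G ≤ (o ^ 2 * ∑ u ∈ S, ‖f u‖ ^ 2) * G := by
      calc G * G = G ^ 2 := by ring
        _ ≤ _ := h2
        _ = _ := by ring
    exact le_of_mul_le_mul_right h3 hpos

/-- **LEMMA A**, columns -/
theorem lemA_col (h : Tlg m a b Ti) (hr : 0 < r)
    (hop : ∀ c ∈ Ti, OpS (Rw c) (Cl c) B (r * 2 ^ c.1)) (y x : ℤ → ℂ) :
    ∑ v ∈ dI m b, ∑ c ∈ Ti.filter (fun c => v ∈ Cl c), (2 : ℝ) ^ c.1 / 2 ^ m *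
        ‖x v - mcc B r y c v‖ ^ 2
      ≤ ∑ u ∈ dI m a, ‖y u‖ ^ 2 + ∑ v ∈ dI m b, ‖x v‖ ^ 2 -
        2 / (r * 2 ^ m) * (∑ u ∈ dI m a, ∑ v ∈ dI m b, conj (y u) * (B u v * x v)).re := by
  have h1 := til_lemA (B := fun v u => conj (B u v)) h.til.swap (by positivity) hr
    (fun c hc => opS_swap (by positivity) (hop c hc)) x y
  have e1 : ∀ c v, mcc B r y c v = mm Rw sd (fun v u => conj (B u v)) y c v / (r : ℂ) := by
    intro c v
    unfold mcc mm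
    rw [div_div]
    congr 1
    push_cast
    ring
  have e2 : (∑ v ∈ dI m b, ∑ u ∈ dI m a, conj (x v) * (conj (B u v) * y u)).re =
      (∑ u ∈ dI m a, ∑ v ∈ dI m b, conj (y u) * (B u v * x v)).re := by
    rw [Finset.sum_comm, ← Complex.conj_re]
    congr 1
    rw [map_sum]
    refine Finset.sum_congr rfl fun u _ => ?_
    rw [map_sum]
    refine Finset.sum_congr rfl fun v _ => ?_
    simp only [map_mul, Complex.conj_conj]
    ring
  simp only [e1]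
  rw [e2] at h1
  linarith

/-- the deficiency of unit vectors is nonnegative -/
theorem defi_nn (h : Tlg m a b Ti) (hr : 0 < r)
    (hop : ∀ c ∈ Ti, OpS (Rw c) (Cl c) B (r * 2 ^ c.1)) {y x : ℤ → ℂ}
    (hy : ∑ u ∈ dI m a, ‖y u‖ ^ 2 ≤ 1) (hx : ∑ v ∈ dI m b, ‖x v‖ ^ 2 ≤ 1) :
    0 ≤ r * 2 ^ m - (∑ u ∈ dI m a, ∑ v ∈ dI m b, conj (y u) * (B u v * x v)).re := by
  have h1 := lemA h hr hop y x
  have h2 : 0 ≤ ∑ u ∈ dI m a, ∑ c ∈ Ti.filter (fun c => u ∈ Rw c), (2 : ℝ) ^ c.1 / 2 ^ m *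
        ‖y u - mc B r x c u‖ ^ 2 :=
    Finset.sum_nonneg fun u _ => Finset.sum_nonneg fun c _ => by positivity
  set z := (∑ u ∈ dI m a, ∑ v ∈ dI m b, conj (y u) * (B u v * x v)).re with hz
  have h3 : 2 / (r * 2 ^ m) * z ≤ 2 := by linarith
  have h4 : (0 : ℝ) < r * 2 ^ m := by positivity
  have h5 : 2 / (r * 2 ^ m) * z = 2 * z / (r * 2 ^ m) := by ring
  rw [h5, div_le_iff₀ h4] at h3
  linarith

/-! ### alive tiles -/

/-- weight of the alive tiles on a row -/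
noncomputable def wt (A : Finset (ℕ × ℤ × ℤ)) (u : ℤ) : ℝ :=
  ∑ c ∈ A.filter (fun c => u ∈ Rw c), (2 : ℝ) ^ c.1

/-- weight of the alive tiles on a column -/
noncomputable def wtc (A : Finset (ℕ × ℤ × ℤ)) (v : ℤ) : ℝ :=
  ∑ c ∈ A.filter (fun c => v ∈ Cl c), (2 : ℝ) ^ c.1

open Classical in
/-- kernel masked to the alive tiles -/
noncomputable def mB (A : Finset (ℕ × ℤ × ℤ)) (B : ℤ → ℤ → ℂ) (u v : ℤ) : ℂ :=
  if ∃ c ∈ A, u ∈ Rw c ∧ v ∈ Cl c then B u v else 0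

variable {A : Finset (ℕ × ℤ × ℤ)}

lemma mB_sum (h : Tlg m a b Ti) (hA : A ⊆ Ti) (f : ℤ → ℂ) (u : ℤ) :
    ∑ v ∈ dI m b, mB A B u v * f v =
      ∑ c ∈ A.filter (fun c => u ∈ Rw c), ∑ v ∈ Cl c, B u v * f v := by
  classical
  have h1 : ∑ c ∈ A.filter (fun c => u ∈ Rw c), ∑ v ∈ Cl c, B u v * f v =
      ∑ v ∈ dI m b, ∑ _c ∈ A.filter (fun c => u ∈ Rw c ∧ v ∈ Cl c), B u v * f v := by
    refine Finset.sum_comm' fun c v => ?_
    simp only [Finset.mem_filter]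
    constructor
    · rintro ⟨⟨h1, h2⟩, h3⟩
      exact ⟨⟨h1, h2, h3⟩, (h.sub c (hA h1)).2 h3⟩
    · rintro ⟨⟨h1, h2, h3⟩, _⟩
      exact ⟨⟨h1, h2⟩, h3⟩
  rw [h1]
  refine Finset.sum_congr rfl fun v _ => ?_
  unfold mB
  split_ifs with hc
  · obtain ⟨c, hcA, h2, h3⟩ := hc
    have e : A.filter (fun c => u ∈ Rw c ∧ v ∈ Cl c) = {c} := by
      ext c'
      rw [Finset.mem_filter, Finset.mem_singleton]
      constructor
      · rintro ⟨h4, h5, h6⟩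
        exact h.dis c' (hA h4) c (hA hcA) u v h5 h6 h2 h3
      · rintro rfl
        exact ⟨hcA, h2, h3⟩
    rw [e, Finset.sum_singleton]
  · have e : A.filter (fun c => u ∈ Rw c ∧ v ∈ Cl c) = ∅ := by
      rw [Finset.filter_eq_empty_iff]
      intro c hcA hcc
      exact hc ⟨c, hcA, hcc⟩
    rw [e, Finset.sum_empty, zero_mul]

/-- mean over the alive tiles of the row -/
noncomputable def avg (m : ℕ) (b : ℤ) (A : Finset (ℕ × ℤ × ℤ)) (B : ℤ → ℤ → ℂ) (r : ℝ)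
    (x : ℤ → ℂ) (u : ℤ) : ℂ :=
  (∑ v ∈ dI m b, mB A B u v * x v) / ((r * wt A u : ℝ) : ℂ)

/-- **Jensen** : the mean over the alive tiles of a row -/
theorem jen (h : Tlg m a b Ti) (hA : A ⊆ Ti) (hr : 0 < r) (y : ℂ) (x : ℤ → ℂ) {u : ℤ}
    (hw : 0 < wt A u) :
    ‖y - avg m b A B r x u‖ ^ 2 ≤ 2 ^ m / wt A u *
      ∑ c ∈ A.filter (fun c => u ∈ Rw c), (2 : ℝ) ^ c.1 / 2 ^ m * ‖y - mc B r x c u‖ ^ 2 := by
  unfold avg
  rw [mB_sum h hA]
  simp only [mc_eq]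
  exact jensen (s := 2 ^ m) (Ro := Rw) (Co := Cl) (sz := sd) (A := A) (fun c _ => by positivity)
    (by positivity) hr y x u hw

/-- `avg` of a difference -/
lemma avg_sub (m : ℕ) (b : ℤ) (A : Finset (ℕ × ℤ × ℤ)) (B : ℤ → ℤ → ℂ) (r : ℝ) (x x' : ℤ → ℂ)
    (u : ℤ) : avg m b A B r x u - avg m b A B r x' u = avg m b A B r (fun v => x v - x' v) u := by
  unfold avg
  rw [← sub_div, ← Finset.sum_sub_distrib]
  congr 1
  exact Finset.sum_congr rfl fun v _ => by ring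

/-- **Schur** : operator norm of the masked kernel on the rows `I0` -/
theorem op_strip (h : Tlg m a b Ti) (hA : A ⊆ Ti)
    (hop : ∀ c ∈ A, OpS (Rw c) (Cl c) B (r * 2 ^ c.1)) {I0 : Finset ℤ} {S' l : ℝ} (hS' : 0 ≤ S')
    (hl : 0 ≤ l) (hrow : ∀ u ∈ I0, wt A u ≤ S')
    (hcol : ∀ v ∈ dI m b, ∑ c ∈ A.filter (fun c => v ∈ Cl c ∧ (Rw c ∩ I0).Nonempty),
      (2 : ℝ) ^ c.1 ≤ l) :
    OpS I0 (dI m b) (mB A B) (r * Real.sqrt (S' * l)) := by
  intro f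
  have h1 := schur (r := r) (B := B) (Ro := Rw) (Co := Cl) (sz := sd) (A := A) (J := dI m b)
    (I0 := I0) (S' := S') (l := l) (fun c _ => by positivity) (fun c hc => (h.sub c (hA hc)).2)
    hop hS' hrow hcol f
  simp only [mB_sum h hA]
  refine h1.trans (le_of_eq ?_)
  rw [mul_pow, Real.sq_sqrt (mul_nonneg hS' hl)]

/-- the alive tiles meeting a row block which is at least as large as the tiles -/
lemma side_block (h : Tlg m a b Ti) (hA : A ⊆ Ti) {l : ℕ} (hl : ∀ c ∈ A, c.1 ≤ l) (a' : ℤ) (v : ℤ) :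
    ∑ c ∈ A.filter (fun c => v ∈ Cl c ∧ (Rw c ∩ dI l a').Nonempty), (2 : ℝ) ^ c.1 ≤ 2 ^ l := by
  rw [← card_dI l a']
  refine sum_side_row (fun c hc => ?_)
    (h.rdis ((Finset.filter_subset _ _).trans hA) (v := v) fun c hc =>
      (Finset.mem_filter.1 hc).2.1)
  obtain ⟨h1, _, x, hx⟩ := Finset.mem_filter.1 hc
  rw [Finset.mem_inter] at hx
  exact nest (hl c h1) hx.1 hx.2

lemma wt_le (h : Tlg m a b Ti) (hA : A ⊆ Ti) (u : ℤ) : wt A u ≤ 2 ^ m := by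
  rw [← card_dI m b]
  exact sum_side (fun c hc => (h.sub c (hA (Finset.mem_filter.1 hc).1)).2)
    (h.cdis ((Finset.filter_subset _ _).trans hA) fun c hc => (Finset.mem_filter.1 hc).2)

lemma wtc_le (h : Tlg m a b Ti) (hA : A ⊆ Ti) (v : ℤ) : wtc A v ≤ 2 ^ m := by
  rw [← card_dI m a]
  exact sum_side_row (fun c hc => (h.sub c (hA (Finset.mem_filter.1 hc).1)).1)
    (h.rdis ((Finset.filter_subset _ _).trans hA) fun c hc => (Finset.mem_filter.1 hc).2)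

/-- **spread** : the masked kernel on a block of rows at least as large as its tiles -/
theorem spreadR (h : Tlg m a b Ti) (hA : A ⊆ Ti)
    (hop : ∀ c ∈ A, OpS (Rw c) (Cl c) B (r * 2 ^ c.1)) {l : ℕ} (hl : ∀ c ∈ A, c.1 ≤ l) (a' : ℤ) :
    OpS (dI l a') (dI m b) (mB A B) (r * Real.sqrt (2 ^ m * 2 ^ l)) :=
  op_strip h hA hop (by positivity) (by positivity) (fun u _ => wt_le h hA u)
    fun v _ => side_block h hA hl a' v

end tl

/-! ### Bessel bounds, dual form -/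

section bes

variable {κ : Type*} [Fintype κ] {J : Finset ℤ} {V : κ → ℤ → ℂ} {b : ℝ}

theorem bes_dual (hb : 0 ≤ b) (h : Bes J V b) (f : ℤ → ℂ) :
    ∑ k, ‖∑ v ∈ J, f v * V k v‖ ^ 2 ≤ b * ∑ v ∈ J, ‖f v‖ ^ 2 := by
  set g : κ → ℂ := fun k => ∑ v ∈ J, f v * V k v with hg
  set G : ℝ := ∑ k, ‖g k‖ ^ 2 with hG
  have hG0 : 0 ≤ G := Finset.sum_nonneg fun _ _ => sq_nonneg _
  have hF0 : 0 ≤ ∑ v ∈ J, ‖f v‖ ^ 2 := Finset.sum_nonneg fun _ _ => sq_nonneg _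
  have e1 : (G : ℂ) = ∑ v ∈ J, f v * ∑ k, conj (g k) * V k v := by
    have e2 : (G : ℂ) = ∑ k, conj (g k) * g k := by
      rw [hG]
      push_cast
      refine Finset.sum_congr rfl fun k _ => ?_
      rw [Complex.conj_mul']
    rw [e2]
    have e3 : ∀ k : κ, conj (g k) * g k = ∑ v ∈ J, f v * (conj (g k) * V k v) := by
      intro k
      conv_lhs => rw [show g k = ∑ v ∈ J, f v * V k v from rfl]
      rw [Finset.mul_sum]
      exact Finset.sum_congr rfl fun v _ => by ring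
    rw [Finset.sum_congr rfl fun k _ => e3 k, Finset.sum_comm]
    exact Finset.sum_congr rfl fun v _ => by rw [Finset.mul_sum]
  have h1 : G ≤ ∑ v ∈ J, ‖f v‖ * ‖∑ k, conj (g k) * V k v‖ := by
    have e4 : G = ‖(G : ℂ)‖ := by rw [Complex.norm_real, Real.norm_of_nonneg hG0]
    rw [e4, e1]
    refine (norm_sum_le _ _).trans (le_of_eq (Finset.sum_congr rfl fun v _ => ?_))
    rw [norm_mul]
  have e5 : ∑ k, ‖conj (g k)‖ ^ 2 = G := by
    simp only [RCLike.norm_conj]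
    rfl
  have h2 : G ^ 2 ≤ (∑ v ∈ J, ‖f v‖ ^ 2) * (b * G) := by
    have a1 := Finset.sum_mul_sq_le_sq_mul_sq J (fun v => ‖f v‖)
      (fun v => ‖∑ k, conj (g k) * V k v‖)
    have a2 := mul_le_mul_of_nonneg_left (h fun k => conj (g k)) hF0
    rw [e5] at a2
    exact (pow_le_pow_left₀ hG0 h1 2).trans (a1.trans a2)
  rcases hG0.eq_or_lt with h0 | hpos
  · rw [← h0]
    positivity
  · have h3 : G * G ≤ (b * ∑ v ∈ J, ‖f v‖ ^ 2) * G := by
      calc G * G = G ^ 2 := by ring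
        _ ≤ _ := h2
        _ = _ := by ring
    exact le_of_mul_le_mul_right h3 hpos

theorem bes_of_dual (hb : 0 ≤ b)
    (h : ∀ f : ℤ → ℂ, ∑ k, ‖∑ v ∈ J, f v * V k v‖ ^ 2 ≤ b * ∑ v ∈ J, ‖f v‖ ^ 2) : Bes J V b := by
  intro c
  set g : ℤ → ℂ := fun v => ∑ k, c k * V k v with hg
  set G : ℝ := ∑ v ∈ J, ‖g v‖ ^ 2 with hG
  have hG0 : 0 ≤ G := Finset.sum_nonneg fun _ _ => sq_nonneg _
  have hF0 : 0 ≤ ∑ k, ‖c k‖ ^ 2 := Finset.sum_nonneg fun _ _ => sq_nonneg _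
  have e1 : (G : ℂ) = ∑ k, c k * ∑ v ∈ J, conj (g v) * V k v := by
    have e2 : (G : ℂ) = ∑ v ∈ J, conj (g v) * g v := by
      rw [hG]
      push_cast
      refine Finset.sum_congr rfl fun k _ => ?_
      rw [Complex.conj_mul']
    rw [e2]
    have e3 : ∀ v ∈ J, conj (g v) * g v = ∑ k, c k * (conj (g v) * V k v) := by
      intro v _
      conv_lhs => rw [show g v = ∑ k, c k * V k v from rfl]
      rw [Finset.mul_sum]
      exact Finset.sum_congr rfl fun k _ => by ring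
    rw [Finset.sum_congr rfl e3, Finset.sum_comm]
    exact Finset.sum_congr rfl fun k _ => by rw [Finset.mul_sum]
  have h1 : G ≤ ∑ k, ‖c k‖ * ‖∑ v ∈ J, conj (g v) * V k v‖ := by
    have e4 : G = ‖(G : ℂ)‖ := by rw [Complex.norm_real, Real.norm_of_nonneg hG0]
    rw [e4, e1]
    refine (norm_sum_le _ _).trans (le_of_eq (Finset.sum_congr rfl fun v _ => ?_))
    rw [norm_mul]
  have e5 : ∑ v ∈ J, ‖conj (g v)‖ ^ 2 = G := by
    simp only [RCLike.norm_conj]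
    rfl
  have h2 : G ^ 2 ≤ (∑ k, ‖c k‖ ^ 2) * (b * G) := by
    have a1 := Finset.sum_mul_sq_le_sq_mul_sq (univ : Finset κ) (fun k => ‖c k‖)
      (fun k => ‖∑ v ∈ J, conj (g v) * V k v‖)
    have a2 := mul_le_mul_of_nonneg_left (h fun v => conj (g v)) hF0
    rw [e5] at a2
    exact (pow_le_pow_left₀ hG0 h1 2).trans (a1.trans a2)
  rcases hG0.eq_or_lt with h0 | hpos
  · rw [← h0]
    positivity
  · have h3 : G * G ≤ (b * ∑ k, ‖c k‖ ^ 2) * G := by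
      calc G * G = G ^ 2 := by ring
        _ ≤ _ := h2
        _ = _ := by ring
    exact le_of_mul_le_mul_right h3 hpos

end bes

end Crest.Agent.R079.NrTx259
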