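import Crest.Agent.R079.NrT_276
import Crest.Agent.R079.NrT_259
import Crest.Agent.R079.SbZ_795
import Crest.Agent.R079.GaF_371
import Crest.Agent.R079.DLa_250

/-! R079 (helper276), (T3) of note 1820: BRIDGE between the geometry of the tilings (`NrT_276`), the
literals of 259 (`Tlg`, `wt`, `wtc`, `mB`) and the alive counts of 795 (`al`, `dq`, `QQ`).

`St3 Y` : the label form is affine with steps `1..3`; `alv V d q y` : the label `y` is alive at level
`d` inside the node `q`; `AT` : the alive tiles.  `tlg`; `wt_eq, wtc_eq` : weights = number of alive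
points; `wt_ge, wtc_ge` : lower bounds on inner rows / columns; `big_cell`; `inner_pos`. -/

set_option autoImplicit false

namespace Crest.Agent.R079.NrUx276

open Finset Crest.Agent.R079.Grid Crest.Agent.R079.Growth Crest.Agent.R079.QRed
  Crest.Agent.R079.Qh249 Crest.Agent.R079.QVar181 Crest.Agent.R079.TWin
open Crest.Agent.R079.ThA159 Crest.Agent.R079.Cel159
open Crest.Agent.R079.Whit (Ins Ins.mono Ins.sub sub0 sub1)
open Crest.Agent.R079.ClW59 (OpS)
open Crest.Agent.R079.NrTx276 Crest.Agent.R079.SbWx795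
open Crest.Agent.R079.NrTx259 (Tlg Rw Cl wt wtc mB)
open Crest.Agent.R079.GaFx371 (Ye)

/-- affine labels with steps `1, 2, 3` -/
def St3 (Y : ℤ → ℤ → ℤ → ℤ) : Prop :=
  ∃ (g : ℤ → ℤ) (β γ : ℤ), (β ≠ 0 ∧ |β| ≤ 3) ∧ (γ ≠ 0 ∧ |γ| ≤ 3) ∧
    ∀ z u v, Y z u v = g z + β * u + γ * v

lemma st3_Ye (j : Fin 4) (e : Fin 3) : St3 (Ye j e) := by
  refine ⟨fun w => (sl j - sl (j.succAbove (e + 2))) * w,
    sl (j.succAbove e) - sl (j.succAbove (e + 2)),
    sl (j.succAbove (e + 1)) - sl (j.succAbove (e + 2)), ?_, ?_, fun _ _ _ => rfl⟩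
  · fin_cases j <;> fin_cases e <;> decide
  · fin_cases j <;> fin_cases e <;> decide

lemma St3.swap {Y : ℤ → ℤ → ℤ → ℤ} (h : St3 Y) : St3 (fun z v u => Y z u v) := by
  obtain ⟨g, β, γ, h1, h2, h3⟩ := h
  exact ⟨g, γ, β, h2, h1, fun z v u => by
    show Y z u v = _
    rw [h3]; ring⟩

section count

/-- number of points of an arithmetic progression in a node -/
lemma cnt_ge {γ : ℤ} (h0 : γ ≠ 0) (h3 : |γ| ≤ 3) (c : ℤ) (p : Nd) {T : Finset ℤ}
    (hT : ∀ v, c + γ * v ∈ iv p → v ∈ T) :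
    len p / 4 ≤ ((T.filter (fun v => c + γ * v ∈ iv p)).card : ℝ) := by
  obtain ⟨σ, g, hσ, hg0, hg3, hγ⟩ : ∃ σ g : ℤ, σ * σ = 1 ∧ 0 < g ∧ g ≤ 3 ∧ γ = σ * g := by
    rcases lt_or_gt_of_ne h0 with h | h
    · refine ⟨-1, -γ, by norm_num, by omega, ?_, by ring⟩
      rwa [abs_of_neg h] at h3
    · refine ⟨1, γ, by norm_num, h, ?_, by ring⟩
      rwa [abs_of_pos h] at h3
  set N : ℤ := 2 ^ (p.1 + 5) with hN
  have hN0 : 0 < N := by positivity
  have e7 : (2 : ℤ) ^ (p.1 + 7) = 4 * N := by rw [hN]; ring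
  set q : ℤ := (c - p.2 * (4 * N)) / g with hq
  set rem : ℤ := (c - p.2 * (4 * N)) % g with hrem
  have hdiv : g * q + rem = c - p.2 * (4 * N) := Int.mul_ediv_add_emod _ _
  have hr0 : 0 ≤ rem := Int.emod_nonneg _ hg0.ne'
  have hr1 : rem < g := Int.emod_lt_of_pos _ hg0
  have hmem : ∀ t : ℕ, t < 2 ^ (p.1 + 5) → c + γ * (σ * (-q + t)) ∈ iv p := by
    intro t ht
    have ht' : (t : ℤ) ≤ N - 1 := by
      have : (t : ℤ) < ((2 ^ (p.1 + 5) : ℕ) : ℤ) := by exact_mod_cast ht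
      push_cast at this
      rw [hN]
      omega
    have e1 : c + γ * (σ * (-q + t)) = p.2 * (4 * N) + rem + g * t := by
      rw [hγ]
      have : σ * g * (σ * (-q + t)) = (σ * σ) * (g * (-q + t)) := by ring
      rw [this, hσ]
      linarith
    rw [e1, mem_iv, e7]
    have h4N : (0 : ℤ) < 4 * N := by omega
    have hgt : g * t ≤ 3 * (N - 1) := by
      have h1 : g * t ≤ 3 * (t : ℤ) := mul_le_mul_of_nonneg_right hg3 (by positivity)
      omega
    have hgt0 : 0 ≤ g * (t : ℤ) := by positivity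
    refine le_antisymm (Int.lt_add_one_iff.1 ((Int.ediv_lt_iff_lt_mul h4N).2 ?_))
      ((Int.le_ediv_iff_mul_le h4N).2 ?_)
    · have : (p.2 + 1) * (4 * N) = p.2 * (4 * N) + 4 * N := by ring
      rw [this]
      omega
    · omega
  have hinj : Set.InjOn (fun t : ℕ => σ * (-q + (t : ℤ))) (Finset.range (2 ^ (p.1 + 5)) : Set ℕ) := by
    intro t _ t' _ h
    simp only at h
    have h1 : σ * (σ * (-q + (t : ℤ))) = σ * (σ * (-q + (t' : ℤ))) := by rw [h]
    rw [← mul_assoc, ← mul_assoc, hσ] at h1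
    have : (t : ℤ) = t' := by linarith
    exact_mod_cast this
  have hsub : (Finset.range (2 ^ (p.1 + 5))).image (fun t : ℕ => σ * (-q + (t : ℤ))) ⊆
      T.filter (fun v => c + γ * v ∈ iv p) := by
    intro v hv
    obtain ⟨t, ht, rfl⟩ := Finset.mem_image.1 hv
    have h1 := hmem t (Finset.mem_range.1 ht)
    exact Finset.mem_filter.2 ⟨hT _ h1, h1⟩
  have h1 := Finset.card_le_card hsub
  rw [Finset.card_image_of_injOn hinj, Finset.card_range] at h1
  have h2 : ((2 ^ (p.1 + 5) : ℕ) : ℝ) ≤ ((T.filter (fun v => c + γ * v ∈ iv p)).card : ℝ) := by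
    exact_mod_cast h1
  refine le_trans (le_of_eq ?_) h2
  unfold Growth.len
  push_cast
  ring

/-- upper bound -/
lemma cnt_le {γ : ℤ} (h0 : γ ≠ 0) (c : ℤ) (p : Nd) (T : Finset ℤ) :
    ((T.filter (fun v => c + γ * v ∈ iv p)).card : ℝ) ≤ len p := by
  have h1 : (T.filter (fun v => c + γ * v ∈ iv p)).card ≤ (iv p).card := by
    refine Finset.card_le_card_of_injOn (fun v => c + γ * v) (fun v hv => ?_) fun v _ v' _ h => ?_
    · exact (Finset.mem_filter.1 (Finset.mem_coe.1 hv)).2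
    · have h2 : γ * v = γ * v' := by linarith
      exact mul_left_cancel₀ h0 h2
  have h2 : ((iv p).card : ℝ) = len p := by
    unfold iv Growth.len
    exact cdI _ _
  rw [← h2]
  exact_mod_cast h1

end count

section alive

/-- alive labels: the node of level `d` above the label is in `V`, inside `q` -/
def alv (V : Finset Nd) (d : ℕ) (q : Nd) (y : ℤ) : Prop := ∃ p ∈ V, p.1 = d ∧ iv p ⊆ iv q ∧ y ∈ iv p

lemma alv_sub {V : Finset Nd} {d : ℕ} {q : Nd} {y : ℤ} (h : alv V d q y) : y ∈ iv q := by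
  obtain ⟨p, _, _, h2, h3⟩ := h
  exact h2 h3

lemma alv_mono {V : Finset Nd} {d : ℕ} {q q' : Nd} (hq : iv q ⊆ iv q') {y : ℤ}
    (h : alv V d q y) : alv V d q' y := by
  obtain ⟨p, h0, h1, h2, h3⟩ := h
  exact ⟨p, h0, h1, h2.trans hq, h3⟩

open Classical in
/-- number of alive labels on a line -/
lemma alv_cnt_ge {γ : ℤ} (h0 : γ ≠ 0) (h3 : |γ| ≤ 3) (c : ℤ) (V : Finset Nd) (d : ℕ) (q : Nd)
    {T : Finset ℤ} (hT : ∀ v, c + γ * v ∈ iv q → v ∈ T) :
    al V d q / 4 ≤ ((T.filter (fun v => alv V d q (c + γ * v))).card : ℝ) := by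
  have e : T.filter (fun v => alv V d q (c + γ * v))
      = (V.filter (fun p => p.1 = d ∧ iv p ⊆ iv q)).biUnion
        (fun p => T.filter (fun v => c + γ * v ∈ iv p)) := by
    ext v
    simp only [Finset.mem_filter, Finset.mem_biUnion]
    constructor
    · rintro ⟨hv, p, h1, h2, h4, h5⟩
      exact ⟨p, ⟨h1, h2, h4⟩, hv, h5⟩
    · rintro ⟨p, ⟨h1, h2, h4⟩, hv, h5⟩
      exact ⟨hv, p, h1, h2, h4, h5⟩
  rw [e, Finset.card_biUnion]
  · unfold al
    rw [Finset.sum_div]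
    push_cast
    refine Finset.sum_le_sum fun p hp => ?_
    have hp2 := (Finset.mem_filter.1 hp).2.2
    exact cnt_ge h0 h3 c p fun v hv => hT v (hp2 hv)
  · intro p hp p' hp' hne
    refine Finset.disjoint_left.2 fun v hv hv' => ?_
    have g1 := (Finset.mem_filter.1 (Finset.mem_coe.1 hp)).2.1
    have g2 := (Finset.mem_filter.1 (Finset.mem_coe.1 hp')).2.1
    exact Finset.disjoint_left.1 (disj_level (g1.trans g2.symm) hne)
      (Finset.mem_filter.1 hv).2 (Finset.mem_filter.1 hv').2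

end alive

section tiles

variable {Y : ℤ → ℤ → ℤ → ℤ} {k : ℕ} {V : Finset Nd} {P K : Nd} {z : ℤ} {m : ℕ} {a b : ℤ}
  {d : ℕ} {q : Nd}

/-- **the tiling literal of 259** -/
theorem tlg (hV : Full V P) (hK : K ∈ V) (hM : Mx (Y z) k K m a b) :
    Tlg m a b (Til Y k V z m a b) where
  sub _ hc := til_sub hV hK hM hc
  cov _ hu _ hv := ⟨_, til_cov hV hK hM hu hv⟩
  dis _ hc _ hc' _ _ h1 h2 h3 h4 := til_dis hV hK hM hc hc' h1 h2 h3 h4

/-- a leaf is alive or not -/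
lemma alv_leaf (hV : Full V P) {L : Nd} (hL : L ∈ lf V) {y y' : ℤ} (hy : y ∈ iv L)
    (hy' : y' ∈ iv L) (h : alv V d q y) : alv V d q y' := by
  obtain ⟨p, h0, h1, h2, h3⟩ := h
  exact ⟨p, h0, h1, h2, leaf_below hV hL h0 hy h3 hy'⟩

open Classical in
/-- the alive tiles -/
noncomputable def AT (Y : ℤ → ℤ → ℤ → ℤ) (k : ℕ) (V : Finset Nd) (z : ℤ) (m : ℕ) (a b : ℤ)
    (d : ℕ) (q : Nd) : Finset (ℕ × ℤ × ℤ) :=
  (Til Y k V z m a b).filter
    (fun c => alv V d q (Y z (c.2.1 * 2 ^ c.1) (c.2.2 * 2 ^ c.1)))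

lemma AT_sub : AT Y k V z m a b d q ⊆ Til Y k V z m a b := by
  classical
  exact Finset.filter_subset _ _

lemma cor_mem (n : ℕ) (x : ℤ) : x * 2 ^ n ∈ dI n x := by
  rw [L0e.mem_dI]
  exact Int.mul_ediv_cancel x (by positivity)

/-- alive tiles = tiles of alive labels -/
theorem mem_AT (hV : Full V P) (hK : K ∈ V) (hM : Mx (Y z) k K m a b) {c : ℕ × ℤ × ℤ}
    (hc : c ∈ Til Y k V z m a b) {u v : ℤ} (hu : u ∈ Rw c) (hv : v ∈ Cl c) :
    c ∈ AT Y k V z m a b d q ↔ alv V d q (Y z u v) := by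
  classical
  obtain ⟨L, hL, _, h1, _⟩ := til_spec hV hK hM hc
  have h2 : Y z u v ∈ iv L := h1.2.1 u hu v hv
  have h3 : Y z (c.2.1 * 2 ^ c.1) (c.2.2 * 2 ^ c.1) ∈ iv L :=
    h1.2.1 _ (cor_mem _ _) _ (cor_mem _ _)
  unfold AT
  rw [Finset.mem_filter]
  constructor
  · rintro ⟨_, h⟩
    exact alv_leaf hV hL h3 h2 h
  · intro h
    exact ⟨hc, alv_leaf hV hL h2 h3 h⟩

lemma AT_mono {q' : Nd} (hq : iv q ⊆ iv q') : AT Y k V z m a b d q ⊆ AT Y k V z m a b d q' := by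
  classical
  intro c hc
  unfold AT at hc ⊢
  rw [Finset.mem_filter] at hc ⊢
  exact ⟨hc.1, alv_mono hq hc.2⟩

/-- labels of an alive tile -/
lemma AT_lab (hV : Full V P) (hK : K ∈ V) (hM : Mx (Y z) k K m a b) {c : ℕ × ℤ × ℤ}
    (hc : c ∈ AT Y k V z m a b d q) {u v : ℤ} (hu : u ∈ Rw c) (hv : v ∈ Cl c) :
    alv V d q (Y z u v) := (mem_AT hV hK hM (AT_sub hc) hu hv).1 hc

open Classical in
/-- **weight = number of alive points of the row** -/
theorem wt_eq (hV : Full V P) (hK : K ∈ V) (hM : Mx (Y z) k K m a b) {u : ℤ} (hu : u ∈ dI m a) :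
    wt (AT Y k V z m a b d q) u = ((dI m b).filter (fun v => alv V d q (Y z u v))).card := by
  unfold wt AT
  rw [Finset.filter_filter,
    row_card hV hK hM (fun c => alv V d q (Y z (c.2.1 * 2 ^ c.1) (c.2.2 * 2 ^ c.1))) hu]
  congr 2
  refine Finset.filter_congr fun v hv => ?_
  obtain ⟨h1, h2, h3⟩ := til_cov hV hK hM hu hv
  rw [← mem_AT hV hK hM h1 h2 h3]
  unfold AT
  rw [Finset.mem_filter]
  exact ⟨fun h => ⟨h1, h⟩, fun h => h.2⟩

open Classical in
/-- **weight = number of alive points of the column** -/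
theorem wtc_eq (hV : Full V P) (hK : K ∈ V) (hM : Mx (Y z) k K m a b) {v : ℤ} (hv : v ∈ dI m b) :
    wtc (AT Y k V z m a b d q) v = ((dI m a).filter (fun u => alv V d q (Y z u v))).card := by
  unfold wtc AT
  rw [Finset.filter_filter,
    col_card hV hK hM (fun c => alv V d q (Y z (c.2.1 * 2 ^ c.1) (c.2.2 * 2 ^ c.1))) hv]
  congr 2
  refine Finset.filter_congr fun u hu => ?_
  obtain ⟨h1, h2, h3⟩ := til_cov hV hK hM hu hv
  rw [← mem_AT hV hK hM h1 h2 h3]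
  unfold AT
  rw [Finset.mem_filter]
  exact ⟨fun h => ⟨h1, h⟩, fun h => h.2⟩

/-- **lower bound on inner rows** -/
theorem wt_ge (hY : St3 Y) (hV : Full V P) (hK : K ∈ V) (hM : Mx (Y z) k K m a b) {u : ℤ}
    (hu : u ∈ dI m a) (hin : ∀ v, Y z u v ∈ iv q → v ∈ dI m b) :
    al V d q / 4 ≤ wt (AT Y k V z m a b d q) u := by
  classical
  obtain ⟨g, β, γ, _, ⟨h2, h3⟩, hYe⟩ := hY
  rw [wt_eq hV hK hM hu]
  have h := alv_cnt_ge h2 h3 (g z + β * u) V d q (T := dI m b)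
    (fun v hv => hin v (by rw [hYe]; exact hv))
  simp only [hYe]
  exact h

/-- **lower bound on inner columns** -/
theorem wtc_ge (hY : St3 Y) (hV : Full V P) (hK : K ∈ V) (hM : Mx (Y z) k K m a b) {v : ℤ}
    (hv : v ∈ dI m b) (hin : ∀ u, Y z u v ∈ iv q → u ∈ dI m a) :
    al V d q / 4 ≤ wtc (AT Y k V z m a b d q) v := by
  classical
  obtain ⟨g, β, γ, ⟨h2, h3⟩, _, hYe⟩ := hY
  rw [wtc_eq hV hK hM hv]
  have e : ∀ u, Y z u v = (g z + γ * v) + β * u := fun u => by rw [hYe]; ring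
  have h := alv_cnt_ge h2 h3 (g z + γ * v) V d q (T := dI m a)
    (fun u hu => hin u (by rw [e]; exact hu))
  simp only [e]
  exact h

/-- upper bound -/
theorem wt_le_len (hY : St3 Y) (hV : Full V P) (hK : K ∈ V) (hM : Mx (Y z) k K m a b) {u : ℤ}
    (hu : u ∈ dI m a) : wt (AT Y k V z m a b d q) u ≤ len q := by
  classical
  obtain ⟨g, β, γ, _, ⟨h2, h3⟩, hYe⟩ := hY
  rw [wt_eq hV hK hM hu]
  refine le_trans ?_ (cnt_le h2 (g z + β * u) q (dI m b))
  have h1 : ((dI m b).filter (fun v => alv V d q (Y z u v))).card ≤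
      ((dI m b).filter (fun v => g z + β * u + γ * v ∈ iv q)).card := by
    refine Finset.card_le_card fun v hv => ?_
    rw [Finset.mem_filter] at hv ⊢
    refine ⟨hv.1, ?_⟩
    rw [← hYe]
    exact alv_sub hv.2
  exact_mod_cast h1

/-- upper bound -/
theorem wtc_le_len (hY : St3 Y) (hV : Full V P) (hK : K ∈ V) (hM : Mx (Y z) k K m a b) {v : ℤ}
    (hv : v ∈ dI m b) : wtc (AT Y k V z m a b d q) v ≤ len q := by
  classical
  obtain ⟨g, β, γ, ⟨h2, h3⟩, _, hYe⟩ := hY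
  rw [wtc_eq hV hK hM hv]
  refine le_trans ?_ (cnt_le h2 (g z + γ * v) q (dI m a))
  have h1 : ((dI m a).filter (fun u => alv V d q (Y z u v))).card ≤
      ((dI m a).filter (fun u => g z + γ * v + β * u ∈ iv q)).card := by
    refine Finset.card_le_card fun u hu => ?_
    rw [Finset.mem_filter] at hu ⊢
    refine ⟨hu.1, ?_⟩
    have : g z + γ * v + β * u = Y z u v := by rw [hYe]; ring
    rw [this]
    exact alv_sub hu.2
  exact_mod_cast h1

/-- a square whose labels lie in a node -/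
lemma side_le (hY : St3 Y) {p : Nd} {n : ℕ} {a' b' : ℤ} (h : Ins (Y z) (iv p) n a' b') :
    n ≤ p.1 + 7 := by
  obtain ⟨g, β, γ, _, ⟨h2, h3⟩, hYe⟩ := hY
  have hu : a' * 2 ^ n ∈ dI n a' := cor_mem n a'
  have h1 : (dI n b').card ≤ (iv p).card := by
    refine Finset.card_le_card_of_injOn (fun v => Y z (a' * 2 ^ n) v) (fun v hv => ?_)
      fun v _ v' _ hvv => ?_
    · exact h _ hu v (Finset.mem_coe.1 hv)
    · simp only [hYe] at hvv
      have h4 : γ * v = γ * v' := by linarith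
      exact mul_left_cancel₀ h2 h4
  have h4 : ((dI n b').card : ℝ) ≤ ((iv p).card : ℝ) := by exact_mod_cast h1
  unfold iv at h4
  rw [cdI, cdI] at h4
  exact (pow_le_pow_iff_right₀ (by norm_num : (1 : ℝ) < 2)).1 h4

/-- **side of the alive tiles** -/
theorem AT_side (hY : St3 Y) (hV : Full V P) (hK : K ∈ V) (hM : Mx (Y z) k K m a b)
    {c : ℕ × ℤ × ℤ} (hc : c ∈ AT Y k V z m a b d q) : c.1 ≤ d + 7 := by
  obtain ⟨L, hL, _, h1, _⟩ := til_spec hV hK hM (AT_sub hc)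
  obtain ⟨p, h0, h2, h3, h4⟩ := AT_lab hV hK hM hc (cor_mem c.1 c.2.1) (cor_mem c.1 c.2.2)
  have h5 := leaf_below hV hL h0 (h1.2.1 _ (cor_mem c.1 c.2.1) _ (cor_mem c.1 c.2.2)) h4
  have h6 := side_le hY h1.2.1
  have h7 := lvl_le h5
  omega

/-- side of the cell -/
theorem cell_side (hY : St3 Y) (hM : Mx (Y z) k K m a b) : m ≤ K.1 + 7 := side_le hY hM.2.1

/-- **the masked kernel on a box** of side at least the side of its tiles -/
theorem mB_box {B : ℤ → ℤ → ℂ} {r : ℝ} {Ti A : Finset (ℕ × ℤ × ℤ)} (h : Tlg m a b Ti)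
    (hA : A ⊆ Ti) (hop : ∀ c ∈ A, OpS (Rw c) (Cl c) B (r * 2 ^ c.1)) {n : ℕ}
    (hn : ∀ c ∈ A, c.1 ≤ n) {a' b' : ℤ} (hb : dI n b' ⊆ dI m b) :
    OpS (dI n a') (dI n b') (mB A B) (r * 2 ^ n) := by
  classical
  set A' : Finset (ℕ × ℤ × ℤ) := A.filter (fun c => Cl c ⊆ dI n b') with hA'
  have hA's : A' ⊆ Ti := (Finset.filter_subset _ _).trans hA
  have h1 : OpS (dI n a') (dI m b) (mB A' B) (r * Real.sqrt (2 ^ n * 2 ^ n)) := by
    refine NrTx259.op_strip h hA's (fun c hc => hop c (Finset.mem_filter.1 hc).1) (by positivity)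
      (by positivity) (fun u _ => ?_) fun v _ => ?_
    · rw [← NrTx259.card_dI n b']
      exact NrTx259.sum_side (fun c hc => (Finset.mem_filter.1 (Finset.mem_filter.1 hc).1).2)
        (h.cdis ((Finset.filter_subset _ _).trans hA's) fun c hc => (Finset.mem_filter.1 hc).2)
    · exact NrTx259.side_block h hA's (fun c hc => hn c (Finset.mem_filter.1 hc).1) a' v
  rw [← sq, Real.sqrt_sq (by positivity)] at h1
  refine Crest.Agent.R079.PjC881.opS_congr (opS_sub (Finset.Subset.refl _) hb h1)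
    fun u _ v hv => ?_
  unfold mB
  by_cases hc : ∃ c ∈ A, u ∈ Rw c ∧ v ∈ Cl c
  · rw [if_pos hc, if_pos]
    obtain ⟨c, hc, h2, h3⟩ := hc
    exact ⟨c, Finset.mem_filter.2 ⟨hc, NrTx259.nest (hn c hc) h3 hv⟩, h2, h3⟩
  · rw [if_neg hc, if_neg]
    rintro ⟨c, hc', h2⟩
    exact hc ⟨c, (Finset.mem_filter.1 hc').1, h2⟩

/-- the masked kernel on every box of side `≥ 2^d`: constant `2^7` -/
theorem mB_box7 {B : ℤ → ℤ → ℂ} {r : ℝ} (hr : 0 ≤ r) {Ti A : Finset (ℕ × ℤ × ℤ)}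
    (h : Tlg m a b Ti) (hA : A ⊆ Ti) (hop : ∀ c ∈ A, OpS (Rw c) (Cl c) B (r * 2 ^ c.1))
    (hd : ∀ c ∈ A, c.1 ≤ d + 7) {n : ℕ} (hn : d ≤ n) {a' b' : ℤ}
    (hb : dI n b' ⊆ dI m b) :
    OpS (dI n a') (dI n b') (mB A B) (2 ^ 7 * r * 2 ^ n) := by
  by_cases hnm : n + 7 ≤ m
  · have h1 : dI (n + 7) (b' / 2 ^ 7) ⊆ dI m b := by
      have hx : b' * 2 ^ n ∈ dI n b' := cor_mem n b'
      exact dI_nest (hb hx) (L0e.dI_sub n 7 b' hx) hnm
    have h2 := mB_box h hA hop (n := n + 7) (fun c hc => (hd c hc).trans (by omega))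
      (a' := a' / 2 ^ 7) h1
    have h3 := opS_sub (L0e.dI_sub n 7 a') (L0e.dI_sub n 7 b') h2
    have e : r * 2 ^ (n + 7) = 2 ^ 7 * r * 2 ^ n := by ring
    rwa [e] at h3
  · have hm : ∀ c ∈ A, c.1 ≤ m := by
      intro c hc
      have h1 := (h.sub c (hA hc)).2
      have h2 : ((dI c.1 c.2.2).card : ℝ) ≤ ((dI m b).card : ℝ) := by
        exact_mod_cast Finset.card_le_card h1
      rw [cdI, cdI] at h2
      exact (pow_le_pow_iff_right₀ (by norm_num : (1 : ℝ) < 2)).1 h2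
    have hx : b' * 2 ^ n ∈ dI n b' := cor_mem n b'
    have hnm' : n ≤ m := by
      have h2 : ((dI n b').card : ℝ) ≤ ((dI m b).card : ℝ) := by
        exact_mod_cast Finset.card_le_card hb
      rw [cdI, cdI] at h2
      exact (pow_le_pow_iff_right₀ (by norm_num : (1 : ℝ) < 2)).1 h2
    obtain ⟨j, hj⟩ : ∃ j, m = n + j := ⟨m - n, by omega⟩
    have h2 := mB_box h hA hop (n := m) hm (a' := a' / 2 ^ j) (b' := b) (Finset.Subset.refl _)
    have h4 : dI n a' ⊆ dI m (a' / 2 ^ j) := by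
      rw [hj]
      exact L0e.dI_sub n j a'
    have h3 := opS_sub h4 hb h2
    refine Crest.Agent.R079.DLx250.opS_mono (by positivity) ?_ h3
    have h5 : (2 : ℝ) ^ m ≤ 2 ^ (n + 7) := pow_le_pow_right₀ (by norm_num) (by omega)
    calc r * 2 ^ m ≤ r * 2 ^ (n + 7) := mul_le_mul_of_nonneg_left h5 hr
      _ = _ := by ring


/-! ### positions -/

lemma mem_iv' {p : Nd} {y : ℤ} : y ∈ iv p ↔ p.2 * 2 ^ (p.1 + 7) ≤ y ∧ y < (p.2 + 1) * 2 ^ (p.1 + 7) := by
  unfold iv dI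
  rw [Finset.mem_Ico]

lemma mem_dI' {n : ℕ} {x y : ℤ} : y ∈ dI n x ↔ x * 2 ^ n ≤ y ∧ y < (x + 1) * 2 ^ n := by
  unfold dI
  rw [Finset.mem_Ico]

/-- **big cells** : a maximal cell of `K` which meets a central label -/
theorem big_cell' (hY : St3 Y) (hM : Mx (Y z) k K m a b) {u v : ℤ} (hu : u ∈ dI m a)
    (hv : v ∈ dI m b) (hp : K.2 * 2 ^ (K.1 + 7) + 2 ^ (K.1 + 3) ≤ Y z u v ∧
      Y z u v < (K.2 + 1) * 2 ^ (K.1 + 7) - 2 ^ (K.1 + 3)) : K.1 ≤ m := by
  obtain ⟨g, β, γ, ⟨_, g1⟩, ⟨_, g2⟩, hYe⟩ := hY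
  rcases hM.2.2 with he | he
  · omega
  · by_contra hcon
    rw [not_le] at hcon
    apply he
    intro u' hu' v' hv'
    have hu2 := half_mem hu
    have hv2 := half_mem hv
    rw [mem_dI'] at hu2 hv2 hu' hv'
    have e3 : (2 : ℤ) ^ (K.1 + 3) = 8 * 2 ^ K.1 := by ring
    have e7 : (2 : ℤ) ^ (K.1 + 7) = 128 * 2 ^ K.1 := by ring
    have em : (2 : ℤ) ^ (m + 1) ≤ 2 ^ K.1 := pow_le_pow_right₀ (by norm_num) (by omega)
    set M : ℤ := 2 ^ (m + 1) with hMd
    have hM0 : 0 < M := by positivity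
    set x : ℤ := a / 2
    set y : ℤ := b / 2
    have du : |u' - u| < M := by
      rw [abs_lt]
      constructor <;> linarith [hu2.1, hu2.2, hu'.1, hu'.2]
    have dv : |v' - v| < M := by
      rw [abs_lt]
      constructor <;> linarith [hv2.1, hv2.2, hv'.1, hv'.2]
    have hd : |Y z u' v' - Y z u v| ≤ 6 * M := by
      have e : Y z u' v' - Y z u v = β * (u' - u) + γ * (v' - v) := by
        rw [hYe, hYe]; ring
      rw [e]
      refine (abs_add_le _ _).trans ?_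
      rw [abs_mul, abs_mul]
      have h1 : |β| * |u' - u| ≤ 3 * M :=
        mul_le_mul g1 du.le (abs_nonneg _) (by norm_num)
      have h2 : |γ| * |v' - v| ≤ 3 * M :=
        mul_le_mul g2 dv.le (abs_nonneg _) (by norm_num)
      linarith
    rw [abs_le] at hd
    rw [mem_iv']
    rw [e7, e3] at hp
    rw [e7]
    have hK0 : (0 : ℤ) < 2 ^ K.1 := by positivity
    set s : ℤ := 2 ^ K.1
    constructor
    · linarith [hp.1, hd.1]
    · linarith [hp.2, hd.2]

/-- **big cells** : a maximal cell of `K` which meets a grid node outside the layer -/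
theorem big_cell (hY : St3 Y) (hM : Mx (Y z) k K m a b) (hq4 : q.1 + 4 ≤ K.1)
    (hqK : iv q ⊆ iv K) (hlay : ¬ lay K q) {u v : ℤ} (hu : u ∈ dI m a) (hv : v ∈ dI m b)
    (h : Y z u v ∈ iv q) : K.1 ≤ m := big_cell' hY hM hu hv (not_lay_pos hq4 hqK hlay h)

/-- the block seen by a row of a big cell -/
theorem row_block (hY : St3 Y) (hI : Ins (Y z) (iv K) m a b) (hm : K.1 ≤ m) {k0 : ℕ}
    (hk0 : 9 ≤ k0) (hkK : k0 ≤ K.1) {u : ℤ} (hu : u ∈ dI m a) :
    ∃ b0 : Nd, b0.1 + k0 = K.1 ∧ iv b0 ⊆ iv K ∧ ∀ v, Y z u v ∈ iv b0 → v ∈ dI m b := by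
  obtain ⟨g, β, γ, _, ⟨g0, g2⟩, hYe⟩ := hY
  set c : ℤ := g z + β * u with hc
  have hYc : ∀ v, Y z u v = c + γ * v := fun v => hYe z u v
  have h0 : b * 2 ^ m ∈ dI m b := cor_mem m b
  have h1 : (b + 1) * 2 ^ m - 1 ∈ dI m b := by
    rw [mem_dI']
    have : (0 : ℤ) < 2 ^ m := by positivity
    constructor
    · linarith
    · linarith
  have y0 := hI u hu _ h0
  have y1 := hI u hu _ h1
  rw [hYc, mem_iv'] at y0 y1
  have hM0 : (0 : ℤ) < 2 ^ m := by positivity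
  have hl : (4 : ℤ) * 2 ^ (K.1 - k0 + 7) ≤ 2 ^ m := by
    have : (4 : ℤ) * 2 ^ (K.1 - k0 + 7) = 2 ^ (K.1 - k0 + 9) := by ring
    rw [this]
    exact pow_le_pow_right₀ (by norm_num) (by omega)
  have hl0 : (0 : ℤ) < 2 ^ (K.1 - k0 + 7) := by positivity
  set M : ℤ := 2 ^ m with hMd
  set l : ℤ := 2 ^ (K.1 - k0 + 7) with hld
  -- the least label of the row
  obtain ⟨lo, hlo1, hlo2, hmono⟩ : ∃ lo : ℤ, (K.2 * 2 ^ (K.1 + 7) ≤ lo) ∧
      (lo + M - 1 < (K.2 + 1) * 2 ^ (K.1 + 7)) ∧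
      ∀ v, lo ≤ c + γ * v → c + γ * v ≤ lo + M - 1 → v ∈ dI m b := by
    rcases lt_or_gt_of_ne g0 with hg | hg
    · refine ⟨c + γ * ((b + 1) * M - 1), y1.1, ?_, ?_⟩
      · have h2 : γ * (b * M) - γ * ((b + 1) * M - 1) = (-γ) * (M - 1) := by ring
        have h3 : M - 1 ≤ (-γ) * (M - 1) := by
          have : 1 * (M - 1) ≤ (-γ) * (M - 1) :=
            mul_le_mul_of_nonneg_right (by omega) (by omega)
          linarith
        linarith [y0.2]
      · intro v hv hv'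
        rw [mem_dI']
        constructor
        · by_contra hcon
          rw [not_le] at hcon
          -- v < b M : then label is larger than that of b*M by at least 1
          have h2 : γ * (v - ((b + 1) * M - 1)) ≤ M - 1 := by linarith
          have h3 : (-γ) * (((b + 1) * M - 1) - v) ≤ M - 1 := by linarith
          have h4 : 1 * (((b + 1) * M - 1) - v) ≤ (-γ) * (((b + 1) * M - 1) - v) :=
            mul_le_mul_of_nonneg_right (by omega) (by linarith)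
          linarith
        · by_contra hcon
          rw [not_lt] at hcon
          have h2 : γ * ((b + 1) * M - 1) ≤ γ * v := by linarith
          have h3 : v ≤ (b + 1) * M - 1 := by
            have h4 : (-γ) * v ≤ (-γ) * ((b + 1) * M - 1) := by linarith
            exact le_of_mul_le_mul_left h4 (by omega)
          linarith
    · refine ⟨c + γ * (b * M), y0.1, ?_, ?_⟩
      · have h2 : γ * ((b + 1) * M - 1) - γ * (b * M) = γ * (M - 1) := by ring
        have h3 : M - 1 ≤ γ * (M - 1) := by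
          have : 1 * (M - 1) ≤ γ * (M - 1) :=
            mul_le_mul_of_nonneg_right (by omega) (by omega)
          linarith
        linarith [y1.2]
      · intro v hv hv'
        rw [mem_dI']
        constructor
        · have h2 : γ * (b * M) ≤ γ * v := by linarith
          exact le_of_mul_le_mul_left h2 hg
        · by_contra hcon
          rw [not_lt] at hcon
          have h3 : γ * (v - b * M) ≤ M - 1 := by linarith
          have h4 : 1 * (v - b * M) ≤ γ * (v - b * M) :=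
            mul_le_mul_of_nonneg_right (by omega) (by linarith)
          linarith
  have hdiv := Int.mul_ediv_add_emod lo l
  have hr0 : 0 ≤ lo % l := Int.emod_nonneg _ hl0.ne'
  have hr1 : lo % l < l := Int.emod_lt_of_pos _ hl0
  set t : ℤ := lo / l
  set rem : ℤ := lo % l
  have hb0 : ∀ y, y ∈ iv (K.1 - k0, t + 1) ↔ (t + 1) * l ≤ y ∧ y < (t + 1 + 1) * l := fun y =>
    mem_iv' (p := (K.1 - k0, t + 1))
  have hin : ∀ y, y ∈ iv (K.1 - k0, t + 1) → lo ≤ y ∧ y ≤ lo + M - 1 := by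
    intro y hy
    rw [hb0] at hy
    have e1 : (t + 1) * l = l * t + l := by ring
    have e2 : (t + 1 + 1) * l = l * t + 2 * l := by ring
    rw [e1, e2] at hy
    constructor
    · linarith [hy.1]
    · linarith [hy.2]
  refine ⟨(K.1 - k0, t + 1), by simp only; omega, ?_, ?_⟩
  · intro y hy
    obtain ⟨h2, h3⟩ := hin y hy
    rw [mem_iv']
    exact ⟨hlo1.trans h2, lt_of_le_of_lt h3 hlo2⟩
  · intro v hv
    rw [hYc] at hv
    obtain ⟨h2, h3⟩ := hin _ hv
    exact hmono v h2 h3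

lemma ins_swap {E : ℤ → ℤ → ℤ} {S : Finset ℤ} {n : ℕ} {x y : ℤ} (h : Ins E S n x y) :
    Ins (fun v u => E u v) S n y x := fun v hv u hu => h u hu v hv

/-- the block seen by a column of a big cell -/
theorem col_block (hY : St3 Y) (hI : Ins (Y z) (iv K) m a b) (hm : K.1 ≤ m) {k0 : ℕ}
    (hk0 : 9 ≤ k0) (hkK : k0 ≤ K.1) {v : ℤ} (hv : v ∈ dI m b) :
    ∃ b0 : Nd, b0.1 + k0 = K.1 ∧ iv b0 ⊆ iv K ∧ ∀ u, Y z u v ∈ iv b0 → u ∈ dI m a :=
  row_block (Y := fun z v u => Y z u v) hY.swap (ins_swap hI) hm hk0 hkK hv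

/-- **stage 1, rows** : weight of the labels of `K` alive at level `K.1 - j0` -/
theorem wt_top (hY : St3 Y) (hV : Full V P) (hK : K ∈ V) (hM : Mx (Y z) k K m a b)
    (hm : K.1 ≤ m) {k0 : ℕ} (hk0 : 9 ≤ k0) (hkK : k0 ≤ K.1)
    (hal : ∀ b0 : Nd, b0.1 + k0 = K.1 → iv b0 ⊆ iv K → len b0 / 2 ≤ al V d b0)
    {u : ℤ} (hu : u ∈ dI m a) :
    len K / 2 ^ (k0 + 3) ≤ wt (AT Y k V z m a b d K) u := by
  obtain ⟨b0, h1, h2, h3⟩ := row_block hY hM.2.1 hm hk0 hkK hu
  have h4 := wt_ge (d := d) hY hV hK hM hu h3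
  have h5 := hal b0 h1 h2
  have h6 : wt (AT Y k V z m a b d b0) u ≤ wt (AT Y k V z m a b d K) u := by
    unfold wt
    refine Finset.sum_le_sum_of_subset_of_nonneg (Finset.filter_subset_filter _ (AT_mono h2))
      fun _ _ _ => by positivity
  have h7 : len K = 2 ^ k0 * len b0 := by
    unfold Growth.len
    rw [← h1, ← pow_add]
    congr 1
    omega
  rw [h7]
  have h8 : 2 ^ k0 * len b0 / 2 ^ (k0 + 3) = len b0 / 8 := by
    rw [pow_add]
    field_simp
    norm_num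
  rw [h8]
  linarith

/-- **stage 1, columns** -/
theorem wtc_top (hY : St3 Y) (hV : Full V P) (hK : K ∈ V) (hM : Mx (Y z) k K m a b)
    (hm : K.1 ≤ m) {k0 : ℕ} (hk0 : 9 ≤ k0) (hkK : k0 ≤ K.1)
    (hal : ∀ b0 : Nd, b0.1 + k0 = K.1 → iv b0 ⊆ iv K → len b0 / 2 ≤ al V d b0)
    {v : ℤ} (hv : v ∈ dI m b) :
    len K / 2 ^ (k0 + 3) ≤ wtc (AT Y k V z m a b d K) v := by
  obtain ⟨b0, h1, h2, h3⟩ := col_block hY hM.2.1 hm hk0 hkK hv
  have h4 := wtc_ge (d := d) hY hV hK hM hv h3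
  have h5 := hal b0 h1 h2
  have h6 : wtc (AT Y k V z m a b d b0) v ≤ wtc (AT Y k V z m a b d K) v := by
    unfold wtc
    refine Finset.sum_le_sum_of_subset_of_nonneg (Finset.filter_subset_filter _ (AT_mono h2))
      fun _ _ _ => by positivity
  have h7 : len K = 2 ^ k0 * len b0 := by
    unfold Growth.len
    rw [← h1, ← pow_add]
    congr 1
    omega
  rw [h7]
  have h8 : 2 ^ k0 * len b0 / 2 ^ (k0 + 3) = len b0 / 8 := by
    rw [pow_add]
    field_simp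
    norm_num
  rw [h8]
  linarith

/-- distance of two points of a row with labels in the same node -/
lemma row_dist (hY : St3 Y) {u v v' : ℤ} (h : Y z u v ∈ iv q) (h' : Y z u v' ∈ iv q) :
    |v' - v| < 2 ^ (q.1 + 7) := by
  obtain ⟨g, β, γ, _, ⟨g0, _⟩, hYe⟩ := hY
  rw [hYe, mem_iv'] at h h'
  set N : ℤ := 2 ^ (q.1 + 7)
  have h1 : |γ * (v' - v)| < N := by
    rw [abs_lt]
    have e : γ * (v' - v) = (g z + β * u + γ * v') - (g z + β * u + γ * v) := by ring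
    rw [e]
    have e2 : (q.2 + 1) * N = q.2 * N + N := by ring
    constructor
    · linarith [h.2, h'.1]
    · linarith [h.1, h'.2]
  rw [abs_mul] at h1
  have h2 : 1 ≤ |γ| := Int.one_le_abs g0
  have h3 : 1 * |v' - v| ≤ |γ| * |v' - v| := mul_le_mul_of_nonneg_right h2 (abs_nonneg _)
  linarith

/-- **inner positions** : a point at distance `≥ 2^(q.1+7)` from the sides of the columns -/
theorem inner_row (hY : St3 Y) {u v : ℤ} (h : Y z u v ∈ iv q) (h1 : b * 2 ^ m + 2 ^ (q.1 + 7) ≤ v + 1)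
    (h2 : v + 2 ^ (q.1 + 7) ≤ (b + 1) * 2 ^ m) : ∀ v', Y z u v' ∈ iv q → v' ∈ dI m b := by
  intro v' hv'
  have h3 := row_dist hY h hv'
  rw [abs_lt] at h3
  rw [mem_dI']
  constructor
  · linarith [h3.1]
  · linarith [h3.2]

theorem inner_col (hY : St3 Y) {u v : ℤ} (h : Y z u v ∈ iv q) (h1 : a * 2 ^ m + 2 ^ (q.1 + 7) ≤ u + 1)
    (h2 : u + 2 ^ (q.1 + 7) ≤ (a + 1) * 2 ^ m) : ∀ u', Y z u' v ∈ iv q → u' ∈ dI m a :=
  inner_row (Y := fun z v u => Y z u v) hY.swap h h1 h2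

/-- inner rows / columns of a grid node: the weight is at least `len q / 8` -/
theorem wt_inner (hY : St3 Y) (hV : Full V P) (hK : K ∈ V) (hM : Mx (Y z) k K m a b)
    (hal : len q / 2 ≤ al V d q) {u v : ℤ} (hu : u ∈ dI m a) (h : Y z u v ∈ iv q)
    (h1 : b * 2 ^ m + 2 ^ (q.1 + 7) ≤ v + 1) (h2 : v + 2 ^ (q.1 + 7) ≤ (b + 1) * 2 ^ m) :
    len q / 8 ≤ wt (AT Y k V z m a b d q) u := by
  have h3 := wt_ge (d := d) hY hV hK hM hu (inner_row hY h h1 h2)
  linarith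

theorem wtc_inner (hY : St3 Y) (hV : Full V P) (hK : K ∈ V) (hM : Mx (Y z) k K m a b)
    (hal : len q / 2 ≤ al V d q) {u v : ℤ} (hv : v ∈ dI m b) (h : Y z u v ∈ iv q)
    (h1 : a * 2 ^ m + 2 ^ (q.1 + 7) ≤ u + 1) (h2 : u + 2 ^ (q.1 + 7) ≤ (a + 1) * 2 ^ m) :
    len q / 8 ≤ wtc (AT Y k V z m a b d q) v := by
  have h3 := wtc_ge (d := d) hY hV hK hM hv (inner_col hY h h1 h2)
  linarith

end tiles

end Crest.Agent.R079.NrUx276
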