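import Crest.Agent.R079.ErL_255
import Crest.Agent.R079.DLa_250
import Crest.Agent.R079.NrA_228
import Crest.Agent.R079.NrU_276
import Crest.Agent.R079.GaBt_251

/-! R079, note 1922 (T8) (helper255): **THE TOP STEP OF THE LADDER**.

On a big cell (`K.1 ≤ m`) the gauged letter has operator norm `≤ 2^7 √(Hf Ht) av K G 2^m` (250's `raw_op`),
hence the last step `A - P_{Kl-1} A` vanishes if `2^7 √(Hf Ht) s ≤ r (Kl-1)`.

* `top_op`, `stK_top`;
* **`cellIn_of`** : `CellIn` from the steps `q + 1 < Kl` (`CellLt`) and `Zf (Kl-1) = 0`. -/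

set_option autoImplicit false

namespace Crest.Agent.R079.ErNx255

open Finset Crest.Agent.R079.Grid Crest.Agent.R079.Growth Crest.Agent.R079.QRed
  Crest.Agent.R079.Qh249 Crest.Agent.R079.QVar181 Crest.Agent.R079.TWin
open Crest.Agent.R079.RelW653 (vl NMP Jv Dv sum_av')
open Crest.Agent.R079.RelV653 Crest.Agent.R079.ThA159 Crest.Agent.R079.ThB159
open Crest.Agent.R079.Cel159 (NmP cf okc mcell split_cell Mx Mx_mcell)
open Crest.Agent.R079.ElU440 (upto ThL0)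
open Crest.Agent.R079.ClW59 (OpS cl opS_zero)
open Crest.Agent.R079.ElGx69 Crest.Agent.R079.NrDx276 Crest.Agent.R079.ErKx255
open Crest.Agent.R079.GaFx371 Crest.Agent.R079.GaDx571 Crest.Agent.R079.PFx263
open Crest.Agent.R079.SbWx795 Crest.Agent.R079.ErLx255
open Crest.Agent.R079.NrUx276 (St3 st3_Ye big_cell)

variable {n : ℕ}

section

variable {i m : Fin 4} {v : Fin 3} {I : Nd} {Ht Hf La : ℝ} {fl : Fn}
  {T : Fin n → Fin 3 → Finset ℤ} {g : Fin n → Fin 3 → ℤ → ℤ → ℂ} {θ : Fin n → ℤ → ℝ}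
  {μf : Fin n → ℝ}

/-- operator norm of the gauged letter on one fibre -/
theorem top_op (h : Fam i m v I Ht Hf La n fl T g θ μf) (hHf : 0 ≤ Hf) {e : Fin 3} (he : e ≠ v + 1)
    {K : Nd} (hKI : iv K ⊆ iv I) {G : Fn} {s : ℝ} (hs : av K G ≤ s) (l : Fin n) (w : ℤ) :
    OpS (T l e) (T l (e + 1)) (fun u v => AK i e T g I K G l (w, u, v))
      (Real.sqrt (Hf * Ht) * s * len K) := by
  classical
  have hg : ∀ z z', ‖g l e z z'‖ ≤ Real.sqrt (Hf * Ht) := fun z z' =>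
    Real.le_sqrt_of_sq_le ((h.opD l).sup' hHf he z z')
  have hinj := Crest.Agent.R079.GaBtx251.inj_Ye i e
  have h1 := Crest.Agent.R079.DLx250.raw_op (Z := fun u v => Ye i e w u v) (T₁ := T l e)
    (T₂ := T l (e + 1)) (q := K) (al := g l e) (g := G) (H := Real.sqrt (Hf * Ht)) (s := s)
    (fun u a b hab => by
      have hb : Ye i e w u a = Ye i e w u b := hab
      unfold Ye at hb
      have h2 : (sl (i.succAbove (e + 1)) - sl (i.succAbove (e + 2))) * a =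
          (sl (i.succAbove (e + 1)) - sl (i.succAbove (e + 2))) * b := by linarith
      exact mul_left_cancel₀ (Crest.Agent.R079.GaBtx251.co1 i e) h2)
    (fun v a b hab => by
      have hb : Ye i e w a v = Ye i e w b v := hab
      unfold Ye at hb
      have h2 : (sl (i.succAbove e) - sl (i.succAbove (e + 2))) * a =
          (sl (i.succAbove e) - sl (i.succAbove (e + 2))) * b := by linarith
      exact mul_left_cancel₀ (Crest.Agent.R079.GaBtx251.co2 i e) h2) hg hs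
  refine PjC881.opS_congr h1 fun u hu v hv => ?_
  unfold AK ag
  by_cases hY : Ye i e w u v ∈ iv K
  · rw [if_pos hY, if_pos ((mem_BdE hKI).2 ⟨hu, hv, hY⟩)]
    rfl
  · rw [if_neg hY, if_neg fun hc => hY ((mem_BdE hKI).1 hc).2.2]

/-- the cells of the family -/
theorem cel_spec {e : Fin 3} {kc : ℕ} {K : Nd} {l : Fin n} {t : ℤ × ℕ × ℤ × ℤ}
    (ht : t ∈ cel i e T I kc K l) : Mx (Ye i e t.1) kc K t.2.1 t.2.2.1 t.2.2.2 := by
  classical
  unfold cel at ht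
  obtain ⟨ω, hω, rfl⟩ := Finset.mem_image.1 ht
  unfold BdE at hω
  rw [Finset.mem_filter] at hω
  exact Mx_mcell hω.2

/-- **the last step vanishes on the big cells** -/
theorem stK_top (h : Fam i m v I Ht Hf La n fl T g θ μf) (hHf : 0 ≤ Hf) {e : Fin 3}
    (he : e ≠ v + 1) {K : Nd} (hKI : iv K ⊆ iv I) {G : Fn} {s : ℝ} (hs : av K G ≤ s)
    {kc Kl : ℕ} {r : ℕ → ℝ} (hr : ∀ q, 0 ≤ r q) {q : ℕ} (hq : q + 1 = Kl)
    (hrt : 2 ^ 7 * Real.sqrt (Hf * Ht) * s ≤ r q) {l : Fin n} {t : ℤ × ℕ × ℤ × ℤ}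
    (ht : t ∈ cel i e T I kc K l) (hbig : K.1 ≤ t.2.1) :
    ∀ u ∈ dI t.2.1 t.2.2.1 ∩ T l e, ∀ v ∈ dI t.2.1 t.2.2.2 ∩ T l (e + 1),
      stK i e T g I kc Kl r K G l q (t.1, u, v) = 0 := by
  classical
  intro u hu v hv
  have hs0 : 0 ≤ s := (Growth.av_nonneg K G).trans hs
  have hB := bnd_E i e I (T := T l) (sd_pos I) (h.opD l).card kc
  have hsp := split_cell (Y := Ye i e) (k := kc) (T₀ := W0 i e (T l) I) (T₁ := T l e)
      (T₂ := T l (e + 1)) K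
  have h1 := stp_cell_last (Bd := BdE i e (T l) I) (K := Kl) (i := q) hB hsp hr hq
    (AK i e T g I K G l) ht u hu v hv
  have hop : OpS (dI t.2.1 t.2.2.1 ∩ T l e) (dI t.2.1 t.2.2.2 ∩ T l (e + 1))
      (fun u v => AK i e T g I K G l (t.1, u, v)) (r q * 2 ^ t.2.1) := by
    have h2 := Cel159.opS_sub (S' := dI t.2.1 t.2.2.1 ∩ T l e)
      (T' := dI t.2.1 t.2.2.2 ∩ T l (e + 1)) Finset.inter_subset_right Finset.inter_subset_right
      (top_op h hHf he hKI hs l t.1)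
    have hsq := Real.sqrt_nonneg (Hf * Ht)
    refine Crest.Agent.R079.DLx250.opS_mono ?_ ?_ h2
    · have := (Growth.len_pos K).le
      positivity
    · have e1 : len K = 2 ^ (K.1 + 7) := rfl
      have e2 : (2 : ℝ) ^ K.1 ≤ 2 ^ t.2.1 := pow_le_pow_right₀ (by norm_num) hbig
      calc Real.sqrt (Hf * Ht) * s * len K = (2 ^ 7 * Real.sqrt (Hf * Ht) * s) * 2 ^ K.1 := by
            rw [e1, pow_add]; ring
        _ ≤ r q * 2 ^ t.2.1 :=
            mul_le_mul hrt e2 (by positivity) (hr q)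
  have h3 := Crest.Agent.R079.NrAx228.cl_self (mul_nonneg (hr q) (by positivity)) hop u hu v hv
  unfold stK
  rw [h1]
  exact sub_eq_zero.2 h3

open Classical in
/-- the per-cell input below the last step -/
def CellLt (i : Fin 4) (e : Fin 3) (T : Fin n → Fin 3 → Finset ℤ)
    (g : Fin n → Fin 3 → ℤ → ℤ → ℂ) (I : Nd) (kc Kl : ℕ) (r : ℕ → ℝ) (V : Finset Nd) (K : Nd)
    (G : Fn) (Lay : Finset ℤ) (Zf : Fin n → ℕ → ℤ × ℤ × ℤ → ℂ) (C1 C2 : ℝ) : Prop :=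
  ∀ l, ∀ q, q + 1 < Kl → ∀ t ∈ cel i e T I kc K l,
    ∑ u ∈ dI t.2.1 t.2.2.1 ∩ T l e, ∑ v ∈ dI t.2.1 t.2.2.2 ∩ T l (e + 1),
      (if poE i e (t.1, u, v) ∈ Lay then 0 else
        ‖stK i e T g I kc Kl r K G l q (t.1, u, v) - Zf l q (t.1, u, v)‖ ^ 2) ≤
      C1 * gpS (fun u v => AK i e T g I K G l (t.1, u, v))
        (fun u v => BK i e T g I kc r V K G l q (t.1, u, v))
        (dI t.2.1 t.2.2.1 ∩ T l e) (dI t.2.1 t.2.2.2 ∩ T l (e + 1)) (r q * 2 ^ t.2.1) +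
      C2 * ∑ u ∈ dI t.2.1 t.2.2.1 ∩ T l e, ∑ v ∈ dI t.2.1 t.2.2.2 ∩ T l (e + 1),
        ‖AK i e T g I K G l (t.1, u, v)‖ ^ 2

/-- a label of `K` outside `LayK` lies in a grid node -/
theorem notLay {V : Finset Nd} {k0 j0 n0 : ℕ} {K : Nd} {y : ℤ} (hy : y ∈ iv K)
    (h : y ∉ LayK V k0 j0 n0 K) : ∃ q ∈ QQ V k0 j0 n0 K, y ∈ iv q := by
  classical
  by_contra hc
  push Not at hc
  apply h
  unfold LayK
  rw [Finset.mem_sdiff, Finset.mem_biUnion]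
  exact ⟨hy, fun ⟨q, hq, hyq⟩ => hc q hq hyq⟩

/-- **`CellIn` from the steps below the last one** -/
theorem cellIn_of (h : Fam i m v I Ht Hf La n fl T g θ μf) (hHf : 0 ≤ Hf) {e : Fin 3}
    (he : e ≠ v + 1) {V : Finset Nd} {P K : Nd} (hV : Full V P) (hK : K ∈ V)
    (hKI : iv K ⊆ iv I) {f : Nd → Fn} {s : ℝ} (hs : av K (gl V f) ≤ s) {kc Kl : ℕ} {r : ℕ → ℝ}
    (hr : ∀ q, 0 ≤ r q) (hrt : ∀ q, q + 1 = Kl → 2 ^ 7 * Real.sqrt (Hf * Ht) * s ≤ r q)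
    {k0 j0 n0 : ℕ} (hj0 : 4 ≤ j0) {Zf : Fin n → ℕ → ℤ × ℤ × ℤ → ℂ}
    (hZ : ∀ l q, q + 1 = Kl → ∀ ω, Zf l q ω = 0) {C1 C2 : ℝ} (hC1 : 0 ≤ C1) (hC2 : 0 ≤ C2)
    (hc : CellLt i e T g I kc Kl r V K (gl V f) (LayK V k0 j0 n0 K) Zf C1 C2) :
    CellIn i e T g I kc Kl r V K (gl V f) (LayK V k0 j0 n0 K) Zf C1 C2 := by
  classical
  intro l q hq t ht
  rcases Nat.lt_or_ge (q + 1) Kl with hq1 | hq1
  · exact hc l q hq1 t ht
  have hqK : q + 1 = Kl := by omega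
  have hM := cel_spec ht
  have hB := bnd_E i e I (T := T l) (sd_pos I) (h.opD l).card kc
  have hsp := split_cell (Y := Ye i e) (k := kc) (T₀ := W0 i e (T l) I) (T₁ := T l e)
      (T₂ := T l (e + 1)) K
  have hgp : 0 ≤ gpS (fun u v => AK i e T g I K (gl V f) l (t.1, u, v))
        (fun u v => BK i e T g I kc r V K (gl V f) l q (t.1, u, v))
        (dI t.2.1 t.2.2.1 ∩ T l e) (dI t.2.1 t.2.2.2 ∩ T l (e + 1)) (r q * 2 ^ t.2.1) :=
    gap_nonneg (Bd := BdE i e (T l) I) hsp (hr q) (AK i e T g I K (gl V f) l)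
      (Bgl_adm hB _ (hr q) hV (gl V f) K hK) ht
  have hR : 0 ≤ C1 * gpS (fun u v => AK i e T g I K (gl V f) l (t.1, u, v))
        (fun u v => BK i e T g I kc r V K (gl V f) l q (t.1, u, v))
        (dI t.2.1 t.2.2.1 ∩ T l e) (dI t.2.1 t.2.2.2 ∩ T l (e + 1)) (r q * 2 ^ t.2.1) +
      C2 * ∑ u ∈ dI t.2.1 t.2.2.1 ∩ T l e, ∑ v ∈ dI t.2.1 t.2.2.2 ∩ T l (e + 1),
        ‖AK i e T g I K (gl V f) l (t.1, u, v)‖ ^ 2 :=
    add_nonneg (mul_nonneg hC1 hgp) (mul_nonneg hC2 (Finset.sum_nonneg fun _ _ =>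
      Finset.sum_nonneg fun _ _ => sq_nonneg _))
  refine le_trans (le_of_eq ?_) hR
  refine Finset.sum_eq_zero fun u hu => Finset.sum_eq_zero fun v hv => ?_
  split_ifs with hL
  · rfl
  · have hu1 := (Finset.mem_inter.1 hu).1
    have hv1 := (Finset.mem_inter.1 hv).1
    have hyK : poE i e (t.1, u, v) ∈ iv K := hM.2.1 u hu1 v hv1
    obtain ⟨q0, hq0, hyq⟩ := notLay hyK hL
    obtain ⟨_, h2, h3, h4, _⟩ := QQ_spec hV hq0
    have hbig : K.1 ≤ t.2.1 := big_cell (st3_Ye i e) hM (by omega) h3 h4 hu1 hv1 hyq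
    rw [stK_top h hHf he hKI hs hr hqK (hrt q hqK) ht hbig u hu v hv, hZ l q hqK]
    simp

end

end Crest.Agent.R079.ErNx255
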