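import Crest.Agent.R079.NodeW_254
import Crest.Agent.R079.GaU_571

/-! R079 (helper360), T5b of note 1820: **the (S) word of one window `K` of the new tree**, from the far
words on the grid nodes `q0` (level `K.1 - j0`) and the node bound on the coarse / bottom nodes.

* `Nc j0 n0 P p`  : coarse (top `j0 + 1` levels) or bottom (level `< n0`) node;
* `near_sum2`, `near_word2` : node functions / words over these nodes;
* `win_sum`       : coarse + bottom + far sums of the `q ∈ Q`;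
* `win_word`      : the letter is a finite combination of letters on every `q`;
* `win_tot`       : the same with the energy summed over `Q`. -/

set_option autoImplicit false

namespace Crest.Agent.R079.FrWx360

open Finset Crest.Agent.R079.Grid Crest.Agent.R079.Growth Crest.Agent.R079.QRed
  Crest.Agent.R079.Qh249 Crest.Agent.R079.QVar181
  Crest.Agent.R079.TWin Crest.Agent.R079.Glue Crest.Agent.R079.SWc360 Crest.Agent.R079.Cel159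
  Crest.Agent.R079.SplSx69 Crest.Agent.R079.ThA159 Crest.Agent.R079.SKx261 Crest.Agent.R079.SKtx69
open Crest.Agent.R079.NC237 (NC2 NCol nc2_of_ncol)
open Crest.Agent.R079.TRec Crest.Agent.R079.AsmA844 Crest.Agent.R079.F2
open Crest.Agent.R079.NodeWx254 (node_g0)

open scoped ComplexConjugate

/-- coarse or bottom node of a window with top `P` -/
def Nc (j0 n0 : ℕ) (P p : Nd) : Prop := P.1 ≤ p.1 + j0 ∨ p.1 < n0

open Classical in
/-- nonnegative node functions over the coarse and bottom nodes -/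
theorem near_sum2 {W : Finset Nd} {P : Nd} (hW : ∀ p ∈ W, Le p P) (j0 n0 : ℕ) (f : Nd → ℝ)
    {g0 : ℝ} (hg0 : 0 ≤ g0) (h : ∀ p ∈ W, Nc j0 n0 P p → f p ≤ g0 * 2 ^ (p.1 + 7)) :
    ∑ p ∈ W.filter (fun p => Nc j0 n0 P p), f p ≤ (j0 + 1 + n0) * g0 * 2 ^ (P.1 + 7) := by
  set RN := W.filter fun p => Nc j0 n0 P p with hRN
  have hs : RN ⊆ W := Finset.filter_subset _ _
  set M : Finset ℕ := Finset.Icc (P.1 - j0) P.1 ∪ Finset.range n0 with hM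
  have hm : ∀ p ∈ RN, p.1 ∈ M := by
    intro p hp
    rw [hRN, Finset.mem_filter] at hp
    rw [hM, Finset.mem_union, Finset.mem_Icc, Finset.mem_range]
    have h1 := (le_iff.1 (hW p hp.1)).1
    rcases hp.2 with h2 | h2
    · exact Or.inl ⟨by omega, h1⟩
    · exact Or.inr h2
  have hc : (M.card : ℝ) ≤ j0 + 1 + n0 := by
    have h1 : M.card ≤ (P.1 + 1 - (P.1 - j0)) + n0 := by
      refine (Finset.card_union_le _ _).trans ?_
      rw [Nat.card_Icc, Finset.card_range]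
    have h2 : P.1 + 1 - (P.1 - j0) ≤ j0 + 1 := by omega
    have h3 : M.card ≤ j0 + 1 + n0 := by omega
    exact_mod_cast h3
  calc ∑ p ∈ RN, f p ≤ ∑ p ∈ RN, g0 * (2 : ℝ) ^ (p.1 + 7) :=
        Finset.sum_le_sum fun p hp => h p (hs hp) (Finset.mem_filter.1 hp).2
    _ = g0 * ∑ p ∈ RN, (2 : ℝ) ^ (p.1 + 7) := by rw [Finset.mul_sum]
    _ = g0 * ∑ m ∈ M, ∑ p ∈ RN.filter (fun p => p.1 = m), (2 : ℝ) ^ (p.1 + 7) := by
        rw [Finset.sum_fiberwise_of_maps_to hm]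
    _ ≤ g0 * ∑ m ∈ M, (2 : ℝ) ^ (P.1 + 7) := by
        refine mul_le_mul_of_nonneg_left (Finset.sum_le_sum fun m _ => ?_) hg0
        exact all_len P RN (fun p hp => hW p (hs hp)) m
    _ = M.card * g0 * 2 ^ (P.1 + 7) := by rw [Finset.sum_const, nsmul_eq_mul]; ring
    _ ≤ _ := by gcongr

open Classical in
/-- **the word over the coarse and bottom nodes of a window** -/
theorem near_word2 {i m a b : Fin 4} (hD : Dst i m a b) {bb : ℤ} (hbb : bb = -1 ∨ bb = -7)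
    {W : Finset Nd} {P : Nd} (hW : ∀ p ∈ W, Le p P) (j0 n0 : ℕ) (F : Fin 4 → ℤ → ℂ)
    {A H B g δ Sa Sb : ℝ} (hg : 0 ≤ g) (hδ : 0 ≤ δ) (hH : 0 ≤ H) (hSa : 0 ≤ Sa) (hSb : 0 ≤ Sb)
    (hP : ∀ p ∈ W, av p (F i) ≤ A) (hPH : ∀ p ∈ W, ∀ z ∈ iv p, ‖F i z‖ ≤ H)
    (hR : ∀ p ∈ W, av p (F m) ≤ B) (hn : NCol W (F m) g δ)
    (ha : ∀ p ∈ W, av p (F a) ≤ Sa) (hb : ∀ p ∈ W, av p (F b) ≤ Sb) :
    ∑ p ∈ W.filter (fun p => Nc j0 n0 P p), ∑ x ∈ adm p.1 p.2, ‖Lbox (2 ^ p.1) bb F x‖ ≤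
      (j0 + 1 + n0) * (2 ^ 12 * Real.sqrt (3 * g * A ^ 2 + δ * (H ^ 2 * B ^ 2)) * Sa * Sb) *
        2 ^ (P.1 + 7) :=
  near_sum2 hW j0 n0 _ (by positivity) fun p hp _ => node_g0 hD hbb hp F hg hδ hH hSa (hP p hp)
    (hPH p hp) (hR p hp) hn (ha p hp) (hb p hp)

open Classical in
/-- **coarse + bottom + far sums** -/
theorem win_sum {W : Finset Nd} {P : Nd} (hW : ∀ p ∈ W, Le p P) (j0 n0 : ℕ) (f : Nd → ℝ)
    (hf : ∀ p ∈ W, 0 ≤ f p) {g0 : ℝ} (hg0 : 0 ≤ g0)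
    (h0 : ∀ p ∈ W, Nc j0 n0 P p → f p ≤ g0 * 2 ^ (p.1 + 7))
    (Q : Finset Nd) (hQ : ∀ p ∈ W, ¬ Nc j0 n0 P p → ∃ q ∈ Q, Le p q) (B : Nd → ℝ)
    (hB : ∀ q ∈ Q, ∑ p ∈ W.filter (fun p => Le p q ∧ n0 ≤ p.1), f p ≤ B q) :
    ∑ p ∈ W, f p ≤ (j0 + 1 + n0) * g0 * 2 ^ (P.1 + 7) + ∑ q ∈ Q, B q := by
  rw [← Finset.sum_filter_add_sum_filter_not W (fun p => Nc j0 n0 P p)]
  refine add_le_add (near_sum2 hW j0 n0 f hg0 h0) ?_
  refine le_trans ?_ (Finset.sum_le_sum hB)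
  set R := W.filter (fun p => ¬ Nc j0 n0 P p) with hR
  have hsub : R ⊆ Q.biUnion (fun q => W.filter (fun p => Le p q ∧ n0 ≤ p.1)) := by
    intro p hp
    rw [hR, Finset.mem_filter] at hp
    obtain ⟨q, hq, hpq⟩ := hQ p hp.1 hp.2
    rw [Finset.mem_biUnion]
    refine ⟨q, hq, Finset.mem_filter.2 ⟨hp.1, hpq, ?_⟩⟩
    by_contra hlt
    exact hp.2 (Or.inr (by omega))
  calc ∑ p ∈ R, f p ≤ ∑ p ∈ Q.biUnion (fun q => W.filter (fun p => Le p q ∧ n0 ≤ p.1)), f p :=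
        Finset.sum_le_sum_of_subset_of_nonneg hsub fun p hp _ => by
          obtain ⟨q, _, hq⟩ := Finset.mem_biUnion.1 hp
          exact hf p (Finset.mem_filter.1 hq).1
    _ ≤ ∑ q ∈ Q, ∑ p ∈ W.filter (fun p => Le p q ∧ n0 ≤ p.1), f p := by
        have key : ∀ (Q : Finset Nd), ∑ p ∈ Q.biUnion (fun q => W.filter
            (fun p => Le p q ∧ n0 ≤ p.1)), f p ≤
            ∑ q ∈ Q, ∑ p ∈ W.filter (fun p => Le p q ∧ n0 ≤ p.1), f p := by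
          intro Q
          induction Q using Finset.induction_on with
          | empty => simp
          | insert q Q hq ih =>
            rw [Finset.biUnion_insert, Finset.sum_insert hq]
            have h1 := Finset.sum_union_inter (s₁ := W.filter (fun p => Le p q ∧ n0 ≤ p.1))
              (s₂ := Q.biUnion (fun q => W.filter (fun p => Le p q ∧ n0 ≤ p.1))) (f := f)
            have h2 : 0 ≤ ∑ p ∈ W.filter (fun p => Le p q ∧ n0 ≤ p.1) ∩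
                Q.biUnion (fun q => W.filter (fun p => Le p q ∧ n0 ≤ p.1)), f p :=
              Finset.sum_nonneg fun p hp => hf p
                (Finset.mem_filter.1 (Finset.mem_inter.1 hp).1).1
            linarith
        exact key Q

/-- linearity of the word in the split slot -/
theorem lbox_comb {σ : Type*} [Fintype σ] {bb : ℤ} (hbb : bb = -1 ∨ bb = -7) (p : Nd) (j : Fin 4)
    (F : Fin 4 → ℤ → ℂ) (c : σ → ℂ) (S : σ → ℤ → ℂ)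
    (hrep : ∀ y ∈ iv p, F j y = ∑ a, c a * S a y) :
    ∑ x ∈ adm p.1 p.2, ‖Lbox (2 ^ p.1) bb F x‖ ≤
      ∑ a, ‖c a‖ * ∑ x ∈ adm p.1 p.2, ‖Lbox (2 ^ p.1) bb (Function.update F j (S a)) x‖ := by
  calc ∑ x ∈ adm p.1 p.2, ‖Lbox (2 ^ p.1) bb F x‖
      ≤ ∑ x ∈ adm p.1 p.2, ∑ a, ‖c a‖ * ‖Lbox (2 ^ p.1) bb (Function.update F j (S a)) x‖ := by
        refine Finset.sum_le_sum fun x hx => ?_
        have h1 : Lbox (2 ^ p.1) bb F x =
            Lbox (2 ^ p.1) bb (Function.update F j (fun y => ∑ a, c a * S a y)) x := by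
          refine Qb247.Lbox_congr p.1 p.2 bb x hbb hx _ _ fun k y hy => ?_
          by_cases hk : k = j
          · subst hk
            rw [Function.update_self]
            exact hrep y hy
          · rw [Function.update_of_ne hk]
        rw [h1, Crest.Agent.R079.GaUx571.Lbox_fsum]
        refine (norm_sum_le _ _).trans (Finset.sum_le_sum fun a _ => ?_)
        rw [norm_mul]
    _ = _ := by
        rw [Finset.sum_comm]
        exact Finset.sum_congr rfl fun a _ => (Finset.mul_sum _ _ _).symm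

open Classical in
/-- **the (S) word of one window**, the letter being a finite combination on every grid node -/
theorem win_word {σ : Type*} [Fintype σ] {bb : ℤ} (hbb : bb = -1 ∨ bb = -7) {W : Finset Nd}
    {P : Nd} (hW : ∀ p ∈ W, Le p P) (j0 n0 : ℕ) (j : Fin 4) (F : Fin 4 → ℤ → ℂ) {g0 : ℝ}
    (hg0 : 0 ≤ g0) (h0 : ∀ p ∈ W, Nc j0 n0 P p →
      ∑ x ∈ adm p.1 p.2, ‖Lbox (2 ^ p.1) bb F x‖ ≤ g0 * 2 ^ (p.1 + 7))
    (Q : Finset Nd) (hQ : ∀ p ∈ W, ¬ Nc j0 n0 P p → ∃ q ∈ Q, Le p q)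
    (c : σ → ℂ) (S : σ → Nd → ℤ → ℂ) (hrep : ∀ q ∈ Q, ∀ y ∈ iv q, F j y = ∑ a, c a * S a q y)
    (B : σ → Nd → ℝ) (hB : ∀ q ∈ Q, ∀ a, ∑ p ∈ W.filter (fun p => Le p q ∧ n0 ≤ p.1),
      ∑ x ∈ adm p.1 p.2, ‖Lbox (2 ^ p.1) bb (Function.update F j (S a q)) x‖ ≤ B a q) :
    ∑ p ∈ W, ∑ x ∈ adm p.1 p.2, ‖Lbox (2 ^ p.1) bb F x‖ ≤
      (j0 + 1 + n0) * g0 * 2 ^ (P.1 + 7) + ∑ q ∈ Q, ∑ a, ‖c a‖ * B a q := by
  refine win_sum hW j0 n0 (fun p => ∑ x ∈ adm p.1 p.2, ‖Lbox (2 ^ p.1) bb F x‖)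
    (fun p _ => Finset.sum_nonneg fun _ _ => norm_nonneg _) hg0 h0 Q hQ _ fun q hq => ?_
  calc ∑ p ∈ W.filter (fun p => Le p q ∧ n0 ≤ p.1), ∑ x ∈ adm p.1 p.2, ‖Lbox (2 ^ p.1) bb F x‖
      ≤ ∑ p ∈ W.filter (fun p => Le p q ∧ n0 ≤ p.1), ∑ a, ‖c a‖ *
        ∑ x ∈ adm p.1 p.2, ‖Lbox (2 ^ p.1) bb (Function.update F j (S a q)) x‖ :=
        Finset.sum_le_sum fun p hp => lbox_comb hbb p j F c (fun a => S a q) fun y hy =>
          hrep q hq y ((Finset.mem_filter.1 hp).2.1 hy)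
    _ = ∑ a, ‖c a‖ * ∑ p ∈ W.filter (fun p => Le p q ∧ n0 ≤ p.1),
        ∑ x ∈ adm p.1 p.2, ‖Lbox (2 ^ p.1) bb (Function.update F j (S a q)) x‖ := by
        rw [Finset.sum_comm]
        exact Finset.sum_congr rfl fun a _ => (Finset.mul_sum _ _ _).symm
    _ ≤ _ := Finset.sum_le_sum fun a _ => mul_le_mul_of_nonneg_left (hB q hq a) (norm_nonneg _)

/-- total length of the grid nodes of one level -/
theorem grid_len {P : Nd} (Q : Finset Nd) {m : ℕ} (hQ : ∀ q ∈ Q, Le q P ∧ q.1 = m) :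
    ∑ q ∈ Q, (2 : ℝ) ^ (q.1 + 7) ≤ 2 ^ (P.1 + 7) := by
  classical
  have h := all_len P Q (fun q hq => (hQ q hq).1) m
  rwa [Finset.filter_true_of_mem fun q hq => (hQ q hq).2] at h

open Classical in
/-- **the (S) word of one window with the energies summed over the grid nodes** -/
theorem win_tot {σ : Type*} [Fintype σ] {bb : ℤ} (hbb : bb = -1 ∨ bb = -7) {W : Finset Nd}
    {P : Nd} (hW : ∀ p ∈ W, Le p P) (j0 n0 : ℕ) (j : Fin 4) (F : Fin 4 → ℤ → ℂ) {g0 : ℝ}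
    (hg0 : 0 ≤ g0) (h0 : ∀ p ∈ W, Nc j0 n0 P p →
      ∑ x ∈ adm p.1 p.2, ‖Lbox (2 ^ p.1) bb F x‖ ≤ g0 * 2 ^ (p.1 + 7))
    (Q : Finset Nd) (hQ : ∀ p ∈ W, ¬ Nc j0 n0 P p → ∃ q ∈ Q, Le p q)
    {m : ℕ} (hQm : ∀ q ∈ Q, Le q P ∧ q.1 = m)
    (c : σ → ℂ) (S : σ → Nd → ℤ → ℂ) (hrep : ∀ q ∈ Q, ∀ y ∈ iv q, F j y = ∑ a, c a * S a q y)
    (G : σ → Nd → ℝ) {X E : ℝ} (hX : 0 ≤ X)
    (hB : ∀ q ∈ Q, ∀ a, ∑ p ∈ W.filter (fun p => Le p q ∧ n0 ≤ p.1),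
      ∑ x ∈ adm p.1 p.2, ‖Lbox (2 ^ p.1) bb (Function.update F j (S a q)) x‖ ≤
        X * (1 + G a q) * 2 ^ (q.1 + 7))
    (hG : ∀ a, ∑ q ∈ Q, G a q * (2 : ℝ) ^ (q.1 + 7) ≤ E * 2 ^ (P.1 + 7)) :
    ∑ p ∈ W, ∑ x ∈ adm p.1 p.2, ‖Lbox (2 ^ p.1) bb F x‖ ≤
      ((j0 + 1 + n0) * g0 + (∑ a, ‖c a‖) * X * (1 + E)) * 2 ^ (P.1 + 7) := by
  have h1 := win_word hbb hW j0 n0 j F hg0 h0 Q hQ c S hrep
    (fun a q => X * (1 + G a q) * 2 ^ (q.1 + 7)) hB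
  refine h1.trans ?_
  have h2 : ∑ q ∈ Q, ∑ a, ‖c a‖ * (X * (1 + G a q) * (2 : ℝ) ^ (q.1 + 7)) ≤
      (∑ a, ‖c a‖) * X * (1 + E) * 2 ^ (P.1 + 7) := by
    rw [Finset.sum_comm]
    have h3 : ∀ a, ∑ q ∈ Q, ‖c a‖ * (X * (1 + G a q) * (2 : ℝ) ^ (q.1 + 7)) ≤
        ‖c a‖ * (X * (1 + E) * 2 ^ (P.1 + 7)) := by
      intro a
      rw [← Finset.mul_sum]
      refine mul_le_mul_of_nonneg_left ?_ (norm_nonneg _)
      have e : ∑ q ∈ Q, X * (1 + G a q) * (2 : ℝ) ^ (q.1 + 7) =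
          X * (∑ q ∈ Q, (2 : ℝ) ^ (q.1 + 7) + ∑ q ∈ Q, G a q * (2 : ℝ) ^ (q.1 + 7)) := by
        rw [← Finset.sum_add_distrib, Finset.mul_sum]
        exact Finset.sum_congr rfl fun q _ => by ring
      rw [e]
      calc X * (∑ q ∈ Q, (2 : ℝ) ^ (q.1 + 7) + ∑ q ∈ Q, G a q * (2 : ℝ) ^ (q.1 + 7))
          ≤ X * (2 ^ (P.1 + 7) + E * 2 ^ (P.1 + 7)) :=
            mul_le_mul_of_nonneg_left (add_le_add (grid_len Q hQm) (hG a)) hX
        _ = _ := by ring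
    calc ∑ a, ∑ q ∈ Q, ‖c a‖ * (X * (1 + G a q) * (2 : ℝ) ^ (q.1 + 7))
        ≤ ∑ a, ‖c a‖ * (X * (1 + E) * 2 ^ (P.1 + 7)) := Finset.sum_le_sum fun a _ => h3 a
      _ = _ := by rw [← Finset.sum_mul]; ring
  linarith

end Crest.Agent.R079.FrWx360
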