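import Crest.Agent.R079.SKv_261

/-! R079, item (c) of 973 / note 1201 (helper261): the projection of a node does not depend on the
order of the two coordinates (`Pj_swap`), nor on a larger box of positions (`Pj_grow`). -/

set_option autoImplicit false
set_option linter.unusedSectionVars false

namespace Crest.Agent.R079.SKx261

open Finset Crest.Agent.R079.Grid Crest.Agent.R079.Growth Crest.Agent.R079.QRed
  Crest.Agent.R079.Qh249 Crest.Agent.R079.QVar181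
  Crest.Agent.R079.TWin Crest.Agent.R079.Cel159 Crest.Agent.R079.ThA159 Crest.Agent.R079.PjC881
open Crest.Agent.R079.ClW59 (OpS cl cl_op)
open Crest.Agent.R079.Whit (Ins)

/-- transposition of operator bounds -/
lemma opS_tr' {S S' : Finset ℤ} {B : ℤ → ℤ → ℂ} {s : ℝ} (hs : 0 ≤ s) (h : OpS S S' B s) :
    OpS S' S (fun y x => B x y) s := by
  refine opS_of_bil hs fun ζ ξ => ?_
  have h1 := bil_of_opS hs h ξ ζ
  rw [Finset.sum_comm, mul_comm (Real.sqrt _) (Real.sqrt _)]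
  refine le_trans (le_of_eq ?_) h1
  congr 1
  exact Finset.sum_congr rfl fun u _ => Finset.sum_congr rfl fun v _ => by ring

/-- **transposition of the clip** -/
theorem cl_tr (A : ℤ → ℤ → ℂ) (S S' : Finset ℤ) {s : ℝ} (hs : 0 ≤ s) {x y : ℤ} (hx : x ∈ S)
    (hy : y ∈ S') : cl (fun y x => A x y) S' S s y x = cl A S S' s x y := by
  have h := near_eq_cl (A := A) (B := fun x y => cl (fun y x => A x y) S' S s y x) (S := S)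
    (S' := S') hs (opS_tr' hs (cl_op (fun y x => A x y) S' S hs)) (by
      intro C hC
      have h1 := ClW59.cl_dist (fun y x => A x y) S' S s
      have h2 := ClW59.DQ_gap (fun y x => A x y) hs (opS_tr' hs hC)
      unfold ClW59.nq at h1 h2
      have h3 : 0 ≤ ∑ y ∈ S', ∑ x ∈ S, ‖cl (fun y x => A x y) S' S s y x - C x y‖ ^ 2 :=
        Finset.sum_nonneg fun _ _ => Finset.sum_nonneg fun _ _ => sq_nonneg _
      rw [Finset.sum_comm, Finset.sum_comm (s := S) (t := S')]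
      linarith) x hx y hy
  exact h

section

variable {Y : ℤ → ℤ → ℤ → ℤ} {k : ℕ} {T₀ T₁ T₂ T₀' T₁' T₂' : Finset ℤ} {ν ν' : ℝ}

/-- value of the projection at a point of the strip -/
theorem Pj_val
    (hB : Bnd (fun p => (T₀ ×ˢ (T₁ ×ˢ T₂)).filter (fun ω => Y ω.1 ω.2.1 ω.2.2 ∈ iv p))
      (fun ω => Y ω.1 ω.2.1 ω.2.2) (NmP (T₀ ×ˢ (T₁ ×ˢ T₂)) Cel159.cf (okc Y k)) ν) {r : ℝ}
    (hr : 0 ≤ r) (p : Nd) (A : ℤ × ℤ × ℤ → ℂ) {z u v : ℤ} (hz : z ∈ T₀) (hu : u ∈ T₁)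
    (hv : v ∈ T₂) {n : ℕ} {a b : ℤ} (hM : Mx (Y z) k p n a b) (hua : u ∈ dI n a)
    (hvb : v ∈ dI n b) :
    Pj (fun p => (T₀ ×ˢ (T₁ ×ˢ T₂)).filter (fun ω => Y ω.1 ω.2.1 ω.2.2 ∈ iv p))
        (NmP (T₀ ×ˢ (T₁ ×ˢ T₂)) Cel159.cf (okc Y k)) r p A (z, u, v) =
      cl (Cel159.msk (T₀ ×ˢ (T₁ ×ˢ T₂)) A z) (dI n a) (dI n b) (r * 2 ^ n) u v := by
  have h := Cel159.Pj_eq_cl hB hr p A hz hM hua hvb
  rw [← h]
  unfold Cel159.msk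
  rw [if_pos]
  rw [Finset.mem_product, Finset.mem_product]
  exact ⟨hz, hu, hv⟩

/-- **a larger box of positions** -/
theorem Pj_grow
    (hB : Bnd (fun p => (T₀ ×ˢ (T₁ ×ˢ T₂)).filter (fun ω => Y ω.1 ω.2.1 ω.2.2 ∈ iv p))
      (fun ω => Y ω.1 ω.2.1 ω.2.2) (NmP (T₀ ×ˢ (T₁ ×ˢ T₂)) Cel159.cf (okc Y k)) ν)
    (hB' : Bnd (fun p => (T₀' ×ˢ (T₁' ×ˢ T₂')).filter (fun ω => Y ω.1 ω.2.1 ω.2.2 ∈ iv p))
      (fun ω => Y ω.1 ω.2.1 ω.2.2) (NmP (T₀' ×ˢ (T₁' ×ˢ T₂')) Cel159.cf (okc Y k)) ν') {r : ℝ}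
    (hr : 0 ≤ r) (p : Nd) (A A' : ℤ × ℤ × ℤ → ℂ) (h0 : T₀ ⊆ T₀') (h1 : T₁ ⊆ T₁') (h2 : T₂ ⊆ T₂')
    (hA : ∀ z u v, z ∈ T₀ → A' (z, u, v) = if u ∈ T₁ ∧ v ∈ T₂ then A (z, u, v) else 0)
    {z u v : ℤ} (hz : z ∈ T₀) (hu : u ∈ T₁) (hv : v ∈ T₂) (hy : Y z u v ∈ iv p) :
    Pj (fun p => (T₀' ×ˢ (T₁' ×ˢ T₂')).filter (fun ω => Y ω.1 ω.2.1 ω.2.2 ∈ iv p))
        (NmP (T₀' ×ˢ (T₁' ×ˢ T₂')) Cel159.cf (okc Y k)) r p A' (z, u, v) =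
      Pj (fun p => (T₀ ×ˢ (T₁ ×ˢ T₂)).filter (fun ω => Y ω.1 ω.2.1 ω.2.2 ∈ iv p))
        (NmP (T₀ ×ˢ (T₁ ×ˢ T₂)) Cel159.cf (okc Y k)) r p A (z, u, v) := by
  have hM := Mx_mcell (Y := Y) (k := k) (p := p) (ω := (z, u, v)) hy
  rw [Pj_val hB' hr p A' (h0 hz) (h1 hu) (h2 hv) hM (by rw [L0e.mem_dI]) (by rw [L0e.mem_dI]),
    Pj_val hB hr p A hz hu hv hM (by rw [L0e.mem_dI]) (by rw [L0e.mem_dI])]
  congr 1
  funext x y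
  unfold Cel159.msk
  by_cases hxy : x ∈ T₁ ∧ y ∈ T₂
  · rw [if_pos, if_pos, hA z x y hz, if_pos hxy]
    · rw [Finset.mem_product, Finset.mem_product]
      exact ⟨hz, hxy.1, hxy.2⟩
    · rw [Finset.mem_product, Finset.mem_product]
      exact ⟨h0 hz, h1 hxy.1, h2 hxy.2⟩
  · have e1 : ¬ ((z, x, y) ∈ T₀ ×ˢ (T₁ ×ˢ T₂)) := by
      rw [Finset.mem_product, Finset.mem_product]
      exact fun h => hxy h.2
    rw [if_neg e1]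
    split_ifs
    · rw [hA z x y hz, if_neg hxy]
    · rfl

/-- **transposition** -/
theorem Pj_swap
    (hB : Bnd (fun p => (T₀ ×ˢ (T₁ ×ˢ T₂)).filter (fun ω => Y ω.1 ω.2.1 ω.2.2 ∈ iv p))
      (fun ω => Y ω.1 ω.2.1 ω.2.2) (NmP (T₀ ×ˢ (T₁ ×ˢ T₂)) Cel159.cf (okc Y k)) ν)
    (hB' : Bnd (fun p => (T₀ ×ˢ (T₂ ×ˢ T₁)).filter (fun ω => Y ω.1 ω.2.2 ω.2.1 ∈ iv p))
      (fun ω => Y ω.1 ω.2.2 ω.2.1)
      (NmP (T₀ ×ˢ (T₂ ×ˢ T₁)) Cel159.cf (okc (fun z v u => Y z u v) k)) ν') {r : ℝ}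
    (hr : 0 ≤ r) (p : Nd) (A : ℤ × ℤ × ℤ → ℂ)
    {z u v : ℤ} (hz : z ∈ T₀) (hu : u ∈ T₁) (hv : v ∈ T₂) (hy : Y z u v ∈ iv p) :
    Pj (fun p => (T₀ ×ˢ (T₂ ×ˢ T₁)).filter (fun ω => Y ω.1 ω.2.2 ω.2.1 ∈ iv p))
        (NmP (T₀ ×ˢ (T₂ ×ˢ T₁)) Cel159.cf (okc (fun z v u => Y z u v) k)) r p
        (fun ω => A (ω.1, ω.2.2, ω.2.1)) (z, v, u) =
      Pj (fun p => (T₀ ×ˢ (T₁ ×ˢ T₂)).filter (fun ω => Y ω.1 ω.2.1 ω.2.2 ∈ iv p))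
        (NmP (T₀ ×ˢ (T₁ ×ˢ T₂)) Cel159.cf (okc Y k)) r p A (z, u, v) := by
  have hM := Mx_mcell (Y := Y) (k := k) (p := p) (ω := (z, u, v)) hy
  have hM' : Mx (fun v u => Y z u v) k p (sc Y k p (z, u, v)) (v / 2 ^ sc Y k p (z, u, v))
      (u / 2 ^ sc Y k p (z, u, v)) := Mx.swap hM
  rw [Pj_val hB hr p A hz hu hv hM (by rw [L0e.mem_dI]) (by rw [L0e.mem_dI])]
  have h1 := Pj_val (Y := fun z v u => Y z u v) hB' hr p (fun ω => A (ω.1, ω.2.2, ω.2.1)) hz hv hu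
    hM' (by rw [L0e.mem_dI]) (by rw [L0e.mem_dI])
  refine h1.trans ?_
  have e1 : Cel159.msk (T₀ ×ˢ (T₂ ×ˢ T₁)) (fun ω => A (ω.1, ω.2.2, ω.2.1)) z =
      fun v u => Cel159.msk (T₀ ×ˢ (T₁ ×ˢ T₂)) A z u v := by
    funext x y
    unfold Cel159.msk
    by_cases h : x ∈ T₂ ∧ y ∈ T₁
    · rw [if_pos, if_pos]
      · rw [Finset.mem_product, Finset.mem_product]
        exact ⟨hz, h.2, h.1⟩
      · rw [Finset.mem_product, Finset.mem_product]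
        exact ⟨hz, h.1, h.2⟩
    · rw [if_neg, if_neg]
      · rw [Finset.mem_product, Finset.mem_product]
        exact fun hc => h ⟨hc.2.2, hc.2.1⟩
      · rw [Finset.mem_product, Finset.mem_product]
        exact fun hc => h hc.2
  rw [e1]
  exact cl_tr _ _ _ (by positivity) (by rw [L0e.mem_dI]) (by rw [L0e.mem_dI])

end

end Crest.Agent.R079.SKx261
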