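import Crest.Agent.R079.SKy_261
import Crest.Agent.R079.SKq_261

/-! R079, item (c) of 973 / note 1201 (helper261): the (S) word of a window for gauges with different
boxes of positions (`SKwinA`). -/

set_option autoImplicit false
set_option linter.unusedSectionVars false

namespace Crest.Agent.R079.SKx261

open Finset Crest.Agent.R079.Grid Crest.Agent.R079.Growth Crest.Agent.R079.QRed
  Crest.Agent.R079.Qh249 Crest.Agent.R079.QVar181
  Crest.Agent.R079.TWin Crest.Agent.R079.Glue Crest.Agent.R079.SWc360 Crest.Agent.R079.Cel159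
  Crest.Agent.R079.SplSx69 Crest.Agent.R079.ThA159
open Crest.Agent.R079.Whit (Ins)

open scoped ComplexConjugate

/-- kernels of a window, one box of positions per gauge -/
structure SKA {ι : Type} [Fintype ι] (kap : ι → ℝ) (j : Fin 4) (e : Fin 3) (k d : ℕ) (P : Nd)
    (T0 T1 T2 : ι → Finset ℤ) (W : Finset Nd) (C : ι → ℤ × ℤ × ℤ → ℂ) (ρ r Hr E : ℝ) : Prop where
  kap0 : ∀ w, 0 ≤ kap w
  hWd : ∀ p ∈ W, d ≤ p.1
  ρ0 : 0 ≤ ρ
  r0 : 0 < r
  Hr0 : 0 ≤ Hr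
  E0 : 0 ≤ E
  full : ∀ w z u v, u ∈ T1 w → v ∈ T2 w → Yl j e z u v ∈ iv P → z ∈ T0 w
  hex : ∀ w, ∀ z ∈ T0 w, ∀ n a b, d ≤ n → Ins (Yl j e z) (iv P) n a b →
    OpC (Cel159.msk (T0 w ×ˢ (T1 w ×ˢ T2 w)) (C w) z) n a b ρ
  hrow : ∀ w, ∀ z ∈ T0 w, ∀ m a b, Mx (Yl j e z) k P m a b → d ≤ m →
    ∀ u ∈ dI m a ∩ T1 w, ∑ v ∈ dI m b ∩ T2 w, ‖C w (z, u, v)‖ ^ 2 ≤ Hr * 2 ^ m
  hcol : ∀ w, ∀ z ∈ T0 w, ∀ m a b, Mx (Yl j e z) k P m a b → d ≤ m →
    ∀ v ∈ dI m b ∩ T2 w, ∑ u ∈ dI m a ∩ T1 w, ‖C w (z, u, v)‖ ^ 2 ≤ Hr * 2 ^ m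
  hE : ∑ w, kap w * ∑ ω ∈ (T0 w ×ˢ (T1 w ×ˢ T2 w)).filter
    (fun ω => Yl j e ω.1 ω.2.1 ω.2.2 ∈ iv P), ‖C w ω‖ ^ 2 ≤ E * len P

/-- letters of a window -/
structure SKB {ι : Type} [Fintype ι] (kap : ι → ℝ) (j : Fin 4) (e : Fin 3)
    (T1 T2 : ι → Finset ℤ) (W : Finset Nd) (al : ι → ℤ → ℤ → ℂ) (F : Fin 4 → ℤ → ℂ)
    (A g1 d1 g2 d2 mb H0 : ℝ) : Prop where
  A0 : 0 ≤ A
  g10 : 0 ≤ g1
  d10 : 0 ≤ d1
  g20 : 0 ≤ g2
  d20 : 0 ≤ d2
  H00 : 0 ≤ H0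
  l2 : ∀ p ∈ W, ∀ i : Fin 3, ∑ y ∈ iv p, ‖F (j.succAbove i) y‖ ^ 2 ≤ A * len p
  nc1 : ∀ p ∈ W, NCs p g1 d1 (F (j.succAbove (e + 2)))
  nc2 : ∀ p ∈ W, NCs p g2 d2 (F (j.succAbove (e + 1)))
  gm : ∑ w, kap w * ∑ u ∈ T1 w, ∑ v ∈ T2 w, ‖al w u v‖ ^ 2 ≤ mb
  gh : ∀ w, ∀ u ∈ T1 w, ∀ v ∈ T2 w, ∀ y, ‖al w u v‖ * ‖F (j.succAbove e) y‖ ≤ H0

/-- three sets placed at `e`, `e + 1`, `e + 2` -/
def T3 (e : Fin 3) (A B C : Finset ℤ) (x : Fin 3) : Finset ℤ :=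
  if x = e then A else if x = e + 1 then B else C

lemma T3_0 (e : Fin 3) (A B C : Finset ℤ) : T3 e A B C e = A := by
  unfold T3; rw [if_pos rfl]

lemma T3_1 (e : Fin 3) (A B C : Finset ℤ) : T3 e A B C (e + 1) = B := by
  unfold T3
  rw [if_neg, if_pos rfl]
  revert e; decide

lemma T3_2 (e : Fin 3) (A B C : Finset ℤ) : T3 e A B C (e + 2) = C := by
  unfold T3
  rw [if_neg, if_neg]
  · revert e; decide
  · revert e; decide

/-- a band system with a tiny `ν` -/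
theorem bnd_any (Y : ℤ → ℤ → ℤ → ℤ) (k : ℕ) (T0 T1 T2 : Finset ℤ) : ∃ ν : ℝ,
    Bnd (fun p => (T0 ×ˢ (T1 ×ˢ T2)).filter (fun ω => Y ω.1 ω.2.1 ω.2.2 ∈ iv p))
      (fun ω => Y ω.1 ω.2.1 ω.2.2) (NmP (T0 ×ˢ (T1 ×ˢ T2)) Cel159.cf (okc Y k)) ν := by
  classical
  set c : ℝ := ((T0 ×ˢ (T1 ×ˢ T2)).card : ℝ) + 1 with hc
  have hc0 : 0 < c := by positivity
  refine ⟨c⁻¹, bnd_cell Y k _ (inv_pos.2 hc0) fun y => ?_⟩
  rw [inv_mul_le_iff₀ hc0, mul_one]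
  have h1 : ((((T0 ×ˢ (T1 ×ˢ T2)).filter (fun ω => Y ω.1 ω.2.1 ω.2.2 = y)).card : ℕ) : ℝ) ≤
      ((T0 ×ˢ (T1 ×ˢ T2)).card : ℝ) := by exact_mod_cast Finset.card_filter_le _ _
  linarith

/-- **word of a window, one box per gauge** -/
theorem SKwinA (htot : SKtotP) : ∃ K : ℝ, 0 ≤ K ∧ ∃ C0 : ℕ, ∀ (bb : ℤ), bb = -1 ∨ bb = -7 →
    ∀ (W : Finset Nd) (P : Nd), IsRegion W P → ∀ (j : Fin 4) (e : Fin 3) {ι : Type} [Fintype ι]
    (kap : ι → ℝ) (k d : ℕ) (T0 T1 T2 : ι → Finset ℤ)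
    (C : ι → ℤ × ℤ × ℤ → ℂ) (ρ r Hr E : ℝ) (al : ι → ℤ → ℤ → ℂ) (F : Fin 4 → ℤ → ℂ)
    (A g1 d1 g2 d2 mb H0 : ℝ) (n0 : ℕ) (Θ g0 : ℝ),
    SKA kap j e k d P T0 T1 T2 W C ρ r Hr E →
    SKB kap j e T1 T2 W al F A g1 d1 g2 d2 mb H0 →
    SKZ Θ A g1 d1 g2 d2 ρ r Hr 0 mb H0 →
    0 ≤ g0 →
    (∀ p ∈ W, Adj C0 P p → ∑ x ∈ adm p.1 p.2, ‖Lbox (2 ^ p.1) bb F x‖ ≤ g0 * 2 ^ (p.1 + 7)) →
    (∀ p ∈ W, p.1 < n0 → ∑ x ∈ adm p.1 p.2, ‖Lbox (2 ^ p.1) bb F x‖ ≤ g0 * 2 ^ (p.1 + 7)) →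
    (∀ y ∈ iv P, F j y = ∑ w, (kap w : ℂ) *
      ∑ ω ∈ (T0 w ×ˢ (T1 w ×ˢ T2 w)).filter (fun ω => Yl j e ω.1 ω.2.1 ω.2.2 = y),
        (C w ω - Pj (fun p => (T0 w ×ˢ (T1 w ×ˢ T2 w)).filter
          (fun ω => Yl j e ω.1 ω.2.1 ω.2.2 ∈ iv p))
          (NmP (T0 w ×ˢ (T1 w ×ˢ T2 w)) Cel159.cf (okc (Yl j e) k)) r P (C w) ω) *
          conj (al w ω.2.1 ω.2.2)) →
    ∑ p ∈ W, ∑ x ∈ adm p.1 p.2, ‖Lbox (2 ^ p.1) bb F x‖ ≤
      (4 * C0 + n0) * g0 * 2 ^ (P.1 + 7) +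
      K * (1 + Real.log Θ) * Real.sqrt (Real.sqrt (XS A g1 d1 ρ r Hr n0 Θ⁻¹ *
        XS A g2 d2 ρ r Hr n0 Θ⁻¹) * (A * mb + Θ⁻¹)) * (1 + E) * 2 ^ (P.1 + 7) := by
  classical
  obtain ⟨K, hK, C0, h⟩ := htot
  refine ⟨K, hK, C0, ?_⟩
  intro bb hbb W P hR j e ι _ kap k d T0 T1 T2 C ρ r Hr E al F A g1 d1 g2 d2 mb H0 n0 Θ g0 HA HB Z
    hg0 hadj hbot hrep
  set T : Fin 3 → Finset ℤ := T3 e (univ.biUnion T0) (univ.biUnion T1) (univ.biUnion T2) with hT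
  have t0 : T e = univ.biUnion T0 := T3_0 _ _ _ _
  have t1 : T (e + 1) = univ.biUnion T1 := T3_1 _ _ _ _
  have t2 : T (e + 2) = univ.biUnion T2 := T3_2 _ _ _ _
  have s0 : ∀ w, T0 w ⊆ T e := fun w => by
    rw [t0]; exact Finset.subset_biUnion_of_mem T0 (Finset.mem_univ w)
  have s1 : ∀ w, T1 w ⊆ T (e + 1) := fun w => by
    rw [t1]; exact Finset.subset_biUnion_of_mem T1 (Finset.mem_univ w)
  have s2 : ∀ w, T2 w ⊆ T (e + 2) := fun w => by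
    rw [t2]; exact Finset.subset_biUnion_of_mem T2 (Finset.mem_univ w)
  have mb3 : ∀ w (z u v : ℤ), (z, u, v) ∈ T0 w ×ˢ (T1 w ×ˢ T2 w) ↔ z ∈ T0 w ∧ u ∈ T1 w ∧ v ∈ T2 w :=
    fun w z u v => by rw [Finset.mem_product, Finset.mem_product]
  set C' : ι → ℤ × ℤ × ℤ → ℂ := fun w ω => if ω ∈ T0 w ×ˢ (T1 w ×ˢ T2 w) then C w ω else 0 with hC'
  set al' : ι → ℤ → ℤ → ℂ := fun w u v => if u ∈ T1 w ∧ v ∈ T2 w then al w u v else 0 with hal'
  obtain ⟨ν, hB⟩ := bnd_any (Yl j e) k (T e) (T (e + 1)) (T (e + 2))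
  choose ν' hB' using fun w => bnd_any (Yl j e) k (T0 w) (T1 w) (T2 w)
  -- kernels
  have hSKW : SKW (univ : Finset ι) kap j e k d P T W C' ρ r Hr E := by
    refine ⟨fun w _ => HA.kap0 w, HA.hWd, HA.ρ0, HA.r0, HA.Hr0, HA.E0, ?_, ?_, ?_, ?_⟩
    · intro w _ z hz n a b hn hi
      by_cases hz0 : z ∈ T0 w
      · refine (HA.hex w z hz0 n a b hn hi).congr fun u _ v _ => ?_
        unfold Cel159.msk
        by_cases hb : u ∈ T1 w ∧ v ∈ T2 w
        · rw [if_pos (mem_S3.2 ⟨hz, s1 w hb.1, s2 w hb.2⟩), if_pos ((mb3 w z u v).2 ⟨hz0, hb⟩)]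
          simp only [hC']
          rw [if_pos ((mb3 w z u v).2 ⟨hz0, hb⟩)]
        · rw [if_neg (fun hc => hb ((mb3 w z u v).1 hc).2)]
          split_ifs
          · simp only [hC']
            rw [if_neg (fun hc => hb ((mb3 w z u v).1 hc).2)]
          · rfl
      · intro ξ ζ
        have e0 : ∑ u ∈ dI n a, ∑ v ∈ dI n b, Cel159.msk (S3 T e) (C' w) z u v * (ξ u * ζ v) = 0 := by
          refine Finset.sum_eq_zero fun u _ => Finset.sum_eq_zero fun v _ => ?_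
          unfold Cel159.msk
          split_ifs
          · simp only [hC']
            rw [if_neg (fun hc => hz0 ((mb3 w z u v).1 hc).1), zero_mul]
          · rw [zero_mul]
        rw [e0, norm_zero]
        have := HA.ρ0
        positivity
    · intro w _ z hz m a b hM hm u hu
      by_cases hzu : z ∈ T0 w ∧ u ∈ T1 w
      · refine le_trans (le_of_eq ?_) (HA.hrow w z hzu.1 m a b hM hm u
          (Finset.mem_inter.2 ⟨(Finset.mem_inter.1 hu).1, hzu.2⟩))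
        symm
        refine Eq.trans (Finset.sum_congr rfl fun v hv => ?_) (Finset.sum_subset
          (f := fun v => ‖C' w (z, u, v)‖ ^ 2)
          (Finset.inter_subset_inter_left (s2 w)) fun v _ hv' => ?_)
        · simp only [hC']
          rw [if_pos ((mb3 w z u v).2 ⟨hzu.1, hzu.2, (Finset.mem_inter.1 hv).2⟩)]
        · simp only [hC']
          rename_i hv
          rw [if_neg, norm_zero, zero_pow two_ne_zero]
          intro hc
          exact hv' (Finset.mem_inter.2 ⟨(Finset.mem_inter.1 hv).1, ((mb3 w z u v).1 hc).2.2⟩)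
      · rw [Finset.sum_eq_zero]
        · have := HA.Hr0
          positivity
        · intro v _
          simp only [hC']
          rw [if_neg (fun hc => hzu ⟨((mb3 w z u v).1 hc).1, ((mb3 w z u v).1 hc).2.1⟩), norm_zero,
            zero_pow two_ne_zero]
    · intro w _ z hz m a b hM hm v hv
      by_cases hzv : z ∈ T0 w ∧ v ∈ T2 w
      · refine le_trans (le_of_eq ?_) (HA.hcol w z hzv.1 m a b hM hm v
          (Finset.mem_inter.2 ⟨(Finset.mem_inter.1 hv).1, hzv.2⟩))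
        symm
        refine Eq.trans (Finset.sum_congr rfl fun u hu => ?_) (Finset.sum_subset
          (f := fun u => ‖C' w (z, u, v)‖ ^ 2)
          (Finset.inter_subset_inter_left (s1 w)) fun u _ hu' => ?_)
        · simp only [hC']
          rw [if_pos ((mb3 w z u v).2 ⟨hzv.1, (Finset.mem_inter.1 hu).2, hzv.2⟩)]
        · simp only [hC']
          rename_i hu
          rw [if_neg, norm_zero, zero_pow two_ne_zero]
          intro hc
          exact hu' (Finset.mem_inter.2 ⟨(Finset.mem_inter.1 hu).1, ((mb3 w z u v).1 hc).2.1⟩)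
      · rw [Finset.sum_eq_zero]
        · have := HA.Hr0
          positivity
        · intro u _
          simp only [hC']
          rw [if_neg (fun hc => hzv ⟨((mb3 w z u v).1 hc).1, ((mb3 w z u v).1 hc).2.2⟩), norm_zero,
            zero_pow two_ne_zero]
    · refine le_trans (Finset.sum_le_sum fun w _ => mul_le_mul_of_nonneg_left ?_ (HA.kap0 w)) HA.hE
      have hsub : (T0 w ×ˢ (T1 w ×ˢ T2 w)).filter (fun ω => Yl j e ω.1 ω.2.1 ω.2.2 ∈ iv P) ⊆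
          (S3 T e).filter (fun ω => Yl j e ω.1 ω.2.1 ω.2.2 ∈ iv P) := by
        intro ω hω
        rw [Finset.mem_filter] at hω ⊢
        obtain ⟨a1, a2, a3⟩ := (mb3 w ω.1 ω.2.1 ω.2.2).1 hω.1
        exact ⟨mem_S3.2 ⟨s0 w a1, s1 w a2, s2 w a3⟩, hω.2⟩
      rw [← Finset.sum_subset hsub (f := fun ω => ‖C' w ω‖ ^ 2)]
      · refine le_of_eq (Finset.sum_congr rfl fun ω hω => ?_)
        simp only [hC']
        rw [if_pos (Finset.mem_filter.1 hω).1]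
      · intro ω hω hω'
        simp only [hC']
        rw [if_neg, norm_zero, zero_pow two_ne_zero]
        intro hc
        exact hω' (Finset.mem_filter.2 ⟨hc, (Finset.mem_filter.1 hω).2⟩)
  -- letters
  have hSKL : SKL (univ : Finset ι) kap j e T W al' F A g1 d1 g2 d2 mb H0 0 := by
    refine ⟨HB.A0, HB.g10, HB.d10, HB.g20, HB.d20, HB.H00, fun _ _ => Nat.zero_le _, HB.l2, HB.nc1,
      HB.nc2, ?_, ?_⟩
    · refine le_trans (Finset.sum_le_sum fun w _ => mul_le_mul_of_nonneg_left ?_ (HA.kap0 w)) HB.gm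
      rw [← Finset.sum_subset (s1 w) (f := fun u => ∑ v ∈ T (e + 2), ‖al' w u v‖ ^ 2)]
      · refine Finset.sum_le_sum fun u hu => ?_
        rw [← Finset.sum_subset (s2 w) (f := fun v => ‖al' w u v‖ ^ 2)]
        · refine le_of_eq (Finset.sum_congr rfl fun v hv => ?_)
          simp only [hal']
          rw [if_pos ⟨hu, hv⟩]
        · intro v _ hv
          simp only [hal']
          rw [if_neg (fun hc => hv hc.2), norm_zero, zero_pow two_ne_zero]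
      · intro u _ hu
        refine Finset.sum_eq_zero fun v _ => ?_
        simp only [hal']
        rw [if_neg (fun hc => hu hc.1), norm_zero, zero_pow two_ne_zero]
    · intro w _ u v y
      simp only [hal']
      split_ifs with hc
      · exact HB.gh w u hc.1 v hc.2 y
      · rw [norm_zero, zero_mul]
        exact HB.H00
  refine h bb hbb W P hR j e (univ : Finset ι) kap k d T C' ρ r Hr E al' F A g1 d1 g2 d2 mb H0 n0 Θ
    ν g0 hSKW hSKL Z hB hg0 hadj hbot ?_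
  intro y hy
  rw [hrep y hy]
  refine Finset.sum_congr rfl fun w _ => ?_
  congr 1
  -- one gauge
  have hk : kerG j e T (fun z u v => (C' w (z, u, v) - PjY j e k T r P (C' w) (z, u, v)) *
      conj (al' w u v)) y = ∑ ω ∈ (S3 T e).filter (fun ω => Yl j e ω.1 ω.2.1 ω.2.2 = y),
        (C' w ω - PjY j e k T r P (C' w) ω) * conj (al' w ω.2.1 ω.2.2) := by
    unfold kerG S3
    rw [Finset.sum_filter, Finset.sum_product]
    refine Finset.sum_congr rfl fun z _ => ?_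
    rw [Finset.sum_product]
  rw [hk]
  have hsub : (T0 w ×ˢ (T1 w ×ˢ T2 w)).filter (fun ω => Yl j e ω.1 ω.2.1 ω.2.2 = y) ⊆
      (S3 T e).filter (fun ω => Yl j e ω.1 ω.2.1 ω.2.2 = y) := by
    intro ω hω
    rw [Finset.mem_filter] at hω ⊢
    obtain ⟨a1, a2, a3⟩ := (mb3 w ω.1 ω.2.1 ω.2.2).1 hω.1
    exact ⟨mem_S3.2 ⟨s0 w a1, s1 w a2, s2 w a3⟩, hω.2⟩
  rw [← Finset.sum_subset hsub (f := fun ω => (C' w ω - PjY j e k T r P (C' w) ω) *
    conj (al' w ω.2.1 ω.2.2))]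
  · refine Finset.sum_congr rfl fun ω hω => ?_
    obtain ⟨z, u, v⟩ := ω
    rw [Finset.mem_filter] at hω
    obtain ⟨hb, hyω⟩ := hω
    obtain ⟨a1, a2, a3⟩ := (mb3 w z u v).1 hb
    have hyP : Yl j e z u v ∈ iv P := by
      have : Yl j e z u v = y := hyω
      rw [this]; exact hy
    have e1 : PjY j e k T r P (C' w) (z, u, v) = Pj (fun p => (T0 w ×ˢ (T1 w ×ˢ T2 w)).filter
          (fun ω => Yl j e ω.1 ω.2.1 ω.2.2 ∈ iv p))
          (NmP (T0 w ×ˢ (T1 w ×ˢ T2 w)) Cel159.cf (okc (Yl j e) k)) r P (C w) (z, u, v) :=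
      Pj_grow (hB' w) hB HA.r0.le P (C w) (C' w) (s0 w) (s1 w) (s2 w) (fun z u v hz => by
        simp only [hC']
        refine if_congr ?_ rfl rfl
        rw [mb3 w z u v]
        exact ⟨fun hc => hc.2, fun hc => ⟨hz, hc⟩⟩) a1 a2 a3 hyP
    rw [e1]
    have e2 : C' w (z, u, v) = C w (z, u, v) := by
      simp only [hC']
      rw [if_pos hb]
    have e3 : al' w u v = al w u v := by
      simp only [hal']
      rw [if_pos ⟨a2, a3⟩]
    rw [e2]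
    show _ = _ * conj (al' w u v)
    rw [e3]
  · intro ω hω hω'
    obtain ⟨z, u, v⟩ := ω
    rw [Finset.mem_filter] at hω
    have hyω : Yl j e z u v = y := hω.2
    have e3 : al' w u v = 0 := by
      simp only [hal']
      rw [if_neg]
      intro hc
      apply hω'
      refine Finset.mem_filter.2 ⟨(mb3 w z u v).2 ⟨?_, hc⟩, hω.2⟩
      exact HA.full w z u v hc.1 hc.2 (by rw [hyω]; exact hy)
    show _ * conj (al' w u v) = 0
    rw [e3, map_zero, mul_zero]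

end Crest.Agent.R079.SKx261
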