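import Crest.Agent.R079.YeYl_263
import Crest.Agent.R079.SKz_261

/-! R079, item (c) of 973 / note 1201 (helper261): **the (S) word of a window in the coordinates of
one family of op-atoms** (`GaF_371`): frozen slot `i`, edge `e`, letter slot `xs i e`. -/

set_option autoImplicit false
set_option linter.unusedSectionVars false

namespace Crest.Agent.R079.SKx261

open Finset Crest.Agent.R079.Grid Crest.Agent.R079.Growth Crest.Agent.R079.QRed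
  Crest.Agent.R079.Qh249 Crest.Agent.R079.QVar181
  Crest.Agent.R079.TWin Crest.Agent.R079.Glue Crest.Agent.R079.SWc360 Crest.Agent.R079.Cel159
  Crest.Agent.R079.SplSx69 Crest.Agent.R079.ThA159
open Crest.Agent.R079.Whit (Ins)
open Crest.Agent.R079.GaFx371 (Ye W0 SE BdE poE mem_W0)
open Crest.Agent.R079.YeYlx263 (xs vx vx_fro kept exch kept_or_exch Yl_kept Yl_exch PJ Pj_tr Mx_tr
  Ins_tr)
open Crest.Agent.R079.ElS440 (Ln LnF)

open scoped ComplexConjugate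

/-- kernels of a window for a family of op-atoms -/
structure SKC {ι : Type} [Fintype ι] (κ : ι → ℝ) (i : Fin 4) (e : Fin 3) (n k d : ℕ) (P J0 : Nd)
    (T : ι → Fin 3 → Finset ℤ) (W : Finset Nd) (C : ι → ℤ × ℤ × ℤ → ℂ) (ρ r Hr E : ℝ) : Prop where
  hJ : iv P ⊆ iv J0
  κ0 : ∀ l, 0 ≤ κ l
  hWd : ∀ p ∈ W, d ≤ p.1
  ρ0 : 0 ≤ ρ
  r0 : 0 < r
  Hr0 : 0 ≤ Hr
  E0 : 0 ≤ E
  hex : ∀ l, ∀ w ∈ W0 i e (T l) J0, ∀ m a b, d ≤ m → Ins (Ye i e w) (iv P) m a b →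
    OpC (Cel159.msk (SE i e (T l) J0) (C l) w) m a b ρ
  hrow : ∀ l, ∀ w ∈ W0 i e (T l) J0, ∀ m a b, Mx (Ye i e w) k P m a b → d ≤ m →
    ∀ u ∈ dI m a ∩ T l e, ∑ v ∈ dI m b ∩ T l (e + 1), ‖C l (w, u, v)‖ ^ 2 ≤ Hr * 2 ^ m
  hcol : ∀ l, ∀ w ∈ W0 i e (T l) J0, ∀ m a b, Mx (Ye i e w) k P m a b → d ≤ m →
    ∀ v ∈ dI m b ∩ T l (e + 1), ∑ u ∈ dI m a ∩ T l e, ‖C l (w, u, v)‖ ^ 2 ≤ Hr * 2 ^ m
  hE : ∑ l, κ l * (1 / (n : ℝ) ^ 2 * ∑ ω ∈ BdE i e (T l) J0 P, ‖C l ω‖ ^ 2) ≤ E * len P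

/-- letters of a window for a family of op-atoms -/
structure SKD {ι : Type} [Fintype ι] (κ : ι → ℝ) (i : Fin 4) (e : Fin 3) (n : ℕ)
    (T : ι → Fin 3 → Finset ℤ) (W : Finset Nd) (g : ι → Fin 3 → ℤ → ℤ → ℂ) (F : Fin 4 → ℤ → ℂ)
    (A g1 d1 g2 d2 mb H0 : ℝ) : Prop where
  A0 : 0 ≤ A
  g10 : 0 ≤ g1
  d10 : 0 ≤ d1
  g20 : 0 ≤ g2
  d20 : 0 ≤ d2
  H00 : 0 ≤ H0
  l2 : ∀ p ∈ W, ∀ s, s ≠ xs i e → ∑ y ∈ iv p, ‖F s y‖ ^ 2 ≤ A * len p
  nc1 : ∀ p ∈ W, NCs p g1 d1 (F (i.succAbove e))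
  nc2 : ∀ p ∈ W, NCs p g2 d2 (F (i.succAbove (e + 1)))
  gm : ∑ l, κ l * (1 / (n : ℝ) ^ 2 * ∑ z ∈ T l e, ∑ z' ∈ T l (e + 1), ‖g l e z z'‖ ^ 2) ≤ mb
  gh : ∀ l, ∀ z ∈ T l e, ∀ z' ∈ T l (e + 1), ∀ y, ‖g l e z z'‖ * ‖F i y‖ ≤ H0

/-- the letter of one ladder step -/
noncomputable def stepL {ι : Type} [Fintype ι] (κ : ι → ℝ) (i : Fin 4) (e : Fin 3) (n k : ℕ)
    (P J0 : Nd) (T : ι → Fin 3 → Finset ℤ) (g : ι → Fin 3 → ℤ → ℤ → ℂ) (r : ℝ)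
    (C : ι → ℤ × ℤ × ℤ → ℂ) : Fn :=
  LnF (fun l => BdE i e (T l) J0) (fun _ => poE i e) (fun _ => 1 / (n : ℝ) ^ 2)
    (fun l ω => g l e ω.2.1 ω.2.2) κ P (fun l ω => C l ω -
      Pj (BdE i e (T l) J0) (NmP (SE i e (T l) J0) Cel159.cf (okc (Ye i e) k)) r P (C l) ω)

/-- the letter of one ladder step as a sum over positions -/
lemma stepL_eq {ι : Type} [Fintype ι] (κ : ι → ℝ) (i : Fin 4) (e : Fin 3) (n k : ℕ)
    (P J0 : Nd) (T : ι → Fin 3 → Finset ℤ) (g : ι → Fin 3 → ℤ → ℤ → ℂ) (r : ℝ)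
    (C : ι → ℤ × ℤ × ℤ → ℂ) {y : ℤ} (hy : y ∈ iv P) :
    stepL κ i e n k P J0 T g r C y = ∑ l, ((κ l * (1 / (n : ℝ) ^ 2) : ℝ) : ℂ) *
      ∑ ω ∈ (W0 i e (T l) J0 ×ˢ (T l e ×ˢ T l (e + 1))).filter
        (fun ω => Ye i e ω.1 ω.2.1 ω.2.2 = y),
        (C l ω - PJ (Ye i e) k (W0 i e (T l) J0) (T l e) (T l (e + 1)) r P (C l) ω) *
          conj (g l e ω.2.1 ω.2.2) := by
  classical
  unfold stepL LnF
  refine Finset.sum_congr rfl fun l _ => ?_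
  unfold Ln
  push_cast
  rw [mul_assoc]
  congr 2
  refine Finset.sum_congr ?_ fun ω _ => ?_
  · ext ω
    unfold BdE poE SE
    rw [Finset.mem_filter, Finset.mem_filter, Finset.mem_filter]
    constructor
    · rintro ⟨⟨h1, _⟩, h3⟩
      exact ⟨h1, h3⟩
    · rintro ⟨h1, h3⟩
      exact ⟨⟨h1, by rw [h3]; exact hy⟩, h3⟩
  · rw [mul_comm]
    rfl

/-- **THE (S) WORD OF A WINDOW** -/
theorem SKwin (htot : SKtotP) : ∃ K : ℝ, 0 ≤ K ∧ ∃ C0 : ℕ, ∀ (bb : ℤ), bb = -1 ∨ bb = -7 →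
    ∀ (W : Finset Nd) (P : Nd), IsRegion W P → ∀ (i : Fin 4) (e : Fin 3) {ι : Type} [Fintype ι]
    (κ : ι → ℝ) (n k d : ℕ) (J0 : Nd) (T : ι → Fin 3 → Finset ℤ) (g : ι → Fin 3 → ℤ → ℤ → ℂ)
    (C : ι → ℤ × ℤ × ℤ → ℂ) (ρ r Hr E : ℝ) (F : Fin 4 → ℤ → ℂ)
    (A g1 d1 g2 d2 mb H0 : ℝ) (n0 : ℕ) (Θ g0 : ℝ),
    SKC κ i e n k d P J0 T W C ρ r Hr E →
    SKD κ i e n T W g F A g1 d1 g2 d2 mb H0 →
    SKZ Θ A g1 d1 g2 d2 ρ r Hr 0 mb H0 →
    0 ≤ g0 →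
    (∀ p ∈ W, Adj C0 P p → ∑ x ∈ adm p.1 p.2, ‖Lbox (2 ^ p.1) bb F x‖ ≤ g0 * 2 ^ (p.1 + 7)) →
    (∀ p ∈ W, p.1 < n0 → ∑ x ∈ adm p.1 p.2, ‖Lbox (2 ^ p.1) bb F x‖ ≤ g0 * 2 ^ (p.1 + 7)) →
    (∀ y ∈ iv P, F (xs i e) y = stepL κ i e n k P J0 T g r C y) →
    ∑ p ∈ W, ∑ x ∈ adm p.1 p.2, ‖Lbox (2 ^ p.1) bb F x‖ ≤
      (4 * C0 + n0) * g0 * 2 ^ (P.1 + 7) +
      K * (1 + Real.log Θ) * Real.sqrt (Real.sqrt (XS A g1 d1 ρ r Hr n0 Θ⁻¹ *
        XS A g2 d2 ρ r Hr n0 Θ⁻¹) * (A * mb + Θ⁻¹)) * (1 + E) * 2 ^ (P.1 + 7) := by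
  classical
  obtain ⟨K, hK, C0, h⟩ := SKwinA htot
  refine ⟨K, hK, C0, ?_⟩
  intro bb hbb W P hR i e ι _ κ n k d J0 T g C ρ r Hr E F A g1 d1 g2 d2 mb H0 n0 Θ g0 HC HD Z hg0
    hadj hbot hrep
  have hn2 : (0 : ℝ) ≤ 1 / (n : ℝ) ^ 2 := by positivity
  have hl2 : ∀ p ∈ W, ∀ q : Fin 3, ∑ y ∈ iv p, ‖F ((xs i e).succAbove q) y‖ ^ 2 ≤ A * len p :=
    fun p hp q => HD.l2 p hp _ (Fin.succAbove_ne _ _)
  rcases kept_or_exch i e with hk | hk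
  · -- order kept
    have hY : Yl (xs i e) (vx i e) = Ye i e := by
      funext z u v
      exact Yl_kept hk z u v
    have hZ' : SKZ Θ A g2 d2 g1 d1 ρ r Hr 0 mb H0 :=
      ⟨Z.Θ1, Z.A, Z.g2, Z.d2, Z.g1, Z.d1, Z.ρ, Z.r, Z.Hr, Z.G, Z.mb, Z.H0⟩
    rw [mul_comm (XS A g1 d1 ρ r Hr n0 Θ⁻¹)]
    refine h bb hbb W P hR (xs i e) (vx i e) (fun l => κ l * (1 / (n : ℝ) ^ 2)) k d
      (fun l => W0 i e (T l) J0) (fun l => T l e) (fun l => T l (e + 1)) C ρ r Hr E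
      (fun l => g l e) F A g2 d2 g1 d1 mb H0 n0 Θ g0 ?_ ?_ hZ' hg0 hadj hbot ?_
    · refine ⟨fun l => mul_nonneg (HC.κ0 l) hn2, HC.hWd, HC.ρ0, HC.r0, HC.Hr0, HC.E0, ?_, ?_, ?_,
        ?_, ?_⟩
      · intro l z u v hu hv hy
        rw [hY] at hy
        exact mem_W0 hu hv (HC.hJ hy)
      · rw [hY]; exact HC.hex
      · rw [hY]; exact HC.hrow
      · rw [hY]; exact HC.hcol
      · rw [hY]
        refine le_trans (le_of_eq ?_) HC.hE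
        refine Finset.sum_congr rfl fun l _ => ?_
        rw [mul_assoc]
        rfl
    · refine ⟨HD.A0, HD.g20, HD.d20, HD.g10, HD.d10, HD.H00, hl2, ?_, ?_, ?_, ?_⟩
      · rw [hk.2]; exact HD.nc2
      · rw [hk.1]; exact HD.nc1
      · refine le_trans (le_of_eq ?_) HD.gm
        exact Finset.sum_congr rfl fun l _ => mul_assoc _ _ _
      · rw [vx_fro]
        exact HD.gh
    · intro y hy
      rw [hrep y hy, stepL_eq κ i e n k P J0 T g r C hy, hY]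
  · -- order exchanged
    have hY : Yl (xs i e) (vx i e) = fun z v u => Ye i e z u v := by
      funext z v u
      exact Yl_exch hk z v u
    have hmsk : ∀ l (z : ℤ), Cel159.msk (W0 i e (T l) J0 ×ˢ (T l (e + 1) ×ˢ T l e))
        (fun ω => C l (ω.1, ω.2.2, ω.2.1)) z =
        fun v u => Cel159.msk (SE i e (T l) J0) (C l) z u v := by
      intro l z
      funext v u
      unfold Cel159.msk SE
      refine if_congr ?_ rfl rfl
      simp only [Finset.mem_product]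
      constructor
      · rintro ⟨a, b, c⟩
        exact ⟨a, c, b⟩
      · rintro ⟨a, b, c⟩
        exact ⟨a, c, b⟩
    refine h bb hbb W P hR (xs i e) (vx i e) (fun l => κ l * (1 / (n : ℝ) ^ 2)) k d
      (fun l => W0 i e (T l) J0) (fun l => T l (e + 1)) (fun l => T l e)
      (fun l ω => C l (ω.1, ω.2.2, ω.2.1)) ρ r Hr E
      (fun l v u => g l e u v) F A g1 d1 g2 d2 mb H0 n0 Θ g0 ?_ ?_ Z hg0 hadj hbot ?_
    · refine ⟨fun l => mul_nonneg (HC.κ0 l) hn2, HC.hWd, HC.ρ0, HC.r0, HC.Hr0, HC.E0, ?_, ?_, ?_,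
        ?_, ?_⟩
      · intro l z v u hv hu hy
        rw [hY] at hy
        exact mem_W0 hu hv (HC.hJ hy)
      · intro l z hz m a b hm hi
        rw [hY] at hi
        rw [hmsk]
        exact opC_tr (HC.hex l z hz m b a hm fun u hu v hv => hi v hv u hu)
      · intro l z hz m a b hM hm v hv
        rw [hY] at hM
        exact HC.hcol l z hz m b a (Mx_tr hM) hm v hv
      · intro l z hz m a b hM hm u hu
        rw [hY] at hM
        exact HC.hrow l z hz m b a (Mx_tr hM) hm u hu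
      · rw [hY]
        refine le_trans (le_of_eq ?_) HC.hE
        refine Finset.sum_congr rfl fun l _ => ?_
        rw [mul_assoc]
        congr 2
        unfold BdE SE
        rw [Finset.sum_filter, Finset.sum_filter, Finset.sum_product, Finset.sum_product]
        refine Finset.sum_congr rfl fun z _ => ?_
        rw [Finset.sum_product, Finset.sum_product, Finset.sum_comm]
    · refine ⟨HD.A0, HD.g10, HD.d10, HD.g20, HD.d20, HD.H00, hl2, ?_, ?_, ?_, ?_⟩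
      · rw [hk.2]; exact HD.nc1
      · rw [hk.1]; exact HD.nc2
      · refine le_trans (le_of_eq ?_) HD.gm
        refine Finset.sum_congr rfl fun l _ => ?_
        rw [mul_assoc, Finset.sum_comm]
      · rw [vx_fro]
        exact fun l v hv u hu y => HD.gh l u hu v hv y
    · intro y hy
      rw [hrep y hy, stepL_eq κ i e n k P J0 T g r C hy, hY]
      refine Finset.sum_congr rfl fun l _ => ?_
      congr 1
      have e1 : ∀ z ∈ W0 i e (T l) J0, ∀ u ∈ T l e, ∀ v ∈ T l (e + 1), Ye i e z u v = y →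
          PJ (fun z v u => Ye i e z u v) k (W0 i e (T l) J0) (T l (e + 1)) (T l e) r P
            (fun ω => C l (ω.1, ω.2.2, ω.2.1)) (z, v, u) =
          PJ (Ye i e) k (W0 i e (T l) J0) (T l e) (T l (e + 1)) r P (C l) (z, u, v) :=
        fun z hz u hu v hv hzy => Pj_tr HC.r0.le P (C l) hz hu hv (by rw [hzy]; exact hy)
      rw [Finset.sum_filter, Finset.sum_filter, Finset.sum_product, Finset.sum_product]
      refine Finset.sum_congr rfl fun z hz => ?_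
      rw [Finset.sum_product, Finset.sum_product, Finset.sum_comm]
      refine Finset.sum_congr rfl fun v hv => Finset.sum_congr rfl fun u hu => ?_
      by_cases hzy : Ye i e z u v = y
      · rw [if_pos hzy, if_pos hzy]
        exact congrArg (fun x => (C l (z, u, v) - x) * conj (g l e u v)) (e1 z hz u hu v hv hzy).symm
      · rw [if_neg hzy, if_neg hzy]

end Crest.Agent.R079.SKx261
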