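import Crest.Agent.R079.FrX_360
import Crest.Agent.R079.FrW_360
import Crest.Agent.R079.SKu_261

/-! R079 (helper360), T5b of note 1820: **the far word on a grid node in the coordinates of one
family of op-atoms** (frozen slot `i`, edge `e`, letter slot `xs i e`), `fc_word`, and the form
`X (1 + G) 2^(q0.1+7)` (`fc_word1`). -/

set_option autoImplicit false
set_option linter.unusedSectionVars false

namespace Crest.Agent.R079.FrWx360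

open Finset Crest.Agent.R079.Grid Crest.Agent.R079.Growth Crest.Agent.R079.QRed
  Crest.Agent.R079.Qh249 Crest.Agent.R079.QVar181
  Crest.Agent.R079.TWin Crest.Agent.R079.Glue Crest.Agent.R079.SWc360 Crest.Agent.R079.Cel159
  Crest.Agent.R079.SplSx69 Crest.Agent.R079.ThA159 Crest.Agent.R079.SKx261
open Crest.Agent.R079.FrQx717 (tcell FQ FqP)
open Crest.Agent.R079.Whit (Ins)
open Crest.Agent.R079.GaFx371 (Ye W0 SE BdE poE mem_W0)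
open Crest.Agent.R079.YeYlx263 (xs vx vx_fro kept exch kept_or_exch Yl_kept Yl_exch Mx_tr
  Ins_tr)
open Crest.Agent.R079.ElS440 (Ln LnF)

open scoped ComplexConjugate

/-- type `(m, a, b)` of the maximal cell of `P` which contains the position -/
noncomputable def tcY (Y : ℤ → ℤ → ℤ → ℤ) (k : ℕ) (P : Nd) (z u v : ℤ) : ℕ × ℤ × ℤ :=
  (mcell Y k P (z, u, v)).2

/-- transposed type -/
def tsw (t : ℕ × ℤ × ℤ) : ℕ × ℤ × ℤ := (t.1, t.2.2, t.2.1)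

lemma tsw_tsw (t : ℕ × ℤ × ℤ) : tsw (tsw t) = t := rfl

lemma tcY_tr {Y : ℤ → ℤ → ℤ → ℤ} {k : ℕ} {P : Nd} {z u v : ℤ} (h : Y z u v ∈ iv P) :
    tcY (fun z v u => Y z u v) k P z v u = tsw (tcY Y k P z u v) := by
  have hM : Mx (Y z) k P (mcell Y k P (z, u, v)).2.1 (mcell Y k P (z, u, v)).2.2.1
      (mcell Y k P (z, u, v)).2.2.2 := Mx_mcell (ω := (z, u, v)) h
  have hM' : Mx (fun v u => Y z u v) k P (mcell (fun z v u => Y z u v) k P (z, v, u)).2.1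
      (mcell (fun z v u => Y z u v) k P (z, v, u)).2.2.1
      (mcell (fun z v u => Y z u v) k P (z, v, u)).2.2.2 :=
    Mx_mcell (Y := fun z v u => Y z u v) (ω := (z, v, u)) h
  have hu : u ∈ dI (mcell Y k P (z, u, v)).2.1 (mcell Y k P (z, u, v)).2.2.1 := by
    rw [L0e.mem_dI]; rfl
  have hv : v ∈ dI (mcell Y k P (z, u, v)).2.1 (mcell Y k P (z, u, v)).2.2.2 := by
    rw [L0e.mem_dI]; rfl
  have hu' : u ∈ dI (mcell (fun z v u => Y z u v) k P (z, v, u)).2.1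
      (mcell (fun z v u => Y z u v) k P (z, v, u)).2.2.2 := by
    rw [L0e.mem_dI]; rfl
  have hv' : v ∈ dI (mcell (fun z v u => Y z u v) k P (z, v, u)).2.1
      (mcell (fun z v u => Y z u v) k P (z, v, u)).2.2.1 := by
    rw [L0e.mem_dI]; rfl
  obtain ⟨e1, e2, e3⟩ := Mx_eq hM' (Mx_tr hM) hv' hv hu' hu
  exact Prod.ext e1 (Prod.ext e2 e3)

/-- data of the frames of a node `P' = q0` below the sub-top `P = K` for a family of op-atoms -/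
structure FC {ι τ : Type} [Fintype ι] [Fintype τ] (κ : ι → ℝ) (i : Fin 4) (e : Fin 3)
    (n k κ0 d C0 : ℕ) (P P' J0 : Nd) (T : ι → Fin 3 → Finset ℤ) (R : Finset Nd)
    (Pf Qf : ι → ℤ → ℕ × ℤ × ℤ → ℤ → τ → ℂ) (CU CW : ι → ℤ → ℕ × ℤ × ℤ → ℤ → ℤ → ℂ)
    (B : ι → ℤ × ℤ × ℤ → ℂ) (ρ r Hr G : ℝ) : Prop where
  hJ : iv P ⊆ iv J0
  kap0 : ∀ l, 0 ≤ κ l
  hC : 2 ^ κ0 ≤ C0
  hP : iv P' ⊆ iv P
  hna : ¬ Adj C0 P P'
  hR : ∀ p ∈ R, p.1 ≤ P'.1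
  hRd : ∀ p ∈ R, d ≤ p.1
  ρ0 : 0 ≤ ρ
  r0 : 0 < r
  Hr0 : 0 ≤ Hr
  G0 : 0 ≤ G
  supU : ∀ l w t u v, CU l w t u v ≠ 0 → u ∈ T l e ∧ v ∈ T l (e + 1) ∧ Ye i e w u v ∈ iv P'
  supW : ∀ l w t u v, CW l w t u v ≠ 0 → u ∈ T l e ∧ v ∈ T l (e + 1) ∧ Ye i e w u v ∈ iv P'
  opU : ∀ l, ∀ w ∈ W0 i e (T l) J0, ∀ t : ℕ × ℤ × ℤ, Mx (Ye i e w) k P t.1 t.2.1 t.2.2 →
    ∀ m, d ≤ m → m ≤ P'.1 + κ0 → ∀ a b, dI m a ⊆ dI t.1 t.2.1 → dI m b ⊆ dI t.1 t.2.2 →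
      OpC (CU l w t) m a b ρ
  opW : ∀ l, ∀ w ∈ W0 i e (T l) J0, ∀ t : ℕ × ℤ × ℤ, Mx (Ye i e w) k P t.1 t.2.1 t.2.2 →
    ∀ m, d ≤ m → m ≤ P'.1 + κ0 → ∀ a b, dI m a ⊆ dI t.1 t.2.1 → dI m b ⊆ dI t.1 t.2.2 →
      OpC (CW l w t) m a b ρ
  majU : ∀ l, ∀ w ∈ W0 i e (T l) J0, ∀ t : ℕ × ℤ × ℤ, Mx (Ye i e w) k P t.1 t.2.1 t.2.2 →
    ∀ (a' : ℤ) (f : ℤ → ℂ),
    ∑ x, ‖∑ u ∈ dI P'.1 a' ∩ dI t.1 t.2.1, f u * Pf l w t u x‖ ^ 2 ≤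
      (r⁻¹ / 2 ^ P'.1) * ∑ v ∈ dI t.1 t.2.2,
        ‖∑ u ∈ dI P'.1 a' ∩ dI t.1 t.2.1, f u * CU l w t u v‖ ^ 2
  majW : ∀ l, ∀ w ∈ W0 i e (T l) J0, ∀ t : ℕ × ℤ × ℤ, Mx (Ye i e w) k P t.1 t.2.1 t.2.2 →
    ∀ (b' : ℤ) (f : ℤ → ℂ),
    ∑ x, ‖∑ v ∈ dI P'.1 b' ∩ dI t.1 t.2.2, f v * Qf l w t v x‖ ^ 2 ≤
      (r⁻¹ / 2 ^ P'.1) * ∑ u ∈ dI t.1 t.2.1,
        ‖∑ v ∈ dI P'.1 b' ∩ dI t.1 t.2.2, f v * CW l w t u v‖ ^ 2
  rowU : ∀ l, ∀ w ∈ W0 i e (T l) J0, ∀ t : ℕ × ℤ × ℤ, Mx (Ye i e w) k P t.1 t.2.1 t.2.2 →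
    ∀ u ∈ dI t.1 t.2.1, ∑ v ∈ dI t.1 t.2.2, ‖CU l w t u v‖ ^ 2 ≤ Hr * 2 ^ P'.1
  colW : ∀ l, ∀ w ∈ W0 i e (T l) J0, ∀ t : ℕ × ℤ × ℤ, Mx (Ye i e w) k P t.1 t.2.1 t.2.2 →
    ∀ v ∈ dI t.1 t.2.2, ∑ u ∈ dI t.1 t.2.1, ‖CW l w t u v‖ ^ 2 ≤ Hr * 2 ^ P'.1
  ptU : ∀ l, ∀ w ∈ W0 i e (T l) J0, ∀ t : ℕ × ℤ × ℤ, ∀ u ∈ dI t.1 t.2.1, ∀ v ∈ dI t.1 t.2.2,
    ‖CU l w t u v‖ ≤ ‖B l (w, u, v)‖
  ptW : ∀ l, ∀ w ∈ W0 i e (T l) J0, ∀ t : ℕ × ℤ × ℤ, ∀ u ∈ dI t.1 t.2.1, ∀ v ∈ dI t.1 t.2.2,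
    ‖CW l w t u v‖ ≤ ‖B l (w, u, v)‖
  enB : ∑ l, κ l * (1 / (n : ℝ) ^ 2 * ∑ ω ∈ BdE i e (T l) J0 P', ‖B l ω‖ ^ 2) ≤ G * 2 ^ P'.1

/-- kernel of the letter of one ladder step on the node -/
noncomputable def ZF {ι τ : Type} [Fintype τ] (i : Fin 4) (e : Fin 3) (k : ℕ) (P : Nd)
    (Pf Qf : ι → ℤ → ℕ × ℤ × ℤ → ℤ → τ → ℂ) (l : ι) (ω : ℤ × ℤ × ℤ) : ℂ :=
  ∑ x, Pf l ω.1 (tcY (Ye i e) k P ω.1 ω.2.1 ω.2.2) ω.2.1 x *
    Qf l ω.1 (tcY (Ye i e) k P ω.1 ω.2.1 ω.2.2) ω.2.2 x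

/-- the letter of a family of kernels as a sum over positions -/
lemma lnF_eq {ι : Type} [Fintype ι] (κ : ι → ℝ) (i : Fin 4) (e : Fin 3) (n : ℕ)
    (P J0 : Nd) (T : ι → Fin 3 → Finset ℤ) (g : ι → Fin 3 → ℤ → ℤ → ℂ)
    (Z : ι → ℤ × ℤ × ℤ → ℂ) {y : ℤ} (hy : y ∈ iv P) :
    LnF (fun l => BdE i e (T l) J0) (fun _ => poE i e) (fun _ => 1 / (n : ℝ) ^ 2)
      (fun l ω => g l e ω.2.1 ω.2.2) κ P Z y = ∑ l, ((κ l * (1 / (n : ℝ) ^ 2) : ℝ) : ℂ) *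
      ∑ ω ∈ (W0 i e (T l) J0 ×ˢ (T l e ×ˢ T l (e + 1))).filter
        (fun ω => Ye i e ω.1 ω.2.1 ω.2.2 = y), Z l ω * conj (g l e ω.2.1 ω.2.2) := by
  classical
  unfold LnF
  refine Finset.sum_congr rfl fun l _ => ?_
  unfold Ln
  push_cast
  rw [mul_assoc]
  congr 2
  refine Finset.sum_congr ?_ fun ω _ => ?_
  · ext ω
    unfold BdE poE SE
    rw [Finset.mem_filter, Finset.mem_filter, Finset.mem_filter]
    constructor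
    · rintro ⟨⟨h1, _⟩, h3⟩
      exact ⟨h1, h3⟩
    · rintro ⟨h1, h3⟩
      exact ⟨⟨h1, by rw [h3]; exact hy⟩, h3⟩
  · rw [mul_comm]

/-- **the far word on a grid node, family of op-atoms** -/
theorem fc_word (hfq : FqP) : ∃ K : ℝ, 0 ≤ K ∧ ∃ κ0 : ℕ, ∀ (bb : ℤ), bb = -1 ∨ bb = -7 →
    ∀ (R : Finset Nd) (P' : Nd), IsRegion R P' → ∀ (i : Fin 4) (e : Fin 3) {ι τ : Type}
    [Fintype ι] [Fintype τ] [DecidableEq τ] (κ : ι → ℝ) (n k d C0 : ℕ) (P J0 : Nd)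
    (T : ι → Fin 3 → Finset ℤ) (Pf Qf : ι → ℤ → ℕ × ℤ × ℤ → ℤ → τ → ℂ)
    (CU CW : ι → ℤ → ℕ × ℤ × ℤ → ℤ → ℤ → ℂ) (B : ι → ℤ × ℤ × ℤ → ℂ) (ρ r Hr G : ℝ)
    (g : ι → Fin 3 → ℤ → ℤ → ℂ) (F : Fin 4 → ℤ → ℂ) (A g1 d1 g2 d2 mb H0 : ℝ) (m0 : ℕ) (Θ : ℝ),
    FC κ i e n k κ0 d C0 P P' J0 T R Pf Qf CU CW B ρ r Hr G →
    SKD κ i e n T R g F A g1 d1 g2 d2 mb H0 → (∀ p ∈ R, m0 ≤ p.1) →
    SKZ Θ A g1 d1 g2 d2 ρ r Hr G mb H0 →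
    (∀ y ∈ iv P', F (xs i e) y = LnF (fun l => BdE i e (T l) J0) (fun _ => poE i e)
      (fun _ => 1 / (n : ℝ) ^ 2) (fun l ω => g l e ω.2.1 ω.2.2) κ P (ZF i e k P Pf Qf) y) →
    ∑ p ∈ R, ∑ x ∈ adm p.1 p.2, ‖Lbox (2 ^ p.1) bb F x‖ ≤
      K * (Real.sqrt (Real.sqrt (XS A g1 d1 ρ r Hr m0 Θ⁻¹ * XS A g2 d2 ρ r Hr m0 Θ⁻¹) *
        (G + Θ⁻¹) * (A * mb + Θ⁻¹)) * (1 + Real.log Θ) * 2 ^ (P'.1 + 7)) := by
  classical
  obtain ⟨K, hK, κ0, h⟩ := fa_word hfq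
  refine ⟨K, hK, κ0, ?_⟩
  intro bb hbb R P' hR i e ι τ _ _ _ κ n k d C0 P J0 T Pf Qf CU CW B ρ r Hr G g F A g1 d1 g2 d2
    mb H0 m0 Θ HC HD hm0 Z hrep
  have hn2 : (0 : ℝ) ≤ 1 / (n : ℝ) ^ 2 := by positivity
  have hl2 : ∀ p ∈ R, ∀ q : Fin 3, ∑ y ∈ iv p, ‖F ((xs i e).succAbove q) y‖ ^ 2 ≤ A * len p :=
    fun p hp q => HD.l2 p hp _ (Fin.succAbove_ne _ _)
  rcases kept_or_exch i e with hk | hk
  · -- order kept
    have hY : Yl (xs i e) (vx i e) = Ye i e := by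
      funext z u v
      exact Yl_kept hk z u v
    have hZ' : SKZ Θ A g2 d2 g1 d1 ρ r Hr G mb H0 :=
      ⟨Z.Θ1, Z.A, Z.g2, Z.d2, Z.g1, Z.d1, Z.ρ, Z.r, Z.Hr, Z.G, Z.mb, Z.H0⟩
    rw [mul_comm (XS A g1 d1 ρ r Hr m0 Θ⁻¹)]
    refine h bb hbb R P' hR (xs i e) (vx i e) (fun l => κ l * (1 / (n : ℝ) ^ 2)) k d C0 P
      (fun l => W0 i e (T l) J0) (fun l => T l e) (fun l => T l (e + 1)) Pf Qf CU CW B ρ r Hr G
      (fun l => g l e) F A g2 d2 g1 d1 mb H0 m0 Θ ?_ ?_ hm0 hZ' ?_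
    · refine ⟨fun l => mul_nonneg (HC.kap0 l) hn2, HC.hC, HC.hP, HC.hna, HC.hR, HC.hRd, HC.ρ0,
        HC.r0, HC.Hr0, HC.G0, ?_, ?_, ?_, ?_, ?_, ?_, ?_, ?_, ?_, HC.ptU, HC.ptW, ?_⟩
      · intro l z u v hu hv hy
        rw [hY] at hy
        exact mem_W0 hu hv (HC.hJ hy)
      · rw [hY]; exact HC.supU
      · rw [hY]; exact HC.supW
      · rw [hY]; exact HC.opU
      · rw [hY]; exact HC.opW
      · rw [hY]; exact HC.majU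
      · rw [hY]; exact HC.majW
      · rw [hY]; exact HC.rowU
      · rw [hY]; exact HC.colW
      · rw [hY]
        refine le_trans (le_of_eq ?_) HC.enB
        refine Finset.sum_congr rfl fun l _ => ?_
        rw [mul_assoc]
        rfl
    · refine ⟨HD.A0, HD.g20, HD.d20, HD.g10, HD.d10, HD.H00, hl2, ?_, ?_, ?_, ?_⟩
      · rw [hk.2]; exact HD.nc2
      · rw [hk.1]; exact HD.nc1
      · refine le_trans (le_of_eq ?_) HD.gm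
        exact Finset.sum_congr rfl fun l _ => mul_assoc _ _ _
      · rw [vx_fro]
        exact HD.gh
    · intro y hy
      rw [hrep y hy, lnF_eq κ i e n P J0 T g _ (HC.hP hy)]
      have e1 : ∀ z u v, tcell (xs i e) (vx i e) k P z u v = tcY (Ye i e) k P z u v := by
        intro z u v
        unfold tcell tcY
        rw [hY]
      simp only [e1, hY]
      rfl
  · -- order exchanged
    have hY : Yl (xs i e) (vx i e) = fun z v u => Ye i e z u v := by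
      funext z v u
      exact Yl_exch hk z v u
    refine h bb hbb R P' hR (xs i e) (vx i e) (fun l => κ l * (1 / (n : ℝ) ^ 2)) k d C0 P
      (fun l => W0 i e (T l) J0) (fun l => T l (e + 1)) (fun l => T l e)
      (fun l z t u x => Qf l z (tsw t) u x) (fun l z t v x => Pf l z (tsw t) v x)
      (fun l z t u v => CW l z (tsw t) v u) (fun l z t u v => CU l z (tsw t) v u)
      (fun l ω => B l (ω.1, ω.2.2, ω.2.1)) ρ r Hr G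
      (fun l v u => g l e u v) F A g1 d1 g2 d2 mb H0 m0 Θ ?_ ?_ hm0 Z ?_
    · refine ⟨fun l => mul_nonneg (HC.kap0 l) hn2, HC.hC, HC.hP, HC.hna, HC.hR, HC.hRd, HC.ρ0,
        HC.r0, HC.Hr0, HC.G0, ?_, ?_, ?_, ?_, ?_, ?_, ?_, ?_, ?_, ?_, ?_, ?_⟩
      · intro l z v u hv hu hy
        rw [hY] at hy
        exact mem_W0 hu hv (HC.hJ hy)
      · intro l z t v u hne
        rw [hY]
        obtain ⟨a1, a2, a3⟩ := HC.supW l z (tsw t) u v hne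
        exact ⟨a2, a1, a3⟩
      · intro l z t v u hne
        rw [hY]
        obtain ⟨a1, a2, a3⟩ := HC.supU l z (tsw t) u v hne
        exact ⟨a2, a1, a3⟩
      · intro l z hz t hM m hd hm a b ha hb
        rw [hY] at hM
        exact opC_tr (HC.opW l z hz (tsw t) (Mx_tr hM) m hd hm b a hb ha)
      · intro l z hz t hM m hd hm a b ha hb
        rw [hY] at hM
        exact opC_tr (HC.opU l z hz (tsw t) (Mx_tr hM) m hd hm b a hb ha)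
      · intro l z hz t hM a' f
        rw [hY] at hM
        exact HC.majW l z hz (tsw t) (Mx_tr hM) a' f
      · intro l z hz t hM b' f
        rw [hY] at hM
        exact HC.majU l z hz (tsw t) (Mx_tr hM) b' f
      · intro l z hz t hM u hu
        rw [hY] at hM
        exact HC.colW l z hz (tsw t) (Mx_tr hM) u hu
      · intro l z hz t hM v hv
        rw [hY] at hM
        exact HC.rowU l z hz (tsw t) (Mx_tr hM) v hv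
      · intro l z hz t u hu v hv
        exact HC.ptW l z hz (tsw t) v hv u hu
      · intro l z hz t u hu v hv
        exact HC.ptU l z hz (tsw t) v hv u hu
      · rw [hY]
        refine le_trans (le_of_eq ?_) HC.enB
        refine Finset.sum_congr rfl fun l _ => ?_
        rw [mul_assoc]
        congr 2
        unfold BdE SE
        rw [Finset.sum_filter, Finset.sum_filter, Finset.sum_product, Finset.sum_product]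
        refine Finset.sum_congr rfl fun z _ => ?_
        rw [Finset.sum_product, Finset.sum_product, Finset.sum_comm]
    · refine ⟨HD.A0, HD.g10, HD.d10, HD.g20, HD.d20, HD.H00, hl2, ?_, ?_, ?_, ?_⟩
      · rw [hk.2]; exact HD.nc1
      · rw [hk.1]; exact HD.nc2
      · refine le_trans (le_of_eq ?_) HD.gm
        refine Finset.sum_congr rfl fun l _ => ?_
        rw [mul_assoc, Finset.sum_comm]
      · rw [vx_fro]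
        exact fun l v hv u hu y => HD.gh l u hu v hv y
    · intro y hy
      rw [hrep y hy, lnF_eq κ i e n P J0 T g _ (HC.hP hy), hY]
      refine Finset.sum_congr rfl fun l _ => ?_
      congr 1
      rw [Finset.sum_filter, Finset.sum_filter, Finset.sum_product, Finset.sum_product]
      refine Finset.sum_congr rfl fun z hz => ?_
      rw [Finset.sum_product, Finset.sum_product, Finset.sum_comm]
      refine Finset.sum_congr rfl fun v hv => Finset.sum_congr rfl fun u hu => ?_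
      by_cases hzy : Ye i e z u v = y
      · rw [if_pos hzy, if_pos hzy]
        have e1 : tcell (xs i e) (vx i e) k P z v u = tsw (tcY (Ye i e) k P z u v) := by
          have e2 : tcell (xs i e) (vx i e) k P z v u =
              tcY (fun z v u => Ye i e z u v) k P z v u := by
            unfold tcell tcY
            rw [hY]
          rw [e2]
          exact tcY_tr (by rw [hzy]; exact HC.hP hy)
        unfold ZF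
        simp only [e1, tsw_tsw]
        congr 1
        exact Finset.sum_congr rfl fun x _ => mul_comm _ _
      · rw [if_neg hzy, if_neg hzy]

/-- **the same, bound additive in the energy** -/
theorem fc_word1 (hfq : FqP) : ∃ K : ℝ, 0 ≤ K ∧ ∃ κ0 : ℕ, ∀ (bb : ℤ), bb = -1 ∨ bb = -7 →
    ∀ (R : Finset Nd) (P' : Nd), IsRegion R P' → ∀ (i : Fin 4) (e : Fin 3) {ι τ : Type}
    [Fintype ι] [Fintype τ] [DecidableEq τ] (κ : ι → ℝ) (n k d C0 : ℕ) (P J0 : Nd)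
    (T : ι → Fin 3 → Finset ℤ) (Pf Qf : ι → ℤ → ℕ × ℤ × ℤ → ℤ → τ → ℂ)
    (CU CW : ι → ℤ → ℕ × ℤ × ℤ → ℤ → ℤ → ℂ) (B : ι → ℤ × ℤ × ℤ → ℂ) (ρ r Hr G : ℝ)
    (g : ι → Fin 3 → ℤ → ℤ → ℂ) (F : Fin 4 → ℤ → ℂ) (A g1 d1 g2 d2 mb H0 : ℝ) (m0 : ℕ) (Θ : ℝ),
    FC κ i e n k κ0 d C0 P P' J0 T R Pf Qf CU CW B ρ r Hr G →
    SKD κ i e n T R g F A g1 d1 g2 d2 mb H0 → (∀ p ∈ R, m0 ≤ p.1) →
    SKZ Θ A g1 d1 g2 d2 ρ r Hr 0 mb H0 →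
    (∀ y ∈ iv P', F (xs i e) y = LnF (fun l => BdE i e (T l) J0) (fun _ => poE i e)
      (fun _ => 1 / (n : ℝ) ^ 2) (fun l ω => g l e ω.2.1 ω.2.2) κ P (ZF i e k P Pf Qf) y) →
    ∑ p ∈ R, ∑ x ∈ adm p.1 p.2, ‖Lbox (2 ^ p.1) bb F x‖ ≤
      (K * (1 + Real.log Θ) * Real.sqrt (Real.sqrt (XS A g1 d1 ρ r Hr m0 Θ⁻¹ *
        XS A g2 d2 ρ r Hr m0 Θ⁻¹) * (A * mb + Θ⁻¹))) * (1 + G) * 2 ^ (P'.1 + 7) := by
  classical
  obtain ⟨K, hK, κ0, h⟩ := fc_word hfq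
  refine ⟨3 * K, by positivity, κ0, ?_⟩
  intro bb hbb R P' hR i e ι τ _ _ _ κ n k d C0 P J0 T Pf Qf CU CW B ρ r Hr G g F A g1 d1 g2 d2
    mb H0 m0 Θ HC HD hm0 Z hrep
  have hΘ0 : 0 < Θ := by linarith [Z.Θ1]
  have hG := HC.G0
  have hA0 := HD.A0
  have hmb : 0 ≤ mb := (Finset.sum_nonneg fun l _ => mul_nonneg (HC.kap0 l)
    (mul_nonneg (by positivity) (Finset.sum_nonneg fun _ _ =>
      Finset.sum_nonneg fun _ _ => sq_nonneg _))).trans HD.gm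
  have hΘ' : Θ ≤ max Θ G := le_max_left _ _
  have hΘ'0 : 0 < max Θ G := lt_of_lt_of_le hΘ0 hΘ'
  have h1 := h bb hbb R P' hR i e κ n k d C0 P J0 T Pf Qf CU CW B ρ r Hr G g F A g1 d1 g2 d2
    mb H0 m0 (max Θ G) HC HD hm0
    ⟨Z.Θ1.trans hΘ', Z.A.trans hΘ', Z.g1.trans hΘ', Z.d1.trans hΘ', Z.g2.trans hΘ',
      Z.d2.trans hΘ', Z.ρ.trans hΘ', Z.r.trans hΘ', Z.Hr.trans hΘ', le_max_right _ _,
      Z.mb.trans hΘ', Z.H0.trans hΘ'⟩ hrep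
  set X1 := XS A g1 d1 ρ r Hr m0 Θ⁻¹ with hX1
  set X2 := XS A g2 d2 ρ r Hr m0 Θ⁻¹ with hX2
  have hX10 : 0 ≤ X1 := SKtx69.XS_nonneg HD.d10 HC.r0 HC.Hr0 (by positivity)
  have hX20 : 0 ≤ X2 := SKtx69.XS_nonneg HD.d20 HC.r0 HC.Hr0 (by positivity)
  have hinv : (max Θ G)⁻¹ ≤ Θ⁻¹ := inv_anti₀ hΘ0 hΘ'
  have hinv0 : 0 < (max Θ G)⁻¹ := inv_pos.2 hΘ'0
  have hx1 : XS A g1 d1 ρ r Hr m0 (max Θ G)⁻¹ ≤ X1 := SKtx69.XS_mono hinv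
  have hx2 : XS A g2 d2 ρ r Hr m0 (max Θ G)⁻¹ ≤ X2 := SKtx69.XS_mono hinv
  have hx10 : 0 ≤ XS A g1 d1 ρ r Hr m0 (max Θ G)⁻¹ :=
    SKtx69.XS_nonneg HD.d10 HC.r0 HC.Hr0 hinv0.le
  have hx20 : 0 ≤ XS A g2 d2 ρ r Hr m0 (max Θ G)⁻¹ :=
    SKtx69.XS_nonneg HD.d20 HC.r0 HC.Hr0 hinv0.le
  have hl' : 0 ≤ Real.log (max Θ G) := Real.log_nonneg (Z.Θ1.trans hΘ')
  set Bd := Real.sqrt (Real.sqrt (X1 * X2) * (A * mb + Θ⁻¹)) with hBd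
  have hBd0 : 0 ≤ Bd := Real.sqrt_nonneg _
  have h2 : Real.sqrt (Real.sqrt (XS A g1 d1 ρ r Hr m0 (max Θ G)⁻¹ *
      XS A g2 d2 ρ r Hr m0 (max Θ G)⁻¹) * (G + (max Θ G)⁻¹) * (A * mb + (max Θ G)⁻¹)) ≤
      Bd * Real.sqrt (G + (max Θ G)⁻¹) := by
    rw [hBd, ← Real.sqrt_mul (by positivity)]
    refine Real.sqrt_le_sqrt ?_
    have h3 : Real.sqrt (XS A g1 d1 ρ r Hr m0 (max Θ G)⁻¹ *
      XS A g2 d2 ρ r Hr m0 (max Θ G)⁻¹) ≤ Real.sqrt (X1 * X2) :=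
      Real.sqrt_le_sqrt (mul_le_mul hx1 hx2 hx20 hX10)
    calc Real.sqrt (XS A g1 d1 ρ r Hr m0 (max Θ G)⁻¹ *
          XS A g2 d2 ρ r Hr m0 (max Θ G)⁻¹) * (G + (max Θ G)⁻¹) * (A * mb + (max Θ G)⁻¹)
        ≤ Real.sqrt (X1 * X2) * (G + (max Θ G)⁻¹) * (A * mb + Θ⁻¹) := by gcongr
      _ = _ := by ring
  have h4 := SKtx69.sc_le Z.Θ1 hG
  refine h1.trans ?_
  calc K * (Real.sqrt (Real.sqrt (XS A g1 d1 ρ r Hr m0 (max Θ G)⁻¹ *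
          XS A g2 d2 ρ r Hr m0 (max Θ G)⁻¹) * (G + (max Θ G)⁻¹) * (A * mb + (max Θ G)⁻¹)) *
          (1 + Real.log (max Θ G)) * 2 ^ (P'.1 + 7))
      ≤ K * (Bd * Real.sqrt (G + (max Θ G)⁻¹) * (1 + Real.log (max Θ G)) * 2 ^ (P'.1 + 7)) := by
        gcongr
    _ = K * Bd * (Real.sqrt (G + (max Θ G)⁻¹) * (1 + Real.log (max Θ G))) * 2 ^ (P'.1 + 7) := by
        ring
    _ ≤ K * Bd * (3 * (1 + Real.log Θ) * (1 + G)) * 2 ^ (P'.1 + 7) := by gcongr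
    _ = _ := by ring

end Crest.Agent.R079.FrWx360
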