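import Crest.Agent.R079.NrB_228
import Crest.Agent.R079.ErK_255
import Crest.Agent.R079.FrY_360

/-! R079 (helper360), T5b of note 1820: **the concrete frames of one sub-top for a family of op-atoms**
(228's `PF`, `QF`, `CUF`, `CWF`, `ZF` with one label set for all gauges) and the representation of
255's frame letter `PsiK` on the grid nodes.

* `PfX, QfX, CUX, CWX, BX` : the data of `FC`;
* `psX` : the frame letter; `stX` : the letter of one ladder step on one grid node;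
* `psX_rep` : `psX = ∑ (a+1) stX a q0` on `iv q0`. -/

set_option autoImplicit false
set_option linter.unusedSectionVars false

namespace Crest.Agent.R079.FrZx360

open Finset Crest.Agent.R079.Grid Crest.Agent.R079.Growth Crest.Agent.R079.QRed
  Crest.Agent.R079.Qh249 Crest.Agent.R079.QVar181
  Crest.Agent.R079.TWin Crest.Agent.R079.Glue Crest.Agent.R079.Cel159
  Crest.Agent.R079.SplSx69 Crest.Agent.R079.ThA159
open Crest.Agent.R079.GaFx371 (Ye W0 SE BdE poE mem_W0)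
open Crest.Agent.R079.ElS440 (Ln LnF)
open Crest.Agent.R079.NrBx228 (PF QF CUF CWF)
open Crest.Agent.R079.ErKx255 (PsiK ZL mkL wsum)
open Crest.Agent.R079.FrWx360 (tcY FC)
open Crest.Agent.R079.NrDx276 (stp)

section labels

variable {n : ℕ}

/-- union of the label boxes -/
def U2 (T : Fin n → Fin 3 → Finset ℤ) (e : Fin 3) : Finset ℤ :=
  Finset.univ.biUnion fun l => T l (e + 1)

lemma mem_U2 {T : Fin n → Fin 3 → Finset ℤ} {e : Fin 3} {l : Fin n} {x : ℤ}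
    (h : x ∈ T l (e + 1)) : x ∈ U2 T e :=
  Finset.mem_biUnion.2 ⟨l, Finset.mem_univ _, h⟩

/-- the labels -/
abbrev LbX (T : Fin n → Fin 3 → Finset ℤ) (e : Fin 3) : Type := {x : ℤ // x ∈ U2 T e}

end labels

section

variable {n : ℕ} (i : Fin 4) (e : Fin 3) (kc j0 n0 Kl : ℕ) (W : Finset Nd) (K I : Nd)
  (T : Fin n → Fin 3 → Finset ℤ) (g : Fin n → Fin 3 → ℤ → ℤ → ℂ) (r : ℕ → ℝ) (gg : Fn)

/-- gauge -/
def gaX (l : Fin n) : ℤ × ℤ × ℤ → ℂ := fun ω => g l e ω.2.1 ω.2.2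

/-- norm -/
noncomputable def NX (l : Fin n) : Nd → (ℤ × ℤ × ℤ → ℂ) → ℝ :=
  NmP (SE i e (T l) I) Cel159.cf (okc (Ye i e) kc)

/-- left factor -/
noncomputable def PfX (a : ℕ) (q0 : Nd) (l : Fin n) (z : ℤ) (t : ℕ × ℤ × ℤ) (u : ℤ)
    (x : LbX T e) : ℂ :=
  if x.1 ∈ T l (e + 1) then
    PF (Ye i e) kc j0 n0 Kl W K (BdE i e (T l) I) (poE i e) (NX i e kc I T l) (gaX e g l) r gg
      (T l e) (T l (e + 1)) a q0 z t u x.1 else 0

/-- right factor -/
noncomputable def QfX (a : ℕ) (q0 : Nd) (l : Fin n) (z : ℤ) (t : ℕ × ℤ × ℤ) (v : ℤ)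
    (x : LbX T e) : ℂ :=
  if x.1 ∈ T l (e + 1) then
    QF (Ye i e) kc j0 n0 Kl W K (BdE i e (T l) I) (poE i e) (NX i e kc I T l) (gaX e g l) r gg
      (T l e) (T l (e + 1)) a q0 z t v x.1 else 0

/-- dominating kernel, rows -/
noncomputable def CUX (a : ℕ) (q0 : Nd) (l : Fin n) (z : ℤ) (t : ℕ × ℤ × ℤ) (u v : ℤ) : ℂ :=
  CUF (Ye i e) kc n0 W K (BdE i e (T l) I) (poE i e) (NX i e kc I T l) (gaX e g l) r gg a q0 z t
    u v

/-- dominating kernel, columns -/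
noncomputable def CWX (a : ℕ) (q0 : Nd) (l : Fin n) (z : ℤ) (t : ℕ × ℤ × ℤ) (u v : ℤ) : ℂ :=
  CWF (Ye i e) kc n0 W K (BdE i e (T l) I) (poE i e) (NX i e kc I T l) (gaX e g l) r gg a q0 z t
    u v

/-- the glued competitor -/
noncomputable def BX (a : ℕ) (l : Fin n) : ℤ × ℤ × ℤ → ℂ :=
  Bgl (BdE i e (T l) I) (poE i e) (NX i e kc I T l) (gaX e g l) (r a) W K gg

/-- 228's frame kernel of the step `a` -/
noncomputable def zfX (Q : Finset Nd) (l : Fin n) (a : ℕ) : ℤ × ℤ × ℤ → ℂ :=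
  NrBx228.ZF (Ye i e) kc j0 n0 Kl W K (BdE i e (T l) I) (poE i e) (NX i e kc I T l) (gaX e g l) r
    gg (T l e) (T l (e + 1)) Q a

/-- **the frame letter** (255's `PsiK` with `ZL`), `n1` = side of the top `I` -/
noncomputable def psX (κ : Fin n → ℝ) (n1 : ℕ) (Lay : Finset ℤ) (Q : Finset Nd) : Fn :=
  PsiK (fun l => BdE i e (T l) I) (fun _ => poE i e) (fun _ => 1 / (n1 : ℝ) ^ 2) (gaX e g) κ Kl K
    (ZL (fun l => BdE i e (T l) I) (fun _ => poE i e) (NX i e kc I T) (gaX e g) (fun _ => r) Kl K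
      gg Lay (zfX i e kc j0 n0 Kl W K I T g r gg Q))

/-- the letter of the step `a` on the grid node `q0` -/
noncomputable def stX (κ : Fin n → ℝ) (n1 : ℕ) (a : ℕ) (q0 : Nd) : Fn :=
  LnF (fun l => BdE i e (T l) I) (fun _ => poE i e) (fun _ => 1 / (n1 : ℝ) ^ 2)
    (fun l ω => g l e ω.2.1 ω.2.2) κ K (FrWx360.ZF i e kc K
      (PfX i e kc j0 n0 Kl W K I T g r gg a q0) (QfX i e kc j0 n0 Kl W K I T g r gg a q0))

variable {i e kc j0 n0 Kl W K I T g r gg}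

/-- the two forms of the frame kernel on a grid node -/
lemma zf_eq {Q : Finset Nd} (hQ : ∀ q ∈ Q, ∀ q' ∈ Q, q ≠ q' → Disjoint (iv q) (iv q')) {q0 : Nd}
    (hq : q0 ∈ Q) (l : Fin n) (a : ℕ) {ω : ℤ × ℤ × ℤ} (hω : Ye i e ω.1 ω.2.1 ω.2.2 ∈ iv q0) :
    zfX i e kc j0 n0 Kl W K I T g r gg Q l a ω = FrWx360.ZF i e kc K
      (PfX i e kc j0 n0 Kl W K I T g r gg a q0) (QfX i e kc j0 n0 Kl W K I T g r gg a q0) l ω := by
  classical
  unfold zfX NrBx228.ZF FrWx360.ZF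
  rw [Finset.sum_eq_single q0 (fun q hq' hne => ?_) (fun h => absurd hq h), if_pos hω]
  · have h1 : ∀ x : LbX T e, PfX i e kc j0 n0 Kl W K I T g r gg a q0 l ω.1
        (tcY (Ye i e) kc K ω.1 ω.2.1 ω.2.2) ω.2.1 x * QfX i e kc j0 n0 Kl W K I T g r gg a q0 l ω.1
        (tcY (Ye i e) kc K ω.1 ω.2.1 ω.2.2) ω.2.2 x = if x.1 ∈ T l (e + 1) then
        PF (Ye i e) kc j0 n0 Kl W K (BdE i e (T l) I) (poE i e) (NX i e kc I T l) (gaX e g l) r gg
          (T l e) (T l (e + 1)) a q0 ω.1 (mcell (Ye i e) kc K ω).2 ω.2.1 x.1 *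
        QF (Ye i e) kc j0 n0 Kl W K (BdE i e (T l) I) (poE i e) (NX i e kc I T l) (gaX e g l) r gg
          (T l e) (T l (e + 1)) a q0 ω.1 (mcell (Ye i e) kc K ω).2 ω.2.2 x.1 else 0 := by
      intro x
      unfold PfX QfX tcY
      split_ifs with h
      · rfl
      · rw [mul_zero]
    simp only [h1]
    have h2 : ∀ f : ℤ → ℂ, ∑ x : LbX T e, (if x.1 ∈ T l (e + 1) then f x.1 else 0) =
        ∑ k ∈ T l (e + 1), f k := by
      intro f
      rw [Finset.sum_coe_sort (U2 T e) (fun x => if x ∈ T l (e + 1) then f x else 0),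
        ← Finset.sum_filter]
      refine Finset.sum_congr ?_ fun _ _ => rfl
      ext x
      rw [Finset.mem_filter]
      exact ⟨fun h => h.2, fun h => ⟨mem_U2 h, h⟩⟩
    exact (h2 _).symm
  · rw [if_neg]
    intro h
    exact Finset.disjoint_left.1 (hQ q hq' q0 hq hne) h hω

/-- **the frame letter on a grid node** -/
theorem psX_rep {κ : Fin n → ℝ} {n1 : ℕ} {Lay : Finset ℤ} {Q : Finset Nd}
    (hQ : ∀ q ∈ Q, ∀ q' ∈ Q, q ≠ q' → Disjoint (iv q) (iv q')) {q0 : Nd} (hq : q0 ∈ Q)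
    (hL : ∀ y ∈ iv q0, y ∉ Lay) {y : ℤ} (hy : y ∈ iv q0) :
    psX i e kc j0 n0 Kl W K I T g r gg κ n1 Lay Q y =
      ∑ a : Fin Kl, ((a : ℕ) + 1 : ℂ) * stX i e kc j0 n0 Kl W K I T g r gg κ n1 a q0 y := by
  classical
  unfold psX PsiK stX LnF
  simp only [Finset.mul_sum]
  rw [Finset.sum_comm]
  refine Finset.sum_congr rfl fun l _ => ?_
  have h1 : ∀ a : Fin Kl, ((a : ℕ) + 1 : ℂ) * ((κ l : ℂ) * Ln (BdE i e (T l) I) (poE i e)
      (1 / (n1 : ℝ) ^ 2) (fun ω => g l e ω.2.1 ω.2.2) K (FrWx360.ZF i e kc K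
        (PfX i e kc j0 n0 Kl W K I T g r gg a q0) (QfX i e kc j0 n0 Kl W K I T g r gg a q0) l) y) =
      (κ l : ℂ) * (((1 / (n1 : ℝ) ^ 2 : ℝ) : ℂ) * ∑ ω ∈ (BdE i e (T l) I K).filter
        (fun ω => poE i e ω = y), starRingEnd ℂ (g l e ω.2.1 ω.2.2) *
          (((a : ℕ) + 1 : ℂ) * FrWx360.ZF i e kc K (PfX i e kc j0 n0 Kl W K I T g r gg a q0)
            (QfX i e kc j0 n0 Kl W K I T g r gg a q0) l ω)) := by
    intro a
    unfold Ln
    have h2 : ∀ ω, starRingEnd ℂ (g l e ω.2.1 ω.2.2) *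
          (((a : ℕ) + 1 : ℂ) * FrWx360.ZF i e kc K (PfX i e kc j0 n0 Kl W K I T g r gg a q0)
            (QfX i e kc j0 n0 Kl W K I T g r gg a q0) l ω) = ((a : ℕ) + 1 : ℂ) *
          (starRingEnd ℂ (g l e ω.2.1 ω.2.2) * FrWx360.ZF i e kc K
            (PfX i e kc j0 n0 Kl W K I T g r gg a q0)
            (QfX i e kc j0 n0 Kl W K I T g r gg a q0) l ω) := fun ω => by ring
    simp only [h2]
    rw [← Finset.mul_sum]
    ring
  simp only [h1]
  rw [← Finset.mul_sum, ← Finset.mul_sum]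
  congr 1
  unfold Ln
  rw [Finset.sum_comm]
  congr 1
  refine Finset.sum_congr rfl fun ω hω => ?_
  rw [← Finset.mul_sum]
  have hpos : poE i e ω = y := (Finset.mem_filter.1 hω).2
  have hYq : Ye i e ω.1 ω.2.1 ω.2.2 ∈ iv q0 := by
    have : Ye i e ω.1 ω.2.1 ω.2.2 = y := hpos
    rw [this]; exact hy
  show starRingEnd ℂ (gaX e g l ω) * _ = starRingEnd ℂ (gaX e g l ω) * _
  congr 1
  unfold wsum
  rw [← Fin.sum_univ_eq_sum_range (fun q => ((q : ℂ) + 1) * ZL (fun l => BdE i e (T l) I)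
    (fun _ => poE i e) (NX i e kc I T) (gaX e g) (fun _ => r) Kl K gg Lay
    (zfX i e kc j0 n0 Kl W K I T g r gg Q) l q ω) Kl]
  refine Finset.sum_congr rfl fun a _ => ?_
  congr 1
  unfold ZL mkL
  rw [if_neg (by show poE i e ω ∉ Lay; rw [hpos]; exact hL y hy)]
  exact zf_eq hQ hq l a hYq

end

end Crest.Agent.R079.FrZx360
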