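import Crest.Agent.R079.ErM_255
import Crest.Agent.R079.ErN_255
import Crest.Agent.R079.FrZa_360

/-! R079, note 1922 (T8) (helper255), last file: THE ERROR HALF OF `InES` with 360's names.

* `zf_top` : 228's frame kernel vanishes at the last step;
* `psX_eq` : 360's `psX` is `PsiF`;
* `PsX` : the frame letters of one generation;
* **`hE_psX`** : energy of the error letters from 228's cells (`CellLt` with `zfX`). -/

set_option autoImplicit false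

namespace Crest.Agent.R079.ErOx255

open Finset Crest.Agent.R079.Grid Crest.Agent.R079.Growth Crest.Agent.R079.QRed
  Crest.Agent.R079.TWin
open Crest.Agent.R079.RelW653 (vl NMP Jv Dv)
open Crest.Agent.R079.RelV653 Crest.Agent.R079.HWx323 Crest.Agent.R079.Chn110
open Crest.Agent.R079.TRec Crest.Agent.R079.T6bx252
open Crest.Agent.R079.FLDx263 Crest.Agent.R079.GnSx263 Crest.Agent.R079.GnNx263
  Crest.Agent.R079.PFx263 Crest.Agent.R079.GaDx571 Crest.Agent.R079.GaFx371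
  Crest.Agent.R079.WS112 Crest.Agent.R079.WS0112 Crest.Agent.R079.POx263
  Crest.Agent.R079.OpS276 Crest.Agent.R079.GnUx263 Crest.Agent.R079.SbWx795
open Crest.Agent.R079.ErLx255 Crest.Agent.R079.ErMx255 Crest.Agent.R079.ErNx255
open Crest.Agent.R079.FrZx360 (zfX psX gaX NX)
open Crest.Agent.R079.NrBx228

/-- the frame kernel vanishes at the last step -/
theorem zf_top {n : ℕ} (i : Fin 4) (e : Fin 3) (kc j0 n0 Kl : ℕ) (V : Finset Nd) (K I : Nd)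
    (T : Fin n → Fin 3 → Finset ℤ) (g : Fin n → Fin 3 → ℤ → ℤ → ℂ) (r : ℕ → ℝ) (G : Fn)
    (Q : Finset Nd) (l : Fin n) {q : ℕ} (hq : q + 1 = Kl) (ω : ℤ × ℤ × ℤ) :
    zfX i e kc j0 n0 Kl V K I T g r G Q l q ω = 0 := by
  classical
  unfold zfX NrBx228.ZF
  refine Finset.sum_eq_zero fun q0 _ => ?_
  split_ifs with h
  · refine Finset.sum_eq_zero fun k _ => ?_
    unfold PF Pu dd
    rw [if_neg (by omega)]
    simp
  · rfl

/-- 360's frame letter is `PsiF` -/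
theorem psX_eq {n : ℕ} (i : Fin 4) (e : Fin 3) (kc j0 n0 Kl : ℕ) (V : Finset Nd) (K I : Nd)
    (T : Fin n → Fin 3 → Finset ℤ) (g : Fin n → Fin 3 → ℤ → ℤ → ℂ) (r : ℕ → ℝ) (G : Fn)
    (mu : Fin n → ℝ) (La kap : ℝ) (Lay : Finset ℤ) (Q : Finset Nd) :
    psX i e kc j0 n0 Kl V K I T g r G (fun l => kap * mu l / La) (sd I) Lay Q =
      PsiF i e T g mu I La kap kc Kl r K G Lay (zfX i e kc j0 n0 Kl V K I T g r G Q) := rfl

/-- **the frame letters of one generation** (both slots), `V` = ranges -/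
noncomputable def PsX (i : Fin 4) {n : ℕ} (T : Fin n → Fin 3 → Finset ℤ)
    (g : Fin n → Fin 3 → ℤ → ℤ → ℂ) (mu : Fin n → ℝ) (I : Nd) (La kap : ℝ) (kc Kl : ℕ) (r : ℕ → ℝ)
    (es : Fin 2 → Fin 3) (f : Fin 2 → Nd → Fn) (V : Nd → Finset Nd) (k0 j0 n0 : ℕ)
    (c : Fin 2) (K : Nd) : Fn :=
  psX i (es c) kc j0 n0 Kl (V K) K I T g r (gl (V K) (f c)) (fun l => kap * mu l / La) (sd I)
    (LayK (V K) k0 j0 n0 K) (QQ (V K) k0 j0 n0 K)

/-- 228's input for both letters at the top `K` -/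
def CellsX (i : Fin 4) {n : ℕ} (T : Fin n → Fin 3 → Finset ℤ)
    (g : Fin n → Fin 3 → ℤ → ℤ → ℂ) (I : Nd) (kc Kl : ℕ) (r : ℕ → ℝ)
    (es : Fin 2 → Fin 3) (f : Fin 2 → Nd → Fn) (V : Nd → Finset Nd) (k0 j0 n0 : ℕ) (C1 C2 : ℝ)
    (K : Nd) : Prop :=
  ∀ c, CellLt i (es c) T g I kc Kl r (V K) K (gl (V K) (f c)) (LayK (V K) k0 j0 n0 K)
    (zfX i (es c) kc j0 n0 Kl (V K) K I T g r (gl (V K) (f c)) (QQ (V K) k0 j0 n0 K)) C1 C2

section

variable {P : Prm} {d ε k q3 : ℝ} {i m e e' : Fin 4} {N : ℕ} {B t : ℝ} {W : Finset Nd} {I : Nd}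
  {F : Fin 4 → Fn} {xy : Fin 2 → Fin 4} {bb : ℤ} {E : ℕ → ℤ → ℂ} {R : Finset Nd} {J : Nd}
  {Z : Fin 2 → Fn} {v : Fin 3} {n : ℕ} {T : Fin n → Fin 3 → Finset ℤ}
  {g : Fin n → Fin 3 → ℤ → ℤ → ℂ} {al : Fin n → ℤ → ℝ} {mu : Fin n → ℝ} {es : Fin 2 → Fin 3}

/-- **THE ERROR HALF OF `InES`** -/
theorem hE_psX (h : Su P d ε k q3 i m e e' N B t W I F xy bb E R J Z v n T g al mu es) (hk : 0 ≤ k)
    {kap m0 η : ℝ} (hkap : 0 ≤ kap) (kc Kl : ℕ) {r : ℕ → ℝ} (hr : ∀ q, 0 ≤ r q)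
    (hrt : ∀ q, q + 1 = Kl → 2 ^ 7 * Real.sqrt (HfC P i t * HtC P i t) * 3 ≤ r q)
    (hm0 : 0 ≤ m0) (hη1 : η ≤ m0) (hηh : η ≤ 1) {f : Fin 2 → Nd → Fn}
    (hf : ∀ c', NMP (fun _ _ => True) (PhiC P ε i T g mu I t kap kc Kl r es c') (Z c') η (f c'))
    {k0 j0 n0 : ℕ} (hj0 : 4 ≤ j0) {C1 C2 : ℝ} (hC1 : 0 ≤ C1)
    (hC2 : 0 ≤ C2) {K : Nd} (hK : K ∈ R)
    (hcell : CellsX i T g I kc Kl r es f
      (VG R (PhiC P ε i T g mu I t kap kc Kl r es) Z η f m0) k0 j0 n0 C1 C2 K) :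
    ∑ c', len K * av K (ek Z f (VG R (PhiC P ε i T g mu I t kap kc Kl r es) Z η f m0)
      (PsX i T g mu I (LaC P ε i t) kap kc Kl r es f
        (VG R (PhiC P ε i T g mu I t kap kc Kl r es) Z η f m0) k0 j0 n0) c' K) ^ 2 ≤
      lnum kap Kl C1 C2 m0 * len K := by
  set Φ := PhiC P ε i T g mu I t kap kc Kl r es with hΦ
  have hLa := LaC_pos P ε i h.t0
  have hHf := (HfC_pos P i h.t0).le
  have hP : ∀ c', PenC 0 (fun _ _ => True) (Φ c') := fun c' =>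
    penPhi h.fam (es c') hkap hLa kc Kl hr
  set V := VG R Φ Z η f m0 with hV
  have hVf : Full (V K) K := VK_full h.full hK
  have hη0 : 0 ≤ η := (hf 0).eta
  have hKI : iv K ⊆ iv I := (h.full.reg.1 K hK).trans h.JI
  refine hE_su h hk hkap kc Kl hr hm0 hη1 hηh hf k0 j0 n0
    (fun c K => zfX i (es c) kc j0 n0 Kl (V K) K I T g r (gl (V K) (f c)) (QQ (V K) k0 j0 n0 K))
    hC1 hC2 hK fun c' => ?_
  have hs : av K (gl (V K) (f c')) ≤ 3 := by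
    have h3 := av_gl_le (hP c') (hf c') hVf hVf.top
    have h4 := h.avZ hk c' K hK
    have h5 := Growth.av_nonneg K (Z c')
    have h6 : av K (gl (V K) (f c')) ^ 2 ≤ 6 := by nlinarith
    nlinarith [Growth.av_nonneg K (gl (V K) (f c'))]
  exact cellIn_of h.fam hHf (h.es_ne c') hVf hVf.top hKI hs hr hrt hj0
    (fun l q hq ω => zf_top i (es c') kc j0 n0 Kl (V K) K I T g r _ _ l hq ω) hC1 hC2 (hcell c')

end

end Crest.Agent.R079.ErOx255
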