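import Crest.Agent.R079.HWb_323
import Crest.Agent.R079.RelV_653

/-! R079, Step I (helper263): the FIELD of the tree lemma (HW_323 / HN_255) for a finite family of letters
with near-minimisers (`RelV_653.NMP`).

* `DP` : drift of one letter (`Dv + η` on the inner levels), `dvP` : deviation;
* `fldH_fam` : `FldH` for the sums over the family;
* `dr_fam` : total drift below every node `p` of the region, `≤ len p (∑ av p X ^ 2 + small)`;
* `gdP_rg` : `GdP` on the range of a top; `hD_rg` : total drift of the value on the range (hypothesis of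
  the band theorem). -/

set_option autoImplicit false

namespace Crest.Agent.R079.FLDx263

open Finset Crest.Agent.R079.Grid Crest.Agent.R079.Growth Crest.Agent.R079.QRed
  Crest.Agent.R079.Qh249 Crest.Agent.R079.QVar181 Crest.Agent.R079.TWin
open Crest.Agent.R079.RelW653 (vl NMP Jv Dv av_par sum_av' lf_sum_eq')
open Crest.Agent.R079.RelV653 Crest.Agent.R079.HWx323 Crest.Agent.R079.Chn110
open Crest.Agent.R079.GLA110 Crest.Agent.R079.Qe292

/-- drift of one letter -/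
noncomputable def DP (J : Nd → ℝ) (η : ℝ) : Nd → ℝ
  | (0, _) => 0
  | (m + 1, l) => Dv J η (m + 1, l) + η

/-- deviation of one letter -/
noncomputable def dvP (f : Nd → Fn) (I p : Nd) : ℝ := (1 / 2) * av p (fun y => f I y - f p y) ^ 2

lemma dvP_nonneg (f : Nd → Fn) (I p : Nd) : 0 ≤ dvP f I p := by unfold dvP; positivity

lemma dvP_self (f : Nd → Fn) (I : Nd) : dvP f I I = 0 := by
  unfold dvP av av2
  simp

lemma DP_eq (J : Nd → ℝ) (η : ℝ) {q : Nd} (h : q.1 ≠ 0) : DP J η q = Inc J q + 2 * η := by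
  obtain ⟨m, l⟩ := q
  rcases m with _ | m
  · exact absurd rfl h
  · show (J (m, 2 * l) + J (m, 2 * l + 1)) / 2 - J (m + 1, l) + η + η =
      (J (m, 2 * l) + J (m, 2 * l + 1)) / 2 - J (m + 1, l) + 2 * η
    ring

lemma Dv_le_DP (J : Nd → ℝ) {η : ℝ} (hη : 0 ≤ η) : ∀ q, Dv J η q ≤ DP J η q
  | (0, _) => le_refl _
  | (m + 1, l) => by
    show Dv J η (m + 1, l) ≤ Dv J η (m + 1, l) + η
    linarith

/-- inner nodes are not on the bottom level -/
lemma inner_ne {W : Finset Nd} {q : Nd} (hq : q ∈ W \ lf W) : q.1 ≠ 0 := by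
  rw [Finset.mem_sdiff] at hq
  obtain ⟨r, _, _, h3⟩ := inner_lt hq.1 hq.2
  omega

lemma acc_mono' {D D' : Nd → ℝ} (h : ∀ q, D q ≤ D' q) (I p : Nd) : acc D I p ≤ acc D' I p :=
  Finset.sum_le_sum fun _ _ => h _

section one

variable {c : ℝ} {K : Nd → Fn → Prop} {Φ : Nd → Fn → ℝ} {X : Fn} {η : ℝ} {f : Nd → Fn}

lemma DP_nonneg (hP : PenC c K Φ) (h : NMP K Φ X η f) (q : Nd) : 0 ≤ DP (Jv Φ X f) η q :=
  (Dv_nonneg hP h q).trans (Dv_le_DP _ h.eta q)

/-- sum of the drift over the inner nodes of a full region -/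
lemma sum_DP {W : Finset Nd} {I : Nd} (hW : Full W I) (J : Nd → ℝ) (η : ℝ) :
    ∑ q ∈ W \ lf W, len q * DP J η q =
      (SL W I J - len I * J I) + 2 * η * ∑ q ∈ W \ lf W, len q := by
  rw [← SN_Inc hW _ I hW.top, SN_top hW, Finset.mul_sum, ← Finset.sum_add_distrib]
  refine Finset.sum_congr rfl fun q hq => ?_
  rw [DP_eq J η (inner_ne hq)]
  ring

/-- one letter: deviations at the leaves are paid by the drift of the inner nodes -/
theorem dv_le (hP : PenC c K Φ) (h : NMP K Φ X η f) {W : Finset Nd} {I : Nd} (hW : Full W I) :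
    ∑ p ∈ lf W, len p * dvP f I p ≤ ∑ q ∈ W \ lf W, len q * DP (Jv Φ X f) η q := by
  classical
  by_cases hl : I ∈ lf W
  · have h1 : ∀ p ∈ lf W, p = I := by
      intro p hp
      have h2 := mem_lf.1 hp
      have := (mem_lf.1 hl).2 p h2.1 (hW.reg.1 p h2.1)
      exact this
    have h2 : ∑ p ∈ lf W, len p * dvP f I p = 0 := by
      refine Finset.sum_eq_zero fun p hp => ?_
      rw [h1 p hp, dvP_self, mul_zero]
    rw [h2]
    exact Finset.sum_nonneg fun q _ => mul_nonneg (Growth.len_pos q).le (DP_nonneg hP h q)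
  · have h1 := dev_leP hP h hW hW.top
    have h2 : ∑ p ∈ lf W, len p * dvP f I p = SL W I (fun L => dvP f I L) := lf_sum_eq' hW _
    have h3 : SL W I (fun L => (1 / 2) * av L (fun y => f I y - f L y) ^ 2) =
        SL W I (fun L => dvP f I L) := rfl
    rw [h3] at h1
    rw [h2, sum_DP hW]
    have h4 : len I ≤ ∑ q ∈ W \ lf W, len q :=
      Finset.single_le_sum (f := fun q => len q) (fun q _ => (Growth.len_pos q).le)
        (Finset.mem_sdiff.2 ⟨hW.top, hl⟩)
    have h5 := mul_le_mul_of_nonneg_left h4 (show 0 ≤ 2 * η by linarith [h.eta])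
    linarith

/-- the part of a region below a node -/
lemma full_below {R : Finset Nd} {J : Nd} (hR : Full R J) {p : Nd} (hp : p ∈ R) :
    Full (Wf R p 0) p :=
  Wf_full hR hp (Nat.zero_le _)

/-- total drift of one letter below a node -/
theorem dr_one (hP : PenC c K Φ) (h : NMP K Φ X η f) {R : Finset Nd} {J : Nd} (hR : Full R J)
    {p : Nd} (hp : p ∈ R) :
    dr R (DP (Jv Φ X f) η) p ≤ len p * (av p X ^ 2 + c + η * (1 + 2 * p.1)) := by
  classical
  set W := Wf R p 0 with hWd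
  have hW : Full W p := full_below hR hp
  have hmW : ∀ q, q ∈ W ↔ q ∈ R ∧ iv q ⊆ iv p := by
    intro q
    rw [hWd, mem_Wf]
    exact ⟨fun h => ⟨h.1, h.2.1⟩, fun h => ⟨h.1, h.2, Nat.zero_le _⟩⟩
  have hinner : (R \ lf R).filter (fun q => iv q ⊆ iv p) = W \ lf W := by
    ext q
    rw [Finset.mem_filter, Finset.mem_sdiff, Finset.mem_sdiff, hmW]
    constructor
    · rintro ⟨⟨h1, h2⟩, h3⟩
      refine ⟨⟨h1, h3⟩, fun h4 => h2 ?_⟩
      rw [mem_lf] at h4 ⊢
      exact ⟨h1, fun r hr hrq => h4.2 r ((hmW r).2 ⟨hr, hrq.trans h3⟩) hrq⟩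
    · rintro ⟨⟨h1, h3⟩, h2⟩
      refine ⟨⟨h1, fun h4 => h2 ?_⟩, h3⟩
      rw [mem_lf] at h4 ⊢
      exact ⟨(hmW q).2 ⟨h1, h3⟩, fun r hr hrq => h4.2 r ((hmW r).1 hr).1 hrq⟩
  unfold dr
  rw [hinner, sum_DP hW]
  have h1 : SL W p (Jv Φ X f) ≤ len p * (av p X ^ 2 + c + η) := by
    have h2 : SL W p (Jv Φ X f) ≤ SL W p (fun L => av L X ^ 2 + (c + η)) :=
      SL_mono fun L _ _ => by linarith [Jv_le (X := X) (f := f) hP h L]
    have h3 : SL W p (fun L => av L X ^ 2 + (c + η)) = SL W p (fun L => av L X ^ 2) +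
        SL W p (fun _ => c + η) := SL_add W p _ _
    rw [h3, SL_av hW X p hW.top, SL_const hW _ p hW.top] at h2
    linarith
  have h4 : 0 ≤ len p * Jv Φ X f p := mul_nonneg (Growth.len_pos p).le (Jv_nonneg hP p)
  have h5 := mul_le_mul_of_nonneg_left (len_lv hW) (show 0 ≤ 2 * η by linarith [h.eta])
  linarith

/-- on the range of a top: total drift of the value -/
theorem hD_of_drift (_hP : PenC c K Φ) (h : NMP K Φ X η f) {W : Finset Nd} {I : Nd} (hW : Full W I)
    {δ : ℝ} (hd : ∑ q ∈ W \ lf W, len q * DP (Jv Φ X f) η q ≤ δ * len I) :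
    SL W I (Jv Φ X f) ≤ len I * (Jv Φ X f I + δ) := by
  rw [sum_DP hW] at hd
  have h1 : 0 ≤ 2 * η * ∑ q ∈ W \ lf W, len q :=
    mul_nonneg (by linarith [h.eta]) (Finset.sum_nonneg fun q _ => (Growth.len_pos q).le)
  linarith

end one

section fam

variable {ι : Type*} [Fintype ι] {c : ι → ℝ} {K : ι → Nd → Fn → Prop} {Φ : ι → Nd → Fn → ℝ}
  {X : ι → Fn} {η : ℝ} {f : ι → Nd → Fn}

/-- drift of the family -/
noncomputable def DF (Φ : ι → Nd → Fn → ℝ) (X : ι → Fn) (f : ι → Nd → Fn) (η : ℝ) (q : Nd) : ℝ :=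
  ∑ i, DP (Jv (Φ i) (X i) (f i)) η q

/-- deviation of the family -/
noncomputable def dvF (f : ι → Nd → Fn) (I p : Nd) : ℝ := ∑ i, dvP (f i) I p

lemma DF_nonneg (hP : ∀ i, PenC (c i) (K i) (Φ i)) (h : ∀ i, NMP (K i) (Φ i) (X i) η (f i))
    (q : Nd) : 0 ≤ DF Φ X f η q :=
  Finset.sum_nonneg fun i _ => DP_nonneg (hP i) (h i) q

/-- **the field of the tree lemma** -/
theorem fldH_fam (hP : ∀ i, PenC (c i) (K i) (Φ i)) (h : ∀ i, NMP (K i) (Φ i) (X i) η (f i))
    (R : Finset Nd) : FldH R (DF Φ X f η) (dvF f) where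
  D0 := DF_nonneg hP h
  dev0 I p := Finset.sum_nonneg fun i _ => dvP_nonneg (f i) I p
  self I := Finset.sum_eq_zero fun i _ => dvP_self (f i) I
  le I _ W hW _ := by
    unfold dvF DF
    simp only [Finset.mul_sum]
    rw [Finset.sum_comm, Finset.sum_comm (s := W \ lf W)]
    exact Finset.sum_le_sum fun i _ => dv_le (hP i) (h i) hW

/-- total drift below a node -/
theorem dr_fam (hP : ∀ i, PenC (c i) (K i) (Φ i)) (h : ∀ i, NMP (K i) (Φ i) (X i) η (f i))
    {R : Finset Nd} {J : Nd} (hR : Full R J) {p : Nd} (hp : p ∈ R) :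
    dr R (DF Φ X f η) p ≤ len p * ∑ i, (av p (X i) ^ 2 + c i + η * (1 + 2 * p.1)) := by
  have h1 : dr R (DF Φ X f η) p = ∑ i, dr R (DP (Jv (Φ i) (X i) (f i)) η) p := by
    unfold dr DF
    simp only [Finset.mul_sum]
    rw [Finset.sum_comm]
  rw [h1, Finset.mul_sum]
  exact Finset.sum_le_sum fun i _ => dr_one (hP i) (h i) hR hp

/-- on the range of a top every letter has an admissible window -/
theorem gdP_of_gs (hP : ∀ i, PenC (c i) (K i) (Φ i)) (h : ∀ i, NMP (K i) (Φ i) (X i) η (f i))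
    {W : Finset Nd} {I : Nd} {τ : ℝ} (hg : ∀ p ∈ W, gs (DF Φ X f η) (dvF f) I p ≤ τ) (i : ι) :
    GdP (Φ i) (X i) η (f i) τ W I := by
  intro p hp
  have h1 := hg p hp
  unfold gs at h1
  have h2 : dvP (f i) I p ≤ dvF f I p :=
    Finset.single_le_sum (f := fun i => dvP (f i) I p) (fun i _ => dvP_nonneg (f i) I p)
      (Finset.mem_univ i)
  have h3 : acc (Dv (Jv (Φ i) (X i) (f i)) η) I p ≤ acc (DF Φ X f η) I p := by
    refine acc_mono' (fun q => ?_) I p
    refine (Dv_le_DP _ (h i).eta q).trans ?_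
    exact Finset.single_le_sum (f := fun i => DP (Jv (Φ i) (X i) (f i)) η q)
      (fun i _ => DP_nonneg (hP i) (h i) q) (Finset.mem_univ i)
  have h4 : dvP (f i) I p = (1 / 2) * av p (fun y => f i I y - f i p y) ^ 2 := rfl
  linarith

/-- `GdP` on the range -/
theorem gdP_rg (hP : ∀ i, PenC (c i) (K i) (Φ i)) (h : ∀ i, NMP (K i) (Φ i) (X i) η (f i))
    (R : Finset Nd) {V : Nd → Finset Nd} {τ : ℝ} (hτ : 0 ≤ τ) (I : Nd) (d : ℕ) (i : ι) :
    GdP (Φ i) (X i) η (f i) τ (rg V (DF Φ X f η) (dvF f) τ I d) I :=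
  gdP_of_gs hP h (fun _ hp => rg_good (fldH_fam hP h R) hτ hp) i

/-- total drift of the value of each letter on the range of a top -/
theorem hD_rg (hP : ∀ i, PenC (c i) (K i) (Φ i)) (h : ∀ i, NMP (K i) (Φ i) (X i) η (f i))
    {V : Nd → Finset Nd} {τ δ : ℝ} {I : Nd} (hV : Full (V I) I) {d : ℕ} (hd : d ≤ I.1)
    (hr : rd V (DF Φ X f η) (dvF f) τ I d ≤ δ * len I) (i : ι) :
    SL (rg V (DF Φ X f η) (dvF f) τ I d) I (Jv (Φ i) (X i) (f i)) ≤
      len I * (Jv (Φ i) (X i) (f i) I + δ) := by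
  refine hD_of_drift (hP i) (h i) (rg_full hV hd) (le_trans ?_ hr)
  unfold rd
  refine Finset.sum_le_sum fun q _ => mul_le_mul_of_nonneg_left ?_ (Growth.len_pos q).le
  exact Finset.single_le_sum (f := fun i => DP (Jv (Φ i) (X i) (f i)) η q)
    (fun i _ => DP_nonneg (hP i) (h i) q) (Finset.mem_univ i)

end fam

end Crest.Agent.R079.FLDx263
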