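import Crest.Agent.R079.TauM_253
import Crest.Agent.R079.GnU_263
import Crest.Agent.R079.B0N_253

/-! R079, Step I, (G) words (helper253): UNTRUNCATION of the three (G) totals for the setup `Su` of
`GnU_263`: all three letters (glued letter, partner, killer letter of the slot `m`) are truncated at the
same height `H * 3`.

* `av_gl3`  : averages `≤ 3` of the glued letters inside the windows;
* `v4_swap` : the two free slots exchanged;
* **`untr3`** : the three totals against the truncated totals, in the slots of 571's `g_static` /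
  `g_moving`. -/

set_option autoImplicit false

namespace Crest.Agent.R079.GaVx253

open Finset Crest.Agent.R079.Grid Crest.Agent.R079.Growth Crest.Agent.R079.QRed
  Crest.Agent.R079.TWin
open Crest.Agent.R079.RelW653 (NMP)
open Crest.Agent.R079.RelV653 (PenC)
open Crest.Agent.R079.TRec Crest.Agent.R079.T6bx252 Crest.Agent.R079.AsmA844
  Crest.Agent.R079.OpS276 Crest.Agent.R079.POx263 Crest.Agent.R079.GnMx45
  Crest.Agent.R079.WS112 Crest.Agent.R079.WS0112 Crest.Agent.R079.PFx263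
  Crest.Agent.R079.GaDx571 Crest.Agent.R079.GaTx571 Crest.Agent.R079.TKx248
  Crest.Agent.R079.TauWx253 Crest.Agent.R079.TauMx253 Crest.Agent.R079.GnUx263
  Crest.Agent.R079.ThA159

lemma v4_swap (bb : ℤ) (ε : ℕ → ℤ → ℂ) (F : Fin 4 → Fn) {a b : Fin 4} (hab : a ≠ b) (X Y : Fn)
    (p : Nd) : v4 bb ε F a b X Y p = v4 bb ε F b a Y X p := by
  unfold v4
  rw [Function.update_comm hab X Y F]

/-- averages of the glued near-minimisers, `av ≤ 1` data -/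
lemma av_gl3 {c : Fin 2 → ℝ} {Φ : Fin 2 → Nd → Fn → ℝ} {Z : Fin 2 → Fn} {η : ℝ}
    {f : Fin 2 → Nd → Fn} {Kw : Fin 2 → Nd → Fn → Prop}
    (hP : ∀ c', PenC (c c') (Kw c') (Φ c')) (hc : ∀ c', c c' ≤ 1)
    (hf : ∀ c', NMP (Kw c') (Φ c') (Z c') η (f c')) (hη : η ≤ 1)
    {R W : Finset Nd} {K : Nd} (hZ : ∀ c', ∀ p ∈ R, av p (Z c') ≤ 1) (hW : Full W K) (hWR : W ⊆ R)
    (c' : Fin 2) {p : Nd} (hp : p ∈ W) : av p (gl W (f c')) ≤ 3 := by
  have h1 := FLDx263.av_gl_le (hP c') (hf c') hW hp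
  have h2 : av p (Z c') ^ 2 ≤ 1 := by
    have := pow_le_pow_left₀ (Growth.av_nonneg _ _) (hZ c' p (hWR hp)) 2
    linarith
  have h3 := hc c'
  have h4 : av p (gl W (f c')) ^ 2 ≤ 3 ^ 2 := by linarith
  exact (sq_le_sq₀ (Growth.av_nonneg _ _) (by norm_num)).1 h4

/-- **UNTRUNCATION OF THE THREE TOTALS** -/
theorem untr3 : ∃ Ku : ℝ, 0 ≤ Ku ∧ ∀ {P : Prm} {d ε k q3 : ℝ} {i m e e' : Fin 4} {N : ℕ} {B t : ℝ}
    {W : Finset Nd} {I : Nd} {F : Fin 4 → Fn} {xy : Fin 2 → Fin 4} {bb : ℤ} {E : ℕ → ℤ → ℂ}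
    {R : Finset Nd} {J : Nd} {Z : Fin 2 → Fn} {v : Fin 3} {n : ℕ} {T : Fin n → Fin 3 → Finset ℤ}
    {g : Fin n → Fin 3 → ℤ → ℤ → ℂ} {al : Fin n → ℤ → ℝ} {mu : Fin n → ℝ} {es : Fin 2 → Fin 3},
    Su P d ε k q3 i m e e' N B t W I F xy bb E R J Z v n T g al mu es → 0 ≤ k →
    ∀ (H : ℝ), 2 ≤ H → ∀ (S : Finset Nd) (Wn : Nd → Finset Nd),
    (∀ K ∈ S, Full (Wn K) K ∧ Wn K ⊆ R) → ∀ (f : Fin 2 → Nd → Fn),
    (∀ c, ∀ K ∈ S, ∀ p ∈ Wn K, av p (gl (Wn K) (f c)) ≤ 3) →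
    ‖∑ K ∈ S, ∑ p ∈ Wn K, v4 bb E F (xy 0) (xy 1) (gl (Wn K) (f 0)) (Z 1) p‖ ≤
      ‖∑ K ∈ S, ∑ p ∈ Wn K, v4 bb E (Function.update F m (fun y => tau (H * 3) (F m y)))
        (i.succAbove (es 0 + 2)) (i.succAbove (es 1 + 2))
        (fun y => tau (H * 3) (gl (Wn K) (f 0) y)) (fun y => tau (H * 3) (Z 1 y)) p‖ +
      Ku * (1 + (Real.log (1 + HfC P i t * HtC P i t) + Real.log H)) * (LaC P ε i t / H) *
        ∑ K ∈ S, len K ∧
    ‖∑ K ∈ S, ∑ p ∈ Wn K, v4 bb E F (xy 0) (xy 1) (Z 0) (gl (Wn K) (f 1)) p‖ ≤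
      ‖∑ K ∈ S, ∑ p ∈ Wn K, v4 bb E (Function.update F m (fun y => tau (H * 3) (F m y)))
        (i.succAbove (es 1 + 2)) (i.succAbove (es 0 + 2))
        (fun y => tau (H * 3) (gl (Wn K) (f 1) y)) (fun y => tau (H * 3) (Z 0 y)) p‖ +
      Ku * (1 + (Real.log (1 + HfC P i t * HtC P i t) + Real.log H)) * (LaC P ε i t / H) *
        ∑ K ∈ S, len K ∧
    ‖∑ K ∈ S, ∑ p ∈ Wn K, v4 bb E F (xy 0) (xy 1) (gl (Wn K) (f 0)) (gl (Wn K) (f 1)) p‖ ≤
      ‖∑ K ∈ S, ∑ p ∈ Wn K, v4 bb E (Function.update F m (fun y => tau (H * 3) (F m y)))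
        (i.succAbove (es 0 + 2)) (i.succAbove (es 1 + 2))
        (fun y => tau (H * 3) (gl (Wn K) (f 0) y)) (fun y => tau (H * 3) (gl (Wn K) (f 1) y)) p‖ +
      Ku * (1 + (Real.log (1 + HfC P i t * HtC P i t) + Real.log H)) * (LaC P ε i t / H) *
        ∑ K ∈ S, len K := by
  obtain ⟨K1, hK1, hT⟩ := tallW_of
  obtain ⟨K2, hK2, hM⟩ := word_tauM
  refine ⟨54 * K1 + 27 * K2, by positivity, ?_⟩
  intro P d ε k q3 i m e e' N B t W I F xy bb E R J Z v n T g al mu es h hk H hH S Wn hS f hgl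
  have ht := h.t0
  have hHt := HtC_pos P i ht
  have hHf := HfC_pos P i ht
  have hLa := LaC_pos P ε i ht
  have hH0 : 0 < H := by linarith
  set Lg : ℝ := 1 + (Real.log (1 + HfC P i t * HtC P i t) + Real.log H) with hLg
  have hL1 : 0 ≤ Real.log (1 + HfC P i t * HtC P i t) :=
    Real.log_nonneg (by nlinarith [mul_pos hHf hHt])
  have hL2 : Real.log (H / 2) ≤ Real.log H := Real.log_le_log (by linarith) (by linarith)
  have hL3 : 0 ≤ Real.log H := Real.log_nonneg (by linarith)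
  have hLg0 : 0 ≤ Lg := by linarith
  have hS0 : ∀ K ∈ S, Full (Wn K) K ∧ Wn K ⊆ W := fun K hK => ⟨(hS K hK).1, (hS K hK).2.trans h.sub⟩
  have hlen : 0 ≤ ∑ K ∈ S, len K := Finset.sum_nonneg fun K _ => (Growth.len_pos K).le
  have hLH : 0 ≤ LaC P ε i t / H := div_nonneg hLa.le hH0.le
  -- the one-step estimate
  have key : ∀ x y : Fin 4, Oth i m x y → ∀ X Y : Nd → Fn,
      (∀ K ∈ S, ∀ p ∈ Wn K, av p (X K) ≤ 3) → (∀ K ∈ S, ∀ p ∈ Wn K, av p (Y K) ≤ 3) →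
      ‖∑ K ∈ S, ∑ p ∈ Wn K, v4 bb E F x y (X K) (Y K) p‖ ≤
        ‖∑ K ∈ S, ∑ p ∈ Wn K, v4 bb E (Function.update F m (fun y => tau (H * 3) (F m y))) x y
          (fun z => tau (H * 3) (X K z)) (fun z => tau (H * 3) (Y K z)) p‖ +
        (54 * K1 + 27 * K2) * Lg * (LaC P ε i t / H) * ∑ K ∈ S, len K := by
    intro x y hO X Y hX hY
    have hB := GenT934.bil_v4 bb E F hO.ab
    have t1 := hT i m e e' h.dst h.adm W I h.W_full F (HtC P i t) (HfC P i t) (LaC P ε i t) H hHt hHf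
      (by linarith) h.prc.mix (h.avm hk) x y hO
    have t2 := hT i m e e' h.dst h.adm W I h.W_full F (HtC P i t) (HfC P i t) (LaC P ε i t) (H / 2)
      hHt hHf (by linarith) h.prc.mix (h.avm hk) x y hO
    have w1 := word_tau hB hH0 t1 t2 (a := 3) (by norm_num) S Wn hS0 X Y hX hY
    have w2 := hM i m e e' h.dst h.adm W I I h.W_full (Finset.Subset.refl _) F (HtC P i t)
      (HfC P i t) (LaC P ε i t) H hHt hHf hLa.le hH h.prc.mix x y hO 3 (by norm_num)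
      (fun p hp => (h.avm hk p hp).trans (by norm_num)) S Wn hS0 3 3 (by norm_num) (by norm_num)
      (fun K z => tau (H * 3) (X K z)) (fun K z => tau (H * 3) (Y K z))
      (fun K hK p hp => (av_tau (by linarith) (X K)).trans (hX K hK p hp))
      (fun K hK p hp => (av_tau (by linarith) (Y K)).trans (hY K hK p hp))
    have e3 : LaC P ε i t / (H / 2) = 2 * (LaC P ε i t / H) := by field_simp
    rw [e3] at w1
    have h5 : K1 * (1 + (Real.log (1 + HfC P i t * HtC P i t) + Real.log (H / 2))) ≤ K1 * Lg :=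
      mul_le_mul_of_nonneg_left (by linarith) hK1
    have h6 := mul_le_mul_of_nonneg_right h5 (mul_nonneg (by norm_num : (0 : ℝ) ≤ 2) hLH)
    have h7 : 2 * (K1 * Lg * (LaC P ε i t / H) +
        K1 * (1 + (Real.log (1 + HfC P i t * HtC P i t) + Real.log (H / 2))) *
          (2 * (LaC P ε i t / H))) * 3 ^ 2 ≤ 54 * K1 * Lg * (LaC P ε i t / H) := by
      have h8 : 0 ≤ K1 * Lg * (LaC P ε i t / H) := by positivity
      nlinarith
    have h9 := mul_le_mul_of_nonneg_right h7 hlen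
    refine w1.trans ((add_le_add w2 h9).trans (le_of_eq ?_))
    ring
  have hZ3 : ∀ c, ∀ K ∈ S, ∀ p ∈ Wn K, av p (Z c) ≤ 3 := fun c K hK p hp =>
    (h.avZ hk c p ((hS K hK).2 hp)).trans (by norm_num)
  have s0 := h.slot 0
  have s1 := h.slot 1
  refine ⟨?_, ?_, ?_⟩
  · rw [s0, s1]
    have h1 := key (xy 0) (xy 1) h.oth (fun K => gl (Wn K) (f 0)) (fun _ => Z 1) (hgl 0) (hZ3 1)
    beta_reduce at h1
    exact h1
  · rw [s0, s1]
    have hO' : Oth i m (xy 1) (xy 0) :=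
      ⟨h.oth.bi, h.oth.bm, h.oth.ai, h.oth.am, h.oth.ab.symm⟩
    have h1 := key (xy 1) (xy 0) hO' (fun K => gl (Wn K) (f 1)) (fun _ => Z 0) (hgl 1) (hZ3 0)
    beta_reduce at h1
    have e1 : ∑ K ∈ S, ∑ p ∈ Wn K, v4 bb E F (xy 0) (xy 1) (Z 0) (gl (Wn K) (f 1)) p =
        ∑ K ∈ S, ∑ p ∈ Wn K, v4 bb E F (xy 1) (xy 0) (gl (Wn K) (f 1)) (Z 0) p :=
      Finset.sum_congr rfl fun K _ => Finset.sum_congr rfl fun p _ =>
        v4_swap bb E F h.oth.ab _ _ p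
    rw [e1]
    exact h1
  · rw [s0, s1]
    have h1 := key (xy 0) (xy 1) h.oth (fun K => gl (Wn K) (f 0)) (fun K => gl (Wn K) (f 1)) (hgl 0)
      (hgl 1)
    beta_reduce at h1
    exact h1

end Crest.Agent.R079.GaVx253
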