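import Crest.Agent.R079.GnU_263

/-! R079, T7 (helper112): QUANTIFIER LAYER on `GnU_263.genP_of` + `gn1_of`.

* `Par` : the functions of `t` (weight, cells, ladder, levels, `ω`);
* `InG` : the three (G) totals; `InES` : one family of frame letters with small errors and per-window
  (S) bounds;
* **`genP_of_in`** : `InG` + `InES` => `GenP`. -/

set_option autoImplicit false
set_option linter.unusedVariables false

namespace Crest.Agent.R079.NJ112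

open Finset Crest.Agent.R079.Grid Crest.Agent.R079.Growth Crest.Agent.R079.QRed
  Crest.Agent.R079.TWin
open Crest.Agent.R079.RelW653 (vl NMP Jv Dv)
open Crest.Agent.R079.RelV653 Crest.Agent.R079.HWx323 Crest.Agent.R079.Chn110
open Crest.Agent.R079.TRec Crest.Agent.R079.T6bx252 Crest.Agent.R079.Tailx726 Crest.Agent.R079.Stk
  Crest.Agent.R079.AsmA844
open Crest.Agent.R079.GnMx45 (en en_nonneg)
open Crest.Agent.R079.FLDx263 Crest.Agent.R079.GnSx263 Crest.Agent.R079.GnNx263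
  Crest.Agent.R079.PFx263 Crest.Agent.R079.GaDx571 Crest.Agent.R079.GaFx371
  Crest.Agent.R079.WS112 Crest.Agent.R079.WS0112 Crest.Agent.R079.POx263
  Crest.Agent.R079.OpS276 Crest.Agent.R079.GnUx263 Crest.Agent.R079.SbWx795

/-- parameters of a generation, functions of `t` -/
structure Par where
  kap : ℝ → ℝ
  kc : ℝ → ℕ
  Kl : ℝ → ℕ
  r : ℝ → ℕ → ℝ
  k0 : ℕ
  j0 : ℝ → ℕ
  n0 : ℝ → ℕ
  om : ℝ → ℝ

/-- structural conditions -/
structure Par.Ok (p : Par) (t0 : ℝ) : Prop where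
  kap0 : ∀ t, 0 < t → t ≤ t0 → 0 ≤ p.kap t
  r0 : ∀ t, 0 < t → t ≤ t0 → ∀ q, 0 ≤ p.r t q
  k4 : 4 ≤ p.k0
  kj : ∀ t, 0 < t → t ≤ t0 → p.k0 ≤ p.j0 t
  om0 : ∀ t, 0 < t → t ≤ t0 → 0 < p.om t

/-- **the (G) totals** -/
def InG (P : Prm) (d ε k q3 : ℝ) (i m e e' : Fin 4) (c1 gG t0 K nE : ℝ) (p : Par) : Prop :=
  ∀ {N : ℕ} {B t : ℝ} {W : Finset Nd} {I : Nd} {F : Fin 4 → Fn} {xy : Fin 2 → Fin 4}
    {bb : ℤ} {E : ℕ → ℤ → ℂ} {R : Finset Nd} {J : Nd} {Z : Fin 2 → Fn} {v : Fin 3} {n : ℕ}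
    {T : Fin n → Fin 3 → Finset ℤ} {g : Fin n → Fin 3 → ℤ → ℤ → ℂ} {al : Fin n → ℤ → ℝ}
    {mu : Fin n → ℝ} {es : Fin 2 → Fin 3},
    Su P d ε k q3 i m e e' N B t W I F xy bb E R J Z v n T g al mu es → t ≤ t0 →
    ∃ η0 : ℝ, 0 < η0 ∧ ∀ η, 0 < η → η ≤ η0 → ∀ f : Fin 2 → Nd → Fn,
      (∀ c', NMP (fun _ _ => True)
        (PhiC P ε i T g mu I t (p.kap t) (p.kc t) (p.Kl t) (p.r t) es c') (Z c') η (f c')) →
      ∀ (S : Finset Nd) (W' Rg : Nd → Finset Nd) (Er : Nd → Nd → ℝ),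
        TreeO R J (DF (PhiC P ε i T g mu I t (p.kap t) (p.kc t) (p.Kl t) (p.r t) es) Z f η)
          (dvF f) (t ^ c1) (p.om t) (2 ^ (p.k0 + 5)) S W' Rg len Er →
      dr R (DF (PhiC P ε i T g mu I t (p.kap t) (p.kc t) (p.Kl t) (p.r t) es) Z f η) J ≤
        (t ^ c1 + en J (Z 0) (Z 1)) * len J →
      ‖∑ w ∈ S.filter (fun w => idx S w ≤ nn t nE), ∑ q ∈ W' w,
        v4 bb E F (xy 0) (xy 1) (gl (W' w) (f 0)) (Z 1) q‖ ≤
        K * (1 + B) * t ^ gG * ((t ^ c1 + en J (Z 0) (Z 1)) * len J) ∧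
      ‖∑ w ∈ S.filter (fun w => idx S w ≤ nn t nE), ∑ q ∈ W' w,
        v4 bb E F (xy 0) (xy 1) (Z 0) (gl (W' w) (f 1)) q‖ ≤
        K * (1 + B) * t ^ gG * ((t ^ c1 + en J (Z 0) (Z 1)) * len J) ∧
      ‖∑ w ∈ S.filter (fun w => idx S w ≤ nn t nE), ∑ q ∈ W' w,
        v4 bb E F (xy 0) (xy 1) (gl (W' w) (f 0)) (gl (W' w) (f 1)) q‖ ≤
        K * (1 + B) * t ^ gG * ((t ^ c1 + en J (Z 0) (Z 1)) * len J)

/-- the five (S) words of a window -/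
def SWd (bb : ℤ) (E : ℕ → ℤ → ℂ) (F : Fin 4 → Fn) (xy : Fin 2 → Fin 4) (Z : Fin 2 → Fn)
    (f : Fin 2 → Nd → Fn) (Psi : Fin 2 → Nd → Fn) (W' : Nd → Finset Nd) (κS : ℝ) (w : Nd) : Prop :=
  ‖∑ q ∈ W' w, v4 bb E F (xy 0) (xy 1) (Psi 0 w) (Z 1) q‖ ≤ κS * len w ∧
  ‖∑ q ∈ W' w, v4 bb E F (xy 0) (xy 1) (Z 0) (Psi 1 w) q‖ ≤ κS * len w ∧
  ‖∑ q ∈ W' w, v4 bb E F (xy 0) (xy 1) (Psi 0 w) (gl (W' w) (f 1)) q‖ ≤ κS * len w ∧
  ‖∑ q ∈ W' w, v4 bb E F (xy 0) (xy 1) (gl (W' w) (f 0)) (Psi 1 w) q‖ ≤ κS * len w ∧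
  ‖∑ q ∈ W' w, v4 bb E F (xy 0) (xy 1) (Psi 0 w) (Psi 1 w) q‖ ≤ κS * len w

/-- **frames**: errors and per-window (S) bounds -/
def InES (P : Prm) (d ε k q3 : ℝ) (i m e e' : Fin 4) (c1 gS t0 K : ℝ) (p : Par) : Prop :=
  ∀ {N : ℕ} {B t : ℝ} {W : Finset Nd} {I : Nd} {F : Fin 4 → Fn} {xy : Fin 2 → Fin 4}
    {bb : ℤ} {E : ℕ → ℤ → ℂ} {R : Finset Nd} {J : Nd} {Z : Fin 2 → Fn} {v : Fin 3} {n : ℕ}
    {T : Fin n → Fin 3 → Finset ℤ} {g : Fin n → Fin 3 → ℤ → ℤ → ℂ} {al : Fin n → ℤ → ℝ}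
    {mu : Fin n → ℝ} {es : Fin 2 → Fin 3},
    Su P d ε k q3 i m e e' N B t W I F xy bb E R J Z v n T g al mu es → t ≤ t0 →
    ∃ η0 : ℝ, 0 < η0 ∧ ∀ η, 0 < η → η ≤ η0 → ∀ f : Fin 2 → Nd → Fn,
      (∀ c', NMP (fun _ _ => True)
        (PhiC P ε i T g mu I t (p.kap t) (p.kc t) (p.Kl t) (p.r t) es c') (Z c') η (f c')) →
      ∃ Psi : Fin 2 → Nd → Fn,
        (∀ Q ∈ R, 2 ^ (p.k0 + 3) * ∑ c', len Q * av Q (ek Z f (VG R
          (PhiC P ε i T g mu I t (p.kap t) (p.kc t) (p.Kl t) (p.r t) es) Z η f (t ^ c1))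
          Psi c' Q) ^ 2 ≤ p.om t * t ^ c1 * len Q) ∧
        ∀ w ∈ R, SWd bb E F xy Z f Psi (WG R
          (PhiC P ε i T g mu I t (p.kap t) (p.kc t) (p.Kl t) (p.r t) es) Z η f (t ^ c1) p.k0
          (p.j0 t) (p.n0 t) Psi (p.om t)) (K * t ^ gS) w

/-- `Gn1` is monotone -/
theorem gn1_mono {m0 ω Ct κ1 ω' Ct' κ1' : ℝ} {nS : ℕ} {xy : Fin 2 → Fin 4} {F : Fin 4 → Fn}
    {bb : ℤ} {E : ℕ → ℤ → ℂ} {R : Finset Nd} {J : Nd} {Z : Fin 2 → Fn} {Φ : Fin 2 → Nd → Fn → ℝ}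
    {η : ℝ} {f : Fin 2 → Nd → Fn} (hm : 0 < m0) (hdr : 0 ≤ dr R (DF Φ Z f η) J) (h1 : ω ≤ ω')
    (h2 : Ct ≤ Ct') (h3 : κ1 ≤ κ1') (h : Gn1 m0 ω Ct κ1 nS xy F bb E R J Z Φ η f) :
    Gn1 m0 ω' Ct' κ1' nS xy F bb E R J Z Φ η f := by
  obtain ⟨S, W', Rg, Psi, hT, w1, w2, w3⟩ := h
  have hen : 0 ≤ en J (Z 0) (Z 1) := en_nonneg _ _ _
  have hlJ : 0 ≤ len J := (Growth.len_pos J).le
  have hm3 : κ1 * (m0 + en J (Z 0) (Z 1)) * len J ≤ κ1' * (m0 + en J (Z 0) (Z 1)) * len J :=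
    mul_le_mul_of_nonneg_right (mul_le_mul_of_nonneg_right h3 (by positivity)) hlJ
  refine ⟨S, W', Rg, Psi, ⟨hT.part, hT.full, hT.sub, hT.good, fun K hK p hp =>
    (hT.err K hK p hp).trans (mul_le_mul_of_nonneg_right h1 hm.le), ?_, ?_⟩,
    w1.trans hm3, w2.trans hm3, w3.trans hm3⟩
  · exact hT.cnt.trans (mul_le_mul_of_nonneg_right h2 (by positivity))
  · exact hT.ene.trans (mul_le_mul_of_nonneg_right h2 (by positivity))

/-- **`GenP` from the two inputs** -/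
theorem genP_of_in {P : Prm} (hP : Ok0 P) {d ε k q3 : ℝ} {i m e e' : Fin 4}
    (hdd : Dst4 i m e e') {c1 a gE gG gS CM nE t0 K : ℝ} (ht01 : t0 ≤ 1) (hk : 0 < k) (hK : 1 ≤ K)
    (hc1 : 0 ≤ c1) (ha : 0 ≤ a) (hCM : (1 + ε) * (P.θ * P.g i) < CM) (h1 : gE ≤ gG)
    (h2 : gE ≤ gS - 2 * c1) (p : Par) (hp : p.Ok t0)
    (hom : ∀ t, 0 < t → t ≤ t0 → p.om t ≤ K * t ^ (-a))
    (hG : InG P d ε k q3 i m e e' c1 gG t0 K nE p)
    (hES : InES P d ε k q3 i m e e' c1 gS t0 K p) :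
    ∃ K' : ℝ, 1 ≤ K' ∧ GenP (QP P d i m e e' ε k) k q3 c1 a gE CM nE t0 K' i m := by
  obtain ⟨K2, hK2, hM⟩ := TrMx446.trivM_QP hP (d := d) hdd (ε := ε) (k := k)
    (a := CM - (1 + ε) * (P.θ * P.g i)) hk (by linarith)
  set K' : ℝ := K + K2 + 2 ^ (p.k0 + 5) + 6 * K * 2 ^ (p.k0 + 5) with hK'
  have h25 : (1 : ℝ) ≤ 2 ^ (p.k0 + 5) := one_le_pow₀ (by norm_num)
  have hK'1 : 1 ≤ K' := by
    have : 0 ≤ 6 * K * 2 ^ (p.k0 + 5) := by positivity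
    linarith
  have hKK : K ≤ K' := by
    have : 0 ≤ 6 * K * 2 ^ (p.k0 + 5) := by positivity
    linarith
  refine ⟨K', hK'1, ?_⟩
  refine genP_of hdd ht01 p.kap p.kc p.Kl p.r hp.kap0 hp.r0 ?_ ?_
  · -- trivial bound
    intro N B t W I F xy bb E R J Z v n T g al mu es hS htt W' I' hW' hWR
    have := hM t hS.t0 (htt.trans ht01) W I F hS.Q (xy 0) (xy 1) hS.oth bb E hS.adm R J hS.full
      hS.sub (Z 0) (Z 1) hS.sm W' I' hW' hWR
    refine this.trans (mul_le_mul_of_nonneg_right ?_ (Growth.len_pos I').le)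
    rw [show (1 + ε) * (P.θ * P.g i) + (CM - (1 + ε) * (P.θ * P.g i)) = CM by ring]
    refine mul_le_mul_of_nonneg_right ?_ (Real.rpow_nonneg hS.t0.le _)
    have : 0 ≤ 6 * K * 2 ^ (p.k0 + 5) := by positivity
    linarith
  · intro N B t W I F xy bb E R J Z v n T g al mu es hS htt
    have ht := hS.t0
    have ht1 : t ≤ 1 := htt.trans ht01
    obtain ⟨η1, hη1, hG1⟩ := hG hS htt
    obtain ⟨η2, hη2, hE1⟩ := hES hS htt
    set m0 : ℝ := t ^ c1 with hm0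
    have hm0p : 0 < m0 := Real.rpow_pos_of_pos ht _
    have hm01 : m0 ≤ 1 := Real.rpow_le_one ht.le ht1 hc1
    set η3 : ℝ := m0 / (2 * (1 + 2 * J.1)) with hη3
    have hJ0 : (0 : ℝ) ≤ J.1 := Nat.cast_nonneg _
    have hη3p : 0 < η3 := by positivity
    refine ⟨min η1 (min η2 η3), lt_min hη1 (lt_min hη2 hη3p), ?_⟩
    intro η hη hηη f hf
    obtain ⟨Psi, hE, hSW⟩ := hE1 η hη (hηη.trans ((min_le_right _ _).trans (min_le_left _ _))) f hf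
    have hGf := hG1 η hη (hηη.trans (min_le_left _ _)) f hf
    set Φ := PhiC P ε i T g mu I t (p.kap t) (p.kc t) (p.Kl t) (p.r t) es with hΦ
    have hPen : ∀ c', PenC 0 (fun _ _ => True) (Φ c') := fun c' =>
      penPhi hS.fam (es c') (hp.kap0 t ht htt) (LaC_pos P ε i ht) (p.kc t) (p.Kl t) (hp.r0 t ht htt)
    have hdr : dr R (DF Φ Z f η) J ≤ (m0 + en J (Z 0) (Z 1)) * len J := by
      refine (dr_fam hPen hf hS.full hS.full.top).trans ?_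
      rw [Fin.sum_univ_two]
      have h1 : η * (1 + 2 * (J.1 : ℝ)) ≤ m0 / 2 := by
        have h2 : η ≤ η3 := hηη.trans ((min_le_right _ _).trans (min_le_right _ _))
        have h3 : η * (1 + 2 * (J.1 : ℝ)) ≤ η3 * (1 + 2 * J.1) :=
          mul_le_mul_of_nonneg_right h2 (by positivity)
        refine h3.trans (le_of_eq ?_)
        rw [hη3]
        field_simp
      have h4 := (Growth.len_pos J).le
      unfold en
      nlinarith [mul_le_mul_of_nonneg_left h1 h4]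
    have hom0 := hp.om0 t ht htt
    have h23 : (0 : ℝ) < 2 ^ (p.k0 + 3) := by positivity
    have key := gn1_of (κG := K * (1 + B) * t ^ gG) (κS := K * t ^ gS) (nS := nn t nE)
      (Ct := 2 ^ (p.k0 + 5)) (L := p.om t / 2 ^ (p.k0 + 3)) (ω := p.om t) (Psi := Psi)
      (k0 := p.k0) (j0 := p.j0 t) (n0 := p.n0 t) (F := F) (bb := bb) (E := E)
      (κ1 := K * (1 + B) * t ^ gG + 6 * (K * t ^ gS) * 2 ^ (p.k0 + 5) / m0 ^ 2)
      hPen hf hS.full hm0p hm01 hp.k4 (hp.kj t ht htt) hS.oth.ab hom0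
      (le_of_eq (by field_simp)) le_rfl
      (mul_nonneg (by linarith) (Real.rpow_nonneg ht.le _)) le_rfl hdr
      (fun Q hQ => by
        have h1 := hE Q hQ
        have h2 : p.om t / 2 ^ (p.k0 + 3) * m0 * len Q = p.om t * m0 * len Q / 2 ^ (p.k0 + 3) := by
          ring
        rw [h2, le_div_iff₀ h23]
        linarith)
      (fun S hT => hGf S _ _ _ hT hdr) (fun w hw => hSW w hw)
    refine gn1_mono hm0p ?_ ?_ ?_ ?_ key
    · exact dr_nonneg (R := R) (DF_nonneg hPen hf) J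
    · exact (hom t ht htt).trans (mul_le_mul_of_nonneg_right hKK (Real.rpow_nonneg ht.le _))
    · have h1 : (1 : ℝ) ≤ t ^ (-a) := Real.one_le_rpow_of_pos_of_le_one_of_nonpos ht ht1 (by linarith)
      have h2 : (2 : ℝ) ^ (p.k0 + 5) ≤ K' := by
        have : 0 ≤ 6 * K * 2 ^ (p.k0 + 5) := by positivity
        linarith
      nlinarith
    · have hB := hS.B0
      have e1 : t ^ gG ≤ t ^ gE := Real.rpow_le_rpow_of_exponent_ge ht ht1 h1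
      have e2 : t ^ gS / m0 ^ 2 ≤ t ^ gE := by
        have e3 : m0 ^ 2 = t ^ (2 * c1) := by
          rw [hm0, sq, ← Real.rpow_add ht]
          congr 1
          ring
        rw [e3, ← Real.rpow_sub ht]
        exact Real.rpow_le_rpow_of_exponent_ge ht ht1 h2
      have e4 : 0 ≤ t ^ gE := Real.rpow_nonneg ht.le _
      have e5 : 6 * (K * t ^ gS) * 2 ^ (p.k0 + 5) / m0 ^ 2 =
          6 * K * 2 ^ (p.k0 + 5) * (t ^ gS / m0 ^ 2) := by ring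
      rw [e5]
      have e6 : 6 * K * 2 ^ (p.k0 + 5) * (t ^ gS / m0 ^ 2) ≤ 6 * K * 2 ^ (p.k0 + 5) * t ^ gE :=
        mul_le_mul_of_nonneg_left e2 (by positivity)
      have e7 : K * (1 + B) * t ^ gG ≤ K * (1 + B) * t ^ gE :=
        mul_le_mul_of_nonneg_left e1 (by positivity)
      have e8 : 6 * K * 2 ^ (p.k0 + 5) * t ^ gE ≤ 6 * K * 2 ^ (p.k0 + 5) * (1 + B) * t ^ gE := by
        have : 0 ≤ 6 * K * 2 ^ (p.k0 + 5) * t ^ gE := by positivity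
        nlinarith
      have e9 : (K + 6 * K * 2 ^ (p.k0 + 5)) * (1 + B) * t ^ gE ≤ K' * (1 + B) * t ^ gE := by
        refine mul_le_mul_of_nonneg_right (mul_le_mul_of_nonneg_right ?_ (by linarith)) e4
        linarith
      linarith

end Crest.Agent.R079.NJ112
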