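import Crest.Agent.R079.FrZb_360
import Crest.Agent.R079.ErM_255
import Crest.Agent.R079.NJ_112
import Crest.Agent.R079.GaV_253

/-! R079 (helper360), T5b of note 1820: **THE FIVE (S) WORDS OF ONE WINDOW** for the data `Su` of one
generation, frame letters `PsiS` of 255 with the frame kernels of 228.

* `FCX` : frame data of one ladder step on one grid node, concrete frames (T5c);
* `zS` : the frame kernels; `PsiZ` : the frame letters;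
* `av_psi` : averages of the frame letters;
* **`swd_su`** : `SWd` of `NJ_112` from `FCX`. -/

set_option autoImplicit false
set_option linter.unusedSectionVars false

namespace Crest.Agent.R079.FrZx360

open Finset Crest.Agent.R079.Grid Crest.Agent.R079.Growth Crest.Agent.R079.QRed
  Crest.Agent.R079.Qh249 Crest.Agent.R079.QVar181
  Crest.Agent.R079.TWin Crest.Agent.R079.Glue Crest.Agent.R079.SWc360 Crest.Agent.R079.Cel159
  Crest.Agent.R079.SplSx69 Crest.Agent.R079.ThA159 Crest.Agent.R079.SKx261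
open Crest.Agent.R079.NC237 (NC2 NCol nc2_of_ncol)
open Crest.Agent.R079.F2
open Crest.Agent.R079.GaFx371 (Ye W0 SE BdE poE mem_W0)
open Crest.Agent.R079.YeYlx263 (xs)
open Crest.Agent.R079.ElS440 (Ln LnF)
open Crest.Agent.R079.FrWx360 (tcY FC Nc win_tot fc_word1)
open Crest.Agent.R079.PFx263 (Fam)
open Crest.Agent.R079.GaDx571 (sd sd_pos penPhi)
open Crest.Agent.R079.NodeWx254 (node_g0)
open Crest.Agent.R079.RelW653 (NMP)
open Crest.Agent.R079.RelV653 (PenC)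
open Crest.Agent.R079.TRec Crest.Agent.R079.AsmA844 Crest.Agent.R079.WS112
  Crest.Agent.R079.WS0112 Crest.Agent.R079.POx263 Crest.Agent.R079.GnUx263
  Crest.Agent.R079.SbWx795 Crest.Agent.R079.ErMx255 Crest.Agent.R079.ErLx255
open Crest.Agent.R079.GnSx263 (ek)
open Crest.Agent.R079.NJ112 (SWd)
open Crest.Agent.R079.Qe292 (Wd mem_Wd)
open Crest.Agent.R079.OpS276 (Dst4)

open scoped ComplexConjugate

/-- **T5c**: frame data of the step `a` on the grid node `q0` of the sub-top `K` (range `V`, window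
`W'`), concrete frames -/
def FCX {n : ℕ} (i : Fin 4) (e : Fin 3) (kc j0 n0 Kl κ0 : ℕ) (V W' : Finset Nd) (K I : Nd)
    (T : Fin n → Fin 3 → Finset ℤ) (g : Fin n → Fin 3 → ℤ → ℤ → ℂ) (r : ℕ → ℝ) (gg : Fn)
    (κ : Fin n → ℝ) (ρ rr Hr G : ℝ) (a : ℕ) (q0 : Nd) : Prop :=
  ∃ (C0 : ℕ) (CU CW : Fin n → ℤ → ℕ × ℤ × ℤ → ℤ → ℤ → ℂ) (B : Fin n → ℤ × ℤ × ℤ → ℂ),
    FC κ i e (sd I) kc κ0 (dq V n0 q0) C0 K q0 I T (RQ W' n0 q0)
      (PfX i e kc j0 n0 Kl V K I T g r gg a q0) (QfX i e kc j0 n0 Kl V K I T g r gg a q0) CU CW B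
      ρ rr Hr G

lemma FCX.fce {n : ℕ} {i : Fin 4} {e : Fin 3} {kc j0 n0 Kl κ0 : ℕ} {V W' : Finset Nd} {K I : Nd}
    {T : Fin n → Fin 3 → Finset ℤ} {g : Fin n → Fin 3 → ℤ → ℤ → ℂ} {r : ℕ → ℝ} {gg : Fn}
    {κ : Fin n → ℝ} {ρ rr Hr G : ℝ} {a : ℕ} {q0 : Nd}
    (h : FCX i e kc j0 n0 Kl κ0 V W' K I T g r gg κ ρ rr Hr G a q0) :
    FCe κ i e (sd I) kc κ0 (dq V n0 q0) K q0 I T (RQ W' n0 q0) g ρ rr Hr G
      (stX i e kc j0 n0 Kl V K I T g r gg κ (sd I) a q0) := by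
  obtain ⟨C0, CU, CW, B, h⟩ := h
  exact ⟨C0, LbX T e, inferInstance, inferInstance, _, _, CU, CW, B, h, fun _ _ => rfl⟩

/-- the frame kernels of the two letters -/
noncomputable def zS (i : Fin 4) (kc j0 n0 Kl k0 : ℕ) {n : ℕ} (T : Fin n → Fin 3 → Finset ℤ)
    (g : Fin n → Fin 3 → ℤ → ℤ → ℂ) (I : Nd) (r : ℕ → ℝ) (es : Fin 2 → Fin 3)
    (f : Fin 2 → Nd → Fn) (V : Nd → Finset Nd) (c : Fin 2) (K : Nd) (l : Fin n) (a : ℕ) :
    ℤ × ℤ × ℤ → ℂ :=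
  zfX i (es c) kc j0 n0 Kl (V K) K I T g r (gl (V K) (f c)) (QQ (V K) k0 j0 n0 K) l a

/-- **the frame letters** -/
noncomputable def PsiZ (i : Fin 4) {n : ℕ} (T : Fin n → Fin 3 → Finset ℤ)
    (g : Fin n → Fin 3 → ℤ → ℤ → ℂ) (mu : Fin n → ℝ) (I : Nd) (La kap : ℝ) (kc Kl : ℕ) (r : ℕ → ℝ)
    (es : Fin 2 → Fin 3) (f : Fin 2 → Nd → Fn) (V : Nd → Finset Nd) (k0 j0 n0 : ℕ) :
    Fin 2 → Nd → Fn :=
  PsiS i T g mu I La kap kc Kl r es f V k0 j0 n0 (zS i kc j0 n0 Kl k0 T g I r es f V)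

/-- the two forms of the frame letter -/
lemma psiZ_eq (i : Fin 4) {n : ℕ} (T : Fin n → Fin 3 → Finset ℤ)
    (g : Fin n → Fin 3 → ℤ → ℤ → ℂ) (mu : Fin n → ℝ) (I : Nd) (La kap : ℝ) (kc Kl : ℕ) (r : ℕ → ℝ)
    (es : Fin 2 → Fin 3) (f : Fin 2 → Nd → Fn) (V : Nd → Finset Nd) (k0 j0 n0 : ℕ) (c : Fin 2)
    (K : Nd) : PsiZ i T g mu I La kap kc Kl r es f V k0 j0 n0 c K =
      psX i (es c) kc j0 n0 Kl (V K) K I T g r (gl (V K) (f c)) (fun l => kap * mu l / La) (sd I)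
        (LayK (V K) k0 j0 n0 K) (QQ (V K) k0 j0 n0 K) := rfl

/-- letters on the grid nodes -/
lemma psiZ_rep (i : Fin 4) {n : ℕ} (T : Fin n → Fin 3 → Finset ℤ)
    (g : Fin n → Fin 3 → ℤ → ℤ → ℂ) (mu : Fin n → ℝ) (I : Nd) (La kap : ℝ) (kc Kl : ℕ) (r : ℕ → ℝ)
    (es : Fin 2 → Fin 3) (f : Fin 2 → Nd → Fn) (V : Nd → Finset Nd) (k0 j0 n0 : ℕ) (c : Fin 2)
    (K : Nd) {q0 : Nd} (hq : q0 ∈ QQ (V K) k0 j0 n0 K) {y : ℤ} (hy : y ∈ iv q0) :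
    PsiZ i T g mu I La kap kc Kl r es f V k0 j0 n0 c K y = ∑ a : Fin Kl, ((a : ℕ) + 1 : ℂ) *
      stX i (es c) kc j0 n0 Kl (V K) K I T g r (gl (V K) (f c)) (fun l => kap * mu l / La) (sd I)
        a q0 y := by
  classical
  rw [psiZ_eq]
  refine psX_rep (fun q hq q' hq' hne => QQ_disj hq hq' hne) hq (fun z hz => ?_) hy
  unfold LayK
  rw [Finset.mem_sdiff, not_and, not_not]
  intro _
  exact Finset.mem_biUnion.2 ⟨q0, hq, hz⟩

lemma av_neg' (p : Nd) (X : Fn) : av p (fun y => - X y) = av p X := by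
  unfold av av2
  simp only [norm_neg]

lemma av_sub' (p : Nd) (X Y : Fn) : av p (fun y => X y - Y y) ≤ av p X + av p Y := by
  have h := TWin.av_add_le p X (fun y => - Y y)
  rw [av_neg'] at h
  simpa only [sub_eq_add_neg] using h

section

variable {P : Prm} {d ε k q3 : ℝ} {i m e e' : Fin 4} {N : ℕ} {B t : ℝ} {W : Finset Nd} {I : Nd}
  {F : Fin 4 → Fn} {xy : Fin 2 → Fin 4} {bb : ℤ} {E : ℕ → ℤ → ℂ} {R : Finset Nd} {J : Nd}
  {Z : Fin 2 → Fn} {v : Fin 3} {n : ℕ} {T : Fin n → Fin 3 → Finset ℤ}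
  {g : Fin n → Fin 3 → ℤ → ℤ → ℂ} {al : Fin n → ℤ → ℝ} {mu : Fin n → ℝ} {es : Fin 2 → Fin 3}

/-- averages of the glued letters -/
lemma av_glV (h : Su P d ε k q3 i m e e' N B t W I F xy bb E R J Z v n T g al mu es) (hk : 0 ≤ k)
    {kap η : ℝ} (hkap : 0 ≤ kap) {kc Kl : ℕ} {r : ℕ → ℝ} (hr : ∀ q, 0 ≤ r q) (hη1 : η ≤ 1)
    {f : Fin 2 → Nd → Fn}
    (hf : ∀ c', NMP (fun _ _ => True) (PhiC P ε i T g mu I t kap kc Kl r es c') (Z c') η (f c'))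
    {U : Finset Nd} {w : Nd} (hU : Full U w) (hUR : U ⊆ R) (c : Fin 2) {p : Nd} (hp : p ∈ U) :
    av p (gl U (f c)) ≤ 3 := by
  have hP : ∀ c', PenC 0 (fun _ _ => True) (PhiC P ε i T g mu I t kap kc Kl r es c') := fun c' =>
    penPhi h.fam (es c') hkap (LaC_pos P ε i h.t0) kc Kl hr
  exact GaVx253.av_gl3 (c := fun _ => 0) hP (fun _ => zero_le_one) hf hη1 (fun c' => h.avZ hk c') hU hUR c hp

/-- **averages of the frame letters** -/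
lemma av_psi (h : Su P d ε k q3 i m e e' N B t W I F xy bb E R J Z v n T g al mu es) (hk : 0 ≤ k)
    {kap m0 η ω : ℝ} (hkap : 0 ≤ kap) {kc Kl : ℕ} {r : ℕ → ℝ} (hr : ∀ q, 0 ≤ r q) (hη1 : η ≤ 1)
    {f : Fin 2 → Nd → Fn}
    (hf : ∀ c', NMP (fun _ _ => True) (PhiC P ε i T g mu I t kap kc Kl r es c') (Z c') η (f c'))
    (hω : ω * m0 ≤ 1) {k0 j0 n0 : ℕ} (hk0 : 1 ≤ k0) (hkj : k0 ≤ j0) {Psi : Fin 2 → Nd → Fn} {w : Nd}
    (hw : w ∈ R) (hE : ErG R (PhiC P ε i T g mu I t kap kc Kl r es) Z η f m0 Psi w w ≤ 1)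
    (c : Fin 2) {p : Nd}
    (hp : p ∈ WG R (PhiC P ε i T g mu I t kap kc Kl r es) Z η f m0 k0 j0 n0 Psi ω w) :
    av p (Psi c w) ≤ 5 := by
  classical
  set Φ := PhiC P ε i T g mu I t kap kc Kl r es with hΦ
  set V := VG R Φ Z η f m0 with hV
  have hpV : p ∈ V w := RK_sub (WW_sub hp)
  have hpR : p ∈ R := VK_sub hpV
  have hVf : Full (V w) w := VK_full h.full hw
  have hEr : ErG R Φ Z η f m0 Psi w p ≤ 1 := by
    by_cases hpw : p = w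
    · rw [hpw]; exact hE
    · have h1 := mem_Wd.1 hp
      exact ((h1.2.2 p h1.1 subset_rfl h1.2.1 hpw).1).trans hω
  have h1 : av p (ek Z f V Psi c w) ^ 2 ≤ 1 := by
    refine le_trans ?_ hEr
    unfold ErG
    exact Finset.single_le_sum (f := fun c' => av p (ek Z f V Psi c' w) ^ 2)
      (fun _ _ => sq_nonneg _) (Finset.mem_univ c)
  have h2 : av p (ek Z f V Psi c w) ≤ 1 := by
    have := Growth.av_nonneg p (ek Z f V Psi c w)
    nlinarith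
  have h3 : av p (gl (V w) (f c)) ≤ 3 :=
    av_glV h hk hkap hr hη1 hf hVf VK_sub c hpV
  have h4 : av p (Z c) ≤ 1 := h.avZ hk c p hpR
  have h5 : Psi c w = fun y => (fun y => Z c y - gl (V w) (f c) y) y - ek Z f V Psi c w y := by
    funext y
    unfold ek
    ring
  rw [h5]
  have h6 := av_sub' p (fun y => Z c y - gl (V w) (f c) y) (ek Z f V Psi c w)
  have h7 := av_sub' p (Z c) (gl (V w) (f c))
  linarith

end

/-- non-collision numbers of the killer -/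
noncomputable def gkS (P : Prm) (m : Fin 4) (t : ℝ) : ℝ := 3 * t ^ (P.θ * P.gc m)

/-- density of the bad shifts -/
noncomputable def dkS (P : Prm) (m : Fin 4) (t : ℝ) : ℝ := 2 * t ^ (P.θ * (P.Cc m - P.gc m))

/-- averages of the frozen letter -/
noncomputable def aiS (P : Prm) (d : ℝ) (i : Fin 4) (t : ℝ) : ℝ := 4 * t ^ (-(clx P d i))

/-- sup of gauge times frozen letter -/
noncomputable def hoS (P : Prm) (ε : ℝ) (i : Fin 4) (t : ℝ) : ℝ :=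
  Real.sqrt (HfC P i t * HtC P i t) * LaC P ε i t

/-- the number of the (S) words -/
noncomputable def kaS (P : Prm) (d ε : ℝ) (i m : Fin 4) (t kap : ℝ) (Kl j0 n0 : ℕ) (K0 X : ℝ) : ℝ :=
  (j0 + 1 + n0) * (2 ^ 12 * Real.sqrt (3 * gkS P m t * aiS P d i t ^ 2 +
    dkS P m t * (LaC P ε i t ^ 2 * 1 ^ 2)) * 5 * 5) +
    (Kl : ℝ) ^ 2 * (K0 * X) * (1 + kap * 2 ^ 7 * 9)

lemma other_slot : ∀ i m a b s : Fin 4, m ≠ i → a ≠ i → a ≠ m → b ≠ i → b ≠ m → a ≠ b → s ≠ i →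
    s ≠ m → s ≠ a → s = b := by
  intro i m a b s h1 h2 h3 h4 h5 h6 h7 h8 h9
  simp only [ne_eq, Fin.ext_iff] at *
  omega

/-- **ONE WORD OF ONE WINDOW** -/
theorem word_su : ∃ K0 : ℝ, 0 ≤ K0 ∧ ∃ κ0 : ℕ, ∀ {P : Prm} {d ε k q3 : ℝ} {i m e e' : Fin 4} {N : ℕ}
    {B t : ℝ} {W : Finset Nd} {I : Nd} {F : Fin 4 → Fn} {xy : Fin 2 → Fin 4} {bb : ℤ}
    {E : ℕ → ℤ → ℂ} {R : Finset Nd} {J : Nd} {Z : Fin 2 → Fn} {v : Fin 3} {n : ℕ}
    {T : Fin n → Fin 3 → Finset ℤ} {g : Fin n → Fin 3 → ℤ → ℤ → ℂ} {al : Fin n → ℤ → ℝ}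
    {mu : Fin n → ℝ} {es : Fin 2 → Fin 3},
    Su P d ε k q3 i m e e' N B t W I F xy bb E R J Z v n T g al mu es → Ok0 P → 0 ≤ k → m ≠ 3 →
    P.gc m ≤ P.Cc m → t ≤ 1 → ∀ {kap m0 η ω : ℝ}, 0 ≤ kap → 0 < m0 → η ≤ 1 → ω * m0 ≤ 1 →
    ∀ {kc Kl k0 j0 n0 : ℕ} {r : ℕ → ℝ}, (∀ q, 0 ≤ r q) → 1 ≤ k0 → k0 ≤ j0 →
    ∀ {f : Fin 2 → Nd → Fn},
    (∀ c', NMP (fun _ _ => True) (PhiC P ε i T g mu I t kap kc Kl r es c') (Z c') η (f c')) →
    ∀ {V : Nd → Finset Nd} {Psi : Fin 2 → Nd → Fn} {W' : Nd → Finset Nd},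
    V = VG R (PhiC P ε i T g mu I t kap kc Kl r es) Z η f m0 →
    Psi = PsiZ i T g mu I (LaC P ε i t) kap kc Kl r es f V k0 j0 n0 →
    W' = WG R (PhiC P ε i T g mu I t kap kc Kl r es) Z η f m0 k0 j0 n0 Psi ω →
    ∀ {w : Nd}, w ∈ R → ErG R (PhiC P ε i T g mu I t kap kc Kl r es) Z η f m0 Psi w w ≤ 1 →
    ∀ {Θ X : ℝ} {ρ rr Hr : ℕ → ℝ} {A : ℝ}, 0 ≤ X → 0 ≤ A → aiS P d i t ^ 2 ≤ A → 25 ≤ A →
    ∀ (c : Fin 2),
    (∀ q ∈ QQ (V w) k0 j0 n0 w, ∀ a < Kl, FCX i (es c) kc j0 n0 Kl κ0 (V w) (W' w) w I T g r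
      (gl (V w) (f c)) (fun l => kap * mu l / LaC P ε i t) (ρ a) (rr a) (Hr a)
      (kap * (2 ^ 7 * av q (gl (V w) (f c)) ^ 2)) a q) →
    (∀ a < Kl, SKZ Θ A (gkS P m t) (dkS P m t) (5 ^ 2) 0 (ρ a) (rr a) (Hr a) 0 kap (hoS P ε i t)) →
    (∀ a < Kl, gX A (gkS P m t) (dkS P m t) 5 kap (ρ a) (rr a) (Hr a) n0 Θ ≤ X) →
    ∀ G : Fin 4 → Fn, G i = F i → G m = F m → G (xy c) = Psi c w →
    (∀ p ∈ W' w, av p (G (xy (c + 1))) ≤ 5) →
    ∑ p ∈ W' w, ∑ x ∈ adm p.1 p.2, ‖Lbox (2 ^ p.1) bb G x‖ ≤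
      kaS P d ε i m t kap Kl j0 n0 K0 X * len w := by
  classical
  obtain ⟨K0, hK0, κ0, hwin⟩ := win_one
  refine ⟨K0, hK0, κ0, ?_⟩
  intro P d ε k q3 i m e e' N B t W I F xy bb E R J Z v n T g al mu es h hP hk hm3 hgC ht1 kap m0 η ω
    hkap hm0 hη1 hω kc Kl k0 j0 n0 r hr hk0 hkj f hf V Psi W' hV hPsi hW' w hw hEr Θ X ρ rr Hr A hX
    hA hAi hA25 c hFC hZ hgX G hGi hGm hGx hGy
  have ht := h.t0
  have hLa := LaC_pos P ε i ht
  have hVf : Full (V w) w := by rw [hV]; exact VK_full h.full hw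
  have hVR : V w ⊆ R := by rw [hV]; exact VK_sub
  have hWf : Full (W' w) w := by rw [hW']; exact WW_full h.full hw hk0 hkj
  have hWV : W' w ⊆ V w := by rw [hW', hV]; exact WW_sub.trans RK_sub
  have hWW : ∀ p ∈ W' w, p ∈ W := fun p hp => h.sub (hVR (hWV hp))
  have hwI : iv w ⊆ iv I := h.W_full.reg.1 w (h.sub hw)
  have hxs : xs i (es c) = xy c := h.slot c
  -- the killer
  have hncW : NCol W (F m) (gkS P m t) (dkS P m t) := by
    have h1 := PRc.ncol hP h.dst hk hm3 zero_le_one hgC ht ht1 h.prc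
    rw [one_mul, one_mul] at h1
    exact h1
  have hnc : NCol (W' w) (G m) (gkS P m t) (dkS P m t) := by
    rw [hGm]
    exact fun p hp p' hp' hpp => hncW p (hWW p hp) p' (hWW p' hp') hpp
  have hgk : 0 ≤ gkS P m t := mul_nonneg (by norm_num) (Real.rpow_nonneg ht.le _)
  have hdk : 0 ≤ dkS P m t := mul_nonneg (by norm_num) (Real.rpow_nonneg ht.le _)
  -- the averages
  have hGi' : ∀ p ∈ W' w, av p (G i) ≤ aiS P d i t := fun p hp => by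
    rw [hGi]; exact h.avi p (hWW p hp)
  have hGm' : ∀ p ∈ W' w, av p (G m) ≤ 1 := fun p hp => by
    rw [hGm]; exact h.avm hk p (hWW p hp)
  have hGx' : ∀ p ∈ W' w, av p (G (xs i (es c))) ≤ 5 := fun p hp => by
    rw [hxs, hGx]
    refine av_psi (n0 := n0) h hk hkap hr hη1 hf hω hk0 hkj hw hEr c ?_
    rw [← hW']
    exact hp
  have hGs' : ∀ p ∈ W' w, ∀ s, s ≠ i → s ≠ m → s ≠ xs i (es c) → av p (G s) ≤ 5 := by
    intro p hp s hsi hsm hsx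
    rw [hxs] at hsx
    have hmi : m ≠ i := h.dst.jk
    have hs : s = xy (c + 1) := by
      fin_cases c
      · exact other_slot i m (xy 0) (xy 1) s hmi h.oth.ai h.oth.am h.oth.bi h.oth.bm h.oth.ab hsi
          hsm hsx
      · exact other_slot i m (xy 1) (xy 0) s hmi h.oth.bi h.oth.bm h.oth.ai h.oth.am
          (Ne.symm h.oth.ab) hsi hsm hsx
    rw [hs]
    exact hGy p hp
  have hGH : ∀ y ∈ iv I, ‖G i y‖ ≤ LaC P ε i t := fun y hy => by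
    rw [hGi]; exact Rc.sup h.dst h.prc.mix hy
  -- the frame data
  set Q := QQ (V w) k0 j0 n0 w with hQd
  have hQm : ∀ q ∈ Q, Le q w ∧ q.1 = w.1 - j0 := fun q hq => by
    have := mem_QQ.1 hq
    exact ⟨this.2.2.2.1, this.2.2.1⟩
  have hQ : ∀ p ∈ W' w, ¬ Nc j0 n0 w p → ∃ q ∈ Q, Le p q := by
    intro p hp hnc
    unfold Nc at hnc
    push Not at hnc
    have hp' : p ∈ WW R (FLDx263.DF (PhiC P ε i T g mu I t kap kc Kl r es) Z f η) (FLDx263.dvF f) m0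
        k0 j0 n0 (ErG R (PhiC P ε i T g mu I t kap kc Kl r es) Z η f m0 Psi) (ω * m0) w := by
      rw [hW'] at hp
      exact hp
    obtain ⟨q, hq, hpq, -⟩ := WW_fine hk0 hkj hp' (by omega) (by omega)
    refine ⟨q, ?_, hpq⟩
    rw [hQd, hV]
    exact hq
  have hen : ∀ a < Kl, ∑ q ∈ Q, kap * (2 ^ 7 * av q (gl (V w) (f c)) ^ 2) * (2 : ℝ) ^ (q.1 + 7) ≤
      kap * 2 ^ 7 * 9 * 2 ^ (w.1 + 7) := by
    intro a _
    have h1 : ∀ q ∈ Q, kap * (2 ^ 7 * av q (gl (V w) (f c)) ^ 2) * (2 : ℝ) ^ (q.1 + 7) =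
        kap * 2 ^ 7 * ∑ y ∈ iv q, ‖gl (V w) (f c) y‖ ^ 2 := by
      intro q _
      rw [Growth.sum_av]
      have : (2 : ℝ) ^ (q.1 + 7) = len q := rfl
      rw [this]
      ring
    rw [Finset.sum_congr rfl h1, ← Finset.mul_sum, mul_assoc (kap * 2 ^ 7)]
    refine mul_le_mul_of_nonneg_left ?_ (by positivity)
    rw [← Finset.sum_biUnion (fun q hq q' hq' hne => QQ_disj hq hq' hne)]
    have h2 : ∑ y ∈ Q.biUnion iv, ‖gl (V w) (f c) y‖ ^ 2 ≤ ∑ y ∈ iv w, ‖gl (V w) (f c) y‖ ^ 2 :=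
      Finset.sum_le_sum_of_subset_of_nonneg
        (Finset.biUnion_subset.2 fun q hq => (hQm q hq).1) fun _ _ _ => sq_nonneg _
    refine h2.trans ?_
    rw [Growth.sum_av]
    have h3 := av_glV h hk hkap hr hη1 hf hVf hVR c hVf.top
    have h4 := Growth.av_nonneg w (gl (V w) (f c))
    have h5 : (2 : ℝ) ^ (w.1 + 7) = len w := rfl
    rw [h5]
    have h6 := (Growth.len_pos w).le
    nlinarith [mul_le_mul_of_nonneg_left (show av w (gl (V w) (f c)) ^ 2 ≤ 9 by nlinarith) h6]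
  have key := hwin h.fam (HfC_pos P i ht).le hLa bb h.adm.1 (es c) (h.es_ne c) (W' w) w hWf hwI kap
    hkap kc j0 n0 Kl Q (dq (V w) n0) G (fun a q => stX i (es c) kc j0 n0 Kl (V w) w I T g r
      (gl (V w) (f c)) (fun l => kap * mu l / LaC P ε i t) (sd I) a q) A (aiS P d i t)
    (LaC P ε i t) 1 (gkS P m t) (dkS P m t) 5 5 Θ (kap * 2 ^ 7 * 9) X ρ rr Hr
    (fun a q => kap * (2 ^ 7 * av q (gl (V w) (f c)) ^ 2)) hQm hQ hgk hdk hLa.le (by norm_num)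
    (by norm_num) hX hA hAi (by linarith) (by linarith) hGi' hGH hGm' hnc hGx' hGs'
    (fun q hq y hy => by
      rw [hxs, hGx, hPsi]
      exact psiZ_rep i T g mu I (LaC P ε i t) kap kc Kl r es f V k0 j0 n0 c w hq hy)
    (fun q hq a ha => (hFC q hq a ha).fce) hen hZ hgX
  exact key

open Classical in
/-- **THE FIVE WORDS OF ONE WINDOW** -/
theorem swd_su : ∃ K0 : ℝ, 0 ≤ K0 ∧ ∃ κ0 : ℕ, ∀ {P : Prm} {d ε k q3 : ℝ} {i m e e' : Fin 4} {N : ℕ}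
    {B t : ℝ} {W : Finset Nd} {I : Nd} {F : Fin 4 → Fn} {xy : Fin 2 → Fin 4} {bb : ℤ}
    {E : ℕ → ℤ → ℂ} {R : Finset Nd} {J : Nd} {Z : Fin 2 → Fn} {v : Fin 3} {n : ℕ}
    {T : Fin n → Fin 3 → Finset ℤ} {g : Fin n → Fin 3 → ℤ → ℤ → ℂ} {al : Fin n → ℤ → ℝ}
    {mu : Fin n → ℝ} {es : Fin 2 → Fin 3},
    Su P d ε k q3 i m e e' N B t W I F xy bb E R J Z v n T g al mu es → Ok0 P → 0 ≤ k → m ≠ 3 →
    P.gc m ≤ P.Cc m → t ≤ 1 → ∀ {kap m0 η ω : ℝ}, 0 ≤ kap → 0 < m0 → η ≤ 1 → ω * m0 ≤ 1 →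
    ∀ {kc Kl k0 j0 n0 : ℕ} {r : ℕ → ℝ}, (∀ q, 0 ≤ r q) → 1 ≤ k0 → k0 ≤ j0 →
    ∀ {f : Fin 2 → Nd → Fn},
    (∀ c', NMP (fun _ _ => True) (PhiC P ε i T g mu I t kap kc Kl r es c') (Z c') η (f c')) →
    ∀ {V : Nd → Finset Nd} {Psi : Fin 2 → Nd → Fn} {W' : Nd → Finset Nd},
    V = VG R (PhiC P ε i T g mu I t kap kc Kl r es) Z η f m0 →
    Psi = PsiZ i T g mu I (LaC P ε i t) kap kc Kl r es f V k0 j0 n0 →
    W' = WG R (PhiC P ε i T g mu I t kap kc Kl r es) Z η f m0 k0 j0 n0 Psi ω →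
    ∀ {w : Nd}, w ∈ R → ErG R (PhiC P ε i T g mu I t kap kc Kl r es) Z η f m0 Psi w w ≤ 1 →
    ∀ {Θ X : ℝ} {ρ rr Hr : ℕ → ℝ} {A : ℝ}, 0 ≤ X → 0 ≤ A → aiS P d i t ^ 2 ≤ A → 25 ≤ A →
    (∀ (c : Fin 2), ∀ q ∈ QQ (V w) k0 j0 n0 w, ∀ a < Kl, FCX i (es c) kc j0 n0 Kl κ0 (V w) (W' w) w
      I T g r (gl (V w) (f c)) (fun l => kap * mu l / LaC P ε i t) (ρ a) (rr a) (Hr a)
      (kap * (2 ^ 7 * av q (gl (V w) (f c)) ^ 2)) a q) →
    (∀ a < Kl, SKZ Θ A (gkS P m t) (dkS P m t) (5 ^ 2) 0 (ρ a) (rr a) (Hr a) 0 kap (hoS P ε i t)) →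
    (∀ a < Kl, gX A (gkS P m t) (dkS P m t) 5 kap (ρ a) (rr a) (Hr a) n0 Θ ≤ X) →
    SWd bb E F xy Z f Psi W' (kaS P d ε i m t kap Kl j0 n0 K0 X) w := by
  obtain ⟨K0, hK0, κ0, hwd⟩ := word_su
  refine ⟨K0, hK0, κ0, ?_⟩
  intro P d ε k q3 i m e e' N B t W I F xy bb E R J Z v n T g al mu es h hP hk hm3 hgC ht1 kap m0 η ω
    hkap hm0 hη1 hω kc Kl k0 j0 n0 r hr hk0 hkj f hf V Psi W' hV hPsi hW' w hw hEr Θ X ρ rr Hr A hX
    hA hAi hA25 hFC hZ hgX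
  have hxi : xy 0 ≠ i := h.oth.ai
  have hyi : xy 1 ≠ i := h.oth.bi
  have hxm : xy 0 ≠ m := h.oth.am
  have hym : xy 1 ≠ m := h.oth.bm
  have hxy : xy 0 ≠ xy 1 := h.oth.ab
  have hVf : Full (V w) w := by rw [hV]; exact VK_full h.full hw
  have hVR : V w ⊆ R := by rw [hV]; exact VK_sub
  have hWf : Full (W' w) w := by rw [hW']; exact WW_full h.full hw hk0 hkj
  have hWV : W' w ⊆ V w := by rw [hW', hV]; exact WW_sub.trans RK_sub
  have aZ : ∀ c, ∀ p ∈ W' w, av p (Z c) ≤ 5 := fun c p hp =>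
    (h.avZ hk c p (hVR (hWV hp))).trans (by norm_num)
  have aG : ∀ c, ∀ p ∈ W' w, av p (gl (W' w) (f c)) ≤ 5 := fun c p hp =>
    (av_glV h hk hkap hr hη1 hf hWf (hWV.trans hVR) c hp).trans (by norm_num)
  have aP : ∀ c, ∀ p ∈ W' w, av p (Psi c w) ≤ 5 := fun c p hp => by
    refine av_psi (n0 := n0) h hk hkap hr hη1 hf hω hk0 hkj hw hEr c ?_
    rw [← hW']
    exact hp
  -- one word
  have one : ∀ (c : Fin 2) (X0 Y0 : Fn),
      (Function.update (Function.update F (xy 0) X0) (xy 1) Y0) (xy c) = Psi c w →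
      (∀ p ∈ W' w, av p ((Function.update (Function.update F (xy 0) X0) (xy 1) Y0) (xy (c + 1))) ≤
        5) →
      ‖∑ q ∈ W' w, v4 bb E F (xy 0) (xy 1) X0 Y0 q‖ ≤
        kaS P d ε i m t kap Kl j0 n0 K0 X * len w := by
    intro c X0 Y0 h1 h2
    set G := Function.update (Function.update F (xy 0) X0) (xy 1) Y0 with hG
    have hGi : G i = F i := by
      rw [hG, Function.update_of_ne (Ne.symm hyi), Function.update_of_ne (Ne.symm hxi)]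
    have hGm : G m = F m := by
      rw [hG, Function.update_of_ne (Ne.symm hym), Function.update_of_ne (Ne.symm hxm)]
    have h3 := hwd h hP hk hm3 hgC ht1 hkap hm0 hη1 hω hr hk0 hkj hf hV hPsi hW' hw hEr hX hA hAi
      hA25 c (hFC c) hZ hgX G hGi hGm h1 h2
    refine le_trans ?_ h3
    have h4 := Qb247.norm_TR_le (bb := bb) h.adm.2 (W' w) G
    exact h4
  have u0 : ∀ X0 Y0 : Fn, (Function.update (Function.update F (xy 0) X0) (xy 1) Y0) (xy 0) = X0 :=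
    fun X0 Y0 => by rw [Function.update_of_ne hxy, Function.update_self]
  have u1 : ∀ X0 Y0 : Fn, (Function.update (Function.update F (xy 0) X0) (xy 1) Y0) (xy 1) = Y0 :=
    fun X0 Y0 => Function.update_self _ _ _
  refine ⟨?_, ?_, ?_, ?_, ?_⟩
  · refine one 0 (Psi 0 w) (Z 1) (u0 _ _) fun p hp => ?_
    show av p ((Function.update (Function.update F (xy 0) (Psi 0 w)) (xy 1) (Z 1)) (xy 1)) ≤ 5
    rw [u1]; exact aZ 1 p hp
  · refine one 1 (Z 0) (Psi 1 w) (u1 _ _) fun p hp => ?_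
    show av p ((Function.update (Function.update F (xy 0) (Z 0)) (xy 1) (Psi 1 w)) (xy 0)) ≤ 5
    rw [u0]; exact aZ 0 p hp
  · refine one 0 (Psi 0 w) _ (u0 _ _) fun p hp => ?_
    show av p ((Function.update (Function.update F (xy 0) (Psi 0 w)) (xy 1)
      (gl (W' w) (f 1))) (xy 1)) ≤ 5
    rw [u1]; exact aG 1 p hp
  · refine one 1 _ (Psi 1 w) (u1 _ _) fun p hp => ?_
    show av p ((Function.update (Function.update F (xy 0) (gl (W' w) (f 0))) (xy 1)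
      (Psi 1 w)) (xy 0)) ≤ 5
    rw [u0]; exact aG 0 p hp
  · refine one 0 (Psi 0 w) (Psi 1 w) (u0 _ _) fun p hp => ?_
    show av p ((Function.update (Function.update F (xy 0) (Psi 0 w)) (xy 1)
      (Psi 1 w)) (xy 1)) ≤ 5
    rw [u1]; exact aP 1 p hp

end Crest.Agent.R079.FrZx360
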