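import Crest.Agent.R079.FrM_717
import Crest.Agent.R079.FrZc_360

/-! R079, (T5c) of note 1820 (helper717): **`fcx_su`** : `FCX` of `FrZc_360` for the data `Su`. -/

set_option autoImplicit false
set_option linter.unusedSectionVars false

namespace Crest.Agent.R079.FrNx717

open Finset Crest.Agent.R079.Grid Crest.Agent.R079.Growth Crest.Agent.R079.QRed
  Crest.Agent.R079.Qh249 Crest.Agent.R079.QVar181
  Crest.Agent.R079.TWin Crest.Agent.R079.Glue Crest.Agent.R079.SWc360 Crest.Agent.R079.Cel159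
  Crest.Agent.R079.SplSx69 Crest.Agent.R079.ThA159 Crest.Agent.R079.SKx261
open Crest.Agent.R079.NC237 (NC2 NCol nc2_of_ncol)
open Crest.Agent.R079.F2
open Crest.Agent.R079.GaFx371 (Ye W0 SE BdE poE mem_W0)
open Crest.Agent.R079.YeYlx263 (xs)
open Crest.Agent.R079.ElS440 (Ln LnF)
open Crest.Agent.R079.FrWx360 (tcY FC Nc win_tot fc_word1)
open Crest.Agent.R079.PFx263 (Fam)
open Crest.Agent.R079.GaDx571 (sd sd_pos penPhi)
open Crest.Agent.R079.NodeWx254 (node_g0)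
open Crest.Agent.R079.RelW653 (NMP)
open Crest.Agent.R079.RelV653 (PenC)
open Crest.Agent.R079.TRec Crest.Agent.R079.AsmA844 Crest.Agent.R079.WS112
  Crest.Agent.R079.WS0112 Crest.Agent.R079.POx263 Crest.Agent.R079.GnUx263
  Crest.Agent.R079.SbWx795 Crest.Agent.R079.ErMx255 Crest.Agent.R079.ErLx255
open Crest.Agent.R079.GnSx263 (ek)
open Crest.Agent.R079.FrZx360
open Crest.Agent.R079.FrMx717 (cM fc_full)

open scoped ComplexConjugate

section pos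

variable {R : Finset Nd} {D : Nd → ℝ} {dev : Nd → Nd → ℝ} {μ τ : ℝ} {Er : Nd → Nd → ℝ}
  {k0 j0 n0 : ℕ} {K q : Nd}

/-- nodes of the window below a grid node are at alive levels -/
lemma rq_dq (hR : Full (VK R D dev μ K) K) (hk : 1 ≤ k0) (hkj : k0 ≤ j0)
    (hq : q ∈ QQ (VK R D dev μ K) k0 j0 n0 K) {p : Nd}
    (hp : p ∈ RQ (WW R D dev μ k0 j0 n0 Er τ K) n0 q) : dq (VK R D dev μ K) n0 q ≤ p.1 := by
  obtain ⟨s1, s2, s3, s4, s5, s6, s7, s8⟩ := QQ_spec hR hq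
  obtain ⟨a1, a2, a3⟩ := mem_RQ.1 hp
  have hlv : p.1 ≤ q.1 := (le_iff.1 a2).1
  by_cases hc : K.1 ≤ p.1 + j0
  · omega
  · obtain ⟨q', h1, h2, h3⟩ := WW_fine hk hkj a1 hc (by omega)
    have hqq : q' = q := by
      by_contra hne
      have h4 := QQ_disj h1 hq hne
      obtain ⟨y, hy⟩ := Growth.iv_nonempty p
      exact Finset.disjoint_left.1 h4 (h2 hy) (a2 hy)
    rw [← hqq]
    exact h3

end pos

section

variable {P : Prm} {d ε k q3 : ℝ} {i m e e' : Fin 4} {N : ℕ} {B t : ℝ} {W : Finset Nd} {I : Nd}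
  {F : Fin 4 → Fn} {xy : Fin 2 → Fin 4} {bb : ℤ} {E : ℕ → ℤ → ℂ} {R : Finset Nd} {J : Nd}
  {Z : Fin 2 → Fn} {v : Fin 3} {n : ℕ} {T : Fin n → Fin 3 → Finset ℤ}
  {g : Fin n → Fin 3 → ℤ → ℤ → ℂ} {al : Fin n → ℤ → ℝ} {mu : Fin n → ℝ} {es : Fin 2 → Fin 3}

/-- **`FCX` from the data of one generation** -/
theorem fcx_su (h : Su P d ε k q3 i m e e' N B t W I F xy bb E R J Z v n T g al mu es) (hk : 0 ≤ k)
    {kap m0 η ω : ℝ} (hkap : 0 ≤ kap) {kc Kl k0 j0 n0 κ0 : ℕ} {r : ℕ → ℝ} (hr : ∀ q, 0 < r q)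
    (hrm : ∀ q, r q ≤ r (q + 1)) (hη1 : η ≤ 1) (hk0 : 9 ≤ k0) (hkj : k0 ≤ j0) (hκj : κ0 + 4 ≤ j0)
    {f : Fin 2 → Nd → Fn}
    (hf : ∀ c', NMP (fun _ _ => True) (PhiC P ε i T g mu I t kap kc Kl r es c') (Z c') η (f c'))
    {V : Nd → Finset Nd} {Psi : Fin 2 → Nd → Fn} {W' : Nd → Finset Nd}
    (hV : V = VG R (PhiC P ε i T g mu I t kap kc Kl r es) Z η f m0)
    (hW' : W' = WG R (PhiC P ε i T g mu I t kap kc Kl r es) Z η f m0 k0 j0 n0 Psi ω)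
    {w : Nd} (hw : w ∈ R) (c : Fin 2) {q : Nd} (hq : q ∈ QQ (V w) k0 j0 n0 w) {a : ℕ}
    {rr Hr : ℝ} (hrr : 0 < rr) (hcM : cM k0 (r a) (r (a + 1)) ≤ rr⁻¹)
    (hHr : 2 ^ 7 * 9 * (HfC P i t * HtC P i t) ≤ Hr) :
    FCX i (es c) kc j0 n0 Kl κ0 (V w) (W' w) w I T g r (gl (V w) (f c))
      (fun l => kap * mu l / LaC P ε i t) (2 ^ 7 * r a) rr Hr
      (kap * (2 ^ 7 * av q (gl (V w) (f c)) ^ 2)) a q := by
  classical
  have ht := h.t0
  have hLa := LaC_pos P ε i ht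
  have hHf := (HfC_pos P i ht).le
  have hHt := (HtC_pos P i ht).le
  have hVf : Full (V w) w := by rw [hV]; exact VK_full h.full hw
  have hVR : V w ⊆ R := by rw [hV]; exact VK_sub
  have hwI : iv w ⊆ iv I := h.W_full.reg.1 w (h.sub hw)
  have hqV : q ∈ V w := (mem_QQ.1 hq).2.1
  have hav : av q (gl (V w) (f c)) ≤ 3 := av_glV h hk hkap (fun q => (hr q).le) hη1 hf hVf hVR c hqV
  have hav0 := Growth.av_nonneg q (gl (V w) (f c))
  have hkp := pow_le_pow_right₀ (show (1 : ℕ) ≤ 2 by norm_num) (show κ0 ≤ j0 - 4 by omega)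
  refine ⟨2 ^ κ0, _, _, _, fc_full (P := w) (Ha := Real.sqrt (HfC P i t * HtC P i t)) ?_ ?_ ?_
    (hr a) (hrm a) hVf hVf.top hq hk0 hkj hwI ?_ le_rfl hkp ?_ ?_ hrr hcM ?_ ?_⟩
  · intro l
    exact GaFx371.bnd_E i (es c) I (sd_pos I) (h.fam.opD l).card kc
  · intro l
    exact (h.fam.opD l).fib (sd_pos I) i (es c) I
  · intro l ω'
    exact gauge_le h.fam hHf (h.es_ne c) l _ _
  · intro l
    exact div_nonneg (mul_nonneg hkap (h.fam.μ0 l)) hLa.le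
  · intro p hp
    exact (le_iff.1 (mem_RQ.1 hp).2.1).1
  · intro p hp
    rw [hW'] at hp
    rw [hV] at hVf hq ⊢
    exact rq_dq hVf (by omega) hkj hq hp
  · refine le_trans ?_ hHr
    rw [Real.sq_sqrt (mul_nonneg hHf hHt)]
    have h1 : av q (gl (V w) (f c)) ^ 2 ≤ 9 := by nlinarith
    have h2 : 0 ≤ HfC P i t * HtC P i t := mul_nonneg hHf hHt
    nlinarith [mul_le_mul_of_nonneg_left h1 h2]
  · refine mul_le_mul_of_nonneg_right ?_ (by positivity)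
    rw [← Finset.sum_div, ← Finset.mul_sum, div_le_iff₀ hLa]
    exact mul_le_mul_of_nonneg_left h.fam.μ1 hkap

end

end Crest.Agent.R079.FrNx717
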