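import Crest.Agent.R079.FrZd_360
import Crest.Agent.R079.FrN_717

/-! R079 (helper360), T5 of note 1820: **`swd_fin`** : the five (S) words of one window from the data of
one generation and the numbers (`swd_gen` + 717's `fcx_su` + `en_QQ`). -/

set_option autoImplicit false
set_option linter.unusedSectionVars false

namespace Crest.Agent.R079.FrZx360

open Finset Crest.Agent.R079.Grid Crest.Agent.R079.Growth Crest.Agent.R079.QRed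
  Crest.Agent.R079.Qh249 Crest.Agent.R079.QVar181
  Crest.Agent.R079.TWin Crest.Agent.R079.Glue Crest.Agent.R079.SWc360 Crest.Agent.R079.Cel159
  Crest.Agent.R079.SplSx69 Crest.Agent.R079.ThA159 Crest.Agent.R079.SKx261
open Crest.Agent.R079.NC237 (NC2 NCol nc2_of_ncol)
open Crest.Agent.R079.RelW653 (NMP)
open Crest.Agent.R079.RelV653 (PenC)
open Crest.Agent.R079.TRec Crest.Agent.R079.AsmA844 Crest.Agent.R079.WS112
  Crest.Agent.R079.WS0112 Crest.Agent.R079.POx263 Crest.Agent.R079.GnUx263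
  Crest.Agent.R079.SbWx795 Crest.Agent.R079.ErMx255 Crest.Agent.R079.ErLx255
open Crest.Agent.R079.NJ112 (SWd)
open Crest.Agent.R079.FrMx717 (cM)

/-- **THE FIVE WORDS OF ONE WINDOW, numbers only** -/
theorem swd_fin : ∃ K0 : ℝ, 0 ≤ K0 ∧ ∃ κ0 : ℕ, ∀ {P : Prm} {d ε k q3 : ℝ} {i m e e' : Fin 4} {N : ℕ}
    {B t : ℝ} {W : Finset Nd} {I : Nd} {F : Fin 4 → Fn} {xy : Fin 2 → Fin 4} {bb : ℤ}
    {E : ℕ → ℤ → ℂ} {R : Finset Nd} {J : Nd} {Z : Fin 2 → Fn} {v : Fin 3} {n : ℕ}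
    {T : Fin n → Fin 3 → Finset ℤ} {g : Fin n → Fin 3 → ℤ → ℤ → ℂ} {al : Fin n → ℤ → ℝ}
    {mu : Fin n → ℝ} {es : Fin 2 → Fin 3},
    Su P d ε k q3 i m e e' N B t W I F xy bb E R J Z v n T g al mu es → 0 ≤ k →
    ∀ {kap m0 η ω s Sa : ℝ}, 0 ≤ kap → η ≤ 1 → 0 ≤ s → ω * m0 ≤ s ^ 2 → 4 + s ≤ Sa →
    ∀ {kc Kl k0 j0 n0 : ℕ} {r : ℕ → ℝ}, (∀ q, 0 < r q) → (∀ q, r q ≤ r (q + 1)) → 9 ≤ k0 →
    k0 ≤ j0 → κ0 + 4 ≤ j0 → ∀ {f : Fin 2 → Nd → Fn},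
    (∀ c', NMP (fun _ _ => True) (PhiC P ε i T g mu I t kap kc Kl r es c') (Z c') η (f c')) →
    ∀ {V : Nd → Finset Nd} {Psi : Fin 2 → Nd → Fn} {W' : Nd → Finset Nd},
    V = VG R (PhiC P ε i T g mu I t kap kc Kl r es) Z η f m0 →
    Psi = PsiZ i T g mu I (LaC P ε i t) kap kc Kl r es f V k0 j0 n0 →
    W' = WG R (PhiC P ε i T g mu I t kap kc Kl r es) Z η f m0 k0 j0 n0 Psi ω →
    ∀ {w : Nd}, w ∈ R →
    ErG R (PhiC P ε i T g mu I t kap kc Kl r es) Z η f m0 Psi w w ≤ s ^ 2 →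
    ∀ {gk dk Ai Hs A Θ X : ℝ} {rr Hr : ℕ → ℝ},
    0 ≤ gk → 0 ≤ dk → 0 ≤ Hs → 0 ≤ X → Ai ^ 2 ≤ A → 1 ≤ A → Sa ^ 2 ≤ A →
    (∀ p ∈ W, av p (F i) ≤ Ai) → (∀ y ∈ iv I, ‖F i y‖ ≤ Hs) → NCol W (F m) gk dk →
    (∀ a < Kl, 0 < rr a ∧ cM k0 (r a) (r (a + 1)) ≤ (rr a)⁻¹) →
    (∀ a < Kl, 2 ^ 7 * 9 * (HfC P i t * HtC P i t) ≤ Hr a) →
    (∀ a < Kl, SKZ Θ A gk dk (Sa ^ 2) 0 (2 ^ 7 * r a) (rr a) (Hr a) 0 kap
      (Real.sqrt (HfC P i t * HtC P i t) * Hs)) →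
    (∀ a < Kl, gX A gk dk Sa kap (2 ^ 7 * r a) (rr a) (Hr a) n0 Θ ≤ X) →
    SWd bb E F xy Z f Psi W' (kaG Kl j0 n0 gk dk Ai Hs Sa K0 X (kap * 2 ^ 7 * 9)) w := by
  obtain ⟨K0, hK0, κ0, hgen⟩ := swd_gen
  refine ⟨K0, hK0, κ0, ?_⟩
  intro P d ε k q3 i m e e' N B t W I F xy bb E R J Z v n T g al mu es h hk kap m0 η ω s Sa
    hkap hη1 hs hω hSa kc Kl k0 j0 n0 r hr hrm hk0 hkj hκj f hf V Psi W' hV hPsi hW' w hw hEr gk dk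
    Ai Hs A Θ X rr Hr hgk hdk hHs hX hAi hA1 hSaA hFi hFs hncW hcM hHr hZ hgX
  have hr0 : ∀ q, 0 ≤ r q := fun q => (hr q).le
  have hVf : Full (V w) w := by rw [hV]; exact VK_full h.full hw
  have hVR : V w ⊆ R := by rw [hV]; exact VK_sub
  refine hgen h hk hkap hη1 hs hω hSa hr0 (by omega) hkj hf hV hPsi hW' hw hEr
    (ρ := fun a => 2 ^ 7 * r a) (rr := rr) (Hr := Hr)
    (En := fun c _ q => kap * (2 ^ 7 * av q (gl (V w) (f c)) ^ 2)) hgk hdk hHs hX hAi hA1 hSaA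
    hFi hFs hncW ?_ ?_ hZ hgX
  · intro c q hq a ha
    exact FrNx717.fcx_su h hk hkap hr hrm hη1 hk0 hkj hκj hf hV hW' hw c hq (hcM a ha).1
      (hcM a ha).2 (hHr a ha)
  · intro c a _
    have h1 := en_QQ h hk hkap hr0 hη1 hf hVf hVR k0 j0 n0 (G0 := kap * 2 ^ 7) (by positivity) c
    refine le_trans (le_of_eq ?_) h1
    refine Finset.sum_congr rfl fun q _ => ?_
    ring

end Crest.Agent.R079.FrZx360
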