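import Crest.Agent.R079.FrSb_261
import Crest.Agent.R079.NrT_259
import Crest.Agent.R079.NrA_228

/-! R079, T5c of 1820 / 1922 (helper261): one cell.

`op_box` : the kernel masked to alive tiles of side `≤ 2^n` has operator norm `≤ r 2^n` on every box of
side `2^n`; `opS_wtR`, `opS_wtC` : weights; `maj_one` : domination of the frames
`√(d k) (g u / r) Σ_v M u v x k v` by the weighted kernel `L g u M u v`. -/

set_option autoImplicit false

namespace Crest.Agent.R079.FrIx261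

open Finset Crest.Agent.R079.Grid Crest.Agent.R079.NrMx259 Crest.Agent.R079.NrTx259
open Crest.Agent.R079.ClW59 (OpS)

open scoped ComplexConjugate

section tl

variable {m : ℕ} {a b : ℤ} {Ti A : Finset (ℕ × ℤ × ℤ)} {B : ℤ → ℤ → ℂ} {r : ℝ}

/-- **boxes** at least as large as the alive tiles -/
theorem op_box (h : Tlg m a b Ti) (hA : A ⊆ Ti)
    (hop : ∀ c ∈ A, OpS (Rw c) (Cl c) B (r * 2 ^ c.1)) {n : ℕ} (hn : ∀ c ∈ A, c.1 ≤ n)
    (a' b' : ℤ) : OpS (dI n a') (dI n b') (mB A B) (r * 2 ^ n) := by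
  classical
  intro f
  set A' := A.filter (fun c => (Rw c ∩ dI n a').Nonempty ∧ (Cl c ∩ dI n b').Nonempty) with hA'
  have hA'A : A' ⊆ A := Finset.filter_subset _ _
  have hR : ∀ c ∈ A', Rw c ⊆ dI n a' := by
    intro c hc
    obtain ⟨h1, ⟨x, hx⟩, _⟩ := Finset.mem_filter.1 hc
    rw [Finset.mem_inter] at hx
    exact nest (hn c h1) hx.1 hx.2
  have hC : ∀ c ∈ A', Cl c ⊆ dI n b' := by
    intro c hc
    obtain ⟨h1, _, x, hx⟩ := Finset.mem_filter.1 hc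
    rw [Finset.mem_inter] at hx
    exact nest (hn c h1) hx.1 hx.2
  have h1 := schur (r := r) (B := B) (Ro := Rw) (Co := Cl) (sz := sd) (A := A') (J := dI n b')
    (I0 := dI n a') (S' := 2 ^ n) (l := 2 ^ n) (fun c _ => by positivity) hC
    (fun c hc => hop c (hA'A hc)) (by positivity)
    (fun u _ => by
      rw [← card_dI n b']
      exact sum_side (fun c hc => hC c (Finset.mem_filter.1 hc).1)
        (h.cdis ((Finset.filter_subset _ _).trans (hA'A.trans hA)) (u := u)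
          fun c hc => (Finset.mem_filter.1 hc).2))
    (fun v _ => by
      rw [← card_dI n a']
      exact sum_side_row (fun c hc => hR c (Finset.mem_filter.1 hc).1)
        (h.rdis ((Finset.filter_subset _ _).trans (hA'A.trans hA)) (v := v)
          fun c hc => (Finset.mem_filter.1 hc).2.1)) f
  have h2 : ∀ u ∈ dI n a', ∑ v ∈ dI n b', mB A B u v * f v =
      ∑ c ∈ A'.filter (fun c => u ∈ Rw c), ∑ v ∈ Cl c, B u v * f v := by
    intro u hu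
    have h3 : ∑ c ∈ A'.filter (fun c => u ∈ Rw c), ∑ v ∈ Cl c, B u v * f v =
        ∑ v ∈ dI n b', ∑ _c ∈ A'.filter (fun c => u ∈ Rw c ∧ v ∈ Cl c), B u v * f v := by
      refine Finset.sum_comm' fun c v => ?_
      constructor
      · rintro ⟨h4, h5⟩
        obtain ⟨h6, h7⟩ := Finset.mem_filter.1 h4
        exact ⟨Finset.mem_filter.2 ⟨h6, h7, h5⟩, hC c h6 h5⟩
      · rintro ⟨h4, _⟩
        obtain ⟨h6, h7, h8⟩ := Finset.mem_filter.1 h4
        exact ⟨Finset.mem_filter.2 ⟨h6, h7⟩, h8⟩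
    rw [h3]
    refine Finset.sum_congr rfl fun v hv => ?_
    unfold mB
    split_ifs with hc
    · obtain ⟨c, hcA, h4, h5⟩ := hc
      have hcA' : c ∈ A' := Finset.mem_filter.2 ⟨hcA, ⟨u, Finset.mem_inter.2 ⟨h4, hu⟩⟩,
        ⟨v, Finset.mem_inter.2 ⟨h5, hv⟩⟩⟩
      have e : A'.filter (fun c => u ∈ Rw c ∧ v ∈ Cl c) = {c} := by
        ext c'
        rw [Finset.mem_filter, Finset.mem_singleton]
        constructor
        · rintro ⟨h6, h7, h8⟩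
          exact h.dis c' (hA (hA'A h6)) c (hA hcA) u v h7 h8 h4 h5
        · rintro rfl
          exact ⟨hcA', h4, h5⟩
      rw [e, Finset.sum_singleton]
    · have e : A'.filter (fun c => u ∈ Rw c ∧ v ∈ Cl c) = ∅ := by
        rw [Finset.filter_eq_empty_iff]
        intro c hcA hcc
        exact hc ⟨c, hA'A hcA, hcc⟩
      rw [e, Finset.sum_empty, zero_mul]
  rw [Finset.sum_congr rfl fun u hu => by rw [h2 u hu]]
  refine h1.trans (le_of_eq ?_)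
  ring

end tl

/-- weights on the rows -/
theorem opS_wtR {S T : Finset ℤ} {K : ℤ → ℤ → ℂ} {s C : ℝ} (h : OpS S T K s) {w : ℤ → ℝ}
    (hw : ∀ u, |w u| ≤ C) : OpS S T (fun u v => (w u : ℂ) * K u v) (C * s) := by
  intro f
  have h1 : ∀ u ∈ S, ‖∑ v ∈ T, (w u : ℂ) * K u v * f v‖ ^ 2 ≤ C ^ 2 * ‖∑ v ∈ T, K u v * f v‖ ^ 2 := by
    intro u _
    have e : ∑ v ∈ T, (w u : ℂ) * K u v * f v = (w u : ℂ) * ∑ v ∈ T, K u v * f v := by
      rw [Finset.mul_sum]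
      exact Finset.sum_congr rfl fun v _ => by ring
    rw [e, norm_mul, mul_pow, Complex.norm_real, Real.norm_eq_abs]
    exact mul_le_mul_of_nonneg_right (pow_le_pow_left₀ (abs_nonneg _) (hw u) 2) (sq_nonneg _)
  refine (Finset.sum_le_sum h1).trans ?_
  rw [← Finset.mul_sum]
  calc C ^ 2 * ∑ u ∈ S, ‖∑ v ∈ T, K u v * f v‖ ^ 2 ≤ C ^ 2 * (s ^ 2 * ∑ v ∈ T, ‖f v‖ ^ 2) :=
        mul_le_mul_of_nonneg_left (h f) (sq_nonneg _)
    _ = _ := by ring

/-- weights on the columns -/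
theorem opS_wtC {S T : Finset ℤ} {K : ℤ → ℤ → ℂ} {s C : ℝ} (h : OpS S T K s) {w : ℤ → ℝ}
    (hw : ∀ v, |w v| ≤ C) : OpS S T (fun u v => (w v : ℂ) * K u v) (C * s) := by
  intro f
  have h1 := h (fun v => (w v : ℂ) * f v)
  have e : ∀ u, ∑ v ∈ T, (w v : ℂ) * K u v * f v = ∑ v ∈ T, K u v * ((w v : ℂ) * f v) := fun u =>
    Finset.sum_congr rfl fun v _ => by ring
  simp only [e]
  refine h1.trans ?_
  have h2 : ∑ v ∈ T, ‖(w v : ℂ) * f v‖ ^ 2 ≤ C ^ 2 * ∑ v ∈ T, ‖f v‖ ^ 2 := by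
    rw [Finset.mul_sum]
    refine Finset.sum_le_sum fun v _ => ?_
    rw [norm_mul, mul_pow, Complex.norm_real, Real.norm_eq_abs]
    exact mul_le_mul_of_nonneg_right (pow_le_pow_left₀ (abs_nonneg _) (hw v) 2) (sq_nonneg _)
  calc s ^ 2 * ∑ v ∈ T, ‖(w v : ℂ) * f v‖ ^ 2 ≤ s ^ 2 * (C ^ 2 * ∑ v ∈ T, ‖f v‖ ^ 2) :=
        mul_le_mul_of_nonneg_left h2 (sq_nonneg _)
    _ = _ := by ring

/-- **domination** of the frames by the weighted kernel -/
theorem maj_one {S T K : Finset ℤ} {M : ℤ → ℤ → ℂ} {x : ℤ → ℤ → ℂ} {d g : ℤ → ℝ} {L r D Cs : ℝ}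
    (hL : 0 < L) (hr : 0 < r) (hD : 0 ≤ D) (hd : ∀ k ∈ K, 0 ≤ d k ∧ d k ≤ D)
    (hb : ∀ f : ℤ → ℂ, ∑ k ∈ K, ‖∑ v ∈ T, f v * x k v‖ ^ 2 ≤ Cs * ∑ v ∈ T, ‖f v‖ ^ 2)
    (f : ℤ → ℂ) :
    ∑ k ∈ K, ‖∑ u ∈ S, f u * (((Real.sqrt (d k) * (g u / r) : ℝ) : ℂ) *
        ∑ v ∈ T, M u v * x k v)‖ ^ 2 ≤
      D * Cs / (r * L) ^ 2 * ∑ v ∈ T, ‖∑ u ∈ S, f u * (((L * g u : ℝ) : ℂ) * M u v)‖ ^ 2 := by
  have hrL : 0 < r * L := mul_pos hr hL
  have e1 : ∀ k, ∑ u ∈ S, f u * (((Real.sqrt (d k) * (g u / r) : ℝ) : ℂ) *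
        ∑ v ∈ T, M u v * x k v) = ((Real.sqrt (d k) / (r * L) : ℝ) : ℂ) *
        ∑ v ∈ T, (∑ u ∈ S, f u * (((L * g u : ℝ) : ℂ) * M u v)) * x k v := by
    intro k
    have e2 : ∑ v ∈ T, (∑ u ∈ S, f u * (((L * g u : ℝ) : ℂ) * M u v)) * x k v =
        ∑ u ∈ S, f u * (((L * g u : ℝ) : ℂ) * ∑ v ∈ T, M u v * x k v) := by
      have e3 : ∀ v ∈ T, (∑ u ∈ S, f u * (((L * g u : ℝ) : ℂ) * M u v)) * x k v =
          ∑ u ∈ S, f u * (((L * g u : ℝ) : ℂ) * (M u v * x k v)) := by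
        intro v _
        rw [Finset.sum_mul]
        exact Finset.sum_congr rfl fun u _ => by ring
      rw [Finset.sum_congr rfl e3, Finset.sum_comm]
      refine Finset.sum_congr rfl fun u _ => ?_
      rw [Finset.mul_sum, Finset.mul_sum]
    rw [e2, Finset.mul_sum]
    refine Finset.sum_congr rfl fun u _ => ?_
    have hLc : (L : ℂ) ≠ 0 := by exact_mod_cast hL.ne'
    have hrc : (r : ℂ) ≠ 0 := by exact_mod_cast hr.ne'
    push_cast
    field_simp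
  have e4 : ∀ k ∈ K, ‖∑ u ∈ S, f u * (((Real.sqrt (d k) * (g u / r) : ℝ) : ℂ) *
        ∑ v ∈ T, M u v * x k v)‖ ^ 2 ≤ D / (r * L) ^ 2 *
        ‖∑ v ∈ T, (∑ u ∈ S, f u * (((L * g u : ℝ) : ℂ) * M u v)) * x k v‖ ^ 2 := by
    intro k hk
    rw [e1 k, norm_mul, mul_pow, Complex.norm_real, Real.norm_eq_abs, sq_abs, div_pow,
      Real.sq_sqrt (hd k hk).1]
    refine mul_le_mul_of_nonneg_right ?_ (sq_nonneg _)
    exact div_le_div_of_nonneg_right (hd k hk).2 (by positivity)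
  refine (Finset.sum_le_sum e4).trans ?_
  rw [← Finset.mul_sum]
  calc D / (r * L) ^ 2 * ∑ k ∈ K, ‖∑ v ∈ T, (∑ u ∈ S, f u *
          (((L * g u : ℝ) : ℂ) * M u v)) * x k v‖ ^ 2 ≤
          D / (r * L) ^ 2 * (Cs * ∑ v ∈ T, ‖∑ u ∈ S, f u *
            (((L * g u : ℝ) : ℂ) * M u v)‖ ^ 2) :=
        mul_le_mul_of_nonneg_left (hb _) (by positivity)
      _ = _ := by ring

end Crest.Agent.R079.FrIx261
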