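import Crest.Agent.R079.NrE_276
import Crest.Agent.R079.CelD_159

/-! R079 (helper276), (T3)/(T4) of note 1820: GEOMETRY OF THE TILING of a maximal cell of a node `K` of
a window `W` by the maximal cells of the leaves of `W` (fibre `z` fixed).
`tl z u v` : the tile of the point; `Til z m a b` : the tiles of the rectangle `dI m a × dI m b`.
(G1) `til_sub, til_cov, til_dis`; (G2) `til_op` : the glued leaf projections on a tile;
(G3) `row_card, col_card` : `∑ 2^c.1` over selected tiles of a row = number of selected points. -/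

set_option autoImplicit false

namespace Crest.Agent.R079.NrTx276

open Finset Crest.Agent.R079.Grid Crest.Agent.R079.Growth Crest.Agent.R079.QRed
  Crest.Agent.R079.Qh249 Crest.Agent.R079.QVar181 Crest.Agent.R079.TWin
open Crest.Agent.R079.ThA159 Crest.Agent.R079.Cel159
open Crest.Agent.R079.Whit (Ins Ins.mono Ins.sub sub0 sub1)
open Crest.Agent.R079.ClW59 (OpS)

section dyadic

lemma cdI (n : ℕ) (a : ℤ) : ((dI n a).card : ℝ) = 2 ^ n := by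
  have h : (dI n a).card = 2 ^ n := by
    unfold dI
    rw [Int.card_Ico]
    rw [show (a + 1) * 2 ^ n - a * 2 ^ n = ((2 ^ n : ℕ) : ℤ) by push_cast; ring]
    exact Int.toNat_natCast _
  rw [h]
  push_cast
  rfl

lemma dI_nest {n n' : ℕ} {a a' x : ℤ} (h : x ∈ dI n a) (h' : x ∈ dI n' a') (hn : n' ≤ n) :
    dI n' a' ⊆ dI n a := by
  obtain ⟨j, rfl⟩ : ∃ j, n = n' + j := ⟨n - n', by omega⟩
  have s1 := L0e.dI_sub n' j a'
  have hx := s1 h'
  rw [L0e.mem_dI] at h hx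
  rw [← h, hx]
  exact s1

lemma dI_eq {n : ℕ} {a a' x : ℤ} (h : x ∈ dI n a) (h' : x ∈ dI n a') : a = a' := by
  rw [L0e.mem_dI] at h h'
  exact h.symm.trans h'

lemma self_dI (n : ℕ) (x : ℤ) : x ∈ dI n (x / 2 ^ n) := by rw [L0e.mem_dI]

lemma half_mem {n : ℕ} {a x : ℤ} (h : x ∈ dI n a) : x ∈ dI (n + 1) (a / 2) := by
  have s := L0e.dI_sub n 1 a
  rw [pow_one] at s
  exact s h

end dyadic

section tiles

variable (Y : ℤ → ℤ → ℤ → ℤ) (k : ℕ) (W : Finset Nd)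

/-- the tile of the point: maximal cell of the leaf of its label -/
noncomputable def tl (z u v : ℤ) : ℕ × ℤ × ℤ := (mcell Y k (lfOf W (Y z u v)) (z, u, v)).2

open Classical in
/-- the tiles of a rectangle -/
noncomputable def Til (z : ℤ) (m : ℕ) (a b : ℤ) : Finset (ℕ × ℤ × ℤ) :=
  (dI m a ×ˢ dI m b).image (fun s => tl Y k W z s.1 s.2)

variable {Y k W} {I K : Nd} {z : ℤ} {m : ℕ} {a b : ℤ}

/-- the tile of a point with label below `K` -/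
lemma tl_spec (hW : Full W I) (hK : K ∈ W) {u v : ℤ} (h : Y z u v ∈ iv K) :
    ∃ L ∈ lf W, Y z u v ∈ iv L ∧ iv L ⊆ iv K ∧ lfOf W (Y z u v) = L ∧
      Mx (Y z) k L (tl Y k W z u v).1 (tl Y k W z u v).2.1 (tl Y k W z u v).2.2 ∧
      u ∈ dI (tl Y k W z u v).1 (tl Y k W z u v).2.1 ∧
      v ∈ dI (tl Y k W z u v).1 (tl Y k W z u v).2.2 := by
  obtain ⟨L, hL, hy, hs⟩ := exists_leaf hW hK h
  have e := lfOf_eq hW hL hy
  refine ⟨L, hL, hy, hs, e, ?_, ?_, ?_⟩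
  · have h1 : Mx (Y ((z, u, v) : ℤ × ℤ × ℤ).1) k L (sc Y k L (z, u, v))
        (((z, u, v) : ℤ × ℤ × ℤ).2.1 / 2 ^ sc Y k L (z, u, v))
        (((z, u, v) : ℤ × ℤ × ℤ).2.2 / 2 ^ sc Y k L (z, u, v)) := Mx_mcell (Y := Y) (k := k) hy
    unfold tl mcell
    rw [e]
    exact h1
  · unfold tl mcell
    exact self_dI _ _
  · unfold tl mcell
    exact self_dI _ _

/-- a maximal cell of a leaf below `K` which meets a maximal cell of `K` lies in it -/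
lemma mx_sub {L : Nd} (hLK : iv L ⊆ iv K) (hle : L.1 ≤ K.1) (hM : Mx (Y z) k K m a b) {n : ℕ}
    {a' b' : ℤ} (hM' : Mx (Y z) k L n a' b') {u v : ℤ} (hu : u ∈ dI m a) (hv : v ∈ dI m b)
    (hu' : u ∈ dI n a') (hv' : v ∈ dI n b') :
    n ≤ m ∧ dI n a' ⊆ dI m a ∧ dI n b' ⊆ dI m b := by
  have hn : n ≤ m := by
    by_contra hc
    rw [not_le] at hc
    have h1 := hM'.1
    rcases hM.2.2 with he | he
    · omega
    · refine he (Ins.mono hLK (Ins.sub ?_ ?_ hM'.2.1))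
      · exact dI_nest hu' (half_mem hu) hc
      · exact dI_nest hv' (half_mem hv) hc
  exact ⟨hn, dI_nest hu hu' hn, dI_nest hv hv' hn⟩

lemma lvl_le {L : Nd} (hLK : iv L ⊆ iv K) : L.1 ≤ K.1 := by
  have h1 : ((iv L).card : ℝ) ≤ ((iv K).card : ℝ) := by exact_mod_cast Finset.card_le_card hLK
  have e : ∀ p : Nd, ((iv p).card : ℝ) = 2 ^ (p.1 + 7) := fun p => by
    unfold iv
    exact cdI _ _
  rw [e, e] at h1
  have := (pow_le_pow_iff_right₀ (by norm_num : (1 : ℝ) < 2)).1 h1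
  omega

variable (hW : Full W I) (hK : K ∈ W) (hM : Mx (Y z) k K m a b)
include hW hK hM

/-- a tile: its leaf, its maximality, its position -/
lemma til_spec {c : ℕ × ℤ × ℤ} (hc : c ∈ Til Y k W z m a b) :
    ∃ L ∈ lf W, iv L ⊆ iv K ∧ Mx (Y z) k L c.1 c.2.1 c.2.2 ∧
      c.1 ≤ m ∧ dI c.1 c.2.1 ⊆ dI m a ∧ dI c.1 c.2.2 ⊆ dI m b := by
  classical
  unfold Til at hc
  obtain ⟨⟨u, v⟩, huv, rfl⟩ := Finset.mem_image.1 hc
  rw [Finset.mem_product] at huv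
  obtain ⟨hu, hv⟩ := huv
  have hy : Y z u v ∈ iv K := hM.2.1 u hu v hv
  obtain ⟨L, hL, hyL, hs, e, h1, h2, h3⟩ := tl_spec (k := k) hW hK hy
  exact ⟨L, hL, hs, h1, mx_sub hs (lvl_le hs) hM h1 hu hv h2 h3⟩

/-- (G1) -/
theorem til_sub {c : ℕ × ℤ × ℤ} (hc : c ∈ Til Y k W z m a b) :
    dI c.1 c.2.1 ⊆ dI m a ∧ dI c.1 c.2.2 ⊆ dI m b := by
  obtain ⟨_, _, _, _, _, h1, h2⟩ := til_spec hW hK hM hc
  exact ⟨h1, h2⟩

/-- (G1) -/
theorem til_cov {u v : ℤ} (hu : u ∈ dI m a) (hv : v ∈ dI m b) :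
    tl Y k W z u v ∈ Til Y k W z m a b ∧ u ∈ dI (tl Y k W z u v).1 (tl Y k W z u v).2.1 ∧
      v ∈ dI (tl Y k W z u v).1 (tl Y k W z u v).2.2 := by
  classical
  obtain ⟨L, hL, hyL, hs, e, h1, h2, h3⟩ := tl_spec (k := k) hW hK (hM.2.1 u hu v hv)
  exact ⟨Finset.mem_image.2 ⟨(u, v), Finset.mem_product.2 ⟨hu, hv⟩, rfl⟩, h2, h3⟩

/-- (G1) the tile of a point of a tile -/
theorem tl_eq {c : ℕ × ℤ × ℤ} (hc : c ∈ Til Y k W z m a b) {u v : ℤ} (hu : u ∈ dI c.1 c.2.1)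
    (hv : v ∈ dI c.1 c.2.2) : tl Y k W z u v = c := by
  obtain ⟨L, hL, hs, h1, _, _, _⟩ := til_spec hW hK hM hc
  have hy : Y z u v ∈ iv L := h1.2.1 u hu v hv
  obtain ⟨L', hL', hyL', _, e, h1', h2', h3'⟩ := tl_spec (k := k) hW hK (hs hy)
  have e2 := lfOf_eq hW hL hy
  have e3 : L' = L := e.symm.trans e2
  subst e3
  obtain ⟨g1, g2, g3⟩ := Mx_eq h1' h1 h2' hu h3' hv
  exact Prod.ext g1 (Prod.ext g2 g3)

/-- (G1) -/
theorem til_dis {c c' : ℕ × ℤ × ℤ} (hc : c ∈ Til Y k W z m a b) (hc' : c' ∈ Til Y k W z m a b)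
    {u v : ℤ} (hu : u ∈ dI c.1 c.2.1) (hv : v ∈ dI c.1 c.2.2) (hu' : u ∈ dI c'.1 c'.2.1)
    (hv' : v ∈ dI c'.1 c'.2.2) : c = c' :=
  (tl_eq hW hK hM hc hu hv).symm.trans (tl_eq hW hK hM hc' hu' hv')

/-- (G3) selected tiles of a row -/
theorem row_card (P : ℕ × ℤ × ℤ → Prop) [DecidablePred P] {u : ℤ} (hu : u ∈ dI m a) :
    ∑ c ∈ (Til Y k W z m a b).filter (fun c => P c ∧ u ∈ dI c.1 c.2.1), (2 : ℝ) ^ c.1
      = ((dI m b).filter (fun v => P (tl Y k W z u v))).card := by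
  classical
  have e : (dI m b).filter (fun v => P (tl Y k W z u v))
      = ((Til Y k W z m a b).filter (fun c => P c ∧ u ∈ dI c.1 c.2.1)).biUnion
        (fun c => dI c.1 c.2.2) := by
    ext v
    simp only [Finset.mem_filter, Finset.mem_biUnion]
    constructor
    · rintro ⟨hv, hP⟩
      obtain ⟨h1, h2, h3⟩ := til_cov hW hK hM hu hv
      exact ⟨_, ⟨h1, hP, h2⟩, h3⟩
    · rintro ⟨c, ⟨hc, hP, hcu⟩, hcv⟩
      refine ⟨(til_sub hW hK hM hc).2 hcv, ?_⟩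
      rw [tl_eq hW hK hM hc hcu hcv]
      exact hP
  rw [e, Finset.card_biUnion]
  · push_cast
    refine Finset.sum_congr rfl fun c _ => ?_
    exact (cdI _ _).symm
  · intro c hc c' hc' hne
    refine Finset.disjoint_left.2 ?_
    intro v hv hv'
    rw [Finset.mem_coe, Finset.mem_filter] at hc hc'
    exact hne (til_dis hW hK hM hc.1 hc'.1 hc.2.2 hv hc'.2.2 hv')

/-- (G3) selected tiles of a column -/
theorem col_card (P : ℕ × ℤ × ℤ → Prop) [DecidablePred P] {v : ℤ} (hv : v ∈ dI m b) :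
    ∑ c ∈ (Til Y k W z m a b).filter (fun c => P c ∧ v ∈ dI c.1 c.2.2), (2 : ℝ) ^ c.1
      = ((dI m a).filter (fun u => P (tl Y k W z u v))).card := by
  classical
  have e : (dI m a).filter (fun u => P (tl Y k W z u v))
      = ((Til Y k W z m a b).filter (fun c => P c ∧ v ∈ dI c.1 c.2.2)).biUnion
        (fun c => dI c.1 c.2.1) := by
    ext u
    simp only [Finset.mem_filter, Finset.mem_biUnion]
    constructor
    · rintro ⟨hu, hP⟩
      obtain ⟨h1, h2, h3⟩ := til_cov hW hK hM hu hv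
      exact ⟨_, ⟨h1, hP, h3⟩, h2⟩
    · rintro ⟨c, ⟨hc, hP, hcv⟩, hcu⟩
      refine ⟨(til_sub hW hK hM hc).1 hcu, ?_⟩
      rw [tl_eq hW hK hM hc hcu hcv]
      exact hP
  rw [e, Finset.card_biUnion]
  · push_cast
    refine Finset.sum_congr rfl fun c _ => ?_
    exact (cdI _ _).symm
  · intro c hc c' hc' hne
    refine Finset.disjoint_left.2 ?_
    intro u hu hu'
    rw [Finset.mem_coe, Finset.mem_filter] at hc hc'
    exact hne (til_dis hW hK hM hc.1 hc'.1 hu hc.2.2 hu' hc'.2.2)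

end tiles

section kernel

variable {Y : ℤ → ℤ → ℤ → ℤ} {k : ℕ} {W : Finset Nd} {I K : Nd} {z : ℤ} {m : ℕ} {a b : ℤ}
  {S : Finset (ℤ × ℤ × ℤ)} {ν : ℝ}

open Classical in
/-- the glued leaf projections vanish off the band of the node -/
lemma bgl_zero {pos : ℤ × ℤ × ℤ → ℤ}
    (hB : Bnd (fun p => S.filter (fun ω => Y ω.1 ω.2.1 ω.2.2 ∈ iv p)) pos
      (NmP S cf (okc Y k)) ν) (aa : ℤ × ℤ × ℤ → ℂ) {r : ℝ} (hr : 0 ≤ r) (hW : Full W I)
    (g : Fn) (hK : K ∈ W) {ω : ℤ × ℤ × ℤ} (hω : ω ∉ S ∨ Y ω.1 ω.2.1 ω.2.2 ∉ iv K) :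
    Bgl (fun p => S.filter (fun ω => Y ω.1 ω.2.1 ω.2.2 ∈ iv p)) pos (NmP S cf (okc Y k)) aa r W K g
      ω = 0 := by
  refine (Bgl_adm hB aa hr hW g K hK).1 ω fun h => ?_
  have h' := Finset.mem_filter.1 h
  rcases hω with h1 | h1
  · exact h1 h'.1
  · exact h1 h'.2

open Classical in
/-- the glued leaf projections over a leaf -/
lemma bgl_leaf {pos : ℤ × ℤ × ℤ → ℤ}
    (hB : Bnd (fun p => S.filter (fun ω => Y ω.1 ω.2.1 ω.2.2 ∈ iv p)) pos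
      (NmP S cf (okc Y k)) ν) (aa : ℤ × ℤ × ℤ → ℂ) {r : ℝ} (hr : 0 ≤ r)
    (g : Fn) {L : Nd} (hL : L ∈ lf W) (hLK : iv L ⊆ iv K) {ω : ℤ × ℤ × ℤ}
    (hω : Y ω.1 ω.2.1 ω.2.2 ∈ iv L) :
    Bgl (fun p => S.filter (fun ω => Y ω.1 ω.2.1 ω.2.2 ∈ iv p)) pos (NmP S cf (okc Y k)) aa r W K g
      ω = Pj (fun p => S.filter (fun ω => Y ω.1 ω.2.1 ω.2.2 ∈ iv p)) (NmP S cf (okc Y k)) r L
        (ag (fun p => S.filter (fun ω => Y ω.1 ω.2.1 ω.2.2 ∈ iv p)) pos aa L g) ω := by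
  unfold Bgl
  rw [Finset.sum_eq_single L]
  · intro L' hL' hne
    rw [Finset.mem_filter] at hL'
    refine (Pj_spec hB hr L' _).1.1 ω fun h => hne ?_
    have h2 := (Finset.mem_filter.1 h).2
    rw [mem_lf] at hL
    have hL2 := mem_lf.1 hL'.1
    rcases iv_nest h2 hω with h3 | h3
    · exact hL.2 L' hL2.1 h3
    · exact (hL2.2 L hL.1 h3).symm
  · intro h
    exact absurd (Finset.mem_filter.2 ⟨hL, hLK⟩) h

open Classical in
/-- **(G2)**: the glued leaf projections on a tile -/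
theorem til_op {pos : ℤ × ℤ × ℤ → ℤ}
    (hB : Bnd (fun p => S.filter (fun ω => Y ω.1 ω.2.1 ω.2.2 ∈ iv p)) pos
      (NmP S cf (okc Y k)) ν) (aa : ℤ × ℤ × ℤ → ℂ) {r : ℝ} (hr : 0 ≤ r) (hW : Full W I)
    (g : Fn) (hK : K ∈ W) (hM : Mx (Y z) k K m a b) {c : ℕ × ℤ × ℤ}
    (hc : c ∈ Til Y k W z m a b) :
    OpS (dI c.1 c.2.1) (dI c.1 c.2.2) (fun u v => Bgl (fun p => S.filter
      (fun ω => Y ω.1 ω.2.1 ω.2.2 ∈ iv p)) pos (NmP S cf (okc Y k)) aa r W K g (z, u, v))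
      (r * 2 ^ c.1) := by
  obtain ⟨L, hL, hs, h1, _, _, _⟩ := til_spec hW hK hM hc
  have hP := (Pj_spec hB hr L (ag (fun p => S.filter (fun ω => Y ω.1 ω.2.1 ω.2.2 ∈ iv p)) pos aa L
    g)).1
  have hN := (N_iff (Y := Y) (k := k) (S := S) hr).1 hP.2 z c.1 c.2.1 c.2.2 h1
  have h2 := opS_of_opC hN
  refine Crest.Agent.R079.PjC881.opS_congr h2 fun u hu v hv => ?_
  have hy : Y z u v ∈ iv L := h1.2.1 u hu v hv
  rw [bgl_leaf hB aa hr g hL hs (ω := (z, u, v)) hy]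
  unfold msk
  split_ifs with hS
  · rfl
  · exact (hP.1 (z, u, v) fun h => hS (Finset.mem_filter.1 h).1).symm

end kernel

end Crest.Agent.R079.NrTx276
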