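import Crest.Agent.R079.NrT_259

/-! R079, notes 1820 / 1922 (T3), helper259: STAGE 1 of the frames of near-norming.

* `BF T J V b` : Bessel bound of the family `V k`, `k ∈ T`, on the set `J` (`BF.dual`, `BF.image`,
  `BF.blocks`, `BF.hs`, `BF.trace`);
* `y1` / `x1` : the averages over the alive tiles of the rows / columns of a cell;
* `y1_err` / `x1_err` : `∑ u, |y k u - y1 k u|² ≤ (1 / θ) (|y|² + |x|² - 2 / (r 2^m) Re)`;
* `y1_BF` / `x1_BF` : spread, `BF T (dI l a') y1 (2^l / 2^m / θ²)` if the alive tiles have side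
  `≤ 2^l`; `y1_BF_iv` on an interval. -/

set_option autoImplicit false

namespace Crest.Agent.R079.NrUx259

open Finset Crest.Agent.R079.Grid Crest.Agent.R079.NrMx259 Crest.Agent.R079.NrTx259
open Crest.Agent.R079.ClW59 (OpS)

open scoped ComplexConjugate

/-! ### Bessel families indexed by a finset -/

/-- Bessel family `V k`, `k ∈ T`, on `J` -/
def BF {κ : Type*} (T : Finset κ) (J : Finset ℤ) (V : κ → ℤ → ℂ) (b : ℝ) : Prop :=
  ∀ c : κ → ℂ, ∑ v ∈ J, ‖∑ k ∈ T, c k * V k v‖ ^ 2 ≤ b * ∑ k ∈ T, ‖c k‖ ^ 2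

section bf

variable {κ : Type*} {T : Finset κ} {I J : Finset ℤ} {V : κ → ℤ → ℂ} {b : ℝ}

lemma BF.mono {J' : Finset ℤ} (h : BF T J V b) (hJ : J' ⊆ J) : BF T J' V b := fun c =>
  (Finset.sum_le_sum_of_subset_of_nonneg hJ fun _ _ _ => sq_nonneg _).trans (h c)

lemma BF.mono_b {b' : ℝ} (h : BF T J V b) (hb : b ≤ b') : BF T J V b' := fun c =>
  (h c).trans (mul_le_mul_of_nonneg_right hb (Finset.sum_nonneg fun _ _ => sq_nonneg _))

lemma BF.congr {V' : κ → ℤ → ℂ} (h : BF T J V b) (e : ∀ k ∈ T, ∀ v ∈ J, V k v = V' k v) :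
    BF T J V' b := by
  intro c
  refine le_trans (le_of_eq ?_) (h c)
  refine Finset.sum_congr rfl fun v hv => ?_
  congr 2
  exact Finset.sum_congr rfl fun k hk => by rw [e k hk v hv]

/-- conjugate family -/
lemma BF.star (h : BF T J V b) : BF T J (fun k v => conj (V k v)) b := by
  intro c
  have h1 := h fun k => conj (c k)
  have e1 : ∀ v, ‖∑ k ∈ T, conj (c k) * V k v‖ = ‖∑ k ∈ T, c k * conj (V k v)‖ := by
    intro v
    rw [← RCLike.norm_conj (∑ k ∈ T, c k * conj (V k v)), map_sum]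
    congr 1
    refine Finset.sum_congr rfl fun k _ => ?_
    rw [map_mul, Complex.conj_conj]
  simp only [e1, RCLike.norm_conj] at h1
  exact h1

/-- Hilbert-Schmidt norm, one factor a Bessel family, columns depending on the row -/
theorem BF.hs_dep (Jr : ℤ → Finset ℤ) (h : ∀ u ∈ I, BF T (Jr u) V b) (x : κ → ℤ → ℂ) :
    ∑ u ∈ I, ∑ v ∈ Jr u, ‖∑ k ∈ T, x k u * V k v‖ ^ 2 ≤ b * ∑ u ∈ I, ∑ k ∈ T, ‖x k u‖ ^ 2 := by
  rw [Finset.mul_sum]
  exact Finset.sum_le_sum fun u hu => h u hu fun k => x k u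

theorem BF.hs (h : BF T J V b) (x : κ → ℤ → ℂ) :
    ∑ u ∈ I, ∑ v ∈ J, ‖∑ k ∈ T, x k u * V k v‖ ^ 2 ≤ b * ∑ k ∈ T, ∑ u ∈ I, ‖x k u‖ ^ 2 := by
  rw [Finset.sum_comm (s := T)]
  exact BF.hs_dep (fun _ => J) (fun _ _ => h) x

/-- image of a Bessel family under a kernel with an operator bound -/
theorem BF.image (h : BF T J V b) {I0 : Finset ℤ} {K : ℤ → ℤ → ℂ} {o : ℝ}
    (hK : OpS I0 J K o) : BF T I0 (fun k u => ∑ v ∈ J, K u v * V k v) (o ^ 2 * b) := by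
  intro c
  have e : ∀ u, ∑ k ∈ T, c k * ∑ v ∈ J, K u v * V k v = ∑ v ∈ J, K u v * ∑ k ∈ T, c k * V k v := by
    intro u
    simp only [Finset.mul_sum]
    rw [Finset.sum_comm]
    refine Finset.sum_congr rfl fun v _ => Finset.sum_congr rfl fun k _ => ?_
    ring
  simp only [e]
  have h1 := hK (fun v => ∑ k ∈ T, c k * V k v)
  have h2 := mul_le_mul_of_nonneg_left (h c) (sq_nonneg o)
  refine h1.trans (h2.trans (le_of_eq ?_))
  ring

/-- a row weight -/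
theorem BF.wgt (h : BF T J V b) (_hb : 0 ≤ b) {w : ℤ → ℂ} {M : ℝ} (hw : ∀ v ∈ J, ‖w v‖ ≤ M) :
    BF T J (fun k v => w v * V k v) (M ^ 2 * b) := by
  intro c
  have e : ∀ v, ∑ k ∈ T, c k * (w v * V k v) = w v * ∑ k ∈ T, c k * V k v := by
    intro v
    rw [Finset.mul_sum]
    exact Finset.sum_congr rfl fun k _ => by ring
  simp only [e]
  calc ∑ v ∈ J, ‖w v * ∑ k ∈ T, c k * V k v‖ ^ 2
      ≤ ∑ v ∈ J, M ^ 2 * ‖∑ k ∈ T, c k * V k v‖ ^ 2 := by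
        refine Finset.sum_le_sum fun v hv => ?_
        rw [norm_mul, mul_pow]
        exact mul_le_mul_of_nonneg_right (pow_le_pow_left₀ (norm_nonneg _) (hw v hv) 2)
          (sq_nonneg _)
    _ = M ^ 2 * ∑ v ∈ J, ‖∑ k ∈ T, c k * V k v‖ ^ 2 := by rw [Finset.mul_sum]
    _ ≤ M ^ 2 * (b * ∑ k ∈ T, ‖c k‖ ^ 2) := mul_le_mul_of_nonneg_left (h c) (sq_nonneg _)
    _ = _ := by ring

/-- each member -/
lemma BF.single (h : BF T J V b) {k : κ} (hk : k ∈ T) : ∑ v ∈ J, ‖V k v‖ ^ 2 ≤ b := by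
  classical
  have h1 := h (Pi.single k 1)
  have e1 : ∀ v, ∑ k' ∈ T, (Pi.single k (1 : ℂ) : κ → ℂ) k' * V k' v = V k v := by
    intro v
    rw [Finset.sum_eq_single k]
    · simp
    · intro k' _ hk
      simp [hk]
    · intro h
      exact absurd hk h
  have e2 : ∑ k' ∈ T, ‖(Pi.single k (1 : ℂ) : κ → ℂ) k'‖ ^ 2 = 1 := by
    rw [Finset.sum_eq_single k]
    · simp
    · intro k' _ hk
      simp [hk]
    · intro h
      exact absurd hk h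
  simp only [e1] at h1
  rw [e2, mul_one] at h1
  exact h1

/-- energy of the coefficients `d k` on a set where the family is spread -/
lemma BF.trace (h : BF T J V b) (d : κ → ℝ) :
    ∑ v ∈ J, ∑ k ∈ T, d k ^ 2 * ‖V k v‖ ^ 2 ≤ b * ∑ k ∈ T, d k ^ 2 := by
  rw [Finset.sum_comm, Finset.mul_sum]
  refine Finset.sum_le_sum fun k hk => ?_
  rw [← Finset.mul_sum, mul_comm b]
  exact mul_le_mul_of_nonneg_left (h.single hk) (sq_nonneg _)

lemma sum_biUnion_le {ι : Type*} [DecidableEq ι] (S : Finset ι) (P : ι → Finset ℤ) {f : ℤ → ℝ}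
    (hf : ∀ v, 0 ≤ f v) : ∑ v ∈ S.biUnion P, f v ≤ ∑ i ∈ S, ∑ v ∈ P i, f v := by
  induction S using Finset.induction_on with
  | empty => simp
  | insert i S hi ih =>
    rw [Finset.biUnion_insert, Finset.sum_insert hi]
    have h1 := Finset.sum_union_inter (s₁ := P i) (s₂ := S.biUnion P) (f := f)
    have h2 : 0 ≤ ∑ v ∈ P i ∩ S.biUnion P, f v := Finset.sum_nonneg fun v _ => hf v
    linarith

/-- union of blocks -/
theorem BF.blocks {ι : Type*} {S : Finset ι} {P : ι → Finset ℤ} (_hb : 0 ≤ b)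
    (h : ∀ i ∈ S, BF T (P i) V b) (hJ : ∀ v ∈ J, ∃ i ∈ S, v ∈ P i) : BF T J V (S.card * b) := by
  intro c
  have h1 : ∑ v ∈ J, ‖∑ k ∈ T, c k * V k v‖ ^ 2 ≤
      ∑ i ∈ S, ∑ v ∈ P i, ‖∑ k ∈ T, c k * V k v‖ ^ 2 := by
    classical
    calc ∑ v ∈ J, ‖∑ k ∈ T, c k * V k v‖ ^ 2
        ≤ ∑ v ∈ S.biUnion P, ‖∑ k ∈ T, c k * V k v‖ ^ 2 := by
          refine Finset.sum_le_sum_of_subset_of_nonneg (fun v hv => ?_) fun _ _ _ => sq_nonneg _
          obtain ⟨i, hi, hvi⟩ := hJ v hv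
          exact Finset.mem_biUnion.2 ⟨i, hi, hvi⟩
      _ ≤ _ := sum_biUnion_le S P fun _ => sq_nonneg _
  refine h1.trans ((Finset.sum_le_sum fun i hi => h i hi c).trans (le_of_eq ?_))
  rw [Finset.sum_const, nsmul_eq_mul]
  ring

theorem BF.dual (hb : 0 ≤ b) (h : BF T J V b) (f : ℤ → ℂ) :
    ∑ k ∈ T, ‖∑ v ∈ J, f v * V k v‖ ^ 2 ≤ b * ∑ v ∈ J, ‖f v‖ ^ 2 := by
  have h' : Bes J (fun (k : {k // k ∈ T}) v => V k v) b := by
    intro c
    classical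
    have h1 := h fun k => if hk : k ∈ T then c ⟨k, hk⟩ else 0
    rw [← Finset.sum_coe_sort T] at h1
    have e1 : ∀ v, ∑ k ∈ T, (if hk : k ∈ T then c ⟨k, hk⟩ else 0) * V k v =
        ∑ k : {k // k ∈ T}, c k * V k v := by
      intro v
      rw [← Finset.sum_coe_sort T]
      refine Finset.sum_congr rfl fun k _ => ?_
      rw [dif_pos k.2]
    have e2 : ∑ k : {k // k ∈ T}, ‖(if hk : (k : κ) ∈ T then c ⟨k, hk⟩ else 0)‖ ^ 2 =
        ∑ k, ‖c k‖ ^ 2 := by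
      refine Finset.sum_congr rfl fun k _ => ?_
      rw [dif_pos k.2]
    simp only [e1] at h1
    rw [e2] at h1
    exact h1
  have h2 := bes_dual hb h' f
  rw [← Finset.sum_coe_sort T]
  exact h2

/-- orthonormal families are Bessel families -/
theorem bf_of_ortho [DecidableEq κ] {J : Finset ℤ} {V : κ → ℤ → ℂ} {z : κ → Prop}
    [DecidablePred z]
    (ho : ∀ k ∈ T, ∀ l ∈ T, ∑ v ∈ J, conj (V k v) * V l v = if k = l ∧ z k then 1 else 0) :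
    BF T J V 1 := by
  intro c
  have e1 : ((∑ v ∈ J, ‖∑ k ∈ T, c k * V k v‖ ^ 2 : ℝ) : ℂ) =
      ∑ k ∈ T, if z k then conj (c k) * c k else 0 := by
    have e2 : ((∑ v ∈ J, ‖∑ k ∈ T, c k * V k v‖ ^ 2 : ℝ) : ℂ) =
        ∑ v ∈ J, ∑ k ∈ T, ∑ l ∈ T, conj (c k) * c l * (conj (V k v) * V l v) := by
      push_cast
      refine Finset.sum_congr rfl fun v _ => ?_
      rw [← Complex.conj_mul', map_sum, Finset.sum_mul_sum]
      refine Finset.sum_congr rfl fun k _ => Finset.sum_congr rfl fun l _ => ?_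
      rw [map_mul]
      ring
    rw [e2, Finset.sum_comm]
    refine Finset.sum_congr rfl fun k hk => ?_
    rw [Finset.sum_comm]
    have e3 : ∀ l ∈ T, ∑ v ∈ J, conj (c k) * c l * (conj (V k v) * V l v) =
        if k = l then (if z k then conj (c k) * c k else 0) else 0 := by
      intro l hl
      rw [← Finset.mul_sum, ho k hk l hl]
      by_cases h1 : k = l
      · subst h1
        by_cases h2 : z k <;> simp [h2]
      · simp [h1]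
    rw [Finset.sum_congr rfl e3, Finset.sum_ite_eq, if_pos hk]
  have e4 : ((∑ v ∈ J, ‖∑ k ∈ T, c k * V k v‖ ^ 2 : ℝ) : ℂ) =
      ((∑ k ∈ T, (if z k then ‖c k‖ ^ 2 else 0) : ℝ) : ℂ) := by
    rw [e1]
    push_cast
    refine Finset.sum_congr rfl fun k _ => ?_
    rw [Complex.conj_mul']
    split_ifs <;> simp
  have e5 : ∑ v ∈ J, ‖∑ k ∈ T, c k * V k v‖ ^ 2 = ∑ k ∈ T, (if z k then ‖c k‖ ^ 2 else 0) := by
    exact_mod_cast e4
  rw [one_mul, e5]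
  refine Finset.sum_le_sum fun k _ => ?_
  split_ifs
  · exact le_rfl
  · positivity

end bf

/-! ### stage 1 -/

section st

variable {m : ℕ} {a b : ℤ} {Ti A : Finset (ℕ × ℤ × ℤ)} {B : ℤ → ℤ → ℂ} {r θ : ℝ}

/-- mean over the alive tiles of the column -/
noncomputable def avgc (m : ℕ) (a : ℤ) (A : Finset (ℕ × ℤ × ℤ)) (B : ℤ → ℤ → ℂ) (r : ℝ)
    (y : ℤ → ℂ) (v : ℤ) : ℂ :=
  (∑ u ∈ dI m a, conj (mB A B u v) * y u) / ((r * wtc A v : ℝ) : ℂ)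

lemma avgc_sub (m : ℕ) (a : ℤ) (A : Finset (ℕ × ℤ × ℤ)) (B : ℤ → ℤ → ℂ) (r : ℝ) (y y' : ℤ → ℂ)
    (v : ℤ) : avgc m a A B r y v - avgc m a A B r y' v =
      avgc m a A B r (fun u => y u - y' u) v := by
  unfold avgc
  rw [← sub_div, ← Finset.sum_sub_distrib]
  congr 1
  exact Finset.sum_congr rfl fun v _ => by ring

/-- swapped tile -/
def sw (c : ℕ × ℤ × ℤ) : ℕ × ℤ × ℤ := (c.1, c.2.2, c.2.1)

lemma sw_sw (c : ℕ × ℤ × ℤ) : sw (sw c) = c := rfl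

lemma mem_sw {A : Finset (ℕ × ℤ × ℤ)} {c : ℕ × ℤ × ℤ} : c ∈ A.image sw ↔ sw c ∈ A := by
  rw [Finset.mem_image]
  constructor
  · rintro ⟨d, hd, rfl⟩
    exact hd
  · intro h
    exact ⟨sw c, h, rfl⟩

lemma Tlg.sw (h : Tlg m a b Ti) : Tlg m b a (Ti.image sw) := h.swap

lemma wt_sw (A : Finset (ℕ × ℤ × ℤ)) (v : ℤ) : wt (A.image sw) v = wtc A v := by
  unfold wt wtc
  rw [Finset.filter_image, Finset.sum_image]
  · rfl
  · intro c _ c' _ hcc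
    have := congrArg sw hcc
    exact this

lemma mB_sw (A : Finset (ℕ × ℤ × ℤ)) (B : ℤ → ℤ → ℂ) (v u : ℤ) :
    mB (A.image sw) (fun v u => conj (B u v)) v u = conj (mB A B u v) := by
  classical
  unfold mB
  have e : (∃ c ∈ A.image sw, v ∈ Rw c ∧ u ∈ Cl c) ↔ ∃ c ∈ A, u ∈ Rw c ∧ v ∈ Cl c := by
    constructor
    · rintro ⟨c, hc, h1, h2⟩
      exact ⟨sw c, mem_sw.1 hc, h2, h1⟩
    · rintro ⟨c, hc, h1, h2⟩
      exact ⟨sw c, mem_sw.2 (by rw [sw_sw]; exact hc), h2, h1⟩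
  by_cases hc : ∃ c ∈ A, u ∈ Rw c ∧ v ∈ Cl c
  · rw [if_pos hc, if_pos (e.2 hc)]
  · rw [if_neg hc, if_neg (fun h => hc (e.1 h)), map_zero]

lemma avgc_eq (m : ℕ) (a : ℤ) (A : Finset (ℕ × ℤ × ℤ)) (B : ℤ → ℤ → ℂ) (r : ℝ) (y : ℤ → ℂ)
    (v : ℤ) : avgc m a A B r y v = avg m a (A.image sw) (fun v u => conj (B u v)) r y v := by
  unfold avgc avg
  rw [wt_sw]
  congr 1
  exact Finset.sum_congr rfl fun u _ => by rw [mB_sw]

/-- operator bounds of the swapped tiles -/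
lemma op_sw (hr : 0 ≤ r) (hop : ∀ c ∈ A, OpS (Rw c) (Cl c) B (r * 2 ^ c.1)) :
    ∀ c ∈ A.image sw, OpS (Rw c) (Cl c) (fun v u => conj (B u v)) (r * 2 ^ c.1) := by
  intro c hc
  exact opS_swap (by positivity) (hop (sw c) (mem_sw.1 hc))

/-- **stage 1, error of the rows** -/
theorem y1_err (h : Tlg m a b Ti) (hA : A ⊆ Ti) (hr : 0 < r) (hθ : 0 < θ)
    (hop : ∀ c ∈ Ti, OpS (Rw c) (Cl c) B (r * 2 ^ c.1)) (y x : ℤ → ℂ) {I : Finset ℤ}
    (hI : I ⊆ dI m a) (hw : ∀ u ∈ I, θ * 2 ^ m ≤ wt A u) :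
    ∑ u ∈ I, ‖y u - avg m b A B r x u‖ ^ 2 ≤
      1 / θ * (∑ u ∈ dI m a, ‖y u‖ ^ 2 + ∑ v ∈ dI m b, ‖x v‖ ^ 2 -
        2 / (r * 2 ^ m) * (∑ u ∈ dI m a, ∑ v ∈ dI m b, conj (y u) * (B u v * x v)).re) := by
  have h1 := lemA h hr hop y x
  refine le_trans ?_ (mul_le_mul_of_nonneg_left h1 (by positivity))
  rw [Finset.mul_sum]
  refine le_trans (Finset.sum_le_sum fun u hu => ?_)
    (Finset.sum_le_sum_of_subset_of_nonneg hI fun u _ _ => ?_)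
  · have hw0 : 0 < wt A u := lt_of_lt_of_le (by positivity) (hw u hu)
    refine (jen h hA hr (y u) x hw0).trans ?_
    have h2 : 2 ^ m / wt A u ≤ 1 / θ := by
      rw [div_le_div_iff₀ hw0 hθ]
      have := hw u hu
      linarith
    have h3 : ∑ c ∈ A.filter (fun c => u ∈ Rw c), (2 : ℝ) ^ c.1 / 2 ^ m *
        ‖y u - mc B r x c u‖ ^ 2 ≤ ∑ c ∈ Ti.filter (fun c => u ∈ Rw c), (2 : ℝ) ^ c.1 / 2 ^ m *
        ‖y u - mc B r x c u‖ ^ 2 :=
      Finset.sum_le_sum_of_subset_of_nonneg (Finset.filter_subset_filter _ hA)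
        fun c _ _ => by positivity
    exact mul_le_mul h2 h3 (Finset.sum_nonneg fun c _ => by positivity) (by positivity)
  · exact mul_nonneg (by positivity) (Finset.sum_nonneg fun c _ => by positivity)

/-- **stage 1, error of the columns** -/
theorem x1_err (h : Tlg m a b Ti) (hA : A ⊆ Ti) (hr : 0 < r) (hθ : 0 < θ)
    (hop : ∀ c ∈ Ti, OpS (Rw c) (Cl c) B (r * 2 ^ c.1)) (y x : ℤ → ℂ) {J : Finset ℤ}
    (hJ : J ⊆ dI m b) (hw : ∀ v ∈ J, θ * 2 ^ m ≤ wtc A v) :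
    ∑ v ∈ J, ‖x v - avgc m a A B r y v‖ ^ 2 ≤
      1 / θ * (∑ u ∈ dI m a, ‖y u‖ ^ 2 + ∑ v ∈ dI m b, ‖x v‖ ^ 2 -
        2 / (r * 2 ^ m) * (∑ u ∈ dI m a, ∑ v ∈ dI m b, conj (y u) * (B u v * x v)).re) := by
  have h1 := y1_err (Tlg.sw h) (Finset.image_subset_image hA) hr hθ (op_sw hr.le hop) x y hJ
    (fun v hv => by rw [wt_sw]; exact hw v hv)
  simp only [avgc_eq]
  refine h1.trans (le_of_eq ?_)
  have e2 : (∑ v ∈ dI m b, ∑ u ∈ dI m a, conj (x v) * (conj (B u v) * y u)).re =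
      (∑ u ∈ dI m a, ∑ v ∈ dI m b, conj (y u) * (B u v * x v)).re := by
    rw [Finset.sum_comm, ← Complex.conj_re]
    congr 1
    rw [map_sum]
    refine Finset.sum_congr rfl fun u _ => ?_
    rw [map_sum]
    refine Finset.sum_congr rfl fun v _ => ?_
    simp only [map_mul, Complex.conj_conj]
    ring
  rw [e2]
  ring

variable {κ : Type*} {T : Finset κ} {X Y : κ → ℤ → ℂ}

/-- **stage 1, spread of the rows** on a block at least as large as the alive tiles -/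
theorem y1_BF (h : Tlg m a b Ti) (hA : A ⊆ Ti) (hr : 0 < r) (hθ : 0 < θ)
    (hop : ∀ c ∈ A, OpS (Rw c) (Cl c) B (r * 2 ^ c.1)) {l : ℕ} (hl : ∀ c ∈ A, c.1 ≤ l)
    {s1 : ℝ} (hs1 : 0 ≤ s1) (hX : BF T (dI m b) X s1) (a' : ℤ) {I : Finset ℤ} (hI : I ⊆ dI l a')
    (hw : ∀ u ∈ I, θ * 2 ^ m ≤ wt A u) :
    BF T I (fun k u => avg m b A B r (X k) u) (s1 * 2 ^ l / 2 ^ m / θ ^ 2) := by
  have h1 : BF T I (fun k u => ∑ v ∈ dI m b, mB A B u v * X k v)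
      ((r * Real.sqrt (2 ^ m * 2 ^ l)) ^ 2 * s1) :=
    (hX.image (spreadR h hA hop hl a')).mono hI
  have h2 := h1.wgt (by positivity) (w := fun u => (((r * wt A u : ℝ) : ℂ))⁻¹)
    (M := (r * (θ * 2 ^ m))⁻¹) fun u hu => by
      have hw0 : 0 < wt A u := lt_of_lt_of_le (by positivity) (hw u hu)
      rw [norm_inv, Complex.norm_real, Real.norm_of_nonneg (by positivity)]
      exact inv_anti₀ (by positivity) (mul_le_mul_of_nonneg_left (hw u hu) hr.le)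
  have e : (r * (θ * 2 ^ m))⁻¹ ^ 2 * ((r * Real.sqrt (2 ^ m * 2 ^ l)) ^ 2 * s1) =
      s1 * 2 ^ l / 2 ^ m / θ ^ 2 := by
    rw [mul_pow r, Real.sq_sqrt (by positivity)]
    field_simp
  rw [e] at h2
  refine h2.congr fun k _ u _ => ?_
  unfold avg
  rw [div_eq_inv_mul]

theorem x1_BF (h : Tlg m a b Ti) (hA : A ⊆ Ti) (hr : 0 < r) (hθ : 0 < θ)
    (hop : ∀ c ∈ A, OpS (Rw c) (Cl c) B (r * 2 ^ c.1)) {l : ℕ} (hl : ∀ c ∈ A, c.1 ≤ l)
    {s1 : ℝ} (hs1 : 0 ≤ s1) (hY : BF T (dI m a) Y s1) (b' : ℤ) {J : Finset ℤ} (hJ : J ⊆ dI l b')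
    (hw : ∀ v ∈ J, θ * 2 ^ m ≤ wtc A v) :
    BF T J (fun k v => avgc m a A B r (Y k) v) (s1 * 2 ^ l / 2 ^ m / θ ^ 2) := by
  have h1 := y1_BF (Tlg.sw h) (Finset.image_subset_image hA) hr hθ (op_sw hr.le hop)
    (l := l) (fun c hc => hl (sw c) (mem_sw.1 hc)) hs1 hY b' hJ
    (fun v hv => by rw [wt_sw]; exact hw v hv)
  exact h1.congr fun k _ v _ => (avgc_eq m a A B r (Y k) v).symm

/-- blocks of level `l` meeting an interval -/
lemma blocks_Ico {l : ℕ} {x y : ℤ} {N : ℕ} (hN : y - x ≤ N * 2 ^ l) :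
    ∃ S : Finset ℤ, S.card ≤ N + 1 ∧ ∀ v ∈ Finset.Ico x y, ∃ i ∈ S, v ∈ dI l i := by
  refine ⟨Finset.Ico (x / 2 ^ l) (x / 2 ^ l + (N + 1 : ℕ)), by simp, fun v hv => ?_⟩
  have h2 : (0 : ℤ) < 2 ^ l := by positivity
  rw [Finset.mem_Ico] at hv
  refine ⟨v / 2 ^ l, Finset.mem_Ico.2 ⟨Int.ediv_le_ediv h2 hv.1, ?_⟩, mem_dI.2 rfl⟩
  rw [Int.ediv_lt_iff_lt_mul h2]
  have h3 : x < (x / 2 ^ l + 1) * 2 ^ l := Int.lt_ediv_add_one_mul_self _ h2
  push_cast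
  nlinarith [hv.2]

/-- spread on an interval of length `≤ N 2^l` -/
theorem y1_BF_iv (h : Tlg m a b Ti) (hA : A ⊆ Ti) (hr : 0 < r) (hθ : 0 < θ)
    (hop : ∀ c ∈ A, OpS (Rw c) (Cl c) B (r * 2 ^ c.1)) {l : ℕ} (hl : ∀ c ∈ A, c.1 ≤ l)
    {s1 : ℝ} (hs1 : 0 ≤ s1) (hX : BF T (dI m b) X s1) {I : Finset ℤ} {x y : ℤ} {N : ℕ}
    (hN : y - x ≤ N * 2 ^ l) (hI : I ⊆ Finset.Ico x y) (hw : ∀ u ∈ I, θ * 2 ^ m ≤ wt A u) :
    BF T I (fun k u => avg m b A B r (X k) u) ((N + 1) * (s1 * 2 ^ l / 2 ^ m / θ ^ 2)) := by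
  classical
  obtain ⟨S, hS, hc⟩ := blocks_Ico hN
  have h1 := BF.blocks (T := T) (J := I) (V := fun k u => avg m b A B r (X k) u) (S := S)
    (P := fun i => I ∩ dI l i) (b := s1 * 2 ^ l / 2 ^ m / θ ^ 2) (by positivity)
    (fun i _ => y1_BF h hA hr hθ hop hl hs1 hX i Finset.inter_subset_right
      fun u hu => hw u (Finset.mem_inter.1 hu).1)
    (fun v hv => by
      obtain ⟨i, hi, hvi⟩ := hc v (hI hv)
      exact ⟨i, hi, Finset.mem_inter.2 ⟨hv, hvi⟩⟩)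
  refine h1.mono_b (mul_le_mul_of_nonneg_right ?_ (by positivity))
  exact_mod_cast hS

theorem x1_BF_iv (h : Tlg m a b Ti) (hA : A ⊆ Ti) (hr : 0 < r) (hθ : 0 < θ)
    (hop : ∀ c ∈ A, OpS (Rw c) (Cl c) B (r * 2 ^ c.1)) {l : ℕ} (hl : ∀ c ∈ A, c.1 ≤ l)
    {s1 : ℝ} (hs1 : 0 ≤ s1) (hY : BF T (dI m a) Y s1) {J : Finset ℤ} {x y : ℤ} {N : ℕ}
    (hN : y - x ≤ N * 2 ^ l) (hJ : J ⊆ Finset.Ico x y) (hw : ∀ v ∈ J, θ * 2 ^ m ≤ wtc A v) :
    BF T J (fun k v => avgc m a A B r (Y k) v) ((N + 1) * (s1 * 2 ^ l / 2 ^ m / θ ^ 2)) := by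
  classical
  obtain ⟨S, hS, hc⟩ := blocks_Ico hN
  have h1 := BF.blocks (T := T) (J := J) (V := fun k v => avgc m a A B r (Y k) v) (S := S)
    (P := fun i => J ∩ dI l i) (b := s1 * 2 ^ l / 2 ^ m / θ ^ 2) (by positivity)
    (fun i _ => x1_BF h hA hr hθ hop hl hs1 hY i Finset.inter_subset_right
      fun u hu => hw u (Finset.mem_inter.1 hu).1)
    (fun v hv => by
      obtain ⟨i, hi, hvi⟩ := hc v (hJ hv)
      exact ⟨i, hi, Finset.mem_inter.2 ⟨hv, hvi⟩⟩)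
  refine h1.mono_b (mul_le_mul_of_nonneg_right ?_ (by positivity))
  exact_mod_cast hS

end st

end Crest.Agent.R079.NrUx259
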