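import Crest.Agent.R079.NrA_228
import Crest.Agent.R079.NrU_259
import Crest.Agent.R079.NrT_276
import Crest.Agent.R079.SbZ_795

/-! # R079 (S0106), cure of the nest-depth count, T3: THE FRAMES OF A CELL (helper228), definitions.

`y1, x1` : first smoothing (means over the alive tiles `E1`); `yt, xt` : second smoothing, inside one
grid node (`E2`); `Pu, Qv` : the two factors of the frame kernel of a ladder step; `CU, CW` : the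
kernels which dominate them.  `Al` : tiles whose leaf satisfies a property; `E1, E2` : the alive
tiles of a sub-top `K`; `Zc` : the frame kernel of one cell. -/

set_option autoImplicit false

namespace Crest.Agent.R079.NrBx228

open Finset Crest.Agent.R079.Grid Crest.Agent.R079.Growth Crest.Agent.R079.QRed
  Crest.Agent.R079.Qh249 Crest.Agent.R079.QVar181 Crest.Agent.R079.TWin
open Crest.Agent.R079.ThA159 Crest.Agent.R079.Cel159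
open Crest.Agent.R079.Whit (Ins)
open Crest.Agent.R079.ClW59 (OpS cl)
open Crest.Agent.R079.NrTx259 Crest.Agent.R079.NrUx259 Crest.Agent.R079.NrTx276
  Crest.Agent.R079.NrAx228 Crest.Agent.R079.SbWx795

open scoped ComplexConjugate

section cell

variable (m : ℕ) (a b : ℤ) (E1 E2 : Finset (ℕ × ℤ × ℤ)) (B : ℤ → ℤ → ℂ) (r lq : ℝ)
  (Y X : ℤ → ℤ → ℂ) (d : ℤ → ℝ)

/-- first smoothing, rows -/
noncomputable def y1 (k u : ℤ) : ℂ := avg m b E1 B r (X k) u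

/-- first smoothing, columns -/
noncomputable def x1 (k v : ℤ) : ℂ := avgc m a E1 B r (Y k) v

open Classical in
/-- second smoothing, rows -/
noncomputable def yt (k u : ℤ) : ℂ :=
  if lq ≤ wt E2 u then avg m b E2 B r (x1 m a E1 B r Y k) u else 0

open Classical in
/-- second smoothing, columns -/
noncomputable def xt (k v : ℤ) : ℂ :=
  if lq ≤ wtc E2 v then avgc m a E2 B r (y1 m b E1 B r X k) v else 0

/-- left factor of the frame kernel -/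
noncomputable def Pu (u k : ℤ) : ℂ := (Real.sqrt (d k) : ℂ) * yt m a b E1 E2 B r lq Y k u

/-- right factor of the frame kernel -/
noncomputable def Qv (v k : ℤ) : ℂ := (Real.sqrt (d k) : ℂ) * conj (xt m a b E1 E2 B r lq X k v)

open Classical in
/-- dominating kernel, rows -/
noncomputable def CU (u v : ℤ) : ℂ := if lq ≤ wt E2 u then ((lq / wt E2 u : ℝ) : ℂ) * mB E2 B u v else 0

open Classical in
/-- dominating kernel, columns -/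
noncomputable def CW (u v : ℤ) : ℂ :=
  if lq ≤ wtc E2 v then ((lq / wtc E2 v : ℝ) : ℂ) * mB E2 B u v else 0

variable {m a b E1 E2 B r lq Y X d}

lemma PuQv {k u v : ℤ} (hd : 0 ≤ d k) : Pu m a b E1 E2 B r lq Y d u k *
    Qv m a b E1 E2 B r lq X d v k = (d k : ℂ) * (yt m a b E1 E2 B r lq Y k u *
      conj (xt m a b E1 E2 B r lq X k v)) := by
  unfold Pu Qv
  have h : (Real.sqrt (d k) : ℂ) * (Real.sqrt (d k) : ℂ) = (d k : ℂ) := by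
    rw [← Complex.ofReal_mul, Real.mul_self_sqrt hd]
  calc _ = ((Real.sqrt (d k) : ℂ) * (Real.sqrt (d k) : ℂ)) * (yt m a b E1 E2 B r lq Y k u *
      conj (xt m a b E1 E2 B r lq X k v)) := by ring
    _ = _ := by rw [h]

end cell

section glob

variable (Y : ℤ → ℤ → ℤ → ℤ) (k : ℕ) (W : Finset Nd)

open Classical in
/-- tiles whose leaf satisfies `P` -/
noncomputable def Al (z : ℤ) (m : ℕ) (a b : ℤ) (P : Nd → Prop) : Finset (ℕ × ℤ × ℤ) :=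
  (Til Y k W z m a b).filter (fun c => P (lfOf W (Y z (c.2.1 * 2 ^ c.1) (c.2.2 * 2 ^ c.1))))

/-- tiles alive at the level `K.1 - j0` -/
noncomputable def E1 (j0 : ℕ) (K : Nd) (z : ℤ) (m : ℕ) (a b : ℤ) : Finset (ℕ × ℤ × ℤ) :=
  Al Y k W z m a b (fun L => L.1 + j0 ≤ K.1)

/-- tiles of the grid node `q` alive at its level `dq` -/
noncomputable def E2 (n0 : ℕ) (q : Nd) (z : ℤ) (m : ℕ) (a b : ℤ) : Finset (ℕ × ℤ × ℤ) :=
  Al Y k W z m a b (fun L => iv L ⊆ iv q ∧ L.1 ≤ dq W n0 q)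

variable {Ω : Type*}

/-- the letter seen through the gauge on one cell -/
noncomputable def Ak (Bd : Nd → Finset (ℤ × ℤ × ℤ)) (pos : ℤ × ℤ × ℤ → ℤ) (aa : ℤ × ℤ × ℤ → ℂ)
    (K : Nd) (g : Fn) (z u v : ℤ) : ℂ := ag Bd pos aa K g (z, u, v)

/-- the glued competitor on one cell -/
noncomputable def Bk (Bd : Nd → Finset (ℤ × ℤ × ℤ)) (pos : ℤ × ℤ × ℤ → ℤ)
    (N : Nd → (ℤ × ℤ × ℤ → ℂ) → ℝ) (aa : ℤ × ℤ × ℤ → ℂ) (rq : ℝ) (W : Finset Nd) (K : Nd) (g : Fn)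
    (z u v : ℤ) : ℂ := Bgl Bd pos N aa rq W K g (z, u, v)

/-- singular values of a kernel on a rectangle -/
noncomputable def sS (A : ℤ → ℤ → ℂ) (S T : Finset ℤ) : ℤ → ℝ := Classical.choose (exists_svC A S T)

/-- left singular vectors -/
noncomputable def sY (A : ℤ → ℤ → ℂ) (S T : Finset ℤ) : ℤ → ℤ → ℂ :=
  Classical.choose (Classical.choose_spec (exists_svC A S T))

/-- right singular vectors -/
noncomputable def sX (A : ℤ → ℤ → ℂ) (S T : Finset ℤ) : ℤ → ℤ → ℂ :=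
  Classical.choose (Classical.choose_spec (Classical.choose_spec (exists_svC A S T)))

theorem sv (A : ℤ → ℤ → ℂ) (S T : Finset ℤ) : SvC A S T (sS A S T) (sY A S T) (sX A S T) :=
  Classical.choose_spec (Classical.choose_spec (Classical.choose_spec (exists_svC A S T)))

/-- coefficients of the step `q` of a ladder `r` of length `Kl` on a cell of side `2^m`
(the last step is not framed) -/
noncomputable def dd (s : ℤ → ℝ) (r : ℕ → ℝ) (Kl q m : ℕ) (k : ℤ) : ℝ :=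
  if q + 1 < Kl then dk s (r q * 2 ^ m) (r (q + 1) * 2 ^ m) k else 0

end glob

/-! ## the frames of a sub-top -/

section sub

/-- left frame factor of the sub-top `K` (window `W`) on its grid node `q0`, gauge `aa`, step `q`,
cell `t = (m, a, b)` at `z` -/
noncomputable def PF (Y : ℤ → ℤ → ℤ → ℤ) (kc j0 n0 Kl : ℕ) (W : Finset Nd) (K : Nd)
    (Bd : Nd → Finset (ℤ × ℤ × ℤ)) (pos : ℤ × ℤ × ℤ → ℤ) (N : Nd → (ℤ × ℤ × ℤ → ℂ) → ℝ)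
    (aa : ℤ × ℤ × ℤ → ℂ) (r : ℕ → ℝ) (g : Fn) (T1 T2 : Finset ℤ) (q : ℕ) (q0 : Nd) (z : ℤ)
    (t : ℕ × ℤ × ℤ) (u k : ℤ) : ℂ :=
  Pu t.1 t.2.1 t.2.2 (E1 Y kc W j0 K z t.1 t.2.1 t.2.2) (E2 Y kc W n0 q0 z t.1 t.2.1 t.2.2)
    (Bk Bd pos N aa (r q) W K g z) (r q) (2 ^ q0.1)
    (sY (Ak Bd pos aa K g z) (dI t.1 t.2.1 ∩ T1) (dI t.1 t.2.2 ∩ T2))
    (dd (sS (Ak Bd pos aa K g z) (dI t.1 t.2.1 ∩ T1) (dI t.1 t.2.2 ∩ T2)) r Kl q t.1) u k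

/-- right frame factor -/
noncomputable def QF (Y : ℤ → ℤ → ℤ → ℤ) (kc j0 n0 Kl : ℕ) (W : Finset Nd) (K : Nd)
    (Bd : Nd → Finset (ℤ × ℤ × ℤ)) (pos : ℤ × ℤ × ℤ → ℤ) (N : Nd → (ℤ × ℤ × ℤ → ℂ) → ℝ)
    (aa : ℤ × ℤ × ℤ → ℂ) (r : ℕ → ℝ) (g : Fn) (T1 T2 : Finset ℤ) (q : ℕ) (q0 : Nd) (z : ℤ)
    (t : ℕ × ℤ × ℤ) (v k : ℤ) : ℂ :=
  Qv t.1 t.2.1 t.2.2 (E1 Y kc W j0 K z t.1 t.2.1 t.2.2) (E2 Y kc W n0 q0 z t.1 t.2.1 t.2.2)
    (Bk Bd pos N aa (r q) W K g z) (r q) (2 ^ q0.1)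
    (sX (Ak Bd pos aa K g z) (dI t.1 t.2.1 ∩ T1) (dI t.1 t.2.2 ∩ T2))
    (dd (sS (Ak Bd pos aa K g z) (dI t.1 t.2.1 ∩ T1) (dI t.1 t.2.2 ∩ T2)) r Kl q t.1) v k

/-- dominating kernel, rows -/
noncomputable def CUF (Y : ℤ → ℤ → ℤ → ℤ) (kc n0 : ℕ) (W : Finset Nd) (K : Nd)
    (Bd : Nd → Finset (ℤ × ℤ × ℤ)) (pos : ℤ × ℤ × ℤ → ℤ) (N : Nd → (ℤ × ℤ × ℤ → ℂ) → ℝ)
    (aa : ℤ × ℤ × ℤ → ℂ) (r : ℕ → ℝ) (g : Fn) (q : ℕ) (q0 : Nd) (z : ℤ)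
    (t : ℕ × ℤ × ℤ) (u v : ℤ) : ℂ :=
  CU (E2 Y kc W n0 q0 z t.1 t.2.1 t.2.2) (Bk Bd pos N aa (r q) W K g z) (2 ^ q0.1) u v

/-- dominating kernel, columns -/
noncomputable def CWF (Y : ℤ → ℤ → ℤ → ℤ) (kc n0 : ℕ) (W : Finset Nd) (K : Nd)
    (Bd : Nd → Finset (ℤ × ℤ × ℤ)) (pos : ℤ × ℤ × ℤ → ℤ) (N : Nd → (ℤ × ℤ × ℤ → ℂ) → ℝ)
    (aa : ℤ × ℤ × ℤ → ℂ) (r : ℕ → ℝ) (g : Fn) (q : ℕ) (q0 : Nd) (z : ℤ)
    (t : ℕ × ℤ × ℤ) (u v : ℤ) : ℂ :=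
  CW (E2 Y kc W n0 q0 z t.1 t.2.1 t.2.2) (Bk Bd pos N aa (r q) W K g z) (2 ^ q0.1) u v

open Classical in
/-- **the frame kernel of the step `q`**: on the grid nodes `Q` of `K` the product of the factors,
`0` elsewhere -/
noncomputable def ZF (Y : ℤ → ℤ → ℤ → ℤ) (kc j0 n0 Kl : ℕ) (W : Finset Nd) (K : Nd)
    (Bd : Nd → Finset (ℤ × ℤ × ℤ)) (pos : ℤ × ℤ × ℤ → ℤ) (N : Nd → (ℤ × ℤ × ℤ → ℂ) → ℝ)
    (aa : ℤ × ℤ × ℤ → ℂ) (r : ℕ → ℝ) (g : Fn) (T1 T2 : Finset ℤ) (Q : Finset Nd) (q : ℕ)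
    (ω : ℤ × ℤ × ℤ) : ℂ :=
  ∑ q0 ∈ Q, if Y ω.1 ω.2.1 ω.2.2 ∈ iv q0 then
    ∑ k ∈ T2, PF Y kc j0 n0 Kl W K Bd pos N aa r g T1 T2 q q0 ω.1 (mcell Y kc K ω).2 ω.2.1 k *
      QF Y kc j0 n0 Kl W K Bd pos N aa r g T1 T2 q q0 ω.1 (mcell Y kc K ω).2 ω.2.2 k else 0

end sub

end Crest.Agent.R079.NrBx228
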