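import Crest.Agent.R079.NrU_259
import Crest.Agent.R079.NrA_228

/-! R079, notes 1820 / 1922 (T3), helper259: STAGE 1 in the singular value form of NrA_228.

`A` on `S × T` (`S ⊆ dI m a`, `T ⊆ dI m b`) with `SvC A S T s Y X`, `B` the glued leaf clip at threshold
`r`, `A1` the alive tiles, `y1 k = avg .. (X k)`, `x1 k = avgc .. (Y k)`, `Gd = ∑ max (s k - ρ) 0 * dfc`.
* `bfX`, `bfY` : Bessel families; `dfc_ext` : the deficit as a sum over the cell;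
* `row_err`, `col_err` : `∑ |Y k - y1 k|² ≤ 2 / (θ ρ) dfc k`;
* `E1`, `E2` : `∑ k, d k² ∑ |Y k - y1 k|² ≤ 2 (r' - r) / (θ r) Gd`;
* `E3r`, `E3c` : energy of the step on edge rows / columns. -/

set_option autoImplicit false

namespace Crest.Agent.R079.NrWx259

open Finset Crest.Agent.R079.Grid Crest.Agent.R079.NrMx259 Crest.Agent.R079.NrTx259
  Crest.Agent.R079.NrUx259 Crest.Agent.R079.NrAx228
open Crest.Agent.R079.ClW59 (OpS)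

open scoped ComplexConjugate

variable {m : ℕ} {a b : ℤ} {Ti A1 : Finset (ℕ × ℤ × ℤ)} {A B : ℤ → ℤ → ℂ} {S T : Finset ℤ}
  {s : ℤ → ℝ} {Y X : ℤ → ℤ → ℂ} {r r' θ : ℝ}

lemma X_off (H : SvC A S T s Y X) (k : ℤ) {v : ℤ} (hv : v ∉ T) : X k v = 0 :=
  H.x0 k v fun h => hv h.2

lemma Y_off (H : SvC A S T s Y X) (k : ℤ) {u : ℤ} (hu : u ∉ S) : Y k u = 0 :=
  H.y0 k u fun h => hu h.2

/-- right singular vectors -/
theorem bfX (H : SvC A S T s Y X) (hT : T ⊆ dI m b) : BF T (dI m b) X 1 := by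
  refine bf_of_ortho (z := fun _ => True) fun k hk l hl => ?_
  have h1 := H.ox k hk l hl
  rw [← Finset.sum_subset hT (f := fun v => conj (X k v) * X l v)
    (fun v _ hv => by rw [X_off H k hv]; simp), h1]
  simp

/-- left singular vectors -/
theorem bfY (H : SvC A S T s Y X) (hS : S ⊆ dI m a) : BF T (dI m a) Y 1 := by
  classical
  refine bf_of_ortho (z := fun k => 0 < s k) fun k hk l hl => ?_
  have h1 := H.oy k l
  rw [← Finset.sum_subset hS (f := fun u => conj (Y k u) * Y l u)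
    (fun u _ hu => by rw [Y_off H k hu]; simp), h1]

/-- the deficit as a sum over the cell -/
theorem dfc_ext (H : SvC A S T s Y X) (hS : S ⊆ dI m a) (hT : T ⊆ dI m b) (ρ : ℝ) (k : ℤ) :
    dfc B S T Y X ρ k =
      ρ - (∑ u ∈ dI m a, ∑ v ∈ dI m b, conj (Y k u) * (B u v * X k v)).re := by
  have h1 : pr B S T (Y k) (X k) =
      ∑ u ∈ dI m a, ∑ v ∈ dI m b, conj (Y k u) * (B u v * X k v) := by
    unfold pr
    rw [← Finset.sum_subset hS (f := fun u => ∑ v ∈ dI m b, conj (Y k u) * (B u v * X k v))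
      (fun u _ hu => by simp [Y_off H k hu])]
    refine Finset.sum_congr rfl fun u _ => ?_
    rw [← Finset.sum_subset hT (f := fun v => conj (Y k u) * (B u v * X k v))
      (fun v _ hv => by simp [X_off H k hv])]
    exact Finset.sum_congr rfl fun v _ => by ring
  unfold pr at h1
  unfold dfc
  rw [h1]

lemma sum_Y_ext (H : SvC A S T s Y X) (hS : S ⊆ dI m a) (k : ℤ) :
    ∑ u ∈ dI m a, ‖Y k u‖ ^ 2 ≤ 1 := by
  rw [← Finset.sum_subset hS (f := fun u => ‖Y k u‖ ^ 2)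
    (fun u _ hu => by rw [Y_off H k hu]; simp)]
  exact H.nY_le k

lemma sum_X_ext (H : SvC A S T s Y X) (hT : T ⊆ dI m b) (k : ℤ) :
    ∑ v ∈ dI m b, ‖X k v‖ ^ 2 ≤ 1 := by
  rw [← Finset.sum_subset hT (f := fun v => ‖X k v‖ ^ 2)
    (fun v _ hv => by rw [X_off H k hv]; simp)]
  exact H.nX_le k

/-- Lemma A bound by the deficit -/
lemma two_le (H : SvC A S T s Y X) (hS : S ⊆ dI m a) (hT : T ⊆ dI m b) (hr : 0 < r) (k : ℤ) :
    ∑ u ∈ dI m a, ‖Y k u‖ ^ 2 + ∑ v ∈ dI m b, ‖X k v‖ ^ 2 -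
        2 / (r * 2 ^ m) * (∑ u ∈ dI m a, ∑ v ∈ dI m b, conj (Y k u) * (B u v * X k v)).re ≤
      2 / (r * 2 ^ m) * dfc B S T Y X (r * 2 ^ m) k := by
  rw [dfc_ext H hS hT]
  have h1 := sum_Y_ext H hS k
  have h2 := sum_X_ext H hT k
  have h3 : (0 : ℝ) < r * 2 ^ m := by positivity
  have e : 2 / (r * 2 ^ m) * (r * 2 ^ m - (∑ u ∈ dI m a, ∑ v ∈ dI m b,
      conj (Y k u) * (B u v * X k v)).re) = 2 - 2 / (r * 2 ^ m) *
      (∑ u ∈ dI m a, ∑ v ∈ dI m b, conj (Y k u) * (B u v * X k v)).re := by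
    rw [mul_sub, div_mul_cancel₀ _ h3.ne']
  rw [e]
  linarith

/-- Lemma A, deficit form, rows -/
theorem lemA_dfc (h : Tlg m a b Ti) (hr : 0 < r)
    (hop : ∀ c ∈ Ti, OpS (Rw c) (Cl c) B (r * 2 ^ c.1)) (H : SvC A S T s Y X) (hS : S ⊆ dI m a)
    (hT : T ⊆ dI m b) (k : ℤ) :
    ∑ u ∈ dI m a, ∑ c ∈ Ti.filter (fun c => u ∈ Rw c), (2 : ℝ) ^ c.1 / 2 ^ m *
        ‖Y k u - mc B r (X k) c u‖ ^ 2 ≤ 2 / (r * 2 ^ m) * dfc B S T Y X (r * 2 ^ m) k :=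
  (lemA h hr hop (Y k) (X k)).trans (two_le H hS hT hr k)

/-- Lemma A, deficit form, columns -/
theorem lemA_col_dfc (h : Tlg m a b Ti) (hr : 0 < r)
    (hop : ∀ c ∈ Ti, OpS (Rw c) (Cl c) B (r * 2 ^ c.1)) (H : SvC A S T s Y X) (hS : S ⊆ dI m a)
    (hT : T ⊆ dI m b) (k : ℤ) :
    ∑ v ∈ dI m b, ∑ c ∈ Ti.filter (fun c => v ∈ Cl c), (2 : ℝ) ^ c.1 / 2 ^ m *
        ‖X k v - mcc B r (Y k) c v‖ ^ 2 ≤ 2 / (r * 2 ^ m) * dfc B S T Y X (r * 2 ^ m) k :=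
  (lemA_col h hr hop (Y k) (X k)).trans (two_le H hS hT hr k)

/-- the deficit is nonnegative -/
theorem dfc_nn (h : Tlg m a b Ti) (hr : 0 < r)
    (hop : ∀ c ∈ Ti, OpS (Rw c) (Cl c) B (r * 2 ^ c.1)) (H : SvC A S T s Y X) (hS : S ⊆ dI m a)
    (hT : T ⊆ dI m b) (k : ℤ) : 0 ≤ dfc B S T Y X (r * 2 ^ m) k := by
  rw [dfc_ext H hS hT]
  exact defi_nn h hr hop (sum_Y_ext H hS k) (sum_X_ext H hT k)

/-- **stage 1, rows** -/
theorem row_err (h : Tlg m a b Ti) (hA : A1 ⊆ Ti) (hr : 0 < r) (hθ : 0 < θ)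
    (hop : ∀ c ∈ Ti, OpS (Rw c) (Cl c) B (r * 2 ^ c.1)) (H : SvC A S T s Y X) (hS : S ⊆ dI m a)
    (hT : T ⊆ dI m b) {I : Finset ℤ} (hI : I ⊆ dI m a) (hw : ∀ u ∈ I, θ * 2 ^ m ≤ wt A1 u) (k : ℤ) :
    ∑ u ∈ I, ‖Y k u - avg m b A1 B r (X k) u‖ ^ 2 ≤
      2 / (θ * (r * 2 ^ m)) * dfc B S T Y X (r * 2 ^ m) k := by
  refine (y1_err h hA hr hθ hop (Y k) (X k) hI hw).trans
    ((mul_le_mul_of_nonneg_left (two_le H hS hT hr k) (by positivity)).trans (le_of_eq ?_))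
  rw [← mul_assoc]
  congr 1
  field_simp

/-- **stage 1, columns** -/
theorem col_err (h : Tlg m a b Ti) (hA : A1 ⊆ Ti) (hr : 0 < r) (hθ : 0 < θ)
    (hop : ∀ c ∈ Ti, OpS (Rw c) (Cl c) B (r * 2 ^ c.1)) (H : SvC A S T s Y X) (hS : S ⊆ dI m a)
    (hT : T ⊆ dI m b) {J : Finset ℤ} (hJ : J ⊆ dI m b) (hw : ∀ v ∈ J, θ * 2 ^ m ≤ wtc A1 v)
    (k : ℤ) :
    ∑ v ∈ J, ‖X k v - avgc m a A1 B r (Y k) v‖ ^ 2 ≤
      2 / (θ * (r * 2 ^ m)) * dfc B S T Y X (r * 2 ^ m) k := by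
  refine (x1_err h hA hr hθ hop (Y k) (X k) hJ hw).trans
    ((mul_le_mul_of_nonneg_left (two_le H hS hT hr k) (by positivity)).trans (le_of_eq ?_))
  rw [← mul_assoc]
  congr 1
  field_simp

/-- total deficiency of a cell and a threshold -/
noncomputable def Gd (B : ℤ → ℤ → ℂ) (S T : Finset ℤ) (Y X : ℤ → ℤ → ℂ) (s : ℤ → ℝ) (ρ : ℝ) : ℝ :=
  ∑ k ∈ T, max (s k - ρ) 0 * dfc B S T Y X ρ k

/-- weights of the step against anything bounded by the deficit -/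
theorem step_sum {ρ ρ' M : ℝ} (hρ : ρ ≤ ρ') (hM : 0 ≤ M) {E : ℤ → ℝ}
    (hd : ∀ k ∈ T, 0 ≤ dfc B S T Y X ρ k)
    (hE : ∀ k ∈ T, E k ≤ M * dfc B S T Y X ρ k) :
    ∑ k ∈ T, dk s ρ ρ' k ^ 2 * E k ≤ M * (ρ' - ρ) * Gd B S T Y X s ρ := by
  unfold Gd
  rw [Finset.mul_sum]
  refine Finset.sum_le_sum fun k hk => ?_
  have h1 := dk_sq (s := s) hρ k
  have h2 := mul_le_mul_of_nonneg_left (hE k hk) (sq_nonneg (dk s ρ ρ' k))
  have h3 : 0 ≤ M * dfc B S T Y X ρ k := mul_nonneg hM (hd k hk)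
  have h4 := mul_le_mul_of_nonneg_right h1 h3
  calc dk s ρ ρ' k ^ 2 * E k ≤ dk s ρ ρ' k ^ 2 * (M * dfc B S T Y X ρ k) := h2
    _ ≤ (ρ' - ρ) * max (s k - ρ) 0 * (M * dfc B S T Y X ρ k) := h4
    _ = _ := by ring

/-- **E1** : weighted error of the rows -/
theorem E1 (h : Tlg m a b Ti) (hA : A1 ⊆ Ti) (hr : 0 < r) (hrr : r ≤ r') (hθ : 0 < θ)
    (hop : ∀ c ∈ Ti, OpS (Rw c) (Cl c) B (r * 2 ^ c.1)) (H : SvC A S T s Y X) (hS : S ⊆ dI m a)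
    (hT : T ⊆ dI m b) {I : Finset ℤ} (hI : I ⊆ dI m a) (hw : ∀ u ∈ I, θ * 2 ^ m ≤ wt A1 u) :
    ∑ k ∈ T, dk s (r * 2 ^ m) (r' * 2 ^ m) k ^ 2 *
        ∑ u ∈ I, ‖Y k u - avg m b A1 B r (X k) u‖ ^ 2 ≤
      2 * (r' - r) / (θ * r) * Gd B S T Y X s (r * 2 ^ m) := by
  have h1 := step_sum (s := s) (T := T) (B := B) (S := S) (Y := Y) (X := X)
    (ρ := r * 2 ^ m) (ρ' := r' * 2 ^ m) (M := 2 / (θ * (r * 2 ^ m)))
    (mul_le_mul_of_nonneg_right hrr (by positivity)) (by positivity)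
    (fun k _ => dfc_nn h hr hop H hS hT k) (fun k _ => row_err h hA hr hθ hop H hS hT hI hw k)
  refine h1.trans (le_of_eq ?_)
  congr 1
  field_simp

/-- **E2** : weighted error of the columns -/
theorem E2 (h : Tlg m a b Ti) (hA : A1 ⊆ Ti) (hr : 0 < r) (hrr : r ≤ r') (hθ : 0 < θ)
    (hop : ∀ c ∈ Ti, OpS (Rw c) (Cl c) B (r * 2 ^ c.1)) (H : SvC A S T s Y X) (hS : S ⊆ dI m a)
    (hT : T ⊆ dI m b) {J : Finset ℤ} (hJ : J ⊆ dI m b) (hw : ∀ v ∈ J, θ * 2 ^ m ≤ wtc A1 v) :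
    ∑ k ∈ T, dk s (r * 2 ^ m) (r' * 2 ^ m) k ^ 2 *
        ∑ v ∈ J, ‖X k v - avgc m a A1 B r (Y k) v‖ ^ 2 ≤
      2 * (r' - r) / (θ * r) * Gd B S T Y X s (r * 2 ^ m) := by
  have h1 := step_sum (s := s) (T := T) (B := B) (S := S) (Y := Y) (X := X)
    (ρ := r * 2 ^ m) (ρ' := r' * 2 ^ m) (M := 2 / (θ * (r * 2 ^ m)))
    (mul_le_mul_of_nonneg_right hrr (by positivity)) (by positivity)
    (fun k _ => dfc_nn h hr hop H hS hT k) (fun k _ => col_err h hA hr hθ hop H hS hT hJ hw k)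
  refine h1.trans (le_of_eq ?_)
  congr 1
  field_simp

/-- weighted Lemma A, rows: all tiles (for stage 2) -/
theorem EA (h : Tlg m a b Ti) (hr : 0 < r) (hrr : r ≤ r')
    (hop : ∀ c ∈ Ti, OpS (Rw c) (Cl c) B (r * 2 ^ c.1)) (H : SvC A S T s Y X) (hS : S ⊆ dI m a)
    (hT : T ⊆ dI m b) :
    ∑ k ∈ T, dk s (r * 2 ^ m) (r' * 2 ^ m) k ^ 2 * ∑ u ∈ dI m a,
        ∑ c ∈ Ti.filter (fun c => u ∈ Rw c), (2 : ℝ) ^ c.1 / 2 ^ m *
          ‖Y k u - mc B r (X k) c u‖ ^ 2 ≤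
      2 * (r' - r) / r * Gd B S T Y X s (r * 2 ^ m) := by
  have h1 := step_sum (s := s) (T := T) (B := B) (S := S) (Y := Y) (X := X)
    (ρ := r * 2 ^ m) (ρ' := r' * 2 ^ m) (M := 2 / (r * 2 ^ m))
    (mul_le_mul_of_nonneg_right hrr (by positivity)) (by positivity)
    (fun k _ => dfc_nn h hr hop H hS hT k) (fun k _ => lemA_dfc h hr hop H hS hT k)
  refine h1.trans (le_of_eq ?_)
  congr 1
  field_simp

/-- weighted Lemma A, columns -/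
theorem EAc (h : Tlg m a b Ti) (hr : 0 < r) (hrr : r ≤ r')
    (hop : ∀ c ∈ Ti, OpS (Rw c) (Cl c) B (r * 2 ^ c.1)) (H : SvC A S T s Y X) (hS : S ⊆ dI m a)
    (hT : T ⊆ dI m b) :
    ∑ k ∈ T, dk s (r * 2 ^ m) (r' * 2 ^ m) k ^ 2 * ∑ v ∈ dI m b,
        ∑ c ∈ Ti.filter (fun c => v ∈ Cl c), (2 : ℝ) ^ c.1 / 2 ^ m *
          ‖X k v - mcc B r (Y k) c v‖ ^ 2 ≤
      2 * (r' - r) / r * Gd B S T Y X s (r * 2 ^ m) := by
  have h1 := step_sum (s := s) (T := T) (B := B) (S := S) (Y := Y) (X := X)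
    (ρ := r * 2 ^ m) (ρ' := r' * 2 ^ m) (M := 2 / (r * 2 ^ m))
    (mul_le_mul_of_nonneg_right hrr (by positivity)) (by positivity)
    (fun k _ => dfc_nn h hr hop H hS hT k) (fun k _ => lemA_col_dfc h hr hop H hS hT k)
  refine h1.trans (le_of_eq ?_)
  congr 1
  field_simp

/-- first replacement `Y X* → y1 X*`, Hilbert-Schmidt on the whole cell -/
theorem P1 (H : SvC A S T s Y X) (hT : T ⊆ dI m b) (I : Finset ℤ) (d : ℤ → ℝ) (y1 : ℤ → ℤ → ℂ) :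
    ∑ u ∈ I, ∑ v ∈ dI m b, ‖∑ k ∈ T, (d k : ℂ) * (Y k u - y1 k u) * conj (X k v)‖ ^ 2 ≤
      ∑ k ∈ T, d k ^ 2 * ∑ u ∈ I, ‖Y k u - y1 k u‖ ^ 2 := by
  have h1 := ((bfX H hT).star).hs (I := I) fun k u => (d k : ℂ) * (Y k u - y1 k u)
  refine h1.trans (le_of_eq ?_)
  rw [one_mul]
  refine Finset.sum_congr rfl fun k _ => ?_
  rw [Finset.mul_sum]
  refine Finset.sum_congr rfl fun u _ => ?_
  rw [norm_mul, Complex.norm_real, mul_pow, Real.norm_eq_abs, sq_abs]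

/-- general replacement of the right vectors, left family a Bessel family -/
theorem P2 {I J : Finset ℤ} {y1 : ℤ → ℤ → ℂ} {b1 : ℝ} (hy : BF T I y1 b1) (d : ℤ → ℝ)
    (e : ℤ → ℤ → ℂ) :
    ∑ u ∈ I, ∑ v ∈ J, ‖∑ k ∈ T, (d k : ℂ) * y1 k u * conj (e k v)‖ ^ 2 ≤
      b1 * ∑ k ∈ T, d k ^ 2 * ∑ v ∈ J, ‖e k v‖ ^ 2 := by
  rw [Finset.sum_comm]
  have h1 := hy.hs (I := J) fun k v => (d k : ℂ) * conj (e k v)
  refine le_trans (le_of_eq ?_) (h1.trans (le_of_eq ?_))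
  · refine Finset.sum_congr rfl fun v _ => Finset.sum_congr rfl fun u _ => ?_
    congr 2
    exact Finset.sum_congr rfl fun k _ => by ring
  · congr 1
    refine Finset.sum_congr rfl fun k _ => ?_
    rw [Finset.mul_sum]
    refine Finset.sum_congr rfl fun u _ => ?_
    rw [norm_mul, Complex.norm_real, mul_pow, Real.norm_eq_abs, sq_abs, RCLike.norm_conj]

lemma two_sq (x y : ℂ) : ‖x‖ ^ 2 ≤ 2 * ‖x - y‖ ^ 2 + 2 * ‖y‖ ^ 2 := by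
  have h1 : ‖x‖ ≤ ‖x - y‖ + ‖y‖ := by
    have := norm_add_le (x - y) y
    rwa [sub_add_cancel] at this
  nlinarith [norm_nonneg x, norm_nonneg (x - y), norm_nonneg y, sq_nonneg (‖x - y‖ - ‖y‖)]

/-- **edge rows** : energy of the step on the rows `I` -/
theorem E3r (H : SvC A S T s Y X) {I : Finset ℤ} (d : ℤ → ℝ) {y1 : ℤ → ℤ → ℂ} {b1 : ℝ}
    (hy : BF T I y1 b1) :
    ∑ u ∈ I, ∑ v ∈ T, ‖∑ k ∈ T, (d k : ℂ) * Y k u * conj (X k v)‖ ^ 2 ≤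
      2 * ∑ k ∈ T, d k ^ 2 * ∑ u ∈ I, ‖Y k u - y1 k u‖ ^ 2 + 2 * (b1 * ∑ k ∈ T, d k ^ 2) := by
  have h1 := H.hsX I fun k u => (d k : ℂ) * Y k u
  rw [h1]
  have h2 := hy.trace d
  rw [Finset.sum_comm] at h2
  refine le_trans ?_ (add_le_add_right (mul_le_mul_of_nonneg_left h2 (by norm_num)) _)
  rw [Finset.mul_sum, Finset.mul_sum, ← Finset.sum_add_distrib]
  refine Finset.sum_le_sum fun k _ => ?_
  rw [Finset.mul_sum, Finset.mul_sum, Finset.mul_sum, ← Finset.sum_add_distrib]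
  refine Finset.sum_le_sum fun u _ => ?_
  rw [norm_mul, Complex.norm_real, mul_pow, Real.norm_eq_abs, sq_abs]
  have h3 := mul_le_mul_of_nonneg_left (two_sq (Y k u) (y1 k u)) (sq_nonneg (d k))
  linarith

/-- **edge columns** -/
theorem E3c (H : SvC A S T s Y X) {J : Finset ℤ} (d : ℤ → ℝ) {x1 : ℤ → ℤ → ℂ} {b1 : ℝ}
    (hx : BF T J x1 b1) :
    ∑ u ∈ S, ∑ v ∈ J, ‖∑ k ∈ T, (d k : ℂ) * Y k u * conj (X k v)‖ ^ 2 ≤
      2 * ∑ k ∈ T, d k ^ 2 * ∑ v ∈ J, ‖X k v - x1 k v‖ ^ 2 + 2 * (b1 * ∑ k ∈ T, d k ^ 2) := by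
  have h1 := H.hsY J fun k v => (d k : ℂ) * conj (X k v)
  have e1 : ∑ u ∈ S, ∑ v ∈ J, ‖∑ k ∈ T, (d k : ℂ) * Y k u * conj (X k v)‖ ^ 2 =
      ∑ u ∈ S, ∑ v ∈ J, ‖∑ k ∈ T, Y k u * ((d k : ℂ) * conj (X k v))‖ ^ 2 := by
    refine Finset.sum_congr rfl fun u _ => Finset.sum_congr rfl fun v _ => ?_
    congr 2
    exact Finset.sum_congr rfl fun k _ => by ring
  rw [e1]
  refine h1.trans ?_
  have h2 := hx.trace d
  rw [Finset.sum_comm] at h2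
  refine le_trans ?_ (add_le_add_right (mul_le_mul_of_nonneg_left h2 (by norm_num)) _)
  rw [Finset.mul_sum, Finset.mul_sum, ← Finset.sum_add_distrib]
  refine Finset.sum_le_sum fun k _ => ?_
  rw [Finset.mul_sum, Finset.mul_sum, Finset.mul_sum, ← Finset.sum_add_distrib]
  refine Finset.sum_le_sum fun u _ => ?_
  rw [norm_mul, Complex.norm_real, mul_pow, Real.norm_eq_abs, sq_abs, RCLike.norm_conj]
  have h3 := mul_le_mul_of_nonneg_left (two_sq (X k u) (x1 k u)) (sq_nonneg (d k))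
  linarith

end Crest.Agent.R079.NrWx259
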