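import Crest.Agent.R079.FrI_261
import Crest.Agent.R079.NrB_228
import Crest.Agent.R079.NrW_259

/-! R079, T5c of 1820 / 1922 (helper261): one cell with the names of `NrB_228`: the dominating
kernels `CU`, `CW` (operator norms on boxes, pointwise bounds) and the domination of the frame
factors `Pu`, `Qv`. -/

set_option autoImplicit false

namespace Crest.Agent.R079.FrIx261

open Finset Crest.Agent.R079.Grid Crest.Agent.R079.Growth Crest.Agent.R079.QRed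
  Crest.Agent.R079.Qh249 Crest.Agent.R079.QVar181 Crest.Agent.R079.TWin
open Crest.Agent.R079.ThA159 Crest.Agent.R079.Cel159
open Crest.Agent.R079.Whit (Ins)
open Crest.Agent.R079.ClW59 (OpS cl)
open Crest.Agent.R079.NrTx259 Crest.Agent.R079.NrUx259 Crest.Agent.R079.NrWx259
  Crest.Agent.R079.NrTx276 Crest.Agent.R079.NrAx228 Crest.Agent.R079.SbWx795
  Crest.Agent.R079.NrBx228

open scoped ComplexConjugate

section cell

variable {m : ℕ} {a b : ℤ} {Ti A1 A2 : Finset (ℕ × ℤ × ℤ)} {B : ℤ → ℤ → ℂ} {r lq : ℝ}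
  {Y X : ℤ → ℤ → ℂ} {d : ℤ → ℝ}

open Classical in
/-- weight of a row -/
noncomputable def wR (A2 : Finset (ℕ × ℤ × ℤ)) (lq : ℝ) (u : ℤ) : ℝ :=
  if lq ≤ wt A2 u then 1 / wt A2 u else 0

open Classical in
/-- weight of a column -/
noncomputable def wC (A2 : Finset (ℕ × ℤ × ℤ)) (lq : ℝ) (v : ℤ) : ℝ :=
  if lq ≤ wtc A2 v then 1 / wtc A2 v else 0

lemma wR_abs (hq : 0 < lq) (u : ℤ) : |lq * wR A2 lq u| ≤ 1 := by
  unfold wR
  split_ifs with h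
  · have h0 : 0 < wt A2 u := lt_of_lt_of_le hq h
    rw [abs_of_nonneg (by positivity), mul_one_div, div_le_one h0]
    exact h
  · simp

lemma wC_abs (hq : 0 < lq) (v : ℤ) : |lq * wC A2 lq v| ≤ 1 := by
  unfold wC
  split_ifs with h
  · have h0 : 0 < wtc A2 v := lt_of_lt_of_le hq h
    rw [abs_of_nonneg (by positivity), mul_one_div, div_le_one h0]
    exact h
  · simp

lemma CU_eq (u v : ℤ) : CU A2 B lq u v = ((lq * wR A2 lq u : ℝ) : ℂ) * mB A2 B u v := by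
  unfold CU wR
  split_ifs
  · rw [mul_one_div]
  · simp

lemma CW_eq (u v : ℤ) : CW A2 B lq u v = ((lq * wC A2 lq v : ℝ) : ℂ) * mB A2 B u v := by
  unfold CW wC
  split_ifs
  · rw [mul_one_div]
  · simp

lemma mB_norm (u v : ℤ) : ‖mB A2 B u v‖ ≤ ‖B u v‖ := by
  unfold mB
  split_ifs
  · exact le_rfl
  · rw [norm_zero]
    exact norm_nonneg _

lemma CU_norm (hq : 0 < lq) (u v : ℤ) : ‖CU A2 B lq u v‖ ≤ ‖mB A2 B u v‖ := by
  rw [CU_eq, norm_mul, Complex.norm_real, Real.norm_eq_abs]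
  exact mul_le_of_le_one_left (norm_nonneg _) (wR_abs hq u)

lemma CW_norm (hq : 0 < lq) (u v : ℤ) : ‖CW A2 B lq u v‖ ≤ ‖mB A2 B u v‖ := by
  rw [CW_eq, norm_mul, Complex.norm_real, Real.norm_eq_abs]
  exact mul_le_of_le_one_left (norm_nonneg _) (wC_abs hq v)

lemma mB_ne {u v : ℤ} (h : mB A2 B u v ≠ 0) : (∃ c ∈ A2, u ∈ Rw c ∧ v ∈ Cl c) ∧ B u v ≠ 0 := by
  unfold mB at h
  by_cases hc : ∃ c ∈ A2, u ∈ Rw c ∧ v ∈ Cl c
  · rw [if_pos hc] at h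
    exact ⟨hc, h⟩
  · rw [if_neg hc] at h
    exact absurd rfl h

/-- the masked kernel on all boxes of side `≥ 2^d`, tiles of side `≤ 2^(d + k)` -/
theorem mB_box (h : Tlg m a b Ti) (hA : A2 ⊆ Ti) (hr : 0 ≤ r)
    (hop : ∀ c ∈ A2, OpS (Rw c) (Cl c) B (r * 2 ^ c.1)) {k d n : ℕ} (hd : ∀ c ∈ A2, c.1 ≤ d + k)
    (hn : d ≤ n) (a' b' : ℤ) : OpS (dI n a') (dI n b') (mB A2 B) (2 ^ k * r * 2 ^ n) := by
  have h1 := op_box h hA hop (n := n + k) (fun c hc => (hd c hc).trans (by omega))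
    (a' / 2 ^ k) (b' / 2 ^ k)
  have h2 := opS_sub (L0e.dI_sub n k a') (L0e.dI_sub n k b') h1
  have e : r * 2 ^ (n + k) = 2 ^ k * r * 2 ^ n := by
    rw [pow_add]; ring
  rw [e] at h2
  exact h2

/-- **operator bound, rows** -/
theorem CU_op (h : Tlg m a b Ti) (hA : A2 ⊆ Ti) (hr : 0 ≤ r) (hq : 0 < lq)
    (hop : ∀ c ∈ A2, OpS (Rw c) (Cl c) B (r * 2 ^ c.1)) {k d n : ℕ} (hd : ∀ c ∈ A2, c.1 ≤ d + k)
    (hn : d ≤ n) (a' b' : ℤ) : OpC (CU A2 B lq) n a' b' (2 ^ k * r) := by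
  rw [PjC881.opC_iff (by positivity)]
  have h1 := opS_wtR (C := 1) (mB_box h hA hr hop hd hn a' b') (w := fun u => lq * wR A2 lq u)
    (fun u => wR_abs hq u)
  rw [one_mul] at h1
  exact PjC881.opS_congr h1 fun u _ v _ => (CU_eq u v).symm

/-- **operator bound, columns** -/
theorem CW_op (h : Tlg m a b Ti) (hA : A2 ⊆ Ti) (hr : 0 ≤ r) (hq : 0 < lq)
    (hop : ∀ c ∈ A2, OpS (Rw c) (Cl c) B (r * 2 ^ c.1)) {k d n : ℕ} (hd : ∀ c ∈ A2, c.1 ≤ d + k)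
    (hn : d ≤ n) (a' b' : ℤ) : OpC (CW A2 B lq) n a' b' (2 ^ k * r) := by
  rw [PjC881.opC_iff (by positivity)]
  have h1 := opS_wtC (C := 1) (mB_box h hA hr hop hd hn a' b') (w := fun v => lq * wC A2 lq v)
    (fun v => wC_abs hq v)
  rw [one_mul] at h1
  exact PjC881.opS_congr h1 fun u _ v _ => (CW_eq u v).symm

lemma Pu_eq (k u : ℤ) : Pu m a b A1 A2 B r lq Y d u k =
    ((Real.sqrt (d k) * (wR A2 lq u / r) : ℝ) : ℂ) *
      ∑ v ∈ dI m b, mB A2 B u v * x1 m a A1 B r Y k v := by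
  unfold Pu yt wR avg
  split_ifs
  · push_cast
    rw [mul_assoc]
    congr 1
    rw [div_eq_mul_inv, mul_comm (∑ v ∈ dI m b, mB A2 B u v * x1 m a A1 B r Y k v)]
    congr 1
    rw [mul_inv, div_div, one_div, mul_inv, mul_comm]
  · simp

lemma Qv_eq (k v : ℤ) : Qv m a b A1 A2 B r lq X d v k =
    ((Real.sqrt (d k) * (wC A2 lq v / r) : ℝ) : ℂ) *
      ∑ u ∈ dI m a, mB A2 B u v * conj (y1 m b A1 B r X k u) := by
  unfold Qv xt wC avgc
  split_ifs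
  · rw [map_div₀, map_sum, Complex.conj_ofReal]
    simp only [map_mul, Complex.conj_conj]
    push_cast
    rw [mul_assoc]
    congr 1
    rw [div_eq_mul_inv, mul_comm (∑ u ∈ dI m a, mB A2 B u v * conj (y1 m b A1 B r X k u))]
    congr 1
    rw [mul_inv, div_div, one_div, mul_inv, mul_comm]
  · simp

/-- **domination, rows**: only a Bessel bound of `x1` on the columns is needed -/
theorem Pu_maj {Tk : Finset ℤ} {D Cs : ℝ} (hr : 0 < r) (hq : 0 < lq) (hD : 0 ≤ D) (hCs : 0 ≤ Cs)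
    (hd : ∀ k ∈ Tk, 0 ≤ d k ∧ d k ≤ D) (hb : BF Tk (dI m b) (x1 m a A1 B r Y) Cs)
    (S : Finset ℤ) (f : ℤ → ℂ) :
    ∑ k ∈ Tk, ‖∑ u ∈ S, f u * Pu m a b A1 A2 B r lq Y d u k‖ ^ 2 ≤
      D * Cs / (r * lq) ^ 2 * ∑ v ∈ dI m b, ‖∑ u ∈ S, f u * CU A2 B lq u v‖ ^ 2 := by
  have h1 := maj_one (S := S) (T := dI m b) (K := Tk) (M := mB A2 B) (x := x1 m a A1 B r Y)
    (d := d) (g := wR A2 lq) hq hr hD hd (fun g => hb.dual hCs g) f
  simp only [Pu_eq, CU_eq]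
  exact h1

/-- **domination, columns** -/
theorem Qv_maj {Tk : Finset ℤ} {D Cs : ℝ} (hr : 0 < r) (hq : 0 < lq) (hD : 0 ≤ D) (hCs : 0 ≤ Cs)
    (hd : ∀ k ∈ Tk, 0 ≤ d k ∧ d k ≤ D) (hb : BF Tk (dI m a) (y1 m b A1 B r X) Cs)
    (S : Finset ℤ) (f : ℤ → ℂ) :
    ∑ k ∈ Tk, ‖∑ v ∈ S, f v * Qv m a b A1 A2 B r lq X d v k‖ ^ 2 ≤
      D * Cs / (r * lq) ^ 2 * ∑ u ∈ dI m a, ‖∑ v ∈ S, f v * CW A2 B lq u v‖ ^ 2 := by
  have h1 := maj_one (S := S) (T := dI m a) (K := Tk) (M := fun v u => mB A2 B u v)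
    (x := fun k u => conj (y1 m b A1 B r X k u))
    (d := d) (g := wC A2 lq) hq hr hD hd (fun g => hb.star.dual hCs g) f
  simp only [Qv_eq, CW_eq]
  exact h1

end cell

end Crest.Agent.R079.FrIx261
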