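import Crest.Agent.R079.GaT_251
import Crest.Agent.R079.ElG_69
import Crest.Agent.R079.FrY_360
import Crest.Agent.R079.NrB_228
import Crest.Agent.R079.NrE_276
import Crest.Agent.R079.CelD_159

/-! R079, (T5c) of note 1820 (helper717): **rows, columns and energy of the glued leaf clips on a node
`q` of the window**, and of every kernel dominated by them (the fields `rowU, colW, enB` of `FC`). -/

set_option autoImplicit false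
set_option linter.unusedSectionVars false

namespace Crest.Agent.R079.FrJx717

open Finset Crest.Agent.R079.Grid Crest.Agent.R079.Growth Crest.Agent.R079.QRed
  Crest.Agent.R079.Qh249 Crest.Agent.R079.QVar181 Crest.Agent.R079.TWin
  Crest.Agent.R079.Cel159 Crest.Agent.R079.ThA159 Crest.Agent.R079.ElGx69
  Crest.Agent.R079.GaTx251 Crest.Agent.R079.GaSx571
open Crest.Agent.R079.PjC881 (Split)
open Crest.Agent.R079.RelW653 (sum_av')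
open Crest.Agent.R079.GaFx371 (Ye W0 SE BdE poE mem_W0 mem_BdE)
open Crest.Agent.R079.ClW59 (cl)

open scoped ComplexConjugate

section split

variable {κ : Type*} {Bd : Nd → Finset (ℤ × ℤ × ℤ)} {pos : ℤ × ℤ × ℤ → ℤ}
  {N : Nd → (ℤ × ℤ × ℤ → ℂ) → ℝ} {ν : ℝ} {p : Nd}
  {cells : Finset κ} {z : κ → ℤ} {S T : κ → Finset ℤ} {w : κ → ℝ}

/-- energy of the projection -/
theorem split_all (hB : Bnd Bd pos N ν) (hs : Split Bd N p cells z S T w) {r : ℝ} (hr : 0 ≤ r)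
    (A : ℤ × ℤ × ℤ → ℂ) : ∑ ω ∈ Bd p, ‖Pj Bd N r p A ω‖ ^ 2 ≤ ∑ ω ∈ Bd p, ‖A ω‖ ^ 2 := by
  rw [NrDx276.sum_cells hs, NrDx276.sum_cells hs]
  refine Finset.sum_le_sum fun c hc => Finset.sum_le_sum fun u hu => ?_
  refine le_trans (le_of_eq ?_) (cl_row (fun u v => A (z c, u, v)) (S := S c) (S' := T c)
      (mul_nonneg hr (hs.w0 c hc)) hu)
  exact Finset.sum_congr rfl fun v hv => by
    rw [PjC881.Pj_cell hB hs hr A hc u hu v hv]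

end split

section glued

variable {Ω : Type*} {Bd : Nd → Finset Ω} {pos : Ω → ℤ} {N : Nd → (Ω → ℂ) → ℝ} {ν : ℝ}

/-- part of the glued clips of a node `K` on a node `q` below -/
theorem bgl_part (hB : Bnd Bd pos N ν) (a : Ω → ℂ) {r : ℝ} (hr : 0 ≤ r) {W : Finset Nd} {J : Nd}
    (hW : Full W J) (g : Fn) {K q : Nd} (hK : K ∈ W) (hq : q ∈ W) (hqK : iv q ⊆ iv K)
    (Q : Ω → Prop) [DecidablePred Q]
    (hQ : ∀ p ∈ lf W, ∀ A : Ω → ℂ, ∑ ω ∈ (Bd p).filter Q, ‖Pj Bd N r p A ω‖ ^ 2 ≤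
      ∑ ω ∈ (Bd p).filter Q, ‖A ω‖ ^ 2) :
    ∑ ω ∈ (Bd q).filter Q, ‖Bgl Bd pos N a r W K g ω‖ ^ 2 ≤
      ∑ ω ∈ (Bd q).filter Q, ‖a ω * g (pos ω)‖ ^ 2 := by
  refine le_trans (le_of_eq ?_) (Bgl_part hB a hr hW g Q hQ q hq)
  refine Finset.sum_congr rfl fun ω hω => ?_
  have h1 := (Finset.mem_filter.1 hω).1
  rw [Bgl_loc hB a hr hW hK g (Bd_mono hB hqK h1)]

/-- energy of the glued clips of a node `K` on a node `q` below -/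
theorem bgl_en (hB : Bnd Bd pos N ν) {a : Ω → ℂ} (ha : FibG Bd pos ν a) {r : ℝ} (hr : 0 ≤ r)
    {W : Finset Nd} {J : Nd} (hW : Full W J) (g : Fn) {K q : Nd} (hK : K ∈ W) (hq : q ∈ W)
    (hqK : iv q ⊆ iv K)
    (hQ : ∀ p ∈ lf W, ∀ A : Ω → ℂ, ∑ ω ∈ Bd p, ‖Pj Bd N r p A ω‖ ^ 2 ≤
      ∑ ω ∈ Bd p, ‖A ω‖ ^ 2) :
    ν * ∑ ω ∈ Bd q, ‖Bgl Bd pos N a r W K g ω‖ ^ 2 ≤ len q * av q g ^ 2 := by
  have h1 := bgl_part hB a hr hW g hK hq hqK (fun _ => True) (fun p hp A => by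
    rw [Finset.filter_true]
    exact hQ p hp A)
  rw [Finset.filter_true] at h1
  refine (mul_le_mul_of_nonneg_left h1 hB.nu.le).trans ?_
  rw [← sum_av']
  refine le_trans (le_of_eq ?_) (fib_sumG hB ha q (fun y => ‖g y‖ ^ 2) fun y => sq_nonneg _)
  congr 1
  exact Finset.sum_congr rfl fun ω _ => by rw [norm_mul, mul_pow]

end glued

/-! ### the coordinates of an edge -/

lemma lin_Ye (i : Fin 4) (e : Fin 3) (w : ℤ) : SKx261.Lin (Ye i e w)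
    ((sl i - sl (i.succAbove (e + 2))) * w) (sl (i.succAbove e) - sl (i.succAbove (e + 2)))
    (sl (i.succAbove (e + 1)) - sl (i.succAbove (e + 2))) := by
  refine ⟨fun _ _ => rfl, ?_, ?_, ?_, ?_⟩ <;> fin_cases i <;> fin_cases e <;> decide

lemma len_two (q : Nd) : len q = 2 ^ 7 * 2 ^ q.1 := by
  unfold len
  rw [pow_add, mul_comm]

section edge

variable {i : Fin 4} {e : Fin 3} {T : Fin 3 → Finset ℤ} {J0 : Nd} {kc : ℕ} {ν : ℝ}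
  {W : Finset Nd} {J K q : Nd}

/-- the glued leaf clips of an edge -/
noncomputable abbrev BE (i : Fin 4) (e : Fin 3) (T : Fin 3 → Finset ℤ) (J0 : Nd) (kc : ℕ)
    (a : ℤ × ℤ × ℤ → ℂ) (r : ℝ) (W : Finset Nd) (K : Nd) (g : Fn) : ℤ × ℤ × ℤ → ℂ :=
  Bgl (BdE i e T J0) (poE i e) (NmP (SE i e T J0) cf (okc (Ye i e) kc)) a r W K g

/-- rows of the glued clips of `K` on a node `q` below -/
theorem row_part (hB : Bnd (BdE i e T J0) (poE i e) (NmP (SE i e T J0) cf (okc (Ye i e) kc)) ν)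
    {a : ℤ × ℤ × ℤ → ℂ} {Ha : ℝ} (ha : ∀ ω, ‖a ω‖ ≤ Ha) {r : ℝ} (hr : 0 ≤ r) (hW : Full W J)
    (g : Fn) (hK : K ∈ W) (hq : q ∈ W) (hqK : iv q ⊆ iv K) (w u : ℤ) :
    ∑ ω ∈ (BdE i e T J0 q).filter (fun ω => ω.1 = w ∧ ω.2.1 = u),
      ‖BE i e T J0 kc a r W K g ω‖ ^ 2 ≤ Ha ^ 2 * (len q * av q g ^ 2) := by
  refine (bgl_part hB a hr hW g hK hq hqK _ (fun p _ A => split_row' hB (split_cell p) hr A w u)).trans
    ?_
  rw [← sum_av']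
  refine part_energy ?_ (fun ω hω => hB.mem q ω (Finset.mem_filter.1 hω).1) (fun ω _ => ha ω) g
  rintro ⟨x1, x2, x3⟩ hx ⟨y1, y2, y3⟩ hy hxy
  rw [Finset.mem_coe, Finset.mem_filter] at hx hy
  obtain ⟨-, h1, h2⟩ := hx
  obtain ⟨-, h3, h4⟩ := hy
  simp only at h1 h2 h3 h4
  have h5 : Ye i e x1 x2 x3 = Ye i e y1 y2 y3 := hxy
  rw [h1, h2, h3, h4] at h5
  have hl := lin_Ye i e w
  rw [hl.eq, hl.eq] at h5
  have h6 : x3 = y3 := mul_left_cancel₀ hl.g0 (by linarith)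
  rw [h6, h1, h2, h3, h4]

/-- columns of the glued clips of `K` on a node `q` below -/
theorem col_part (hB : Bnd (BdE i e T J0) (poE i e) (NmP (SE i e T J0) cf (okc (Ye i e) kc)) ν)
    {a : ℤ × ℤ × ℤ → ℂ} {Ha : ℝ} (ha : ∀ ω, ‖a ω‖ ≤ Ha) {r : ℝ} (hr : 0 ≤ r) (hW : Full W J)
    (g : Fn) (hK : K ∈ W) (hq : q ∈ W) (hqK : iv q ⊆ iv K) (w v : ℤ) :
    ∑ ω ∈ (BdE i e T J0 q).filter (fun ω => ω.1 = w ∧ ω.2.2 = v),
      ‖BE i e T J0 kc a r W K g ω‖ ^ 2 ≤ Ha ^ 2 * (len q * av q g ^ 2) := by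
  refine (bgl_part hB a hr hW g hK hq hqK _ (fun p _ A => split_col' hB (split_cell p) hr A w v)).trans
    ?_
  rw [← sum_av']
  refine part_energy ?_ (fun ω hω => hB.mem q ω (Finset.mem_filter.1 hω).1) (fun ω _ => ha ω) g
  rintro ⟨x1, x2, x3⟩ hx ⟨y1, y2, y3⟩ hy hxy
  rw [Finset.mem_coe, Finset.mem_filter] at hx hy
  obtain ⟨-, h1, h2⟩ := hx
  obtain ⟨-, h3, h4⟩ := hy
  simp only at h1 h2 h3 h4
  have h5 : Ye i e x1 x2 x3 = Ye i e y1 y2 y3 := hxy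
  rw [h1, h2, h3, h4] at h5
  have hl := lin_Ye i e w
  rw [hl.eq, hl.eq] at h5
  have h6 : x2 = y2 := mul_left_cancel₀ hl.b0 (by linarith)
  rw [h6, h1, h2, h3, h4]

/-- **`rowU`** : rows of a kernel dominated by the glued clips on the strip of `q` -/
theorem row_dom (hB : Bnd (BdE i e T J0) (poE i e) (NmP (SE i e T J0) cf (okc (Ye i e) kc)) ν)
    {a : ℤ × ℤ × ℤ → ℂ} {Ha : ℝ} (ha : ∀ ω, ‖a ω‖ ≤ Ha) {r : ℝ} (hr : 0 ≤ r) (hW : Full W J)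
    (g : Fn) (hK : K ∈ W) (hq : q ∈ W) (hqK : iv q ⊆ iv K) (hqJ : iv q ⊆ iv J0) {w : ℤ}
    {C : ℤ → ℤ → ℂ} {u : ℤ} {D : Finset ℤ}
    (hsup : ∀ v ∈ D, C u v ≠ 0 → u ∈ T e ∧ v ∈ T (e + 1) ∧ Ye i e w u v ∈ iv q)
    (hpt : ∀ v ∈ D, ‖C u v‖ ≤ ‖BE i e T J0 kc a r W K g (w, u, v)‖) :
    ∑ v ∈ D, ‖C u v‖ ^ 2 ≤ (2 ^ 7 * Ha ^ 2 * av q g ^ 2) * 2 ^ q.1 := by
  classical
  have h1 := row_part hB ha hr hW g hK hq hqK w u
  rw [len_two] at h1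
  refine le_trans ?_ (h1.trans (le_of_eq (by ring)))
  have h2 : ∑ v ∈ D, ‖C u v‖ ^ 2 = ∑ v ∈ D.filter (fun v => C u v ≠ 0), ‖C u v‖ ^ 2 := by
    symm
    refine Finset.sum_subset (Finset.filter_subset _ _) fun v hv hv' => ?_
    have h3 : C u v = 0 := by
      by_contra h
      exact hv' (Finset.mem_filter.2 ⟨hv, h⟩)
    rw [h3, norm_zero, zero_pow two_ne_zero]
  rw [h2]
  have h4 : ∑ v ∈ D.filter (fun v => C u v ≠ 0), ‖C u v‖ ^ 2 ≤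
      ∑ v ∈ D.filter (fun v => C u v ≠ 0), ‖BE i e T J0 kc a r W K g (w, u, v)‖ ^ 2 :=
    Finset.sum_le_sum fun v hv => pow_le_pow_left₀ (norm_nonneg _)
      (hpt v (Finset.mem_filter.1 hv).1) 2
  refine h4.trans ?_
  have h5 : ∑ v ∈ D.filter (fun v => C u v ≠ 0), ‖BE i e T J0 kc a r W K g (w, u, v)‖ ^ 2 =
      ∑ ω ∈ (D.filter (fun v => C u v ≠ 0)).image (fun v => (w, u, v)),
        ‖BE i e T J0 kc a r W K g ω‖ ^ 2 := by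
    rw [Finset.sum_image]
    intro v _ v' _ h
    simpa using h
  rw [h5]
  refine Finset.sum_le_sum_of_subset_of_nonneg ?_ fun _ _ _ => sq_nonneg _
  intro ω hω
  obtain ⟨v, hv, rfl⟩ := Finset.mem_image.1 hω
  obtain ⟨hv1, hv2⟩ := Finset.mem_filter.1 hv
  obtain ⟨a1, a2, a3⟩ := hsup v hv1 hv2
  exact Finset.mem_filter.2 ⟨(mem_BdE hqJ).2 ⟨a1, a2, a3⟩, rfl, rfl⟩

/-- **`colW`** : columns of a kernel dominated by the glued clips on the strip of `q` -/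
theorem col_dom (hB : Bnd (BdE i e T J0) (poE i e) (NmP (SE i e T J0) cf (okc (Ye i e) kc)) ν)
    {a : ℤ × ℤ × ℤ → ℂ} {Ha : ℝ} (ha : ∀ ω, ‖a ω‖ ≤ Ha) {r : ℝ} (hr : 0 ≤ r) (hW : Full W J)
    (g : Fn) (hK : K ∈ W) (hq : q ∈ W) (hqK : iv q ⊆ iv K) (hqJ : iv q ⊆ iv J0) {w : ℤ}
    {C : ℤ → ℤ → ℂ} {v : ℤ} {D : Finset ℤ}
    (hsup : ∀ u ∈ D, C u v ≠ 0 → u ∈ T e ∧ v ∈ T (e + 1) ∧ Ye i e w u v ∈ iv q)
    (hpt : ∀ u ∈ D, ‖C u v‖ ≤ ‖BE i e T J0 kc a r W K g (w, u, v)‖) :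
    ∑ u ∈ D, ‖C u v‖ ^ 2 ≤ (2 ^ 7 * Ha ^ 2 * av q g ^ 2) * 2 ^ q.1 := by
  classical
  have h1 := col_part hB ha hr hW g hK hq hqK w v
  rw [len_two] at h1
  refine le_trans ?_ (h1.trans (le_of_eq (by ring)))
  have h2 : ∑ u ∈ D, ‖C u v‖ ^ 2 = ∑ u ∈ D.filter (fun u => C u v ≠ 0), ‖C u v‖ ^ 2 := by
    symm
    refine Finset.sum_subset (Finset.filter_subset _ _) fun u hu hu' => ?_
    have h3 : C u v = 0 := by
      by_contra h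
      exact hu' (Finset.mem_filter.2 ⟨hu, h⟩)
    rw [h3, norm_zero, zero_pow two_ne_zero]
  rw [h2]
  have h4 : ∑ u ∈ D.filter (fun u => C u v ≠ 0), ‖C u v‖ ^ 2 ≤
      ∑ u ∈ D.filter (fun u => C u v ≠ 0), ‖BE i e T J0 kc a r W K g (w, u, v)‖ ^ 2 :=
    Finset.sum_le_sum fun u hu => pow_le_pow_left₀ (norm_nonneg _)
      (hpt u (Finset.mem_filter.1 hu).1) 2
  refine h4.trans ?_
  have h5 : ∑ u ∈ D.filter (fun u => C u v ≠ 0), ‖BE i e T J0 kc a r W K g (w, u, v)‖ ^ 2 =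
      ∑ ω ∈ (D.filter (fun u => C u v ≠ 0)).image (fun u => (w, u, v)),
        ‖BE i e T J0 kc a r W K g ω‖ ^ 2 := by
    rw [Finset.sum_image]
    intro u _ u' _ h
    simpa using h
  rw [h5]
  refine Finset.sum_le_sum_of_subset_of_nonneg ?_ fun _ _ _ => sq_nonneg _
  intro ω hω
  obtain ⟨u, hu, rfl⟩ := Finset.mem_image.1 hω
  obtain ⟨hu1, hu2⟩ := Finset.mem_filter.1 hu
  obtain ⟨a1, a2, a3⟩ := hsup u hu1 hu2
  exact Finset.mem_filter.2 ⟨(mem_BdE hqJ).2 ⟨a1, a2, a3⟩, rfl, rfl⟩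

/-- energy of the glued clips of `K` on a node `q` below, one gauge -/
theorem en_part (hB : Bnd (BdE i e T J0) (poE i e) (NmP (SE i e T J0) cf (okc (Ye i e) kc)) ν)
    {a : ℤ × ℤ × ℤ → ℂ} (ha : FibG (BdE i e T J0) (poE i e) ν a) {r : ℝ} (hr : 0 ≤ r)
    (hW : Full W J) (g : Fn) (hK : K ∈ W) (hq : q ∈ W) (hqK : iv q ⊆ iv K) :
    ν * ∑ ω ∈ BdE i e T J0 q, ‖BE i e T J0 kc a r W K g ω‖ ^ 2 ≤
      (2 ^ 7 * av q g ^ 2) * 2 ^ q.1 := by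
  refine (bgl_en hB ha hr hW g hK hq hqK fun p _ A => split_all hB (split_cell p) hr A).trans
    (le_of_eq ?_)
  rw [len_two]
  ring

end edge

/-- **`enB`** : the energy, a family of gauges -/
theorem enB_of {ι : Type} [Fintype ι] {κ : ι → ℝ} (hκ : ∀ l, 0 ≤ κ l) {i : Fin 4} {e : Fin 3}
    {T : ι → Fin 3 → Finset ℤ} {J0 : Nd} {kc n : ℕ} {a : ι → ℤ × ℤ × ℤ → ℂ}
    (hB : ∀ l, Bnd (BdE i e (T l) J0) (poE i e)
      (NmP (SE i e (T l) J0) cf (okc (Ye i e) kc)) (1 / (n : ℝ) ^ 2))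
    (ha : ∀ l, FibG (BdE i e (T l) J0) (poE i e) (1 / (n : ℝ) ^ 2) (a l)) {r : ℝ} (hr : 0 ≤ r)
    {W : Finset Nd} {J K q : Nd} (hW : Full W J) (g : Fn) (hK : K ∈ W) (hq : q ∈ W)
    (hqK : iv q ⊆ iv K) :
    ∑ l, κ l * (1 / (n : ℝ) ^ 2 * ∑ ω ∈ BdE i e (T l) J0 q,
      ‖BE i e (T l) J0 kc (a l) r W K g ω‖ ^ 2) ≤
      ((∑ l, κ l) * (2 ^ 7 * av q g ^ 2)) * 2 ^ q.1 := by
  rw [mul_assoc, Finset.sum_mul]
  exact Finset.sum_le_sum fun l _ => mul_le_mul_of_nonneg_left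
    (en_part (hB l) (ha l) hr hW g hK hq hqK) (hκ l)

end Crest.Agent.R079.FrJx717
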