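import Crest.Agent.R079.NrU_276
import Crest.Agent.R079.NrB_228

/-! R079 (helper276), (T3) of note 1820: the geometry of `NrU_276` in the literals of `NrB_228`:
`Al, E1, E2` (tiles alive at the level `K.1 - j0`, resp. at the level `dq` inside a grid node).
(a) `big_cell`, `cell_side` (NrU); (b) `E1_wt, E1_wtc`; (c) `E1_side, E2_side, E2_lab, E2_dis`;
(d) `E2_wt_le, E2_wtc_le, E2_row_dist, E2_col_dist`; (e) `E2_wt_ge, E2_wtc_ge`; (f) `QQ_card`;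
`E_op` : operator bound of the competitor on the tiles; `E_box` : on boxes. -/

set_option autoImplicit false

namespace Crest.Agent.R079.NrGx276

open Finset Crest.Agent.R079.Grid Crest.Agent.R079.Growth Crest.Agent.R079.QRed
  Crest.Agent.R079.Qh249 Crest.Agent.R079.QVar181 Crest.Agent.R079.TWin
open Crest.Agent.R079.ThA159 Crest.Agent.R079.Cel159
open Crest.Agent.R079.Whit (Ins Ins.mono Ins.sub sub0 sub1)
open Crest.Agent.R079.ClW59 (OpS)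
open Crest.Agent.R079.NrTx276 Crest.Agent.R079.NrUx276 Crest.Agent.R079.SbWx795
open Crest.Agent.R079.NrTx259 (Tlg Rw Cl wt wtc mB)
open Crest.Agent.R079.NrBx228

variable {Y : ℤ → ℤ → ℤ → ℤ} {k : ℕ} {V : Finset Nd} {P K : Nd} {z : ℤ} {m : ℕ} {a b : ℤ}
  {j0 n0 k0 : ℕ} {q : Nd}

lemma Al_sub {Pr : Nd → Prop} : Al Y k V z m a b Pr ⊆ Til Y k V z m a b := by
  classical
  exact Finset.filter_subset _ _

/-- membership by any point of the tile -/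
theorem mem_Al (hV : Full V P) (hK : K ∈ V) (hM : Mx (Y z) k K m a b) {Pr : Nd → Prop}
    {c : ℕ × ℤ × ℤ} (hc : c ∈ Til Y k V z m a b) {u v : ℤ} (hu : u ∈ Rw c) (hv : v ∈ Cl c) :
    c ∈ Al Y k V z m a b Pr ↔ Pr (lfOf V (Y z u v)) := by
  classical
  obtain ⟨L, hL, _, h1, _⟩ := til_spec hV hK hM hc
  have h2 : Y z u v ∈ iv L := h1.2.1 u hu v hv
  have h3 : Y z (c.2.1 * 2 ^ c.1) (c.2.2 * 2 ^ c.1) ∈ iv L :=
    h1.2.1 _ (cor_mem _ _) _ (cor_mem _ _)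
  unfold Al
  rw [Finset.mem_filter, lfOf_eq hV hL h2, lfOf_eq hV hL h3]
  exact ⟨fun h => h.2, fun h => ⟨hc, h⟩⟩

lemma Al_mono {Pr Pr' : Nd → Prop} (h : ∀ L, Pr L → Pr' L) :
    Al Y k V z m a b Pr ⊆ Al Y k V z m a b Pr' := by
  classical
  intro c hc
  unfold Al at hc ⊢
  rw [Finset.mem_filter] at hc ⊢
  exact ⟨hc.1, h _ hc.2⟩

/-- alive labels in terms of the leaf -/
lemma alv_iff (hV : Full V P) {L : Nd} (hL : L ∈ lf V) {y : ℤ} (hy : y ∈ iv L)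
    (hq : iv q ⊆ iv P) {d : ℕ} (hd : d ≤ q.1) : alv V d q y ↔ iv L ⊆ iv q ∧ L.1 ≤ d := by
  constructor
  · rintro ⟨p, h0, h1, h2, h3⟩
    have h4 := leaf_below hV hL h0 hy h3
    exact ⟨h4.trans h2, by have := lvl_le h4; omega⟩
  · rintro ⟨h1, h2⟩
    obtain ⟨p, hp, h3, h4, h5⟩ := anc_mem hV (mem_lf.1 hL).1 h1 hq h2 hd
    exact ⟨p, hp, h3, h5, h4 hy⟩

theorem E1_eq (hV : Full V P) (hK : K ∈ V) (hM : Mx (Y z) k K m a b) (hj : j0 ≤ K.1) :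
    E1 Y k V j0 K z m a b = AT Y k V z m a b (K.1 - j0) K := by
  classical
  ext c
  constructor
  · intro hc
    have hc' := Al_sub hc
    obtain ⟨L, hL, hLK, h1, _⟩ := til_spec hV hK hM hc'
    have hy : Y z (c.2.1 * 2 ^ c.1) (c.2.2 * 2 ^ c.1) ∈ iv L :=
      h1.2.1 _ (cor_mem _ _) _ (cor_mem _ _)
    have h2 := (mem_Al hV hK hM hc' (cor_mem _ _) (cor_mem _ _)).1 hc
    rw [lfOf_eq hV hL hy] at h2
    rw [mem_AT hV hK hM hc' (cor_mem _ _) (cor_mem _ _),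
      alv_iff hV hL hy (hV.reg.1 K hK) (Nat.sub_le _ _)]
    exact ⟨hLK, by omega⟩
  · intro hc
    have hc' := AT_sub hc
    obtain ⟨L, hL, hLK, h1, _⟩ := til_spec hV hK hM hc'
    have hy : Y z (c.2.1 * 2 ^ c.1) (c.2.2 * 2 ^ c.1) ∈ iv L :=
      h1.2.1 _ (cor_mem _ _) _ (cor_mem _ _)
    have h2 := (mem_AT hV hK hM hc' (cor_mem _ _) (cor_mem _ _)).1 hc
    rw [alv_iff hV hL hy (hV.reg.1 K hK) (Nat.sub_le _ _)] at h2
    refine (mem_Al hV hK hM hc' (cor_mem _ _) (cor_mem _ _)).2 ?_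
    rw [lfOf_eq hV hL hy]
    have := h2.2
    omega

theorem E2_eq (hV : Full V P) (hK : K ∈ V) (hM : Mx (Y z) k K m a b) (hq : q ∈ V)
    (hd : dq V n0 q ≤ q.1) : E2 Y k V n0 q z m a b = AT Y k V z m a b (dq V n0 q) q := by
  classical
  ext c
  constructor
  · intro hc
    have hc' := Al_sub hc
    obtain ⟨L, hL, hLK, h1, _⟩ := til_spec hV hK hM hc'
    have hy : Y z (c.2.1 * 2 ^ c.1) (c.2.2 * 2 ^ c.1) ∈ iv L :=
      h1.2.1 _ (cor_mem _ _) _ (cor_mem _ _)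
    have h2 := (mem_Al hV hK hM hc' (cor_mem _ _) (cor_mem _ _)).1 hc
    rw [lfOf_eq hV hL hy] at h2
    rw [mem_AT hV hK hM hc' (cor_mem _ _) (cor_mem _ _),
      alv_iff hV hL hy (hV.reg.1 q hq) hd]
    exact h2
  · intro hc
    have hc' := AT_sub hc
    obtain ⟨L, hL, hLK, h1, _⟩ := til_spec hV hK hM hc'
    have hy : Y z (c.2.1 * 2 ^ c.1) (c.2.2 * 2 ^ c.1) ∈ iv L :=
      h1.2.1 _ (cor_mem _ _) _ (cor_mem _ _)
    have h2 := (mem_AT hV hK hM hc' (cor_mem _ _) (cor_mem _ _)).1 hc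
    rw [alv_iff hV hL hy (hV.reg.1 q hq) hd] at h2
    refine (mem_Al hV hK hM hc' (cor_mem _ _) (cor_mem _ _)).2 ?_
    rw [lfOf_eq hV hL hy]
    exact h2

lemma E1_sub : E1 Y k V j0 K z m a b ⊆ Til Y k V z m a b := Al_sub

lemma E2_sub : E2 Y k V n0 q z m a b ⊆ Til Y k V z m a b := Al_sub

/-! ### (b) -/

/-- **(b)** rows of a big cell, case B of 795 -/
theorem E1_wt (hY : St3 Y) (hV : Full V P) (hK : K ∈ V) (hM : Mx (Y z) k K m a b)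
    (hm : K.1 ≤ m) (hk0 : 9 ≤ k0) (hkj : k0 ≤ j0) (hCB : CB V k0 j0 n0 K) {u : ℤ}
    (hu : u ∈ dI m a) :
    (1 / 2 ^ (k0 + 3) : ℝ) * 2 ^ m ≤ wt (E1 Y k V j0 K z m a b) u := by
  have hj : j0 ≤ K.1 := by have := hCB.1; omega
  rw [E1_eq hV hK hM hj]
  refine le_trans ?_ (wt_top (k0 := k0) hY hV hK hM hm hk0 (hkj.trans hj) hCB.2 hu)
  have h1 : (2 : ℝ) ^ m ≤ len K := by
    unfold Growth.len
    exact pow_le_pow_right₀ (by norm_num) (cell_side hY hM)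
  rw [div_mul_eq_mul_div, one_mul]
  exact div_le_div_of_nonneg_right h1 (by positivity)

/-- **(b)** columns -/
theorem E1_wtc (hY : St3 Y) (hV : Full V P) (hK : K ∈ V) (hM : Mx (Y z) k K m a b)
    (hm : K.1 ≤ m) (hk0 : 9 ≤ k0) (hkj : k0 ≤ j0) (hCB : CB V k0 j0 n0 K) {v : ℤ}
    (hv : v ∈ dI m b) :
    (1 / 2 ^ (k0 + 3) : ℝ) * 2 ^ m ≤ wtc (E1 Y k V j0 K z m a b) v := by
  have hj : j0 ≤ K.1 := by have := hCB.1; omega
  rw [E1_eq hV hK hM hj]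
  refine le_trans ?_ (wtc_top (k0 := k0) hY hV hK hM hm hk0 (hkj.trans hj) hCB.2 hv)
  have h1 : (2 : ℝ) ^ m ≤ len K := by
    unfold Growth.len
    exact pow_le_pow_right₀ (by norm_num) (cell_side hY hM)
  rw [div_mul_eq_mul_div, one_mul]
  exact div_le_div_of_nonneg_right h1 (by positivity)

/-! ### (c) -/

/-- **(c)** sides of the tiles of stage 1 -/
theorem E1_side (hY : St3 Y) (hV : Full V P) (hK : K ∈ V) (hM : Mx (Y z) k K m a b)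
    (hj : j0 ≤ K.1) {c : ℕ × ℤ × ℤ} (hc : c ∈ E1 Y k V j0 K z m a b) :
    c.1 ≤ K.1 - j0 + 7 := by
  rw [E1_eq hV hK hM hj] at hc
  exact AT_side hY hV hK hM hc

/-- **(c)** sides of the tiles of stage 2 -/
theorem E2_side (hY : St3 Y) (hV : Full V P) (hK : K ∈ V) (hM : Mx (Y z) k K m a b)
    (hq : q ∈ V) (hd : dq V n0 q ≤ q.1) {c : ℕ × ℤ × ℤ} (hc : c ∈ E2 Y k V n0 q z m a b) :
    c.1 ≤ dq V n0 q + 7 := by
  rw [E2_eq hV hK hM hq hd] at hc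
  exact AT_side hY hV hK hM hc

/-- **(c)** labels of the tiles of stage 2 -/
theorem E2_lab (hV : Full V P) (hK : K ∈ V) (hM : Mx (Y z) k K m a b)
    {c : ℕ × ℤ × ℤ} (hc : c ∈ E2 Y k V n0 q z m a b) {u v : ℤ} (hu : u ∈ Rw c) (hv : v ∈ Cl c) :
    Y z u v ∈ iv q := by
  obtain ⟨L, hL, _, h1, _⟩ := til_spec hV hK hM (E2_sub hc)
  have h2 : Y z u v ∈ iv L := h1.2.1 u hu v hv
  have h3 := (mem_Al hV hK hM (E2_sub hc) hu hv).1 hc
  rw [lfOf_eq hV hL h2] at h3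
  exact h3.1 h2

/-- **(c)** -/
theorem E2_dis (hV : Full V P) (hK : K ∈ V) (hM : Mx (Y z) k K m a b) {q' : Nd}
    (h : Disjoint (iv q) (iv q')) :
    Disjoint (E2 Y k V n0 q z m a b) (E2 Y k V n0 q' z m a b) := by
  rw [Finset.disjoint_left]
  intro c hc hc'
  exact Finset.disjoint_left.1 h (E2_lab hV hK hM hc (cor_mem _ _) (cor_mem _ _))
    (E2_lab hV hK hM hc' (cor_mem _ _) (cor_mem _ _))

/-! ### (d) -/

/-- **(d)** -/
theorem E2_wt_le (hY : St3 Y) (hV : Full V P) (hK : K ∈ V) (hM : Mx (Y z) k K m a b)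
    (hq : q ∈ V) (hd : dq V n0 q ≤ q.1) {u : ℤ} (hu : u ∈ dI m a) :
    wt (E2 Y k V n0 q z m a b) u ≤ 2 ^ (q.1 + 7) := by
  rw [E2_eq hV hK hM hq hd]
  exact wt_le_len hY hV hK hM hu

/-- **(d)** -/
theorem E2_wtc_le (hY : St3 Y) (hV : Full V P) (hK : K ∈ V) (hM : Mx (Y z) k K m a b)
    (hq : q ∈ V) (hd : dq V n0 q ≤ q.1) {v : ℤ} (hv : v ∈ dI m b) :
    wtc (E2 Y k V n0 q z m a b) v ≤ 2 ^ (q.1 + 7) := by
  rw [E2_eq hV hK hM hq hd]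
  exact wtc_le_len hY hV hK hM hv

/-- **(d)** the tiles of `E2` on a row are close to every label of `q` on the row -/
theorem E2_row_dist (hY : St3 Y) (hV : Full V P) (hK : K ∈ V) (hM : Mx (Y z) k K m a b)
    {u v v' : ℤ} (h : Y z u v ∈ iv q) {c : ℕ × ℤ × ℤ} (hc : c ∈ E2 Y k V n0 q z m a b)
    (hu : u ∈ Rw c) (hv : v' ∈ Cl c) : |v' - v| < 2 ^ (q.1 + 7) :=
  row_dist hY h (E2_lab hV hK hM hc hu hv)

/-- **(d)** columns -/
theorem E2_col_dist (hY : St3 Y) (hV : Full V P) (hK : K ∈ V) (hM : Mx (Y z) k K m a b)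
    {u u' v : ℤ} (h : Y z u v ∈ iv q) {c : ℕ × ℤ × ℤ} (hc : c ∈ E2 Y k V n0 q z m a b)
    (hu : u' ∈ Rw c) (hv : v ∈ Cl c) : |u' - u| < 2 ^ (q.1 + 7) :=
  row_dist (Y := fun z v u => Y z u v) (z := z) (u := v) (v := u) (v' := u') hY.swap h
    (E2_lab hV hK hM hc hu hv)

/-! ### (e) -/

/-- **(e)** inner rows -/
theorem E2_wt_ge (hY : St3 Y) (hV : Full V P) (hK : K ∈ V) (hM : Mx (Y z) k K m a b)
    (hq : q ∈ V) (hd : dq V n0 q ≤ q.1) (hal : len q / 2 ≤ al V (dq V n0 q) q) {u v : ℤ}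
    (hu : u ∈ dI m a) (h : Y z u v ∈ iv q) (h1 : b * 2 ^ m + 2 ^ (q.1 + 7) ≤ v + 1)
    (h2 : v + 2 ^ (q.1 + 7) ≤ (b + 1) * 2 ^ m) : 2 ^ q.1 ≤ wt (E2 Y k V n0 q z m a b) u := by
  rw [E2_eq hV hK hM hq hd]
  refine le_trans ?_ (wt_inner hY hV hK hM hal hu h h1 h2)
  unfold Growth.len
  rw [pow_add]
  have : (0 : ℝ) < 2 ^ q.1 := by positivity
  linarith

/-- **(e)** inner columns -/
theorem E2_wtc_ge (hY : St3 Y) (hV : Full V P) (hK : K ∈ V) (hM : Mx (Y z) k K m a b)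
    (hq : q ∈ V) (hd : dq V n0 q ≤ q.1) (hal : len q / 2 ≤ al V (dq V n0 q) q) {u v : ℤ}
    (hv : v ∈ dI m b) (h : Y z u v ∈ iv q) (h1 : a * 2 ^ m + 2 ^ (q.1 + 7) ≤ u + 1)
    (h2 : u + 2 ^ (q.1 + 7) ≤ (a + 1) * 2 ^ m) : 2 ^ q.1 ≤ wtc (E2 Y k V n0 q z m a b) v := by
  rw [E2_eq hV hK hM hq hd]
  refine le_trans ?_ (wtc_inner hY hV hK hM hal hv h h1 h2)
  unfold Growth.len
  rw [pow_add]
  have : (0 : ℝ) < 2 ^ q.1 := by positivity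
  linarith

/-! ### (f) -/

/-- **(f)** number of grid nodes -/
theorem QQ_card : ((QQ V k0 j0 n0 K).card : ℝ) * 2 ^ (K.1 - j0) ≤ 2 ^ K.1 := by
  have h1 := QQ_len (V := V) (k0 := k0) (j0 := j0) (n0 := n0) (K := K)
  have h2 : ∀ q ∈ QQ V k0 j0 n0 K, len q = 2 ^ (K.1 - j0) * 2 ^ 7 := by
    intro q hq
    unfold Growth.len
    rw [(mem_QQ.1 hq).2.2.1, pow_add]
  rw [Finset.sum_congr rfl h2, Finset.sum_const, nsmul_eq_mul] at h1
  unfold Growth.len at h1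
  rw [pow_add] at h1
  have h3 : (0 : ℝ) < 2 ^ 7 := by norm_num
  have h4 : ((QQ V k0 j0 n0 K).card : ℝ) * 2 ^ (K.1 - j0) * 2 ^ 7 ≤ 2 ^ K.1 * 2 ^ 7 := by
    linarith
  exact le_of_mul_le_mul_right h4 h3

/-! ### operator bounds -/

section op

variable {S : Finset (ℤ × ℤ × ℤ)} {ν : ℝ}

open Classical in
/-- the competitor on the tiles -/
theorem Bk_op {pos : ℤ × ℤ × ℤ → ℤ}
    (hB : Bnd (fun p => S.filter (fun ω => Y ω.1 ω.2.1 ω.2.2 ∈ iv p)) pos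
      (NmP S cf (okc Y k)) ν) (aa : ℤ × ℤ × ℤ → ℂ) {r : ℝ} (hr : 0 ≤ r) (hV : Full V P)
    (g : Fn) (hK : K ∈ V) (hM : Mx (Y z) k K m a b) {c : ℕ × ℤ × ℤ}
    (hc : c ∈ Til Y k V z m a b) :
    OpS (Rw c) (Cl c) (Bk (fun p => S.filter
      (fun ω => Y ω.1 ω.2.1 ω.2.2 ∈ iv p)) pos (NmP S cf (okc Y k)) aa r V K g z) (r * 2 ^ c.1) :=
  til_op hB aa hr hV g hK hM hc

end op

/-- **masked kernel of `E2` on boxes** : every box of side `≥ 2^dq` inside the columns, constant `2^7` -/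
theorem E2_box (hY : St3 Y) (hV : Full V P) (hK : K ∈ V) (hM : Mx (Y z) k K m a b)
    (hq : q ∈ V) (hd : dq V n0 q ≤ q.1) {B : ℤ → ℤ → ℂ} {r : ℝ} (hr : 0 ≤ r)
    (hop : ∀ c ∈ Til Y k V z m a b, OpS (Rw c) (Cl c) B (r * 2 ^ c.1)) {n : ℕ}
    (hn : dq V n0 q ≤ n) {a' b' : ℤ} (hb : dI n b' ⊆ dI m b) :
    OpS (dI n a') (dI n b') (mB (E2 Y k V n0 q z m a b) B) (2 ^ 7 * r * 2 ^ n) :=
  mB_box7 hr (tlg hV hK hM) E2_sub (fun c hc => hop c (E2_sub hc))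
    (fun _ hc => E2_side hY hV hK hM hq hd hc) hn hb

end Crest.Agent.R079.NrGx276
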