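import Crest.Agent.R079.FrJ_717
import Crest.Agent.R079.FrZa_360
import Crest.Agent.R079.NrG_276

/-! R079, (T5c) of note 1820 (helper717): **the fields `supU, supW, ptU, ptW, rowU, colW, enB` of `FC`**
for the concrete frames of `FrZa_360` (228's `CUF, CWF`), and `fc_of` : `FC` from the four remaining
fields (`opU, opW, majU, majW`) and the position of `q0`.

The dominating kernels are masked to the maximal cells of `K` : `CUm, CWm`. -/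

set_option autoImplicit false
set_option linter.unusedSectionVars false

namespace Crest.Agent.R079.FrKx717

open Finset Crest.Agent.R079.Grid Crest.Agent.R079.Growth Crest.Agent.R079.QRed
  Crest.Agent.R079.Qh249 Crest.Agent.R079.QVar181 Crest.Agent.R079.TWin
  Crest.Agent.R079.Glue Crest.Agent.R079.SWc360 Crest.Agent.R079.Cel159
  Crest.Agent.R079.SplSx69 Crest.Agent.R079.ThA159 Crest.Agent.R079.SKx261
  Crest.Agent.R079.ElGx69
open Crest.Agent.R079.GaFx371 (Ye W0 SE BdE poE mem_W0 mem_BdE)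
open Crest.Agent.R079.FrWx360 (FC tcY)
open Crest.Agent.R079.FrZx360
open Crest.Agent.R079.NrTx259 (mB wt wtc Rw Cl)
open Crest.Agent.R079.NrBx228 (CU CW Bk E2)
open Crest.Agent.R079.FrJx717

open scoped ComplexConjugate

section cell

variable {A : Finset (ℕ × ℤ × ℤ)} {B : ℤ → ℤ → ℂ} {lq : ℝ} {u v : ℤ}

lemma mB_norm : ‖mB A B u v‖ ≤ ‖B u v‖ := by
  unfold mB
  split_ifs
  · exact le_rfl
  · rw [norm_zero]; exact norm_nonneg _

lemma mB_ne (h : mB A B u v ≠ 0) : B u v ≠ 0 ∧ ∃ c ∈ A, u ∈ Rw c ∧ v ∈ Cl c := by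
  unfold mB at h
  split_ifs at h with hc
  · exact ⟨h, hc⟩
  · exact absurd rfl h

lemma CU_norm (hlq : 0 < lq) : ‖CU A B lq u v‖ ≤ ‖B u v‖ := by
  unfold CU
  split_ifs with h
  · have h0 : 0 < wt A u := lt_of_lt_of_le hlq h
    rw [norm_mul, Complex.norm_real, Real.norm_eq_abs, abs_of_nonneg (by positivity)]
    have h1 : lq / wt A u ≤ 1 := (div_le_one h0).2 h
    calc lq / wt A u * ‖mB A B u v‖ ≤ 1 * ‖B u v‖ :=
          mul_le_mul h1 mB_norm (norm_nonneg _) zero_le_one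
      _ = _ := one_mul _
  · rw [norm_zero]; exact norm_nonneg _

lemma CW_norm (hlq : 0 < lq) : ‖CW A B lq u v‖ ≤ ‖B u v‖ := by
  unfold CW
  split_ifs with h
  · have h0 : 0 < wtc A v := lt_of_lt_of_le hlq h
    rw [norm_mul, Complex.norm_real, Real.norm_eq_abs, abs_of_nonneg (by positivity)]
    have h1 : lq / wtc A v ≤ 1 := (div_le_one h0).2 h
    calc lq / wtc A v * ‖mB A B u v‖ ≤ 1 * ‖B u v‖ :=
          mul_le_mul h1 mB_norm (norm_nonneg _) zero_le_one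
      _ = _ := one_mul _
  · rw [norm_zero]; exact norm_nonneg _

lemma CU_ne (h : CU A B lq u v ≠ 0) : B u v ≠ 0 ∧ ∃ c ∈ A, u ∈ Rw c ∧ v ∈ Cl c := by
  unfold CU at h
  split_ifs at h with hc
  · exact mB_ne fun h0 => h (by rw [h0, mul_zero])
  · exact absurd rfl h

lemma CW_ne (h : CW A B lq u v ≠ 0) : B u v ≠ 0 ∧ ∃ c ∈ A, u ∈ Rw c ∧ v ∈ Cl c := by
  unfold CW at h
  split_ifs at h with hc
  · exact mB_ne fun h0 => h (by rw [h0, mul_zero])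
  · exact absurd rfl h

end cell

section conc

variable {n : ℕ} (i : Fin 4) (e : Fin 3) (kc n0 : ℕ) (W : Finset Nd) (K I : Nd)
  (T : Fin n → Fin 3 → Finset ℤ) (g : Fin n → Fin 3 → ℤ → ℤ → ℂ) (r : ℕ → ℝ) (gg : Fn)

open Classical in
/-- dominating kernel of the rows, masked to the maximal cells -/
noncomputable def CUm (a : ℕ) (q0 : Nd) (l : Fin n) (z : ℤ) (t : ℕ × ℤ × ℤ) (u v : ℤ) : ℂ :=
  if Mx (Ye i e z) kc K t.1 t.2.1 t.2.2 then CUX i e kc n0 W K I T g r gg a q0 l z t u v else 0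

open Classical in
/-- dominating kernel of the columns, masked to the maximal cells -/
noncomputable def CWm (a : ℕ) (q0 : Nd) (l : Fin n) (z : ℤ) (t : ℕ × ℤ × ℤ) (u v : ℤ) : ℂ :=
  if Mx (Ye i e z) kc K t.1 t.2.1 t.2.2 then CWX i e kc n0 W K I T g r gg a q0 l z t u v else 0

variable {i e kc n0 W K I T g r gg}

lemma CUm_eq {a : ℕ} {q0 : Nd} {l : Fin n} {z : ℤ} {t : ℕ × ℤ × ℤ}
    (h : Mx (Ye i e z) kc K t.1 t.2.1 t.2.2) :
    CUm i e kc n0 W K I T g r gg a q0 l z t = CUX i e kc n0 W K I T g r gg a q0 l z t := by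
  funext u v
  unfold CUm
  rw [if_pos h]

lemma CWm_eq {a : ℕ} {q0 : Nd} {l : Fin n} {z : ℤ} {t : ℕ × ℤ × ℤ}
    (h : Mx (Ye i e z) kc K t.1 t.2.1 t.2.2) :
    CWm i e kc n0 W K I T g r gg a q0 l z t = CWX i e kc n0 W K I T g r gg a q0 l z t := by
  funext u v
  unfold CWm
  rw [if_pos h]

lemma ptU {a : ℕ} {q0 : Nd} {l : Fin n} {z : ℤ} {t : ℕ × ℤ × ℤ} {u v : ℤ} :
    ‖CUm i e kc n0 W K I T g r gg a q0 l z t u v‖ ≤ ‖BX i e kc W K I T g r gg a l (z, u, v)‖ := by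
  unfold CUm
  split_ifs
  · unfold CUX NrBx228.CUF
    exact CU_norm (by positivity)
  · rw [norm_zero]; exact norm_nonneg _

lemma ptW {a : ℕ} {q0 : Nd} {l : Fin n} {z : ℤ} {t : ℕ × ℤ × ℤ} {u v : ℤ} :
    ‖CWm i e kc n0 W K I T g r gg a q0 l z t u v‖ ≤ ‖BX i e kc W K I T g r gg a l (z, u, v)‖ := by
  unfold CWm
  split_ifs
  · unfold CWX NrBx228.CWF
    exact CW_norm (by positivity)
  · rw [norm_zero]; exact norm_nonneg _

section sup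

variable {ν : ℝ} {P : Nd}

/-- support of the glued clips -/
lemma bx_ne {l : Fin n} (hB : Bnd (BdE i e (T l) I) (poE i e) (NX i e kc I T l) ν) {a : ℕ}
    (hr : 0 ≤ r a) (hW : Full W P) (hK : K ∈ W) {z u v : ℤ}
    (h : BX i e kc W K I T g r gg a l (z, u, v) ≠ 0) : u ∈ T l e ∧ v ∈ T l (e + 1) := by
  classical
  have h1 : (z, u, v) ∈ BdE i e (T l) I K := by
    by_contra hc
    exact h ((Bgl_adm hB (gaX e g l) hr hW gg K hK).1 _ hc)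
  unfold BdE SE at h1
  rw [Finset.mem_filter, Finset.mem_product, Finset.mem_product] at h1
  exact h1.1.2

theorem supU {l : Fin n} (hB : Bnd (BdE i e (T l) I) (poE i e) (NX i e kc I T l) ν) {a : ℕ}
    (hr : 0 ≤ r a) (hW : Full W P) (hK : K ∈ W) {q0 : Nd} {z : ℤ} {t : ℕ × ℤ × ℤ} {u v : ℤ}
    (h : CUm i e kc n0 W K I T g r gg a q0 l z t u v ≠ 0) :
    u ∈ T l e ∧ v ∈ T l (e + 1) ∧ Ye i e z u v ∈ iv q0 := by
  unfold CUm at h
  split_ifs at h with hM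
  · unfold CUX NrBx228.CUF at h
    obtain ⟨h1, c, hc, h2, h3⟩ := CU_ne h
    obtain ⟨h4, h5⟩ := bx_ne hB hr hW hK h1
    exact ⟨h4, h5, NrGx276.E2_lab hW hK hM hc h2 h3⟩
  · exact absurd rfl h

theorem supW {l : Fin n} (hB : Bnd (BdE i e (T l) I) (poE i e) (NX i e kc I T l) ν) {a : ℕ}
    (hr : 0 ≤ r a) (hW : Full W P) (hK : K ∈ W) {q0 : Nd} {z : ℤ} {t : ℕ × ℤ × ℤ} {u v : ℤ}
    (h : CWm i e kc n0 W K I T g r gg a q0 l z t u v ≠ 0) :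
    u ∈ T l e ∧ v ∈ T l (e + 1) ∧ Ye i e z u v ∈ iv q0 := by
  unfold CWm at h
  split_ifs at h with hM
  · unfold CWX NrBx228.CWF at h
    obtain ⟨h1, c, hc, h2, h3⟩ := CW_ne h
    obtain ⟨h4, h5⟩ := bx_ne hB hr hW hK h1
    exact ⟨h4, h5, NrGx276.E2_lab hW hK hM hc h2 h3⟩
  · exact absurd rfl h

end sup

/-- **`FC` from the operator bounds and the domination of the frames** -/
theorem fc_of {j0 Kl n1 κ0 d C0 a : ℕ} {q0 P : Nd} {κ : Fin n → ℝ} {R : Finset Nd}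
    {ρ rr Hr G Ha : ℝ}
    (hB : ∀ l, Bnd (BdE i e (T l) I) (poE i e) (NX i e kc I T l) (1 / (n1 : ℝ) ^ 2))
    (hF : ∀ l, FibG (BdE i e (T l) I) (poE i e) (1 / (n1 : ℝ) ^ 2) (gaX e g l))
    (hHa : ∀ l ω, ‖gaX e g l ω‖ ≤ Ha) (hr : 0 ≤ r a) (hW : Full W P) (hK : K ∈ W) (hq : q0 ∈ W)
    (hqK : iv q0 ⊆ iv K) (hKI : iv K ⊆ iv I) (hκ : ∀ l, 0 ≤ κ l) (hC : 2 ^ κ0 ≤ C0)
    (hna : ¬ Adj C0 K q0) (hR : ∀ p ∈ R, p.1 ≤ q0.1) (hRd : ∀ p ∈ R, d ≤ p.1) (hρ : 0 ≤ ρ)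
    (hrr : 0 < rr) (hHr : 2 ^ 7 * Ha ^ 2 * av q0 gg ^ 2 ≤ Hr)
    (hG : (∑ l, κ l) * (2 ^ 7 * av q0 gg ^ 2) ≤ G)
    (opU : ∀ l, ∀ w ∈ W0 i e (T l) I, ∀ t : ℕ × ℤ × ℤ, Mx (Ye i e w) kc K t.1 t.2.1 t.2.2 →
      ∀ m, d ≤ m → m ≤ q0.1 + κ0 → ∀ a' b', dI m a' ⊆ dI t.1 t.2.1 → dI m b' ⊆ dI t.1 t.2.2 →
        OpC (CUX i e kc n0 W K I T g r gg a q0 l w t) m a' b' ρ)
    (opW : ∀ l, ∀ w ∈ W0 i e (T l) I, ∀ t : ℕ × ℤ × ℤ, Mx (Ye i e w) kc K t.1 t.2.1 t.2.2 →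
      ∀ m, d ≤ m → m ≤ q0.1 + κ0 → ∀ a' b', dI m a' ⊆ dI t.1 t.2.1 → dI m b' ⊆ dI t.1 t.2.2 →
        OpC (CWX i e kc n0 W K I T g r gg a q0 l w t) m a' b' ρ)
    (majU : ∀ l, ∀ w ∈ W0 i e (T l) I, ∀ t : ℕ × ℤ × ℤ, Mx (Ye i e w) kc K t.1 t.2.1 t.2.2 →
      ∀ (a' : ℤ) (f : ℤ → ℂ),
      ∑ x, ‖∑ u ∈ dI q0.1 a' ∩ dI t.1 t.2.1,
          f u * PfX i e kc j0 n0 Kl W K I T g r gg a q0 l w t u x‖ ^ 2 ≤
        (rr⁻¹ / 2 ^ q0.1) * ∑ v ∈ dI t.1 t.2.2, ‖∑ u ∈ dI q0.1 a' ∩ dI t.1 t.2.1,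
          f u * CUX i e kc n0 W K I T g r gg a q0 l w t u v‖ ^ 2)
    (majW : ∀ l, ∀ w ∈ W0 i e (T l) I, ∀ t : ℕ × ℤ × ℤ, Mx (Ye i e w) kc K t.1 t.2.1 t.2.2 →
      ∀ (b' : ℤ) (f : ℤ → ℂ),
      ∑ x, ‖∑ v ∈ dI q0.1 b' ∩ dI t.1 t.2.2,
          f v * QfX i e kc j0 n0 Kl W K I T g r gg a q0 l w t v x‖ ^ 2 ≤
        (rr⁻¹ / 2 ^ q0.1) * ∑ u ∈ dI t.1 t.2.1, ‖∑ v ∈ dI q0.1 b' ∩ dI t.1 t.2.2,
          f v * CWX i e kc n0 W K I T g r gg a q0 l w t u v‖ ^ 2) :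
    FC κ i e n1 kc κ0 d C0 K q0 I T R (PfX i e kc j0 n0 Kl W K I T g r gg a q0)
      (QfX i e kc j0 n0 Kl W K I T g r gg a q0) (CUm i e kc n0 W K I T g r gg a q0)
      (CWm i e kc n0 W K I T g r gg a q0) (BX i e kc W K I T g r gg a) ρ rr Hr G := by
  classical
  have hqI : iv q0 ⊆ iv I := hqK.trans hKI
  have hκ0 : 0 ≤ ∑ l, κ l := Finset.sum_nonneg fun l _ => hκ l
  refine ⟨hKI, hκ, hC, hqK, hna, hR, hRd, hρ, hrr, ?_, ?_, ?_, ?_, ?_, ?_, ?_, ?_, ?_, ?_, ?_, ?_, ?_⟩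
  · exact le_trans (by positivity) hHr
  · exact le_trans (by positivity) hG
  · intro l w t u v h
    exact supU (hB l) hr hW hK h
  · intro l w t u v h
    exact supW (hB l) hr hW hK h
  · intro l w hw t hM m h1 h2 a' b' h3 h4
    rw [CUm_eq hM]
    exact opU l w hw t hM m h1 h2 a' b' h3 h4
  · intro l w hw t hM m h1 h2 a' b' h3 h4
    rw [CWm_eq hM]
    exact opW l w hw t hM m h1 h2 a' b' h3 h4
  · intro l w hw t hM a' f
    rw [CUm_eq hM]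
    exact majU l w hw t hM a' f
  · intro l w hw t hM b' f
    rw [CWm_eq hM]
    exact majW l w hw t hM b' f
  · intro l w _ t _ u _
    refine (row_dom (kc := kc) (r := r a) (hB l) (hHa l) hr hW gg hK hq hqK hqI
      (C := CUm i e kc n0 W K I T g r gg a q0 l w t)
      (fun v _ h => supU (hB l) hr hW hK h) (fun v _ => ptU)).trans ?_
    exact mul_le_mul_of_nonneg_right hHr (by positivity)
  · intro l w _ t _ v _
    refine (col_dom (kc := kc) (r := r a) (hB l) (hHa l) hr hW gg hK hq hqK hqI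
      (C := CWm i e kc n0 W K I T g r gg a q0 l w t)
      (fun u _ h => supW (hB l) hr hW hK h) (fun u _ => ptW)).trans ?_
    exact mul_le_mul_of_nonneg_right hHr (by positivity)
  · intro l w _ t u _ v _
    exact ptU
  · intro l w _ t u _ v _
    exact ptW
  · refine (enB_of hκ hB hF hr hW gg hK hq hqK).trans ?_
    exact mul_le_mul_of_nonneg_right hG (by positivity)

end conc

end Crest.Agent.R079.FrKx717
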