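import Crest.Agent.R079.FrK_717
import Crest.Agent.R079.FrI_261

/-! R079, (T5c) of note 1820 (helper717): position of the grid nodes `q0` of 795's `QQ` in the sub-top
(`qq_nadj`), operator bounds of the dominating kernels on boxes (`opU, opW`). -/

set_option autoImplicit false
set_option linter.unusedSectionVars false

namespace Crest.Agent.R079.FrLx717

open Finset Crest.Agent.R079.Grid Crest.Agent.R079.Growth Crest.Agent.R079.QRed
  Crest.Agent.R079.TWin Crest.Agent.R079.SbWx795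
open Crest.Agent.R079.SplSx69 (Adj)

lemma mem_iv2 {p : Nd} {y : ℤ} :
    y ∈ iv p ↔ p.2 * 2 ^ (p.1 + 7) ≤ y ∧ y < (p.2 + 1) * 2 ^ (p.1 + 7) := by
  unfold iv dI
  rw [Finset.mem_Ico]

/-- **a grid node is far from the ends of the sub-top** -/
theorem qq_nadj {V : Finset Nd} {P K q : Nd} {k0 j0 n0 C0 : ℕ} (hV : Full V P)
    (hq : q ∈ QQ V k0 j0 n0 K) (hj : 4 ≤ j0) (hC : C0 ≤ 2 ^ (j0 - 4)) : ¬ Adj C0 K q := by
  obtain ⟨_, h1, h2, h3, _⟩ := QQ_spec hV hq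
  have hp : (0 : ℤ) < 2 ^ (q.1 + 7) := by positivity
  have hp1 : (1 : ℤ) ≤ 2 ^ (q.1 + 7) := one_le_pow₀ (by norm_num)
  have hy0 : q.2 * 2 ^ (q.1 + 7) ∈ iv q := by
    rw [mem_iv2]
    constructor
    · exact le_rfl
    · nlinarith
  have hy1 : (q.2 + 1) * 2 ^ (q.1 + 7) - 1 ∈ iv q := by
    rw [mem_iv2]
    constructor
    · nlinarith
    · linarith
  have a0 := (not_lay_pos (by omega) h2 h3 hy0).1
  have a1 := (not_lay_pos (by omega) h2 h3 hy1).2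
  have e7 : (2 : ℤ) ^ (K.1 + 7) = 2 ^ j0 * 2 ^ (q.1 + 7) := by
    rw [← h1, ← pow_add]
    congr 1
    omega
  have e3 : (2 : ℤ) ^ (K.1 + 3) = 2 ^ (j0 - 4) * 2 ^ (q.1 + 7) := by
    rw [← h1, ← pow_add]
    congr 1
    omega
  rw [e7, e3] at a0 a1
  have b0 : K.2 * 2 ^ j0 + 2 ^ (j0 - 4) ≤ q.2 := by
    have : (K.2 * 2 ^ j0 + 2 ^ (j0 - 4)) * 2 ^ (q.1 + 7) ≤ q.2 * 2 ^ (q.1 + 7) := by linarith
    exact le_of_mul_le_mul_right this hp
  have b1 : q.2 + 1 ≤ (K.2 + 1) * 2 ^ j0 - 2 ^ (j0 - 4) := by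
    have : (q.2 + 1) * 2 ^ (q.1 + 7) ≤ ((K.2 + 1) * 2 ^ j0 - 2 ^ (j0 - 4)) * 2 ^ (q.1 + 7) := by
      linarith
    exact le_of_mul_le_mul_right this hp
  have hC' : (C0 : ℤ) ≤ 2 ^ (j0 - 4) := by exact_mod_cast hC
  have ej : K.1 - q.1 = j0 := by omega
  unfold Adj
  rw [ej]
  push Not
  constructor
  · linarith
  · linarith

section op

open Crest.Agent.R079.Cel159 Crest.Agent.R079.ThA159
open Crest.Agent.R079.GaFx371 (Ye W0 SE BdE poE)
open Crest.Agent.R079.FrZx360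
open Crest.Agent.R079.NrTx259 (mB wt wtc Rw Cl)
open Crest.Agent.R079.NrBx228 (CU CW Bk E2)
open Crest.Agent.R079.ClW59 (OpS)

variable {n : ℕ} {i : Fin 4} {e : Fin 3} {kc n0 : ℕ} {W : Finset Nd} {K I P q0 : Nd}
  {T : Fin n → Fin 3 → Finset ℤ} {g : Fin n → Fin 3 → ℤ → ℤ → ℂ} {r : ℕ → ℝ} {gg : Fn} {ν : ℝ}

lemma opS_CU {A : Finset (ℕ × ℤ × ℤ)} {B : ℤ → ℤ → ℂ} {lq s : ℝ} {S S' : Finset ℤ} (hlq : 0 < lq)
    (h : OpS S S' (mB A B) s) : OpS S S' (CU A B lq) s := by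
  classical
  have h1 := FrIx261.opS_wtR (C := 1) h (w := fun u => if lq ≤ wt A u then lq / wt A u else 0)
    (fun u => by
      show |if lq ≤ wt A u then lq / wt A u else 0| ≤ 1
      split_ifs with hu
      · have h0 : 0 < wt A u := lt_of_lt_of_le hlq hu
        rw [abs_of_nonneg (by positivity)]
        exact (div_le_one h0).2 hu
      · rw [abs_zero]; exact zero_le_one)
  rw [one_mul] at h1
  refine PjC881.opS_congr h1 fun u _ v _ => ?_
  unfold CU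
  split_ifs
  · rfl
  · simp

lemma opS_CW {A : Finset (ℕ × ℤ × ℤ)} {B : ℤ → ℤ → ℂ} {lq s : ℝ} {S S' : Finset ℤ} (hlq : 0 < lq)
    (h : OpS S S' (mB A B) s) : OpS S S' (CW A B lq) s := by
  classical
  have h1 := FrIx261.opS_wtC (C := 1) h (w := fun v => if lq ≤ wtc A v then lq / wtc A v else 0)
    (fun v => by
      show |if lq ≤ wtc A v then lq / wtc A v else 0| ≤ 1
      split_ifs with hu
      · have h0 : 0 < wtc A v := lt_of_lt_of_le hlq hu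
        rw [abs_of_nonneg (by positivity)]
        exact (div_le_one h0).2 hu
      · rw [abs_zero]; exact zero_le_one)
  rw [one_mul] at h1
  refine PjC881.opS_congr h1 fun u _ v _ => ?_
  unfold CW
  split_ifs
  · rfl
  · simp

/-- **`opU`** -/
theorem opU {l : Fin n} (hB : Bnd (BdE i e (T l) I) (poE i e) (NX i e kc I T l) ν) {a : ℕ}
    (hr : 0 ≤ r a) (hW : Full W P) (hK : K ∈ W) (hq : q0 ∈ W) (hd : dq W n0 q0 ≤ q0.1) {w : ℤ}
    {t : ℕ × ℤ × ℤ} (hM : Mx (Ye i e w) kc K t.1 t.2.1 t.2.2) {m : ℕ} (hm : dq W n0 q0 ≤ m)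
    {a' b' : ℤ} (hb : dI m b' ⊆ dI t.1 t.2.2) :
    OpC (CUX i e kc n0 W K I T g r gg a q0 l w t) m a' b' (2 ^ 7 * r a) := by
  refine opC_of_opS (by positivity) ?_
  unfold CUX NrBx228.CUF
  refine opS_CU (by positivity) ?_
  exact NrGx276.E2_box (NrUx276.st3_Ye i e) hW hK hM hq hd hr
    (fun c hc => NrGx276.Bk_op hB (gaX e g l) hr hW gg hK hM hc) hm hb

/-- **`opW`** -/
theorem opW {l : Fin n} (hB : Bnd (BdE i e (T l) I) (poE i e) (NX i e kc I T l) ν) {a : ℕ}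
    (hr : 0 ≤ r a) (hW : Full W P) (hK : K ∈ W) (hq : q0 ∈ W) (hd : dq W n0 q0 ≤ q0.1) {w : ℤ}
    {t : ℕ × ℤ × ℤ} (hM : Mx (Ye i e w) kc K t.1 t.2.1 t.2.2) {m : ℕ} (hm : dq W n0 q0 ≤ m)
    {a' b' : ℤ} (hb : dI m b' ⊆ dI t.1 t.2.2) :
    OpC (CWX i e kc n0 W K I T g r gg a q0 l w t) m a' b' (2 ^ 7 * r a) := by
  refine opC_of_opS (by positivity) ?_
  unfold CWX NrBx228.CWF
  refine opS_CW (by positivity) ?_
  exact NrGx276.E2_box (NrUx276.st3_Ye i e) hW hK hM hq hd hr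
    (fun c hc => NrGx276.Bk_op hB (gaX e g l) hr hW gg hK hM hc) hm hb

end op

end Crest.Agent.R079.FrLx717
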