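import Mathlib

/-! R079, note 1820 (helper228), STAGE 2 (helper248): finite matrices.

`Syn K g J σ` : the synthesis operator of the family `g i`, `i ∈ K`, on the set `J` has norm² `≤ σ`.
`strip_abs` : the frames `u_i v_i^*` are replaced, strip by strip, by `ut_q,i vt_q,i^*`. -/

set_option autoImplicit false

namespace Crest.Agent.R079.NrSx248

open Finset

open scoped ComplexConjugate

variable {κ ι : Type}

/-- synthesis operator of norm² `≤ σ` on `J` -/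
def Syn (K : Finset κ) (g : κ → ℤ → ℂ) (J : Finset ℤ) (σ : ℝ) : Prop :=
  ∀ a : κ → ℂ, ∑ y ∈ J, ‖∑ i ∈ K, a i * g i y‖ ^ 2 ≤ σ * ∑ i ∈ K, ‖a i‖ ^ 2

lemma Syn.mono {K : Finset κ} {g : κ → ℤ → ℂ} {J J' : Finset ℤ} {σ : ℝ} (h : Syn K g J σ)
    (hJ : J' ⊆ J) : Syn K g J' σ :=
  fun a => (Finset.sum_le_sum_of_subset_of_nonneg hJ fun _ _ _ => sq_nonneg _).trans (h a)

lemma Syn.le {K : Finset κ} {g : κ → ℤ → ℂ} {J : Finset ℤ} {σ σ' : ℝ} (h : Syn K g J σ)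
    (hσ : σ ≤ σ') : Syn K g J σ' :=
  fun a => (h a).trans (mul_le_mul_of_nonneg_right hσ (Finset.sum_nonneg fun _ _ => sq_nonneg _))

lemma Syn.conj {K : Finset κ} {g : κ → ℤ → ℂ} {J : Finset ℤ} {σ : ℝ} (h : Syn K g J σ) :
    Syn K (fun i y => conj (g i y)) J σ := by
  intro a
  have h1 := h (fun i => conj (a i))
  have e1 : ∀ y, ‖∑ i ∈ K, conj (a i) * g i y‖ = ‖∑ i ∈ K, a i * conj (g i y)‖ := by
    intro y
    rw [← RCLike.norm_conj (∑ i ∈ K, a i * conj (g i y)), map_sum]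
    congr 1
    refine Finset.sum_congr rfl fun i _ => ?_
    rw [map_mul, RCLike.conj_conj]
  simp only [e1, RCLike.norm_conj] at h1
  exact h1

/-- matrix with one family: sum over the rows -/
lemma Syn.row {K : Finset κ} {g : κ → ℤ → ℂ} {J : Finset ℤ} {σ : ℝ} (h : Syn K g J σ)
    (d : κ → ℝ) (f : κ → ℂ) :
    ∑ y ∈ J, ‖∑ i ∈ K, (d i : ℂ) * (f i * conj (g i y))‖ ^ 2 ≤
      σ * ∑ i ∈ K, d i ^ 2 * ‖f i‖ ^ 2 := by
  have h1 := h.conj (fun i => (d i : ℂ) * f i)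
  have e1 : ∀ y, ∑ i ∈ K, (d i : ℂ) * f i * conj (g i y) =
      ∑ i ∈ K, (d i : ℂ) * (f i * conj (g i y)) := fun y =>
    Finset.sum_congr rfl fun i _ => mul_assoc _ _ _
  simp only [e1] at h1
  refine h1.trans (le_of_eq ?_)
  congr 1
  refine Finset.sum_congr rfl fun i _ => ?_
  rw [norm_mul, mul_pow, Complex.norm_real, Real.norm_eq_abs, sq_abs]

lemma Syn.col {K : Finset κ} {g : κ → ℤ → ℂ} {J : Finset ℤ} {σ : ℝ} (h : Syn K g J σ)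
    (d : κ → ℝ) (f : κ → ℂ) :
    ∑ x ∈ J, ‖∑ i ∈ K, (d i : ℂ) * (g i x * conj (f i))‖ ^ 2 ≤
      σ * ∑ i ∈ K, d i ^ 2 * ‖f i‖ ^ 2 := by
  have h1 := h (fun i => (d i : ℂ) * conj (f i))
  have e1 : ∀ y, ∑ i ∈ K, (d i : ℂ) * conj (f i) * g i y =
      ∑ i ∈ K, (d i : ℂ) * (g i y * conj (f i)) := fun y =>
    Finset.sum_congr rfl fun i _ => by ring
  simp only [e1] at h1
  refine h1.trans (le_of_eq ?_)
  congr 1
  refine Finset.sum_congr rfl fun i _ => ?_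
  rw [norm_mul, mul_pow, Complex.norm_real, Real.norm_eq_abs, sq_abs, RCLike.norm_conj]

lemma norm_sq_add3 (a b c : ℂ) : ‖a + b + c‖ ^ 2 ≤ 3 * (‖a‖ ^ 2 + ‖b‖ ^ 2 + ‖c‖ ^ 2) := by
  have h1 : ‖a + b + c‖ ≤ ‖a‖ + ‖b‖ + ‖c‖ := norm_add₃_le
  have h2 : ‖a + b + c‖ ^ 2 ≤ (‖a‖ + ‖b‖ + ‖c‖) ^ 2 :=
    pow_le_pow_left₀ (norm_nonneg _) h1 2
  nlinarith [sq_nonneg (‖a‖ - ‖b‖), sq_nonneg (‖a‖ - ‖c‖), sq_nonneg (‖b‖ - ‖c‖)]

/-- **strips**: the frames `u_i v_i^*` are replaced on the strip `q` by `ut_q,i vt_q,i^*` -/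
theorem strip_abs (K : Finset κ) (Qs : Finset ι) (S T : Finset ℤ) (d : κ → ℝ)
    (u v v1 : κ → ℤ → ℂ) (ut vt : ι → κ → ℤ → ℂ) (P : ι → ℤ → ℤ → Prop)
    [∀ q x y, Decidable (P q x y)]
    (hdis : ∀ x ∈ S, ∀ y ∈ T, ∀ q ∈ Qs, ∀ q' ∈ Qs, P q x y → P q' x y → q = q')
    (hu : Syn K u S 1) {σ σ' : ℝ} (e F G : κ → ℝ)
    (he : ∀ i ∈ K, ∑ y ∈ T, ‖v i y - v1 i y‖ ^ 2 ≤ e i)
    (hv1 : ∀ q ∈ Qs, ∀ x ∈ S, Syn K v1 (T.filter (fun y => P q x y)) σ)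
    (hut : ∀ q ∈ Qs, ∀ y ∈ T, Syn K (ut q) (S.filter (fun x => P q x y)) σ')
    (hF : ∀ i ∈ K, ∑ q ∈ Qs, σ * ∑ x ∈ S.filter (fun x => ∃ y ∈ T, P q x y),
      ‖u i x - ut q i x‖ ^ 2 ≤ F i)
    (hG : ∀ i ∈ K, ∑ q ∈ Qs, σ' * ∑ y ∈ T.filter (fun y => ∃ x ∈ S, P q x y),
      ‖v1 i y - vt q i y‖ ^ 2 ≤ G i) :
    ∑ q ∈ Qs, ∑ x ∈ S, ∑ y ∈ T.filter (fun y => P q x y),
      ‖∑ i ∈ K, (d i : ℂ) * (u i x * conj (v i y) - ut q i x * conj (vt q i y))‖ ^ 2 ≤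
    3 * ∑ i ∈ K, d i ^ 2 * (e i + F i + G i) := by
  classical
  -- the three parts
  set A1 : ℤ → ℤ → ℂ := fun x y => ∑ i ∈ K, (d i : ℂ) * (u i x * conj (v i y - v1 i y)) with hA1
  set A2 : ι → ℤ → ℤ → ℂ := fun q x y =>
    ∑ i ∈ K, (d i : ℂ) * ((u i x - ut q i x) * conj (v1 i y)) with hA2
  set A3 : ι → ℤ → ℤ → ℂ := fun q x y =>
    ∑ i ∈ K, (d i : ℂ) * (ut q i x * conj (v1 i y - vt q i y)) with hA3
  have hsplit : ∀ q x y, ∑ i ∈ K, (d i : ℂ) *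
      (u i x * conj (v i y) - ut q i x * conj (vt q i y)) = A1 x y + A2 q x y + A3 q x y := by
    intro q x y
    rw [hA1, hA2, hA3]
    simp only
    rw [← Finset.sum_add_distrib, ← Finset.sum_add_distrib]
    refine Finset.sum_congr rfl fun i _ => ?_
    rw [map_sub, map_sub]
    ring
  have h0 : ∑ q ∈ Qs, ∑ x ∈ S, ∑ y ∈ T.filter (fun y => P q x y),
      ‖∑ i ∈ K, (d i : ℂ) * (u i x * conj (v i y) - ut q i x * conj (vt q i y))‖ ^ 2 ≤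
      3 * (∑ q ∈ Qs, ∑ x ∈ S, ∑ y ∈ T.filter (fun y => P q x y), ‖A1 x y‖ ^ 2 +
        ∑ q ∈ Qs, ∑ x ∈ S, ∑ y ∈ T.filter (fun y => P q x y), ‖A2 q x y‖ ^ 2 +
        ∑ q ∈ Qs, ∑ x ∈ S, ∑ y ∈ T.filter (fun y => P q x y), ‖A3 q x y‖ ^ 2) := by
    rw [← Finset.sum_add_distrib, ← Finset.sum_add_distrib, Finset.mul_sum]
    refine Finset.sum_le_sum fun q _ => ?_
    rw [← Finset.sum_add_distrib, ← Finset.sum_add_distrib, Finset.mul_sum]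
    refine Finset.sum_le_sum fun x _ => ?_
    rw [← Finset.sum_add_distrib, ← Finset.sum_add_distrib, Finset.mul_sum]
    refine Finset.sum_le_sum fun y _ => ?_
    rw [hsplit]
    exact norm_sq_add3 _ _ _
  -- part 1
  have h1 : ∑ q ∈ Qs, ∑ x ∈ S, ∑ y ∈ T.filter (fun y => P q x y), ‖A1 x y‖ ^ 2 ≤
      ∑ i ∈ K, d i ^ 2 * e i := by
    have a1 : ∑ q ∈ Qs, ∑ x ∈ S, ∑ y ∈ T.filter (fun y => P q x y), ‖A1 x y‖ ^ 2 ≤
        ∑ x ∈ S, ∑ y ∈ T, ‖A1 x y‖ ^ 2 := by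
      rw [Finset.sum_comm]
      refine Finset.sum_le_sum fun x hx => ?_
      simp only [Finset.sum_filter]
      rw [Finset.sum_comm]
      refine Finset.sum_le_sum fun y hy => ?_
      by_cases hq : ∃ q ∈ Qs, P q x y
      · obtain ⟨q, hqQ, hqP⟩ := hq
        rw [Finset.sum_eq_single_of_mem q hqQ, if_pos hqP]
        intro q' hq' hne
        rw [if_neg]
        intro hP
        exact hne (hdis x hx y hy q' hq' q hqQ hP hqP)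
      · rw [Finset.sum_eq_zero]
        · exact sq_nonneg _
        · intro q hqQ
          rw [if_neg fun hP => hq ⟨q, hqQ, hP⟩]
    refine a1.trans ?_
    rw [Finset.sum_comm]
    calc ∑ y ∈ T, ∑ x ∈ S, ‖A1 x y‖ ^ 2
        ≤ ∑ y ∈ T, 1 * ∑ i ∈ K, d i ^ 2 * ‖v i y - v1 i y‖ ^ 2 :=
          Finset.sum_le_sum fun y _ => hu.col d (fun i => v i y - v1 i y)
      _ = ∑ i ∈ K, d i ^ 2 * ∑ y ∈ T, ‖v i y - v1 i y‖ ^ 2 := by
          simp only [one_mul]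
          rw [Finset.sum_comm]
          exact Finset.sum_congr rfl fun i _ => (Finset.mul_sum _ _ _).symm
      _ ≤ _ := Finset.sum_le_sum fun i hi => mul_le_mul_of_nonneg_left (he i hi) (sq_nonneg _)
  -- part 2
  have h2 : ∑ q ∈ Qs, ∑ x ∈ S, ∑ y ∈ T.filter (fun y => P q x y), ‖A2 q x y‖ ^ 2 ≤
      ∑ i ∈ K, d i ^ 2 * F i := by
    have a1 : ∀ q ∈ Qs, ∑ x ∈ S, ∑ y ∈ T.filter (fun y => P q x y), ‖A2 q x y‖ ^ 2 ≤
        σ * ∑ x ∈ S.filter (fun x => ∃ y ∈ T, P q x y), ∑ i ∈ K,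
          d i ^ 2 * ‖u i x - ut q i x‖ ^ 2 := by
      intro q hq
      have a2 : ∑ x ∈ S, ∑ y ∈ T.filter (fun y => P q x y), ‖A2 q x y‖ ^ 2 =
          ∑ x ∈ S.filter (fun x => ∃ y ∈ T, P q x y),
            ∑ y ∈ T.filter (fun y => P q x y), ‖A2 q x y‖ ^ 2 := by
        symm
        refine Finset.sum_subset (Finset.filter_subset _ _) fun x hx hx' => ?_
        refine Finset.sum_eq_zero fun y hy => ?_
        exfalso
        rw [Finset.mem_filter] at hy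
        exact hx' (Finset.mem_filter.2 ⟨hx, y, hy.1, hy.2⟩)
      rw [a2, Finset.mul_sum]
      refine Finset.sum_le_sum fun x hx => ?_
      exact (hv1 q hq x (Finset.mem_filter.1 hx).1).row d (fun i => u i x - ut q i x)
    calc _ ≤ ∑ q ∈ Qs, σ * ∑ x ∈ S.filter (fun x => ∃ y ∈ T, P q x y), ∑ i ∈ K,
          d i ^ 2 * ‖u i x - ut q i x‖ ^ 2 := Finset.sum_le_sum a1
      _ = ∑ i ∈ K, d i ^ 2 * ∑ q ∈ Qs, σ * ∑ x ∈ S.filter (fun x => ∃ y ∈ T, P q x y),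
          ‖u i x - ut q i x‖ ^ 2 := by
          simp only [Finset.mul_sum]
          rw [Finset.sum_comm' (s := K) (t := fun _ => Qs) (t' := Qs) (s' := fun _ => K) (by simp)]
          refine Finset.sum_congr rfl fun q _ => ?_
          rw [Finset.sum_comm]
          refine Finset.sum_congr rfl fun i _ => Finset.sum_congr rfl fun x _ => ?_
          ring
      _ ≤ _ := Finset.sum_le_sum fun i hi => mul_le_mul_of_nonneg_left (hF i hi) (sq_nonneg _)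
  -- part 3
  have h3 : ∑ q ∈ Qs, ∑ x ∈ S, ∑ y ∈ T.filter (fun y => P q x y), ‖A3 q x y‖ ^ 2 ≤
      ∑ i ∈ K, d i ^ 2 * G i := by
    have a1 : ∀ q ∈ Qs, ∑ x ∈ S, ∑ y ∈ T.filter (fun y => P q x y), ‖A3 q x y‖ ^ 2 ≤
        σ' * ∑ y ∈ T.filter (fun y => ∃ x ∈ S, P q x y), ∑ i ∈ K,
          d i ^ 2 * ‖v1 i y - vt q i y‖ ^ 2 := by
      intro q hq
      have a2 : ∑ x ∈ S, ∑ y ∈ T.filter (fun y => P q x y), ‖A3 q x y‖ ^ 2 =
          ∑ y ∈ T.filter (fun y => ∃ x ∈ S, P q x y),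
            ∑ x ∈ S.filter (fun x => P q x y), ‖A3 q x y‖ ^ 2 := by
        simp only [Finset.sum_filter]
        rw [Finset.sum_comm]
        refine Finset.sum_congr rfl fun y hy => ?_
        by_cases hc : ∃ x ∈ S, P q x y
        · rw [if_pos hc]
        · rw [if_neg hc]
          refine Finset.sum_eq_zero fun x hx => ?_
          rw [if_neg fun hP => hc ⟨x, hx, hP⟩]
      rw [a2, Finset.mul_sum]
      refine Finset.sum_le_sum fun y hy => ?_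
      exact (hut q hq y (Finset.mem_filter.1 hy).1).col d (fun i => v1 i y - vt q i y)
    calc _ ≤ ∑ q ∈ Qs, σ' * ∑ y ∈ T.filter (fun y => ∃ x ∈ S, P q x y), ∑ i ∈ K,
          d i ^ 2 * ‖v1 i y - vt q i y‖ ^ 2 := Finset.sum_le_sum a1
      _ = ∑ i ∈ K, d i ^ 2 * ∑ q ∈ Qs, σ' * ∑ y ∈ T.filter (fun y => ∃ x ∈ S, P q x y),
          ‖v1 i y - vt q i y‖ ^ 2 := by
          simp only [Finset.mul_sum]
          rw [Finset.sum_comm' (s := K) (t := fun _ => Qs) (t' := Qs) (s' := fun _ => K) (by simp)]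
          refine Finset.sum_congr rfl fun q _ => ?_
          rw [Finset.sum_comm]
          refine Finset.sum_congr rfl fun i _ => Finset.sum_congr rfl fun x _ => ?_
          ring
      _ ≤ _ := Finset.sum_le_sum fun i hi => mul_le_mul_of_nonneg_left (hG i hi) (sq_nonneg _)
  refine h0.trans ?_
  have e1 : 3 * ∑ i ∈ K, d i ^ 2 * (e i + F i + G i) =
      3 * (∑ i ∈ K, d i ^ 2 * e i + ∑ i ∈ K, d i ^ 2 * F i + ∑ i ∈ K, d i ^ 2 * G i) := by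
    rw [← Finset.sum_add_distrib, ← Finset.sum_add_distrib]
    congr 1
    exact Finset.sum_congr rfl fun i _ => by ring
  rw [e1]
  linarith

/-! ### duality -/

/-- analysis operator of norm² `≤ σ` on `J` gives the synthesis bound -/
lemma syn_of_dual {K : Finset κ} {g : κ → ℤ → ℂ} {J : Finset ℤ} {σ : ℝ} (hσ : 0 ≤ σ)
    (h : ∀ f : ℤ → ℂ, ∑ i ∈ K, ‖∑ y ∈ J, f y * g i y‖ ^ 2 ≤ σ * ∑ y ∈ J, ‖f y‖ ^ 2) :
    Syn K g J σ := by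
  intro a
  set F : ℤ → ℂ := fun y => ∑ i ∈ K, a i * g i y with hF
  set X : ℝ := ∑ y ∈ J, ‖F y‖ ^ 2 with hX
  set Y : ℝ := ∑ i ∈ K, ‖a i‖ ^ 2 with hY
  have hX0 : 0 ≤ X := Finset.sum_nonneg fun _ _ => sq_nonneg _
  have hY0 : 0 ≤ Y := Finset.sum_nonneg fun _ _ => sq_nonneg _
  have h1 := h (fun y => conj (F y))
  have h2 : ∑ y ∈ J, ‖conj (F y)‖ ^ 2 = X := by
    rw [hX]
    exact Finset.sum_congr rfl fun y _ => by rw [RCLike.norm_conj]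
  rw [h2] at h1
  have h3 : (X : ℂ) = ∑ i ∈ K, a i * ∑ y ∈ J, conj (F y) * g i y := by
    have e1 : (X : ℂ) = ∑ y ∈ J, conj (F y) * F y := by
      rw [hX, Complex.ofReal_sum]
      refine Finset.sum_congr rfl fun y _ => ?_
      rw [RCLike.conj_mul]
      norm_cast
    rw [e1]
    simp only [Finset.mul_sum]
    rw [Finset.sum_comm]
    refine Finset.sum_congr rfl fun y _ => ?_
    conv_lhs => rw [hF]
    simp only
    rw [Finset.mul_sum]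
    exact Finset.sum_congr rfl fun i _ => by ring
  have h4 : X ≤ ∑ i ∈ K, ‖a i‖ * ‖∑ y ∈ J, conj (F y) * g i y‖ := by
    have e1 : X = ‖(X : ℂ)‖ := by rw [Complex.norm_real, Real.norm_of_nonneg hX0]
    rw [e1, h3]
    refine (norm_sum_le _ _).trans (le_of_eq ?_)
    exact Finset.sum_congr rfl fun i _ => norm_mul _ _
  have h5 : X ^ 2 ≤ Y * (σ * X) := by
    calc X ^ 2 ≤ (∑ i ∈ K, ‖a i‖ * ‖∑ y ∈ J, conj (F y) * g i y‖) ^ 2 :=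
          pow_le_pow_left₀ hX0 h4 2
      _ ≤ (∑ i ∈ K, ‖a i‖ ^ 2) * ∑ i ∈ K, ‖∑ y ∈ J, conj (F y) * g i y‖ ^ 2 :=
          Finset.sum_mul_sq_le_sq_mul_sq _ _ _
      _ ≤ _ := mul_le_mul_of_nonneg_left h1 hY0
  rcases hX0.eq_or_lt with h6 | h6
  · rw [← h6]
    positivity
  · have h7 : X * X ≤ (σ * Y) * X := by
      calc X * X = X ^ 2 := (sq X).symm
        _ ≤ Y * (σ * X) := h5
        _ = _ := by ring
    exact le_of_mul_le_mul_right h7 h6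

/-- the dual (analysis) form -/
lemma Syn.dual {K : Finset κ} {g : κ → ℤ → ℂ} {J : Finset ℤ} {σ : ℝ} (hσ : 0 ≤ σ)
    (h : Syn K g J σ) (f : ℤ → ℂ) :
    ∑ i ∈ K, ‖∑ y ∈ J, f y * g i y‖ ^ 2 ≤ σ * ∑ y ∈ J, ‖f y‖ ^ 2 := by
  set c : κ → ℂ := fun i => ∑ y ∈ J, f y * g i y with hc
  set X : ℝ := ∑ i ∈ K, ‖c i‖ ^ 2 with hX
  set Y : ℝ := ∑ y ∈ J, ‖f y‖ ^ 2 with hY
  have hX0 : 0 ≤ X := Finset.sum_nonneg fun _ _ => sq_nonneg _
  have hY0 : 0 ≤ Y := Finset.sum_nonneg fun _ _ => sq_nonneg _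
  have h1 := h (fun i => conj (c i))
  have h2 : ∑ i ∈ K, ‖conj (c i)‖ ^ 2 = X := by
    rw [hX]
    exact Finset.sum_congr rfl fun y _ => by rw [RCLike.norm_conj]
  rw [h2] at h1
  have h3 : (X : ℂ) = ∑ y ∈ J, f y * ∑ i ∈ K, conj (c i) * g i y := by
    have e1 : (X : ℂ) = ∑ i ∈ K, conj (c i) * c i := by
      rw [hX, Complex.ofReal_sum]
      refine Finset.sum_congr rfl fun y _ => ?_
      rw [RCLike.conj_mul]
      norm_cast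
    rw [e1]
    simp only [Finset.mul_sum]
    rw [Finset.sum_comm]
    refine Finset.sum_congr rfl fun i _ => ?_
    conv_lhs => rw [hc]
    simp only
    rw [Finset.mul_sum]
    exact Finset.sum_congr rfl fun i _ => by ring
  have h4 : X ≤ ∑ y ∈ J, ‖f y‖ * ‖∑ i ∈ K, conj (c i) * g i y‖ := by
    have e1 : X = ‖(X : ℂ)‖ := by rw [Complex.norm_real, Real.norm_of_nonneg hX0]
    rw [e1, h3]
    refine (norm_sum_le _ _).trans (le_of_eq ?_)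
    exact Finset.sum_congr rfl fun i _ => norm_mul _ _
  have h5 : X ^ 2 ≤ Y * (σ * X) := by
    calc X ^ 2 ≤ (∑ y ∈ J, ‖f y‖ * ‖∑ i ∈ K, conj (c i) * g i y‖) ^ 2 :=
          pow_le_pow_left₀ hX0 h4 2
      _ ≤ (∑ y ∈ J, ‖f y‖ ^ 2) * ∑ y ∈ J, ‖∑ i ∈ K, conj (c i) * g i y‖ ^ 2 :=
          Finset.sum_mul_sq_le_sq_mul_sq _ _ _
      _ ≤ _ := mul_le_mul_of_nonneg_left h1 hY0
  rcases hX0.eq_or_lt with h6 | h6
  · rw [← h6]
    positivity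
  · have h7 : X * X ≤ (σ * Y) * X := by
      calc X * X = X ^ 2 := (sq X).symm
        _ ≤ Y * (σ * X) := h5
        _ = _ := by ring
    exact le_of_mul_le_mul_right h7 h6

/-! ### kernel maps -/

/-- a kernel `L` on `J × T` has norm² `≤ c` -/
def KOp (J T : Finset ℤ) (L : ℤ → ℤ → ℂ) (c : ℝ) : Prop :=
  ∀ f : ℤ → ℂ, ∑ x ∈ J, ‖∑ y ∈ T, L x y * f y‖ ^ 2 ≤ c * ∑ y ∈ T, ‖f y‖ ^ 2

lemma KOp.mono {J J' T : Finset ℤ} {L : ℤ → ℤ → ℂ} {c : ℝ} (h : KOp J T L c) (hJ : J' ⊆ J) :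
    KOp J' T L c :=
  fun f => (Finset.sum_le_sum_of_subset_of_nonneg hJ fun _ _ _ => sq_nonneg _).trans (h f)

/-- only the columns of the support count -/
lemma KOp.supp {J T W : Finset ℤ} {L : ℤ → ℤ → ℂ} {c : ℝ} (h : KOp J T L c) (hW : W ⊆ T)
    (h0 : ∀ x ∈ J, ∀ y ∈ T, y ∉ W → L x y = 0) (f : ℤ → ℂ) :
    ∑ x ∈ J, ‖∑ y ∈ T, L x y * f y‖ ^ 2 ≤ c * ∑ y ∈ W, ‖f y‖ ^ 2 := by
  classical
  have h1 := h (fun y => if y ∈ W then f y else 0)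
  have e1 : ∀ x ∈ J, ∑ y ∈ T, L x y * (if y ∈ W then f y else 0) = ∑ y ∈ T, L x y * f y := by
    intro x hx
    refine Finset.sum_congr rfl fun y hy => ?_
    by_cases hyW : y ∈ W
    · rw [if_pos hyW]
    · rw [if_neg hyW, h0 x hx y hy hyW]
      ring
  rw [Finset.sum_congr rfl fun x hx => by rw [e1 x hx]] at h1
  refine h1.trans (le_of_eq ?_)
  congr 1
  have e2 : ∑ y ∈ W, ‖if y ∈ W then f y else 0‖ ^ 2 = ∑ y ∈ T, ‖if y ∈ W then f y else 0‖ ^ 2 :=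
    Finset.sum_subset hW fun y _ hy => by rw [if_neg hy, norm_zero]; norm_num
  rw [← e2]
  exact Finset.sum_congr rfl fun y hy => by rw [if_pos hy]

/-- spread is inherited -/
lemma KOp.syn {K : Finset κ} {J T W : Finset ℤ} {L : ℤ → ℤ → ℂ} {c σ : ℝ} (h : KOp J T L c)
    (hc : 0 ≤ c) (hW : W ⊆ T) (h0 : ∀ x ∈ J, ∀ y ∈ T, y ∉ W → L x y = 0) {g gt : κ → ℤ → ℂ}
    (hg : Syn K g W σ) (hgt : ∀ i ∈ K, ∀ x ∈ J, gt i x = ∑ y ∈ T, L x y * g i y) :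
    Syn K gt J (c * σ) := by
  intro a
  have e1 : ∀ x ∈ J, ∑ i ∈ K, a i * gt i x = ∑ y ∈ T, L x y * ∑ i ∈ K, a i * g i y := by
    intro x hx
    rw [Finset.sum_congr rfl fun i hi => by rw [hgt i hi x hx]]
    simp only [Finset.mul_sum]
    rw [Finset.sum_comm]
    exact Finset.sum_congr rfl fun y _ => Finset.sum_congr rfl fun i _ => by ring
  rw [Finset.sum_congr rfl fun x hx => by rw [e1 x hx]]
  refine (h.supp hW h0 _).trans ?_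
  calc c * ∑ y ∈ W, ‖∑ i ∈ K, a i * g i y‖ ^ 2 ≤ c * (σ * ∑ i ∈ K, ‖a i‖ ^ 2) :=
        mul_le_mul_of_nonneg_left (hg a) hc
    _ = _ := by ring

lemma norm_sq_add2 (a b : ℂ) : ‖a + b‖ ^ 2 ≤ 2 * (‖a‖ ^ 2 + ‖b‖ ^ 2) := by
  have h2 : ‖a + b‖ ^ 2 ≤ (‖a‖ + ‖b‖) ^ 2 :=
    pow_le_pow_left₀ (norm_nonneg _) (norm_add_le a b) 2
  nlinarith [sq_nonneg (‖a‖ - ‖b‖)]

/-- the average with `g1` instead of `g` -/
lemma KOp.diff {J T W : Finset ℤ} {L : ℤ → ℤ → ℂ} {c : ℝ} (h : KOp J T L c)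
    (hW : W ⊆ T) (h0 : ∀ x ∈ J, ∀ y ∈ T, y ∉ W → L x y = 0) (u g g1 gt : ℤ → ℂ)
    (hgt : ∀ x ∈ J, gt x = ∑ y ∈ T, L x y * g1 y) :
    ∑ x ∈ J, ‖u x - gt x‖ ^ 2 ≤ 2 * ∑ x ∈ J, ‖u x - ∑ y ∈ T, L x y * g y‖ ^ 2 +
      2 * (c * ∑ y ∈ W, ‖g y - g1 y‖ ^ 2) := by
  have h1 := h.supp hW h0 (fun y => g y - g1 y)
  have h2 : ∀ x ∈ J, ‖u x - gt x‖ ^ 2 ≤ 2 * ‖u x - ∑ y ∈ T, L x y * g y‖ ^ 2 +
      2 * ‖∑ y ∈ T, L x y * (g y - g1 y)‖ ^ 2 := by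
    intro x hx
    have e1 : u x - gt x = (u x - ∑ y ∈ T, L x y * g y) + ∑ y ∈ T, L x y * (g y - g1 y) := by
      rw [hgt x hx]
      have : ∑ y ∈ T, L x y * (g y - g1 y) = ∑ y ∈ T, L x y * g y - ∑ y ∈ T, L x y * g1 y := by
        rw [← Finset.sum_sub_distrib]
        exact Finset.sum_congr rfl fun y _ => by ring
      rw [this]
      ring
    rw [e1]
    refine (norm_sq_add2 _ _).trans (le_of_eq ?_)
    ring
  refine (Finset.sum_le_sum h2).trans ?_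
  rw [Finset.sum_add_distrib, ← Finset.mul_sum, ← Finset.mul_sum]
  linarith

/-! ### one grid node -/

/-- **STAGE 2, one grid node `q0`** : `P` = strip of `q0` (inner positions), `S, T` all rows /
columns, `Si, Ti` inner ones, `LU, LV` the averaging kernels over the alive labels of `q0`. -/
structure S2 (K : Finset κ) (S T Si Ti : Finset ℤ) (P : ℤ → ℤ → Prop)
    (LU LV : ℤ → ℤ → ℂ) (WU WV : Finset ℤ) (Y X Y1 X1 : κ → ℤ → ℂ) (c σ : ℝ) : Prop where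
  c0 : 0 ≤ c
  σ0 : 0 ≤ σ
  hSi : Si ⊆ S
  hTi : Ti ⊆ T
  hWU : WU ⊆ T
  hWV : WV ⊆ S
  /-- norms of the averages -/
  kU : KOp Si T LU c
  kV : KOp Ti S LV c
  /-- supports -/
  sU : ∀ x ∈ Si, ∀ y ∈ T, y ∉ WU → LU x y = 0
  sV : ∀ y ∈ Ti, ∀ x ∈ S, x ∉ WV → LV y x = 0
  /-- spread of `X1` on the columns seen by one row -/
  spX : ∀ x ∈ Si, ∀ J ⊆ Ti, (∀ y ∈ J, P x y) → Syn K X1 J σ
  /-- spread of `X1` on the columns seen from the rows seen by one column -/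
  spX' : ∀ y ∈ Ti, ∀ J ⊆ Si, (∀ x ∈ J, P x y) → ∃ W ⊆ T, Syn K X1 W σ ∧
    ∀ x ∈ J, ∀ y' ∈ T, y' ∉ W → LU x y' = 0

open Classical in
/-- **one grid node** -/
theorem S2.strip {K : Finset κ} {S T Si Ti : Finset ℤ} {P : ℤ → ℤ → Prop}
    {LU LV : ℤ → ℤ → ℂ} {WU WV : Finset ℤ} {Y X Y1 X1 : κ → ℤ → ℂ} {c σ : ℝ}
    (H : S2 K S T Si Ti P LU LV WU WV Y X Y1 X1 c σ) (d : κ → ℝ) (Yt Xt : κ → ℤ → ℂ)
    (hYt : ∀ i ∈ K, ∀ x ∈ Si, Yt i x = ∑ y ∈ T, LU x y * X1 i y)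
    (hXt : ∀ i ∈ K, ∀ y ∈ Ti, Xt i y = ∑ x ∈ S, LV y x * Y1 i x) :
    ∑ x ∈ Si, ∑ y ∈ Ti.filter (fun y => P x y),
      ‖∑ i ∈ K, (d i : ℂ) * (Y i x * conj (X i y) - Yt i x * conj (Xt i y))‖ ^ 2 ≤
    3 * ∑ x ∈ Si, ∑ y ∈ Ti.filter (fun y => P x y),
      ‖∑ i ∈ K, (d i : ℂ) * (Y i x * conj (X i y - X1 i y))‖ ^ 2 +
    3 * ∑ i ∈ K, d i ^ 2 * (
      σ * (2 * ∑ x ∈ Si.filter (fun x => ∃ y ∈ Ti, P x y), ‖Y i x - ∑ y ∈ T, LU x y * X i y‖ ^ 2 +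
        2 * (c * ∑ y ∈ WU, ‖X i y - X1 i y‖ ^ 2)) +
      c * σ * (2 * ∑ y ∈ Ti.filter (fun y => ∃ x ∈ Si, P x y), ‖X1 i y - X i y‖ ^ 2 +
        2 * (2 * ∑ y ∈ Ti.filter (fun y => ∃ x ∈ Si, P x y),
            ‖X i y - ∑ x ∈ S, LV y x * Y i x‖ ^ 2 +
          2 * (c * ∑ x ∈ WV, ‖Y i x - Y1 i x‖ ^ 2)))) := by
  -- the three parts
  set A1 : ℤ → ℤ → ℂ := fun x y => ∑ i ∈ K, (d i : ℂ) * (Y i x * conj (X i y - X1 i y)) with hA1
  set A2 : ℤ → ℤ → ℂ := fun x y =>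
    ∑ i ∈ K, (d i : ℂ) * ((Y i x - Yt i x) * conj (X1 i y)) with hA2
  set A3 : ℤ → ℤ → ℂ := fun x y =>
    ∑ i ∈ K, (d i : ℂ) * (Yt i x * conj (X1 i y - Xt i y)) with hA3
  have hsplit : ∀ x y, ∑ i ∈ K, (d i : ℂ) *
      (Y i x * conj (X i y) - Yt i x * conj (Xt i y)) = A1 x y + A2 x y + A3 x y := by
    intro x y
    rw [hA1, hA2, hA3]
    simp only
    rw [← Finset.sum_add_distrib, ← Finset.sum_add_distrib]
    refine Finset.sum_congr rfl fun i _ => ?_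
    rw [map_sub, map_sub]
    ring
  have h0 : ∑ x ∈ Si, ∑ y ∈ Ti.filter (fun y => P x y),
      ‖∑ i ∈ K, (d i : ℂ) * (Y i x * conj (X i y) - Yt i x * conj (Xt i y))‖ ^ 2 ≤
      3 * (∑ x ∈ Si, ∑ y ∈ Ti.filter (fun y => P x y), ‖A1 x y‖ ^ 2 +
        ∑ x ∈ Si, ∑ y ∈ Ti.filter (fun y => P x y), ‖A2 x y‖ ^ 2 +
        ∑ x ∈ Si, ∑ y ∈ Ti.filter (fun y => P x y), ‖A3 x y‖ ^ 2) := by
    rw [← Finset.sum_add_distrib, ← Finset.sum_add_distrib, Finset.mul_sum]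
    refine Finset.sum_le_sum fun x _ => ?_
    rw [← Finset.sum_add_distrib, ← Finset.sum_add_distrib, Finset.mul_sum]
    refine Finset.sum_le_sum fun y _ => ?_
    rw [hsplit]
    exact norm_sq_add3 _ _ _
  -- part 2
  have h2 : ∑ x ∈ Si, ∑ y ∈ Ti.filter (fun y => P x y), ‖A2 x y‖ ^ 2 ≤
      ∑ i ∈ K, d i ^ 2 * (σ * (2 * ∑ x ∈ Si.filter (fun x => ∃ y ∈ Ti, P x y),
        ‖Y i x - ∑ y ∈ T, LU x y * X i y‖ ^ 2 + 2 * (c * ∑ y ∈ WU, ‖X i y - X1 i y‖ ^ 2))) := by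
    have a2 : ∑ x ∈ Si, ∑ y ∈ Ti.filter (fun y => P x y), ‖A2 x y‖ ^ 2 =
        ∑ x ∈ Si.filter (fun x => ∃ y ∈ Ti, P x y),
          ∑ y ∈ Ti.filter (fun y => P x y), ‖A2 x y‖ ^ 2 := by
      symm
      refine Finset.sum_subset (Finset.filter_subset _ _) fun x hx hx' => ?_
      refine Finset.sum_eq_zero fun y hy => ?_
      exfalso
      rw [Finset.mem_filter] at hy
      exact hx' (Finset.mem_filter.2 ⟨hx, y, hy.1, hy.2⟩)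
    have a1 : ∑ x ∈ Si, ∑ y ∈ Ti.filter (fun y => P x y), ‖A2 x y‖ ^ 2 ≤
        σ * ∑ x ∈ Si.filter (fun x => ∃ y ∈ Ti, P x y), ∑ i ∈ K,
          d i ^ 2 * ‖Y i x - Yt i x‖ ^ 2 := by
      rw [a2, Finset.mul_sum]
      refine Finset.sum_le_sum fun x hx => ?_
      exact (H.spX x (Finset.mem_filter.1 hx).1 _ (Finset.filter_subset _ _)
        (fun y hy => (Finset.mem_filter.1 hy).2)).row d (fun i => Y i x - Yt i x)
    refine a1.trans ?_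
    rw [Finset.sum_comm, Finset.mul_sum]
    refine Finset.sum_le_sum fun i hi => ?_
    rw [← Finset.mul_sum]
    have b1 := (H.kU.mono (Finset.filter_subset (fun x => ∃ y ∈ Ti, P x y) Si)).diff H.hWU
      (fun x hx y hy => H.sU x (Finset.mem_filter.1 hx).1 y hy) (Y i) (X i) (X1 i) (Yt i)
      (fun x hx => hYt i hi x (Finset.mem_filter.1 hx).1)
    calc σ * (d i ^ 2 * ∑ x ∈ Si.filter (fun x => ∃ y ∈ Ti, P x y), ‖Y i x - Yt i x‖ ^ 2)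
        = d i ^ 2 * (σ * ∑ x ∈ Si.filter (fun x => ∃ y ∈ Ti, P x y), ‖Y i x - Yt i x‖ ^ 2) := by
          ring
      _ ≤ _ := mul_le_mul_of_nonneg_left (mul_le_mul_of_nonneg_left b1 H.σ0) (sq_nonneg _)
  -- part 3
  have h3 : ∑ x ∈ Si, ∑ y ∈ Ti.filter (fun y => P x y), ‖A3 x y‖ ^ 2 ≤
      ∑ i ∈ K, d i ^ 2 * (c * σ * (2 * ∑ y ∈ Ti.filter (fun y => ∃ x ∈ Si, P x y),
          ‖X1 i y - X i y‖ ^ 2 +
        2 * (2 * ∑ y ∈ Ti.filter (fun y => ∃ x ∈ Si, P x y),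
            ‖X i y - ∑ x ∈ S, LV y x * Y i x‖ ^ 2 +
          2 * (c * ∑ x ∈ WV, ‖Y i x - Y1 i x‖ ^ 2)))) := by
    have a2 : ∑ x ∈ Si, ∑ y ∈ Ti.filter (fun y => P x y), ‖A3 x y‖ ^ 2 =
        ∑ y ∈ Ti.filter (fun y => ∃ x ∈ Si, P x y),
          ∑ x ∈ Si.filter (fun x => P x y), ‖A3 x y‖ ^ 2 := by
      simp only [Finset.sum_filter]
      rw [Finset.sum_comm]
      refine Finset.sum_congr rfl fun y hy => ?_
      by_cases hc : ∃ x ∈ Si, P x y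
      · rw [if_pos hc]
      · rw [if_neg hc]
        refine Finset.sum_eq_zero fun x hx => ?_
        rw [if_neg fun hP => hc ⟨x, hx, hP⟩]
    have a1 : ∑ x ∈ Si, ∑ y ∈ Ti.filter (fun y => P x y), ‖A3 x y‖ ^ 2 ≤
        c * σ * ∑ y ∈ Ti.filter (fun y => ∃ x ∈ Si, P x y), ∑ i ∈ K,
          d i ^ 2 * ‖X1 i y - Xt i y‖ ^ 2 := by
      rw [a2, Finset.mul_sum]
      refine Finset.sum_le_sum fun y hy => ?_
      obtain ⟨W, hWT, hW, hW0⟩ := H.spX' y (Finset.mem_filter.1 hy).1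
        (Si.filter (fun x => P x y)) (Finset.filter_subset _ _)
        (fun x hx => (Finset.mem_filter.1 hx).2)
      have hs : Syn K Yt (Si.filter (fun x => P x y)) (c * σ) :=
        (H.kU.mono (Finset.filter_subset (fun x => P x y) Si)).syn H.c0 hWT hW0 hW
          (fun i hi x hx => hYt i hi x (Finset.mem_filter.1 hx).1)
      exact hs.col d (fun i => X1 i y - Xt i y)
    refine a1.trans ?_
    rw [Finset.sum_comm, Finset.mul_sum]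
    refine Finset.sum_le_sum fun i hi => ?_
    rw [← Finset.mul_sum]
    have b1 := (H.kV.mono (Finset.filter_subset (fun y => ∃ x ∈ Si, P x y) Ti)).diff H.hWV
      (fun y hy x hx => H.sV y (Finset.mem_filter.1 hy).1 x hx) (X i) (Y i) (Y1 i) (Xt i)
      (fun y hy => hXt i hi y (Finset.mem_filter.1 hy).1)
    have b2 : ∑ y ∈ Ti.filter (fun y => ∃ x ∈ Si, P x y), ‖X1 i y - Xt i y‖ ^ 2 ≤
        2 * ∑ y ∈ Ti.filter (fun y => ∃ x ∈ Si, P x y), ‖X1 i y - X i y‖ ^ 2 +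
        2 * ∑ y ∈ Ti.filter (fun y => ∃ x ∈ Si, P x y), ‖X i y - Xt i y‖ ^ 2 := by
      rw [Finset.mul_sum, Finset.mul_sum, ← Finset.sum_add_distrib]
      refine Finset.sum_le_sum fun y _ => ?_
      have e1 : X1 i y - Xt i y = (X1 i y - X i y) + (X i y - Xt i y) := by ring
      rw [e1]
      refine (norm_sq_add2 _ _).trans (le_of_eq ?_)
      ring
    calc c * σ * (d i ^ 2 * ∑ y ∈ Ti.filter (fun y => ∃ x ∈ Si, P x y), ‖X1 i y - Xt i y‖ ^ 2)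
        = d i ^ 2 * (c * σ * ∑ y ∈ Ti.filter (fun y => ∃ x ∈ Si, P x y),
          ‖X1 i y - Xt i y‖ ^ 2) := by ring
      _ ≤ _ := by
          refine mul_le_mul_of_nonneg_left (mul_le_mul_of_nonneg_left ?_
            (mul_nonneg H.c0 H.σ0)) (sq_nonneg _)
          linarith
  refine h0.trans ?_
  have e1 : 3 * ∑ i ∈ K, d i ^ 2 * (
      σ * (2 * ∑ x ∈ Si.filter (fun x => ∃ y ∈ Ti, P x y), ‖Y i x - ∑ y ∈ T, LU x y * X i y‖ ^ 2 +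
        2 * (c * ∑ y ∈ WU, ‖X i y - X1 i y‖ ^ 2)) +
      c * σ * (2 * ∑ y ∈ Ti.filter (fun y => ∃ x ∈ Si, P x y), ‖X1 i y - X i y‖ ^ 2 +
        2 * (2 * ∑ y ∈ Ti.filter (fun y => ∃ x ∈ Si, P x y),
            ‖X i y - ∑ x ∈ S, LV y x * Y i x‖ ^ 2 +
          2 * (c * ∑ x ∈ WV, ‖Y i x - Y1 i x‖ ^ 2)))) =
      3 * (∑ i ∈ K, d i ^ 2 * (σ * (2 * ∑ x ∈ Si.filter (fun x => ∃ y ∈ Ti, P x y),
        ‖Y i x - ∑ y ∈ T, LU x y * X i y‖ ^ 2 + 2 * (c * ∑ y ∈ WU, ‖X i y - X1 i y‖ ^ 2))) +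
      ∑ i ∈ K, d i ^ 2 * (c * σ * (2 * ∑ y ∈ Ti.filter (fun y => ∃ x ∈ Si, P x y),
          ‖X1 i y - X i y‖ ^ 2 +
        2 * (2 * ∑ y ∈ Ti.filter (fun y => ∃ x ∈ Si, P x y),
            ‖X i y - ∑ x ∈ S, LV y x * Y i x‖ ^ 2 +
          2 * (c * ∑ x ∈ WV, ‖Y i x - Y1 i x‖ ^ 2))))) := by
    rw [← Finset.sum_add_distrib]
    congr 1
    exact Finset.sum_congr rfl fun i _ => by ring
  rw [e1]
  linarith

end Crest.Agent.R079.NrSx248
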