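import Crest.Agent.R079.NrB_228
import Crest.Agent.R079.NrW_259
import Crest.Agent.R079.NrS_248

/-! # R079 (S0106), T3 (helper228): geometry of one cell (`CG`) and the edge strips. -/

set_option autoImplicit false

namespace Crest.Agent.R079.NrCx228

open Finset Crest.Agent.R079.Grid Crest.Agent.R079.Growth Crest.Agent.R079.QRed
  Crest.Agent.R079.Qh249 Crest.Agent.R079.QVar181 Crest.Agent.R079.TWin
open Crest.Agent.R079.ClW59 (OpS cl)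
open Crest.Agent.R079.NrTx259 Crest.Agent.R079.NrUx259 Crest.Agent.R079.NrWx259
  Crest.Agent.R079.NrAx228 Crest.Agent.R079.NrBx228

open scoped ComplexConjugate

/-- geometry of one cell: tiles, alive tiles `E1`, grid nodes `Q` with strips `P q` and alive tiles
`E2 q`; `2^l` = level of the grid -/
structure CG {β : Type} (m : ℕ) (a b : ℤ) (Ti E1 : Finset (ℕ × ℤ × ℤ)) (Q : Finset β)
    (E2 : β → Finset (ℕ × ℤ × ℤ)) (P : β → ℤ → ℤ → Prop) (l kc : ℕ) (θ : ℝ) : Prop where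
  tl : Tlg m a b Ti
  E1s : E1 ⊆ Ti
  E1l : ∀ c ∈ E1, c.1 ≤ l + kc
  E1r : ∀ u ∈ dI m a, θ * 2 ^ m ≤ wt E1 u
  E1c : ∀ v ∈ dI m b, θ * 2 ^ m ≤ wtc E1 v
  E2s : ∀ q ∈ Q, E2 q ⊆ Ti
  E2d : ∀ q ∈ Q, ∀ q' ∈ Q, ∀ c, c ∈ E2 q → c ∈ E2 q' → q = q'
  E2P : ∀ q ∈ Q, ∀ c ∈ E2 q, ∀ u ∈ Rw c, ∀ v ∈ Cl c, P q u v
  Pd : ∀ q ∈ Q, ∀ q' ∈ Q, ∀ u v, P q u v → P q' u v → q = q'
  Pr : ∀ q ∈ Q, ∀ u v v', P q u v → P q u v' → |v - v'| ≤ 2 ^ (l + 7)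
  Pc : ∀ q ∈ Q, ∀ u u' v, P q u v → P q u' v → |u - u'| ≤ 2 ^ (l + 7)
  inR : ∀ q ∈ Q, ∀ u ∈ dI m a, ∀ v ∈ dI m b, P q u v → b * 2 ^ m + 2 ^ (l + 7) ≤ v →
    v + 2 ^ (l + 7) < (b + 1) * 2 ^ m → (2 : ℝ) ^ l ≤ wt (E2 q) u
  inC : ∀ q ∈ Q, ∀ u ∈ dI m a, ∀ v ∈ dI m b, P q u v → a * 2 ^ m + 2 ^ (l + 7) ≤ u →
    u + 2 ^ (l + 7) < (a + 1) * 2 ^ m → (2 : ℝ) ^ l ≤ wtc (E2 q) v
  cd : (Q.card : ℝ) * 2 ^ l ≤ 2 * 2 ^ m

/-- the two edge strips of `dI m a` -/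
noncomputable def edg (m : ℕ) (a : ℤ) (L : ℕ) : Finset ℤ :=
  (dI m a).filter (fun u => u < a * 2 ^ m + 2 ^ L ∨ (a + 1) * 2 ^ m ≤ u + 2 ^ L)

lemma edg_split (m : ℕ) (a : ℤ) (L : ℕ) : edg m a L =
    (dI m a ∩ Finset.Ico (a * 2 ^ m) (a * 2 ^ m + 2 ^ L)) ∪
      (dI m a ∩ Finset.Ico ((a + 1) * 2 ^ m - 2 ^ L) ((a + 1) * 2 ^ m)) := by
  ext u
  unfold edg dI
  simp only [Finset.mem_filter, Finset.mem_union, Finset.mem_inter, Finset.mem_Ico]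
  constructor
  · rintro ⟨⟨h1, h2⟩, h3 | h3⟩
    · exact Or.inl ⟨⟨h1, h2⟩, h1, h3⟩
    · exact Or.inr ⟨⟨h1, h2⟩, by linarith, h2⟩
  · rintro (⟨⟨h1, h2⟩, h3, h4⟩ | ⟨⟨h1, h2⟩, h3, h4⟩)
    · exact ⟨⟨h1, h2⟩, Or.inl h4⟩
    · exact ⟨⟨h1, h2⟩, Or.inr (by linarith)⟩

section edges

variable {β : Type} {m : ℕ} {a b : ℤ} {Ti E1 : Finset (ℕ × ℤ × ℤ)} {Q : Finset β}
  {E2 : β → Finset (ℕ × ℤ × ℤ)} {P : β → ℤ → ℤ → Prop} {l kc : ℕ} {θ : ℝ}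
  {A B : ℤ → ℤ → ℂ} {S T : Finset ℤ} {s : ℤ → ℝ} {Y X : ℤ → ℤ → ℂ} {r r' : ℝ}

/-- spread on an interval, rows -/
theorem bf_y1 (G : CG m a b Ti E1 Q E2 P l kc θ) (hr : 0 < r) (hθ : 0 < θ)
    (hop : ∀ c ∈ Ti, OpS (Rw c) (Cl c) B (r * 2 ^ c.1)) (H : SvC A S T s Y X) (hT : T ⊆ dI m b)
    {I : Finset ℤ} (hI : I ⊆ dI m a) {x y : ℤ} {N : ℕ} (hN : y - x ≤ N * 2 ^ l)
    (hIxy : I ⊆ Finset.Ico x y) :
    BF T I (y1 m b E1 B r X) ((N + 1) * (2 ^ (l + kc) / 2 ^ m / θ ^ 2)) := by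
  have h1 := y1_BF_iv (κ := ℤ) (T := T) (X := X) (l := l + kc) (s1 := 1) (N := N) G.tl G.E1s hr hθ
    (fun c hc => hop c (G.E1s hc)) G.E1l zero_le_one (bfX H hT)
    (hN.trans (mul_le_mul_of_nonneg_left (pow_le_pow_right₀ (by norm_num) (by omega))
      (by positivity))) hIxy (fun u hu => G.E1r u (hI hu))
  rw [one_mul] at h1
  exact h1

/-- spread on an interval, columns -/
theorem bf_x1 (G : CG m a b Ti E1 Q E2 P l kc θ) (hr : 0 < r) (hθ : 0 < θ)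
    (hop : ∀ c ∈ Ti, OpS (Rw c) (Cl c) B (r * 2 ^ c.1)) (H : SvC A S T s Y X) (hS : S ⊆ dI m a)
    {J : Finset ℤ} (hJ : J ⊆ dI m b) {x y : ℤ} {N : ℕ} (hN : y - x ≤ N * 2 ^ l)
    (hJxy : J ⊆ Finset.Ico x y) :
    BF T J (x1 m a E1 B r Y) ((N + 1) * (2 ^ (l + kc) / 2 ^ m / θ ^ 2)) := by
  have h1 := x1_BF_iv (κ := ℤ) (T := T) (Y := Y) (l := l + kc) (s1 := 1) (N := N) G.tl G.E1s hr hθ
    (fun c hc => hop c (G.E1s hc)) G.E1l zero_le_one (bfY H hS)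
    (hN.trans (mul_le_mul_of_nonneg_left (pow_le_pow_right₀ (by norm_num) (by omega))
      (by positivity))) hJxy (fun u hu => G.E1c u (hJ hu))
  rw [one_mul] at h1
  exact h1

/-- the constant of the spread on the edges -/
noncomputable def be (m l kc : ℕ) (θ : ℝ) : ℝ := 2 * ((2 ^ 7 + 1) * (2 ^ (l + kc) / 2 ^ m / θ ^ 2))

lemma BF.union {κ : Type*} {T : Finset κ} {I J : Finset ℤ} {V : κ → ℤ → ℂ} {b1 b2 : ℝ}
    (h1 : BF T I V b1) (h2 : BF T J V b2) : BF T (I ∪ J) V (b1 + b2) := by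
  classical
  intro c
  have h3 := Finset.sum_union_inter (s₁ := I) (s₂ := J) (f := fun v => ‖∑ k ∈ T, c k * V k v‖ ^ 2)
  have h4 : 0 ≤ ∑ v ∈ I ∩ J, ‖∑ k ∈ T, c k * V k v‖ ^ 2 := Finset.sum_nonneg fun _ _ => sq_nonneg _
  have h5 := h1 c
  have h6 := h2 c
  rw [add_mul]
  linarith

theorem bf_edgR (G : CG m a b Ti E1 Q E2 P l kc θ) (hr : 0 < r) (hθ : 0 < θ)
    (hop : ∀ c ∈ Ti, OpS (Rw c) (Cl c) B (r * 2 ^ c.1)) (H : SvC A S T s Y X) (hT : T ⊆ dI m b) :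
    BF T (edg m a (l + 7)) (y1 m b E1 B r X) (be m l kc θ) := by
  classical
  rw [edg_split]
  have e : be m l kc θ = (((2 ^ 7 : ℕ) : ℝ) + 1) * (2 ^ (l + kc) / 2 ^ m / θ ^ 2) +
      (((2 ^ 7 : ℕ) : ℝ) + 1) * (2 ^ (l + kc) / 2 ^ m / θ ^ 2) := by
    unfold be; push_cast; ring
  rw [e]
  refine BF.union (bf_y1 G hr hθ hop H hT Finset.inter_subset_left (x := a * 2 ^ m)
    (y := a * 2 ^ m + 2 ^ (l + 7)) ?_ Finset.inter_subset_right)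
    (bf_y1 G hr hθ hop H hT Finset.inter_subset_left (x := (a + 1) * 2 ^ m - 2 ^ (l + 7))
    (y := (a + 1) * 2 ^ m) ?_ Finset.inter_subset_right)
  · push_cast; rw [pow_add]; ring_nf; rfl
  · push_cast; rw [pow_add]; ring_nf; rfl

theorem bf_edgC (G : CG m a b Ti E1 Q E2 P l kc θ) (hr : 0 < r) (hθ : 0 < θ)
    (hop : ∀ c ∈ Ti, OpS (Rw c) (Cl c) B (r * 2 ^ c.1)) (H : SvC A S T s Y X) (hS : S ⊆ dI m a) :
    BF T (edg m b (l + 7)) (x1 m a E1 B r Y) (be m l kc θ) := by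
  classical
  rw [edg_split]
  have e : be m l kc θ = (((2 ^ 7 : ℕ) : ℝ) + 1) * (2 ^ (l + kc) / 2 ^ m / θ ^ 2) +
      (((2 ^ 7 : ℕ) : ℝ) + 1) * (2 ^ (l + kc) / 2 ^ m / θ ^ 2) := by
    unfold be; push_cast; ring
  rw [e]
  refine BF.union (bf_x1 G hr hθ hop H hS Finset.inter_subset_left (x := b * 2 ^ m)
    (y := b * 2 ^ m + 2 ^ (l + 7)) ?_ Finset.inter_subset_right)
    (bf_x1 G hr hθ hop H hS Finset.inter_subset_left (x := (b + 1) * 2 ^ m - 2 ^ (l + 7))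
    (y := (b + 1) * 2 ^ m) ?_ Finset.inter_subset_right)
  · push_cast; rw [pow_add]; ring_nf; rfl
  · push_cast; rw [pow_add]; ring_nf; rfl

/-- **the edges**: energy of the step on the edge rows and the edge columns -/
theorem edges (G : CG m a b Ti E1 Q E2 P l kc θ) (hr : 0 < r) (hrr : r ≤ r') (hθ : 0 < θ)
    (hop : ∀ c ∈ Ti, OpS (Rw c) (Cl c) B (r * 2 ^ c.1)) (H : SvC A S T s Y X) (hS : S ⊆ dI m a)
    (hT : T ⊆ dI m b) :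
    ∑ u ∈ edg m a (l + 7), ∑ v ∈ T, ‖∑ k ∈ T, (dk s (r * 2 ^ m) (r' * 2 ^ m) k : ℂ) * Y k u *
        conj (X k v)‖ ^ 2 +
      ∑ u ∈ S, ∑ v ∈ edg m b (l + 7), ‖∑ k ∈ T, (dk s (r * 2 ^ m) (r' * 2 ^ m) k : ℂ) * Y k u *
        conj (X k v)‖ ^ 2 ≤
      4 * (2 * (r' - r) / (θ * r) * Gd B S T Y X s (r * 2 ^ m)) +
        4 * (be m l kc θ * ∑ k ∈ T, dk s (r * 2 ^ m) (r' * 2 ^ m) k ^ 2) := by
  have hs1 : edg m a (l + 7) ⊆ dI m a := Finset.filter_subset _ _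
  have hs2 : edg m b (l + 7) ⊆ dI m b := Finset.filter_subset _ _
  have h1 := E3r H (dk s (r * 2 ^ m) (r' * 2 ^ m)) (bf_edgR G hr hθ hop H hT)
  have h2 := E3c H (dk s (r * 2 ^ m) (r' * 2 ^ m)) (bf_edgC G hr hθ hop H hS)
  have h3 := NrWx259.E1 G.tl G.E1s hr hrr hθ hop H hS hT hs1 (fun u hu => G.E1r u (hs1 hu))
  have h4 := NrWx259.E2 G.tl G.E1s hr hrr hθ hop H hS hT hs2 (fun u hu => G.E1c u (hs2 hu))
  unfold y1 at h1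
  unfold x1 at h2
  linarith

end edges

end Crest.Agent.R079.NrCx228
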