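import Crest.Agent.R079.NrG_276
import Crest.Agent.R079.NrC_228

/-! R079 (helper276), (T3) of note 1820: the geometry structure `CG` of `NrC_228` for the tilings of a
sub-top `K` (case B of 795): `cg` (a maximal cell which meets a grid node), `cg'` (a big cell). -/

set_option autoImplicit false

namespace Crest.Agent.R079.NrHx276

open Finset Crest.Agent.R079.Grid Crest.Agent.R079.Growth Crest.Agent.R079.QRed
  Crest.Agent.R079.Qh249 Crest.Agent.R079.QVar181 Crest.Agent.R079.TWin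
open Crest.Agent.R079.ThA159 Crest.Agent.R079.Cel159
open Crest.Agent.R079.Whit (Ins)
open Crest.Agent.R079.ClW59 (OpS)
open Crest.Agent.R079.NrTx276 Crest.Agent.R079.NrUx276 Crest.Agent.R079.NrGx276
  Crest.Agent.R079.SbWx795
open Crest.Agent.R079.NrTx259 (Tlg Rw Cl wt wtc mB)
open Crest.Agent.R079.NrBx228 Crest.Agent.R079.NrCx228

variable {Y : ℤ → ℤ → ℤ → ℤ} {k : ℕ} {V : Finset Nd} {P K : Nd} {z : ℤ} {m : ℕ} {a b : ℤ}
  {j0 n0 k0 : ℕ} {q : Nd}

/-- **geometry of a big cell** -/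
theorem cg' (hY : St3 Y) (hV : Full V P) (hK : K ∈ V) (hM : Mx (Y z) k K m a b)
    (hk0 : 9 ≤ k0) (hkj : k0 ≤ j0) (hCB : CB V k0 j0 n0 K) (hm : K.1 ≤ m) :
    CG m a b (Til Y k V z m a b) (E1 Y k V j0 K z m a b) (QQ V k0 j0 n0 K)
      (fun q => E2 Y k V n0 q z m a b) (fun q u v => Y z u v ∈ iv q) (K.1 - j0) 7
      (1 / 2 ^ (k0 + 3)) := by
  have hj : j0 ≤ K.1 := by have := hCB.1; omega
  have hlev : ∀ q ∈ QQ V k0 j0 n0 K, q.1 = K.1 - j0 := fun q hq => (mem_QQ.1 hq).2.2.1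
  have hdis : ∀ q ∈ QQ V k0 j0 n0 K, ∀ q' ∈ QQ V k0 j0 n0 K, ∀ y, y ∈ iv q → y ∈ iv q' →
      q = q' := by
    intro q hq q' hq' y hy hy'
    by_contra hne
    exact Finset.disjoint_left.1 (QQ_disj hq hq' hne) hy hy'
  refine
    { tl := tlg hV hK hM
      E1s := E1_sub
      E1l := fun c hc => E1_side hY hV hK hM hj hc
      E1r := fun u hu => E1_wt hY hV hK hM hm hk0 hkj hCB hu
      E1c := fun v hv => E1_wtc hY hV hK hM hm hk0 hkj hCB hv
      E2s := fun q _ => E2_sub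
      E2d := fun q hq q' hq' c hc hc' => hdis q hq q' hq' _
        (E2_lab hV hK hM hc (cor_mem _ _) (cor_mem _ _))
        (E2_lab hV hK hM hc' (cor_mem _ _) (cor_mem _ _))
      E2P := fun q _ c hc u hu v hv => E2_lab hV hK hM hc hu hv
      Pd := fun q hq q' hq' u v h h' => hdis q hq q' hq' _ h h'
      Pr := fun q hq u v v' h h' => ?_
      Pc := fun q hq u u' v h h' => ?_
      inR := fun q hq u hu v hv h h1 h2 => ?_
      inC := fun q hq u hu v hv h h1 h2 => ?_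
      cd := ?_ }
  · have h1 := row_dist hY h' h
    rw [hlev q hq] at h1
    exact h1.le
  · have h1 := row_dist (Y := fun z v u => Y z u v) (z := z) (u := v) (v := u') (v' := u)
      hY.swap h' h
    rw [hlev q hq] at h1
    exact h1.le
  · obtain ⟨s1, s2, s3, s4, s5, s6, s7, s8⟩ := QQ_spec hV hq
    rw [← hlev q hq] at h1 h2 ⊢
    exact E2_wt_ge hY hV hK hM s1 s6 (s7 _ le_rfl s6) hu h (by linarith) h2.le
  · obtain ⟨s1, s2, s3, s4, s5, s6, s7, s8⟩ := QQ_spec hV hq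
    rw [← hlev q hq] at h1 h2 ⊢
    exact E2_wtc_ge hY hV hK hM s1 s6 (s7 _ le_rfl s6) hv h (by linarith) h2.le
  · have h1 := QQ_card (V := V) (k0 := k0) (j0 := j0) (n0 := n0) (K := K)
    have h2 : (2 : ℝ) ^ K.1 ≤ 2 ^ m := pow_le_pow_right₀ (by norm_num) hm
    have h3 : (0 : ℝ) < 2 ^ m := by positivity
    linarith

/-- **geometry of a maximal cell which meets a grid node** -/
theorem cg (hY : St3 Y) (hV : Full V P) (hK : K ∈ V) (hM : Mx (Y z) k K m a b)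
    (hk0 : 9 ≤ k0) (hkj : k0 ≤ j0) (hq : q ∈ QQ V k0 j0 n0 K) {u v : ℤ} (hu : u ∈ dI m a)
    (hv : v ∈ dI m b) (h : Y z u v ∈ iv q) :
    CG m a b (Til Y k V z m a b) (E1 Y k V j0 K z m a b) (QQ V k0 j0 n0 K)
      (fun q => E2 Y k V n0 q z m a b) (fun q u v => Y z u v ∈ iv q) (K.1 - j0) 7
      (1 / 2 ^ (k0 + 3)) := by
  obtain ⟨s1, s2, s3, s4, _⟩ := QQ_spec hV hq
  exact cg' hY hV hK hM hk0 hkj (mem_QQ.1 hq).1 (big_cell hY hM (by omega) s3 s4 hu hv h)

end Crest.Agent.R079.NrHx276
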