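import Crest.Agent.R079.FrL_717
import Crest.Agent.R079.NrH_276

/-! R079, (T5c) of note 1820 (helper717): **domination of the frames** (`majU, majW`), concrete frames. -/

set_option autoImplicit false
set_option linter.unusedSectionVars false

namespace Crest.Agent.R079.FrMx717

open Finset Crest.Agent.R079.Grid Crest.Agent.R079.Growth Crest.Agent.R079.QRed
  Crest.Agent.R079.Qh249 Crest.Agent.R079.QVar181 Crest.Agent.R079.TWin
  Crest.Agent.R079.SbWx795 Crest.Agent.R079.Cel159 Crest.Agent.R079.ThA159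
open Crest.Agent.R079.GaFx371 (Ye W0 SE BdE poE)
open Crest.Agent.R079.FrZx360
open Crest.Agent.R079.NrTx259 (mB wt wtc Rw Cl avg)
open Crest.Agent.R079.NrUx259 (BF avgc)
open Crest.Agent.R079.NrAx228
open Crest.Agent.R079.NrBx228
open Crest.Agent.R079.NrCx228 (bf_x1 bf_y1 CG)
open Crest.Agent.R079.ClW59 (OpS)
open Crest.Agent.R079.FrJx717 (lin_Ye)

open scoped ComplexConjugate

section core

variable {m : ℕ} {a b : ℤ} {A : Finset (ℕ × ℤ × ℤ)} {B : ℤ → ℤ → ℂ} {r lq D Cs : ℝ}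
  {T S0 : Finset ℤ} {x : ℤ → ℤ → ℂ} {d : ℤ → ℝ} {J : Finset ℤ}

open Classical in
/-- domination, rows -/
theorem maj_row (hJ : J ⊆ dI m b) (hJ0 : ∀ u ∈ S0, ∀ v ∈ dI m b, v ∉ J → mB A B u v = 0)
    (hlq : 0 < lq) (hr : 0 < r) (hD : 0 ≤ D) (hd : ∀ k ∈ T, 0 ≤ d k ∧ d k ≤ D) (hCs : 0 ≤ Cs)
    (hb : BF T J x Cs) (f : ℤ → ℂ) :
    ∑ k ∈ T, ‖∑ u ∈ S0, f u * ((Real.sqrt (d k) : ℂ) *
        (if lq ≤ wt A u then avg m b A B r (x k) u else 0))‖ ^ 2 ≤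
      D * Cs / (r * lq) ^ 2 * ∑ v ∈ dI m b, ‖∑ u ∈ S0, f u * CU A B lq u v‖ ^ 2 := by
  have h1 := FrIx261.maj_one (S := S0) (T := J) (K := T) (M := mB A B) (x := x) (d := d)
    (g := fun u => if lq ≤ wt A u then (wt A u)⁻¹ else 0) hlq hr hD hd (hb.dual hCs) f
  have e1 : ∀ k, ∀ u ∈ S0, (Real.sqrt (d k) : ℂ) *
      (if lq ≤ wt A u then avg m b A B r (x k) u else 0) =
      ((Real.sqrt (d k) * ((if lq ≤ wt A u then (wt A u)⁻¹ else 0) / r) : ℝ) : ℂ) *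
        ∑ v ∈ J, mB A B u v * x k v := by
    intro k u hu
    split_ifs with h
    · have h0 : 0 < wt A u := lt_of_lt_of_le hlq h
      unfold avg
      have e2 : ∑ v ∈ dI m b, mB A B u v * x k v = ∑ v ∈ J, mB A B u v * x k v := by
        symm
        refine Finset.sum_subset hJ fun v hv hv' => ?_
        rw [hJ0 u hu v hv hv', zero_mul]
      rw [e2]
      have hrc : (r : ℂ) ≠ 0 := by exact_mod_cast hr.ne'
      have hwc : ((wt A u : ℝ) : ℂ) ≠ 0 := by exact_mod_cast h0.ne'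
      push_cast
      field_simp
    · simp
  have e3 : ∀ u v, (((lq * (if lq ≤ wt A u then (wt A u)⁻¹ else 0) : ℝ) : ℂ)) * mB A B u v =
      CU A B lq u v := by
    intro u v
    unfold CU
    split_ifs
    · rw [div_eq_mul_inv]
    · simp
  have e4 : ∀ k, ∑ u ∈ S0, f u * ((Real.sqrt (d k) : ℂ) *
        (if lq ≤ wt A u then avg m b A B r (x k) u else 0)) =
      ∑ u ∈ S0, f u * (((Real.sqrt (d k) * ((if lq ≤ wt A u then (wt A u)⁻¹ else 0) / r) : ℝ) : ℂ) *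
        ∑ v ∈ J, mB A B u v * x k v) := fun k =>
    Finset.sum_congr rfl fun u hu => by rw [e1 k u hu]
  simp only [e4]
  refine h1.trans ?_
  refine mul_le_mul_of_nonneg_left ?_ (by positivity)
  simp only [e3]
  exact Finset.sum_le_sum_of_subset_of_nonneg hJ fun _ _ _ => sq_nonneg _

open Classical in
/-- domination, columns -/
theorem maj_col (hJ : J ⊆ dI m a) (hJ0 : ∀ v ∈ S0, ∀ u ∈ dI m a, u ∉ J → mB A B u v = 0)
    (hlq : 0 < lq) (hr : 0 < r) (hD : 0 ≤ D) (hd : ∀ k ∈ T, 0 ≤ d k ∧ d k ≤ D) (hCs : 0 ≤ Cs)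
    (hb : BF T J x Cs) (f : ℤ → ℂ) :
    ∑ k ∈ T, ‖∑ v ∈ S0, f v * ((Real.sqrt (d k) : ℂ) *
        conj (if lq ≤ wtc A v then avgc m a A B r (x k) v else 0))‖ ^ 2 ≤
      D * Cs / (r * lq) ^ 2 * ∑ u ∈ dI m a, ‖∑ v ∈ S0, f v * CW A B lq u v‖ ^ 2 := by
  have h1 := FrIx261.maj_one (S := S0) (T := J) (K := T) (M := fun v u => mB A B u v)
    (x := fun k u => conj (x k u)) (d := d)
    (g := fun v => if lq ≤ wtc A v then (wtc A v)⁻¹ else 0) hlq hr hD hd (hb.star.dual hCs) f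
  have e1 : ∀ k, ∀ v ∈ S0, (Real.sqrt (d k) : ℂ) *
      conj (if lq ≤ wtc A v then avgc m a A B r (x k) v else 0) =
      ((Real.sqrt (d k) * ((if lq ≤ wtc A v then (wtc A v)⁻¹ else 0) / r) : ℝ) : ℂ) *
        ∑ u ∈ J, mB A B u v * conj (x k u) := by
    intro k v hv
    split_ifs with h
    · have h0 : 0 < wtc A v := lt_of_lt_of_le hlq h
      unfold avgc
      rw [map_div₀, Complex.conj_ofReal, map_sum]
      have e2 : ∑ u ∈ dI m a, conj (conj (mB A B u v) * x k u) =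
          ∑ u ∈ J, mB A B u v * conj (x k u) := by
        symm
        rw [Finset.sum_congr rfl fun u _ => by
          rw [map_mul, Complex.conj_conj] (g := fun u => conj (conj (mB A B u v) * x k u))]
        refine Finset.sum_subset hJ fun u hu hu' => ?_
        rw [map_mul, Complex.conj_conj, hJ0 v hv u hu hu', zero_mul]
      rw [e2]
      have hrc : (r : ℂ) ≠ 0 := by exact_mod_cast hr.ne'
      have hwc : ((wtc A v : ℝ) : ℂ) ≠ 0 := by exact_mod_cast h0.ne'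
      push_cast
      field_simp
    · simp
  have e3 : ∀ u v, (((lq * (if lq ≤ wtc A v then (wtc A v)⁻¹ else 0) : ℝ) : ℂ)) * mB A B u v =
      CW A B lq u v := by
    intro u v
    unfold CW
    split_ifs
    · rw [div_eq_mul_inv]
    · simp
  have e4 : ∀ k, ∑ v ∈ S0, f v * ((Real.sqrt (d k) : ℂ) *
        conj (if lq ≤ wtc A v then avgc m a A B r (x k) v else 0)) =
      ∑ v ∈ S0, f v * (((Real.sqrt (d k) * ((if lq ≤ wtc A v then (wtc A v)⁻¹ else 0) / r) : ℝ) : ℂ) *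
        ∑ u ∈ J, mB A B u v * conj (x k u)) := fun k =>
    Finset.sum_congr rfl fun v hv => by rw [e1 k v hv]
  simp only [e4]
  refine h1.trans ?_
  refine mul_le_mul_of_nonneg_left ?_ (by positivity)
  simp only [e3]
  exact Finset.sum_le_sum_of_subset_of_nonneg hJ fun _ _ _ => sq_nonneg _

end core

/-! ### distances in the strip of a node -/

section near

variable {i : Fin 4} {e : Fin 3} {w : ℤ} {q : Nd} {u u' v v' : ℤ}

lemma near_col (h : Ye i e w u v ∈ iv q) (h' : Ye i e w u' v' ∈ iv q) (hu : |u - u'| < 2 ^ q.1) :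
    |v - v'| < 2 ^ (q.1 + 8) := by
  have hl := lin_Ye i e w
  have h2 := SKx261.dI_diff h h'
  rw [hl.eq, hl.eq] at h2
  have hp : (0 : ℤ) < 2 ^ q.1 := by positivity
  have e7 : (2 : ℤ) ^ (q.1 + 7) = 128 * 2 ^ q.1 := by rw [pow_add]; ring
  have e8 : (2 : ℤ) ^ (q.1 + 8) = 256 * 2 ^ q.1 := by rw [pow_add]; ring
  rw [e7] at h2
  rw [e8]
  set β := sl (i.succAbove e) - sl (i.succAbove (e + 2)) with hβ
  set γ := sl (i.succAbove (e + 1)) - sl (i.succAbove (e + 2)) with hγ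
  have e1 : γ * (v - v') = ((sl i - sl (i.succAbove (e + 2))) * w + β * u + γ * v -
      ((sl i - sl (i.succAbove (e + 2))) * w + β * u' + γ * v')) - β * (u - u') := by ring
  have h3 : |γ * (v - v')| ≤ |(sl i - sl (i.succAbove (e + 2))) * w + β * u + γ * v -
      ((sl i - sl (i.succAbove (e + 2))) * w + β * u' + γ * v')| + |β * (u - u')| := by
    rw [e1]
    exact abs_sub _ _
  rw [abs_mul, abs_mul] at h3
  have h4 : 1 ≤ |γ| := Int.one_le_abs hl.g0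
  have h5 : |β| ≤ 3 := hl.b3
  have h6 : |β| * |u - u'| ≤ 3 * 2 ^ q.1 :=
    mul_le_mul h5 hu.le (abs_nonneg _) (by norm_num)
  have h7 : |v - v'| ≤ |γ| * |v - v'| := by nlinarith [abs_nonneg (v - v')]
  linarith

lemma near_row (h : Ye i e w u v ∈ iv q) (h' : Ye i e w u' v' ∈ iv q) (hv : |v - v'| < 2 ^ q.1) :
    |u - u'| < 2 ^ (q.1 + 8) := by
  have hl := lin_Ye i e w
  have h2 := SKx261.dI_diff h h'
  rw [hl.eq, hl.eq] at h2
  have hp : (0 : ℤ) < 2 ^ q.1 := by positivity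
  have e7 : (2 : ℤ) ^ (q.1 + 7) = 128 * 2 ^ q.1 := by rw [pow_add]; ring
  have e8 : (2 : ℤ) ^ (q.1 + 8) = 256 * 2 ^ q.1 := by rw [pow_add]; ring
  rw [e7] at h2
  rw [e8]
  set β := sl (i.succAbove e) - sl (i.succAbove (e + 2)) with hβ
  set γ := sl (i.succAbove (e + 1)) - sl (i.succAbove (e + 2)) with hγ
  have e1 : β * (u - u') = ((sl i - sl (i.succAbove (e + 2))) * w + β * u + γ * v -
      ((sl i - sl (i.succAbove (e + 2))) * w + β * u' + γ * v')) - γ * (v - v') := by ring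
  have h3 : |β * (u - u')| ≤ |(sl i - sl (i.succAbove (e + 2))) * w + β * u + γ * v -
      ((sl i - sl (i.succAbove (e + 2))) * w + β * u' + γ * v')| + |γ * (v - v')| := by
    rw [e1]
    exact abs_sub _ _
  rw [abs_mul, abs_mul] at h3
  have h4 : 1 ≤ |β| := Int.one_le_abs hl.b0
  have h5 : |γ| ≤ 3 := hl.g3
  have h6 : |γ| * |v - v'| ≤ 3 * 2 ^ q.1 :=
    mul_le_mul h5 hv.le (abs_nonneg _) (by norm_num)
  have h7 : |u - u'| ≤ |β| * |u - u'| := by nlinarith [abs_nonneg (u - u')]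
  linarith

end near

/-! ### the frames -/

/-- the constant of the domination -/
noncomputable def cM (k0 : ℕ) (ra ra' : ℝ) : ℝ :=
  (2 ^ 9 + 1) * 2 ^ 7 * (2 ^ (k0 + 3)) ^ 2 * ra' / ra ^ 2

lemma cM_nonneg {k0 : ℕ} {ra ra' : ℝ} (h : 0 ≤ ra') : 0 ≤ cM k0 ra ra' := by
  unfold cM; positivity

lemma cM_num {k0 m l : ℕ} {ra ra' c0 : ℝ} (hra : 0 < ra) (hc0 : cM k0 ra ra' ≤ c0) :
    ra' * 2 ^ m * (((2 ^ 9 : ℕ) + 1) * (2 ^ (l + 7) / 2 ^ m / (1 / 2 ^ (k0 + 3)) ^ 2)) /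
      (ra * 2 ^ l) ^ 2 ≤ c0 / 2 ^ l := by
  have h1 : ra' * 2 ^ m * (((2 ^ 9 : ℕ) + 1) * (2 ^ (l + 7) / 2 ^ m / (1 / 2 ^ (k0 + 3)) ^ 2)) /
      (ra * 2 ^ l) ^ 2 = cM k0 ra ra' / 2 ^ l := by
    unfold cM
    rw [pow_add (2 : ℝ) l 7]
    have h2 : (0 : ℝ) < 2 ^ l := by positivity
    have h3 : (0 : ℝ) < 2 ^ m := by positivity
    have h4 : (0 : ℝ) < 2 ^ (k0 + 3) := by positivity
    generalize (2 : ℝ) ^ l = x at *
    generalize (2 : ℝ) ^ m = y at *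
    generalize (2 : ℝ) ^ (k0 + 3) = z at *
    push_cast
    field_simp
    norm_num
  rw [h1]
  exact div_le_div_of_nonneg_right hc0 (by positivity)

section conc

variable {n : ℕ} {i : Fin 4} {e : Fin 3} {kc k0 j0 n0 Kl : ℕ} {W : Finset Nd} {K I P q0 : Nd}
  {T : Fin n → Fin 3 → Finset ℤ} {g : Fin n → Fin 3 → ℤ → ℤ → ℂ} {r : ℕ → ℝ} {gg : Fn} {ν : ℝ}

lemma dd_le {s : ℤ → ℝ} {q m : ℕ} (h0 : 0 ≤ r q) (hm : r q ≤ r (q + 1)) (k : ℤ) :
    0 ≤ dd s r Kl q m k ∧ dd s r Kl q m k ≤ r (q + 1) * 2 ^ m := by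
  have hp : (0 : ℝ) < 2 ^ m := by positivity
  have h1 : r q * 2 ^ m ≤ r (q + 1) * 2 ^ m := mul_le_mul_of_nonneg_right hm hp.le
  have h2 : 0 ≤ r q * 2 ^ m := mul_nonneg h0 hp.le
  unfold dd
  split_ifs
  · exact ⟨dk_nonneg h1 k, (dk_le h1 k).trans (by linarith)⟩
  · exact ⟨le_rfl, h2.trans h1⟩

open Classical in
/-- the labels -/
lemma sum_lab (l : Fin n) (F : ℤ → ℝ) :
    ∑ x : LbX T e, (if x.1 ∈ T l (e + 1) then F x.1 else 0) = ∑ k ∈ T l (e + 1), F k := by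
  rw [Finset.sum_coe_sort (U2 T e) (fun x => if x ∈ T l (e + 1) then F x else 0),
    ← Finset.sum_filter]
  refine Finset.sum_congr ?_ fun _ _ => rfl
  ext x
  rw [Finset.mem_filter]
  exact ⟨fun h => h.2, fun h => ⟨mem_U2 h, h⟩⟩

/-- a cell which does not meet the strip has no tiles in `E2` -/
lemma e2_empty (hV : Full W P) (hK : K ∈ W) {w : ℤ} {t : ℕ × ℤ × ℤ}
    (hM : Mx (Ye i e w) kc K t.1 t.2.1 t.2.2)
    (h : ¬ ∃ u ∈ dI t.1 t.2.1, ∃ v ∈ dI t.1 t.2.2, Ye i e w u v ∈ iv q0) :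
    E2 (Ye i e) kc W n0 q0 w t.1 t.2.1 t.2.2 = ∅ := by
  by_contra hne
  obtain ⟨c, hc⟩ := Finset.nonempty_iff_ne_empty.2 hne
  obtain ⟨h1, h2⟩ := NrTx276.til_sub hV hK hM (NrGx276.E2_sub hc)
  have hu : c.2.1 * 2 ^ c.1 ∈ dI c.1 c.2.1 := NrUx276.cor_mem _ _
  have hv : c.2.2 * 2 ^ c.1 ∈ dI c.1 c.2.2 := NrUx276.cor_mem _ _
  exact h ⟨_, h1 hu, _, h2 hv, NrGx276.E2_lab hV hK hM hc hu hv⟩

lemma x1_zero {m : ℕ} {a : ℤ} {E : Finset (ℕ × ℤ × ℤ)} {B : ℤ → ℤ → ℂ} {r : ℝ} {Y : ℤ → ℤ → ℂ}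
    {k v : ℤ} (h : ∀ u, Y k u = 0) : x1 m a E B r Y k v = 0 := by
  unfold x1 avgc
  simp only [h, mul_zero, Finset.sum_const_zero, zero_div]

lemma y1_zero {m : ℕ} {b : ℤ} {E : Finset (ℕ × ℤ × ℤ)} {B : ℤ → ℤ → ℂ} {r : ℝ} {X : ℤ → ℤ → ℂ}
    {k u : ℤ} (h : ∀ v, X k v = 0) : y1 m b E B r X k u = 0 := by
  unfold y1 avg
  simp only [h, mul_zero, Finset.sum_const_zero, zero_div]

/-- **`majU`** -/
theorem majU {l : Fin n} (hB : Bnd (BdE i e (T l) I) (poE i e) (NX i e kc I T l) ν) {a : ℕ}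
    (hr : 0 < r a) (hrm : r a ≤ r (a + 1)) (hV : Full W P) (hK : K ∈ W) (hk0 : 9 ≤ k0)
    (hkj : k0 ≤ j0) (hq : q0 ∈ QQ W k0 j0 n0 K) {w : ℤ} {t : ℕ × ℤ × ℤ}
    (hM : Mx (Ye i e w) kc K t.1 t.2.1 t.2.2) {c0 : ℝ} (hc0 : cM k0 (r a) (r (a + 1)) ≤ c0)
    (a' : ℤ) (f : ℤ → ℂ) :
    ∑ x, ‖∑ u ∈ dI q0.1 a' ∩ dI t.1 t.2.1,
        f u * PfX i e kc j0 n0 Kl W K I T g r gg a q0 l w t u x‖ ^ 2 ≤
      (c0 / 2 ^ q0.1) * ∑ v ∈ dI t.1 t.2.2, ‖∑ u ∈ dI q0.1 a' ∩ dI t.1 t.2.1,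
        f u * CUX i e kc n0 W K I T g r gg a q0 l w t u v‖ ^ 2 := by
  classical
  have hc00 : 0 ≤ c0 := (cM_nonneg (hr.le.trans hrm)).trans hc0
  set S0 := dI q0.1 a' ∩ dI t.1 t.2.1 with hS0
  set PP : ℤ → ℤ → ℂ := fun u k => PF (Ye i e) kc j0 n0 Kl W K (BdE i e (T l) I) (poE i e)
    (NX i e kc I T l) (gaX e g l) r gg (T l e) (T l (e + 1)) a q0 w t u k with hPP
  have e1 : ∀ x : LbX T e, ‖∑ u ∈ S0, f u * PfX i e kc j0 n0 Kl W K I T g r gg a q0 l w t u x‖ ^ 2 =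
      if x.1 ∈ T l (e + 1) then ‖∑ u ∈ S0, f u * PP u x.1‖ ^ 2 else 0 := by
    intro x
    unfold PfX
    split_ifs with h
    · rfl
    · simp
  rw [Finset.sum_congr rfl fun x _ => e1 x, sum_lab l (fun k => ‖∑ u ∈ S0, f u * PP u k‖ ^ 2)]
  by_cases hcell : ∃ u ∈ dI t.1 t.2.1, ∃ v ∈ dI t.1 t.2.2, Ye i e w u v ∈ iv q0
  · obtain ⟨u0, hu0, v0, hv0, hy0⟩ := hcell
    have G := NrHx276.cg (NrUx276.st3_Ye i e) hV hK hM hk0 hkj hq hu0 hv0 hy0
    have hql : K.1 - j0 = q0.1 := (mem_QQ.1 hq).2.2.1.symm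
    rw [hql] at G
    have H := sv (Ak (BdE i e (T l) I) (poE i e) (gaX e g l) K gg w)
      (dI t.1 t.2.1 ∩ T l e) (dI t.1 t.2.2 ∩ T l (e + 1))
    set sy := sY (Ak (BdE i e (T l) I) (poE i e) (gaX e g l) K gg w)
      (dI t.1 t.2.1 ∩ T l e) (dI t.1 t.2.2 ∩ T l (e + 1)) with hsy
    set ss := sS (Ak (BdE i e (T l) I) (poE i e) (gaX e g l) K gg w)
      (dI t.1 t.2.1 ∩ T l e) (dI t.1 t.2.2 ∩ T l (e + 1)) with hss
    set T' := dI t.1 t.2.2 ∩ T l (e + 1) with hT'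
    set B0 := Bk (BdE i e (T l) I) (poE i e) (NX i e kc I T l) (gaX e g l) (r a) W K gg w with hB0
    set E1' := E1 (Ye i e) kc W j0 K w t.1 t.2.1 t.2.2 with hE1'
    set E2' := E2 (Ye i e) kc W n0 q0 w t.1 t.2.1 t.2.2 with hE2'
    set X1 := x1 t.1 t.2.1 E1' B0 (r a) sy with hX1
    have hop : ∀ c ∈ NrTx276.Til (Ye i e) kc W w t.1 t.2.1 t.2.2,
        OpS (Rw c) (Cl c) B0 (r a * 2 ^ c.1) :=
      fun c hc => NrGx276.Bk_op hB (gaX e g l) hr.le hV gg hK hM hc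
    have hPPe : ∀ u k, PP u k = (Real.sqrt (dd ss r Kl a t.1 k) : ℂ) *
        (if (2 : ℝ) ^ q0.1 ≤ wt E2' u then avg t.1 t.2.2 E2' B0 (r a) (X1 k) u else 0) :=
      fun u k => rfl
    have hrest : ∑ k ∈ T l (e + 1), ‖∑ u ∈ S0, f u * PP u k‖ ^ 2 =
        ∑ k ∈ T', ‖∑ u ∈ S0, f u * PP u k‖ ^ 2 := by
      symm
      refine Finset.sum_subset Finset.inter_subset_right fun k hk hk' => ?_
      have h1 : ∀ u, sy k u = 0 := fun u => H.y0 k u fun h => hk' h.1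
      have h2 : ∀ v, X1 k v = 0 := fun v => x1_zero h1
      have h3 : ∀ u, PP u k = 0 := by
        intro u
        rw [hPPe]
        split_ifs
        · unfold avg
          simp [h2]
        · simp
      simp [h3]
    rw [hrest]
    set J := (dI t.1 t.2.2).filter (fun v => ∃ u ∈ S0, ∃ c ∈ E2', u ∈ Rw c ∧ v ∈ Cl c) with hJ
    have hJs : J ⊆ dI t.1 t.2.2 := Finset.filter_subset _ _
    have hJ0 : ∀ u ∈ S0, ∀ v ∈ dI t.1 t.2.2, v ∉ J → mB E2' B0 u v = 0 := by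
      intro u hu v hv hv'
      unfold mB
      rw [if_neg]
      rintro ⟨c, hc, h1, h2⟩
      exact hv' (Finset.mem_filter.2 ⟨hv, u, hu, c, hc, h1, h2⟩)
    have hbf : BF T' J X1 (((2 ^ 9 : ℕ) + 1) * (2 ^ (q0.1 + 7) / 2 ^ t.1 /
        (1 / 2 ^ (k0 + 3)) ^ 2)) := by
      rcases J.eq_empty_or_nonempty with hJe | ⟨v1, hv1⟩
      · rw [hJe]
        intro c
        rw [Finset.sum_empty]
        positivity
      · obtain ⟨_, u1, hu1, c1, hc1, g1, g2⟩ := Finset.mem_filter.1 hv1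
        refine bf_x1 G hr (by positivity) hop H Finset.inter_subset_left hJs
          (x := v1 - 2 ^ (q0.1 + 8)) (y := v1 + 2 ^ (q0.1 + 8)) ?_ ?_
        · push_cast
          rw [pow_add]
          ring_nf
          rfl
        · intro v hv
          obtain ⟨_, u, hu, c, hc, h1, h2⟩ := Finset.mem_filter.1 hv
          have h3 := SKx261.dI_diff (Finset.mem_inter.1 hu).1 (Finset.mem_inter.1 hu1).1
          have h4 := near_col (NrGx276.E2_lab hV hK hM hc h1 h2)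
            (NrGx276.E2_lab hV hK hM hc1 g1 g2) h3
          rw [abs_lt] at h4
          rw [Finset.mem_Ico]
          constructor
          · linarith [h4.1]
          · linarith [h4.2]
    have hmaj := maj_row (m := t.1) (b := t.2.2) (A := E2') (B := B0) (r := r a)
      (lq := 2 ^ q0.1) (D := r (a + 1) * 2 ^ t.1) (T := T') (S0 := S0) (x := X1)
      (d := dd ss r Kl a t.1) (J := J) hJs hJ0 (by positivity) hr
      (mul_nonneg (hr.le.trans hrm) (by positivity)) (fun k _ => dd_le hr.le hrm k)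
      (by positivity) hbf f
    refine hmaj.trans (mul_le_mul_of_nonneg_right (cM_num hr hc0)
      (Finset.sum_nonneg fun _ _ => sq_nonneg _))
  · have hE := e2_empty (q0 := q0) (n0 := n0) hV hK hM hcell
    have e2 : ∀ u k, PP u k = 0 := by
      intro u k
      rw [hPP]
      show PF _ _ _ _ _ _ _ _ _ _ _ _ _ _ _ _ _ _ _ _ _ = 0
      unfold PF Pu yt
      rw [hE]
      have h0 : ¬ ((2 : ℝ) ^ q0.1 ≤ wt ∅ u) := by
        unfold wt
        simp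
      rw [if_neg h0, mul_zero]
    have e3 : ∑ k ∈ T l (e + 1), ‖∑ u ∈ S0, f u * PP u k‖ ^ 2 = 0 := by
      refine Finset.sum_eq_zero fun k _ => ?_
      simp [e2]
    rw [e3]
    positivity

open Classical in
/-- **`majW`** -/
theorem majW {l : Fin n} (hB : Bnd (BdE i e (T l) I) (poE i e) (NX i e kc I T l) ν) {a : ℕ}
    (hr : 0 < r a) (hrm : r a ≤ r (a + 1)) (hV : Full W P) (hK : K ∈ W) (hk0 : 9 ≤ k0)
    (hkj : k0 ≤ j0) (hq : q0 ∈ QQ W k0 j0 n0 K) {w : ℤ} {t : ℕ × ℤ × ℤ}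
    (hM : Mx (Ye i e w) kc K t.1 t.2.1 t.2.2) {c0 : ℝ} (hc0 : cM k0 (r a) (r (a + 1)) ≤ c0)
    (b' : ℤ) (f : ℤ → ℂ) :
    ∑ x, ‖∑ v ∈ dI q0.1 b' ∩ dI t.1 t.2.2,
        f v * QfX i e kc j0 n0 Kl W K I T g r gg a q0 l w t v x‖ ^ 2 ≤
      (c0 / 2 ^ q0.1) * ∑ u ∈ dI t.1 t.2.1, ‖∑ v ∈ dI q0.1 b' ∩ dI t.1 t.2.2,
        f v * CWX i e kc n0 W K I T g r gg a q0 l w t u v‖ ^ 2 := by
  classical
  have hc00 : 0 ≤ c0 := (cM_nonneg (hr.le.trans hrm)).trans hc0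
  set S0 := dI q0.1 b' ∩ dI t.1 t.2.2 with hS0
  set PP : ℤ → ℤ → ℂ := fun v k => QF (Ye i e) kc j0 n0 Kl W K (BdE i e (T l) I) (poE i e)
    (NX i e kc I T l) (gaX e g l) r gg (T l e) (T l (e + 1)) a q0 w t v k with hPP
  have e1 : ∀ x : LbX T e, ‖∑ v ∈ S0, f v * QfX i e kc j0 n0 Kl W K I T g r gg a q0 l w t v x‖ ^ 2 =
      if x.1 ∈ T l (e + 1) then ‖∑ v ∈ S0, f v * PP v x.1‖ ^ 2 else 0 := by
    intro x
    unfold QfX
    split_ifs with h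
    · rfl
    · simp
  rw [Finset.sum_congr rfl fun x _ => e1 x, sum_lab l (fun k => ‖∑ v ∈ S0, f v * PP v k‖ ^ 2)]
  by_cases hcell : ∃ u ∈ dI t.1 t.2.1, ∃ v ∈ dI t.1 t.2.2, Ye i e w u v ∈ iv q0
  · obtain ⟨u0, hu0, v0, hv0, hy0⟩ := hcell
    have G := NrHx276.cg (NrUx276.st3_Ye i e) hV hK hM hk0 hkj hq hu0 hv0 hy0
    have hql : K.1 - j0 = q0.1 := (mem_QQ.1 hq).2.2.1.symm
    rw [hql] at G
    have H := sv (Ak (BdE i e (T l) I) (poE i e) (gaX e g l) K gg w)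
      (dI t.1 t.2.1 ∩ T l e) (dI t.1 t.2.2 ∩ T l (e + 1))
    set sx := sX (Ak (BdE i e (T l) I) (poE i e) (gaX e g l) K gg w)
      (dI t.1 t.2.1 ∩ T l e) (dI t.1 t.2.2 ∩ T l (e + 1)) with hsx
    set ss := sS (Ak (BdE i e (T l) I) (poE i e) (gaX e g l) K gg w)
      (dI t.1 t.2.1 ∩ T l e) (dI t.1 t.2.2 ∩ T l (e + 1)) with hss
    set T' := dI t.1 t.2.2 ∩ T l (e + 1) with hT'
    set B0 := Bk (BdE i e (T l) I) (poE i e) (NX i e kc I T l) (gaX e g l) (r a) W K gg w with hB0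
    set E1' := E1 (Ye i e) kc W j0 K w t.1 t.2.1 t.2.2 with hE1'
    set E2' := E2 (Ye i e) kc W n0 q0 w t.1 t.2.1 t.2.2 with hE2'
    set Y1 := y1 t.1 t.2.2 E1' B0 (r a) sx with hY1
    have hop : ∀ c ∈ NrTx276.Til (Ye i e) kc W w t.1 t.2.1 t.2.2,
        OpS (Rw c) (Cl c) B0 (r a * 2 ^ c.1) :=
      fun c hc => NrGx276.Bk_op hB (gaX e g l) hr.le hV gg hK hM hc
    have hPPe : ∀ v k, PP v k = (Real.sqrt (dd ss r Kl a t.1 k) : ℂ) *
        conj (if (2 : ℝ) ^ q0.1 ≤ wtc E2' v then avgc t.1 t.2.1 E2' B0 (r a) (Y1 k) v else 0) :=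
      fun v k => rfl
    have hrest : ∑ k ∈ T l (e + 1), ‖∑ v ∈ S0, f v * PP v k‖ ^ 2 =
        ∑ k ∈ T', ‖∑ v ∈ S0, f v * PP v k‖ ^ 2 := by
      symm
      refine Finset.sum_subset Finset.inter_subset_right fun k hk hk' => ?_
      have h1 : ∀ v, sx k v = 0 := fun v => H.x0 k v fun h => hk' h.1
      have h2 : ∀ u, Y1 k u = 0 := fun u => y1_zero h1
      have h3 : ∀ v, PP v k = 0 := by
        intro v
        rw [hPPe]
        split_ifs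
        · unfold avgc
          simp [h2]
        · simp
      simp [h3]
    rw [hrest]
    set J := (dI t.1 t.2.1).filter (fun u => ∃ v ∈ S0, ∃ c ∈ E2', u ∈ Rw c ∧ v ∈ Cl c) with hJ
    have hJs : J ⊆ dI t.1 t.2.1 := Finset.filter_subset _ _
    have hJ0 : ∀ v ∈ S0, ∀ u ∈ dI t.1 t.2.1, u ∉ J → mB E2' B0 u v = 0 := by
      intro v hv u hu hu'
      unfold mB
      rw [if_neg]
      rintro ⟨c, hc, h1, h2⟩
      exact hu' (Finset.mem_filter.2 ⟨hu, v, hv, c, hc, h1, h2⟩)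
    have hbf : BF T' J Y1 (((2 ^ 9 : ℕ) + 1) * (2 ^ (q0.1 + 7) / 2 ^ t.1 /
        (1 / 2 ^ (k0 + 3)) ^ 2)) := by
      rcases J.eq_empty_or_nonempty with hJe | ⟨u1, hu1⟩
      · rw [hJe]
        intro c
        rw [Finset.sum_empty]
        positivity
      · obtain ⟨_, v1, hv1, c1, hc1, g1, g2⟩ := Finset.mem_filter.1 hu1
        refine bf_y1 G hr (by positivity) hop H Finset.inter_subset_left hJs
          (x := u1 - 2 ^ (q0.1 + 8)) (y := u1 + 2 ^ (q0.1 + 8)) ?_ ?_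
        · push_cast
          rw [pow_add]
          ring_nf
          rfl
        · intro u hu
          obtain ⟨_, v, hv, c, hc, h1, h2⟩ := Finset.mem_filter.1 hu
          have h3 := SKx261.dI_diff (Finset.mem_inter.1 hv).1 (Finset.mem_inter.1 hv1).1
          have h4 := near_row (NrGx276.E2_lab hV hK hM hc h1 h2)
            (NrGx276.E2_lab hV hK hM hc1 g1 g2) h3
          rw [abs_lt] at h4
          rw [Finset.mem_Ico]
          constructor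
          · linarith [h4.1]
          · linarith [h4.2]
    have hmaj := maj_col (m := t.1) (a := t.2.1) (A := E2') (B := B0) (r := r a)
      (lq := 2 ^ q0.1) (D := r (a + 1) * 2 ^ t.1) (T := T') (S0 := S0) (x := Y1)
      (d := dd ss r Kl a t.1) (J := J) hJs hJ0 (by positivity) hr
      (mul_nonneg (hr.le.trans hrm) (by positivity)) (fun k _ => dd_le hr.le hrm k)
      (by positivity) hbf f
    refine hmaj.trans (mul_le_mul_of_nonneg_right (cM_num hr hc0)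
      (Finset.sum_nonneg fun _ _ => sq_nonneg _))
  · have hE := e2_empty (q0 := q0) (n0 := n0) hV hK hM hcell
    have e2 : ∀ v k, PP v k = 0 := by
      intro v k
      rw [hPP]
      show QF _ _ _ _ _ _ _ _ _ _ _ _ _ _ _ _ _ _ _ _ _ = 0
      unfold QF Qv xt
      rw [hE]
      have h0 : ¬ ((2 : ℝ) ^ q0.1 ≤ wtc ∅ v) := by
        unfold wtc
        simp
      rw [if_neg h0, map_zero, mul_zero]
    have e3 : ∑ k ∈ T l (e + 1), ‖∑ v ∈ S0, f v * PP v k‖ ^ 2 = 0 := by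
      refine Finset.sum_eq_zero fun k _ => ?_
      simp [e2]
    rw [e3]
    positivity

/-- **`FC` FOR THE CONCRETE FRAMES**: only the position of `q0` and numbers are left -/
theorem fc_full {Kl n1 κ0 C0 a k0 j0 : ℕ} {q0 P : Nd} {κ : Fin n → ℝ} {R : Finset Nd}
    {rr Hr G Ha : ℝ}
    (hB : ∀ l, Bnd (BdE i e (T l) I) (poE i e) (NX i e kc I T l) (1 / (n1 : ℝ) ^ 2))
    (hF : ∀ l, ElGx69.FibG (BdE i e (T l) I) (poE i e) (1 / (n1 : ℝ) ^ 2) (gaX e g l))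
    (hHa : ∀ l ω, ‖gaX e g l ω‖ ≤ Ha) (hr : 0 < r a) (hrm : r a ≤ r (a + 1)) (hV : Full W P)
    (hK : K ∈ W) (hq : q0 ∈ QQ W k0 j0 n0 K) (hk0 : 9 ≤ k0) (hkj : k0 ≤ j0) (hKI : iv K ⊆ iv I)
    (hκ : ∀ l, 0 ≤ κ l) (hC : 2 ^ κ0 ≤ C0) (hC' : C0 ≤ 2 ^ (j0 - 4))
    (hR : ∀ p ∈ R, p.1 ≤ q0.1) (hRd : ∀ p ∈ R, dq W n0 q0 ≤ p.1)
    (hrr : 0 < rr) (hcM : cM k0 (r a) (r (a + 1)) ≤ rr⁻¹) (hHr : 2 ^ 7 * Ha ^ 2 * av q0 gg ^ 2 ≤ Hr)
    (hG : (∑ l, κ l) * (2 ^ 7 * av q0 gg ^ 2) ≤ G) :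
    FrWx360.FC κ i e n1 kc κ0 (dq W n0 q0) C0 K q0 I T R (PfX i e kc j0 n0 Kl W K I T g r gg a q0)
      (QfX i e kc j0 n0 Kl W K I T g r gg a q0) (FrKx717.CUm i e kc n0 W K I T g r gg a q0)
      (FrKx717.CWm i e kc n0 W K I T g r gg a q0) (BX i e kc W K I T g r gg a) (2 ^ 7 * r a) rr Hr
      G := by
  obtain ⟨s1, s2, s3, s4, s5, s6, s7, s8⟩ := QQ_spec hV hq
  exact FrKx717.fc_of hB hF hHa hr.le hV hK s1 s3 hKI hκ hC
    (FrLx717.qq_nadj hV hq (by omega) hC') hR hRd (by positivity) hrr hHr hG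
    (fun l w _ t hM m hm _ a' b' _ hb => FrLx717.opU (hB l) hr.le hV hK s1 s6 hM hm hb)
    (fun l w _ t hM m hm _ a' b' _ hb => FrLx717.opW (hB l) hr.le hV hK s1 s6 hM hm hb)
    (fun l w _ t hM a' f => majU (hB l) hr hrm hV hK hk0 hkj hq hM hcM a' f)
    (fun l w _ t hM b' f => majW (hB l) hr hrm hV hK hk0 hkj hq hM hcM b' f)

end conc

end Crest.Agent.R079.FrMx717
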