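import Crest.Agent.R079.FrQd_717

/-! R079, (T5) of note 1820 (helper717): **the far word on a grid node `q0` of a sub-window.**

The split slot is, on the node `P' = q0` below the sub-top `P = K`, the gauge `al` times
`∑ l, Pf u l * Qf v l`, frames of the cell of `P` which contains the point, dominated on row blocks
(column blocks) of size `|P'|` by kernels `CU` (`CW`) living on the strip of `P'`
(alive labels of `P'`, normalised).  Labels = (cell of `P`) × (block of `P'`-size) × index.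

**`fq_word`** : literally `SKword` with `GS` replaced by the energy number `G`. -/

set_option autoImplicit false
set_option linter.unusedSectionVars false

namespace Crest.Agent.R079.FrQx717

open Finset Crest.Agent.R079.Grid Crest.Agent.R079.Growth Crest.Agent.R079.QRed
  Crest.Agent.R079.Qh249 Crest.Agent.R079.QVar181
  Crest.Agent.R079.TWin Crest.Agent.R079.Glue Crest.Agent.R079.SWc360 Crest.Agent.R079.Cel159
  Crest.Agent.R079.SplSx69 Crest.Agent.R079.ThA159 Crest.Agent.R079.SKx261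
open Crest.Agent.R079.ClW59 (OpS cl)
open Crest.Agent.R079.Whit (Ins)

open scoped ComplexConjugate

/-- few pieces per row -/
theorem piece_card {Z : ℤ → ℤ → ℤ} {c β γ : ℤ} (h : Lin Z c β γ) {k : ℕ} {P P' : Nd} {C0 : ℕ}
    (hC : 1 ≤ C0) (hP : iv P' ⊆ iv P) (hna : ¬ Adj C0 P P') (u : ℤ)
    {κ : Type} (A : Finset κ) (lv : κ → ℕ) (ra cb ra' cb' : κ → ℤ)
    (hinj : ∀ t ∈ A, ∀ t' ∈ A, lv t = lv t' → ra t = ra t' → cb t = cb t' → ra' t = ra' t' →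
      cb' t = cb' t' → t = t')
    (hA : ∀ t ∈ A, Mx Z k P (lv t) (ra t) (cb t) ∧ u ∈ dI P'.1 (ra' t) ∧ u ∈ dI (lv t) (ra t) ∧
      ∃ v ∈ dI P'.1 (cb' t), v ∈ dI (lv t) (cb t) ∧ Z u v ∈ iv P') : A.card ≤ 2 ^ 7 + 2 := by
  classical
  choose! g hg using fun t ht => (hA t ht).2.2.2
  have hlev : ∀ t ∈ A, P'.1 ≤ lv t := fun t ht =>
    level_le_of_size hC (cell_size h hP hna (hA t ht).1 (hA t ht).2.2.1 (hg t ht).2.1
      (hg t ht).2.2)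
  have hinj' : Set.InjOn cb' (A : Set κ) := by
    intro t ht t' ht' he
    have h1 : g t ∈ dI P'.1 (cb' t) := (hg t ht).1
    have h2 : g t' ∈ dI P'.1 (cb' t) := by rw [he]; exact (hg t' ht').1
    obtain ⟨s, hs⟩ : ∃ s, lv t = P'.1 + s := ⟨lv t - P'.1, by have := hlev t ht; omega⟩
    have h3 := L0e.dI_sub P'.1 s (cb' t)
    have h4 := h3 h1
    have h5 := h3 h2
    have h6 := (hg t ht).2.1
    rw [← hs, L0e.mem_dI] at h4 h5
    rw [L0e.mem_dI] at h6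
    have h7 : g t' ∈ dI (lv t) (cb t) := L0e.mem_dI.2 (by rw [h5, ← h4, h6])
    obtain ⟨e1, e2, e3⟩ := Mx_eq (hA t ht).1 (hA t' ht').1 (hA t ht).2.2.1 (hA t' ht').2.2.1 h7
      (hg t' ht').2.1
    refine hinj t ht t' ht' e1 e2 e3 ?_ he
    have h8 := (hA t ht).2.1
    have h9 := (hA t' ht').2.1
    rw [L0e.mem_dI] at h8 h9
    rw [← h8, ← h9]
  have h1 : A.card = (A.image cb').card := (Finset.card_image_of_injOn hinj').symm
  rw [h1]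
  refine card_diam _ (2 ^ 7 + 1) ?_
  intro x hx y hy
  obtain ⟨t, ht, rfl⟩ := Finset.mem_image.1 hx
  obtain ⟨t', ht', rfl⟩ := Finset.mem_image.1 hy
  have h2 := dI_diff (hg t ht).2.2 (hg t' ht').2.2
  rw [h.eq, h.eq] at h2
  have e : c + β * u + γ * g t - (c + β * u + γ * g t') = γ * (g t - g t') := by ring
  rw [e, abs_mul] at h2
  have h3 : 1 ≤ |γ| := Int.one_le_abs h.g0
  have h4 : |g t - g t'| < 2 ^ (P'.1 + 7) := by
    have := abs_nonneg (g t - g t')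
    nlinarith
  have h5 : g t < g t' + 2 ^ 7 * 2 ^ P'.1 := by
    have := (abs_lt.1 h4).2
    rw [pow_add] at this
    linarith
  have hp : (0 : ℤ) < 2 ^ P'.1 := by positivity
  have h6 : g t / 2 ^ P'.1 ≤ (g t' + 2 ^ 7 * 2 ^ P'.1) / 2 ^ P'.1 :=
    Int.ediv_le_ediv hp h5.le
  rw [Int.add_mul_ediv_right _ _ hp.ne'] at h6
  have h7 := (hg t ht).1
  have h8 := (hg t' ht').1
  rw [L0e.mem_dI] at h7 h8
  rw [h7, h8] at h6
  push_cast
  linarith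

section gen

variable {γ τ ι : Type} [Fintype γ] [DecidableEq γ] [Fintype τ] [DecidableEq τ]

/-- rows of a piece -/
def XR (Z : ℤ → ℤ → ℤ → ℤ) (P' : Nd) (T1 T2 : Finset ℤ) (lv : γ → ℕ) (ra cb ra' cb' : γ → ℤ)
    (z : ℤ) (c : γ) : Set ℤ :=
  {u | u ∈ dI P'.1 (ra' c) ∧ u ∈ dI (lv c) (ra c) ∧ u ∈ T1 ∧
    ∃ v ∈ dI P'.1 (cb' c), v ∈ dI (lv c) (cb c) ∧ v ∈ T2 ∧ Z z u v ∈ iv P'}

open Classical in
/-- dominating kernel of a piece -/
noncomputable def BQ (Z : ℤ → ℤ → ℤ → ℤ) (k : ℕ) (P P' : Nd) (T1 T2 : Finset ℤ) (lv : γ → ℕ)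
    (ra cb ra' cb' : γ → ℤ) (K : ι → ℤ → γ → ℤ → ℤ → ℂ) (n : ι) (z : ℤ) (c : γ) (x y : ℤ) : ℂ :=
  if x ∈ dI (lv c) (ra c) ∧ y ∈ dI (lv c) (cb c) ∧
    x ∈ {x | Mx (Z z) k P (lv c) (ra c) (cb c) ∧ x ∈ XR Z P' T1 T2 lv ra cb ra' cb' z c} ∧
    y ∈ (Set.univ : Set ℤ) then K n z c x y else 0

/-- data of the rows -/
structure FrR (Z : ℤ → ℤ → ℤ → ℤ) (S : Finset ι) (k κ0 d : ℕ) (P P' : Nd) (T0 T1 T2 : Finset ℤ)
    (lv : γ → ℕ) (ra cb ra' cb' : γ → ℤ) (Pf : ι → ℤ → γ → ℤ → τ → ℂ)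
    (K : ι → ℤ → γ → ℤ → ℤ → ℂ) (ρ r Hr : ℝ) : Prop where
  lin : ∀ z, ∃ c0 β δ, Lin (Z z) c0 β δ
  inj : ∀ t t' : γ, lv t = lv t' → ra t = ra t' → cb t = cb t' → ra' t = ra' t' →
      cb' t = cb' t' → t = t'
  sup : ∀ n ∈ S, ∀ z ∈ T0, ∀ c x y, K n z c x y ≠ 0 → x ∈ T1 ∧ y ∈ T2 ∧ Z z x y ∈ iv P'
  op : ∀ n ∈ S, ∀ z ∈ T0, ∀ c, Mx (Z z) k P (lv c) (ra c) (cb c) → ∀ m, d ≤ m → m ≤ P'.1 + κ0 →
    ∀ a b, dI m a ⊆ dI (lv c) (ra c) → dI m b ⊆ dI (lv c) (cb c) → OpC (K n z c) m a b ρ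
  maj : ∀ n ∈ S, ∀ z ∈ T0, ∀ c, Mx (Z z) k P (lv c) (ra c) (cb c) → ∀ f : ℤ → ℂ,
    ∑ l, ‖∑ x ∈ dI P'.1 (ra' c) ∩ dI (lv c) (ra c), f x * Pf n z c x l‖ ^ 2 ≤
      (r⁻¹ / 2 ^ P'.1) * ∑ y ∈ dI (lv c) (cb c),
        ‖∑ x ∈ dI P'.1 (ra' c) ∩ dI (lv c) (ra c), f x * K n z c x y‖ ^ 2
  row : ∀ n ∈ S, ∀ z ∈ T0, ∀ c, Mx (Z z) k P (lv c) (ra c) (cb c) → ∀ x ∈ dI (lv c) (ra c),
    ∑ y ∈ dI (lv c) (cb c), ‖K n z c x y‖ ^ 2 ≤ Hr * 2 ^ P'.1

variable {Z : ℤ → ℤ → ℤ → ℤ} {S : Finset ι} {k κ0 d C0 : ℕ} {P P' : Nd} {T0 T1 T2 : Finset ℤ}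
  {lv : γ → ℕ} {ra cb ra' cb' : γ → ℤ} {Pf : ι → ℤ → γ → ℤ → τ → ℂ}
  {K : ι → ℤ → γ → ℤ → ℤ → ℂ} {ρ r Hr : ℝ}

/-- the labels of a row of a piece lie in the window of the piece -/
lemma window {z : ℤ} {c0 β δ : ℤ} (hl : Lin (Z z) c0 β δ) {c : γ} {x y : ℤ}
    (hx : x ∈ XR Z P' T1 T2 lv ra cb ra' cb' z c) (hy : Z z x y ∈ iv P') :
    (cb' c - 2 ^ 8) * 2 ^ P'.1 ≤ y ∧ y < (cb' c - 2 ^ 8) * 2 ^ P'.1 + 2 ^ (P'.1 + (10 + κ0)) := by
  obtain ⟨_, _, _, v, hv, _, _, hvy⟩ := hx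
  have h2 := dI_diff hy hvy
  rw [hl.eq, hl.eq] at h2
  have e : c0 + β * x + δ * y - (c0 + β * x + δ * v) = δ * (y - v) := by ring
  rw [e, abs_mul] at h2
  have h3 : 1 ≤ |δ| := Int.one_le_abs hl.g0
  have h4 : |y - v| < 2 ^ (P'.1 + 7) := by
    have := abs_nonneg (y - v)
    nlinarith
  rw [abs_lt, pow_add] at h4
  unfold dI at hv
  rw [Finset.mem_Ico] at hv
  have hp : (0 : ℤ) < 2 ^ P'.1 := by positivity
  have hk : (1 : ℤ) ≤ 2 ^ κ0 := one_le_pow₀ (by norm_num)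
  have e2 : (2 : ℤ) ^ (P'.1 + (10 + κ0)) = 2 ^ P'.1 * (1024 * 2 ^ κ0) := by
    rw [pow_add, pow_add]; norm_num
  rw [e2]
  constructor
  · nlinarith [h4.1, hv.1]
  · nlinarith [h4.2, hv.2, mul_le_mul_of_nonneg_left hk hp.le]

open Classical in
/-- **frames of the rows** -/
theorem FrR.cellFr (H : FrR Z S k κ0 d P P' T0 T1 T2 lv ra cb ra' cb' Pf K ρ r Hr) (hr : 0 < r)
    (hC : 1 ≤ C0) (hP : iv P' ⊆ iv P) (hna : ¬ Adj C0 P P') {U : ι → ℤ → ℤ → γ × τ → ℂ}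
    (hU : ∀ n z x c l, U n z x (c, l) =
      if Mx (Z z) k P (lv c) (ra c) (cb c) ∧ x ∈ XR Z P' T1 T2 lv ra cb ra' cb' z c then
        Pf n z c x l else 0) :
    CellFr S T0 T1 (fun _ => P'.1 + (10 + κ0)) (fun c => (cb' c - 2 ^ 8) * 2 ^ P'.1)
      (BQ Z k P P' T1 T2 lv ra cb ra' cb' K) U (2 ^ (10 + κ0) * r⁻¹) (2 ^ 7 + 2) := by
  classical
  refine ⟨by positivity, by positivity, ?_, ?_, ?_, ?_⟩
  · intro n hn z hz c q N f
    by_cases hM : Mx (Z z) k P (lv c) (ra c) (cb c)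
    · set g : ℤ → ℂ := fun x => (if q ≤ x ∧ x < q + N then f (x - q).toNat else 0) with hg
      set g' : ℤ → ℂ := fun x => if x ∈ XR Z P' T1 T2 lv ra cb ra' cb' z c then g x else 0 with hg'
      set D0 := dI P'.1 (ra' c) ∩ dI (lv c) (ra c) with hD0
      have hXD : ∀ x, x ∈ XR Z P' T1 T2 lv ra cb ra' cb' z c → x ∈ D0 := fun x hx =>
        Finset.mem_inter.2 ⟨hx.1, hx.2.1⟩
      have e1 : ∀ l, ∑ i ∈ range N, f i * mU T0 T1 (U n) z (q + (i : ℤ)) (c, l) =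
          ∑ x ∈ D0, g' x * Pf n z c x l := by
        intro l
        rw [sum_range_rows f (fun x => mU T0 T1 (U n) z x (c, l)) D0 q N]
        · refine Finset.sum_congr rfl fun x _ => ?_
          show g x * mU T0 T1 (U n) z x (c, l) = g' x * Pf n z c x l
          by_cases hX : x ∈ XR Z P' T1 T2 lv ra cb ra' cb' z c
          · unfold mU
            rw [if_pos ⟨hz, hX.2.2.1⟩, hU, if_pos ⟨hM, hX⟩, hg']
            simp only [if_pos hX]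
          · have : mU T0 T1 (U n) z x (c, l) = 0 := by
              unfold mU
              split_ifs
              · rw [hU, if_neg (fun hc => hX hc.2)]
              · rfl
            rw [this, hg']
            simp only [if_neg hX]
            ring
        · intro x hx
          show mU T0 T1 (U n) z x (c, l) = 0
          unfold mU
          split_ifs
          · rw [hU, if_neg (fun hc => hx (hXD x hc.2))]
          · rfl
      have e2 : ∀ y ∈ dI (lv c) (cb c),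
          ∑ i ∈ range N, f i * BQ Z k P P' T1 T2 lv ra cb ra' cb' K n z c (q + (i : ℤ)) y =
          ∑ x ∈ D0, g' x * K n z c x y := by
        intro y hy
        rw [sum_range_rows f (fun x => BQ Z k P P' T1 T2 lv ra cb ra' cb' K n z c x y) D0 q N]
        · refine Finset.sum_congr rfl fun x hx => ?_
          show g x * BQ Z k P P' T1 T2 lv ra cb ra' cb' K n z c x y = g' x * K n z c x y
          unfold BQ
          by_cases hX : x ∈ XR Z P' T1 T2 lv ra cb ra' cb' z c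
          · rw [if_pos ⟨hX.2.1, hy, ⟨hM, hX⟩, Set.mem_univ _⟩, hg']
            simp only [if_pos hX]
          · rw [if_neg (fun hc => hX hc.2.2.1.2), hg']
            simp only [if_neg hX]
            ring
        · intro x hx
          show BQ Z k P P' T1 T2 lv ra cb ra' cb' K n z c x y = 0
          unfold BQ
          rw [if_neg (fun hc => hx (hXD x hc.2.2.1.2))]
      have e3 : ∑ l, ‖∑ i ∈ range N, f i * mU T0 T1 (U n) z (q + (i : ℤ)) (c, l)‖ ^ 2 =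
          ∑ l, ‖∑ x ∈ D0, g' x * Pf n z c x l‖ ^ 2 :=
        Finset.sum_congr rfl fun l _ => by rw [e1 l]
      rw [e3]
      refine (H.maj n hn z hz c hM g').trans ?_
      have e4 : r⁻¹ / 2 ^ P'.1 = 2 ^ (10 + κ0) * r⁻¹ / 2 ^ (P'.1 + (10 + κ0)) := by
        rw [pow_add (2 : ℝ) P'.1, mul_comm ((2 : ℝ) ^ (10 + κ0)) r⁻¹,
          mul_div_mul_right _ _ (by positivity)]
      rw [e4]
      refine mul_le_mul_of_nonneg_left ?_ (by positivity)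
      obtain ⟨c0, β, δ, hl⟩ := H.lin z
      have e5 : ∑ y ∈ dI (lv c) (cb c), ‖∑ x ∈ D0, g' x * K n z c x y‖ ^ 2 =
          ∑ y ∈ (dI (lv c) (cb c)).filter (fun y => (cb' c - 2 ^ 8) * 2 ^ P'.1 ≤ y ∧
            y < (cb' c - 2 ^ 8) * 2 ^ P'.1 + 2 ^ (P'.1 + (10 + κ0))),
            ‖∑ x ∈ D0, g' x * K n z c x y‖ ^ 2 := by
        symm
        refine Finset.sum_subset (Finset.filter_subset _ _) fun y hy hy' => ?_
        rw [Finset.sum_eq_zero, norm_zero, zero_pow two_ne_zero]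
        intro x _
        by_contra hne
        have hx : x ∈ XR Z P' T1 T2 lv ra cb ra' cb' z c := by
          by_contra hX
          apply hne
          rw [hg']
          simp only [if_neg hX, zero_mul]
        have hK : K n z c x y ≠ 0 := fun h0 => hne (by rw [h0, mul_zero])
        exact hy' (Finset.mem_filter.2 ⟨hy, window (κ0 := κ0) hl hx (H.sup n hn z hz c x y hK).2.2⟩)
      rw [e5]
      refine (Finset.sum_le_sum_of_subset_of_nonneg (t := Ico ((cb' c - 2 ^ 8) * 2 ^ P'.1)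
        ((cb' c - 2 ^ 8) * 2 ^ P'.1 + 2 ^ (P'.1 + (10 + κ0)))) (f := fun y =>
        if y ∈ dI (lv c) (cb c) then ‖∑ x ∈ D0, g' x * K n z c x y‖ ^ 2 else 0)
        (s := (dI (lv c) (cb c)).filter (fun y => (cb' c - 2 ^ 8) * 2 ^ P'.1 ≤ y ∧
            y < (cb' c - 2 ^ 8) * 2 ^ P'.1 + 2 ^ (P'.1 + (10 + κ0)))) ?_ ?_).trans' ?_ |>.trans ?_
      · intro y hy
        exact Finset.mem_Ico.2 (Finset.mem_filter.1 hy).2
      · intro y _ _
        split_ifs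
        · exact sq_nonneg _
        · exact le_rfl
      · refine Finset.sum_le_sum fun y hy => ?_
        rw [if_pos (Finset.mem_filter.1 hy).1]
      · refine Finset.sum_le_sum fun y _ => ?_
        by_cases hy : y ∈ dI (lv c) (cb c)
        · rw [if_pos hy, e2 y hy]
        · rw [if_neg hy]
          exact sq_nonneg _
    · have e1 : ∀ l, ∑ i ∈ range N, f i * mU T0 T1 (U n) z (q + (i : ℤ)) (c, l) = 0 := by
        intro l
        refine Finset.sum_eq_zero fun i _ => ?_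
        unfold mU
        split_ifs
        · rw [hU, if_neg (fun hc => hM hc.1), mul_zero]
        · rw [mul_zero]
      rw [Finset.sum_eq_zero fun l _ => by rw [e1 l, norm_zero]; norm_num]
      positivity
  · intro n hn z hz c y hy x
    by_contra hne
    unfold BQ at hne
    split_ifs at hne with hc
    · obtain ⟨c0, β, δ, hl⟩ := H.lin z
      exact hy (window (κ0 := κ0) hl hc.2.2.1.2 (H.sup n hn z hz c x y hne).2.2)
    · exact hne rfl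
  · intro n _ z _ c x hx y
    unfold BQ
    rw [if_neg (fun hc => hx hc.2.2.1.2.2.2.1)]
  · intro n _ z hz x
    refine ⟨Finset.univ.filter (fun c => Mx (Z z) k P (lv c) (ra c) (cb c) ∧
      x ∈ XR Z P' T1 T2 lv ra cb ra' cb' z c), ?_, ?_⟩
    · obtain ⟨c0, β, δ, hl⟩ := H.lin z
      have h1 := piece_card hl hC hP hna x (Finset.univ.filter (fun c : γ =>
        Mx (Z z) k P (lv c) (ra c) (cb c) ∧ x ∈ XR Z P' T1 T2 lv ra cb ra' cb' z c))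
        lv ra cb ra' cb' (fun t _ t' _ => H.inj t t') (by
          intro t ht
          obtain ⟨_, h2, h3⟩ := Finset.mem_filter.1 ht
          obtain ⟨h4, h5, _, v, h6, h7, _, h8⟩ := h3
          exact ⟨h2, h4, h5, v, h6, h7, h8⟩)
      have h2 : (((Finset.univ.filter (fun c : γ => Mx (Z z) k P (lv c) (ra c) (cb c) ∧
        x ∈ XR Z P' T1 T2 lv ra cb ra' cb' z c)).card : ℕ) : ℝ) ≤ ((2 ^ 7 + 2 : ℕ) : ℝ) := by
        exact_mod_cast h1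
      refine h2.trans (le_of_eq ?_)
      push_cast
      ring
    · intro c hc l
      unfold mU
      split_ifs
      · rw [hU, if_neg (fun h => hc (Finset.mem_filter.2 ⟨Finset.mem_univ _, h.1, h.2⟩))]
      · rfl

/-- the level of a cell which is seen -/
lemma seen_lev {z : ℤ} {c0 β δ : ℤ} (hl : Lin (Z z) c0 β δ) (hC : 2 ^ κ0 ≤ C0)
    (hP : iv P' ⊆ iv P) (hna : ¬ Adj C0 P P') {c : γ} (hM : Mx (Z z) k P (lv c) (ra c) (cb c))
    {x : ℤ} (hx : x ∈ XR Z P' T1 T2 lv ra cb ra' cb' z c) : P'.1 + κ0 ≤ lv c := by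
  obtain ⟨_, h1, _, v, _, h2, _, h3⟩ := hx
  have h4 := cell_size hl hP hna hM h1 h2 h3
  exact level_add_le hC h4

/-- **operator bounds of the dominating kernels** -/
theorem FrR.opS (H : FrR Z S k κ0 d P P' T0 T1 T2 lv ra cb ra' cb' Pf K ρ r Hr) (hρ : 0 ≤ ρ)
    (hC : 2 ^ κ0 ≤ C0) (hP : iv P' ⊆ iv P) (hna : ¬ Adj C0 P P') {n : ι} (hn : n ∈ S) {z : ℤ}
    (hz : z ∈ T0) (c : γ) {m : ℕ} (hdm : d ≤ m) (hm : m ≤ P'.1 + κ0) (i i' : ℤ) :
    OpS (dI m i) (dI m i') (BQ Z k P P' T1 T2 lv ra cb ra' cb' K n z c) (ρ * 2 ^ m) := by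
  classical
  by_cases hX : Mx (Z z) k P (lv c) (ra c) (cb c) ∧ ∃ x, x ∈ XR Z P' T1 T2 lv ra cb ra' cb' z c
  · obtain ⟨hM, x0, hx0⟩ := hX
    obtain ⟨c0, β, δ, hl⟩ := H.lin z
    have h1 := seen_lev hl hC hP hna hM hx0
    have h2 := masked_op (K := K n z c) (a := ra c) (b := cb c) hρ (hm.trans h1)
      (fun i i' h1 h2 => H.op n hn z hz c hM m hdm hm i i' h1 h2)
      {x | Mx (Z z) k P (lv c) (ra c) (cb c) ∧ x ∈ XR Z P' T1 T2 lv ra cb ra' cb' z c}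
      (Set.univ : Set ℤ) i i'
    refine PjC881.opS_congr h2 fun x _ y _ => ?_
    unfold BQ
    by_cases hc : x ∈ dI (lv c) (ra c) ∧ y ∈ dI (lv c) (cb c) ∧
      x ∈ {x | Mx (Z z) k P (lv c) (ra c) (cb c) ∧ x ∈ XR Z P' T1 T2 lv ra cb ra' cb' z c} ∧
      y ∈ (Set.univ : Set ℤ)
    · rw [if_pos hc]
    · rw [if_neg hc]
  · intro f
    have e0 : ∀ x ∈ dI m i, ∑ y ∈ dI m i', BQ Z k P P' T1 T2 lv ra cb ra' cb' K n z c x y * f y =
        0 := by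
      intro x _
      refine Finset.sum_eq_zero fun y _ => ?_
      unfold BQ
      rw [if_neg (fun hc => hX ⟨hc.2.2.1.1, x, hc.2.2.1.2⟩), zero_mul]
    rw [Finset.sum_eq_zero fun x hx => by rw [e0 x hx, norm_zero, zero_pow two_ne_zero]]
    positivity

/-- rows of the dominating kernels -/
theorem FrR.rows (H : FrR Z S k κ0 d P P' T0 T1 T2 lv ra cb ra' cb' Pf K ρ r Hr) (hHr : 0 ≤ Hr)
    {n : ι} (hn : n ∈ S) {z : ℤ} (hz : z ∈ T0) (c : γ) (x : ℤ) (W : Finset ℤ) :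
    ∑ y ∈ W, ‖BQ Z k P P' T1 T2 lv ra cb ra' cb' K n z c x y‖ ^ 2 ≤
      Hr * 2 ^ (P'.1 + (10 + κ0)) := by
  classical
  by_cases hX : x ∈ dI (lv c) (ra c) ∧ Mx (Z z) k P (lv c) (ra c) (cb c)
  · have h1 : ∑ y ∈ W, ‖BQ Z k P P' T1 T2 lv ra cb ra' cb' K n z c x y‖ ^ 2 ≤
        ∑ y ∈ dI (lv c) (cb c), ‖K n z c x y‖ ^ 2 := by
      have h2 : ∑ y ∈ W, ‖BQ Z k P P' T1 T2 lv ra cb ra' cb' K n z c x y‖ ^ 2 =
          ∑ y ∈ W.filter (fun y => y ∈ dI (lv c) (cb c)),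
            ‖BQ Z k P P' T1 T2 lv ra cb ra' cb' K n z c x y‖ ^ 2 := by
        symm
        refine Finset.sum_subset (Finset.filter_subset _ _) fun y hy hy' => ?_
        unfold BQ
        rw [if_neg (fun hc => hy' (Finset.mem_filter.2 ⟨hy, hc.2.1⟩)), norm_zero,
          zero_pow two_ne_zero]
      rw [h2]
      refine (Finset.sum_le_sum (g := fun y => ‖K n z c x y‖ ^ 2) fun y _ => ?_).trans
        (Finset.sum_le_sum_of_subset_of_nonneg ?_ fun _ _ _ => sq_nonneg _)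
      · unfold BQ
        split_ifs
        · exact le_rfl
        · rw [norm_zero, zero_pow two_ne_zero]; exact sq_nonneg _
      · intro y hy
        exact (Finset.mem_filter.1 hy).2
    refine h1.trans ((H.row n hn z hz c hX.2 x hX.1).trans ?_)
    refine mul_le_mul_of_nonneg_left ?_ hHr
    exact pow_le_pow_right₀ (by norm_num) (Nat.le_add_right _ _)
  · rw [Finset.sum_eq_zero]
    · positivity
    · intro y _
      unfold BQ
      rw [if_neg (fun hc => hX ⟨hc.1, hc.2.2.1.1⟩), norm_zero, zero_pow two_ne_zero]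

/-- **energy of the dominating kernels**, one position -/
theorem en_le {z : ℤ} {c0 β δ : ℤ} (hl : Lin (Z z) c0 β δ)
    (hinj : ∀ t t' : γ, lv t = lv t' → ra t = ra t' → cb t = cb t' → ra' t = ra' t' →
      cb' t = cb' t' → t = t') (hC : 1 ≤ C0) (hP : iv P' ⊆ iv P) (hna : ¬ Adj C0 P P')
    {θ : Type} [DecidableEq θ] (ty : γ → θ) (lvt : θ → ℕ) (rat cbt : θ → ℤ)
    (h1 : ∀ c, lv c = lvt (ty c)) (h2 : ∀ c, ra c = rat (ty c)) (h3 : ∀ c, cb c = cbt (ty c))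
    {n : ι} (K' : θ → ℤ → ℤ → ℂ) (hK : ∀ c, K n z c = K' (ty c)) (TT : Finset θ)
    (hTT : ∀ c, Mx (Z z) k P (lv c) (ra c) (cb c) →
      (∃ x, x ∈ XR Z P' T1 T2 lv ra cb ra' cb' z c) → ty c ∈ TT) (W : γ → Finset ℤ) :
    ∑ c, ∑ x ∈ T1, ∑ y ∈ W c, ‖BQ Z k P P' T1 T2 lv ra cb ra' cb' K n z c x y‖ ^ 2 ≤
      (2 ^ 7 + 2) * ∑ t ∈ TT, ∑ x ∈ dI (lvt t) (rat t), ∑ y ∈ dI (lvt t) (cbt t),
        ‖K' t x y‖ ^ 2 := by
  classical
  set g : θ → ℤ → ℝ := fun t x => ∑ y ∈ dI (lvt t) (cbt t), ‖K' t x y‖ ^ 2 with hg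
  have hg0 : ∀ t x, 0 ≤ g t x := fun t x => Finset.sum_nonneg fun _ _ => sq_nonneg _
  set A : ℤ → Finset γ := fun x => Finset.univ.filter (fun c =>
    Mx (Z z) k P (lv c) (ra c) (cb c) ∧ x ∈ XR Z P' T1 T2 lv ra cb ra' cb' z c) with hA
  have hcard : ∀ x, (A x).card ≤ 2 ^ 7 + 2 := by
    intro x
    refine piece_card (k := k) hl hC hP hna x (A x) lv ra cb ra' cb'
      (fun _ _ _ _ => hinj _ _) ?_
    intro t ht
    obtain ⟨_, h2, h3⟩ := Finset.mem_filter.1 ht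
    obtain ⟨h4, h5, _, v, h6, h7, _, h8⟩ := h3
    exact ⟨h2, h4, h5, v, h6, h7, h8⟩
  have hB : ∀ c x, ∑ y ∈ W c, ‖BQ Z k P P' T1 T2 lv ra cb ra' cb' K n z c x y‖ ^ 2 ≤
      if c ∈ A x then g (ty c) x else 0 := by
    intro c x
    by_cases hc : c ∈ A x
    · rw [if_pos hc]
      have h4 : ∑ y ∈ W c, ‖BQ Z k P P' T1 T2 lv ra cb ra' cb' K n z c x y‖ ^ 2 =
          ∑ y ∈ (W c).filter (fun y => y ∈ dI (lv c) (cb c)),
            ‖BQ Z k P P' T1 T2 lv ra cb ra' cb' K n z c x y‖ ^ 2 := by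
        symm
        refine Finset.sum_subset (Finset.filter_subset _ _) fun y hy hy' => ?_
        unfold BQ
        rw [if_neg (fun hc => hy' (Finset.mem_filter.2 ⟨hy, hc.2.1⟩)), norm_zero,
          zero_pow two_ne_zero]
      rw [h4, hg]
      show _ ≤ ∑ y ∈ dI (lvt (ty c)) (cbt (ty c)), ‖K' (ty c) x y‖ ^ 2
      rw [← h1 c, ← h3 c, ← hK c]
      refine (Finset.sum_le_sum (g := fun y => ‖K n z c x y‖ ^ 2) fun y _ => ?_).trans
        (Finset.sum_le_sum_of_subset_of_nonneg ?_ fun _ _ _ => sq_nonneg _)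
      · unfold BQ
        split_ifs
        · exact le_rfl
        · rw [norm_zero, zero_pow two_ne_zero]; exact sq_nonneg _
      · intro y hy
        exact (Finset.mem_filter.1 hy).2
    · rw [if_neg hc, Finset.sum_eq_zero]
      intro y _
      unfold BQ
      rw [if_neg (fun h => hc (Finset.mem_filter.2 ⟨Finset.mem_univ _, h.2.2.1.1, h.2.2.1.2⟩)),
        norm_zero, zero_pow two_ne_zero]
  have hrow : ∀ x, ∑ c, (if c ∈ A x then g (ty c) x else 0) ≤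
      (2 ^ 7 + 2) * ∑ t ∈ TT, (if x ∈ dI (lvt t) (rat t) then g t x else 0) := by
    intro x
    rw [← Finset.sum_filter]
    have e0 : Finset.univ.filter (fun c => c ∈ A x) = A x := by
      ext c; simp
    rw [e0]
    have e1 : ∑ c ∈ A x, g (ty c) x ≤ (2 ^ 7 + 2) * ∑ t ∈ (A x).image ty, g t x := by
      rw [← Finset.sum_fiberwise_of_maps_to (t := (A x).image ty)
        (fun c hc => Finset.mem_image_of_mem ty hc), Finset.mul_sum]
      refine Finset.sum_le_sum fun t _ => ?_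
      have e2 : ∑ c ∈ (A x).filter (fun c => ty c = t), g (ty c) x =
          ((A x).filter (fun c => ty c = t)).card * g t x := by
        rw [Finset.sum_congr rfl fun c hc => by rw [(Finset.mem_filter.1 hc).2], Finset.sum_const,
          nsmul_eq_mul]
      rw [e2]
      refine mul_le_mul_of_nonneg_right ?_ (hg0 t x)
      have h5 : ((A x).filter (fun c => ty c = t)).card ≤ 2 ^ 7 + 2 :=
        (Finset.card_filter_le _ _).trans (hcard x)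
      have h6 : ((((A x).filter (fun c => ty c = t)).card : ℕ) : ℝ) ≤ ((2 ^ 7 + 2 : ℕ) : ℝ) := by
        exact_mod_cast h5
      refine h6.trans (le_of_eq ?_)
      push_cast
      ring
    refine e1.trans (mul_le_mul_of_nonneg_left ?_ (by norm_num))
    rw [← Finset.sum_filter]
    refine Finset.sum_le_sum_of_subset_of_nonneg ?_ fun t _ _ => hg0 t x
    intro t ht
    obtain ⟨c, hc, rfl⟩ := Finset.mem_image.1 ht
    obtain ⟨_, h5, h6⟩ := Finset.mem_filter.1 hc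
    refine Finset.mem_filter.2 ⟨hTT c h5 ⟨x, h6⟩, ?_⟩
    rw [← h1 c, ← h2 c]
    exact h6.2.1
  calc ∑ c, ∑ x ∈ T1, ∑ y ∈ W c, ‖BQ Z k P P' T1 T2 lv ra cb ra' cb' K n z c x y‖ ^ 2
      ≤ ∑ c, ∑ x ∈ T1, (if c ∈ A x then g (ty c) x else 0) :=
        Finset.sum_le_sum fun c _ => Finset.sum_le_sum fun x _ => hB c x
    _ = ∑ x ∈ T1, ∑ c, (if c ∈ A x then g (ty c) x else 0) := Finset.sum_comm
    _ ≤ ∑ x ∈ T1, (2 ^ 7 + 2) * ∑ t ∈ TT, (if x ∈ dI (lvt t) (rat t) then g t x else 0) :=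
        Finset.sum_le_sum fun x _ => hrow x
    _ = (2 ^ 7 + 2) * ∑ t ∈ TT, ∑ x ∈ T1, (if x ∈ dI (lvt t) (rat t) then g t x else 0) := by
        rw [← Finset.mul_sum, Finset.sum_comm]
    _ ≤ _ := by
        refine mul_le_mul_of_nonneg_left (Finset.sum_le_sum fun t _ => ?_) (by norm_num)
        rw [← Finset.sum_filter]
        refine Finset.sum_le_sum_of_subset_of_nonneg ?_ fun x _ _ => hg0 t x
        intro x hx
        exact (Finset.mem_filter.1 hx).2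

open Classical in
/-- **numbers**: trace, diagonal, `HSk` -/
theorem FrR.num (H : FrR Z S k κ0 d P P' T0 T1 T2 lv ra cb ra' cb' Pf K ρ r Hr) (hr : 0 < r)
    (hρ : 0 ≤ ρ) (hHr : 0 ≤ Hr) (hC : 2 ^ κ0 ≤ C0) (hP : iv P' ⊆ iv P) (hna : ¬ Adj C0 P P')
    {R : Finset Nd} (hR : ∀ p ∈ R, p.1 ≤ P'.1) (hRd : ∀ p ∈ R, d ≤ p.1) {kap : ι → ℝ}
    (hkap : ∀ n ∈ S, 0 ≤ kap n) {G : ℝ} (hG : 0 ≤ G)
    (hE : ∑ n ∈ S, kap n * ∑ z ∈ T0, ∑ c, ∑ x ∈ T1,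
      ∑ y ∈ Ico ((cb' c - 2 ^ 8) * 2 ^ P'.1) ((cb' c - 2 ^ 8) * 2 ^ P'.1 + 2 ^ (P'.1 + (10 + κ0))),
      ‖BQ Z k P P' T1 T2 lv ra cb ra' cb' K n z c x y‖ ^ 2 ≤ (2 ^ 7 + 2) * (G * 2 ^ P'.1))
    {U : ι → ℤ → ℤ → γ × τ → ℂ}
    (hU : ∀ n z x c l, U n z x (c, l) =
      if Mx (Z z) k P (lv c) (ra c) (cb c) ∧ x ∈ XR Z P' T1 T2 lv ra cb ra' cb' z c then
        Pf n z c x l else 0) :
    (∑ n ∈ S, kap n * ∑ z ∈ T0, ∑ x ∈ T1, kD T0 T1 (U n) z x ≤ 2 ^ (10 + κ0) * r⁻¹ * G) ∧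
    (∀ n ∈ S, ∀ z x, kD T0 T1 (U n) z x ≤ (2 ^ 7 + 2) * (2 ^ (10 + κ0) * r⁻¹ * Hr)) ∧
    HSk S kap R κ0 ((2 ^ 7 + 2) * (8 * (2 ^ (10 + κ0) * r⁻¹ * ρ) ^ 2) * G) T0 T1 U := by
  have hC1 : 1 ≤ C0 := le_trans (Nat.one_le_two_pow) hC
  have F := H.cellFr hr hC1 hP hna hU
  have hGE : GE S kap T0 T1 (fun _ : γ => P'.1 + (10 + κ0))
      (fun c => (cb' c - 2 ^ 8) * 2 ^ P'.1) (BQ Z k P P' T1 T2 lv ra cb ra' cb' K) ≤ G := by
    have e1 : GE S kap T0 T1 (fun _ : γ => P'.1 + (10 + κ0))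
        (fun c => (cb' c - 2 ^ 8) * 2 ^ P'.1) (BQ Z k P P' T1 T2 lv ra cb ra' cb' K) =
        (1 / (2 : ℝ) ^ (P'.1 + (10 + κ0))) * ∑ n ∈ S, kap n * ∑ z ∈ T0, ∑ c, ∑ x ∈ T1,
        ∑ y ∈ Ico ((cb' c - 2 ^ 8) * 2 ^ P'.1)
          ((cb' c - 2 ^ 8) * 2 ^ P'.1 + 2 ^ (P'.1 + (10 + κ0))),
        ‖BQ Z k P P' T1 T2 lv ra cb ra' cb' K n z c x y‖ ^ 2 := by
      unfold GE
      rw [Finset.mul_sum]
      refine Finset.sum_congr rfl fun n _ => ?_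
      rw [mul_left_comm]
      congr 1
      rw [Finset.mul_sum]
      refine Finset.sum_congr rfl fun z _ => ?_
      rw [Finset.mul_sum]
    rw [e1]
    refine (mul_le_mul_of_nonneg_left hE (by positivity)).trans ?_
    have h2 : (2 ^ 7 + 2 : ℝ) ≤ 2 ^ (10 + κ0) := by
      have h3 : (2 : ℝ) ^ 10 ≤ 2 ^ (10 + κ0) :=
        pow_le_pow_right₀ (by norm_num) (Nat.le_add_right _ _)
      linarith
    have h4 : (1 / (2 : ℝ) ^ (P'.1 + (10 + κ0))) * ((2 ^ 7 + 2) * (G * 2 ^ P'.1)) =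
        (2 ^ 7 + 2) / 2 ^ (10 + κ0) * G := by
      rw [pow_add (2 : ℝ) P'.1]
      field_simp
    rw [h4]
    have h5 : (2 ^ 7 + 2 : ℝ) / 2 ^ (10 + κ0) ≤ 1 := (div_le_one (by positivity)).2 h2
    calc (2 ^ 7 + 2 : ℝ) / 2 ^ (10 + κ0) * G ≤ 1 * G := mul_le_mul_of_nonneg_right h5 hG
      _ = G := one_mul G
  refine ⟨?_, ?_, ?_⟩
  · exact (F.trace hkap).trans (mul_le_mul_of_nonneg_left hGE (by positivity))
  · intro n hn z x
    refine F.kD_le hHr ?_ hn z x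
    intro n hn z hz c x
    exact H.rows hHr hn hz c x _
  · have h1 := F.hsk (R := R) (κ0 := κ0) (ρ := ρ) hkap (fun c p hp => by
        have := hR p hp
        show p.1 + κ0 ≤ P'.1 + (10 + κ0)
        omega) (by
        intro n hn z hz c p hp k' hk' i i'
        have h2 := hR p hp
        have h3 := hRd p hp
        exact H.opS hρ hC hP hna hn hz c (by omega) (by omega) i i')
    intro p hp k' hk' Λ
    exact (h1 p hp k' hk' Λ).trans (mul_le_mul_of_nonneg_left hGE (by positivity))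

end gen

/-! ### the instance -/

open Classical in
/-- pieces: (type of the cell of `P`, (row block, column block)) met by the strip of `P'` -/
noncomputable def GQ (j : Fin 4) (e : Fin 3) (k : ℕ) (P P' : Nd) (T : Fin 3 → Finset ℤ) :
    Finset ((ℕ × ℤ × ℤ) × (ℤ × ℤ)) :=
  ((S3 T e).filter (fun ω => Yl j e ω.1 ω.2.1 ω.2.2 ∈ iv P')).image (fun ω =>
    (tcell j e k P ω.1 ω.2.1 ω.2.2, (ω.2.1 / 2 ^ P'.1, ω.2.2 / 2 ^ P'.1)))

section inst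

variable {ι τ : Type} [Fintype τ] [DecidableEq τ] {j : Fin 4} {e : Fin 3} {k κ0 d C0 : ℕ}
  {P P' : Nd} {T : Fin 3 → Finset ℤ} {S : Finset ι} {kap : ι → ℝ} {R : Finset Nd}
  {Pf Qf : ι → ℤ → ℕ × ℤ × ℤ → ℤ → τ → ℂ} {CU CW : ι → ℤ → ℕ × ℤ × ℤ → ℤ → ℤ → ℂ}
  {ρ r Hr G : ℝ}

/-- rows of a piece -/
def XU (j : Fin 4) (e : Fin 3) (k : ℕ) (P P' : Nd) (T : Fin 3 → Finset ℤ) (z : ℤ)
    (c : {c // c ∈ GQ j e k P P' T}) : Set ℤ :=
  XR (Yl j e) P' (T (e + 1)) (T (e + 2)) (fun c : {c // c ∈ GQ j e k P P' T} => c.1.1.1)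
    (fun c => c.1.1.2.1) (fun c => c.1.1.2.2) (fun c => c.1.2.1) (fun c => c.1.2.2) z c

/-- columns of a piece -/
def XW (j : Fin 4) (e : Fin 3) (k : ℕ) (P P' : Nd) (T : Fin 3 → Finset ℤ) (z : ℤ)
    (c : {c // c ∈ GQ j e k P P' T}) : Set ℤ :=
  XR (fun z v u => Yl j e z u v) P' (T (e + 2)) (T (e + 1))
    (fun c : {c // c ∈ GQ j e k P P' T} => c.1.1.1)
    (fun c => c.1.1.2.2) (fun c => c.1.1.2.1) (fun c => c.1.2.2) (fun c => c.1.2.1) z c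

open Classical in
/-- labelled kernel of the edge `(z, u)` -/
noncomputable def lU (j : Fin 4) (e : Fin 3) (k : ℕ) (P P' : Nd) (T : Fin 3 → Finset ℤ)
    (Pf : ι → ℤ → ℕ × ℤ × ℤ → ℤ → τ → ℂ) (w : ι) (z u : ℤ)
    (l : {c // c ∈ GQ j e k P P' T} × τ) : ℂ :=
  if Mx (Yl j e z) k P l.1.1.1.1 l.1.1.1.2.1 l.1.1.1.2.2 ∧ u ∈ XU j e k P P' T z l.1 then
    Pf w z l.1.1.1 u l.2 else 0

open Classical in
/-- labelled kernel of the edge `(v, z)` -/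
noncomputable def lW (j : Fin 4) (e : Fin 3) (k : ℕ) (P P' : Nd) (T : Fin 3 → Finset ℤ)
    (Qf : ι → ℤ → ℕ × ℤ × ℤ → ℤ → τ → ℂ) (w : ι) (v z : ℤ)
    (l : {c // c ∈ GQ j e k P P' T} × τ) : ℂ :=
  if Mx (fun v u => Yl j e z u v) k P l.1.1.1.1 l.1.1.1.2.2 l.1.1.1.2.1 ∧
    v ∈ XW j e k P P' T z l.1 then Qf w z l.1.1.1 v l.2 else 0

/-- **the labels reproduce the kernel** -/
theorem lab_eqQ (hP : iv P' ⊆ iv P) (w : ι) {z u v : ℤ} (hz : z ∈ T e) (hu : u ∈ T (e + 1))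
    (hv : v ∈ T (e + 2)) (hy : Yl j e z u v ∈ iv P') :
    ∑ l, lU j e k P P' T Pf w z u l * lW j e k P P' T Qf w v z l =
      ∑ l, Pf w z (tcell j e k P z u v) u l * Qf w z (tcell j e k P z u v) v l := by
  classical
  set t0 := tcell j e k P z u v with ht0
  have hM0 : Mx (Yl j e z) k P t0.1 t0.2.1 t0.2.2 := Mx_mcell (hP hy)
  have hu0 : u ∈ dI t0.1 t0.2.1 := by rw [L0e.mem_dI]; rfl
  have hv0 : v ∈ dI t0.1 t0.2.2 := by rw [L0e.mem_dI]; rfl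
  have hu1 : u ∈ dI P'.1 (u / 2 ^ P'.1) := L0e.mem_dI.2 rfl
  have hv1 : v ∈ dI P'.1 (v / 2 ^ P'.1) := L0e.mem_dI.2 rfl
  have hc0 : (t0, (u / 2 ^ P'.1, v / 2 ^ P'.1)) ∈ GQ j e k P P' T := by
    unfold GQ
    refine Finset.mem_image.2 ⟨(z, u, v), Finset.mem_filter.2 ⟨mem_S3.2 ⟨hz, hu, hv⟩, hy⟩, rfl⟩
  rw [Fintype.sum_prod_type, Finset.sum_eq_single
    (⟨(t0, (u / 2 ^ P'.1, v / 2 ^ P'.1)), hc0⟩ : {c // c ∈ GQ j e k P P' T})]
  · refine Finset.sum_congr rfl fun l _ => ?_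
    unfold lU lW
    rw [if_pos ⟨hM0, hu1, hu0, hu, v, hv1, hv0, hv, hy⟩,
      if_pos ⟨Mx.swap hM0, hv1, hv0, hv, u, hu1, hu0, hu, hy⟩]
  · intro c _ hc
    refine Finset.sum_eq_zero fun l _ => ?_
    unfold lU lW
    by_cases h1 : Mx (Yl j e z) k P c.1.1.1 c.1.1.2.1 c.1.1.2.2 ∧ u ∈ XU j e k P P' T z c
    · by_cases h2 : Mx (fun v u => Yl j e z u v) k P c.1.1.1 c.1.1.2.2 c.1.1.2.1 ∧
          v ∈ XW j e k P P' T z c
      · exfalso
        apply hc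
        obtain ⟨a1, a2, a3⟩ := Mx_eq h1.1 hM0 h1.2.2.1 hu0 h2.2.2.1 hv0
        have b1 := h1.2.1
        have b2 := h2.2.1
        rw [L0e.mem_dI] at b1 b2
        refine Subtype.ext (Prod.ext (Prod.ext a1 (Prod.ext a2 a3)) (Prod.ext ?_ ?_))
        · exact b1.symm
        · exact b2.symm
      · show (if _ then _ else _) * (if _ then _ else _) = _
        rw [if_neg h2, mul_zero]
    · show (if _ then _ else _) * (if _ then _ else _) = _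
      rw [if_neg h1, zero_mul]
  · intro h
    exact absurd (Finset.mem_univ _) h

/-- rows -/
lemma FQ.rowsFr (H : FQ S kap j e k κ0 d C0 P P' T R Pf Qf CU CW ρ r Hr G) :
    FrR (Yl j e) S k κ0 d P P' (T e) (T (e + 1)) (T (e + 2))
      (fun c : {c // c ∈ GQ j e k P P' T} => c.1.1.1) (fun c => c.1.1.2.1) (fun c => c.1.1.2.2)
      (fun c => c.1.2.1) (fun c => c.1.2.2) (fun n z c => Pf n z c.1.1)
      (fun n z c => CU n z c.1.1) ρ r Hr where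
  lin z := ⟨_, _, _, lin_Yl j e z⟩
  inj _ _ h1 h2 h3 h4 h5 :=
    Subtype.ext (Prod.ext (Prod.ext h1 (Prod.ext h2 h3)) (Prod.ext h4 h5))
  sup n hn z hz c x y h := H.supU n hn z hz c.1.1 x y h
  op n hn z hz c hM m hdm hm a b ha hb := H.opU n hn z hz c.1.1 hM m hdm hm a b ha hb
  maj n hn z hz c hM f := H.majU n hn z hz c.1.1 hM c.1.2.1 f
  row n hn z hz c hM x hx := H.rowU n hn z hz c.1.1 hM x hx

/-- columns -/
lemma FQ.colsFr (H : FQ S kap j e k κ0 d C0 P P' T R Pf Qf CU CW ρ r Hr G) :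
    FrR (fun z v u => Yl j e z u v) S k κ0 d P P' (T e) (T (e + 2)) (T (e + 1))
      (fun c : {c // c ∈ GQ j e k P P' T} => c.1.1.1) (fun c => c.1.1.2.2) (fun c => c.1.1.2.1)
      (fun c => c.1.2.2) (fun c => c.1.2.1) (fun n z c => Qf n z c.1.1)
      (fun n z c v u => CW n z c.1.1 u v) ρ r Hr where
  lin z := ⟨_, _, _, (lin_Yl j e z).swap⟩
  inj _ _ h1 h2 h3 h4 h5 :=
    Subtype.ext (Prod.ext (Prod.ext h1 (Prod.ext h3 h2)) (Prod.ext h5 h4))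
  sup n hn z hz c x y h := by
    obtain ⟨h1, h2, h3⟩ := H.supW n hn z hz c.1.1 y x h
    exact ⟨h2, h1, h3⟩
  op n hn z hz c hM m hdm hm a b ha hb :=
    opC_tr (H.opW n hn z hz c.1.1 (Mx.swap hM) m hdm hm b a hb ha)
  maj n hn z hz c hM f := H.majW n hn z hz c.1.1 (Mx.swap hM) c.1.2.2 f
  row n hn z hz c hM x hx := H.colW n hn z hz c.1.1 (Mx.swap hM) x hx

open Classical in
/-- the cells of `Clx`, position by position -/
lemma sum_cells (hP : iv P' ⊆ iv P) (E : ℤ × ℕ × ℤ × ℤ → ℝ) :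
    ∑ z ∈ T e, ∑ t ∈ (Clx j e k P P' T).filter (fun t => t.1 = z), E t =
      ∑ t ∈ Clx j e k P P' T, E t :=
  Finset.sum_fiberwise_of_maps_to (fun _ ht => (Clx_spec hP ht).1) E

open Classical in
/-- a seen maximal cell is in `Clx` -/
lemma ty_mem (hP : iv P' ⊆ iv P) {z : ℤ} (hz : z ∈ T e) {t : ℕ × ℤ × ℤ}
    (hM : Mx (Yl j e z) k P t.1 t.2.1 t.2.2) {u v : ℤ} (hu : u ∈ dI t.1 t.2.1)
    (hv : v ∈ dI t.1 t.2.2) (hu' : u ∈ T (e + 1)) (hv' : v ∈ T (e + 2))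
    (hy : Yl j e z u v ∈ iv P') : (z, t) ∈ (Clx j e k P P' T).filter (fun t => t.1 = z) := by
  have h1 := mem_Clx (k := k) (P := P) hz hu' hv' hy
  have h2 := Mx_mcell (k := k) (p := P) (ω := (z, u, v)) (hP hy)
  obtain ⟨a1, a2, a3⟩ := Mx_eq hM h2 hu (L0e.mem_dI.2 rfl) hv (L0e.mem_dI.2 rfl)
  have h3 : (z, t) = mcell (Yl j e) k P (z, u, v) := Prod.ext rfl (Prod.ext a1 (Prod.ext a2 a3))
  rw [h3]
  exact Finset.mem_filter.2 ⟨h1, rfl⟩

/-- energy of the rows -/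
lemma FQ.enR (H : FQ S kap j e k κ0 d C0 P P' T R Pf Qf CU CW ρ r Hr G)
    (W : {c // c ∈ GQ j e k P P' T} → Finset ℤ) :
    ∑ n ∈ S, kap n * ∑ z ∈ T e, ∑ c, ∑ x ∈ T (e + 1), ∑ y ∈ W c,
      ‖BQ (Yl j e) k P P' (T (e + 1)) (T (e + 2))
      (fun c : {c // c ∈ GQ j e k P P' T} => c.1.1.1) (fun c => c.1.1.2.1) (fun c => c.1.1.2.2)
      (fun c => c.1.2.1) (fun c => c.1.2.2) (fun n z c => CU n z c.1.1) n z c x y‖ ^ 2 ≤
      (2 ^ 7 + 2) * (G * 2 ^ P'.1) := by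
  classical
  have hC1 : 1 ≤ C0 := le_trans (Nat.one_le_two_pow) H.hC
  refine le_trans ?_ (mul_le_mul_of_nonneg_left H.enU (by norm_num))
  rw [Finset.mul_sum]
  refine Finset.sum_le_sum fun n hn => ?_
  rw [mul_left_comm]
  refine mul_le_mul_of_nonneg_left ?_ (H.kap0 n hn)
  rw [← sum_cells (T := T) H.hP, Finset.mul_sum]
  refine Finset.sum_le_sum fun z hz => ?_
  exact en_le (k := k) (P := P) (lin_Yl j e z) H.rowsFr.inj hC1 H.hP H.hna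
    (fun c => (z, c.1.1)) (fun t => t.2.1) (fun t => t.2.2.1) (fun t => t.2.2.2)
    (fun _ => rfl) (fun _ => rfl) (fun _ => rfl) (fun t => CU n t.1 t.2) (fun _ => rfl) _
    (fun c hM hx => by
      obtain ⟨x, _, h2, h3, v, _, h5, h6, h7⟩ := hx
      exact ty_mem H.hP hz hM h2 h5 h3 h6 h7) W

/-- energy of the columns -/
lemma FQ.enC (H : FQ S kap j e k κ0 d C0 P P' T R Pf Qf CU CW ρ r Hr G)
    (W : {c // c ∈ GQ j e k P P' T} → Finset ℤ) :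
    ∑ n ∈ S, kap n * ∑ z ∈ T e, ∑ c, ∑ x ∈ T (e + 2), ∑ y ∈ W c,
      ‖BQ (fun z v u => Yl j e z u v) k P P' (T (e + 2)) (T (e + 1))
      (fun c : {c // c ∈ GQ j e k P P' T} => c.1.1.1) (fun c => c.1.1.2.2) (fun c => c.1.1.2.1)
      (fun c => c.1.2.2) (fun c => c.1.2.1) (fun n z c v u => CW n z c.1.1 u v) n z c x y‖ ^ 2 ≤
      (2 ^ 7 + 2) * (G * 2 ^ P'.1) := by
  classical
  have hC1 : 1 ≤ C0 := le_trans (Nat.one_le_two_pow) H.hC
  refine le_trans ?_ (mul_le_mul_of_nonneg_left H.enW (by norm_num))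
  rw [Finset.mul_sum]
  refine Finset.sum_le_sum fun n hn => ?_
  rw [mul_left_comm]
  refine mul_le_mul_of_nonneg_left ?_ (H.kap0 n hn)
  rw [← sum_cells (T := T) H.hP, Finset.mul_sum]
  refine Finset.sum_le_sum fun z hz => ?_
  refine (en_le (k := k) (P := P) (Z := fun z v u => Yl j e z u v) (lin_Yl j e z).swap
    H.colsFr.inj hC1 H.hP H.hna
    (fun c => (z, c.1.1)) (fun t => t.2.1) (fun t => t.2.2.2) (fun t => t.2.2.1)
    (fun _ => rfl) (fun _ => rfl) (fun _ => rfl) (fun t v u => CW n t.1 t.2 u v) (fun _ => rfl) _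
    (fun c hM hx => by
      obtain ⟨x, _, h2, h3, v, _, h5, h6, h7⟩ := hx
      exact ty_mem H.hP hz (Mx.swap hM) h5 h2 h6 h3 h7) W).trans ?_
  refine mul_le_mul_of_nonneg_left (Finset.sum_le_sum fun t _ => ?_) (by norm_num)
  rw [Finset.sum_comm]

end inst

/-! ### the word -/

/-- the gain with the enlarged windows -/
lemma XS_scale {A g d ρ r Hr Θ B : ℝ} {m0 : ℕ} (hr : 0 < r) (hΘ : 0 < Θ) (hB : 1 ≤ B) :
    XS A g d ρ (r / B) Hr m0 (B * Θ)⁻¹ ≤ B ^ 2 * XS A g d ρ r Hr m0 Θ⁻¹ := by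
  have hB0 : 0 < B := by linarith
  have e1 : 1 / (4 * (r / B)) = B * (1 / (4 * r)) := by
    field_simp
  have h1 : eS ρ (r / B) = B ^ 2 * eS ρ r := by
    unfold eS
    rw [e1]
    ring
  have h2 : hS (r / B) Hr = B * hS r Hr := by
    unfold hS
    rw [e1]
    ring
  have h3 : (B * Θ)⁻¹ ≤ B ^ 2 * Θ⁻¹ := by
    have h4 : (B * Θ)⁻¹ ≤ Θ⁻¹ := by
      refine inv_anti₀ hΘ ?_
      nlinarith
    have h5 : 0 < Θ⁻¹ := inv_pos.2 hΘ
    have h6 : 1 ≤ B ^ 2 := one_le_pow₀ hB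
    nlinarith
  unfold XS
  rw [e1, h1, h2]
  have e2 : 2 ^ 7 * g ^ 2 * (B ^ 2 * eS ρ r) + (2 ^ 14 * A ^ 2 * d * (B * hS r Hr) +
      2 ^ 8 * A ^ 2 * (B * hS r Hr) / 2 ^ m0) * (B * (1 / (4 * r))) =
      B ^ 2 * (2 ^ 7 * g ^ 2 * eS ρ r + (2 ^ 14 * A ^ 2 * d * hS r Hr +
      2 ^ 8 * A ^ 2 * hS r Hr / 2 ^ m0) * (1 / (4 * r))) := by ring
  rw [e2, mul_add (B ^ 2) _ Θ⁻¹]
  exact add_le_add le_rfl h3

lemma XS_nonneg {A g d ρ r Hr θ : ℝ} {m0 : ℕ} (hr : 0 < r) (hHr : 0 ≤ Hr) (hd : 0 ≤ d)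
    (hθ : 0 ≤ θ) : 0 ≤ XS A g d ρ r Hr m0 θ := by
  have h1 := hS_nonneg hr hHr
  have h2 := eS_nonneg ρ r
  unfold XS
  positivity

/-- **the far word on `q0`** -/
theorem fq_word : FqP := by
  obtain ⟨K, hK, κ0, hL⟩ := sword_g
  refine ⟨57 * K * 2 ^ (12 + κ0) * (1 + Real.log (2 ^ (12 + κ0))), ?_, κ0, ?_⟩
  · have : 0 ≤ Real.log ((2 : ℝ) ^ (12 + κ0)) := Real.log_nonneg (one_le_pow₀ (by norm_num))
    positivity
  intro bb hbb R P' hR j e ι τ _ _ S kap k d C0 P T Pf Qf CU CW ρ r Hr G al F A g1 d1 g2 d2 mb H0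
    m0 Θ H L Z hF
  classical
  set B : ℝ := 2 ^ (12 + κ0) with hBd
  have hB1 : 1 ≤ B := one_le_pow₀ (by norm_num)
  have hB0 : 0 < B := by linarith
  have hΘ0 : 0 < Θ := by linarith [Z.Θ1]
  have hr' : 0 < r / B := div_pos H.r0 hB0
  have e4 : 2 ^ (10 + κ0) * r⁻¹ = 1 / (4 * (r / B)) := by
    have h0 := H.r0.ne'
    have h5 : B = 2 ^ (10 + κ0) * 4 := by
      rw [hBd, show (12 + κ0) = (10 + κ0) + 2 by ring, pow_add]
      norm_num
    have h6 : (0 : ℝ) < 2 ^ (10 + κ0) := by positivity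
    rw [h5]
    generalize (2 : ℝ) ^ (10 + κ0) = D at *
    field_simp
  obtain ⟨u1, u2, u3⟩ := H.rowsFr.num H.r0 H.ρ0 H.Hr0 H.hC H.hP H.hna H.hR H.hRd H.kap0 H.G0
    (H.enR _) (U := fun w z u l => lU j e k P P' T Pf w z u l) (fun n z x c l => rfl)
  obtain ⟨w1, w2, w3⟩ := H.colsFr.num H.r0 H.ρ0 H.Hr0 H.hC H.hP H.hna H.hR H.hRd H.kap0 H.G0
    (H.enC _) (U := fun w z v l => lW j e k P P' T Qf w v z l) (fun n z x c l => rfl)
  rw [e4] at u1 u2 u3 w1 w2 w3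
  have hmb : 0 ≤ mb := (Finset.sum_nonneg fun w hw => mul_nonneg (H.kap0 w hw)
    (Finset.sum_nonneg fun _ _ => Finset.sum_nonneg fun _ _ => sq_nonneg _)).trans L.gm
  have hΘB : Θ ≤ B * Θ := by nlinarith
  have hΘ1' : 1 ≤ B * Θ := Z.Θ1.trans hΘB
  have hri : (r / B)⁻¹ ≤ B * Θ := by
    rw [inv_div, div_eq_mul_inv]
    exact mul_le_mul_of_nonneg_left Z.r hB0.le
  have hN := sn_of (m0 := m0) hr' H.Hr0 hΘ1' L.A0 L.g10 L.d10 L.g20 L.d20 H.ρ0 H.G0 hmb L.H00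
    (Z.A.trans hΘB) (Z.g1.trans hΘB) (Z.d1.trans hΘB) (Z.g2.trans hΘB) (Z.d2.trans hΘB)
    (Z.ρ.trans hΘB) hri (Z.Hr.trans hΘB) (Z.G.trans hΘB) (Z.mb.trans hΘB) (Z.H0.trans hΘB)
  have hSW : SW e R κ0 j S kap T (lU j e k P P' T Pf) (lW j e k P P' T Qf)
      (fun w u v => conj (al w u v)) F A g1 d1 g2 d2 (hS (r / B) Hr) (hS (r / B) Hr)
      (1 / (4 * (r / B)) * G) (1 / (4 * (r / B)) * G) (eS ρ (r / B) * G) (eS ρ (r / B) * G)
      mb H0 m0 := by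
    refine ⟨H.kap0, L.A0, L.g10, L.d10, L.g20, L.d20, hS_nonneg hr' H.Hr0,
      hS_nonneg hr' H.Hr0, L.flo, L.l2, L.nc1, L.nc2, u2, w2, u1, w1, u3, w3, ?_, ?_⟩
    · simpa only [RCLike.norm_conj] using L.gm
    · simpa only [RCLike.norm_conj] using L.gh
  have h1 := hL bb hbb R P' hR j e S kap T (lU j e k P P' T Pf) (lW j e k P P' T Qf)
    (fun w u v => conj (al w u v)) F A g1 d1 g2 d2 (hS (r / B) Hr) (hS (r / B) Hr)
    (1 / (4 * (r / B)) * G) (1 / (4 * (r / B)) * G) (eS ρ (r / B) * G) (eS ρ (r / B) * G)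
    mb H0 m0 _ _ _ _ _ hSW hN (by
      intro y hy
      rw [hF y hy]
      refine Finset.sum_congr rfl fun w _ => ?_
      congr 1
      unfold kerG
      refine Finset.sum_congr rfl fun z hz => Finset.sum_congr rfl fun u hu =>
        Finset.sum_congr rfl fun v hv => ?_
      by_cases hyz : Yl j e z u v = y
      · rw [if_pos hyz, if_pos hyz]
        have hyi : Yl j e z u v ∈ iv P' := by rw [hyz]; exact hy
        have e1 := lab_eqQ (Pf := Pf) (Qf := Qf) (k := k) H.hP w hz hu hv hyi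
        exact congrArg (fun x => x * conj (al w u v)) e1.symm
      · rw [if_neg hyz, if_neg hyz])
  refine h1.trans ?_
  set L0 := Real.log Θ with hL0
  have hL00 : 0 ≤ L0 := Real.log_nonneg Z.Θ1
  set LB := Real.log B with hLB
  have hLB0 : 0 ≤ LB := Real.log_nonneg hB1
  have hlog : 1 + 4 * Real.log (2 ^ 20 * (B * Θ) ^ 9) ≤ 57 * ((1 + LB) * (1 + L0)) := by
    rw [Real.log_mul (by positivity) (by positivity), Real.log_pow, Real.log_pow,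
      Real.log_mul hB0.ne' hΘ0.ne']
    have h2 := Real.log_two_lt_d9
    have h3 := mul_nonneg hLB0 hL00
    push_cast
    linarith
  set X1 := XS A g1 d1 ρ r Hr m0 Θ⁻¹ with hX1
  set X2 := XS A g2 d2 ρ r Hr m0 Θ⁻¹ with hX2
  have x1 : XS A g1 d1 ρ (r / B) Hr m0 (B * Θ)⁻¹ ≤ B ^ 2 * X1 :=
    XS_scale H.r0 hΘ0 hB1
  have x2 : XS A g2 d2 ρ (r / B) Hr m0 (B * Θ)⁻¹ ≤ B ^ 2 * X2 :=
    XS_scale H.r0 hΘ0 hB1
  have hi0 : 0 ≤ (B * Θ)⁻¹ := by positivity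
  have y1 : 0 ≤ XS A g1 d1 ρ (r / B) Hr m0 (B * Θ)⁻¹ := XS_nonneg hr' H.Hr0 L.d10 hi0
  have y2 : 0 ≤ XS A g2 d2 ρ (r / B) Hr m0 (B * Θ)⁻¹ := XS_nonneg hr' H.Hr0 L.d20 hi0
  have z1 : 0 ≤ X1 := XS_nonneg H.r0 H.Hr0 L.d10 (inv_pos.2 hΘ0).le
  have z2 : 0 ≤ X2 := XS_nonneg H.r0 H.Hr0 L.d20 (inv_pos.2 hΘ0).le
  set Y1 := XS A g1 d1 ρ (r / B) Hr m0 (B * Θ)⁻¹ with hY1
  set Y2 := XS A g2 d2 ρ (r / B) Hr m0 (B * Θ)⁻¹ with hY2
  have hii : (B * Θ)⁻¹ ≤ Θ⁻¹ := inv_anti₀ hΘ0 hΘB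
  have hG := H.G0
  have hA := L.A0
  have hgg : G + (B * Θ)⁻¹ ≤ G + Θ⁻¹ := by linarith
  have hgg0 : 0 ≤ G + (B * Θ)⁻¹ := by linarith
  have haa : A * mb + (B * Θ)⁻¹ ≤ A * mb + Θ⁻¹ := by linarith
  have haa0 : 0 ≤ A * mb + (B * Θ)⁻¹ := by positivity
  have e3 : Real.sqrt (Y1 * (G + (B * Θ)⁻¹) * (Y2 * (G + (B * Θ)⁻¹))) =
      Real.sqrt (Y1 * Y2) * (G + (B * Θ)⁻¹) := by
    have h4 : Y1 * (G + (B * Θ)⁻¹) * (Y2 * (G + (B * Θ)⁻¹)) =
      Y1 * Y2 * (G + (B * Θ)⁻¹) ^ 2 := by ring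
    rw [h4, Real.sqrt_mul' _ (sq_nonneg _), Real.sqrt_sq hgg0]
  rw [e3]
  have e5 : Real.sqrt (Y1 * Y2) ≤ B ^ 2 * Real.sqrt (X1 * X2) := by
    have h4 : Y1 * Y2 ≤ (B ^ 2) ^ 2 * (X1 * X2) := by
      calc Y1 * Y2 ≤ (B ^ 2 * X1) * (B ^ 2 * X2) := mul_le_mul x1 x2 y2 (by positivity)
        _ = _ := by ring
    calc Real.sqrt (Y1 * Y2) ≤ Real.sqrt ((B ^ 2) ^ 2 * (X1 * X2)) := Real.sqrt_le_sqrt h4
      _ = B ^ 2 * Real.sqrt (X1 * X2) := by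
        rw [Real.sqrt_mul (sq_nonneg _), Real.sqrt_sq (by positivity)]
  have e6 : Real.sqrt (Real.sqrt (Y1 * Y2) * (G + (B * Θ)⁻¹) * (A * mb + (B * Θ)⁻¹)) ≤
      B * Real.sqrt (Real.sqrt (X1 * X2) * (G + Θ⁻¹) * (A * mb + Θ⁻¹)) := by
    have h4 : Real.sqrt (Y1 * Y2) * (G + (B * Θ)⁻¹) * (A * mb + (B * Θ)⁻¹) ≤
        B ^ 2 * (Real.sqrt (X1 * X2) * (G + Θ⁻¹) * (A * mb + Θ⁻¹)) := by
      calc Real.sqrt (Y1 * Y2) * (G + (B * Θ)⁻¹) * (A * mb + (B * Θ)⁻¹) ≤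
          (B ^ 2 * Real.sqrt (X1 * X2)) * (G + Θ⁻¹) * (A * mb + Θ⁻¹) := by gcongr
        _ = _ := by ring
    calc _ ≤ Real.sqrt (B ^ 2 * (Real.sqrt (X1 * X2) * (G + Θ⁻¹) * (A * mb + Θ⁻¹))) :=
          Real.sqrt_le_sqrt h4
      _ = _ := by rw [Real.sqrt_mul (sq_nonneg _), Real.sqrt_sq hB0.le]
  set Sq := Real.sqrt (Real.sqrt (X1 * X2) * (G + Θ⁻¹) * (A * mb + Θ⁻¹)) with hSq
  have hSq0 : 0 ≤ Sq := Real.sqrt_nonneg _
  calc K * (Real.sqrt (Real.sqrt (Y1 * Y2) * (G + (B * Θ)⁻¹) * (A * mb + (B * Θ)⁻¹)) *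
        (1 + 4 * Real.log (2 ^ 20 * (B * Θ) ^ 9)) * 2 ^ (P'.1 + 7))
      ≤ K * ((B * Sq) * (57 * ((1 + LB) * (1 + L0))) * 2 ^ (P'.1 + 7)) := by
        have h7 : 0 ≤ 1 + 4 * Real.log (2 ^ 20 * (B * Θ) ^ 9) := by
          have h8 : 0 ≤ Real.log (2 ^ 20 * (B * Θ) ^ 9) := by
            refine Real.log_nonneg ?_
            have h9 : 1 ≤ (B * Θ) ^ 9 := one_le_pow₀ hΘ1'
            nlinarith
          linarith
        gcongr
    _ = 57 * K * B * (1 + LB) * (Sq * (1 + L0) * 2 ^ (P'.1 + 7)) := by ring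

end Crest.Agent.R079.FrQx717
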