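import Crest.Agent.R079.SKv_261

/-! R079, (T5) of note 1820 (helper717): literal of **the far word on a grid node `q0` of a
sub-window** (`P` = sub-top `K`, `P' = q0`).  Proof: `FrQ_717`. -/

set_option autoImplicit false
set_option linter.unusedSectionVars false

namespace Crest.Agent.R079.FrQx717

open Finset Crest.Agent.R079.Grid Crest.Agent.R079.Growth Crest.Agent.R079.QRed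
  Crest.Agent.R079.Qh249 Crest.Agent.R079.QVar181
  Crest.Agent.R079.TWin Crest.Agent.R079.Glue Crest.Agent.R079.SWc360 Crest.Agent.R079.Cel159
  Crest.Agent.R079.SplSx69 Crest.Agent.R079.ThA159 Crest.Agent.R079.SKx261

open scoped ComplexConjugate

/-- type `(m, a, b)` of the cell of `P` which contains the position -/
noncomputable def tcell (j : Fin 4) (e : Fin 3) (k : ℕ) (P : Nd) (z u v : ℤ) : ℕ × ℤ × ℤ :=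
  (mcell (Yl j e) k P (z, u, v)).2

/-- data of the frames of a node `P' = q0` below the sub-top `P = K`, for one ladder step -/
structure FQ {ι τ : Type} [Fintype τ] (S : Finset ι) (kap : ι → ℝ) (j : Fin 4) (e : Fin 3)
    (k κ0 d C0 : ℕ) (P P' : Nd) (T : Fin 3 → Finset ℤ) (R : Finset Nd)
    (Pf Qf : ι → ℤ → ℕ × ℤ × ℤ → ℤ → τ → ℂ) (CU CW : ι → ℤ → ℕ × ℤ × ℤ → ℤ → ℤ → ℂ)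
    (ρ r Hr G : ℝ) : Prop where
  kap0 : ∀ w ∈ S, 0 ≤ kap w
  hC : 2 ^ κ0 ≤ C0
  hP : iv P' ⊆ iv P
  hna : ¬ Adj C0 P P'
  hR : ∀ p ∈ R, p.1 ≤ P'.1
  hRd : ∀ p ∈ R, d ≤ p.1
  ρ0 : 0 ≤ ρ
  r0 : 0 < r
  Hr0 : 0 ≤ Hr
  G0 : 0 ≤ G
  supU : ∀ w ∈ S, ∀ z ∈ T e, ∀ t u v, CU w z t u v ≠ 0 →
    u ∈ T (e + 1) ∧ v ∈ T (e + 2) ∧ Yl j e z u v ∈ iv P'
  supW : ∀ w ∈ S, ∀ z ∈ T e, ∀ t u v, CW w z t u v ≠ 0 →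
    u ∈ T (e + 1) ∧ v ∈ T (e + 2) ∧ Yl j e z u v ∈ iv P'
  opU : ∀ w ∈ S, ∀ z ∈ T e, ∀ t : ℕ × ℤ × ℤ, Mx (Yl j e z) k P t.1 t.2.1 t.2.2 →
    ∀ n, d ≤ n → n ≤ P'.1 + κ0 → ∀ a b, dI n a ⊆ dI t.1 t.2.1 → dI n b ⊆ dI t.1 t.2.2 →
      OpC (CU w z t) n a b ρ
  opW : ∀ w ∈ S, ∀ z ∈ T e, ∀ t : ℕ × ℤ × ℤ, Mx (Yl j e z) k P t.1 t.2.1 t.2.2 →
    ∀ n, d ≤ n → n ≤ P'.1 + κ0 → ∀ a b, dI n a ⊆ dI t.1 t.2.1 → dI n b ⊆ dI t.1 t.2.2 →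
      OpC (CW w z t) n a b ρ
  majU : ∀ w ∈ S, ∀ z ∈ T e, ∀ t : ℕ × ℤ × ℤ, Mx (Yl j e z) k P t.1 t.2.1 t.2.2 →
    ∀ (a' : ℤ) (f : ℤ → ℂ),
    ∑ l, ‖∑ u ∈ dI P'.1 a' ∩ dI t.1 t.2.1, f u * Pf w z t u l‖ ^ 2 ≤
      (r⁻¹ / 2 ^ P'.1) * ∑ v ∈ dI t.1 t.2.2,
        ‖∑ u ∈ dI P'.1 a' ∩ dI t.1 t.2.1, f u * CU w z t u v‖ ^ 2
  majW : ∀ w ∈ S, ∀ z ∈ T e, ∀ t : ℕ × ℤ × ℤ, Mx (Yl j e z) k P t.1 t.2.1 t.2.2 →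
    ∀ (b' : ℤ) (f : ℤ → ℂ),
    ∑ l, ‖∑ v ∈ dI P'.1 b' ∩ dI t.1 t.2.2, f v * Qf w z t v l‖ ^ 2 ≤
      (r⁻¹ / 2 ^ P'.1) * ∑ u ∈ dI t.1 t.2.1,
        ‖∑ v ∈ dI P'.1 b' ∩ dI t.1 t.2.2, f v * CW w z t u v‖ ^ 2
  rowU : ∀ w ∈ S, ∀ z ∈ T e, ∀ t : ℕ × ℤ × ℤ, Mx (Yl j e z) k P t.1 t.2.1 t.2.2 →
    ∀ u ∈ dI t.1 t.2.1, ∑ v ∈ dI t.1 t.2.2, ‖CU w z t u v‖ ^ 2 ≤ Hr * 2 ^ P'.1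
  colW : ∀ w ∈ S, ∀ z ∈ T e, ∀ t : ℕ × ℤ × ℤ, Mx (Yl j e z) k P t.1 t.2.1 t.2.2 →
    ∀ v ∈ dI t.1 t.2.2, ∑ u ∈ dI t.1 t.2.1, ‖CW w z t u v‖ ^ 2 ≤ Hr * 2 ^ P'.1
  enU : ∑ w ∈ S, kap w * ∑ c ∈ Clx j e k P P' T, ∑ u ∈ dI c.2.1 c.2.2.1,
    ∑ v ∈ dI c.2.1 c.2.2.2, ‖CU w c.1 c.2 u v‖ ^ 2 ≤ G * 2 ^ P'.1
  enW : ∑ w ∈ S, kap w * ∑ c ∈ Clx j e k P P' T, ∑ u ∈ dI c.2.1 c.2.2.1,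
    ∑ v ∈ dI c.2.1 c.2.2.2, ‖CW w c.1 c.2 u v‖ ^ 2 ≤ G * 2 ^ P'.1

/-- **the far word on `q0`** -/
def FqP : Prop := ∃ K : ℝ, 0 ≤ K ∧ ∃ κ0 : ℕ, ∀ (bb : ℤ), bb = -1 ∨ bb = -7 →
    ∀ (R : Finset Nd) (P' : Nd), IsRegion R P' → ∀ (j : Fin 4) (e : Fin 3) {ι τ : Type}
    [Fintype τ] [DecidableEq τ] (S : Finset ι) (kap : ι → ℝ) (k d C0 : ℕ) (P : Nd)
    (T : Fin 3 → Finset ℤ) (Pf Qf : ι → ℤ → ℕ × ℤ × ℤ → ℤ → τ → ℂ)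
    (CU CW : ι → ℤ → ℕ × ℤ × ℤ → ℤ → ℤ → ℂ) (ρ r Hr G : ℝ) (al : ι → ℤ → ℤ → ℂ)
    (F : Fin 4 → ℤ → ℂ) (A g1 d1 g2 d2 mb H0 : ℝ) (m0 : ℕ) (Θ : ℝ),
    FQ S kap j e k κ0 d C0 P P' T R Pf Qf CU CW ρ r Hr G →
    SKL S kap j e T R al F A g1 d1 g2 d2 mb H0 m0 →
    SKZ Θ A g1 d1 g2 d2 ρ r Hr G mb H0 →
    (∀ y ∈ iv P', F j y = ∑ w ∈ S, (kap w : ℂ) * kerG j e T (fun z u v =>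
      (∑ l, Pf w z (tcell j e k P z u v) u l * Qf w z (tcell j e k P z u v) v l) *
        conj (al w u v)) y) →
    ∑ p ∈ R, ∑ x ∈ adm p.1 p.2, ‖Lbox (2 ^ p.1) bb F x‖ ≤
      K * (Real.sqrt (Real.sqrt (XS A g1 d1 ρ r Hr m0 Θ⁻¹ * XS A g2 d2 ρ r Hr m0 Θ⁻¹) *
        (G + Θ⁻¹) * (A * mb + Θ⁻¹)) * (1 + Real.log Θ) * 2 ^ (P'.1 + 7))

end Crest.Agent.R079.FrQx717
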