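import Crest.Agent.R079.SKv_261

/-! R079, T5 of 1820 / 1922 (helper261): labelled frames of the cells with a dominating kernel which
depends on the cell.  Copy of `SKi_261` with `K n z c x y`. -/

set_option autoImplicit false
set_option linter.unusedSectionVars false

namespace Crest.Agent.R079.FrSx261

open Finset Crest.Agent.R079.Grid Crest.Agent.R079.Growth Crest.Agent.R079.QRed
  Crest.Agent.R079.TWin Crest.Agent.R079.Glue Crest.Agent.R079.SWc360 Crest.Agent.R079.SKx261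
open Crest.Agent.R079.ClW59 (OpS)

section

variable {γ τ : Type} [Fintype γ] [DecidableEq γ] [Fintype τ] [DecidableEq τ] {ι : Type}

open Classical in
/-- the dominating kernel -/
noncomputable def BKc (T1 T2 : Finset ℤ) (m : γ → ℕ) (ra cb : γ → ℤ) (ok : ℤ → γ → Prop)
    (X : ℤ → γ → Set ℤ) (K : ι → ℤ → γ → ℤ → ℤ → ℂ) (n : ι) (z : ℤ) (c : γ) (x y : ℤ) : ℂ :=
  if x ∈ dI (m c) (ra c) ∧ y ∈ dI (m c) (cb c) ∧ x ∈ {x | ok z c ∧ x ∈ X z c ∧ x ∈ T1} ∧
    y ∈ {y | y ∈ T2} then K n z c x y else 0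

variable {S : Finset ι} {T0 T1 T2 : Finset ℤ} {m : γ → ℕ} {ra cb : γ → ℤ} {ok : ℤ → γ → Prop}
  {X : ℤ → γ → Set ℤ} {K : ι → ℤ → γ → ℤ → ℤ → ℂ} {Pf : ι → ℤ → γ → ℤ → τ → ℂ}
  {U : ι → ℤ → ℤ → γ × τ → ℂ} {c0 M : ℝ}

open Classical in
/-- **construction of a family of frames** -/
theorem cellFr_mkc (hc0 : 0 ≤ c0) (hM : 0 ≤ M)
    (hU : ∀ n z x c k, U n z x (c, k) = if ok z c ∧ x ∈ X z c then Pf n z c x k else 0)
    (h0 : ∀ n z c x k, x ∉ dI (m c) (ra c) ∩ T1 → Pf n z c x k = 0)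
    (hmaj : ∀ n ∈ S, ∀ z ∈ T0, ∀ c, ok z c → ∀ f : ℤ → ℂ,
      ∑ k, ‖∑ x ∈ dI (m c) (ra c) ∩ T1, f x * Pf n z c x k‖ ^ 2 ≤
        (c0 / 2 ^ m c) * ∑ y ∈ dI (m c) (cb c) ∩ T2,
          ‖∑ x ∈ dI (m c) (ra c) ∩ T1, f x * K n z c x y‖ ^ 2)
    (hmult : ∀ z ∈ T0, ∀ x, ∃ A : Finset γ, (A.card : ℝ) ≤ M ∧
      ∀ c ∉ A, ok z c → x ∈ X z c → x ∉ dI (m c) (ra c)) :
    CellFr S T0 T1 m (fun c => cb c * 2 ^ m c) (BKc T1 T2 m ra cb ok X K) U c0 M := by
  refine ⟨hc0, hM, ?_, ?_, ?_, ?_⟩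
  · intro n hn z hz c q N f
    by_cases hok : ok z c
    · set g : ℤ → ℂ := fun x => (if q ≤ x ∧ x < q + N then f (x - q).toNat else 0) with hg
      set g' : ℤ → ℂ := fun x => if x ∈ X z c then g x else 0 with hg'
      have e1 : ∀ k, ∑ i ∈ range N, f i * mU T0 T1 (U n) z (q + (i : ℤ)) (c, k) =
          ∑ x ∈ dI (m c) (ra c) ∩ T1, g' x * Pf n z c x k := by
        intro k
        rw [sum_range_rows f (fun x => mU T0 T1 (U n) z x (c, k)) (dI (m c) (ra c) ∩ T1) q N]
        · refine Finset.sum_congr rfl fun x hx => ?_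
          have hx1 := (Finset.mem_inter.1 hx).2
          show g x * mU T0 T1 (U n) z x (c, k) = g' x * Pf n z c x k
          unfold mU
          rw [if_pos ⟨hz, hx1⟩, hU, hg']
          by_cases hX : x ∈ X z c
          · rw [if_pos ⟨hok, hX⟩]
            simp only [if_pos hX]
          · rw [if_neg (fun hc => hX hc.2)]
            simp only [if_neg hX]
            ring
        · intro x hx
          show mU T0 T1 (U n) z x (c, k) = 0
          unfold mU
          split_ifs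
          · rw [hU]
            split_ifs
            · exact h0 n z c x k hx
            · rfl
          · rfl
      have e2 : ∀ y ∈ dI (m c) (cb c) ∩ T2,
          ∑ i ∈ range N, f i * BKc T1 T2 m ra cb ok X K n z c (q + (i : ℤ)) y =
          ∑ x ∈ dI (m c) (ra c) ∩ T1, g' x * K n z c x y := by
        intro y hy
        rw [Finset.mem_inter] at hy
        rw [sum_range_rows f (fun x => BKc T1 T2 m ra cb ok X K n z c x y)
          (dI (m c) (ra c) ∩ T1) q N]
        · refine Finset.sum_congr rfl fun x hx => ?_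
          rw [Finset.mem_inter] at hx
          show g x * BKc T1 T2 m ra cb ok X K n z c x y = g' x * K n z c x y
          unfold BKc
          rw [hg']
          by_cases hX : x ∈ X z c
          · rw [if_pos ⟨hx.1, hy.1, ⟨hok, hX, hx.2⟩, hy.2⟩]
            simp only [if_pos hX]
          · rw [if_neg (fun hc => hX hc.2.2.1.2.1)]
            simp only [if_neg hX]
            ring
        · intro x hx
          show BKc T1 T2 m ra cb ok X K n z c x y = 0
          unfold BKc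
          rw [if_neg]
          intro hc
          exact hx (Finset.mem_inter.2 ⟨hc.1, hc.2.2.1.2.2⟩)
      have e3 : ∑ k, ‖∑ i ∈ range N, f i * mU T0 T1 (U n) z (q + (i : ℤ)) (c, k)‖ ^ 2 =
          ∑ k, ‖∑ x ∈ dI (m c) (ra c) ∩ T1, g' x * Pf n z c x k‖ ^ 2 :=
        Finset.sum_congr rfl fun k _ => by rw [e1 k]
      rw [e3]
      refine (hmaj n hn z hz c hok g').trans ?_
      refine mul_le_mul_of_nonneg_left ?_ (by positivity)
      have e4 : ∑ y ∈ dI (m c) (cb c) ∩ T2, ‖∑ x ∈ dI (m c) (ra c) ∩ T1, g' x * K n z c x y‖ ^ 2 =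
          ∑ y ∈ dI (m c) (cb c) ∩ T2,
            ‖∑ i ∈ range N, f i * BKc T1 T2 m ra cb ok X K n z c (q + (i : ℤ)) y‖ ^ 2 :=
        Finset.sum_congr rfl fun y hy => by rw [e2 y hy]
      rw [e4]
      refine Finset.sum_le_sum_of_subset_of_nonneg ?_ fun _ _ _ => sq_nonneg _
      intro y hy
      have h1 := (Finset.mem_inter.1 hy).1
      unfold dI at h1
      rw [Finset.mem_Ico] at h1 ⊢
      constructor
      · exact h1.1
      · calc y < (cb c + 1) * 2 ^ m c := h1.2
          _ = _ := by ring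
    · have e1 : ∀ k, ∑ i ∈ range N, f i * mU T0 T1 (U n) z (q + (i : ℤ)) (c, k) = 0 := by
        intro k
        refine Finset.sum_eq_zero fun i _ => ?_
        unfold mU
        split_ifs
        · rw [hU, if_neg (fun hc => hok hc.1), mul_zero]
        · rw [mul_zero]
      rw [Finset.sum_eq_zero fun k _ => by rw [e1 k, norm_zero]; norm_num]
      positivity
  · intro n _ z _ c y hy x
    show BKc T1 T2 m ra cb ok X K n z c x y = 0
    unfold BKc
    rw [if_neg]
    intro hc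
    apply hy
    have h1 := hc.2.1
    unfold dI at h1
    rw [Finset.mem_Ico] at h1
    constructor
    · exact h1.1
    · calc y < (cb c + 1) * 2 ^ m c := h1.2
        _ = _ := by ring
  · intro n _ z _ c x hx y
    show BKc T1 T2 m ra cb ok X K n z c x y = 0
    unfold BKc
    rw [if_neg]
    intro hc
    exact hx hc.2.2.1.2.2
  · intro n _ z hz x
    obtain ⟨A, hA, hA'⟩ := hmult z hz x
    refine ⟨A, hA, fun c hc k => ?_⟩
    unfold mU
    split_ifs with hzx
    · rw [hU]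
      split_ifs with hok
      · refine h0 n z c x k fun hx => ?_
        exact hA' c hc hok.1 hok.2 (Finset.mem_inter.1 hx).1
      · rfl
    · rfl

/-- rows of the dominating kernel -/
theorem row_mkc {Hr : ℝ} (hHr : 0 ≤ Hr) {n : ι} {z : ℤ} {c : γ}
    (h : ok z c → ∀ x ∈ dI (m c) (ra c) ∩ T1,
      ∑ y ∈ dI (m c) (cb c) ∩ T2, ‖K n z c x y‖ ^ 2 ≤ Hr * 2 ^ m c) (x : ℤ) :
    ∑ y ∈ Ico (cb c * 2 ^ m c) (cb c * 2 ^ m c + 2 ^ m c),
      ‖BKc T1 T2 m ra cb ok X K n z c x y‖ ^ 2 ≤ Hr * 2 ^ m c := by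
  classical
  by_cases hx : x ∈ dI (m c) (ra c) ∩ T1 ∧ ok z c
  · refine le_trans ?_ (h hx.2 x hx.1)
    have e1 : Ico (cb c * 2 ^ m c) (cb c * 2 ^ m c + 2 ^ m c) = dI (m c) (cb c) := by
      unfold dI
      congr 1
      ring
    rw [e1]
    rw [← Finset.sum_subset (Finset.inter_subset_left : dI (m c) (cb c) ∩ T2 ⊆ dI (m c) (cb c))
      (f := fun y => ‖BKc T1 T2 m ra cb ok X K n z c x y‖ ^ 2)]
    · refine Finset.sum_le_sum fun y _ => ?_
      unfold BKc
      split_ifs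
      · exact le_rfl
      · rw [norm_zero]
        norm_num
    · intro y _ hy'
      unfold BKc
      rw [if_neg]
      · norm_num
      · intro hc
        exact hy' (Finset.mem_inter.2 ⟨hc.2.1, hc.2.2.2⟩)
  · rw [Finset.sum_eq_zero]
    · positivity
    · intro y _
      unfold BKc
      rw [if_neg]
      · norm_num
      · intro hc
        exact hx ⟨Finset.mem_inter.2 ⟨hc.1, hc.2.2.1.2.2⟩, hc.2.2.1.1⟩

open Classical in
/-- energy of the dominating kernels -/
theorem GE_mkc {lam : ι → ℝ} (hlam : ∀ n ∈ S, 0 ≤ lam n) :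
    GE S lam T0 T1 m (fun c => cb c * 2 ^ m c) (BKc T1 T2 m ra cb ok X K) ≤
      ∑ n ∈ S, lam n * ∑ z ∈ T0, ∑ c, if ok z c then (1 / (2 : ℝ) ^ m c) *
        ∑ x ∈ dI (m c) (ra c) ∩ T1, ∑ y ∈ dI (m c) (cb c) ∩ T2, ‖K n z c x y‖ ^ 2 else 0 := by
  unfold GE
  refine Finset.sum_le_sum fun n hn => mul_le_mul_of_nonneg_left ?_ (hlam n hn)
  refine Finset.sum_le_sum fun z _ => Finset.sum_le_sum fun c _ => ?_
  have e1 : Ico (cb c * 2 ^ m c) (cb c * 2 ^ m c + 2 ^ m c) = dI (m c) (cb c) := by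
    unfold dI
    congr 1
    ring
  rw [e1]
  by_cases hok : ok z c
  · rw [if_pos hok]
    refine mul_le_mul_of_nonneg_left ?_ (by positivity)
    have h1 : ∑ x ∈ T1, ∑ y ∈ dI (m c) (cb c), ‖BKc T1 T2 m ra cb ok X K n z c x y‖ ^ 2 =
        ∑ x ∈ dI (m c) (ra c) ∩ T1, ∑ y ∈ dI (m c) (cb c),
          ‖BKc T1 T2 m ra cb ok X K n z c x y‖ ^ 2 := by
      symm
      refine Finset.sum_subset Finset.inter_subset_right fun x hx hx' => ?_
      refine Finset.sum_eq_zero fun y _ => ?_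
      unfold BKc
      rw [if_neg]
      · norm_num
      · intro hc
        exact hx' (Finset.mem_inter.2 ⟨hc.1, hx⟩)
    rw [h1]
    refine Finset.sum_le_sum fun x _ => ?_
    rw [← Finset.sum_subset (Finset.inter_subset_left : dI (m c) (cb c) ∩ T2 ⊆ dI (m c) (cb c))
      (f := fun y => ‖BKc T1 T2 m ra cb ok X K n z c x y‖ ^ 2)]
    · refine Finset.sum_le_sum fun y _ => ?_
      unfold BKc
      split_ifs
      · exact le_rfl
      · rw [norm_zero]
        norm_num
    · intro y _ hy'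
      unfold BKc
      rw [if_neg]
      · norm_num
      · intro hc
        exact hy' (Finset.mem_inter.2 ⟨hc.2.1, hc.2.2.2⟩)
  · rw [if_neg hok]
    have h1 : ∑ x ∈ T1, ∑ y ∈ dI (m c) (cb c), ‖BKc T1 T2 m ra cb ok X K n z c x y‖ ^ 2 = 0 := by
      refine Finset.sum_eq_zero fun x _ => Finset.sum_eq_zero fun y _ => ?_
      unfold BKc
      rw [if_neg]
      · norm_num
      · intro hc
        exact hok hc.2.2.1.1
    rw [h1, mul_zero]

end

end Crest.Agent.R079.FrSx261
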