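import Crest.Agent.R079.FrSa_261

/-! R079, T5 of 1820 / 1922 (helper261): **the far word on a grid node `P'` of the top `P`**.

The split slot is, on the strip of `P'`, `Σ_l Pf w z t u l * Qf w z t l v` (`t` = type of the cell of
`P` of the point `(z, u, v)`), where the rows `Pf` are dominated by a kernel `KU` and the columns `Qf`
by a kernel `KW` with operator bounds on all boxes of side `≥ 2^d`.  Labels = (type of cell, `l`).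
`fs_word`: the word total over any region below `P'` of levels `≥ d`. -/

set_option autoImplicit false
set_option linter.unusedSectionVars false

namespace Crest.Agent.R079.FrSx261

open Finset Crest.Agent.R079.Grid Crest.Agent.R079.Growth Crest.Agent.R079.QRed
  Crest.Agent.R079.Qh249 Crest.Agent.R079.QVar181
  Crest.Agent.R079.TWin Crest.Agent.R079.Glue Crest.Agent.R079.SWc360 Crest.Agent.R079.Cel159
  Crest.Agent.R079.SplSx69 Crest.Agent.R079.ThA159 Crest.Agent.R079.SKx261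
open Crest.Agent.R079.ClW59 (OpS cl)
open Crest.Agent.R079.Whit (Ins)

open scoped ComplexConjugate

/-- **data of the far word** of a grid node `P'` of the top `P` -/
structure FS {ι : Type} (S : Finset ι) (kap : ι → ℝ) (j : Fin 4) (e : Fin 3) (k κ0 d C0 : ℕ)
    (P P' : Nd) (T : Fin 3 → Finset ℤ) (R : Finset Nd)
    (Pf Qf : ι → ℤ → ℕ × ℤ × ℤ → ℤ → ℤ → ℂ) (KU KW : ι → ℤ → ℕ × ℤ × ℤ → ℤ → ℤ → ℂ)
    (ρ c0 Hr G : ℝ) : Prop where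
  kap0 : ∀ w ∈ S, 0 ≤ kap w
  hC : 2 ^ κ0 ≤ C0
  hP : iv P' ⊆ iv P
  hna : ¬ Adj C0 P P'
  hR : ∀ p ∈ R, p.1 ≤ P'.1
  hRd : ∀ p ∈ R, d ≤ p.1
  ρ0 : 0 ≤ ρ
  c00 : 0 < c0
  Hr0 : 0 ≤ Hr
  G0 : 0 ≤ G
  p0 : ∀ w z t u l, u ∉ dI t.1 t.2.1 ∩ T (e + 1) → Pf w z t u l = 0
  q0 : ∀ w z t l v, v ∉ dI t.1 t.2.2 ∩ T (e + 2) → Qf w z t l v = 0
  majU : ∀ w ∈ S, ∀ z ∈ T e, ∀ t, (z, t) ∈ Clx j e k P P' T → ∀ f : ℤ → ℂ,
    ∑ l ∈ T (e + 2), ‖∑ u ∈ dI t.1 t.2.1 ∩ T (e + 1), f u * Pf w z t u l‖ ^ 2 ≤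
      (c0 / 2 ^ t.1) * ∑ v ∈ dI t.1 t.2.2 ∩ T (e + 2),
        ‖∑ u ∈ dI t.1 t.2.1 ∩ T (e + 1), f u * KU w z t u v‖ ^ 2
  majW : ∀ w ∈ S, ∀ z ∈ T e, ∀ t, (z, t) ∈ Clx j e k P P' T → ∀ f : ℤ → ℂ,
    ∑ l ∈ T (e + 2), ‖∑ v ∈ dI t.1 t.2.2 ∩ T (e + 2), f v * Qf w z t l v‖ ^ 2 ≤
      (c0 / 2 ^ t.1) * ∑ u ∈ dI t.1 t.2.1 ∩ T (e + 1),
        ‖∑ v ∈ dI t.1 t.2.2 ∩ T (e + 2), f v * KW w z t u v‖ ^ 2
  opU : ∀ w ∈ S, ∀ z ∈ T e, ∀ t, (z, t) ∈ Clx j e k P P' T → ∀ n a b, d ≤ n → n ≤ P'.1 + κ0 →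
    dI n a ⊆ dI t.1 t.2.1 → dI n b ⊆ dI t.1 t.2.2 → OpC (KU w z t) n a b ρ
  opW : ∀ w ∈ S, ∀ z ∈ T e, ∀ t, (z, t) ∈ Clx j e k P P' T → ∀ n a b, d ≤ n → n ≤ P'.1 + κ0 →
    dI n a ⊆ dI t.1 t.2.1 → dI n b ⊆ dI t.1 t.2.2 → OpC (KW w z t) n a b ρ
  rowU : ∀ w ∈ S, ∀ z ∈ T e, ∀ t, (z, t) ∈ Clx j e k P P' T → ∀ u ∈ dI t.1 t.2.1 ∩ T (e + 1),
    ∑ v ∈ dI t.1 t.2.2 ∩ T (e + 2), ‖KU w z t u v‖ ^ 2 ≤ Hr * 2 ^ t.1
  rowW : ∀ w ∈ S, ∀ z ∈ T e, ∀ t, (z, t) ∈ Clx j e k P P' T → ∀ v ∈ dI t.1 t.2.2 ∩ T (e + 2),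
    ∑ u ∈ dI t.1 t.2.1 ∩ T (e + 1), ‖KW w z t u v‖ ^ 2 ≤ Hr * 2 ^ t.1
  enU : ∑ w ∈ S, kap w * ∑ c ∈ Clx j e k P P' T, (1 / (2 : ℝ) ^ c.2.1) *
    ∑ u ∈ dI c.2.1 c.2.2.1 ∩ T (e + 1), ∑ v ∈ dI c.2.1 c.2.2.2 ∩ T (e + 2),
      ‖KU w c.1 c.2 u v‖ ^ 2 ≤ G
  enW : ∑ w ∈ S, kap w * ∑ c ∈ Clx j e k P P' T, (1 / (2 : ℝ) ^ c.2.1) *
    ∑ u ∈ dI c.2.1 c.2.2.1 ∩ T (e + 1), ∑ v ∈ dI c.2.1 c.2.2.2 ∩ T (e + 2),
      ‖KW w c.1 c.2 u v‖ ^ 2 ≤ G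

section

variable {ι : Type} {S : Finset ι} {kap : ι → ℝ} {j : Fin 4} {e : Fin 3} {k κ0 d C0 : ℕ}
  {P P' : Nd} {T : Fin 3 → Finset ℤ} {R : Finset Nd}
  {Pf Qf : ι → ℤ → ℕ × ℤ × ℤ → ℤ → ℤ → ℂ} {KU KW : ι → ℤ → ℕ × ℤ × ℤ → ℤ → ℤ → ℂ}
  {ρ c0 Hr G : ℝ}

/-- **the labels reproduce the product** -/
theorem FS.lab (H : FS S kap j e k κ0 d C0 P P' T R Pf Qf KU KW ρ c0 Hr G) (w : ι) {z u v : ℤ}
    (hz : z ∈ T e) (hu : u ∈ T (e + 1)) (hv : v ∈ T (e + 2)) (hy : Yl j e z u v ∈ iv P') :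
    ∑ l, lU j e k P P' T Pf w z u l * lW j e k P P' T Qf w v z l =
      ∑ l ∈ T (e + 2), Pf w z (mcell (Yl j e) k P (z, u, v)).2 u l *
        Qf w z (mcell (Yl j e) k P (z, u, v)).2 l v := by
  classical
  set c0' := mcell (Yl j e) k P (z, u, v) with hc0
  have hcl : c0' ∈ Clx j e k P P' T := mem_Clx hz hu hv hy
  have e0 : (z, c0'.2) = c0' := rfl
  have hM0 : Mx (Yl j e z) k P c0'.2.1 c0'.2.2.1 c0'.2.2.2 := Mx_mcell (H.hP hy)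
  have hu0 : u ∈ dI c0'.2.1 c0'.2.2.1 := by rw [L0e.mem_dI]; rfl
  have hv0 : v ∈ dI c0'.2.1 c0'.2.2.2 := by rw [L0e.mem_dI]; rfl
  have ht0 : c0'.2 ∈ CT j e k P P' T := by
    unfold CT
    exact Finset.mem_image_of_mem _ hcl
  rw [Fintype.sum_prod_type, Finset.sum_eq_single (⟨c0'.2, ht0⟩ : {t // t ∈ CT j e k P P' T})]
  · have h1 : ∀ x : {x // x ∈ T (e + 2)},
        lU j e k P P' T Pf w z u (⟨c0'.2, ht0⟩, x) * lW j e k P P' T Qf w v z (⟨c0'.2, ht0⟩, x) =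
        Pf w z c0'.2 u x.1 * Qf w z c0'.2 x.1 v := by
      intro x
      unfold lU lW
      rw [if_pos ⟨hcl, v, Finset.mem_inter.2 ⟨hv0, hv⟩, hy⟩,
        if_pos ⟨hcl, u, Finset.mem_inter.2 ⟨hu0, hu⟩, hy⟩]
    rw [Finset.sum_congr rfl fun x _ => h1 x,
      Finset.sum_coe_sort (T (e + 2)) (fun x => Pf w z c0'.2 u x * Qf w z c0'.2 x v)]
  · intro t _ ht
    refine Finset.sum_eq_zero fun x _ => ?_
    unfold lU lW
    by_cases h1 : (z, t.1) ∈ Clx j e k P P' T ∧ u ∈ XU j e P' T z t.1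
    · by_cases h2 : (z, t.1) ∈ Clx j e k P P' T ∧ v ∈ XW j e P' T z t.1
      · show (if (z, t.1) ∈ Clx j e k P P' T ∧ u ∈ XU j e P' T z t.1 then Pf w z t.1 u x.1 else 0) *
          (if (z, t.1) ∈ Clx j e k P P' T ∧ v ∈ XW j e P' T z t.1 then Qf w z t.1 x.1 v else 0) = 0
        rw [if_pos h1, if_pos h2]
        by_cases hut : u ∈ dI t.1.1 t.1.2.1
        · by_cases hvt : v ∈ dI t.1.1 t.1.2.2
          · exfalso
            apply ht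
            have h3 := (Clx_spec H.hP h1.1).2.1
            obtain ⟨a1, a2, a3⟩ := Mx_eq h3 hM0 hut hu0 hvt hv0
            exact Subtype.ext (Prod.ext a1 (Prod.ext a2 a3))
          · rw [H.q0 w z t.1 x.1 v (fun hc => hvt (Finset.mem_inter.1 hc).1), mul_zero]
        · rw [H.p0 w z t.1 u x.1 (fun hc => hut (Finset.mem_inter.1 hc).1), zero_mul]
      · rw [if_neg h2, mul_zero]
    · rw [if_neg h1, zero_mul]
  · intro h
    exact absurd (Finset.mem_univ _) h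

/-- the dominating kernels of the rows -/
noncomputable def bUc (j : Fin 4) (e : Fin 3) (k : ℕ) (P P' : Nd) (T : Fin 3 → Finset ℤ)
    (KU : ι → ℤ → ℕ × ℤ × ℤ → ℤ → ℤ → ℂ) : ι → ℤ → {t // t ∈ CT j e k P P' T} → ℤ → ℤ → ℂ :=
  BKc (T (e + 1)) (T (e + 2)) (fun c => c.1.1) (fun c => c.1.2.1) (fun c => c.1.2.2)
    (fun z c => (z, c.1) ∈ Clx j e k P P' T) (fun z c => XU j e P' T z c.1)
    (fun w z c u v => KU w z c.1 u v)

/-- the dominating kernels of the columns -/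
noncomputable def bWc (j : Fin 4) (e : Fin 3) (k : ℕ) (P P' : Nd) (T : Fin 3 → Finset ℤ)
    (KW : ι → ℤ → ℕ × ℤ × ℤ → ℤ → ℤ → ℂ) : ι → ℤ → {t // t ∈ CT j e k P P' T} → ℤ → ℤ → ℂ :=
  BKc (T (e + 2)) (T (e + 1)) (fun c => c.1.1) (fun c => c.1.2.2) (fun c => c.1.2.1)
    (fun z c => (z, c.1) ∈ Clx j e k P P' T) (fun z c => XW j e P' T z c.1)
    (fun w z c v u => KW w z c.1 u v)

/-- **frames of the rows** -/
theorem FS.frU (H : FS S kap j e k κ0 d C0 P P' T R Pf Qf KU KW ρ c0 Hr G) :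
    CellFr S (T e) (T (e + 1)) (fun c : {t // t ∈ CT j e k P P' T} => c.1.1)
      (fun c => c.1.2.2 * 2 ^ c.1.1) (bUc j e k P P' T KU) (lU j e k P P' T Pf) c0
      (2 ^ 7 + 2) := by
  classical
  have hC1 : 1 ≤ C0 := le_trans (Nat.one_le_two_pow) H.hC
  refine cellFr_mkc (Pf := fun w z (c : {t // t ∈ CT j e k P P' T}) x
    (l : {x // x ∈ T (e + 2)}) => Pf w z c.1 x l.1) H.c00.le (by positivity) ?_ ?_ ?_ ?_
  · intro w z x c l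
    simp only [lU]
    split_ifs <;> rfl
  · intro w z c x l hx
    exact H.p0 w z c.1 x l.1 hx
  · intro w hw z hz c hok f
    have h1 := H.majU w hw z hz c.1 hok f
    refine le_trans (le_of_eq ?_) h1
    rw [Finset.sum_coe_sort (T (e + 2)) (fun l =>
      ‖∑ x ∈ dI c.1.1 c.1.2.1 ∩ T (e + 1), f x * Pf w z c.1 x l‖ ^ 2)]
  · intro z _ x
    exact multU hC1 H.hP H.hna z x

/-- **frames of the columns** -/
theorem FS.frW (H : FS S kap j e k κ0 d C0 P P' T R Pf Qf KU KW ρ c0 Hr G) :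
    CellFr S (T e) (T (e + 2)) (fun c : {t // t ∈ CT j e k P P' T} => c.1.1)
      (fun c => c.1.2.1 * 2 ^ c.1.1) (bWc j e k P P' T KW)
      (fun w z v l => lW j e k P P' T Qf w v z l) c0 (2 ^ 7 + 2) := by
  classical
  have hC1 : 1 ≤ C0 := le_trans (Nat.one_le_two_pow) H.hC
  refine cellFr_mkc (Pf := fun w z (c : {t // t ∈ CT j e k P P' T}) x
    (l : {x // x ∈ T (e + 2)}) => Qf w z c.1 l.1 x) H.c00.le (by positivity) ?_ ?_ ?_ ?_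
  · intro w z x c l
    simp only [lW]
    split_ifs <;> rfl
  · intro w z c x l hx
    exact H.q0 w z c.1 l.1 x hx
  · intro w hw z hz c hok f
    have h1 := H.majW w hw z hz c.1 hok f
    refine le_trans (le_of_eq ?_) h1
    rw [Finset.sum_coe_sort (T (e + 2)) (fun l =>
      ‖∑ x ∈ dI c.1.1 c.1.2.2 ∩ T (e + 2), f x * Qf w z c.1 l x‖ ^ 2)]
  · intro z _ x
    exact multW hC1 H.hP H.hna z x

/-- energy, rows -/
theorem FS.geU (H : FS S kap j e k κ0 d C0 P P' T R Pf Qf KU KW ρ c0 Hr G) :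
    GE S kap (T e) (T (e + 1)) (fun c : {t // t ∈ CT j e k P P' T} => c.1.1)
      (fun c => c.1.2.2 * 2 ^ c.1.1) (bUc j e k P P' T KU) ≤ G := by
  classical
  refine (GE_mkc H.kap0).trans (le_trans (le_of_eq ?_) H.enU)
  refine Finset.sum_congr rfl fun w _ => ?_
  congr 1
  exact @sum_Clx j e k P P' T H.hP (fun c => (1 / (2 : ℝ) ^ c.2.1) *
    ∑ u ∈ dI c.2.1 c.2.2.1 ∩ T (e + 1), ∑ v ∈ dI c.2.1 c.2.2.2 ∩ T (e + 2),
      ‖KU w c.1 c.2 u v‖ ^ 2) (fun _ _ => Classical.propDecidable _)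

/-- energy, columns -/
theorem FS.geW (H : FS S kap j e k κ0 d C0 P P' T R Pf Qf KU KW ρ c0 Hr G) :
    GE S kap (T e) (T (e + 2)) (fun c : {t // t ∈ CT j e k P P' T} => c.1.1)
      (fun c => c.1.2.1 * 2 ^ c.1.1) (bWc j e k P P' T KW) ≤ G := by
  classical
  refine (GE_mkc H.kap0).trans (le_trans (le_of_eq ?_) H.enW)
  refine Finset.sum_congr rfl fun w _ => ?_
  congr 1
  refine Eq.trans ?_ (@sum_Clx j e k P P' T H.hP (fun c => (1 / (2 : ℝ) ^ c.2.1) *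
    ∑ u ∈ dI c.2.1 c.2.2.1 ∩ T (e + 1), ∑ v ∈ dI c.2.1 c.2.2.2 ∩ T (e + 2),
      ‖KW w c.1 c.2 u v‖ ^ 2) (fun _ _ => Classical.propDecidable _))
  refine Finset.sum_congr rfl fun z _ => Finset.sum_congr rfl fun c _ => ?_
  rw [Finset.sum_comm]

/-- **operator bounds, rows** -/
theorem FS.opU' (H : FS S kap j e k κ0 d C0 P P' T R Pf Qf KU KW ρ c0 Hr G)
    {w : ι} (hw : w ∈ S) {z : ℤ} (hz : z ∈ T e) (c : {t // t ∈ CT j e k P P' T}) {n : ℕ}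
    (hn : d ≤ n) (hn' : n ≤ P'.1 + κ0) (hnm : n ≤ c.1.1) (i i' : ℤ) :
    OpS (dI n i) (dI n i') (bUc j e k P P' T KU w z c) (ρ * 2 ^ n) := by
  classical
  by_cases hok : (z, c.1) ∈ Clx j e k P P' T
  · have h1 := masked_op (K := KU w z c.1) (a := c.1.2.1) (b := c.1.2.2) H.ρ0 hnm
      (fun i i' h1 h2 => H.opU w hw z hz c.1 hok n i i' hn hn' h1 h2)
      {x | (z, c.1) ∈ Clx j e k P P' T ∧ x ∈ XU j e P' T z c.1 ∧ x ∈ T (e + 1)}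
      {y | y ∈ T (e + 2)} i i'
    refine PjC881.opS_congr h1 fun x _ y _ => ?_
    unfold bUc BKc
    by_cases hc : x ∈ dI c.1.1 c.1.2.1 ∧ y ∈ dI c.1.1 c.1.2.2 ∧
        x ∈ {x | (z, c.1) ∈ Clx j e k P P' T ∧ x ∈ XU j e P' T z c.1 ∧ x ∈ T (e + 1)} ∧
        y ∈ {y | y ∈ T (e + 2)}
    · rw [if_pos hc, if_pos hc]
    · rw [if_neg hc, if_neg hc]
  · intro f
    have e0 : ∀ x ∈ dI n i, ∑ y ∈ dI n i', bUc j e k P P' T KU w z c x y * f y = 0 := by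
      intro x _
      refine Finset.sum_eq_zero fun y _ => ?_
      unfold bUc BKc
      rw [if_neg, zero_mul]
      intro hc
      exact hok hc.2.2.1.1
    rw [Finset.sum_eq_zero fun x hx => by rw [e0 x hx, norm_zero, zero_pow two_ne_zero]]
    have := H.ρ0
    positivity

/-- **operator bounds, columns** -/
theorem FS.opW' (H : FS S kap j e k κ0 d C0 P P' T R Pf Qf KU KW ρ c0 Hr G)
    {w : ι} (hw : w ∈ S) {z : ℤ} (hz : z ∈ T e) (c : {t // t ∈ CT j e k P P' T}) {n : ℕ}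
    (hn : d ≤ n) (hn' : n ≤ P'.1 + κ0) (hnm : n ≤ c.1.1) (i i' : ℤ) :
    OpS (dI n i) (dI n i') (bWc j e k P P' T KW w z c) (ρ * 2 ^ n) := by
  classical
  by_cases hok : (z, c.1) ∈ Clx j e k P P' T
  · have h1 := masked_op (K := fun v u => KW w z c.1 u v) (a := c.1.2.2)
      (b := c.1.2.1) H.ρ0 hnm
      (fun i i' h1 h2 => opC_tr (H.opW w hw z hz c.1 hok n i' i hn hn' h2 h1))
      {x | (z, c.1) ∈ Clx j e k P P' T ∧ x ∈ XW j e P' T z c.1 ∧ x ∈ T (e + 2)}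
      {y | y ∈ T (e + 1)} i i'
    refine PjC881.opS_congr h1 fun x _ y _ => ?_
    unfold bWc BKc
    by_cases hc : x ∈ dI c.1.1 c.1.2.2 ∧ y ∈ dI c.1.1 c.1.2.1 ∧
        x ∈ {x | (z, c.1) ∈ Clx j e k P P' T ∧ x ∈ XW j e P' T z c.1 ∧ x ∈ T (e + 2)} ∧
        y ∈ {y | y ∈ T (e + 1)}
    · rw [if_pos hc, if_pos hc]
    · rw [if_neg hc, if_neg hc]
  · intro f
    have e0 : ∀ x ∈ dI n i, ∑ y ∈ dI n i', bWc j e k P P' T KW w z c x y * f y = 0 := by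
      intro x _
      refine Finset.sum_eq_zero fun y _ => ?_
      unfold bWc BKc
      rw [if_neg, zero_mul]
      intro hc
      exact hok hc.2.2.1.1
    rw [Finset.sum_eq_zero fun x hx => by rw [e0 x hx, norm_zero, zero_pow two_ne_zero]]
    have := H.ρ0
    positivity

/-- **numbers of the rows**: trace, diagonal, `HSk` -/
theorem FS.numU (H : FS S kap j e k κ0 d C0 P P' T R Pf Qf KU KW ρ c0 Hr G) :
    (∑ w ∈ S, kap w * ∑ z ∈ T e, ∑ x ∈ T (e + 1),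
      kD (T e) (T (e + 1)) (lU j e k P P' T Pf w) z x ≤ c0 * G) ∧
    (∀ w ∈ S, ∀ z x, kD (T e) (T (e + 1)) (lU j e k P P' T Pf w) z x ≤
      (2 ^ 7 + 2) * (c0 * Hr)) ∧
    HSk S kap R κ0 ((2 ^ 7 + 2) * (8 * (c0 * ρ) ^ 2) * G)
      (T e) (T (e + 1)) (lU j e k P P' T Pf) := by
  have F := H.frU
  have hG := H.geU
  have hc0 := H.c00
  refine ⟨?_, ?_, ?_⟩
  · exact (F.trace H.kap0).trans (mul_le_mul_of_nonneg_left hG hc0.le)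
  · intro w hw z x
    refine F.kD_le H.Hr0 ?_ hw z x
    intro w hw z hz c x
    refine row_mkc H.Hr0 ?_ x
    intro hok x hx
    exact H.rowU w hw z hz _ hok x hx
  · have h1 := F.hsk (R := R) (κ0 := κ0) (ρ := ρ) H.kap0
      (lev_C H.hC H.hP H.hna H.hR) (by
        intro w hw z hz c p hp k' hk' i i'
        have h2 := lev_C H.hC H.hP H.hna H.hR c p hp
        have h3 := H.hRd p hp
        have h4 := H.hR p hp
        exact H.opU' hw hz c (by omega) (by omega) (by omega) i i')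
    intro p hp k' hk' Λ
    exact (h1 p hp k' hk' Λ).trans (mul_le_mul_of_nonneg_left hG (by positivity))

/-- **numbers of the columns** -/
theorem FS.numW (H : FS S kap j e k κ0 d C0 P P' T R Pf Qf KU KW ρ c0 Hr G) :
    (∑ w ∈ S, kap w * ∑ z ∈ T e, ∑ x ∈ T (e + 2),
      kD (T e) (T (e + 2)) (fun z v l => lW j e k P P' T Qf w v z l) z x ≤ c0 * G) ∧
    (∀ w ∈ S, ∀ z x, kD (T e) (T (e + 2)) (fun z v l => lW j e k P P' T Qf w v z l) z x ≤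
      (2 ^ 7 + 2) * (c0 * Hr)) ∧
    HSk S kap R κ0 ((2 ^ 7 + 2) * (8 * (c0 * ρ) ^ 2) * G)
      (T e) (T (e + 2)) (fun w z v l => lW j e k P P' T Qf w v z l) := by
  have F := H.frW
  have hG := H.geW
  have hc0 := H.c00
  refine ⟨?_, ?_, ?_⟩
  · exact (F.trace H.kap0).trans (mul_le_mul_of_nonneg_left hG hc0.le)
  · intro w hw z x
    refine F.kD_le H.Hr0 ?_ hw z x
    intro w hw z hz c x
    refine row_mkc H.Hr0 ?_ x
    intro hok x hx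
    exact H.rowW w hw z hz _ hok x hx
  · have h1 := F.hsk (R := R) (κ0 := κ0) (ρ := ρ) H.kap0
      (lev_C H.hC H.hP H.hna H.hR) (by
        intro w hw z hz c p hp k' hk' i i'
        have h2 := lev_C H.hC H.hP H.hna H.hR c p hp
        have h3 := H.hRd p hp
        have h4 := H.hR p hp
        exact H.opW' hw hz c (by omega) (by omega) (by omega) i i')
    intro p hp k' hk' Λ
    exact (h1 p hp k' hk' Λ).trans (mul_le_mul_of_nonneg_left hG (by positivity))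

end

/-- **gain of one labelled edge**, constant `c0` of the domination -/
noncomputable def XC (A g d ρ c0 Hr : ℝ) (m0 : ℕ) (θ : ℝ) : ℝ :=
  2 ^ 7 * g ^ 2 * ((2 ^ 7 + 2) * (8 * (c0 * ρ) ^ 2)) +
    (2 ^ 14 * A ^ 2 * d * ((2 ^ 7 + 2) * (c0 * Hr)) +
      2 ^ 8 * A ^ 2 * ((2 ^ 7 + 2) * (c0 * Hr)) / 2 ^ m0) * c0 + θ

lemma inv4 {c0 : ℝ} (h : 0 < c0) : 1 / (4 * (4 * c0)⁻¹) = c0 := by
  field_simp

lemma XC_eq {A g d ρ c0 Hr θ : ℝ} {m0 : ℕ} (h : 0 < c0) :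
    XS A g d ρ (4 * c0)⁻¹ Hr m0 θ = XC A g d ρ c0 Hr m0 θ := by
  unfold XS XC eS hS
  rw [inv4 h]

/-- **the far word on a grid node** -/
theorem fs_word : ∃ K : ℝ, 0 ≤ K ∧ ∃ κ0 : ℕ, ∀ (bb : ℤ), bb = -1 ∨ bb = -7 →
    ∀ (R : Finset Nd) (P' : Nd), IsRegion R P' → ∀ (j : Fin 4) (e : Fin 3) {ι : Type}
    (S : Finset ι) (kap : ι → ℝ) (k d C0 : ℕ) (P : Nd) (T : Fin 3 → Finset ℤ)
    (Pf Qf : ι → ℤ → ℕ × ℤ × ℤ → ℤ → ℤ → ℂ) (KU KW : ι → ℤ → ℕ × ℤ × ℤ → ℤ → ℤ → ℂ)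
    (ρ c0 Hr G : ℝ) (al : ι → ℤ → ℤ → ℂ) (F : Fin 4 → ℤ → ℂ)
    (A g1 d1 g2 d2 mb H0 : ℝ) (m0 : ℕ) (Θ : ℝ),
    FS S kap j e k κ0 d C0 P P' T R Pf Qf KU KW ρ c0 Hr G →
    SKL S kap j e T R al F A g1 d1 g2 d2 mb H0 m0 →
    SKZ Θ A g1 d1 g2 d2 ρ (4 * c0)⁻¹ Hr G mb H0 →
    (∀ y ∈ iv P', F j y = ∑ w ∈ S, (kap w : ℂ) * kerG j e T (fun z u v =>
      (∑ l ∈ T (e + 2), Pf w z (mcell (Yl j e) k P (z, u, v)).2 u l *
        Qf w z (mcell (Yl j e) k P (z, u, v)).2 l v) * conj (al w u v)) y) →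
    ∑ p ∈ R, ∑ x ∈ adm p.1 p.2, ‖Lbox (2 ^ p.1) bb F x‖ ≤
      K * (Real.sqrt (Real.sqrt (XC A g1 d1 ρ c0 Hr m0 Θ⁻¹ * XC A g2 d2 ρ c0 Hr m0 Θ⁻¹) *
        (G + Θ⁻¹) * (A * mb + Θ⁻¹)) * (1 + Real.log Θ) * 2 ^ (P'.1 + 7)) := by
  obtain ⟨K, hK, κ0, hL⟩ := sword_g
  refine ⟨57 * K, by positivity, κ0, ?_⟩
  intro bb hbb R P' hR j e ι S kap k d C0 P T Pf Qf KU KW ρ c0 Hr G al F A g1 d1 g2 d2 mb H0 m0 Θ
    H L Z hF
  classical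
  obtain ⟨u1, u2, u3⟩ := H.numU
  obtain ⟨w1, w2, w3⟩ := H.numW
  have hc0 := H.c00
  have hr : 0 < (4 * c0)⁻¹ := by positivity
  have hG := H.G0
  have hmb : 0 ≤ mb := (Finset.sum_nonneg fun w hw => mul_nonneg (H.kap0 w hw)
    (Finset.sum_nonneg fun _ _ => Finset.sum_nonneg fun _ _ => sq_nonneg _)).trans L.gm
  have hN := sn_of (m0 := m0) hr H.Hr0 Z.Θ1 L.A0 L.g10 L.d10 L.g20 L.d20 H.ρ0 hG hmb L.H00
    Z.A Z.g1 Z.d1 Z.g2 Z.d2 Z.ρ Z.r Z.Hr Z.G Z.mb Z.H0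
  rw [XC_eq hc0, XC_eq hc0] at hN
  have ehS : hS (4 * c0)⁻¹ Hr = (2 ^ 7 + 2) * (c0 * Hr) := by
    unfold hS; rw [inv4 hc0]
  have eeS : eS ρ (4 * c0)⁻¹ = (2 ^ 7 + 2) * (8 * (c0 * ρ) ^ 2) := by
    unfold eS; rw [inv4 hc0]
  rw [ehS, eeS, inv4 hc0] at hN
  have hSW : SW e R κ0 j S kap T (lU j e k P P' T Pf) (lW j e k P P' T Qf)
      (fun w u v => conj (al w u v)) F A g1 d1 g2 d2 ((2 ^ 7 + 2) * (c0 * Hr))
      ((2 ^ 7 + 2) * (c0 * Hr)) (c0 * G) (c0 * G) ((2 ^ 7 + 2) * (8 * (c0 * ρ) ^ 2) * G)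
      ((2 ^ 7 + 2) * (8 * (c0 * ρ) ^ 2) * G) mb H0 m0 := by
    have hHr := H.Hr0
    refine ⟨H.kap0, L.A0, L.g10, L.d10, L.g20, L.d20, by positivity, by positivity, L.flo, L.l2,
      L.nc1, L.nc2, u2, w2, u1, w1, u3, w3, ?_, ?_⟩
    · simpa only [RCLike.norm_conj] using L.gm
    · simpa only [RCLike.norm_conj] using L.gh
  have h1 := hL bb hbb R P' hR j e S kap T (lU j e k P P' T Pf) (lW j e k P P' T Qf)
    (fun w u v => conj (al w u v)) F A g1 d1 g2 d2 _ _ _ _ _ _ mb H0 m0 _ _ _ _ _ hSW hN (by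
      intro y hy
      rw [hF y hy]
      refine Finset.sum_congr rfl fun w _ => ?_
      congr 1
      unfold kerG
      refine Finset.sum_congr rfl fun z hz => Finset.sum_congr rfl fun u hu =>
        Finset.sum_congr rfl fun v hv => ?_
      by_cases hyz : Yl j e z u v = y
      · rw [if_pos hyz, if_pos hyz]
        have hyi : Yl j e z u v ∈ iv P' := by rw [hyz]; exact hy
        have e1 := H.lab w hz hu hv hyi
        exact congrArg (fun x => x * conj (al w u v)) e1.symm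
      · rw [if_neg hyz, if_neg hyz])
  refine h1.trans ?_
  have hΘ0 : 0 < Θ := by linarith [Z.Θ1]
  have hlog : 1 + 4 * Real.log (2 ^ 20 * Θ ^ 9) ≤ 57 * (1 + Real.log Θ) := by
    rw [Real.log_mul (by positivity) (by positivity), Real.log_pow, Real.log_pow]
    have h2 := Real.log_two_lt_d9
    have h3 : 0 ≤ Real.log Θ := Real.log_nonneg Z.Θ1
    push_cast
    linarith
  set X1 := XC A g1 d1 ρ c0 Hr m0 Θ⁻¹ with hX1
  set X2 := XC A g2 d2 ρ c0 Hr m0 Θ⁻¹ with hX2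
  have e3 : Real.sqrt (X1 * (G + Θ⁻¹) * (X2 * (G + Θ⁻¹))) = Real.sqrt (X1 * X2) * (G + Θ⁻¹) := by
    have h4 : X1 * (G + Θ⁻¹) * (X2 * (G + Θ⁻¹)) = X1 * X2 * (G + Θ⁻¹) ^ 2 := by ring
    have h5 : 0 ≤ G + Θ⁻¹ := by positivity
    rw [h4, Real.sqrt_mul' _ (sq_nonneg _), Real.sqrt_sq h5]
  rw [e3]
  calc K * (Real.sqrt (Real.sqrt (X1 * X2) * (G + Θ⁻¹) * (A * mb + Θ⁻¹)) *
        (1 + 4 * Real.log (2 ^ 20 * Θ ^ 9)) * 2 ^ (P'.1 + 7))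
      ≤ K * (Real.sqrt (Real.sqrt (X1 * X2) * (G + Θ⁻¹) * (A * mb + Θ⁻¹)) *
        (57 * (1 + Real.log Θ)) * 2 ^ (P'.1 + 7)) := by gcongr
    _ = _ := by ring

end Crest.Agent.R079.FrSx261
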