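import Crest.Agent.R079.FrQd_717
import Crest.Agent.R079.SKz_261

/-! R079 (helper360), T5b of note 1820: **the far word on a grid node for gauges with different boxes
of positions** (`fa_word`, from 717's `FqP`).

The energy is given pointwise: `‖CU‖, ‖CW‖ ≤ ‖B‖` on the cells and `B` has energy `≤ G 2^q0.1` on the
strip of `q0`. -/

set_option autoImplicit false
set_option linter.unusedSectionVars false

namespace Crest.Agent.R079.FrWx360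

open Finset Crest.Agent.R079.Grid Crest.Agent.R079.Growth Crest.Agent.R079.QRed
  Crest.Agent.R079.Qh249 Crest.Agent.R079.QVar181
  Crest.Agent.R079.TWin Crest.Agent.R079.Glue Crest.Agent.R079.SWc360 Crest.Agent.R079.Cel159
  Crest.Agent.R079.SplSx69 Crest.Agent.R079.ThA159 Crest.Agent.R079.SKx261
open Crest.Agent.R079.FrQx717 (tcell FQ FqP)

open scoped ComplexConjugate

/-- data of the frames of a node `P' = q0` below the sub-top `P = K`, one box of positions per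
gauge -/
structure FA {ι τ : Type} [Fintype ι] [Fintype τ] (kap : ι → ℝ) (j : Fin 4) (e : Fin 3)
    (k κ0 d C0 : ℕ) (P P' : Nd) (T0 T1 T2 : ι → Finset ℤ) (R : Finset Nd)
    (Pf Qf : ι → ℤ → ℕ × ℤ × ℤ → ℤ → τ → ℂ) (CU CW : ι → ℤ → ℕ × ℤ × ℤ → ℤ → ℤ → ℂ)
    (B : ι → ℤ × ℤ × ℤ → ℂ) (ρ r Hr G : ℝ) : Prop where
  kap0 : ∀ w, 0 ≤ kap w
  hC : 2 ^ κ0 ≤ C0
  hP : iv P' ⊆ iv P
  hna : ¬ Adj C0 P P'
  hR : ∀ p ∈ R, p.1 ≤ P'.1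
  hRd : ∀ p ∈ R, d ≤ p.1
  ρ0 : 0 ≤ ρ
  r0 : 0 < r
  Hr0 : 0 ≤ Hr
  G0 : 0 ≤ G
  full : ∀ w z u v, u ∈ T1 w → v ∈ T2 w → Yl j e z u v ∈ iv P → z ∈ T0 w
  supU : ∀ w z t u v, CU w z t u v ≠ 0 → u ∈ T1 w ∧ v ∈ T2 w ∧ Yl j e z u v ∈ iv P'
  supW : ∀ w z t u v, CW w z t u v ≠ 0 → u ∈ T1 w ∧ v ∈ T2 w ∧ Yl j e z u v ∈ iv P'
  opU : ∀ w, ∀ z ∈ T0 w, ∀ t : ℕ × ℤ × ℤ, Mx (Yl j e z) k P t.1 t.2.1 t.2.2 →
    ∀ n, d ≤ n → n ≤ P'.1 + κ0 → ∀ a b, dI n a ⊆ dI t.1 t.2.1 → dI n b ⊆ dI t.1 t.2.2 →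
      OpC (CU w z t) n a b ρ
  opW : ∀ w, ∀ z ∈ T0 w, ∀ t : ℕ × ℤ × ℤ, Mx (Yl j e z) k P t.1 t.2.1 t.2.2 →
    ∀ n, d ≤ n → n ≤ P'.1 + κ0 → ∀ a b, dI n a ⊆ dI t.1 t.2.1 → dI n b ⊆ dI t.1 t.2.2 →
      OpC (CW w z t) n a b ρ
  majU : ∀ w, ∀ z ∈ T0 w, ∀ t : ℕ × ℤ × ℤ, Mx (Yl j e z) k P t.1 t.2.1 t.2.2 →
    ∀ (a' : ℤ) (f : ℤ → ℂ),
    ∑ l, ‖∑ u ∈ dI P'.1 a' ∩ dI t.1 t.2.1, f u * Pf w z t u l‖ ^ 2 ≤
      (r⁻¹ / 2 ^ P'.1) * ∑ v ∈ dI t.1 t.2.2,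
        ‖∑ u ∈ dI P'.1 a' ∩ dI t.1 t.2.1, f u * CU w z t u v‖ ^ 2
  majW : ∀ w, ∀ z ∈ T0 w, ∀ t : ℕ × ℤ × ℤ, Mx (Yl j e z) k P t.1 t.2.1 t.2.2 →
    ∀ (b' : ℤ) (f : ℤ → ℂ),
    ∑ l, ‖∑ v ∈ dI P'.1 b' ∩ dI t.1 t.2.2, f v * Qf w z t v l‖ ^ 2 ≤
      (r⁻¹ / 2 ^ P'.1) * ∑ u ∈ dI t.1 t.2.1,
        ‖∑ v ∈ dI P'.1 b' ∩ dI t.1 t.2.2, f v * CW w z t u v‖ ^ 2
  rowU : ∀ w, ∀ z ∈ T0 w, ∀ t : ℕ × ℤ × ℤ, Mx (Yl j e z) k P t.1 t.2.1 t.2.2 →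
    ∀ u ∈ dI t.1 t.2.1, ∑ v ∈ dI t.1 t.2.2, ‖CU w z t u v‖ ^ 2 ≤ Hr * 2 ^ P'.1
  colW : ∀ w, ∀ z ∈ T0 w, ∀ t : ℕ × ℤ × ℤ, Mx (Yl j e z) k P t.1 t.2.1 t.2.2 →
    ∀ v ∈ dI t.1 t.2.2, ∑ u ∈ dI t.1 t.2.1, ‖CW w z t u v‖ ^ 2 ≤ Hr * 2 ^ P'.1
  ptU : ∀ w, ∀ z ∈ T0 w, ∀ t : ℕ × ℤ × ℤ, ∀ u ∈ dI t.1 t.2.1, ∀ v ∈ dI t.1 t.2.2,
    ‖CU w z t u v‖ ≤ ‖B w (z, u, v)‖
  ptW : ∀ w, ∀ z ∈ T0 w, ∀ t : ℕ × ℤ × ℤ, ∀ u ∈ dI t.1 t.2.1, ∀ v ∈ dI t.1 t.2.2,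
    ‖CW w z t u v‖ ≤ ‖B w (z, u, v)‖
  enB : ∑ w, kap w * ∑ ω ∈ (T0 w ×ˢ (T1 w ×ˢ T2 w)).filter
    (fun ω => Yl j e ω.1 ω.2.1 ω.2.2 ∈ iv P'), ‖B w ω‖ ^ 2 ≤ G * 2 ^ P'.1

/-- **energy over the cells from the energy over the positions** -/
theorem en_cells {j : Fin 4} {e : Fin 3} {k : ℕ} {P P' : Nd} {T : Fin 3 → Finset ℤ}
    {T0 T1 T2 : Finset ℤ} (hP : iv P' ⊆ iv P) (CU : ℤ → ℕ × ℤ × ℤ → ℤ → ℤ → ℂ)
    (B : ℤ × ℤ × ℤ → ℂ)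
    (hfull : ∀ z u v, u ∈ T1 → v ∈ T2 → Yl j e z u v ∈ iv P → z ∈ T0)
    (hsup : ∀ z t u v, CU z t u v ≠ 0 → u ∈ T1 ∧ v ∈ T2 ∧ Yl j e z u v ∈ iv P')
    (hpt : ∀ z ∈ T0, ∀ t : ℕ × ℤ × ℤ, ∀ u ∈ dI t.1 t.2.1, ∀ v ∈ dI t.1 t.2.2,
      ‖CU z t u v‖ ≤ ‖B (z, u, v)‖) :
    ∑ c ∈ Clx j e k P P' T, ∑ u ∈ dI c.2.1 c.2.2.1, ∑ v ∈ dI c.2.1 c.2.2.2,
        ‖CU c.1 c.2 u v‖ ^ 2 ≤
      ∑ ω ∈ (T0 ×ˢ (T1 ×ˢ T2)).filter (fun ω => Yl j e ω.1 ω.2.1 ω.2.2 ∈ iv P'), ‖B ω‖ ^ 2 := by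
  classical
  set St : Finset (ℤ × ℤ × ℤ) := (T0 ×ˢ (T1 ×ˢ T2)).filter
    (fun ω => Yl j e ω.1 ω.2.1 ω.2.2 ∈ iv P') with hSt
  have h1 : ∀ c ∈ Clx j e k P P' T, ∑ u ∈ dI c.2.1 c.2.2.1, ∑ v ∈ dI c.2.1 c.2.2.2,
      ‖CU c.1 c.2 u v‖ ^ 2 ≤ ∑ ω ∈ St.filter (fun ω => mcell (Yl j e) k P ω = c), ‖B ω‖ ^ 2 := by
    intro c hc
    obtain ⟨-, hM, -⟩ := Clx_spec hP hc
    rw [← Finset.sum_product']
    have h2 : ∑ x ∈ dI c.2.1 c.2.2.1 ×ˢ dI c.2.1 c.2.2.2, ‖CU c.1 c.2 x.1 x.2‖ ^ 2 =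
        ∑ x ∈ (dI c.2.1 c.2.2.1 ×ˢ dI c.2.1 c.2.2.2).filter
          (fun x => CU c.1 c.2 x.1 x.2 ≠ 0), ‖CU c.1 c.2 x.1 x.2‖ ^ 2 := by
      symm
      apply Finset.sum_subset (Finset.filter_subset _ _)
      intro x hx hx'
      rw [Finset.mem_filter, not_and, not_not] at hx'
      rw [hx' hx, norm_zero, zero_pow two_ne_zero]
    rw [h2]
    have hz : ∀ x ∈ (dI c.2.1 c.2.2.1 ×ˢ dI c.2.1 c.2.2.2).filter
        (fun x => CU c.1 c.2 x.1 x.2 ≠ 0), c.1 ∈ T0 ∧ x.1 ∈ dI c.2.1 c.2.2.1 ∧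
          x.2 ∈ dI c.2.1 c.2.2.2 ∧ x.1 ∈ T1 ∧ x.2 ∈ T2 ∧ Yl j e c.1 x.1 x.2 ∈ iv P' := by
      intro x hx
      rw [Finset.mem_filter, Finset.mem_product] at hx
      obtain ⟨a1, a2, a3⟩ := hsup c.1 c.2 x.1 x.2 hx.2
      exact ⟨hfull _ _ _ a1 a2 (hP a3), hx.1.1, hx.1.2, a1, a2, a3⟩
    calc ∑ x ∈ (dI c.2.1 c.2.2.1 ×ˢ dI c.2.1 c.2.2.2).filter
          (fun x => CU c.1 c.2 x.1 x.2 ≠ 0), ‖CU c.1 c.2 x.1 x.2‖ ^ 2
        ≤ ∑ x ∈ (dI c.2.1 c.2.2.1 ×ˢ dI c.2.1 c.2.2.2).filter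
          (fun x => CU c.1 c.2 x.1 x.2 ≠ 0), ‖B (c.1, x.1, x.2)‖ ^ 2 := by
          refine Finset.sum_le_sum fun x hx => ?_
          obtain ⟨b0, b1, b2, -⟩ := hz x hx
          exact pow_le_pow_left₀ (norm_nonneg _) (hpt c.1 b0 c.2 x.1 b1 x.2 b2) 2
      _ = ∑ ω ∈ ((dI c.2.1 c.2.2.1 ×ˢ dI c.2.1 c.2.2.2).filter
          (fun x => CU c.1 c.2 x.1 x.2 ≠ 0)).image (fun x => (c.1, x.1, x.2)), ‖B ω‖ ^ 2 := by
          rw [Finset.sum_image]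
          intro x _ x' _ hxx
          simp only [Prod.mk.injEq, true_and] at hxx
          exact Prod.ext hxx.1 hxx.2
      _ ≤ _ := by
          refine Finset.sum_le_sum_of_subset_of_nonneg ?_ fun _ _ _ => sq_nonneg _
          intro ω hω
          obtain ⟨x, hx, rfl⟩ := Finset.mem_image.1 hω
          obtain ⟨b0, b1, b2, b3, b4, b5⟩ := hz x hx
          rw [Finset.mem_filter]
          refine ⟨?_, ?_⟩
          · rw [hSt, Finset.mem_filter, Finset.mem_product, Finset.mem_product]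
            exact ⟨⟨b0, b3, b4⟩, b5⟩
          · have hM' : Mx (Yl j e c.1) k P (mcell (Yl j e) k P (c.1, x.1, x.2)).2.1
                (mcell (Yl j e) k P (c.1, x.1, x.2)).2.2.1
                (mcell (Yl j e) k P (c.1, x.1, x.2)).2.2.2 :=
              Mx_mcell (ω := (c.1, x.1, x.2)) (hP b5)
            have hu : x.1 ∈ dI (mcell (Yl j e) k P (c.1, x.1, x.2)).2.1
                (mcell (Yl j e) k P (c.1, x.1, x.2)).2.2.1 := by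
              rw [L0e.mem_dI]; rfl
            have hv : x.2 ∈ dI (mcell (Yl j e) k P (c.1, x.1, x.2)).2.1
                (mcell (Yl j e) k P (c.1, x.1, x.2)).2.2.2 := by
              rw [L0e.mem_dI]; rfl
            obtain ⟨e1, e2, e3⟩ := Mx_eq hM' hM hu b1 hv b2
            exact Prod.ext rfl (Prod.ext e1 (Prod.ext e2 e3))
  refine (Finset.sum_le_sum h1).trans ?_
  have h3 : ∑ c ∈ Clx j e k P P' T, ∑ ω ∈ St.filter (fun ω => mcell (Yl j e) k P ω = c),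
      ‖B ω‖ ^ 2 = ∑ ω ∈ St.filter (fun ω => mcell (Yl j e) k P ω ∈ Clx j e k P P' T),
        ‖B ω‖ ^ 2 := by
    rw [← Finset.sum_fiberwise_of_maps_to (s := St.filter
      (fun ω => mcell (Yl j e) k P ω ∈ Clx j e k P P' T)) (t := Clx j e k P P' T)
      (g := mcell (Yl j e) k P) (fun ω hω => (Finset.mem_filter.1 hω).2)]
    refine Finset.sum_congr rfl fun c hc => Finset.sum_congr ?_ fun _ _ => rfl
    ext ω
    simp only [Finset.mem_filter]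
    constructor
    · rintro ⟨a1, a2⟩
      exact ⟨⟨a1, by rw [a2]; exact hc⟩, a2⟩
    · rintro ⟨⟨a1, _⟩, a2⟩
      exact ⟨a1, a2⟩
  rw [h3]
  exact Finset.sum_le_sum_of_subset_of_nonneg (Finset.filter_subset _ _) fun _ _ _ => sq_nonneg _

/-- **the far word on a grid node, one box of positions per gauge** -/
theorem fa_word (hfq : FqP) : ∃ K : ℝ, 0 ≤ K ∧ ∃ κ0 : ℕ, ∀ (bb : ℤ), bb = -1 ∨ bb = -7 →
    ∀ (R : Finset Nd) (P' : Nd), IsRegion R P' → ∀ (j : Fin 4) (e : Fin 3) {ι τ : Type}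
    [Fintype ι] [Fintype τ] [DecidableEq τ] (kap : ι → ℝ) (k d C0 : ℕ) (P : Nd)
    (T0 T1 T2 : ι → Finset ℤ) (Pf Qf : ι → ℤ → ℕ × ℤ × ℤ → ℤ → τ → ℂ)
    (CU CW : ι → ℤ → ℕ × ℤ × ℤ → ℤ → ℤ → ℂ) (B : ι → ℤ × ℤ × ℤ → ℂ) (ρ r Hr G : ℝ)
    (al : ι → ℤ → ℤ → ℂ) (F : Fin 4 → ℤ → ℂ) (A g1 d1 g2 d2 mb H0 : ℝ) (m0 : ℕ) (Θ : ℝ),
    FA kap j e k κ0 d C0 P P' T0 T1 T2 R Pf Qf CU CW B ρ r Hr G →
    SKB kap j e T1 T2 R al F A g1 d1 g2 d2 mb H0 → (∀ p ∈ R, m0 ≤ p.1) →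
    SKZ Θ A g1 d1 g2 d2 ρ r Hr G mb H0 →
    (∀ y ∈ iv P', F j y = ∑ w, (kap w : ℂ) *
      ∑ ω ∈ (T0 w ×ˢ (T1 w ×ˢ T2 w)).filter (fun ω => Yl j e ω.1 ω.2.1 ω.2.2 = y),
        (∑ l, Pf w ω.1 (tcell j e k P ω.1 ω.2.1 ω.2.2) ω.2.1 l *
          Qf w ω.1 (tcell j e k P ω.1 ω.2.1 ω.2.2) ω.2.2 l) * conj (al w ω.2.1 ω.2.2)) →
    ∑ p ∈ R, ∑ x ∈ adm p.1 p.2, ‖Lbox (2 ^ p.1) bb F x‖ ≤
      K * (Real.sqrt (Real.sqrt (XS A g1 d1 ρ r Hr m0 Θ⁻¹ * XS A g2 d2 ρ r Hr m0 Θ⁻¹) *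
        (G + Θ⁻¹) * (A * mb + Θ⁻¹)) * (1 + Real.log Θ) * 2 ^ (P'.1 + 7)) := by
  classical
  obtain ⟨K, hK, κ0, h⟩ := hfq
  refine ⟨K, hK, κ0, ?_⟩
  intro bb hbb R P' hR j e ι τ _ _ _ kap k d C0 P T0 T1 T2 Pf Qf CU CW B ρ r Hr G al F A g1 d1 g2 d2
    mb H0 m0 Θ HA HB hm0 Z hrep
  set T : Fin 3 → Finset ℤ := T3 e (univ.biUnion T0) (univ.biUnion T1) (univ.biUnion T2) with hT
  have t0 : T e = univ.biUnion T0 := T3_0 _ _ _ _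
  have t1 : T (e + 1) = univ.biUnion T1 := T3_1 _ _ _ _
  have t2 : T (e + 2) = univ.biUnion T2 := T3_2 _ _ _ _
  have s0 : ∀ w, T0 w ⊆ T e := fun w => by
    rw [t0]; exact Finset.subset_biUnion_of_mem T0 (Finset.mem_univ w)
  have s1 : ∀ w, T1 w ⊆ T (e + 1) := fun w => by
    rw [t1]; exact Finset.subset_biUnion_of_mem T1 (Finset.mem_univ w)
  have s2 : ∀ w, T2 w ⊆ T (e + 2) := fun w => by
    rw [t2]; exact Finset.subset_biUnion_of_mem T2 (Finset.mem_univ w)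
  have mb3 : ∀ w (z u v : ℤ), (z, u, v) ∈ T0 w ×ˢ (T1 w ×ˢ T2 w) ↔ z ∈ T0 w ∧ u ∈ T1 w ∧ v ∈ T2 w :=
    fun w z u v => by rw [Finset.mem_product, Finset.mem_product]
  set Pf' : ι → ℤ → ℕ × ℤ × ℤ → ℤ → τ → ℂ := fun w z t u l =>
    if z ∈ T0 w then Pf w z t u l else 0 with hPf'
  set Qf' : ι → ℤ → ℕ × ℤ × ℤ → ℤ → τ → ℂ := fun w z t u l =>
    if z ∈ T0 w then Qf w z t u l else 0 with hQf'
  set al' : ι → ℤ → ℤ → ℂ := fun w u v => if u ∈ T1 w ∧ v ∈ T2 w then al w u v else 0 with hal'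
  have zU : ∀ w z, z ∉ T0 w → ∀ t u v, CU w z t u v = 0 := by
    intro w z hz t u v
    by_contra hne
    obtain ⟨a1, a2, a3⟩ := HA.supU w z t u v hne
    exact hz (HA.full w z u v a1 a2 (HA.hP a3))
  have zW : ∀ w z, z ∉ T0 w → ∀ t u v, CW w z t u v = 0 := by
    intro w z hz t u v
    by_contra hne
    obtain ⟨a1, a2, a3⟩ := HA.supW w z t u v hne
    exact hz (HA.full w z u v a1 a2 (HA.hP a3))
  have zOp : ∀ {C : ℤ → ℤ → ℂ}, (∀ u v, C u v = 0) → ∀ n a b, OpC C n a b ρ := by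
    intro C hC n a b ξ ζ
    have e0 : ∑ u ∈ dI n a, ∑ v ∈ dI n b, C u v * (ξ u * ζ v) = 0 :=
      Finset.sum_eq_zero fun u _ => Finset.sum_eq_zero fun v _ => by rw [hC, zero_mul]
    rw [e0, norm_zero]
    have := HA.ρ0
    positivity
  have hri : 0 ≤ r⁻¹ / 2 ^ P'.1 := by
    have := HA.r0
    positivity
  have hFQ : FQ (univ : Finset ι) kap j e k κ0 d C0 P P' T R Pf' Qf' CU CW ρ r Hr G := by
    refine ⟨fun w _ => HA.kap0 w, HA.hC, HA.hP, HA.hna, HA.hR, HA.hRd, HA.ρ0, HA.r0, HA.Hr0, HA.G0,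
      ?_, ?_, ?_, ?_, ?_, ?_, ?_, ?_, ?_, ?_⟩
    · intro w _ z _ t u v hne
      obtain ⟨a1, a2, a3⟩ := HA.supU w z t u v hne
      exact ⟨s1 w a1, s2 w a2, a3⟩
    · intro w _ z _ t u v hne
      obtain ⟨a1, a2, a3⟩ := HA.supW w z t u v hne
      exact ⟨s1 w a1, s2 w a2, a3⟩
    · intro w _ z _ t hM n hd hn a b ha hb
      by_cases hz : z ∈ T0 w
      · exact HA.opU w z hz t hM n hd hn a b ha hb
      · exact zOp (zU w z hz t) n a b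
    · intro w _ z _ t hM n hd hn a b ha hb
      by_cases hz : z ∈ T0 w
      · exact HA.opW w z hz t hM n hd hn a b ha hb
      · exact zOp (zW w z hz t) n a b
    · intro w _ z _ t hM a' f
      by_cases hz : z ∈ T0 w
      · simp only [hPf', if_pos hz]
        exact HA.majU w z hz t hM a' f
      · simp only [hPf', if_neg hz, mul_zero, Finset.sum_const_zero, norm_zero, ne_eq,
          OfNat.ofNat_ne_zero, not_false_eq_true, zero_pow]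
        exact mul_nonneg hri (Finset.sum_nonneg fun _ _ => sq_nonneg _)
    · intro w _ z _ t hM b' f
      by_cases hz : z ∈ T0 w
      · simp only [hQf', if_pos hz]
        exact HA.majW w z hz t hM b' f
      · simp only [hQf', if_neg hz, mul_zero, Finset.sum_const_zero, norm_zero, ne_eq,
          OfNat.ofNat_ne_zero, not_false_eq_true, zero_pow]
        exact mul_nonneg hri (Finset.sum_nonneg fun _ _ => sq_nonneg _)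
    · intro w _ z _ t hM u hu
      by_cases hz : z ∈ T0 w
      · exact HA.rowU w z hz t hM u hu
      · rw [Finset.sum_eq_zero fun v _ => by rw [zU w z hz, norm_zero, zero_pow two_ne_zero]]
        have := HA.Hr0
        positivity
    · intro w _ z _ t hM v hv
      by_cases hz : z ∈ T0 w
      · exact HA.colW w z hz t hM v hv
      · rw [Finset.sum_eq_zero fun u _ => by rw [zW w z hz, norm_zero, zero_pow two_ne_zero]]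
        have := HA.Hr0
        positivity
    · refine le_trans (Finset.sum_le_sum fun w _ => mul_le_mul_of_nonneg_left ?_ (HA.kap0 w))
        HA.enB
      exact en_cells HA.hP (CU w) (B w) (HA.full w) (HA.supU w) (HA.ptU w)
    · refine le_trans (Finset.sum_le_sum fun w _ => mul_le_mul_of_nonneg_left ?_ (HA.kap0 w))
        HA.enB
      exact en_cells HA.hP (CW w) (B w) (HA.full w) (HA.supW w) (HA.ptW w)
  have hSKL : SKL (univ : Finset ι) kap j e T R al' F A g1 d1 g2 d2 mb H0 m0 := by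
    refine ⟨HB.A0, HB.g10, HB.d10, HB.g20, HB.d20, HB.H00, hm0, HB.l2, HB.nc1, HB.nc2, ?_, ?_⟩
    · refine le_trans (Finset.sum_le_sum fun w _ => mul_le_mul_of_nonneg_left ?_ (HA.kap0 w)) HB.gm
      rw [← Finset.sum_subset (s1 w) (f := fun u => ∑ v ∈ T (e + 2), ‖al' w u v‖ ^ 2)]
      · refine Finset.sum_le_sum fun u hu => ?_
        rw [← Finset.sum_subset (s2 w) (f := fun v => ‖al' w u v‖ ^ 2)]
        · refine le_of_eq (Finset.sum_congr rfl fun v hv => ?_)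
          simp only [hal']
          rw [if_pos ⟨hu, hv⟩]
        · intro v _ hv
          simp only [hal']
          rw [if_neg (fun hc => hv hc.2), norm_zero, zero_pow two_ne_zero]
      · intro u _ hu
        refine Finset.sum_eq_zero fun v _ => ?_
        simp only [hal']
        rw [if_neg (fun hc => hu hc.1), norm_zero, zero_pow two_ne_zero]
    · intro w _ u v y
      simp only [hal']
      split_ifs with hc
      · exact HB.gh w u hc.1 v hc.2 y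
      · rw [norm_zero, zero_mul]
        exact HB.H00
  refine h bb hbb R P' hR j e (univ : Finset ι) kap k d C0 P T Pf' Qf' CU CW ρ r Hr G al' F A g1 d1
    g2 d2 mb H0 m0 Θ hFQ hSKL Z ?_
  intro y hy
  rw [hrep y hy]
  refine Finset.sum_congr rfl fun w _ => ?_
  congr 1
  have hk : kerG j e T (fun z u v => (∑ l, Pf' w z (tcell j e k P z u v) u l *
      Qf' w z (tcell j e k P z u v) v l) * conj (al' w u v)) y =
      ∑ ω ∈ (S3 T e).filter (fun ω => Yl j e ω.1 ω.2.1 ω.2.2 = y),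
        (∑ l, Pf' w ω.1 (tcell j e k P ω.1 ω.2.1 ω.2.2) ω.2.1 l *
          Qf' w ω.1 (tcell j e k P ω.1 ω.2.1 ω.2.2) ω.2.2 l) * conj (al' w ω.2.1 ω.2.2) := by
    unfold kerG S3
    rw [Finset.sum_filter, Finset.sum_product]
    refine Finset.sum_congr rfl fun z _ => ?_
    rw [Finset.sum_product]
  rw [hk]
  have hsub : (T0 w ×ˢ (T1 w ×ˢ T2 w)).filter (fun ω => Yl j e ω.1 ω.2.1 ω.2.2 = y) ⊆
      (S3 T e).filter (fun ω => Yl j e ω.1 ω.2.1 ω.2.2 = y) := by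
    intro ω hω
    rw [Finset.mem_filter] at hω ⊢
    obtain ⟨a1, a2, a3⟩ := (mb3 w ω.1 ω.2.1 ω.2.2).1 hω.1
    exact ⟨mem_S3.2 ⟨s0 w a1, s1 w a2, s2 w a3⟩, hω.2⟩
  rw [← Finset.sum_subset hsub]
  · refine Finset.sum_congr rfl fun ω hω => ?_
    obtain ⟨z, u, v⟩ := ω
    rw [Finset.mem_filter] at hω
    obtain ⟨a1, a2, a3⟩ := (mb3 w z u v).1 hω.1
    simp only [hPf', hQf', hal', if_pos a1, if_pos (show u ∈ T1 w ∧ v ∈ T2 w from ⟨a2, a3⟩)]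
  · intro ω hω hω'
    obtain ⟨z, u, v⟩ := ω
    rw [Finset.mem_filter] at hω
    have hyω : Yl j e z u v = y := hω.2
    have e3 : al' w u v = 0 := by
      simp only [hal']
      rw [if_neg]
      intro hc
      apply hω'
      refine Finset.mem_filter.2 ⟨(mb3 w z u v).2 ⟨?_, hc⟩, hω.2⟩
      exact HA.full w z u v hc.1 hc.2 (by rw [hyω]; exact HA.hP hy)
    show _ * conj (al' w u v) = 0
    rw [e3, map_zero, mul_zero]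

end Crest.Agent.R079.FrWx360
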