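import Crest.Agent.R079.FrZa_360
import Crest.Agent.R079.FrQ_717
import Crest.Agent.R079.GaD_571

/-! R079 (helper360), T5b of note 1820: **the (S) word of one window for a family of op-atoms** from
the frame data `FC` of the ladder steps on the grid nodes (`win_one`). -/

set_option autoImplicit false
set_option linter.unusedSectionVars false

namespace Crest.Agent.R079.FrZx360

open Finset Crest.Agent.R079.Grid Crest.Agent.R079.Growth Crest.Agent.R079.QRed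
  Crest.Agent.R079.Qh249 Crest.Agent.R079.QVar181
  Crest.Agent.R079.TWin Crest.Agent.R079.Glue Crest.Agent.R079.SWc360 Crest.Agent.R079.Cel159
  Crest.Agent.R079.SplSx69 Crest.Agent.R079.ThA159 Crest.Agent.R079.SKx261
open Crest.Agent.R079.NC237 (NC2 NCol nc2_of_ncol)
open Crest.Agent.R079.F2
open Crest.Agent.R079.GaFx371 (Ye W0 SE BdE poE mem_W0)
open Crest.Agent.R079.YeYlx263 (xs)
open Crest.Agent.R079.ElS440 (Ln LnF)
open Crest.Agent.R079.FrWx360 (tcY FC Nc win_tot fc_word1)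
open Crest.Agent.R079.PFx263 (Fam)
open Crest.Agent.R079.GaDx571 (sd sd_pos)
open Crest.Agent.R079.NodeWx254 (node_g0)

open scoped ComplexConjugate

/-- frame data of the letter `s` on the node `P'`, one label set -/
def FCe {n : ℕ} (κ : Fin n → ℝ) (i : Fin 4) (e : Fin 3) (n1 k κ0 d : ℕ) (P P' J0 : Nd)
    (T : Fin n → Fin 3 → Finset ℤ) (R : Finset Nd) (g : Fin n → Fin 3 → ℤ → ℤ → ℂ)
    (ρ r Hr G : ℝ) (s : Fn) : Prop :=
  ∃ (C0 : ℕ) (τ : Type) (_ : Fintype τ) (_ : DecidableEq τ)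
    (Pf Qf : Fin n → ℤ → ℕ × ℤ × ℤ → ℤ → τ → ℂ) (CU CW : Fin n → ℤ → ℕ × ℤ × ℤ → ℤ → ℤ → ℂ)
    (B : Fin n → ℤ × ℤ × ℤ → ℂ), FC κ i e n1 k κ0 d C0 P P' J0 T R Pf Qf CU CW B ρ r Hr G ∧
    ∀ y ∈ iv P', s y = LnF (fun l => BdE i e (T l) J0) (fun _ => poE i e)
      (fun _ => 1 / (n1 : ℝ) ^ 2) (fun l ω => g l e ω.2.1 ω.2.2) κ P (FrWx360.ZF i e k P Pf Qf) y

open Classical in
/-- nodes of a window below a grid node, not bottom -/
noncomputable def RQ (W : Finset Nd) (n0 : ℕ) (q : Nd) : Finset Nd :=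
  W.filter (fun p => Le p q ∧ n0 ≤ p.1)

open Classical in
lemma mem_RQ {W : Finset Nd} {n0 : ℕ} {q p : Nd} : p ∈ RQ W n0 q ↔ p ∈ W ∧ Le p q ∧ n0 ≤ p.1 := by
  unfold RQ
  rw [Finset.mem_filter]

lemma RQ_region {W : Finset Nd} {K : Nd} (hW : Full W K) {n0 : ℕ} {q : Nd} (hq : Le q K) :
    IsRegion (RQ W n0 q) q := by
  refine ⟨fun p hp => (mem_RQ.1 hp).2.1, fun p hp s h1 h2 => ?_⟩
  obtain ⟨a1, a2, a3⟩ := mem_RQ.1 hp
  have h4 : p.1 ≤ s.1 := (le_iff.1 (show Le p s from h1)).1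
  exact mem_RQ.2 ⟨hW.reg.2 p a1 s h1 (h2.trans hq), h2, a3.trans h4⟩

/-- gain of one ladder step -/
noncomputable def gX (A gk dk Sb mb ρ r Hr : ℝ) (m0 : ℕ) (Θ : ℝ) : ℝ :=
  (1 + Real.log Θ) * Real.sqrt (Real.sqrt (XS A gk dk ρ r Hr m0 Θ⁻¹ *
    XS A (Sb ^ 2) 0 ρ r Hr m0 Θ⁻¹) * (A * mb + Θ⁻¹))

lemma f3x : ∀ e : Fin 3, e = e + 2 + 1 := by decide

/-- slots: the killer and the partner -/
lemma slot_cases (i : Fin 4) (v e : Fin 3) (he : e ≠ v + 1) :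
    (i.succAbove e = i.succAbove v ∧ i.succAbove (e + 1) ≠ i ∧
      i.succAbove (e + 1) ≠ i.succAbove v ∧ i.succAbove (e + 1) ≠ xs i e) ∨
    (i.succAbove (e + 1) = i.succAbove v ∧ i.succAbove e ≠ i ∧
      i.succAbove e ≠ i.succAbove v ∧ i.succAbove e ≠ xs i e) := by
  unfold xs
  decide +revert

/-- a slot which is neither frozen nor the line slot is the killer or the partner -/
lemma dst_slots (i : Fin 4) (v e : Fin 3) (he : e ≠ v + 1) :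
    ∃ y : Fin 4, Dst i (i.succAbove v) (xs i e) y ∧ y ≠ i ∧ y ≠ i.succAbove v ∧ y ≠ xs i e := by
  unfold xs Dst
  decide +revert

section

variable {i m : Fin 4} {v : Fin 3} {n : ℕ} {I : Nd} {Ht Hf La : ℝ} {f : Fn}
  {T : Fin n → Fin 3 → Finset ℤ} {g : Fin n → Fin 3 → ℤ → ℤ → ℂ} {θ : Fin n → ℤ → ℝ}
  {μ : Fin n → ℝ}

/-- the gauge of an edge which is not the killed one is bounded -/
lemma gauge_le (h : Fam i m v I Ht Hf La n f T g θ μ) (hHf : 0 ≤ Hf) {e : Fin 3} (he : e ≠ v + 1)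
    (l : Fin n) (z z' : ℤ) : ‖g l e z z'‖ ≤ Real.sqrt (Hf * Ht) := by
  have hO := h.opD l
  apply Real.le_sqrt_of_sq_le
  rcases GaFx371.f3b v e with h1 | h1 | h1
  · rw [h1]
    exact (hO.UH z z').trans (mul_le_mul_of_nonneg_left (hO.αH z) hHf)
  · exact absurd h1 he
  · rw [h1]
    exact (hO.VH z' z).trans (mul_le_mul_of_nonneg_left (hO.αH z') hHf)

/-- mass of the gauges -/
lemma gauge_mass (h : Fam i m v I Ht Hf La n f T g θ μ) {kap : ℝ} (hkap : 0 ≤ kap) (hLa : 0 < La)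
    (e : Fin 3) : ∑ l, kap * μ l / La * (1 / ((sd I : ℕ) : ℝ) ^ 2 *
      ∑ z ∈ T l e, ∑ z' ∈ T l (e + 1), ‖g l e z z'‖ ^ 2) ≤ kap := by
  have hs : (0 : ℝ) < ((sd I : ℕ) : ℝ) := by exact_mod_cast sd_pos I
  have h1 : ∀ l, kap * μ l / La * (1 / ((sd I : ℕ) : ℝ) ^ 2 *
      ∑ z ∈ T l e, ∑ z' ∈ T l (e + 1), ‖g l e z z'‖ ^ 2) ≤ kap * μ l / La := by
    intro l
    have h2 := (h.opD l).mass_v e
    have h3 : 1 / ((sd I : ℕ) : ℝ) ^ 2 * ∑ z ∈ T l e, ∑ z' ∈ T l (e + 1), ‖g l e z z'‖ ^ 2 ≤ 1 := by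
      rw [div_mul_eq_mul_div, one_mul, div_le_one (by positivity), sq]
      exact h2
    have h4 : 0 ≤ kap * μ l / La := div_nonneg (mul_nonneg hkap (h.μ0 l)) hLa.le
    exact mul_le_of_le_one_right h4 h3
  refine (Finset.sum_le_sum fun l _ => h1 l).trans ?_
  rw [← Finset.sum_div, ← Finset.mul_sum, div_le_iff₀ hLa]
  exact mul_le_mul_of_nonneg_left h.μ1 hkap

/-- **data of the letters of a far word** -/
theorem skd_of (h : Fam i m v I Ht Hf La n f T g θ μ) (hHf : 0 ≤ Hf) (hLa : 0 < La)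
    {kap : ℝ} (hkap : 0 ≤ kap) {e : Fin 3} {R : Finset Nd}
    {F : Fin 4 → Fn} {A g1 d1 g2 d2 Hs : ℝ} (he : e ≠ v + 1) (hA : 0 ≤ A)
    (hl2 : ∀ p ∈ R, ∀ s, s ≠ xs i e → ∑ y ∈ iv p, ‖F s y‖ ^ 2 ≤ A * len p)
    (hg1 : 0 ≤ g1) (hd1 : 0 ≤ d1) (hg2 : 0 ≤ g2) (hd2 : 0 ≤ d2)
    (hn1 : ∀ p ∈ R, NCs p g1 d1 (F (i.succAbove e)))
    (hn2 : ∀ p ∈ R, NCs p g2 d2 (F (i.succAbove (e + 1))))
    (hHs0 : 0 ≤ Hs) (hHs : ∀ y, ‖F i y‖ ≤ Hs) :
    SKD (fun l => kap * μ l / La) i e (sd I) T R g F A g1 d1 g2 d2 kap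
      (Real.sqrt (Hf * Ht) * Hs) where
  A0 := hA
  g10 := hg1
  d10 := hd1
  g20 := hg2
  d20 := hd2
  H00 := mul_nonneg (Real.sqrt_nonneg _) hHs0
  l2 := hl2
  nc1 := hn1
  nc2 := hn2
  gm := gauge_mass h hkap hLa e
  gh := fun l z _ z' _ y => mul_le_mul (gauge_le h hHf he l z z') (hHs y) (norm_nonneg _)
    (Real.sqrt_nonneg _)

end

/-- **THE (S) WORD OF ONE WINDOW** -/
theorem win_one : ∃ K0 : ℝ, 0 ≤ K0 ∧ ∃ κ0 : ℕ, ∀ {i m : Fin 4} {v : Fin 3} {n : ℕ} {I : Nd}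
    {Ht Hf La : ℝ} {f : Fn} {T : Fin n → Fin 3 → Finset ℤ} {g : Fin n → Fin 3 → ℤ → ℤ → ℂ}
    {θ : Fin n → ℤ → ℝ} {μ : Fin n → ℝ}, Fam i m v I Ht Hf La n f T g θ μ → 0 ≤ Hf → 0 < La →
    ∀ (bb : ℤ), bb = -1 ∨ bb = -7 → ∀ (e : Fin 3), e ≠ v + 1 → ∀ (W : Finset Nd) (K : Nd),
    Full W K → iv K ⊆ iv I → ∀ (kap : ℝ), 0 ≤ kap → ∀ (kc j0 n0 Kl : ℕ) (Q : Finset Nd)
    (dd : Nd → ℕ) (G : Fin 4 → Fn) (Sf : ℕ → Nd → Fn) (A Ai Hs Bm gk dk Sa Sb Θ E X : ℝ)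
    (ρ r Hr : ℕ → ℝ) (En : ℕ → Nd → ℝ),
    (∀ q ∈ Q, Le q K ∧ q.1 = K.1 - j0) →
    (∀ p ∈ W, ¬ Nc j0 n0 K p → ∃ q ∈ Q, Le p q) →
    0 ≤ gk → 0 ≤ dk → 0 ≤ Hs → 0 ≤ Sa → 0 ≤ Sb → 0 ≤ X → 0 ≤ A → Ai ^ 2 ≤ A → Bm ^ 2 ≤ A →
    Sb ^ 2 ≤ A →
    (∀ p ∈ W, av p (G i) ≤ Ai) → (∀ y ∈ iv I, ‖G i y‖ ≤ Hs) → (∀ p ∈ W, av p (G m) ≤ Bm) →
    NCol W (G m) gk dk → (∀ p ∈ W, av p (G (xs i e)) ≤ Sa) →
    (∀ p ∈ W, ∀ s, s ≠ i → s ≠ m → s ≠ xs i e → av p (G s) ≤ Sb) →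
    (∀ q ∈ Q, ∀ y ∈ iv q, G (xs i e) y = ∑ a : Fin Kl, ((a : ℕ) + 1 : ℂ) * Sf a q y) →
    (∀ q ∈ Q, ∀ a < Kl, FCe (fun l => kap * μ l / La) i e (sd I) kc κ0 (dd q) K q I T
      (RQ W n0 q) g (ρ a) (r a) (Hr a) (En a q) (Sf a q)) →
    (∀ a < Kl, ∑ q ∈ Q, En a q * (2 : ℝ) ^ (q.1 + 7) ≤ E * 2 ^ (K.1 + 7)) →
    (∀ a < Kl, SKZ Θ A gk dk (Sb ^ 2) 0 (ρ a) (r a) (Hr a) 0 kap (Real.sqrt (Hf * Ht) * Hs)) →
    (∀ a < Kl, gX A gk dk Sb kap (ρ a) (r a) (Hr a) n0 Θ ≤ X) →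
    ∑ p ∈ W, ∑ x ∈ adm p.1 p.2, ‖Lbox (2 ^ p.1) bb G x‖ ≤
      ((j0 + 1 + n0) * (2 ^ 12 * Real.sqrt (3 * gk * Ai ^ 2 + dk * (Hs ^ 2 * Bm ^ 2)) * Sa * Sb) +
        (Kl : ℝ) ^ 2 * (K0 * X) * (1 + E)) * 2 ^ (K.1 + 7) := by
  classical
  obtain ⟨K0, hK0, κ0, hfc⟩ := fc_word1 FrQx717.fq_word
  refine ⟨K0, hK0, κ0, ?_⟩
  intro i m v n I Ht Hf La f T g θ μ h hHf hLa bb hbb e he W K hW hKI kap hkap kc j0 n0 Kl Q dd
    G Sf A Ai Hs Bm gk dk Sa Sb Θ E X ρ r Hr En hQm hQ hgk hdk hHs hSa hSb hX hA hAi hBm hSbA hGi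
    hGH hGm hnc hGx hGy hrep hFC hEn hZ hgX
  have hvm := h.vm
  subst hvm
  -- the frozen letter is cut outside `iv I`
  set f' : Fn := fun y => if y ∈ iv I then G i y else 0 with hf'
  set H : Fin 4 → Fn := Function.update G i f' with hH
  have hxi : xs i e ≠ i := Fin.succAbove_ne _ _
  have hHx : H (xs i e) = G (xs i e) := Function.update_of_ne hxi _ _
  have hHi : H i = f' := Function.update_self _ _ _
  have hWI : ∀ p ∈ W, iv p ⊆ iv I := fun p hp => (hW.reg.1 p hp).trans hKI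
  have hHeq : ∀ p ∈ W, ∀ s, ∀ y ∈ iv p, G s y = H s y := by
    intro p hp s y hy
    by_cases hs : s = i
    · subst hs
      rw [hHi, hf']
      simp only [hWI p hp hy, if_true]
    · rw [hH, Function.update_of_ne hs]
  have hcong : ∑ p ∈ W, ∑ x ∈ adm p.1 p.2, ‖Lbox (2 ^ p.1) bb G x‖ =
      ∑ p ∈ W, ∑ x ∈ adm p.1 p.2, ‖Lbox (2 ^ p.1) bb H x‖ := by
    refine Finset.sum_congr rfl fun p hp => Finset.sum_congr rfl fun x hx => ?_
    rw [Qb247.Lbox_congr p.1 p.2 bb x hbb hx G H (fun s y hy => hHeq p hp s y hy)]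
  rw [hcong]
  have havH : ∀ p ∈ W, ∀ s, av p (H s) = av p (G s) := fun p hp s => by
    unfold av av2
    congr 2
    exact Finset.sum_congr rfl fun y hy => by rw [hHeq p hp s y hy]
  obtain ⟨y0, hDst, hy1, hy2, hy3⟩ := dst_slots i v e he
  have hHm : H (i.succAbove v) = G (i.succAbove v) :=
    Function.update_of_ne (Fin.succAbove_ne _ _) _ _
  -- the near nodes
  have hnear : ∀ p ∈ W, ∑ x ∈ adm p.1 p.2, ‖Lbox (2 ^ p.1) bb H x‖ ≤
      (2 ^ 12 * Real.sqrt (3 * gk * Ai ^ 2 + dk * (Hs ^ 2 * Bm ^ 2)) * Sa * Sb) *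
        2 ^ (p.1 + 7) := by
    intro p hp
    refine node_g0 (a := xs i e) (b := y0) hDst hbb hp H hgk hdk hHs hSa ?_ ?_ ?_ ?_ ?_ ?_
    · rw [havH p hp]; exact hGi p hp
    · intro z hz
      rw [← hHeq p hp i z hz]
      exact hGH z (hWI p hp hz)
    · rw [havH p hp]; exact hGm p hp
    · rw [hHm]; exact hnc
    · rw [havH p hp]; exact hGx p hp
    · rw [havH p hp]; exact hGy p hp y0 hy1 hy2 hy3
  have key := win_tot (σ := Fin Kl) hbb (W := W) (P := K) (fun p hp => hW.reg.1 p hp) j0 n0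
    (xs i e) H (g0 := 2 ^ 12 * Real.sqrt (3 * gk * Ai ^ 2 + dk * (Hs ^ 2 * Bm ^ 2)) * Sa * Sb)
    (by positivity) (fun p hp _ => hnear p hp) Q hQ (m := K.1 - j0) hQm
    (fun a => ((a : ℕ) + 1 : ℂ)) (fun a q => Sf a q)
    (fun q hq y hy => by rw [hHx]; exact hrep q hq y hy)
    (fun a q => En a q) (X := K0 * X) (E := E) (by positivity) ?_ (fun a => hEn a a.2)
  · refine key.trans ?_
    have h1 : ∑ a : Fin Kl, ‖((a : ℕ) + 1 : ℂ)‖ ≤ (Kl : ℝ) ^ 2 := by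
      have h2 : ∀ a : Fin Kl, ‖((a : ℕ) + 1 : ℂ)‖ ≤ (Kl : ℝ) := by
        intro a
        have h3 : ((a : ℕ) + 1 : ℂ) = (((a : ℕ) + 1 : ℕ) : ℂ) := by push_cast; ring
        rw [h3, Complex.norm_natCast]
        exact_mod_cast a.2
      refine (Finset.sum_le_sum fun a _ => h2 a).trans (le_of_eq ?_)
      rw [Finset.sum_const, Finset.card_univ, Fintype.card_fin, nsmul_eq_mul, sq]
    by_cases hKl : Kl = 0
    · subst hKl
      simp
    · have hE : 0 ≤ 1 + E := by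
        have h4 := hEn 0 (Nat.pos_of_ne_zero hKl)
        have h5 : 0 ≤ ∑ q ∈ Q, En 0 q * (2 : ℝ) ^ (q.1 + 7) := by
          refine Finset.sum_nonneg fun q hq => ?_
          obtain ⟨C0, τ, _, _, Pf, Qf, CU, CW, B, hFCq, _⟩ := hFC q hq 0 (Nat.pos_of_ne_zero hKl)
          exact mul_nonneg hFCq.G0 (by positivity)
        have h6 : (0 : ℝ) < 2 ^ (K.1 + 7) := by positivity
        have h7 : 0 ≤ E := by
          by_contra hneg
          push Not at hneg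
          have : E * 2 ^ (K.1 + 7) < 0 := mul_neg_of_neg_of_pos hneg h6
          linarith
        linarith
      have h8 : (∑ a : Fin Kl, ‖((a : ℕ) + 1 : ℂ)‖) * (K0 * X) * (1 + E) ≤
          (Kl : ℝ) ^ 2 * (K0 * X) * (1 + E) :=
        mul_le_mul_of_nonneg_right (mul_le_mul_of_nonneg_right h1 (by positivity)) hE
      exact mul_le_mul_of_nonneg_right (add_le_add le_rfl h8) (by positivity)
  · -- the far words
    intro q hq a
    obtain ⟨C0, τ, i1, i2, Pf, Qf, CU, CW, B, hFCq, hs⟩ := hFC q hq a a.2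
    set R := RQ W n0 q with hR
    have hRW : ∀ p ∈ R, p ∈ W := fun p hp => (mem_RQ.1 hp).1
    have hReg : IsRegion R q := RQ_region hW (hQm q hq).1
    set F' : Fin 4 → Fn := Function.update H (xs i e) (Sf a q) with hF'
    have hFs : ∀ s, s ≠ xs i e → F' s = H s := fun s hs => Function.update_of_ne hs _ _
    have hFx : F' (xs i e) = Sf a q := Function.update_self _ _ _
    have hl2 : ∀ p ∈ R, ∀ s, s ≠ xs i e → ∑ y ∈ iv p, ‖F' s y‖ ^ 2 ≤ A * len p := by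
      intro p hp s hs
      rw [hFs s hs]
      have hlp := (Growth.len_pos p).le
      have h1 : ∀ C : ℝ, av p (H s) ≤ C → C ^ 2 ≤ A → ∑ y ∈ iv p, ‖H s y‖ ^ 2 ≤ A * len p :=
        fun C hC hCA => (Leaf259.sum2_of_av hC).trans (mul_le_mul_of_nonneg_right hCA hlp)
      by_cases hsi : s = i
      · subst hsi
        exact h1 Ai (by rw [havH p (hRW p hp)]; exact hGi p (hRW p hp)) hAi
      · by_cases hsm : s = i.succAbove v
        · subst hsm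
          exact h1 Bm (by rw [havH p (hRW p hp)]; exact hGm p (hRW p hp)) hBm
        · exact h1 Sb (by rw [havH p (hRW p hp)]; exact hGy p (hRW p hp) s hsi hsm hs) hSbA
    have hkil : ∀ p ∈ R, NCs p gk dk (F' (i.succAbove v)) := by
      intro p hp
      have hne : i.succAbove v ≠ xs i e := by
        rintro hcon
        have : v = e + 2 := Fin.succAbove_right_injective hcon
        exact he (by rw [this]; exact f3x e)
      rw [hFs _ hne, hHm]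
      exact POx263.ncs_of_ncol hnc (hRW p hp)
    have hpar : ∀ s, s ≠ i → s ≠ i.succAbove v → s ≠ xs i e → ∀ p ∈ R,
        NCs p (Sb ^ 2) 0 (F' s) := by
      intro s hsi hsm hsx p hp
      rw [hFs s hsx]
      refine ncs_of_l2 ?_
      exact Leaf259.sum2_of_av (by rw [havH p (hRW p hp)]; exact hGy p (hRW p hp) s hsi hsm hsx)
    have hFi : ∀ y, ‖F' i y‖ ≤ Hs := by
      intro y
      rw [hFs i (Ne.symm hxi), hHi, hf']
      by_cases hy : y ∈ iv I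
      · simp only [hy, if_true]
        exact hGH y hy
      · simp only [hy, if_false, norm_zero]
        exact hHs
    have hrepF : ∀ y ∈ iv q, F' (xs i e) y = LnF (fun l => BdE i e (T l) I) (fun _ => poE i e)
        (fun _ => 1 / ((sd I : ℕ) : ℝ) ^ 2) (fun l ω => g l e ω.2.1 ω.2.2)
        (fun l => kap * μ l / La) K (FrWx360.ZF i e kc K Pf Qf) y := fun y hy => by
      rw [hFx]; exact hs y hy
    have hm0 : ∀ p ∈ R, n0 ≤ p.1 := fun p hp => (mem_RQ.1 hp).2.2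
    have hG0 := hFCq.G0
    have Zq := hZ a a.2
    have hgXa := hgX a a.2
    have hfin : ∀ Y : ℝ, Y ≤ K0 * gX A gk dk Sb kap (ρ a) (r a) (Hr a) n0 Θ * (1 + En a q) *
        2 ^ (q.1 + 7) → Y ≤ K0 * X * (1 + En a q) * 2 ^ (q.1 + 7) := by
      intro Y hY
      refine hY.trans ?_
      gcongr
    show ∑ p ∈ R, ∑ x ∈ adm p.1 p.2, ‖Lbox (2 ^ p.1) bb F' x‖ ≤ _
    apply hfin
    rcases slot_cases i v e he with ⟨c1, c2, c3, c4⟩ | ⟨c1, c2, c3, c4⟩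
    · have hD := skd_of h hHf hLa hkap (R := R) (F := F') (g1 := gk) (d1 := dk) (g2 := Sb ^ 2)
        (d2 := 0) he hA hl2 hgk hdk (sq_nonneg _) le_rfl (by rw [c1]; exact hkil)
        (hpar _ c2 c3 c4) hHs hFi
      have h1 := hfc bb hbb R q hReg i e (fun l => kap * μ l / La) (sd I) kc (dd q) C0 K I T Pf Qf
        CU CW B (ρ a) (r a) (Hr a) (En a q) g F' A gk dk (Sb ^ 2) 0 kap
        (Real.sqrt (Hf * Ht) * Hs) n0 Θ hFCq hD hm0 Zq hrepF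
      refine h1.trans (le_of_eq ?_)
      unfold gX
      ring
    · have hD := skd_of h hHf hLa hkap (R := R) (F := F') (g1 := Sb ^ 2) (d1 := 0) (g2 := gk)
        (d2 := dk) he hA hl2 (sq_nonneg _) le_rfl hgk hdk (hpar _ c2 c3 c4)
        (by rw [c1]; exact hkil) hHs hFi
      have h1 := hfc bb hbb R q hReg i e (fun l => kap * μ l / La) (sd I) kc (dd q) C0 K I T Pf Qf
        CU CW B (ρ a) (r a) (Hr a) (En a q) g F' A (Sb ^ 2) 0 gk dk kap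
        (Real.sqrt (Hf * Ht) * Hs) n0 Θ hFCq hD hm0
        ⟨Zq.Θ1, Zq.A, Zq.g2, Zq.d2, Zq.g1, Zq.d1, Zq.ρ, Zq.r, Zq.Hr, Zq.G, Zq.mb, Zq.H0⟩ hrepF
      refine h1.trans (le_of_eq ?_)
      unfold gX
      rw [mul_comm (XS A (Sb ^ 2) 0 _ _ _ _ _)]
      ring

end Crest.Agent.R079.FrZx360
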