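import Crest.Agent.R079.NrS_248
import Crest.Agent.R079.NrT_259

/-! R079, note 1820 / 1922 (T3), STAGE 2 (helper248) in the frozen literals.

`strip_cell` : one maximal cell `dI m a × dI m b`, tiles `Ti`, one grid node `q`, alive tiles `A ⊆ Ti`
inside the strip of `q`;
`stage2` : the sum over the grid nodes;
`edges` : the positions of the strips which are not inner. -/

set_option autoImplicit false

namespace Crest.Agent.R079.NrVx248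

open Finset Crest.Agent.R079.Grid Crest.Agent.R079.NrMx259 Crest.Agent.R079.NrTx259
open Crest.Agent.R079.NrSx248 Crest.Agent.R079.Growth
open Crest.Agent.R079.ClW59 (OpS)

open scoped ComplexConjugate

variable {κ : Type}

/-! ### sets of small diameter -/

/-- `J` has diameter `< D` -/
def Dm (J : Finset ℤ) (D : ℕ) : Prop := ∀ x ∈ J, ∀ y ∈ J, y - x < D

lemma Dm.mono {J J' : Finset ℤ} {D : ℕ} (h : Dm J D) (hJ : J' ⊆ J) : Dm J' D :=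
  fun x hx y hy => h x (hJ hx) y (hJ hy)

lemma Dm.le {J : Finset ℤ} {D D' : ℕ} (h : Dm J D) (hD : D ≤ D') : Dm J D' :=
  fun x hx y hy => (h x hx y hy).trans_le (by exact_mod_cast hD)

lemma Dm.sub {J : Finset ℤ} {D : ℕ} (h : Dm J D) : ∃ x : ℤ, J ⊆ Finset.Ico x (x + D) := by
  rcases J.eq_empty_or_nonempty with rfl | hne
  · exact ⟨0, Finset.empty_subset _⟩
  · refine ⟨J.min' hne, fun y hy => Finset.mem_Ico.2 ⟨Finset.min'_le _ _ hy, ?_⟩⟩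
    have := h _ (J.min'_mem hne) y hy
    omega

lemma Dm.card {J : Finset ℤ} {D : ℕ} (h : Dm J D) : (J.card : ℝ) ≤ D := by
  obtain ⟨x, hx⟩ := h.sub
  have := Finset.card_le_card hx
  rw [Int.card_Ico] at this
  have h2 : (x + (D : ℤ) - x).toNat = D := by omega
  rw [h2] at this
  exact_mod_cast this

/-- spread on the sets of diameter `< D` -/
def Spr (K : Finset κ) (g : κ → ℤ → ℂ) (I : Finset ℤ) (D : ℕ) (σ : ℝ) : Prop :=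
  ∀ J ⊆ I, Dm J D → Syn K g J σ

/-- additivity -/
lemma syn_union {K : Finset κ} {g : κ → ℤ → ℂ} {ι : Type} (s : Finset ι) (Js : ι → Finset ℤ)
    {J : Finset ℤ} {σ : ℝ} (hJ : J ⊆ s.biUnion Js) (h : ∀ i ∈ s, Syn K g (Js i) σ) :
    Syn K g J (s.card * σ) := by
  classical
  intro a
  calc ∑ y ∈ J, ‖∑ i ∈ K, a i * g i y‖ ^ 2
      ≤ ∑ y ∈ s.biUnion Js, ‖∑ i ∈ K, a i * g i y‖ ^ 2 :=
        Finset.sum_le_sum_of_subset_of_nonneg hJ fun _ _ _ => sq_nonneg _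
    _ ≤ ∑ l ∈ s, ∑ y ∈ Js l, ‖∑ i ∈ K, a i * g i y‖ ^ 2 := by
        refine Finset.induction_on s (by simp) ?_
        intro l s hl ih
        rw [Finset.biUnion_insert, Finset.sum_insert hl]
        have h1 : ∑ y ∈ Js l ∪ s.biUnion Js, ‖∑ i ∈ K, a i * g i y‖ ^ 2 ≤
            ∑ y ∈ Js l, ‖∑ i ∈ K, a i * g i y‖ ^ 2 +
              ∑ y ∈ s.biUnion Js, ‖∑ i ∈ K, a i * g i y‖ ^ 2 := by
          rw [← Finset.sum_union_inter]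
          have : 0 ≤ ∑ y ∈ Js l ∩ s.biUnion Js, ‖∑ i ∈ K, a i * g i y‖ ^ 2 :=
            Finset.sum_nonneg fun _ _ => sq_nonneg _
          linarith
        linarith
    _ ≤ ∑ l ∈ s, σ * ∑ i ∈ K, ‖a i‖ ^ 2 := Finset.sum_le_sum fun l hl => h l hl a
    _ = _ := by rw [Finset.sum_const, nsmul_eq_mul]; ring

/-- spread on dyadic intervals gives spread on sets of small diameter -/
theorem spr_of_dyadic {K : Finset κ} {g : κ → ℤ → ℂ} {I : Finset ℤ} {n C : ℕ} {σ : ℝ}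
    (h : ∀ a' : ℤ, Syn K g (I ∩ dI n a') σ) : Spr K g I (C * 2 ^ n) ((C + 1 : ℕ) * σ) := by
  intro J hJ hD
  obtain ⟨x, hx⟩ := hD.sub
  have h1 := syn_union (K := K) (g := g) (Finset.Ico (x / 2 ^ n) (x / 2 ^ n + ((C + 1 : ℕ) : ℤ)))
    (fun a' => I ∩ dI n a') (J := J) (σ := σ) ?_ (fun a' _ => h a')
  · rw [Int.card_Ico] at h1
    have h2 : (x / 2 ^ n + ((C + 1 : ℕ) : ℤ) - x / 2 ^ n).toNat = C + 1 := by omega
    rw [h2] at h1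
    exact h1
  · intro y hy
    rw [Finset.mem_biUnion]
    refine ⟨y / 2 ^ n, ?_, Finset.mem_inter.2 ⟨hJ hy, NrTx259.mem_dI.2 rfl⟩⟩
    have h3 := Finset.mem_Ico.1 (hx hy)
    rw [Finset.mem_Ico]
    have hp : (0 : ℤ) < 2 ^ n := by positivity
    refine ⟨Int.ediv_le_ediv hp h3.1, ?_⟩
    rw [Int.ediv_lt_iff_lt_mul hp]
    have h4 : x < (x / 2 ^ n + 1) * 2 ^ n := Int.lt_ediv_add_one_mul_self x hp
    have h5 := h3.2
    push_cast at h5 ⊢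
    nlinarith

/-! ### labels -/

/-- label form -/
structure Lab (Y : ℤ → ℤ → ℤ) (α β γ : ℤ) (Γ : ℕ) : Prop where
  eq : ∀ u v, Y u v = γ + α * u + β * v
  α0 : α ≠ 0
  β0 : β ≠ 0
  αΓ : |α| ≤ Γ
  βΓ : |β| ≤ Γ

lemma Lab.swap {Y : ℤ → ℤ → ℤ} {α β γ : ℤ} {Γ : ℕ} (h : Lab Y α β γ Γ) :
    Lab (fun v u => Y u v) β α γ Γ :=
  ⟨fun v u => by rw [h.eq]; ring, h.β0, h.α0, h.βΓ, h.αΓ⟩

lemma abs_lt_of_mul {β x D : ℤ} (hβ : β ≠ 0) (h : |β * x| < D) : x < D := by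
  have h1 : 1 ≤ |β| := Int.one_le_abs hβ
  rw [abs_mul] at h
  have h2 : |x| ≤ |β| * |x| := by nlinarith [abs_nonneg x]
  exact (le_abs_self x).trans_lt (h2.trans_lt h)

lemma diff_lt {n : ℕ} {l y y' : ℤ} (h : y ∈ dI n l) (h' : y' ∈ dI n l) : |y' - y| < 2 ^ n := by
  unfold dI at h h'
  rw [Finset.mem_Ico] at h h'
  rw [abs_lt]
  constructor <;> linarith [h.1, h.2, h'.1, h'.2]

/-- the columns of a strip seen by one row -/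
lemma Lab.row {Y : ℤ → ℤ → ℤ} {α β γ : ℤ} {Γ : ℕ} (h : Lab Y α β γ Γ) {n : ℕ} {l u : ℤ}
    {J : Finset ℤ} (hJ : ∀ v ∈ J, Y u v ∈ dI n l) : Dm J (2 ^ n) := by
  intro v hv v' hv'
  have h1 := diff_lt (hJ v hv) (hJ v' hv')
  rw [h.eq, h.eq] at h1
  have h2 : γ + α * u + β * v' - (γ + α * u + β * v) = β * (v' - v) := by ring
  rw [h2] at h1
  have := abs_lt_of_mul h.β0 h1
  push_cast
  exact this

lemma Lab.col {Y : ℤ → ℤ → ℤ} {α β γ : ℤ} {Γ : ℕ} (h : Lab Y α β γ Γ) {n : ℕ} {l v : ℤ}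
    {J : Finset ℤ} (hJ : ∀ u ∈ J, Y u v ∈ dI n l) : Dm J (2 ^ n) :=
  h.swap.row hJ

/-- the columns seen from the rows seen by one column -/
lemma Lab.row2 {Y : ℤ → ℤ → ℤ} {α β γ : ℤ} {Γ : ℕ} (h : Lab Y α β γ Γ) {n : ℕ} {l v0 : ℤ}
    {J : Finset ℤ} (hJ : ∀ v ∈ J, ∃ u, Y u v0 ∈ dI n l ∧ Y u v ∈ dI n l) :
    Dm J ((1 + Γ) * 2 ^ n) := by
  intro v hv v' hv'
  obtain ⟨u, hu0, hu⟩ := hJ v hv
  obtain ⟨u', hu0', hu'⟩ := hJ v' hv'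
  have h1 := diff_lt hu hu'
  have h2 : Dm {u, u'} (2 ^ n) := h.col (v := v0) (l := l) (fun w hw => by
    rw [Finset.mem_insert, Finset.mem_singleton] at hw
    rcases hw with rfl | rfl
    · exact hu0
    · exact hu0')
  have h3 : |u' - u| ≤ 2 ^ n := by
    have a1 := h2 u (by simp) u' (by simp)
    have a2 := h2 u' (by simp) u (by simp)
    push_cast at a1 a2
    rw [abs_le]
    constructor <;> linarith
  rw [h.eq, h.eq] at h1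
  have h4 : |β * (v' - v)| < (1 + Γ) * 2 ^ n := by
    have e : β * (v' - v) = (γ + α * u' + β * v' - (γ + α * u + β * v)) - α * (u' - u) := by ring
    rw [e]
    have b1 : |(γ + α * u' + β * v' - (γ + α * u + β * v)) - α * (u' - u)| ≤
        |γ + α * u' + β * v' - (γ + α * u + β * v)| + |α * (u' - u)| := abs_sub _ _
    have b2 : |α * (u' - u)| ≤ Γ * 2 ^ n := by
      rw [abs_mul]
      exact mul_le_mul h.αΓ h3 (abs_nonneg _) (by positivity)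
    nlinarith
  have := abs_lt_of_mul h.β0 h4
  push_cast
  exact this


/-! ### averages -/

variable {m : ℕ} {a b : ℤ} {Ti A : Finset (ℕ × ℤ × ℤ)} {B : ℤ → ℤ → ℂ} {r : ℝ}

lemma mB_sum_col (h : Tlg m a b Ti) (hA : A ⊆ Ti) (f : ℤ → ℂ) (v : ℤ) :
    ∑ u ∈ dI m a, conj (mB A B u v) * f u =
      ∑ c ∈ A.filter (fun c => v ∈ Cl c), ∑ u ∈ Rw c, conj (B u v) * f u := by
  classical
  have h1 : ∑ c ∈ A.filter (fun c => v ∈ Cl c), ∑ u ∈ Rw c, conj (B u v) * f u =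
      ∑ u ∈ dI m a, ∑ _c ∈ A.filter (fun c => u ∈ Rw c ∧ v ∈ Cl c), conj (B u v) * f u := by
    refine Finset.sum_comm' fun c u => ?_
    simp only [Finset.mem_filter]
    constructor
    · rintro ⟨⟨h1, h2⟩, h3⟩
      exact ⟨⟨h1, h3, h2⟩, (h.sub c (hA h1)).1 h3⟩
    · rintro ⟨⟨h1, h2, h3⟩, _⟩
      exact ⟨⟨h1, h3⟩, h2⟩
  rw [h1]
  refine Finset.sum_congr rfl fun u _ => ?_
  unfold mB
  split_ifs with hc
  · obtain ⟨c, hcA, h2, h3⟩ := hc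
    have e : A.filter (fun c => u ∈ Rw c ∧ v ∈ Cl c) = {c} := by
      ext c'
      rw [Finset.mem_filter, Finset.mem_singleton]
      constructor
      · rintro ⟨h4, h5, h6⟩
        exact h.dis c' (hA h4) c (hA hcA) u v h5 h6 h2 h3
      · rintro rfl
        exact ⟨hcA, h2, h3⟩
    rw [e, Finset.sum_singleton]
  · have e : A.filter (fun c => u ∈ Rw c ∧ v ∈ Cl c) = ∅ := by
      rw [Finset.filter_eq_empty_iff]
      intro c hcA hcc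
      exact hc ⟨c, hcA, hcc⟩
    rw [e, Finset.sum_empty, map_zero, zero_mul]

/-- mean over the alive tiles of the column -/
noncomputable def avc (m : ℕ) (a : ℤ) (A : Finset (ℕ × ℤ × ℤ)) (B : ℤ → ℤ → ℂ) (r : ℝ)
    (y : ℤ → ℂ) (v : ℤ) : ℂ :=
  (∑ u ∈ dI m a, conj (mB A B u v) * y u) / ((r * wtc A v : ℝ) : ℂ)

/-- **Jensen** : the mean over the alive tiles of a column -/
theorem jenc (h : Tlg m a b Ti) (hA : A ⊆ Ti) (hr : 0 < r) (x : ℂ) (y : ℤ → ℂ) {v : ℤ}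
    (hw : 0 < wtc A v) :
    ‖x - avc m a A B r y v‖ ^ 2 ≤ 2 ^ m / wtc A v *
      ∑ c ∈ A.filter (fun c => v ∈ Cl c), (2 : ℝ) ^ c.1 / 2 ^ m * ‖x - mcc B r y c v‖ ^ 2 := by
  have e1 : ∀ c, mcc B r y c v = mm Rw sd (fun v u => conj (B u v)) y c v / (r : ℂ) := by
    intro c
    unfold mcc mm
    rw [div_div]
    congr 1
    push_cast
    ring
  unfold avc
  rw [mB_sum_col h hA]
  simp only [e1]
  exact jensen (s := 2 ^ m) (Ro := Cl) (Co := Rw) (sz := sd) (A := A)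
    (B := fun v u => conj (B u v)) (fun c _ => by positivity) (by positivity) hr x y v hw

lemma wt_nonneg (A : Finset (ℕ × ℤ × ℤ)) (u : ℤ) : 0 ≤ wt A u :=
  Finset.sum_nonneg fun _ _ => by positivity

lemma wtc_nonneg (A : Finset (ℕ × ℤ × ℤ)) (v : ℤ) : 0 ≤ wtc A v :=
  Finset.sum_nonneg fun _ _ => by positivity

section strip

variable {Y : ℤ → ℤ → ℤ} {α β γ : ℤ} {Γ n : ℕ} {l : ℤ}

/-- the alive tiles of the strip on one row -/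
lemma wt_strip (h : Tlg m a b Ti) (hA : A ⊆ Ti) (hY : Lab Y α β γ Γ)
    (hs : ∀ c ∈ A, ∀ u ∈ Rw c, ∀ v ∈ Cl c, Y u v ∈ dI n l) (u : ℤ) : wt A u ≤ 2 ^ n := by
  classical
  have h1 : wt A u ≤ (((A.filter (fun c => u ∈ Rw c)).biUnion Cl).card : ℝ) :=
    sum_side (fun c hc => Finset.subset_biUnion_of_mem Cl hc)
      (h.cdis ((Finset.filter_subset _ _).trans hA) fun c hc => (Finset.mem_filter.1 hc).2)
  refine h1.trans ?_
  have h2 : Dm ((A.filter (fun c => u ∈ Rw c)).biUnion Cl) (2 ^ n) := hY.row fun v hv => by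
    obtain ⟨c, hc, hvc⟩ := Finset.mem_biUnion.1 hv
    exact hs c (Finset.mem_filter.1 hc).1 u (Finset.mem_filter.1 hc).2 v hvc
  exact_mod_cast h2.card

/-- the alive tiles of the strip on one column -/
lemma wtc_strip (h : Tlg m a b Ti) (hA : A ⊆ Ti) (hY : Lab Y α β γ Γ)
    (hs : ∀ c ∈ A, ∀ u ∈ Rw c, ∀ v ∈ Cl c, Y u v ∈ dI n l) (v : ℤ) : wtc A v ≤ 2 ^ n := by
  classical
  have h1 : wtc A v ≤ (((A.filter (fun c => v ∈ Cl c)).biUnion Rw).card : ℝ) :=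
    sum_side_row (fun c hc => Finset.subset_biUnion_of_mem Rw hc)
      (h.rdis ((Finset.filter_subset _ _).trans hA) fun c hc => (Finset.mem_filter.1 hc).2)
  refine h1.trans ?_
  have h2 : Dm ((A.filter (fun c => v ∈ Cl c)).biUnion Rw) (2 ^ n) := hY.col fun u hu => by
    obtain ⟨c, hc, huc⟩ := Finset.mem_biUnion.1 hu
    exact hs c (Finset.mem_filter.1 hc).1 u huc v (Finset.mem_filter.1 hc).2
  exact_mod_cast h2.card

/-- operator norm of the masked kernel of a strip -/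
theorem op_q (h : Tlg m a b Ti) (hA : A ⊆ Ti) (hY : Lab Y α β γ Γ)
    (hs : ∀ c ∈ A, ∀ u ∈ Rw c, ∀ v ∈ Cl c, Y u v ∈ dI n l)
    (hop : ∀ c ∈ A, OpS (Rw c) (Cl c) B (r * 2 ^ c.1)) :
    OpS (dI m a) (dI m b) (mB A B) (r * 2 ^ n) := by
  have h1 := op_strip (I0 := dI m a) h hA hop (S' := 2 ^ n) (l := 2 ^ n) (by positivity)
    (by positivity) (fun u _ => wt_strip h hA hY hs u) (fun v _ => ?_)
  · rw [Real.sqrt_mul_self (by positivity)] at h1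
    exact h1
  · refine le_trans (Finset.sum_le_sum_of_subset_of_nonneg ?_ fun _ _ _ => by positivity)
      (wtc_strip h hA hY hs v)
    intro c hc
    rw [Finset.mem_filter] at hc ⊢
    exact ⟨hc.1, hc.2.1⟩

/-- averaging kernel, rows -/
noncomputable def LU (A : Finset (ℕ × ℤ × ℤ)) (B : ℤ → ℤ → ℂ) (r : ℝ) (u v : ℤ) : ℂ :=
  mB A B u v / ((r * wt A u : ℝ) : ℂ)

/-- averaging kernel, columns -/
noncomputable def LV (A : Finset (ℕ × ℤ × ℤ)) (B : ℤ → ℤ → ℂ) (r : ℝ) (v u : ℤ) : ℂ :=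
  conj (mB A B u v) / ((r * wtc A v : ℝ) : ℂ)

lemma avg_LU (m : ℕ) (b : ℤ) (x : ℤ → ℂ) (u : ℤ) :
    avg m b A B r x u = ∑ v ∈ dI m b, LU A B r u v * x v := by
  unfold avg LU
  rw [Finset.sum_div]
  exact Finset.sum_congr rfl fun v _ => by ring

lemma avc_LV (m : ℕ) (a : ℤ) (y : ℤ → ℂ) (v : ℤ) :
    avc m a A B r y v = ∑ u ∈ dI m a, LV A B r v u * y u := by
  unfold avc LV
  rw [Finset.sum_div]
  exact Finset.sum_congr rfl fun u _ => by ring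

lemma kop_of_op {I J : Finset ℤ} {K : ℤ → ℤ → ℂ} {w : ℤ → ℝ} {o W C0 : ℝ} (hr : 0 < r)
    (hW : 0 < W) (hop : OpS I J K (r * W)) (ho : o = C0 ^ 2) {S : Finset ℤ} (hS : S ⊆ I)
    (hw : ∀ u ∈ S, W ≤ C0 * w u) (hw0 : ∀ u, 0 ≤ w u) :
    KOp S J (fun u v => K u v / ((r * w u : ℝ) : ℂ)) o := by
  intro f
  have h1 : ∀ u ∈ S, ‖∑ v ∈ J, K u v / ((r * w u : ℝ) : ℂ) * f v‖ ^ 2 ≤
      (C0 / (r * W)) ^ 2 * ‖∑ v ∈ J, K u v * f v‖ ^ 2 := by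
    intro u hu
    have h2 := hw u hu
    have hw1 : 0 < w u := by
      rcases (hw0 u).eq_or_lt with h3 | h3
      · rw [← h3, mul_zero] at h2
        linarith
      · exact h3
    have e1 : ∑ v ∈ J, K u v / ((r * w u : ℝ) : ℂ) * f v =
        (∑ v ∈ J, K u v * f v) / ((r * w u : ℝ) : ℂ) := by
      rw [Finset.sum_div]
      exact Finset.sum_congr rfl fun v _ => by ring
    rw [e1, norm_div, Complex.norm_real, Real.norm_of_nonneg (by positivity), div_eq_mul_inv,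
      mul_pow, mul_comm]
    refine mul_le_mul_of_nonneg_right (pow_le_pow_left₀ (by positivity) ?_ 2) (sq_nonneg _)
    rw [inv_eq_one_div, div_le_div_iff₀ (by positivity) (by positivity)]
    nlinarith
  calc ∑ u ∈ S, ‖∑ v ∈ J, K u v / ((r * w u : ℝ) : ℂ) * f v‖ ^ 2
      ≤ ∑ u ∈ S, (C0 / (r * W)) ^ 2 * ‖∑ v ∈ J, K u v * f v‖ ^ 2 := Finset.sum_le_sum h1
    _ ≤ (C0 / (r * W)) ^ 2 * ∑ u ∈ I, ‖∑ v ∈ J, K u v * f v‖ ^ 2 := by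
        rw [← Finset.mul_sum]
        exact mul_le_mul_of_nonneg_left
          (Finset.sum_le_sum_of_subset_of_nonneg hS fun _ _ _ => sq_nonneg _) (sq_nonneg _)
    _ ≤ (C0 / (r * W)) ^ 2 * ((r * W) ^ 2 * ∑ v ∈ J, ‖f v‖ ^ 2) :=
        mul_le_mul_of_nonneg_left (hop f) (sq_nonneg _)
    _ = o * ∑ v ∈ J, ‖f v‖ ^ 2 := by
        rw [ho]
        field_simp

open Classical in
/-- **the hypotheses of `S2`** -/
theorem s2_cell {K : Finset κ} {X1 Y1 Xk Yk : κ → ℤ → ℂ} (h : Tlg m a b Ti) (hA : A ⊆ Ti)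
    (hY : Lab Y α β γ Γ) (hs : ∀ c ∈ A, ∀ u ∈ Rw c, ∀ v ∈ Cl c, Y u v ∈ dI n l) (hr : 0 < r)
    (hop : ∀ c ∈ A, OpS (Rw c) (Cl c) B (r * 2 ^ c.1)) {Si Sj : Finset ℤ} (hSi : Si ⊆ dI m a)
    (hSj : Sj ⊆ dI m b) {C0 σ : ℝ} (hσ : 0 ≤ σ) (hwr : ∀ u ∈ Si, 2 ^ n ≤ C0 * wt A u)
    (hwc : ∀ v ∈ Sj, 2 ^ n ≤ C0 * wtc A v)
    (hsp : Spr K X1 (dI m b) ((1 + Γ) * 2 ^ n) σ) :
    S2 K (dI m a) (dI m b) Si Sj (fun u v => Y u v ∈ dI n l) (LU A B r) (LV A B r)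
      ((dI m b).filter (fun v => ∃ u ∈ dI m a, Y u v ∈ dI n l))
      ((dI m a).filter (fun u => ∃ v ∈ dI m b, Y u v ∈ dI n l)) Yk Xk Y1 X1 (C0 ^ 2) σ where
  c0 := sq_nonneg _
  σ0 := hσ
  hSi := hSi
  hTi := hSj
  hWU := Finset.filter_subset _ _
  hWV := Finset.filter_subset _ _
  kU := kop_of_op hr (by positivity) (op_q h hA hY hs hop) rfl hSi hwr (wt_nonneg A)
  kV := kop_of_op hr (by positivity) (opS_swap (by positivity) (op_q h hA hY hs hop)) rfl hSj hwc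
    (wtc_nonneg A)
  sU := by
    intro u hu v hv hn
    unfold LU mB
    rw [if_neg, zero_div]
    rintro ⟨c, hc, h1, h2⟩
    exact hn (Finset.mem_filter.2 ⟨hv, u, hSi hu, hs c hc u h1 v h2⟩)
  sV := by
    intro v hv u hu hn
    unfold LV mB
    rw [if_neg, map_zero, zero_div]
    rintro ⟨c, hc, h1, h2⟩
    exact hn (Finset.mem_filter.2 ⟨hu, v, hSj hv, hs c hc u h1 v h2⟩)
  spX := by
    intro u _ J hJ hP
    exact hsp J (hJ.trans hSj) ((hY.row hP).le (Nat.le_mul_of_pos_left _ (by omega)))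
  spX' := by
    intro v hv J hJ hP
    refine ⟨(dI m b).filter (fun v' => ∃ u, Y u v ∈ dI n l ∧ Y u v' ∈ dI n l),
      Finset.filter_subset _ _, ?_, ?_⟩
    · exact hsp _ (Finset.filter_subset _ _) (hY.row2 (v0 := v) fun v' hv' =>
        (Finset.mem_filter.1 hv').2)
    · intro u hu v' hv' hn
      unfold LU mB
      rw [if_neg, zero_div]
      rintro ⟨c, hc, h1, h2⟩
      exact hn (Finset.mem_filter.2 ⟨hv', u, hP u hu, hs c hc u h1 v' h2⟩)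

/-- Lemma A part of the tiles `A`, rows -/
noncomputable def RA (m : ℕ) (a : ℤ) (A : Finset (ℕ × ℤ × ℤ)) (B : ℤ → ℤ → ℂ) (r : ℝ)
    (y x : ℤ → ℂ) : ℝ :=
  ∑ u ∈ dI m a, ∑ c ∈ A.filter (fun c => u ∈ Rw c), (2 : ℝ) ^ c.1 / 2 ^ m *
    ‖y u - mc B r x c u‖ ^ 2

/-- Lemma A part of the tiles `A`, columns -/
noncomputable def CA (m : ℕ) (b : ℤ) (A : Finset (ℕ × ℤ × ℤ)) (B : ℤ → ℤ → ℂ) (r : ℝ)
    (y x : ℤ → ℂ) : ℝ :=
  ∑ v ∈ dI m b, ∑ c ∈ A.filter (fun c => v ∈ Cl c), (2 : ℝ) ^ c.1 / 2 ^ m *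
    ‖x v - mcc B r y c v‖ ^ 2

lemma wt_div {w C0 s : ℝ} (hw0 : 0 ≤ w) (hs : 0 ≤ s) {W : ℝ} (hW : 0 < W)
    (hw : W ≤ C0 * w) : 0 < w ∧ s / w ≤ s * C0 / W := by
  have hw1 : 0 < w := by
    rcases hw0.eq_or_lt with h3 | h3
    · rw [← h3, mul_zero] at hw
      linarith
    · exact h3
  refine ⟨hw1, ?_⟩
  rw [div_le_div_iff₀ hw1 hW]
  have := mul_le_mul_of_nonneg_left hw hs
  nlinarith

open Classical in
/-- **STAGE 2, one grid node** -/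
theorem strip_cell {K : Finset κ} {X1 Y1 Xk Yk : κ → ℤ → ℂ} (h : Tlg m a b Ti) (hA : A ⊆ Ti)
    (hY : Lab Y α β γ Γ) (hs : ∀ c ∈ A, ∀ u ∈ Rw c, ∀ v ∈ Cl c, Y u v ∈ dI n l) (hr : 0 < r)
    (hop : ∀ c ∈ A, OpS (Rw c) (Cl c) B (r * 2 ^ c.1)) {Si Sj : Finset ℤ} (hSi : Si ⊆ dI m a)
    (hSj : Sj ⊆ dI m b) {C0 Cs : ℝ} (hC0 : 0 ≤ C0) (hCs : 0 ≤ Cs)
    (hwr : ∀ u ∈ Si, 2 ^ n ≤ C0 * wt A u) (hwc : ∀ v ∈ Sj, 2 ^ n ≤ C0 * wtc A v)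
    (hsp : Spr K X1 (dI m b) ((1 + Γ) * 2 ^ n) (Cs * 2 ^ n / 2 ^ m)) (d : κ → ℝ) :
    ∑ u ∈ Si, ∑ v ∈ Sj.filter (fun v => Y u v ∈ dI n l),
      ‖∑ k ∈ K, (d k : ℂ) * (Yk k u * conj (Xk k v) -
        avg m b A B r (X1 k) u * conj (avc m a A B r (Y1 k) v))‖ ^ 2 ≤
    3 * ∑ u ∈ Si, ∑ v ∈ Sj.filter (fun v => Y u v ∈ dI n l),
      ‖∑ k ∈ K, (d k : ℂ) * (Yk k u * conj (Xk k v - X1 k v))‖ ^ 2 +
    3 * ∑ k ∈ K, d k ^ 2 * (2 * Cs * C0 * RA m a A B r (Yk k) (Xk k) +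
      4 * C0 ^ 3 * Cs * CA m b A B r (Yk k) (Xk k) +
      4 * C0 ^ 2 * Cs * 2 ^ n / 2 ^ m *
        ∑ v ∈ (dI m b).filter (fun v => ∃ u ∈ dI m a, Y u v ∈ dI n l), ‖Xk k v - X1 k v‖ ^ 2 +
      4 * C0 ^ 4 * Cs * 2 ^ n / 2 ^ m *
        ∑ u ∈ (dI m a).filter (fun u => ∃ v ∈ dI m b, Y u v ∈ dI n l),
          ‖Yk k u - Y1 k u‖ ^ 2) := by
  have hσ : (0 : ℝ) ≤ Cs * 2 ^ n / 2 ^ m := by positivity
  have H := s2_cell (Xk := Xk) (Yk := Yk) (Y1 := Y1) h hA hY hs hr hop hSi hSj hσ hwr hwc hsp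
  have h1 : ∑ u ∈ Si, ∑ v ∈ Sj.filter (fun v => Y u v ∈ dI n l),
        ‖∑ k ∈ K, (d k : ℂ) * (Yk k u * conj (Xk k v) -
          avg m b A B r (X1 k) u * conj (avc m a A B r (Y1 k) v))‖ ^ 2 ≤
      3 * ∑ u ∈ Si, ∑ v ∈ Sj.filter (fun v => Y u v ∈ dI n l),
        ‖∑ k ∈ K, (d k : ℂ) * (Yk k u * conj (Xk k v - X1 k v))‖ ^ 2 +
      3 * ∑ k ∈ K, d k ^ 2 * (
        Cs * 2 ^ n / 2 ^ m * (2 * ∑ u ∈ Si.filter (fun u => ∃ v ∈ Sj, Y u v ∈ dI n l),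
            ‖Yk k u - ∑ v ∈ dI m b, LU A B r u v * Xk k v‖ ^ 2 +
          2 * (C0 ^ 2 * ∑ v ∈ (dI m b).filter (fun v => ∃ u ∈ dI m a, Y u v ∈ dI n l),
            ‖Xk k v - X1 k v‖ ^ 2)) +
        C0 ^ 2 * (Cs * 2 ^ n / 2 ^ m) *
          (2 * ∑ v ∈ Sj.filter (fun v => ∃ u ∈ Si, Y u v ∈ dI n l), ‖X1 k v - Xk k v‖ ^ 2 +
          2 * (2 * ∑ v ∈ Sj.filter (fun v => ∃ u ∈ Si, Y u v ∈ dI n l),
              ‖Xk k v - ∑ u ∈ dI m a, LV A B r v u * Yk k u‖ ^ 2 +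
            2 * (C0 ^ 2 * ∑ u ∈ (dI m a).filter (fun u => ∃ v ∈ dI m b, Y u v ∈ dI n l),
              ‖Yk k u - Y1 k u‖ ^ 2)))) := by
    convert H.strip d (fun k u => avg m b A B r (X1 k) u) (fun k v => avc m a A B r (Y1 k) v)
      (fun k _ u _ => avg_LU m b (X1 k) u) (fun k _ v _ => avc_LV m a (Y1 k) v)
  refine h1.trans (add_le_add_right (mul_le_mul_of_nonneg_left (Finset.sum_le_sum fun k _ =>
    mul_le_mul_of_nonneg_left ?_ (sq_nonneg _)) (by norm_num)) _)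
  -- rows
  have hP : (0 : ℝ) < 2 ^ n := by positivity
  have hM : (0 : ℝ) < 2 ^ m := by positivity
  have e1 : ∑ u ∈ Si.filter (fun u => ∃ v ∈ Sj, Y u v ∈ dI n l),
      ‖Yk k u - ∑ v ∈ dI m b, LU A B r u v * Xk k v‖ ^ 2 ≤
      2 ^ m * C0 / 2 ^ n * RA m a A B r (Yk k) (Xk k) := by
    unfold RA
    rw [Finset.mul_sum]
    refine (Finset.sum_le_sum (g := fun u => 2 ^ m * C0 / 2 ^ n *
      ∑ c ∈ A.filter (fun c => u ∈ Rw c), (2 : ℝ) ^ c.1 / 2 ^ m *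
        ‖Yk k u - mc B r (Xk k) c u‖ ^ 2) fun u hu => ?_).trans
      (Finset.sum_le_sum_of_subset_of_nonneg ((Finset.filter_subset _ _).trans hSi) fun _ _ _ => ?_)
    · rw [← avg_LU]
      obtain ⟨hw1, hw2⟩ := wt_div (wt_nonneg A u) hM.le hP (hwr u (Finset.mem_filter.1 hu).1)
      refine (jen h hA hr (Yk k u) (Xk k) hw1).trans (mul_le_mul_of_nonneg_right hw2 ?_)
      exact Finset.sum_nonneg fun c _ => by positivity
    · exact mul_nonneg (by positivity) (Finset.sum_nonneg fun c _ => by positivity)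
  have e2 : ∑ v ∈ Sj.filter (fun v => ∃ u ∈ Si, Y u v ∈ dI n l),
      ‖Xk k v - ∑ u ∈ dI m a, LV A B r v u * Yk k u‖ ^ 2 ≤
      2 ^ m * C0 / 2 ^ n * CA m b A B r (Yk k) (Xk k) := by
    unfold CA
    rw [Finset.mul_sum]
    refine (Finset.sum_le_sum (g := fun v => 2 ^ m * C0 / 2 ^ n *
      ∑ c ∈ A.filter (fun c => v ∈ Cl c), (2 : ℝ) ^ c.1 / 2 ^ m *
        ‖Xk k v - mcc B r (Yk k) c v‖ ^ 2) fun v hv => ?_).trans
      (Finset.sum_le_sum_of_subset_of_nonneg ((Finset.filter_subset _ _).trans hSj) fun _ _ _ => ?_)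
    · rw [← avc_LV]
      obtain ⟨hw1, hw2⟩ := wt_div (wtc_nonneg A v) hM.le hP
        (hwc v (Finset.mem_filter.1 hv).1)
      refine (jenc h hA hr (Xk k v) (Yk k) hw1).trans (mul_le_mul_of_nonneg_right hw2 ?_)
      exact Finset.sum_nonneg fun c _ => by positivity
    · exact mul_nonneg (by positivity) (Finset.sum_nonneg fun c _ => by positivity)
  have e3 : ∑ v ∈ Sj.filter (fun v => ∃ u ∈ Si, Y u v ∈ dI n l), ‖X1 k v - Xk k v‖ ^ 2 ≤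
      ∑ v ∈ (dI m b).filter (fun v => ∃ u ∈ dI m a, Y u v ∈ dI n l), ‖Xk k v - X1 k v‖ ^ 2 := by
    have a1 : ∀ v, ‖X1 k v - Xk k v‖ ^ 2 = ‖Xk k v - X1 k v‖ ^ 2 := fun v => by
      rw [norm_sub_rev]
    simp only [a1]
    refine Finset.sum_le_sum_of_subset_of_nonneg (fun v hv => ?_) fun _ _ _ => sq_nonneg _
    rw [Finset.mem_filter] at hv ⊢
    obtain ⟨h2, u, hu, h3⟩ := hv
    exact ⟨hSj h2, u, hSi hu, h3⟩
  set S1 := ∑ u ∈ Si.filter (fun u => ∃ v ∈ Sj, Y u v ∈ dI n l),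
      ‖Yk k u - ∑ v ∈ dI m b, LU A B r u v * Xk k v‖ ^ 2
  set S2 := ∑ v ∈ Sj.filter (fun v => ∃ u ∈ Si, Y u v ∈ dI n l),
      ‖Xk k v - ∑ u ∈ dI m a, LV A B r v u * Yk k u‖ ^ 2
  set S3 := ∑ v ∈ Sj.filter (fun v => ∃ u ∈ Si, Y u v ∈ dI n l), ‖X1 k v - Xk k v‖ ^ 2
  set E1 := ∑ v ∈ (dI m b).filter (fun v => ∃ u ∈ dI m a, Y u v ∈ dI n l), ‖Xk k v - X1 k v‖ ^ 2
  set E2 := ∑ u ∈ (dI m a).filter (fun u => ∃ v ∈ dI m b, Y u v ∈ dI n l), ‖Yk k u - Y1 k u‖ ^ 2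
  set R1 := RA m a A B r (Yk k) (Xk k)
  set R2 := CA m b A B r (Yk k) (Xk k)
  have f1 : Cs * 2 ^ n / 2 ^ m * (2 * S1) ≤ 2 * Cs * C0 * R1 := by
    have := mul_le_mul_of_nonneg_left e1 (show (0 : ℝ) ≤ 2 * (Cs * 2 ^ n / 2 ^ m) by positivity)
    have e : 2 * (Cs * 2 ^ n / 2 ^ m) * (2 ^ m * C0 / 2 ^ n * R1) = 2 * Cs * C0 * R1 := by
      field_simp
    linarith
  have f2 : C0 ^ 2 * (Cs * 2 ^ n / 2 ^ m) * (2 * (2 * S2)) ≤ 4 * C0 ^ 3 * Cs * R2 := by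
    have := mul_le_mul_of_nonneg_left e2
      (show (0 : ℝ) ≤ 4 * (C0 ^ 2 * (Cs * 2 ^ n / 2 ^ m)) by positivity)
    have e : 4 * (C0 ^ 2 * (Cs * 2 ^ n / 2 ^ m)) * (2 ^ m * C0 / 2 ^ n * R2) =
        4 * C0 ^ 3 * Cs * R2 := by
      field_simp
    linarith
  have f3 : C0 ^ 2 * (Cs * 2 ^ n / 2 ^ m) * (2 * S3) ≤
      C0 ^ 2 * (Cs * 2 ^ n / 2 ^ m) * (2 * E1) :=
    mul_le_mul_of_nonneg_left (by linarith) (by positivity)
  calc Cs * 2 ^ n / 2 ^ m * (2 * S1 + 2 * (C0 ^ 2 * E1)) + C0 ^ 2 * (Cs * 2 ^ n / 2 ^ m) *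
        (2 * S3 + 2 * (2 * S2 + 2 * (C0 ^ 2 * E2)))
      = Cs * 2 ^ n / 2 ^ m * (2 * S1) + C0 ^ 2 * (Cs * 2 ^ n / 2 ^ m) * (2 * (2 * S2)) +
        C0 ^ 2 * (Cs * 2 ^ n / 2 ^ m) * (2 * S3) +
        (2 * C0 ^ 2 * Cs * 2 ^ n / 2 ^ m * E1 + 4 * C0 ^ 4 * Cs * 2 ^ n / 2 ^ m * E2) := by ring
    _ ≤ 2 * Cs * C0 * R1 + 4 * C0 ^ 3 * Cs * R2 + C0 ^ 2 * (Cs * 2 ^ n / 2 ^ m) * (2 * E1) +
        (2 * C0 ^ 2 * Cs * 2 ^ n / 2 ^ m * E1 + 4 * C0 ^ 4 * Cs * 2 ^ n / 2 ^ m * E2) := by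
        linarith
    _ = _ := by ring

end strip

/-! ### sum over the grid nodes -/

section nodes

variable {Y : ℤ → ℤ → ℤ} {α β γ : ℤ} {Γ n : ℕ}

/-- number of the grid nodes seen by one column -/
lemma seen (hY : Lab Y α β γ Γ) (hnm : n ≤ m) (Q : Finset Nd) (hQ : ∀ q ∈ Q, q.1 + 7 = n) (v : ℤ)
    (F : Nd → Prop) [DecidablePred F] (hF : ∀ q ∈ Q, F q → ∃ u ∈ dI m a, Y u v ∈ iv q) :
    ((Q.filter F).card : ℝ) * 2 ^ n ≤ (2 * Γ + 1 : ℝ) * 2 ^ m := by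
  classical
  set y1 : ℤ := Y (a * 2 ^ m) v with hy1
  obtain ⟨e, rfl⟩ := Nat.exists_eq_add_of_le hnm
  have hp : (0 : ℤ) < 2 ^ n := by positivity
  have h1 : (Q.filter F).card ≤
      (Finset.Icc (y1 / 2 ^ n - Γ * 2 ^ e) (y1 / 2 ^ n + Γ * 2 ^ e)).card := by
    refine Finset.card_le_card_of_injOn (fun q => q.2) (fun q hq => ?_) (fun q hq q' hq' he => ?_)
    · rw [Finset.mem_coe, Finset.mem_filter] at hq
      obtain ⟨u, hu, hu2⟩ := hF q hq.1 hq.2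
      have h2 : Y u v ∈ dI n q.2 := by
        have := hQ q hq.1
        rw [← this]
        exact hu2
      rw [NrTx259.mem_dI] at h2
      unfold dI at hu
      rw [Finset.mem_Ico] at hu
      have h3 : Y u v = y1 + α * (u - a * 2 ^ (n + e)) := by
        rw [hy1, hY.eq, hY.eq]
        ring
      have h4 : |α * (u - a * 2 ^ (n + e))| ≤ Γ * 2 ^ e * 2 ^ n := by
        rw [abs_mul]
        have h5 : |u - a * 2 ^ (n + e)| ≤ 2 ^ (n + e) := by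
          rw [abs_le]
          constructor <;> linarith [hu.1, hu.2]
        calc |α| * |u - a * 2 ^ (n + e)| ≤ Γ * 2 ^ (n + e) :=
              mul_le_mul hY.αΓ h5 (abs_nonneg _) (by positivity)
          _ = _ := by rw [pow_add]; ring
      obtain ⟨h5, h6⟩ := abs_le.1 h4
      simp only [Finset.coe_Icc, Set.mem_Icc]
      rw [← h2, h3]
      constructor
      · rw [Int.le_ediv_iff_mul_le hp]
        have := Int.ediv_mul_le y1 hp.ne'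
        nlinarith
      · rw [← Int.lt_add_one_iff, Int.ediv_lt_iff_lt_mul hp]
        have := Int.lt_ediv_add_one_mul_self y1 hp
        nlinarith
    · rw [Finset.mem_coe, Finset.mem_filter] at hq hq'
      have h7 := hQ q hq.1
      have h8 := hQ q' hq'.1
      exact Prod.ext (by omega) he
  rw [Int.card_Icc] at h1
  have h2 : ((Q.filter F).card : ℝ) ≤ 2 * Γ * 2 ^ e + 1 := by
    have h3 : ((Q.filter F).card : ℤ) ≤ 2 * Γ * 2 ^ e + 1 := by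
      have h4 : (0 : ℤ) ≤ Γ * 2 ^ e := by positivity
      have h5 : (y1 / 2 ^ n + Γ * 2 ^ e + 1 - (y1 / 2 ^ n - Γ * 2 ^ e)).toNat =
        (2 * (Γ * 2 ^ e) + 1 : ℤ).toNat := by congr 1; ring
      rw [h5] at h1
      have h6 : (((Q.filter F).card : ℕ) : ℤ) ≤ ((2 * (Γ * 2 ^ e) + 1 : ℤ).toNat : ℤ) := by
        exact_mod_cast h1
      rw [Int.toNat_of_nonneg (by linarith)] at h6
      linarith
    exact_mod_cast h3
  have h3 : (1 : ℝ) ≤ 2 ^ e := one_le_pow₀ (by norm_num)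
  calc ((Q.filter F).card : ℝ) * 2 ^ n ≤ (2 * Γ * 2 ^ e + 1) * 2 ^ n :=
        mul_le_mul_of_nonneg_right h2 (by positivity)
    _ ≤ ((2 * Γ + 1) * 2 ^ e) * 2 ^ n :=
        mul_le_mul_of_nonneg_right (by nlinarith) (by positivity)
    _ = _ := by rw [pow_add]; ring

open Classical in
/-- sum over the nodes of the parts seen -/
lemma sum_seen (hY : Lab Y α β γ Γ) (hnm : n ≤ m) (Q : Finset Nd) (hQ : ∀ q ∈ Q, q.1 + 7 = n)
    (G : ℤ → ℝ) (hG : ∀ v, 0 ≤ G v) :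
    ∑ q ∈ Q, 2 ^ n / 2 ^ m * ∑ v ∈ (dI m b).filter (fun v => ∃ u ∈ dI m a, Y u v ∈ iv q), G v ≤
      (2 * Γ + 1) * ∑ v ∈ dI m b, G v := by
  rw [← Finset.mul_sum]
  simp only [Finset.sum_filter]
  rw [Finset.sum_comm, Finset.mul_sum, Finset.mul_sum]
  refine Finset.sum_le_sum fun v _ => ?_
  rw [← Finset.sum_filter, Finset.sum_const, nsmul_eq_mul]
  have h1 := seen (a := a) hY hnm Q hQ v (fun q => ∃ u ∈ dI m a, Y u v ∈ iv q)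
    (fun q _ hq => hq)
  have hM : (0 : ℝ) < 2 ^ m := by positivity
  calc 2 ^ n / 2 ^ m * (((Q.filter fun q => ∃ u ∈ dI m a, Y u v ∈ iv q).card : ℝ) * G v)
      = (((Q.filter fun q => ∃ u ∈ dI m a, Y u v ∈ iv q).card : ℝ) * 2 ^ n) / 2 ^ m * G v := by
        ring
    _ ≤ ((2 * Γ + 1 : ℝ) * 2 ^ m) / 2 ^ m * G v :=
        mul_le_mul_of_nonneg_right (div_le_div_of_nonneg_right h1 hM.le) (hG v)
    _ = _ := by field_simp

lemma RA_nonneg {A : Finset (ℕ × ℤ × ℤ)} {y x : ℤ → ℂ} : 0 ≤ RA m a A B r y x :=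
  Finset.sum_nonneg fun _ _ => Finset.sum_nonneg fun _ _ => by positivity

lemma CA_nonneg {A : Finset (ℕ × ℤ × ℤ)} {y x : ℤ → ℂ} : 0 ≤ CA m b A B r y x :=
  Finset.sum_nonneg fun _ _ => Finset.sum_nonneg fun _ _ => by positivity

/-- disjoint sets of tiles -/
lemma sum_A {Q : Finset Nd} {A : Nd → Finset (ℕ × ℤ × ℤ)} (hA : ∀ q ∈ Q, A q ⊆ Ti)
    (hd : ∀ q ∈ Q, ∀ q' ∈ Q, ∀ c ∈ A q, c ∈ A q' → q = q') (p : ℕ × ℤ × ℤ → Prop)
    [DecidablePred p] (G : ℕ × ℤ × ℤ → ℝ) (hG : ∀ c, 0 ≤ G c) :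
    ∑ q ∈ Q, ∑ c ∈ (A q).filter p, G c ≤ ∑ c ∈ Ti.filter p, G c := by
  classical
  rw [← Finset.sum_biUnion]
  · refine Finset.sum_le_sum_of_subset_of_nonneg (fun c hc => ?_) fun _ _ _ => hG _
    obtain ⟨q, hq, hc'⟩ := Finset.mem_biUnion.1 hc
    rw [Finset.mem_filter] at hc' ⊢
    exact ⟨hA q hq hc'.1, hc'.2⟩
  · intro q hq q' hq' hne
    rw [Function.onFun, Finset.disjoint_left]
    intro c hc hc'
    exact hne (hd q hq q' hq' c (Finset.mem_filter.1 hc).1 (Finset.mem_filter.1 hc').1)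

lemma sum_RA {Q : Finset Nd} {A : Nd → Finset (ℕ × ℤ × ℤ)} (hA : ∀ q ∈ Q, A q ⊆ Ti)
    (hd : ∀ q ∈ Q, ∀ q' ∈ Q, ∀ c ∈ A q, c ∈ A q' → q = q') (y x : ℤ → ℂ) :
    ∑ q ∈ Q, RA m a (A q) B r y x ≤ RA m a Ti B r y x := by
  unfold RA
  rw [Finset.sum_comm]
  exact Finset.sum_le_sum fun u _ => sum_A hA hd _ _ fun c => by positivity

lemma sum_CA {Q : Finset Nd} {A : Nd → Finset (ℕ × ℤ × ℤ)} (hA : ∀ q ∈ Q, A q ⊆ Ti)
    (hd : ∀ q ∈ Q, ∀ q' ∈ Q, ∀ c ∈ A q, c ∈ A q' → q = q') (y x : ℤ → ℂ) :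
    ∑ q ∈ Q, CA m b (A q) B r y x ≤ CA m b Ti B r y x := by
  unfold CA
  rw [Finset.sum_comm]
  exact Finset.sum_le_sum fun u _ => sum_A hA hd _ _ fun c => by positivity

lemma dI_nonempty (k : ℕ) (l : ℤ) : l * 2 ^ k ∈ dI k l := by
  unfold dI
  rw [Finset.mem_Ico]
  have : (0 : ℤ) < 2 ^ k := by positivity
  exact ⟨le_rfl, by nlinarith⟩

lemma iv_inj {Q : Finset Nd} (hQ : ∀ q ∈ Q, q.1 + 7 = n) {q q' : Nd} (hq : q ∈ Q) (hq' : q' ∈ Q)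
    {y : ℤ} (hy : y ∈ iv q) (hy' : y ∈ iv q') : q = q' := by
  have h1 : q.1 = q'.1 := by
    have a1 := hQ q hq
    have a2 := hQ q' hq'
    omega
  unfold iv at hy hy'
  rw [NrTx259.mem_dI] at hy hy'
  refine Prod.ext h1 ?_
  rw [← hy, ← hy', h1]

/-- the alive sets of different nodes are disjoint -/
lemma A_disj {Q : Finset Nd} (hQ : ∀ q ∈ Q, q.1 + 7 = n) {A : Nd → Finset (ℕ × ℤ × ℤ)}
    (hs : ∀ q ∈ Q, ∀ c ∈ A q, ∀ u ∈ Rw c, ∀ v ∈ Cl c, Y u v ∈ iv q) :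
    ∀ q ∈ Q, ∀ q' ∈ Q, ∀ c ∈ A q, c ∈ A q' → q = q' := fun q hq q' hq' c hc hc' =>
  iv_inj hQ hq hq' (hs q hq c hc _ (dI_nonempty _ _) _ (dI_nonempty _ _))
    (hs q' hq' c hc' _ (dI_nonempty _ _) _ (dI_nonempty _ _))

/-- part 1: paid once -/
lemma part_one {K : Finset κ} {X1 Xk Yk : κ → ℤ → ℂ} {Q : Finset Nd} (hQ : ∀ q ∈ Q, q.1 + 7 = n)
    {Si Sj : Nd → Finset ℤ} (hSi : ∀ q ∈ Q, Si q ⊆ dI m a) (hSj : ∀ q ∈ Q, Sj q ⊆ dI m b)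
    (hYk : Syn K Yk (dI m a) 1) (d : κ → ℝ) :
    ∑ q ∈ Q, ∑ u ∈ Si q, ∑ v ∈ (Sj q).filter (fun v => Y u v ∈ iv q),
      ‖∑ k ∈ K, (d k : ℂ) * (Yk k u * conj (Xk k v - X1 k v))‖ ^ 2 ≤
    ∑ k ∈ K, d k ^ 2 * ∑ v ∈ dI m b, ‖Xk k v - X1 k v‖ ^ 2 := by
  classical
  set A1 : ℤ → ℤ → ℂ := fun u v => ∑ k ∈ K, (d k : ℂ) * (Yk k u * conj (Xk k v - X1 k v)) with hA1
  have a1 : ∑ q ∈ Q, ∑ u ∈ Si q, ∑ v ∈ (Sj q).filter (fun v => Y u v ∈ iv q), ‖A1 u v‖ ^ 2 ≤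
      ∑ u ∈ dI m a, ∑ v ∈ dI m b, ‖A1 u v‖ ^ 2 := by
    have a2 : ∀ q ∈ Q, ∑ u ∈ Si q, ∑ v ∈ (Sj q).filter (fun v => Y u v ∈ iv q), ‖A1 u v‖ ^ 2 ≤
        ∑ u ∈ dI m a, ∑ v ∈ dI m b, if Y u v ∈ iv q then ‖A1 u v‖ ^ 2 else 0 := by
      intro q hq
      refine (Finset.sum_le_sum fun u _ => ?_).trans (Finset.sum_le_sum_of_subset_of_nonneg
        (hSi q hq) fun u _ _ => Finset.sum_nonneg fun v _ => ?_)
      · rw [Finset.sum_filter]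
        refine Finset.sum_le_sum_of_subset_of_nonneg (hSj q hq) fun v _ _ => ?_
        split_ifs
        · exact sq_nonneg _
        · exact le_rfl
      · split_ifs
        · exact sq_nonneg _
        · exact le_rfl
    refine (Finset.sum_le_sum a2).trans ?_
    rw [Finset.sum_comm]
    refine Finset.sum_le_sum fun u _ => ?_
    rw [Finset.sum_comm]
    refine Finset.sum_le_sum fun v _ => ?_
    by_cases hq : ∃ q ∈ Q, Y u v ∈ iv q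
    · obtain ⟨q, hqQ, hqP⟩ := hq
      rw [Finset.sum_eq_single_of_mem q hqQ, if_pos hqP]
      intro q' hq' hne
      rw [if_neg]
      intro hP
      exact hne (iv_inj hQ hq' hqQ hP hqP)
    · rw [Finset.sum_eq_zero]
      · exact sq_nonneg _
      · intro q hqQ
        rw [if_neg fun hP => hq ⟨q, hqQ, hP⟩]
  refine a1.trans ?_
  rw [Finset.sum_comm]
  calc ∑ v ∈ dI m b, ∑ u ∈ dI m a, ‖A1 u v‖ ^ 2
      ≤ ∑ v ∈ dI m b, 1 * ∑ k ∈ K, d k ^ 2 * ‖Xk k v - X1 k v‖ ^ 2 :=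
        Finset.sum_le_sum fun v _ => hYk.col d (fun k => Xk k v - X1 k v)
    _ = _ := by
        simp only [one_mul]
        rw [Finset.sum_comm]
        exact Finset.sum_congr rfl fun k _ => (Finset.mul_sum _ _ _).symm

/-- **STAGE 2**, inner positions, all the grid nodes of one cell -/
theorem stage2 {K : Finset κ} {X1 Y1 Xk Yk : κ → ℤ → ℂ} (h : Tlg m a b Ti)
    (hY : Lab Y α β γ Γ) (hnm : n ≤ m) (hr : 0 < r)
    (hop : ∀ c ∈ Ti, OpS (Rw c) (Cl c) B (r * 2 ^ c.1)) {Q : Finset Nd}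
    (hQ : ∀ q ∈ Q, q.1 + 7 = n) {A : Nd → Finset (ℕ × ℤ × ℤ)} (hA : ∀ q ∈ Q, A q ⊆ Ti)
    (hs : ∀ q ∈ Q, ∀ c ∈ A q, ∀ u ∈ Rw c, ∀ v ∈ Cl c, Y u v ∈ iv q)
    {Si Sj : Nd → Finset ℤ} (hSi : ∀ q ∈ Q, Si q ⊆ dI m a) (hSj : ∀ q ∈ Q, Sj q ⊆ dI m b)
    {C0 Cs : ℝ} (hC0 : 0 ≤ C0) (hCs : 0 ≤ Cs)
    (hwr : ∀ q ∈ Q, ∀ u ∈ Si q, 2 ^ n ≤ C0 * wt (A q) u)
    (hwc : ∀ q ∈ Q, ∀ v ∈ Sj q, 2 ^ n ≤ C0 * wtc (A q) v)
    (hsp : Spr K X1 (dI m b) ((1 + Γ) * 2 ^ n) (Cs * 2 ^ n / 2 ^ m))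
    (hYk : Syn K Yk (dI m a) 1) (d : κ → ℝ) :
    ∑ q ∈ Q, ∑ u ∈ Si q, ∑ v ∈ (Sj q).filter (fun v => Y u v ∈ iv q),
      ‖∑ k ∈ K, (d k : ℂ) * (Yk k u * conj (Xk k v) -
        avg m b (A q) B r (X1 k) u * conj (avc m a (A q) B r (Y1 k) v))‖ ^ 2 ≤
    3 * ∑ k ∈ K, d k ^ 2 * (2 * Cs * C0 * RA m a Ti B r (Yk k) (Xk k) +
      4 * C0 ^ 3 * Cs * CA m b Ti B r (Yk k) (Xk k) +
      (1 + 4 * C0 ^ 2 * Cs * (2 * Γ + 1)) * ∑ v ∈ dI m b, ‖Xk k v - X1 k v‖ ^ 2 +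
      4 * C0 ^ 4 * Cs * (2 * Γ + 1) * ∑ u ∈ dI m a, ‖Yk k u - Y1 k u‖ ^ 2) := by
  classical
  have hd := A_disj (Y := Y) hQ hs
  have key : ∀ q ∈ Q, ∑ u ∈ Si q, ∑ v ∈ (Sj q).filter (fun v => Y u v ∈ iv q),
      ‖∑ k ∈ K, (d k : ℂ) * (Yk k u * conj (Xk k v) -
        avg m b (A q) B r (X1 k) u * conj (avc m a (A q) B r (Y1 k) v))‖ ^ 2 ≤
      3 * ∑ u ∈ Si q, ∑ v ∈ (Sj q).filter (fun v => Y u v ∈ iv q),
        ‖∑ k ∈ K, (d k : ℂ) * (Yk k u * conj (Xk k v - X1 k v))‖ ^ 2 +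
      3 * ∑ k ∈ K, d k ^ 2 * (2 * Cs * C0 * RA m a (A q) B r (Yk k) (Xk k) +
        4 * C0 ^ 3 * Cs * CA m b (A q) B r (Yk k) (Xk k) +
        4 * C0 ^ 2 * Cs * (2 ^ n / 2 ^ m *
          ∑ v ∈ (dI m b).filter (fun v => ∃ u ∈ dI m a, Y u v ∈ iv q), ‖Xk k v - X1 k v‖ ^ 2) +
        4 * C0 ^ 4 * Cs * (2 ^ n / 2 ^ m *
          ∑ u ∈ (dI m a).filter (fun u => ∃ v ∈ dI m b, Y u v ∈ iv q),
            ‖Yk k u - Y1 k u‖ ^ 2)) := by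
    intro q hq
    have e : iv q = dI n q.2 := by
      unfold iv
      rw [hQ q hq]
    have h1 := strip_cell (Xk := Xk) (Yk := Yk) (Y1 := Y1) (A := A q) (l := q.2) h (hA q hq) hY
      (fun c hc u hu v hv => by rw [← e]; exact hs q hq c hc u hu v hv) hr
      (fun c hc => hop c (hA q hq hc)) (hSi q hq) (hSj q hq) hC0 hCs (hwr q hq) (hwc q hq) hsp d
    rw [e]
    refine (le_of_eq ?_).trans (h1.trans (le_of_eq ?_))
    · rfl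
    · refine congrArg₂ (· + ·) rfl ?_
      congr 1
      refine Finset.sum_congr rfl fun k _ => ?_
      have e2 : ∀ C x : ℝ, C * 2 ^ n / 2 ^ m * x = C * (2 ^ n / 2 ^ m * x) := fun C x => by ring
      rw [e2, e2]
  refine (Finset.sum_le_sum key).trans ?_
  rw [Finset.sum_add_distrib, ← Finset.mul_sum, ← Finset.mul_sum, Finset.sum_comm (s := Q)]
  have p1 := part_one (X1 := X1) (Xk := Xk) (Y := Y) hQ hSi hSj hYk d
  have p2 : ∑ k ∈ K, ∑ q ∈ Q, d k ^ 2 * (2 * Cs * C0 * RA m a (A q) B r (Yk k) (Xk k) +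
        4 * C0 ^ 3 * Cs * CA m b (A q) B r (Yk k) (Xk k) +
        4 * C0 ^ 2 * Cs * (2 ^ n / 2 ^ m *
          ∑ v ∈ (dI m b).filter (fun v => ∃ u ∈ dI m a, Y u v ∈ iv q), ‖Xk k v - X1 k v‖ ^ 2) +
        4 * C0 ^ 4 * Cs * (2 ^ n / 2 ^ m *
          ∑ u ∈ (dI m a).filter (fun u => ∃ v ∈ dI m b, Y u v ∈ iv q),
            ‖Yk k u - Y1 k u‖ ^ 2)) ≤
      ∑ k ∈ K, d k ^ 2 * (2 * Cs * C0 * RA m a Ti B r (Yk k) (Xk k) +
        4 * C0 ^ 3 * Cs * CA m b Ti B r (Yk k) (Xk k) +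
        4 * C0 ^ 2 * Cs * ((2 * Γ + 1) * ∑ v ∈ dI m b, ‖Xk k v - X1 k v‖ ^ 2) +
        4 * C0 ^ 4 * Cs * ((2 * Γ + 1) * ∑ u ∈ dI m a, ‖Yk k u - Y1 k u‖ ^ 2)) := by
    refine Finset.sum_le_sum fun k _ => ?_
    rw [← Finset.mul_sum, Finset.sum_add_distrib, Finset.sum_add_distrib,
      Finset.sum_add_distrib]
    refine mul_le_mul_of_nonneg_left ?_ (sq_nonneg _)
    have q1 := mul_le_mul_of_nonneg_left (sum_RA (m := m) (a := a) (B := B) (r := r) hA hd (Yk k)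
      (Xk k)) (show 0 ≤ 2 * Cs * C0 by positivity)
    have q2 := mul_le_mul_of_nonneg_left (sum_CA (m := m) (b := b) (B := B) (r := r) hA hd (Yk k)
      (Xk k)) (show 0 ≤ 4 * C0 ^ 3 * Cs by positivity)
    have q3 := mul_le_mul_of_nonneg_left (sum_seen (m := m) (a := a) (b := b) hY hnm Q hQ
      (fun v => ‖Xk k v - X1 k v‖ ^ 2) fun _ => sq_nonneg _)
      (show 0 ≤ 4 * C0 ^ 2 * Cs by positivity)
    have q4 := mul_le_mul_of_nonneg_left (sum_seen (m := m) (a := b) (b := a) hY.swap hnm Q hQ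
      (fun u => ‖Yk k u - Y1 k u‖ ^ 2) fun _ => sq_nonneg _)
      (show 0 ≤ 4 * C0 ^ 4 * Cs by positivity)
    rw [Finset.mul_sum] at q1 q2 q3 q4
    exact add_le_add (add_le_add (add_le_add q1 q2) q3) q4
  have p3 : 3 * ∑ k ∈ K, d k ^ 2 * (2 * Cs * C0 * RA m a Ti B r (Yk k) (Xk k) +
      4 * C0 ^ 3 * Cs * CA m b Ti B r (Yk k) (Xk k) +
      (1 + 4 * C0 ^ 2 * Cs * (2 * Γ + 1)) * ∑ v ∈ dI m b, ‖Xk k v - X1 k v‖ ^ 2 +
      4 * C0 ^ 4 * Cs * (2 * Γ + 1) * ∑ u ∈ dI m a, ‖Yk k u - Y1 k u‖ ^ 2) =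
      3 * ∑ k ∈ K, d k ^ 2 * ∑ v ∈ dI m b, ‖Xk k v - X1 k v‖ ^ 2 +
      3 * ∑ k ∈ K, d k ^ 2 * (2 * Cs * C0 * RA m a Ti B r (Yk k) (Xk k) +
        4 * C0 ^ 3 * Cs * CA m b Ti B r (Yk k) (Xk k) +
        4 * C0 ^ 2 * Cs * ((2 * Γ + 1) * ∑ v ∈ dI m b, ‖Xk k v - X1 k v‖ ^ 2) +
        4 * C0 ^ 4 * Cs * ((2 * Γ + 1) * ∑ u ∈ dI m a, ‖Yk k u - Y1 k u‖ ^ 2)) := by
    rw [← mul_add, ← Finset.sum_add_distrib]
    congr 1
    exact Finset.sum_congr rfl fun k _ => by ring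
  rw [p3]
  linarith

end nodes

end Crest.Agent.R079.NrVx248
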