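import Crest.Agent.R079.NrC_228
import Crest.Agent.R079.NrV_248

/-! R079, note 1820 / 1922 (T3), STAGE 2 (helper248) under 228's geometry `CG`, in the names of NrB_228:
`stage2_cg` : the error of the second smoothing on the inner positions of all the strips is
`≤ K2 kc θ * ((r' - r) / r) * Gd`. -/

set_option autoImplicit false

namespace Crest.Agent.R079.NrYx248

open Finset Crest.Agent.R079.Grid Crest.Agent.R079.Growth
open Crest.Agent.R079.ClW59 (OpS)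
open Crest.Agent.R079.NrMx259 Crest.Agent.R079.NrTx259 Crest.Agent.R079.NrUx259
  Crest.Agent.R079.NrAx228 Crest.Agent.R079.NrBx228 Crest.Agent.R079.NrCx228
  Crest.Agent.R079.NrSx248 Crest.Agent.R079.NrVx248
open Crest.Agent.R079.NrWx259 (Gd bfX bfY)

open scoped ComplexConjugate

variable {β : Type} {m : ℕ} {a b : ℤ} {Ti E1 : Finset (ℕ × ℤ × ℤ)} {Q : Finset β}
  {E2 : β → Finset (ℕ × ℤ × ℤ)} {P : β → ℤ → ℤ → Prop} {l kc : ℕ} {θ : ℝ}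
  {A B : ℤ → ℤ → ℂ} {S T : Finset ℤ} {s : ℤ → ℝ} {Y X : ℤ → ℤ → ℂ} {r r' : ℝ}

lemma dm_row (G : CG m a b Ti E1 Q E2 P l kc θ) {q : β} (hq : q ∈ Q) {u : ℤ} {J : Finset ℤ}
    (hJ : ∀ v ∈ J, P q u v) : Dm J (2 ^ (l + 8)) := by
  intro v hv v' hv'
  have h1 := G.Pr q hq u v' v (hJ v' hv') (hJ v hv)
  have h2 := (le_abs_self _).trans h1
  have h3 : (0 : ℤ) < 2 ^ (l + 7) := by positivity
  push_cast
  have h4 : (2 : ℤ) ^ (l + 8) = 2 * 2 ^ (l + 7) := by rw [pow_succ]; ring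
  rw [h4]
  linarith

lemma dm_col (G : CG m a b Ti E1 Q E2 P l kc θ) {q : β} (hq : q ∈ Q) {v : ℤ} {J : Finset ℤ}
    (hJ : ∀ u ∈ J, P q u v) : Dm J (2 ^ (l + 8)) := by
  intro u hu u' hu'
  have h1 := G.Pc q hq u' u v (hJ u' hu') (hJ u hu)
  have h2 := (le_abs_self _).trans h1
  have h3 : (0 : ℤ) < 2 ^ (l + 7) := by positivity
  push_cast
  have h4 : (2 : ℤ) ^ (l + 8) = 2 * 2 ^ (l + 7) := by rw [pow_succ]; ring
  rw [h4]
  linarith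

lemma dm_row2 (G : CG m a b Ti E1 Q E2 P l kc θ) {q : β} (hq : q ∈ Q) {v0 : ℤ} {J : Finset ℤ}
    (hJ : ∀ v ∈ J, ∃ u, P q u v0 ∧ P q u v) : Dm J (2 ^ (l + 9)) := by
  intro v hv v' hv'
  obtain ⟨u, h1, h2⟩ := hJ v hv
  obtain ⟨u', h1', h2'⟩ := hJ v' hv'
  have h3 := (le_abs_self _).trans (G.Pr q hq u v0 v h1 h2)
  have h4 := (le_abs_self _).trans (G.Pr q hq u' v' v0 h2' h1')
  have h5 : (0 : ℤ) < 2 ^ (l + 7) := by positivity
  push_cast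
  have h6 : (2 : ℤ) ^ (l + 9) = 4 * 2 ^ (l + 7) := by rw [pow_add, pow_add]; ring
  rw [h6]
  linarith

lemma wt_cg (G : CG m a b Ti E1 Q E2 P l kc θ) {q : β} (hq : q ∈ Q) (u : ℤ) :
    wt (E2 q) u ≤ 2 ^ (l + 8) := by
  classical
  have h1 : wt (E2 q) u ≤ ((((E2 q).filter (fun c => u ∈ Rw c)).biUnion Cl).card : ℝ) :=
    sum_side (fun c hc => Finset.subset_biUnion_of_mem Cl hc)
      (G.tl.cdis ((Finset.filter_subset _ _).trans (G.E2s q hq))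
        fun c hc => (Finset.mem_filter.1 hc).2)
  refine h1.trans ?_
  have h2 : Dm (((E2 q).filter (fun c => u ∈ Rw c)).biUnion Cl) (2 ^ (l + 8)) :=
    dm_row G hq (u := u) fun v hv => by
      obtain ⟨c, hc, hvc⟩ := Finset.mem_biUnion.1 hv
      exact G.E2P q hq c (Finset.mem_filter.1 hc).1 u (Finset.mem_filter.1 hc).2 v hvc
  exact_mod_cast h2.card

lemma wtc_cg (G : CG m a b Ti E1 Q E2 P l kc θ) {q : β} (hq : q ∈ Q) (v : ℤ) :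
    wtc (E2 q) v ≤ 2 ^ (l + 8) := by
  classical
  have h1 : wtc (E2 q) v ≤ ((((E2 q).filter (fun c => v ∈ Cl c)).biUnion Rw).card : ℝ) :=
    sum_side_row (fun c hc => Finset.subset_biUnion_of_mem Rw hc)
      (G.tl.rdis ((Finset.filter_subset _ _).trans (G.E2s q hq))
        fun c hc => (Finset.mem_filter.1 hc).2)
  refine h1.trans ?_
  have h2 : Dm (((E2 q).filter (fun c => v ∈ Cl c)).biUnion Rw) (2 ^ (l + 8)) :=
    dm_col G hq (v := v) fun u hu => by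
      obtain ⟨c, hc, huc⟩ := Finset.mem_biUnion.1 hu
      exact G.E2P q hq c (Finset.mem_filter.1 hc).1 u huc v (Finset.mem_filter.1 hc).2
  exact_mod_cast h2.card

/-- operator norm of the masked kernel of a grid node -/
theorem op_cg (G : CG m a b Ti E1 Q E2 P l kc θ) {q : β} (hq : q ∈ Q)
    (hop : ∀ c ∈ Ti, OpS (Rw c) (Cl c) B (r * 2 ^ c.1)) :
    OpS (dI m a) (dI m b) (mB (E2 q) B) (r * 2 ^ (l + 8)) := by
  have h1 := op_strip (I0 := dI m a) G.tl (G.E2s q hq) (fun c hc => hop c (G.E2s q hq hc))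
    (S' := 2 ^ (l + 8)) (l := 2 ^ (l + 8)) (by positivity) (by positivity)
    (fun u _ => wt_cg G hq u) (fun v _ => ?_)
  · rw [Real.sqrt_mul_self (by positivity)] at h1
    exact h1
  · refine le_trans (Finset.sum_le_sum_of_subset_of_nonneg ?_ fun _ _ _ => by positivity)
      (wtc_cg G hq v)
    intro c hc
    rw [Finset.mem_filter] at hc ⊢
    exact ⟨hc.1, hc.2.1⟩

/-- spread constant -/
noncomputable def sp (m l kc : ℕ) (θ : ℝ) : ℝ := 513 * (2 ^ (l + kc) / 2 ^ m / θ ^ 2)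

lemma sp_nonneg (m l kc : ℕ) (θ : ℝ) : 0 ≤ sp m l kc θ := by
  unfold sp
  positivity

theorem spr_x1 (G : CG m a b Ti E1 Q E2 P l kc θ) (hr : 0 < r) (hθ : 0 < θ)
    (hop : ∀ c ∈ Ti, OpS (Rw c) (Cl c) B (r * 2 ^ c.1)) (H : SvC A S T s Y X) (hS : S ⊆ dI m a) :
    Spr T (x1 m a E1 B r Y) (dI m b) (2 ^ (l + 9)) (sp m l kc θ) := by
  intro J hJ hD
  obtain ⟨x, hx⟩ := hD.sub
  have h1 := bf_x1 G hr hθ hop H hS hJ (x := x) (y := x + ((2 ^ (l + 9) : ℕ) : ℤ)) (N := 2 ^ 9)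
    (by push_cast; rw [pow_add]; ring_nf; rfl) hx
  have e : ((2 ^ 9 : ℕ) : ℝ) + 1 = 513 := by norm_num
  rw [e] at h1
  exact h1

open Classical in
/-- inner rows / columns of a grid node -/
noncomputable def inn (I : Finset ℤ) (w : ℤ → ℝ) (l : ℕ) : Finset ℤ :=
  I.filter (fun u => (2 : ℝ) ^ l ≤ w u)

lemma mem_inn {I : Finset ℤ} {w : ℤ → ℝ} {l : ℕ} {u : ℤ} :
    u ∈ inn I w l ↔ u ∈ I ∧ (2 : ℝ) ^ l ≤ w u := Finset.mem_filter

lemma inn_sub (I : Finset ℤ) (w : ℤ → ℝ) (l : ℕ) : inn I w l ⊆ I := Finset.filter_subset _ _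

lemma two8 {w : ℝ} (h : (2 : ℝ) ^ l ≤ w) : (2 : ℝ) ^ (l + 8) ≤ 2 ^ 8 * w := by
  rw [pow_add]
  linarith

/-- **the hypotheses of `S2`** -/
theorem s2_cg (G : CG m a b Ti E1 Q E2 P l kc θ) (hr : 0 < r) (hθ : 0 < θ)
    (hop : ∀ c ∈ Ti, OpS (Rw c) (Cl c) B (r * 2 ^ c.1)) (H : SvC A S T s Y X) (hS : S ⊆ dI m a)
    {q : β} (hq : q ∈ Q) :
    S2 T (dI m a) (dI m b) (inn (dI m a) (wt (E2 q)) l) (inn (dI m b) (wtc (E2 q)) l) (P q)
      (LU (E2 q) B r) (LV (E2 q) B r) (dI m b) (dI m a) Y X (y1 m b E1 B r X)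
      (x1 m a E1 B r Y) ((2 ^ 8) ^ 2) (sp m l kc θ) where
  c0 := by positivity
  σ0 := sp_nonneg _ _ _ _
  hSi := inn_sub _ _ _
  hTi := inn_sub _ _ _
  hWU := Finset.Subset.refl _
  hWV := Finset.Subset.refl _
  kU := kop_of_op hr (by positivity) (op_cg G hq hop) rfl (inn_sub _ _ _)
    (fun u hu => two8 (mem_inn.1 hu).2) (wt_nonneg _)
  kV := kop_of_op hr (by positivity) (opS_swap (by positivity) (op_cg G hq hop)) rfl
    (inn_sub _ _ _) (fun u hu => two8 (mem_inn.1 hu).2) (wtc_nonneg _)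
  sU := fun _ _ y hy hn => absurd hy hn
  sV := fun _ _ y hy hn => absurd hy hn
  spX := by
    intro u _ J hJ hP
    exact spr_x1 G hr hθ hop H hS J (hJ.trans (inn_sub _ _ _))
      ((dm_row G hq hP).le (Nat.pow_le_pow_right (by norm_num) (by omega)))
  spX' := by
    classical
    intro v hv J hJ hP
    refine ⟨(dI m b).filter (fun v' => ∃ u, P q u v ∧ P q u v'),
      Finset.filter_subset _ _, ?_, ?_⟩
    · exact spr_x1 G hr hθ hop H hS _ (Finset.filter_subset _ _)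
        (dm_row2 G hq (v0 := v) fun v' hv' => (Finset.mem_filter.1 hv').2)
    · intro u hu v' hv' hn
      unfold LU mB
      rw [if_neg, zero_div]
      rintro ⟨c, hc, h1, h2⟩
      exact hn (Finset.mem_filter.2 ⟨hv', u, hP u hu, G.E2P q hq c hc u h1 v' h2⟩)

/-- constant of the spread -/
noncomputable def Cs (kc : ℕ) (θ : ℝ) : ℝ := 513 * 2 ^ kc / θ ^ 2

lemma Cs_nonneg (kc : ℕ) (θ : ℝ) : 0 ≤ Cs kc θ := by
  unfold Cs
  positivity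

lemma sp_eq (m l kc : ℕ) (θ : ℝ) : sp m l kc θ = Cs kc θ * (2 ^ l / 2 ^ m) := by
  unfold sp Cs
  rw [pow_add]
  ring

lemma inv_wt {w : ℝ} (h : (2 : ℝ) ^ l ≤ w) : 0 < w ∧ (2 : ℝ) ^ m / w ≤ 2 ^ m / 2 ^ l := by
  have h1 : (0 : ℝ) < 2 ^ l := by positivity
  have h2 : 0 < w := h1.trans_le h
  exact ⟨h2, div_le_div_of_nonneg_left (by positivity) h1 h⟩

open Classical in
/-- **STAGE 2, one grid node** -/
theorem strip_cg (G : CG m a b Ti E1 Q E2 P l kc θ) (hr : 0 < r) (hθ : 0 < θ)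
    (hop : ∀ c ∈ Ti, OpS (Rw c) (Cl c) B (r * 2 ^ c.1)) (H : SvC A S T s Y X) (hS : S ⊆ dI m a)
    {q : β} (hq : q ∈ Q) (d : ℤ → ℝ) :
    ∑ u ∈ inn (dI m a) (wt (E2 q)) l,
      ∑ v ∈ (inn (dI m b) (wtc (E2 q)) l).filter (fun v => P q u v),
      ‖∑ k ∈ T, (d k : ℂ) * (Y k u * conj (X k v) - yt m a b E1 (E2 q) B r (2 ^ l) Y k u *
        conj (xt m a b E1 (E2 q) B r (2 ^ l) X k v))‖ ^ 2 ≤
    3 * ∑ u ∈ inn (dI m a) (wt (E2 q)) l,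
      ∑ v ∈ (inn (dI m b) (wtc (E2 q)) l).filter (fun v => P q u v),
      ‖∑ k ∈ T, (d k : ℂ) * (Y k u * conj (X k v - x1 m a E1 B r Y k v))‖ ^ 2 +
    3 * ∑ k ∈ T, d k ^ 2 * (2 * Cs kc θ * RA m a (E2 q) B r (Y k) (X k) +
      4 * 2 ^ 16 * Cs kc θ * CA m b (E2 q) B r (Y k) (X k) +
      4 * 2 ^ 16 * Cs kc θ * (2 ^ l / 2 ^ m * ∑ v ∈ dI m b, ‖X k v - x1 m a E1 B r Y k v‖ ^ 2) +
      4 * 2 ^ 32 * Cs kc θ * (2 ^ l / 2 ^ m * ∑ u ∈ dI m a, ‖Y k u - y1 m b E1 B r X k u‖ ^ 2)) := by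
  have h1 := (s2_cg G hr hθ hop H hS hq).strip d (yt m a b E1 (E2 q) B r (2 ^ l) Y)
    (xt m a b E1 (E2 q) B r (2 ^ l) X)
    (fun k _ u hu => by
      unfold yt
      rw [if_pos (mem_inn.1 hu).2, avg_LU])
    (fun k _ v hv => by
      unfold xt
      rw [if_pos (mem_inn.1 hv).2]
      exact avc_LV m a _ v)
  refine h1.trans (add_le_add_right (mul_le_mul_of_nonneg_left (Finset.sum_le_sum fun k _ =>
    mul_le_mul_of_nonneg_left ?_ (sq_nonneg _)) (by norm_num)) _)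
  have hL : (0 : ℝ) < 2 ^ l := by positivity
  have hM : (0 : ℝ) < 2 ^ m := by positivity
  have hC := Cs_nonneg kc θ
  rw [sp_eq]
  have hA := G.E2s q hq
  have e1 : ∑ u ∈ (inn (dI m a) (wt (E2 q)) l).filter
      (fun u => ∃ v ∈ inn (dI m b) (wtc (E2 q)) l, P q u v),
      ‖Y k u - ∑ v ∈ dI m b, LU (E2 q) B r u v * X k v‖ ^ 2 ≤
      2 ^ m / 2 ^ l * RA m a (E2 q) B r (Y k) (X k) := by
    unfold RA
    rw [Finset.mul_sum]
    refine (Finset.sum_le_sum (g := fun u => 2 ^ m / 2 ^ l *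
      ∑ c ∈ (E2 q).filter (fun c => u ∈ Rw c), (2 : ℝ) ^ c.1 / 2 ^ m *
        ‖Y k u - mc B r (X k) c u‖ ^ 2) fun u hu => ?_).trans
      (Finset.sum_le_sum_of_subset_of_nonneg ((Finset.filter_subset _ _).trans (inn_sub _ _ _))
        fun _ _ _ => ?_)
    · rw [← avg_LU]
      obtain ⟨hw1, hw2⟩ := inv_wt (m := m) (mem_inn.1 (Finset.mem_filter.1 hu).1).2
      refine (jen G.tl hA hr (Y k u) (X k) hw1).trans (mul_le_mul_of_nonneg_right hw2 ?_)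
      exact Finset.sum_nonneg fun c _ => by positivity
    · exact mul_nonneg (by positivity) (Finset.sum_nonneg fun c _ => by positivity)
  have e2 : ∑ v ∈ (inn (dI m b) (wtc (E2 q)) l).filter
      (fun v => ∃ u ∈ inn (dI m a) (wt (E2 q)) l, P q u v),
      ‖X k v - ∑ u ∈ dI m a, LV (E2 q) B r v u * Y k u‖ ^ 2 ≤
      2 ^ m / 2 ^ l * CA m b (E2 q) B r (Y k) (X k) := by
    unfold CA
    rw [Finset.mul_sum]
    refine (Finset.sum_le_sum (g := fun v => 2 ^ m / 2 ^ l *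
      ∑ c ∈ (E2 q).filter (fun c => v ∈ Cl c), (2 : ℝ) ^ c.1 / 2 ^ m *
        ‖X k v - mcc B r (Y k) c v‖ ^ 2) fun v hv => ?_).trans
      (Finset.sum_le_sum_of_subset_of_nonneg ((Finset.filter_subset _ _).trans (inn_sub _ _ _))
        fun _ _ _ => ?_)
    · rw [← avc_LV]
      obtain ⟨hw1, hw2⟩ := inv_wt (m := m) (mem_inn.1 (Finset.mem_filter.1 hv).1).2
      refine (jenc G.tl hA hr (X k v) (Y k) hw1).trans (mul_le_mul_of_nonneg_right hw2 ?_)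
      exact Finset.sum_nonneg fun c _ => by positivity
    · exact mul_nonneg (by positivity) (Finset.sum_nonneg fun c _ => by positivity)
  have e3 : ∑ v ∈ (inn (dI m b) (wtc (E2 q)) l).filter
      (fun v => ∃ u ∈ inn (dI m a) (wt (E2 q)) l, P q u v),
      ‖x1 m a E1 B r Y k v - X k v‖ ^ 2 ≤
      ∑ v ∈ dI m b, ‖X k v - x1 m a E1 B r Y k v‖ ^ 2 := by
    have a1 : ∀ v, ‖x1 m a E1 B r Y k v - X k v‖ ^ 2 = ‖X k v - x1 m a E1 B r Y k v‖ ^ 2 :=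
      fun v => by rw [norm_sub_rev]
    simp only [a1]
    exact Finset.sum_le_sum_of_subset_of_nonneg ((Finset.filter_subset _ _).trans (inn_sub _ _ _))
      fun _ _ _ => sq_nonneg _
  set S1 := ∑ u ∈ (inn (dI m a) (wt (E2 q)) l).filter
      (fun u => ∃ v ∈ inn (dI m b) (wtc (E2 q)) l, P q u v),
      ‖Y k u - ∑ v ∈ dI m b, LU (E2 q) B r u v * X k v‖ ^ 2
  set S2 := ∑ v ∈ (inn (dI m b) (wtc (E2 q)) l).filter
      (fun v => ∃ u ∈ inn (dI m a) (wt (E2 q)) l, P q u v),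
      ‖X k v - ∑ u ∈ dI m a, LV (E2 q) B r v u * Y k u‖ ^ 2
  set S3 := ∑ v ∈ (inn (dI m b) (wtc (E2 q)) l).filter
      (fun v => ∃ u ∈ inn (dI m a) (wt (E2 q)) l, P q u v),
      ‖x1 m a E1 B r Y k v - X k v‖ ^ 2
  set F1 := ∑ v ∈ dI m b, ‖X k v - x1 m a E1 B r Y k v‖ ^ 2
  set F2 := ∑ u ∈ dI m a, ‖Y k u - y1 m b E1 B r X k u‖ ^ 2
  set R1 := RA m a (E2 q) B r (Y k) (X k)
  set R2 := CA m b (E2 q) B r (Y k) (X k)
  have hg : (0 : ℝ) ≤ Cs kc θ * (2 ^ l / 2 ^ m) := by positivity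
  have f1 : Cs kc θ * (2 ^ l / 2 ^ m) * (2 * S1) ≤ 2 * Cs kc θ * R1 := by
    have h2 := mul_le_mul_of_nonneg_left e1 (mul_nonneg zero_le_two hg)
    have e : 2 * (Cs kc θ * (2 ^ l / 2 ^ m)) * (2 ^ m / 2 ^ l * R1) = 2 * Cs kc θ * R1 := by
      field_simp
    linarith
  have f2 : Cs kc θ * (2 ^ l / 2 ^ m) * S2 ≤ Cs kc θ * R2 := by
    have h2 := mul_le_mul_of_nonneg_left e2 hg
    have e : Cs kc θ * (2 ^ l / 2 ^ m) * (2 ^ m / 2 ^ l * R2) = Cs kc θ * R2 := by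
      field_simp
    linarith
  have f3 : Cs kc θ * (2 ^ l / 2 ^ m) * S3 ≤ Cs kc θ * (2 ^ l / 2 ^ m) * F1 :=
    mul_le_mul_of_nonneg_left e3 hg
  calc Cs kc θ * (2 ^ l / 2 ^ m) * (2 * S1 + 2 * ((2 ^ 8) ^ 2 * F1)) +
        (2 ^ 8) ^ 2 * (Cs kc θ * (2 ^ l / 2 ^ m)) *
        (2 * S3 + 2 * (2 * S2 + 2 * ((2 ^ 8) ^ 2 * F2)))
      = Cs kc θ * (2 ^ l / 2 ^ m) * (2 * S1) + 4 * 2 ^ 16 * (Cs kc θ * (2 ^ l / 2 ^ m) * S2) +
        2 * 2 ^ 16 * (Cs kc θ * (2 ^ l / 2 ^ m) * S3) +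
        (2 * 2 ^ 16 * (Cs kc θ * (2 ^ l / 2 ^ m) * F1) +
          4 * 2 ^ 32 * Cs kc θ * (2 ^ l / 2 ^ m * F2)) := by ring
    _ ≤ 2 * Cs kc θ * R1 + 4 * 2 ^ 16 * (Cs kc θ * R2) +
        2 * 2 ^ 16 * (Cs kc θ * (2 ^ l / 2 ^ m) * F1) +
        (2 * 2 ^ 16 * (Cs kc θ * (2 ^ l / 2 ^ m) * F1) +
          4 * 2 ^ 32 * Cs kc θ * (2 ^ l / 2 ^ m * F2)) := by
        linarith
    _ = _ := by ring

/-- disjoint sets of tiles -/
lemma sum_A' (G : CG m a b Ti E1 Q E2 P l kc θ) (p : ℕ × ℤ × ℤ → Prop)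
    [DecidablePred p] (g : ℕ × ℤ × ℤ → ℝ) (hg : ∀ c, 0 ≤ g c) :
    ∑ q ∈ Q, ∑ c ∈ (E2 q).filter p, g c ≤ ∑ c ∈ Ti.filter p, g c := by
  classical
  rw [← Finset.sum_biUnion]
  · refine Finset.sum_le_sum_of_subset_of_nonneg (fun c hc => ?_) fun _ _ _ => hg _
    obtain ⟨q, hq, hc'⟩ := Finset.mem_biUnion.1 hc
    rw [Finset.mem_filter] at hc' ⊢
    exact ⟨G.E2s q hq hc'.1, hc'.2⟩
  · intro q hq q' hq' hne
    rw [Function.onFun, Finset.disjoint_left]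
    intro c hc hc'
    exact hne (G.E2d q hq q' hq' c (Finset.mem_filter.1 hc).1 (Finset.mem_filter.1 hc').1)

lemma sum_RA' (G : CG m a b Ti E1 Q E2 P l kc θ) (y x : ℤ → ℂ) :
    ∑ q ∈ Q, RA m a (E2 q) B r y x ≤ RA m a Ti B r y x := by
  unfold RA
  rw [Finset.sum_comm]
  exact Finset.sum_le_sum fun u _ => sum_A' G _ _ fun c => by positivity

lemma sum_CA' (G : CG m a b Ti E1 Q E2 P l kc θ) (y x : ℤ → ℂ) :
    ∑ q ∈ Q, CA m b (E2 q) B r y x ≤ CA m b Ti B r y x := by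
  unfold CA
  rw [Finset.sum_comm]
  exact Finset.sum_le_sum fun u _ => sum_A' G _ _ fun c => by positivity

lemma sum_const_le (G : CG m a b Ti E1 Q E2 P l kc θ) {F : ℝ} (hF : 0 ≤ F) :
    ∑ _q ∈ Q, 2 ^ l / 2 ^ m * F ≤ 2 * F := by
  rw [Finset.sum_const, nsmul_eq_mul]
  have hM : (0 : ℝ) < 2 ^ m := by positivity
  calc (Q.card : ℝ) * (2 ^ l / 2 ^ m * F) = (Q.card : ℝ) * 2 ^ l / 2 ^ m * F := by ring
    _ ≤ 2 * 2 ^ m / 2 ^ m * F :=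
        mul_le_mul_of_nonneg_right (div_le_div_of_nonneg_right G.cd hM.le) hF
    _ = _ := by field_simp

open Classical in
/-- part 1: paid once -/
lemma part_one' (G : CG m a b Ti E1 Q E2 P l kc θ) (H : SvC A S T s Y X) (hS : S ⊆ dI m a)
    (x : ℤ → ℤ → ℂ) (d : ℤ → ℝ) :
    ∑ q ∈ Q, ∑ u ∈ inn (dI m a) (wt (E2 q)) l,
      ∑ v ∈ (inn (dI m b) (wtc (E2 q)) l).filter (fun v => P q u v),
      ‖∑ k ∈ T, (d k : ℂ) * (Y k u * conj (X k v - x k v))‖ ^ 2 ≤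
    ∑ k ∈ T, d k ^ 2 * ∑ v ∈ dI m b, ‖X k v - x k v‖ ^ 2 := by
  set A1 : ℤ → ℤ → ℂ := fun u v => ∑ k ∈ T, (d k : ℂ) * (Y k u * conj (X k v - x k v)) with hA1
  have a1 : ∑ q ∈ Q, ∑ u ∈ inn (dI m a) (wt (E2 q)) l,
      ∑ v ∈ (inn (dI m b) (wtc (E2 q)) l).filter (fun v => P q u v), ‖A1 u v‖ ^ 2 ≤
      ∑ u ∈ dI m a, ∑ v ∈ dI m b, ‖A1 u v‖ ^ 2 := by
    have a2 : ∀ q ∈ Q, ∑ u ∈ inn (dI m a) (wt (E2 q)) l,
        ∑ v ∈ (inn (dI m b) (wtc (E2 q)) l).filter (fun v => P q u v), ‖A1 u v‖ ^ 2 ≤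
        ∑ u ∈ dI m a, ∑ v ∈ dI m b, if P q u v then ‖A1 u v‖ ^ 2 else 0 := by
      intro q hq
      refine (Finset.sum_le_sum fun u _ => ?_).trans (Finset.sum_le_sum_of_subset_of_nonneg
        (inn_sub _ _ _) fun u _ _ => Finset.sum_nonneg fun v _ => ?_)
      · rw [Finset.sum_filter]
        refine Finset.sum_le_sum_of_subset_of_nonneg (inn_sub _ _ _) fun v _ _ => ?_
        split_ifs
        · exact sq_nonneg _
        · exact le_rfl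
      · split_ifs
        · exact sq_nonneg _
        · exact le_rfl
    refine (Finset.sum_le_sum a2).trans ?_
    rw [Finset.sum_comm]
    refine Finset.sum_le_sum fun u _ => ?_
    rw [Finset.sum_comm]
    refine Finset.sum_le_sum fun v _ => ?_
    by_cases hq : ∃ q ∈ Q, P q u v
    · obtain ⟨q, hqQ, hqP⟩ := hq
      rw [Finset.sum_eq_single_of_mem q hqQ, if_pos hqP]
      intro q' hq' hne
      rw [if_neg]
      intro hP
      exact hne (G.Pd q' hq' q hqQ u v hP hqP)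
    · rw [Finset.sum_eq_zero]
      · exact sq_nonneg _
      · intro q hqQ
        rw [if_neg fun hP => hq ⟨q, hqQ, hP⟩]
  refine a1.trans ?_
  rw [Finset.sum_comm]
  have hYk : Syn T Y (dI m a) 1 := bfY H hS
  calc ∑ v ∈ dI m b, ∑ u ∈ dI m a, ‖A1 u v‖ ^ 2
      ≤ ∑ v ∈ dI m b, 1 * ∑ k ∈ T, d k ^ 2 * ‖X k v - x k v‖ ^ 2 :=
        Finset.sum_le_sum fun v _ => hYk.col d (fun k => X k v - x k v)
    _ = _ := by
        simp only [one_mul]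
        rw [Finset.sum_comm]
        exact Finset.sum_congr rfl fun k _ => (Finset.mul_sum _ _ _).symm

/-- the constant of stage 2 -/
noncomputable def K2 (kc : ℕ) (θ : ℝ) : ℝ :=
  12 * Cs kc θ + 24 * 2 ^ 16 * Cs kc θ + 6 / θ * (1 + 8 * 2 ^ 16 * Cs kc θ) +
    48 * 2 ^ 32 * Cs kc θ / θ

lemma K2_nonneg (kc : ℕ) (hθ : 0 < θ) : 0 ≤ K2 kc θ := by
  have := Cs_nonneg kc θ
  unfold K2
  positivity

open Classical in
/-- **STAGE 2** : all the inner positions of the strips of one cell -/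
theorem stage2_cg (G : CG m a b Ti E1 Q E2 P l kc θ) (hr : 0 < r) (hrr : r ≤ r') (hθ : 0 < θ)
    (hop : ∀ c ∈ Ti, OpS (Rw c) (Cl c) B (r * 2 ^ c.1)) (H : SvC A S T s Y X) (hS : S ⊆ dI m a)
    (hT : T ⊆ dI m b) :
    ∑ q ∈ Q, ∑ u ∈ inn (dI m a) (wt (E2 q)) l,
      ∑ v ∈ (inn (dI m b) (wtc (E2 q)) l).filter (fun v => P q u v),
      ‖∑ k ∈ T, (dk s (r * 2 ^ m) (r' * 2 ^ m) k : ℂ) * (Y k u * conj (X k v) -
        yt m a b E1 (E2 q) B r (2 ^ l) Y k u *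
        conj (xt m a b E1 (E2 q) B r (2 ^ l) X k v))‖ ^ 2 ≤
    K2 kc θ * ((r' - r) / r) * Gd B S T Y X s (r * 2 ^ m) := by
  set d : ℤ → ℝ := dk s (r * 2 ^ m) (r' * 2 ^ m) with hd
  have hC := Cs_nonneg kc θ
  refine (Finset.sum_le_sum fun q hq => strip_cg G hr hθ hop H hS hq d).trans ?_
  rw [Finset.sum_add_distrib, ← Finset.mul_sum, ← Finset.mul_sum, Finset.sum_comm (s := Q)]
  have p1 := part_one' G H hS (x1 m a E1 B r Y) d
  have p2 : ∑ k ∈ T, ∑ q ∈ Q, d k ^ 2 * (2 * Cs kc θ * RA m a (E2 q) B r (Y k) (X k) +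
      4 * 2 ^ 16 * Cs kc θ * CA m b (E2 q) B r (Y k) (X k) +
      4 * 2 ^ 16 * Cs kc θ * (2 ^ l / 2 ^ m * ∑ v ∈ dI m b, ‖X k v - x1 m a E1 B r Y k v‖ ^ 2) +
      4 * 2 ^ 32 * Cs kc θ * (2 ^ l / 2 ^ m *
        ∑ u ∈ dI m a, ‖Y k u - y1 m b E1 B r X k u‖ ^ 2)) ≤
      ∑ k ∈ T, d k ^ 2 * (2 * Cs kc θ * RA m a Ti B r (Y k) (X k) +
      4 * 2 ^ 16 * Cs kc θ * CA m b Ti B r (Y k) (X k) +
      4 * 2 ^ 16 * Cs kc θ * (2 * ∑ v ∈ dI m b, ‖X k v - x1 m a E1 B r Y k v‖ ^ 2) +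
      4 * 2 ^ 32 * Cs kc θ * (2 * ∑ u ∈ dI m a, ‖Y k u - y1 m b E1 B r X k u‖ ^ 2)) := by
    refine Finset.sum_le_sum fun k _ => ?_
    rw [← Finset.mul_sum, Finset.sum_add_distrib, Finset.sum_add_distrib,
      Finset.sum_add_distrib]
    refine mul_le_mul_of_nonneg_left ?_ (sq_nonneg _)
    have q1 := mul_le_mul_of_nonneg_left (sum_RA' (B := B) (r := r) G (Y k) (X k))
      (show 0 ≤ 2 * Cs kc θ by positivity)
    have q2 := mul_le_mul_of_nonneg_left (sum_CA' (B := B) (r := r) G (Y k) (X k))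
      (show 0 ≤ 4 * 2 ^ 16 * Cs kc θ by positivity)
    have q3 := mul_le_mul_of_nonneg_left (sum_const_le G
      (F := ∑ v ∈ dI m b, ‖X k v - x1 m a E1 B r Y k v‖ ^ 2)
      (Finset.sum_nonneg fun _ _ => sq_nonneg _)) (show 0 ≤ 4 * 2 ^ 16 * Cs kc θ by positivity)
    have q4 := mul_le_mul_of_nonneg_left (sum_const_le G
      (F := ∑ u ∈ dI m a, ‖Y k u - y1 m b E1 B r X k u‖ ^ 2)
      (Finset.sum_nonneg fun _ _ => sq_nonneg _)) (show 0 ≤ 4 * 2 ^ 32 * Cs kc θ by positivity)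
    rw [Finset.mul_sum] at q1 q2 q3 q4
    exact add_le_add (add_le_add (add_le_add q1 q2) q3) q4
  have g1 := NrWx259.EA (s := s) G.tl hr hrr hop H hS hT
  have g2 := NrWx259.EAc (s := s) G.tl hr hrr hop H hS hT
  have g3 := NrWx259.E2 (s := s) G.tl G.E1s hr hrr hθ hop H hS hT (J := dI m b)
    (Finset.Subset.refl _) G.E1c
  have g4 := NrWx259.E1 (s := s) G.tl G.E1s hr hrr hθ hop H hS hT (I := dI m a)
    (Finset.Subset.refl _) G.E1r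
  set D := Gd B S T Y X s (r * 2 ^ m) with hD
  have g1' : ∑ k ∈ T, d k ^ 2 * RA m a Ti B r (Y k) (X k) ≤ 2 * (r' - r) / r * D := g1
  have g2' : ∑ k ∈ T, d k ^ 2 * CA m b Ti B r (Y k) (X k) ≤ 2 * (r' - r) / r * D := g2
  have g3' : ∑ k ∈ T, d k ^ 2 * ∑ v ∈ dI m b, ‖X k v - x1 m a E1 B r Y k v‖ ^ 2 ≤
      2 * (r' - r) / (θ * r) * D := g3
  have g4' : ∑ k ∈ T, d k ^ 2 * ∑ u ∈ dI m a, ‖Y k u - y1 m b E1 B r X k u‖ ^ 2 ≤
      2 * (r' - r) / (θ * r) * D := g4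
  set R1 := ∑ k ∈ T, d k ^ 2 * RA m a Ti B r (Y k) (X k)
  set R2 := ∑ k ∈ T, d k ^ 2 * CA m b Ti B r (Y k) (X k)
  set F1 := ∑ k ∈ T, d k ^ 2 * ∑ v ∈ dI m b, ‖X k v - x1 m a E1 B r Y k v‖ ^ 2
  set F2 := ∑ k ∈ T, d k ^ 2 * ∑ u ∈ dI m a, ‖Y k u - y1 m b E1 B r X k u‖ ^ 2
  have p3 : ∑ k ∈ T, d k ^ 2 * (2 * Cs kc θ * RA m a Ti B r (Y k) (X k) +
      4 * 2 ^ 16 * Cs kc θ * CA m b Ti B r (Y k) (X k) +
      4 * 2 ^ 16 * Cs kc θ * (2 * ∑ v ∈ dI m b, ‖X k v - x1 m a E1 B r Y k v‖ ^ 2) +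
      4 * 2 ^ 32 * Cs kc θ * (2 * ∑ u ∈ dI m a, ‖Y k u - y1 m b E1 B r X k u‖ ^ 2)) =
      2 * Cs kc θ * R1 + 4 * 2 ^ 16 * Cs kc θ * R2 + 8 * 2 ^ 16 * Cs kc θ * F1 +
        8 * 2 ^ 32 * Cs kc θ * F2 := by
    rw [Finset.mul_sum, Finset.mul_sum, Finset.mul_sum, Finset.mul_sum,
      ← Finset.sum_add_distrib, ← Finset.sum_add_distrib, ← Finset.sum_add_distrib]
    exact Finset.sum_congr rfl fun k _ => by ring
  rw [p3] at p2
  set t := (r' - r) / r * D with ht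
  have e1 : 2 * (r' - r) / r * D = 2 * t := by rw [ht]; ring
  have e2 : 2 * (r' - r) / (θ * r) * D = 2 / θ * t := by
    rw [ht]
    field_simp
  rw [e1] at g1' g2'
  rw [e2] at g3' g4'
  have h1 := mul_le_mul_of_nonneg_left g1' (show 0 ≤ 6 * Cs kc θ by positivity)
  have h2 := mul_le_mul_of_nonneg_left g2' (show 0 ≤ 12 * 2 ^ 16 * Cs kc θ by positivity)
  have h3 := mul_le_mul_of_nonneg_left g3' (show 0 ≤ 3 * (1 + 8 * 2 ^ 16 * Cs kc θ) by positivity)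
  have h4 := mul_le_mul_of_nonneg_left g4' (show 0 ≤ 24 * 2 ^ 32 * Cs kc θ by positivity)
  have e3 : K2 kc θ * ((r' - r) / r) * D = 6 * Cs kc θ * (2 * t) +
      12 * 2 ^ 16 * Cs kc θ * (2 * t) + 3 * (1 + 8 * 2 ^ 16 * Cs kc θ) * (2 / θ * t) +
      24 * 2 ^ 32 * Cs kc θ * (2 / θ * t) := by
    rw [ht]
    unfold K2
    ring
  rw [e3]
  linarith

end Crest.Agent.R079.NrYx248
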