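import Crest.Agent.R079.NrD_228
import Crest.Agent.R079.NrY_248
import Crest.Agent.R079.NrH_276

/-! # R079 (S0106), T3 (helper228): THE ONE-CELL THEOREM `CellT` (248's stage 2 + edges) and the
unconditional per-cell input `cell_in` (`CellIn` of `ErL_255` for the frame kernels `Zff`). -/

set_option autoImplicit false

namespace Crest.Agent.R079.NrEx228

open Finset Crest.Agent.R079.Grid Crest.Agent.R079.Growth Crest.Agent.R079.QRed
  Crest.Agent.R079.Qh249 Crest.Agent.R079.QVar181 Crest.Agent.R079.TWin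
open Crest.Agent.R079.ThA159
open Crest.Agent.R079.Cel159 (NmP cf okc mcell Mx)
open Crest.Agent.R079.ClW59 (OpS cl)
open Crest.Agent.R079.GaFx371 Crest.Agent.R079.GaDx571 Crest.Agent.R079.PFx263
open Crest.Agent.R079.SbWx795 Crest.Agent.R079.ErLx255
open Crest.Agent.R079.NrTx259 Crest.Agent.R079.NrUx259
  Crest.Agent.R079.NrTx276 Crest.Agent.R079.NrUx276 Crest.Agent.R079.NrGx276
  Crest.Agent.R079.NrHx276 Crest.Agent.R079.NrAx228 Crest.Agent.R079.NrBx228
  Crest.Agent.R079.NrCx228 Crest.Agent.R079.NrDx228 Crest.Agent.R079.NrYx248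

open scoped ComplexConjugate

/-- first constant of the one-cell theorem -/
noncomputable def K1c (kg : ℕ) (θ : ℝ) : ℝ := K2 kg θ + 8 / θ

/-- second constant of the one-cell theorem -/
noncomputable def K2c (kg : ℕ) (θ : ℝ) : ℝ := 8 * (2 ^ 7 + 1) * 2 ^ kg / θ ^ 2

lemma K1c_nonneg (kg : ℕ) {θ : ℝ} (hθ : 0 < θ) : 0 ≤ K1c kg θ := by
  have := K2_nonneg kg hθ
  unfold K1c
  positivity

lemma K2c_nonneg (kg : ℕ) (θ : ℝ) : 0 ≤ K2c kg θ := by
  unfold K2c
  positivity

/-- **THE ONE-CELL THEOREM** -/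
theorem cellT (kg : ℕ) {θ : ℝ} (hθ : 0 < θ) : CellT kg θ (K1c kg θ) (K2c kg θ) := by
  classical
  intro m a b Ti E1 Q E2 P _ l A B S T s Y X r r' G hr hrr hop H hS hT
  set d : ℤ → ℝ := dk s (r * 2 ^ m) (r' * 2 ^ m) with hd
  have hrr2 : r * 2 ^ m ≤ r' * 2 ^ m := mul_le_mul_of_nonneg_right hrr (by positivity)
  have hd0 : ∀ k, 0 ≤ d k := fun k => dk_nonneg hrr2 k
  set F : ℤ → ℤ → ℝ := fun u v => ‖∑ k ∈ T, (d k : ℂ) * Y k u * conj (X k v)‖ ^ 2 with hF
  have hF0 : ∀ u v, 0 ≤ F u v := fun u v => sq_nonneg _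
  set Z : Nd → ℤ → ℤ → ℝ := fun q u v => ‖∑ k ∈ T, (d k : ℂ) * (Y k u * conj (X k v) -
        yt m a b E1 (E2 q) B r (2 ^ l) Y k u *
        conj (xt m a b E1 (E2 q) B r (2 ^ l) X k v))‖ ^ 2 with hZ
  have hZ0 : ∀ q u v, 0 ≤ Z q u v := fun q u v => sq_nonneg _
  have h1 := stage2_cg G hr hrr hθ hop H hS hT
  have h2 := edges G hr hrr hθ hop H hS hT
  -- pointwise
  have key : ∀ q ∈ Q, ∀ u ∈ S, ∀ v ∈ T, (if P q u v then
      ‖∑ k ∈ T, (d k : ℂ) * Y k u * conj (X k v) -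
        ∑ k ∈ T, Pu m a b E1 (E2 q) B r (2 ^ l) Y d u k *
          Qv m a b E1 (E2 q) B r (2 ^ l) X d v k‖ ^ 2 else 0) ≤
      (if (2 : ℝ) ^ l ≤ wt (E2 q) u ∧ (2 : ℝ) ^ l ≤ wtc (E2 q) v ∧ P q u v then Z q u v else 0) +
        (if P q u v then ((if u ∈ edg m a (l + 7) then F u v else 0) +
          (if v ∈ edg m b (l + 7) then F u v else 0)) else 0) := by
    intro q hq u hu v hv
    have hu' := hS hu
    have hv' := hT hv
    by_cases hP : P q u v
    swap
    · rw [if_neg hP, if_neg hP, if_neg (fun h => hP h.2.2), add_zero]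
    rw [if_pos hP, if_pos hP]
    have hsum : ∑ k ∈ T, Pu m a b E1 (E2 q) B r (2 ^ l) Y d u k *
          Qv m a b E1 (E2 q) B r (2 ^ l) X d v k = ∑ k ∈ T, (d k : ℂ) *
          (yt m a b E1 (E2 q) B r (2 ^ l) Y k u *
            conj (xt m a b E1 (E2 q) B r (2 ^ l) X k v)) :=
      Finset.sum_congr rfl fun k _ => PuQv (hd0 k)
    rw [hsum]
    by_cases hw : (2 : ℝ) ^ l ≤ wt (E2 q) u
    · by_cases hw' : (2 : ℝ) ^ l ≤ wtc (E2 q) v
      · rw [if_pos ⟨hw, hw', hP⟩]
        have e1 : ∑ k ∈ T, (d k : ℂ) * Y k u * conj (X k v) - ∑ k ∈ T, (d k : ℂ) *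
            (yt m a b E1 (E2 q) B r (2 ^ l) Y k u *
              conj (xt m a b E1 (E2 q) B r (2 ^ l) X k v)) =
            ∑ k ∈ T, (d k : ℂ) * (Y k u * conj (X k v) -
              yt m a b E1 (E2 q) B r (2 ^ l) Y k u *
              conj (xt m a b E1 (E2 q) B r (2 ^ l) X k v)) := by
          rw [← Finset.sum_sub_distrib]
          exact Finset.sum_congr rfl fun k _ => by ring
        rw [e1]
        refine le_add_of_nonneg_right (add_nonneg ?_ ?_)
        · split_ifs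
          · exact hF0 u v
          · exact le_rfl
        · split_ifs
          · exact hF0 u v
          · exact le_rfl
      · -- the column is not inner: the row is an edge row
        rw [if_neg (fun h => hw' h.2.1), zero_add]
        have hue : u ∈ edg m a (l + 7) := by
          unfold edg
          rw [Finset.mem_filter]
          refine ⟨hu', ?_⟩
          by_contra hc
          push Not at hc
          exact hw' (G.inC q hq u hu' v hv' hP hc.1 hc.2)
        rw [if_pos hue]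
        have e0 : ∑ k ∈ T, (d k : ℂ) * (yt m a b E1 (E2 q) B r (2 ^ l) Y k u *
            conj (xt m a b E1 (E2 q) B r (2 ^ l) X k v)) = 0 := by
          refine Finset.sum_eq_zero fun k _ => ?_
          unfold xt
          rw [if_neg hw']
          simp
        rw [e0, sub_zero]
        refine le_add_of_nonneg_right ?_
        split_ifs
        · exact hF0 u v
        · exact le_rfl
    · rw [if_neg (fun h => hw h.1), zero_add]
      have hve : v ∈ edg m b (l + 7) := by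
        unfold edg
        rw [Finset.mem_filter]
        refine ⟨hv', ?_⟩
        by_contra hc
        push Not at hc
        exact hw (G.inR q hq u hu' v hv' hP hc.1 hc.2)
      rw [if_pos hve]
      have e0 : ∑ k ∈ T, (d k : ℂ) * (yt m a b E1 (E2 q) B r (2 ^ l) Y k u *
          conj (xt m a b E1 (E2 q) B r (2 ^ l) X k v)) = 0 := by
        refine Finset.sum_eq_zero fun k _ => ?_
        unfold yt
        rw [if_neg hw]
        simp
      rw [e0, sub_zero]
      refine le_add_of_nonneg_left ?_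
      split_ifs
      · exact hF0 u v
      · exact le_rfl
  refine (Finset.sum_le_sum fun q hq => Finset.sum_le_sum fun u hu => Finset.sum_le_sum
    fun v hv => key q hq u hu v hv).trans ?_
  simp only [Finset.sum_add_distrib]
  -- inner part
  have i1 : ∑ q ∈ Q, ∑ u ∈ S, ∑ v ∈ T, (if (2 : ℝ) ^ l ≤ wt (E2 q) u ∧
      (2 : ℝ) ^ l ≤ wtc (E2 q) v ∧ P q u v then Z q u v else 0) ≤
      K2 kg θ * ((r' - r) / r) * NrWx259.Gd B S T Y X s (r * 2 ^ m) := by
    refine le_trans (Finset.sum_le_sum fun q _ => ?_) h1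
    have a1 : ∑ u ∈ S, ∑ v ∈ T, (if (2 : ℝ) ^ l ≤ wt (E2 q) u ∧
        (2 : ℝ) ^ l ≤ wtc (E2 q) v ∧ P q u v then Z q u v else 0) ≤
        ∑ u ∈ dI m a, ∑ v ∈ dI m b, (if (2 : ℝ) ^ l ≤ wt (E2 q) u ∧
        (2 : ℝ) ^ l ≤ wtc (E2 q) v ∧ P q u v then Z q u v else 0) := by
      have nn : ∀ u v, 0 ≤ (if (2 : ℝ) ^ l ≤ wt (E2 q) u ∧
        (2 : ℝ) ^ l ≤ wtc (E2 q) v ∧ P q u v then Z q u v else 0) := by
        intro u v
        split_ifs
        · exact hZ0 q u v
        · exact le_rfl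
      refine (Finset.sum_le_sum fun u _ => Finset.sum_le_sum_of_subset_of_nonneg hT
        fun v _ _ => nn u v).trans ?_
      exact Finset.sum_le_sum_of_subset_of_nonneg hS fun u _ _ =>
        Finset.sum_nonneg fun v _ => nn u v
    refine a1.trans (le_of_eq ?_)
    unfold inn
    rw [Finset.sum_filter]
    refine Finset.sum_congr rfl fun u _ => ?_
    by_cases hw : (2 : ℝ) ^ l ≤ wt (E2 q) u
    · rw [if_pos hw, Finset.filter_filter, Finset.sum_filter]
      refine Finset.sum_congr rfl fun v _ => ?_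
      by_cases hc : (2 : ℝ) ^ l ≤ wtc (E2 q) v ∧ P q u v
      · rw [if_pos ⟨hw, hc⟩, if_pos hc]
      · rw [if_neg (fun h => hc h.2), if_neg hc]
    · rw [if_neg hw]
      refine Finset.sum_eq_zero fun v _ => ?_
      rw [if_neg (fun h => hw h.1)]
  -- edges
  have i2 : ∑ q ∈ Q, ∑ u ∈ S, ∑ v ∈ T, (if P q u v then ((if u ∈ edg m a (l + 7) then F u v else 0)
        + (if v ∈ edg m b (l + 7) then F u v else 0)) else 0) ≤
      ∑ u ∈ edg m a (l + 7), ∑ v ∈ T, F u v + ∑ u ∈ S, ∑ v ∈ edg m b (l + 7), F u v := by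
    set H' : ℤ → ℤ → ℝ := fun u v => (if u ∈ edg m a (l + 7) then F u v else 0)
        + (if v ∈ edg m b (l + 7) then F u v else 0) with hH'
    have hH0 : ∀ u v, 0 ≤ H' u v := by
      intro u v
      simp only [hH']
      refine add_nonneg ?_ ?_
      · split_ifs
        · exact hF0 u v
        · exact le_rfl
      · split_ifs
        · exact hF0 u v
        · exact le_rfl
    have a1 : ∑ q ∈ Q, ∑ u ∈ S, ∑ v ∈ T, (if P q u v then H' u v else 0) ≤
        ∑ u ∈ S, ∑ v ∈ T, H' u v := by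
      rw [Finset.sum_comm]
      refine Finset.sum_le_sum fun u _ => ?_
      rw [Finset.sum_comm]
      refine Finset.sum_le_sum fun v _ => ?_
      by_cases hex : ∃ q ∈ Q, P q u v
      · obtain ⟨q, hq, hP⟩ := hex
        rw [Finset.sum_eq_single_of_mem q hq, if_pos hP]
        intro q' hq' hne
        rw [if_neg]
        intro h'
        exact hne (G.Pd q' hq' q hq u v h' hP)
      · push Not at hex
        rw [Finset.sum_eq_zero fun q hq => by rw [if_neg (hex q hq)]]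
        exact hH0 u v
    refine a1.trans ?_
    simp only [hH', Finset.sum_add_distrib]
    refine add_le_add ?_ ?_
    · have a2 : ∑ u ∈ S, ∑ v ∈ T, (if u ∈ edg m a (l + 7) then F u v else 0) =
          ∑ u ∈ S, (if u ∈ edg m a (l + 7) then ∑ v ∈ T, F u v else 0) := by
        refine Finset.sum_congr rfl fun u _ => ?_
        split_ifs
        · rfl
        · simp
      rw [a2, ← Finset.sum_filter]
      refine Finset.sum_le_sum_of_subset_of_nonneg (fun u hu => (Finset.mem_filter.1 hu).2)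
        fun u _ _ => Finset.sum_nonneg fun v _ => hF0 u v
    · refine Finset.sum_le_sum fun u _ => ?_
      rw [← Finset.sum_filter]
      exact Finset.sum_le_sum_of_subset_of_nonneg (fun u hu => (Finset.mem_filter.1 hu).2)
        fun v _ _ => hF0 u v
  have hGd : 0 ≤ NrWx259.Gd B S T Y X s (r * 2 ^ m) := by
    refine Finset.sum_nonneg fun k _ => mul_nonneg (le_max_right _ _) ?_
    exact NrWx259.dfc_nn G.tl hr hop H hS hT k
  have hfin : K2 kg θ * ((r' - r) / r) * NrWx259.Gd B S T Y X s (r * 2 ^ m) +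
      (4 * (2 * (r' - r) / (θ * r) * NrWx259.Gd B S T Y X s (r * 2 ^ m)) +
        4 * (be m l kg θ * ∑ k ∈ T, d k ^ 2)) =
      K1c kg θ * ((r' - r) / r) * NrWx259.Gd B S T Y X s (r * 2 ^ m) +
        K2c kg θ * (2 ^ l / 2 ^ m) * ∑ k ∈ T, d k ^ 2 := by
    unfold K1c K2c be
    rw [pow_add]
    field_simp
    ring
  rw [← hfin]
  linarith

section inst

variable {n : ℕ} {i : Fin 4} {e : Fin 3} {T : Fin n → Fin 3 → Finset ℤ}
  {g : Fin n → Fin 3 → ℤ → ℤ → ℂ} {I : Nd} {kc Kl : ℕ} {r : ℕ → ℝ} {V : Finset Nd} {K : Nd} {G : Fn}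
  {k0 j0 n0 : ℕ}

/-- geometry of the big cells -/
theorem geoF (hV : Full V K) (hk0 : 9 ≤ k0) (hkj : k0 ≤ j0) :
    GeoF i e T I kc V K k0 j0 n0 7 (1 / 2 ^ (k0 + 3)) := by
  intro l t ht ⟨q0, hq0, u, hu, v, hv, hy⟩
  obtain ⟨_, hM⟩ := cel_spec ht
  refine ⟨cg (st3_Ye i e) hV hV.top hM hk0 hkj hq0 hu hv hy, ?_⟩
  obtain ⟨s1, s2, s3, s4, _⟩ := QQ_spec hV hq0
  have := big_cell (st3_Ye i e) hM (by omega) s3 s4 hu hv hy
  omega

/-- **THE PER-CELL INPUT OF T8, UNCONDITIONAL** -/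
theorem cell_in {ν R Hg sA : ℝ} (hR : 1 ≤ R)
    (hB : ∀ l, Bnd (BdE i e (T l) I) (poE i e) (NmP (SE i e (T l) I) cf (okc (Ye i e) kc)) ν)
    (hr : ∀ q, 0 < r q) (hmono : ∀ q, r q ≤ r (q + 1)) (hRr : ∀ q, r (q + 1) ≤ R * r q)
    (hH : ∀ l u v, ‖g l e u v‖ ≤ Hg) (hs : av K G ≤ sA)
    (hTop : 2 ^ 8 * (Hg * sA) ≤ r (Kl - 1)) (hV : Full V K) (hk0 : 9 ≤ k0) (hkj : k0 ≤ j0) :
    CellIn i e T g I kc Kl r V K G (LayK V k0 j0 n0 K) (Zff i e T g I kc Kl r V K G k0 j0 n0)
      (K1c 7 (1 / 2 ^ (k0 + 3)) * R / 2) (K2c 7 (1 / 2 ^ (k0 + 3)) * (2 * (1 / 2) ^ j0)) :=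
  cellIn_of (K1c_nonneg 7 (by positivity)) (K2c_nonneg 7 _) hR (cellT 7 (by positivity)) hB hr hmono
    hRr hH hs hTop hV (geoF hV hk0 hkj)

end inst

end Crest.Agent.R079.NrEx228
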