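import Crest.Agent.R079.FrZc_360
import Crest.Agent.R079.ErO_255
import Crest.Agent.R079.NrE_228

/-! R079 (helper360), T5b of note 1820: **the five (S) words of one window, all sizes free**
(`swd_gen`), and the pieces of the composition with 255 / 228 / 112:

* `psi_zff`, `psi_psx` : the frame letters of 255 / 228 are the same;
* `Su.ncol`, `Su.supi` : the killer and the frozen letter;
* `ek_top` : `ErG w w` from the energy of the error letters;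
* `en_QQ` : the energies of the grid nodes. -/

set_option autoImplicit false
set_option linter.unusedSectionVars false

namespace Crest.Agent.R079.FrZx360

open Finset Crest.Agent.R079.Grid Crest.Agent.R079.Growth Crest.Agent.R079.QRed
  Crest.Agent.R079.Qh249 Crest.Agent.R079.QVar181
  Crest.Agent.R079.TWin Crest.Agent.R079.Glue Crest.Agent.R079.SWc360 Crest.Agent.R079.Cel159
  Crest.Agent.R079.SplSx69 Crest.Agent.R079.ThA159 Crest.Agent.R079.SKx261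
open Crest.Agent.R079.NC237 (NC2 NCol nc2_of_ncol)
open Crest.Agent.R079.F2
open Crest.Agent.R079.GaFx371 (Ye W0 SE BdE poE mem_W0)
open Crest.Agent.R079.YeYlx263 (xs)
open Crest.Agent.R079.ElS440 (Ln LnF)
open Crest.Agent.R079.FrWx360 (tcY FC Nc win_tot fc_word1)
open Crest.Agent.R079.PFx263 (Fam)
open Crest.Agent.R079.GaDx571 (sd sd_pos penPhi)
open Crest.Agent.R079.NodeWx254 (node_g0)
open Crest.Agent.R079.RelW653 (NMP)
open Crest.Agent.R079.RelV653 (PenC)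
open Crest.Agent.R079.TRec Crest.Agent.R079.AsmA844 Crest.Agent.R079.WS112
  Crest.Agent.R079.WS0112 Crest.Agent.R079.POx263 Crest.Agent.R079.GnUx263
  Crest.Agent.R079.SbWx795 Crest.Agent.R079.ErMx255 Crest.Agent.R079.ErLx255
open Crest.Agent.R079.GnSx263 (ek)
open Crest.Agent.R079.NJ112 (SWd)
open Crest.Agent.R079.Qe292 (Wd mem_Wd)
open Crest.Agent.R079.OpS276 (Dst4)

open scoped ComplexConjugate

/-- 255's frame letters with 228's kernels -/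
lemma psi_zff (i : Fin 4) {n : ℕ} (T : Fin n → Fin 3 → Finset ℤ)
    (g : Fin n → Fin 3 → ℤ → ℤ → ℂ) (mu : Fin n → ℝ) (I : Nd) (La kap : ℝ) (kc Kl : ℕ) (r : ℕ → ℝ)
    (es : Fin 2 → Fin 3) (f : Fin 2 → Nd → Fn) (V : Nd → Finset Nd) (k0 j0 n0 : ℕ) :
    PsiS i T g mu I La kap kc Kl r es f V k0 j0 n0
      (fun c K => NrDx228.Zff i (es c) T g I kc Kl r (V K) K (gl (V K) (f c)) k0 j0 n0) =
    PsiZ i T g mu I La kap kc Kl r es f V k0 j0 n0 := rfl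

/-- 255's frame letters `PsX` -/
lemma psi_psx (i : Fin 4) {n : ℕ} (T : Fin n → Fin 3 → Finset ℤ)
    (g : Fin n → Fin 3 → ℤ → ℤ → ℂ) (mu : Fin n → ℝ) (I : Nd) (La kap : ℝ) (kc Kl : ℕ) (r : ℕ → ℝ)
    (es : Fin 2 → Fin 3) (f : Fin 2 → Nd → Fn) (V : Nd → Finset Nd) (k0 j0 n0 : ℕ) :
    ErOx255.PsX i T g mu I La kap kc Kl r es f V k0 j0 n0 =
    PsiZ i T g mu I La kap kc Kl r es f V k0 j0 n0 := rfl

section

variable {P : Prm} {d ε k q3 : ℝ} {i m e e' : Fin 4} {N : ℕ} {B t : ℝ} {W : Finset Nd} {I : Nd}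
  {F : Fin 4 → Fn} {xy : Fin 2 → Fin 4} {bb : ℤ} {E : ℕ → ℤ → ℂ} {R : Finset Nd} {J : Nd}
  {Z : Fin 2 → Fn} {v : Fin 3} {n : ℕ} {T : Fin n → Fin 3 → Finset ℤ}
  {g : Fin n → Fin 3 → ℤ → ℤ → ℂ} {al : Fin n → ℤ → ℝ} {mu : Fin n → ℝ} {es : Fin 2 → Fin 3}

/-- non-collision of the killer -/
theorem Su.ncol (h : Su P d ε k q3 i m e e' N B t W I F xy bb E R J Z v n T g al mu es)
    (hP : Ok0 P) (hk : 0 ≤ k) (hm3 : m ≠ 3) (hgC : P.gc m ≤ P.Cc m) (ht1 : t ≤ 1) :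
    NCol W (F m) (gkS P m t) (dkS P m t) := by
  have h1 := PRc.ncol hP h.dst hk hm3 zero_le_one hgC h.t0 ht1 h.prc
  rw [one_mul, one_mul] at h1
  exact h1

/-- sup of the frozen letter -/
theorem Su.supi (h : Su P d ε k q3 i m e e' N B t W I F xy bb E R J Z v n T g al mu es) :
    ∀ y ∈ iv I, ‖F i y‖ ≤ LaC P ε i t := fun _ hy => Rc.sup h.dst h.prc.mix hy

/-- averages of the frame letters, free size -/
lemma av_psi' (h : Su P d ε k q3 i m e e' N B t W I F xy bb E R J Z v n T g al mu es) (hk : 0 ≤ k)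
    {kap m0 η ω s : ℝ} (hkap : 0 ≤ kap) {kc Kl : ℕ} {r : ℕ → ℝ} (hr : ∀ q, 0 ≤ r q) (hη1 : η ≤ 1)
    {f : Fin 2 → Nd → Fn}
    (hf : ∀ c', NMP (fun _ _ => True) (PhiC P ε i T g mu I t kap kc Kl r es c') (Z c') η (f c'))
    (hs : 0 ≤ s) (hω : ω * m0 ≤ s ^ 2) {k0 j0 n0 : ℕ} {Psi : Fin 2 → Nd → Fn} {w : Nd}
    (hw : w ∈ R) (hE : ErG R (PhiC P ε i T g mu I t kap kc Kl r es) Z η f m0 Psi w w ≤ s ^ 2)
    (c : Fin 2) {p : Nd}
    (hp : p ∈ WG R (PhiC P ε i T g mu I t kap kc Kl r es) Z η f m0 k0 j0 n0 Psi ω w) :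
    av p (Psi c w) ≤ 4 + s := by
  classical
  set Φ := PhiC P ε i T g mu I t kap kc Kl r es with hΦ
  set V := VG R Φ Z η f m0 with hV
  have hpV : p ∈ V w := RK_sub (WW_sub hp)
  have hpR : p ∈ R := VK_sub hpV
  have hVf : Full (V w) w := VK_full h.full hw
  have hEr : ErG R Φ Z η f m0 Psi w p ≤ s ^ 2 := by
    by_cases hpw : p = w
    · rw [hpw]; exact hE
    · have h1 := mem_Wd.1 hp
      exact ((h1.2.2 p h1.1 subset_rfl h1.2.1 hpw).1).trans hω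
  have h1 : av p (ek Z f V Psi c w) ^ 2 ≤ s ^ 2 := by
    refine le_trans ?_ hEr
    unfold ErG
    exact Finset.single_le_sum (f := fun c' => av p (ek Z f V Psi c' w) ^ 2)
      (fun _ _ => sq_nonneg _) (Finset.mem_univ c)
  have h2 : av p (ek Z f V Psi c w) ≤ s :=
    (sq_le_sq₀ (Growth.av_nonneg p (ek Z f V Psi c w)) hs).1 h1
  have h3 : av p (gl (V w) (f c)) ≤ 3 := av_glV h hk hkap hr hη1 hf hVf VK_sub c hpV
  have h4 : av p (Z c) ≤ 1 := h.avZ hk c p hpR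
  have h5 : Psi c w = fun y => (fun y => Z c y - gl (V w) (f c) y) y - ek Z f V Psi c w y := by
    funext y
    unfold ek
    ring
  rw [h5]
  have h6 := av_sub' p (fun y => Z c y - gl (V w) (f c) y) (ek Z f V Psi c w)
  have h7 := av_sub' p (Z c) (gl (V w) (f c))
  linarith

/-- `ErG` at the top from the energy -/
lemma ek_top {Φ : Fin 2 → Nd → Fn → ℝ} {η m0 L : ℝ} {f : Fin 2 → Nd → Fn}
    {Psi : Fin 2 → Nd → Fn} {w : Nd}
    (hE : ∑ c', len w * av w (ek Z f (VG R Φ Z η f m0) Psi c' w) ^ 2 ≤ L * len w) :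
    ErG R Φ Z η f m0 Psi w w ≤ L := by
  unfold ErG
  rw [← Finset.mul_sum, mul_comm] at hE
  exact le_of_mul_le_mul_right hE (Growth.len_pos w)

/-- **energies of the grid nodes** -/
lemma en_QQ (h : Su P d ε k q3 i m e e' N B t W I F xy bb E R J Z v n T g al mu es) (hk : 0 ≤ k)
    {kap η : ℝ} (hkap : 0 ≤ kap) {kc Kl : ℕ} {r : ℕ → ℝ} (hr : ∀ q, 0 ≤ r q) (hη1 : η ≤ 1)
    {f : Fin 2 → Nd → Fn}
    (hf : ∀ c', NMP (fun _ _ => True) (PhiC P ε i T g mu I t kap kc Kl r es c') (Z c') η (f c'))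
    {V : Finset Nd} {w : Nd} (hV : Full V w) (hVR : V ⊆ R) (k0 j0 n0 : ℕ) {G0 : ℝ} (hG0 : 0 ≤ G0)
    (c : Fin 2) :
    ∑ q ∈ QQ V k0 j0 n0 w, G0 * av q (gl V (f c)) ^ 2 * (2 : ℝ) ^ (q.1 + 7) ≤
      G0 * 9 * 2 ^ (w.1 + 7) := by
  classical
  have h1 : ∀ q ∈ QQ V k0 j0 n0 w, G0 * av q (gl V (f c)) ^ 2 * (2 : ℝ) ^ (q.1 + 7) =
      G0 * ∑ y ∈ iv q, ‖gl V (f c) y‖ ^ 2 := by
    intro q _
    rw [Growth.sum_av]
    have : (2 : ℝ) ^ (q.1 + 7) = len q := rfl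
    rw [this]
    ring
  rw [Finset.sum_congr rfl h1, ← Finset.mul_sum, mul_assoc G0]
  refine mul_le_mul_of_nonneg_left ?_ hG0
  rw [← Finset.sum_biUnion (fun q hq q' hq' hne => QQ_disj hq hq' hne)]
  have h2 : ∑ y ∈ (QQ V k0 j0 n0 w).biUnion iv, ‖gl V (f c) y‖ ^ 2 ≤
      ∑ y ∈ iv w, ‖gl V (f c) y‖ ^ 2 :=
    Finset.sum_le_sum_of_subset_of_nonneg
      (Finset.biUnion_subset.2 fun q hq => (mem_QQ.1 hq).2.2.2.1) fun _ _ _ => sq_nonneg _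
  refine h2.trans ?_
  rw [Growth.sum_av]
  have h3 := av_glV h hk hkap hr hη1 hf hV hVR c hV.top
  have h4 := Growth.av_nonneg w (gl V (f c))
  have h5 : (2 : ℝ) ^ (w.1 + 7) = len w := rfl
  rw [h5]
  have h6 := (Growth.len_pos w).le
  nlinarith [mul_le_mul_of_nonneg_left (show av w (gl V (f c)) ^ 2 ≤ 9 by nlinarith) h6]

end

/-- the number of the (S) words, free sizes -/
noncomputable def kaG (Kl j0 n0 : ℕ) (gk dk Ai Hs Sa K0 X E : ℝ) : ℝ :=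
  (j0 + 1 + n0) * (2 ^ 12 * Real.sqrt (3 * gk * Ai ^ 2 + dk * (Hs ^ 2 * 1 ^ 2)) * Sa * Sa) +
    (Kl : ℝ) ^ 2 * (K0 * X) * (1 + E)

open Classical in
/-- **THE FIVE WORDS OF ONE WINDOW, ALL SIZES FREE** -/
theorem swd_gen : ∃ K0 : ℝ, 0 ≤ K0 ∧ ∃ κ0 : ℕ, ∀ {P : Prm} {d ε k q3 : ℝ} {i m e e' : Fin 4} {N : ℕ}
    {B t : ℝ} {W : Finset Nd} {I : Nd} {F : Fin 4 → Fn} {xy : Fin 2 → Fin 4} {bb : ℤ}
    {E : ℕ → ℤ → ℂ} {R : Finset Nd} {J : Nd} {Z : Fin 2 → Fn} {v : Fin 3} {n : ℕ}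
    {T : Fin n → Fin 3 → Finset ℤ} {g : Fin n → Fin 3 → ℤ → ℤ → ℂ} {al : Fin n → ℤ → ℝ}
    {mu : Fin n → ℝ} {es : Fin 2 → Fin 3},
    Su P d ε k q3 i m e e' N B t W I F xy bb E R J Z v n T g al mu es → 0 ≤ k →
    ∀ {kap m0 η ω s Sa : ℝ}, 0 ≤ kap → η ≤ 1 → 0 ≤ s → ω * m0 ≤ s ^ 2 → 4 + s ≤ Sa →
    ∀ {kc Kl k0 j0 n0 : ℕ} {r : ℕ → ℝ}, (∀ q, 0 ≤ r q) → 1 ≤ k0 → k0 ≤ j0 →
    ∀ {f : Fin 2 → Nd → Fn},
    (∀ c', NMP (fun _ _ => True) (PhiC P ε i T g mu I t kap kc Kl r es c') (Z c') η (f c')) →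
    ∀ {V : Nd → Finset Nd} {Psi : Fin 2 → Nd → Fn} {W' : Nd → Finset Nd},
    V = VG R (PhiC P ε i T g mu I t kap kc Kl r es) Z η f m0 →
    Psi = PsiZ i T g mu I (LaC P ε i t) kap kc Kl r es f V k0 j0 n0 →
    W' = WG R (PhiC P ε i T g mu I t kap kc Kl r es) Z η f m0 k0 j0 n0 Psi ω →
    ∀ {w : Nd}, w ∈ R →
    ErG R (PhiC P ε i T g mu I t kap kc Kl r es) Z η f m0 Psi w w ≤ s ^ 2 →
    ∀ {gk dk Ai Hs A Θ X En0 : ℝ} {ρ rr Hr : ℕ → ℝ} {En : Fin 2 → ℕ → Nd → ℝ},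
    0 ≤ gk → 0 ≤ dk → 0 ≤ Hs → 0 ≤ X → Ai ^ 2 ≤ A → 1 ≤ A → Sa ^ 2 ≤ A →
    (∀ p ∈ W, av p (F i) ≤ Ai) → (∀ y ∈ iv I, ‖F i y‖ ≤ Hs) → NCol W (F m) gk dk →
    (∀ (c : Fin 2), ∀ q ∈ QQ (V w) k0 j0 n0 w, ∀ a < Kl, FCX i (es c) kc j0 n0 Kl κ0 (V w) (W' w) w
      I T g r (gl (V w) (f c)) (fun l => kap * mu l / LaC P ε i t) (ρ a) (rr a) (Hr a)
      (En c a q) a q) →
    (∀ (c : Fin 2), ∀ a < Kl, ∑ q ∈ QQ (V w) k0 j0 n0 w, En c a q * (2 : ℝ) ^ (q.1 + 7) ≤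
      En0 * 2 ^ (w.1 + 7)) →
    (∀ a < Kl, SKZ Θ A gk dk (Sa ^ 2) 0 (ρ a) (rr a) (Hr a) 0 kap
      (Real.sqrt (HfC P i t * HtC P i t) * Hs)) →
    (∀ a < Kl, gX A gk dk Sa kap (ρ a) (rr a) (Hr a) n0 Θ ≤ X) →
    SWd bb E F xy Z f Psi W' (kaG Kl j0 n0 gk dk Ai Hs Sa K0 X En0) w := by
  obtain ⟨K0, hK0, κ0, hwin⟩ := win_one
  refine ⟨K0, hK0, κ0, ?_⟩
  intro P d ε k q3 i m e e' N B t W I F xy bb E R J Z v n T g al mu es h hk kap m0 η ω s Sa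
    hkap hη1 hs hω hSa kc Kl k0 j0 n0 r hr hk0 hkj f hf V Psi W' hV hPsi hW' w hw hEr gk dk Ai Hs A Θ
    X En0 ρ rr Hr En hgk hdk hHs hX hAi hA1 hSaA hFi hFs hncW hFC hEn hZ hgX
  have ht := h.t0
  have hLa := LaC_pos P ε i ht
  have hSa0 : 0 ≤ Sa := by linarith
  have hxi : xy 0 ≠ i := h.oth.ai
  have hyi : xy 1 ≠ i := h.oth.bi
  have hxm : xy 0 ≠ m := h.oth.am
  have hym : xy 1 ≠ m := h.oth.bm
  have hxy : xy 0 ≠ xy 1 := h.oth.ab
  have hVf : Full (V w) w := by rw [hV]; exact VK_full h.full hw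
  have hVR : V w ⊆ R := by rw [hV]; exact VK_sub
  have hWf : Full (W' w) w := by rw [hW']; exact WW_full h.full hw hk0 hkj
  have hWV : W' w ⊆ V w := by rw [hW', hV]; exact WW_sub.trans RK_sub
  have hWW : ∀ p ∈ W' w, p ∈ W := fun p hp => h.sub (hVR (hWV hp))
  have hwI : iv w ⊆ iv I := h.W_full.reg.1 w (h.sub hw)
  have aZ : ∀ c, ∀ p ∈ W' w, av p (Z c) ≤ Sa := fun c p hp =>
    (h.avZ hk c p (hVR (hWV hp))).trans (by linarith)
  have aG : ∀ c, ∀ p ∈ W' w, av p (gl (W' w) (f c)) ≤ Sa := fun c p hp =>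
    (av_glV h hk hkap hr hη1 hf hWf (hWV.trans hVR) c hp).trans (by linarith)
  have aP : ∀ c, ∀ p ∈ W' w, av p (Psi c w) ≤ Sa := fun c p hp => by
    refine (av_psi' (n0 := n0) (k0 := k0) (j0 := j0) h hk hkap hr hη1 hf hs hω hw hEr c ?_).trans hSa
    rw [← hW']
    exact hp
  -- one word
  have one : ∀ (c : Fin 2) (X0 Y0 : Fn),
      (Function.update (Function.update F (xy 0) X0) (xy 1) Y0) (xy c) = Psi c w →
      (∀ p ∈ W' w, av p ((Function.update (Function.update F (xy 0) X0) (xy 1) Y0) (xy (c + 1))) ≤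
        Sa) →
      ‖∑ q ∈ W' w, v4 bb E F (xy 0) (xy 1) X0 Y0 q‖ ≤
        kaG Kl j0 n0 gk dk Ai Hs Sa K0 X En0 * len w := by
    intro c X0 Y0 hGx hGy
    set G := Function.update (Function.update F (xy 0) X0) (xy 1) Y0 with hG
    have hGi : G i = F i := by
      rw [hG, Function.update_of_ne (Ne.symm hyi), Function.update_of_ne (Ne.symm hxi)]
    have hGm : G m = F m := by
      rw [hG, Function.update_of_ne (Ne.symm hym), Function.update_of_ne (Ne.symm hxm)]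
    have hxs : xs i (es c) = xy c := h.slot c
    have hnc : NCol (W' w) (G m) gk dk := by
      rw [hGm]
      exact fun p hp p' hp' hpp => hncW p (hWW p hp) p' (hWW p' hp') hpp
    have hGi' : ∀ p ∈ W' w, av p (G i) ≤ Ai := fun p hp => by
      rw [hGi]; exact hFi p (hWW p hp)
    have hGm' : ∀ p ∈ W' w, av p (G m) ≤ 1 := fun p hp => by
      rw [hGm]; exact h.avm hk p (hWW p hp)
    have hGx' : ∀ p ∈ W' w, av p (G (xs i (es c))) ≤ Sa := fun p hp => by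
      rw [hxs, hGx]
      exact aP c p hp
    have hGs' : ∀ p ∈ W' w, ∀ s, s ≠ i → s ≠ m → s ≠ xs i (es c) → av p (G s) ≤ Sa := by
      intro p hp s hsi hsm hsx
      rw [hxs] at hsx
      have hmi : m ≠ i := h.dst.jk
      have hs : s = xy (c + 1) := by
        fin_cases c
        · exact other_slot i m (xy 0) (xy 1) s hmi h.oth.ai h.oth.am h.oth.bi h.oth.bm h.oth.ab hsi
            hsm hsx
        · exact other_slot i m (xy 1) (xy 0) s hmi h.oth.bi h.oth.bm h.oth.ai h.oth.am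
            (Ne.symm h.oth.ab) hsi hsm hsx
      rw [hs]
      exact hGy p hp
    have hGH : ∀ y ∈ iv I, ‖G i y‖ ≤ Hs := fun y hy => by
      rw [hGi]; exact hFs y hy
    have hQm : ∀ q ∈ QQ (V w) k0 j0 n0 w, Le q w ∧ q.1 = w.1 - j0 := fun q hq => by
      have := mem_QQ.1 hq
      exact ⟨this.2.2.2.1, this.2.2.1⟩
    have hQ : ∀ p ∈ W' w, ¬ Nc j0 n0 w p → ∃ q ∈ QQ (V w) k0 j0 n0 w, Le p q := by
      intro p hp hnc
      unfold Nc at hnc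
      push Not at hnc
      have hp' : p ∈ WW R (FLDx263.DF (PhiC P ε i T g mu I t kap kc Kl r es) Z f η)
          (FLDx263.dvF f) m0 k0 j0 n0
          (ErG R (PhiC P ε i T g mu I t kap kc Kl r es) Z η f m0 Psi) (ω * m0) w := by
        rw [hW'] at hp
        exact hp
      obtain ⟨q, hq, hpq, -⟩ := WW_fine hk0 hkj hp' (by omega) (by omega)
      refine ⟨q, ?_, hpq⟩
      rw [hV]
      exact hq
    have key := hwin h.fam (HfC_pos P i ht).le hLa bb h.adm.1 (es c) (h.es_ne c) (W' w) w hWf hwI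
      kap hkap kc j0 n0 Kl (QQ (V w) k0 j0 n0 w) (dq (V w) n0) G
      (fun a q => stX i (es c) kc j0 n0 Kl (V w) w I T g r
        (gl (V w) (f c)) (fun l => kap * mu l / LaC P ε i t) (sd I) a q) A Ai
      Hs 1 gk dk Sa Sa Θ En0 X ρ rr Hr (En c) hQm hQ hgk hdk hHs hSa0 hSa0 hX (by linarith) hAi
      (by linarith) hSaA hGi' hGH hGm' hnc hGx' hGs'
      (fun q hq y hy => by
        rw [hxs, hGx, hPsi]
        exact psiZ_rep i T g mu I (LaC P ε i t) kap kc Kl r es f V k0 j0 n0 c w hq hy)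
      (fun q hq a ha => (hFC c q hq a ha).fce) (hEn c) hZ hgX
    refine le_trans ?_ key
    have h4 := Qb247.norm_TR_le (bb := bb) h.adm.2 (W' w) G
    exact h4
  have u0 : ∀ X0 Y0 : Fn, (Function.update (Function.update F (xy 0) X0) (xy 1) Y0) (xy 0) = X0 :=
    fun X0 Y0 => by rw [Function.update_of_ne hxy, Function.update_self]
  have u1 : ∀ X0 Y0 : Fn, (Function.update (Function.update F (xy 0) X0) (xy 1) Y0) (xy 1) = Y0 :=
    fun X0 Y0 => Function.update_self _ _ _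
  refine ⟨?_, ?_, ?_, ?_, ?_⟩
  · refine one 0 (Psi 0 w) (Z 1) (u0 _ _) fun p hp => ?_
    show av p ((Function.update (Function.update F (xy 0) (Psi 0 w)) (xy 1) (Z 1)) (xy 1)) ≤ Sa
    rw [u1]; exact aZ 1 p hp
  · refine one 1 (Z 0) (Psi 1 w) (u1 _ _) fun p hp => ?_
    show av p ((Function.update (Function.update F (xy 0) (Z 0)) (xy 1) (Psi 1 w)) (xy 0)) ≤ Sa
    rw [u0]; exact aZ 0 p hp
  · refine one 0 (Psi 0 w) _ (u0 _ _) fun p hp => ?_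
    show av p ((Function.update (Function.update F (xy 0) (Psi 0 w)) (xy 1)
      (gl (W' w) (f 1))) (xy 1)) ≤ Sa
    rw [u1]; exact aG 1 p hp
  · refine one 1 _ (Psi 1 w) (u1 _ _) fun p hp => ?_
    show av p ((Function.update (Function.update F (xy 0) (gl (W' w) (f 0))) (xy 1)
      (Psi 1 w)) (xy 0)) ≤ Sa
    rw [u0]; exact aG 0 p hp
  · refine one 0 (Psi 0 w) (Psi 1 w) (u0 _ _) fun p hp => ?_
    show av p ((Function.update (Function.update F (xy 0) (Psi 0 w)) (xy 1)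
      (Psi 1 w)) (xy 1)) ≤ Sa
    rw [u1]; exact aP 1 p hp

end Crest.Agent.R079.FrZx360
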