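import Crest.Agent.R079.FrZd_360
import Crest.Agent.R079.FrL_717

/-! R079 (helper360), T5b / T5c of note 1820: **the frame data `FCX` of one generation** from the
domination of the frames (`majU`, `majW` of `FrK_717.fc_of`).

* `RQ_dq`  : levels of the nodes of a far word;
* `fcx_su` : `FCX` for all grid nodes of a window. -/

set_option autoImplicit false
set_option linter.unusedSectionVars false

namespace Crest.Agent.R079.FrZx360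

open Finset Crest.Agent.R079.Grid Crest.Agent.R079.Growth Crest.Agent.R079.QRed
  Crest.Agent.R079.Qh249 Crest.Agent.R079.QVar181
  Crest.Agent.R079.TWin Crest.Agent.R079.Glue Crest.Agent.R079.SWc360 Crest.Agent.R079.Cel159
  Crest.Agent.R079.SplSx69 Crest.Agent.R079.ThA159 Crest.Agent.R079.SKx261
open Crest.Agent.R079.GaFx371 (Ye W0 SE BdE poE mem_W0 bnd_E)
open Crest.Agent.R079.YeYlx263 (xs)
open Crest.Agent.R079.FrWx360 (tcY FC)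
open Crest.Agent.R079.PFx263 (Fam)
open Crest.Agent.R079.GaDx571 (sd sd_pos penPhi)
open Crest.Agent.R079.RelW653 (NMP)
open Crest.Agent.R079.RelV653 (PenC)
open Crest.Agent.R079.TRec Crest.Agent.R079.AsmA844 Crest.Agent.R079.WS112
  Crest.Agent.R079.WS0112 Crest.Agent.R079.POx263 Crest.Agent.R079.GnUx263
  Crest.Agent.R079.SbWx795 Crest.Agent.R079.ErMx255 Crest.Agent.R079.ErLx255
open Crest.Agent.R079.ElGx69 (FibG)

/-- **levels of the nodes of a far word** -/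
lemma RQ_dq {R : Finset Nd} {J K : Nd} {D : Nd → ℝ} {dev : Nd → Nd → ℝ} {μ τ : ℝ}
    {Er : Nd → Nd → ℝ} {k0 j0 n0 : ℕ} (hR : Full R J) (hK : K ∈ R) (hk : 1 ≤ k0) (hkj : k0 ≤ j0)
    {q : Nd} (hq : q ∈ QQ (VK R D dev μ K) k0 j0 n0 K) {p : Nd}
    (hp : p ∈ RQ (WW R D dev μ k0 j0 n0 Er τ K) n0 q) :
    p.1 ≤ q.1 ∧ dq (VK R D dev μ K) n0 q ≤ p.1 := by
  obtain ⟨h1, h2, h3⟩ := mem_RQ.1 hp
  obtain ⟨_, b1, _, _, _, b2, _⟩ := QQ_spec (VK_full (D := D) (dev := dev) (μ := μ) hR hK) hq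
  have h4 : p.1 ≤ q.1 := (le_iff.1 h2).1
  refine ⟨h4, ?_⟩
  by_cases hc : K.1 ≤ p.1 + j0
  · omega
  · obtain ⟨q', hq', hpq, hd⟩ := WW_fine hk hkj h1 hc (by omega)
    by_cases hne : q' = q
    · rw [← hne]; exact hd
    · exfalso
      obtain ⟨y, hy⟩ := iv_nonempty p
      exact Finset.disjoint_left.1 (QQ_disj hq' hq hne) (hpq hy) (h2 hy)

section

variable {P : Prm} {d ε k q3 : ℝ} {i m e e' : Fin 4} {N : ℕ} {B t : ℝ} {W : Finset Nd} {I : Nd}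
  {F : Fin 4 → Fn} {xy : Fin 2 → Fin 4} {bb : ℤ} {E : ℕ → ℤ → ℂ} {R : Finset Nd} {J : Nd}
  {Z : Fin 2 → Fn} {v : Fin 3} {n : ℕ} {T : Fin n → Fin 3 → Finset ℤ}
  {g : Fin n → Fin 3 → ℤ → ℤ → ℂ} {al : Fin n → ℤ → ℝ} {mu : Fin n → ℝ} {es : Fin 2 → Fin 3}

/-- bands of one slot -/
lemma bnd_su (h : Su P d ε k q3 i m e e' N B t W I F xy bb E R J Z v n T g al mu es) (e : Fin 3)
    (kc : ℕ) (l : Fin n) :
    Bnd (BdE i e (T l) I) (poE i e) (NX i e kc I T l) (1 / ((sd I : ℕ) : ℝ) ^ 2) :=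
  bnd_E i e I (sd_pos I) (h.fam.opD l).card kc

/-- fibres of the gauges -/
lemma fib_su (h : Su P d ε k q3 i m e e' N B t W I F xy bb E R J Z v n T g al mu es) (e : Fin 3)
    (l : Fin n) : FibG (BdE i e (T l) I) (poE i e) (1 / ((sd I : ℕ) : ℝ) ^ 2) (gaX e g l) :=
  (h.fam.opD l).fib (show 0 < 2 ^ I.1 by positivity) i e I

/-- weights -/
lemma kap_su (h : Su P d ε k q3 i m e e' N B t W I F xy bb E R J Z v n T g al mu es) {kap : ℝ}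
    (hkap : 0 ≤ kap) : (∀ l, 0 ≤ kap * mu l / LaC P ε i t) ∧
    ∑ l, kap * mu l / LaC P ε i t ≤ kap := by
  have hLa := LaC_pos P ε i h.t0
  refine ⟨fun l => div_nonneg (mul_nonneg hkap (h.fam.μ0 l)) hLa.le, ?_⟩
  rw [← Finset.sum_div, ← Finset.mul_sum, div_le_iff₀ hLa]
  exact mul_le_mul_of_nonneg_left h.fam.μ1 hkap

/-- **FRAME DATA OF ONE GENERATION** -/
theorem fcx_su (h : Su P d ε k q3 i m e e' N B t W I F xy bb E R J Z v n T g al mu es) (hk : 0 ≤ k)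
    {kap m0 η ω : ℝ} (hkap : 0 ≤ kap) {kc Kl k0 j0 n0 κ0 : ℕ} {r : ℕ → ℝ} (hr : ∀ q, 0 ≤ r q)
    (hη1 : η ≤ 1) {f : Fin 2 → Nd → Fn}
    (hf : ∀ c', NMP (fun _ _ => True) (PhiC P ε i T g mu I t kap kc Kl r es c') (Z c') η (f c'))
    (hk0 : 4 ≤ k0) (hkj : k0 ≤ j0) (hκ : κ0 + 4 ≤ j0)
    {V : Nd → Finset Nd} {Psi : Fin 2 → Nd → Fn} {W' : Nd → Finset Nd}
    (hV : V = VG R (PhiC P ε i T g mu I t kap kc Kl r es) Z η f m0)
    (hW' : W' = WG R (PhiC P ε i T g mu I t kap kc Kl r es) Z η f m0 k0 j0 n0 Psi ω)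
    {w : Nd} (hw : w ∈ R) {rr : ℝ} (hrr : 0 < rr) (c : Fin 2) {q : Nd}
    (hq : q ∈ QQ (V w) k0 j0 n0 w) (a : ℕ)
    (majU : ∀ l, ∀ z ∈ W0 i (es c) (T l) I, ∀ t : ℕ × ℤ × ℤ,
      Mx (Ye i (es c) z) kc w t.1 t.2.1 t.2.2 → ∀ (a' : ℤ) (f' : ℤ → ℂ),
      ∑ x, ‖∑ u ∈ dI q.1 a' ∩ dI t.1 t.2.1,
          f' u * PfX i (es c) kc j0 n0 Kl (V w) w I T g r (gl (V w) (f c)) a q l z t u x‖ ^ 2 ≤
        (rr⁻¹ / 2 ^ q.1) * ∑ v ∈ dI t.1 t.2.2, ‖∑ u ∈ dI q.1 a' ∩ dI t.1 t.2.1,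
          f' u * CUX i (es c) kc n0 (V w) w I T g r (gl (V w) (f c)) a q l z t u v‖ ^ 2)
    (majW : ∀ l, ∀ z ∈ W0 i (es c) (T l) I, ∀ t : ℕ × ℤ × ℤ,
      Mx (Ye i (es c) z) kc w t.1 t.2.1 t.2.2 → ∀ (b' : ℤ) (f' : ℤ → ℂ),
      ∑ x, ‖∑ v ∈ dI q.1 b' ∩ dI t.1 t.2.2,
          f' v * QfX i (es c) kc j0 n0 Kl (V w) w I T g r (gl (V w) (f c)) a q l z t v x‖ ^ 2 ≤
        (rr⁻¹ / 2 ^ q.1) * ∑ u ∈ dI t.1 t.2.1, ‖∑ v ∈ dI q.1 b' ∩ dI t.1 t.2.2,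
          f' v * CWX i (es c) kc n0 (V w) w I T g r (gl (V w) (f c)) a q l z t u v‖ ^ 2) :
    FCX i (es c) kc j0 n0 Kl κ0 (V w) (W' w) w I T g r (gl (V w) (f c))
      (fun l => kap * mu l / LaC P ε i t) (2 ^ 7 * r a) rr
      (2 ^ 7 * (HfC P i t * HtC P i t) * 9) (kap * (2 ^ 7 * av q (gl (V w) (f c)) ^ 2)) a q := by
  classical
  have ht := h.t0
  have hVf : Full (V w) w := by rw [hV]; exact VK_full h.full hw
  have hVR : V w ⊆ R := by rw [hV]; exact VK_sub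
  have hwI : iv w ⊆ iv I := h.W_full.reg.1 w (h.sub hw)
  obtain ⟨b0, b1, b2, b3, b4, b5, -⟩ := QQ_spec hVf hq
  have hHH : 0 ≤ HfC P i t * HtC P i t := (mul_pos (HfC_pos P i ht) (HtC_pos P i ht)).le
  have hav : av q (gl (V w) (f c)) ≤ 3 := av_glV h hk hkap hr hη1 hf hVf hVR c b0
  have hav0 := Growth.av_nonneg q (gl (V w) (f c))
  have hav2 : av q (gl (V w) (f c)) ^ 2 ≤ 9 := by nlinarith
  have hRQ : ∀ p ∈ RQ (W' w) n0 q, p.1 ≤ q.1 ∧ dq (V w) n0 q ≤ p.1 := by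
    intro p hp
    rw [hV] at hq ⊢
    rw [hW'] at hp
    exact RQ_dq h.full hw (by omega) hkj hq hp
  refine ⟨2 ^ κ0, _, _, _, FrKx717.fc_of (Ha := Real.sqrt (HfC P i t * HtC P i t)) (P := w)
    (fun l => bnd_su h (es c) kc l) (fun l => fib_su h (es c) l)
    (fun l ω => gauge_le h.fam (HfC_pos P i ht).le (h.es_ne c) l ω.2.1 ω.2.2) (hr a) hVf hVf.top b0
    b2 hwI (kap_su h hkap).1 le_rfl (FrLx717.qq_nadj hVf hq (by omega)
      (Nat.pow_le_pow_right (by norm_num) (by omega)))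
    (fun p hp => (hRQ p hp).1) (fun p hp => (hRQ p hp).2) (mul_nonneg (by norm_num) (hr a)) hrr
    ?_ ?_ ?_ ?_ majU majW⟩
  · rw [Real.sq_sqrt hHH]
    exact mul_le_mul_of_nonneg_left hav2 (by positivity)
  · exact mul_le_mul_of_nonneg_right (kap_su h hkap).2 (by positivity)
  · intro l z _ t hM m' hm1 hm2 a' b' h3 h4
    exact FrLx717.opU (bnd_su h (es c) kc l) (hr a) hVf hVf.top b0 b5 hM hm1 h4
  · intro l z _ t hM m' hm1 hm2 a' b' h3 h4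
    exact FrLx717.opW (bnd_su h (es c) kc l) (hr a) hVf hVf.top b0 b5 hM hm1 h4

end

end Crest.Agent.R079.FrZx360
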