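import Crest.Agent.R079.Glue_569
import Crest.Agent.R079.GrowthDefs_248
import Crest.Agent.R079.QDefs_248

/-! R079, Step I, MOVE with the kill lemma, part A (helper571): the 4-linear box form of a frozen atom
(slot `j`) as a sum over BOXES of triangular forms of THREE GENERAL KERNEL LETTERS at a frozen vertex
value `w = x_j`.

Edges: `K e w z z'`, `z = z_e`, `z' = z_(e+1)` (`e : Fin 3`), line slot `j.succAbove (e+2)`; the atom is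
`atom j κ T (g 0) (g 1) (g 2)`.

* `TT` : sum over boxes `(n, p, v)` with coefficients; linear in every kernel;
* `sum_Lbox` : `∑_{q ∈ S} ∑_{x ∈ adm q} ε Lbox = κ TT (chi ..) (line kernels)`. -/

set_option autoImplicit false

namespace Crest.Agent.R079.GaAx571

open Finset Crest.Agent.R079.Grid Crest.Agent.R079.Glue Crest.Agent.R079.Growth

/-- kernel letter: frozen variable, two kernel variables -/
abbrev Kl : Type := ℤ → ℤ → ℤ → ℂ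

/-- frozen variable of a box -/
def wv (bb : ℤ) (n : ℕ) (p : ℤ × ℤ × ℤ) (v : ℕ) : ℤ :=
  (v : ℤ) + bb * ((2 ^ n : ℕ) : ℤ) - p.1 - p.2.1 - p.2.2

/-- base point of a box -/
def xv (j : Fin 4) (bb : ℤ) (n : ℕ) (p : ℤ × ℤ × ℤ) : ℤ :=
  cf j 0 * p.1 + cf j 1 * p.2.1 + cf j 2 * p.2.2 + sl j * (bb * ((2 ^ n : ℕ) : ℤ))

/-- the triangular form of one box -/
noncomputable def bxf (bb : ℤ) (K : Fin 3 → Kl) (n : ℕ) (p : ℤ × ℤ × ℤ) (v : ℕ) : ℂ :=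
  Lb3 (K 0 (wv bb n p v)) (K 1 (wv bb n p v)) (K 2 (wv bb n p v)) (2 ^ n) p.1 p.2.1 p.2.2

/-- box form with coefficients `χ` -/
noncomputable def TT (bb : ℤ) (P : Finset (ℤ × ℤ × ℤ)) (M : ℕ) (χ : ℕ → ℤ × ℤ × ℤ → ℕ → ℂ)
    (K : Fin 3 → Kl) : ℂ :=
  ∑ n ∈ range M, ∑ p ∈ P, ∑ v ∈ range (2 ^ n + 2 ^ n),
    χ n p v * ((1 / (((2 ^ n : ℕ) : ℂ) + ((2 ^ n : ℕ) : ℂ))) * bxf bb K n p v)

open Classical in
/-- absolute box form over the boxes of `Gd` -/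
noncomputable def TA (bb : ℤ) (P : Finset (ℤ × ℤ × ℤ)) (M : ℕ) (Gd : ℕ → ℤ × ℤ × ℤ → ℕ → Prop)
    (K : Fin 3 → Kl) : ℝ :=
  ∑ n ∈ range M, ∑ p ∈ P, ∑ v ∈ range (2 ^ n + 2 ^ n),
    if Gd n p v then (1 / (((2 ^ n : ℕ) : ℝ) + ((2 ^ n : ℕ) : ℝ))) * ‖bxf bb K n p v‖ else 0

/-! ### linearity -/

lemma Lb3_add0 (A A' B C : ℤ → ℤ → ℂ) (N : ℕ) (p0 p1 p2 : ℤ) :
    Lb3 (fun x y => A x y + A' x y) B C N p0 p1 p2 = Lb3 A B C N p0 p1 p2 + Lb3 A' B C N p0 p1 p2 := by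
  unfold Lb3
  rw [← mul_add, ← Finset.sum_add_distrib]
  congr 1
  refine Finset.sum_congr rfl fun i0 _ => ?_
  rw [← Finset.sum_add_distrib]
  refine Finset.sum_congr rfl fun i1 _ => ?_
  rw [← Finset.sum_add_distrib]
  exact Finset.sum_congr rfl fun i2 _ => by ring

lemma Lb3_add1 (A B B' C : ℤ → ℤ → ℂ) (N : ℕ) (p0 p1 p2 : ℤ) :
    Lb3 A (fun x y => B x y + B' x y) C N p0 p1 p2 = Lb3 A B C N p0 p1 p2 + Lb3 A B' C N p0 p1 p2 := by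
  unfold Lb3
  rw [← mul_add, ← Finset.sum_add_distrib]
  congr 1
  refine Finset.sum_congr rfl fun i0 _ => ?_
  rw [← Finset.sum_add_distrib]
  refine Finset.sum_congr rfl fun i1 _ => ?_
  rw [← Finset.sum_add_distrib]
  exact Finset.sum_congr rfl fun i2 _ => by ring

lemma Lb3_add2 (A B C C' : ℤ → ℤ → ℂ) (N : ℕ) (p0 p1 p2 : ℤ) :
    Lb3 A B (fun x y => C x y + C' x y) N p0 p1 p2 = Lb3 A B C N p0 p1 p2 + Lb3 A B C' N p0 p1 p2 := by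
  unfold Lb3
  rw [← mul_add, ← Finset.sum_add_distrib]
  congr 1
  refine Finset.sum_congr rfl fun i0 _ => ?_
  rw [← Finset.sum_add_distrib]
  refine Finset.sum_congr rfl fun i1 _ => ?_
  rw [← Finset.sum_add_distrib]
  exact Finset.sum_congr rfl fun i2 _ => by ring

lemma Lb3_smul0 (c : ℂ) (A B C : ℤ → ℤ → ℂ) (N : ℕ) (p0 p1 p2 : ℤ) :
    Lb3 (fun x y => c * A x y) B C N p0 p1 p2 = c * Lb3 A B C N p0 p1 p2 := by
  unfold Lb3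
  rw [mul_left_comm]
  congr 1
  rw [Finset.mul_sum]
  refine Finset.sum_congr rfl fun i0 _ => ?_
  rw [Finset.mul_sum]
  refine Finset.sum_congr rfl fun i1 _ => ?_
  rw [Finset.mul_sum]
  exact Finset.sum_congr rfl fun i2 _ => by ring

lemma Lb3_smul1 (c : ℂ) (A B C : ℤ → ℤ → ℂ) (N : ℕ) (p0 p1 p2 : ℤ) :
    Lb3 A (fun x y => c * B x y) C N p0 p1 p2 = c * Lb3 A B C N p0 p1 p2 := by
  unfold Lb3
  rw [mul_left_comm]
  congr 1
  rw [Finset.mul_sum]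
  refine Finset.sum_congr rfl fun i0 _ => ?_
  rw [Finset.mul_sum]
  refine Finset.sum_congr rfl fun i1 _ => ?_
  rw [Finset.mul_sum]
  exact Finset.sum_congr rfl fun i2 _ => by ring

lemma Lb3_smul2 (c : ℂ) (A B C : ℤ → ℤ → ℂ) (N : ℕ) (p0 p1 p2 : ℤ) :
    Lb3 A B (fun x y => c * C x y) N p0 p1 p2 = c * Lb3 A B C N p0 p1 p2 := by
  unfold Lb3
  rw [mul_left_comm]
  congr 1
  rw [Finset.mul_sum]
  refine Finset.sum_congr rfl fun i0 _ => ?_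
  rw [Finset.mul_sum]
  refine Finset.sum_congr rfl fun i1 _ => ?_
  rw [Finset.mul_sum]
  exact Finset.sum_congr rfl fun i2 _ => by ring

lemma bxf_add (bb : ℤ) (K : Fin 3 → Kl) (e : Fin 3) (X Y : Kl) (n : ℕ) (p : ℤ × ℤ × ℤ) (v : ℕ) :
    bxf bb (Function.update K e (fun w z z' => X w z z' + Y w z z')) n p v =
      bxf bb (Function.update K e X) n p v + bxf bb (Function.update K e Y) n p v := by
  unfold bxf
  fin_cases e
  · exact Lb3_add0 _ _ _ _ _ _ _ _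
  · exact Lb3_add1 _ _ _ _ _ _ _ _
  · exact Lb3_add2 _ _ _ _ _ _ _ _

lemma bxf_smul (bb : ℤ) (K : Fin 3 → Kl) (e : Fin 3) (c : ℂ) (X : Kl) (n : ℕ) (p : ℤ × ℤ × ℤ)
    (v : ℕ) : bxf bb (Function.update K e (fun w z z' => c * X w z z')) n p v =
      c * bxf bb (Function.update K e X) n p v := by
  unfold bxf
  fin_cases e
  · exact Lb3_smul0 _ _ _ _ _ _ _ _
  · exact Lb3_smul1 _ _ _ _ _ _ _ _
  · exact Lb3_smul2 _ _ _ _ _ _ _ _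

lemma TT_add (bb : ℤ) (P : Finset (ℤ × ℤ × ℤ)) (M : ℕ) (χ : ℕ → ℤ × ℤ × ℤ → ℕ → ℂ)
    (K : Fin 3 → Kl) (e : Fin 3) (X Y : Kl) :
    TT bb P M χ (Function.update K e (fun w z z' => X w z z' + Y w z z')) =
      TT bb P M χ (Function.update K e X) + TT bb P M χ (Function.update K e Y) := by
  unfold TT
  rw [← Finset.sum_add_distrib]
  refine Finset.sum_congr rfl fun n _ => ?_
  rw [← Finset.sum_add_distrib]
  refine Finset.sum_congr rfl fun p _ => ?_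
  rw [← Finset.sum_add_distrib]
  refine Finset.sum_congr rfl fun v _ => ?_
  rw [bxf_add]
  ring

lemma TT_smul (bb : ℤ) (P : Finset (ℤ × ℤ × ℤ)) (M : ℕ) (χ : ℕ → ℤ × ℤ × ℤ → ℕ → ℂ)
    (K : Fin 3 → Kl) (e : Fin 3) (c : ℂ) (X : Kl) :
    TT bb P M χ (Function.update K e (fun w z z' => c * X w z z')) =
      c * TT bb P M χ (Function.update K e X) := by
  unfold TT
  rw [Finset.mul_sum]
  refine Finset.sum_congr rfl fun n _ => ?_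
  rw [Finset.mul_sum]
  refine Finset.sum_congr rfl fun p _ => ?_
  rw [Finset.mul_sum]
  refine Finset.sum_congr rfl fun v _ => ?_
  rw [bxf_smul]
  ring

/-- linearity in the coefficients -/
lemma TT_chi_sum (bb : ℤ) (P : Finset (ℤ × ℤ × ℤ)) (M : ℕ) {ι : Type*} (I : Finset ι) (c : ι → ℂ)
    (χ : ι → ℕ → ℤ × ℤ × ℤ → ℕ → ℂ) (K : Fin 3 → Kl) :
    ∑ k ∈ I, c k * TT bb P M (χ k) K = TT bb P M (fun n p v => ∑ k ∈ I, c k * χ k n p v) K := by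
  unfold TT
  simp only [Finset.mul_sum, Finset.sum_mul]
  rw [Finset.sum_comm]
  refine Finset.sum_congr rfl fun n _ => ?_
  rw [Finset.sum_comm]
  refine Finset.sum_congr rfl fun p _ => ?_
  rw [Finset.sum_comm]
  refine Finset.sum_congr rfl fun v _ => Finset.sum_congr rfl fun k _ => ?_
  ring

lemma TT_congr_chi (bb : ℤ) (P : Finset (ℤ × ℤ × ℤ)) (M : ℕ) {χ χ' : ℕ → ℤ × ℤ × ℤ → ℕ → ℂ}
    (K : Fin 3 → Kl) (h : ∀ n < M, ∀ p ∈ P, ∀ v < 2 ^ n + 2 ^ n, χ n p v = χ' n p v) :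
    TT bb P M χ K = TT bb P M χ' K := by
  unfold TT
  refine Finset.sum_congr rfl fun n hn => Finset.sum_congr rfl fun p hp =>
    Finset.sum_congr rfl fun v hv => ?_
  rw [h n (Finset.mem_range.1 hn) p hp v (Finset.mem_range.1 hv)]

/-- absolute bound -/
lemma norm_TT_le (bb : ℤ) (P : Finset (ℤ × ℤ × ℤ)) (M : ℕ) {χ : ℕ → ℤ × ℤ × ℤ → ℕ → ℂ}
    {Gd : ℕ → ℤ × ℤ × ℤ → ℕ → Prop} (K : Fin 3 → Kl)
    (h : ∀ n < M, ∀ p ∈ P, ∀ v < 2 ^ n + 2 ^ n, ‖χ n p v‖ ≤ 1 ∧ (¬ Gd n p v → χ n p v = 0)) :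
    ‖TT bb P M χ K‖ ≤ TA bb P M Gd K := by
  classical
  unfold TT TA
  refine (norm_sum_le _ _).trans (Finset.sum_le_sum fun n hn => ?_)
  refine (norm_sum_le _ _).trans (Finset.sum_le_sum fun p hp => ?_)
  refine (norm_sum_le _ _).trans (Finset.sum_le_sum fun v hv => ?_)
  have h1 := h n (Finset.mem_range.1 hn) p hp v (Finset.mem_range.1 hv)
  split_ifs with hg
  · rw [norm_mul, norm_mul]
    have e : ‖(1 / (((2 ^ n : ℕ) : ℂ) + ((2 ^ n : ℕ) : ℂ)))‖ =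
        1 / (((2 ^ n : ℕ) : ℝ) + ((2 ^ n : ℕ) : ℝ)) := by
      rw [norm_div, norm_one]
      congr 1
      rw [← Nat.cast_add, Complex.norm_natCast]
      push_cast
      ring
    rw [e]
    have h2 : 0 ≤ 1 / (((2 ^ n : ℕ) : ℝ) + ((2 ^ n : ℕ) : ℝ)) * ‖bxf bb K n p v‖ := by positivity
    calc _ ≤ 1 * (1 / (((2 ^ n : ℕ) : ℝ) + ((2 ^ n : ℕ) : ℝ)) * ‖bxf bb K n p v‖) :=
          mul_le_mul_of_nonneg_right h1.1 h2
      _ = _ := one_mul _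
  · rw [h1.2 hg, zero_mul, norm_zero]

/-! ### line kernels -/

/-- the kernel of the line letter `F` on the edge `e` -/
noncomputable def lk (j : Fin 4) (T : Fin 3 → Finset ℤ) (g : Fin 3 → ℤ → ℤ → ℂ) (e : Fin 3)
    (F : ℤ → ℂ) : Kl :=
  fun w => frz j (j.succAbove (e + 2)) (j.succAbove e) (j.succAbove (e + 1)) (T e) (T (e + 1))
    (g e) F w

/-- all three line kernels -/
noncomputable def lks (j : Fin 4) (T : Fin 3 → Finset ℤ) (g : Fin 3 → ℤ → ℤ → ℂ)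
    (F : Fin 4 → ℤ → ℂ) : Fin 3 → Kl :=
  fun e => lk j T g e (F (j.succAbove (e + 2)))

lemma lk_add (j : Fin 4) (T : Fin 3 → Finset ℤ) (g : Fin 3 → ℤ → ℤ → ℂ) (e : Fin 3)
    (F G : ℤ → ℂ) : lk j T g e (fun y => F y + G y) =
      fun w z z' => lk j T g e F w z z' + lk j T g e G w z z' := by
  funext w z z'
  unfold lk frz
  split_ifs <;> ring

lemma lk_smul (j : Fin 4) (T : Fin 3 → Finset ℤ) (g : Fin 3 → ℤ → ℤ → ℂ) (e : Fin 3)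
    (c : ℂ) (F : ℤ → ℂ) : lk j T g e (fun y => c * F y) =
      fun w z z' => c * lk j T g e F w z z' := by
  funext w z z'
  unfold lk frz
  split_ifs <;> ring

/-- enough base points -/
def Cov (M : ℕ) (T : Fin 3 → Finset ℤ) (P : Finset (ℤ × ℤ × ℤ)) : Prop :=
  ∀ n < M, ∀ t0 t1 t2 : ℕ, t0 < 2 ^ n + 2 ^ n → t1 < 2 ^ n + 2 ^ n → t2 < 2 ^ n + 2 ^ n →
    ∀ z0 ∈ T 0, ∀ z1 ∈ T 1, ∀ z2 ∈ T 2, (z0 - (t0 : ℤ), z1 - (t1 : ℤ), z2 - (t2 : ℤ)) ∈ P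

lemma exists_cov (M : ℕ) (T : Fin 3 → Finset ℤ) : ∃ P, Cov M T P := by
  classical
  refine ⟨((T 0 ×ˢ T 1 ×ˢ T 2) ×ˢ (range (2 ^ M + 2 ^ M) ×ˢ range (2 ^ M + 2 ^ M) ×ˢ
    range (2 ^ M + 2 ^ M))).image (fun s => (s.1.1 - (s.2.1 : ℤ), s.1.2.1 - (s.2.2.1 : ℤ),
      s.1.2.2 - (s.2.2.2 : ℤ))), ?_⟩
  intro n hn t0 t1 t2 h0 h1 h2 z0 hz0 z1 hz1 z2 hz2
  have hp : 2 ^ n + 2 ^ n ≤ 2 ^ M + 2 ^ M := by
    have := Nat.pow_le_pow_right (show 0 < 2 by norm_num) hn.le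
    omega
  rw [Finset.mem_image]
  refine ⟨((z0, z1, z2), (t0, t1, t2)), ?_, rfl⟩
  simp only [Finset.mem_product, Finset.mem_range]
  exact ⟨⟨hz0, hz1, hz2⟩, h0.trans_le hp, h1.trans_le hp, h2.trans_le hp⟩

/-- one level: box form of an atom, coefficient of the base point -/
theorem Lbox_boxes (j : Fin 4) (n : ℕ) (bb : ℤ) (κ : ℝ) (T : Fin 3 → Finset ℤ)
    (g : Fin 3 → ℤ → ℤ → ℂ) (F : Fin 4 → ℤ → ℂ) (hF : F j = atom j κ T (g 0) (g 1) (g 2)) (x : ℤ)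
    (P : Finset (ℤ × ℤ × ℤ)) {M : ℕ} (hn : n < M) (hP : Cov M T P) :
    Lbox (2 ^ n) bb F x = (κ : ℂ) * ∑ p ∈ P, ∑ v ∈ range (2 ^ n + 2 ^ n),
      if xv j bb n p = x then (hsg (2 ^ n) (Fin.ofNat (2 ^ n + 2 ^ n) v) : ℂ) *
        ((1 / (((2 ^ n : ℕ) : ℂ) + ((2 ^ n : ℕ) : ℂ))) * bxf bb (lks j T g F) n p v) else 0 := by
  rw [Lbox_atom j (2 ^ n) bb κ T (g 0) (g 1) (g 2) F hF x P
    (fun t0 t1 t2 z0 h0 z1 h1 z2 h2 => hP n hn t0 t1 t2 t0.2 t1.2 t2.2 z0 h0 z1 h1 z2 h2)]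
  congr 1
  refine Finset.sum_congr rfl fun p _ => ?_
  have hc : cf j 0 * p.1 + cf j 1 * p.2.1 + cf j 2 * p.2.2 = x - sl j * (bb * ((2 ^ n : ℕ) : ℤ)) ↔
      xv j bb n p = x := by
    unfold xv
    constructor
    · intro h; rw [h]; ring
    · intro h; rw [← h]; ring
  rw [if_congr hc rfl rfl]
  split_ifs with h
  · rw [Finset.mul_sum, ← Fin.sum_univ_eq_sum_range (n := 2 ^ n + 2 ^ n) (fun v =>
      (hsg (2 ^ n) (Fin.ofNat (2 ^ n + 2 ^ n) v) : ℂ) *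
        ((1 / (((2 ^ n : ℕ) : ℂ) + ((2 ^ n : ℕ) : ℂ))) * bxf bb (lks j T g F) n p v))]
    refine Finset.sum_congr rfl fun v _ => ?_
    rw [show (Fin.ofNat (2 ^ n + 2 ^ n) (v : ℕ)) = v from Fin.ofNat_val_eq_self v]
    rw [mul_left_comm]
    rfl
  · simp

/-- coefficient of a base point for a set of nodes -/
noncomputable def cS (S : Finset Nd) (ε : ℕ → ℤ → ℂ) (n : ℕ) (x : ℤ) : ℂ :=
  ∑ q ∈ S, if q.1 = n ∧ x ∈ adm q.1 q.2 then ε n x else 0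

/-- coefficients of the boxes for a set of nodes -/
noncomputable def chi (j : Fin 4) (bb : ℤ) (S : Finset Nd) (ε : ℕ → ℤ → ℂ) (n : ℕ)
    (p : ℤ × ℤ × ℤ) (v : ℕ) : ℂ :=
  cS S ε n (xv j bb n p) * (hsg (2 ^ n) (Fin.ofNat (2 ^ n + 2 ^ n) v) : ℂ)

/-- **IDENTITY**: region sum = box form at frozen `w` -/
theorem sum_Lbox (j : Fin 4) (bb : ℤ) (κ : ℝ) (T : Fin 3 → Finset ℤ)
    (g : Fin 3 → ℤ → ℤ → ℂ) (F : Fin 4 → ℤ → ℂ) (hF : F j = atom j κ T (g 0) (g 1) (g 2))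
    (P : Finset (ℤ × ℤ × ℤ)) {M : ℕ} (hP : Cov M T P) (S : Finset Nd) (hS : ∀ q ∈ S, q.1 < M)
    (ε : ℕ → ℤ → ℂ) :
    ∑ q ∈ S, ∑ x ∈ adm q.1 q.2, ε q.1 x * Lbox (2 ^ q.1) bb F x =
      (κ : ℂ) * TT bb P M (chi j bb S ε) (lks j T g F) := by
  classical
  have h1 : ∀ q ∈ S, ∑ x ∈ adm q.1 q.2, ε q.1 x * Lbox (2 ^ q.1) bb F x =
      (κ : ℂ) * ∑ p ∈ P, ∑ v ∈ range (2 ^ q.1 + 2 ^ q.1),
        (if xv j bb q.1 p ∈ adm q.1 q.2 then ε q.1 (xv j bb q.1 p) else 0) *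
        ((hsg (2 ^ q.1) (Fin.ofNat (2 ^ q.1 + 2 ^ q.1) v) : ℂ) *
        ((1 / (((2 ^ q.1 : ℕ) : ℂ) + ((2 ^ q.1 : ℕ) : ℂ))) * bxf bb (lks j T g F) q.1 p v)) := by
    intro q hq
    have h2 : ∀ x ∈ adm q.1 q.2, ε q.1 x * Lbox (2 ^ q.1) bb F x = (κ : ℂ) * ∑ p ∈ P,
        ∑ v ∈ range (2 ^ q.1 + 2 ^ q.1), if xv j bb q.1 p = x then
          ε q.1 x * ((hsg (2 ^ q.1) (Fin.ofNat (2 ^ q.1 + 2 ^ q.1) v) : ℂ) *
        ((1 / (((2 ^ q.1 : ℕ) : ℂ) + ((2 ^ q.1 : ℕ) : ℂ))) * bxf bb (lks j T g F) q.1 p v)) else 0 := by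
      intro x _
      rw [Lbox_boxes j q.1 bb κ T g F hF x P (hS q hq) hP, mul_left_comm]
      congr 1
      rw [Finset.mul_sum]
      refine Finset.sum_congr rfl fun p _ => ?_
      rw [Finset.mul_sum]
      refine Finset.sum_congr rfl fun v _ => ?_
      split_ifs <;> simp
    rw [Finset.sum_congr rfl h2, ← Finset.mul_sum]
    congr 1
    rw [Finset.sum_comm]
    refine Finset.sum_congr rfl fun p _ => ?_
    rw [Finset.sum_comm]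
    refine Finset.sum_congr rfl fun v _ => ?_
    rw [Finset.sum_ite_eq]
    split_ifs
    · rfl
    · rw [zero_mul]
  rw [Finset.sum_congr rfl h1, ← Finset.mul_sum]
  congr 1
  unfold TT
  have h3 : ∀ q ∈ S, ∑ p ∈ P, ∑ v ∈ range (2 ^ q.1 + 2 ^ q.1),
        (if xv j bb q.1 p ∈ adm q.1 q.2 then ε q.1 (xv j bb q.1 p) else 0) *
        ((hsg (2 ^ q.1) (Fin.ofNat (2 ^ q.1 + 2 ^ q.1) v) : ℂ) *
        ((1 / (((2 ^ q.1 : ℕ) : ℂ) + ((2 ^ q.1 : ℕ) : ℂ))) * bxf bb (lks j T g F) q.1 p v)) =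
      ∑ n ∈ range M, ∑ p ∈ P, ∑ v ∈ range (2 ^ n + 2 ^ n),
        (if q.1 = n ∧ xv j bb n p ∈ adm q.1 q.2 then ε n (xv j bb n p) else 0) *
        ((hsg (2 ^ n) (Fin.ofNat (2 ^ n + 2 ^ n) v) : ℂ) *
        ((1 / (((2 ^ n : ℕ) : ℂ) + ((2 ^ n : ℕ) : ℂ))) * bxf bb (lks j T g F) n p v)) := by
    intro q hq
    rw [Finset.sum_eq_single q.1]
    · refine Finset.sum_congr rfl fun p _ => Finset.sum_congr rfl fun v _ => ?_
      congr 1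
      simp
    · intro n _ hne
      refine Finset.sum_eq_zero fun p _ => Finset.sum_eq_zero fun v _ => ?_
      rw [if_neg (fun h => hne h.1.symm), zero_mul]
    · intro h
      exact absurd (Finset.mem_range.2 (hS q hq)) h
  rw [Finset.sum_congr rfl h3, Finset.sum_comm]
  refine Finset.sum_congr rfl fun n _ => ?_
  rw [Finset.sum_comm]
  refine Finset.sum_congr rfl fun p _ => ?_
  rw [Finset.sum_comm]
  refine Finset.sum_congr rfl fun v _ => ?_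
  unfold chi cS
  rw [← Finset.sum_mul, mul_assoc]

end Crest.Agent.R079.GaAx571
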