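import Crest.Agent.R079.GaA_571
import Crest.Agent.R079.MovE_242
import Crest.Agent.R079.Frozen_569

/-! R079, Step I, MOVE with the kill lemma, part B (helper571): coefficients of stacks, the bilinear
forms of the stacks (kernel letter on one edge, line letter on another, killer on the third), and
`StatF` from an absolute bound over a set `Gd` of GOOD boxes. -/

set_option autoImplicit false

namespace Crest.Agent.R079.GaBx571

open Finset Crest.Agent.R079.Grid Crest.Agent.R079.Glue Crest.Agent.R079.Growth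
open Crest.Agent.R079.GaAx571 Crest.Agent.R079.MovC

/-! ### coefficients -/

lemma adm_uniq {q q' : Nd} {x : ℤ} (hl : q.1 = q'.1) (h : x ∈ adm q.1 q.2) (h' : x ∈ adm q'.1 q'.2) :
    q = q' := by
  have h1 := adm_subset _ _ h
  have h2 := adm_subset _ _ h'
  rw [← hl] at h2
  refine Prod.ext hl ?_
  by_contra hne
  exact Finset.disjoint_left.1 (L0e.dI_disj hne) h1 h2

/-- signed coefficients are bounded by one -/
lemma norm_cS_comb {S : Finset Nd} {s : Nd → ℂ} (hs : ∀ q ∈ S, ‖s q‖ ≤ 1) {ε : ℕ → ℤ → ℂ}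
    (hε : ∀ m x, ‖ε m x‖ ≤ 1) (n : ℕ) (x : ℤ) :
    ‖∑ q ∈ S, s q * (if q.1 = n ∧ x ∈ adm q.1 q.2 then ε n x else 0)‖ ≤ 1 := by
  classical
  by_cases hex : ∃ q ∈ S, q.1 = n ∧ x ∈ adm q.1 q.2
  · obtain ⟨q, hq, hqn, hqx⟩ := hex
    rw [Finset.sum_eq_single q]
    · rw [if_pos ⟨hqn, hqx⟩, norm_mul]
      exact mul_le_one₀ (hs q hq) (norm_nonneg _) (hε n x)
    · intro q' _ hne
      rw [if_neg, mul_zero]
      rintro ⟨h1, h2⟩
      exact hne (adm_uniq (h1.trans hqn.symm) h2 hqx)
    · intro h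
      exact absurd hq h
  · rw [Finset.sum_eq_zero]
    · simp
    · intro q hq
      rw [if_neg, mul_zero]
      exact fun h => hex ⟨q, hq, h⟩

/-- the base point is admissible for a node of `R` -/
def AdX (R : Finset Nd) (n : ℕ) (x : ℤ) : Prop := ∃ q ∈ R, q.1 = n ∧ x ∈ adm q.1 q.2

/-- combination of coefficients of disjoint families -/
lemma chi_comb (j : Fin 4) (bb : ℤ) {R : Finset Nd} {m : ℕ} {idx : Nd → ℕ} (s : ℕ → ℂ)
    (hs : ∀ k, ‖s k‖ ≤ 1) {ε : ℕ → ℤ → ℂ} (hε : ∀ m x, ‖ε m x‖ ≤ 1) (n : ℕ) (p : ℤ × ℤ × ℤ) (v : ℕ) :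
    ‖∑ k ∈ range m, s k * chi j bb (R.filter (fun q => idx q = k)) ε n p v‖ ≤ 1 ∧
      (¬ AdX R n (xv j bb n p) →
        ∑ k ∈ range m, s k * chi j bb (R.filter (fun q => idx q = k)) ε n p v = 0) := by
  classical
  have e : ∑ k ∈ range m, s k * chi j bb (R.filter (fun q => idx q = k)) ε n p v =
      (∑ q ∈ R, (if idx q < m then s (idx q) else 0) *
        (if q.1 = n ∧ xv j bb n p ∈ adm q.1 q.2 then ε n (xv j bb n p) else 0)) *
        (hsg (2 ^ n) (Fin.ofNat (2 ^ n + 2 ^ n) v) : ℂ) := by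
    unfold chi cS
    rw [Finset.sum_mul]
    have h1 : ∀ k ∈ range m, s k * ((∑ q ∈ R.filter (fun q => idx q = k),
        if q.1 = n ∧ xv j bb n p ∈ adm q.1 q.2 then ε n (xv j bb n p) else 0) *
          (hsg (2 ^ n) (Fin.ofNat (2 ^ n + 2 ^ n) v) : ℂ)) =
        ∑ q ∈ R, if idx q = k then s k * (if q.1 = n ∧ xv j bb n p ∈ adm q.1 q.2 then
          ε n (xv j bb n p) else 0) * (hsg (2 ^ n) (Fin.ofNat (2 ^ n + 2 ^ n) v) : ℂ) else 0 := by
      intro k _
      rw [Finset.sum_filter, Finset.sum_mul, Finset.mul_sum]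
      refine Finset.sum_congr rfl fun q _ => ?_
      split_ifs <;> ring
    rw [Finset.sum_congr rfl h1, Finset.sum_comm]
    refine Finset.sum_congr rfl fun q _ => ?_
    rw [Finset.sum_ite_eq]
    by_cases h : idx q < m
    · rw [if_pos (Finset.mem_range.2 h), if_pos h]
    · rw [if_neg (fun h' => h (Finset.mem_range.1 h')), if_neg h]
      ring
  have hsgn : ‖(hsg (2 ^ n) (Fin.ofNat (2 ^ n + 2 ^ n) v) : ℂ)‖ = 1 := by
    rw [Complex.norm_real]
    unfold hsg
    split_ifs <;> simp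
  constructor
  · rw [e, norm_mul, hsgn, mul_one]
    refine norm_cS_comb (fun q _ => ?_) hε n _
    split_ifs
    · exact hs _
    · simp
  · intro h
    rw [e, Finset.sum_eq_zero, zero_mul]
    intro q hq
    rw [if_neg (fun hc => h ⟨q, hq, hc⟩), mul_zero]

/-! ### the bilinear forms of the stacks -/

open Classical in
/-- masked kernel of a function on the band -/
noncomputable def ker (B : Finset (ℤ × ℤ × ℤ)) (u : ℤ × ℤ × ℤ → ℂ) : Kl :=
  fun w z z' => if (w, z, z') ∈ B then u (w, z, z') else 0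

open Classical in
/-- coefficients restricted to the good boxes -/
noncomputable def gchi (Gd : ℕ → ℤ × ℤ × ℤ → ℕ → Prop) (χ : ℕ → ℤ × ℤ × ℤ → ℕ → ℂ) (n : ℕ)
    (p : ℤ × ℤ × ℤ) (v : ℕ) : ℂ := if Gd n p v then χ n p v else 0

/-- **bilinear form**: kernel letter on the edge `e`, line letter (slot `j.succAbove (e'+2)`) on the
edge `e'`, the other letters `F` -/
noncomputable def Tk (j : Fin 4) (bb : ℤ) (T : Fin 3 → Finset ℤ) (g : Fin 3 → ℤ → ℤ → ℂ)
    (P : Finset (ℤ × ℤ × ℤ)) (M : ℕ) (χ : ℕ → ℤ × ℤ × ℤ → ℕ → ℂ) (F : Fin 4 → ℤ → ℂ)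
    (B : Finset (ℤ × ℤ × ℤ)) (e e' : Fin 3) (hee : e ≠ e') :
    (ℤ × ℤ × ℤ → ℂ) →ₗ[ℝ] (ℤ → ℂ) →ₗ[ℝ] ℂ :=
  LinearMap.mk₂ ℝ (fun u v => TT bb P M χ (Function.update (Function.update (lks j T g F) e'
      (lk j T g e' v)) e (ker B u)))
    (by
      intro u u' v
      have h : ker B (u + u') = fun w z z' => ker B u w z z' + ker B u' w z z' := by
        funext w z z'
        unfold ker
        split_ifs
        · rfl
        · ring
      simp only [h]
      exact TT_add _ _ _ _ _ _ _ _)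
    (by
      intro c u v
      have h : ker B (c • u) = fun w z z' => (c : ℂ) * ker B u w z z' := by
        funext w z z'
        unfold ker
        split_ifs
        · simp
        · ring
      simp only [h]
      rw [TT_smul]
      exact (Complex.real_smul).symm)
    (by
      intro u v v'
      have h : lk j T g e' (v + v') = fun w z z' => lk j T g e' v w z z' + lk j T g e' v' w z z' :=
        lk_add j T g e' v v'
      have hsw : ∀ X : Kl, Function.update (Function.update (lks j T g F) e' X) e (ker B u) =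
          Function.update (Function.update (lks j T g F) e (ker B u)) e' X := fun X =>
        Function.update_comm hee.symm _ _ _
      simp only [h, hsw]
      exact TT_add _ _ _ _ _ _ _ _)
    (by
      intro c u v
      have h : lk j T g e' (c • v) = fun w z z' => (c : ℂ) * lk j T g e' v w z z' := by
        have h1 : (c • v) = fun y => (c : ℂ) * v y := by
          funext y
          rw [Pi.smul_apply, Complex.real_smul]
        rw [h1]
        exact lk_smul j T g e' (c : ℂ) v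
      have hsw : ∀ X : Kl, Function.update (Function.update (lks j T g F) e' X) e (ker B u) =
          Function.update (Function.update (lks j T g F) e (ker B u)) e' X := fun X =>
        Function.update_comm hee.symm _ _ _
      simp only [h, hsw]
      rw [TT_smul]
      exact (Complex.real_smul).symm)

lemma Tk_apply (j : Fin 4) (bb : ℤ) (T : Fin 3 → Finset ℤ) (g : Fin 3 → ℤ → ℤ → ℂ)
    (P : Finset (ℤ × ℤ × ℤ)) (M : ℕ) (χ : ℕ → ℤ × ℤ × ℤ → ℕ → ℂ) (F : Fin 4 → ℤ → ℂ)
    (B : Finset (ℤ × ℤ × ℤ)) (e e' : Fin 3) (hee : e ≠ e') (u : ℤ × ℤ × ℤ → ℂ) (v : ℤ → ℂ) :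
    Tk j bb T g P M χ F B e e' hee u v = TT bb P M χ (Function.update (Function.update
      (lks j T g F) e' (lk j T g e' v)) e (ker B u)) := rfl

/-- the third edge -/
lemma third_edge {e e' : Fin 3} (hee : e ≠ e') : ∃ e'' : Fin 3, e'' ≠ e ∧ e'' ≠ e' := by
  revert e e'
  decide

/-- **`StatF` from an absolute bound over the good boxes.**  `hG` : for all kernel letters `X` on the edge
`e` and `Y` on the edge `e'` (the third edge = killer, static). -/
theorem statF_of_abs (j : Fin 4) (bb : ℤ) (T : Fin 3 → Finset ℤ) (g : Fin 3 → ℤ → ℤ → ℂ)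
    (P : Finset (ℤ × ℤ × ℤ)) (M : ℕ) (F : Fin 4 → ℤ → ℂ) (B : Finset (ℤ × ℤ × ℤ))
    (e e' : Fin 3) (hee : e ≠ e') {R : Finset Nd} {idx : Nd → ℕ} {ε : ℕ → ℤ → ℂ}
    (hε : ∀ m x, ‖ε m x‖ ≤ 1) (Gd : ℕ → ℤ × ℤ × ℤ → ℕ → Prop) (A' : Finset ℤ) {N0 : ℝ}
    (hG : ∀ (u : ℤ × ℤ × ℤ → ℂ) (v : ℤ → ℂ), TA bb P M (fun n p i => Gd n p i ∧ AdX R n (xv j bb n p))
      (Function.update (Function.update (lks j T g F) e' (lk j T g e' v)) e (ker B u)) ≤
        N0 * nA B u * nA A' v) (m : ℕ) :
    StatF B A' m (fun k => Tk j bb T g P M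
      (gchi Gd (chi j bb (R.filter (fun q => idx q = k)) ε)) F B e e' hee) N0 := by
  classical
  intro s hs u v
  simp only [Tk_apply]
  rw [TT_chi_sum]
  refine (norm_TT_le bb P M (Gd := fun n p i => Gd n p i ∧ AdX R n (xv j bb n p)) _ ?_).trans
    (hG u v)
  intro n _ p _ i _
  have h1 := chi_comb j bb (R := R) (m := m) (idx := idx) (fun k => ((s k : ℝ) : ℂ)) (fun k => by
    rw [Complex.norm_real, Real.norm_eq_abs, hs k]) hε n p i
  have e1 : ∑ k ∈ range m, ((s k : ℝ) : ℂ) * gchi Gd (chi j bb (R.filter (fun q => idx q = k)) ε)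
      n p i = if Gd n p i then ∑ k ∈ range m, ((s k : ℝ) : ℂ) *
        chi j bb (R.filter (fun q => idx q = k)) ε n p i else 0 := by
    unfold gchi
    split_ifs
    · rfl
    · simp
  rw [e1]
  constructor
  · split_ifs
    · exact h1.1
    · simp
  · intro hn
    split_ifs with hg
    · exact h1.2 fun ha => hn ⟨hg, ha⟩
    · rfl

end Crest.Agent.R079.GaBx571
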