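import Crest.Agent.R079.PjS_881

/-! R079, Step I (helper260, item GaH of 571): SUP BOUND of the part above the threshold.

* `chi_sup`  : `4 s |chi_s A (x,y)| ≤ |row x|_2 |column y|_2`;
* `cl_sup`, `cl_sup'` : the same on a rectangle of `ℤ × ℤ`, and with `|A| ≤ H` : `4 s |A - cl A| ≤ H² √(|S||S'|)`;
* `Pj_sup` : Whitney cells: `4 r |A ω - Pj r p A ω| ≤ H²` on the band of the node `p`. -/

set_option autoImplicit false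

namespace Crest.Agent.R079.GaHx260

open Finset Crest.Agent.R079.Grid Crest.Agent.R079.Growth Crest.Agent.R079.QRed
  Crest.Agent.R079.Qh249 Crest.Agent.R079.TWin Crest.Agent.R079.Whit Crest.Agent.R079.HiF881
  Crest.Agent.R079.ClW59 Crest.Agent.R079.Cel159 Crest.Agent.R079.ThA159 Crest.Agent.R079.PjC881

open scoped ComplexConjugate

section mat

variable {m n : Type*} [Fintype m] [Fintype n] [DecidableEq n]

/-- entries of the part above the threshold -/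
theorem chi_sup (A : m → n → ℂ) {s : ℝ} (hs : 0 < s) (x : m) (y : n) :
    4 * s * ‖chi A s x y‖ ≤ √(∑ y, ‖A x y‖ ^ 2) * √(∑ x, ‖A x y‖ ^ 2) := by
  obtain ⟨P, Q, ψ, h⟩ := chiFac A hs
  have h1 : ‖chi A s x y‖ ≤ √(∑ k, ‖P x k‖ ^ 2) * √(∑ k, ‖Q k y‖ ^ 2) := by
    rw [← h.eq x y]
    refine (norm_sum_le _ _).trans ?_
    simp only [norm_mul]
    exact Real.sum_mul_le_sqrt_mul_sqrt _ _ _
  have h4 : (0 : ℝ) ≤ 4 * s := by positivity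
  have e : 4 * s * (√(∑ k, ‖P x k‖ ^ 2) * √(∑ k, ‖Q k y‖ ^ 2)) =
      √(4 * s * ∑ k, ‖P x k‖ ^ 2) * √(4 * s * ∑ k, ‖Q k y‖ ^ 2) := by
    rw [Real.sqrt_mul h4, Real.sqrt_mul h4]
    have := Real.mul_self_sqrt h4
    calc 4 * s * (√(∑ k, ‖P x k‖ ^ 2) * √(∑ k, ‖Q k y‖ ^ 2))
        = (√(4 * s) * √(4 * s)) * (√(∑ k, ‖P x k‖ ^ 2) * √(∑ k, ‖Q k y‖ ^ 2)) := by rw [this]
      _ = _ := by ring
  refine (mul_le_mul_of_nonneg_left h1 h4).trans ?_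
  rw [e]
  exact mul_le_mul (Real.sqrt_le_sqrt (h.rowP x)) (Real.sqrt_le_sqrt (h.rowQ y))
    (Real.sqrt_nonneg _) (Real.sqrt_nonneg _)

end mat

/-- rectangle form -/
theorem cl_sup (A : ℤ → ℤ → ℂ) {S S' : Finset ℤ} {s : ℝ} (hs : 0 < s) {x y : ℤ} (hx : x ∈ S)
    (hy : y ∈ S') : 4 * s * ‖A x y - cl A S S' s x y‖ ≤
      √(∑ y ∈ S', ‖A x y‖ ^ 2) * √(∑ x ∈ S, ‖A x y‖ ^ 2) := by
  have h := chi_sup (fun (x : {x // x ∈ S}) (y : {y // y ∈ S'}) => A x y) hs ⟨x, hx⟩ ⟨y, hy⟩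
  have e : chi (fun (x : {x // x ∈ S}) (y : {y // y ∈ S'}) => A x y) s ⟨x, hx⟩ ⟨y, hy⟩ =
      A x y - cl A S S' s x y := by
    rw [show cl A S S' s x y =
      cl A S S' s ((⟨x, hx⟩ : {x // x ∈ S}) : ℤ) ((⟨y, hy⟩ : {y // y ∈ S'}) : ℤ) from rfl, cl_mem]
    rfl
  rw [e] at h
  refine h.trans (le_of_eq ?_)
  congr 2
  · exact Finset.sum_coe_sort S' (fun y => ‖A x y‖ ^ 2)
  · exact Finset.sum_coe_sort S (fun x => ‖A x y‖ ^ 2)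

/-- rectangle form with a sup bound of `A` -/
theorem cl_sup' (A : ℤ → ℤ → ℂ) {S S' : Finset ℤ} {s H N : ℝ} (hs : 0 < s)
    (hN : 0 ≤ N) (hA : ∀ x ∈ S, ∀ y ∈ S', ‖A x y‖ ≤ H) (hS : (S.card : ℝ) ≤ N)
    (hS' : (S'.card : ℝ) ≤ N) {x y : ℤ} (hx : x ∈ S) (hy : y ∈ S') :
    4 * s * ‖A x y - cl A S S' s x y‖ ≤ N * H ^ 2 := by
  refine (cl_sup A hs hx hy).trans ?_
  have h1 : ∑ y ∈ S', ‖A x y‖ ^ 2 ≤ N * H ^ 2 := by
    calc ∑ y ∈ S', ‖A x y‖ ^ 2 ≤ ∑ _y ∈ S', H ^ 2 := Finset.sum_le_sum fun y hy =>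
          pow_le_pow_left₀ (norm_nonneg _) (hA x hx y hy) 2
      _ = S'.card * H ^ 2 := by rw [Finset.sum_const, nsmul_eq_mul]
      _ ≤ N * H ^ 2 := mul_le_mul_of_nonneg_right hS' (sq_nonneg H)
  have h2 : ∑ x ∈ S, ‖A x y‖ ^ 2 ≤ N * H ^ 2 := by
    calc ∑ x ∈ S, ‖A x y‖ ^ 2 ≤ ∑ _x ∈ S, H ^ 2 := Finset.sum_le_sum fun x hx =>
          pow_le_pow_left₀ (norm_nonneg _) (hA x hx y hy) 2
      _ = S.card * H ^ 2 := by rw [Finset.sum_const, nsmul_eq_mul]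
      _ ≤ N * H ^ 2 := mul_le_mul_of_nonneg_right hS (sq_nonneg H)
  have h0 : 0 ≤ N * H ^ 2 := by positivity
  calc √(∑ y ∈ S', ‖A x y‖ ^ 2) * √(∑ x ∈ S, ‖A x y‖ ^ 2)
      ≤ √(N * H ^ 2) * √(N * H ^ 2) :=
        mul_le_mul (Real.sqrt_le_sqrt h1) (Real.sqrt_le_sqrt h2) (Real.sqrt_nonneg _)
          (Real.sqrt_nonneg _)
    _ = N * H ^ 2 := Real.mul_self_sqrt h0

/-- for ANY band system whose node splits into cells of side `≤ w c` -/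
theorem split_sup {κ : Type*} {Bd : Nd → Finset (ℤ × ℤ × ℤ)} {pos : ℤ × ℤ × ℤ → ℤ}
    {N : Nd → (ℤ × ℤ × ℤ → ℂ) → ℝ} {ν : ℝ} {p : Nd}
    {cells : Finset κ} {z : κ → ℤ} {S T : κ → Finset ℤ} {w : κ → ℝ} (hB : Bnd Bd pos N ν)
    (hs : Split Bd N p cells z S T w) (hw : ∀ c ∈ cells, 0 < w c)
    (hS : ∀ c ∈ cells, ((S c).card : ℝ) ≤ w c) (hT : ∀ c ∈ cells, ((T c).card : ℝ) ≤ w c)
    {r H : ℝ} (hr : 0 < r) (A : ℤ × ℤ × ℤ → ℂ) (hA : ∀ ω ∈ Bd p, ‖A ω‖ ≤ H)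
    {ω : ℤ × ℤ × ℤ} (hω : ω ∈ Bd p) : 4 * r * ‖A ω - Pj Bd N r p A ω‖ ≤ H ^ 2 := by
  obtain ⟨c, hc, hm⟩ := (hs.mem ω).1 hω
  obtain ⟨z', u, v⟩ := ω
  simp only [Finset.mem_product, Finset.mem_singleton] at hm
  obtain ⟨rfl, hu, hv⟩ := hm
  rw [PjC881.Pj_cell hB hs hr.le A hc u hu v hv]
  have hwc := hw c hc
  have h1 := cl_sup' (fun u v => A (z c, u, v)) (S := S c) (S' := T c) (s := r * w c) (H := H)
    (N := w c) (by positivity) hwc.le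
    (fun x hx y hy => hA _ ((hs.mem _).2 ⟨c, hc, by
      simp only [Finset.mem_product, Finset.mem_singleton]; exact ⟨trivial, hx, hy⟩⟩))
    (hS c hc) (hT c hc) hu hv
  have h2 : w c * (4 * r * ‖A (z c, u, v) - cl (fun u v => A (z c, u, v)) (S c) (T c) (r * w c) u v‖)
      ≤ w c * H ^ 2 := by
    calc _ = 4 * (r * w c) * ‖A (z c, u, v) -
          cl (fun u v => A (z c, u, v)) (S c) (T c) (r * w c) u v‖ := by ring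
      _ ≤ _ := h1
  exact le_of_mul_le_mul_left h2 hwc

section inst

variable {Y : ℤ → ℤ → ℤ → ℤ} {k : ℕ} {T₀ T₁ T₂ : Finset ℤ}

/-- **Whitney cells**: sup bound of the part above the threshold on the band of a node -/
theorem Pj_sup {ν : ℝ}
    (hB : Bnd (fun p => (T₀ ×ˢ (T₁ ×ˢ T₂)).filter (fun ω => Y ω.1 ω.2.1 ω.2.2 ∈ iv p))
      (fun ω => Y ω.1 ω.2.1 ω.2.2) (NmP (T₀ ×ˢ (T₁ ×ˢ T₂)) cf (okc Y k)) ν) {r H : ℝ} (hr : 0 < r)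
    (p : Nd) (A : ℤ × ℤ × ℤ → ℂ)
    (hA : ∀ ω ∈ (T₀ ×ˢ (T₁ ×ˢ T₂)).filter (fun ω => Y ω.1 ω.2.1 ω.2.2 ∈ iv p), ‖A ω‖ ≤ H)
    {ω : ℤ × ℤ × ℤ} (hω : ω ∈ (T₀ ×ˢ (T₁ ×ˢ T₂)).filter (fun ω => Y ω.1 ω.2.1 ω.2.2 ∈ iv p)) :
    4 * r * ‖A ω - Pj (fun p => (T₀ ×ˢ (T₁ ×ˢ T₂)).filter (fun ω => Y ω.1 ω.2.1 ω.2.2 ∈ iv p))
      (NmP (T₀ ×ˢ (T₁ ×ˢ T₂)) cf (okc Y k)) r p A ω‖ ≤ H ^ 2 := by
  classical
  obtain ⟨z, u, v⟩ := ω
  have hω' := hω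
  rw [Finset.mem_filter] at hω'
  obtain ⟨hS, hY⟩ := hω'
  simp only [Finset.mem_product] at hS
  obtain ⟨hz, hu, hv⟩ := hS
  obtain ⟨n, a, b, hM, hua, hvb⟩ := exists_Mx (k := k) (Z := Y z) (p := p) (u := u) (v := v) hY
  have hu' : u ∈ dI n a ∩ T₁ := Finset.mem_inter.2 ⟨hua, hu⟩
  have hv' : v ∈ dI n b ∩ T₂ := Finset.mem_inter.2 ⟨hvb, hv⟩
  rw [Pj_eq_cl hB hr.le p _ hz hM u hu' v hv']
  have hcard : ∀ (c : ℤ) (T : Finset ℤ), (((dI n c ∩ T).card : ℕ) : ℝ) ≤ 2 ^ n := by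
    intro c T
    have h1 : (dI n c ∩ T).card ≤ (dI n c).card := Finset.card_le_card Finset.inter_subset_left
    have h2 : (dI n c).card = 2 ^ n := by
      unfold dI
      have e : (c + 1) * 2 ^ n - c * 2 ^ n = ((2 ^ n : ℕ) : ℤ) := by push_cast; ring
      rw [Int.card_Ico, e, Int.toNat_natCast]
    rw [h2] at h1
    exact_mod_cast h1
  have h1 := cl_sup' (fun u v => A (z, u, v)) (S := dI n a ∩ T₁) (S' := dI n b ∩ T₂)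
    (s := r * 2 ^ n) (H := H) (N := 2 ^ n) (by positivity) (by positivity)
    (fun x hx y hy => hA _ (by
      rw [Finset.mem_inter] at hx hy
      rw [Finset.mem_filter, Finset.mem_product, Finset.mem_product]
      exact ⟨⟨hz, hx.2, hy.2⟩, hM.2.1 x hx.1 y hy.1⟩))
    (hcard a T₁) (hcard b T₂) hu' hv'
  have h3 : (0 : ℝ) < 2 ^ n := by positivity
  have h2 : (2 : ℝ) ^ n * (4 * r * ‖A (z, u, v) -
      cl (fun u v => A (z, u, v)) (dI n a ∩ T₁) (dI n b ∩ T₂) (r * 2 ^ n) u v‖)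
      ≤ 2 ^ n * H ^ 2 := by
    calc _ = 4 * (r * 2 ^ n) * ‖A (z, u, v) -
          cl (fun u v => A (z, u, v)) (dI n a ∩ T₁) (dI n b ∩ T₂) (r * 2 ^ n) u v‖ := by ring
      _ ≤ _ := h1
  exact le_of_mul_le_mul_left h2 h3

end inst

end Crest.Agent.R079.GaHx260
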