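import Crest.Agent.R079.KLh_446

/-! R079, KILL LEMMA, REST WITH TWO REGIONS (helper446, for 571's GaU_571): `V ⊆ R`, same top `J`.
Boxes, letters and shadows relative to `V`; bad squares (`Pw`, `Bc`, `GoodB`, `ExD`) relative to `R`.

* `rest_AB_logV` : energies of the masked line letters (533's logarithmic form);
* `rest_wordsV`  : the words of the boxes that are not good. -/

set_option autoImplicit false
set_option linter.unusedVariables false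

namespace Crest.Agent.R079.KLx446

open Finset Crest.Agent.R079.Grid Crest.Agent.R079.Glue Crest.Agent.R079.Growth
  Crest.Agent.R079.QRed Crest.Agent.R079.BadTx138 Crest.Agent.R079.KC996 Crest.Agent.R079.KLdx138
  Crest.Agent.R079.TwLx253 Crest.Agent.R079.KLX279

/-- point of the rest: the shadow lies in a node of level `n` of `V`, `ρ ≥ 2^n` for the region `R` -/
def RsPV (V R : Finset Nd) (J : Nd) (c : ℤ → ℤ → ℂ) (K : Fn) (α β γ : ℤ) (s ε : ℝ) (w x y : ℤ) : Prop :=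
  ∃ n : ℕ, α * w + β * x + γ * y ∈ Rm V n ∧ Pw R J c K α β γ s ε w x y (2 ^ n)

section mx

variable {R V : Finset Nd} {J : Nd} {c : ℤ → ℤ → ℂ} {K : Fn} {α β γ : ℤ} {s ε : ℝ}

open Classical in
/-- the energy of the rest at a fixed value of `w` -/
lemma one_wV (hV : Full V J) (hC : Cof α β γ) {X : Fn} {A : ℝ} (hX : ∀ p ∈ V, av p X ≤ A)
    {th : ℤ → ℝ} (hth : ∀ z, 0 ≤ th z) (Xf Yf : Finset ℤ) (T : ℤ)
    (hTx : ∀ x ∈ Xf, |x| + 256 * 2 ^ J.1 ≤ T) (hTy : ∀ y ∈ Yf, |y| + 256 * 2 ^ J.1 ≤ T) (w : ℤ) :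
    ∑ x ∈ Xf, ∑ y ∈ Yf, (if RsPV V R J c K α β γ s ε w x y then
      th (-w - x - y) * ‖X (α * w + β * x + γ * y)‖ ^ 2 else 0) ≤
    (3073 * 2 ^ 15 * A ^ 2) * ∑ B ∈ BTs R J c K α β γ s ε th T w,
      (4 : ℝ) ^ B.1 * avT th 0 512 B w := by
  set G : (ℕ × ℤ × ℤ) → ℤ → ℤ → ℝ := fun B x y =>
    if α * w + β * x + γ * y ∈ Rm V (min (B.1 + 8) J.1) then
      th (-w - x - y) * ‖X (α * w + β * x + γ * y)‖ ^ 2 else 0 with hG
  have hG0 : ∀ B x y, 0 ≤ G B x y := by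
    intro B x y
    rw [hG]; simp only
    split_ifs
    · exact mul_nonneg (hth _) (by positivity)
    · exact le_rfl
  set H : (ℕ × ℤ × ℤ) → ℤ → ℤ → ℝ := fun B x y =>
    if x ∈ Icc (B.2.1 * 2 ^ B.1 - 256 * 2 ^ B.1) (B.2.1 * 2 ^ B.1 + 256 * 2 ^ B.1) ∧
      y ∈ Icc (B.2.2 * 2 ^ B.1 - 256 * 2 ^ B.1) (B.2.2 * 2 ^ B.1 + 256 * 2 ^ B.1) then G B x y else 0
    with hH
  have hH0 : ∀ B x y, 0 ≤ H B x y := by
    intro B x y
    rw [hH]; simp only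
    split_ifs
    · exact hG0 _ _ _
    · exact le_rfl
  have h1 : ∀ x ∈ Xf, ∀ y ∈ Yf, (if RsPV V R J c K α β γ s ε w x y then
      th (-w - x - y) * ‖X (α * w + β * x + γ * y)‖ ^ 2 else 0) ≤
      ∑ B ∈ BTs R J c K α β γ s ε th T w, H B x y := by
    intro x hx y hy
    split_ifs with h
    swap
    · exact Finset.sum_nonneg fun _ _ => hH0 _ _ _
    by_cases ht : th (-w - x - y) = 0
    · rw [ht, zero_mul]
      exact Finset.sum_nonneg fun _ _ => hH0 _ _ _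
    obtain ⟨n, hn, m, a, b, hB, hxa, hyb⟩ := h
    obtain ⟨k, hk⟩ := to_max w (J.1 - m) m a b le_rfl hB
    have hMJ : m + k ≤ J.1 := hk.1.1
    -- the dilates
    have hpos : (0 : ℤ) < 2 ^ m := by positivity
    have hle : (2 : ℤ) ^ m ≤ 2 ^ (m + k) := pow_le_pow_right₀ (by norm_num) (by omega)
    have hleJ : (2 : ℤ) ^ (m + k) ≤ 2 ^ J.1 := pow_le_pow_right₀ (by norm_num) hMJ
    have hn0 : (0 : ℤ) < 2 ^ n := by positivity
    have near : ∀ u v : ℤ, |u - v * 2 ^ m| + 2 ^ n ≤ 256 * 2 ^ m →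
        |u - v / 2 ^ k * 2 ^ (m + k)| ≤ 256 * 2 ^ (m + k) := by
      intro u v huv
      have h2 := abs_le.1 (show |u - v * 2 ^ m| ≤ 256 * 2 ^ m by linarith)
      rcases Nat.eq_zero_or_pos k with hk0 | hk0
      · subst hk0
        rw [abs_le]
        simp only [pow_zero, Int.ediv_one, add_zero]
        exact h2
      · have h3 := anc_near v m k
        have h4 : (2 : ℤ) * 2 ^ m ≤ 2 ^ (m + k) := by
          have : (2 : ℤ) ^ (m + 1) ≤ 2 ^ (m + k) := pow_le_pow_right₀ (by norm_num) (by omega)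
          rw [pow_succ] at this
          linarith
        rw [abs_le]
        constructor
        · linarith [h2.1, h2.2, h3.1, h3.2]
        · linarith [h2.1, h2.2, h3.1, h3.2]
    have hx1 := near x a hxa
    have hy1 := near y b hyb
    -- the level of the node
    have hnm : n ≤ m + 8 := by
      by_contra hcon
      rw [not_le] at hcon
      have h2 : (2 : ℤ) ^ (m + 9) ≤ 2 ^ n := pow_le_pow_right₀ (by norm_num) (by omega)
      have h3 : (2 : ℤ) ^ (m + 9) = 512 * 2 ^ m := by rw [pow_add]; ring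
      have h4 := abs_nonneg (x - a * 2 ^ m)
      linarith
    have hnJ : n ≤ J.1 := level_le V J hV.reg _ ((mem_Rm V n _).1 hn)
    have hnode : α * w + β * x + γ * y ∈ Rm V (min (m + k + 8) J.1) := by
      rw [mem_Rm] at hn ⊢
      exact node_up hV hn (by omega) (by omega)
    -- membership
    have hav : avT th 0 512 (m + k, a / 2 ^ k, b / 2 ^ k) w ≠ 0 := by
      unfold avT
      simp only
      have hpR : (0 : ℝ) < 1 / 2 ^ (m + k) := by positivity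
      refine (mul_pos hpR ?_).ne'
      refine lt_of_lt_of_le (lt_of_le_of_ne (hth (-w - x - y)) (Ne.symm ht)) ?_
      have e : -w - x - y = 0 - w - 2 ^ (m + k) * (a / 2 ^ k) - 2 ^ (m + k) * (b / 2 ^ k) +
        (2 ^ (m + k) * (a / 2 ^ k) + 2 ^ (m + k) * (b / 2 ^ k) - x - y) := by ring
      rw [e]
      refine Finset.single_le_sum (f := fun d => th (0 - w - 2 ^ (m + k) * (a / 2 ^ k) -
        2 ^ (m + k) * (b / 2 ^ k) + d)) (fun _ _ => hth _) ?_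
      rw [Finset.mem_Icc]
      have h2 := abs_le.1 hx1
      have h3 := abs_le.1 hy1
      push_cast
      constructor
      · nlinarith [h2.1, h2.2, h3.1, h3.2]
      · nlinarith [h2.1, h2.2, h3.1, h3.2]
    have hidx : ∀ u v : ℤ, |u| + 256 * 2 ^ J.1 ≤ T →
        |u - v / 2 ^ k * 2 ^ (m + k)| ≤ 256 * 2 ^ (m + k) → v / 2 ^ k ∈ Icc (-T) T := by
      intro u v hu huv
      have h2 := abs_le.1 huv
      have h3 := abs_le.1 (show |u| ≤ T - 256 * 2 ^ J.1 by linarith)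
      have h4 : (1 : ℤ) ≤ 2 ^ (m + k) := one_le_pow₀ (by norm_num)
      have h5 : |v / 2 ^ k| ≤ |v / 2 ^ k * 2 ^ (m + k)| := by
        rw [abs_mul]
        have h6 : (1 : ℤ) ≤ |(2 : ℤ) ^ (m + k)| := by rw [abs_of_pos (by linarith)]; exact h4
        exact le_mul_of_one_le_right (abs_nonneg _) h6
      have h7 : |v / 2 ^ k * 2 ^ (m + k)| ≤ T := by
        rw [abs_le]
        constructor
        · linarith [h2.1, h2.2, h3.1, h3.2]
        · linarith [h2.1, h2.2, h3.1, h3.2]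
      rw [Finset.mem_Icc, ← abs_le]
      exact h5.trans h7
    have hmem : (m + k, a / 2 ^ k, b / 2 ^ k) ∈ BTs R J c K α β γ s ε th T w := by
      unfold BTs
      rw [Finset.mem_filter, Finset.mem_product, Finset.mem_product, Finset.mem_range]
      exact ⟨⟨by omega, hidx x a (hTx x hx) hx1, hidx y b (hTy y hy) hy1⟩, hk, hav⟩
    refine le_trans ?_ (Finset.single_le_sum (f := fun B => H B x y) (fun B _ => hH0 B x y) hmem)
    have h2 := abs_le.1 hx1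
    have h3 := abs_le.1 hy1
    rw [hH]
    simp only
    rw [if_pos]
    · rw [hG]; simp only
      rw [if_pos hnode]
    · rw [Finset.mem_Icc, Finset.mem_Icc]
      exact ⟨⟨by linarith [h2.1], by linarith [h2.2]⟩, by linarith [h3.1], by linarith [h3.2]⟩
  refine (Finset.sum_le_sum fun x hx => Finset.sum_le_sum fun y hy => h1 x hx y hy).trans ?_
  have h2 : ∑ x ∈ Xf, ∑ y ∈ Yf, ∑ B ∈ BTs R J c K α β γ s ε th T w, H B x y =
      ∑ B ∈ BTs R J c K α β γ s ε th T w, ∑ x ∈ Xf, ∑ y ∈ Yf, H B x y := by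
    calc ∑ x ∈ Xf, ∑ y ∈ Yf, ∑ B ∈ BTs R J c K α β γ s ε th T w, H B x y
        = ∑ x ∈ Xf, ∑ B ∈ BTs R J c K α β γ s ε th T w, ∑ y ∈ Yf, H B x y :=
          Finset.sum_congr rfl fun x _ => Finset.sum_comm
      _ = _ := Finset.sum_comm
  rw [h2, Finset.mul_sum]
  refine Finset.sum_le_sum fun B hB => ?_
  unfold BTs at hB
  rw [Finset.mem_filter, Finset.mem_product, Finset.mem_range] at hB
  have h3 := inner hX hth hC (min (B.1 + 8) J.1) B.1 (by omega) (by omega) w B.2.1 B.2.2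
  refine le_trans ?_ h3
  rw [← Finset.sum_product', ← Finset.sum_product']
  have h4 : ∑ z ∈ Xf ×ˢ Yf, H B z.1 z.2 = ∑ z ∈ (Xf ×ˢ Yf).filter (fun z =>
      z.1 ∈ Icc (B.2.1 * 2 ^ B.1 - 256 * 2 ^ B.1) (B.2.1 * 2 ^ B.1 + 256 * 2 ^ B.1) ∧
      z.2 ∈ Icc (B.2.2 * 2 ^ B.1 - 256 * 2 ^ B.1) (B.2.2 * 2 ^ B.1 + 256 * 2 ^ B.1)),
        G B z.1 z.2 := by
    rw [Finset.sum_filter]
  rw [h4]
  refine Finset.sum_le_sum_of_subset_of_nonneg ?_ fun z _ _ => hG0 _ _ _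
  intro z hz
  rw [Finset.mem_filter] at hz
  rw [Finset.mem_product]
  exact hz.2

end mx

/-- **[KD] ENERGY OF THE REST**, logarithmic in the cap of the weight. -/
theorem rest_energy_logV : ∃ C0 : ℝ, 0 ≤ C0 ∧ ∀ (V R : Finset Nd) (J : Nd), Full V J → Full R J →
    ∀ (c : ℤ → ℤ → ℂ) (K : Fn) (α β γ : ℤ), Cof α β γ → ∀ (s ε D : ℝ), 0 < ε → 0 ≤ D →
    ExD R c K α β γ s D → ∀ (th : ℤ → ℝ) (Ht : ℝ) (z0 : ℤ) (n : ℕ), (∀ z, 0 ≤ th z) → 1 ≤ Ht →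
    (∀ z, th z ≤ Ht) → (∀ z, th z ≠ 0 → z0 ≤ z ∧ z < z0 + n) →
    ∀ (X : Fn) (A : ℝ), (∀ p ∈ V, av p X ≤ A) → ∀ (w0 : ℤ) (N : ℕ) (Xf Yf : Finset ℤ),
    letI := Classical.dec
    ∑ w ∈ Ico w0 (w0 + N), ∑ x ∈ Xf, ∑ y ∈ Yf, (if RsPV V R J c K α β γ s ε w x y then
      th (-w - x - y) * ‖X (α * w + β * x + γ * y)‖ ^ 2 else 0) ≤
    C0 * A ^ 2 * (D / ε) * (1 + Real.log Ht) * ((N + 2 ^ J.1) * 2 ^ J.1 *
      (∑ z ∈ Ico z0 (z0 + n), th z + n + 2 ^ J.1)) := by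
  classical
  obtain ⟨Cm, hCm, hmax⟩ := Crest.Agent.R079.MaxLx533.exists_max_log
  refine ⟨(3073 * 2 ^ 15) * ((2 * 512 + 7) * 162) * (2 * (2 * 2 ^ 7)) * (1031 * Cm), by positivity, ?_⟩
  intro V R J hV hR c K α β γ hC s ε D hε hD0 hD th Ht z0 n hth hHt hthH hsupp X A hX w0 N Xf Yf
  -- a common bound for the indices
  obtain ⟨T, hTx, hTy⟩ : ∃ T : ℤ, (∀ x ∈ Xf, |x| + 256 * 2 ^ J.1 ≤ T) ∧
      ∀ y ∈ Yf, |y| + 256 * 2 ^ J.1 ≤ T := by
    refine ⟨∑ x ∈ Xf, |x| + ∑ y ∈ Yf, |y| + 256 * 2 ^ J.1, fun x hx => ?_, fun y hy => ?_⟩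
    · have h1 := Finset.single_le_sum (f := fun x : ℤ => |x|) (fun _ _ => abs_nonneg _) hx
      have h2 : 0 ≤ ∑ y ∈ Yf, |y| := Finset.sum_nonneg fun _ _ => abs_nonneg _
      linarith
    · have h1 := Finset.single_le_sum (f := fun x : ℤ => |x|) (fun _ _ => abs_nonneg _) hy
      have h2 : 0 ≤ ∑ x ∈ Xf, |x| := Finset.sum_nonneg fun _ _ => abs_nonneg _
      linarith
  -- the majorant
  set JJ : ℤ := 2 ^ J.1 with hJJ
  have hJJ0 : 0 < JJ := by rw [hJJ]; positivity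
  obtain ⟨g, hg0, hg1, hg2⟩ := hmax th Ht hth hHt hthH (Ico z0 (z0 + n)) (by
    intro x hx
    by_contra hne
    exact hx (Finset.mem_Ico.2 (hsupp x hne)))
  set Sg : Finset ℤ := Ico (z0 - 515 * JJ) (z0 + n + 515 * JJ) with hSg
  have hsg : ∑ x ∈ Sg, g x ≤ Cm * (1 + Real.log Ht) * (Sg.card + ∑ z ∈ Ico z0 (z0 + n), th z) :=
    hg2 Sg
  have hSgc : (Sg.card : ℝ) ≤ n + 1030 * 2 ^ J.1 := by
    rw [hSg, Int.card_Ico]
    rw [show z0 + n + 515 * JJ - (z0 - 515 * JJ) = ((n + 1030 * 2 ^ J.1 : ℕ) : ℤ) by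
      push_cast; rw [hJJ]; ring, Int.toNat_natCast]
    push_cast
    exact le_rfl
  -- the fixed `w` bounds
  set BT : ℤ → Finset (ℕ × ℤ × ℤ) := fun w => BTs R J c K α β γ s ε th T w with hBT
  have step1 : ∑ w ∈ Ico w0 (w0 + N), ∑ x ∈ Xf, ∑ y ∈ Yf,
      (if RsPV V R J c K α β γ s ε w x y then
        th (-w - x - y) * ‖X (α * w + β * x + γ * y)‖ ^ 2 else 0) ≤
      (3073 * 2 ^ 15 * A ^ 2) * ∑ w ∈ Ico w0 (w0 + N), ∑ B ∈ BT w,
        (4 : ℝ) ^ B.1 * avT th 0 512 B w := by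
    rw [Finset.mul_sum]
    exact Finset.sum_le_sum fun w _ => one_wV hV hC hX hth Xf Yf T hTx hTy w
  -- the used cubes
  set LT : ℤ → (ℕ × ℤ × ℤ) → Finset (ℕ × ℤ × ℤ) := fun w B => LTs R J c K α β γ s w B with hLT
  set U : Finset (ℕ × ℤ × ℤ × ℤ) := (Ico w0 (w0 + N)).biUnion fun w => (BT w).biUnion fun B =>
    (LT w B).image fun L => (L.1, w / 2 ^ L.1, L.2.1, L.2.2) with hU
  have memBT : ∀ w, ∀ B ∈ BT w, B.1 ≤ J.1 ∧ MxB R J c K α β γ s ε w B ∧ avT th 0 512 B w ≠ 0 := by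
    intro w B hB
    rw [hBT] at hB
    simp only at hB
    unfold BTs at hB
    rw [Finset.mem_filter, Finset.mem_product, Finset.mem_range] at hB
    exact ⟨by omega, hB.2.1, hB.2.2⟩
  have step2 : ∑ w ∈ Ico w0 (w0 + N), ∑ B ∈ BT w, (4 : ℝ) ^ B.1 * avT th 0 512 B w ≤
      (2 * 512 + 7) * ((162 * D) / ε) * ∑ u ∈ U, cubeS g 0 u := by
    have h := bad_tiles hth hg1 U (ExT R J c K α β γ s) (ρ := 162 * D) (cc := ε) (by positivity) hε
      (fun u _ => card_ExT hR hC hD hD0 u.1 u.2.1 u.2.2.1 u.2.2.2) (Ico w0 (w0 + N)) BT LT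
      (by
        intro w hw B hB L hL
        obtain ⟨h1, h2, h3, h4⟩ := mem_LTs hL
        refine ⟨h1, h2, h3, ?_, h4⟩
        rw [hU, Finset.mem_biUnion]
        refine ⟨w, hw, ?_⟩
        rw [Finset.mem_biUnion]
        refine ⟨B, hB, ?_⟩
        rw [Finset.mem_image]
        exact ⟨L, hL, rfl⟩)
      (by
        intro w hw B hB B' hB' hne
        rw [Finset.disjoint_left]
        intro L hL hL'
        apply hne
        obtain ⟨h1, h2, h3, -⟩ := mem_LTs hL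
        obtain ⟨h1', h2', h3', -⟩ := mem_LTs hL'
        rcases le_total B.1 B'.1 with hle | hle
        · exact mx_eq (memBT w B hB).2.1 (memBT w B' hB').2.1 hle h1 h2 h3 h2' h3'
        · exact (mx_eq (memBT w B' hB').2.1 (memBT w B hB).2.1 hle h1' h2' h3' h2 h3).symm)
      (by
        intro w hw B hB
        exact LTs_area (memBT w B hB).2.1.1) 0 512
    exact_mod_cast h
  -- the cubes
  have step3 : ∑ u ∈ U, cubeS g 0 u ≤ (Ico (w0 - JJ) (w0 + N + JJ)).card * (∑ x ∈ Sg, g x) *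
      ∑ p ∈ Lfs R J, ((enl p).card : ℝ) := by
    refine sum_cubes (α := α) (β := β) (γ := γ) hg0 hC.βγ U (Lfs R J) _ Sg ?_
    intro u hu
    rw [hU, Finset.mem_biUnion] at hu
    obtain ⟨w, hw, hu⟩ := hu
    rw [Finset.mem_biUnion] at hu
    obtain ⟨B, hB, hu⟩ := hu
    rw [Finset.mem_image] at hu
    obtain ⟨L, hL, rfl⟩ := hu
    obtain ⟨hBJ, hMx, hav⟩ := memBT w B hB
    rw [Finset.mem_Ico] at hw
    exact cube_pt hR hC hsupp hw hBJ hav hL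
  have hW : ((Ico (w0 - JJ) (w0 + N + JJ)).card : ℝ) ≤ 2 * (N + 2 ^ J.1) := by
    rw [Int.card_Ico]
    rw [show w0 + N + JJ - (w0 - JJ) = ((N + 2 * 2 ^ J.1 : ℕ) : ℤ) by
      push_cast; rw [hJJ]; ring, Int.toNat_natCast]
    push_cast
    have : (0 : ℝ) ≤ N := by positivity
    linarith
  have hP : ∑ p ∈ Lfs R J, ((enl p).card : ℝ) ≤ 2 * 2 ^ 7 * 2 ^ J.1 := by
    refine (Finset.sum_le_sum fun p _ => card_enl p).trans ?_
    rw [← Finset.mul_sum]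
    have := sum_leaves hR
    rw [pow_add] at this
    linarith
  set Θ : ℝ := ∑ z ∈ Ico z0 (z0 + (n : ℤ)), th z with hΘ
  have hΘ0 : 0 ≤ Θ := Finset.sum_nonneg fun _ _ => hth _
  have hH13 : 0 ≤ 1 + Real.log Ht := by
    have := Real.log_nonneg hHt
    linarith
  have hsg' : ∑ x ∈ Sg, g x ≤ (1031 * Cm) * ((1 + Real.log Ht) * (Θ + n + 2 ^ J.1)) := by
    refine hsg.trans ?_
    have h1 : (Sg.card : ℝ) + Θ ≤ 1031 * (Θ + n + 2 ^ J.1) := by
      have hn : (0 : ℝ) ≤ n := by positivity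
      have hj : (0 : ℝ) ≤ 2 ^ J.1 := by positivity
      linarith
    calc Cm * (1 + Real.log Ht) * (Sg.card + Θ)
        ≤ Cm * (1 + Real.log Ht) * (1031 * (Θ + n + 2 ^ J.1)) :=
          mul_le_mul_of_nonneg_left h1 (mul_nonneg hCm hH13)
      _ = _ := by ring
  have hsg0 : 0 ≤ ∑ x ∈ Sg, g x := Finset.sum_nonneg fun _ _ => hg0 _
  have step4 : ∑ u ∈ U, cubeS g 0 u ≤ (2 * (N + 2 ^ J.1)) *
      ((1031 * Cm) * ((1 + Real.log Ht) * (Θ + n + 2 ^ J.1))) * (2 * 2 ^ 7 * 2 ^ J.1) := by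
    refine step3.trans ?_
    refine mul_le_mul ?_ hP (Finset.sum_nonneg fun _ _ => by positivity) (by positivity)
    exact mul_le_mul hW hsg' hsg0 (by positivity)
  have hA2 : 0 ≤ 3073 * 2 ^ 15 * A ^ 2 := by positivity
  have hDe : 0 ≤ (2 * 512 + 7) * ((162 * D) / ε) := by positivity
  refine step1.trans ?_
  refine (mul_le_mul_of_nonneg_left (step2.trans (mul_le_mul_of_nonneg_left step4 hDe)) hA2).trans ?_
  refine le_of_eq ?_
  field_simp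

open Classical in
/-- rest energy in face coordinates with an arbitrary position set, classical indicator -/
theorem rest_face_logV : ∃ C0 : ℝ, 0 ≤ C0 ∧ ∀ (V R : Finset Nd) (J : Nd), Full V J → Full R J →
    ∀ (c : ℤ → ℤ → ℂ) (K : Fn) (α β γ : ℤ), Cof α β γ → ∀ (s ε D : ℝ), 0 < ε → 0 ≤ D →
    ExD R c K α β γ s D → ∀ (th : ℤ → ℝ) (Ht : ℝ) (t1 : ℤ) (n : ℕ), (∀ z, 0 ≤ th z) → 1 ≤ Ht →
    (∀ z, th z ≤ Ht) → (∀ z, th z ≠ 0 → t1 ≤ z ∧ z < t1 + n) →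
    ∀ (X : Fn) (A : ℝ), (∀ p ∈ V, av p X ≤ A) → ∀ (w0 : ℤ) (N : ℕ) (W1 : Finset ℤ),
    W1 ⊆ Ico w0 (w0 + N) → ∀ (Xf Yf : Finset ℤ),
    ∑ w ∈ W1, ∑ x ∈ Xf, ∑ y ∈ Yf, (if RsPV V R J c K α β γ s ε w x y then
      th (-w - x - y) * ‖X (α * w + β * x + γ * y)‖ ^ 2 else 0) ≤
    C0 * A ^ 2 * (D / ε) * (1 + Real.log Ht) * ((N + 2 ^ J.1) * 2 ^ J.1 *
      (∑ z ∈ Ico t1 (t1 + n), th z + n + 2 ^ J.1)) := by
  obtain ⟨C0, hC0, h⟩ := rest_energy_logV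
  refine ⟨C0, hC0, ?_⟩
  intro V R J hV hR c K α β γ hC s ε D hε hD0 hD th Ht t1 n hth hHt hthH hsupp X A hX w0 N W1 hW Xf Yf
  refine le_trans ?_ (h V R J hV hR c K α β γ hC s ε D hε hD0 hD th Ht t1 n hth hHt hthH hsupp X A hX w0 N
    Xf Yf)
  refine (Finset.sum_le_sum_of_subset_of_nonneg hW fun w _ _ =>
    Finset.sum_nonneg fun x _ => Finset.sum_nonneg fun y _ => ?_).trans (le_of_eq ?_)
  · split_ifs
    · exact mul_nonneg (hth _) (sq_nonneg _)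
    · exact le_rfl
  · rfl

open Classical in
/-- **(iii) ENERGIES OF THE MASKED LINE LETTERS ON THE REST.** -/
theorem rest_AB_logV : ∃ C0 : ℝ, 0 ≤ C0 ∧ ∀ (k k0 k1 k2 : Fin 4), D4 k k0 k1 k2 →
    ∀ (V R : Finset Nd) (J : Nd), Full V J → Full R J →
    ∀ (c : ℤ → ℤ → ℂ) (K : Fn) (s ε D : ℝ), 0 < ε → 0 ≤ D →
    ExD R c K (sl k - sl k1) (sl k2 - sl k1) (sl k0 - sl k1) s D →
    ∀ (th : ℤ → ℝ) (Ht Hf : ℝ) (t1 : ℤ) (n : ℕ), (∀ z, 0 ≤ th z) → 1 ≤ Ht → 0 ≤ Hf →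
    (∀ z, th z ≤ Ht) → (∀ z, th z ≠ 0 → t1 ≤ z ∧ z < t1 + n) →
    ∀ (F : Fin 4 → Fn) (w0 : ℤ) (N : ℕ) (W1 : Finset ℤ), W1 ⊆ Ico w0 (w0 + N) →
    (∀ (T0 T1 : Finset ℤ) (a : ℤ → ℤ → ℂ) (A : ℝ), (∀ z0 z1, ‖a z0 z1‖ ^ 2 ≤ Hf * th z1) →
      (∀ p ∈ V, av p (F k2) ≤ A) → ∀ (Xf Yf : Finset ℤ),
      ∑ w ∈ W1, ∑ z0 ∈ Xf, ∑ z1 ∈ Yf,
        (if RsPV V R J c K (sl k - sl k1) (sl k2 - sl k1) (sl k0 - sl k1) s ε w (-w - z0 - z1) z0 then
          ‖kA k k0 k1 k2 T0 T1 a F w z0 z1‖ ^ 2 else 0) ≤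
      Hf * (C0 * A ^ 2 * (D / ε) * (1 + Real.log Ht) * ((N + 2 ^ J.1) * 2 ^ J.1 *
        (∑ z ∈ Ico t1 (t1 + n), th z + n + 2 ^ J.1)))) ∧
    (∀ (T1 T2 : Finset ℤ) (b : ℤ → ℤ → ℂ) (A : ℝ), (∀ z1 z2, ‖b z1 z2‖ ^ 2 ≤ Hf * th z1) →
      (∀ p ∈ V, av p (F k0) ≤ A) → ∀ (Xf Yf : Finset ℤ),
      ∑ w ∈ W1, ∑ z1 ∈ Xf, ∑ z2 ∈ Yf,
        (if RsPV V R J c K (sl k - sl k1) (sl k2 - sl k1) (sl k0 - sl k1) s ε w z2 (-w - z1 - z2) then
          ‖kB k k0 k1 k2 T1 T2 b F w z1 z2‖ ^ 2 else 0) ≤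
      Hf * (C0 * A ^ 2 * (D / ε) * (1 + Real.log Ht) * ((N + 2 ^ J.1) * 2 ^ J.1 *
        (∑ z ∈ Ico t1 (t1 + n), th z + n + 2 ^ J.1)))) := by
  obtain ⟨C0, hC0, h⟩ := rest_face_logV
  refine ⟨C0, hC0, ?_⟩
  intro k k0 k1 k2 hk V R J hV hR c K s ε D hε hD0 hD th Ht Hf t1 n hth hHt hHf hthH hsupp F w0 N W1 hW
  have hC := hk.cof
  set α := sl k - sl k1 with hα
  set β := sl k2 - sl k1 with hβ
  set γ := sl k0 - sl k1 with hγ
  constructor
  · intro T0 T1 a A ha hA Xf Yf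
    set G : ℤ → ℤ → ℤ → ℝ := fun w x y => if RsPV V R J c K α β γ s ε w x y then
      th (-w - x - y) * ‖F k2 (α * w + β * x + γ * y)‖ ^ 2 else 0 with hG
    have hG0 : ∀ w x y, 0 ≤ G w x y := by
      intro w x y
      rw [hG]; simp only
      split_ifs
      · exact mul_nonneg (hth _) (sq_nonneg _)
      · exact le_rfl
    set P : Finset ℤ := ((W1 ×ˢ Xf) ×ˢ Yf).image (fun t => -t.1.1 - t.1.2 - t.2) with hP
    have h1 : ∀ w ∈ W1, ∀ z0 ∈ Xf, ∀ z1 ∈ Yf,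
        (if RsPV V R J c K α β γ s ε w (-w - z0 - z1) z0 then
          ‖kA k k0 k1 k2 T0 T1 a F w z0 z1‖ ^ 2 else 0) ≤ Hf * G w (-w - z0 - z1) z0 := by
      intro w _ z0 _ z1 _
      rw [hG]; simp only
      split_ifs with hr
      swap
      · rw [mul_zero]
      rw [show -w - (-w - z0 - z1) - z0 = z1 by ring]
      have e : sha k k1 k2 k0 w (-w - z0 - z1) z0 = α * w + β * (-w - z0 - z1) + γ * z0 := rfl
      rw [← e, ← KLrx138.sha_zero]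
      unfold kA fr4
      split_ifs
      · rw [norm_mul, mul_pow, ← mul_assoc]
        exact mul_le_mul_of_nonneg_right (ha z0 z1) (sq_nonneg _)
      · rw [norm_zero, zero_pow (by norm_num)]
        exact mul_nonneg hHf (mul_nonneg (hth _) (sq_nonneg _))
    have h2 : ∀ w ∈ W1, ∀ z0 ∈ Xf, ∑ z1 ∈ Yf, Hf * G w (-w - z0 - z1) z0 ≤
        Hf * ∑ x ∈ P, G w x z0 := by
      intro w hw z0 hz0
      rw [← Finset.mul_sum]
      refine mul_le_mul_of_nonneg_left ?_ hHf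
      have hinj : Set.InjOn (fun z1 : ℤ => -w - z0 - z1) (Yf : Set ℤ) := by
        intro z _ z' _ hz
        have : -w - z0 - z = -w - z0 - z' := hz
        linarith
      rw [← Finset.sum_image (f := fun x => G w x z0) hinj]
      refine Finset.sum_le_sum_of_subset_of_nonneg ?_ fun _ _ _ => hG0 _ _ _
      intro x hx
      rw [Finset.mem_image] at hx
      obtain ⟨z1, hz1, rfl⟩ := hx
      rw [hP, Finset.mem_image]
      exact ⟨((w, z0), z1), Finset.mem_product.2 ⟨Finset.mem_product.2 ⟨hw, hz0⟩, hz1⟩, rfl⟩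
    refine (Finset.sum_le_sum fun w hw => Finset.sum_le_sum fun z0 hz0 =>
      (Finset.sum_le_sum fun z1 hz1 => h1 w hw z0 hz0 z1 hz1).trans (h2 w hw z0 hz0)).trans ?_
    have h3 := h V R J hV hR c K α β γ hC s ε D hε hD0 hD th Ht t1 n hth hHt hthH hsupp (F k2) A hA w0 N W1 hW
      P Xf
    refine le_trans (le_of_eq ?_) (mul_le_mul_of_nonneg_left h3 hHf)
    rw [Finset.mul_sum]
    refine Finset.sum_congr rfl fun w _ => ?_
    rw [← Finset.mul_sum, Finset.sum_comm]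
  · intro T1 T2 b A hb hA Xf Yf
    set G : ℤ → ℤ → ℤ → ℝ := fun w x y => if RsPV V R J c K α β γ s ε w x y then
      th (-w - x - y) * ‖F k0 (α * w + β * x + γ * y)‖ ^ 2 else 0 with hG
    have hG0 : ∀ w x y, 0 ≤ G w x y := by
      intro w x y
      rw [hG]; simp only
      split_ifs
      · exact mul_nonneg (hth _) (sq_nonneg _)
      · exact le_rfl
    set P : Finset ℤ := ((W1 ×ˢ Xf) ×ˢ Yf).image (fun t => -t.1.1 - t.1.2 - t.2) with hP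
    have h1 : ∀ w ∈ W1, ∀ z1 ∈ Xf, ∀ z2 ∈ Yf,
        (if RsPV V R J c K α β γ s ε w z2 (-w - z1 - z2) then
          ‖kB k k0 k1 k2 T1 T2 b F w z1 z2‖ ^ 2 else 0) ≤ Hf * G w z2 (-w - z1 - z2) := by
      intro w _ z1 _ z2 _
      rw [hG]; simp only
      split_ifs with hr
      swap
      · rw [mul_zero]
      rw [show -w - z2 - (-w - z1 - z2) = z1 by ring]
      have e : sha k k1 k2 k0 w z2 (-w - z1 - z2) = α * w + β * z2 + γ * (-w - z1 - z2) := rfl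
      rw [← e, ← KLrx138.sha_zero']
      unfold kB fr4
      split_ifs
      · rw [norm_mul, mul_pow, ← mul_assoc]
        exact mul_le_mul_of_nonneg_right (hb z1 z2) (sq_nonneg _)
      · rw [norm_zero, zero_pow (by norm_num)]
        exact mul_nonneg hHf (mul_nonneg (hth _) (sq_nonneg _))
    have h2 : ∀ w ∈ W1, ∀ z2 ∈ Yf, ∑ z1 ∈ Xf, Hf * G w z2 (-w - z1 - z2) ≤
        Hf * ∑ y ∈ P, G w z2 y := by
      intro w hw z2 hz2
      rw [← Finset.mul_sum]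
      refine mul_le_mul_of_nonneg_left ?_ hHf
      have hinj : Set.InjOn (fun z1 : ℤ => -w - z1 - z2) (Xf : Set ℤ) := by
        intro z _ z' _ hz
        have : -w - z - z2 = -w - z' - z2 := hz
        linarith
      rw [← Finset.sum_image (f := fun y => G w z2 y) hinj]
      refine Finset.sum_le_sum_of_subset_of_nonneg ?_ fun _ _ _ => hG0 _ _ _
      intro x hx
      rw [Finset.mem_image] at hx
      obtain ⟨z1, hz1, rfl⟩ := hx
      rw [hP, Finset.mem_image]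
      exact ⟨((w, z1), z2), Finset.mem_product.2 ⟨Finset.mem_product.2 ⟨hw, hz1⟩, hz2⟩, rfl⟩
    have h4 : ∀ w ∈ W1, ∑ z1 ∈ Xf, ∑ z2 ∈ Yf,
        (if RsPV V R J c K α β γ s ε w z2 (-w - z1 - z2) then
          ‖kB k k0 k1 k2 T1 T2 b F w z1 z2‖ ^ 2 else 0) ≤ Hf * ∑ z2 ∈ Yf, ∑ y ∈ P, G w z2 y := by
      intro w hw
      rw [Finset.sum_comm, Finset.mul_sum]
      exact Finset.sum_le_sum fun z2 hz2 =>
        (Finset.sum_le_sum fun z1 hz1 => h1 w hw z1 hz1 z2 hz2).trans (h2 w hw z2 hz2)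
    refine (Finset.sum_le_sum h4).trans ?_
    rw [← Finset.mul_sum]
    exact mul_le_mul_of_nonneg_left (h V R J hV hR c K α β γ hC s ε D hε hD0 hD th Ht t1 n hth hHt hthH
      hsupp (F k0) A hA w0 N W1 hW Yf P) hHf

section boxes

variable {k k0 k1 k2 : Fin 4} {R V : Finset Nd} {J : Nd} {w : ℤ} {m : ℕ} {p0 p1 p2 : ℤ}
variable {c : ℤ → ℤ → ℂ} {K : Fn} {α β γ : ℤ} {s ε : ℝ}

/-- alive (rest) -/
lemma al4_restV {X0 X1 Y0 Y1 : ℤ} {M : ℕ} (hm : m ≤ M) (hg : Gd k k0 k1 k2 V m w p0 p1 p2)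
    (hmt : Mt X0 X1 Y0 Y1 m p2 p0)
    (h : ¬ GoodB R J c K (sl k - sl k1) (sl k2 - sl k1) (sl k0 - sl k1) s ε w m p0 p2) :
    Al4Z (AlR V (sl k - sl k1) (sl k2 - sl k1) (sl k0 - sl k1) w (X0 - 2 ^ (M + 1)) (X1 + 2 ^ (M + 1))
      (Y0 - 2 ^ (M + 1)) (Y1 + 2 ^ (M + 1))
      (Pw R J c K (sl k - sl k1) (sl k2 - sl k1) (sl k0 - sl k1) s ε w)) m p2 p0 :=
  fun _ _ ha hb => ⟨⟨gd_om hg ha hb, mt_dm2 hm hmt ha hb⟩, rest_half h ha hb⟩

/-- in the rest, every point of the edge `(z0, z1)` is in the static set -/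
lemma rest_AV (hg : Gd k k0 k1 k2 V m w p0 p1 p2) (hw : Wn m w p0 p1 p2)
    (h : ¬ GoodB R J c K (sl k - sl k1) (sl k2 - sl k1) (sl k0 - sl k1) s ε w m p0 p2) {z0 z1 : ℤ}
    (h0 : z0 ∈ Ico p0 (p0 + 2 ^ (m + 1))) (h1 : z1 ∈ Ico p1 (p1 + 2 ^ (m + 1))) :
    RsPV V R J c K (sl k - sl k1) (sl k2 - sl k1) (sl k0 - sl k1) s ε w (-w - z0 - z1) z0 := by
  rw [Finset.mem_Ico] at h0 h1
  refine ⟨m, ?_, ?_⟩
  · rw [sha_A]
    have := (hg (z0 - p0) (z1 - p1) 0 (by linarith) (by linarith) (by linarith) (by linarith) le_rfl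
      (by positivity)).1
    convert this using 2 <;> ring
  · have hm0 : (0 : ℤ) < 2 ^ m := by positivity
    have e : (2 : ℤ) ^ (m + 1) = 2 * 2 ^ m := by rw [pow_succ]; ring
    have h3 := rest_half h (a := 0) (b := 0) (by norm_num) (by norm_num)
    unfold Wn at hw
    rw [abs_le] at hw
    have := (lp_pw R J c K (sl k - sl k1) (sl k2 - sl k1) (sl k0 - sl k1) s ε w).lip _ _
      (-w - z0 - z1) z0 _ (12 * 2 ^ m) (by
        rw [abs_le]
        push_cast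
        constructor <;> linarith) (by
        rw [abs_le]
        push_cast
        constructor <;> linarith) h3
    refine (lp_pw R J c K _ _ _ s ε w).anti _ _ _ _ ?_ this
    linarith

/-- in the rest, every point of the edge `(z1, z2)` is in the static set -/
lemma rest_BV (hg : Gd k k0 k1 k2 V m w p0 p1 p2) (hw : Wn m w p0 p1 p2)
    (h : ¬ GoodB R J c K (sl k - sl k1) (sl k2 - sl k1) (sl k0 - sl k1) s ε w m p0 p2) {z1 z2 : ℤ}
    (h1 : z1 ∈ Ico p1 (p1 + 2 ^ (m + 1))) (h2 : z2 ∈ Ico p2 (p2 + 2 ^ (m + 1))) :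
    RsPV V R J c K (sl k - sl k1) (sl k2 - sl k1) (sl k0 - sl k1) s ε w z2 (-w - z1 - z2) := by
  rw [Finset.mem_Ico] at h2 h1
  refine ⟨m, ?_, ?_⟩
  · rw [sha_B]
    have := (hg 0 (z1 - p1) (z2 - p2) le_rfl (by positivity) (by linarith) (by linarith)
      (by linarith) (by linarith)).2.1
    convert this using 2 <;> ring
  · have hm0 : (0 : ℤ) < 2 ^ m := by positivity
    have e : (2 : ℤ) ^ (m + 1) = 2 * 2 ^ m := by rw [pow_succ]; ring
    have h3 := rest_half h (a := 0) (b := 0) (by norm_num) (by norm_num)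
    unfold Wn at hw
    rw [abs_le] at hw
    have := (lp_pw R J c K (sl k - sl k1) (sl k2 - sl k1) (sl k0 - sl k1) s ε w).lip _ _
      z2 (-w - z1 - z2) _ (12 * 2 ^ m) (by
        rw [abs_le]
        push_cast
        constructor <;> linarith) (by
        rw [abs_le]
        push_cast
        constructor <;> linarith) h3
    refine (lp_pw R J c K _ _ _ s ε w).anti _ _ _ _ ?_ this
    linarith

end boxes

open Classical in
/-- **REST WORDS** (arbitrary families of partners, masked energies) -/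
theorem rest_wordsV : ∃ KK : ℝ, 0 ≤ KK ∧ ∀ (l : ℤ), |l| ≤ 7 → ∀ (k k0 k1 k2 : Fin 4), D4 k k0 k1 k2 →
    ∀ (V R : Finset Nd) (J : Nd), Full V J → ∀ (c : ℤ → ℤ → ℂ) (K : Fn) (X0 X1 Y0 Y1 : ℤ),
    (∀ x y, ‖c x y‖ ≤ 1) → (∀ x y, c x y ≠ 0 → X0 ≤ x ∧ x < X1 ∧ Y0 ≤ y ∧ y < Y1) →
    ∀ (s ε τ : ℝ), 0 < τ →
    (∀ w m q u, Om V (sl k - sl k1) (sl k2 - sl k1) (sl k0 - sl k1) w m q u →
      OpB (kw c K (sl k - sl k1) (sl k2 - sl k1) (sl k0 - sl k1) w) (Ico q (q + 2 ^ m))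
        (Ico u (u + 2 ^ m)) (τ * 2 ^ m)) →
    ∀ (HC : ℝ), (∀ y, ‖K y‖ ≤ HC) → ∀ (σ : Bool)
    (A B : ℤ → ℤ → ℤ → ℝ) (HA HB fa fb SA SB : ℝ) (W1 : Finset ℤ),
    (∀ w, FS (A w)) → (∀ w, FS (B w)) → 0 < fa → 0 < fb →
    (∀ w x y, |A w x y| ≤ HA) → (∀ w x y, |B w x y| ≤ HB) →
    (∀ w, w ∉ W1 → (∀ x y, A w x y = 0) ∨ (∀ x y, B w x y = 0)) →
    (∀ X Y : Finset ℤ, ∑ w ∈ W1, ∑ x ∈ X, ∑ y ∈ Y,
      (if RsPV V R J c K (sl k - sl k1) (sl k2 - sl k1) (sl k0 - sl k1) s ε w (-w - x - y) x then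
        A w x y ^ 2 else 0) ≤ SA) →
    (∀ X Y : Finset ℤ, ∑ w ∈ W1, ∑ x ∈ X, ∑ y ∈ Y,
      (if RsPV V R J c K (sl k - sl k1) (sl k2 - sl k1) (sl k0 - sl k1) s ε w y (-w - x - y) then
        B w x y ^ 2 else 0) ≤ SB) →
    ∀ (Wf : Finset ℤ) (L1 : ℕ), ∑ w ∈ Wf, Tw (fun m p0 p1 p2 => Gd k k0 k1 k2 V m w p0 p1 p2 ∧
      ¬ GoodB R J c K (sl k - sl k1) (sl k2 - sl k1) (sl k0 - sl k1) s ε w m p0 p2) (A w) (B w)
      (fun z z' => pr σ (kw c K (sl k - sl k1) (sl k2 - sl k1) (sl k0 - sl k1) w z z'))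
      (J.1 + 1) L1 l w ≤
      KK * (1 + Real.log (1 + HC ^ 2 *
        (((Ico (X0 - 2 ^ (J.1 + 1)) (X1 + 2 ^ (J.1 + 1))).card : ℝ) * len J) *
        (HA ^ 2 / fa + HB ^ 2 / fb) / τ ^ 2)) *
        (τ * √(SA + W1.card * fa) * √(SB + W1.card * fb)) := by
  obtain ⟨KK, hKK, hmain⟩ := sum_tw'
  refine ⟨KK, hKK, ?_⟩
  intro l hl k k0 k1 k2 h4 V R J hV c K X0 X1 Y0 Y1 hc1 hc0 s ε τ hτ hop HC hHC σ A B HA HB
    fa fb SA SB W1 sA sB hfa hfb hA hB h0 eA eB Wf L1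
  set α := sl k - sl k1 with hα
  set β := sl k2 - sl k1 with hβ
  set γ := sl k0 - sl k1 with hγ
  -- masked families
  set A' : ℤ → ℤ → ℤ → ℝ := fun w x y => if RsPV V R J c K α β γ s ε w (-w - x - y) x then A w x y else 0
    with hA'
  set B' : ℤ → ℤ → ℤ → ℝ := fun w x y => if RsPV V R J c K α β γ s ε w y (-w - x - y) then B w x y else 0
    with hB'
  have hHA : 0 ≤ HA := (abs_nonneg _).trans (hA 0 0 0)
  have hHB : 0 ≤ HB := (abs_nonneg _).trans (hB 0 0 0)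
  have hfs : ∀ {D D' : ℤ → ℤ → ℝ}, FS D → (∀ x y, D' x y ≠ 0 → D x y ≠ 0) → FS D' := by
    rintro D D' ⟨S, hS⟩ h
    exact ⟨S, fun x y hxy => hS x y (h x y hxy)⟩
  have hstep : ∀ w ∈ Wf, Tw (fun m p0 p1 p2 => Gd k k0 k1 k2 V m w p0 p1 p2 ∧
      ¬ GoodB R J c K α β γ s ε w m p0 p2) (A w) (B w)
      (fun z z' => pr σ (kw c K α β γ w z z')) (J.1 + 1) L1 l w ≤
      Tw (fun m p0 p1 p2 => Gd k k0 k1 k2 V m w p0 p1 p2 ∧
      ¬ GoodB R J c K α β γ s ε w m p0 p2) (A' w) (B' w)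
      (fun z z' => pr σ (kw c K α β γ w z z')) (J.1 + 1) L1 l w := by
    intro w _
    refine Tw_le hl fun m _ p0 p1 p2 hw hG _ => ⟨hG, ?_⟩
    refine Lb3r_congr fun z0 h0 z1 h1 z2 h2 => ?_
    have e1 : A' w z0 z1 = A w z0 z1 := by
      simp only [hA']
      rw [if_pos]
      exact rest_AV hG.1 hw hG.2 h0 h1
    have e2 : B' w z1 z2 = B w z1 z2 := by
      simp only [hB']
      rw [if_pos]
      exact rest_BV hG.1 hw hG.2 h1 h2
    rw [e1, e2]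
  refine (Finset.sum_le_sum hstep).trans ?_
  refine hmain l hl V J α β γ (X0 - 2 ^ (J.1 + 1))
    (X1 + 2 ^ (J.1 + 1)) (Y0 - 2 ^ (J.1 + 1)) (Y1 + 2 ^ (J.1 + 1))
    (fun w => AlR V α β γ w (X0 - 2 ^ (J.1 + 1))
      (X1 + 2 ^ (J.1 + 1)) (Y0 - 2 ^ (J.1 + 1)) (Y1 + 2 ^ (J.1 + 1))
      (Pw R J c K α β γ s ε w)) hV.reg h4.cof
    (fun w => alC_rest hV.reg h4.cof (lp_pw _ _ _ _ _ _ _ _ _ _)) A' B'
    (fun w z z' => pr σ (kw c K α β γ w z z'))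
    τ HA HB HC fa fb SA SB W1 (fun w => hfs (sA w) fun x y h => ?_)
    (fun w => hfs (sB w) fun x y h => ?_)
    (fun w => fs_of_box (fs_kw hc0 K _ _ _ σ w)) hτ hfa hfb (fun w x y => ?_) (fun w x y => ?_)
    (fun w x y => abs_kw_le hc1 hHC _ _ _ σ w x y) (fun w hw => ?_) (fun X Y => ?_) (fun X Y => ?_) ?_
    (fun w m p0 p1 p2 => Gd k k0 k1 k2 V m w p0 p1 p2 ∧
      ¬ GoodB R J c K α β γ s ε w m p0 p2) ?_ Wf L1
  · intro h'
    apply h
    simp only [hA', h', ite_self]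
  · intro h'
    apply h
    simp only [hB', h', ite_self]
  · simp only [hA']
    split_ifs
    · exact hA w x y
    · simpa using hHA
  · simp only [hB']
    split_ifs
    · exact hB w x y
    · simpa using hHB
  · rcases h0 w hw with h | h
    · left
      intro x y
      simp only [hA', h, ite_self]
    · right
      intro x y
      simp only [hB', h, ite_self]
  · refine le_trans (le_of_eq ?_) (eA X Y)
    refine Finset.sum_congr rfl fun w _ => Finset.sum_congr rfl fun x _ =>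
      Finset.sum_congr rfl fun y _ => ?_
    simp only [hA']
    split_ifs <;> simp
  · refine le_trans (le_of_eq ?_) (eB X Y)
    refine Finset.sum_congr rfl fun w _ => Finset.sum_congr rfl fun x _ =>
      Finset.sum_congr rfl fun y _ => ?_
    simp only [hB']
    split_ifs <;> simp
  · intro w m q p hal
    have := opZ_of_opB (N := 2 ^ m) (q := q) (p := p) (K := kw c K α β γ w) (c := τ * 2 ^ m) (by
        push_cast
        exact hop w m q p hal.1.1) σ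
    rw [mul_comm]
    exact this
  · rintro w m hm p0 p1 p2 ⟨hg, hbad⟩ hex
    exact al4_restV hm hg (mt_of_ex (fs_kw hc0 K _ _ _ σ w) hex) hbad

end Crest.Agent.R079.KLx446
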