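import Crest.Agent.R079.GaI_256
import Crest.Agent.R079.KLv_446

/-! R079, Step I, (G) words (helper446): REST WITH TWO REGIONS, `TA` form (copy of 256's `rest_gen`,
`restR` with 446's `rest_wordsV`, `rest_AB_logV`).  `V`, `R` full with the same top `J`; good boxes and
exceptional density relative to `(R, J)`; admissible boxes and averages relative to `V`. -/

set_option autoImplicit false

namespace Crest.Agent.R079.GaVx446

open Finset Crest.Agent.R079.Grid Crest.Agent.R079.Glue Crest.Agent.R079.Growth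
  Crest.Agent.R079.QRed Crest.Agent.R079.KLx446 Crest.Agent.R079.KLrx138
  Crest.Agent.R079.GaAx571 Crest.Agent.R079.GaBx571 Crest.Agent.R079.GaWx571
  Crest.Agent.R079.GaXx571 Crest.Agent.R079.GaFx371 Crest.Agent.R079.GlueK
open Crest.Agent.R079.B0Kx253 (cutJ w_range log_price en_lk sup_lk)
open Crest.Agent.R079.GaIx256 (cM GdE ExE kw_lk cutJ_eq gdE_cut av_cut norm_cut_le ta_words8 sq_pr_le
  band_w card_w card_x norm_cM box_cM agr_cut fin_rest lk_kA lk_kB f3j f3i f3e f3f f3g norm_lk2)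

open Classical in
/-- **THE REST, raw form**: killer edge `e`, weight `α` of the vertex `e + 2` -/
theorem rest_genV : ∃ K0 : ℝ, 0 ≤ K0 ∧ ∀ (bb : ℤ), bb = -1 ∨ bb = -7 → ∀ (j : Fin 4) (e : Fin 3)
    (V R : Finset Nd) (J : Nd), Full V J → Full R J → ∀ (n : ℕ), 2 ^ J.1 ≤ n →
    ∀ (Ht Hf : ℝ) (T : Fin 3 → Finset ℤ) (g : Fin 3 → ℤ → ℤ → ℂ) (α : ℤ → ℝ), 1 ≤ Ht → 0 ≤ Hf →
    (∀ e', ∃ t : ℤ, T e' ⊆ Ico t (t + n)) → (∀ z z', ‖g e z z'‖ ≤ 1) → (∀ z, 0 ≤ α z) →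
    (∀ z, α z ≤ Ht) → ∑ z ∈ T (e + 2), α z ≤ n →
    (∀ z z', ‖g (e + 1) z z'‖ ^ 2 ≤ Hf * α z') → (∀ z z', ‖g (e + 2) z z'‖ ^ 2 ≤ Hf * α z) →
    ∀ (F X Y : Fn) (s ε D Av HC HX HY AX AY d1 d2 : ℝ), 0 < ε → 0 ≤ D → 0 < Av →
    (∀ p ∈ V, av p F ≤ Av) → (∀ y ∈ iv J, ‖F y‖ ≤ HC) → ExE j e R T g F s D →
    (∀ y ∈ iv J, ‖X y‖ ≤ HX) → (∀ y ∈ iv J, ‖Y y‖ ≤ HY) → (∀ p ∈ V, av p X ≤ AX) →
    (∀ p ∈ V, av p Y ≤ AY) → 0 < d1 → 0 < d2 →
    ∀ (K : Fin 3 → Kl), (∀ w z z', K e w z z' = lk j T g e F w z z') →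
    (∀ w z z', K (e + 1) w z z' = lk j T g (e + 1) X w z z') →
    (∀ w z z', K (e + 2) w z z' = lk j T g (e + 2) Y w z z') → ∀ (L1 : ℕ),
    TA bb (cube L1) (J.1 + 1)
        (fun m p i => ¬ GdE j e R J T g F s ε bb m p i ∧ AdX V m (xv j bb m p)) K ≤
      K0 * (1 + Real.log (1 + HC ^ 2 * (Hf * Ht * HX ^ 2 / d1 + Hf * Ht * HY ^ 2 / d2) / Av ^ 2)) *
        Av * (√(Hf * AX ^ 2 * (D / ε) * (1 + Real.log Ht) + d1) *
          √(Hf * AY ^ 2 * (D / ε) * (1 + Real.log Ht) + d2)) * (n ^ 2 * len J) := by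
  obtain ⟨KK, hKK, hrest⟩ := rest_wordsV
  obtain ⟨C0, hC0, hAB⟩ := rest_AB_logV
  refine ⟨8 * (22480 * KK * (1 + 7 * C0)), by positivity, ?_⟩
  intro bb hbb j e V R J hV hR n hJn Ht Hf T g α hHt hHf hTI hg α0 αH α1 gA gB F X Y s ε D Av HC HX HY
    AX AY d1 d2 hε hD0 hAv hF hHC hEx hX hY aX aY hd1 hd2 K hKe hK1 hK2 L1
  have hn1 : 1 ≤ n := le_trans Nat.one_le_two_pow hJn
  have hn : (0 : ℝ) < n := by exact_mod_cast hn1
  have hl : 0 < len J := Growth.len_pos J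
  obtain ⟨w0, hw0⟩ := band_w (j := j) (e := e + 1) hJn hTI
  choose t ht using hTI
  have hG : 0 ≤ Hf * Ht := mul_nonneg hHf (by linarith)
  have hlog0 : 0 ≤ Real.log Ht := Real.log_nonneg hHt
  -- cut letters
  set F4 : Fin 4 → Fn := Function.update (fun _ => cutJ J Y) (j.succAbove e) (cutJ J X) with hF4
  have f4e : F4 (j.succAbove e) = cutJ J X := Function.update_self _ _ _
  have f4e1 : F4 (j.succAbove (e + 1)) = cutJ J Y :=
    Function.update_of_ne (fun h => B0Kx253.ne1 e (Fin.succAbove_right_injective h)) _ _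
  set K' : Fin 3 → Kl := fun i => if i = e then lk j T g e (cutJ J F) else
    if i = e + 1 then lk j T g (e + 1) (cutJ J X) else lk j T g (e + 2) (cutJ J Y) with hK'
  have k0 : K' e = lk j T g e (cutJ J F) := if_pos rfl
  have k1 : K' (e + 1) = lk j T g (e + 1) (cutJ J X) :=
    (if_neg (B0Kx253.ne1 e)).trans (if_pos rfl)
  have k2 : K' (e + 2) = lk j T g (e + 2) (cutJ J Y) :=
    (if_neg (B0Kx253.ne2 e)).trans (if_neg (f3j e))
  have hagr : AgrS j V K K' := by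
    intro q hq i w z z' hy
    rcases f3i e i with rfl | rfl | rfl
    · rw [k0, hKe]
      exact agr_cut hV hq hy
    · rw [k1, hK1]
      exact agr_cut hV hq hy
    · rw [k2, hK2]
      exact agr_cut hV hq hy
  rw [TA_agr hbb hagr (cube L1) (J.1 + 1) (fun n p v h => h.2)]
  -- gauges
  have gA' : ∀ z z', ‖g (e + 1) z z'‖ ^ 2 ≤ Hf * Ht := fun z z' =>
    (gA z z').trans (mul_le_mul_of_nonneg_left (αH z') hHf)
  have gB' : ∀ z z', ‖g (e + 2) z z'‖ ^ 2 ≤ Hf * Ht := fun z z' =>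
    (gB z z').trans (mul_le_mul_of_nonneg_left (αH z) hHf)
  set th : ℤ → ℝ := fun z => if z ∈ T (e + 2) then α z else 0 with hth
  have th0 : ∀ z, 0 ≤ th z := by
    intro z
    simp only [hth]
    split_ifs
    · exact α0 z
    · exact le_rfl
  have thH : ∀ z, th z ≤ Ht := by
    intro z
    simp only [hth]
    split_ifs
    · exact αH z
    · linarith
  have ths : ∀ z, th z ≠ 0 → t (e + 2) ≤ z ∧ z < t (e + 2) + n := by
    intro z hz
    simp only [hth] at hz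
    split_ifs at hz with h
    · exact Finset.mem_Ico.1 (ht _ h)
    · exact absurd rfl hz
  have thS : ∑ z ∈ Ico (t (e + 2)) (t (e + 2) + n), th z ≤ n := by
    simp only [hth]
    rw [← Finset.sum_filter]
    refine le_trans ?_ α1
    refine Finset.sum_le_sum_of_subset_of_nonneg (fun z hz => (Finset.mem_filter.1 hz).2)
      fun z _ _ => α0 z
  set W1 : Finset ℤ := Icc (w0 - 140 * (n : ℤ)) (w0 + 140 * n) with hW1
  have hWI : W1 ⊆ Ico (w0 - 140 * (n : ℤ)) (w0 - 140 * n + (281 * n : ℕ)) := by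
    intro w hw
    rw [hW1, Finset.mem_Icc] at hw
    rw [Finset.mem_Ico]
    have : (1 : ℤ) ≤ n := by exact_mod_cast hn1
    push_cast
    constructor <;> linarith [hw.1, hw.2]
  have hEx' : ExD R (cM T g e) (cutJ J F) (sl j - sl (j.succAbove (e + 2)))
      (sl (j.succAbove e) - sl (j.succAbove (e + 2)))
      (sl (j.succAbove (e + 1)) - sl (j.succAbove (e + 2))) s D := GaIx256.exD_congr hR cutJ_eq hEx
  have hcof := (d4e j e).cof
  obtain ⟨enA, enB⟩ := hAB j (j.succAbove (e + 1)) (j.succAbove (e + 2)) (j.succAbove e) (d4e j e)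
    V R J hV hR (cM T g e) (cutJ J F) s ε D hε hD0 hEx' th Ht Hf (t (e + 2)) n th0 hHt hHf thH ths F4
    (w0 - 140 * (n : ℤ)) (281 * n) W1 hWI
  -- size of the energies
  have hvol : ((((281 * n : ℕ) : ℝ) + 2 ^ J.1) * 2 ^ J.1 *
      (∑ z ∈ Ico (t (e + 2)) (t (e + 2) + n), th z + n + 2 ^ J.1)) ≤ 7 * (n ^ 2 * len J) := by
    have h2J : (2 : ℝ) ^ J.1 ≤ n := by exact_mod_cast hJn
    have h0J : (0 : ℝ) < 2 ^ J.1 := by positivity
    have e1 : len J = 128 * 2 ^ J.1 := by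
      unfold len
      rw [pow_add]
      norm_num
      ring
    have hS0 : 0 ≤ ∑ z ∈ Ico (t (e + 2)) (t (e + 2) + n), th z := Finset.sum_nonneg fun z _ => th0 z
    push_cast
    calc (281 * (n : ℝ) + 2 ^ J.1) * 2 ^ J.1 *
        (∑ z ∈ Ico (t (e + 2)) (t (e + 2) + n), th z + n + 2 ^ J.1)
        ≤ (282 * n) * 2 ^ J.1 * (3 * n) := by
          refine mul_le_mul (mul_le_mul_of_nonneg_right (by linarith) h0J.le) (by linarith)
            (by positivity) (by positivity)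
      _ ≤ 7 * (n ^ 2 * (128 * 2 ^ J.1)) := by nlinarith [mul_pos (mul_pos hn hn) h0J]
      _ = _ := by rw [e1]
  have hEn : ∀ A : ℝ, Hf * (C0 * A ^ 2 * (D / ε) * (1 + Real.log Ht) *
      ((((281 * n : ℕ) : ℝ) + 2 ^ J.1) * 2 ^ J.1 *
      (∑ z ∈ Ico (t (e + 2)) (t (e + 2) + n), th z + n + 2 ^ J.1))) ≤
      n ^ 2 * ((7 * C0) * (Hf * A ^ 2 * (D / ε) * (1 + Real.log Ht)) * len J) := by
    intro A
    have h1 : 0 ≤ Hf * (C0 * A ^ 2 * (D / ε) * (1 + Real.log Ht)) := by positivity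
    calc _ = Hf * (C0 * A ^ 2 * (D / ε) * (1 + Real.log Ht)) *
          ((((281 * n : ℕ) : ℝ) + 2 ^ J.1) * 2 ^ J.1 *
          (∑ z ∈ Ico (t (e + 2)) (t (e + 2) + n), th z + n + 2 ^ J.1)) := by ring
      _ ≤ Hf * (C0 * A ^ 2 * (D / ε) * (1 + Real.log Ht)) * (7 * (n ^ 2 * len J)) :=
          mul_le_mul_of_nonneg_left hvol h1
      _ = _ := by ring
  have enA' : ∀ Xf Yf : Finset ℤ, ∑ w ∈ W1, ∑ x ∈ Xf, ∑ y ∈ Yf,
      (if RsPV V R J (cM T g e) (cutJ J F) (sl j - sl (j.succAbove (e + 2)))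
        (sl (j.succAbove e) - sl (j.succAbove (e + 2)))
        (sl (j.succAbove (e + 1)) - sl (j.succAbove (e + 2))) s ε w (-w - x - y) x then
        ‖lk j T g (e + 1) (cutJ J X) w x y‖ ^ 2 else 0) ≤
      n ^ 2 * ((7 * C0) * (Hf * AX ^ 2 * (D / ε) * (1 + Real.log Ht)) * len J) := by
    intro Xf Yf
    refine le_trans ?_ ((enA (T (e + 1)) (T (e + 2))
      (fun z0 z1 => if z1 ∈ T (e + 2) then g (e + 1) z0 z1 else 0) AX (fun z0 z1 => ?_)
      (fun p hp => by rw [f4e, av_cut (hV.reg.1 _ hp)]; exact aX p hp) Xf Yf).trans (hEn AX))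
    · refine le_of_eq (Finset.sum_congr rfl fun w _ => Finset.sum_congr rfl fun x _ =>
        Finset.sum_congr rfl fun y _ => ?_)
      rw [← f4e, lk_kA]
    · simp only [hth]
      split_ifs
      · exact gA z0 z1
      · simp
  have enB' : ∀ Xf Yf : Finset ℤ, ∑ w ∈ W1, ∑ x ∈ Xf, ∑ y ∈ Yf,
      (if RsPV V R J (cM T g e) (cutJ J F) (sl j - sl (j.succAbove (e + 2)))
        (sl (j.succAbove e) - sl (j.succAbove (e + 2)))
        (sl (j.succAbove (e + 1)) - sl (j.succAbove (e + 2))) s ε w y (-w - x - y) then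
        ‖lk j T g (e + 2) (cutJ J Y) w x y‖ ^ 2 else 0) ≤
      n ^ 2 * ((7 * C0) * (Hf * AY ^ 2 * (D / ε) * (1 + Real.log Ht)) * len J) := by
    intro Xf Yf
    refine le_trans ?_ ((enB (T (e + 2)) (T e)
      (fun z1 z2 => if z1 ∈ T (e + 2) then g (e + 2) z1 z2 else 0) AY (fun z1 z2 => ?_)
      (fun p hp => by rw [f4e1, av_cut (hV.reg.1 _ hp)]; exact aY p hp) Xf Yf).trans (hEn AY))
    · refine le_of_eq (Finset.sum_congr rfl fun w _ => Finset.sum_congr rfl fun x _ =>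
        Finset.sum_congr rfl fun y _ => ?_)
      rw [← f4e1, lk_kB]
    · simp only [hth]
      split_ifs
      · exact gB z1 z2
      · simp
  have main : TA bb (cube L1) (J.1 + 1)
      (fun m p i => ¬ GdE j e R J T g F s ε bb m p i ∧ AdX V m (xv j bb m p)) K' ≤
      8 * (KK * (1 + Real.log (1 + |HC| ^ 2 *
        (((Ico (t e - 2 ^ (J.1 + 1)) (t e + n + 2 ^ (J.1 + 1))).card : ℝ) * len J) *
        ((√(Hf * Ht) * |HX|) ^ 2 / (n * (d1 * len J) / 281) +
          (√(Hf * Ht) * |HY|) ^ 2 / (n * (d2 * len J) / 281)) / (16 * Av) ^ 2)) *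
        ((16 * Av) * √(n ^ 2 * ((7 * C0) * (Hf * AX ^ 2 * (D / ε) * (1 + Real.log Ht)) * len J) +
            W1.card * (n * (d1 * len J) / 281)) *
          √(n ^ 2 * ((7 * C0) * (Hf * AY ^ 2 * (D / ε) * (1 + Real.log Ht)) * len J) +
            W1.card * (n * (d2 * len J) / 281)))) := by
    refine ta_words8 hbb (J.1 + 1) L1 e
      (fun m w p0 p1 p2 => KLx446.Gd j (j.succAbove (e + 1)) (j.succAbove (e + 2)) (j.succAbove e)
        V m w p0 p1 p2 ∧ ¬ GoodB R J (cM T g e) (cutJ J F) (sl j - sl (j.succAbove (e + 2)))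
        (sl (j.succAbove e) - sl (j.succAbove (e + 2)))
        (sl (j.succAbove (e + 1)) - sl (j.succAbove (e + 2))) s ε w m p0 p2) _ K' ?_ ?_
    · rintro m hm p hp v hv ⟨hgd, had⟩ _
      exact ⟨GaXx571.gd_of_adX j e hbb hv had, fun h => hgd ((gdE_cut hR).2 h)⟩
    · intro l hl7 σ Wf
      rw [k0, k1, k2]
      have hk : ∀ w z z', lk j T g e (cutJ J F) w z z' = kw (cM T g e) (cutJ J F)
          (sl j - sl (j.succAbove (e + 2))) (sl (j.succAbove e) - sl (j.succAbove (e + 2)))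
          (sl (j.succAbove (e + 1)) - sl (j.succAbove (e + 2))) w z z' :=
        fun w z z' => (kw_lk j T g e (cutJ J F) w z z').symm
      simp only [hk]
      refine hrest l hl7 j (j.succAbove (e + 1)) (j.succAbove (e + 2)) (j.succAbove e) (d4e j e) V R J
        hV (cM T g e) (cutJ J F) (t e) (t e + n) (t (e + 1)) (t (e + 1) + n) (norm_cM hg)
        (box_cM ht) s ε (16 * Av) (by positivity) (fun w m q u hOm =>
          op_om hcof (fun p hp => by rw [av_cut (hV.reg.1 _ hp)]; exact hF p hp) (norm_cM hg) hOm)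
        |HC| (norm_cut_le hHC) σ.2.2
        (fun w z z' => pr σ.1 (lk j T g (e + 1) (cutJ J X) w z z'))
        (fun w z z' => pr σ.2.1 (lk j T g (e + 2) (cutJ J Y) w z z'))
        (√(Hf * Ht) * |HX|) (√(Hf * Ht) * |HY|) (n * (d1 * len J) / 281) (n * (d2 * len J) / 281)
        (n ^ 2 * ((7 * C0) * (Hf * AX ^ 2 * (D / ε) * (1 + Real.log Ht)) * len J))
        (n ^ 2 * ((7 * C0) * (Hf * AY ^ 2 * (D / ε) * (1 + Real.log Ht)) * len J)) W1
        (fun w => TwLx253.fs_of_mem (T := T (e + 1)) (T' := T (e + 1 + 1)) fun x y hxy => by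
          have h1 := sup_lk (j := j) (T := T) (g := g) (e := e + 1) (J := J) (F := X) (w := w)
            (x := x) (y := y) fun h0 => hxy (by
              simp only [h0]; unfold pr; split_ifs <;> simp)
          exact ⟨h1.1, h1.2.1⟩)
        (fun w => TwLx253.fs_of_mem (T := T (e + 2)) (T' := T (e + 2 + 1)) fun x y hxy => by
          have h1 := sup_lk (j := j) (T := T) (g := g) (e := e + 2) (J := J) (F := Y) (w := w)
            (x := x) (y := y) fun h0 => hxy (by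
              simp only [h0]; unfold pr; split_ifs <;> simp)
          exact ⟨h1.1, h1.2.1⟩)
        (by positivity) (by positivity)
        (fun w x y => (abs_pr_le _ _).trans (norm_lk2 gA' j hX w x y))
        (fun w x y => (abs_pr_le _ _).trans (norm_lk2 gB' j hY w x y))
        (fun w hw => Or.inl fun x y => by
          have h0 : lk j T g (e + 1) (cutJ J X) w x y = 0 := by
            by_contra hne
            obtain ⟨h1, h2, h3⟩ := sup_lk hne
            exact hw (hw0 w x y h1 h2 h3)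
          simp only [h0]; unfold pr; split_ifs <;> simp)
        (fun Xf Yf => le_trans (Finset.sum_le_sum fun w _ => Finset.sum_le_sum fun x _ =>
          Finset.sum_le_sum fun y _ => ?_) (enA' Xf Yf))
        (fun Xf Yf => le_trans (Finset.sum_le_sum fun w _ => Finset.sum_le_sum fun x _ =>
          Finset.sum_le_sum fun y _ => ?_) (enB' Xf Yf)) Wf L1
      · split_ifs
        · exact sq_pr_le _ _
        · exact le_rfl
      · split_ifs
        · exact sq_pr_le _ _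
        · exact le_rfl
  refine main.trans ?_
  have h1 := fin_rest (K0 := KK) (HC := |HC|) (l := len J) (HA := √(Hf * Ht) * |HX|)
    (HB := √(Hf * Ht) * |HY|) (C0 := 7 * C0)
    (E1 := Hf * AX ^ 2 * (D / ε) * (1 + Real.log Ht))
    (E2 := Hf * AY ^ 2 * (D / ε) * (1 + Real.log Ht)) hKK hn hl hAv hd1 hd2 (Nat.cast_nonneg _)
    (card_x hJn (t e)) (card_w hn1 w0) (by positivity) (by positivity) (by positivity)
  have h2 := mul_le_mul_of_nonneg_left h1 (show (0 : ℝ) ≤ 8 by norm_num)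
  refine h2.trans (le_of_eq ?_)
  rw [mul_pow, mul_pow, Real.sq_sqrt hG, sq_abs, sq_abs, sq_abs]
  ring

/-- **THE REST of an op-atom**: line letters `X = F (j.succAbove (v + 1))`,
`Y = F (j.succAbove (v + 2))`, killer letter `F (j.succAbove v)` -/
theorem restRV : ∃ K0 : ℝ, 0 ≤ K0 ∧ ∀ (bb : ℤ), bb = -1 ∨ bb = -7 → ∀ (j : Fin 4) (v : Fin 3)
    (V R : Finset Nd) (J : Nd), Full V J → Full R J → ∀ (n : ℕ), 2 ^ J.1 ≤ n →
    ∀ (Ht Hf : ℝ) (T : Fin 3 → Finset ℤ) (g : Fin 3 → ℤ → ℤ → ℂ) (α : ℤ → ℝ), 1 ≤ Ht → 0 ≤ Hf →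
    OpD v n Ht Hf T g α → (∀ e', ∃ t : ℤ, T e' ⊆ Ico t (t + n)) →
    ∀ (F : Fin 4 → Fn) (s ε D Av HC HX HY AX AY d1 d2 : ℝ), 0 < ε → 0 ≤ D → 0 < Av →
    (∀ p ∈ V, av p (F (j.succAbove v)) ≤ Av) → (∀ y ∈ iv J, ‖F (j.succAbove v) y‖ ≤ HC) →
    ExE j (v + 1) R T g (F (j.succAbove v)) s D →
    (∀ y ∈ iv J, ‖F (j.succAbove (v + 1)) y‖ ≤ HX) →
    (∀ y ∈ iv J, ‖F (j.succAbove (v + 2)) y‖ ≤ HY) →
    (∀ p ∈ V, av p (F (j.succAbove (v + 1))) ≤ AX) →
    (∀ p ∈ V, av p (F (j.succAbove (v + 2))) ≤ AY) → 0 < d1 → 0 < d2 → ∀ (L1 : ℕ),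
    TA bb (cube L1) (J.1 + 1)
        (fun m p i => ¬ GdE j (v + 1) R J T g (F (j.succAbove v)) s ε bb m p i ∧
          AdX V m (xv j bb m p)) (lks j T g F) ≤
      K0 * (1 + Real.log (1 + HC ^ 2 * (Hf * Ht * HX ^ 2 / d1 + Hf * Ht * HY ^ 2 / d2) / Av ^ 2)) *
        Av * (√(Hf * AX ^ 2 * (D / ε) * (1 + Real.log Ht) + d1) *
          √(Hf * AY ^ 2 * (D / ε) * (1 + Real.log Ht) + d2)) * (n ^ 2 * len J) := by
  obtain ⟨K0, hK0, hmain⟩ := rest_genV
  refine ⟨K0, hK0, ?_⟩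
  intro bb hbb j v V R J hV hR n hJn Ht Hf T g α hHt hHf hD hTI F s ε D Av HC HX HY AX AY d1 d2 hε hD0
    hAv hF hHC hEx hX hY aX aY hd1 hd2 L1
  refine hmain bb hbb j (v + 1) V R J hV hR n hJn Ht Hf T g α hHt hHf hTI hD.b1 hD.α0 hD.αH ?_ ?_ ?_
    (F (j.succAbove v)) (F (j.succAbove (v + 1))) (F (j.succAbove (v + 2))) s ε D Av HC HX HY AX AY
    d1 d2 hε hD0 hAv hF hHC hEx hX hY aX aY hd1 hd2 (lks j T g F) ?_ ?_ ?_ L1
  · rw [f3e]
    exact hD.α1
  · intro z z'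
    rw [f3f]
    exact hD.VH z' z
  · intro z z'
    rw [f3e]
    exact hD.UH z z'
  · intro w z z'
    unfold lks
    rw [f3e]
  · intro w z z'
    unfold lks
    rw [f3e (v + 1)]
  · intro w z z'
    unfold lks
    rw [f3e]

end Crest.Agent.R079.GaVx446
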