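import Crest.Agent.R079.KLe_446
import Crest.Agent.R079.TwL_253

/-! R079, KILL LEMMA, part W (helper446): the two words of the killer, summed over the frozen value.

* `good_words` : good boxes, ARBITRARY families `A_w`, `B_w`, price `τ = 81 s + 170 A √ε`;
* `rest_words` : the other boxes, arbitrary families with energies MASKED by the static set `RsP`,
                 price `τ` = any bound of the killer on all boxes of the region. -/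

set_option autoImplicit false

namespace Crest.Agent.R079.KLx446

open Finset Crest.Agent.R079.Grid Crest.Agent.R079.Glue Crest.Agent.R079.Growth
  Crest.Agent.R079.QRed Crest.Agent.R079.BadTx138 Crest.Agent.R079.KC996 Crest.Agent.R079.KLdx138
  Crest.Agent.R079.TwLx253

/-- the killer kernel at one frozen value has finite support -/
lemma fs_kw {c : ℤ → ℤ → ℂ} {X0 X1 Y0 Y1 : ℤ}
    (hc : ∀ x y, c x y ≠ 0 → X0 ≤ x ∧ x < X1 ∧ Y0 ≤ y ∧ y < Y1) (K : Fn) (α β γ : ℤ) (σ : Bool) (w : ℤ) :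
    ∀ x y, pr σ (kw c K α β γ w x y) ≠ 0 → X0 ≤ x ∧ x < X1 ∧ Y0 ≤ y ∧ y < Y1 := by
  intro x y h
  refine hc x y fun h0 => h ?_
  unfold kw
  rw [h0, zero_mul]
  unfold pr
  split_ifs <;> simp

lemma fs_of_box {A : ℤ → ℤ → ℝ} {X0 X1 Y0 Y1 : ℤ}
    (h : ∀ x y, A x y ≠ 0 → X0 ≤ x ∧ x < X1 ∧ Y0 ≤ y ∧ y < Y1) : FS A :=
  fs_of_mem (T := Ico X0 X1) (T' := Ico Y0 Y1) fun x y hxy => by
    obtain ⟨h1, h2, h3, h4⟩ := h x y hxy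
    exact ⟨Finset.mem_Ico.2 ⟨h1, h2⟩, Finset.mem_Ico.2 ⟨h3, h4⟩⟩

lemma abs_kw_le {c : ℤ → ℤ → ℂ} (hc : ∀ x y, ‖c x y‖ ≤ 1) {K : Fn} {HC : ℝ} (hK : ∀ y, ‖K y‖ ≤ HC)
    (α β γ : ℤ) (σ : Bool) (w x y : ℤ) : |pr σ (kw c K α β γ w x y)| ≤ HC := by
  refine (abs_pr_le _ _).trans ?_
  unfold kw
  rw [norm_mul]
  calc ‖c x y‖ * ‖K (α * w + β * x + γ * y)‖ ≤ 1 * HC :=
        mul_le_mul (hc _ _) (hK _) (norm_nonneg _) zero_le_one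
    _ = HC := one_mul _

lemma mt_of_ex {C : ℤ → ℤ → ℝ} {m : ℕ} {p0 p2 X0 X1 Y0 Y1 : ℤ}
    (hC : ∀ x y, C x y ≠ 0 → X0 ≤ x ∧ x < X1 ∧ Y0 ≤ y ∧ y < Y1)
    (h : ∃ i j : ℕ, i < 2 ^ (m + 1) ∧ j < 2 ^ (m + 1) ∧ C (p2 + i) (p0 + j) ≠ 0) :
    Mt X0 X1 Y0 Y1 m p2 p0 := by
  obtain ⟨i, j, hi, hj, hne⟩ := h
  obtain ⟨h1, h2, h3, h4⟩ := hC _ _ hne
  have hi' : (i : ℤ) < 2 ^ (m + 1) := by exact_mod_cast hi
  have hj' : (j : ℤ) < 2 ^ (m + 1) := by exact_mod_cast hj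
  have hi0 : (0 : ℤ) ≤ i := Int.natCast_nonneg i
  have hj0 : (0 : ℤ) ≤ j := Int.natCast_nonneg j
  exact ⟨by linarith, by linarith, by linarith, by linarith⟩

lemma om_le {R : Finset Nd} {J : Nd} (hR : IsRegion R J) {α β γ w : ℤ} {m : ℕ} {q u : ℤ}
    (h : Om R α β γ w m q u) : m ≤ J.1 := by
  have hm0 : (0 : ℤ) < 2 ^ m := by positivity
  exact Rm_level hR (h q (Finset.mem_Ico.2 ⟨le_rfl, by linarith⟩) u
    (Finset.mem_Ico.2 ⟨le_rfl, by linarith⟩))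

/-- **GOOD WORDS** (arbitrary families of partners) -/
theorem good_words : ∃ KK : ℝ, 0 ≤ KK ∧ ∀ (l : ℤ), |l| ≤ 7 → ∀ (k k0 k1 k2 : Fin 4), D4 k k0 k1 k2 →
    ∀ (R : Finset Nd) (J : Nd), Full R J → ∀ (c : ℤ → ℤ → ℂ) (K : Fn) (X0 X1 Y0 Y1 : ℤ),
    (∀ x y, ‖c x y‖ ≤ 1) → (∀ x y, c x y ≠ 0 → X0 ≤ x ∧ x < X1 ∧ Y0 ≤ y ∧ y < Y1) →
    ∀ (s ε Av : ℝ), 0 ≤ s → 0 ≤ ε → 0 ≤ Av → 0 < 81 * s + 170 * Av * √ε →
    (∀ p ∈ R, av p K ≤ Av) → ∀ (HC : ℝ), (∀ y, ‖K y‖ ≤ HC) → ∀ (σ : Bool)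
    (A B : ℤ → ℤ → ℤ → ℝ) (HA HB fa fb SA SB : ℝ) (W1 : Finset ℤ),
    (∀ w, FS (A w)) → (∀ w, FS (B w)) → 0 < fa → 0 < fb →
    (∀ w x y, |A w x y| ≤ HA) → (∀ w x y, |B w x y| ≤ HB) →
    (∀ w, w ∉ W1 → (∀ x y, A w x y = 0) ∨ (∀ x y, B w x y = 0)) →
    (∀ X Y : Finset ℤ, ∑ w ∈ W1, ∑ x ∈ X, ∑ y ∈ Y, A w x y ^ 2 ≤ SA) →
    (∀ X Y : Finset ℤ, ∑ w ∈ W1, ∑ x ∈ X, ∑ y ∈ Y, B w x y ^ 2 ≤ SB) →
    ∀ (Wf : Finset ℤ) (L1 : ℕ), ∑ w ∈ Wf, Tw (fun m p0 p1 p2 => Gd k k0 k1 k2 R m w p0 p1 p2 ∧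
      GoodB R J c K (sl k - sl k1) (sl k2 - sl k1) (sl k0 - sl k1) s ε w m p0 p2) (A w) (B w)
      (fun z z' => pr σ (kw c K (sl k - sl k1) (sl k2 - sl k1) (sl k0 - sl k1) w z z'))
      (J.1 + 1) L1 l w ≤
      KK * (1 + Real.log (1 + HC ^ 2 *
        (((Ico (X0 - 2 ^ (J.1 + 1)) (X1 + 2 ^ (J.1 + 1))).card : ℝ) * len J) *
        (HA ^ 2 / fa + HB ^ 2 / fb) / (81 * s + 170 * Av * √ε) ^ 2)) *
        ((81 * s + 170 * Av * √ε) * √(SA + W1.card * fa) * √(SB + W1.card * fb)) := by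
  obtain ⟨KK, hKK, hmain⟩ := sum_tw'
  refine ⟨KK, hKK, ?_⟩
  intro l hl k k0 k1 k2 h4 R J hR c K X0 X1 Y0 Y1 hc1 hc0 s ε Av hs hε hAv hτ hK HC hHC σ A B HA HB
    fa fb SA SB W1 sA sB hfa hfb hA hB h0 eA eB Wf L1
  refine hmain l hl R J (sl k - sl k1) (sl k2 - sl k1) (sl k0 - sl k1) (X0 - 2 ^ (J.1 + 1))
    (X1 + 2 ^ (J.1 + 1)) (Y0 - 2 ^ (J.1 + 1)) (Y1 + 2 ^ (J.1 + 1))
    (fun w => AlG R (sl k - sl k1) (sl k2 - sl k1) (sl k0 - sl k1) w (X0 - 2 ^ (J.1 + 1))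
      (X1 + 2 ^ (J.1 + 1)) (Y0 - 2 ^ (J.1 + 1)) (Y1 + 2 ^ (J.1 + 1))
      (Pw R J c K (sl k - sl k1) (sl k2 - sl k1) (sl k0 - sl k1) s ε w)) hR.reg h4.cof
    (fun w => alC_good hR.reg h4.cof (lp_pw _ _ _ _ _ _ _ _ _ _)) A B
    (fun w z z' => pr σ (kw c K (sl k - sl k1) (sl k2 - sl k1) (sl k0 - sl k1) w z z'))
    (81 * s + 170 * Av * √ε) HA HB HC fa fb SA SB W1 sA sB
    (fun w => fs_of_box (fs_kw hc0 K _ _ _ σ w)) hτ hfa hfb hA hB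
    (fun w x y => abs_kw_le hc1 hHC _ _ _ σ w x y) h0 eA eB ?_
    (fun w m p0 p1 p2 => Gd k k0 k1 k2 R m w p0 p1 p2 ∧
      GoodB R J c K (sl k - sl k1) (sl k2 - sl k1) (sl k0 - sl k1) s ε w m p0 p2) ?_ Wf L1
  · intro w m q p hal
    have hm : m ≤ J.1 := om_le hR.reg hal.1.1
    have := opZ_of_opB (N := 2 ^ m) (q := q) (p := p)
      (K := kw c K (sl k - sl k1) (sl k2 - sl k1) (sl k0 - sl k1) w)
      (c := (81 * s + 170 * Av * √ε) * 2 ^ m) (by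
        push_cast
        exact op_good hR h4.cof hc1 hs hε hAv hK hm hal.1.1 hal.2) σ
    rw [mul_comm]
    exact this
  · rintro w m hm p0 p1 p2 ⟨hg, hgood⟩ hex
    exact al4_good hm hg (mt_of_ex (fs_kw hc0 K _ _ _ σ w) hex) hgood

open Classical in
/-- **REST WORDS** (arbitrary families of partners, masked energies) -/
theorem rest_words : ∃ KK : ℝ, 0 ≤ KK ∧ ∀ (l : ℤ), |l| ≤ 7 → ∀ (k k0 k1 k2 : Fin 4), D4 k k0 k1 k2 →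
    ∀ (R : Finset Nd) (J : Nd), Full R J → ∀ (c : ℤ → ℤ → ℂ) (K : Fn) (X0 X1 Y0 Y1 : ℤ),
    (∀ x y, ‖c x y‖ ≤ 1) → (∀ x y, c x y ≠ 0 → X0 ≤ x ∧ x < X1 ∧ Y0 ≤ y ∧ y < Y1) →
    ∀ (s ε τ : ℝ), 0 < τ →
    (∀ w m q u, Om R (sl k - sl k1) (sl k2 - sl k1) (sl k0 - sl k1) w m q u →
      OpB (kw c K (sl k - sl k1) (sl k2 - sl k1) (sl k0 - sl k1) w) (Ico q (q + 2 ^ m))
        (Ico u (u + 2 ^ m)) (τ * 2 ^ m)) →
    ∀ (HC : ℝ), (∀ y, ‖K y‖ ≤ HC) → ∀ (σ : Bool)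
    (A B : ℤ → ℤ → ℤ → ℝ) (HA HB fa fb SA SB : ℝ) (W1 : Finset ℤ),
    (∀ w, FS (A w)) → (∀ w, FS (B w)) → 0 < fa → 0 < fb →
    (∀ w x y, |A w x y| ≤ HA) → (∀ w x y, |B w x y| ≤ HB) →
    (∀ w, w ∉ W1 → (∀ x y, A w x y = 0) ∨ (∀ x y, B w x y = 0)) →
    (∀ X Y : Finset ℤ, ∑ w ∈ W1, ∑ x ∈ X, ∑ y ∈ Y,
      (if RsP R J c K (sl k - sl k1) (sl k2 - sl k1) (sl k0 - sl k1) s ε w (-w - x - y) x then
        A w x y ^ 2 else 0) ≤ SA) →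
    (∀ X Y : Finset ℤ, ∑ w ∈ W1, ∑ x ∈ X, ∑ y ∈ Y,
      (if RsP R J c K (sl k - sl k1) (sl k2 - sl k1) (sl k0 - sl k1) s ε w y (-w - x - y) then
        B w x y ^ 2 else 0) ≤ SB) →
    ∀ (Wf : Finset ℤ) (L1 : ℕ), ∑ w ∈ Wf, Tw (fun m p0 p1 p2 => Gd k k0 k1 k2 R m w p0 p1 p2 ∧
      ¬ GoodB R J c K (sl k - sl k1) (sl k2 - sl k1) (sl k0 - sl k1) s ε w m p0 p2) (A w) (B w)
      (fun z z' => pr σ (kw c K (sl k - sl k1) (sl k2 - sl k1) (sl k0 - sl k1) w z z'))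
      (J.1 + 1) L1 l w ≤
      KK * (1 + Real.log (1 + HC ^ 2 *
        (((Ico (X0 - 2 ^ (J.1 + 1)) (X1 + 2 ^ (J.1 + 1))).card : ℝ) * len J) *
        (HA ^ 2 / fa + HB ^ 2 / fb) / τ ^ 2)) *
        (τ * √(SA + W1.card * fa) * √(SB + W1.card * fb)) := by
  obtain ⟨KK, hKK, hmain⟩ := sum_tw'
  refine ⟨KK, hKK, ?_⟩
  intro l hl k k0 k1 k2 h4 R J hR c K X0 X1 Y0 Y1 hc1 hc0 s ε τ hτ hop HC hHC σ A B HA HB
    fa fb SA SB W1 sA sB hfa hfb hA hB h0 eA eB Wf L1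
  set α := sl k - sl k1 with hα
  set β := sl k2 - sl k1 with hβ
  set γ := sl k0 - sl k1 with hγ
  -- masked families
  set A' : ℤ → ℤ → ℤ → ℝ := fun w x y => if RsP R J c K α β γ s ε w (-w - x - y) x then A w x y else 0
    with hA'
  set B' : ℤ → ℤ → ℤ → ℝ := fun w x y => if RsP R J c K α β γ s ε w y (-w - x - y) then B w x y else 0
    with hB'
  have hHA : 0 ≤ HA := (abs_nonneg _).trans (hA 0 0 0)
  have hHB : 0 ≤ HB := (abs_nonneg _).trans (hB 0 0 0)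
  have hfs : ∀ {D D' : ℤ → ℤ → ℝ}, FS D → (∀ x y, D' x y ≠ 0 → D x y ≠ 0) → FS D' := by
    rintro D D' ⟨S, hS⟩ h
    exact ⟨S, fun x y hxy => hS x y (h x y hxy)⟩
  have hstep : ∀ w ∈ Wf, Tw (fun m p0 p1 p2 => Gd k k0 k1 k2 R m w p0 p1 p2 ∧
      ¬ GoodB R J c K α β γ s ε w m p0 p2) (A w) (B w)
      (fun z z' => pr σ (kw c K α β γ w z z')) (J.1 + 1) L1 l w ≤
      Tw (fun m p0 p1 p2 => Gd k k0 k1 k2 R m w p0 p1 p2 ∧
      ¬ GoodB R J c K α β γ s ε w m p0 p2) (A' w) (B' w)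
      (fun z z' => pr σ (kw c K α β γ w z z')) (J.1 + 1) L1 l w := by
    intro w _
    refine Tw_le hl fun m _ p0 p1 p2 hw hG _ => ⟨hG, ?_⟩
    refine Lb3r_congr fun z0 h0 z1 h1 z2 h2 => ?_
    have e1 : A' w z0 z1 = A w z0 z1 := by
      simp only [hA']
      rw [if_pos]
      exact rest_A hG.1 hw hG.2 h0 h1
    have e2 : B' w z1 z2 = B w z1 z2 := by
      simp only [hB']
      rw [if_pos]
      exact rest_B hG.1 hw hG.2 h1 h2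
    rw [e1, e2]
  refine (Finset.sum_le_sum hstep).trans ?_
  refine hmain l hl R J α β γ (X0 - 2 ^ (J.1 + 1))
    (X1 + 2 ^ (J.1 + 1)) (Y0 - 2 ^ (J.1 + 1)) (Y1 + 2 ^ (J.1 + 1))
    (fun w => AlR R α β γ w (X0 - 2 ^ (J.1 + 1))
      (X1 + 2 ^ (J.1 + 1)) (Y0 - 2 ^ (J.1 + 1)) (Y1 + 2 ^ (J.1 + 1))
      (Pw R J c K α β γ s ε w)) hR.reg h4.cof
    (fun w => alC_rest hR.reg h4.cof (lp_pw _ _ _ _ _ _ _ _ _ _)) A' B'
    (fun w z z' => pr σ (kw c K α β γ w z z'))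
    τ HA HB HC fa fb SA SB W1 (fun w => hfs (sA w) fun x y h => ?_)
    (fun w => hfs (sB w) fun x y h => ?_)
    (fun w => fs_of_box (fs_kw hc0 K _ _ _ σ w)) hτ hfa hfb (fun w x y => ?_) (fun w x y => ?_)
    (fun w x y => abs_kw_le hc1 hHC _ _ _ σ w x y) (fun w hw => ?_) (fun X Y => ?_) (fun X Y => ?_) ?_
    (fun w m p0 p1 p2 => Gd k k0 k1 k2 R m w p0 p1 p2 ∧
      ¬ GoodB R J c K α β γ s ε w m p0 p2) ?_ Wf L1
  · intro h'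
    apply h
    simp only [hA', h', ite_self]
  · intro h'
    apply h
    simp only [hB', h', ite_self]
  · simp only [hA']
    split_ifs
    · exact hA w x y
    · simpa using hHA
  · simp only [hB']
    split_ifs
    · exact hB w x y
    · simpa using hHB
  · rcases h0 w hw with h | h
    · left
      intro x y
      simp only [hA', h, ite_self]
    · right
      intro x y
      simp only [hB', h, ite_self]
  · refine le_trans (le_of_eq ?_) (eA X Y)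
    refine Finset.sum_congr rfl fun w _ => Finset.sum_congr rfl fun x _ =>
      Finset.sum_congr rfl fun y _ => ?_
    simp only [hA']
    split_ifs <;> simp
  · refine le_trans (le_of_eq ?_) (eB X Y)
    refine Finset.sum_congr rfl fun w _ => Finset.sum_congr rfl fun x _ =>
      Finset.sum_congr rfl fun y _ => ?_
    simp only [hB']
    split_ifs <;> simp
  · intro w m q p hal
    have := opZ_of_opB (N := 2 ^ m) (q := q) (p := p) (K := kw c K α β γ w) (c := τ * 2 ^ m) (by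
        push_cast
        exact hop w m q p hal.1.1) σ
    rw [mul_comm]
    exact this
  · rintro w m hm p0 p1 p2 ⟨hg, hbad⟩ hex
    exact al4_rest hm hg (mt_of_ex (fs_kw hc0 K _ _ _ σ w) hex) hbad

end Crest.Agent.R079.KLx446
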