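import Crest.Agent.R079.GaX_571
import Crest.Agent.R079.KLw_446
import Crest.Agent.R079.KLr_138
import Crest.Agent.R079.KLh_446
import Crest.Agent.R079.B0K_253

/-! R079, Step I, (G) words (helper256): INSTANCES of the killer words of 446 for one op-atom `OpD` (371),
killer = line letter on the edge `e = v + 1` (gauge bounded by `1`).

* `GdE` : good boxes of the killer edge; `good_gen` : GOOD boxes, arbitrary kernels on the two other
  edges; `goodG` : kernel letter + line letter (hypothesis `hG` of `GaV_571.statI_joint`);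
* `restR` : the other boxes, two line letters. -/

set_option autoImplicit false

namespace Crest.Agent.R079.GaIx256

open Finset Crest.Agent.R079.Grid Crest.Agent.R079.Glue Crest.Agent.R079.Growth
  Crest.Agent.R079.QRed Crest.Agent.R079.KLx446 Crest.Agent.R079.KLrx138
  Crest.Agent.R079.GaAx571 Crest.Agent.R079.GaBx571 Crest.Agent.R079.GaWx571
  Crest.Agent.R079.GaXx571 Crest.Agent.R079.GaFx371 Crest.Agent.R079.GlueK
open Crest.Agent.R079.B0Kx253 (cutJ w_range log_price en_lk sup_lk)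

/-! ### definitions -/

/-- masked gauge of the edge `e` -/
noncomputable def cM (T : Fin 3 → Finset ℤ) (g : Fin 3 → ℤ → ℤ → ℂ) (e : Fin 3) (x y : ℤ) : ℂ :=
  if x ∈ T e ∧ y ∈ T (e + 1) then g e x y else 0

/-- good box, killer letter `F` on the edge `e` -/
def GdE (j : Fin 4) (e : Fin 3) (R : Finset Nd) (J : Nd) (T : Fin 3 → Finset ℤ)
    (g : Fin 3 → ℤ → ℤ → ℂ) (F : Fn) (s ε : ℝ) (bb : ℤ) (n : ℕ) (p : ℤ × ℤ × ℤ) (i : ℕ) : Prop :=
  GoodB R J (cM T g e) F (sl j - sl (j.succAbove (e + 2)))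
    (sl (j.succAbove e) - sl (j.succAbove (e + 2)))
    (sl (j.succAbove (e + 1)) - sl (j.succAbove (e + 2))) s ε (wv bb n p i) n (pc p (e + 1)) (pc p e)

/-- exceptional density of the killer on the edge `e` -/
def ExE (j : Fin 4) (e : Fin 3) (R : Finset Nd) (T : Fin 3 → Finset ℤ)
    (g : Fin 3 → ℤ → ℤ → ℂ) (F : Fn) (s D : ℝ) : Prop :=
  ExD R (cM T g e) F (sl j - sl (j.succAbove (e + 2)))
    (sl (j.succAbove e) - sl (j.succAbove (e + 2)))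
    (sl (j.succAbove (e + 1)) - sl (j.succAbove (e + 2))) s D

lemma kw_lk (j : Fin 4) (T : Fin 3 → Finset ℤ) (g : Fin 3 → ℤ → ℤ → ℂ) (e : Fin 3) (F : Fn)
    (w z z' : ℤ) : kw (cM T g e) F (sl j - sl (j.succAbove (e + 2)))
      (sl (j.succAbove e) - sl (j.succAbove (e + 2)))
      (sl (j.succAbove (e + 1)) - sl (j.succAbove (e + 2))) w z z' = lk j T g e F w z z' := by
  rw [lk_Ye]
  unfold kw cM Ye
  split_ifs
  · rfl
  · rw [zero_mul]

/-! ### only the values of the killer letter on `iv J` matter -/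

section cut

variable {R : Finset Nd} {J : Nd} {c : ℤ → ℤ → ℂ} {K K' : Fn} {α β γ : ℤ} {s ε D : ℝ}

lemma kp_congr {p : Nd} (h : ∀ y ∈ iv p, K y = K' y) (w : ℤ) :
    kp c K α β γ p w = kp c K' α β γ p w := by
  funext x y
  unfold kp
  by_cases hy : α * w + β * x + γ * y ∈ iv p
  · rw [if_pos hy, if_pos hy, h _ hy]
  · rw [if_neg hy, if_neg hy]

lemma opP_congr {p : Nd} (h : ∀ y ∈ iv p, K y = K' y) (w a b : ℤ) :
    OpP c K α β γ s p w a b ↔ OpP c K' α β γ s p w a b := by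
  unfold OpP
  rw [kp_congr h w]

lemma exD_congr (hR : Full R J) (h : ∀ y ∈ iv J, K y = K' y) (hD : ExD R c K α β γ s D) :
    ExD R c K' α β γ s D := by
  classical
  intro p hp w a b
  have h1 : ∀ y ∈ iv p, K y = K' y := fun y hy => h y (hR.reg.1 _ hp hy)
  have h2 := hD p hp w a b
  simp only [opP_congr h1] at h2
  exact h2

lemma bp_congr (hR : Full R J) (h : ∀ y ∈ iv J, K y = K' y) (w x y : ℤ) :
    Bp R J c K α β γ s w x y ↔ Bp R J c K' α β γ s w x y := by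
  unfold Bp
  refine and_congr_right fun hy => ?_
  have h1 : ∀ z ∈ iv (lfp R (α * w + β * x + γ * y)), K z = K' z :=
    fun z hz => h z (lfp_sub hR hy hz)
  simp only [opP_congr h1]

lemma nb_congr (hR : Full R J) (h : ∀ y ∈ iv J, K y = K' y) (w : ℤ) (m : ℕ) (a b : ℤ) :
    nb R J c K α β γ s w m a b = nb R J c K' α β γ s w m a b := by
  classical
  unfold nb
  simp only [bp_congr hR h]

lemma pw_congr (hR : Full R J) (h : ∀ y ∈ iv J, K y = K' y) (w x y r : ℤ) :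
    Pw R J c K α β γ s ε w x y r ↔ Pw R J c K' α β γ s ε w x y r := by
  unfold Pw Bc
  simp only [nb_congr hR h]

lemma goodB_congr (hR : Full R J) (h : ∀ y ∈ iv J, K y = K' y) (w : ℤ) (m : ℕ) (p0 p2 : ℤ) :
    GoodB R J c K α β γ s ε w m p0 p2 ↔ GoodB R J c K' α β γ s ε w m p0 p2 := by
  unfold GoodB
  simp only [pw_congr hR h]

lemma rsP_congr (hR : Full R J) (h : ∀ y ∈ iv J, K y = K' y) (w x y : ℤ) :
    KLdx138.RsP R J c K α β γ s ε w x y ↔ KLdx138.RsP R J c K' α β γ s ε w x y := by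
  unfold KLdx138.RsP
  simp only [pw_congr hR h]

end cut

lemma cutJ_eq {J : Nd} {F : Fn} : ∀ y ∈ iv J, F y = cutJ J F y := by
  intro y hy
  unfold cutJ
  rw [if_pos hy]

lemma gdE_cut {j : Fin 4} {e : Fin 3} {R : Finset Nd} {J : Nd} (hR : Full R J)
    {T : Fin 3 → Finset ℤ} {g : Fin 3 → ℤ → ℤ → ℂ} {F : Fn} {s ε : ℝ} {bb : ℤ} {n : ℕ}
    {p : ℤ × ℤ × ℤ} {i : ℕ} :
    GdE j e R J T g F s ε bb n p i ↔ GdE j e R J T g (cutJ J F) s ε bb n p i :=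
  goodB_congr hR cutJ_eq _ _ _ _

lemma av_cut {J p : Nd} (h : iv p ⊆ iv J) (F : Fn) : av p (cutJ J F) = av p F := by
  have h1 : ∀ y ∈ iv p, ‖cutJ J F y‖ ^ 2 = ‖F y‖ ^ 2 := fun y hy => by rw [← cutJ_eq y (h hy)]
  have h2 : len p * av p (cutJ J F) ^ 2 = len p * av p F ^ 2 := by
    rw [← Growth.sum_av, ← Growth.sum_av]
    exact Finset.sum_congr rfl h1
  have h3 := mul_left_cancel₀ (Growth.len_pos p).ne' h2
  exact (sq_eq_sq₀ (Growth.av_nonneg _ _) (Growth.av_nonneg _ _)).1 h3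

lemma norm_cut_le {J : Nd} {F : Fn} {H : ℝ} (h : ∀ y ∈ iv J, ‖F y‖ ≤ H) (y : ℤ) :
    ‖cutJ J F y‖ ≤ |H| := by
  unfold cutJ
  split_ifs with hy
  · exact (h y hy).trans (le_abs_self _)
  · simp

/-! ### `TA` by real words -/

open Classical in
/-- **`TA` by eight real words, killer edge `e`** -/
theorem ta_words8 {bb : ℤ} (hbb : bb = -1 ∨ bb = -7) (M L1 : ℕ) (e : Fin 3)
    (G : ℕ → ℤ → ℤ → ℤ → ℤ → Prop) (Gd : ℕ → ℤ × ℤ × ℤ → ℕ → Prop) (K : Fin 3 → Kl)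
    (hG : ∀ n < M, ∀ p ∈ cube L1, ∀ v < 2 ^ n + 2 ^ n, Gd n p v → bxf bb K n p v ≠ 0 →
      G n (wv bb n p v) (pc p (e + 1)) (pc p (e + 2)) (pc p e)) {X : ℝ}
    (hX : ∀ l : ℤ, |l| ≤ 7 → ∀ (σ : Bool × Bool × Bool) (Wf : Finset ℤ),
      ∑ w ∈ Wf, Tw (fun m p0 p1 p2 => G m w p0 p1 p2) (fun z z' => pr σ.1 (K (e + 1) w z z'))
        (fun z z' => pr σ.2.1 (K (e + 2) w z z')) (fun z z' => pr σ.2.2 (K e w z z')) M L1 l w ≤
        X) :
    TA bb (cube L1) M Gd K ≤ 8 * X := by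
  have h1 := TA_words bb hbb M L1 (3 * L1 + 8 * 2 ^ (M + 1)) rfl e G Gd K hG
  have h2 : ∀ l : ℤ, |l| ≤ 7 → ∀ Wf : Finset ℤ,
      ∑ w ∈ Wf, Wt G ![K (e + 1), K (e + 2), K e] M L1 l w ≤ 8 * X := by
    intro l hl Wf
    unfold Wt
    rw [Finset.sum_comm]
    refine (Finset.sum_le_sum fun σ _ => hX l hl σ Wf).trans (le_of_eq ?_)
    simp
  have hl0 : |bb| ≤ 7 := by rcases hbb with rfl | rfl <;> norm_num
  have hl1 : |bb + 1| ≤ 7 := by rcases hbb with rfl | rfl <;> norm_num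
  refine h1.trans ?_
  have h3 := h2 bb hl0 (Icc (-((3 * L1 + 8 * 2 ^ (M + 1) : ℕ) : ℤ))
    ((3 * L1 + 8 * 2 ^ (M + 1) : ℕ) : ℤ))
  have h4 := h2 (bb + 1) hl1 (Icc (-((3 * L1 + 8 * 2 ^ (M + 1) : ℕ) : ℤ))
    ((3 * L1 + 8 * 2 ^ (M + 1) : ℕ) : ℤ))
  linarith

lemma sq_pr_le (σ : Bool) (z : ℂ) : pr σ z ^ 2 ≤ ‖z‖ ^ 2 := by
  rw [← sq_abs]
  exact pow_le_pow_left₀ (abs_nonneg _) (abs_pr_le σ z) 2

/-! ### prices -/

lemma aux_z {Q H n l f τ : ℝ} (hn : 0 < n) (hf : 0 < f) (hτ : 0 < τ) :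
    Q * (5 * n * l) * (H / (n * f / 281)) / τ ^ 2 = 1405 * (Q * l * (H / f) / τ ^ 2) := by
  field_simp
  ring

/-- numbers -/
lemma fin_good {K0 HC Cd l n HA HB τ EA EB fa fb wc : ℝ} (hK0 : 0 ≤ K0) (hn : 0 < n) (hl : 0 < l)
    (hτ : 0 < τ) (hfa : 0 < fa) (hfb : 0 < fb) (hCd0 : 0 ≤ Cd) (hCd : Cd ≤ 5 * n)
    (hw : wc ≤ 281 * n) :
    K0 * (1 + Real.log (1 + HC ^ 2 * (Cd * l) * (HA ^ 2 / (n * fa / 281) + HB ^ 2 / (n * fb / 281)) /
        τ ^ 2)) * (τ * √(n ^ 2 * EA + wc * (n * fa / 281)) * √(n ^ 2 * EB + wc * (n * fb / 281))) ≤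
    1405 * K0 * (1 + Real.log (1 + HC ^ 2 * l * (HA ^ 2 / fa + HB ^ 2 / fb) / τ ^ 2)) * τ * n ^ 2 *
      (√(EA + fa) * √(EB + fb)) := by
  obtain ⟨X, hX⟩ : ∃ X, X = HC ^ 2 * l * (HA ^ 2 / fa + HB ^ 2 / fb) / τ ^ 2 := ⟨_, rfl⟩
  have hX0 : 0 ≤ X := by rw [hX]; positivity
  obtain ⟨Z, hZ⟩ : ∃ Z, Z = HC ^ 2 * (Cd * l) * (HA ^ 2 / (n * fa / 281) +
    HB ^ 2 / (n * fb / 281)) / τ ^ 2 := ⟨_, rfl⟩
  have hZ0 : 0 ≤ Z := by rw [hZ]; positivity
  have hz : Z ≤ 1405 * X := by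
    have e2 : 1405 * X = HC ^ 2 * (5 * n * l) * (HA ^ 2 / (n * fa / 281) +
        HB ^ 2 / (n * fb / 281)) / τ ^ 2 := by
      have e3 := aux_z (Q := HC ^ 2) (H := HA ^ 2) (l := l) hn hfa hτ
      have e4 := aux_z (Q := HC ^ 2) (H := HB ^ 2) (l := l) hn hfb hτ
      rw [mul_add, add_div, e3, e4, hX]
      ring
    rw [e2, hZ]
    refine div_le_div_of_nonneg_right ?_ (by positivity)
    refine mul_le_mul_of_nonneg_right ?_ (by positivity)
    refine mul_le_mul_of_nonneg_left ?_ (sq_nonneg _)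
    exact mul_le_mul_of_nonneg_right hCd hl.le
  rw [← hZ, ← hX]
  have hlog : 1 + Real.log (1 + Z) ≤ 1405 * (1 + Real.log (1 + X)) := by
    refine le_trans ?_ (log_price (by norm_num : (1 : ℝ) ≤ 1405) hX0)
    have := Real.log_le_log (by linarith) (by linarith : 1 + Z ≤ 1 + 1405 * X)
    linarith
  have hlX : 0 ≤ Real.log (1 + X) := Real.log_nonneg (by linarith)
  have hs : ∀ {E f : ℝ}, 0 < f → √(n ^ 2 * E + wc * (n * f / 281)) ≤ n * √(E + f) := by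
    intro E f hf
    have h1 : n ^ 2 * E + wc * (n * f / 281) ≤ n ^ 2 * (E + f) := by
      have h2 : wc * (n * f / 281) ≤ 281 * n * (n * f / 281) :=
        mul_le_mul_of_nonneg_right hw (by positivity)
      have h3 : 281 * n * (n * f / 281) = n ^ 2 * f := by ring
      rw [mul_add]
      linarith
    refine (Real.sqrt_le_sqrt h1).trans (le_of_eq ?_)
    rw [Real.sqrt_mul (sq_nonneg n), Real.sqrt_sq hn.le]
  have s1 := hs (E := EA) hfa
  have s2 := hs (E := EB) hfb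
  have h1 : τ * √(n ^ 2 * EA + wc * (n * fa / 281)) * √(n ^ 2 * EB + wc * (n * fb / 281)) ≤
      τ * (n * √(EA + fa)) * (n * √(EB + fb)) :=
    mul_le_mul (mul_le_mul_of_nonneg_left s1 hτ.le) s2 (Real.sqrt_nonneg _) (by positivity)
  have h2 : K0 * (1 + Real.log (1 + Z)) ≤ 1405 * (K0 * (1 + Real.log (1 + X))) := by
    have := mul_le_mul_of_nonneg_left hlog hK0
    linarith
  calc _ ≤ 1405 * (K0 * (1 + Real.log (1 + X))) * (τ * (n * √(EA + fa)) * (n * √(EB + fb))) :=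
        mul_le_mul h2 h1 (by positivity) (by positivity)
    _ = _ := by ring

/-! ### GOOD boxes, arbitrary kernels on the two other edges -/

/-- frozen values of a band -/
lemma band_w {j : Fin 4} {e : Fin 3} {J : Nd} {n : ℕ} (hJ : 2 ^ J.1 ≤ n) {T : Fin 3 → Finset ℤ}
    (hTI : ∀ e', ∃ t : ℤ, T e' ⊆ Ico t (t + n)) : ∃ w0 : ℤ, ∀ w x y : ℤ, x ∈ T e → y ∈ T (e + 1) →
      Ye j e w x y ∈ iv J → w ∈ Icc (w0 - 140 * n) (w0 + 140 * n) := by
  choose t ht using hTI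
  refine ⟨(J.2 * 2 ^ (J.1 + 7) - (sl (j.succAbove e) - sl (j.succAbove (e + 2))) * t e -
      (sl (j.succAbove (e + 1)) - sl (j.succAbove (e + 2))) * t (e + 1)) /
        (sl j - sl (j.succAbove (e + 2))), fun w x y hx hy h => ?_⟩
  obtain ⟨w0, hw0, h1⟩ := w_range hJ (ht _ hx) (ht _ hy) h
  subst hw0
  rw [Finset.mem_Icc]
  rw [abs_le] at h1
  constructor <;> linarith [h1.1, h1.2]

lemma card_w {n : ℕ} (hn : 1 ≤ n) (w0 : ℤ) :
    ((Icc (w0 - 140 * (n : ℤ)) (w0 + 140 * n)).card : ℝ) ≤ 281 * n := by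
  rw [Int.card_Icc]
  have e1 : w0 + 140 * (n : ℤ) + 1 - (w0 - 140 * n) = ((280 * n + 1 : ℕ) : ℤ) := by
    push_cast; ring
  rw [e1, Int.toNat_natCast]
  push_cast
  have : (1 : ℝ) ≤ n := by exact_mod_cast hn
  linarith

lemma card_x {n : ℕ} {J : Nd} (hJ : 2 ^ J.1 ≤ n) (t : ℤ) :
    ((Ico (t - 2 ^ (J.1 + 1)) (t + n + 2 ^ (J.1 + 1))).card : ℝ) ≤ 5 * n := by
  rw [Int.card_Ico]
  have e1 : t + (n : ℤ) + 2 ^ (J.1 + 1) - (t - 2 ^ (J.1 + 1)) =
      ((n + 4 * 2 ^ J.1 : ℕ) : ℤ) := by push_cast; ring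
  rw [e1, Int.toNat_natCast]
  have : (2 : ℝ) ^ J.1 ≤ n := by exact_mod_cast hJ
  push_cast
  linarith

lemma norm_cM {T : Fin 3 → Finset ℤ} {g : Fin 3 → ℤ → ℤ → ℂ} {e : Fin 3}
    (h : ∀ z z', ‖g e z z'‖ ≤ 1) (x y : ℤ) : ‖cM T g e x y‖ ≤ 1 := by
  unfold cM
  split_ifs
  · exact h x y
  · simp

lemma box_cM {T : Fin 3 → Finset ℤ} {g : Fin 3 → ℤ → ℤ → ℂ} {e : Fin 3} {t : Fin 3 → ℤ} {n : ℕ}
    (ht : ∀ e, T e ⊆ Ico (t e) (t e + n)) (x y : ℤ) (h : cM T g e x y ≠ 0) :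
    t e ≤ x ∧ x < t e + n ∧ t (e + 1) ≤ y ∧ y < t (e + 1) + n := by
  unfold cM at h
  split_ifs at h with h1
  · have h2 := Finset.mem_Ico.1 (ht _ h1.1)
    have h3 := Finset.mem_Ico.1 (ht _ h1.2)
    exact ⟨h2.1, h2.2, h3.1, h3.2⟩
  · exact absurd rfl h

open Classical in
/-- **GOOD BOXES, killer = line letter `F` on the edge `e`, arbitrary kernels on the two other edges** -/
theorem good_gen : ∃ K0 : ℝ, 0 ≤ K0 ∧ ∀ (bb : ℤ), bb = -1 ∨ bb = -7 → ∀ (j : Fin 4) (e : Fin 3)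
    (R : Finset Nd) (J : Nd), Full R J → ∀ (n : ℕ), 2 ^ J.1 ≤ n →
    ∀ (T : Fin 3 → Finset ℤ) (g : Fin 3 → ℤ → ℤ → ℂ), (∀ e', ∃ t : ℤ, T e' ⊆ Ico t (t + n)) →
    (∀ z z', ‖g e z z'‖ ≤ 1) → ∀ (F : Fn) (s ε Av HC : ℝ), 0 ≤ s → 0 ≤ ε → 0 ≤ Av →
    0 < 81 * s + 170 * Av * √ε → (∀ p ∈ R, av p F ≤ Av) → (∀ y ∈ iv J, ‖F y‖ ≤ HC) →
    ∀ (K : Fin 3 → Kl), (∀ w z z', K e w z z' = lk j T g e F w z z') →
    (∀ e', e' ≠ e → ∀ w x y, K e' w x y ≠ 0 → x ∈ T e' ∧ y ∈ T (e' + 1) ∧ Ye j e' w x y ∈ iv J) →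
    ∀ (HA HB EA EB fa fb : ℝ), 0 < fa → 0 < fb →
    (∀ w x y, ‖K (e + 1) w x y‖ ≤ HA) → (∀ w x y, ‖K (e + 2) w x y‖ ≤ HB) →
    (∀ W1 X Y : Finset ℤ, ∑ w ∈ W1, ∑ x ∈ X, ∑ y ∈ Y, ‖K (e + 1) w x y‖ ^ 2 ≤ n ^ 2 * EA) →
    (∀ W1 X Y : Finset ℤ, ∑ w ∈ W1, ∑ x ∈ X, ∑ y ∈ Y, ‖K (e + 2) w x y‖ ^ 2 ≤ n ^ 2 * EB) →
    ∀ (L1 : ℕ), TA bb (cube L1) (J.1 + 1)
        (fun m p i => GdE j e R J T g F s ε bb m p i ∧ AdX R m (xv j bb m p)) K ≤
      K0 * (1 + Real.log (1 + HC ^ 2 * len J * (HA ^ 2 / fa + HB ^ 2 / fb) /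
        (81 * s + 170 * Av * √ε) ^ 2)) * (81 * s + 170 * Av * √ε) * n ^ 2 *
        (√(EA + fa) * √(EB + fb)) := by
  obtain ⟨KK, hKK, hgood⟩ := good_words
  refine ⟨8 * (1405 * KK), by positivity, ?_⟩
  intro bb hbb j e R J hR n hJn T g hTI hg F s ε Av HC hs hε hAv hτ hF hHC K hKe hSup HA HB EA EB
    fa fb hfa hfb hA hB eA eB L1
  have hn1 : 1 ≤ n := le_trans Nat.one_le_two_pow hJn
  have hn : (0 : ℝ) < n := by exact_mod_cast hn1
  have hl : 0 < len J := Growth.len_pos J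
  obtain ⟨w0, hw0⟩ := band_w (j := j) (e := e + 1) hJn hTI
  choose t ht using hTI
  have hne1 : e + 1 ≠ e := B0Kx253.ne1 e
  have hne2 : e + 2 ≠ e := B0Kx253.ne2 e
  set F' := cutJ J F with hF'
  set K' : Fin 3 → Kl := Function.update K e (lk j T g e F') with hK'
  have k0 : K' e = lk j T g e F' := Function.update_self _ _ _
  have k1 : K' (e + 1) = K (e + 1) := Function.update_of_ne hne1 _ _
  have k2 : K' (e + 2) = K (e + 2) := Function.update_of_ne hne2 _ _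
  have hagr : AgrS j R K K' := by
    intro q hq e' w z z' hy
    by_cases he : e' = e
    · subst he
      rw [k0, hKe, lk_Ye, lk_Ye]
      rw [show F (Ye j e' w z z') = F' (Ye j e' w z z') from cutJ_eq _ (hR.reg.1 _ hq hy)]
    · rw [hK', Function.update_of_ne he]
  rw [TA_agr hbb hagr (cube L1) (J.1 + 1) (fun n p v h => h.2)]
  set τ := 81 * s + 170 * Av * √ε with hτd
  have main : TA bb (cube L1) (J.1 + 1)
      (fun m p i => GdE j e R J T g F s ε bb m p i ∧ AdX R m (xv j bb m p)) K' ≤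
      8 * (KK * (1 + Real.log (1 + |HC| ^ 2 *
        (((Ico (t e - 2 ^ (J.1 + 1)) (t e + n + 2 ^ (J.1 + 1))).card : ℝ) * len J) *
        (HA ^ 2 / (n * fa / 281) + HB ^ 2 / (n * fb / 281)) / τ ^ 2)) *
        (τ * √(n ^ 2 * EA + (Icc (w0 - 140 * (n : ℤ)) (w0 + 140 * n)).card * (n * fa / 281)) *
          √(n ^ 2 * EB + (Icc (w0 - 140 * (n : ℤ)) (w0 + 140 * n)).card * (n * fb / 281)))) := by
    refine ta_words8 hbb (J.1 + 1) L1 e
      (fun m w p0 p1 p2 => KLx446.Gd j (j.succAbove (e + 1)) (j.succAbove (e + 2)) (j.succAbove e)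
        R m w p0 p1 p2 ∧ GoodB R J (cM T g e) F' (sl j - sl (j.succAbove (e + 2)))
        (sl (j.succAbove e) - sl (j.succAbove (e + 2)))
        (sl (j.succAbove (e + 1)) - sl (j.succAbove (e + 2))) s ε w m p0 p2) _ K' ?_ ?_
    · rintro m hm p hp v hv ⟨hgd, had⟩ _
      exact ⟨GaXx571.gd_of_adX j e hbb hv had, (gdE_cut hR).1 hgd⟩
    · intro l hl7 σ Wf
      rw [k0, k1, k2]
      have hk : ∀ w z z', lk j T g e F' w z z' = kw (cM T g e) F' (sl j - sl (j.succAbove (e + 2)))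
          (sl (j.succAbove e) - sl (j.succAbove (e + 2)))
          (sl (j.succAbove (e + 1)) - sl (j.succAbove (e + 2))) w z z' :=
        fun w z z' => (kw_lk j T g e F' w z z').symm
      simp only [hk]
      exact hgood l hl7 j (j.succAbove (e + 1)) (j.succAbove (e + 2)) (j.succAbove e) (d4e j e) R J
        hR (cM T g e) F' (t e) (t e + n) (t (e + 1)) (t (e + 1) + n) (norm_cM hg) (box_cM ht) s ε Av
        hs hε hAv hτ (fun p hp => by rw [hF', av_cut (hR.reg.1 _ hp)]; exact hF p hp) |HC|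
        (norm_cut_le hHC) σ.2.2
        (fun w z z' => pr σ.1 (K (e + 1) w z z')) (fun w z z' => pr σ.2.1 (K (e + 2) w z z'))
        HA HB (n * fa / 281) (n * fb / 281) (n ^ 2 * EA) (n ^ 2 * EB)
        (Icc (w0 - 140 * (n : ℤ)) (w0 + 140 * n))
        (fun w => TwLx253.fs_of_mem (T := T (e + 1)) (T' := T (e + 1 + 1)) fun x y hxy => by
          have h1 := hSup (e + 1) hne1 w x y fun h0 => hxy (by
            simp only [h0]; unfold pr; split_ifs <;> simp)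
          exact ⟨h1.1, h1.2.1⟩)
        (fun w => TwLx253.fs_of_mem (T := T (e + 2)) (T' := T (e + 2 + 1)) fun x y hxy => by
          have h1 := hSup (e + 2) hne2 w x y fun h0 => hxy (by
            simp only [h0]; unfold pr; split_ifs <;> simp)
          exact ⟨h1.1, h1.2.1⟩)
        (by positivity) (by positivity)
        (fun w x y => (abs_pr_le _ _).trans (hA w x y)) (fun w x y => (abs_pr_le _ _).trans (hB w x y))
        (fun w hw => Or.inl fun x y => by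
          have h0 : K (e + 1) w x y = 0 := by
            by_contra hne
            obtain ⟨h1, h2, h3⟩ := hSup (e + 1) hne1 w x y hne
            exact hw (hw0 w x y h1 h2 h3)
          simp only [h0]; unfold pr; split_ifs <;> simp)
        (fun X Y => (Finset.sum_le_sum fun w _ => Finset.sum_le_sum fun x _ =>
          Finset.sum_le_sum fun y _ => sq_pr_le _ _).trans (eA _ X Y))
        (fun X Y => (Finset.sum_le_sum fun w _ => Finset.sum_le_sum fun x _ =>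
          Finset.sum_le_sum fun y _ => sq_pr_le _ _).trans (eB _ X Y)) Wf L1
  refine main.trans ?_
  have h1 := fin_good (K0 := KK) (HC := |HC|) (l := len J) (HA := HA) (HB := HB) (EA := EA)
    (EB := EB) hKK hn hl hτ hfa hfb (Nat.cast_nonneg _) (card_x hJn (t e)) (card_w hn1 w0)
  rw [sq_abs] at h1
  rw [sq_abs]
  have h2 := mul_le_mul_of_nonneg_left h1 (show (0 : ℝ) ≤ 8 by norm_num)
  refine h2.trans (le_of_eq ?_)
  ring

/-! ### the two partners -/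

open Classical in
/-- energy of a band kernel -/
lemma en_ker (B : Finset (ℤ × ℤ × ℤ)) (u : ℤ × ℤ × ℤ → ℂ) (W1 X Y : Finset ℤ) :
    ∑ w ∈ W1, ∑ x ∈ X, ∑ y ∈ Y, ‖ker B u w x y‖ ^ 2 ≤ ∑ ω ∈ B, ‖u ω‖ ^ 2 := by
  have e1 : ∑ w ∈ W1, ∑ x ∈ X, ∑ y ∈ Y, ‖ker B u w x y‖ ^ 2 =
      ∑ ω ∈ W1 ×ˢ (X ×ˢ Y), if ω ∈ B then ‖u ω‖ ^ 2 else 0 := by
    rw [Finset.sum_product]
    refine Finset.sum_congr rfl fun w _ => ?_
    rw [Finset.sum_product]
    refine Finset.sum_congr rfl fun x _ => Finset.sum_congr rfl fun y _ => ?_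
    unfold ker
    split_ifs
    · rfl
    · simp
  rw [e1, ← Finset.sum_filter]
  refine Finset.sum_le_sum_of_subset_of_nonneg (fun ω hω => (Finset.mem_filter.1 hω).2)
    fun _ _ _ => sq_nonneg _

lemma norm_ker {B : Finset (ℤ × ℤ × ℤ)} {u : ℤ × ℤ × ℤ → ℂ} {H : ℝ} (h : ∀ ω ∈ B, ‖u ω‖ ≤ H)
    (w x y : ℤ) : ‖ker B u w x y‖ ≤ |H| := by
  unfold ker
  split_ifs with h1
  · exact (h _ h1).trans (le_abs_self _)
  · simp

lemma sup_ker {j : Fin 4} {e : Fin 3} {T : Fin 3 → Finset ℤ} {J : Nd} {u : ℤ × ℤ × ℤ → ℂ}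
    {w x y : ℤ} (h : ker (BdE j e T J J) u w x y ≠ 0) :
    x ∈ T e ∧ y ∈ T (e + 1) ∧ Ye j e w x y ∈ iv J := by
  unfold ker at h
  split_ifs at h with h1
  · exact (mem_BdE (Finset.Subset.refl _)).1 h1
  · exact absurd rfl h

/-- sup of a cut line kernel, gauge bounded by `G` -/
lemma norm_lk2 {T : Fin 3 → Finset ℤ} {g : Fin 3 → ℤ → ℤ → ℂ} {e : Fin 3} {G : ℝ}
    (hg : ∀ z z', ‖g e z z'‖ ^ 2 ≤ G) (j : Fin 4) {J : Nd} {F : Fn} {H : ℝ}
    (hF : ∀ y ∈ iv J, ‖F y‖ ≤ H) (w x y : ℤ) :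
    ‖lk j T g e (cutJ J F) w x y‖ ≤ √G * |H| := by
  rw [lk_Ye]
  split_ifs with h1
  · rw [norm_mul]
    exact mul_le_mul (Real.le_sqrt_of_sq_le (hg x y)) (norm_cut_le hF _) (norm_nonneg _)
      (Real.sqrt_nonneg _)
  · rw [norm_zero]
    positivity

lemma f3d : ∀ v e e' : Fin 3, e ≠ e' → e ≠ v + 1 → e' ≠ v + 1 →
    (e = v + 1 + 1 ∧ e' = v + 1 + 2) ∨ (e = v + 1 + 2 ∧ e' = v + 1 + 1) := by decide

lemma f3h : ∀ v e e' i : Fin 3, e ≠ e' → e ≠ v + 1 → e' ≠ v + 1 → i ≠ v + 1 → i ≠ e → i = e' := by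
  decide

lemma f3e : ∀ v : Fin 3, v + 1 + 2 = v := by decide

lemma f3f : ∀ v : Fin 3, v + 1 + 1 = v + 2 := by decide

lemma f3g : ∀ v : Fin 3, v + 2 + 2 = v + 1 := by decide

/-- agreement on the nodes of a full region of a line kernel and of its cut -/
lemma agr_cut {j : Fin 4} {R : Finset Nd} {J : Nd} (hR : Full R J) {T : Fin 3 → Finset ℤ}
    {g : Fin 3 → ℤ → ℤ → ℂ} {e : Fin 3} {F : Fn} {q : Nd} (hq : q ∈ R) {w z z' : ℤ}
    (hy : Ye j e w z z' ∈ iv q) : lk j T g e F w z z' = lk j T g e (cutJ J F) w z z' := by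
  rw [lk_Ye, lk_Ye, ← cutJ_eq _ (hR.reg.1 _ hq hy)]

/-- **GOOD BOXES, kernel letter `u` on the edge `e`, line letter `y` on the edge `e'`**: hypothesis
`hG` of `GaV_571.statI_joint` (`cn = n ^ 2`). -/
theorem goodG : ∃ K0 : ℝ, 0 ≤ K0 ∧ ∀ (bb : ℤ), bb = -1 ∨ bb = -7 → ∀ (j : Fin 4) (v : Fin 3)
    (R : Finset Nd) (J : Nd), Full R J → ∀ (n : ℕ), 2 ^ J.1 ≤ n →
    ∀ (Ht Hf : ℝ) (T : Fin 3 → Finset ℤ) (g : Fin 3 → ℤ → ℤ → ℂ) (α : ℤ → ℝ), 0 ≤ Hf →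
    OpD v n Ht Hf T g α → (∀ e', ∃ t : ℤ, T e' ⊆ Ico t (t + n)) →
    ∀ (F : Fin 4 → Fn) (s ε Av HC : ℝ), 0 ≤ s → 0 ≤ ε → 0 ≤ Av → 0 < 81 * s + 170 * Av * √ε →
    (∀ p ∈ R, av p (F (j.succAbove v)) ≤ Av) → (∀ y ∈ iv J, ‖F (j.succAbove v) y‖ ≤ HC) →
    ∀ (e e' : Fin 3), e ≠ e' → e ≠ v + 1 → e' ≠ v + 1 → ∀ (H H' fa fb : ℝ), 0 < fa → 0 < fb →
    ∀ (u : ℤ × ℤ × ℤ → ℂ) (y : ℤ → ℂ), (∀ ω ∈ BdE j e T J J, ‖u ω‖ ≤ H) →
    (∀ z ∈ iv J, ‖y z‖ ≤ H') → ∀ (L1 : ℕ),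
    TA bb (cube L1) (J.1 + 1)
        (fun m p i => GdE j (v + 1) R J T g (F (j.succAbove v)) s ε bb m p i ∧
          AdX R m (xv j bb m p))
        (Function.update (Function.update (lks j T g F) e' (lk j T g e' y)) e
          (ker (BdE j e T J J) u)) ≤
      K0 * (1 + Real.log (1 + HC ^ 2 * len J * (H ^ 2 / fa + Hf * Ht * H' ^ 2 / fb) /
        (81 * s + 170 * Av * √ε) ^ 2)) * (81 * s + 170 * Av * √ε) * (n : ℝ) ^ 2 *
        (√((∑ ω ∈ BdE j e T J J, ‖u ω‖ ^ 2) / (n : ℝ) ^ 2 + fa) *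
          √(∑ z ∈ iv J, ‖y z‖ ^ 2 + fb)) := by
  classical
  obtain ⟨K0, hK0, hmain⟩ := good_gen
  refine ⟨K0, hK0, ?_⟩
  intro bb hbb j v R J hR n hJn Ht Hf T g α hHf hD hTI F s ε Av HC hs hε hAv hτ hF hHC e e' hee he
    he' H H' fa fb hfa hfb u y hu hy L1
  have hn1 : 1 ≤ n := le_trans Nat.one_le_two_pow hJn
  have hn : (0 : ℝ) < n := by exact_mod_cast hn1
  have hHt : 0 ≤ Ht := (hD.α0 0).trans (hD.αH 0)
  have hG : 0 ≤ Hf * Ht := mul_nonneg hHf hHt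
  set K : Fin 3 → Kl := Function.update (Function.update (lks j T g F) e' (lk j T g e' y)) e
    (ker (BdE j e T J J) u) with hK
  set K1 : Fin 3 → Kl := Function.update (Function.update (lks j T g F) e'
    (lk j T g e' (cutJ J y))) e (ker (BdE j e T J J) u) with hK1
  have ke : K1 e = ker (BdE j e T J J) u := Function.update_self _ _ _
  have ke' : K1 e' = lk j T g e' (cutJ J y) := by
    rw [hK1, Function.update_of_ne hee.symm, Function.update_self]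
  have kk : ∀ w z z', K1 (v + 1) w z z' = lk j T g (v + 1) (F (j.succAbove v)) w z z' := by
    intro w z z'
    rw [hK1, Function.update_of_ne he.symm, Function.update_of_ne he'.symm]
    unfold lks
    rw [f3e]
  have hagr : AgrS j R K K1 := by
    intro q hq i w z z' hz
    by_cases h1 : i = e
    · subst h1
      rw [hK, hK1, Function.update_self, Function.update_self]
    · rw [hK, hK1, Function.update_of_ne h1, Function.update_of_ne h1]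
      by_cases h2 : i = e'
      · subst h2
        rw [Function.update_self, Function.update_self]
        exact agr_cut hR hq hz
      · rw [Function.update_of_ne h2, Function.update_of_ne h2]
  rw [TA_agr hbb hagr (cube L1) (J.1 + 1) (fun n p v h => h.2)]
  have sup : ∀ i, i ≠ v + 1 → ∀ w a b, K1 i w a b ≠ 0 →
      a ∈ T i ∧ b ∈ T (i + 1) ∧ Ye j i w a b ∈ iv J := by
    intro i hi w a b hne
    by_cases h1 : i = e
    · subst h1
      rw [ke] at hne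
      exact sup_ker hne
    · have h2 : i = e' := f3h v e e' i hee he he' hi h1
      subst h2
      rw [ke'] at hne
      exact sup_lk hne
  have nu : ∀ w a b, ‖K1 e w a b‖ ≤ |H| := by
    rw [ke]
    exact norm_ker hu
  have ny : ∀ w a b, ‖K1 e' w a b‖ ≤ √(Hf * Ht) * |H'| := by
    rw [ke']
    exact norm_lk2 (fun z z' => hD.sup' hHf he' z z') j hy
  have eu : ∀ W1 X Y : Finset ℤ, ∑ w ∈ W1, ∑ x ∈ X, ∑ y ∈ Y, ‖K1 e w x y‖ ^ 2 ≤
      n ^ 2 * ((∑ ω ∈ BdE j e T J J, ‖u ω‖ ^ 2) / (n : ℝ) ^ 2) := by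
    intro W1 X Y
    rw [ke, mul_div_cancel₀ _ (by positivity)]
    exact en_ker _ _ _ _ _
  have ey : ∀ W1 X Y : Finset ℤ, ∑ w ∈ W1, ∑ x ∈ X, ∑ y ∈ Y, ‖K1 e' w x y‖ ^ 2 ≤
      n ^ 2 * ∑ z ∈ iv J, ‖y z‖ ^ 2 := by
    intro W1 X Y
    rw [ke', Growth.sum_av, ← mul_assoc]
    exact en_lk hD j e' J y W1 X Y
  have sq1 : (√(Hf * Ht) * |H'|) ^ 2 = Hf * Ht * H' ^ 2 := by
    rw [mul_pow, Real.sq_sqrt hG, sq_abs]
  have sq2 : |H| ^ 2 = H ^ 2 := sq_abs H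
  have hb1 : ∀ z z', ‖g (v + 1) z z'‖ ≤ 1 := hD.b1
  rcases f3d v e e' hee he he' with ⟨h1, h2⟩ | ⟨h1, h2⟩
  · have main := hmain bb hbb j (v + 1) R J hR n hJn T g hTI hb1 (F (j.succAbove v)) s ε Av HC hs
      hε hAv hτ hF hHC K1 kk sup |H| (√(Hf * Ht) * |H'|)
      ((∑ ω ∈ BdE j e T J J, ‖u ω‖ ^ 2) / (n : ℝ) ^ 2) (∑ z ∈ iv J, ‖y z‖ ^ 2) fa fb hfa hfb
      (by rw [← h1]; exact nu) (by rw [← h2]; exact ny) (by rw [← h1]; exact eu)
      (by rw [← h2]; exact ey) L1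
    rw [sq1, sq2] at main
    exact main
  · have main := hmain bb hbb j (v + 1) R J hR n hJn T g hTI hb1 (F (j.succAbove v)) s ε Av HC hs
      hε hAv hτ hF hHC K1 kk sup (√(Hf * Ht) * |H'|) |H|
      (∑ z ∈ iv J, ‖y z‖ ^ 2) ((∑ ω ∈ BdE j e T J J, ‖u ω‖ ^ 2) / (n : ℝ) ^ 2) fb fa hfb hfa
      (by rw [← h2]; exact ny) (by rw [← h1]; exact nu) (by rw [← h2]; exact ey)
      (by rw [← h1]; exact eu) L1
    rw [sq1, sq2] at main
    refine main.trans (le_of_eq ?_)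
    rw [add_comm (Hf * Ht * H' ^ 2 / fb), mul_comm (√(∑ z ∈ iv J, ‖y z‖ ^ 2 + fb))]


/-! ### THE REST -/

/-- numbers of the rest -/
lemma fin_rest {K0 HC Cd l n HA HB Av C0 E1 E2 d1 d2 wc : ℝ} (hK0 : 0 ≤ K0) (hn : 0 < n)
    (hl : 0 < l) (hAv : 0 < Av) (hd1 : 0 < d1) (hd2 : 0 < d2) (hCd0 : 0 ≤ Cd) (hCd : Cd ≤ 5 * n)
    (hw : wc ≤ 281 * n) (hC0 : 0 ≤ C0) (hE1 : 0 ≤ E1) (hE2 : 0 ≤ E2) :
    K0 * (1 + Real.log (1 + HC ^ 2 * (Cd * l) * (HA ^ 2 / (n * (d1 * l) / 281) +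
        HB ^ 2 / (n * (d2 * l) / 281)) / (16 * Av) ^ 2)) *
        ((16 * Av) * √(n ^ 2 * (C0 * E1 * l) + wc * (n * (d1 * l) / 281)) *
          √(n ^ 2 * (C0 * E2 * l) + wc * (n * (d2 * l) / 281))) ≤
    22480 * K0 * (1 + C0) * (1 + Real.log (1 + HC ^ 2 * (HA ^ 2 / d1 + HB ^ 2 / d2) / Av ^ 2)) * Av *
      (√(E1 + d1) * √(E2 + d2)) * (n ^ 2 * l) := by
  have h1 := fin_good (K0 := K0) (HC := HC) (HA := HA) (HB := HB) (EA := C0 * E1 * l)
    (EB := C0 * E2 * l) hK0 hn hl (show 0 < 16 * Av by positivity) (show 0 < d1 * l by positivity)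
    (show 0 < d2 * l by positivity) hCd0 hCd hw
  refine h1.trans ?_
  have hz : HC ^ 2 * l * (HA ^ 2 / (d1 * l) + HB ^ 2 / (d2 * l)) / (16 * Av) ^ 2 ≤
      HC ^ 2 * (HA ^ 2 / d1 + HB ^ 2 / d2) / Av ^ 2 := by
    have e1 : HC ^ 2 * l * (HA ^ 2 / (d1 * l) + HB ^ 2 / (d2 * l)) / (16 * Av) ^ 2 =
        HC ^ 2 * (HA ^ 2 / d1 + HB ^ 2 / d2) / Av ^ 2 * (1 / 256) := by
      field_simp
      ring
    rw [e1]
    have h2 : 0 ≤ HC ^ 2 * (HA ^ 2 / d1 + HB ^ 2 / d2) / Av ^ 2 := by positivity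
    linarith
  have hz0 : 0 ≤ HC ^ 2 * l * (HA ^ 2 / (d1 * l) + HB ^ 2 / (d2 * l)) / (16 * Av) ^ 2 := by
    positivity
  have hlog : 1 + Real.log (1 + HC ^ 2 * l * (HA ^ 2 / (d1 * l) + HB ^ 2 / (d2 * l)) /
      (16 * Av) ^ 2) ≤ 1 + Real.log (1 + HC ^ 2 * (HA ^ 2 / d1 + HB ^ 2 / d2) / Av ^ 2) := by
    have := Real.log_le_log (by linarith) (by linarith :
      1 + HC ^ 2 * l * (HA ^ 2 / (d1 * l) + HB ^ 2 / (d2 * l)) / (16 * Av) ^ 2 ≤
      1 + HC ^ 2 * (HA ^ 2 / d1 + HB ^ 2 / d2) / Av ^ 2)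
    linarith
  have hlog0 : 0 ≤ Real.log (1 + HC ^ 2 * l * (HA ^ 2 / (d1 * l) + HB ^ 2 / (d2 * l)) /
      (16 * Av) ^ 2) := Real.log_nonneg (by linarith)
  have hs : ∀ {E d : ℝ}, 0 ≤ E → 0 < d → √(C0 * E * l + d * l) ≤ √(1 + C0) * √(E + d) * √l := by
    intro E d hE hd
    rw [← Real.sqrt_mul (by positivity), ← Real.sqrt_mul (by positivity)]
    refine Real.sqrt_le_sqrt ?_
    nlinarith [mul_nonneg hE hl.le, mul_nonneg (mul_nonneg hC0 hd.le) hl.le]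
  have h3 : √(C0 * E1 * l + d1 * l) * √(C0 * E2 * l + d2 * l) ≤
      (1 + C0) * (√(E1 + d1) * √(E2 + d2)) * l := by
    calc √(C0 * E1 * l + d1 * l) * √(C0 * E2 * l + d2 * l) ≤
        (√(1 + C0) * √(E1 + d1) * √l) * (√(1 + C0) * √(E2 + d2) * √l) :=
          mul_le_mul (hs hE1 hd1) (hs hE2 hd2) (Real.sqrt_nonneg _) (by positivity)
      _ = (√(1 + C0) * √(1 + C0)) * (√(E1 + d1) * √(E2 + d2)) * (√l * √l) := by ring
      _ = _ := by rw [Real.mul_self_sqrt (by positivity), Real.mul_self_sqrt hl.le]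
  calc 1405 * K0 * (1 + Real.log (1 + HC ^ 2 * l * (HA ^ 2 / (d1 * l) + HB ^ 2 / (d2 * l)) /
      (16 * Av) ^ 2)) * (16 * Av) * n ^ 2 * (√(C0 * E1 * l + d1 * l) * √(C0 * E2 * l + d2 * l))
      ≤ 1405 * K0 * (1 + Real.log (1 + HC ^ 2 * (HA ^ 2 / d1 + HB ^ 2 / d2) / Av ^ 2)) *
        (16 * Av) * n ^ 2 * ((1 + C0) * (√(E1 + d1) * √(E2 + d2)) * l) := by
        refine mul_le_mul ?_ h3 (by positivity) ?_
        · refine mul_le_mul_of_nonneg_right (mul_le_mul_of_nonneg_right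
            (mul_le_mul_of_nonneg_left hlog (by positivity)) (by positivity)) (by positivity)
        · have : 0 ≤ 1 + Real.log (1 + HC ^ 2 * (HA ^ 2 / d1 + HB ^ 2 / d2) / Av ^ 2) := by
            linarith
          positivity
    _ = _ := by ring

/-- line kernel of the edge `e + 1` in the coordinates of the word -/
lemma lk_kA (j : Fin 4) (e : Fin 3) (T : Fin 3 → Finset ℤ) (g : Fin 3 → ℤ → ℤ → ℂ)
    (F4 : Fin 4 → Fn) (w z0 z1 : ℤ) :
    lk j T g (e + 1) (F4 (j.succAbove e)) w z0 z1 =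
      kA j (j.succAbove (e + 1)) (j.succAbove (e + 2)) (j.succAbove e) (T (e + 1)) (T (e + 2))
        (fun z0 z1 => if z1 ∈ T (e + 2) then g (e + 1) z0 z1 else 0) F4 w z0 z1 := by
  rw [lk_Ye, f3f]
  unfold kA fr4 Ye
  rw [f3e, f3f]
  beta_reduce
  by_cases h : z0 ∈ T (e + 1) ∧ z1 ∈ T (e + 2)
  · rw [if_pos h, if_pos h, if_pos h.2]
  · rw [if_neg h, if_neg h]

/-- line kernel of the edge `e + 2` in the coordinates of the word -/
lemma lk_kB (j : Fin 4) (e : Fin 3) (T : Fin 3 → Finset ℤ) (g : Fin 3 → ℤ → ℤ → ℂ)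
    (F4 : Fin 4 → Fn) (w z1 z2 : ℤ) :
    lk j T g (e + 2) (F4 (j.succAbove (e + 1))) w z1 z2 =
      kB j (j.succAbove (e + 1)) (j.succAbove (e + 2)) (j.succAbove e) (T (e + 2)) (T e)
        (fun z1 z2 => if z1 ∈ T (e + 2) then g (e + 2) z1 z2 else 0) F4 w z1 z2 := by
  rw [lk_Ye, f3a]
  unfold kB fr4 Ye
  rw [f3a, f3g]
  beta_reduce
  by_cases h : z1 ∈ T (e + 2) ∧ z2 ∈ T e
  · rw [if_pos h, if_pos h, if_pos h.1]
  · rw [if_neg h, if_neg h]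

lemma f3j : ∀ e : Fin 3, ¬ e + 2 = e + 1 := by decide

lemma f3i : ∀ e i : Fin 3, i = e ∨ i = e + 1 ∨ i = e + 2 := by decide

open Classical in
/-- **THE REST, raw form**: killer edge `e`, weight `α` of the vertex `e + 2` -/
theorem rest_gen : ∃ K0 : ℝ, 0 ≤ K0 ∧ ∀ (bb : ℤ), bb = -1 ∨ bb = -7 → ∀ (j : Fin 4) (e : Fin 3)
    (R : Finset Nd) (J : Nd), Full R J → ∀ (n : ℕ), 2 ^ J.1 ≤ n →
    ∀ (Ht Hf : ℝ) (T : Fin 3 → Finset ℤ) (g : Fin 3 → ℤ → ℤ → ℂ) (α : ℤ → ℝ), 1 ≤ Ht → 0 ≤ Hf →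
    (∀ e', ∃ t : ℤ, T e' ⊆ Ico t (t + n)) → (∀ z z', ‖g e z z'‖ ≤ 1) → (∀ z, 0 ≤ α z) →
    (∀ z, α z ≤ Ht) → ∑ z ∈ T (e + 2), α z ≤ n →
    (∀ z z', ‖g (e + 1) z z'‖ ^ 2 ≤ Hf * α z') → (∀ z z', ‖g (e + 2) z z'‖ ^ 2 ≤ Hf * α z) →
    ∀ (F X Y : Fn) (s ε D Av HC HX HY AX AY d1 d2 : ℝ), 0 < ε → 0 ≤ D → 0 < Av →
    (∀ p ∈ R, av p F ≤ Av) → (∀ y ∈ iv J, ‖F y‖ ≤ HC) → ExE j e R T g F s D →
    (∀ y ∈ iv J, ‖X y‖ ≤ HX) → (∀ y ∈ iv J, ‖Y y‖ ≤ HY) → (∀ p ∈ R, av p X ≤ AX) →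
    (∀ p ∈ R, av p Y ≤ AY) → 0 < d1 → 0 < d2 →
    ∀ (K : Fin 3 → Kl), (∀ w z z', K e w z z' = lk j T g e F w z z') →
    (∀ w z z', K (e + 1) w z z' = lk j T g (e + 1) X w z z') →
    (∀ w z z', K (e + 2) w z z' = lk j T g (e + 2) Y w z z') → ∀ (L1 : ℕ),
    TA bb (cube L1) (J.1 + 1)
        (fun m p i => ¬ GdE j e R J T g F s ε bb m p i ∧ AdX R m (xv j bb m p)) K ≤
      K0 * (1 + Real.log (1 + HC ^ 2 * (Hf * Ht * HX ^ 2 / d1 + Hf * Ht * HY ^ 2 / d2) / Av ^ 2)) *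
        Av * (√(Hf * AX ^ 2 * (D / ε) * (1 + Real.log Ht) + d1) *
          √(Hf * AY ^ 2 * (D / ε) * (1 + Real.log Ht) + d2)) * (n ^ 2 * len J) := by
  obtain ⟨KK, hKK, hrest⟩ := rest_words
  obtain ⟨C0, hC0, hAB⟩ := rest_AB_log
  refine ⟨8 * (22480 * KK * (1 + 7 * C0)), by positivity, ?_⟩
  intro bb hbb j e R J hR n hJn Ht Hf T g α hHt hHf hTI hg α0 αH α1 gA gB F X Y s ε D Av HC HX HY
    AX AY d1 d2 hε hD0 hAv hF hHC hEx hX hY aX aY hd1 hd2 K hKe hK1 hK2 L1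
  have hn1 : 1 ≤ n := le_trans Nat.one_le_two_pow hJn
  have hn : (0 : ℝ) < n := by exact_mod_cast hn1
  have hl : 0 < len J := Growth.len_pos J
  obtain ⟨w0, hw0⟩ := band_w (j := j) (e := e + 1) hJn hTI
  choose t ht using hTI
  have hG : 0 ≤ Hf * Ht := mul_nonneg hHf (by linarith)
  have hlog0 : 0 ≤ Real.log Ht := Real.log_nonneg hHt
  -- cut letters
  set F4 : Fin 4 → Fn := Function.update (fun _ => cutJ J Y) (j.succAbove e) (cutJ J X) with hF4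
  have f4e : F4 (j.succAbove e) = cutJ J X := Function.update_self _ _ _
  have f4e1 : F4 (j.succAbove (e + 1)) = cutJ J Y :=
    Function.update_of_ne (fun h => B0Kx253.ne1 e (Fin.succAbove_right_injective h)) _ _
  set K' : Fin 3 → Kl := fun i => if i = e then lk j T g e (cutJ J F) else
    if i = e + 1 then lk j T g (e + 1) (cutJ J X) else lk j T g (e + 2) (cutJ J Y) with hK'
  have k0 : K' e = lk j T g e (cutJ J F) := if_pos rfl
  have k1 : K' (e + 1) = lk j T g (e + 1) (cutJ J X) :=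
    (if_neg (B0Kx253.ne1 e)).trans (if_pos rfl)
  have k2 : K' (e + 2) = lk j T g (e + 2) (cutJ J Y) :=
    (if_neg (B0Kx253.ne2 e)).trans (if_neg (f3j e))
  have hagr : AgrS j R K K' := by
    intro q hq i w z z' hy
    rcases f3i e i with rfl | rfl | rfl
    · rw [k0, hKe]
      exact agr_cut hR hq hy
    · rw [k1, hK1]
      exact agr_cut hR hq hy
    · rw [k2, hK2]
      exact agr_cut hR hq hy
  rw [TA_agr hbb hagr (cube L1) (J.1 + 1) (fun n p v h => h.2)]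
  -- gauges
  have gA' : ∀ z z', ‖g (e + 1) z z'‖ ^ 2 ≤ Hf * Ht := fun z z' =>
    (gA z z').trans (mul_le_mul_of_nonneg_left (αH z') hHf)
  have gB' : ∀ z z', ‖g (e + 2) z z'‖ ^ 2 ≤ Hf * Ht := fun z z' =>
    (gB z z').trans (mul_le_mul_of_nonneg_left (αH z) hHf)
  set th : ℤ → ℝ := fun z => if z ∈ T (e + 2) then α z else 0 with hth
  have th0 : ∀ z, 0 ≤ th z := by
    intro z
    simp only [hth]
    split_ifs
    · exact α0 z
    · exact le_rfl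
  have thH : ∀ z, th z ≤ Ht := by
    intro z
    simp only [hth]
    split_ifs
    · exact αH z
    · linarith
  have ths : ∀ z, th z ≠ 0 → t (e + 2) ≤ z ∧ z < t (e + 2) + n := by
    intro z hz
    simp only [hth] at hz
    split_ifs at hz with h
    · exact Finset.mem_Ico.1 (ht _ h)
    · exact absurd rfl hz
  have thS : ∑ z ∈ Ico (t (e + 2)) (t (e + 2) + n), th z ≤ n := by
    simp only [hth]
    rw [← Finset.sum_filter]
    refine le_trans ?_ α1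
    refine Finset.sum_le_sum_of_subset_of_nonneg (fun z hz => (Finset.mem_filter.1 hz).2)
      fun z _ _ => α0 z
  set W1 : Finset ℤ := Icc (w0 - 140 * (n : ℤ)) (w0 + 140 * n) with hW1
  have hWI : W1 ⊆ Ico (w0 - 140 * (n : ℤ)) (w0 - 140 * n + (281 * n : ℕ)) := by
    intro w hw
    rw [hW1, Finset.mem_Icc] at hw
    rw [Finset.mem_Ico]
    have : (1 : ℤ) ≤ n := by exact_mod_cast hn1
    push_cast
    constructor <;> linarith [hw.1, hw.2]
  have hEx' : ExD R (cM T g e) (cutJ J F) (sl j - sl (j.succAbove (e + 2)))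
      (sl (j.succAbove e) - sl (j.succAbove (e + 2)))
      (sl (j.succAbove (e + 1)) - sl (j.succAbove (e + 2))) s D := exD_congr hR cutJ_eq hEx
  have hcof := (d4e j e).cof
  obtain ⟨enA, enB⟩ := hAB j (j.succAbove (e + 1)) (j.succAbove (e + 2)) (j.succAbove e) (d4e j e)
    R J hR (cM T g e) (cutJ J F) s ε D hε hD0 hEx' th Ht Hf (t (e + 2)) n th0 hHt hHf thH ths F4
    (w0 - 140 * (n : ℤ)) (281 * n) W1 hWI
  -- size of the energies
  have hvol : ((((281 * n : ℕ) : ℝ) + 2 ^ J.1) * 2 ^ J.1 *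
      (∑ z ∈ Ico (t (e + 2)) (t (e + 2) + n), th z + n + 2 ^ J.1)) ≤ 7 * (n ^ 2 * len J) := by
    have h2J : (2 : ℝ) ^ J.1 ≤ n := by exact_mod_cast hJn
    have h0J : (0 : ℝ) < 2 ^ J.1 := by positivity
    have e1 : len J = 128 * 2 ^ J.1 := by
      unfold len
      rw [pow_add]
      norm_num
      ring
    have hS0 : 0 ≤ ∑ z ∈ Ico (t (e + 2)) (t (e + 2) + n), th z := Finset.sum_nonneg fun z _ => th0 z
    push_cast
    calc (281 * (n : ℝ) + 2 ^ J.1) * 2 ^ J.1 *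
        (∑ z ∈ Ico (t (e + 2)) (t (e + 2) + n), th z + n + 2 ^ J.1)
        ≤ (282 * n) * 2 ^ J.1 * (3 * n) := by
          refine mul_le_mul (mul_le_mul_of_nonneg_right (by linarith) h0J.le) (by linarith)
            (by positivity) (by positivity)
      _ ≤ 7 * (n ^ 2 * (128 * 2 ^ J.1)) := by nlinarith [mul_pos (mul_pos hn hn) h0J]
      _ = _ := by rw [e1]
  have hEn : ∀ A : ℝ, Hf * (C0 * A ^ 2 * (D / ε) * (1 + Real.log Ht) *
      ((((281 * n : ℕ) : ℝ) + 2 ^ J.1) * 2 ^ J.1 *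
      (∑ z ∈ Ico (t (e + 2)) (t (e + 2) + n), th z + n + 2 ^ J.1))) ≤
      n ^ 2 * ((7 * C0) * (Hf * A ^ 2 * (D / ε) * (1 + Real.log Ht)) * len J) := by
    intro A
    have h1 : 0 ≤ Hf * (C0 * A ^ 2 * (D / ε) * (1 + Real.log Ht)) := by positivity
    calc _ = Hf * (C0 * A ^ 2 * (D / ε) * (1 + Real.log Ht)) *
          ((((281 * n : ℕ) : ℝ) + 2 ^ J.1) * 2 ^ J.1 *
          (∑ z ∈ Ico (t (e + 2)) (t (e + 2) + n), th z + n + 2 ^ J.1)) := by ring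
      _ ≤ Hf * (C0 * A ^ 2 * (D / ε) * (1 + Real.log Ht)) * (7 * (n ^ 2 * len J)) :=
          mul_le_mul_of_nonneg_left hvol h1
      _ = _ := by ring
  have enA' : ∀ Xf Yf : Finset ℤ, ∑ w ∈ W1, ∑ x ∈ Xf, ∑ y ∈ Yf,
      (if KLdx138.RsP R J (cM T g e) (cutJ J F) (sl j - sl (j.succAbove (e + 2)))
        (sl (j.succAbove e) - sl (j.succAbove (e + 2)))
        (sl (j.succAbove (e + 1)) - sl (j.succAbove (e + 2))) s ε w (-w - x - y) x then
        ‖lk j T g (e + 1) (cutJ J X) w x y‖ ^ 2 else 0) ≤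
      n ^ 2 * ((7 * C0) * (Hf * AX ^ 2 * (D / ε) * (1 + Real.log Ht)) * len J) := by
    intro Xf Yf
    refine le_trans ?_ ((enA (T (e + 1)) (T (e + 2))
      (fun z0 z1 => if z1 ∈ T (e + 2) then g (e + 1) z0 z1 else 0) AX (fun z0 z1 => ?_)
      (fun p hp => by rw [f4e, av_cut (hR.reg.1 _ hp)]; exact aX p hp) Xf Yf).trans (hEn AX))
    · refine le_of_eq (Finset.sum_congr rfl fun w _ => Finset.sum_congr rfl fun x _ =>
        Finset.sum_congr rfl fun y _ => ?_)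
      rw [← f4e, lk_kA]
    · simp only [hth]
      split_ifs
      · exact gA z0 z1
      · simp
  have enB' : ∀ Xf Yf : Finset ℤ, ∑ w ∈ W1, ∑ x ∈ Xf, ∑ y ∈ Yf,
      (if KLdx138.RsP R J (cM T g e) (cutJ J F) (sl j - sl (j.succAbove (e + 2)))
        (sl (j.succAbove e) - sl (j.succAbove (e + 2)))
        (sl (j.succAbove (e + 1)) - sl (j.succAbove (e + 2))) s ε w y (-w - x - y) then
        ‖lk j T g (e + 2) (cutJ J Y) w x y‖ ^ 2 else 0) ≤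
      n ^ 2 * ((7 * C0) * (Hf * AY ^ 2 * (D / ε) * (1 + Real.log Ht)) * len J) := by
    intro Xf Yf
    refine le_trans ?_ ((enB (T (e + 2)) (T e)
      (fun z1 z2 => if z1 ∈ T (e + 2) then g (e + 2) z1 z2 else 0) AY (fun z1 z2 => ?_)
      (fun p hp => by rw [f4e1, av_cut (hR.reg.1 _ hp)]; exact aY p hp) Xf Yf).trans (hEn AY))
    · refine le_of_eq (Finset.sum_congr rfl fun w _ => Finset.sum_congr rfl fun x _ =>
        Finset.sum_congr rfl fun y _ => ?_)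
      rw [← f4e1, lk_kB]
    · simp only [hth]
      split_ifs
      · exact gB z1 z2
      · simp
  have main : TA bb (cube L1) (J.1 + 1)
      (fun m p i => ¬ GdE j e R J T g F s ε bb m p i ∧ AdX R m (xv j bb m p)) K' ≤
      8 * (KK * (1 + Real.log (1 + |HC| ^ 2 *
        (((Ico (t e - 2 ^ (J.1 + 1)) (t e + n + 2 ^ (J.1 + 1))).card : ℝ) * len J) *
        ((√(Hf * Ht) * |HX|) ^ 2 / (n * (d1 * len J) / 281) +
          (√(Hf * Ht) * |HY|) ^ 2 / (n * (d2 * len J) / 281)) / (16 * Av) ^ 2)) *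
        ((16 * Av) * √(n ^ 2 * ((7 * C0) * (Hf * AX ^ 2 * (D / ε) * (1 + Real.log Ht)) * len J) +
            W1.card * (n * (d1 * len J) / 281)) *
          √(n ^ 2 * ((7 * C0) * (Hf * AY ^ 2 * (D / ε) * (1 + Real.log Ht)) * len J) +
            W1.card * (n * (d2 * len J) / 281)))) := by
    refine ta_words8 hbb (J.1 + 1) L1 e
      (fun m w p0 p1 p2 => KLx446.Gd j (j.succAbove (e + 1)) (j.succAbove (e + 2)) (j.succAbove e)
        R m w p0 p1 p2 ∧ ¬ GoodB R J (cM T g e) (cutJ J F) (sl j - sl (j.succAbove (e + 2)))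
        (sl (j.succAbove e) - sl (j.succAbove (e + 2)))
        (sl (j.succAbove (e + 1)) - sl (j.succAbove (e + 2))) s ε w m p0 p2) _ K' ?_ ?_
    · rintro m hm p hp v hv ⟨hgd, had⟩ _
      exact ⟨GaXx571.gd_of_adX j e hbb hv had, fun h => hgd ((gdE_cut hR).2 h)⟩
    · intro l hl7 σ Wf
      rw [k0, k1, k2]
      have hk : ∀ w z z', lk j T g e (cutJ J F) w z z' = kw (cM T g e) (cutJ J F)
          (sl j - sl (j.succAbove (e + 2))) (sl (j.succAbove e) - sl (j.succAbove (e + 2)))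
          (sl (j.succAbove (e + 1)) - sl (j.succAbove (e + 2))) w z z' :=
        fun w z z' => (kw_lk j T g e (cutJ J F) w z z').symm
      simp only [hk]
      refine hrest l hl7 j (j.succAbove (e + 1)) (j.succAbove (e + 2)) (j.succAbove e) (d4e j e) R J
        hR (cM T g e) (cutJ J F) (t e) (t e + n) (t (e + 1)) (t (e + 1) + n) (norm_cM hg)
        (box_cM ht) s ε (16 * Av) (by positivity) (fun w m q u hOm =>
          op_om hcof (fun p hp => by rw [av_cut (hR.reg.1 _ hp)]; exact hF p hp) (norm_cM hg) hOm)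
        |HC| (norm_cut_le hHC) σ.2.2
        (fun w z z' => pr σ.1 (lk j T g (e + 1) (cutJ J X) w z z'))
        (fun w z z' => pr σ.2.1 (lk j T g (e + 2) (cutJ J Y) w z z'))
        (√(Hf * Ht) * |HX|) (√(Hf * Ht) * |HY|) (n * (d1 * len J) / 281) (n * (d2 * len J) / 281)
        (n ^ 2 * ((7 * C0) * (Hf * AX ^ 2 * (D / ε) * (1 + Real.log Ht)) * len J))
        (n ^ 2 * ((7 * C0) * (Hf * AY ^ 2 * (D / ε) * (1 + Real.log Ht)) * len J)) W1
        (fun w => TwLx253.fs_of_mem (T := T (e + 1)) (T' := T (e + 1 + 1)) fun x y hxy => by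
          have h1 := sup_lk (j := j) (T := T) (g := g) (e := e + 1) (J := J) (F := X) (w := w)
            (x := x) (y := y) fun h0 => hxy (by
              simp only [h0]; unfold pr; split_ifs <;> simp)
          exact ⟨h1.1, h1.2.1⟩)
        (fun w => TwLx253.fs_of_mem (T := T (e + 2)) (T' := T (e + 2 + 1)) fun x y hxy => by
          have h1 := sup_lk (j := j) (T := T) (g := g) (e := e + 2) (J := J) (F := Y) (w := w)
            (x := x) (y := y) fun h0 => hxy (by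
              simp only [h0]; unfold pr; split_ifs <;> simp)
          exact ⟨h1.1, h1.2.1⟩)
        (by positivity) (by positivity)
        (fun w x y => (abs_pr_le _ _).trans (norm_lk2 gA' j hX w x y))
        (fun w x y => (abs_pr_le _ _).trans (norm_lk2 gB' j hY w x y))
        (fun w hw => Or.inl fun x y => by
          have h0 : lk j T g (e + 1) (cutJ J X) w x y = 0 := by
            by_contra hne
            obtain ⟨h1, h2, h3⟩ := sup_lk hne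
            exact hw (hw0 w x y h1 h2 h3)
          simp only [h0]; unfold pr; split_ifs <;> simp)
        (fun Xf Yf => le_trans (Finset.sum_le_sum fun w _ => Finset.sum_le_sum fun x _ =>
          Finset.sum_le_sum fun y _ => ?_) (enA' Xf Yf))
        (fun Xf Yf => le_trans (Finset.sum_le_sum fun w _ => Finset.sum_le_sum fun x _ =>
          Finset.sum_le_sum fun y _ => ?_) (enB' Xf Yf)) Wf L1
      · split_ifs
        · exact sq_pr_le _ _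
        · exact le_rfl
      · split_ifs
        · exact sq_pr_le _ _
        · exact le_rfl
  refine main.trans ?_
  have h1 := fin_rest (K0 := KK) (HC := |HC|) (l := len J) (HA := √(Hf * Ht) * |HX|)
    (HB := √(Hf * Ht) * |HY|) (C0 := 7 * C0)
    (E1 := Hf * AX ^ 2 * (D / ε) * (1 + Real.log Ht))
    (E2 := Hf * AY ^ 2 * (D / ε) * (1 + Real.log Ht)) hKK hn hl hAv hd1 hd2 (Nat.cast_nonneg _)
    (card_x hJn (t e)) (card_w hn1 w0) (by positivity) (by positivity) (by positivity)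
  have h2 := mul_le_mul_of_nonneg_left h1 (show (0 : ℝ) ≤ 8 by norm_num)
  refine h2.trans (le_of_eq ?_)
  rw [mul_pow, mul_pow, Real.sq_sqrt hG, sq_abs, sq_abs, sq_abs]
  ring

/-- **THE REST of an op-atom**: line letters `X = F (j.succAbove (v + 1))`,
`Y = F (j.succAbove (v + 2))`, killer letter `F (j.succAbove v)` -/
theorem restR : ∃ K0 : ℝ, 0 ≤ K0 ∧ ∀ (bb : ℤ), bb = -1 ∨ bb = -7 → ∀ (j : Fin 4) (v : Fin 3)
    (R : Finset Nd) (J : Nd), Full R J → ∀ (n : ℕ), 2 ^ J.1 ≤ n →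
    ∀ (Ht Hf : ℝ) (T : Fin 3 → Finset ℤ) (g : Fin 3 → ℤ → ℤ → ℂ) (α : ℤ → ℝ), 1 ≤ Ht → 0 ≤ Hf →
    OpD v n Ht Hf T g α → (∀ e', ∃ t : ℤ, T e' ⊆ Ico t (t + n)) →
    ∀ (F : Fin 4 → Fn) (s ε D Av HC HX HY AX AY d1 d2 : ℝ), 0 < ε → 0 ≤ D → 0 < Av →
    (∀ p ∈ R, av p (F (j.succAbove v)) ≤ Av) → (∀ y ∈ iv J, ‖F (j.succAbove v) y‖ ≤ HC) →
    ExE j (v + 1) R T g (F (j.succAbove v)) s D →
    (∀ y ∈ iv J, ‖F (j.succAbove (v + 1)) y‖ ≤ HX) →
    (∀ y ∈ iv J, ‖F (j.succAbove (v + 2)) y‖ ≤ HY) →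
    (∀ p ∈ R, av p (F (j.succAbove (v + 1))) ≤ AX) →
    (∀ p ∈ R, av p (F (j.succAbove (v + 2))) ≤ AY) → 0 < d1 → 0 < d2 → ∀ (L1 : ℕ),
    TA bb (cube L1) (J.1 + 1)
        (fun m p i => ¬ GdE j (v + 1) R J T g (F (j.succAbove v)) s ε bb m p i ∧
          AdX R m (xv j bb m p)) (lks j T g F) ≤
      K0 * (1 + Real.log (1 + HC ^ 2 * (Hf * Ht * HX ^ 2 / d1 + Hf * Ht * HY ^ 2 / d2) / Av ^ 2)) *
        Av * (√(Hf * AX ^ 2 * (D / ε) * (1 + Real.log Ht) + d1) *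
          √(Hf * AY ^ 2 * (D / ε) * (1 + Real.log Ht) + d2)) * (n ^ 2 * len J) := by
  obtain ⟨K0, hK0, hmain⟩ := rest_gen
  refine ⟨K0, hK0, ?_⟩
  intro bb hbb j v R J hR n hJn Ht Hf T g α hHt hHf hD hTI F s ε D Av HC HX HY AX AY d1 d2 hε hD0
    hAv hF hHC hEx hX hY aX aY hd1 hd2 L1
  refine hmain bb hbb j (v + 1) R J hR n hJn Ht Hf T g α hHt hHf hTI hD.b1 hD.α0 hD.αH ?_ ?_ ?_
    (F (j.succAbove v)) (F (j.succAbove (v + 1))) (F (j.succAbove (v + 2))) s ε D Av HC HX HY AX AY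
    d1 d2 hε hD0 hAv hF hHC hEx hX hY aX aY hd1 hd2 (lks j T g F) ?_ ?_ ?_ L1
  · rw [f3e]
    exact hD.α1
  · intro z z'
    rw [f3f]
    exact hD.VH z' z
  · intro z z'
    rw [f3e]
    exact hD.UH z z'
  · intro w z z'
    unfold lks
    rw [f3e]
  · intro w z z'
    unfold lks
    rw [f3e (v + 1)]
  · intro w z z'
    unfold lks
    rw [f3e]

end Crest.Agent.R079.GaIx256
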