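import Crest.Agent.R079.KLdef_446

/-! R079, KILL LEMMA in the line model (882 (4) / 846 (1)(c)), task [KD]: **energy of the rest**.

For a fixed value `w` of the frozen variable the rest of the killer face is `{ρ > 0}`, the union of the
dilates of the bad squares.  Summed over `w` the energy `θ(third vertex) |X(shadow)|²` of the rest is
`≤ C A² (D/ε) Ht^(1/3)` times the total volume (maximal bad squares, exceptional leaf tiles, maximal
function of `θ`).  helper138. -/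

set_option autoImplicit false
set_option linter.unusedVariables false

namespace Crest.Agent.R079.KLdx138

open Finset Crest.Agent.R079.Grid Crest.Agent.R079.Glue Crest.Agent.R079.Growth
  Crest.Agent.R079.QRed Crest.Agent.R079.BadTx138 Crest.Agent.R079.KLx446

/-- point of the rest: `ρ ≥ 2^n` and the shadow lies in a node of level `n` of the region -/
def RsP (R : Finset Nd) (J : Nd) (c : ℤ → ℤ → ℂ) (K : Fn) (α β γ : ℤ) (s ε : ℝ) (w x y : ℤ) : Prop :=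
  ∃ n : ℕ, α * w + β * x + γ * y ∈ Rm R n ∧ Pw R J c K α β γ s ε w x y (2 ^ n)

/-! ### dyadic intervals -/

lemma mem_blk (m : ℕ) (a x : ℤ) : x ∈ Ico (a * 2 ^ m) ((a + 1) * 2 ^ m) ↔ x / 2 ^ m = a :=
  Glue.mem_dI_iff m a x

lemma anc (a : ℤ) (k j : ℕ) : a / 2 ^ k / 2 ^ j = a / 2 ^ (k + j) := (ediv_pow_ediv a k j).symm

lemma ediv_anc (x : ℤ) {n m : ℕ} (h : n ≤ m) : x / 2 ^ n / 2 ^ (m - n) = x / 2 ^ m := by
  rw [anc]; congr 2; omega

/-- the corner of the ancestor is near -/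
lemma anc_near (a : ℤ) (m k : ℕ) :
    0 ≤ a * 2 ^ m - a / 2 ^ k * 2 ^ (m + k) ∧ a * 2 ^ m - a / 2 ^ k * 2 ^ (m + k) < 2 ^ (m + k) := by
  have h1 : a / 2 ^ k * 2 ^ k ≤ a := Int.ediv_mul_le a (by positivity)
  have h2 : a < (a / 2 ^ k + 1) * 2 ^ k := Int.lt_ediv_add_one_mul_self a (by positivity)
  have h3 : (0 : ℤ) < 2 ^ m := by positivity
  have e : (2 : ℤ) ^ (m + k) = 2 ^ k * 2 ^ m := by rw [pow_add]; ring
  rw [e]
  constructor
  · nlinarith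
  · nlinarith

/-! ### leaves of a full region -/

section leaf

variable {R : Finset Nd} {J : Nd}

lemma node_up (hR : Full R J) {y : ℤ} {m m' : ℕ} (h : (m, y / 2 ^ (m + 7)) ∈ R) (hm : m ≤ m')
    (hm' : m' ≤ J.1) : (m', y / 2 ^ (m' + 7)) ∈ R := by
  induction m', hm using Nat.le_induction with
  | base => exact h
  | succ k hk ih =>
    have h1 := ih (by omega)
    rw [← mem_Rm] at h1 ⊢
    exact Rm_mono R J hR.reg k hm' h1

lemma top_node (hR : Full R J) {y : ℤ} (hy : y ∈ iv J) : (J.1, y / 2 ^ (J.1 + 7)) ∈ R := by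
  have : y / 2 ^ (J.1 + 7) = J.2 := (Glue.mem_dI_iff _ _ _).1 hy
  rw [this]
  exact hR.top

lemma lfp_mem (hR : Full R J) {y : ℤ} (hy : y ∈ iv J) : lfp R y ∈ R := by
  unfold lfp lv
  exact Nat.sInf_mem (s := {m | (m, y / 2 ^ (m + 7)) ∈ R}) ⟨J.1, top_node hR hy⟩

lemma lv_le_of_mem {y : ℤ} {m : ℕ} (h : (m, y / 2 ^ (m + 7)) ∈ R) : lv R y ≤ m :=
  Nat.sInf_le h

lemma lv_le_top (hR : Full R J) {y : ℤ} (hy : y ∈ iv J) : lv R y ≤ J.1 :=
  lv_le_of_mem (top_node hR hy)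

lemma mem_lfp (y : ℤ) : y ∈ iv (lfp R y) := by
  show y ∈ dI _ _
  rw [Glue.mem_dI_iff]
  rfl

/-- all points of a leaf have the same leaf -/
lemma leaf_const (hR : Full R J) {y y' : ℤ} (hy : y ∈ iv J) (h : y' ∈ iv (lfp R y)) :
    lfp R y' = lfp R y := by
  have hp := lfp_mem hR hy
  have hy'd : y' / 2 ^ (lv R y + 7) = y / 2 ^ (lv R y + 7) := (Glue.mem_dI_iff _ _ _).1 h
  have h1 : lv R y' ≤ lv R y := by
    refine lv_le_of_mem ?_
    rw [hy'd]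
    exact hp
  have h2 : lv R y' = lv R y := by
    by_contra hne
    have hlt : lv R y' < lv R y := lt_of_le_of_ne h1 hne
    have hy' : y' ∈ iv J := by
      have := hR.reg.1 _ hp
      exact this h
    have hp' := lfp_mem hR hy'
    obtain ⟨k, hk⟩ : ∃ k, lv R y = k + 1 := ⟨lv R y - 1, by omega⟩
    have hle := lv_le_top hR hy
    have h3 : (k, y' / 2 ^ (k + 7)) ∈ R := node_up hR hp' (by omega) (by omega)
    have h4 : (k + 1, y / 2 ^ (k + 1 + 7)) ∈ R := by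
      have : (lv R y, y / 2 ^ (lv R y + 7)) ∈ R := hp
      rwa [hk] at this
    rw [hk] at hy'd
    have e1 : ∀ z : ℤ, z / 2 ^ (k + 1 + 7) = z / 2 ^ (k + 7) / 2 := by
      intro z
      have := ediv_pow_ediv z (k + 7) 1
      rw [pow_one] at this
      rw [← this]
    have h5 := hR.bin k _ h4
    have h6 : y' / 2 ^ (k + 7) = 2 * (y / 2 ^ (k + 1 + 7)) ∨
        y' / 2 ^ (k + 7) = 2 * (y / 2 ^ (k + 1 + 7)) + 1 := by
      rw [e1] at hy'd
      omega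
    have h7 : y / 2 ^ (k + 7) = 2 * (y / 2 ^ (k + 1 + 7)) ∨
        y / 2 ^ (k + 7) = 2 * (y / 2 ^ (k + 1 + 7)) + 1 := by
      rw [e1]
      omega
    have h8 : (k, y / 2 ^ (k + 7)) ∈ R := by
      rcases h6 with h6 | h6 <;> rcases h7 with h7 | h7
      · rw [h7, ← h6]; exact h3
      · rw [h7]; rw [h6] at h3; exact h5.1 h3
      · rw [h7]; rw [h6] at h3; exact h5.2 h3
      · rw [h7, ← h6]; exact h3
    have := lv_le_of_mem h8
    omega
  unfold lfp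
  rw [h2, hy'd]

open Classical in
/-- the leaves -/
noncomputable def Lfs (R : Finset Nd) (J : Nd) : Finset Nd := (iv J).image (lfp R)

lemma sum_leaves (hR : Full R J) : ∑ p ∈ Lfs R J, (2 : ℝ) ^ (p.1 + 7) ≤ 2 ^ (J.1 + 7) := by
  classical
  have h1 : ∀ p ∈ Lfs R J, ((iv p).card : ℝ) = 2 ^ (p.1 + 7) := by
    intro p _
    unfold iv
    rw [Glue.card_dI]
    push_cast
    rfl
  rw [← Finset.sum_congr rfl h1, ← Nat.cast_sum, ← Finset.card_biUnion]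
  · have h2 : (Lfs R J).biUnion iv ⊆ iv J := by
      intro z hz
      rw [Finset.mem_biUnion] at hz
      obtain ⟨p, hp, hz⟩ := hz
      unfold Lfs at hp
      rw [Finset.mem_image] at hp
      obtain ⟨y, hy, rfl⟩ := hp
      exact hR.reg.1 _ (lfp_mem hR hy) hz
    have h3 := Finset.card_le_card h2
    have h4 : (iv J).card = 2 ^ (J.1 + 7) := Glue.card_dI _ _
    rw [h4] at h3
    exact_mod_cast h3
  · intro p hp q hq hpq
    show Disjoint (iv p) (iv q)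
    rw [Finset.disjoint_left]
    intro z hz hz'
    apply hpq
    rw [Finset.mem_coe] at hp hq
    unfold Lfs at hp hq
    rw [Finset.mem_image] at hp hq
    obtain ⟨y, hy, rfl⟩ := hp
    obtain ⟨y', hy', rfl⟩ := hq
    rw [← leaf_const hR hy hz, ← leaf_const hR hy' hz']

end leaf

/-! ### the inner sum: one bad square -/

section inner

variable {R : Finset Nd} {J : Nd}

open Classical in
/-- local sum along a line -/
lemma sum_line {X : Fn} {A : ℝ} (hX : ∀ p ∈ R, av p X ≤ A) (k : ℕ) (c0 δ : ℤ) (hδ0 : δ ≠ 0)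
    (hδ : |δ| ≤ 6) (x0 : ℤ) :
    ∑ x ∈ Icc (x0 - 256 * 2 ^ k) (x0 + 256 * 2 ^ k),
      (if c0 + δ * x ∈ Rm R k then ‖X (c0 + δ * x)‖ ^ 2 else 0) ≤ 3073 * (2 ^ (k + 7) * A ^ 2) := by
  have h1 := sum_msk_Icc R k X A hX (c0 + δ * x0) 1536
  have h2 : (2 * ((1536 : ℕ) : ℝ) + 1) = 3073 := by norm_num
  rw [h2] at h1
  refine le_trans ?_ h1
  have hinj : Set.InjOn (fun x : ℤ => c0 + δ * x)
      (Icc (x0 - 256 * 2 ^ k) (x0 + 256 * 2 ^ k) : Finset ℤ) := by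
    intro x _ y _ h
    have : δ * x = δ * y := by
      have h' : c0 + δ * x = c0 + δ * y := h
      linarith
    exact mul_left_cancel₀ hδ0 this
  have e1 : ∑ x ∈ Icc (x0 - 256 * 2 ^ k) (x0 + 256 * 2 ^ k),
      (if c0 + δ * x ∈ Rm R k then ‖X (c0 + δ * x)‖ ^ 2 else 0) =
      ∑ y ∈ (Icc (x0 - 256 * 2 ^ k) (x0 + 256 * 2 ^ k)).image (fun x : ℤ => c0 + δ * x),
        ‖msk (Rm R k) X y‖ ^ 2 := by
    rw [Finset.sum_image hinj]
    refine Finset.sum_congr rfl fun x _ => ?_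
    unfold msk
    split_ifs
    · rfl
    · simp
  rw [e1]
  refine Finset.sum_le_sum_of_subset_of_nonneg ?_ fun _ _ _ => by positivity
  intro y hy
  rw [Finset.mem_image] at hy
  obtain ⟨x, hx, rfl⟩ := hy
  rw [Finset.mem_Icc] at hx ⊢
  have h3 : |δ * (x - x0)| ≤ 1536 * 2 ^ k := by
    rw [abs_mul]
    have h4 : |x - x0| ≤ 256 * 2 ^ k := by
      rw [abs_le]; constructor <;> linarith [hx.1, hx.2]
    calc |δ| * |x - x0| ≤ 6 * (256 * 2 ^ k) :=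
          mul_le_mul hδ h4 (abs_nonneg _) (by norm_num)
      _ = 1536 * 2 ^ k := by ring
  have h5 := abs_le.1 h3
  push_cast
  constructor
  · nlinarith [h5.1]
  · nlinarith [h5.2]

open Classical in
/-- energy of the dilate of one square -/
lemma inner {X : Fn} {A : ℝ} (hX : ∀ p ∈ R, av p X ≤ A) {th : ℤ → ℝ} (hth : ∀ z, 0 ≤ th z)
    {α β γ : ℤ} (hC : Cof α β γ) (k m : ℕ) (hmk : m ≤ k) (hk : k ≤ m + 8) (w a b : ℤ) :
    ∑ x ∈ Icc (a * 2 ^ m - 256 * 2 ^ m) (a * 2 ^ m + 256 * 2 ^ m),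
      ∑ y ∈ Icc (b * 2 ^ m - 256 * 2 ^ m) (b * 2 ^ m + 256 * 2 ^ m),
        (if α * w + β * x + γ * y ∈ Rm R k then
          th (-w - x - y) * ‖X (α * w + β * x + γ * y)‖ ^ 2 else 0) ≤
      (3073 * 2 ^ 15 * A ^ 2) * (4 ^ m * avT th 0 512 (m, a, b) w) := by
  -- third vertex instead of `y`
  set F : ℤ → ℤ → ℝ := fun x z =>
    if (α * w - γ * w - γ * z) + (β - γ) * x ∈ Rm R k then
      ‖X ((α * w - γ * w - γ * z) + (β - γ) * x)‖ ^ 2 else 0 with hF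
  have hF0 : ∀ x z, 0 ≤ F x z := by
    intro x z
    rw [hF]; simp only
    split_ifs
    · positivity
    · exact le_rfl
  have e1 : ∀ x y : ℤ, (if α * w + β * x + γ * y ∈ Rm R k then
          th (-w - x - y) * ‖X (α * w + β * x + γ * y)‖ ^ 2 else 0) =
      th (-w - x - y) * F x (-w - x - y) := by
    intro x y
    rw [hF]; simp only
    rw [show (α * w - γ * w - γ * (-w - x - y)) + (β - γ) * x = α * w + β * x + γ * y by ring]
    split_ifs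
    · rfl
    · rw [mul_zero]
  simp only [e1]
  have e2 : ∀ x ∈ Icc (a * 2 ^ m - 256 * 2 ^ m) (a * 2 ^ m + 256 * 2 ^ m),
      ∑ y ∈ Icc (b * 2 ^ m - 256 * 2 ^ m) (b * 2 ^ m + 256 * 2 ^ m),
        th (-w - x - y) * F x (-w - x - y) ≤
      ∑ d ∈ Icc (-((512 * 2 ^ m : ℕ) : ℤ)) ((512 * 2 ^ m : ℕ) : ℤ),
        th (0 - w - 2 ^ m * a - 2 ^ m * b + d) * F x (0 - w - 2 ^ m * a - 2 ^ m * b + d) := by
    intro x hx
    rw [Finset.mem_Icc] at hx
    have hinj : Set.InjOn (fun y : ℤ => -w - x - y - (0 - w - 2 ^ m * a - 2 ^ m * b))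
        (Icc (b * 2 ^ m - 256 * 2 ^ m) (b * 2 ^ m + 256 * 2 ^ m) : Finset ℤ) := by
      intro y _ y' _ h
      have h' : -w - x - y - (0 - w - 2 ^ m * a - 2 ^ m * b) =
        -w - x - y' - (0 - w - 2 ^ m * a - 2 ^ m * b) := h
      linarith
    have e3 : ∑ y ∈ Icc (b * 2 ^ m - 256 * 2 ^ m) (b * 2 ^ m + 256 * 2 ^ m),
        th (-w - x - y) * F x (-w - x - y) =
        ∑ d ∈ (Icc (b * 2 ^ m - 256 * 2 ^ m) (b * 2 ^ m + 256 * 2 ^ m)).image
          (fun y : ℤ => -w - x - y - (0 - w - 2 ^ m * a - 2 ^ m * b)),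
        th (0 - w - 2 ^ m * a - 2 ^ m * b + d) * F x (0 - w - 2 ^ m * a - 2 ^ m * b + d) := by
      rw [Finset.sum_image hinj]
      refine Finset.sum_congr rfl fun y _ => ?_
      rw [show 0 - w - 2 ^ m * a - 2 ^ m * b + (-w - x - y - (0 - w - 2 ^ m * a - 2 ^ m * b)) =
        -w - x - y by ring]
    rw [e3]
    refine Finset.sum_le_sum_of_subset_of_nonneg ?_ fun _ _ _ => mul_nonneg (hth _) (hF0 _ _)
    intro d hd
    rw [Finset.mem_image] at hd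
    obtain ⟨y, hy, rfl⟩ := hd
    rw [Finset.mem_Icc] at hy ⊢
    push_cast
    constructor
    · linarith [hx.2, hy.2]
    · linarith [hx.1, hy.1]
  refine (Finset.sum_le_sum e2).trans ?_
  rw [Finset.sum_comm]
  have e4 : ∀ d ∈ Icc (-((512 * 2 ^ m : ℕ) : ℤ)) ((512 * 2 ^ m : ℕ) : ℤ),
      ∑ x ∈ Icc (a * 2 ^ m - 256 * 2 ^ m) (a * 2 ^ m + 256 * 2 ^ m),
        th (0 - w - 2 ^ m * a - 2 ^ m * b + d) * F x (0 - w - 2 ^ m * a - 2 ^ m * b + d) ≤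
      th (0 - w - 2 ^ m * a - 2 ^ m * b + d) * (3073 * (2 ^ (m + 15) * A ^ 2)) := by
    intro d _
    rw [← Finset.mul_sum]
    refine mul_le_mul_of_nonneg_left ?_ (hth _)
    have h1 := sum_line hX k (α * w - γ * w - γ * (0 - w - 2 ^ m * a - 2 ^ m * b + d)) (β - γ)
      (sub_ne_zero.2 hC.βγ) (by
        have := abs_sub β γ
        have h3 := hC.β3
        have h4 := hC.γ3
        linarith) (a * 2 ^ m)
    have hp : (2 : ℤ) ^ m ≤ 2 ^ k := pow_le_pow_right₀ (by norm_num) hmk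
    have h2 : ∑ x ∈ Icc (a * 2 ^ m - 256 * 2 ^ m) (a * 2 ^ m + 256 * 2 ^ m),
        F x (0 - w - 2 ^ m * a - 2 ^ m * b + d) ≤
        ∑ x ∈ Icc (a * 2 ^ m - 256 * 2 ^ k) (a * 2 ^ m + 256 * 2 ^ k),
        F x (0 - w - 2 ^ m * a - 2 ^ m * b + d) := by
      refine Finset.sum_le_sum_of_subset_of_nonneg ?_ fun _ _ _ => hF0 _ _
      refine Finset.Icc_subset_Icc ?_ ?_
      · linarith
      · linarith
    refine h2.trans (h1.trans ?_)
    refine mul_le_mul_of_nonneg_left ?_ (by norm_num)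
    refine mul_le_mul_of_nonneg_right ?_ (sq_nonneg A)
    exact pow_le_pow_right₀ (by norm_num) (by omega)
  refine (Finset.sum_le_sum e4).trans ?_
  rw [← Finset.sum_mul]
  unfold avT
  simp only
  have h4 : (4 : ℝ) ^ m = 2 ^ m * 2 ^ m := by rw [← mul_pow]; norm_num
  have h5 : (0 : ℝ) < 2 ^ m := by positivity
  rw [h4, pow_add]
  refine le_of_eq ?_
  field_simp

end inner

/-! ### maximal bad squares -/

section mx

variable {R : Finset Nd} {J : Nd} {c : ℤ → ℤ → ℂ} {K : Fn} {α β γ : ℤ} {s ε : ℝ}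

/-- maximal bad square -/
def MxB (R : Finset Nd) (J : Nd) (c : ℤ → ℤ → ℂ) (K : Fn) (α β γ : ℤ) (s ε : ℝ) (w : ℤ)
    (B : ℕ × ℤ × ℤ) : Prop :=
  Bc R J c K α β γ s ε w B.1 B.2.1 B.2.2 ∧
    ∀ k, 0 < k → ¬ Bc R J c K α β γ s ε w (B.1 + k) (B.2.1 / 2 ^ k) (B.2.2 / 2 ^ k)

lemma to_max (w : ℤ) : ∀ (n m : ℕ) (a b : ℤ), J.1 - m ≤ n → Bc R J c K α β γ s ε w m a b →
    ∃ k, MxB R J c K α β γ s ε w (m + k, a / 2 ^ k, b / 2 ^ k) := by
  intro n
  induction n with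
  | zero =>
    intro m a b hn hB
    refine ⟨0, ?_, ?_⟩
    · simpa using hB
    · intro k hk hB'
      have h1 := hB'.1
      have h2 := hB.1
      simp only at h1
      omega
  | succ n ih =>
    intro m a b hn hB
    by_cases h : ∃ k, 0 < k ∧ Bc R J c K α β γ s ε w (m + k) (a / 2 ^ k) (b / 2 ^ k)
    · obtain ⟨k, hk, hB'⟩ := h
      have h1 := hB'.1
      obtain ⟨k', hk'⟩ := ih (m + k) (a / 2 ^ k) (b / 2 ^ k) (by omega) hB'
      refine ⟨k + k', ?_⟩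
      rw [anc, anc, add_assoc] at hk'
      exact hk'
    · refine ⟨0, ?_, ?_⟩
      · simpa using hB
      · intro k hk hB'
        apply h
        refine ⟨k, hk, ?_⟩
        simpa using hB'

open Classical in
/-- the maximal bad squares with positive weight -/
noncomputable def BTs (R : Finset Nd) (J : Nd) (c : ℤ → ℤ → ℂ) (K : Fn) (α β γ : ℤ) (s ε : ℝ)
    (th : ℤ → ℝ) (T w : ℤ) : Finset (ℕ × ℤ × ℤ) :=
  ((range (J.1 + 1)) ×ˢ ((Icc (-T) T) ×ˢ (Icc (-T) T))).filter fun B =>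
    MxB R J c K α β γ s ε w B ∧ avT th 0 512 B w ≠ 0

open Classical in
/-- the energy of the rest at a fixed value of `w` -/
lemma one_w (hR : Full R J) (hC : Cof α β γ) {X : Fn} {A : ℝ} (hX : ∀ p ∈ R, av p X ≤ A)
    {th : ℤ → ℝ} (hth : ∀ z, 0 ≤ th z) (Xf Yf : Finset ℤ) (T : ℤ)
    (hTx : ∀ x ∈ Xf, |x| + 256 * 2 ^ J.1 ≤ T) (hTy : ∀ y ∈ Yf, |y| + 256 * 2 ^ J.1 ≤ T) (w : ℤ) :
    ∑ x ∈ Xf, ∑ y ∈ Yf, (if RsP R J c K α β γ s ε w x y then
      th (-w - x - y) * ‖X (α * w + β * x + γ * y)‖ ^ 2 else 0) ≤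
    (3073 * 2 ^ 15 * A ^ 2) * ∑ B ∈ BTs R J c K α β γ s ε th T w,
      (4 : ℝ) ^ B.1 * avT th 0 512 B w := by
  set G : (ℕ × ℤ × ℤ) → ℤ → ℤ → ℝ := fun B x y =>
    if α * w + β * x + γ * y ∈ Rm R (min (B.1 + 8) J.1) then
      th (-w - x - y) * ‖X (α * w + β * x + γ * y)‖ ^ 2 else 0 with hG
  have hG0 : ∀ B x y, 0 ≤ G B x y := by
    intro B x y
    rw [hG]; simp only
    split_ifs
    · exact mul_nonneg (hth _) (by positivity)
    · exact le_rfl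
  set H : (ℕ × ℤ × ℤ) → ℤ → ℤ → ℝ := fun B x y =>
    if x ∈ Icc (B.2.1 * 2 ^ B.1 - 256 * 2 ^ B.1) (B.2.1 * 2 ^ B.1 + 256 * 2 ^ B.1) ∧
      y ∈ Icc (B.2.2 * 2 ^ B.1 - 256 * 2 ^ B.1) (B.2.2 * 2 ^ B.1 + 256 * 2 ^ B.1) then G B x y else 0
    with hH
  have hH0 : ∀ B x y, 0 ≤ H B x y := by
    intro B x y
    rw [hH]; simp only
    split_ifs
    · exact hG0 _ _ _
    · exact le_rfl
  have h1 : ∀ x ∈ Xf, ∀ y ∈ Yf, (if RsP R J c K α β γ s ε w x y then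
      th (-w - x - y) * ‖X (α * w + β * x + γ * y)‖ ^ 2 else 0) ≤
      ∑ B ∈ BTs R J c K α β γ s ε th T w, H B x y := by
    intro x hx y hy
    split_ifs with h
    swap
    · exact Finset.sum_nonneg fun _ _ => hH0 _ _ _
    by_cases ht : th (-w - x - y) = 0
    · rw [ht, zero_mul]
      exact Finset.sum_nonneg fun _ _ => hH0 _ _ _
    obtain ⟨n, hn, m, a, b, hB, hxa, hyb⟩ := h
    obtain ⟨k, hk⟩ := to_max w (J.1 - m) m a b le_rfl hB
    have hMJ : m + k ≤ J.1 := hk.1.1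
    -- the dilates
    have hpos : (0 : ℤ) < 2 ^ m := by positivity
    have hle : (2 : ℤ) ^ m ≤ 2 ^ (m + k) := pow_le_pow_right₀ (by norm_num) (by omega)
    have hleJ : (2 : ℤ) ^ (m + k) ≤ 2 ^ J.1 := pow_le_pow_right₀ (by norm_num) hMJ
    have hn0 : (0 : ℤ) < 2 ^ n := by positivity
    have near : ∀ u v : ℤ, |u - v * 2 ^ m| + 2 ^ n ≤ 256 * 2 ^ m →
        |u - v / 2 ^ k * 2 ^ (m + k)| ≤ 256 * 2 ^ (m + k) := by
      intro u v huv
      have h2 := abs_le.1 (show |u - v * 2 ^ m| ≤ 256 * 2 ^ m by linarith)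
      rcases Nat.eq_zero_or_pos k with hk0 | hk0
      · subst hk0
        rw [abs_le]
        simp only [pow_zero, Int.ediv_one, add_zero]
        exact h2
      · have h3 := anc_near v m k
        have h4 : (2 : ℤ) * 2 ^ m ≤ 2 ^ (m + k) := by
          have : (2 : ℤ) ^ (m + 1) ≤ 2 ^ (m + k) := pow_le_pow_right₀ (by norm_num) (by omega)
          rw [pow_succ] at this
          linarith
        rw [abs_le]
        constructor
        · linarith [h2.1, h2.2, h3.1, h3.2]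
        · linarith [h2.1, h2.2, h3.1, h3.2]
    have hx1 := near x a hxa
    have hy1 := near y b hyb
    -- the level of the node
    have hnm : n ≤ m + 8 := by
      by_contra hcon
      rw [not_le] at hcon
      have h2 : (2 : ℤ) ^ (m + 9) ≤ 2 ^ n := pow_le_pow_right₀ (by norm_num) (by omega)
      have h3 : (2 : ℤ) ^ (m + 9) = 512 * 2 ^ m := by rw [pow_add]; ring
      have h4 := abs_nonneg (x - a * 2 ^ m)
      linarith
    have hnJ : n ≤ J.1 := level_le R J hR.reg _ ((mem_Rm R n _).1 hn)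
    have hnode : α * w + β * x + γ * y ∈ Rm R (min (m + k + 8) J.1) := by
      rw [mem_Rm] at hn ⊢
      exact node_up hR hn (by omega) (by omega)
    -- membership
    have hav : avT th 0 512 (m + k, a / 2 ^ k, b / 2 ^ k) w ≠ 0 := by
      unfold avT
      simp only
      have hpR : (0 : ℝ) < 1 / 2 ^ (m + k) := by positivity
      refine (mul_pos hpR ?_).ne'
      refine lt_of_lt_of_le (lt_of_le_of_ne (hth (-w - x - y)) (Ne.symm ht)) ?_
      have e : -w - x - y = 0 - w - 2 ^ (m + k) * (a / 2 ^ k) - 2 ^ (m + k) * (b / 2 ^ k) +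
        (2 ^ (m + k) * (a / 2 ^ k) + 2 ^ (m + k) * (b / 2 ^ k) - x - y) := by ring
      rw [e]
      refine Finset.single_le_sum (f := fun d => th (0 - w - 2 ^ (m + k) * (a / 2 ^ k) -
        2 ^ (m + k) * (b / 2 ^ k) + d)) (fun _ _ => hth _) ?_
      rw [Finset.mem_Icc]
      have h2 := abs_le.1 hx1
      have h3 := abs_le.1 hy1
      push_cast
      constructor
      · nlinarith [h2.1, h2.2, h3.1, h3.2]
      · nlinarith [h2.1, h2.2, h3.1, h3.2]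
    have hidx : ∀ u v : ℤ, |u| + 256 * 2 ^ J.1 ≤ T →
        |u - v / 2 ^ k * 2 ^ (m + k)| ≤ 256 * 2 ^ (m + k) → v / 2 ^ k ∈ Icc (-T) T := by
      intro u v hu huv
      have h2 := abs_le.1 huv
      have h3 := abs_le.1 (show |u| ≤ T - 256 * 2 ^ J.1 by linarith)
      have h4 : (1 : ℤ) ≤ 2 ^ (m + k) := one_le_pow₀ (by norm_num)
      have h5 : |v / 2 ^ k| ≤ |v / 2 ^ k * 2 ^ (m + k)| := by
        rw [abs_mul]
        have h6 : (1 : ℤ) ≤ |(2 : ℤ) ^ (m + k)| := by rw [abs_of_pos (by linarith)]; exact h4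
        exact le_mul_of_one_le_right (abs_nonneg _) h6
      have h7 : |v / 2 ^ k * 2 ^ (m + k)| ≤ T := by
        rw [abs_le]
        constructor
        · linarith [h2.1, h2.2, h3.1, h3.2]
        · linarith [h2.1, h2.2, h3.1, h3.2]
      rw [Finset.mem_Icc, ← abs_le]
      exact h5.trans h7
    have hmem : (m + k, a / 2 ^ k, b / 2 ^ k) ∈ BTs R J c K α β γ s ε th T w := by
      unfold BTs
      rw [Finset.mem_filter, Finset.mem_product, Finset.mem_product, Finset.mem_range]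
      exact ⟨⟨by omega, hidx x a (hTx x hx) hx1, hidx y b (hTy y hy) hy1⟩, hk, hav⟩
    refine le_trans ?_ (Finset.single_le_sum (f := fun B => H B x y) (fun B _ => hH0 B x y) hmem)
    have h2 := abs_le.1 hx1
    have h3 := abs_le.1 hy1
    rw [hH]
    simp only
    rw [if_pos]
    · rw [hG]; simp only
      rw [if_pos hnode]
    · rw [Finset.mem_Icc, Finset.mem_Icc]
      exact ⟨⟨by linarith [h2.1], by linarith [h2.2]⟩, by linarith [h3.1], by linarith [h3.2]⟩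
  refine (Finset.sum_le_sum fun x hx => Finset.sum_le_sum fun y hy => h1 x hx y hy).trans ?_
  have h2 : ∑ x ∈ Xf, ∑ y ∈ Yf, ∑ B ∈ BTs R J c K α β γ s ε th T w, H B x y =
      ∑ B ∈ BTs R J c K α β γ s ε th T w, ∑ x ∈ Xf, ∑ y ∈ Yf, H B x y := by
    calc ∑ x ∈ Xf, ∑ y ∈ Yf, ∑ B ∈ BTs R J c K α β γ s ε th T w, H B x y
        = ∑ x ∈ Xf, ∑ B ∈ BTs R J c K α β γ s ε th T w, ∑ y ∈ Yf, H B x y :=
          Finset.sum_congr rfl fun x _ => Finset.sum_comm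
      _ = _ := Finset.sum_comm
  rw [h2, Finset.mul_sum]
  refine Finset.sum_le_sum fun B hB => ?_
  unfold BTs at hB
  rw [Finset.mem_filter, Finset.mem_product, Finset.mem_range] at hB
  have h3 := inner hX hth hC (min (B.1 + 8) J.1) B.1 (by omega) (by omega) w B.2.1 B.2.2
  refine le_trans ?_ h3
  rw [← Finset.sum_product', ← Finset.sum_product']
  have h4 : ∑ z ∈ Xf ×ˢ Yf, H B z.1 z.2 = ∑ z ∈ (Xf ×ˢ Yf).filter (fun z =>
      z.1 ∈ Icc (B.2.1 * 2 ^ B.1 - 256 * 2 ^ B.1) (B.2.1 * 2 ^ B.1 + 256 * 2 ^ B.1) ∧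
      z.2 ∈ Icc (B.2.2 * 2 ^ B.1 - 256 * 2 ^ B.1) (B.2.2 * 2 ^ B.1 + 256 * 2 ^ B.1)),
        G B z.1 z.2 := by
    rw [Finset.sum_filter]
  rw [h4]
  refine Finset.sum_le_sum_of_subset_of_nonneg ?_ fun z _ _ => hG0 _ _ _
  intro z hz
  rw [Finset.mem_filter] at hz
  rw [Finset.mem_product]
  exact hz.2

end mx

/-! ### exceptional leaf tiles -/

section ex

variable {R : Finset Nd} {J : Nd} {c : ℤ → ℤ → ℂ} {K : Fn} {α β γ : ℤ} {s ε : ℝ}

/-- the tile `(n; a, b)` contains a bad point of leaf scale `n` -/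
def ExT (R : Finset Nd) (J : Nd) (c : ℤ → ℤ → ℂ) (K : Fn) (α β γ : ℤ) (s : ℝ) (n : ℕ)
    (a b w : ℤ) : Prop :=
  ∃ x y : ℤ, x / 2 ^ n = a ∧ y / 2 ^ n = b ∧ Bp R J c K α β γ s w x y ∧
    lv R (α * w + β * x + γ * y) = n

lemma blk_abs {n : ℕ} {x a : ℤ} (h : x / 2 ^ n = a) : 0 ≤ x - a * 2 ^ n ∧ x - a * 2 ^ n < 2 ^ n := by
  have h1 := (mem_blk n a x).2 h
  rw [Finset.mem_Ico] at h1
  constructor
  · linarith [h1.1]
  · have : (a + 1) * 2 ^ n = a * 2 ^ n + 2 ^ n := by ring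
    linarith [h1.2]

lemma mul_near {u v : ℤ} {N : ℤ} (hu : |u| ≤ 3) (hv : 0 ≤ v ∧ v < N) : |u * v| ≤ 3 * N := by
  rw [abs_mul]
  have h1 : |v| = v := abs_of_nonneg hv.1
  rw [h1]
  have h2 := abs_nonneg u
  nlinarith [hv.1, hv.2]

open Classical in
/-- density of the exceptional values of `w` -/
lemma card_ExT (hR : Full R J) (hC : Cof α β γ) {D : ℝ} (hD : ExD R c K α β γ s D) (hD0 : 0 ≤ D)
    (n : ℕ) (w0 a b : ℤ) :
    (((Ico (w0 * 2 ^ n) ((w0 + 1) * 2 ^ n)).filter (ExT R J c K α β γ s n a b)).card : ℝ) ≤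
      162 * D * 2 ^ n := by
  set η0 : ℤ := α * (w0 * 2 ^ n) + β * (a * 2 ^ n) + γ * (b * 2 ^ n) with hη0
  set l0 : ℤ := (η0 - 9 * 2 ^ n) / 2 ^ (n + 7) with hl0
  set S : ℤ × ℤ × ℤ → Finset ℤ := fun q => if (n, q.1) ∈ R then
    (Ico (w0 * 2 ^ n) (w0 * 2 ^ n + 2 ^ n)).filter (fun w' =>
      ¬ OpP c K α β γ s (n, q.1) w' q.2.1 q.2.2) else ∅ with hS
  set P : Finset (ℤ × ℤ × ℤ) := (Icc l0 (l0 + 1)) ×ˢ ((Icc (a - 4) (a + 4)) ×ˢ (Icc (b - 4) (b + 4)))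
    with hP
  have hsub : (Ico (w0 * 2 ^ n) ((w0 + 1) * 2 ^ n)).filter (ExT R J c K α β γ s n a b) ⊆
      P.biUnion S := by
    intro w hw
    rw [Finset.mem_filter] at hw
    obtain ⟨hw, x, y, hx, hy, ⟨hJ, a', b', ha', hb', hop⟩, hlv⟩ := hw
    rw [hlv, hx] at ha'
    rw [hlv, hy] at hb'
    have hw' : w / 2 ^ n = w0 := (mem_blk n w0 w).1 hw
    set η : ℤ := α * w + β * x + γ * y with hη
    have hl : lfp R η = (n, η / 2 ^ (n + 7)) := by
      unfold lfp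
      rw [hlv]
    rw [hl] at hop
    have hR' : (n, η / 2 ^ (n + 7)) ∈ R := by
      rw [← hl]
      exact lfp_mem hR hJ
    have h1 := blk_abs hw'
    have h2 := blk_abs hx
    have h3 := blk_abs hy
    have h4 := abs_le.1 (mul_near hC.α3 h1)
    have h5 := abs_le.1 (mul_near hC.β3 h2)
    have h6 := abs_le.1 (mul_near hC.γ3 h3)
    have e : η - η0 = α * (w - w0 * 2 ^ n) + β * (x - a * 2 ^ n) + γ * (y - b * 2 ^ n) := by
      rw [hη, hη0]; ring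
    have hp : (0 : ℤ) < 2 ^ (n + 7) := by positivity
    have h7 : l0 ≤ η / 2 ^ (n + 7) := by
      rw [hl0]
      refine Int.ediv_le_ediv hp ?_
      linarith
    have h8 : η / 2 ^ (n + 7) ≤ l0 + 1 := by
      have h9 : η / 2 ^ (n + 7) ≤ (η0 - 9 * 2 ^ n + 1 * 2 ^ (n + 7)) / 2 ^ (n + 7) := by
        refine Int.ediv_le_ediv hp ?_
        have : (2 : ℤ) ^ (n + 7) = 128 * 2 ^ n := by rw [pow_add]; ring
        rw [this]
        have : (0 : ℤ) < 2 ^ n := by positivity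
        linarith
      rw [Int.add_mul_ediv_right _ _ hp.ne'] at h9
      exact h9
    rw [Finset.mem_biUnion]
    refine ⟨(η / 2 ^ (n + 7), a', b'), ?_, ?_⟩
    · rw [hP, Finset.mem_product, Finset.mem_product, Finset.mem_Icc, Finset.mem_Icc,
        Finset.mem_Icc]
      have h10 := abs_le.1 ha'
      have h11 := abs_le.1 hb'
      exact ⟨⟨h7, h8⟩, ⟨by linarith [h10.1], by linarith [h10.2]⟩, by linarith [h11.1],
        by linarith [h11.2]⟩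
    · rw [hS]
      simp only
      rw [if_pos hR', Finset.mem_filter]
      refine ⟨?_, hop⟩
      rw [Finset.mem_Ico] at hw ⊢
      have : (w0 + 1) * 2 ^ n = w0 * 2 ^ n + 2 ^ n := by ring
      rw [← this]
      exact hw
  have h1 : ∀ q ∈ P, ((S q).card : ℝ) ≤ D * 2 ^ n := by
    intro q _
    rw [hS]
    simp only
    split_ifs with h
    · exact hD (n, q.1) h (w0 * 2 ^ n) q.2.1 q.2.2
    · simp only [Finset.card_empty, Nat.cast_zero]
      positivity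
  have h2 : ((P.biUnion S).card : ℝ) ≤ ∑ q ∈ P, ((S q).card : ℝ) := by
    rw [← Nat.cast_sum]
    exact_mod_cast Finset.card_biUnion_le
  have h3 : (P.card : ℝ) = 162 := by
    rw [hP, Finset.card_product, Finset.card_product, Int.card_Icc, Int.card_Icc, Int.card_Icc]
    rw [show l0 + 1 + 1 - l0 = ((2 : ℕ) : ℤ) by push_cast; ring,
      show a + 4 + 1 - (a - 4) = ((9 : ℕ) : ℤ) by push_cast; ring,
      show b + 4 + 1 - (b - 4) = ((9 : ℕ) : ℤ) by push_cast; ring, Int.toNat_natCast,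
      Int.toNat_natCast]
    norm_num
  calc (((Ico (w0 * 2 ^ n) ((w0 + 1) * 2 ^ n)).filter (ExT R J c K α β γ s n a b)).card : ℝ)
      ≤ ((P.biUnion S).card : ℝ) := by exact_mod_cast Finset.card_le_card hsub
    _ ≤ ∑ q ∈ P, ((S q).card : ℝ) := h2
    _ ≤ ∑ _q ∈ P, D * 2 ^ n := Finset.sum_le_sum h1
    _ = 162 * D * 2 ^ n := by rw [Finset.sum_const, nsmul_eq_mul, h3]; ring

/-- the leaf tile of a point -/
noncomputable def tl (R : Finset Nd) (α β γ w : ℤ) (z : ℤ × ℤ) : ℕ × ℤ × ℤ :=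
  (lv R (α * w + β * z.1 + γ * z.2), z.1 / 2 ^ lv R (α * w + β * z.1 + γ * z.2),
    z.2 / 2 ^ lv R (α * w + β * z.1 + γ * z.2))

open Classical in
/-- bad points of a square -/
noncomputable def bps (R : Finset Nd) (J : Nd) (c : ℤ → ℤ → ℂ) (K : Fn) (α β γ : ℤ) (s : ℝ) (w : ℤ)
    (B : ℕ × ℤ × ℤ) : Finset (ℤ × ℤ) :=
  ((Ico (B.2.1 * 2 ^ B.1) ((B.2.1 + 1) * 2 ^ B.1)) ×ˢ
    (Ico (B.2.2 * 2 ^ B.1) ((B.2.2 + 1) * 2 ^ B.1))).filter fun z =>
      Bp R J c K α β γ s w z.1 z.2 ∧ lv R (α * w + β * z.1 + γ * z.2) ≤ B.1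

open Classical in
/-- leaf tiles of a bad square -/
noncomputable def LTs (R : Finset Nd) (J : Nd) (c : ℤ → ℤ → ℂ) (K : Fn) (α β γ : ℤ) (s : ℝ) (w : ℤ)
    (B : ℕ × ℤ × ℤ) : Finset (ℕ × ℤ × ℤ) :=
  (bps R J c K α β γ s w B).image (tl R α β γ w)

lemma LTs_area {w : ℤ} {B : ℕ × ℤ × ℤ} (hB : Bc R J c K α β γ s ε w B.1 B.2.1 B.2.2) :
    ε * 4 ^ B.1 ≤ ∑ L ∈ LTs R J c K α β γ s w B, (4 : ℝ) ^ L.1 := by
  classical
  have h1 : ((bps R J c K α β γ s w B).card : ℝ) =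
      ∑ L ∈ LTs R J c K α β γ s w B,
        (((bps R J c K α β γ s w B).filter (fun z => tl R α β γ w z = L)).card : ℝ) := by
    rw [← Nat.cast_sum]
    exact_mod_cast Finset.card_eq_sum_card_image (tl R α β γ w) (bps R J c K α β γ s w B)
  have h2 : ∀ L ∈ LTs R J c K α β γ s w B,
      (((bps R J c K α β γ s w B).filter (fun z => tl R α β γ w z = L)).card : ℝ) ≤ 4 ^ L.1 := by
    intro L _
    have hsub : (bps R J c K α β γ s w B).filter (fun z => tl R α β γ w z = L) ⊆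
        (Ico (L.2.1 * 2 ^ L.1) ((L.2.1 + 1) * 2 ^ L.1)) ×ˢ
          (Ico (L.2.2 * 2 ^ L.1) ((L.2.2 + 1) * 2 ^ L.1)) := by
      intro z hz
      rw [Finset.mem_filter] at hz
      obtain ⟨-, hz⟩ := hz
      rw [← hz]
      rw [Finset.mem_product]
      exact ⟨(mem_blk _ _ _).2 rfl, (mem_blk _ _ _).2 rfl⟩
    have h3 := Finset.card_le_card hsub
    rw [Finset.card_product, card_block, card_block] at h3
    have e : (4 : ℝ) ^ L.1 = ((2 ^ L.1 * 2 ^ L.1 : ℕ) : ℝ) := by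
      push_cast
      rw [← mul_pow]; norm_num
    rw [e]
    exact_mod_cast h3
  have h3 := hB.2
  have h4 : (nb R J c K α β γ s w B.1 B.2.1 B.2.2 : ℝ) = ((bps R J c K α β γ s w B).card : ℝ) := rfl
  rw [h4, h1] at h3
  exact h3.le.trans (Finset.sum_le_sum h2)

/-- properties of the leaf tiles of a square -/
lemma mem_LTs {w : ℤ} {B L : ℕ × ℤ × ℤ} (hL : L ∈ LTs R J c K α β γ s w B) :
    L.1 ≤ B.1 ∧ L.2.1 / 2 ^ (B.1 - L.1) = B.2.1 ∧ L.2.2 / 2 ^ (B.1 - L.1) = B.2.2 ∧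
      ExT R J c K α β γ s L.1 L.2.1 L.2.2 w := by
  classical
  unfold LTs bps at hL
  rw [Finset.mem_image] at hL
  obtain ⟨z, hz, rfl⟩ := hL
  rw [Finset.mem_filter, Finset.mem_product, mem_blk, mem_blk] at hz
  obtain ⟨⟨h1, h2⟩, h3, h4⟩ := hz
  refine ⟨h4, ?_, ?_, z.1, z.2, rfl, rfl, h3, rfl⟩
  · show z.1 / 2 ^ lv R (α * w + β * z.1 + γ * z.2) / 2 ^ (B.1 - lv R (α * w + β * z.1 + γ * z.2)) =
      B.2.1
    rw [ediv_anc _ h4, h1]
  · show z.2 / 2 ^ lv R (α * w + β * z.1 + γ * z.2) / 2 ^ (B.1 - lv R (α * w + β * z.1 + γ * z.2)) =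
      B.2.2
    rw [ediv_anc _ h4, h2]

/-- a common tile of two maximal bad squares -/
lemma mx_eq {w : ℤ} {B B' L : ℕ × ℤ × ℤ} (hB : MxB R J c K α β γ s ε w B)
    (hB' : MxB R J c K α β γ s ε w B') (h : B.1 ≤ B'.1) (hL : L.1 ≤ B.1)
    (h1 : L.2.1 / 2 ^ (B.1 - L.1) = B.2.1) (h2 : L.2.2 / 2 ^ (B.1 - L.1) = B.2.2)
    (h3 : L.2.1 / 2 ^ (B'.1 - L.1) = B'.2.1) (h4 : L.2.2 / 2 ^ (B'.1 - L.1) = B'.2.2) : B = B' := by
  obtain ⟨k, hk⟩ := Nat.exists_eq_add_of_le h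
  have e1 : B'.2.1 = B.2.1 / 2 ^ k := by
    rw [← h3, ← h1, anc]; congr 2; omega
  have e2 : B'.2.2 = B.2.2 / 2 ^ k := by
    rw [← h4, ← h2, anc]; congr 2; omega
  rcases Nat.eq_zero_or_pos k with hk0 | hk0
  · subst hk0
    obtain ⟨m, a, b⟩ := B
    obtain ⟨m', a', b'⟩ := B'
    simp only at hk e1 e2
    simp only [pow_zero, Int.ediv_one, add_zero] at hk e1 e2
    rw [hk, e1, e2]
  · exfalso
    have h5 := hB'.1
    rw [hk, e1, e2] at h5
    exact hB.2 k hk0 h5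

end ex

/-! ### the cubes -/

section cubes

variable {R : Finset Nd} {J : Nd} {c : ℤ → ℤ → ℂ} {K : Fn} {α β γ : ℤ} {s ε : ℝ}

/-- the points of a cube -/
noncomputable def cub (u : ℕ × ℤ × ℤ × ℤ) : Finset (ℤ × ℤ × ℤ) :=
  (Ico (u.2.1 * 2 ^ u.1) ((u.2.1 + 1) * 2 ^ u.1)) ×ˢ
    ((Ico (u.2.2.1 * 2 ^ u.1) ((u.2.2.1 + 1) * 2 ^ u.1)) ×ˢ
      (Ico (u.2.2.2 * 2 ^ u.1) ((u.2.2.2 + 1) * 2 ^ u.1)))

lemma cubeS_eq (g : ℤ → ℝ) (u : ℕ × ℤ × ℤ × ℤ) :
    cubeS g 0 u = ∑ t ∈ cub u, g (0 - t.1 - t.2.1 - t.2.2) := by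
  unfold cubeS cub
  rw [Finset.sum_product]
  refine Finset.sum_congr rfl fun x _ => ?_
  rw [Finset.sum_product]

/-- enlarged leaf -/
noncomputable def enl (p : Nd) : Finset ℤ :=
  Ico (p.2 * 2 ^ (p.1 + 7) - 9 * 2 ^ p.1) ((p.2 + 1) * 2 ^ (p.1 + 7) + 9 * 2 ^ p.1)

lemma card_enl (p : Nd) : ((enl p).card : ℝ) ≤ 2 * 2 ^ (p.1 + 7) := by
  unfold enl
  rw [Int.card_Ico]
  rw [show (p.2 + 1) * 2 ^ (p.1 + 7) + 9 * 2 ^ p.1 - (p.2 * 2 ^ (p.1 + 7) - 9 * 2 ^ p.1) =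
    ((2 ^ (p.1 + 7) + 18 * 2 ^ p.1 : ℕ) : ℤ) by push_cast; ring, Int.toNat_natCast]
  push_cast
  have : (2 : ℝ) ^ (p.1 + 7) = 128 * 2 ^ p.1 := by rw [pow_add]; ring
  rw [this]
  have : (0 : ℝ) < 2 ^ p.1 := by positivity
  linarith

/-- cubes over the leaves: overlap is bounded after integration in the direction of the shadow -/
lemma sum_cubes {g : ℤ → ℝ} (hg : ∀ x, 0 ≤ g x) (hβγ : β ≠ γ) (U : Finset (ℕ × ℤ × ℤ × ℤ))
    (P : Finset Nd) (Wf Sg : Finset ℤ)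
    (h : ∀ u ∈ U, ∃ p ∈ P, p.1 = u.1 ∧ ∀ t ∈ cub u, t.1 ∈ Wf ∧ (0 - t.1 - t.2.1 - t.2.2) ∈ Sg ∧
      α * t.1 + β * t.2.1 + γ * t.2.2 ∈ enl p) :
    ∑ u ∈ U, cubeS g 0 u ≤ Wf.card * (∑ x ∈ Sg, g x) * ∑ p ∈ P, ((enl p).card : ℝ) := by
  classical
  choose! pf h1 h2 h3 using h
  rw [← Finset.sum_fiberwise_of_maps_to (s := U) (t := P) (g := pf) h1, Finset.mul_sum]
  refine Finset.sum_le_sum fun p hp => ?_
  have e1 : ∑ u ∈ U with pf u = p, cubeS g 0 u =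
      ∑ x ∈ (U.filter (fun u => pf u = p)).sigma cub,
        g (0 - x.2.1 - x.2.2.1 - x.2.2.2) := by
    rw [Finset.sum_sigma]
    exact Finset.sum_congr rfl fun u _ => cubeS_eq g u
  set φ : (Σ _ : ℕ × ℤ × ℤ × ℤ, ℤ × ℤ × ℤ) → ℤ × ℤ × ℤ := fun x =>
    (x.2.1, 0 - x.2.1 - x.2.2.1 - x.2.2.2, α * x.2.1 + β * x.2.2.1 + γ * x.2.2.2) with hφ
  have hinj : Set.InjOn φ ((U.filter (fun u => pf u = p)).sigma cub : Set _) := by
    rintro ⟨u, t⟩ hx ⟨u', t'⟩ hx' hh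
    rw [Finset.mem_coe, Finset.mem_sigma, Finset.mem_filter] at hx hx'
    simp only [hφ, Prod.mk.injEq] at hh
    simp only at hx hx'
    obtain ⟨⟨hu, hup⟩, ht⟩ := hx
    obtain ⟨⟨hu', hup'⟩, ht'⟩ := hx'
    obtain ⟨a1, a2, a3⟩ := hh
    have a4 : (β - γ) * (t.2.1 - t'.2.1) = 0 := by
      rw [a1] at a3
      have a5 : t.2.2 = t'.2.1 + t'.2.2 - t.2.1 := by linarith
      rw [a5] at a3
      linarith
    have a5 : t.2.1 = t'.2.1 := by
      rcases mul_eq_zero.1 a4 with h | h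
      · exact absurd (sub_eq_zero.1 h) hβγ
      · linarith
    have a6 : t.2.2 = t'.2.2 := by linarith
    have a7 : t = t' := Prod.ext a1 (Prod.ext a5 a6)
    subst a7
    have b1 : u.1 = u'.1 := by
      rw [← h2 u hu, ← h2 u' hu', hup, hup']
    unfold cub at ht ht'
    rw [Finset.mem_product, Finset.mem_product, mem_blk, mem_blk, mem_blk] at ht ht'
    obtain ⟨c1, c2, c3⟩ := ht
    obtain ⟨c1', c2', c3'⟩ := ht'
    have : u = u' := by
      refine Prod.ext b1 (Prod.ext ?_ (Prod.ext ?_ ?_))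
      · rw [← c1, ← c1', b1]
      · rw [← c2, ← c2', b1]
      · rw [← c3, ← c3', b1]
    subst this
    rfl
  rw [e1]
  have e2 : ∑ x ∈ (U.filter (fun u => pf u = p)).sigma cub,
        g (0 - x.2.1 - x.2.2.1 - x.2.2.2) =
      ∑ r ∈ ((U.filter (fun u => pf u = p)).sigma cub).image φ, g r.2.1 := by
    rw [Finset.sum_image hinj]
  rw [e2]
  have e3 : ∑ r ∈ ((U.filter (fun u => pf u = p)).sigma cub).image φ, g r.2.1 ≤
      ∑ r ∈ Wf ×ˢ (Sg ×ˢ enl p), g r.2.1 := by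
    refine Finset.sum_le_sum_of_subset_of_nonneg ?_ fun _ _ _ => hg _
    intro r hr
    rw [Finset.mem_image] at hr
    obtain ⟨⟨u, t⟩, hx, rfl⟩ := hr
    rw [Finset.mem_sigma, Finset.mem_filter] at hx
    obtain ⟨⟨hu, hup⟩, ht⟩ := hx
    have := h3 u hu t ht
    rw [Finset.mem_product, Finset.mem_product, ← hup]
    exact this
  refine e3.trans (le_of_eq ?_)
  simp only [Finset.sum_product, Finset.sum_const, nsmul_eq_mul]
  rw [← Finset.mul_sum]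
  ring

/-- the cube of a used leaf tile: frozen block, third vertex and shadow -/
lemma cube_pt (hR : Full R J) (hC : Cof α β γ) {th : ℤ → ℝ} {z0 : ℤ} {n : ℕ}
    (hsupp : ∀ z, th z ≠ 0 → z0 ≤ z ∧ z < z0 + n) {w0 w : ℤ} {N : ℕ} (hw : w0 ≤ w ∧ w < w0 + N)
    {B L : ℕ × ℤ × ℤ} (hBJ : B.1 ≤ J.1) (hav : avT th 0 512 B w ≠ 0)
    (hL : L ∈ LTs R J c K α β γ s w B) :
    ∃ p ∈ Lfs R J, p.1 = L.1 ∧ ∀ t ∈ cub (L.1, w / 2 ^ L.1, L.2.1, L.2.2),
      t.1 ∈ Ico (w0 - 2 ^ J.1) (w0 + N + 2 ^ J.1) ∧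
      (0 - t.1 - t.2.1 - t.2.2) ∈ Ico (z0 - 515 * 2 ^ J.1) (z0 + n + 515 * 2 ^ J.1) ∧
      α * t.1 + β * t.2.1 + γ * t.2.2 ∈ enl p := by
  classical
  obtain ⟨h1, h2, h3, x, y, hx, hy, hbp, hlv⟩ := mem_LTs hL
  have hηJ : α * w + β * x + γ * y ∈ iv J := hbp.1
  refine ⟨lfp R (α * w + β * x + γ * y), ?_, hlv, ?_⟩
  · unfold Lfs
    exact Finset.mem_image_of_mem _ hηJ
  intro t ht
  unfold cub at ht
  rw [Finset.mem_product, Finset.mem_product, mem_blk, mem_blk, mem_blk] at ht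
  simp only at ht
  obtain ⟨ht1, ht2, ht3⟩ := ht
  have hLJ : (2 : ℤ) ^ L.1 ≤ 2 ^ J.1 := pow_le_pow_right₀ (by norm_num) (by omega)
  have hBJ' : (2 : ℤ) ^ B.1 ≤ 2 ^ J.1 := pow_le_pow_right₀ (by norm_num) hBJ
  have hL0 : (0 : ℤ) < 2 ^ L.1 := by positivity
  have b1 := blk_abs ht1
  have b1' := blk_abs (rfl : w / 2 ^ L.1 = w / 2 ^ L.1)
  have b2 := blk_abs ht2
  have b2' := blk_abs hx
  have b3 := blk_abs ht3
  have b3' := blk_abs hy
  refine ⟨?_, ?_, ?_⟩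
  · rw [Finset.mem_Ico]
    constructor
    · linarith [b1.1, b1'.2, hw.1]
    · linarith [b1.2, b1'.1, hw.2]
  · -- the third vertex
    obtain ⟨d, hd, hdth⟩ : ∃ d ∈ Icc (-((512 * 2 ^ B.1 : ℕ) : ℤ)) ((512 * 2 ^ B.1 : ℕ) : ℤ),
        th (0 - w - 2 ^ B.1 * B.2.1 - 2 ^ B.1 * B.2.2 + d) ≠ 0 := by
      by_contra hcon
      push Not at hcon
      apply hav
      unfold avT
      rw [Finset.sum_eq_zero hcon, mul_zero]
    have h4 := hsupp _ hdth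
    rw [Finset.mem_Icc] at hd
    push_cast at hd
    have c2 := blk_abs (show t.2.1 / 2 ^ B.1 = B.2.1 by rw [← ediv_anc _ h1, ht2, h2])
    have c3 := blk_abs (show t.2.2 / 2 ^ B.1 = B.2.2 by rw [← ediv_anc _ h1, ht3, h3])
    have hLB : (2 : ℤ) ^ L.1 ≤ 2 ^ B.1 := pow_le_pow_right₀ (by norm_num) h1
    rw [mul_comm (2 ^ B.1) B.2.1, mul_comm (2 ^ B.1) B.2.2] at h4
    obtain ⟨h4a, h4b⟩ := h4
    obtain ⟨c2a, c2b⟩ := c2
    obtain ⟨c3a, c3b⟩ := c3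
    obtain ⟨hda, hdb⟩ := hd
    obtain ⟨b1a, b1b⟩ := b1
    obtain ⟨b1a', b1b'⟩ := b1'
    clear b2 b2' b3 b3' hbp hlv hsupp hav hL hηJ hdth
    rw [Finset.mem_Ico]
    constructor
    · linarith
    · linarith
  · -- the shadow
    have hml : α * w + β * x + γ * y ∈ iv (lfp R (α * w + β * x + γ * y)) := mem_lfp _
    unfold iv dI at hml
    rw [Finset.mem_Ico] at hml
    have hlv' : (lfp R (α * w + β * x + γ * y)).1 = L.1 := hlv
    unfold enl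
    rw [hlv'] at hml ⊢
    rw [Finset.mem_Ico]
    have d1 : |α * (t.1 - w)| ≤ 3 * 2 ^ L.1 := by
      rw [abs_mul]
      have : |t.1 - w| ≤ 2 ^ L.1 := by
        rw [abs_le]; constructor <;> linarith [b1.1, b1.2, b1'.1, b1'.2]
      exact mul_le_mul hC.α3 this (abs_nonneg _) (by norm_num)
    have d2 : |β * (t.2.1 - x)| ≤ 3 * 2 ^ L.1 := by
      rw [abs_mul]
      have : |t.2.1 - x| ≤ 2 ^ L.1 := by
        rw [abs_le]; constructor <;> linarith [b2.1, b2.2, b2'.1, b2'.2]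
      exact mul_le_mul hC.β3 this (abs_nonneg _) (by norm_num)
    have d3 : |γ * (t.2.2 - y)| ≤ 3 * 2 ^ L.1 := by
      rw [abs_mul]
      have : |t.2.2 - y| ≤ 2 ^ L.1 := by
        rw [abs_le]; constructor <;> linarith [b3.1, b3.2, b3'.1, b3'.2]
      exact mul_le_mul hC.γ3 this (abs_nonneg _) (by norm_num)
    have e := abs_le.1 d1
    have e' := abs_le.1 d2
    have e'' := abs_le.1 d3
    have e3 : α * t.1 + β * t.2.1 + γ * t.2.2 = (α * w + β * x + γ * y) + α * (t.1 - w) +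
      β * (t.2.1 - x) + γ * (t.2.2 - y) := by ring
    rw [e3]
    constructor
    · linarith [hml.1]
    · linarith [hml.2]

/-- the local sum of the majorant -/
lemma sum_g {g : ℤ → ℝ} (hg : ∀ x, 0 ≤ g x) {C Ht Θ : ℝ} (hC : 0 ≤ C) (hHt : 1 ≤ Ht)
    (Sg : Finset ℤ) (h : ∑ x ∈ Sg, g x ^ (3 / 2 : ℝ) ≤ C * (Ht ^ (1 / 2 : ℝ) * Θ)) :
    ∑ x ∈ Sg, g x ≤ Ht ^ (1 / 3 : ℝ) * (Sg.card + C * Θ) := by
  have hH0 : 0 < Ht := by linarith
  set lam : ℝ := Ht ^ (1 / 3 : ℝ) with hlam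
  have hl0 : 0 < lam := Real.rpow_pos_of_pos hH0 _
  have h1 : ∀ x ∈ Sg, g x ≤ lam + lam ^ (-(1 / 2) : ℝ) * g x ^ (3 / 2 : ℝ) := by
    intro x _
    by_cases hx : g x ≤ lam
    · have : 0 ≤ lam ^ (-(1 / 2) : ℝ) * g x ^ (3 / 2 : ℝ) :=
        mul_nonneg (Real.rpow_nonneg hl0.le _) (Real.rpow_nonneg (hg x) _)
      linarith
    · rw [not_le] at hx
      have hgx : 0 < g x := hl0.trans hx
      have e : g x ^ (3 / 2 : ℝ) = g x * g x ^ (1 / 2 : ℝ) := by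
        rw [show (3 / 2 : ℝ) = 1 + 1 / 2 by norm_num, Real.rpow_add hgx, Real.rpow_one]
      have h2 : lam ^ (1 / 2 : ℝ) ≤ g x ^ (1 / 2 : ℝ) :=
        Real.rpow_le_rpow hl0.le hx.le (by norm_num)
      have h3 : lam ^ (-(1 / 2) : ℝ) * lam ^ (1 / 2 : ℝ) = 1 := by
        rw [← Real.rpow_add hl0]; norm_num
      have h4 : g x ≤ lam ^ (-(1 / 2) : ℝ) * g x ^ (3 / 2 : ℝ) := by
        rw [e]
        have h5 : 0 < lam ^ (-(1 / 2) : ℝ) := Real.rpow_pos_of_pos hl0 _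
        calc g x = (lam ^ (-(1 / 2) : ℝ) * lam ^ (1 / 2 : ℝ)) * g x := by rw [h3, one_mul]
          _ ≤ (lam ^ (-(1 / 2) : ℝ) * g x ^ (1 / 2 : ℝ)) * g x := by
              refine mul_le_mul_of_nonneg_right ?_ hgx.le
              exact mul_le_mul_of_nonneg_left h2 h5.le
          _ = _ := by ring
      linarith
  refine (Finset.sum_le_sum h1).trans ?_
  rw [Finset.sum_add_distrib, Finset.sum_const, nsmul_eq_mul, ← Finset.mul_sum]
  have h2 : lam ^ (-(1 / 2) : ℝ) * ∑ x ∈ Sg, g x ^ (3 / 2 : ℝ) ≤ lam * (C * Θ) := by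
    have h3 := mul_le_mul_of_nonneg_left h (Real.rpow_nonneg hl0.le (-(1 / 2) : ℝ))
    refine h3.trans (le_of_eq ?_)
    have e : lam ^ (-(1 / 2) : ℝ) * Ht ^ (1 / 2 : ℝ) = lam := by
      rw [hlam, ← Real.rpow_mul hH0.le, ← Real.rpow_add hH0]
      norm_num
    calc lam ^ (-(1 / 2) : ℝ) * (C * (Ht ^ (1 / 2 : ℝ) * Θ))
        = (lam ^ (-(1 / 2) : ℝ) * Ht ^ (1 / 2 : ℝ)) * (C * Θ) := by ring
      _ = lam * (C * Θ) := by rw [e]
  calc (Sg.card : ℝ) * lam + lam ^ (-(1 / 2) : ℝ) * ∑ x ∈ Sg, g x ^ (3 / 2 : ℝ)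
      ≤ (Sg.card : ℝ) * lam + lam * (C * Θ) := by linarith
    _ = _ := by ring

end cubes

/-! ### the energy of the rest -/

/-- **[KD] ENERGY OF THE REST.** -/
theorem rest_energy : ∃ C0 : ℝ, 0 ≤ C0 ∧ ∀ (R : Finset Nd) (J : Nd), Full R J →
    ∀ (c : ℤ → ℤ → ℂ) (K : Fn) (α β γ : ℤ), Cof α β γ → ∀ (s ε D : ℝ), 0 < ε → 0 ≤ D →
    ExD R c K α β γ s D → ∀ (th : ℤ → ℝ) (Ht : ℝ) (z0 : ℤ) (n : ℕ), (∀ z, 0 ≤ th z) → 1 ≤ Ht →
    (∀ z, th z ≤ Ht) → (∀ z, th z ≠ 0 → z0 ≤ z ∧ z < z0 + n) →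
    ∀ (X : Fn) (A : ℝ), (∀ p ∈ R, av p X ≤ A) → ∀ (w0 : ℤ) (N : ℕ) (Xf Yf : Finset ℤ),
    letI := Classical.dec
    ∑ w ∈ Ico w0 (w0 + N), ∑ x ∈ Xf, ∑ y ∈ Yf, (if RsP R J c K α β γ s ε w x y then
      th (-w - x - y) * ‖X (α * w + β * x + γ * y)‖ ^ 2 else 0) ≤
    C0 * A ^ 2 * (D / ε) * Ht ^ (1 / 3 : ℝ) * ((N + 2 ^ J.1) * 2 ^ J.1 *
      (∑ z ∈ Ico z0 (z0 + n), th z + n + 2 ^ J.1)) := by
  classical
  obtain ⟨Cm, hCm, hmax⟩ := exists_max_int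
  refine ⟨(3073 * 2 ^ 15) * ((2 * 512 + 7) * 162) * (2 * (2 * 2 ^ 7)) * (1030 + Cm), by positivity, ?_⟩
  intro R J hR c K α β γ hC s ε D hε hD0 hD th Ht z0 n hth hHt hthH hsupp X A hX w0 N Xf Yf
  -- a common bound for the indices
  obtain ⟨T, hTx, hTy⟩ : ∃ T : ℤ, (∀ x ∈ Xf, |x| + 256 * 2 ^ J.1 ≤ T) ∧
      ∀ y ∈ Yf, |y| + 256 * 2 ^ J.1 ≤ T := by
    refine ⟨∑ x ∈ Xf, |x| + ∑ y ∈ Yf, |y| + 256 * 2 ^ J.1, fun x hx => ?_, fun y hy => ?_⟩
    · have h1 := Finset.single_le_sum (f := fun x : ℤ => |x|) (fun _ _ => abs_nonneg _) hx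
      have h2 : 0 ≤ ∑ y ∈ Yf, |y| := Finset.sum_nonneg fun _ _ => abs_nonneg _
      linarith
    · have h1 := Finset.single_le_sum (f := fun x : ℤ => |x|) (fun _ _ => abs_nonneg _) hy
      have h2 : 0 ≤ ∑ x ∈ Xf, |x| := Finset.sum_nonneg fun _ _ => abs_nonneg _
      linarith
  -- the majorant
  set JJ : ℤ := 2 ^ J.1 with hJJ
  have hJJ0 : 0 < JJ := by rw [hJJ]; positivity
  obtain ⟨g, hg0, hg1, hg2⟩ := hmax th hth (Ico z0 (z0 + n)) (by
    intro x hx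
    by_contra hne
    exact hx (Finset.mem_Ico.2 (hsupp x hne))) (z0.natAbs + n + 515 * 2 ^ J.1 + 1)
  set Sg : Finset ℤ := Ico (z0 - 515 * JJ) (z0 + n + 515 * JJ) with hSg
  have hSgsub : Sg ⊆ Icc (-((z0.natAbs + n + 515 * 2 ^ J.1 + 1 : ℕ) : ℤ))
      ((z0.natAbs + n + 515 * 2 ^ J.1 + 1 : ℕ) : ℤ) := by
    intro x hx
    rw [hSg, Finset.mem_Ico] at hx
    rw [Finset.mem_Icc]
    have h2 := neg_abs_le z0
    have h3 := le_abs_self z0
    push_cast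
    rw [← hJJ]
    have h4 : (0 : ℤ) ≤ n := by positivity
    constructor
    · linarith [hx.1]
    · linarith [hx.2]
  have hsg : ∑ x ∈ Sg, g x ≤ Ht ^ (1 / 3 : ℝ) * (Sg.card + Cm * ∑ z ∈ Ico z0 (z0 + n), th z) := by
    refine sum_g hg0 hCm hHt Sg ?_
    refine (Finset.sum_le_sum_of_subset_of_nonneg hSgsub fun _ _ _ =>
      Real.rpow_nonneg (hg0 _) _).trans (hg2.trans ?_)
    refine mul_le_mul_of_nonneg_left ?_ hCm
    rw [Finset.mul_sum]
    refine Finset.sum_le_sum fun z _ => ?_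
    rcases (hth z).eq_or_lt with h | h
    · rw [← h, Real.zero_rpow (by norm_num), mul_zero]
    · rw [show (3 / 2 : ℝ) = 1 / 2 + 1 by norm_num, Real.rpow_add h, Real.rpow_one]
      refine mul_le_mul_of_nonneg_right ?_ h.le
      exact Real.rpow_le_rpow h.le (hthH z) (by norm_num)
  have hSgc : (Sg.card : ℝ) ≤ n + 1030 * 2 ^ J.1 := by
    rw [hSg, Int.card_Ico]
    rw [show z0 + n + 515 * JJ - (z0 - 515 * JJ) = ((n + 1030 * 2 ^ J.1 : ℕ) : ℤ) by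
      push_cast; rw [hJJ]; ring, Int.toNat_natCast]
    push_cast
    exact le_rfl
  -- the fixed `w` bounds
  set BT : ℤ → Finset (ℕ × ℤ × ℤ) := fun w => BTs R J c K α β γ s ε th T w with hBT
  have step1 : ∑ w ∈ Ico w0 (w0 + N), ∑ x ∈ Xf, ∑ y ∈ Yf,
      (if RsP R J c K α β γ s ε w x y then
        th (-w - x - y) * ‖X (α * w + β * x + γ * y)‖ ^ 2 else 0) ≤
      (3073 * 2 ^ 15 * A ^ 2) * ∑ w ∈ Ico w0 (w0 + N), ∑ B ∈ BT w,
        (4 : ℝ) ^ B.1 * avT th 0 512 B w := by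
    rw [Finset.mul_sum]
    exact Finset.sum_le_sum fun w _ => one_w hR hC hX hth Xf Yf T hTx hTy w
  -- the used cubes
  set LT : ℤ → (ℕ × ℤ × ℤ) → Finset (ℕ × ℤ × ℤ) := fun w B => LTs R J c K α β γ s w B with hLT
  set U : Finset (ℕ × ℤ × ℤ × ℤ) := (Ico w0 (w0 + N)).biUnion fun w => (BT w).biUnion fun B =>
    (LT w B).image fun L => (L.1, w / 2 ^ L.1, L.2.1, L.2.2) with hU
  have memBT : ∀ w, ∀ B ∈ BT w, B.1 ≤ J.1 ∧ MxB R J c K α β γ s ε w B ∧ avT th 0 512 B w ≠ 0 := by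
    intro w B hB
    rw [hBT] at hB
    simp only at hB
    unfold BTs at hB
    rw [Finset.mem_filter, Finset.mem_product, Finset.mem_range] at hB
    exact ⟨by omega, hB.2.1, hB.2.2⟩
  have step2 : ∑ w ∈ Ico w0 (w0 + N), ∑ B ∈ BT w, (4 : ℝ) ^ B.1 * avT th 0 512 B w ≤
      (2 * 512 + 7) * ((162 * D) / ε) * ∑ u ∈ U, cubeS g 0 u := by
    have h := bad_tiles hth hg1 U (ExT R J c K α β γ s) (ρ := 162 * D) (cc := ε) (by positivity) hε
      (fun u _ => card_ExT hR hC hD hD0 u.1 u.2.1 u.2.2.1 u.2.2.2) (Ico w0 (w0 + N)) BT LT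
      (by
        intro w hw B hB L hL
        obtain ⟨h1, h2, h3, h4⟩ := mem_LTs hL
        refine ⟨h1, h2, h3, ?_, h4⟩
        rw [hU, Finset.mem_biUnion]
        refine ⟨w, hw, ?_⟩
        rw [Finset.mem_biUnion]
        refine ⟨B, hB, ?_⟩
        rw [Finset.mem_image]
        exact ⟨L, hL, rfl⟩)
      (by
        intro w hw B hB B' hB' hne
        rw [Finset.disjoint_left]
        intro L hL hL'
        apply hne
        obtain ⟨h1, h2, h3, -⟩ := mem_LTs hL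
        obtain ⟨h1', h2', h3', -⟩ := mem_LTs hL'
        rcases le_total B.1 B'.1 with hle | hle
        · exact mx_eq (memBT w B hB).2.1 (memBT w B' hB').2.1 hle h1 h2 h3 h2' h3'
        · exact (mx_eq (memBT w B' hB').2.1 (memBT w B hB).2.1 hle h1' h2' h3' h2 h3).symm)
      (by
        intro w hw B hB
        exact LTs_area (memBT w B hB).2.1.1) 0 512
    exact_mod_cast h
  -- the cubes
  have step3 : ∑ u ∈ U, cubeS g 0 u ≤ (Ico (w0 - JJ) (w0 + N + JJ)).card * (∑ x ∈ Sg, g x) *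
      ∑ p ∈ Lfs R J, ((enl p).card : ℝ) := by
    refine sum_cubes (α := α) (β := β) (γ := γ) hg0 hC.βγ U (Lfs R J) _ Sg ?_
    intro u hu
    rw [hU, Finset.mem_biUnion] at hu
    obtain ⟨w, hw, hu⟩ := hu
    rw [Finset.mem_biUnion] at hu
    obtain ⟨B, hB, hu⟩ := hu
    rw [Finset.mem_image] at hu
    obtain ⟨L, hL, rfl⟩ := hu
    obtain ⟨hBJ, hMx, hav⟩ := memBT w B hB
    rw [Finset.mem_Ico] at hw
    exact cube_pt hR hC hsupp hw hBJ hav hL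
  have hW : ((Ico (w0 - JJ) (w0 + N + JJ)).card : ℝ) ≤ 2 * (N + 2 ^ J.1) := by
    rw [Int.card_Ico]
    rw [show w0 + N + JJ - (w0 - JJ) = ((N + 2 * 2 ^ J.1 : ℕ) : ℤ) by
      push_cast; rw [hJJ]; ring, Int.toNat_natCast]
    push_cast
    have : (0 : ℝ) ≤ N := by positivity
    linarith
  have hP : ∑ p ∈ Lfs R J, ((enl p).card : ℝ) ≤ 2 * 2 ^ 7 * 2 ^ J.1 := by
    refine (Finset.sum_le_sum fun p _ => card_enl p).trans ?_
    rw [← Finset.mul_sum]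
    have := sum_leaves hR
    rw [pow_add] at this
    linarith
  set Θ : ℝ := ∑ z ∈ Ico z0 (z0 + (n : ℤ)), th z with hΘ
  have hΘ0 : 0 ≤ Θ := Finset.sum_nonneg fun _ _ => hth _
  have hH13 : 0 ≤ Ht ^ (1 / 3 : ℝ) := Real.rpow_nonneg (by linarith) _
  have hsg' : ∑ x ∈ Sg, g x ≤ (1030 + Cm) * (Ht ^ (1 / 3 : ℝ) * (Θ + n + 2 ^ J.1)) := by
    refine hsg.trans ?_
    have h1 : (Sg.card : ℝ) + Cm * Θ ≤ (1030 + Cm) * (Θ + n + 2 ^ J.1) := by
      have hn : (0 : ℝ) ≤ n := by positivity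
      have hj : (0 : ℝ) ≤ 2 ^ J.1 := by positivity
      nlinarith [mul_nonneg hCm hn, mul_nonneg hCm hj]
    calc Ht ^ (1 / 3 : ℝ) * (Sg.card + Cm * Θ)
        ≤ Ht ^ (1 / 3 : ℝ) * ((1030 + Cm) * (Θ + n + 2 ^ J.1)) :=
          mul_le_mul_of_nonneg_left h1 hH13
      _ = _ := by ring
  have hsg0 : 0 ≤ ∑ x ∈ Sg, g x := Finset.sum_nonneg fun _ _ => hg0 _
  have step4 : ∑ u ∈ U, cubeS g 0 u ≤ (2 * (N + 2 ^ J.1)) *
      ((1030 + Cm) * (Ht ^ (1 / 3 : ℝ) * (Θ + n + 2 ^ J.1))) * (2 * 2 ^ 7 * 2 ^ J.1) := by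
    refine step3.trans ?_
    refine mul_le_mul ?_ hP (Finset.sum_nonneg fun _ _ => by positivity) (by positivity)
    exact mul_le_mul hW hsg' hsg0 (by positivity)
  have hA2 : 0 ≤ 3073 * 2 ^ 15 * A ^ 2 := by positivity
  have hDe : 0 ≤ (2 * 512 + 7) * ((162 * D) / ε) := by positivity
  refine step1.trans ?_
  refine (mul_le_mul_of_nonneg_left (step2.trans (mul_le_mul_of_nonneg_left step4 hDe)) hA2).trans ?_
  refine le_of_eq ?_
  field_simp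

end Crest.Agent.R079.KLdx138
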