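import Crest.Agent.R079.KLb_446

/-! R079, KILL LEMMA, part O (helper446): the OPERATOR BOUND of the frozen killer on the good boxes
(`81 s + 170 A √ε`).  Good leaf pieces by Schur, exceptional pieces by Hilbert–Schmidt. -/

set_option autoImplicit false

namespace Crest.Agent.R079.KLx446

open Finset Crest.Agent.R079.Grid Crest.Agent.R079.Glue Crest.Agent.R079.Growth
  Crest.Agent.R079.QRed Crest.Agent.R079.BadTx138

/-- the frozen kernel without mask -/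
noncomputable def kw (c : ℤ → ℤ → ℂ) (K : Fn) (α β γ : ℤ) (w x y : ℤ) : ℂ :=
  c x y * K (α * w + β * x + γ * y)

variable {R : Finset Nd} {J : Nd}

/-- index of the leaf piece of a point: leaf, aligned square of the leaf scale -/
noncomputable def ix (R : Finset Nd) (η : ℤ) (x y : ℤ) : Nd × ℤ × ℤ :=
  (lfp R η, x / 2 ^ lv R η, y / 2 ^ lv R η)

lemma ix_fst (η x y : ℤ) : (ix R η x y).1 = lfp R η := rfl

lemma lfp_fst (η : ℤ) : (lfp R η).1 = lv R η := rfl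

/-- **column count** -/
lemma col (hR : Full R J) {η0 β γ : ℤ} (hβ3 : |β| ≤ 3) (hγ : γ ≠ 0) (hγ3 : |γ| ≤ 3) {m : ℕ} {u : ℤ}
    (S : Finset (Nd × ℤ × ℤ))
    (hS : ∀ κ ∈ S, ∃ x' y' : ℤ, η0 + β * x' + γ * y' ∈ iv J ∧ lfp R (η0 + β * x' + γ * y') = κ.1 ∧
      x' / 2 ^ κ.1.1 = κ.2.1 ∧ y' / 2 ^ κ.1.1 = κ.2.2 ∧ y' ∈ Ico u (u + 2 ^ m) ∧ κ.1.1 ≤ m) (x : ℤ) :
    ∑ κ ∈ S.filter (fun κ => x / 2 ^ κ.1.1 = κ.2.1), (2 : ℝ) ^ κ.1.1 ≤ 81 * 2 ^ m := by
  classical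
  set Z : Finset ℤ := Ico (u - 4 * 2 ^ m) (u + 5 * 2 ^ m) with hZ
  have hZc : (Z.card : ℝ) = 9 * 2 ^ m := by
    rw [hZ, Int.card_Ico]
    have : u + 5 * 2 ^ m - (u - 4 * 2 ^ m) = ((9 * 2 ^ m : ℕ) : ℤ) := by push_cast; ring
    rw [this, Int.toNat_natCast]
    push_cast; ring
  set G : Nd × ℤ × ℤ → Finset ℤ := fun κ =>
    Z.filter (fun y => η0 + β * x + γ * y ∈ iv κ.1 ∧ |y / 2 ^ κ.1.1 - κ.2.2| ≤ 4) with hG
  have h := charge (S.filter (fun κ => x / 2 ^ κ.1.1 = κ.2.1)) Z G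
    (fun κ _ => Finset.filter_subset _ _) (fun κ => (2 : ℝ) ^ κ.1.1) ?_ 9 ?_
  · refine h.trans (le_of_eq ?_)
    rw [hZc]; ring
  · intro κ hκ
    rw [Finset.mem_filter] at hκ
    obtain ⟨hκ, hx⟩ := hκ
    obtain ⟨x', y', hJ, hp, ha, hb, hy', hm⟩ := hS κ hκ
    have hN : (0 : ℤ) < 2 ^ κ.1.1 := by positivity
    have hNm : (2 : ℤ) ^ κ.1.1 ≤ 2 ^ m := pow_le_pow_right₀ (by norm_num) hm
    have hxx : |x - x'| ≤ 2 ^ κ.1.1 := by
      have h1 := (div_lt (x := x) (a := κ.2.1) hN).2 hx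
      have h2 := (div_lt (x := x') (a := κ.2.1) hN).2 ha
      rw [Finset.mem_Ico] at h1 h2
      rw [abs_le]
      constructor <;> nlinarith [h1.1, h1.2, h2.1, h2.2]
    have hη : η0 + β * x' + γ * y' ∈ iv κ.1 := by rw [← hp]; exact mem_lfp _
    have hδ : |β * (x - x')| ≤ 3 * 2 ^ κ.1.1 := by
      rw [abs_mul]
      exact mul_le_mul hβ3 hxx (abs_nonneg _) (by norm_num)
    obtain ⟨σ, hσ, hrun⟩ := run hη hδ hγ hγ3
    have hcard : ((Ico (3 * 2 ^ κ.1.1 : ℤ) (4 * 2 ^ κ.1.1)).card : ℝ) = 2 ^ κ.1.1 := by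
      rw [Int.card_Ico]
      have : (4 * 2 ^ κ.1.1 - 3 * 2 ^ κ.1.1 : ℤ) = ((2 ^ κ.1.1 : ℕ) : ℤ) := by push_cast; ring
      rw [this, Int.toNat_natCast]
      push_cast; ring
    rw [← hcard]
    have hinj : Set.InjOn (fun t : ℤ => y' + σ * t) (Ico (3 * 2 ^ κ.1.1 : ℤ) (4 * 2 ^ κ.1.1)) := by
      intro t _ t' _ htt
      simp only at htt
      rcases hσ with rfl | rfl <;> omega
    rw [← Finset.card_image_of_injOn hinj]
    refine Nat.cast_le.2 (Finset.card_le_card ?_)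
    intro y hy
    rw [Finset.mem_image] at hy
    obtain ⟨t, ht, rfl⟩ := hy
    rw [Finset.mem_Ico] at ht
    rw [Finset.mem_Ico] at hy'
    rw [hG]
    simp only
    rw [Finset.mem_filter, hZ, Finset.mem_Ico]
    refine ⟨⟨?_, ?_⟩, ?_, ?_⟩
    · rcases hσ with rfl | rfl <;> linarith [ht.1, ht.2, hy'.1, hy'.2]
    · rcases hσ with rfl | rfl <;> linarith [ht.1, ht.2, hy'.1, hy'.2]
    · have := hrun t ht.1 ht.2
      convert this using 1
      ring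
    · rw [← hb]
      refine div_near hN ?_
      rw [abs_le]
      rcases hσ with rfl | rfl <;> constructor <;> linarith [ht.1, ht.2]
  · intro y hy
    have hsub : (S.filter (fun κ => x / 2 ^ κ.1.1 = κ.2.1)).filter (fun κ => y ∈ G κ) ⊆
        (Icc (y / 2 ^ lv R (η0 + β * x + γ * y) - 4) (y / 2 ^ lv R (η0 + β * x + γ * y) + 4)).image
          (fun b => (lfp R (η0 + β * x + γ * y), x / 2 ^ lv R (η0 + β * x + γ * y), b)) := by
      intro κ hκ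
      rw [Finset.mem_filter, Finset.mem_filter] at hκ
      obtain ⟨⟨hκ, hx⟩, hyG⟩ := hκ
      obtain ⟨x', y', hJ, hp, ha, hb, hy', hm⟩ := hS κ hκ
      rw [hG] at hyG
      simp only at hyG
      rw [Finset.mem_filter] at hyG
      have hη : η0 + β * x + γ * y ∈ iv (lfp R (η0 + β * x' + γ * y')) := by rw [hp]; exact hyG.2.1
      have e1 := lfp_congr hR hJ hη
      have e2 : lfp R (η0 + β * x + γ * y) = κ.1 := e1.trans hp
      have e3 : lv R (η0 + β * x + γ * y) = κ.1.1 := by rw [← e2]; rfl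
      rw [Finset.mem_image]
      refine ⟨κ.2.2, ?_, ?_⟩
      · rw [Finset.mem_Icc, e3]
        have := abs_le.1 hyG.2.2
        constructor <;> linarith [this.1, this.2]
      · rw [e2, e3, hx]
    have h1 := (Finset.card_le_card hsub).trans Finset.card_image_le
    have h2 : (Icc (y / 2 ^ lv R (η0 + β * x + γ * y) - 4)
        (y / 2 ^ lv R (η0 + β * x + γ * y) + 4)).card = 9 := by
      rw [Int.card_Icc]
      have : y / 2 ^ lv R (η0 + β * x + γ * y) + 4 + 1 - (y / 2 ^ lv R (η0 + β * x + γ * y) - 4) =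
        9 := by ring
      rw [this]; rfl
    rw [h2] at h1
    exact_mod_cast h1

section op

variable {c : ℤ → ℤ → ℂ} {K : Fn} {α β γ : ℤ} {s ε A : ℝ}

open Classical in
/-- bad points of leaf scale `≤ m` near a box without bad squares nearby -/
lemma bad_count {w : ℤ} {m : ℕ} (hm : m ≤ J.1) {q u : ℤ}
    (hgood : ¬ Pw R J c K α β γ s ε w q u (128 * 2 ^ m)) :
    ((((Ico (q - 2 ^ m) (q + 2 * 2 ^ m)) ×ˢ (Ico (u - 2 ^ m) (u + 2 * 2 ^ m))).filter fun z =>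
      Bp R J c K α β γ s w z.1 z.2 ∧ lv R (α * w + β * z.1 + γ * z.2) ≤ m).card : ℝ) ≤
      25 * (ε * 4 ^ m) := by
  set I : Finset ℤ := Icc (q / 2 ^ m - 2) (q / 2 ^ m + 2) with hI
  set I' : Finset ℤ := Icc (u / 2 ^ m - 2) (u / 2 ^ m + 2) with hI'
  have hN : (0 : ℤ) < 2 ^ m := by positivity
  have hsub : ((Ico (q - 2 ^ m) (q + 2 * 2 ^ m)) ×ˢ (Ico (u - 2 ^ m) (u + 2 * 2 ^ m))).filter (fun z =>
      Bp R J c K α β γ s w z.1 z.2 ∧ lv R (α * w + β * z.1 + γ * z.2) ≤ m) ⊆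
      (I ×ˢ I').biUnion fun ab => ((Ico (ab.1 * 2 ^ m) ((ab.1 + 1) * 2 ^ m)) ×ˢ
        (Ico (ab.2 * 2 ^ m) ((ab.2 + 1) * 2 ^ m))).filter fun z =>
        Bp R J c K α β γ s w z.1 z.2 ∧ lv R (α * w + β * z.1 + γ * z.2) ≤ m := by
    intro z hz
    rw [Finset.mem_filter, Finset.mem_product, Finset.mem_Ico, Finset.mem_Ico] at hz
    obtain ⟨⟨⟨h1, h2⟩, h3, h4⟩, hb⟩ := hz
    rw [Finset.mem_biUnion]
    refine ⟨(z.1 / 2 ^ m, z.2 / 2 ^ m), ?_, ?_⟩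
    · rw [Finset.mem_product, hI, hI', Finset.mem_Icc, Finset.mem_Icc]
      have a1 : |z.1 / 2 ^ m - q / 2 ^ m| ≤ 2 := div_near hN (by
        rw [abs_le]; constructor <;> linarith)
      have a2 : |z.2 / 2 ^ m - u / 2 ^ m| ≤ 2 := div_near hN (by
        rw [abs_le]; constructor <;> linarith)
      rw [abs_le] at a1 a2
      simp only
      refine ⟨⟨?_, ?_⟩, ?_, ?_⟩ <;> linarith [a1.1, a1.2, a2.1, a2.2]
    · rw [Finset.mem_filter, Finset.mem_product]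
      exact ⟨⟨(div_lt hN).2 rfl, (div_lt hN).2 rfl⟩, hb⟩
  have h1 := (Finset.card_le_card hsub).trans Finset.card_biUnion_le
  have h2 : ∀ ab ∈ I ×ˢ I', ((((Ico (ab.1 * 2 ^ m) ((ab.1 + 1) * 2 ^ m)) ×ˢ
        (Ico (ab.2 * 2 ^ m) ((ab.2 + 1) * 2 ^ m))).filter fun z =>
        Bp R J c K α β γ s w z.1 z.2 ∧ lv R (α * w + β * z.1 + γ * z.2) ≤ m).card : ℝ) ≤
        ε * 4 ^ m := by
    intro ab hab
    by_contra hc
    push Not at hc
    apply hgood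
    refine ⟨m, ab.1, ab.2, ⟨hm, hc⟩, ?_, ?_⟩
    · rw [Finset.mem_product, hI, hI', Finset.mem_Icc, Finset.mem_Icc] at hab
      have e1 := Int.ediv_mul_le q hN.ne'
      have e2 := Int.lt_ediv_add_one_mul_self q hN
      have e3 : |q - ab.1 * 2 ^ m| ≤ 3 * 2 ^ m := by
        rw [abs_le]
        constructor <;> nlinarith [hab.1.1, hab.1.2]
      linarith
    · rw [Finset.mem_product, hI, hI', Finset.mem_Icc, Finset.mem_Icc] at hab
      have e1 := Int.ediv_mul_le u hN.ne'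
      have e2 := Int.lt_ediv_add_one_mul_self u hN
      have e3 : |u - ab.2 * 2 ^ m| ≤ 3 * 2 ^ m := by
        rw [abs_le]
        constructor <;> nlinarith [hab.2.1, hab.2.2]
      linarith
  have h3 : ((I ×ˢ I').card : ℝ) = 25 := by
    rw [Finset.card_product, hI, hI', Int.card_Icc, Int.card_Icc]
    have e1 : q / 2 ^ m + 2 + 1 - (q / 2 ^ m - 2) = 5 := by ring
    have e2 : u / 2 ^ m + 2 + 1 - (u / 2 ^ m - 2) = 5 := by ring
    have e5 : Int.toNat 5 = 5 := rfl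
    rw [e1, e2, e5]
    norm_num
  calc ((((Ico (q - 2 ^ m) (q + 2 * 2 ^ m)) ×ˢ (Ico (u - 2 ^ m) (u + 2 * 2 ^ m))).filter fun z =>
      Bp R J c K α β γ s w z.1 z.2 ∧ lv R (α * w + β * z.1 + γ * z.2) ≤ m).card : ℝ) ≤
      ((∑ ab ∈ I ×ˢ I', (((Ico (ab.1 * 2 ^ m) ((ab.1 + 1) * 2 ^ m)) ×ˢ
        (Ico (ab.2 * 2 ^ m) ((ab.2 + 1) * 2 ^ m))).filter fun z =>
        Bp R J c K α β γ s w z.1 z.2 ∧ lv R (α * w + β * z.1 + γ * z.2) ≤ m).card : ℕ) : ℝ) := by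
        exact_mod_cast h1
    _ = ∑ ab ∈ I ×ˢ I', ((((Ico (ab.1 * 2 ^ m) ((ab.1 + 1) * 2 ^ m)) ×ˢ
        (Ico (ab.2 * 2 ^ m) ((ab.2 + 1) * 2 ^ m))).filter fun z =>
        Bp R J c K α β γ s w z.1 z.2 ∧ lv R (α * w + β * z.1 + γ * z.2) ≤ m).card : ℝ) := by
        push_cast; rfl
    _ ≤ ∑ ab ∈ I ×ˢ I', ε * 4 ^ m := Finset.sum_le_sum h2
    _ = 25 * (ε * 4 ^ m) := by rw [Finset.sum_const, nsmul_eq_mul, h3]

/-- Hilbert–Schmidt norm of the masked kernel on a product of intervals, first side of length `N` -/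
lemma hs_kp (hγ : γ ≠ 0) (hc : ∀ x y, ‖c x y‖ ≤ 1) {p : Nd} (hK : av p K ≤ A) (w : ℤ)
    (X Y : Finset ℤ) :
    ∑ x ∈ X, ∑ y ∈ Y, ‖kp c K α β γ p w x y‖ ^ 2 ≤ X.card * (A ^ 2 * 2 ^ (p.1 + 7)) := by
  classical
  have hsum : ∑ y ∈ iv p, ‖K y‖ ^ 2 ≤ A ^ 2 * 2 ^ (p.1 + 7) := by
    have h1 := sum_sq_eq (p.1 + 7) p.2 K
    have h2 : av2 (p.1 + 7) p.2 K ≤ A := hK
    have h3 : av2 (p.1 + 7) p.2 K ^ 2 ≤ A ^ 2 := pow_le_pow_left₀ (av2_nonneg _ _ _) h2 2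
    show ∑ y ∈ dI (p.1 + 7) p.2, ‖K y‖ ^ 2 ≤ _
    rw [h1]
    have h4 : (0 : ℝ) ≤ 2 ^ (p.1 + 7) := by positivity
    nlinarith
  have hrow : ∀ x ∈ X, ∑ y ∈ Y, ‖kp c K α β γ p w x y‖ ^ 2 ≤ A ^ 2 * 2 ^ (p.1 + 7) := by
    intro x _
    refine le_trans ?_ hsum
    have h1 : ∀ y ∈ Y, ‖kp c K α β γ p w x y‖ ^ 2 ≤
        if α * w + β * x + γ * y ∈ iv p then ‖K (α * w + β * x + γ * y)‖ ^ 2 else 0 := by
      intro y _
      unfold kp
      split_ifs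
      · rw [norm_mul, mul_pow]
        have := pow_le_pow_left₀ (norm_nonneg _) (hc x y) 2
        rw [one_pow] at this
        calc _ ≤ 1 * ‖K (α * w + β * x + γ * y)‖ ^ 2 :=
              mul_le_mul_of_nonneg_right this (sq_nonneg _)
          _ = _ := one_mul _
      · simp
    refine (Finset.sum_le_sum h1).trans ?_
    rw [← Finset.sum_filter]
    have hinj : Set.InjOn (fun y : ℤ => α * w + β * x + γ * y)
        (Y.filter fun y => α * w + β * x + γ * y ∈ iv p : Set ℤ) := by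
      intro a _ b _ hab
      simp only at hab
      have : γ * a = γ * b := by linarith
      exact mul_left_cancel₀ hγ this
    have h2 : ∑ y ∈ Y.filter (fun y => α * w + β * x + γ * y ∈ iv p),
        ‖K (α * w + β * x + γ * y)‖ ^ 2 =
        ∑ y ∈ (Y.filter (fun y => α * w + β * x + γ * y ∈ iv p)).image
          (fun y : ℤ => α * w + β * x + γ * y), ‖K y‖ ^ 2 := by
      rw [Finset.sum_image]
      intro a ha b hb hab
      exact hinj (by simpa using ha) (by simpa using hb) hab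
    rw [h2]
    refine Finset.sum_le_sum_of_subset_of_nonneg ?_ (fun _ _ _ => sq_nonneg _)
    intro y hy
    rw [Finset.mem_image] at hy
    obtain ⟨y', hy', rfl⟩ := hy
    exact (Finset.mem_filter.1 hy').2
  refine (Finset.sum_le_sum hrow).trans (le_of_eq ?_)
  rw [Finset.sum_const, nsmul_eq_mul]

open Classical in
/-- number of exceptional pieces of a good box, weighted by area -/
lemma exc_count (hR : Full R J) (hC : Cof α β γ) {w : ℤ} {m : ℕ} (hm : m ≤ J.1) {q u : ℤ}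
    (hgood : ¬ Pw R J c K α β γ s ε w q u (128 * 2 ^ m)) (S : Finset (Nd × ℤ × ℤ))
    (hS : ∀ κ ∈ S, ∃ x y : ℤ, α * w + β * x + γ * y ∈ iv J ∧ lfp R (α * w + β * x + γ * y) = κ.1 ∧
      x / 2 ^ κ.1.1 = κ.2.1 ∧ y / 2 ^ κ.1.1 = κ.2.2 ∧ x ∈ Ico q (q + 2 ^ m) ∧ y ∈ Ico u (u + 2 ^ m) ∧
      κ.1.1 ≤ m ∧ ¬ OpP c K α β γ s κ.1 w κ.2.1 κ.2.2) :
    ∑ κ ∈ S, (4 : ℝ) ^ κ.1.1 ≤ 225 * (ε * 4 ^ m) := by
  set Z : Finset (ℤ × ℤ) := ((Ico (q - 2 ^ m) (q + 2 * 2 ^ m)) ×ˢ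
    (Ico (u - 2 ^ m) (u + 2 * 2 ^ m))).filter fun z =>
      Bp R J c K α β γ s w z.1 z.2 ∧ lv R (α * w + β * z.1 + γ * z.2) ≤ m with hZ
  have hZc : (Z.card : ℝ) ≤ 25 * (ε * 4 ^ m) := bad_count hm hgood
  set G : Nd × ℤ × ℤ → Finset (ℤ × ℤ) := fun κ => Z.filter (fun z =>
    α * w + β * z.1 + γ * z.2 ∈ iv κ.1 ∧ |z.1 / 2 ^ κ.1.1 - κ.2.1| ≤ 1 ∧
      |z.2 / 2 ^ κ.1.1 - κ.2.2| ≤ 1) with hG
  have h := charge S Z G (fun κ _ => Finset.filter_subset _ _) (fun κ => (4 : ℝ) ^ κ.1.1) ?_ 9 ?_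
  · refine h.trans ?_
    linarith
  · intro κ hκ
    obtain ⟨x, y, hJ, hp, ha, hb, hx, hy, hκm, hex⟩ := hS κ hκ
    have hN : (0 : ℤ) < 2 ^ κ.1.1 := by positivity
    have hNm : (2 : ℤ) ^ κ.1.1 ≤ 2 ^ m := pow_le_pow_right₀ (by norm_num) hκm
    have hη : α * w + β * x + γ * y ∈ iv κ.1 := by rw [← hp]; exact mem_lfp _
    obtain ⟨σ, τ, υ, hσ, hτ, _, hoct⟩ := octant hη hC.β0 hC.γ0 hC.α0 hC.β3 hC.γ3 hC.α3
    set N : ℕ := 2 ^ κ.1.1 with hNdef
    have hNz : ((N : ℕ) : ℤ) = 2 ^ κ.1.1 := by rw [hNdef]; push_cast; rfl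
    have hcard : (((range N) ×ˢ (range N)).card : ℝ) = 4 ^ κ.1.1 := by
      rw [Finset.card_product, Finset.card_range, hNdef]
      push_cast
      rw [← mul_pow]; norm_num
    rw [← hcard]
    have hinj : Set.InjOn (fun t : ℕ × ℕ => ((x + σ * (t.1 : ℤ), y + τ * (t.2 : ℤ)) : ℤ × ℤ))
        ((range N) ×ˢ (range N) : Finset (ℕ × ℕ)) := by
      rintro ⟨i, j⟩ _ ⟨i', j'⟩ _ h
      simp only [Prod.mk.injEq] at h ⊢
      rcases hσ with rfl | rfl <;> rcases hτ with rfl | rfl <;> omega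
    rw [← Finset.card_image_of_injOn hinj]
    refine Nat.cast_le.2 (Finset.card_le_card ?_)
    intro z hz
    rw [Finset.mem_image] at hz
    obtain ⟨⟨i, j⟩, hij, rfl⟩ := hz
    rw [Finset.mem_product, Finset.mem_range, Finset.mem_range] at hij
    obtain ⟨hi, hj⟩ := hij
    simp only at hi hj ⊢
    have hi' : (i : ℤ) < 2 ^ κ.1.1 := by rw [← hNz]; exact_mod_cast hi
    have hj' : (j : ℤ) < 2 ^ κ.1.1 := by rw [← hNz]; exact_mod_cast hj
    have hi0 : (0 : ℤ) ≤ i := by positivity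
    have hj0 : (0 : ℤ) ≤ j := by positivity
    have hηz : α * w + β * (x + σ * i) + γ * (y + τ * j) ∈ iv κ.1 := by
      have := hoct i j 0 hi0 hi' hj0 hj' le_rfl hN
      convert this using 1
      ring
    have hηz' : α * w + β * (x + σ * i) + γ * (y + τ * j) ∈ iv (lfp R (α * w + β * x + γ * y)) := by
      rw [hp]; exact hηz
    have e1 := lfp_congr hR hJ hηz'
    have e2 : lfp R (α * w + β * (x + σ * i) + γ * (y + τ * j)) = κ.1 := e1.trans hp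
    have e3 : lv R (α * w + β * (x + σ * i) + γ * (y + τ * j)) = κ.1.1 := by rw [← e2]; rfl
    have d1 : |(x + σ * i) / 2 ^ κ.1.1 - κ.2.1| ≤ 1 := by
      rw [← ha]
      refine div_near hN ?_
      rw [abs_le]
      rcases hσ with rfl | rfl <;> constructor <;> linarith
    have d2 : |(y + τ * j) / 2 ^ κ.1.1 - κ.2.2| ≤ 1 := by
      rw [← hb]
      refine div_near hN ?_
      rw [abs_le]
      rcases hτ with rfl | rfl <;> constructor <;> linarith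
    rw [hG]
    simp only
    rw [Finset.mem_filter, hZ, Finset.mem_filter, Finset.mem_product]
    simp only
    rw [Finset.mem_Ico, Finset.mem_Ico]
    rw [Finset.mem_Ico] at hx hy
    refine ⟨⟨⟨⟨?_, ?_⟩, ?_, ?_⟩, ⟨?_, κ.2.1, κ.2.2, ?_, ?_, ?_⟩, ?_⟩, hηz, d1, d2⟩
    · rcases hσ with rfl | rfl <;> linarith [hx.1, hx.2]
    · rcases hσ with rfl | rfl <;> linarith [hx.1, hx.2]
    · rcases hτ with rfl | rfl <;> linarith [hy.1, hy.2]
    · rcases hτ with rfl | rfl <;> linarith [hy.1, hy.2]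
    · exact lfp_sub hR hJ hηz'
    · rw [e3, abs_sub_comm]; linarith
    · rw [e3, abs_sub_comm]; linarith
    · rw [e2]; exact hex
    · rw [e3]; exact hκm
  · intro z hz
    have hsub : S.filter (fun κ => z ∈ G κ) ⊆
        ((Icc (z.1 / 2 ^ lv R (α * w + β * z.1 + γ * z.2) - 1)
          (z.1 / 2 ^ lv R (α * w + β * z.1 + γ * z.2) + 1)) ×ˢ
          (Icc (z.2 / 2 ^ lv R (α * w + β * z.1 + γ * z.2) - 1)
          (z.2 / 2 ^ lv R (α * w + β * z.1 + γ * z.2) + 1))).image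
          (fun b => (lfp R (α * w + β * z.1 + γ * z.2), b)) := by
      intro κ hκ
      rw [Finset.mem_filter] at hκ
      obtain ⟨hκ, hzG⟩ := hκ
      obtain ⟨x, y, hJ, hp, ha, hb, hx, hy, hκm, hex⟩ := hS κ hκ
      rw [hG] at hzG
      simp only at hzG
      rw [Finset.mem_filter] at hzG
      obtain ⟨-, h1, h2, h3⟩ := hzG
      have hη : α * w + β * z.1 + γ * z.2 ∈ iv (lfp R (α * w + β * x + γ * y)) := by
        rw [hp]; exact h1
      have e1 := lfp_congr hR hJ hη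
      have e2 : lfp R (α * w + β * z.1 + γ * z.2) = κ.1 := e1.trans hp
      have e3 : lv R (α * w + β * z.1 + γ * z.2) = κ.1.1 := by rw [← e2]; rfl
      rw [Finset.mem_image]
      refine ⟨κ.2, ?_, ?_⟩
      · rw [Finset.mem_product, Finset.mem_Icc, Finset.mem_Icc, e3]
        rw [abs_le] at h2 h3
        refine ⟨⟨?_, ?_⟩, ?_, ?_⟩ <;> linarith [h2.1, h2.2, h3.1, h3.2]
      · rw [e2]
    have h1 := (Finset.card_le_card hsub).trans Finset.card_image_le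
    have h2 : ((Icc (z.1 / 2 ^ lv R (α * w + β * z.1 + γ * z.2) - 1)
          (z.1 / 2 ^ lv R (α * w + β * z.1 + γ * z.2) + 1)) ×ˢ
          (Icc (z.2 / 2 ^ lv R (α * w + β * z.1 + γ * z.2) - 1)
          (z.2 / 2 ^ lv R (α * w + β * z.1 + γ * z.2) + 1))).card = 9 := by
      rw [Finset.card_product, Int.card_Icc, Int.card_Icc]
      have e1 : z.1 / 2 ^ lv R (α * w + β * z.1 + γ * z.2) + 1 + 1 -
        (z.1 / 2 ^ lv R (α * w + β * z.1 + γ * z.2) - 1) = 3 := by ring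
      have e2 : z.2 / 2 ^ lv R (α * w + β * z.1 + γ * z.2) + 1 + 1 -
        (z.2 / 2 ^ lv R (α * w + β * z.1 + γ * z.2) - 1) = 3 := by ring
      rw [e1, e2]; rfl
    rw [h2] at h1
    exact_mod_cast h1

/-- Cauchy–Schwarz for the good pieces -/
lemma cs_pieces {ι : Type*} (S : Finset ι) (N f g : ι → ℝ) (hN : ∀ κ ∈ S, 0 ≤ N κ)
    (hf : ∀ κ ∈ S, 0 ≤ f κ) (hg : ∀ κ ∈ S, 0 ≤ g κ) :
    (∑ κ ∈ S, N κ * (√(f κ) * √(g κ))) ^ 2 ≤ (∑ κ ∈ S, N κ * f κ) * ∑ κ ∈ S, N κ * g κ := by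
  have h1 : ∀ κ ∈ S, N κ * (√(f κ) * √(g κ)) = √(N κ * f κ) * √(N κ * g κ) := by
    intro κ hκ
    rw [Real.sqrt_mul (hN κ hκ), Real.sqrt_mul (hN κ hκ)]
    have := Real.mul_self_sqrt (hN κ hκ)
    calc N κ * (√(f κ) * √(g κ)) = (√(N κ) * √(N κ)) * (√(f κ) * √(g κ)) := by rw [this]
      _ = _ := by ring
  rw [Finset.sum_congr rfl h1]
  have h2 := Finset.sum_mul_sq_le_sq_mul_sq S (fun κ => √(N κ * f κ)) (fun κ => √(N κ * g κ))
  have h3 : ∑ κ ∈ S, √(N κ * f κ) ^ 2 = ∑ κ ∈ S, N κ * f κ :=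
    Finset.sum_congr rfl fun κ hκ => Real.sq_sqrt (mul_nonneg (hN κ hκ) (hf κ hκ))
  have h4 : ∑ κ ∈ S, √(N κ * g κ) ^ 2 = ∑ κ ∈ S, N κ * g κ :=
    Finset.sum_congr rfl fun κ hκ => Real.sq_sqrt (mul_nonneg (hN κ hκ) (hg κ hκ))
  rw [h3, h4] at h2
  exact h2

/-- **row count** -/
lemma row (hR : Full R J) {η0 β γ : ℤ} (hγ3 : |γ| ≤ 3) (hβ : β ≠ 0) (hβ3 : |β| ≤ 3) {m : ℕ} {q : ℤ}
    (S : Finset (Nd × ℤ × ℤ))
    (hS : ∀ κ ∈ S, ∃ x' y' : ℤ, η0 + β * x' + γ * y' ∈ iv J ∧ lfp R (η0 + β * x' + γ * y') = κ.1 ∧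
      x' / 2 ^ κ.1.1 = κ.2.1 ∧ y' / 2 ^ κ.1.1 = κ.2.2 ∧ x' ∈ Ico q (q + 2 ^ m) ∧ κ.1.1 ≤ m) (y : ℤ) :
    ∑ κ ∈ S.filter (fun κ => y / 2 ^ κ.1.1 = κ.2.2), (2 : ℝ) ^ κ.1.1 ≤ 81 * 2 ^ m := by
  classical
  set φ : Nd × ℤ × ℤ → Nd × ℤ × ℤ := fun κ => (κ.1, κ.2.2, κ.2.1) with hφ
  have hinj : Function.Injective φ := by
    rintro ⟨p, a, b⟩ ⟨p', a', b'⟩ h
    simp only [hφ, Prod.mk.injEq] at h
    obtain ⟨h1, h2, h3⟩ := h
    rw [h1, h2, h3]
  have h := col (J := J) hR (η0 := η0) (β := γ) (γ := β) hγ3 hβ hβ3 (m := m) (u := q) (S.image φ) ?_ y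
  · refine le_trans (le_of_eq ?_) h
    have e : (S.image φ).filter (fun κ => y / 2 ^ κ.1.1 = κ.2.1) =
        (S.filter (fun κ => y / 2 ^ κ.1.1 = κ.2.2)).image φ := by
      ext κ
      simp only [Finset.mem_filter, Finset.mem_image]
      constructor
      · rintro ⟨⟨κ', h1, rfl⟩, h2⟩
        exact ⟨κ', ⟨h1, h2⟩, rfl⟩
      · rintro ⟨κ', ⟨h1, h2⟩, rfl⟩
        exact ⟨⟨κ', h1, rfl⟩, h2⟩
    rw [e, Finset.sum_image (fun a _ b _ hab => hinj hab)]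
  · intro κ hκ
    rw [Finset.mem_image] at hκ
    obtain ⟨κ', hκ', rfl⟩ := hκ
    obtain ⟨x', y', h1, h2, h3, h4, h5, h6⟩ := hS κ' hκ'
    refine ⟨y', x', ?_, ?_, h4, h3, h5, h6⟩
    · convert h1 using 1; ring
    · rw [← h2]; congr 1; ring

open Classical in
/-- **OPERATOR BOUND OF THE FROZEN KILLER ON A GOOD BOX** -/
theorem op_good (hR : Full R J) (hC : Cof α β γ) (hc : ∀ x y, ‖c x y‖ ≤ 1) (hs : 0 ≤ s)
    (hε : 0 ≤ ε) (hA : 0 ≤ A) (hK : ∀ p ∈ R, av p K ≤ A) {w : ℤ} {m : ℕ} (hm : m ≤ J.1) {q u : ℤ}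
    (hOm : Om R α β γ w m q u) (hgood : ¬ Pw R J c K α β γ s ε w q u (128 * 2 ^ m)) :
    OpB (kw c K α β γ w) (Ico q (q + 2 ^ m)) (Ico u (u + 2 ^ m))
      ((81 * s + 170 * A * √ε) * 2 ^ m) := by
  intro U V
  set Q1 : Finset ℤ := Ico q (q + 2 ^ m) with hQ1
  set Q2 : Finset ℤ := Ico u (u + 2 ^ m) with hQ2
  set Q : Finset (ℤ × ℤ) := Q1 ×ˢ Q2 with hQ
  set ι : ℤ × ℤ → Nd × ℤ × ℤ := fun z => ix R (α * w + β * z.1 + γ * z.2) z.1 z.2 with hι
  set ex : Nd × ℤ × ℤ → Prop := fun κ => ¬ OpP c K α β γ s κ.1 w κ.2.1 κ.2.2 with hex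
  set f : ℤ × ℤ → ℂ := fun z => U z.1 * kw c K α β γ w z.1 z.2 * V z.2 with hf
  set PU : ℝ := ∑ x ∈ Q1, ‖U x‖ ^ 2 with hPU
  set PV : ℝ := ∑ y ∈ Q2, ‖V y‖ ^ 2 with hPV
  have hPU0 : 0 ≤ PU := Finset.sum_nonneg fun _ _ => sq_nonneg _
  have hPV0 : 0 ≤ PV := Finset.sum_nonneg fun _ _ => sq_nonneg _
  have hη : ∀ z ∈ Q, α * w + β * z.1 + γ * z.2 ∈ iv J ∧ lv R (α * w + β * z.1 + γ * z.2) ≤ m := by
    intro z hz
    rw [hQ, Finset.mem_product] at hz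
    have := hOm z.1 hz.1 z.2 hz.2
    exact ⟨mem_J_of_Rm hR this, lv_le_of_mem this⟩
  set QE := Q.filter (fun z => ex (ι z)) with hQE
  set QN := Q.filter (fun z => ¬ ex (ι z)) with hQN
  have hsplit : ∑ x ∈ Q1, ∑ y ∈ Q2, U x * kw c K α β γ w x y * V y = ∑ z ∈ QE, f z + ∑ z ∈ QN, f z := by
    rw [← Finset.sum_product' (f := fun x y => U x * kw c K α β γ w x y * V y),
      Finset.sum_filter_add_sum_filter_not]
  have h2m : (0 : ℝ) < 2 ^ m := by positivity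
  -- facts on the pieces
  have hpc : ∀ z ∈ Q, (ι z).1 = lfp R (α * w + β * z.1 + γ * z.2) ∧
      z.1 / 2 ^ (ι z).1.1 = (ι z).2.1 ∧ z.2 / 2 ^ (ι z).1.1 = (ι z).2.2 := by
    intro z hz
    exact ⟨rfl, rfl, rfl⟩
  -- exceptional part
  have hE : ‖∑ z ∈ QE, f z‖ ≤ 170 * A * √ε * 2 ^ m * √(PU * PV) := by
    have h1 : ‖∑ z ∈ QE, f z‖ ≤ ∑ z ∈ QE, ‖kw c K α β γ w z.1 z.2‖ * (‖U z.1‖ * ‖V z.2‖) := by
      refine (norm_sum_le _ _).trans (Finset.sum_le_sum fun z _ => le_of_eq ?_)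
      simp only [hf]
      rw [norm_mul, norm_mul]; ring
    have h2 : (∑ z ∈ QE, ‖kw c K α β γ w z.1 z.2‖ * (‖U z.1‖ * ‖V z.2‖)) ^ 2 ≤
        (∑ z ∈ QE, ‖kw c K α β γ w z.1 z.2‖ ^ 2) * ∑ z ∈ QE, (‖U z.1‖ * ‖V z.2‖) ^ 2 :=
      Finset.sum_mul_sq_le_sq_mul_sq _ _ _
    have h3 : ∑ z ∈ QE, (‖U z.1‖ * ‖V z.2‖) ^ 2 ≤ PU * PV := by
      have h4 : ∑ z ∈ QE, (‖U z.1‖ * ‖V z.2‖) ^ 2 ≤ ∑ z ∈ Q, (‖U z.1‖ * ‖V z.2‖) ^ 2 :=
        Finset.sum_le_sum_of_subset_of_nonneg (Finset.filter_subset _ _) fun _ _ _ => sq_nonneg _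
      refine h4.trans (le_of_eq ?_)
      rw [hQ, Finset.sum_product' (f := fun x y => (‖U x‖ * ‖V y‖) ^ 2), hPU, hPV,
        Finset.sum_mul_sum]
      exact Finset.sum_congr rfl fun x _ => Finset.sum_congr rfl fun y _ => by ring
    have h5 : ∑ z ∈ QE, ‖kw c K α β γ w z.1 z.2‖ ^ 2 ≤ 28800 * A ^ 2 * ε * 4 ^ m := by
      rw [← Finset.sum_fiberwise_of_maps_to (s := QE) (t := QE.image ι) (g := ι)
        (fun z hz => Finset.mem_image_of_mem _ hz)]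
      have h6 : ∀ κ ∈ QE.image ι, ∑ z ∈ QE.filter (fun z => ι z = κ),
          ‖kw c K α β γ w z.1 z.2‖ ^ 2 ≤ 128 * A ^ 2 * 4 ^ κ.1.1 := by
        intro κ hκ
        rw [Finset.mem_image] at hκ
        obtain ⟨z0, hz0, rfl⟩ := hκ
        have hz0Q : z0 ∈ Q := Finset.filter_subset _ _ hz0
        have hp : (ι z0).1 ∈ R := lfp_mem hR (hη z0 hz0Q).1
        have hN : (0 : ℤ) < 2 ^ (ι z0).1.1 := by positivity
        have h7 := hs_kp (c := c) (α := α) (β := β) hC.γ0 hc (hK _ hp) w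
          (Ico ((ι z0).2.1 * 2 ^ (ι z0).1.1) (((ι z0).2.1 + 1) * 2 ^ (ι z0).1.1))
          (Ico ((ι z0).2.2 * 2 ^ (ι z0).1.1) (((ι z0).2.2 + 1) * 2 ^ (ι z0).1.1))
        have h8 : (((Ico ((ι z0).2.1 * 2 ^ (ι z0).1.1) (((ι z0).2.1 + 1) * 2 ^ (ι z0).1.1) :
            Finset ℤ).card : ℕ) : ℝ) = 2 ^ (ι z0).1.1 := by
          rw [card_block]; push_cast; rfl
        rw [h8, ← Finset.sum_product' (f := fun x y => ‖kp c K α β γ (ι z0).1 w x y‖ ^ 2)] at h7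
        have h9 : ∑ z ∈ QE.filter (fun z => ι z = ι z0), ‖kw c K α β γ w z.1 z.2‖ ^ 2 ≤
            ∑ z ∈ (Ico ((ι z0).2.1 * 2 ^ (ι z0).1.1) (((ι z0).2.1 + 1) * 2 ^ (ι z0).1.1)) ×ˢ
              (Ico ((ι z0).2.2 * 2 ^ (ι z0).1.1) (((ι z0).2.2 + 1) * 2 ^ (ι z0).1.1)),
              ‖kp c K α β γ (ι z0).1 w z.1 z.2‖ ^ 2 := by
          have h10 : ∀ z ∈ QE.filter (fun z => ι z = ι z0), ‖kw c K α β γ w z.1 z.2‖ ^ 2 =
              ‖kp c K α β γ (ι z0).1 w z.1 z.2‖ ^ 2 := by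
            intro z hz
            rw [Finset.mem_filter] at hz
            have : α * w + β * z.1 + γ * z.2 ∈ iv (ι z0).1 := by
              rw [← hz.2]
              exact mem_lfp _
            unfold kw kp
            rw [if_pos this]
          rw [Finset.sum_congr rfl h10]
          refine Finset.sum_le_sum_of_subset_of_nonneg ?_ fun _ _ _ => sq_nonneg _
          intro z hz
          rw [Finset.mem_filter] at hz
          have hzQ : z ∈ Q := Finset.filter_subset _ _ hz.1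
          rw [Finset.mem_product]
          have e := hpc z hzQ
          rw [hz.2] at e
          exact ⟨(div_lt hN).2 e.2.1, (div_lt hN).2 e.2.2⟩
        refine h9.trans (h7.trans (le_of_eq ?_))
        rw [pow_add, show (4 : ℝ) = 2 * 2 by norm_num, mul_pow]
        ring
      refine (Finset.sum_le_sum h6).trans ?_
      rw [← Finset.mul_sum]
      have h11 := exc_count (c := c) (K := K) (s := s) (ε := ε) hR hC hm hgood (QE.image ι) (by
        intro κ hκ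
        rw [Finset.mem_image] at hκ
        obtain ⟨z0, hz0, rfl⟩ := hκ
        have hz0Q : z0 ∈ Q := Finset.filter_subset _ _ hz0
        have e := hpc z0 hz0Q
        have hz0' := hz0Q
        rw [hQ, Finset.mem_product] at hz0'
        exact ⟨z0.1, z0.2, (hη z0 hz0Q).1, rfl, e.2.1, e.2.2, hz0'.1, hz0'.2, (hη z0 hz0Q).2,
          (Finset.mem_filter.1 hz0).2⟩)
      calc 128 * A ^ 2 * ∑ κ ∈ QE.image ι, (4 : ℝ) ^ κ.1.1 ≤
            128 * A ^ 2 * (225 * (ε * 4 ^ m)) := mul_le_mul_of_nonneg_left h11 (by positivity)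
        _ = _ := by ring
    have h12 : ‖∑ z ∈ QE, f z‖ ^ 2 ≤ (170 * A * √ε * 2 ^ m * √(PU * PV)) ^ 2 := by
      have h13 : (√ε) ^ 2 = ε := Real.sq_sqrt hε
      have h14 : (√(PU * PV)) ^ 2 = PU * PV := Real.sq_sqrt (mul_nonneg hPU0 hPV0)
      have h15 : (170 * A * √ε * 2 ^ m * √(PU * PV)) ^ 2 =
          28900 * (A ^ 2 * ε * 4 ^ m * (PU * PV)) := by
        have h4m : (4 : ℝ) ^ m = (2 ^ m) ^ 2 := by rw [← pow_mul, mul_comm, pow_mul]; norm_num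
        calc _ = 28900 * (A ^ 2 * (√ε) ^ 2 * (2 ^ m) ^ 2 * (√(PU * PV)) ^ 2) := by ring
          _ = _ := by rw [h13, h14, h4m]
      rw [h15]
      have h16 : 0 ≤ A ^ 2 * ε * 4 ^ m * (PU * PV) := by positivity
      calc ‖∑ z ∈ QE, f z‖ ^ 2 ≤ (∑ z ∈ QE, ‖kw c K α β γ w z.1 z.2‖ * (‖U z.1‖ * ‖V z.2‖)) ^ 2 :=
            pow_le_pow_left₀ (norm_nonneg _) h1 2
        _ ≤ (28800 * A ^ 2 * ε * 4 ^ m) * (PU * PV) := by
            refine h2.trans (mul_le_mul h5 h3 (Finset.sum_nonneg fun _ _ => sq_nonneg _)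
              (by positivity))
        _ ≤ _ := by nlinarith
    exact (abs_le_of_sq_le_sq' h12 (by positivity)).2
  -- good part
  have hNN : ‖∑ z ∈ QN, f z‖ ≤ 81 * s * 2 ^ m * √(PU * PV) := by
    set S := QN.image ι with hS
    have hSp : ∀ κ ∈ S, ∃ x' y' : ℤ, α * w + β * x' + γ * y' ∈ iv J ∧
        lfp R (α * w + β * x' + γ * y') = κ.1 ∧ x' / 2 ^ κ.1.1 = κ.2.1 ∧ y' / 2 ^ κ.1.1 = κ.2.2 ∧
        x' ∈ Q1 ∧ y' ∈ Q2 ∧ κ.1.1 ≤ m ∧ ¬ ex κ := by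
      intro κ hκ
      rw [hS, Finset.mem_image] at hκ
      obtain ⟨z0, hz0, rfl⟩ := hκ
      have hz0Q : z0 ∈ Q := Finset.filter_subset _ _ hz0
      have e := hpc z0 hz0Q
      have hz0' := hz0Q
      rw [hQ, Finset.mem_product] at hz0'
      exact ⟨z0.1, z0.2, (hη z0 hz0Q).1, rfl, e.2.1, e.2.2, hz0'.1, hz0'.2, (hη z0 hz0Q).2,
          (Finset.mem_filter.1 hz0).2⟩
    set uu : Nd × ℤ × ℤ → ℝ := fun κ => ∑ x ∈ Q1.filter (fun x => x / 2 ^ κ.1.1 = κ.2.1), ‖U x‖ ^ 2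
      with huu
    set vv : Nd × ℤ × ℤ → ℝ := fun κ => ∑ y ∈ Q2.filter (fun y => y / 2 ^ κ.1.1 = κ.2.2), ‖V y‖ ^ 2
      with hvv
    have huu0 : ∀ κ, 0 ≤ uu κ := fun κ => Finset.sum_nonneg fun _ _ => sq_nonneg _
    have hvv0 : ∀ κ, 0 ≤ vv κ := fun κ => Finset.sum_nonneg fun _ _ => sq_nonneg _
    have hpiece : ∀ κ ∈ S, ‖∑ z ∈ QN.filter (fun z => ι z = κ), f z‖ ≤
        s * (2 ^ κ.1.1 * (√(uu κ) * √(vv κ))) := by
      intro κ hκ
      obtain ⟨x0, y0, hJ0, hp0, ha0, hb0, hx0, hy0, hm0, hex0⟩ := hSp κ hκ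
      have hN : (0 : ℤ) < 2 ^ κ.1.1 := by positivity
      have hOp : OpP c K α β γ s κ.1 w κ.2.1 κ.2.2 := by
        simp only [hex, not_not] at hex0
        exact hex0
      set I := Ico (κ.2.1 * 2 ^ κ.1.1) ((κ.2.1 + 1) * 2 ^ κ.1.1) with hI
      set I' := Ico (κ.2.2 * 2 ^ κ.1.1) ((κ.2.2 + 1) * 2 ^ κ.1.1) with hI'
      have h1 := hOp (fun x => if x ∈ Q1 then U x else 0) (fun y => if y ∈ Q2 then V y else 0)
      have h2 : ∑ x ∈ I, ∑ y ∈ I', (if x ∈ Q1 then U x else 0) * kp c K α β γ κ.1 w x y *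
          (if y ∈ Q2 then V y else 0) = ∑ z ∈ QN.filter (fun z => ι z = κ), f z := by
        rw [← Finset.sum_product' (f := fun x y => (if x ∈ Q1 then U x else 0) *
          kp c K α β γ κ.1 w x y * (if y ∈ Q2 then V y else 0))]
        symm
        have hsub : QN.filter (fun z => ι z = κ) ⊆ I ×ˢ I' := by
          intro z hz
          rw [Finset.mem_filter] at hz
          have hzQ : z ∈ Q := Finset.filter_subset _ _ hz.1
          rw [Finset.mem_product]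
          have e := hpc z hzQ
          rw [hz.2] at e
          exact ⟨(div_lt hN).2 e.2.1, (div_lt hN).2 e.2.2⟩
        rw [← Finset.sum_subset hsub (f := fun z => (if z.1 ∈ Q1 then U z.1 else 0) *
          kp c K α β γ κ.1 w z.1 z.2 * (if z.2 ∈ Q2 then V z.2 else 0))]
        · refine Finset.sum_congr rfl fun z hz => ?_
          rw [Finset.mem_filter] at hz
          have hzQ : z ∈ Q := Finset.filter_subset _ _ hz.1
          have hzQ' := hzQ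
          rw [hQ, Finset.mem_product] at hzQ'
          have hmem : α * w + β * z.1 + γ * z.2 ∈ iv κ.1 := by
            rw [← hz.2]
            exact mem_lfp _
          simp only [hf]
          rw [if_pos hzQ'.1, if_pos hzQ'.2]
          unfold kw kp
          rw [if_pos hmem]
        · intro z hz hz'
          by_cases h3 : z.1 ∈ Q1
          · by_cases h4 : z.2 ∈ Q2
            · have hzQ : z ∈ Q := by rw [hQ, Finset.mem_product]; exact ⟨h3, h4⟩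
              by_cases h5 : α * w + β * z.1 + γ * z.2 ∈ iv κ.1
              · exfalso
                apply hz'
                have h6 : α * w + β * z.1 + γ * z.2 ∈ iv (lfp R (α * w + β * x0 + γ * y0)) := by
                  rw [hp0]; exact h5
                have e1 := (lfp_congr hR hJ0 h6).trans hp0
                have e2 : lv R (α * w + β * z.1 + γ * z.2) = κ.1.1 := by rw [← e1]; rfl
                rw [Finset.mem_product] at hz
                have e3 : ι z = κ := by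
                  simp only [hι]
                  unfold ix
                  rw [e1, e2, (div_lt hN).1 hz.1, (div_lt hN).1 hz.2]
                rw [Finset.mem_filter, hQN, Finset.mem_filter]
                refine ⟨⟨hzQ, ?_⟩, e3⟩
                rw [e3]; exact hex0
              · unfold kp
                rw [if_neg h5]; ring
            · rw [if_neg h4]; ring
          · rw [if_neg h3]; ring
      rw [h2] at h1
      have h3 : ∑ x ∈ I, ‖(if x ∈ Q1 then U x else 0)‖ ^ 2 = uu κ := by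
        simp only [huu]
        have : ∀ x ∈ I, ‖(if x ∈ Q1 then U x else 0)‖ ^ 2 = if x ∈ Q1 then ‖U x‖ ^ 2 else 0 := by
          intro x _
          split_ifs <;> simp
        rw [Finset.sum_congr rfl this, ← Finset.sum_filter]
        refine Finset.sum_congr ?_ fun _ _ => rfl
        ext x
        rw [Finset.mem_filter, Finset.mem_filter, hI, div_lt hN]
        exact and_comm
      have h4 : ∑ y ∈ I', ‖(if y ∈ Q2 then V y else 0)‖ ^ 2 = vv κ := by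
        simp only [hvv]
        have : ∀ y ∈ I', ‖(if y ∈ Q2 then V y else 0)‖ ^ 2 = if y ∈ Q2 then ‖V y‖ ^ 2 else 0 := by
          intro y _
          split_ifs <;> simp
        rw [Finset.sum_congr rfl this, ← Finset.sum_filter]
        refine Finset.sum_congr ?_ fun _ _ => rfl
        ext y
        rw [Finset.mem_filter, Finset.mem_filter, hI', div_lt hN]
        exact and_comm
      rw [h3, h4] at h1
      have h5 : (s * (2 ^ κ.1.1 * (√(uu κ) * √(vv κ)))) ^ 2 = (s * 2 ^ κ.1.1) ^ 2 * (uu κ * vv κ) := by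
        calc _ = (s * 2 ^ κ.1.1) ^ 2 * ((√(uu κ)) ^ 2 * (√(vv κ)) ^ 2) := by ring
          _ = _ := by rw [Real.sq_sqrt (huu0 κ), Real.sq_sqrt (hvv0 κ)]
      rw [← h5] at h1
      exact (abs_le_of_sq_le_sq' h1 (by positivity)).2
    have hsum : ∑ z ∈ QN, f z = ∑ κ ∈ S, ∑ z ∈ QN.filter (fun z => ι z = κ), f z :=
      (Finset.sum_fiberwise_of_maps_to (fun z hz => Finset.mem_image_of_mem _ hz) _).symm
    have hU : ∑ κ ∈ S, (2 : ℝ) ^ κ.1.1 * uu κ ≤ 81 * 2 ^ m * PU := by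
      have h1 : ∑ κ ∈ S, (2 : ℝ) ^ κ.1.1 * uu κ =
          ∑ x ∈ Q1, ‖U x‖ ^ 2 * ∑ κ ∈ S.filter (fun κ => x / 2 ^ κ.1.1 = κ.2.1), (2 : ℝ) ^ κ.1.1 := by
        simp only [huu, Finset.sum_filter, Finset.mul_sum]
        rw [Finset.sum_comm]
        refine Finset.sum_congr rfl fun x _ => Finset.sum_congr rfl fun κ _ => ?_
        split_ifs <;> ring
      rw [h1, hPU, Finset.mul_sum]
      refine Finset.sum_le_sum fun x _ => ?_
      rw [mul_comm]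
      refine mul_le_mul_of_nonneg_right (col (η0 := α * w) (u := u) hR hC.β3 hC.γ0 hC.γ3 S ?_ x) (sq_nonneg _)
      intro κ hκ
      obtain ⟨x0, y0, hJ0, hp0, ha0, hb0, hx0, hy0, hm0, hex0⟩ := hSp κ hκ
      exact ⟨x0, y0, hJ0, hp0, ha0, hb0, hy0, hm0⟩
    have hV : ∑ κ ∈ S, (2 : ℝ) ^ κ.1.1 * vv κ ≤ 81 * 2 ^ m * PV := by
      have h1 : ∑ κ ∈ S, (2 : ℝ) ^ κ.1.1 * vv κ =
          ∑ y ∈ Q2, ‖V y‖ ^ 2 * ∑ κ ∈ S.filter (fun κ => y / 2 ^ κ.1.1 = κ.2.2), (2 : ℝ) ^ κ.1.1 := by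
        simp only [hvv, Finset.sum_filter, Finset.mul_sum]
        rw [Finset.sum_comm]
        refine Finset.sum_congr rfl fun x _ => Finset.sum_congr rfl fun κ _ => ?_
        split_ifs <;> ring
      rw [h1, hPV, Finset.mul_sum]
      refine Finset.sum_le_sum fun y _ => ?_
      rw [mul_comm]
      refine mul_le_mul_of_nonneg_right (row (η0 := α * w) (q := q) hR hC.γ3 hC.β0 hC.β3 S ?_ y) (sq_nonneg _)
      intro κ hκ
      obtain ⟨x0, y0, hJ0, hp0, ha0, hb0, hx0, hy0, hm0, hex0⟩ := hSp κ hκ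
      exact ⟨x0, y0, hJ0, hp0, ha0, hb0, hx0, hm0⟩
    have hT : ‖∑ z ∈ QN, f z‖ ≤ s * ∑ κ ∈ S, (2 : ℝ) ^ κ.1.1 * (√(uu κ) * √(vv κ)) := by
      rw [hsum, Finset.mul_sum]
      exact (norm_sum_le _ _).trans (Finset.sum_le_sum hpiece)
    have hcs := cs_pieces S (fun κ => (2 : ℝ) ^ κ.1.1) uu vv (fun _ _ => by positivity)
      (fun κ _ => huu0 κ) (fun κ _ => hvv0 κ)
    have hcs2 : (∑ κ ∈ S, (2 : ℝ) ^ κ.1.1 * (√(uu κ) * √(vv κ))) ^ 2 ≤
        (81 * 2 ^ m * √(PU * PV)) ^ 2 := by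
      refine hcs.trans ((mul_le_mul hU hV (Finset.sum_nonneg fun κ _ => mul_nonneg (by positivity)
        (hvv0 κ)) (by positivity)).trans (le_of_eq ?_))
      rw [mul_pow, Real.sq_sqrt (mul_nonneg hPU0 hPV0)]
      ring
    have hcs3 := (abs_le_of_sq_le_sq' hcs2 (by positivity)).2
    calc ‖∑ z ∈ QN, f z‖ ≤ s * ∑ κ ∈ S, (2 : ℝ) ^ κ.1.1 * (√(uu κ) * √(vv κ)) := hT
      _ ≤ s * (81 * 2 ^ m * √(PU * PV)) := mul_le_mul_of_nonneg_left hcs3 hs
      _ = _ := by ring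
  rw [hsplit]
  have h1 : ‖∑ z ∈ QE, f z + ∑ z ∈ QN, f z‖ ≤
      ((81 * s + 170 * A * √ε) * 2 ^ m) * √(PU * PV) := by
    refine (norm_add_le _ _).trans ((add_le_add hE hNN).trans (le_of_eq ?_))
    ring
  have h2 := pow_le_pow_left₀ (norm_nonneg _) h1 2
  rw [mul_pow _ (√(PU * PV)), Real.sq_sqrt (mul_nonneg hPU0 hPV0)] at h2
  exact h2

end op

end Crest.Agent.R079.KLx446
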