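import Crest.Agent.R079.KLa_446
import Crest.Agent.R079.KLo_446
import Crest.Agent.R079.KCb_996
import Crest.Agent.R079.KLdd_138

/-! R079, KILL LEMMA, part E (helper446): boxes of the word versus alive boxes of the killer face.

* `gd_om`, `GoodB`, `rest_half`: the four half boxes;
* `al4_good`, `al4_rest`: alive in the sense of `CornerZ`;
* `Tw_le`, `Tw_split`: calculus of the words at one frozen value;
* `rest_mask`: in the rest the two other letters may be masked by the static set `RsP`. -/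

set_option autoImplicit false

namespace Crest.Agent.R079.KLx446

open Finset Crest.Agent.R079.Grid Crest.Agent.R079.Glue Crest.Agent.R079.Growth
  Crest.Agent.R079.QRed Crest.Agent.R079.BadTx138 Crest.Agent.R079.KC996 Crest.Agent.R079.KLdx138

set_option maxRecDepth 20000 in
lemma sl_facts : ∀ i j : Fin 4, (i ≠ j → sl i - sl j ≠ 0) ∧ |sl i - sl j| ≤ 3 := by decide

/-- the coefficients of the killer shadow -/
lemma D4.cof {k k0 k1 k2 : Fin 4} (h : D4 k k0 k1 k2) :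
    Cof (sl k - sl k1) (sl k2 - sl k1) (sl k0 - sl k1) where
  α0 := (sl_facts _ _).1 h.h1
  β0 := (sl_facts _ _).1 h.h12.symm
  γ0 := (sl_facts _ _).1 h.h01
  αγ := fun hh => (sl_facts k k0).1 h.h0 (by linarith)
  αβ := fun hh => (sl_facts k k2).1 h.h2 (by linarith)
  βγ := fun hh => (sl_facts k2 k0).1 h.h02.symm (by linarith)
  α3 := (sl_facts _ _).2
  β3 := (sl_facts _ _).2
  γ3 := (sl_facts _ _).2

section boxes

variable {k k0 k1 k2 : Fin 4} {R : Finset Nd} {J : Nd} {w : ℤ} {m : ℕ} {p0 p1 p2 : ℤ}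

lemma gd_om (hg : Gd k k0 k1 k2 R m w p0 p1 p2) {a b : ℕ} (ha : a < 2) (hb : b < 2) :
    Om R (sl k - sl k1) (sl k2 - sl k1) (sl k0 - sl k1) w m (p2 + a * 2 ^ m) (p0 + b * 2 ^ m) := by
  intro x hx y hy
  rw [Finset.mem_Ico] at hx hy
  have hm0 : (0 : ℤ) < 2 ^ m := by positivity
  have e : (2 : ℤ) ^ (m + 1) = 2 * 2 ^ m := by rw [pow_succ]; ring
  have ha1 : (a : ℤ) ≤ 1 := by exact_mod_cast Nat.lt_succ_iff.1 ha
  have hb1 : (b : ℤ) ≤ 1 := by exact_mod_cast Nat.lt_succ_iff.1 hb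
  have ha0 : (0 : ℤ) ≤ a := Int.natCast_nonneg a
  have hb0 : (0 : ℤ) ≤ b := Int.natCast_nonneg b
  have a1 : (a : ℤ) * 2 ^ m ≤ 1 * 2 ^ m := mul_le_mul_of_nonneg_right ha1 hm0.le
  have b1 : (b : ℤ) * 2 ^ m ≤ 1 * 2 ^ m := mul_le_mul_of_nonneg_right hb1 hm0.le
  have a0 : (0 : ℤ) ≤ a * 2 ^ m := mul_nonneg ha0 hm0.le
  have b0 : (0 : ℤ) ≤ b * 2 ^ m := mul_nonneg hb0 hm0.le
  have := (hg (y - p0) 0 (x - p2) (by linarith) (by rw [e]; linarith) le_rfl (by positivity)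
    (by linarith) (by rw [e]; linarith)).2.2
  unfold sha at this
  convert this using 1
  ring

lemma gd_mem (hg : Gd k k0 k1 k2 R m w p0 p1 p2) {z2 z0 : ℤ} (h2 : z2 ∈ Ico p2 (p2 + 2 ^ (m + 1)))
    (h0 : z0 ∈ Ico p0 (p0 + 2 ^ (m + 1))) : sha k k1 k2 k0 w z2 z0 ∈ Rm R m := by
  rw [Finset.mem_Ico] at h2 h0
  have := (hg (z0 - p0) 0 (z2 - p2) (by linarith) (by linarith) le_rfl (by positivity)
    (by linarith) (by linarith)).2.2
  convert this using 2 <;> ring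

/-- a box meets `[X0, X1) × [Y0, Y1)` in its face `(z2, z0)` -/
def Mt (X0 X1 Y0 Y1 : ℤ) (m : ℕ) (p2 p0 : ℤ) : Prop :=
  X0 < p2 + 2 ^ (m + 1) ∧ p2 < X1 ∧ Y0 < p0 + 2 ^ (m + 1) ∧ p0 < Y1

lemma mt_dm2 {X0 X1 Y0 Y1 : ℤ} {M : ℕ} (hm : m ≤ M) (h : Mt X0 X1 Y0 Y1 m p2 p0) {a b : ℕ} (ha : a < 2)
    (hb : b < 2) : Dm2 (X0 - 2 ^ (M + 1)) (X1 + 2 ^ (M + 1)) (Y0 - 2 ^ (M + 1)) (Y1 + 2 ^ (M + 1)) m
      (p2 + a * 2 ^ m) (p0 + b * 2 ^ m) := by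
  obtain ⟨h1, h2, h3, h4⟩ := h
  have hm0 : (0 : ℤ) < 2 ^ m := by positivity
  have e : (2 : ℤ) ^ (m + 1) = 2 * 2 ^ m := by rw [pow_succ]; ring
  have hM : (2 : ℤ) ^ (m + 1) ≤ 2 ^ (M + 1) := pow_le_pow_right₀ (by norm_num) (by omega)
  have ha1 : (a : ℤ) ≤ 1 := by exact_mod_cast Nat.lt_succ_iff.1 ha
  have hb1 : (b : ℤ) ≤ 1 := by exact_mod_cast Nat.lt_succ_iff.1 hb
  have ha0 : (0 : ℤ) ≤ a := Int.natCast_nonneg a
  have hb0 : (0 : ℤ) ≤ b := Int.natCast_nonneg b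
  have a1 : (a : ℤ) * 2 ^ m ≤ 1 * 2 ^ m := mul_le_mul_of_nonneg_right ha1 hm0.le
  have b1 : (b : ℤ) * 2 ^ m ≤ 1 * 2 ^ m := mul_le_mul_of_nonneg_right hb1 hm0.le
  have a0 : (0 : ℤ) ≤ a * 2 ^ m := mul_nonneg ha0 hm0.le
  have b0 : (0 : ℤ) ≤ b * 2 ^ m := mul_nonneg hb0 hm0.le
  refine ⟨?_, ?_, ?_, ?_⟩ <;> linarith

variable {c : ℤ → ℤ → ℂ} {K : Fn} {α β γ : ℤ} {s ε : ℝ}

/-- good box: no half box of the killer face is close to the bad squares -/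
def GoodB (R : Finset Nd) (J : Nd) (c : ℤ → ℤ → ℂ) (K : Fn) (α β γ : ℤ) (s ε : ℝ) (w : ℤ) (m : ℕ)
    (p0 p2 : ℤ) : Prop :=
  ∀ a b : ℕ, a < 2 → b < 2 → ¬ Pw R J c K α β γ s ε w (p2 + a * 2 ^ m) (p0 + b * 2 ^ m) (128 * 2 ^ m)

/-- a box that is not good: all four half boxes (and the corner) are in the rest -/
lemma rest_half (h : ¬ GoodB R J c K α β γ s ε w m p0 p2) {a b : ℕ} (ha : a < 2) (hb : b < 2) :
    Pw R J c K α β γ s ε w (p2 + a * 2 ^ m) (p0 + b * 2 ^ m) (127 * 2 ^ m) := by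
  unfold GoodB at h
  push Not at h
  obtain ⟨a', b', ha', hb', h⟩ := h
  have hm0 : (0 : ℤ) < 2 ^ m := by positivity
  have := (lp_pw R J c K α β γ s ε w).lip _ _ (p2 + a * 2 ^ m) (p0 + b * 2 ^ m) _ (2 ^ m) (by
      interval_cases a <;> interval_cases a' <;> simp [abs_of_pos hm0]) (by
      interval_cases b <;> interval_cases b' <;> simp [abs_of_pos hm0]) h
  refine (lp_pw R J c K α β γ s ε w).anti _ _ _ _ ?_ this
  linarith

/-- alive (good) -/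
lemma al4_good {X0 X1 Y0 Y1 : ℤ} {M : ℕ} (hm : m ≤ M) (hg : Gd k k0 k1 k2 R m w p0 p1 p2)
    (hmt : Mt X0 X1 Y0 Y1 m p2 p0)
    (h : GoodB R J c K (sl k - sl k1) (sl k2 - sl k1) (sl k0 - sl k1) s ε w m p0 p2) :
    Al4Z (AlG R (sl k - sl k1) (sl k2 - sl k1) (sl k0 - sl k1) w (X0 - 2 ^ (M + 1)) (X1 + 2 ^ (M + 1))
      (Y0 - 2 ^ (M + 1)) (Y1 + 2 ^ (M + 1))
      (Pw R J c K (sl k - sl k1) (sl k2 - sl k1) (sl k0 - sl k1) s ε w)) m p2 p0 :=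
  fun a b ha hb => ⟨⟨gd_om hg ha hb, mt_dm2 hm hmt ha hb⟩, h a b ha hb⟩

/-- alive (rest) -/
lemma al4_rest {X0 X1 Y0 Y1 : ℤ} {M : ℕ} (hm : m ≤ M) (hg : Gd k k0 k1 k2 R m w p0 p1 p2)
    (hmt : Mt X0 X1 Y0 Y1 m p2 p0)
    (h : ¬ GoodB R J c K (sl k - sl k1) (sl k2 - sl k1) (sl k0 - sl k1) s ε w m p0 p2) :
    Al4Z (AlR R (sl k - sl k1) (sl k2 - sl k1) (sl k0 - sl k1) w (X0 - 2 ^ (M + 1)) (X1 + 2 ^ (M + 1))
      (Y0 - 2 ^ (M + 1)) (Y1 + 2 ^ (M + 1))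
      (Pw R J c K (sl k - sl k1) (sl k2 - sl k1) (sl k0 - sl k1) s ε w)) m p2 p0 :=
  fun _ _ ha hb => ⟨⟨gd_om hg ha hb, mt_dm2 hm hmt ha hb⟩, rest_half h ha hb⟩

/-- all shadows of a zero-sum point coincide (edge `(z0, z1)`) -/
lemma sha_A (k k0 k1 k2 : Fin 4) (w z0 z1 : ℤ) :
    (sl k - sl k1) * w + (sl k2 - sl k1) * (-w - z0 - z1) + (sl k0 - sl k1) * z0 =
      sha k k2 k0 k1 w z0 z1 := by
  unfold sha; ring

/-- all shadows of a zero-sum point coincide (edge `(z1, z2)`) -/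
lemma sha_B (k k0 k1 k2 : Fin 4) (w z1 z2 : ℤ) :
    (sl k - sl k1) * w + (sl k2 - sl k1) * z2 + (sl k0 - sl k1) * (-w - z1 - z2) =
      sha k k0 k1 k2 w z1 z2 := by
  unfold sha; ring

/-- position window: `p2 = l 2^m + i - w - p0 - p1` with `|l| ≤ 7`, `0 ≤ i < 2^m` -/
def Wn (m : ℕ) (w p0 p1 p2 : ℤ) : Prop := |w + p0 + p1 + p2| ≤ 8 * 2 ^ m

lemma wn_of {l : ℤ} (hl : |l| ≤ 7) {i : ℕ} (hi : i < 2 ^ m) :
    Wn m w p0 p1 (l * 2 ^ m + (i : ℤ) - w - p0 - p1) := by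
  unfold Wn
  have hm0 : (0 : ℤ) < 2 ^ m := by positivity
  have hi' : (i : ℤ) < 2 ^ m := by exact_mod_cast hi
  have hi0 : (0 : ℤ) ≤ i := Int.natCast_nonneg i
  rw [abs_le] at hl ⊢
  constructor <;> nlinarith

/-- in the rest, every point of the edge `(z0, z1)` is in the static set -/
lemma rest_A (hg : Gd k k0 k1 k2 R m w p0 p1 p2) (hw : Wn m w p0 p1 p2)
    (h : ¬ GoodB R J c K (sl k - sl k1) (sl k2 - sl k1) (sl k0 - sl k1) s ε w m p0 p2) {z0 z1 : ℤ}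
    (h0 : z0 ∈ Ico p0 (p0 + 2 ^ (m + 1))) (h1 : z1 ∈ Ico p1 (p1 + 2 ^ (m + 1))) :
    RsP R J c K (sl k - sl k1) (sl k2 - sl k1) (sl k0 - sl k1) s ε w (-w - z0 - z1) z0 := by
  rw [Finset.mem_Ico] at h0 h1
  refine ⟨m, ?_, ?_⟩
  · rw [sha_A]
    have := (hg (z0 - p0) (z1 - p1) 0 (by linarith) (by linarith) (by linarith) (by linarith) le_rfl
      (by positivity)).1
    convert this using 2 <;> ring
  · have hm0 : (0 : ℤ) < 2 ^ m := by positivity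
    have e : (2 : ℤ) ^ (m + 1) = 2 * 2 ^ m := by rw [pow_succ]; ring
    have h3 := rest_half h (a := 0) (b := 0) (by norm_num) (by norm_num)
    unfold Wn at hw
    rw [abs_le] at hw
    have := (lp_pw R J c K (sl k - sl k1) (sl k2 - sl k1) (sl k0 - sl k1) s ε w).lip _ _
      (-w - z0 - z1) z0 _ (12 * 2 ^ m) (by
        rw [abs_le]
        push_cast
        constructor <;> linarith) (by
        rw [abs_le]
        push_cast
        constructor <;> linarith) h3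
    refine (lp_pw R J c K _ _ _ s ε w).anti _ _ _ _ ?_ this
    linarith

/-- in the rest, every point of the edge `(z1, z2)` is in the static set -/
lemma rest_B (hg : Gd k k0 k1 k2 R m w p0 p1 p2) (hw : Wn m w p0 p1 p2)
    (h : ¬ GoodB R J c K (sl k - sl k1) (sl k2 - sl k1) (sl k0 - sl k1) s ε w m p0 p2) {z1 z2 : ℤ}
    (h1 : z1 ∈ Ico p1 (p1 + 2 ^ (m + 1))) (h2 : z2 ∈ Ico p2 (p2 + 2 ^ (m + 1))) :
    RsP R J c K (sl k - sl k1) (sl k2 - sl k1) (sl k0 - sl k1) s ε w z2 (-w - z1 - z2) := by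
  rw [Finset.mem_Ico] at h2 h1
  refine ⟨m, ?_, ?_⟩
  · rw [sha_B]
    have := (hg 0 (z1 - p1) (z2 - p2) le_rfl (by positivity) (by linarith) (by linarith)
      (by linarith) (by linarith)).2.1
    convert this using 2 <;> ring
  · have hm0 : (0 : ℤ) < 2 ^ m := by positivity
    have e : (2 : ℤ) ^ (m + 1) = 2 * 2 ^ m := by rw [pow_succ]; ring
    have h3 := rest_half h (a := 0) (b := 0) (by norm_num) (by norm_num)
    unfold Wn at hw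
    rw [abs_le] at hw
    have := (lp_pw R J c K (sl k - sl k1) (sl k2 - sl k1) (sl k0 - sl k1) s ε w).lip _ _
      z2 (-w - z1 - z2) _ (12 * 2 ^ m) (by
        rw [abs_le]
        push_cast
        constructor <;> linarith) (by
        rw [abs_le]
        push_cast
        constructor <;> linarith) h3
    refine (lp_pw R J c K _ _ _ s ε w).anti _ _ _ _ ?_ this
    linarith

end boxes

/-! ### calculus of `Tw` -/

lemma Lb3r_congr {A B C A' B' C' : ℤ → ℤ → ℝ} {m : ℕ} {p0 p1 p2 : ℤ}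
    (h : ∀ z0 ∈ Ico p0 (p0 + 2 ^ (m + 1)), ∀ z1 ∈ Ico p1 (p1 + 2 ^ (m + 1)),
      ∀ z2 ∈ Ico p2 (p2 + 2 ^ (m + 1)), A z0 z1 * B z1 z2 * C z2 z0 = A' z0 z1 * B' z1 z2 * C' z2 z0) :
    Lb3r A B C (2 ^ m) p0 p1 p2 = Lb3r A' B' C' (2 ^ m) p0 p1 p2 := by
  unfold Lb3r
  congr 1
  have hmem : ∀ (p : ℤ) (i : Fin (2 ^ m + 2 ^ m)), p + ((i : ℕ) : ℤ) ∈ Ico p (p + 2 ^ (m + 1)) := by
    intro p i
    have h1 : ((i : ℕ) : ℤ) < ((2 ^ m + 2 ^ m : ℕ) : ℤ) := by exact_mod_cast i.isLt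
    rw [Finset.mem_Ico]
    constructor
    · linarith [Int.natCast_nonneg (i : ℕ)]
    · rw [pow_succ]
      push_cast at h1
      linarith
  refine Finset.sum_congr rfl fun i0 _ => Finset.sum_congr rfl fun i1 _ =>
    Finset.sum_congr rfl fun i2 _ => ?_
  congr 1
  exact h _ (hmem _ _) _ (hmem _ _) _ (hmem _ _)

lemma Lb3r_zero {A B C : ℤ → ℤ → ℝ} {m : ℕ} {p0 p1 p2 : ℤ}
    (h : ∀ z0 ∈ Ico p0 (p0 + 2 ^ (m + 1)), ∀ z2 ∈ Ico p2 (p2 + 2 ^ (m + 1)), C z2 z0 = 0) :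
    Lb3r A B C (2 ^ m) p0 p1 p2 = 0 := by
  have : Lb3r A B C (2 ^ m) p0 p1 p2 = Lb3r A B (fun _ _ => 0) (2 ^ m) p0 p1 p2 := by
    refine Lb3r_congr fun z0 h0 z1 _ z2 h2 => ?_
    rw [h z0 h0 z2 h2]
  rw [this]
  unfold Lb3r
  simp

/-- outside the boxes meeting the support of `C` the box form vanishes -/
lemma mt_of_ne {A B C : ℤ → ℤ → ℝ} {m : ℕ} {p0 p1 p2 X0 X1 Y0 Y1 : ℤ}
    (hC : ∀ x y, C x y ≠ 0 → X0 ≤ x ∧ x < X1 ∧ Y0 ≤ y ∧ y < Y1)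
    (h : Lb3r A B C (2 ^ m) p0 p1 p2 ≠ 0) : Mt X0 X1 Y0 Y1 m p2 p0 := by
  by_contra hn
  refine h (Lb3r_zero fun z0 h0 z2 h2 => ?_)
  by_contra hne
  obtain ⟨h3, h4, h5, h6⟩ := hC _ _ hne
  rw [Finset.mem_Ico] at h0 h2
  exact hn ⟨by linarith, by linarith, by linarith, by linarith⟩

open Classical in
/-- comparison of two words at one frozen value -/
lemma Tw_le {Gm Gm' : ℕ → ℤ → ℤ → ℤ → Prop} {A B C A' B' C' : ℤ → ℤ → ℝ} {M L1 : ℕ} {l w : ℤ}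
    (hl : |l| ≤ 7)
    (h : ∀ m < M, ∀ p0 p1 p2 : ℤ, Wn m w p0 p1 p2 → Gm m p0 p1 p2 →
      Lb3r A B C (2 ^ m) p0 p1 p2 ≠ 0 → Gm' m p0 p1 p2 ∧
      Lb3r A B C (2 ^ m) p0 p1 p2 = Lb3r A' B' C' (2 ^ m) p0 p1 p2) :
    Tw Gm A B C M L1 l w ≤ Tw Gm' A' B' C' M L1 l w := by
  unfold Tw
  refine Finset.sum_le_sum fun m hm => mul_le_mul_of_nonneg_left ?_ (by positivity)
  refine Finset.sum_le_sum fun i hi => Finset.sum_le_sum fun p0 _ => Finset.sum_le_sum fun p1 _ => ?_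
  have hw := wn_of (m := m) (w := w) (p0 := p0) (p1 := p1) hl (Finset.mem_range.1 hi)
  by_cases hg : Gm m p0 p1 (l * 2 ^ m + (i : ℤ) - w - p0 - p1)
  · rw [if_pos hg]
    by_cases h0 : Lb3r A B C (2 ^ m) p0 p1 (l * 2 ^ m + (i : ℤ) - w - p0 - p1) = 0
    · rw [h0, abs_zero]
      split_ifs
      · exact abs_nonneg _
      · exact le_rfl
    · obtain ⟨h1, h2⟩ := h m (Finset.mem_range.1 hm) _ _ _ hw hg h0
      rw [if_pos h1, h2]
  · rw [if_neg hg]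
    split_ifs
    · exact abs_nonneg _
    · exact le_rfl

open Classical in
/-- splitting a word into two families of boxes -/
lemma Tw_split {Gm G1 G2 : ℕ → ℤ → ℤ → ℤ → Prop} (A B C : ℤ → ℤ → ℝ) (M L1 : ℕ) (l w : ℤ)
    (h : ∀ m p0 p1 p2, Gm m p0 p1 p2 → G1 m p0 p1 p2 ∨ G2 m p0 p1 p2) :
    Tw Gm A B C M L1 l w ≤ Tw G1 A B C M L1 l w + Tw G2 A B C M L1 l w := by
  unfold Tw
  rw [← Finset.sum_add_distrib]
  refine Finset.sum_le_sum fun m _ => ?_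
  rw [← mul_add, ← Finset.sum_add_distrib]
  refine mul_le_mul_of_nonneg_left ?_ (by positivity)
  refine Finset.sum_le_sum fun i _ => ?_
  rw [← Finset.sum_add_distrib]
  refine Finset.sum_le_sum fun p0 _ => ?_
  rw [← Finset.sum_add_distrib]
  refine Finset.sum_le_sum fun p1 _ => ?_
  by_cases hg : Gm m p0 p1 (l * 2 ^ m + (i : ℤ) - w - p0 - p1)
  · rw [if_pos hg]
    rcases h _ _ _ _ hg with h1 | h1
    · rw [if_pos h1]
      split_ifs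
      · linarith [abs_nonneg (Lb3r A B C (2 ^ m) p0 p1 (l * 2 ^ m + (i : ℤ) - w - p0 - p1))]
      · linarith
    · rw [if_pos h1]
      split_ifs
      · linarith [abs_nonneg (Lb3r A B C (2 ^ m) p0 p1 (l * 2 ^ m + (i : ℤ) - w - p0 - p1))]
      · linarith
  · rw [if_neg hg]
    refine add_nonneg ?_ ?_ <;> split_ifs <;> first | exact abs_nonneg _ | exact le_rfl

lemma Tw_nonneg (Gm : ℕ → ℤ → ℤ → ℤ → Prop) (A B C : ℤ → ℤ → ℝ) (M L1 : ℕ) (l w : ℤ) :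
    0 ≤ Tw Gm A B C M L1 l w := by
  unfold Tw
  refine Finset.sum_nonneg fun m _ => mul_nonneg (by positivity) ?_
  refine Finset.sum_nonneg fun i _ => Finset.sum_nonneg fun p0 _ => Finset.sum_nonneg fun p1 _ => ?_
  split_ifs
  · exact abs_nonneg _
  · exact le_rfl

end Crest.Agent.R079.KLx446
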