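import Crest.Agent.R079.GaX_571
import Crest.Agent.R079.KLe_446
import Crest.Agent.R079.KLo_446

/-! R079, Step I, (G) words (helper571): the GOOD boxes in `TA` form.

* `cgK` : masked gauge of the killer edge `d`; `lk_kw` : the line kernel of the killer is 446's `kw`;
* `GdE` : good boxes (446's `GoodB`) of the killer edge `d`;
* `gdE_words` : hypothesis of `TA_words`. -/

set_option autoImplicit false

namespace Crest.Agent.R079.GaPx571

open Finset Crest.Agent.R079.Grid Crest.Agent.R079.Glue Crest.Agent.R079.Growth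
open Crest.Agent.R079.GaAx571 Crest.Agent.R079.GaBx571 Crest.Agent.R079.GaWx571
  Crest.Agent.R079.GaXx571 Crest.Agent.R079.KLx446 Crest.Agent.R079.GaFx371

open Classical in
/-- masked gauge of the killer edge `d` -/
noncomputable def cgK (T : Fin 3 → Finset ℤ) (g : Fin 3 → ℤ → ℤ → ℂ) (d : Fin 3) : ℤ → ℤ → ℂ :=
  fun x y => if x ∈ T d ∧ y ∈ T (d + 1) then g d x y else 0

/-- the line kernel of the killer edge -/
lemma lk_kw (j : Fin 4) (T : Fin 3 → Finset ℤ) (g : Fin 3 → ℤ → ℤ → ℂ) (d : Fin 3) (K : Fn)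
    (w : ℤ) : lk j T g d K w = kw (cgK T g d) K (sl j - sl (j.succAbove (d + 2)))
      (sl (j.succAbove d) - sl (j.succAbove (d + 2)))
      (sl (j.succAbove (d + 1)) - sl (j.succAbove (d + 2))) w := by
  classical
  funext x y
  rw [lk_Ye]
  unfold kw cgK Ye
  split_ifs
  · rfl
  · rw [zero_mul]

/-- the good boxes of the killer edge `d` -/
def GdE (j : Fin 4) (bb : ℤ) (T : Fin 3 → Finset ℤ) (g : Fin 3 → ℤ → ℤ → ℂ) (d : Fin 3)
    (R : Finset Nd) (J : Nd) (K : Fn) (s ε : ℝ) (n : ℕ) (p : ℤ × ℤ × ℤ) (v : ℕ) : Prop :=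
  GoodB R J (cgK T g d) K (sl j - sl (j.succAbove (d + 2)))
    (sl (j.succAbove d) - sl (j.succAbove (d + 2)))
    (sl (j.succAbove (d + 1)) - sl (j.succAbove (d + 2))) s ε (wv bb n p v) n (pc p (d + 1)) (pc p d)

/-- good admissible boxes, `Tw` side -/
lemma gdE_good {j : Fin 4} {bb : ℤ} (hbb : bb = -1 ∨ bb = -7) {T : Fin 3 → Finset ℤ}
    {g : Fin 3 → ℤ → ℤ → ℂ} {d : Fin 3} {R V : Finset Nd} {J : Nd} {K : Fn} {s ε : ℝ} {n : ℕ}
    {p : ℤ × ℤ × ℤ} {v : ℕ} (hv : v < 2 ^ n + 2 ^ n)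
    (h : GdE j bb T g d R J K s ε n p v ∧ AdX V n (xv j bb n p)) :
    Gd j (j.succAbove (d + 1)) (j.succAbove (d + 2)) (j.succAbove d) V n (wv bb n p v)
      (pc p (d + 1)) (pc p (d + 2)) (pc p d) ∧
    GoodB R J (cgK T g d) K (sl j - sl (j.succAbove (d + 2)))
      (sl (j.succAbove d) - sl (j.succAbove (d + 2)))
      (sl (j.succAbove (d + 1)) - sl (j.succAbove (d + 2))) s ε (wv bb n p v) n (pc p (d + 1))
        (pc p d) :=
  ⟨gd_of_adX j d hbb hv h.2, h.1⟩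

/-- rest admissible boxes, `Tw` side -/
lemma gdE_rest {j : Fin 4} {bb : ℤ} (hbb : bb = -1 ∨ bb = -7) {T : Fin 3 → Finset ℤ}
    {g : Fin 3 → ℤ → ℤ → ℂ} {d : Fin 3} {R V : Finset Nd} {J : Nd} {K : Fn} {s ε : ℝ} {n : ℕ}
    {p : ℤ × ℤ × ℤ} {v : ℕ} (hv : v < 2 ^ n + 2 ^ n)
    (h : ¬ GdE j bb T g d R J K s ε n p v ∧ AdX V n (xv j bb n p)) :
    Gd j (j.succAbove (d + 1)) (j.succAbove (d + 2)) (j.succAbove d) V n (wv bb n p v)
      (pc p (d + 1)) (pc p (d + 2)) (pc p d) ∧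
    ¬ GoodB R J (cgK T g d) K (sl j - sl (j.succAbove (d + 2)))
      (sl (j.succAbove d) - sl (j.succAbove (d + 2)))
      (sl (j.succAbove (d + 1)) - sl (j.succAbove (d + 2))) s ε (wv bb n p v) n (pc p (d + 1))
        (pc p d) :=
  ⟨gd_of_adX j d hbb hv h.2, h.1⟩

end Crest.Agent.R079.GaPx571
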