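import Crest.Agent.R079.GaI_256
import Crest.Agent.R079.GaD_571
import Crest.Agent.R079.GaP_571

/-! R079, Step I, (G) words (helper256): GOOD WORDS of the common instance.

* `n1G` : the bound `N1`;  `n1G_nonneg`;
* `hg_fam` : 571's `HG` for the family `Fam` (263), edges `e, e' ≠ v + 1`, killer = slot `m`. -/

set_option autoImplicit false

namespace Crest.Agent.R079.GaKx256

open Finset Crest.Agent.R079.Grid Crest.Agent.R079.Glue Crest.Agent.R079.Growth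
  Crest.Agent.R079.QRed Crest.Agent.R079.TWin
open Crest.Agent.R079.GaAx571 Crest.Agent.R079.GaBx571 Crest.Agent.R079.GaWx571
  Crest.Agent.R079.GaXx571 Crest.Agent.R079.GaMx571 Crest.Agent.R079.GaSx571
  Crest.Agent.R079.GaTx571 Crest.Agent.R079.GaVx571 Crest.Agent.R079.GaZx260
  Crest.Agent.R079.GaFx371 Crest.Agent.R079.GaUx571 Crest.Agent.R079.GaRx571
open Crest.Agent.R079.Cel159 Crest.Agent.R079.ThA159 Crest.Agent.R079.ElU440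
  Crest.Agent.R079.PFx263 Crest.Agent.R079.GaDx571

/-- the bound of the good words -/
noncomputable def n1G (K0 : ℝ) (J : Nd) (HC Av s ε Hf Ht H H' fa fb : ℝ) : ℝ :=
  K0 * (1 + Real.log (1 + HC ^ 2 * len J * (H ^ 2 / fa + Hf * Ht * H' ^ 2 / fb) /
    (81 * s + 170 * Av * √ε) ^ 2)) * (81 * s + 170 * Av * √ε)

lemma n1G_nonneg {K0 : ℝ} (hK0 : 0 ≤ K0) (J : Nd) {HC Av s ε Hf Ht H H' fa fb : ℝ} (hAv : 0 ≤ Av)
    (hs : 0 ≤ s) (hHf : 0 ≤ Hf) (hHt : 0 ≤ Ht) (hfa : 0 ≤ fa) (hfb : 0 ≤ fb) :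
    0 ≤ n1G K0 J HC Av s ε Hf Ht H H' fa fb := by
  unfold n1G
  have hl := (Growth.len_pos J).le
  have h1 : 0 ≤ HC ^ 2 * len J * (H ^ 2 / fa + Hf * Ht * H' ^ 2 / fb) /
      (81 * s + 170 * Av * √ε) ^ 2 := by positivity
  have h2 : 0 ≤ Real.log (1 + HC ^ 2 * len J * (H ^ 2 / fa + Hf * Ht * H' ^ 2 / fb) /
      (81 * s + 170 * Av * √ε) ^ 2) := Real.log_nonneg (by linarith)
  positivity

/-- **571's `HG` for the family** : edges `e ≠ e'`, both different from the killer edge `v + 1`;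
the killer letter is the letter of the slot `m = i.succAbove v`. -/
theorem hg_fam : ∃ K0 : ℝ, 0 ≤ K0 ∧ ∀ {n : ℕ} {i m : Fin 4} {v : Fin 3} {I : Nd} {Ht Hf La : ℝ}
    {f : Fn} {T : Fin n → Fin 3 → Finset ℤ} {g : Fin n → Fin 3 → ℤ → ℤ → ℂ} {θ : Fin n → ℤ → ℝ}
    {μ : Fin n → ℝ}, Fam i m v I Ht Hf La n f T g θ μ → 0 ≤ Hf → ∀ {bb : ℤ}, bb = -1 ∨ bb = -7 →
    ∀ {e e' : Fin 3}, e ≠ e' → e ≠ v + 1 → e' ≠ v + 1 → ∀ {J : Nd}, iv J ⊆ iv I →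
    ∀ {R : Finset Nd}, Full R J → ∀ {Kl : ℕ} (hKl : 0 < Kl) {F : Fin 4 → Fn} {s ε Av HC : ℝ},
    0 ≤ s → 0 ≤ ε → 0 ≤ Av → 0 < 81 * s + 170 * Av * √ε → (∀ p ∈ R, av p (F m) ≤ Av) →
    (∀ y ∈ iv J, ‖F m y‖ ≤ HC) → ∀ {H H' fa fb : ℝ}, 0 < fa → 0 < fb → ∀ (L1 : ℕ),
    HG i bb e e' T g (fun l => ((l, ⟨0, hKl⟩) : Fin n × Fin Kl)) J (BdF i e T I Kl)
      ((sd I : ℝ) ^ 2) F (cube L1) (J.1 + 1) R
      (fun l k p w => GaPx571.GdE i bb (T l) (g l) (v + 1) R J (F m) s ε k p w)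
      (n1G K0 J HC Av s ε Hf Ht H H' fa fb) H H' fa fb := by
  obtain ⟨K0, hK0, hmain⟩ := GaIx256.goodG
  refine ⟨K0, hK0, ?_⟩
  intro n i m v I Ht Hf La f T g θ μ h hHf bb hbb e e' hee he he' J hJ R hR Kl hKl F s ε Av HC hs hε
    hAv hτ hF hHC H H' fa fb hfa hfb L1 l u y hu hy
  obtain ⟨hvm⟩ : Nonempty (i.succAbove v = m) := ⟨h.vm⟩
  subst hvm
  have hJI : J.1 ≤ I.1 := Growth.iv_level hJ
  have hn : 2 ^ J.1 ≤ 2 ^ I.1 := Nat.pow_le_pow_right (by norm_num) hJI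
  have hB : BdF i e T I Kl ((l, ⟨0, hKl⟩) : Fin n × Fin Kl) J = BdE i e (T l) J J := bdF_eq e _ hJ
  rw [hB] at hu ⊢
  have hTI : ∀ e' : Fin 3, ∃ t : ℤ, T l e' ⊆ Ico t (t + ((2 ^ I.1 : ℕ) : ℤ)) := by
    intro e'
    obtain ⟨a, ha⟩ := h.ico l
    exact ⟨a e', (ha e').le⟩
  have h1 := hmain bb hbb i v R J hR (2 ^ I.1) hn Ht Hf (T l) (g l) (θ l) hHf (h.opD l) hTI
    (fun s => KLX279.cutJ J (F s)) s ε Av HC hs hε hAv hτ
    (fun p hp => (le_of_eq (GaIx256.av_cut (hR.reg.1 p hp) (F (i.succAbove v)))).trans (hF p hp))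
    (fun z hz => by
      show ‖KLX279.cutJ J (F (i.succAbove v)) z‖ ≤ HC
      unfold KLX279.cutJ
      rw [if_pos hz]
      exact hHC z hz) e e' hee he he' H H' fa fb hfa hfb u y hu hy L1
  have h2 : (fun (k : ℕ) (p : ℤ × ℤ × ℤ) (w : ℕ) =>
      GaIx256.GdE i (v + 1) R J (T l) (g l) (KLX279.cutJ J (F (i.succAbove v))) s ε bb k p w ∧
        AdX R k (xv i bb k p)) = fun (k : ℕ) (p : ℤ × ℤ × ℤ) (w : ℕ) =>
      GaPx571.GdE i bb (T l) (g l) (v + 1) R J (F (i.succAbove v)) s ε k p w ∧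
        AdX R k (xv i bb k p) := by
    funext k p w
    exact propext (and_congr_left' (GaIx256.gdE_cut hR).symm)
  rw [h2] at h1
  refine h1.trans (le_of_eq ?_)
  unfold n1G sd
  push_cast
  ring

end Crest.Agent.R079.GaKx256
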