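import Crest.Agent.R079.MovD_242

/-! R079, Step I, INHOMOGENEOUS MOVE (helper260, item GaM of 571).

The static signed bound of the ragged corner is not homogeneous: it has a floor `δ` in both letters and
asks sup bounds `H`, `H'` of both letters:
`StatH A A' n T N δ δ' H H'` : `‖∑ ε_k T_k u v‖ ≤ N (nA A u + δ) (nA A' v + δ')` for all signs and all
`u`, `v` with `|u| ≤ H` on `A`, `|v| ≤ H'` on `A'`.

* `signH`  : two independent families of signs;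
* `moveH`  : **MOVE**, chain form: `‖∑_{k<n} T_k (x_k) (y_k)‖ ≤
  N (a √Q + nA A x_end + (a+1) δ) (a √Q' + nA A' y_end + (a+1) δ')`, `n ≤ 2^a`, for chains of heights
  `h`, `h'` with `2^(a+1) h ≤ H`, `2^(a+1) h' ≤ H'`;
* `moveH_one` : one letter moves, the other one is static (`h' = H'`). -/

set_option autoImplicit false

namespace Crest.Agent.R079.GaMx260

open Finset Crest.Agent.R079.Move59 Crest.Agent.R079.MovC

/-- one sign family picks one vector -/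
lemma vecl {F : Type*} [AddCommGroup F] [Module ℝ F] {ι₁ : Type*} [Fintype ι₁]
    [DecidableEq ι₁] (i₀ : ι₁) (e : ι₁ → F) :
    ∑ s : ι₁ → Bool, sg (s i₀) • ∑ i, sg (s i) • e i = (2 : ℝ) ^ Fintype.card ι₁ • e i₀ := by
  have h1 : ∀ s : ι₁ → Bool, sg (s i₀) • ∑ i, sg (s i) • e i =
      ∑ i, (sg (s i₀) * sg (s i)) • e i := by
    intro s
    rw [Finset.smul_sum]
    exact Finset.sum_congr rfl fun i _ => smul_smul _ _ _
  simp_rw [h1]
  rw [Finset.sum_comm]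
  simp_rw [← Finset.sum_smul, sum_sg]
  rw [Finset.sum_eq_single i₀]
  · simp
  · intro i _ hi
    rw [if_neg (Ne.symm hi), zero_smul]
  · intro h
    exact absurd (Finset.mem_univ i₀) h

lemma vvd_sum {F : Type*} [NormedAddCommGroup F] (z : ℕ → F) (a : ℕ) (q e : ℝ) :
    ∑ b ∈ range (a + 1), (vv z a q b + e) = a * √q + ‖z (2 ^ a - 1)‖ + (a + 1) * e := by
  rw [Finset.sum_add_distrib, vv_sum, Finset.sum_const, Finset.card_range, nsmul_eq_mul]
  push_cast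
  ring

section fn

variable {Ω Ω' : Type*}

/-- inhomogeneous static signed bound -/
def StatH (A : Finset Ω) (A' : Finset Ω') (n : ℕ)
    (T : ℕ → (Ω → ℂ) →ₗ[ℝ] (Ω' → ℂ) →ₗ[ℝ] ℂ) (N δ δ' H H' : ℝ) : Prop :=
  ∀ ε : ℕ → ℝ, (∀ k, |ε k| = 1) → ∀ u v, (∀ ω ∈ A, ‖u ω‖ ≤ H) → (∀ ω ∈ A', ‖v ω‖ ≤ H') →
    ‖∑ k ∈ range n, ((ε k : ℝ) : ℂ) * T k u v‖ ≤ N * (nA A u + δ) * (nA A' v + δ')

/-- the homogeneous bound is a special case -/
lemma StatH.of_statF {A : Finset Ω} {A' : Finset Ω'} {n : ℕ}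
    {T : ℕ → (Ω → ℂ) →ₗ[ℝ] (Ω' → ℂ) →ₗ[ℝ] ℂ} {N δ δ' H H' : ℝ} (hN : 0 ≤ N) (hδ : 0 ≤ δ)
    (hδ' : 0 ≤ δ') (h : StatF A A' n T N) : StatH A A' n T N δ δ' H H' := by
  intro ε hε u v _ _
  refine (h ε hε u v).trans ?_
  have h1 : N * nA A u ≤ N * (nA A u + δ) := mul_le_mul_of_nonneg_left (by linarith) hN
  exact mul_le_mul h1 (by linarith) (nA_nonneg _ _)
    (mul_nonneg hN (add_nonneg (nA_nonneg _ _) hδ))

lemma nA_sq (A : Finset Ω) (x : Ω → ℂ) : nA A x ^ 2 = ∑ ω ∈ A, ‖x ω‖ ^ 2 :=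
  Real.sq_sqrt (Finset.sum_nonneg fun _ _ => sq_nonneg _)

section sign

variable {ι κ : Type*} [Fintype ι] [DecidableEq ι] [Fintype κ] [DecidableEq κ]

/-- random signs, norms on finite sets -/
lemma sum_nA_sq (A : Finset Ω) (d : ι → Ω → ℂ) :
    ∑ s : ι → Bool, nA A (∑ i, sg (s i) • d i) ^ 2 =
      2 ^ Fintype.card ι * ∑ i, nA A (d i) ^ 2 := by
  simp only [nA_sq]
  rw [Finset.sum_comm, Finset.sum_comm (s := (univ : Finset ι)), Finset.mul_sum]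
  refine Finset.sum_congr rfl fun ω _ => ?_
  have h := sum_norm_sq (fun i => d i ω)
  rw [← h]
  refine Finset.sum_congr rfl fun s _ => ?_
  rw [Finset.sum_apply]
  rfl

omit [DecidableEq ι] in
lemma height_sum {A : Finset Ω} {H : ℝ} (d : ι → Ω → ℂ) (hd : ∀ ω ∈ A, ∑ i, ‖d i ω‖ ≤ H)
    (s : ι → Bool) : ∀ ω ∈ A, ‖(∑ i, sg (s i) • d i) ω‖ ≤ H := by
  intro ω hω
  rw [Finset.sum_apply]
  refine le_trans (norm_sum_le _ _) (le_trans (Finset.sum_le_sum fun i _ => ?_) (hd ω hω))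
  rw [Pi.smul_apply, norm_smul, Real.norm_eq_abs, abs_sg, one_mul]

/-- **two independent families of signs**, inhomogeneous -/
theorem signH {A : Finset Ω} {A' : Finset Ω'} {n : ℕ}
    {T : ℕ → (Ω → ℂ) →ₗ[ℝ] (Ω' → ℂ) →ₗ[ℝ] ℂ} {N δ δ' H H' : ℝ} (hN : 0 ≤ N) (hδ : 0 ≤ δ)
    (hδ' : 0 ≤ δ') (h : StatH A A' n T N δ δ' H H')
    (α : ℕ → ι) (β : ℕ → κ) (d : ι → Ω → ℂ) (d' : κ → Ω' → ℂ) {V V' : ℝ} (hV : 0 ≤ V)
    (hV' : 0 ≤ V') (h2 : ∑ i, nA A (d i) ^ 2 ≤ V ^ 2) (h2' : ∑ j, nA A' (d' j) ^ 2 ≤ V' ^ 2)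
    (hd : ∀ ω ∈ A, ∑ i, ‖d i ω‖ ≤ H) (hd' : ∀ ω ∈ A', ∑ j, ‖d' j ω‖ ≤ H') :
    ‖∑ k ∈ range n, T k (d (α k)) (d' (β k))‖ ≤ N * (V + δ) * (V' + δ') := by
  set a : ℝ := 2 ^ Fintype.card ι with hA
  set b : ℝ := 2 ^ Fintype.card κ with hB
  have hA0 : 0 < a := by positivity
  have hB0 : 0 < b := by positivity
  set U : (ι → Bool) → Ω → ℂ := fun s => ∑ i, sg (s i) • d i with hU
  set W : (κ → Bool) → Ω' → ℂ := fun s => ∑ j, sg (s j) • d' j with hW
  have key : ∀ k, ∑ s : ι → Bool, ∑ s' : κ → Bool,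
      ((sg (s (α k)) * sg (s' (β k)) : ℝ) : ℂ) * T k (U s) (W s') =
      ((a * b : ℝ) : ℂ) * T k (d (α k)) (d' (β k)) := by
    intro k
    have e1 : T k (∑ s : ι → Bool, sg (s (α k)) • U s) (∑ s' : κ → Bool, sg (s' (β k)) • W s') =
        ∑ s : ι → Bool, ∑ s' : κ → Bool,
          ((sg (s (α k)) * sg (s' (β k)) : ℝ) : ℂ) * T k (U s) (W s') := by
      rw [map_sum (T k) (fun s : ι → Bool => sg (s (α k)) • U s) univ, LinearMap.sum_apply]
      refine Finset.sum_congr rfl fun s _ => ?_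
      rw [map_sum]
      refine Finset.sum_congr rfl fun s' _ => ?_
      rw [map_smul, map_smul, LinearMap.smul_apply, Complex.real_smul, Complex.real_smul]
      push_cast
      ring
    rw [← e1, vecl (α k) d, vecl (β k) d', ← hA, ← hB, map_smul, map_smul, LinearMap.smul_apply,
      Complex.real_smul, Complex.real_smul]
    push_cast
    ring
  have e2 : ((a * b : ℝ) : ℂ) * ∑ k ∈ range n, T k (d (α k)) (d' (β k)) =
      ∑ s : ι → Bool, ∑ s' : κ → Bool, ∑ k ∈ range n,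
        ((sg (s (α k)) * sg (s' (β k)) : ℝ) : ℂ) * T k (U s) (W s') := by
    rw [Finset.mul_sum]
    calc ∑ k ∈ range n, ((a * b : ℝ) : ℂ) * T k (d (α k)) (d' (β k))
        = ∑ k ∈ range n, ∑ s : ι → Bool, ∑ s' : κ → Bool,
          ((sg (s (α k)) * sg (s' (β k)) : ℝ) : ℂ) * T k (U s) (W s') :=
          Finset.sum_congr rfl fun k _ => (key k).symm
      _ = ∑ s : ι → Bool, ∑ k ∈ range n, ∑ s' : κ → Bool,
          ((sg (s (α k)) * sg (s' (β k)) : ℝ) : ℂ) * T k (U s) (W s') := Finset.sum_comm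
      _ = _ := Finset.sum_congr rfl fun s _ => Finset.sum_comm
  have hU2 : ∑ s, (nA A (U s) + δ) ≤ a * (V + δ) := by
    have h3 : ∑ s, nA A (U s) ≤ a * V := by
      refine sum_le (n := fun s => nA A (U s)) hV ?_
      rw [sum_nA_sq A d]
      exact mul_le_mul_of_nonneg_left h2 hA0.le
    rw [Finset.sum_add_distrib, Finset.sum_const, Finset.card_univ, Fintype.card_fun,
      Fintype.card_bool, nsmul_eq_mul]
    push_cast
    rw [← hA]
    linarith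
  have hW2 : ∑ s, (nA A' (W s) + δ') ≤ b * (V' + δ') := by
    have h3 : ∑ s, nA A' (W s) ≤ b * V' := by
      refine sum_le (n := fun s => nA A' (W s)) hV' ?_
      rw [sum_nA_sq A' d']
      exact mul_le_mul_of_nonneg_left h2' hB0.le
    rw [Finset.sum_add_distrib, Finset.sum_const, Finset.card_univ, Fintype.card_fun,
      Fintype.card_bool, nsmul_eq_mul]
    push_cast
    rw [← hB]
    linarith
  have h3 : a * b * ‖∑ k ∈ range n, T k (d (α k)) (d' (β k))‖ ≤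
      N * (a * (V + δ)) * (b * (V' + δ')) := by
    have e : ‖((a * b : ℝ) : ℂ) * ∑ k ∈ range n, T k (d (α k)) (d' (β k))‖ =
        a * b * ‖∑ k ∈ range n, T k (d (α k)) (d' (β k))‖ := by
      rw [norm_mul, Complex.norm_real, Real.norm_of_nonneg (by positivity)]
    rw [← e, e2]
    calc ‖∑ s : ι → Bool, ∑ s' : κ → Bool, ∑ k ∈ range n,
          ((sg (s (α k)) * sg (s' (β k)) : ℝ) : ℂ) * T k (U s) (W s')‖
        ≤ ∑ s : ι → Bool, ∑ s' : κ → Bool, N * (nA A (U s) + δ) * (nA A' (W s') + δ') := by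
          refine (norm_sum_le _ _).trans (Finset.sum_le_sum fun s _ => ?_)
          refine (norm_sum_le _ _).trans (Finset.sum_le_sum fun s' _ => ?_)
          exact h (fun k => sg (s (α k)) * sg (s' (β k)))
            (fun k => by rw [abs_mul, abs_sg, abs_sg, one_mul]) (U s) (W s')
            (height_sum d hd s) (height_sum d' hd' s')
      _ = N * (∑ s, (nA A (U s) + δ)) * (∑ s, (nA A' (W s) + δ')) := by
          rw [mul_assoc, Finset.sum_mul_sum, Finset.mul_sum]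
          refine Finset.sum_congr rfl fun s _ => ?_
          rw [Finset.mul_sum]
          refine Finset.sum_congr rfl fun s' _ => ?_
          ring
      _ ≤ N * (a * (V + δ)) * (b * (V' + δ')) := by
          have h7 : N * (∑ s, (nA A (U s) + δ)) ≤ N * (a * (V + δ)) :=
            mul_le_mul_of_nonneg_left hU2 hN
          exact mul_le_mul h7 hW2
            (Finset.sum_nonneg fun s _ => add_nonneg (nA_nonneg _ _) hδ')
            (mul_nonneg hN (mul_nonneg hA0.le (add_nonneg hV hδ)))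
  have h8 : a * b * ‖∑ k ∈ range n, T k (d (α k)) (d' (β k))‖ ≤
      a * b * (N * (V + δ) * (V' + δ')) := h3.trans (le_of_eq (by ring))
  exact le_of_mul_le_mul_left h8 (by positivity)

end sign

/-- the letter of level `b` of the dyadic expansion (`b = a`: the static end letter) -/
def pf (x : ℕ → Ω → ℂ) (a b g : ℕ) : Ω → ℂ :=
  fun ω => if b < a then x (cc b g) ω - x (cc (b + 1) (g / 2)) ω else x (2 ^ a - 1) ω

lemma pf_expand (x : ℕ → Ω → ℂ) (a k : ℕ) (hk : k < 2 ^ a) :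
    x k = ∑ b ∈ range (a + 1), pf x a b (k / 2 ^ b) := by
  funext ω
  rw [Finset.sum_apply]
  exact pc_expand (fun k => x k ω) a k hk

lemma pf_res0 (A : Finset Ω) (x : ℕ → Ω → ℂ) (a b g : ℕ) :
    res0 A (pf x a b g) = pc (fun k => res0 A (x k)) a b g := by
  unfold pf pc inc
  by_cases h : b < a
  · simp only [if_pos h]
    rw [res0_sub]
  · simp only [if_neg h]

lemma pf_sq {A : Finset Ω} (x : ℕ → Ω → ℂ) (D : ℕ → ℝ) {Q : ℝ}
    (hx : ∀ k l, k ≤ l → ∑ ω ∈ A, ‖x k ω - x l ω‖ ^ 2 ≤ D l - D k) (hQ : ∀ k, D k - D 0 ≤ Q)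
    (a b : ℕ) (hb : b ∈ range (a + 1)) :
    ∑ g : Fin (2 ^ (a - b)), nA A (pf x a b g) ^ 2 ≤
      vv (fun k => res0 A (x k)) a Q b ^ 2 := by
  refine le_trans (le_of_eq ?_) (pc_sq (fun k => res0 A (x k)) D
    (fun k l hkl => by rw [res0_dist A x k l]; exact hx k l hkl) hQ a b hb)
  refine Finset.sum_congr rfl fun g _ => ?_
  rw [← pf_res0, norm_res0]

lemma pf_height {A : Finset Ω} (x : ℕ → Ω → ℂ) {h H : ℝ} (h0 : 0 ≤ h)
    (hx : ∀ k, ∀ ω ∈ A, ‖x k ω‖ ≤ h) (a b : ℕ) (hH : 2 ^ (a + 1) * h ≤ H) :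
    ∀ ω ∈ A, ∑ g : Fin (2 ^ (a - b)), ‖pf x a b g ω‖ ≤ H := by
  intro ω hω
  have h1 : ∀ g : ℕ, ‖pf x a b g ω‖ ≤ 2 * h := by
    intro g
    unfold pf
    split_ifs
    · refine (norm_sub_le _ _).trans ?_
      have := hx (cc b g) ω hω
      have := hx (cc (b + 1) (g / 2)) ω hω
      linarith
    · have := hx (2 ^ a - 1) ω hω
      linarith
  calc ∑ g : Fin (2 ^ (a - b)), ‖pf x a b g ω‖ ≤ ∑ _g : Fin (2 ^ (a - b)), 2 * h :=
        Finset.sum_le_sum fun g _ => h1 g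
    _ = 2 ^ (a - b) * (2 * h) := by
        rw [Finset.sum_const, Finset.card_univ, Fintype.card_fin, nsmul_eq_mul]
        push_cast
        ring
    _ ≤ 2 ^ a * (2 * h) := by
        refine mul_le_mul_of_nonneg_right ?_ (by positivity)
        exact pow_le_pow_right₀ (by norm_num) (Nat.sub_le a b)
    _ = 2 ^ (a + 1) * h := by ring
    _ ≤ H := hH

variable {A : Finset Ω} {A' : Finset Ω'} {n : ℕ} {T : ℕ → (Ω → ℂ) →ₗ[ℝ] (Ω' → ℂ) →ₗ[ℝ] ℂ}
  {N δ δ' H H' : ℝ}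

/-- **INHOMOGENEOUS MOVE, chain form.** -/
theorem moveH {a : ℕ} (hn : n ≤ 2 ^ a) (hN : 0 ≤ N) (hδ : 0 ≤ δ) (hδ' : 0 ≤ δ')
    (hT : StatH A A' n T N δ δ' H H') (x : ℕ → Ω → ℂ) (y : ℕ → Ω' → ℂ) (D D' : ℕ → ℝ) {Q Q' : ℝ}
    (hx : ∀ k l, k ≤ l → ∑ ω ∈ A, ‖x k ω - x l ω‖ ^ 2 ≤ D l - D k) (hQ : ∀ k, D k - D 0 ≤ Q)
    (hy : ∀ k l, k ≤ l → ∑ ω ∈ A', ‖y k ω - y l ω‖ ^ 2 ≤ D' l - D' k)
    (hQ' : ∀ k, D' k - D' 0 ≤ Q') {h h' : ℝ} (h0 : 0 ≤ h) (h0' : 0 ≤ h')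
    (hxh : ∀ k, ∀ ω ∈ A, ‖x k ω‖ ≤ h) (hyh : ∀ k, ∀ ω ∈ A', ‖y k ω‖ ≤ h')
    (hH : 2 ^ (a + 1) * h ≤ H) (hH' : 2 ^ (a + 1) * h' ≤ H') :
    ‖∑ k ∈ range n, T k (x k) (y k)‖ ≤
      N * (a * √Q + nA A (x (2 ^ a - 1)) + (a + 1) * δ) *
        (a * √Q' + nA A' (y (2 ^ a - 1)) + (a + 1) * δ') := by
  set xr : ℕ → EuclideanSpace ℂ A := fun k => res0 A (x k) with hxr
  set yr : ℕ → EuclideanSpace ℂ A' := fun k => res0 A' (y k) with hyr
  have h1 : ∀ k ∈ range n, T k (x k) (y k) = ∑ b ∈ range (a + 1), ∑ c ∈ range (a + 1),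
      T k (pf x a b (k / 2 ^ b)) (pf y a c (k / 2 ^ c)) := by
    intro k hk
    have hk' : k < 2 ^ a := lt_of_lt_of_le (Finset.mem_range.1 hk) hn
    conv_lhs => rw [pf_expand x a k hk', pf_expand y a k hk']
    rw [map_sum (T k) (fun b => pf x a b (k / 2 ^ b)) (range (a + 1)), LinearMap.sum_apply]
    refine Finset.sum_congr rfl fun b _ => ?_
    rw [map_sum]
  rw [Finset.sum_congr rfl h1, Finset.sum_comm]
  have h2 : ∀ b ∈ range (a + 1), ∀ c ∈ range (a + 1),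
      ‖∑ k ∈ range n, T k (pf x a b (k / 2 ^ b)) (pf y a c (k / 2 ^ c))‖ ≤
        N * (vv xr a Q b + δ) * (vv yr a Q' c + δ') := by
    intro b hb c hc
    have hb' : b ≤ a := Nat.lt_succ_iff.1 (Finset.mem_range.1 hb)
    have hc' : c ≤ a := Nat.lt_succ_iff.1 (Finset.mem_range.1 hc)
    have hlt : ∀ {k d : ℕ}, k < 2 ^ a → d ≤ a → k / 2 ^ d < 2 ^ (a - d) := by
      intro k d hk hd
      rw [Nat.div_lt_iff_lt_mul (by positivity), pow_sub_mul_pow 2 hd]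
      exact hk
    have h3 := signH hN hδ hδ' hT
      (fun k => if h : k < 2 ^ a then (⟨k / 2 ^ b, hlt h hb'⟩ : Fin (2 ^ (a - b))) else
        ⟨0, by positivity⟩)
      (fun k => if h : k < 2 ^ a then (⟨k / 2 ^ c, hlt h hc'⟩ : Fin (2 ^ (a - c))) else
        ⟨0, by positivity⟩)
      (fun g => pf x a b g) (fun g => pf y a c g) (vv_nonneg xr a Q b) (vv_nonneg yr a Q' c)
      (pf_sq x D hx hQ a b hb) (pf_sq y D' hy hQ' a c hc)
      (pf_height x h0 hxh a b hH) (pf_height y h0' hyh a c hH')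
    refine le_trans (le_of_eq ?_) h3
    congr 1
    refine Finset.sum_congr rfl fun k hk => ?_
    have hk' : k < 2 ^ a := lt_of_lt_of_le (Finset.mem_range.1 hk) hn
    simp only [dif_pos hk']
  calc ‖∑ b ∈ range (a + 1), ∑ k ∈ range n, ∑ c ∈ range (a + 1),
        T k (pf x a b (k / 2 ^ b)) (pf y a c (k / 2 ^ c))‖
      ≤ ∑ b ∈ range (a + 1), ∑ c ∈ range (a + 1),
          N * (vv xr a Q b + δ) * (vv yr a Q' c + δ') := by
        refine (norm_sum_le _ _).trans (Finset.sum_le_sum fun b hb => ?_)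
        rw [Finset.sum_comm]
        exact (norm_sum_le _ _).trans (Finset.sum_le_sum fun c hc => h2 b hb c hc)
    _ = N * (∑ b ∈ range (a + 1), (vv xr a Q b + δ)) *
          (∑ c ∈ range (a + 1), (vv yr a Q' c + δ')) := by
        rw [mul_assoc, Finset.sum_mul_sum, Finset.mul_sum]
        refine Finset.sum_congr rfl fun b _ => ?_
        rw [Finset.mul_sum]
        refine Finset.sum_congr rfl fun c _ => ?_
        ring
    _ = _ := by rw [vvd_sum, vvd_sum, hxr, hyr]; simp only [norm_res0]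

/-- one letter moves, the other one is static -/
theorem moveH_one {a : ℕ} (hn : n ≤ 2 ^ a) (hN : 0 ≤ N) (hδ : 0 ≤ δ) (hδ' : 0 ≤ δ')
    (hT : StatH A A' n T N δ δ' H H') (x : ℕ → Ω → ℂ) (y : Ω' → ℂ) (D : ℕ → ℝ) {Q : ℝ}
    (hx : ∀ k l, k ≤ l → ∑ ω ∈ A, ‖x k ω - x l ω‖ ^ 2 ≤ D l - D k) (hQ : ∀ k, D k - D 0 ≤ Q)
    {h : ℝ} (h0 : 0 ≤ h) (hxh : ∀ k, ∀ ω ∈ A, ‖x k ω‖ ≤ h) (hyh : ∀ ω ∈ A', ‖y ω‖ ≤ H')
    (hH : 2 ^ (a + 1) * h ≤ H) :
    ‖∑ k ∈ range n, T k (x k) y‖ ≤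
      N * (a * √Q + nA A (x (2 ^ a - 1)) + (a + 1) * δ) * (nA A' y + δ') := by
  set xr : ℕ → EuclideanSpace ℂ A := fun k => res0 A (x k) with hxr
  have h1 : ∀ k ∈ range n, T k (x k) y = ∑ b ∈ range (a + 1), T k (pf x a b (k / 2 ^ b)) y := by
    intro k hk
    have hk' : k < 2 ^ a := lt_of_lt_of_le (Finset.mem_range.1 hk) hn
    conv_lhs => rw [pf_expand x a k hk']
    rw [map_sum (T k) (fun b => pf x a b (k / 2 ^ b)) (range (a + 1)), LinearMap.sum_apply]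
  rw [Finset.sum_congr rfl h1, Finset.sum_comm]
  have h2 : ∀ b ∈ range (a + 1), ‖∑ k ∈ range n, T k (pf x a b (k / 2 ^ b)) y‖ ≤
      N * (vv xr a Q b + δ) * (nA A' y + δ') := by
    intro b hb
    have hb' : b ≤ a := Nat.lt_succ_iff.1 (Finset.mem_range.1 hb)
    have hlt : ∀ {k d : ℕ}, k < 2 ^ a → d ≤ a → k / 2 ^ d < 2 ^ (a - d) := by
      intro k d hk hd
      rw [Nat.div_lt_iff_lt_mul (by positivity), pow_sub_mul_pow 2 hd]
      exact hk
    have h3 := signH hN hδ hδ' hT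
      (fun k => if h : k < 2 ^ a then (⟨k / 2 ^ b, hlt h hb'⟩ : Fin (2 ^ (a - b))) else
        ⟨0, by positivity⟩)
      (fun _ => (0 : Fin 1))
      (fun g => pf x a b g) (fun _ => y) (vv_nonneg xr a Q b) (nA_nonneg A' y)
      (pf_sq x D hx hQ a b hb) (by simp)
      (pf_height x h0 hxh a b hH) (by simpa using hyh)
    refine le_trans (le_of_eq ?_) h3
    congr 1
    refine Finset.sum_congr rfl fun k hk => ?_
    have hk' : k < 2 ^ a := lt_of_lt_of_le (Finset.mem_range.1 hk) hn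
    simp only [dif_pos hk']
  calc ‖∑ b ∈ range (a + 1), ∑ k ∈ range n, T k (pf x a b (k / 2 ^ b)) y‖
      ≤ ∑ b ∈ range (a + 1), N * (vv xr a Q b + δ) * (nA A' y + δ') :=
        (norm_sum_le _ _).trans (Finset.sum_le_sum fun b hb => h2 b hb)
    _ = N * (∑ b ∈ range (a + 1), (vv xr a Q b + δ)) * (nA A' y + δ') := by
        rw [← Finset.sum_mul, ← Finset.mul_sum]
    _ = _ := by
        rw [vvd_sum, hxr]
        simp only [norm_res0]

end fn

end Crest.Agent.R079.GaMx260
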