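import Crest.Agent.R079.KLdef_446

/-! R079 (helper248): the TALL KILL (852 (K2)), first part: a letter with small local `L¹` averages has the
exceptional-set hypothesis `ExD` of the kill lemma with NO exceptional value, for EVERY bounded gauge
(Schur).  Applied to the tall part `X^{>H}` of a letter with local `L²` norms `≤ s`: `L¹` average
`≤ s² / H`. -/

set_option autoImplicit false

namespace Crest.Agent.R079.TKx248

open Finset Crest.Agent.R079.Grid Crest.Agent.R079.Glue Crest.Agent.R079.Growth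
  Crest.Agent.R079.QRed Crest.Agent.R079.BadTx138 Crest.Agent.R079.KLx446

/-- **Schur's test** for `OpB` -/
theorem opB_schur {K : ℤ → ℤ → ℂ} {I J : Finset ℤ} {s : ℝ} (hs : 0 ≤ s)
    (hr : ∀ x ∈ I, ∑ y ∈ J, ‖K x y‖ ≤ s) (hc : ∀ y ∈ J, ∑ x ∈ I, ‖K x y‖ ≤ s) : OpB K I J s := by
  intro u v
  have h1 : ‖∑ x ∈ I, ∑ y ∈ J, u x * K x y * v y‖ ≤
      ∑ z ∈ I ×ˢ J, (‖u z.1‖ * Real.sqrt ‖K z.1 z.2‖) * (Real.sqrt ‖K z.1 z.2‖ * ‖v z.2‖) := by
    rw [Finset.sum_product]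
    refine (norm_sum_le _ _).trans (Finset.sum_le_sum fun x _ => (norm_sum_le _ _).trans
      (Finset.sum_le_sum fun y _ => le_of_eq ?_))
    rw [norm_mul, norm_mul]
    have h2 := Real.mul_self_sqrt (norm_nonneg (K x y))
    calc ‖u x‖ * ‖K x y‖ * ‖v y‖ =
        ‖u x‖ * (Real.sqrt ‖K x y‖ * Real.sqrt ‖K x y‖) * ‖v y‖ := by rw [h2]
      _ = _ := by ring
  have h2 := Finset.sum_mul_sq_le_sq_mul_sq (I ×ˢ J)
    (fun z => ‖u z.1‖ * Real.sqrt ‖K z.1 z.2‖) (fun z => Real.sqrt ‖K z.1 z.2‖ * ‖v z.2‖)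
  have e1 : ∑ z ∈ I ×ˢ J, (‖u z.1‖ * Real.sqrt ‖K z.1 z.2‖) ^ 2 ≤ s * ∑ x ∈ I, ‖u x‖ ^ 2 := by
    rw [Finset.sum_product, Finset.mul_sum]
    refine Finset.sum_le_sum fun x hx => ?_
    have : ∀ y, (‖u x‖ * Real.sqrt ‖K x y‖) ^ 2 = ‖u x‖ ^ 2 * ‖K x y‖ := fun y => by
      rw [mul_pow, Real.sq_sqrt (norm_nonneg _)]
    simp only [this]
    rw [← Finset.mul_sum]
    calc ‖u x‖ ^ 2 * ∑ y ∈ J, ‖K x y‖ ≤ ‖u x‖ ^ 2 * s :=
          mul_le_mul_of_nonneg_left (hr x hx) (sq_nonneg _)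
      _ = _ := by ring
  have e2 : ∑ z ∈ I ×ˢ J, (Real.sqrt ‖K z.1 z.2‖ * ‖v z.2‖) ^ 2 ≤ s * ∑ y ∈ J, ‖v y‖ ^ 2 := by
    rw [Finset.sum_product_right, Finset.mul_sum]
    refine Finset.sum_le_sum fun y hy => ?_
    have : ∀ x, (Real.sqrt ‖K x y‖ * ‖v y‖) ^ 2 = ‖v y‖ ^ 2 * ‖K x y‖ := fun x => by
      rw [mul_pow, Real.sq_sqrt (norm_nonneg _)]; ring
    simp only [this]
    rw [← Finset.mul_sum]
    calc ‖v y‖ ^ 2 * ∑ x ∈ I, ‖K x y‖ ≤ ‖v y‖ ^ 2 * s :=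
          mul_le_mul_of_nonneg_left (hc y hy) (sq_nonneg _)
      _ = _ := by ring
  have h3 : 0 ≤ ∑ z ∈ I ×ˢ J, (‖u z.1‖ * Real.sqrt ‖K z.1 z.2‖) *
      (Real.sqrt ‖K z.1 z.2‖ * ‖v z.2‖) := Finset.sum_nonneg fun z _ => by positivity
  calc ‖∑ x ∈ I, ∑ y ∈ J, u x * K x y * v y‖ ^ 2 ≤
      (∑ z ∈ I ×ˢ J, (‖u z.1‖ * Real.sqrt ‖K z.1 z.2‖) *
        (Real.sqrt ‖K z.1 z.2‖ * ‖v z.2‖)) ^ 2 := pow_le_pow_left₀ (norm_nonneg _) h1 2
    _ ≤ (s * ∑ x ∈ I, ‖u x‖ ^ 2) * (s * ∑ y ∈ J, ‖v y‖ ^ 2) :=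
        h2.trans (mul_le_mul e1 e2 (Finset.sum_nonneg fun _ _ => sq_nonneg _)
          (mul_nonneg hs (Finset.sum_nonneg fun _ _ => sq_nonneg _)))
    _ = _ := by ring

/-- `L¹` sum of a letter along an injective affine map, masked to a node -/
theorem l1_line (p : Nd) (K : Fn) {b : ℤ} (hb : b ≠ 0) (a : ℤ) (J : Finset ℤ) :
    ∑ y ∈ J, ‖(if a + b * y ∈ iv p then K (a + b * y) else 0 : ℂ)‖ ≤ ∑ z ∈ iv p, ‖K z‖ := by
  classical
  have h1 : ∑ y ∈ J, ‖(if a + b * y ∈ iv p then K (a + b * y) else 0 : ℂ)‖ =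
      ∑ y ∈ J.filter (fun y => a + b * y ∈ iv p), ‖K (a + b * y)‖ := by
    rw [Finset.sum_filter]
    refine Finset.sum_congr rfl fun y _ => ?_
    split_ifs <;> simp
  rw [h1]
  have h2 : ∑ y ∈ J.filter (fun y => a + b * y ∈ iv p), ‖K (a + b * y)‖ =
      ∑ z ∈ (J.filter (fun y => a + b * y ∈ iv p)).image (fun y => a + b * y), ‖K z‖ := by
    rw [Finset.sum_image]
    intro x _ y _ hxy
    have h3 : b * (x - y) = 0 := by
      have : a + b * x = a + b * y := hxy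
      linarith
    rcases mul_eq_zero.1 h3 with h4 | h4
    · exact absurd h4 hb
    · linarith
  rw [h2]
  refine Finset.sum_le_sum_of_subset_of_nonneg ?_ fun _ _ _ => norm_nonneg _
  intro z hz
  rw [Finset.mem_image] at hz
  obtain ⟨y, hy, rfl⟩ := hz
  exact (Finset.mem_filter.1 hy).2

/-- **small local `L¹` averages ⟹ no exceptional value**, for every bounded gauge -/
theorem exD_of_l1 {R : Finset Nd} {K : Fn} {A : ℝ} (hA : 0 ≤ A)
    (h : ∀ p ∈ R, ∑ y ∈ iv p, ‖K y‖ ≤ A * len p) {c : ℤ → ℤ → ℂ} (hc : ∀ z z', ‖c z z'‖ ≤ 1)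
    {α β γ : ℤ} (hβ : β ≠ 0) (hγ : γ ≠ 0) : ExD R c K α β γ (128 * A) 0 := by
  classical
  intro p hp w a b
  have hl : len p = 128 * (2 : ℝ) ^ p.1 := by unfold len; ring
  have hOp : ∀ w', OpP c K α β γ (128 * A) p w' a b := by
    intro w'
    unfold OpP
    have hb : (∑ y ∈ iv p, ‖K y‖) ≤ 128 * A * 2 ^ p.1 := by
      have := h p hp
      rw [hl] at this
      linarith
    refine opB_schur (by positivity) (fun x _ => ?_) (fun y _ => ?_)
    · have h1 := l1_line p K hγ (α * w' + β * x) (Ico (b * 2 ^ p.1) ((b + 1) * 2 ^ p.1))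
      refine (Finset.sum_le_sum fun y _ => ?_).trans (h1.trans hb)
      unfold kp
      rw [norm_mul]
      exact mul_le_of_le_one_left (norm_nonneg _) (hc x y)
    · have h1 := l1_line p K hβ (α * w' + γ * y) (Ico (a * 2 ^ p.1) ((a + 1) * 2 ^ p.1))
      refine (Finset.sum_le_sum fun x _ => ?_).trans (h1.trans hb)
      unfold kp
      rw [norm_mul]
      have e : α * w' + β * x + γ * y = α * w' + γ * y + β * x := by ring
      rw [e]
      exact mul_le_of_le_one_left (norm_nonneg _) (hc x y)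
  have he : (Ico w (w + 2 ^ p.1)).filter (fun w' => ¬ OpP c K α β γ (128 * A) p w' a b) = ∅ := by
    rw [Finset.filter_eq_empty_iff]
    intro x _ hx
    exact hx (hOp x)
  rw [he]
  simp

/-- tall part of a letter -/
noncomputable def tall (H : ℝ) (X : Fn) : Fn := fun y => if H < ‖X y‖ then X y else 0

/-- bounded part of a letter -/
noncomputable def low (H : ℝ) (X : Fn) : Fn := fun y => if H < ‖X y‖ then 0 else X y

theorem low_add_tall (H : ℝ) (X : Fn) (y : ℤ) : X y = low H X y + tall H X y := by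
  unfold low tall
  split_ifs <;> simp

theorem norm_low {H : ℝ} (hH : 0 ≤ H) (X : Fn) (y : ℤ) : ‖low H X y‖ ≤ H := by
  unfold low
  split_ifs with h
  · simpa using hH
  · exact not_lt.1 h

theorem norm_low_le (H : ℝ) (X : Fn) (y : ℤ) : ‖low H X y‖ ≤ ‖X y‖ := by
  unfold low
  split_ifs <;> simp

theorem norm_tall_le (H : ℝ) (X : Fn) (y : ℤ) : ‖tall H X y‖ ≤ ‖X y‖ := by
  unfold tall
  split_ifs <;> simp

/-- the tall part has small `L¹` averages -/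
theorem sum_tall {H s : ℝ} (hH : 0 < H) {p : Nd} {X : Fn} (hX : av p X ≤ s) :
    ∑ y ∈ iv p, ‖tall H X y‖ ≤ s ^ 2 / H * len p := by
  have h1 : ∀ y ∈ iv p, ‖tall H X y‖ ≤ ‖X y‖ ^ 2 / H := by
    intro y _
    unfold tall
    split_ifs with h
    · rw [le_div_iff₀ hH, sq]
      exact mul_le_mul_of_nonneg_left h.le (norm_nonneg _)
    · rw [norm_zero]; positivity
  refine (Finset.sum_le_sum h1).trans ?_
  rw [← Finset.sum_div, Growth.sum_av, div_mul_eq_mul_div]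
  have hl := (Growth.len_pos p).le
  refine div_le_div_of_nonneg_right ?_ hH.le
  rw [mul_comm]
  exact mul_le_mul_of_nonneg_right
    (pow_le_pow_left₀ (Growth.av_nonneg p X) hX 2) hl

/-- **the tall part of a free letter in the killer's role** -/
theorem exD_tall {R : Finset Nd} {X : Fn} {H s : ℝ} (hH : 0 < H)
    (h : ∀ p ∈ R, av p X ≤ s) {c : ℤ → ℤ → ℂ} (hc : ∀ z z', ‖c z z'‖ ≤ 1)
    {α β γ : ℤ} (hβ : β ≠ 0) (hγ : γ ≠ 0) :
    ExD R c (tall H X) α β γ (128 * (s ^ 2 / H)) 0 :=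
  exD_of_l1 (by positivity) (fun p hp => sum_tall hH (h p hp)) hc hβ hγ

end Crest.Agent.R079.TKx248
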