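import Crest.Agent.R079.PQ_263
import Crest.Agent.R079.TK_248
import Crest.Agent.R079.GaI_256
import Crest.Agent.R079.GaT_571
import Crest.Agent.R079.GaZ_260

/-! R079, Step I, (G) words (helper446): EXCEPTIONAL DENSITY OF THE TRUNCATED KILLER LETTER.

* `exD_add` : the classes `ExD` add; `exD_tau` : `ExD` of `tau H X` from `ExD` of `X` and `av p X ≤ A`;
* `exE_prc` : 256's `ExE` of `tau H (F m)` for the core data `PRc` (263). -/

set_option autoImplicit false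

namespace Crest.Agent.R079.GaMx446

open Finset Crest.Agent.R079.Grid Crest.Agent.R079.Glue Crest.Agent.R079.Growth
  Crest.Agent.R079.QRed Crest.Agent.R079.KLx446 Crest.Agent.R079.BadTx138
open Crest.Agent.R079.GaTx571 (tau tau_le tau_le')
open Crest.Agent.R079.GaZx260 (tau_rest)
open Crest.Agent.R079.GaIx256 (ExE cM norm_cM)
open Crest.Agent.R079.GaFx371 (OpD)

/-- operator bounds add -/
lemma opB_add {K1 K2 K : ℤ → ℤ → ℂ} {I J : Finset ℤ} {t1 t2 : ℝ} (h1 : OpB K1 I J t1)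
    (h2 : OpB K2 I J t2) (ht1 : 0 ≤ t1) (ht2 : 0 ≤ t2) (h : ∀ x y, K x y = K1 x y + K2 x y) :
    OpB K I J (t1 + t2) := by
  intro u v
  set U := ∑ x ∈ I, ‖u x‖ ^ 2 with hU
  set V := ∑ y ∈ J, ‖v y‖ ^ 2 with hV
  have hU0 : 0 ≤ U := Finset.sum_nonneg fun _ _ => sq_nonneg _
  have hV0 : 0 ≤ V := Finset.sum_nonneg fun _ _ => sq_nonneg _
  have e : ∑ x ∈ I, ∑ y ∈ J, u x * K x y * v y =
      ∑ x ∈ I, ∑ y ∈ J, u x * K1 x y * v y + ∑ x ∈ I, ∑ y ∈ J, u x * K2 x y * v y := by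
    rw [← Finset.sum_add_distrib]
    refine Finset.sum_congr rfl fun x _ => ?_
    rw [← Finset.sum_add_distrib]
    refine Finset.sum_congr rfl fun y _ => ?_
    rw [h]; ring
  have n1 : ‖∑ x ∈ I, ∑ y ∈ J, u x * K1 x y * v y‖ ≤ t1 * √(U * V) := by
    refine abs_le_of_sq_le_sq' ?_ (by positivity) |>.2
    rw [mul_pow, Real.sq_sqrt (mul_nonneg hU0 hV0)]
    exact h1 u v
  have n2 : ‖∑ x ∈ I, ∑ y ∈ J, u x * K2 x y * v y‖ ≤ t2 * √(U * V) := by
    refine abs_le_of_sq_le_sq' ?_ (by positivity) |>.2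
    rw [mul_pow, Real.sq_sqrt (mul_nonneg hU0 hV0)]
    exact h2 u v
  have n3 : ‖∑ x ∈ I, ∑ y ∈ J, u x * K x y * v y‖ ≤ (t1 + t2) * √(U * V) := by
    rw [e, add_mul]
    exact (norm_add_le _ _).trans (add_le_add n1 n2)
  refine (pow_le_pow_left₀ (norm_nonneg _) n3 2).trans (le_of_eq ?_)
  rw [mul_pow, Real.sq_sqrt (mul_nonneg hU0 hV0)]

/-- exceptional densities add -/
theorem exD_add {R : Finset Nd} {c : ℤ → ℤ → ℂ} {K K1 K2 : Fn} {α β γ : ℤ} {s1 s2 D1 D2 : ℝ}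
    (hs1 : 0 ≤ s1) (hs2 : 0 ≤ s2) (h1 : ExD R c K1 α β γ s1 D1) (h2 : ExD R c K2 α β γ s2 D2)
    (h : ∀ p ∈ R, ∀ y ∈ iv p, K y = K1 y + K2 y) : ExD R c K α β γ (s1 + s2) (D1 + D2) := by
  classical
  intro p hp w a b
  have hsub : (Ico w (w + 2 ^ p.1)).filter (fun w' => ¬ OpP c K α β γ (s1 + s2) p w' a b) ⊆
      (Ico w (w + 2 ^ p.1)).filter (fun w' => ¬ OpP c K1 α β γ s1 p w' a b) ∪
      (Ico w (w + 2 ^ p.1)).filter (fun w' => ¬ OpP c K2 α β γ s2 p w' a b) := by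
    intro w' hw'
    rw [Finset.mem_filter] at hw'
    rw [Finset.mem_union, Finset.mem_filter, Finset.mem_filter]
    by_cases ha : OpP c K1 α β γ s1 p w' a b
    · refine Or.inr ⟨hw'.1, fun hb => hw'.2 ?_⟩
      unfold OpP at ha hb ⊢
      rw [show (s1 + s2) * (2 : ℝ) ^ p.1 = s1 * 2 ^ p.1 + s2 * 2 ^ p.1 by ring]
      refine opB_add ha hb (by positivity) (by positivity) fun x y => ?_
      unfold kp
      by_cases hy : α * w' + β * x + γ * y ∈ iv p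
      · rw [if_pos hy, if_pos hy, if_pos hy, h p hp _ hy, mul_add]
      · rw [if_neg hy, if_neg hy, if_neg hy, mul_zero, add_zero]
    · exact Or.inl ⟨hw'.1, ha⟩
  have hc : (((Ico w (w + 2 ^ p.1)).filter
      (fun w' => ¬ OpP c K α β γ (s1 + s2) p w' a b)).card : ℝ) ≤
      (((Ico w (w + 2 ^ p.1)).filter (fun w' => ¬ OpP c K1 α β γ s1 p w' a b)).card : ℝ) +
      (((Ico w (w + 2 ^ p.1)).filter (fun w' => ¬ OpP c K2 α β γ s2 p w' a b)).card : ℝ) := by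
    exact_mod_cast (Finset.card_le_card hsub).trans (Finset.card_union_le _ _)
  have a1 := h1 p hp w a b
  have a2 := h2 p hp w a b
  have e1 : (D1 + D2) * 2 ^ p.1 = D1 * 2 ^ p.1 + D2 * 2 ^ p.1 := by ring
  rw [e1]
  refine hc.trans (add_le_add ?_ ?_)
  · refine le_trans (le_of_eq ?_) a1
    congr!
  · refine le_trans (le_of_eq ?_) a2
    congr!

/-- **truncation** -/
theorem exD_tau {R : Finset Nd} {c : ℤ → ℤ → ℂ} (hc : ∀ z z', ‖c z z'‖ ≤ 1) {X : Fn} {α β γ : ℤ}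
    (hβ : β ≠ 0) (hγ : γ ≠ 0) {s D A H : ℝ} (hs : 0 ≤ s) (hH : 0 < H)
    (h : ExD R c X α β γ s D) (hA : ∀ p ∈ R, av p X ≤ A) :
    ExD R c (fun y => tau H (X y)) α β γ (s + 128 * (A ^ 2 / H)) D := by
  have h1 : ∀ p ∈ R, ∑ y ∈ iv p, ‖-(X y - tau H (X y))‖ ≤ A ^ 2 / H * len p := by
    intro p hp
    have h2 : ∑ y ∈ iv p, ‖-(X y - tau H (X y))‖ ≤ ∑ y ∈ iv p, ‖X y‖ ^ 2 / H :=
      Finset.sum_le_sum fun y _ => by rw [norm_neg]; exact tau_rest hH _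
    have h3 : ∑ y ∈ iv p, ‖X y‖ ^ 2 / H = (len p * av p X ^ 2) / H := by
      rw [← Finset.sum_div, Growth.sum_av]
    rw [h3] at h2
    refine h2.trans ?_
    have h4 : av p X ^ 2 ≤ A ^ 2 := pow_le_pow_left₀ (Growth.av_nonneg _ _) (hA p hp) 2
    have h5 : len p * av p X ^ 2 ≤ len p * A ^ 2 := mul_le_mul_of_nonneg_left h4 (Growth.len_pos p).le
    calc len p * av p X ^ 2 / H ≤ len p * A ^ 2 / H := div_le_div_of_nonneg_right h5 hH.le
      _ = _ := by ring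
  have h2 := TKx248.exD_of_l1 (K := fun y => -(X y - tau H (X y))) (by positivity) h1 hc (α := α)
    hβ hγ
  have h3 := exD_add (K := fun y => tau H (X y)) hs (by positivity) h h2
    (fun p _ y _ => by ring)
  rwa [add_zero] at h3

lemma exD_sub {R R' : Finset Nd} (hs : R' ⊆ R) {c : ℤ → ℤ → ℂ} {K : Fn} {α β γ : ℤ} {s D : ℝ}
    (h : ExD R c K α β γ s D) : ExD R' c K α β γ s D := fun p hp => h p (hs hp)

section core

open Crest.Agent.R079.POx263 Crest.Agent.R079.OpS276 Crest.Agent.R079.WS112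
  Crest.Agent.R079.WS0112

variable {P : Prm} {k b cl t La Ht Hf : ℝ} {W : Finset Nd} {I : Nd}
  {i m e e' : Fin 4} {F : Fin 4 → Fn}

lemma dst_slots (i : Fin 4) (v : Fin 3) :
    Dst4 (i.succAbove v) i (i.succAbove (v + 1)) (i.succAbove (v + 2)) := by
  have h : ∀ a b : Fin 3, a ≠ b → i.succAbove a ≠ i.succAbove b := fun a b hab h' =>
    hab (Fin.succAbove_right_injective h')
  exact ⟨(Fin.succAbove_ne i v).symm, (Fin.succAbove_ne i _).symm, (Fin.succAbove_ne i _).symm,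
    h _ _ (by revert v; decide), h _ _ (by revert v; decide), h _ _ (by revert v; decide)⟩

/-- **`ExE` of the truncated killer letter** for the core data -/
theorem exE_prc (h : Ok0 P) (hd : Dst4 i m e e') (hk : 0 ≤ k) (hm3 : m ≠ 3) (hb : 0 ≤ b)
    (ht : 0 < t) (ht1 : t ≤ 1) (hPR : PRc (DF0 P) k b cl t La Ht Hf W I i m e e' F)
    {R : Finset Nd} (hRW : R ⊆ W) {v : Fin 3} (hv : i.succAbove v = m) {n : ℕ} {Ht' Hf' : ℝ}
    {T : Fin 3 → Finset ℤ} {g : Fin 3 → ℤ → ℤ → ℂ} {θ : ℤ → ℝ} (hO : OpD v n Ht' Hf' T g θ)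
    {H : ℝ} (hH : 0 < H) :
    ExE i (v + 1) R T g (fun y => tau H (F m y))
      (128 * t ^ (b * (P.θ * P.g m)) + 24 * t ^ (b * (P.θ * P.f m)) + 128 * (1 / H))
      (t ^ (b * (P.θ * P.x m))) := by
  subst hv
  have e1 : v + 1 + 2 = v := GaIx256.f3e v
  have e2 : v + 1 + 1 = v + 2 := GaIx256.f3f v
  have hD := dst_slots i v
  have h1 := hPR.exD h hd hk hm3 hb ht ht1 (c := cM T g (v + 1)) (norm_cM hO.b1) hD
  have h2 := exD_sub hRW h1
  have hnn : 0 ≤ 128 * t ^ (b * (P.θ * P.g (i.succAbove v))) +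
      24 * t ^ (b * (P.θ * P.f (i.succAbove v))) := by
    have a1 := Real.rpow_nonneg ht.le (b * (P.θ * P.g (i.succAbove v)))
    have a2 := Real.rpow_nonneg ht.le (b * (P.θ * P.f (i.succAbove v)))
    positivity
  have h3 := exD_tau (norm_cM hO.b1) ((sl_facts _ _).1 hD.ke.symm) ((sl_facts _ _).1 hD.ke'.symm)
    hnn hH h2 (fun p hp => hPR.avR hk p (hRW hp))
  unfold ExE
  rw [e1, e2]
  rw [one_pow] at h3
  exact h3

end core

end Crest.Agent.R079.GaMx446
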