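import Crest.Agent.R079.MovD_242

/-! R079, Step I, MOVE with heights (helper571).

The kill lemma (ragged corner) holds for letters with SUP BOUNDS and has an additive slack, so the
homogeneous `MovC.StatF` (all letters of `ℓ²`) is not available.  Here: the static bound
`‖∑ ε_k T_k u v‖ ≤ N (|u| + δ) (|v| + δ')` for `|u| ≤ H`, `|v| ≤ H'` pointwise gives the MOVE bound
`N (a √Q + |x_end| + (a+1) δ) (..)` for letters `x_k`, `y_k` with `2^(a+1) ‖x_k‖_∞ ≤ H`.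
The norms are weighted `ℓ²` norms on finite sets (weights: joint norm of a family of atoms). -/

set_option autoImplicit false

namespace Crest.Agent.R079.GaMx571

open Finset Crest.Agent.R079.Move59 Crest.Agent.R079.MovC

section fn

variable {Ω Ω' : Type*}

/-- squared weighted norm on `A` -/
noncomputable def qW (A : Finset Ω) (ρ : Ω → ℝ) (x : Ω → ℂ) : ℝ := ∑ ω ∈ A, ρ ω * ‖x ω‖ ^ 2

/-- weighted norm on `A` -/
noncomputable def nW (A : Finset Ω) (ρ : Ω → ℝ) (x : Ω → ℂ) : ℝ := √(qW A ρ x)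

lemma qW_nonneg {A : Finset Ω} {ρ : Ω → ℝ} (hρ : ∀ ω, 0 ≤ ρ ω) (x : Ω → ℂ) : 0 ≤ qW A ρ x :=
  Finset.sum_nonneg fun ω _ => mul_nonneg (hρ ω) (sq_nonneg _)

lemma nW_nonneg (A : Finset Ω) (ρ : Ω → ℝ) (x : Ω → ℂ) : 0 ≤ nW A ρ x := Real.sqrt_nonneg _

lemma nW_sq {A : Finset Ω} {ρ : Ω → ℝ} (hρ : ∀ ω, 0 ≤ ρ ω) (x : Ω → ℂ) :
    nW A ρ x ^ 2 = qW A ρ x := Real.sq_sqrt (qW_nonneg hρ x)

lemma qW_zero (A : Finset Ω) (ρ : Ω → ℝ) : qW A ρ 0 = 0 := by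
  unfold qW
  exact Finset.sum_eq_zero fun ω _ => by simp

lemma nW_one (A : Finset Ω) (x : Ω → ℂ) : nW A (fun _ => 1) x = nA A x := by
  unfold nW qW nA
  congr 1
  exact Finset.sum_congr rfl fun ω _ => one_mul _

/-- static signed bound for letters of bounded height, with additive slack -/
def StatI (A : Finset Ω) (ρ : Ω → ℝ) (H δ : ℝ) (A' : Finset Ω') (ρ' : Ω' → ℝ) (H' δ' : ℝ) (n : ℕ)
    (T : ℕ → (Ω → ℂ) →ₗ[ℝ] (Ω' → ℂ) →ₗ[ℝ] ℂ) (N : ℝ) : Prop :=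
  ∀ ε : ℕ → ℝ, (∀ k, |ε k| = 1) → ∀ (u : Ω → ℂ) (v : Ω' → ℂ), (∀ ω ∈ A, ‖u ω‖ ≤ H) →
    (∀ ω ∈ A', ‖v ω‖ ≤ H') →
    ‖∑ k ∈ range n, ((ε k : ℝ) : ℂ) * T k u v‖ ≤ N * (nW A ρ u + δ) * (nW A' ρ' v + δ')

/-- average over signs -/
lemma qW_signs {ι : Type*} [Fintype ι] [DecidableEq ι] (A : Finset Ω) (ρ : Ω → ℝ)
    (d : ι → Ω → ℂ) :
    ∑ s : ι → Bool, qW A ρ (∑ i, sg (s i) • d i) = 2 ^ Fintype.card ι * ∑ i, qW A ρ (d i) := by
  unfold qW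
  rw [Finset.sum_comm, Finset.sum_comm (s := (Finset.univ : Finset ι)), Finset.mul_sum]
  refine Finset.sum_congr rfl fun ω _ => ?_
  have h := sum_norm_sq (fun i => d i ω)
  rw [← Finset.mul_sum, ← Finset.mul_sum, mul_left_comm, ← h]
  congr 1
  refine Finset.sum_congr rfl fun s _ => ?_
  rw [Finset.sum_apply]
  rfl

lemma vecF {ι : Type*} [Fintype ι] [DecidableEq ι] (a : ι) (d : ι → Ω → ℂ) :
    ∑ s : ι → Bool, sg (s a) • ∑ i, sg (s i) • d i = (2 : ℝ) ^ Fintype.card ι • d a := by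
  have h1 : ∀ s : ι → Bool, sg (s a) • ∑ i, sg (s i) • d i =
      ∑ i, (sg (s a) * sg (s i)) • d i := by
    intro s
    rw [Finset.smul_sum]
    exact Finset.sum_congr rfl fun i _ => smul_smul _ _ _
  simp_rw [h1]
  rw [Finset.sum_comm]
  simp_rw [← Finset.sum_smul, sum_sg]
  rw [Finset.sum_eq_single a]
  · simp
  · intro i _ hi
    rw [if_neg (Ne.symm hi), zero_smul]
  · intro h
    exact absurd (Finset.mem_univ a) h

/-- **two independent families of signs**, letters with heights -/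
theorem sign2I {ν ι κ : Type*} [Fintype ι] [DecidableEq ι] [Fintype κ] [DecidableEq κ]
    (S : Finset ν) (T : ν → (Ω → ℂ) →ₗ[ℝ] (Ω' → ℂ) →ₗ[ℝ] ℂ) {A : Finset Ω} {A' : Finset Ω'}
    {ρ : Ω → ℝ} {ρ' : Ω' → ℝ} (hρ : ∀ ω, 0 ≤ ρ ω) (hρ' : ∀ ω, 0 ≤ ρ' ω)
    {N δ δ' H H' : ℝ} (hN : 0 ≤ N) (hδ : 0 ≤ δ) (hδ' : 0 ≤ δ')
    (h : ∀ ε : ν → ℝ, (∀ k, |ε k| = 1) → ∀ (u : Ω → ℂ) (v : Ω' → ℂ), (∀ ω ∈ A, ‖u ω‖ ≤ H) →
      (∀ ω ∈ A', ‖v ω‖ ≤ H') →
      ‖∑ k ∈ S, ((ε k : ℝ) : ℂ) * T k u v‖ ≤ N * (nW A ρ u + δ) * (nW A' ρ' v + δ'))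
    (α : ν → ι) (β : ν → κ) (d : ι → Ω → ℂ) (d' : κ → Ω' → ℂ) {V V' : ℝ} (hV : 0 ≤ V) (hV' : 0 ≤ V')
    (h2 : ∑ i, qW A ρ (d i) ≤ V ^ 2) (h2' : ∑ j, qW A' ρ' (d' j) ≤ V' ^ 2)
    (hd : ∀ ω ∈ A, ∑ i, ‖d i ω‖ ≤ H) (hd' : ∀ ω ∈ A', ∑ i, ‖d' i ω‖ ≤ H') :
    ‖∑ k ∈ S, T k (d (α k)) (d' (β k))‖ ≤ N * (V + δ) * (V' + δ') := by
  set CA : ℝ := 2 ^ Fintype.card ι with hA
  set CB : ℝ := 2 ^ Fintype.card κ with hB
  have hA0 : 0 < CA := by positivity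
  have hB0 : 0 < CB := by positivity
  set U : (ι → Bool) → Ω → ℂ := fun s => ∑ i, sg (s i) • d i with hU
  set W : (κ → Bool) → Ω' → ℂ := fun s => ∑ j, sg (s j) • d' j with hW
  have key : ∀ k, ∑ s : ι → Bool, ∑ s' : κ → Bool,
      ((sg (s (α k)) * sg (s' (β k)) : ℝ) : ℂ) * T k (U s) (W s') =
      ((CA * CB : ℝ) : ℂ) * T k (d (α k)) (d' (β k)) := by
    intro k
    have e1 : T k (∑ s : ι → Bool, sg (s (α k)) • U s) (∑ s' : κ → Bool, sg (s' (β k)) • W s') =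
        ∑ s : ι → Bool, ∑ s' : κ → Bool,
          ((sg (s (α k)) * sg (s' (β k)) : ℝ) : ℂ) * T k (U s) (W s') := by
      rw [map_sum (T k) (fun s : ι → Bool => sg (s (α k)) • U s) univ, LinearMap.sum_apply]
      refine Finset.sum_congr rfl fun s _ => ?_
      rw [map_sum]
      refine Finset.sum_congr rfl fun s' _ => ?_
      rw [map_smul, map_smul, LinearMap.smul_apply, Complex.real_smul, Complex.real_smul]
      push_cast
      ring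
    rw [← e1, vecF (α k) d, vecF (β k) d', ← hA, ← hB, map_smul, map_smul, LinearMap.smul_apply,
      Complex.real_smul, Complex.real_smul]
    push_cast
    ring
  have e2 : ((CA * CB : ℝ) : ℂ) * ∑ k ∈ S, T k (d (α k)) (d' (β k)) =
      ∑ s : ι → Bool, ∑ s' : κ → Bool, ∑ k ∈ S,
        ((sg (s (α k)) * sg (s' (β k)) : ℝ) : ℂ) * T k (U s) (W s') := by
    rw [Finset.mul_sum]
    calc ∑ k ∈ S, ((CA * CB : ℝ) : ℂ) * T k (d (α k)) (d' (β k))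
        = ∑ k ∈ S, ∑ s : ι → Bool, ∑ s' : κ → Bool,
          ((sg (s (α k)) * sg (s' (β k)) : ℝ) : ℂ) * T k (U s) (W s') :=
          Finset.sum_congr rfl fun k _ => (key k).symm
      _ = ∑ s : ι → Bool, ∑ k ∈ S, ∑ s' : κ → Bool,
          ((sg (s (α k)) * sg (s' (β k)) : ℝ) : ℂ) * T k (U s) (W s') := Finset.sum_comm
      _ = _ := Finset.sum_congr rfl fun s _ => Finset.sum_comm
  have hUh : ∀ s, ∀ ω ∈ A, ‖U s ω‖ ≤ H := by
    intro s ω hω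
    refine le_trans ?_ (hd ω hω)
    simp only [hU, Finset.sum_apply]
    refine (norm_sum_le _ _).trans (Finset.sum_le_sum fun i _ => ?_)
    rw [Pi.smul_apply, norm_smul, Real.norm_eq_abs, abs_sg, one_mul]
  have hWh : ∀ s, ∀ ω ∈ A', ‖W s ω‖ ≤ H' := by
    intro s ω hω
    refine le_trans ?_ (hd' ω hω)
    simp only [hW, Finset.sum_apply]
    refine (norm_sum_le _ _).trans (Finset.sum_le_sum fun i _ => ?_)
    rw [Pi.smul_apply, norm_smul, Real.norm_eq_abs, abs_sg, one_mul]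
  have hU2 : ∑ s, (nW A ρ (U s) + δ) ≤ CA * (V + δ) := by
    have h1 : ∑ s, nW A ρ (U s) ≤ CA * V := by
      refine sum_le (n := fun s => nW A ρ (U s)) hV ?_
      simp only [nW_sq hρ]
      rw [qW_signs]
      exact mul_le_mul_of_nonneg_left h2 hA0.le
    rw [Finset.sum_add_distrib, Finset.sum_const, Finset.card_univ, Fintype.card_fun,
      Fintype.card_bool, nsmul_eq_mul]
    push_cast
    rw [← hA]
    linarith
  have hW2 : ∑ s, (nW A' ρ' (W s) + δ') ≤ CB * (V' + δ') := by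
    have h1 : ∑ s, nW A' ρ' (W s) ≤ CB * V' := by
      refine sum_le (n := fun s => nW A' ρ' (W s)) hV' ?_
      simp only [nW_sq hρ']
      rw [qW_signs]
      exact mul_le_mul_of_nonneg_left h2' hB0.le
    rw [Finset.sum_add_distrib, Finset.sum_const, Finset.card_univ, Fintype.card_fun,
      Fintype.card_bool, nsmul_eq_mul]
    push_cast
    rw [← hB]
    linarith
  have h3 : CA * CB * ‖∑ k ∈ S, T k (d (α k)) (d' (β k))‖ ≤
      N * (CA * (V + δ)) * (CB * (V' + δ')) := by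
    have e : ‖((CA * CB : ℝ) : ℂ) * ∑ k ∈ S, T k (d (α k)) (d' (β k))‖ =
        CA * CB * ‖∑ k ∈ S, T k (d (α k)) (d' (β k))‖ := by
      rw [norm_mul, Complex.norm_real, Real.norm_of_nonneg (by positivity)]
    rw [← e, e2]
    calc ‖∑ s : ι → Bool, ∑ s' : κ → Bool, ∑ k ∈ S,
          ((sg (s (α k)) * sg (s' (β k)) : ℝ) : ℂ) * T k (U s) (W s')‖
        ≤ ∑ s : ι → Bool, ∑ s' : κ → Bool, N * (nW A ρ (U s) + δ) * (nW A' ρ' (W s') + δ') := by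
          refine (norm_sum_le _ _).trans (Finset.sum_le_sum fun s _ => ?_)
          refine (norm_sum_le _ _).trans (Finset.sum_le_sum fun s' _ => ?_)
          exact h (fun k => sg (s (α k)) * sg (s' (β k)))
            (fun k => by rw [abs_mul, abs_sg, abs_sg, one_mul]) (U s) (W s') (hUh s) (hWh s')
      _ = N * (∑ s, (nW A ρ (U s) + δ)) * (∑ s', (nW A' ρ' (W s') + δ')) := by
          rw [mul_assoc, Finset.sum_mul_sum, Finset.mul_sum]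
          refine Finset.sum_congr rfl fun s _ => ?_
          rw [Finset.mul_sum]
          refine Finset.sum_congr rfl fun s' _ => ?_
          ring
      _ ≤ N * (CA * (V + δ)) * (CB * (V' + δ')) := by
          have h7 : N * (∑ s, (nW A ρ (U s) + δ)) ≤ N * (CA * (V + δ)) :=
            mul_le_mul_of_nonneg_left hU2 hN
          exact mul_le_mul h7 hW2 (Finset.sum_nonneg fun s _ =>
            add_nonneg (nW_nonneg _ _ _) hδ') (by positivity)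
  have h8 : CA * CB * ‖∑ k ∈ S, T k (d (α k)) (d' (β k))‖ ≤
      CA * CB * (N * (V + δ) * (V' + δ')) := h3.trans (le_of_eq (by ring))
  exact le_of_mul_le_mul_left h8 (by positivity)

/-! ### dyadic expansion along the chain, functions -/

/-- the increment of level `b` on the block `g` -/
def incF (x : ℕ → Ω → ℂ) (b g : ℕ) : Ω → ℂ := x (cc b g) - x (cc (b + 1) (g / 2))

lemma incF_sq {A : Finset Ω} {ρ : Ω → ℝ} (hρ : ∀ ω, 0 ≤ ρ ω) (x : ℕ → Ω → ℂ) (D : ℕ → ℝ)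
    (hx : ∀ k l, k ≤ l → qW A ρ (x k - x l) ≤ D l - D k) (b g : ℕ) :
    qW A ρ (incF x b g) ≤ D (cc b (g + 1)) - D (cc b g) := by
  have hD : ∀ k l, k ≤ l → D k ≤ D l := fun k l h => by
    have := hx k l h
    have h0 := qW_nonneg (A := A) hρ (x k - x l)
    linarith
  unfold incF
  rw [cc_even]
  rcases Nat.even_or_odd' g with ⟨h, rfl | rfl⟩
  · have e : 2 * h / 2 = h := by omega
    rw [e]
    exact hx _ _ (cc_mono b (by omega))
  · have e : (2 * h + 1) / 2 = h := by omega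
    rw [e, sub_self, qW_zero]
    have := hD _ _ (cc_mono b (show 2 * h + 1 ≤ 2 * h + 1 + 1 by omega))
    linarith

/-- **square sum of one dyadic level** -/
theorem level_sumF {A : Finset Ω} {ρ : Ω → ℝ} (hρ : ∀ ω, 0 ≤ ρ ω) (x : ℕ → Ω → ℂ) (D : ℕ → ℝ) {Q : ℝ}
    (hx : ∀ k l, k ≤ l → qW A ρ (x k - x l) ≤ D l - D k) (hQ : ∀ k, D k - D 0 ≤ Q) (b m : ℕ) :
    ∑ g ∈ range m, qW A ρ (incF x b g) ≤ Q := by
  refine (Finset.sum_le_sum fun g _ => incF_sq hρ x D hx b g).trans ?_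
  rw [Finset.sum_range_sub (fun g => D (cc b g)) m]
  have h1 := hx 0 (cc b 0) (Nat.zero_le _)
  have h0 := qW_nonneg (A := A) hρ (x 0 - x (cc b 0))
  have h2 := hQ (cc b m)
  linarith

/-- the dyadic expansion along the chain -/
lemma expandF (x : ℕ → Ω → ℂ) (a k : ℕ) (hk : k < 2 ^ a) :
    x k = ∑ b ∈ range a, incF x b (k / 2 ^ b) + x (2 ^ a - 1) := by
  have h1 : ∀ b, incF x b (k / 2 ^ b) = x (cc b (k / 2 ^ b)) - x (cc (b + 1) (k / 2 ^ (b + 1))) := by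
    intro b
    unfold incF
    rw [Nat.div_div_eq_div_mul, pow_succ]
  simp_rw [h1]
  rw [Finset.sum_range_sub' (fun b => x (cc b (k / 2 ^ b))) a]
  have h0 : cc 0 (k / 2 ^ 0) = k := by
    unfold cc
    simp
  have ha : cc a (k / 2 ^ a) = 2 ^ a - 1 := by
    unfold cc
    rw [Nat.div_eq_of_lt hk]
    simp
  rw [h0, ha]
  abel

/-- the letter of level `b` (`b = a`: the static end letter) -/
def pcF (x : ℕ → Ω → ℂ) (a b g : ℕ) : Ω → ℂ :=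
  if b < a then incF x b g else x (2 ^ a - 1)

/-- its price -/
noncomputable def vvF (A : Finset Ω) (ρ : Ω → ℝ) (x : ℕ → Ω → ℂ) (a : ℕ) (Q : ℝ) (b : ℕ) : ℝ :=
  if b < a then √Q else nW A ρ (x (2 ^ a - 1))

lemma vvF_nonneg (A : Finset Ω) (ρ : Ω → ℝ) (x : ℕ → Ω → ℂ) (a : ℕ) (Q : ℝ) (b : ℕ) :
    0 ≤ vvF A ρ x a Q b := by
  unfold vvF
  split_ifs
  · exact Real.sqrt_nonneg _
  · exact nW_nonneg _ _ _

lemma vvF_sum (A : Finset Ω) (ρ : Ω → ℝ) (x : ℕ → Ω → ℂ) (a : ℕ) (Q δ : ℝ) :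
    ∑ b ∈ range (a + 1), (vvF A ρ x a Q b + δ) =
      a * √Q + nW A ρ (x (2 ^ a - 1)) + (a + 1) * δ := by
  rw [Finset.sum_add_distrib, Finset.sum_const, Finset.card_range, nsmul_eq_mul,
    Finset.sum_range_succ]
  have h1 : ∑ b ∈ range a, vvF A ρ x a Q b = ∑ _b ∈ range a, √Q := by
    refine Finset.sum_congr rfl fun b hb => ?_
    unfold vvF
    rw [if_pos (Finset.mem_range.1 hb)]
  rw [h1, Finset.sum_const, Finset.card_range, nsmul_eq_mul]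
  unfold vvF
  rw [if_neg (lt_irrefl a)]
  push_cast
  ring

lemma pcF_sq {A : Finset Ω} {ρ : Ω → ℝ} (hρ : ∀ ω, 0 ≤ ρ ω) (x : ℕ → Ω → ℂ) (D : ℕ → ℝ) {Q : ℝ}
    (hx : ∀ k l, k ≤ l → qW A ρ (x k - x l) ≤ D l - D k) (hQ : ∀ k, D k - D 0 ≤ Q) (a b : ℕ)
    (hb : b ∈ range (a + 1)) :
    ∑ g : Fin (2 ^ (a - b)), qW A ρ (pcF x a b g) ≤ vvF A ρ x a Q b ^ 2 := by
  have hQ0 : 0 ≤ Q := by
    have := hQ 0
    linarith
  by_cases h : b < a
  · unfold pcF vvF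
    simp only [if_pos h]
    rw [Real.sq_sqrt hQ0, Fin.sum_univ_eq_sum_range (fun g => qW A ρ (incF x b g)) (2 ^ (a - b))]
    exact level_sumF hρ x D hx hQ b _
  · have hba : b = a := by
      have := Finset.mem_range.1 hb
      omega
    subst hba
    unfold pcF vvF
    simp [nW_sq hρ]

lemma pcF_expand (x : ℕ → Ω → ℂ) (a k : ℕ) (hk : k < 2 ^ a) :
    x k = ∑ b ∈ range (a + 1), pcF x a b (k / 2 ^ b) := by
  rw [Finset.sum_range_succ]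
  have h1 : ∑ b ∈ range a, pcF x a b (k / 2 ^ b) = ∑ b ∈ range a, incF x b (k / 2 ^ b) := by
    refine Finset.sum_congr rfl fun b hb => ?_
    unfold pcF
    rw [if_pos (Finset.mem_range.1 hb)]
  rw [h1]
  unfold pcF
  rw [if_neg (lt_irrefl a)]
  exact expandF x a k hk

/-- heights of the signed sums of one level -/
lemma pcF_h {A : Finset Ω} (x : ℕ → Ω → ℂ) {h : ℝ} (hh : ∀ k, ∀ ω ∈ A, ‖x k ω‖ ≤ h)
    (a b : ℕ) {ω : Ω} (hω : ω ∈ A) :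
    ∑ g : Fin (2 ^ (a - b)), ‖pcF x a b g ω‖ ≤ 2 ^ (a + 1) * h := by
  have h0 : 0 ≤ h := (norm_nonneg _).trans (hh 0 ω hω)
  have h1 : ∀ g : Fin (2 ^ (a - b)), ‖pcF x a b g ω‖ ≤ 2 * h := by
    intro g
    unfold pcF
    split_ifs
    · unfold incF
      rw [Pi.sub_apply]
      refine (norm_sub_le _ _).trans ?_
      have h2 := hh (cc b g) ω hω
      have h3 := hh (cc (b + 1) (g / 2)) ω hω
      linarith
    · have := hh (2 ^ a - 1) ω hω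
      linarith
  refine (Finset.sum_le_sum fun g _ => h1 g).trans ?_
  rw [Finset.sum_const, Finset.card_univ, Fintype.card_fin, nsmul_eq_mul]
  push_cast
  have h4 : (2 : ℝ) ^ (a - b) ≤ 2 ^ a := pow_le_pow_right₀ (by norm_num) (Nat.sub_le _ _)
  calc (2 : ℝ) ^ (a - b) * (2 * h) ≤ 2 ^ a * (2 * h) :=
        mul_le_mul_of_nonneg_right h4 (by positivity)
    _ = _ := by rw [pow_succ]; ring

/-- **MOVE for letters with heights, additive slack.** -/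
theorem move_I {A : Finset Ω} {A' : Finset Ω'} {ρ : Ω → ℝ} {ρ' : Ω' → ℝ} (hρ : ∀ ω, 0 ≤ ρ ω)
    (hρ' : ∀ ω, 0 ≤ ρ' ω) {n a : ℕ} (hn : n ≤ 2 ^ a)
    {T : ℕ → (Ω → ℂ) →ₗ[ℝ] (Ω' → ℂ) →ₗ[ℝ] ℂ} {N δ δ' H H' h h' : ℝ} (hN : 0 ≤ N) (hδ : 0 ≤ δ)
    (hδ' : 0 ≤ δ') (hT : StatI A ρ H δ A' ρ' H' δ' n T N)
    (x : ℕ → Ω → ℂ) (y : ℕ → Ω' → ℂ) (D D' : ℕ → ℝ) {Q Q' : ℝ}
    (hx : ∀ k l, k ≤ l → qW A ρ (x k - x l) ≤ D l - D k) (hQ : ∀ k, D k - D 0 ≤ Q)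
    (hy : ∀ k l, k ≤ l → qW A' ρ' (y k - y l) ≤ D' l - D' k) (hQ' : ∀ k, D' k - D' 0 ≤ Q')
    (hh : ∀ k, ∀ ω ∈ A, ‖x k ω‖ ≤ h) (hh' : ∀ k, ∀ ω ∈ A', ‖y k ω‖ ≤ h')
    (hH : 2 ^ (a + 1) * h ≤ H) (hH' : 2 ^ (a + 1) * h' ≤ H') :
    ‖∑ k ∈ range n, T k (x k) (y k)‖ ≤
      N * (a * √Q + nW A ρ (x (2 ^ a - 1)) + (a + 1) * δ) *
        (a * √Q' + nW A' ρ' (y (2 ^ a - 1)) + (a + 1) * δ') := by
  have h1 : ∀ k ∈ range n, T k (x k) (y k) = ∑ b ∈ range (a + 1), ∑ c ∈ range (a + 1),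
      T k (pcF x a b (k / 2 ^ b)) (pcF y a c (k / 2 ^ c)) := by
    intro k hk
    have hk' : k < 2 ^ a := lt_of_lt_of_le (Finset.mem_range.1 hk) hn
    conv_lhs => rw [pcF_expand x a k hk', pcF_expand y a k hk']
    rw [map_sum (T k) (fun b => pcF x a b (k / 2 ^ b)) (range (a + 1)), LinearMap.sum_apply]
    refine Finset.sum_congr rfl fun b _ => ?_
    rw [map_sum]
  rw [Finset.sum_congr rfl h1, Finset.sum_comm]
  have h2 : ∀ b ∈ range (a + 1), ∀ c ∈ range (a + 1),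
      ‖∑ k ∈ range n, T k (pcF x a b (k / 2 ^ b)) (pcF y a c (k / 2 ^ c))‖ ≤
        N * (vvF A ρ x a Q b + δ) * (vvF A' ρ' y a Q' c + δ') := by
    intro b hb c hc
    have hb' : b ≤ a := Nat.lt_succ_iff.1 (Finset.mem_range.1 hb)
    have hc' : c ≤ a := Nat.lt_succ_iff.1 (Finset.mem_range.1 hc)
    have hlt : ∀ {k d : ℕ}, k < 2 ^ a → d ≤ a → k / 2 ^ d < 2 ^ (a - d) := by
      intro k d hk hd
      rw [Nat.div_lt_iff_lt_mul (by positivity), pow_sub_mul_pow 2 hd]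
      exact hk
    have h3 := sign2I (range n) T hρ hρ' hN hδ hδ' hT
      (fun k => if h : k < 2 ^ a then (⟨k / 2 ^ b, hlt h hb'⟩ : Fin (2 ^ (a - b))) else
        ⟨0, by positivity⟩)
      (fun k => if h : k < 2 ^ a then (⟨k / 2 ^ c, hlt h hc'⟩ : Fin (2 ^ (a - c))) else
        ⟨0, by positivity⟩)
      (fun g => pcF x a b g) (fun g => pcF y a c g) (vvF_nonneg A ρ x a Q b)
      (vvF_nonneg A' ρ' y a Q' c)
      (pcF_sq hρ x D hx hQ a b hb) (pcF_sq hρ' y D' hy hQ' a c hc)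
      (fun ω hω => (pcF_h x hh a b hω).trans hH) (fun ω hω => (pcF_h y hh' a c hω).trans hH')
    refine le_trans (le_of_eq ?_) h3
    congr 1
    refine Finset.sum_congr rfl fun k hk => ?_
    have hk' : k < 2 ^ a := lt_of_lt_of_le (Finset.mem_range.1 hk) hn
    simp only [dif_pos hk']
  calc ‖∑ b ∈ range (a + 1), ∑ k ∈ range n, ∑ c ∈ range (a + 1),
        T k (pcF x a b (k / 2 ^ b)) (pcF y a c (k / 2 ^ c))‖
      ≤ ∑ b ∈ range (a + 1), ∑ c ∈ range (a + 1),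
          N * (vvF A ρ x a Q b + δ) * (vvF A' ρ' y a Q' c + δ') := by
        refine (norm_sum_le _ _).trans (Finset.sum_le_sum fun b hb => ?_)
        rw [Finset.sum_comm]
        exact (norm_sum_le _ _).trans (Finset.sum_le_sum fun c hc => h2 b hb c hc)
    _ = N * (∑ b ∈ range (a + 1), (vvF A ρ x a Q b + δ)) *
          (∑ c ∈ range (a + 1), (vvF A' ρ' y a Q' c + δ')) := by
        rw [mul_assoc, Finset.sum_mul_sum, Finset.mul_sum]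
        refine Finset.sum_congr rfl fun b _ => ?_
        rw [Finset.mul_sum]
        refine Finset.sum_congr rfl fun c _ => ?_
        ring
    _ = _ := by rw [vvF_sum, vvF_sum]

/-- one letter moves, the other one is static -/
theorem move_I_one {A : Finset Ω} {A' : Finset Ω'} {ρ : Ω → ℝ} {ρ' : Ω' → ℝ} (hρ : ∀ ω, 0 ≤ ρ ω)
    (hρ' : ∀ ω, 0 ≤ ρ' ω) {n a : ℕ} (hn : n ≤ 2 ^ a)
    {T : ℕ → (Ω → ℂ) →ₗ[ℝ] (Ω' → ℂ) →ₗ[ℝ] ℂ} {N δ δ' H H' h h' : ℝ} (hN : 0 ≤ N) (hδ : 0 ≤ δ)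
    (hδ' : 0 ≤ δ') (hT : StatI A ρ H δ A' ρ' H' δ' n T N)
    (x : ℕ → Ω → ℂ) (y : Ω' → ℂ) (D : ℕ → ℝ) {Q : ℝ}
    (hx : ∀ k l, k ≤ l → qW A ρ (x k - x l) ≤ D l - D k) (hQ : ∀ k, D k - D 0 ≤ Q)
    (hh : ∀ k, ∀ ω ∈ A, ‖x k ω‖ ≤ h) (hh' : ∀ ω ∈ A', ‖y ω‖ ≤ h')
    (hH : 2 ^ (a + 1) * h ≤ H) (hH' : 2 ^ (a + 1) * h' ≤ H') :
    ‖∑ k ∈ range n, T k (x k) y‖ ≤
      N * (a * √Q + nW A ρ (x (2 ^ a - 1)) + (a + 1) * δ) *
        (nW A' ρ' y + (a + 1) * δ') := by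
  have h := move_I hρ hρ' hn hN hδ hδ' hT x (fun _ => y) D (fun _ => 0) (Q := Q) (Q' := 0) hx hQ
    (fun k l _ => by rw [sub_self, qW_zero]; simp) (fun k => by simp) hh (fun _ => hh') hH hH'
  simpa using h

end fn

end Crest.Agent.R079.GaMx571
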