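import Crest.Agent.R079.GaQ_571
import Crest.Agent.R079.B0N_253
import Crest.Agent.R079.GaK_256

/-! R079, Step I, (G) words (helper253): NUMBERS of the (G) totals (on top of `GaQ_571`).

Fixed constants: `A0 = 10 ^ 6`, letters truncated at `t ^ (-h) * 3`, `h0 = t ^ (-h0e)`, good boxes
`s = 128 t ^ gm + 24 t ^ fm + 128 / (3 t ^ (-h))`, `ε = t ^ (2 σ)`, `dl = 1`.

* `num1` : good words;  `num2` : killer words, `tauB_le`;  `num3` : rest words;  `num4` : tall parts. -/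

set_option autoImplicit false

namespace Crest.Agent.R079.GaNx253

open Crest.Agent.R079.GnNx263 (nn nn_ge nn_le)
open Crest.Agent.R079.GaQx571 Crest.Agent.R079.GaKx256 Crest.Agent.R079.B0Nx253
open Crest.Agent.R079.GaBtx251 (tauB)
open Crest.Agent.R079.GaLx446 (eRst)
open Crest.Agent.R079.Growth

/-- the size of the exceptional letter -/
noncomputable def sG (t gm fm h : ℝ) : ℝ :=
  128 * t ^ gm + 24 * t ^ fm + 128 * (1 / (t ^ (-h) * 3))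

lemma sG_nonneg {t gm fm h : ℝ} (ht : 0 < t) : 0 ≤ sG t gm fm h := by
  unfold sG
  have := pw_pos ht gm
  have := pw_pos ht fm
  have := pw_pos ht (-h)
  positivity

lemma sG_le {t gm fm h σ : ℝ} (ht : 0 < t) (ht1 : t ≤ 1) (h1 : σ ≤ gm) (h2 : σ ≤ fm)
    (h3 : σ ≤ h) : sG t gm fm h ≤ 195 * t ^ σ := by
  unfold sG
  have a1 := pw_le ht ht1 h1
  have a2 := pw_le ht ht1 h2
  have a3 := pw_le ht ht1 h3
  have e1 : 128 * (1 / (t ^ (-h) * 3)) = 128 / 3 * t ^ h := by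
    rw [Real.rpow_neg ht.le]
    have := (pw_pos ht h).ne'
    field_simp
  rw [e1]
  have a4 := pw_pos ht σ
  linarith

lemma sqrt_pw {t σ : ℝ} (ht : 0 < t) : √(t ^ (2 * σ)) = t ^ σ := by
  rw [Real.sqrt_eq_rpow, ← Real.rpow_mul ht.le]
  congr 1
  ring

/-- threshold of the good boxes -/
noncomputable def tG (t gm fm h σ : ℝ) : ℝ := 81 * sG t gm fm h + 170 * 1 * √(t ^ (2 * σ))

lemma tG_ge {t gm fm h σ : ℝ} (ht : 0 < t) : t ^ σ ≤ tG t gm fm h σ := by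
  unfold tG
  rw [sqrt_pw ht]
  have := sG_nonneg (gm := gm) (fm := fm) (h := h) ht
  have := pw_pos ht σ
  linarith

lemma tG_le {t gm fm h σ : ℝ} (ht : 0 < t) (ht1 : t ≤ 1) (h1 : σ ≤ gm) (h2 : σ ≤ fm)
    (h3 : σ ≤ h) : tG t gm fm h σ ≤ 10 ^ 6 * t ^ σ := by
  unfold tG
  rw [sqrt_pw ht]
  have := sG_le ht ht1 h1 h2 h3
  have := pw_pos ht σ
  linarith

/-- **GOOD words** -/
theorem num1 {K0 σ la xx ff c1 kx h h0e nE gG w gm fm : ℝ} (hK0 : 0 ≤ K0) (hσ : 0 ≤ σ)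
    (hgm : σ ≤ gm) (hfm : σ ≤ fm) (hσh : σ ≤ h) (hxx : 0 ≤ xx) (hff : 0 ≤ ff)
    (hc1 : 0 ≤ c1) (hkx : 0 ≤ kx) (hh0 : 0 ≤ h0e) (hnE : 0 ≤ nE) (hw : 0 < w)
    (hg : gG + la + 3 * w ≤ σ + kx / 2) :
    ∃ K : ℝ, 0 ≤ K ∧ ∀ t, 0 < t → t ≤ 1 → ∀ n : ℕ, n ≠ 0 → (n : ℝ) ≤ 2 * t ^ (-nE) →
      ∀ (J : ℕ × ℤ) (La Ht Hf : ℝ), 0 ≤ La → La ≤ 10 ^ 6 * t ^ (-la) → 0 ≤ Ht →
      Ht ≤ 10 ^ 6 * t ^ (-xx) → 0 ≤ Hf → Hf ≤ 10 ^ 6 * t ^ (-ff) →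
      9 * (n1G K0 J (t ^ (-h) * 3) 1 (sG t gm fm h) (t ^ (2 * σ)) Hf Ht
        (2 ^ (bn n + 1) * t ^ (-h0e)) (2 ^ (bn n + 1) * (t ^ (-h) * 3))
        (len J * t ^ c1 / t ^ (-kx)) (len J * t ^ c1) * (La / √(t ^ (-kx)))) *
        (((bn n : ℕ) : ℝ) + 1) ^ 2 ≤ K * t ^ gG := by
  have hh0' : 0 ≤ h := hσ.trans hσh
  obtain ⟨K, hK, hm⟩ := num_good (K0 := K0) (A := 10 ^ 6) (σ := σ) (la := la) (xx := xx) (ff := ff)
    (c1 := c1) (kx := kx) (hh := h + h0e + nE) (nE := nE) (gy := gG) (w := w) hK0 (by norm_num) hσ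
    hxx hff hc1 hkx (by positivity) hnE hw hg
  refine ⟨K, hK, ?_⟩
  intro t ht ht1 n hn hnn J La Ht Hf hLa0 hLa hHt0 hHt hHf0 hHf
  have P := pw_pos ht
  have hn1 : (2 : ℝ) ^ (bn n + 1) ≤ 8 * t ^ (-nE) := (pow_bn hn).trans (by linarith)
  have h0 : (0 : ℝ) ≤ 2 ^ (bn n + 1) := by positivity
  have b1 : t ^ (-h) * 3 ≤ 10 ^ 6 * t ^ (-(h + h0e + nE)) := by
    have := pw_le ht ht1 (s := -h) (s' := -(h + h0e + nE)) (by linarith)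
    have := P (-(h + h0e + nE))
    linarith
  have b2 : 2 ^ (bn n + 1) * t ^ (-h0e) ≤ 10 ^ 6 * t ^ (-(h + h0e + nE)) := by
    have h1 := mul_le_mul_of_nonneg_right hn1 (P (-h0e)).le
    have h2 : 8 * t ^ (-nE) * t ^ (-h0e) = 8 * t ^ (-nE + -h0e) := by rw [mul_assoc, pw_add ht]
    have h3 := pw_le ht ht1 (s := -nE + -h0e) (s' := -(h + h0e + nE)) (by linarith)
    have := P (-(h + h0e + nE))
    linarith
  have b3 : 2 ^ (bn n + 1) * (t ^ (-h) * 3) ≤ 10 ^ 6 * t ^ (-(h + h0e + nE)) := by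
    have h1 := mul_le_mul_of_nonneg_right hn1 (mul_nonneg (P (-h)).le (by norm_num : (0 : ℝ) ≤ 3))
    have h2 : 8 * t ^ (-nE) * (t ^ (-h) * 3) = 24 * t ^ (-nE + -h) := by rw [← pw_add ht]; ring
    have h3 := pw_le ht ht1 (s := -nE + -h) (s' := -(h + h0e + nE)) (by linarith)
    have := P (-(h + h0e + nE))
    linarith
  have main := hm t ht ht1 n hn hnn (tG t gm fm h σ) La Ht Hf (t ^ (-h) * 3)
    (2 ^ (bn n + 1) * t ^ (-h0e)) (2 ^ (bn n + 1) * (t ^ (-h) * 3)) (len J) (tG_ge ht)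
    (tG_le ht ht1 hgm hfm hσh) hLa0 hLa hHt0 hHt hHf0 hHf (mul_nonneg (P _).le (by norm_num)) b1
    (mul_nonneg h0 (P _).le) b2 (mul_nonneg h0 (mul_nonneg (P _).le (by norm_num))) b3
    (len_pos J)
  refine le_trans (le_of_eq ?_) main
  unfold n1G tG
  ring

/-- the operator norm of the killers -/
theorem tauB_le {xx ff h h0e tb Ar : ℝ} (kc : ℕ) (hAr : 0 ≤ Ar) (h1 : ff + xx + tb ≤ h0e)
    (h2 : ff + xx + tb ≤ h) (hxx : 0 ≤ xx) (hff : 0 ≤ ff) :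
    ∃ A : ℝ, 1 ≤ A ∧ ∀ t, 0 < t → t ≤ 1 → ∀ Ht Hf r0 : ℝ, 0 ≤ Ht → Ht ≤ 10 ^ 6 * t ^ (-xx) →
      0 ≤ Hf → Hf ≤ 10 ^ 6 * t ^ (-ff) → r0 ≤ Ar * t ^ tb →
      tauB kc r0 Ht Hf (10 ^ 6) (t ^ (-h0e)) (t ^ (-h) * 3) ≤ A * t ^ tb := by
  refine ⟨6 * 2 ^ kc * Ar + 384 * (10 ^ 6 * 10 ^ 6) * (10 ^ 6) ^ 2 +
    384 * 10 ^ 6 * (10 ^ 6) ^ 2 + 1, by
      have : 0 ≤ 6 * 2 ^ kc * Ar := by positivity
      linarith, ?_⟩
  intro t ht ht1 Ht Hf r0 hHt0 hHt hHf0 hHf hr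
  have P := pw_pos ht
  have a1 : Hf * Ht ≤ 10 ^ 6 * 10 ^ 6 * t ^ (-ff + -xx) := mul_A ht hHt0 (by norm_num) hHf hHt
  have a2 : √(Hf * Ht) ≤ 10 ^ 6 * t ^ (-(ff + xx)) :=
    (le_max_right 1 _).trans (gau_A ht ht1 (by norm_num) hxx hff hHt0 hHt hHf)
  unfold tauB
  have e1 : ∀ s : ℝ, (t ^ (-s))⁻¹ = t ^ s := fun s => by rw [← Real.rpow_neg ht.le, neg_neg]
  have b1 : 6 * 2 ^ kc * r0 ≤ 6 * 2 ^ kc * Ar * t ^ tb := by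
    have := mul_le_mul_of_nonneg_left hr (show (0 : ℝ) ≤ 6 * 2 ^ kc by positivity)
    linarith
  have b2 : 384 * (Hf * Ht) * (10 ^ 6) ^ 2 / t ^ (-h0e) ≤
      384 * (10 ^ 6 * 10 ^ 6) * (10 ^ 6) ^ 2 * t ^ tb := by
    rw [div_eq_mul_inv, e1]
    have c1 : Hf * Ht * t ^ h0e ≤ 10 ^ 6 * 10 ^ 6 * t ^ (-ff + -xx) * t ^ h0e :=
      mul_le_mul_of_nonneg_right a1 (P _).le
    have c2 : t ^ (-ff + -xx) * t ^ h0e ≤ t ^ tb := by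
      rw [pw_add ht]
      exact pw_le ht ht1 (by linarith)
    nlinarith [P tb]
  have b3 : 384 * √(Hf * Ht) * (10 ^ 6) ^ 2 / (t ^ (-h) * 3) ≤
      384 * 10 ^ 6 * (10 ^ 6) ^ 2 * t ^ tb := by
    rw [div_eq_mul_inv, mul_inv, e1]
    have c1 : √(Hf * Ht) * t ^ h ≤ 10 ^ 6 * t ^ (-(ff + xx)) * t ^ h :=
      mul_le_mul_of_nonneg_right a2 (P _).le
    have c2 : t ^ (-(ff + xx)) * t ^ h ≤ t ^ tb := by
      rw [pw_add ht]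
      exact pw_le ht ht1 (by linarith)
    have c3 : 0 ≤ √(Hf * Ht) * t ^ h := mul_nonneg (Real.sqrt_nonneg _) (P _).le
    nlinarith [P tb]
  have := P tb
  linarith

/-- **KILLER words** -/
theorem num2 {K0 la xx ff c1 h h0e tb gG w A Ct : ℝ} (hK0 : 0 ≤ K0) (hA : 1 ≤ A) (hCt : 0 ≤ Ct)
    (hxx : 0 ≤ xx) (hff : 0 ≤ ff) (hh : 0 ≤ h) (hh0 : 0 ≤ h0e) (htb : 0 ≤ tb)
    (hw : 0 < w) (hg : gG + la + 2 * c1 + w ≤ tb) :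
    ∃ K : ℝ, 0 ≤ K ∧ ∀ t, 0 < t → t ≤ 1 → ∀ La Ht Hf : ℝ, 0 ≤ La → La ≤ 10 ^ 6 * t ^ (-la) →
      0 ≤ Ht → Ht ≤ 10 ^ 6 * t ^ (-xx) → 0 ≤ Hf → Hf ≤ 10 ^ 6 * t ^ (-ff) →
      La * eKB K0 Ht Hf (t ^ (-h) * 3) (t ^ (-h0e)) (t ^ (-h) * 3) (A * t ^ tb) 1 (10 ^ 6) 1 *
        (2 * Ct / (t ^ c1) ^ 2) ≤ K * t ^ gG := by
  obtain ⟨K1, hK1, hm⟩ := num_Blog (A := 10 ^ 6) (xx := xx) (ff := ff) (hh := h + h0e) (tb := tb)
    (w := w) (by norm_num) hxx hff (by positivity) htb hw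
  refine ⟨10 ^ 6 * (K0 * K1 * (A * ((10 ^ 6 + 1) * (1 + 1)))) * (2 * Ct), by positivity, ?_⟩
  intro t ht ht1 La Ht Hf hLa0 hLa hHt0 hHt hHf0 hHf
  have P := pw_pos ht
  have b1 : t ^ (-h) * 3 ≤ 10 ^ 6 * t ^ (-(h + h0e)) := by
    have := pw_le ht ht1 (s := -h) (s' := -(h + h0e)) (by linarith)
    have := P (-(h + h0e))
    linarith
  have b2 : t ^ (-h0e) ≤ 10 ^ 6 * t ^ (-(h + h0e)) := by
    have := pw_le ht ht1 (s := -h0e) (s' := -(h + h0e)) (by linarith)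
    have := P (-(h + h0e))
    linarith
  have p3 : 0 ≤ t ^ (-h) * 3 := mul_nonneg (P _).le (by norm_num)
  have htau : t ^ tb ≤ A * t ^ tb := by nlinarith [P tb]
  have l1 := hm t ht ht1 (A * t ^ tb) Ht Hf (t ^ (-h) * 3) (t ^ (-h) * 3) (t ^ (-h0e)) htau hHt0 hHt
    hHf0 hHf p3 b1 p3 b1 (P _).le b2
  have l0 : 0 ≤ 1 + Real.log (1 + (max 1 (√(Hf * Ht)) * (t ^ (-h) * 3) + t ^ (-h0e)) ^ 2 *
        (2 * (max 1 (√(Hf * Ht)) * (t ^ (-h) * 3)) ^ 2) / (1 * (A * t ^ tb) ^ 2)) := by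
    have h0 : 0 ≤ (max 1 (√(Hf * Ht)) * (t ^ (-h) * 3) + t ^ (-h0e)) ^ 2 *
        (2 * (max 1 (√(Hf * Ht)) * (t ^ (-h) * 3)) ^ 2) / (1 * (A * t ^ tb) ^ 2) := by positivity
    have := Real.log_nonneg (show (1 : ℝ) ≤ 1 +
      (max 1 (√(Hf * Ht)) * (t ^ (-h) * 3) + t ^ (-h0e)) ^ 2 *
        (2 * (max 1 (√(Hf * Ht)) * (t ^ (-h) * 3)) ^ 2) / (1 * (A * t ^ tb) ^ 2) by linarith)
    linarith
  have e1 : eKB K0 Ht Hf (t ^ (-h) * 3) (t ^ (-h0e)) (t ^ (-h) * 3) (A * t ^ tb) 1 (10 ^ 6) 1 ≤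
      K0 * K1 * (A * ((10 ^ 6 + 1) * (1 + 1))) * t ^ (tb - w) := by
    unfold eKB
    rw [Real.sqrt_one]
    have h1 := mul_le_mul_of_nonneg_left l1 hK0
    have h2 : (0 : ℝ) ≤ A * t ^ tb * ((10 ^ 6 + 1) * (1 + 1)) := by
      have := P tb
      positivity
    refine (mul_le_mul_of_nonneg_right h1 h2).trans (le_of_eq ?_)
    have h3 : t ^ (tb - w) = t ^ (-w) * t ^ tb := by
      rw [pw_add ht]
      congr 1
      ring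
    rw [h3]
    ring
  have e0 : 0 ≤ eKB K0 Ht Hf (t ^ (-h) * 3) (t ^ (-h0e)) (t ^ (-h) * 3) (A * t ^ tb) 1 (10 ^ 6) 1 :=
    eKB_nonneg hK0 (mul_nonneg (by linarith) (P _).le) zero_le_one (by norm_num) zero_le_one
  have e2 : 2 * Ct / (t ^ c1) ^ 2 = 2 * Ct * t ^ (-(2 * c1)) := by
    rw [div_eq_mul_inv, Real.rpow_neg ht.le]
    congr 2
    rw [sq, pw_add ht]
    congr 1
    ring
  rw [e2]
  have h4 : La * eKB K0 Ht Hf (t ^ (-h) * 3) (t ^ (-h0e)) (t ^ (-h) * 3) (A * t ^ tb) 1 (10 ^ 6) 1 ≤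
      10 ^ 6 * (K0 * K1 * (A * ((10 ^ 6 + 1) * (1 + 1)))) * t ^ (-la + (tb - w)) :=
    mul_A ht e0 (by norm_num) hLa e1
  have h5 : La * eKB K0 Ht Hf (t ^ (-h) * 3) (t ^ (-h0e)) (t ^ (-h) * 3) (A * t ^ tb) 1 (10 ^ 6) 1 *
      (2 * Ct * t ^ (-(2 * c1))) ≤ 10 ^ 6 * (K0 * K1 * (A * ((10 ^ 6 + 1) * (1 + 1)))) * (2 * Ct) *
        t ^ (-la + (tb - w) + -(2 * c1)) :=
    mul_A ht (mul_nonneg (by linarith) (P _).le) (by positivity) h4 le_rfl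
  exact h5.trans (mul_le_mul_of_nonneg_left (pw_le ht ht1 (by linarith)) (by positivity))

/-- **REST words** -/
theorem num3 {K0 δ σ la xx ff c1 h nE gG w : ℝ} (hK0 : 0 ≤ K0) (hxx : 0 ≤ xx) (hff : 0 ≤ ff)
    (hh : 0 ≤ h) (hw : 0 < w) (hδ : 2 * σ + ff ≤ δ)
    (hg : gG + nE + la + c1 + 2 * w ≤ δ - 2 * σ - ff) :
    ∃ K : ℝ, 0 ≤ K ∧ ∀ t, 0 < t → t ≤ 1 → ∀ n : ℕ, (n : ℝ) ≤ 2 * t ^ (-nE) →
      ∀ La Ht Hf : ℝ, 0 ≤ La → La ≤ 10 ^ 6 * t ^ (-la) → 1 ≤ Ht → Ht ≤ 10 ^ 6 * t ^ (-xx) →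
      0 ≤ Hf → Hf ≤ 10 ^ 6 * t ^ (-ff) →
      n * (La * eRst K0 Ht Hf (t ^ δ) (t ^ (2 * σ)) 1 (t ^ (-h) * 3) (t ^ (-h) * 3) (t ^ (-h) * 3)
        (10 ^ 6) (10 ^ 6) (t ^ (δ - 2 * σ - ff)) (t ^ (δ - 2 * σ - ff))) / t ^ c1 ≤
        K * t ^ gG := by
  obtain ⟨K, hK, hm⟩ := num_R (K0 := K0) (A := 10 ^ 6) (δ := δ) (σ := σ) (la := la) (xx := xx)
    (ff := ff) (c1 := c1) (hh := h) (nE := nE) (gy := gG) (w := w) hK0 (by norm_num) hxx hff hh hw hδ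
    hg
  refine ⟨K, hK, ?_⟩
  intro t ht ht1 n hn La Ht Hf hLa0 hLa hHt1 hHt hHf0 hHf
  have P := pw_pos ht
  have b1 : t ^ (-h) * 3 ≤ 10 ^ 6 * t ^ (-h) := by
    have := P (-h)
    linarith
  have p3 : 0 ≤ t ^ (-h) * 3 := mul_nonneg (P _).le (by norm_num)
  have main := hm t ht ht1 n hn La Ht Hf (t ^ (-h) * 3) (t ^ (-h) * 3) (t ^ (-h) * 3) hLa0 hLa hHt1
    hHt hHf0 hHf p3 b1 p3 b1 p3 b1
  rw [div_le_iff₀ (P _)]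
  have e : K * t ^ gG * t ^ c1 = K * t ^ (gG + c1) := by rw [mul_assoc, pw_add ht]
  rw [e]
  exact main

/-- **TALL parts** -/
theorem num4 {Ku la xx ff c1 h gG w Ct : ℝ} (hKu : 0 ≤ Ku) (hCt : 0 ≤ Ct) (hxx : 0 ≤ xx)
    (hff : 0 ≤ ff) (hh : 0 ≤ h) (hw : 0 < w) (hg : gG + la + 2 * c1 + w ≤ h) :
    ∃ K : ℝ, 0 ≤ K ∧ ∀ t, 0 < t → t ≤ 1 → ∀ La Ht Hf : ℝ, 0 ≤ La → La ≤ 10 ^ 6 * t ^ (-la) →
      0 ≤ Ht → Ht ≤ 10 ^ 6 * t ^ (-xx) → 0 ≤ Hf → Hf ≤ 10 ^ 6 * t ^ (-ff) →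
      Ku * (1 + (Real.log (1 + Hf * Ht) + Real.log (t ^ (-h)))) * (La / t ^ (-h)) *
        (2 * Ct / (t ^ c1) ^ 2) ≤ K * t ^ gG := by
  set L1 := LK (10 ^ 6 * 10 ^ 6) (ff + xx) w with hL1
  set L2 := LK 1 h w with hL2
  have k1 : 0 ≤ L1 := LK_nonneg (by norm_num) (by positivity) hw
  have k2 : 0 ≤ L2 := LK_nonneg (by norm_num) hh hw
  refine ⟨Ku * (L1 + L2) * 10 ^ 6 * (2 * Ct), by positivity, ?_⟩
  intro t ht ht1 La Ht Hf hLa0 hLa hHt0 hHt hHf0 hHf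
  have P := pw_pos ht
  have a1 : Hf * Ht ≤ 10 ^ 6 * 10 ^ 6 * t ^ (-ff + -xx) := mul_A ht hHt0 (by norm_num) hHf hHt
  have l1 := one_log ht ht1 (A := 10 ^ 6 * 10 ^ 6) (c := ff + xx) (s := w) (E := Hf * Ht)
    (by norm_num) (by positivity) hw (mul_nonneg hHf0 hHt0) (by
      rw [show -(ff + xx) = -ff + -xx by ring]; exact a1)
  have l2 := one_log ht ht1 (A := 1) (c := h) (s := w) (E := t ^ (-h)) (by norm_num) hh hw (P _).le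
    (by rw [one_mul])
  have l3 : Real.log (t ^ (-h)) ≤ Real.log (1 + t ^ (-h)) :=
    Real.log_le_log (P _) (by linarith)
  have l0 : 0 ≤ Real.log (1 + Hf * Ht) := Real.log_nonneg (by nlinarith [mul_nonneg hHf0 hHt0])
  have l00 : 0 ≤ Real.log (t ^ (-h)) := Real.log_nonneg (one_le_pw ht ht1 hh)
  have l4 : 1 + (Real.log (1 + Hf * Ht) + Real.log (t ^ (-h))) ≤ (L1 + L2) * t ^ (-w) := by
    linarith
  have e1 : La / t ^ (-h) = La * t ^ h := by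
    rw [div_eq_mul_inv, ← Real.rpow_neg ht.le, neg_neg]
  have e2 : 2 * Ct / (t ^ c1) ^ 2 = 2 * Ct * t ^ (-(2 * c1)) := by
    rw [div_eq_mul_inv, Real.rpow_neg ht.le]
    congr 2
    rw [sq, pw_add ht]
    congr 1
    ring
  have f1 : La / t ^ (-h) ≤ 10 ^ 6 * t ^ (-la + h) := by
    rw [e1]
    calc La * t ^ h ≤ 10 ^ 6 * t ^ (-la) * t ^ h := mul_le_mul_of_nonneg_right hLa (P _).le
      _ = _ := by rw [mul_assoc, pw_add ht]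
  have f2 : Ku * (1 + (Real.log (1 + Hf * Ht) + Real.log (t ^ (-h)))) ≤
      Ku * (L1 + L2) * t ^ (-w) := by
    have := mul_le_mul_of_nonneg_left l4 hKu
    linarith
  have f3 := mul_A ht (div_nonneg hLa0 (P (-h)).le) (by positivity) f2 f1
  rw [e2]
  have f4 : Ku * (1 + (Real.log (1 + Hf * Ht) + Real.log (t ^ (-h)))) * (La / t ^ (-h)) *
      (2 * Ct * t ^ (-(2 * c1))) ≤ Ku * (L1 + L2) * 10 ^ 6 * (2 * Ct) *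
        t ^ (-w + (-la + h) + -(2 * c1)) :=
    mul_A ht (mul_nonneg (by positivity) (P _).le) (by positivity) f3 le_rfl
  exact f4.trans (mul_le_mul_of_nonneg_left (pw_le ht ht1 (by linarith)) (by positivity))

end Crest.Agent.R079.GaNx253
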