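import Crest.Agent.R079.GnM_45
import Crest.Agent.R079.GaT_571

/-! R079, Step I, (G) words (helper253): THE TALL DIFFERENCES.

`TallW` of 248 speaks about `hi H E`; the (G) words use the truncation `tau H`.

* `sub_tau`   : `E - τ_H E = hi_H E - hi_{H/2} u`, `|u| ≤ |E|`;
* `tallT`     : the difference `E - τ_{H a} E` is killed next to every letter of size `≤ a`;
* `word_tau`  : a word over windows against the truncated word. -/

set_option autoImplicit false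

namespace Crest.Agent.R079.TauWx253

open Finset Crest.Agent.R079.Grid Crest.Agent.R079.Growth Crest.Agent.R079.QRed
open Crest.Agent.R079.TRec Crest.Agent.R079.AsmA844 Crest.Agent.R079.GenT934
open Crest.Agent.R079.T6bx252 Crest.Agent.R079.BadN360 Crest.Agent.R079.GnMx45
  Crest.Agent.R079.GaTx571

/-- the part of modulus `H` of a tall letter -/
noncomputable def uH (H : ℝ) (E : Fn) : Fn :=
  fun y => if ‖E y‖ ≤ H then 0 else ((H / ‖E y‖ : ℝ) : ℂ) * E y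

lemma norm_uH {H : ℝ} (hH : 0 < H) (E : Fn) (y : ℤ) (h : ¬ ‖E y‖ ≤ H) : ‖uH H E y‖ = H := by
  unfold uH
  rw [if_neg h, norm_mul, Complex.norm_real, Real.norm_of_nonneg (div_nonneg hH.le (norm_nonneg _))]
  have : ‖E y‖ ≠ 0 := by
    intro h0
    rw [h0] at h
    exact h hH.le
  field_simp

lemma norm_uH_le {H : ℝ} (hH : 0 < H) (E : Fn) (y : ℤ) : ‖uH H E y‖ ≤ ‖E y‖ := by
  by_cases h : ‖E y‖ ≤ H
  · unfold uH
    rw [if_pos h, norm_zero]
    exact norm_nonneg _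
  · rw [norm_uH hH E y h]
    exact (not_le.1 h).le

lemma hi_uH {H : ℝ} (hH : 0 < H) (E : Fn) : hi (H / 2) (uH H E) = uH H E := by
  funext y
  unfold hi
  by_cases h : ‖E y‖ ≤ H
  · have e1 : uH H E y = 0 := by
      unfold uH
      rw [if_pos h]
    rw [e1]
    split_ifs <;> rfl
  · have h1 := norm_uH hH E y h
    rw [if_neg (by rw [h1]; linarith)]

/-- the difference with the truncation -/
lemma sub_tau {H : ℝ} (hH : 0 < H) (E : Fn) (y : ℤ) :
    E y - tau H (E y) = hi H E y - hi (H / 2) (uH H E) y := by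
  rw [hi_uH hH]
  unfold hi uH tau
  by_cases h : ‖E y‖ ≤ H
  · rw [if_pos h, if_pos h, if_pos h]
    ring
  · rw [if_neg h, if_neg h, if_neg h]

lemma av_mono' {p : Nd} {X Y : Fn} (h : ∀ y ∈ iv p, ‖X y‖ ≤ ‖Y y‖) : av p X ≤ av p Y := by
  have h1 := Growth.sum_av p X
  have h2 := Growth.sum_av p Y
  have h3 : ∑ y ∈ iv p, ‖X y‖ ^ 2 ≤ ∑ y ∈ iv p, ‖Y y‖ ^ 2 :=
    Finset.sum_le_sum fun y hy => pow_le_pow_left₀ (norm_nonneg _) (h y hy) 2
  rw [h1, h2] at h3
  have h4 : av p X ^ 2 ≤ av p Y ^ 2 := le_of_mul_le_mul_left h3 (Growth.len_pos p)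
  exact (sq_le_sq₀ (Growth.av_nonneg _ _) (Growth.av_nonneg _ _)).1 h4

lemma av_tau {p : Nd} {H : ℝ} (hH : 0 ≤ H) (X : Fn) : av p (fun y => tau H (X y)) ≤ av p X :=
  av_mono' fun y _ => tau_le' hH (X y)

section

variable {v : Fn → Fn → Nd → ℂ} {R0 : Finset Nd}

lemma v_sub1 (hB : GenT934.Bil v) (p : Nd) (X X' Y : Fn) :
    v (fun y => X y - X' y) Y p = v X Y p - v X' Y p := by
  have h1 : (fun y => X y - X' y) = fun y => X y + (fun z => (-1 : ℂ) * X' z) y := by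
    funext y
    ring
  rw [h1, hB.add1, hB.smul1]
  ring

lemma v_sub2 (hB : GenT934.Bil v) (p : Nd) (X Y Y' : Fn) :
    v X (fun y => Y y - Y' y) p = v X Y p - v X Y' p := by
  have h1 : (fun y => Y y - Y' y) = fun y => Y y + (fun z => (-1 : ℂ) * Y' z) y := by
    funext y
    ring
  rw [h1, hB.add2, hB.smul2]
  ring

/-- **the difference with the truncation is killed** -/
theorem tallT (hB : GenT934.Bil v) {H kT kT' : ℝ} (hH : 0 < H) (hT : TallW v R0 H kT)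
    (hT' : TallW v R0 (H / 2) kT') {W : Finset Nd} {I : Nd} (hW : Full W I) (hWR : W ⊆ R0) {a : ℝ}
    (ha : 0 < a) {E Z : Fn} (hE : ∀ p ∈ W, av p E ≤ a) (hZ : ∀ p ∈ W, av p Z ≤ a) :
    ‖∑ p ∈ W, v (fun y => E y - tau (H * a) (E y)) Z p‖ ≤ (kT + kT') * a ^ 2 * len I ∧
      ‖∑ p ∈ W, v Z (fun y => E y - tau (H * a) (E y)) p‖ ≤ (kT + kT') * a ^ 2 * len I := by
  have hHa : 0 < H * a := mul_pos hH ha
  have e1 : (fun y => E y - tau (H * a) (E y)) =
      fun y => hi (H * a) E y - hi (H / 2 * a) (uH (H * a) E) y := by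
    funext y
    rw [sub_tau hHa, show H / 2 * a = H * a / 2 by ring]
  have hu : ∀ p ∈ W, av p (uH (H * a) E) ≤ a := fun p hp =>
    (av_mono' fun y _ => norm_uH_le hHa E y).trans (hE p hp)
  obtain ⟨a1, a2⟩ := tall_scale hB hT hW hWR ha hE hZ
  obtain ⟨b1, b2⟩ := tall_scale hB hT' hW hWR ha hu hZ
  rw [e1]
  constructor
  · have e2 : ∑ p ∈ W, v (fun y => hi (H * a) E y - hi (H / 2 * a) (uH (H * a) E) y) Z p =
        ∑ p ∈ W, v (hi (H * a) E) Z p - ∑ p ∈ W, v (hi (H / 2 * a) (uH (H * a) E)) Z p := by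
      rw [← Finset.sum_sub_distrib]
      exact Finset.sum_congr rfl fun p _ => v_sub1 hB p _ _ Z
    rw [e2]
    refine (norm_sub_le _ _).trans ((add_le_add a1 b1).trans (le_of_eq ?_))
    ring
  · have e2 : ∑ p ∈ W, v Z (fun y => hi (H * a) E y - hi (H / 2 * a) (uH (H * a) E) y) p =
        ∑ p ∈ W, v Z (hi (H * a) E) p - ∑ p ∈ W, v Z (hi (H / 2 * a) (uH (H * a) E)) p := by
      rw [← Finset.sum_sub_distrib]
      exact Finset.sum_congr rfl fun p _ => v_sub2 hB p Z _ _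
    rw [e2]
    refine (norm_sub_le _ _).trans ((add_le_add a2 b2).trans (le_of_eq ?_))
    ring

/-- **a word over windows against the truncated word** (both letters truncated at `H a`) -/
theorem word_tau (hB : GenT934.Bil v) {H kT kT' : ℝ} (hH : 0 < H) (hT : TallW v R0 H kT)
    (hT' : TallW v R0 (H / 2) kT') {a : ℝ} (ha : 0 < a) (S : Finset Nd) (W : Nd → Finset Nd)
    (hS : ∀ K ∈ S, Full (W K) K ∧ W K ⊆ R0) (X Y : Nd → Fn)
    (hX : ∀ K ∈ S, ∀ p ∈ W K, av p (X K) ≤ a) (hY : ∀ K ∈ S, ∀ p ∈ W K, av p (Y K) ≤ a) :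
    ‖∑ K ∈ S, ∑ p ∈ W K, v (X K) (Y K) p‖ ≤
      ‖∑ K ∈ S, ∑ p ∈ W K, v (fun y => tau (H * a) (X K y)) (fun y => tau (H * a) (Y K y)) p‖ +
        2 * (kT + kT') * a ^ 2 * ∑ K ∈ S, len K := by
  have hHa : 0 ≤ H * a := (mul_pos hH ha).le
  have e1 : ∑ K ∈ S, ∑ p ∈ W K, v (X K) (Y K) p =
      ∑ K ∈ S, ∑ p ∈ W K, v (fun y => tau (H * a) (X K y)) (fun y => tau (H * a) (Y K y)) p +
      ∑ K ∈ S, (∑ p ∈ W K, v (fun y => X K y - tau (H * a) (X K y)) (Y K) p +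
        ∑ p ∈ W K, v (fun y => tau (H * a) (X K y)) (fun y => Y K y - tau (H * a) (Y K y)) p) := by
    rw [← Finset.sum_add_distrib]
    refine Finset.sum_congr rfl fun K _ => ?_
    rw [← Finset.sum_add_distrib, ← Finset.sum_add_distrib]
    refine Finset.sum_congr rfl fun p _ => ?_
    rw [v_sub1 hB p (X K) (fun y => tau (H * a) (X K y)) (Y K),
      v_sub2 hB p (fun y => tau (H * a) (X K y)) (Y K) (fun y => tau (H * a) (Y K y))]
    ring
  rw [e1]
  refine (norm_add_le _ _).trans (add_le_add le_rfl ?_)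
  rw [Finset.mul_sum]
  refine (norm_sum_le _ _).trans (Finset.sum_le_sum fun K hK => ?_)
  obtain ⟨hF, hR⟩ := hS K hK
  have h1 := (tallT hB hH hT hT' hF hR ha (hX K hK) (hY K hK)).1
  have h2 := (tallT hB hH hT hT' hF hR ha (hY K hK)
    (fun p hp => (av_tau hHa (X K)).trans (hX K hK p hp))).2
  refine (norm_add_le _ _).trans ((add_le_add h1 h2).trans (le_of_eq ?_))
  ring

/-- one letter truncated only -/
theorem word_tau1 (hB : GenT934.Bil v) {H kT kT' : ℝ} (hH : 0 < H) (hT : TallW v R0 H kT)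
    (hT' : TallW v R0 (H / 2) kT') {a : ℝ} (ha : 0 < a) (S : Finset Nd) (W : Nd → Finset Nd)
    (hS : ∀ K ∈ S, Full (W K) K ∧ W K ⊆ R0) (X Y : Nd → Fn)
    (hX : ∀ K ∈ S, ∀ p ∈ W K, av p (X K) ≤ a) (hY : ∀ K ∈ S, ∀ p ∈ W K, av p (Y K) ≤ a) :
    ‖∑ K ∈ S, ∑ p ∈ W K, v (X K) (Y K) p‖ ≤
      ‖∑ K ∈ S, ∑ p ∈ W K, v (fun y => tau (H * a) (X K y)) (Y K) p‖ +
        (kT + kT') * a ^ 2 * ∑ K ∈ S, len K := by
  have e1 : ∑ K ∈ S, ∑ p ∈ W K, v (X K) (Y K) p =
      ∑ K ∈ S, ∑ p ∈ W K, v (fun y => tau (H * a) (X K y)) (Y K) p +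
      ∑ K ∈ S, ∑ p ∈ W K, v (fun y => X K y - tau (H * a) (X K y)) (Y K) p := by
    rw [← Finset.sum_add_distrib]
    refine Finset.sum_congr rfl fun K _ => ?_
    rw [← Finset.sum_add_distrib]
    refine Finset.sum_congr rfl fun p _ => ?_
    rw [v_sub1 hB p (X K) (fun y => tau (H * a) (X K y)) (Y K)]
    ring
  rw [e1]
  refine (norm_add_le _ _).trans (add_le_add le_rfl ?_)
  rw [Finset.mul_sum]
  refine (norm_sum_le _ _).trans (Finset.sum_le_sum fun K hK => ?_)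
  obtain ⟨hF, hR⟩ := hS K hK
  exact (tallT hB hH hT hT' hF hR ha (hX K hK) (hY K hK)).1

end

end Crest.Agent.R079.TauWx253
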