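import Crest.Agent.R079.GaD_571
import Crest.Agent.R079.TauW_253
import Crest.Agent.R079.WdT_276

/-! R079, Step I, (G) words (helper571): ONE (G) WORD, form `κ (μ + en) len J`.

* `budZ_le`, `budG_le`, `nW_le` : the budgets for `fa = len J m0 / kap`, `fb = len J m0`;
* `g_static`, `g_moving` : `gword_static`, `gword_moving` with these budgets. -/

set_option autoImplicit false

namespace Crest.Agent.R079.GaOx571

open Finset Crest.Agent.R079.Grid Crest.Agent.R079.Glue Crest.Agent.R079.Growth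
  Crest.Agent.R079.QRed Crest.Agent.R079.TWin
open Crest.Agent.R079.RelW653 (vl NMP Jv Dv)
open Crest.Agent.R079.GaAx571 Crest.Agent.R079.GaBx571 Crest.Agent.R079.GaWx571
  Crest.Agent.R079.GaXx571 Crest.Agent.R079.GaMx571 Crest.Agent.R079.GaSx571
  Crest.Agent.R079.GaTx571 Crest.Agent.R079.GaVx571 Crest.Agent.R079.GaZx260
  Crest.Agent.R079.GaFx371 Crest.Agent.R079.GaUx571 Crest.Agent.R079.GaRx571
open Crest.Agent.R079.ThA159 Crest.Agent.R079.Stk
open Crest.Agent.R079.AsmA844 (v4)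
open Crest.Agent.R079.GnMx45 (en en_nonneg)

section bud

variable {J : Nd} {X Y : Fn} {η m0 : ℝ} {n b : ℕ}

lemma bud_s (hη : 0 ≤ η) (hηm : η * (2 * n + 1) ≤ m0) :
    √(len J * (av J X ^ 2 + η)) ≤ √(len J * (av J X ^ 2 + m0)) := by
  have hl := (Growth.len_pos J).le
  refine Real.sqrt_le_sqrt (mul_le_mul_of_nonneg_left ?_ hl)
  have : 0 ≤ η * (2 * n) := by positivity
  linarith

lemma two_sqrt (x : ℝ) : (2 : ℝ) * √x = √(4 * x) := by
  rw [Real.sqrt_mul (by norm_num : (0 : ℝ) ≤ 4) x, show (4 : ℝ) = 2 ^ 2 by norm_num,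
    Real.sqrt_sq (by norm_num : (0 : ℝ) ≤ 2)]

lemma m0_nonneg (hη : 0 ≤ η) (hηm : η * (2 * n + 1) ≤ m0) : 0 ≤ m0 :=
  le_trans (mul_nonneg hη (by positivity)) hηm

lemma bud_m (X : Fn) : √(len J * m0) ≤ √(len J * (av J X ^ 2 + m0)) := by
  have hl := (Growth.len_pos J).le
  exact Real.sqrt_le_sqrt (mul_le_mul_of_nonneg_left (by nlinarith [sq_nonneg (av J X)]) hl)

lemma bud_c (hη : 0 ≤ η) (hηm : η * (2 * n + 1) ≤ m0) {c : ℝ} (hc : c ≤ 4) :
    √(c * (len J * (av J X ^ 2 + η) + 2 * η * len J * (n - 1 : ℕ))) ≤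
      2 * √(len J * (av J X ^ 2 + m0)) := by
  have hl := (Growth.len_pos J).le
  have hn : ((n - 1 : ℕ) : ℝ) ≤ n := by exact_mod_cast Nat.sub_le n 1
  have hm := m0_nonneg hη hηm
  rw [two_sqrt]
  refine Real.sqrt_le_sqrt ?_
  have h3 : 2 * η * len J * (n - 1 : ℕ) ≤ 2 * η * len J * n :=
    mul_le_mul_of_nonneg_left hn (by positivity)
  have h4 : len J * (av J X ^ 2 + η) + 2 * η * len J * (n - 1 : ℕ) ≤
      len J * (av J X ^ 2 + m0) := by
    have h5 : len J * (η * (2 * n + 1)) ≤ len J * m0 := mul_le_mul_of_nonneg_left hηm hl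
    nlinarith
  have h6 : 0 ≤ len J * (av J X ^ 2 + m0) := by positivity
  have h7 : 0 ≤ len J * (av J X ^ 2 + η) + 2 * η * len J * (n - 1 : ℕ) := by positivity
  calc c * (len J * (av J X ^ 2 + η) + 2 * η * len J * (n - 1 : ℕ)) ≤
      4 * (len J * (av J X ^ 2 + η) + 2 * η * len J * (n - 1 : ℕ)) :=
        mul_le_mul_of_nonneg_right hc h7
    _ ≤ _ := mul_le_mul_of_nonneg_left h4 (by norm_num)

theorem budZ_le (hη : 0 ≤ η) (hηm : η * (2 * n + 1) ≤ m0) :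
    budZ J X η √(len J * m0) n b ≤ 3 * (b + 1) * √(len J * (av J X ^ 2 + m0)) := by
  unfold budZ
  have h1 := bud_c (J := J) (X := X) hη hηm (c := 4) le_rfl
  have h2 := bud_s (J := J) (X := X) hη hηm
  have h3 := bud_m (J := J) (m0 := m0) X
  have hb : (0 : ℝ) ≤ b := Nat.cast_nonneg b
  have h4 := mul_le_mul_of_nonneg_left h1 hb
  have h5 := mul_le_mul_of_nonneg_left h3 (show (0 : ℝ) ≤ b + 1 by linarith)
  have h6 := Real.sqrt_nonneg (len J * (av J X ^ 2 + m0))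
  nlinarith

theorem budG_le (hη : 0 ≤ η) (hηm : η * (2 * n + 1) ≤ m0) :
    budG J X η √(len J * m0) n b ≤ 3 * (b + 1) * √(len J * (av J X ^ 2 + m0)) := by
  unfold budG
  have h1 := bud_c (J := J) (X := X) hη hηm (c := 2) (by norm_num)
  have h3 := bud_m (J := J) (m0 := m0) X
  have hl := (Growth.len_pos J).le
  have hm := m0_nonneg hη hηm
  have h2 : √(2 * len J * av J X ^ 2 + 2 * (len J * (av J X ^ 2 + η))) ≤
      2 * √(len J * (av J X ^ 2 + m0)) := by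
    rw [two_sqrt]
    refine Real.sqrt_le_sqrt ?_
    have h5 : len J * η ≤ len J * m0 := mul_le_mul_of_nonneg_left
      (by have : 0 ≤ η * (2 * n) := by positivity
          linarith) hl
    have h6 : 0 ≤ len J * m0 := mul_nonneg hl hm
    nlinarith
  have hb : (0 : ℝ) ≤ b := Nat.cast_nonneg b
  have h4 := mul_le_mul_of_nonneg_left h1 hb
  have h5 := mul_le_mul_of_nonneg_left h3 (show (0 : ℝ) ≤ b + 1 by linarith)
  have h6 := Real.sqrt_nonneg (len J * (av J X ^ 2 + m0))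
  nlinarith

theorem nW_le (hm : 0 ≤ m0) :
    nW (iv J) (fun _ => 1) Y + (b + 1) * √(len J * m0) ≤
      2 * (b + 1) * √(len J * (av J Y ^ 2 + m0)) := by
  have hl := (Growth.len_pos J).le
  have h1 : nW (iv J) (fun _ => 1) Y ≤ √(len J * (av J Y ^ 2 + m0)) := by
    unfold nW qW
    refine Real.sqrt_le_sqrt ?_
    simp only [one_mul]
    rw [Growth.sum_av J Y]
    exact mul_le_mul_of_nonneg_left (by linarith) hl
  have h3 := bud_m (J := J) (m0 := m0) Y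
  have hb : (0 : ℝ) ≤ b := Nat.cast_nonneg b
  have h5 := mul_le_mul_of_nonneg_left h3 (show (0 : ℝ) ≤ b + 1 by linarith)
  have h6 := Real.sqrt_nonneg (len J * (av J Y ^ 2 + m0))
  nlinarith

/-- the product of the two sizes -/
theorem prod_le (hm : 0 ≤ m0) :
    √(len J * (av J X ^ 2 + m0)) * √(len J * (av J Y ^ 2 + m0)) ≤
      (m0 + en J X Y) * len J := by
  have hl := (Growth.len_pos J).le
  have hX : 0 ≤ len J * (av J X ^ 2 + m0) := by positivity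
  have hY : 0 ≤ len J * (av J Y ^ 2 + m0) := by positivity
  have h1 := Real.sq_sqrt hX
  have h2 := Real.sq_sqrt hY
  unfold en
  nlinarith [sq_nonneg (√(len J * (av J X ^ 2 + m0)) - √(len J * (av J Y ^ 2 + m0))),
    mul_nonneg hl hm, mul_nonneg hl (sq_nonneg (av J X)), mul_nonneg hl (sq_nonneg (av J Y))]

end bud

variable {ι I' : Type*} [Fintype ι] [Fintype I']
  {j : Fin 4} {bb : ℤ} {e e' : Fin 3} {T : ι → Fin 3 → Finset ℤ}
  {g : ι → Fin 3 → ℤ → ℤ → ℂ} {c0 : ι → I'} {J : Nd} {Bd : I' → Nd → Finset (ℤ × ℤ × ℤ)}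
  {pos : I' → ℤ × ℤ × ℤ → ℤ} {N : I' → Nd → (ℤ × ℤ × ℤ → ℂ) → ℝ} {ν : I' → ℝ}
  {a : I' → ℤ × ℤ × ℤ → ℂ} {r : I' → ℝ} {κ : I' → ℝ} {X : Fn} {η : ℝ} {f : Nd → Fn}
  {R S : Finset Nd} {W : Nd → Finset Nd} {C : ℝ}
  {μ : ι → ℝ} {cn La kap : ℝ} {F : Fin 4 → ℤ → ℂ} {P : Finset (ℤ × ℤ × ℤ)} {M : ℕ}
  {ε : ℕ → ℤ → ℂ} {Gd : ι → ℕ → ℤ × ℤ × ℤ → ℕ → Prop}

/-- **STATIC PARTNER** -/
theorem g_static (hW : GW j bb e e' T g c0 J Bd pos N ν a r κ μ cn La kap F P M ε R)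
    (h : NMP (fun _ _ => True) (ThF Bd pos N ν a r κ) X η f) (hR : Full R J)
    (hP : TWin.Part R S W C) {n b : ℕ} (hn : n ≤ 2 ^ b) {m0 Q N1 H H' H1 h0 h0' eB eR : ℝ}
    (hm0 : 0 ≤ m0) (hηm : η * (2 * n + 1) ≤ m0) (hN1 : 0 ≤ N1) (hQ : N1 * (La / √kap) ≤ Q)
    (heB : 0 ≤ eB) (heR : 0 ≤ eR)
    (hG : HG j bb e e' T g c0 J Bd cn F P M R Gd N1 H H' (len J * m0 / kap) (len J * m0)) (Y : Fn)
    (hY : ∀ y ∈ iv J, ‖Y y‖ ≤ h0') (hh0 : 0 ≤ h0) (hH : 2 ^ (b + 1) * h0 ≤ H)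
    (hH' : 2 ^ (b + 1) * h0' ≤ H')
    (hB : HB j bb e e' T g c0 Bd pos N a r cn F P M S W n H1 h0 f (fun _ => Y) eB)
    (hRs : HRst j bb e e' T g J cn F P M R S n Gd H1 f (fun _ => Y) eR) :
    ‖∑ K ∈ S.filter (fun K => idx S K ≤ n), ∑ q ∈ W K,
      v4 bb ε F (j.succAbove (e + 2)) (j.succAbove (e' + 2)) (fun y => tau H1 (gl (W K) f y))
        Y q‖ ≤
      6 * Q * (b + 1) ^ 2 * ((m0 + en J X Y) * len J) +
      (La * eB * ∑ K ∈ S.filter (fun K => idx S K ≤ n), len K + n * (La * eR * len J)) := by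
  have hl := (Growth.len_pos J).le
  have hk := hW.kap0
  have h1 := gword_static hW h hR hP hn hN1 (div_nonneg (mul_nonneg hl hm0) hk.le)
    (mul_nonneg hl hm0) heB heR hG Y hY hh0 hH hH' hB hRs
  have e1 : kap * (len J * m0 / kap) = len J * m0 := by field_simp
  rw [e1] at h1
  refine h1.trans (add_le_add ?_ le_rfl)
  have h2 := budZ_le (J := J) (X := X) (b := b) h.eta hηm
  have h3 := nW_le (J := J) (Y := Y) (b := b) hm0
  have h4 := prod_le (J := J) (X := X) (Y := Y) hm0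
  have hsX := Real.sqrt_nonneg (len J * (av J X ^ 2 + m0))
  have hsY := Real.sqrt_nonneg (len J * (av J Y ^ 2 + m0))
  have hb : (0 : ℝ) ≤ b := Nat.cast_nonneg b
  have hQ0 : 0 ≤ N1 * (La / √kap) := mul_nonneg hN1 (div_nonneg hW.La0.le (Real.sqrt_nonneg _))
  have hz : 0 ≤ nW (iv J) (fun _ => 1) Y + (b + 1) * √(len J * m0) :=
    add_nonneg (nW_nonneg _ _ _) (by positivity)
  have hbz : 0 ≤ budZ J X η √(len J * m0) n b := by
    unfold budZ
    positivity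
  calc N1 * (La / √kap) * budZ J X η √(len J * m0) n b *
        (nW (iv J) (fun _ => 1) Y + (b + 1) * √(len J * m0)) ≤
      Q * (3 * (b + 1) * √(len J * (av J X ^ 2 + m0))) *
        (2 * (b + 1) * √(len J * (av J Y ^ 2 + m0))) := by
        refine mul_le_mul (mul_le_mul hQ h2 hbz (hQ0.trans hQ)) h3 hz ?_
        have := hQ0.trans hQ
        positivity
    _ = 6 * Q * (b + 1) ^ 2 *
        (√(len J * (av J X ^ 2 + m0)) * √(len J * (av J Y ^ 2 + m0))) := by ring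
    _ ≤ _ := by
        refine mul_le_mul_of_nonneg_left h4 ?_
        have := hQ0.trans hQ
        positivity

section moving

variable {ι' : Type*} [Fintype ι'] {Ω' : ι' → Type*} {Bd' : ∀ i, Nd → Finset (Ω' i)}
  {pos' : ∀ i, Ω' i → ℤ} {N' : ∀ i, Nd → (Ω' i → ℂ) → ℝ} {ν' : ι' → ℝ} {a' : ∀ i, Ω' i → ℂ}
  {r' : ι' → ℝ} {κ' : ι' → ℝ} {X' : Fn} {η' : ℝ} {f' : Nd → Fn}

/-- **MOVING PARTNER** -/
theorem g_moving (hW : GW j bb e e' T g c0 J Bd pos N ν a r κ μ cn La kap F P M ε R)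
    (h : NMP (fun _ _ => True) (ThF Bd pos N ν a r κ) X η f)
    (hB' : ∀ i, Bnd (Bd' i) (pos' i) (N' i) (ν' i)) (hr' : ∀ i, 0 ≤ r' i) (hκ' : ∀ i, 0 ≤ κ' i)
    (h' : NMP (fun _ _ => True) (ThF Bd' pos' N' ν' a' r' κ') X' η' f') (hR : Full R J)
    (hP : TWin.Part R S W C) {n b : ℕ} (hn : n ≤ 2 ^ b) {m0 Q N1 H H' H1 h0 h0' eB eR : ℝ}
    (hm0 : 0 ≤ m0) (hηm : η * (2 * n + 1) ≤ m0) (hηm' : η' * (2 * n + 1) ≤ m0)
    (hN1 : 0 ≤ N1) (hQ : N1 * (La / √kap) ≤ Q) (heB : 0 ≤ eB) (heR : 0 ≤ eR)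
    (hG : HG j bb e e' T g c0 J Bd cn F P M R Gd N1 H H' (len J * m0 / kap) (len J * m0))
    (hh0 : 0 ≤ h0) (hh0' : 0 ≤ h0') (hH : 2 ^ (b + 1) * h0 ≤ H) (hH' : 2 ^ (b + 1) * h0' ≤ H')
    (hB : HB j bb e e' T g c0 Bd pos N a r cn F P M S W n H1 h0 f
      (fun K y => tau h0' (gl (W K) f' y)) eB)
    (hRs : HRst j bb e e' T g J cn F P M R S n Gd H1 f
      (fun k y => tau h0' (gl (Rk R S k) f' y)) eR) :
    ‖∑ K ∈ S.filter (fun K => idx S K ≤ n), ∑ q ∈ W K,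
      v4 bb ε F (j.succAbove (e + 2)) (j.succAbove (e' + 2)) (fun y => tau H1 (gl (W K) f y))
        (fun y => tau h0' (gl (W K) f' y)) q‖ ≤
      9 * Q * (b + 1) ^ 2 * ((m0 + en J X X') * len J) +
      (La * eB * ∑ K ∈ S.filter (fun K => idx S K ≤ n), len K + n * (La * eR * len J)) := by
  have hl := (Growth.len_pos J).le
  have hk := hW.kap0
  have h1 := gword_moving hW h hB' hr' hκ' h' hR hP hn hN1
    (div_nonneg (mul_nonneg hl hm0) hk.le)
    (mul_nonneg hl hm0) heB heR hG hh0 hh0' hH hH' hB hRs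
  have e1 : kap * (len J * m0 / kap) = len J * m0 := by field_simp
  rw [e1] at h1
  refine h1.trans (add_le_add ?_ le_rfl)
  have h2 := budZ_le (J := J) (X := X) (b := b) h.eta hηm
  have h3 := budG_le (J := J) (X := X') (b := b) h'.eta hηm'
  have h4 := prod_le (J := J) (X := X) (Y := X') hm0
  have hsX := Real.sqrt_nonneg (len J * (av J X ^ 2 + m0))
  have hsY := Real.sqrt_nonneg (len J * (av J X' ^ 2 + m0))
  have hb : (0 : ℝ) ≤ b := Nat.cast_nonneg b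
  have hQ0 : 0 ≤ N1 * (La / √kap) := mul_nonneg hN1 (div_nonneg hW.La0.le (Real.sqrt_nonneg _))
  have hz : 0 ≤ budG J X' η' √(len J * m0) n b := by
    unfold budG
    positivity
  have hbz : 0 ≤ budZ J X η √(len J * m0) n b := by
    unfold budZ
    positivity
  calc N1 * (La / √kap) * budZ J X η √(len J * m0) n b * budG J X' η' √(len J * m0) n b ≤
      Q * (3 * (b + 1) * √(len J * (av J X ^ 2 + m0))) *
        (3 * (b + 1) * √(len J * (av J X' ^ 2 + m0))) := by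
        refine mul_le_mul (mul_le_mul hQ h2 hbz (hQ0.trans hQ)) h3 hz ?_
        have := hQ0.trans hQ
        positivity
    _ = 9 * Q * (b + 1) ^ 2 *
        (√(len J * (av J X ^ 2 + m0)) * √(len J * (av J X' ^ 2 + m0))) := by ring
    _ ≤ _ := by
        refine mul_le_mul_of_nonneg_left h4 ?_
        have := hQ0.trans hQ
        positivity

end moving

end Crest.Agent.R079.GaOx571
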