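import Crest.Agent.R079.GnU_263
import Crest.Agent.R079.GaO_571
import Crest.Agent.R079.GaK_256
import Crest.Agent.R079.B0N_253
import Crest.Agent.R079.GaM_446

/-! R079, T7 (helper263): TRUNCATED (G) TOTALS of one generation (`GnU_263.Su`) with explicit numbers.

`F' = update F m (tau HC (F m))`, `X`-letter `tau HX (gl (W K) (f c))`, partner `tau HY (Z c')`
(`tt_static`) or `tau HY (gl (W K) (f c'))` (`tt_moving`). -/

set_option autoImplicit false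

namespace Crest.Agent.R079.GnWx263

open Finset Crest.Agent.R079.Grid Crest.Agent.R079.Growth Crest.Agent.R079.QRed
open Crest.Agent.R079.RelW653 (vl NMP Jv Dv)
open Crest.Agent.R079.RelV653 (PenC)
open Crest.Agent.R079.TRec Crest.Agent.R079.T6bx252 Crest.Agent.R079.AsmA844
open Crest.Agent.R079.GnMx45 (en en_nonneg)
open Crest.Agent.R079.PFx263 Crest.Agent.R079.GaDx571 Crest.Agent.R079.GaFx371
  Crest.Agent.R079.WS112 Crest.Agent.R079.WS0112 Crest.Agent.R079.POx263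
  Crest.Agent.R079.OpS276 Crest.Agent.R079.GnUx263
open Crest.Agent.R079.GaAx571 Crest.Agent.R079.GaBx571 Crest.Agent.R079.GaWx571
  Crest.Agent.R079.GaXx571 Crest.Agent.R079.GaUx571
  Crest.Agent.R079.Stk Crest.Agent.R079.KLX279
  Crest.Agent.R079.GaRx571 Crest.Agent.R079.GaTx571 Crest.Agent.R079.GaZx260
  Crest.Agent.R079.ThA159 Crest.Agent.R079.ThB159 Crest.Agent.R079.GaBtx251
  Crest.Agent.R079.B0Mx253 Crest.Agent.R079.B0Nx253 Crest.Agent.R079.GaKx256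
  Crest.Agent.R079.GaLx446 Crest.Agent.R079.GaMx446 Crest.Agent.R079.GaOx571

/-- truncated killer -/
noncomputable def Fc (F : Fin 4 → Fn) (m : Fin 4) (HC : ℝ) : Fin 4 → Fn :=
  Function.update F m (fun y => tau HC (F m y))

/-- goodness of the truncated killer -/
noncomputable def sC (P : Prm) (m : Fin 4) (t HC : ℝ) : ℝ :=
  128 * t ^ (1 * (P.θ * P.g m)) + 24 * t ^ (1 * (P.θ * P.f m)) + 128 * (1 / HC)

/-- exceptional density -/
noncomputable def dC (P : Prm) (m : Fin 4) (t : ℝ) : ℝ := t ^ (1 * (P.θ * P.x m))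

lemma sC_pos (P : Prm) (m : Fin 4) {t HC : ℝ} (ht : 0 < t) (hH : 0 < HC) : 0 < sC P m t HC := by
  unfold sC
  have a1 := Real.rpow_pos_of_pos ht (1 * (P.θ * P.g m))
  have a2 := Real.rpow_pos_of_pos ht (1 * (P.θ * P.f m))
  positivity

lemma dC_pos (P : Prm) (m : Fin 4) {t : ℝ} (ht : 0 < t) : 0 < dC P m t :=
  Real.rpow_pos_of_pos ht _

lemma av_tau {h : ℝ} (hh : 0 ≤ h) (p : Nd) (X : Fn) : av p (fun y => tau h (X y)) ≤ av p X := by
  refine Real.sqrt_le_sqrt (mul_le_mul_of_nonneg_left (Finset.sum_le_sum fun y _ =>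
    pow_le_pow_left₀ (norm_nonneg _) (tau_le' hh _) 2) ?_)
  positivity

lemma en_tau {h : ℝ} (hh : 0 ≤ h) (J : Nd) (X Y : Fn) :
    en J X (fun y => tau h (Y y)) ≤ en J X Y := by
  unfold en
  have := pow_le_pow_left₀ (Growth.av_nonneg _ _) (av_tau hh J Y) 2
  linarith

lemma eKB_mono {K0 K0' Ht Hf H1 h0 H τ dl AY Av : ℝ} (hK : K0 ≤ K0') (hτ : 0 ≤ τ) (hdl : 0 ≤ dl)
    (hAY : 0 ≤ AY) (hAv : 0 ≤ Av) :
    eKB K0 Ht Hf H1 h0 H τ dl AY Av ≤ eKB K0' Ht Hf H1 h0 H τ dl AY Av := by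
  unfold eKB
  have h1 : 0 ≤ (max 1 (√(Hf * Ht)) * H1 + h0) ^ 2 *
    (2 * (max 1 (√(Hf * Ht)) * H) ^ 2) / (dl * τ ^ 2) := by positivity
  have h2 := Real.log_nonneg (show (1 : ℝ) ≤ 1 + (max 1 (√(Hf * Ht)) * H1 + h0) ^ 2 *
    (2 * (max 1 (√(Hf * Ht)) * H) ^ 2) / (dl * τ ^ 2) by linarith)
  have h3 := Real.sqrt_nonneg dl
  exact mul_le_mul_of_nonneg_right (mul_le_mul_of_nonneg_right hK (by linarith))
    (mul_nonneg hτ (mul_nonneg (by linarith) (by linarith)))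

lemma eRst_mono {K0 K0' Ht Hf D ε Av HC HX HY AX AY d1 d2 : ℝ} (hK : K0 ≤ K0')
    (hHt : 1 ≤ Ht) (hHf : 0 ≤ Hf) (hAv : 0 ≤ Av) (hd1 : 0 ≤ d1) (hd2 : 0 ≤ d2) :
    eRst K0 Ht Hf D ε Av HC HX HY AX AY d1 d2 ≤ eRst K0' Ht Hf D ε Av HC HX HY AX AY d1 d2 := by
  unfold eRst
  have h1 : 0 ≤ HC ^ 2 * (Hf * Ht * HX ^ 2 / d1 + Hf * Ht * HY ^ 2 / d2) / Av ^ 2 := by positivity
  have h2 := Real.log_nonneg (show (1 : ℝ) ≤ 1 +
    HC ^ 2 * (Hf * Ht * HX ^ 2 / d1 + Hf * Ht * HY ^ 2 / d2) / Av ^ 2 by linarith)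
  exact mul_le_mul_of_nonneg_right (mul_le_mul_of_nonneg_right
    (mul_le_mul_of_nonneg_right hK (by linarith)) hAv)
    (mul_nonneg (Real.sqrt_nonneg _) (Real.sqrt_nonneg _))

section

variable {P : Prm} {d ε k q3 : ℝ} {i m e e' : Fin 4} {N : ℕ} {B t : ℝ} {W : Finset Nd} {I : Nd}
  {F : Fin 4 → Fn} {xy : Fin 2 → Fin 4} {bb : ℤ} {E : ℕ → ℤ → ℂ} {R : Finset Nd} {J : Nd}
  {Z : Fin 2 → Fn} {v : Fin 3} {n : ℕ} {T : Fin n → Fin 3 → Finset ℤ}
  {g : Fin n → Fin 3 → ℤ → ℤ → ℂ} {al : Fin n → ℤ → ℝ} {mu : Fin n → ℝ} {es : Fin 2 → Fin 3}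

theorem Su.es_cc (h : Su P d ε k q3 i m e e' N B t W I F xy bb E R J Z v n T g al mu es)
    {c c' : Fin 2} (hc : c ≠ c') : es c ≠ es c' := by
  have h1 := h.es01
  fin_cases c <;> fin_cases c' <;> simp_all
  exact fun h2 => h1 h2.symm

theorem Su.mi (h : Su P d ε k q3 i m e e' N B t W I F xy bb E R J Z v n T g al mu es) : m ≠ i :=
  h.dst.jk

/-- **571's `GW`** for the truncated data -/
theorem Su.gw (h : Su P d ε k q3 i m e e' N B t W I F xy bb E R J Z v n T g al mu es)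
    {c c' : Fin 2} (hc : c ≠ c') {kap : ℝ} (hkap : 0 < kap) (kc : ℕ) {Kl : ℕ} (hKl : 0 < Kl)
    {r : ℕ → ℝ} (hr : ∀ q, 0 ≤ r q) (HC : ℝ) {L1 : ℕ} (hL1 : ∀ l, Cov (J.1 + 1) (T l) (cube L1)) :
    GW i bb (es c) (es c') T g (fun l => ((l, ⟨0, hKl⟩) : Fin n × Fin Kl)) J
      (BdF i (es c) T I Kl) (fun _ => poE i (es c)) (NF i (es c) T I kc Kl)
      (fun _ => 1 / (sd I : ℝ) ^ 2) (fun c' ω => g c'.1 (es c) ω.2.1 ω.2.2) (fun c => r c.2)
      (fun c => kap * mu c.1 / LaC P ε i t) mu ((sd I : ℝ) ^ 2) (LaC P ε i t) kap (Fc F m HC)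
      (cube L1) (J.1 + 1) E R := by
  refine gw_fam h.fam h.adm.1 (Su.es_cc h hc) h.JI (LaC_pos P ε i h.t0) hkap kc hKl hr ?_ hL1
    h.full h.eps
  unfold Fc
  rw [Function.update_of_ne (Su.mi h).symm]

lemma Fc_m (F : Fin 4 → Fn) (m : Fin 4) (HC : ℝ) : Fc F m HC m = fun y => tau HC (F m y) := by
  unfold Fc
  rw [Function.update_self]

theorem Su.exE (h : Su P d ε k q3 i m e e' N B t W I F xy bb E R J Z v n T g al mu es)
    (hP : Ok0 P) (hk : 0 ≤ k) (hm3 : m ≠ 3) (ht1 : t ≤ 1) {HC : ℝ} (hHC : 0 < HC) (l : Fin n) :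
    Crest.Agent.R079.GaIx256.ExE i (v + 1) R (T l) (g l) (Fc F m HC m) (sC P m t HC) (dC P m t) := by
  rw [Fc_m]
  exact exE_prc hP h.dst hk hm3 zero_le_one h.t0 ht1 h.prc h.sub h.fam.vm (h.fam.opD l) hHC

end

/-- numbers of one truncated (G) word -/
noncomputable def errG (P : Prm) (ε : ℝ) (i m : Fin 4) (t KB KR HC HX HY h0 εg τB dl d1 d2 : ℝ)
    (n : ℕ) (Ls lJ : ℝ) : ℝ :=
  LaC P ε i t * eKB KB (HtC P i t) (HfC P i t) HX h0 (max HC HY) τB dl 3 1 * Ls +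
    n * (LaC P ε i t * eRst KR (HtC P i t) (HfC P i t) (dC P m t) εg 1 HC HX HY 3 3 d1 d2 * lJ)

/-- **TRUNCATED (G) TOTALS** -/
theorem tt_words : ∃ KG KB KR : ℝ, 0 ≤ KG ∧ 0 ≤ KB ∧ 0 ≤ KR ∧
    ∀ {P : Prm} {d ε k q3 : ℝ} {i m e e' : Fin 4} {N : ℕ} {B t : ℝ} {W : Finset Nd} {I : Nd}
      {F : Fin 4 → Fn} {xy : Fin 2 → Fin 4} {bb : ℤ} {E : ℕ → ℤ → ℂ} {R : Finset Nd} {J : Nd}
      {Z : Fin 2 → Fn} {v : Fin 3} {n : ℕ} {T : Fin n → Fin 3 → Finset ℤ}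
      {g : Fin n → Fin 3 → ℤ → ℤ → ℂ} {al : Fin n → ℤ → ℝ} {mu : Fin n → ℝ} {es : Fin 2 → Fin 3}
      (_ : Su P d ε k q3 i m e e' N B t W I F xy bb E R J Z v n T g al mu es), Ok0 P → 0 ≤ k →
      m ≠ 3 → t ≤ 1 → 0 ≤ xxC P i → ∀ {c c' : Fin 2}, c ≠ c' → ∀ {kap : ℝ}, 0 < kap →
      ∀ (kc : ℕ) {Kl : ℕ}, 0 < Kl → ∀ {r : ℕ → ℝ}, (∀ q, 0 ≤ r q) → ∀ {η : ℝ} {f : Fin 2 → Nd → Fn},
      (∀ c', NMP (fun _ _ => True) (PhiC P ε i T g mu I t kap kc Kl r es c') (Z c') η (f c')) →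
      η ≤ 1 → ∀ {S : Finset Nd} {W' : Nd → Finset Nd} {C : ℝ}, TWin.Part R S W' C →
      ∀ {nS b : ℕ}, nS ≤ 2 ^ b → ∀ {m0 Q HC HX HY h0 εg τB dl d1 d2 : ℝ}, 0 < m0 →
      η * (2 * nS + 1) ≤ m0 → 0 < HC → 0 < HX → 0 < HY → 0 < h0 → 0 < εg → 0 < dl → 0 < d1 →
      0 < d2 → tauB kc (r 0) (HtC P i t) (HfC P i t) 3 h0 HX ≤ τB → 0 < τB →
      n1G KG J HC 1 (sC P m t HC) εg (HfC P i t) (HtC P i t) (2 ^ (b + 1) * h0) (2 ^ (b + 1) * HY)
        (len J * m0 / kap) (len J * m0) * (LaC P ε i t / √kap) ≤ Q →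
      ‖∑ K ∈ S.filter (fun K => idx S K ≤ nS), ∑ q ∈ W' K,
        v4 bb E (Fc F m HC) (xy c) (xy c') (fun y => tau HX (TWin.gl (W' K) (f c) y))
          (fun y => tau HY (Z c' y)) q‖ ≤
        9 * Q * (b + 1) ^ 2 * ((m0 + en J (Z c) (Z c')) * len J) +
          errG P ε i m t KB KR HC HX HY h0 εg τB dl d1 d2 nS
            (∑ K ∈ S.filter (fun K => idx S K ≤ nS), len K) (len J) ∧
      ‖∑ K ∈ S.filter (fun K => idx S K ≤ nS), ∑ q ∈ W' K,
        v4 bb E (Fc F m HC) (xy c) (xy c') (fun y => tau HX (TWin.gl (W' K) (f c) y))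
          (fun y => tau HY (TWin.gl (W' K) (f c') y)) q‖ ≤
        9 * Q * (b + 1) ^ 2 * ((m0 + en J (Z c) (Z c')) * len J) +
          errG P ε i m t KB KR HC HX HY h0 εg τB dl d1 d2 nS
            (∑ K ∈ S.filter (fun K => idx S K ≤ nS), len K) (len J) := by
  obtain ⟨KG, hKG, hg⟩ := hg_fam
  obtain ⟨KB1, hKB1, hb1⟩ := hb_static
  obtain ⟨KB2, hKB2, hb2⟩ := hb_moving
  obtain ⟨KR1, hKR1, hr1⟩ := hrst_static
  obtain ⟨KR2, hKR2, hr2⟩ := hrst_moving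
  refine ⟨KG, max KB1 KB2, max KR1 KR2, hKG, hKB1.trans (le_max_left _ _),
    hKR1.trans (le_max_left _ _), ?_⟩
  intro P d ε k q3 i m e e' N B t W I F xy bb E R J Z v n T g al mu es h hP hk hm3 ht1 hxx c c' hc kap
    hkap kc Kl hKl r hr η f hf hη1 S W' C hPt nS b hn m0 Q HC HX HY h0 εg τB dl d1 d2 hm0 hηm hHC hHX
    hHY hh0 hεg hdl hd1 hd2 hτB hτ hQ
  have ht := h.t0
  have hHt : 0 < HtC P i t := HtC_pos P i ht
  have hHf : 0 < HfC P i t := HfC_pos P i ht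
  have hLa : 0 < LaC P ε i t := LaC_pos P ε i ht
  have hHt1 : 1 ≤ HtC P i t := by
    have h1 : 1 ≤ t ^ (-(xxC P i)) := by
      rw [Real.rpow_neg ht.le]
      exact (one_le_inv₀ (Real.rpow_pos_of_pos ht _)).2 (Real.rpow_le_one ht.le ht1 hxx)
    unfold HtC
    linarith
  have hη0 : 0 ≤ η := (hf c).eta
  obtain ⟨L1, _, hcov⟩ := exists_cube T (J.1 + 1) 0
  have hee := Su.es_cc h hc
  have he := h.es_ne c
  have he' := h.es_ne c'
  set Fm : Fn := fun y => tau HC (F m y) with hFm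
  have hFmm : Fc F m HC m = Fm := Fc_m F m HC
  have hav : ∀ p ∈ R, av p Fm ≤ 1 := fun p hp =>
    (av_tau hHC.le p (F m)).trans (h.avm hk p (h.sub hp))
  have hbd : ∀ y, ‖Fm y‖ ≤ HC := fun y => tau_le hHC.le _
  have hAX : √(2 * (1 : ℝ) ^ 2 + 4 * η) ≤ 3 := by
    refine Real.sqrt_le_iff.2 ⟨by norm_num, ?_⟩
    nlinarith
  have hs := sC_pos P m ht hHC
  have hd := dC_pos P m ht
  have hgw := Su.gw h hc hkap kc hKl hr HC hcov
  have hfc := hf c
  have hfc' := hf c'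
  have hG := hg h.fam hHf.le h.adm.1 hee he he' h.JI h.full hKl (F := Fc F m HC) (s := sC P m t HC)
    (ε := εg) (Av := 1) (HC := HC) hs.le hεg.le zero_le_one (by positivity)
    (fun p hp => by rw [hFmm]; exact hav p hp) (fun y _ => by rw [hFmm]; exact hbd y)
    (H := 2 ^ (b + 1) * h0) (H' := 2 ^ (b + 1) * HY) (fa := len J * m0 / kap) (fb := len J * m0)
    (by have := Growth.len_pos J; positivity) (by have := Growth.len_pos J; positivity) L1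
  have hEx : ∀ l, Crest.Agent.R079.GaIx256.ExE i (v + 1) R (T l) (g l) Fm (sC P m t HC) (dC P m t) :=
    fun l => by
      have := Su.exE h hP hk hm3 ht1 hHC l
      rwa [hFmm] at this
  have hN1 := n1G_nonneg hKG J (HC := HC) (Av := 1) (s := sC P m t HC) (ε := εg) (Hf := HfC P i t)
    (Ht := HtC P i t) (H := 2 ^ (b + 1) * h0) (H' := 2 ^ (b + 1) * HY) (fa := len J * m0 / kap)
    (fb := len J * m0) zero_le_one hs.le hHf.le hHt.le
    (by have := Growth.len_pos J; positivity) (by have := Growth.len_pos J; positivity)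
  have hmx : 0 ≤ max HC HY := hHC.le.trans (le_max_left _ _)
  have hmono : ∀ {KB KR : ℝ}, KB ≤ max KB1 KB2 → KR ≤ max KR1 KR2 → 0 ≤ KB → 0 ≤ KR →
      LaC P ε i t * eKB KB (HtC P i t) (HfC P i t) HX h0 (max HC HY) τB dl 3 1 *
        (∑ K ∈ S.filter (fun K => idx S K ≤ nS), len K) +
      nS * (LaC P ε i t * eRst KR (HtC P i t) (HfC P i t) (dC P m t) εg 1 HC HX HY 3 3 d1 d2 *
        len J) ≤ errG P ε i m t (max KB1 KB2) (max KR1 KR2) HC HX HY h0 εg τB dl d1 d2 nS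
          (∑ K ∈ S.filter (fun K => idx S K ≤ nS), len K) (len J) := by
    intro KB KR h1 h2 _ _
    unfold errG
    have hL : 0 ≤ ∑ K ∈ S.filter (fun K => idx S K ≤ nS), len K :=
      Finset.sum_nonneg fun q _ => (Growth.len_pos q).le
    refine add_le_add (mul_le_mul_of_nonneg_right (mul_le_mul_of_nonneg_left
      (eKB_mono h1 hτ.le hdl.le (by norm_num) zero_le_one) hLa.le) hL) ?_
    refine mul_le_mul_of_nonneg_left (mul_le_mul_of_nonneg_right (mul_le_mul_of_nonneg_left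
      (eRst_mono h2 hHt1 hHf.le zero_le_one hd1.le hd2.le) hLa.le) (Growth.len_pos J).le) ?_
    exact Nat.cast_nonneg _
  have hm0' := hm0.le
  have hQ0 : 0 ≤ Q := (mul_nonneg hN1 (div_nonneg hLa.le (Real.sqrt_nonneg _))).trans hQ
  have hlJ := (Growth.len_pos J).le
  constructor
  · -- static partner
    have hYb : ∀ y, ‖tau HY (Z c' y)‖ ≤ HY := fun y => tau_le hHY.le _
    have hYa : ∀ p ∈ R, av p (fun y => tau HY (Z c' y)) ≤ 3 := fun p hp =>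
      ((av_tau hHY.le p (Z c')).trans (h.avZ hk c' p hp)).trans (by norm_num)
    have hB := hb1 bb h.adm.1 i m v I (HtC P i t) (HfC P i t) (LaC P ε i t) n (F i) T g al mu h.fam
      hHf.le hLa R J h.full h.JI S W' C hPt (Fc F m HC) Fm 1 (max HC HY) HX h0 τB dl 3 3
      (fun y _ => by rw [hFmm]) hav (fun y _ => (hbd y).trans (le_max_left _ _)) hmx (es c) (es c')
      hee he he' nS kap kc Kl hKl r (Z c) η 1 (f c) hkap.le hr hfc (h.avZ hk c) hAX hHX hh0 hτB hτ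
      hdl (fun y => tau HY (Z c' y)) (fun y _ => (hYb y).trans (le_max_right _ _)) hYa L1 (J.1 + 1)
    have hRs := hr1 bb h.adm.1 i m v I (HtC P i t) (HfC P i t) (LaC P ε i t) n (F i) T g al mu h.fam
      hHt1 hHf.le hLa R J h.full h.JI S W' C hPt (Fc F m HC) Fm (sC P m t HC) εg (dC P m t) 1 HC HX
      HY 3 3 d1 d2 (fun y _ => by rw [hFmm]) hεg hd.le one_pos hav (fun y _ => hbd y) hEx (es c)
      (es c') hee he he' nS kap kc Kl r (Z c) η 1 (f c) hkap.le hr hfc (h.avZ hk c) hAX hHX.le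
      (fun y => tau HY (Z c' y)) (fun y _ => hYb y) hYa hd1 hd2 L1
    rw [hFmm] at hG
    have key := g_static hgw hfc h.full hPt hn hm0' hηm hN1 hQ
      (eKB_nonneg hKB1 hτ.le hdl.le (by norm_num) zero_le_one)
      (eRst_nonneg hKR1 hHt1 hHf.le zero_le_one hd1.le hd2.le) hG (fun y => tau HY (Z c' y))
      (fun y _ => hYb y) hh0.le le_rfl le_rfl hB hRs
    rw [h.slot c, h.slot c'] at key
    refine key.trans (add_le_add ?_ (hmono (le_max_left _ _) (le_max_left _ _) hKB1 hKR1))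
    have h5 := en_tau hHY.le J (Z c) (Z c')
    have h6 : 0 ≤ en J (Z c) (fun y => tau HY (Z c' y)) := en_nonneg _ _ _
    have h7 : (m0 + en J (Z c) (fun y => tau HY (Z c' y))) * len J ≤
        (m0 + en J (Z c) (Z c')) * len J := mul_le_mul_of_nonneg_right (by linarith) hlJ
    have h8 : 0 ≤ (m0 + en J (Z c) (fun y => tau HY (Z c' y))) * len J := by positivity
    refine mul_le_mul ?_ h7 h8 (by positivity)
    refine mul_le_mul_of_nonneg_right (by linarith) (by positivity)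
  · -- moving partner
    have hB := hb2 bb h.adm.1 i m v I (HtC P i t) (HfC P i t) (LaC P ε i t) n (F i) T g al mu h.fam
      hHf.le hLa R J h.full h.JI S W' C hPt (Fc F m HC) Fm 1 (max HC HY) HX h0 τB dl 3 3
      (fun y _ => by rw [hFmm]) hav (fun y _ => (hbd y).trans (le_max_left _ _)) hmx (es c) (es c')
      hee he he' nS kap kc Kl hKl r (Z c) η 1 (f c) hkap.le hr hfc (h.avZ hk c) hAX hHX hh0 hτB hτ
      hdl kap kc Kl r (Z c') η 1 HY (f c') hkap.le hr hfc' (h.avZ hk c') hAX hHY.le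
      (le_max_right _ _) L1 (J.1 + 1)
    have hRs := hr2 bb h.adm.1 i m v I (HtC P i t) (HfC P i t) (LaC P ε i t) n (F i) T g al mu h.fam
      hHt1 hHf.le hLa R J h.full h.JI S W' C hPt (Fc F m HC) Fm (sC P m t HC) εg (dC P m t) 1 HC HX
      HY 3 3 d1 d2 (fun y _ => by rw [hFmm]) hεg hd.le one_pos hav (fun y _ => hbd y) hEx (es c)
      (es c') hee he he' nS kap kc Kl r (Z c) η 1 (f c) hkap.le hr hfc (h.avZ hk c) hAX hHX.le
      kap kc Kl r (Z c') η 1 (f c') hkap.le hr hfc' (h.avZ hk c') hAX hHY.le hd1 hd2 L1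
    rw [hFmm] at hG
    have hpf : NMP (fun _ _ => True) (PhiC P ε i T g mu I t kap kc Kl r es c') (Z c') η (f c') := hfc'
    unfold PhiC at hpf
    rw [phi_eq] at hpf
    have key := g_moving hgw hfc (bndF h.fam (es c') kc Kl) (fun c => hr c.2)
      (fun c => div_nonneg (mul_nonneg hkap.le (h.fam.μ0 c.1)) hLa.le) hpf h.full hPt hn hm0' hηm hηm
      hN1 hQ (eKB_nonneg hKB2 hτ.le hdl.le (by norm_num) zero_le_one)
      (eRst_nonneg hKR2 hHt1 hHf.le zero_le_one hd1.le hd2.le) hG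
      hh0.le hHY.le le_rfl le_rfl hB hRs
    rw [h.slot c, h.slot c'] at key
    exact key.trans (add_le_add le_rfl (hmono (le_max_right _ _) (le_max_right _ _) hKB2 hKR2))

end Crest.Agent.R079.GnWx263
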