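import Crest.Agent.R079.NJ_112
import Crest.Agent.R079.GnW_263
import Crest.Agent.R079.GaV_253
import Crest.Agent.R079.GaNn_253

/-! R079, Step I, (G) words (helper253): **`InG`** (the three (G) totals of `NJ_112`) from the truncated
totals (`GnW_263.tt_words`), the untruncation (`GaV_253.untr3`) and the numbers (`GaNn_253`).

* `inG_mono` : `InG` in `t0`, `K`, `gG`;
* **`inG_of`** : `InG`. -/

set_option autoImplicit false
set_option linter.unusedVariables false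

namespace Crest.Agent.R079.GaIGx253

open Finset Crest.Agent.R079.Grid Crest.Agent.R079.Growth Crest.Agent.R079.QRed
open Crest.Agent.R079.RelW653 (NMP)
open Crest.Agent.R079.RelV653 (PenC)
open Crest.Agent.R079.TRec Crest.Agent.R079.T6bx252 Crest.Agent.R079.AsmA844
open Crest.Agent.R079.GnMx45 (en en_nonneg)
open Crest.Agent.R079.PFx263 Crest.Agent.R079.GaDx571 Crest.Agent.R079.GaFx371
  Crest.Agent.R079.WS112 Crest.Agent.R079.WS0112 Crest.Agent.R079.POx263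
  Crest.Agent.R079.OpS276 Crest.Agent.R079.GnUx263 Crest.Agent.R079.GnWx263
  Crest.Agent.R079.GnNx263 Crest.Agent.R079.Stk Crest.Agent.R079.NJ112
  Crest.Agent.R079.GaQx571 Crest.Agent.R079.GaKx256 Crest.Agent.R079.B0Nx253
  Crest.Agent.R079.GaBtx251 Crest.Agent.R079.GaLx446 Crest.Agent.R079.GaNx253
  Crest.Agent.R079.GaVx253 Crest.Agent.R079.FLDx263 Crest.Agent.R079.GnSx263

/-- the operator norm of the killers, `kc` moving -/
theorem tauB3_le {xx ff h h0e tb Ar : ℝ} (hAr : 0 ≤ Ar) (h1 : ff + xx + tb ≤ h0e)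
    (h2 : ff + xx + tb ≤ h) (hxx : 0 ≤ xx) (hff : 0 ≤ ff) :
    ∃ A : ℝ, 1 ≤ A ∧ ∀ t, 0 < t → t ≤ 1 → ∀ (kc : ℕ) (Ht Hf r0 : ℝ), 0 ≤ Ht →
      Ht ≤ 10 ^ 6 * t ^ (-xx) → 0 ≤ Hf → Hf ≤ 10 ^ 6 * t ^ (-ff) → 2 ^ kc * r0 ≤ Ar * t ^ tb →
      tauB kc r0 Ht Hf 3 (t ^ (-h0e)) (t ^ (-h) * 3) ≤ A * t ^ tb := by
  obtain ⟨A, hA, hm⟩ := tauB_le (xx := xx) (ff := ff) (h := h) (h0e := h0e) (tb := tb) (Ar := Ar) 0
    hAr h1 h2 hxx hff
  refine ⟨A, hA, ?_⟩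
  intro t ht ht1 kc Ht Hf r0 hHt0 hHt hHf0 hHf hr
  refine le_trans ?_ (hm t ht ht1 Ht Hf (2 ^ kc * r0) hHt0 hHt hHf0 hHf hr)
  have P := pw_pos ht
  unfold tauB
  have a1 : 384 * (Hf * Ht) * 3 ^ 2 / t ^ (-h0e) ≤ 384 * (Hf * Ht) * (10 ^ 6) ^ 2 / t ^ (-h0e) := by
    refine div_le_div_of_nonneg_right ?_ (P _).le
    refine mul_le_mul_of_nonneg_left (by norm_num) ?_
    positivity
  have a2 : 384 * √(Hf * Ht) * 3 ^ 2 / (t ^ (-h) * 3) ≤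
      384 * √(Hf * Ht) * (10 ^ 6) ^ 2 / (t ^ (-h) * 3) := by
    have p3 : 0 ≤ t ^ (-h) * 3 := mul_nonneg (P _).le (by norm_num)
    refine div_le_div_of_nonneg_right ?_ p3
    refine mul_le_mul_of_nonneg_left (by norm_num) ?_
    positivity
  have a3 : 6 * 2 ^ kc * r0 = 6 * 2 ^ 0 * (2 ^ kc * r0) := by ring
  rw [a3]
  linarith

lemma eKB3_le {K0 Ht Hf H1 h0 H τ : ℝ} (hK0 : 0 ≤ K0) (hτ : 0 ≤ τ) :
    eKB K0 Ht Hf H1 h0 H τ 1 3 1 ≤ eKB K0 Ht Hf H1 h0 H τ 1 (10 ^ 6) 1 := by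
  unfold eKB
  have h1 : 0 ≤ (max 1 (√(Hf * Ht)) * H1 + h0) ^ 2 *
    (2 * (max 1 (√(Hf * Ht)) * H) ^ 2) / (1 * τ ^ 2) := by positivity
  have h2 := Real.log_nonneg (show (1 : ℝ) ≤ 1 + (max 1 (√(Hf * Ht)) * H1 + h0) ^ 2 *
    (2 * (max 1 (√(Hf * Ht)) * H) ^ 2) / (1 * τ ^ 2) by linarith)
  refine mul_le_mul_of_nonneg_left (mul_le_mul_of_nonneg_left ?_ hτ)
    (mul_nonneg hK0 (by linarith))
  rw [Real.sqrt_one]
  norm_num

lemma eRst3_le {K0 Ht Hf D ε HC HX HY d1 d2 : ℝ} (hK0 : 0 ≤ K0)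
    (hHt : 1 ≤ Ht) (hHf : 0 ≤ Hf) (hD : 0 ≤ D) (hε : 0 ≤ ε) (hd1 : 0 ≤ d1) (hd2 : 0 ≤ d2) :
    eRst K0 Ht Hf D ε 1 HC HX HY 3 3 d1 d2 ≤
      eRst K0 Ht Hf D ε 1 HC HX HY (10 ^ 6) (10 ^ 6) d1 d2 := by
  unfold eRst
  have h1 : 0 ≤ HC ^ 2 * (Hf * Ht * HX ^ 2 / d1 + Hf * Ht * HY ^ 2 / d2) / 1 ^ 2 := by positivity
  have h2 := Real.log_nonneg (show (1 : ℝ) ≤ 1 +
    HC ^ 2 * (Hf * Ht * HX ^ 2 / d1 + Hf * Ht * HY ^ 2 / d2) / 1 ^ 2 by linarith)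
  have h3 : 0 ≤ Real.log Ht := Real.log_nonneg hHt
  have h4 : ∀ d : ℝ, √(Hf * 3 ^ 2 * (D / ε) * (1 + Real.log Ht) + d) ≤
      √(Hf * (10 ^ 6) ^ 2 * (D / ε) * (1 + Real.log Ht) + d) := by
    intro d
    refine Real.sqrt_le_sqrt ?_
    have h5 : 0 ≤ Hf * (D / ε) * (1 + Real.log Ht) := by positivity
    nlinarith
  refine mul_le_mul_of_nonneg_left (mul_le_mul (h4 d1) (h4 d2) (Real.sqrt_nonneg _)
    (Real.sqrt_nonneg _)) ?_
  have := mul_nonneg hK0 (show 0 ≤ 1 + Real.log (1 +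
    HC ^ 2 * (Hf * Ht * HX ^ 2 / d1 + Hf * Ht * HY ^ 2 / d2) / 1 ^ 2) by linarith)
  linarith

lemma fin_num {K1 K2 K3 K4 B x y : ℝ} (h1 : 0 ≤ K1) (h2 : 0 ≤ K2) (h3 : 0 ≤ K3) (h4 : 0 ≤ K4)
    (hB : 0 ≤ B) (hx : 0 ≤ x) (hy : 0 ≤ y) :
    (K1 * x * y + (K2 + K3) * x * y) + K4 * x * y ≤ (K1 + K2 + K3 + K4 + 1) * (1 + B) * x * y := by
  have a1 : 0 ≤ x * y := mul_nonneg hx hy
  have a2 : 0 ≤ (K1 + K2 + K3 + K4 + 1) * B := by positivity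
  nlinarith [mul_nonneg a2 a1]

/-- **`InG` is monotone** -/
theorem inG_mono {P : Prm} {d ε k q3 : ℝ} {i m e e' : Fin 4} {c1 gG gG' t0 t0' K K' nE : ℝ}
    {p : Par} (ht1 : t0 ≤ 1) (h1 : t0' ≤ t0) (h2 : K ≤ K') (hK : 0 ≤ K) (h3 : gG' ≤ gG)
    (h : InG P d ε k q3 i m e e' c1 gG t0 K nE p) :
    InG P d ε k q3 i m e e' c1 gG' t0' K' nE p := by
  intro N B t W I F xy bb E R J Z v n T g al mu es hS htt
  obtain ⟨η0, hη0, hm⟩ := h hS (htt.trans h1)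
  refine ⟨η0, hη0, ?_⟩
  intro η hη hηη f hf S W' Rg Er hT hdr
  obtain ⟨a1, a2, a3⟩ := hm η hη hηη f hf S W' Rg Er hT hdr
  have ht := hS.t0
  have hB := hS.B0
  have hen : 0 ≤ en J (Z 0) (Z 1) := en_nonneg _ _ _
  have hlJ : 0 ≤ len J := (Growth.len_pos J).le
  have hA : 0 ≤ (t ^ c1 + en J (Z 0) (Z 1)) * len J := by
    have := pw_pos ht c1
    positivity
  have hle : K * (1 + B) * t ^ gG * ((t ^ c1 + en J (Z 0) (Z 1)) * len J) ≤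
      K' * (1 + B) * t ^ gG' * ((t ^ c1 + en J (Z 0) (Z 1)) * len J) := by
    refine mul_le_mul_of_nonneg_right ?_ hA
    have h4 : t ^ gG ≤ t ^ gG' := pw_le ht ((htt.trans h1).trans ht1) h3
    have h5 : K * (1 + B) ≤ K' * (1 + B) := mul_le_mul_of_nonneg_right h2 (by linarith)
    have h6 : 0 ≤ K * (1 + B) := mul_nonneg hK (by linarith)
    exact mul_le_mul h5 h4 (pw_pos ht _).le (h6.trans h5)
  exact ⟨a1.trans hle, a2.trans hle, a3.trans hle⟩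

set_option maxHeartbeats 1000000 in
/-- **`InG`** -/
theorem inG_of {P : Prm} (hP : Ok0 P) {d ε k q3 : ℝ} {i m e e' : Fin 4} (hk : 0 ≤ k) (hm3 : m ≠ 3)
    {c1 gG nE kx σ w Ar : ℝ} (hε : 0 ≤ ε) (hw : 0 < w) (hgG : 0 ≤ gG) (hc1 : 0 ≤ c1) (hkx : 0 ≤ kx)
    (hnE : 0 ≤ nE) (hσ : 0 ≤ σ) (hAr : 0 ≤ Ar) (hgm : σ ≤ P.θ * P.g m) (hfm : σ ≤ P.θ * P.f m)
    (hg1 : gG + (1 + ε) * (P.θ * P.g i) + 3 * w ≤ σ + kx / 2)
    (hg2 : 2 * σ + ffC P i ≤ P.θ * P.x m)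
    (hg3 : gG + nE + (1 + ε) * (P.θ * P.g i) + c1 + 2 * w ≤ P.θ * P.x m - 2 * σ - ffC P i)
    (k0 : ℕ) :
    ∃ t1 K : ℝ, 0 < t1 ∧ t1 ≤ 1 ∧ 1 ≤ K ∧ ∀ p : Par, p.k0 = k0 → ∀ t0, t0 ≤ t1 →
      (∀ t, 0 < t → t ≤ t0 → p.kap t = t ^ (-kx)) → (∀ t, 0 < t → t ≤ t0 → 0 < p.Kl t) →
      (∀ t, 0 < t → t ≤ t0 → ∀ q, 0 ≤ p.r t q) →
      (∀ t, 0 < t → t ≤ t0 → 2 ^ p.kc t * p.r t 0 ≤
        Ar * t ^ (gG + (1 + ε) * (P.θ * P.g i) + 2 * c1 + w)) →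
      InG P d ε k q3 i m e e' c1 gG t0 K nE p := by
  obtain ⟨KG, KB, KR, hKG, hKB, hKR, hTT⟩ := tt_words
  obtain ⟨Ku, hKu, hU⟩ := untr3
  have hθ := hP.θ0.le
  set la : ℝ := (1 + ε) * (P.θ * P.g i) with hla
  set xx : ℝ := xxC P i with hxx
  set ff : ℝ := ffC P i with hff
  have hla0 : 0 ≤ la := mul_nonneg (by linarith) (mul_nonneg hθ (hP.g0 i))
  have hxx0 : 0 ≤ xx := by
    have := hP.g0 i
    have := hP.x0 i
    have := hP.f0 i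
    rw [hxx]
    unfold xxC
    positivity
  have hff0 : 0 ≤ ff := by
    have := hP.g0 i
    have := hP.f0 i
    rw [hff]
    unfold ffC
    positivity
  set tb : ℝ := gG + la + 2 * c1 + w with htb
  have htb0 : 0 < tb := by linarith
  set h0e : ℝ := ff + xx + tb with hh0e
  set hh : ℝ := σ + tb + ff + xx with hhh
  have hh0 : 0 < hh := by linarith
  set Ct : ℝ := 2 ^ (k0 + 5) with hCt
  have hCt0 : 0 ≤ Ct := by positivity
  obtain ⟨A, hA1, hA⟩ := tauB3_le (xx := xx) (ff := ff) (h := hh) (h0e := h0e) (tb := tb) (Ar := Ar)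
    hAr le_rfl (by linarith) hxx0 hff0
  obtain ⟨K1, hK1, hn1⟩ := num1 (K0 := KG) (σ := σ) (la := la) (xx := xx) (ff := ff) (c1 := c1)
    (kx := kx) (h := hh) (h0e := h0e) (nE := nE) (gG := gG) (w := w) (gm := 1 * (P.θ * P.g m))
    (fm := 1 * (P.θ * P.f m)) hKG hσ (by linarith) (by linarith) (by linarith) hxx0 hff0 hc1 hkx
    (by linarith) hnE hw hg1
  obtain ⟨K2, hK2, hn2⟩ := num2 (K0 := KB) (la := la) (xx := xx) (ff := ff) (c1 := c1) (h := hh)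
    (h0e := h0e) (tb := tb) (gG := gG) (w := w) (A := A) (Ct := Ct) hKB hA1 hCt0 hxx0 hff0 hh0.le
    (by linarith) htb0.le hw le_rfl
  obtain ⟨K3, hK3, hn3⟩ := num3 (K0 := KR) (δ := 1 * (P.θ * P.x m)) (σ := σ) (la := la) (xx := xx)
    (ff := ff) (c1 := c1) (h := hh) (nE := nE) (gG := gG) (w := w) hKR hxx0 hff0 hh0.le hw
    (by linarith) (by linarith)
  obtain ⟨K4, hK4, hn4⟩ := num4 (Ku := Ku) (la := la) (xx := xx) (ff := ff) (c1 := c1) (h := hh)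
    (gG := gG) (w := w) (Ct := Ct) hKu hCt0 hxx0 hff0 hh0.le hw (by linarith)
  set t1 : ℝ := (1 / 2 : ℝ) ^ (1 / hh) with ht1d
  have ht1p : 0 < t1 := Real.rpow_pos_of_pos (by norm_num) _
  have ht11 : t1 ≤ 1 := Real.rpow_le_one (by norm_num) (by norm_num) (by positivity)
  have ht1h : t1 ^ hh = 1 / 2 := by
    rw [ht1d, ← Real.rpow_mul (by norm_num), one_div_mul_cancel hh0.ne', Real.rpow_one]
  refine ⟨t1, K1 + K2 + K3 + K4 + 1, ht1p, ht11, by linarith, ?_⟩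
  intro p hpk t0 ht0 hkap hKl hr hr0 N B t W I F xy bb E R J Z v n T g al mu es hS htt
  have ht := hS.t0
  have htt1 : t ≤ 1 := (htt.trans ht0).trans ht11
  have hB := hS.B0
  have P' := pw_pos ht
  set nS : ℕ := nn t nE with hnS
  have hnS2 : (nS : ℝ) ≤ 2 * t ^ (-nE) := nn_le ht htt1 hnE
  have hnS0 : nS ≠ 0 := by
    have h1 : 0 < nS := Nat.ceil_pos.2 (P' _)
    omega
  refine ⟨min 1 (t ^ c1 / (2 * nS + 1)), lt_min one_pos (div_pos (P' _) (by positivity)), ?_⟩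
  intro η hη hηη f hf S W' Rg Er hT hdr
  have hη1 : η ≤ 1 := hηη.trans (min_le_left _ _)
  have hηm : η * (2 * (nS : ℝ) + 1) ≤ t ^ c1 := by
    have := hηη.trans (min_le_right _ _)
    rwa [le_div_iff₀ (by positivity)] at this
  obtain ⟨C, hPt⟩ := hT.part
  -- numbers
  set H : ℝ := t ^ (-hh) with hH
  have hHp : 0 < H := P' _
  have hH2 : 2 ≤ H := by
    have h1 : t ^ hh ≤ t1 ^ hh := Real.rpow_le_rpow ht.le (htt.trans ht0) hh0.le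
    rw [ht1h] at h1
    rw [hH, Real.rpow_neg ht.le]
    have h2 : (1 / 2 : ℝ)⁻¹ ≤ (t ^ hh)⁻¹ := inv_anti₀ (P' _) h1
    norm_num at h2
    exact h2
  have hLa0 := LaC_pos P ε i ht
  have hHt0 := HtC_pos P i ht
  have hHf0 := HfC_pos P i ht
  have hLa : LaC P ε i t ≤ 10 ^ 6 * t ^ (-la) := by
    unfold LaC
    have := P' (-la)
    rw [← hla]
    linarith
  have hHt : HtC P i t ≤ 10 ^ 6 * t ^ (-xx) := by
    unfold HtC
    have := P' (-xx)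
    rw [← hxx]
    linarith
  have hHt1 : 1 ≤ HtC P i t := by
    unfold HtC
    have := one_le_pw ht htt1 hxx0
    rw [← hxx]
    linarith
  have hHf : HfC P i t ≤ 10 ^ 6 * t ^ (-ff) := by
    unfold HfC
    have := P' (-ff)
    rw [← hff]
    linarith
  have hkapt := hkap t ht htt
  have hkapp : 0 < p.kap t := by rw [hkapt]; exact P' _
  have hen : 0 ≤ en J (Z 0) (Z 1) := en_nonneg _ _ _
  have hlJ : 0 < len J := Growth.len_pos J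
  set AA : ℝ := (t ^ c1 + en J (Z 0) (Z 1)) * len J with hAA
  have hm0 : 0 < t ^ c1 := P' c1
  have hAA0 : 0 < AA := by positivity
  have hAAJ : len J ≤ AA / t ^ c1 := by
    rw [le_div_iff₀ hm0, hAA, mul_comm]
    exact mul_le_mul_of_nonneg_right (le_add_of_nonneg_right hen) hlJ.le
  have hcnt := WdTx276.cnt_of (X := Z 0) (Y := Z 1) hT hm0 (by positivity) hdr
    (Finset.filter_subset (fun w => idx S w ≤ nS) S)
  rw [hpk, ← hCt] at hcnt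
  set Ls : ℝ := ∑ w ∈ S.filter (fun w => idx S w ≤ nS), len w with hLs
  have hLs0 : 0 ≤ Ls := Finset.sum_nonneg fun q _ => (Growth.len_pos q).le
  have hτp : 0 < A * t ^ tb := mul_pos (by linarith) (P' _)
  have hτ : tauB (p.kc t) (p.r t 0) (HtC P i t) (HfC P i t) 3 (t ^ (-h0e)) (H * 3) ≤ A * t ^ tb :=
    hA t ht htt1 (p.kc t) (HtC P i t) (HfC P i t) (p.r t 0) hHt0.le hHt hHf0.le hHf (hr0 t ht htt)
  set dd : ℝ := t ^ (1 * (P.θ * P.x m) - 2 * σ - ff) with hdd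
  have hddp : 0 < dd := P' _
  set Q : ℝ := n1G KG J (H * 3) 1 (sC P m t (H * 3)) (t ^ (2 * σ)) (HfC P i t) (HtC P i t)
    (2 ^ (bn nS + 1) * t ^ (-h0e)) (2 ^ (bn nS + 1) * (H * 3)) (len J * t ^ c1 / p.kap t)
    (len J * t ^ c1) * (LaC P ε i t / √(p.kap t)) with hQ
  have m1 : 9 * Q * (((bn nS : ℕ) : ℝ) + 1) ^ 2 ≤ K1 * t ^ gG := by
    have := hn1 t ht htt1 nS hnS0 hnS2 J (LaC P ε i t) (HtC P i t) (HfC P i t) hLa0.le hLa hHt0.le
      hHt hHf0.le hHf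
    rw [hQ, hkapt]
    exact this
  have m2 : LaC P ε i t * eKB KB (HtC P i t) (HfC P i t) (H * 3) (t ^ (-h0e)) (max (H * 3) (H * 3))
      (A * t ^ tb) 1 3 1 * (2 * Ct / (t ^ c1) ^ 2) ≤ K2 * t ^ gG := by
    rw [max_self]
    refine le_trans ?_ (hn2 t ht htt1 (LaC P ε i t) (HtC P i t) (HfC P i t) hLa0.le hLa hHt0.le
      hHt hHf0.le hHf)
    exact mul_le_mul_of_nonneg_right (mul_le_mul_of_nonneg_left (eKB3_le hKB hτp.le) hLa0.le)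
      (by positivity)
  have m3 : nS * (LaC P ε i t * eRst KR (HtC P i t) (HfC P i t) (dC P m t) (t ^ (2 * σ)) 1 (H * 3)
      (H * 3) (H * 3) 3 3 dd dd) / t ^ c1 ≤ K3 * t ^ gG := by
    refine le_trans ?_ (hn3 t ht htt1 nS hnS2 (LaC P ε i t) (HtC P i t) (HfC P i t) hLa0.le hLa hHt1
      hHt hHf0.le hHf)
    refine div_le_div_of_nonneg_right (mul_le_mul_of_nonneg_left (mul_le_mul_of_nonneg_left
      (eRst3_le hKR hHt1 hHf0.le (P' _).le (P' _).le hddp.le hddp.le) hLa0.le)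
      (Nat.cast_nonneg _)) hm0.le
  have m4 : Ku * (1 + (Real.log (1 + HfC P i t * HtC P i t) + Real.log H)) *
      (LaC P ε i t / H) * (2 * Ct / (t ^ c1) ^ 2) ≤ K4 * t ^ gG :=
    hn4 t ht htt1 (LaC P ε i t) (HtC P i t) (HfC P i t) hLa0.le hLa hHt0.le hHt hHf0.le hHf
  -- the error of the truncated totals
  have hHp3 : 0 < H * 3 := by positivity
  have e1 : errG P ε i m t KB KR (H * 3) (H * 3) (H * 3) (t ^ (-h0e)) (t ^ (2 * σ)) (A * t ^ tb) 1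
      dd dd nS Ls (len J) ≤ (K2 + K3) * t ^ gG * AA := by
    unfold errG
    have a1 : 0 ≤ LaC P ε i t * eKB KB (HtC P i t) (HfC P i t) (H * 3) (t ^ (-h0e))
        (max (H * 3) (H * 3)) (A * t ^ tb) 1 3 1 :=
      mul_nonneg hLa0.le (eKB_nonneg hKB hτp.le zero_le_one (by norm_num) zero_le_one)
    have a2 : 0 ≤ (nS : ℝ) * (LaC P ε i t * eRst KR (HtC P i t) (HfC P i t) (dC P m t)
        (t ^ (2 * σ)) 1 (H * 3) (H * 3) (H * 3) 3 3 dd dd) :=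
      mul_nonneg (Nat.cast_nonneg _) (mul_nonneg hLa0.le
        (eRst_nonneg hKR hHt1 hHf0.le zero_le_one hddp.le hddp.le))
    have b1 := mul_le_mul_of_nonneg_left hcnt a1
    have b2 := mul_le_mul_of_nonneg_left hAAJ a2
    have c1' := mul_le_mul_of_nonneg_right m2 hAA0.le
    have c2' := mul_le_mul_of_nonneg_right m3 hAA0.le
    have d1 : LaC P ε i t * eKB KB (HtC P i t) (HfC P i t) (H * 3) (t ^ (-h0e))
        (max (H * 3) (H * 3)) (A * t ^ tb) 1 3 1 * (2 * Ct / (t ^ c1) ^ 2 * AA) =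
      LaC P ε i t * eKB KB (HtC P i t) (HfC P i t) (H * 3) (t ^ (-h0e))
        (max (H * 3) (H * 3)) (A * t ^ tb) 1 3 1 * (2 * Ct / (t ^ c1) ^ 2) * AA := by ring
    have d2 : (nS : ℝ) * (LaC P ε i t * eRst KR (HtC P i t) (HfC P i t) (dC P m t)
        (t ^ (2 * σ)) 1 (H * 3) (H * 3) (H * 3) 3 3 dd dd) * (AA / t ^ c1) =
      (nS : ℝ) * (LaC P ε i t * eRst KR (HtC P i t) (HfC P i t) (dC P m t)
        (t ^ (2 * σ)) 1 (H * 3) (H * 3) (H * 3) 3 3 dd dd) / t ^ c1 * AA := by ring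
    have d3 : (nS : ℝ) * (LaC P ε i t * eRst KR (HtC P i t) (HfC P i t) (dC P m t)
        (t ^ (2 * σ)) 1 (H * 3) (H * 3) (H * 3) 3 3 dd dd * len J) =
      (nS : ℝ) * (LaC P ε i t * eRst KR (HtC P i t) (HfC P i t) (dC P m t)
        (t ^ (2 * σ)) 1 (H * 3) (H * 3) (H * 3) 3 3 dd dd) * len J := by ring
    rw [d3]
    calc _ ≤ K2 * t ^ gG * AA + K3 * t ^ gG * AA :=
          add_le_add (b1.trans (d1.le.trans c1')) (b2.trans (d2.le.trans c2'))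
      _ = _ := by ring
  have e2 : Ku * (1 + (Real.log (1 + HfC P i t * HtC P i t) + Real.log H)) *
      (LaC P ε i t / H) * Ls ≤ K4 * t ^ gG * AA := by
    have hl1 : 0 ≤ Real.log (1 + HfC P i t * HtC P i t) :=
      Real.log_nonneg (le_add_of_nonneg_right (mul_pos hHf0 hHt0).le)
    have hl2 : 0 ≤ Real.log H := Real.log_nonneg (by linarith)
    have a1 : 0 ≤ Ku * (1 + (Real.log (1 + HfC P i t * HtC P i t) + Real.log H)) *
        (LaC P ε i t / H) := by positivity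
    refine (mul_le_mul_of_nonneg_left hcnt a1).trans ?_
    have c1' := mul_le_mul_of_nonneg_right m4 hAA0.le
    refine le_trans (le_of_eq ?_) c1'
    ring
  have e3 : 9 * Q * (((bn nS : ℕ) : ℝ) + 1) ^ 2 * AA ≤ K1 * t ^ gG * AA :=
    mul_le_mul_of_nonneg_right m1 hAA0.le
  have efin : (K1 * t ^ gG * AA + (K2 + K3) * t ^ gG * AA) + K4 * t ^ gG * AA ≤
      (K1 + K2 + K3 + K4 + 1) * (1 + B) * t ^ gG * AA :=
    fin_num hK1 hK2 hK3 hK4 hB (P' _).le hAA0.le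
  -- the truncated totals
  have hnb : nS ≤ 2 ^ bn nS := n_le_bn nS
  have hswap : en J (Z 1) (Z 0) = en J (Z 0) (Z 1) := by
    unfold en
    ring
  have T01 := hTT hS hP hk hm3 htt1 hxx0 (c := 0) (c' := 1) (by decide) (kap := p.kap t) hkapp
    (p.kc t) (Kl := p.Kl t) (hKl t ht htt) (r := p.r t) (hr t ht htt) (η := η) (f := f) hf hη1
    hPt hnb (m0 := t ^ c1) (Q := Q) (HC := H * 3) (HX := H * 3) (HY := H * 3) (h0 := t ^ (-h0e))
    (εg := t ^ (2 * σ)) (τB := A * t ^ tb) (dl := 1) (d1 := dd) (d2 := dd) hm0 hηm hHp3 hHp3 hHp3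
    (P' _) (P' _) one_pos hddp hddp hτ hτp hQ.le
  have T10 := hTT hS hP hk hm3 htt1 hxx0 (c := 1) (c' := 0) (by decide) (kap := p.kap t) hkapp
    (p.kc t) (Kl := p.Kl t) (hKl t ht htt) (r := p.r t) (hr t ht htt) (η := η) (f := f) hf hη1
    hPt hnb (m0 := t ^ c1) (Q := Q) (HC := H * 3) (HX := H * 3) (HY := H * 3) (h0 := t ^ (-h0e))
    (εg := t ^ (2 * σ)) (τB := A * t ^ tb) (dl := 1) (d1 := dd) (d2 := dd) hm0 hηm hHp3 hHp3 hHp3
    (P' _) (P' _) one_pos hddp hddp hτ hτp hQ.le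
  rw [hswap] at T10
  rw [← hAA] at T01 T10
  -- untruncation
  have hPen : ∀ c', PenC 0 (fun _ _ => True)
      (PhiC P ε i T g mu I t (p.kap t) (p.kc t) (p.Kl t) (p.r t) es c') := fun c' =>
    penPhi hS.fam (es c') hkapp.le hLa0 (p.kc t) (p.Kl t) (hr t ht htt)
  have hgl3 : ∀ c, ∀ K ∈ S.filter (fun w => idx S w ≤ nS), ∀ q ∈ W' K,
      av q (TWin.gl (W' K) (f c)) ≤ 3 := by
    intro c K hK q hq
    have hKS := (Finset.mem_filter.1 hK).1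
    exact av_gl3 (c := fun _ => 0) hPen (fun _ => zero_le_one) hf hη1 (fun c' => hS.avZ hk c')
      (hPt.full K hKS) (hPt.wsub K hKS) c hq
  obtain ⟨u1, u2, u3⟩ := hU hS hk H hH2 (S.filter (fun w => idx S w ≤ nS)) W'
    (fun K hK => ⟨hPt.full K (Finset.mem_filter.1 hK).1, hPt.wsub K (Finset.mem_filter.1 hK).1⟩) f
    hgl3
  rw [hS.slot 0, hS.slot 1] at u1 u2 u3
  have hfin : ∀ {x y : ℝ}, x ≤ y + Ku * (1 + (Real.log (1 + HfC P i t * HtC P i t) +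
      Real.log H)) * (LaC P ε i t / H) * Ls →
      y ≤ 9 * Q * (((bn nS : ℕ) : ℝ) + 1) ^ 2 * AA + errG P ε i m t KB KR (H * 3) (H * 3) (H * 3)
        (t ^ (-h0e)) (t ^ (2 * σ)) (A * t ^ tb) 1 dd dd nS Ls (len J) →
      x ≤ (K1 + K2 + K3 + K4 + 1) * (1 + B) * t ^ gG * AA := by
    intro x y h1 h2
    exact h1.trans ((add_le_add (h2.trans (add_le_add e3 e1)) e2).trans efin)
  exact ⟨hfin u1 T01.1, hfin u2 T10.1, hfin u3 T01.2⟩

end Crest.Agent.R079.GaIGx253
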