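import Crest.Agent.R079.GnN_263
import Crest.Agent.R079.GaBt_251

/-! R079, Step I, (G) words (helper571): POWERS OF `t`.

`one_log` : logarithms of polynomial expressions are `≤ K t ^ (-s)`;
`num_good`, `num_B`, `num_R`, `num_T` : the four prices of a (G) word. -/

set_option autoImplicit false

namespace Crest.Agent.R079.GaQx571

open Crest.Agent.R079.GnNx263 (nn nn_ge nn_le)

section basic

variable {t : ℝ}

lemma pw_pos (ht : 0 < t) (s : ℝ) : 0 < t ^ s := Real.rpow_pos_of_pos ht s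

lemma pw_le (ht : 0 < t) (ht1 : t ≤ 1) {s s' : ℝ} (h : s' ≤ s) : t ^ s ≤ t ^ s' :=
  Real.rpow_le_rpow_of_exponent_ge ht ht1 h

lemma pw_add (ht : 0 < t) (s s' : ℝ) : t ^ s * t ^ s' = t ^ (s + s') := (Real.rpow_add ht s s').symm

lemma one_le_pw (ht : 0 < t) (ht1 : t ≤ 1) {s : ℝ} (h : 0 ≤ s) : 1 ≤ t ^ (-s) := by
  have := pw_le ht ht1 (s := 0) (s' := -s) (by linarith)
  rwa [Real.rpow_zero] at this

/-- constant of the logarithm -/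
noncomputable def LK (A c s : ℝ) : ℝ := 1 + Real.log (1 + A) + c / s

lemma LK_nonneg {A c s : ℝ} (hA : 0 ≤ A) (hc : 0 ≤ c) (hs : 0 < s) : 0 ≤ LK A c s := by
  unfold LK
  have := Real.log_nonneg (show (1 : ℝ) ≤ 1 + A by linarith)
  positivity

/-- **logarithms of polynomial expressions** -/
theorem one_log (ht : 0 < t) (ht1 : t ≤ 1) {A c s E : ℝ} (hA : 0 ≤ A) (hc : 0 ≤ c) (hs : 0 < s)
    (hE : 0 ≤ E) (h : E ≤ A * t ^ (-c)) : 1 + Real.log (1 + E) ≤ LK A c s * t ^ (-s) := by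
  have h1 : 1 ≤ t ^ (-c) := one_le_pw ht ht1 hc
  have h2 : 1 + E ≤ (1 + A) * t ^ (-c) := by nlinarith
  have h3 := Real.log_le_log (by linarith) h2
  rw [Real.log_mul (by linarith) (by linarith [h1]), Real.log_rpow ht] at h3
  have h4 : -Real.log t ≤ t ^ (-s) / s := by
    have h5 := Real.log_le_rpow_div (x := t⁻¹) (inv_pos.2 ht).le hs
    rw [Real.log_inv, Real.inv_rpow ht.le, ← Real.rpow_neg ht.le] at h5
    exact h5
  have h5 : 1 ≤ t ^ (-s) := one_le_pw ht ht1 hs.le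
  have h6 : 0 ≤ Real.log (1 + A) := Real.log_nonneg (by linarith)
  have h7 : c * (-Real.log t) ≤ c * (t ^ (-s) / s) := mul_le_mul_of_nonneg_left h4 hc
  have h8 : c * (t ^ (-s) / s) = c / s * t ^ (-s) := by ring
  unfold LK
  nlinarith [mul_nonneg h6 (show 0 ≤ t ^ (-s) - 1 by linarith)]

/-- number of doublings -/
def bn (n : ℕ) : ℕ := Nat.log 2 n + 1

lemma n_le_bn (n : ℕ) : n ≤ 2 ^ bn n := (Nat.lt_pow_succ_log_self (by norm_num) n).le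

lemma pow_bn {n : ℕ} (hn : n ≠ 0) : (2 : ℝ) ^ (bn n + 1) ≤ 4 * n := by
  have h1 : 2 ^ Nat.log 2 n ≤ n := Nat.pow_log_le_self 2 hn
  have h2 : (2 : ℝ) ^ Nat.log 2 n ≤ n := by exact_mod_cast h1
  unfold bn
  rw [pow_add, pow_add]
  norm_num
  linarith

lemma bn_le (ht : 0 < t) (ht1 : t ≤ 1) {n : ℕ} (hn : n ≠ 0) {nE s : ℝ} (hnE : 0 ≤ nE) (hs : 0 < s)
    (h : (n : ℝ) ≤ 2 * t ^ (-nE)) : ((bn n : ℕ) : ℝ) + 1 ≤ 2 * LK 2 nE s * t ^ (-s) := by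
  have hn1 : (1 : ℝ) ≤ n := by exact_mod_cast Nat.one_le_iff_ne_zero.2 hn
  have h1 := one_log ht ht1 (A := 2) (c := nE) (s := s) (E := n) (by norm_num) hnE hs
    (by linarith) h
  have h2 : (Nat.log 2 n : ℝ) ≤ Real.log n / Real.log 2 := by
    have := Real.natLog_le_logb n 2
    rwa [Real.logb] at this
  have h3 : Real.log n ≤ Real.log (1 + n) := Real.log_le_log (by linarith) (by linarith)
  have h4 : (1 : ℝ) / 2 < Real.log 2 := by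
    have := Real.log_two_gt_d9
    linarith
  have h5 : Real.log n / Real.log 2 ≤ 2 * Real.log (1 + n) := by
    rw [div_le_iff₀ (by linarith)]
    have h6 : 0 ≤ Real.log (1 + (n : ℝ)) := Real.log_nonneg (by linarith)
    nlinarith
  unfold bn
  push_cast
  linarith

end basic

section pieces

variable {t : ℝ}

/-- **GOOD words** -/
theorem num_good {K0 A σ la xx ff c1 kx hh nE gy w : ℝ} (hK0 : 0 ≤ K0) (hA : 1 ≤ A) (hσ : 0 ≤ σ)
    (hxx : 0 ≤ xx) (hff : 0 ≤ ff) (hc1 : 0 ≤ c1) (hkx : 0 ≤ kx) (hhh : 0 ≤ hh) (hnE : 0 ≤ nE)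
    (hw : 0 < w) (hgy : gy + la + 3 * w ≤ σ + kx / 2) :
    ∃ K : ℝ, 0 ≤ K ∧ ∀ t, 0 < t → t ≤ 1 → ∀ n : ℕ, n ≠ 0 → (n : ℝ) ≤ 2 * t ^ (-nE) →
      ∀ τ La Ht Hf HC H H' L : ℝ, t ^ σ ≤ τ → τ ≤ A * t ^ σ → 0 ≤ La → La ≤ A * t ^ (-la) →
      0 ≤ Ht → Ht ≤ A * t ^ (-xx) → 0 ≤ Hf → Hf ≤ A * t ^ (-ff) → 0 ≤ HC → HC ≤ A * t ^ (-hh) →
      0 ≤ H → H ≤ A * t ^ (-hh) → 0 ≤ H' → H' ≤ A * t ^ (-hh) → 0 < L →
      K0 * (1 + Real.log (1 + HC ^ 2 * L * (H ^ 2 / (L * t ^ c1 / t ^ (-kx)) +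
        Hf * Ht * H' ^ 2 / (L * t ^ c1)) / τ ^ 2)) * τ * (La / √(t ^ (-kx))) *
        (9 * (((bn n : ℕ) : ℝ) + 1) ^ 2) ≤ K * t ^ gy := by
  set c : ℝ := 4 * hh + kx + c1 + 2 * σ + ff + xx with hc
  have hc0 : 0 ≤ c := by positivity
  have hA0 : 0 < A := by linarith
  have hA6 : 0 ≤ 2 * A ^ 6 := by positivity
  refine ⟨K0 * LK (2 * A ^ 6) c w * A * A * (9 * (2 * LK 2 nE w) ^ 2), ?_, ?_⟩
  · have := LK_nonneg hA6 hc0 hw
    have := LK_nonneg (A := 2) (by norm_num) hnE hw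
    positivity
  intro t ht ht1 n hn hnn τ La Ht Hf HC H H' L hτ1 hτ2 hLa0 hLa hHt0 hHt hHf0 hHf hHC0 hHC hH0 hH
    hH'0 hH' hL
  have P := pw_pos ht
  have hτ0 : 0 < τ := lt_of_lt_of_le (P σ) hτ1
  -- the argument of the logarithm
  have e1 : HC ^ 2 * L * (H ^ 2 / (L * t ^ c1 / t ^ (-kx)) + Hf * Ht * H' ^ 2 / (L * t ^ c1)) /
      τ ^ 2 = HC ^ 2 * (H ^ 2 * t ^ (-kx) + Hf * Ht * H' ^ 2) / (t ^ c1 * τ ^ 2) := by
    have h1 := (P c1).ne'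
    have h2 := (P (-kx)).ne'
    field_simp
  have hE0 : 0 ≤ HC ^ 2 * (H ^ 2 * t ^ (-kx) + Hf * Ht * H' ^ 2) / (t ^ c1 * τ ^ 2) := by
    have := P c1
    have := P (-kx)
    positivity
  have hE : HC ^ 2 * (H ^ 2 * t ^ (-kx) + Hf * Ht * H' ^ 2) / (t ^ c1 * τ ^ 2) ≤
      2 * A ^ 6 * t ^ (-c) := by
    have q1 : HC ^ 2 ≤ A ^ 2 * t ^ (-(2 * hh)) := by
      calc HC ^ 2 ≤ (A * t ^ (-hh)) ^ 2 := pow_le_pow_left₀ hHC0 hHC 2
        _ = A ^ 2 * (t ^ (-hh) * t ^ (-hh)) := by ring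
        _ = _ := by rw [pw_add ht]; congr 2; ring
    have q2 : H ^ 2 ≤ A ^ 2 * t ^ (-(2 * hh)) := by
      calc H ^ 2 ≤ (A * t ^ (-hh)) ^ 2 := pow_le_pow_left₀ hH0 hH 2
        _ = A ^ 2 * (t ^ (-hh) * t ^ (-hh)) := by ring
        _ = _ := by rw [pw_add ht]; congr 2; ring
    have q3 : H' ^ 2 ≤ A ^ 2 * t ^ (-(2 * hh)) := by
      calc H' ^ 2 ≤ (A * t ^ (-hh)) ^ 2 := pow_le_pow_left₀ hH'0 hH' 2
        _ = A ^ 2 * (t ^ (-hh) * t ^ (-hh)) := by ring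
        _ = _ := by rw [pw_add ht]; congr 2; ring
    have q4 : H ^ 2 * t ^ (-kx) ≤ A ^ 4 * t ^ (-(2 * hh + kx + ff + xx)) := by
      calc H ^ 2 * t ^ (-kx) ≤ A ^ 2 * t ^ (-(2 * hh)) * t ^ (-kx) :=
            mul_le_mul_of_nonneg_right q2 (P _).le
        _ = A ^ 2 * t ^ (-(2 * hh + kx)) := by
            rw [mul_assoc, pw_add ht]; congr 2; ring
        _ ≤ A ^ 4 * t ^ (-(2 * hh + kx + ff + xx)) := by
            refine mul_le_mul (pow_le_pow_right₀ hA (by norm_num)) (pw_le ht ht1 (by linarith))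
              (P _).le (by positivity)
    have q5 : Hf * Ht * H' ^ 2 ≤ A ^ 4 * t ^ (-(2 * hh + kx + ff + xx)) := by
      calc Hf * Ht * H' ^ 2 ≤ (A * t ^ (-ff)) * (A * t ^ (-xx)) * (A ^ 2 * t ^ (-(2 * hh))) := by
            refine mul_le_mul (mul_le_mul hHf hHt hHt0 (by have := P (-ff); positivity)) q3
              (by positivity) (by have := P (-ff); have := P (-xx); positivity)
        _ = A ^ 4 * (t ^ (-ff) * t ^ (-xx) * t ^ (-(2 * hh))) := by ring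
        _ = A ^ 4 * t ^ (-(2 * hh + ff + xx)) := by
            rw [pw_add ht, pw_add ht]; congr 2; ring
        _ ≤ _ := mul_le_mul_of_nonneg_left (pw_le ht ht1 (by linarith)) (by positivity)
    have q6 : (t ^ c1 * τ ^ 2)⁻¹ ≤ t ^ (-(c1 + 2 * σ)) := by
      rw [Real.rpow_neg ht.le]
      refine inv_anti₀ (P _) ?_
      have : t ^ (c1 + 2 * σ) = t ^ c1 * (t ^ σ * t ^ σ) := by
        rw [pw_add ht, pw_add ht]; congr 1; ring
      rw [this]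
      refine mul_le_mul_of_nonneg_left ?_ (P _).le
      rw [sq]
      exact mul_le_mul hτ1 hτ1 (P _).le hτ0.le
    rw [div_eq_mul_inv]
    calc HC ^ 2 * (H ^ 2 * t ^ (-kx) + Hf * Ht * H' ^ 2) * (t ^ c1 * τ ^ 2)⁻¹ ≤
        (A ^ 2 * t ^ (-(2 * hh))) * (A ^ 4 * t ^ (-(2 * hh + kx + ff + xx)) +
          A ^ 4 * t ^ (-(2 * hh + kx + ff + xx))) * t ^ (-(c1 + 2 * σ)) := by
          have a1 := P (-(2 * hh))
          have a2 := P (-(2 * hh + kx + ff + xx))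
          have a3 := P (-kx)
          have a4 := P c1
          refine mul_le_mul (mul_le_mul q1 (add_le_add q4 q5) (by positivity) (by positivity)) q6
            (by positivity) (by positivity)
      _ = 2 * A ^ 6 * (t ^ (-(2 * hh)) * t ^ (-(2 * hh + kx + ff + xx)) *
          t ^ (-(c1 + 2 * σ))) := by ring
      _ = _ := by
          rw [pw_add ht, pw_add ht, hc]
          congr 2
          ring
  rw [e1]
  have l1 := one_log ht ht1 hA6 hc0 hw hE0 hE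
  have l0 : 0 ≤ 1 + Real.log (1 + HC ^ 2 * (H ^ 2 * t ^ (-kx) + Hf * Ht * H' ^ 2) /
      (t ^ c1 * τ ^ 2)) := by
    have := Real.log_nonneg (show (1 : ℝ) ≤ 1 + HC ^ 2 * (H ^ 2 * t ^ (-kx) + Hf * Ht * H' ^ 2) /
      (t ^ c1 * τ ^ 2) by linarith)
    linarith
  have l2 := bn_le ht ht1 hn hnE hw hnn
  have hb0 : (0 : ℝ) ≤ ((bn n : ℕ) : ℝ) + 1 := by positivity
  have l3 : (((bn n : ℕ) : ℝ) + 1) ^ 2 ≤ (2 * LK 2 nE w) ^ 2 * t ^ (-(2 * w)) := by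
    calc _ ≤ (2 * LK 2 nE w * t ^ (-w)) ^ 2 := pow_le_pow_left₀ hb0 l2 2
      _ = (2 * LK 2 nE w) ^ 2 * (t ^ (-w) * t ^ (-w)) := by ring
      _ = _ := by rw [pw_add ht]; congr 2; ring
  have l4 : La / √(t ^ (-kx)) ≤ A * t ^ (-la + kx / 2) := by
    have e2 : √(t ^ (-kx)) = t ^ (-(kx / 2)) := by
      rw [Real.sqrt_eq_rpow, ← Real.rpow_mul ht.le]
      congr 1
      ring
    rw [e2, div_eq_mul_inv, ← Real.rpow_neg ht.le, neg_neg]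
    calc La * t ^ (kx / 2) ≤ A * t ^ (-la) * t ^ (kx / 2) :=
          mul_le_mul_of_nonneg_right hLa (P _).le
      _ = _ := by rw [mul_assoc, pw_add ht]
  have k1 := LK_nonneg hA6 hc0 hw
  have k2 := LK_nonneg (A := 2) (by norm_num) hnE hw
  have hs0 : 0 ≤ La / √(t ^ (-kx)) := div_nonneg hLa0 (Real.sqrt_nonneg _)
  calc _ ≤ K0 * (LK (2 * A ^ 6) c w * t ^ (-w)) * (A * t ^ σ) * (A * t ^ (-la + kx / 2)) *
        (9 * ((2 * LK 2 nE w) ^ 2 * t ^ (-(2 * w)))) := by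
        have a1 := P (-w)
        have a2 := P σ
        have a3 := P (-la + kx / 2)
        have a4 := P (-(2 * w))
        refine mul_le_mul (mul_le_mul (mul_le_mul (mul_le_mul_of_nonneg_left l1 hK0) hτ2 hτ0.le
          (by positivity)) l4 hs0 (by positivity)) (by linarith) (by positivity) (by positivity)
    _ = K0 * LK (2 * A ^ 6) c w * A * A * (9 * (2 * LK 2 nE w) ^ 2) *
        (t ^ (-w) * t ^ σ * t ^ (-la + kx / 2) * t ^ (-(2 * w))) := by ring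
    _ ≤ _ := by
        refine mul_le_mul_of_nonneg_left ?_ (by positivity)
        rw [pw_add ht, pw_add ht, pw_add ht]
        exact pw_le ht ht1 (by linarith)

lemma mul_A {a b x y : ℝ} (ht : 0 < t) {A B : ℝ} (hb : 0 ≤ b) (hA : 0 ≤ A)
    (h1 : a ≤ A * t ^ x) (h2 : b ≤ B * t ^ y) : a * b ≤ A * B * t ^ (x + y) := by
  calc a * b ≤ (A * t ^ x) * (B * t ^ y) :=
        mul_le_mul h1 h2 hb (mul_nonneg hA (pw_pos ht _).le)
    _ = A * B * (t ^ x * t ^ y) := by ring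
    _ = _ := by rw [pw_add ht]

lemma sq_A {a x : ℝ} (ht : 0 < t) {A : ℝ} (ha : 0 ≤ a) (h1 : a ≤ A * t ^ x) :
    a ^ 2 ≤ A ^ 2 * t ^ (2 * x) := by
  calc a ^ 2 ≤ (A * t ^ x) ^ 2 := pow_le_pow_left₀ ha h1 2
    _ = A ^ 2 * (t ^ x * t ^ x) := by ring
    _ = _ := by rw [pw_add ht]; congr 2; ring

/-- size of the tall gauges -/
lemma gau_A (ht : 0 < t) (ht1 : t ≤ 1) {A xx ff Ht Hf : ℝ} (hA : 1 ≤ A) (hxx : 0 ≤ xx)
    (hff : 0 ≤ ff) (hHt0 : 0 ≤ Ht) (hHt : Ht ≤ A * t ^ (-xx))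
    (hHf : Hf ≤ A * t ^ (-ff)) : max 1 √(Hf * Ht) ≤ A * t ^ (-(ff + xx)) := by
  have P := pw_pos ht
  have h1 : Hf * Ht ≤ A * A * t ^ (-ff + -xx) := mul_A ht hHt0 (by linarith) hHf hHt
  have h2 : 1 ≤ t ^ (-(ff + xx)) := one_le_pw ht ht1 (by linarith)
  refine max_le (by nlinarith) ?_
  refine Real.sqrt_le_iff.2 ⟨by have := P (-(ff + xx)); positivity, h1.trans ?_⟩
  rw [mul_pow, sq, sq]
  refine mul_le_mul_of_nonneg_left ?_ (by positivity)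
  rw [show -ff + -xx = -(ff + xx) by ring]
  nlinarith [P (-(ff + xx))]

/-- **KILLER words**: the logarithm -/
theorem num_Blog {A xx ff hh tb w : ℝ} (hA : 1 ≤ A) (hxx : 0 ≤ xx)
    (hff : 0 ≤ ff) (hhh : 0 ≤ hh) (htb : 0 ≤ tb) (hw : 0 < w) :
    ∃ K : ℝ, 0 ≤ K ∧ ∀ t, 0 < t → t ≤ 1 →
      ∀ τ Ht Hf Hc H1 h0 : ℝ, t ^ tb ≤ τ →
      0 ≤ Ht → Ht ≤ A * t ^ (-xx) → 0 ≤ Hf → Hf ≤ A * t ^ (-ff) → 0 ≤ Hc → Hc ≤ A * t ^ (-hh) →
      0 ≤ H1 → H1 ≤ A * t ^ (-hh) → 0 ≤ h0 → h0 ≤ A * t ^ (-hh) →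
      1 + Real.log (1 + (max 1 (√(Hf * Ht)) * H1 + h0) ^ 2 *
        (2 * (max 1 (√(Hf * Ht)) * Hc) ^ 2) / (1 * τ ^ 2)) ≤ K * t ^ (-w) := by
  set c : ℝ := 4 * (ff + xx) + 4 * hh + 2 * tb with hc
  have hc0 : 0 ≤ c := by positivity
  have hA0 : 0 < A := by linarith
  refine ⟨LK ((2 * A ^ 2) ^ 2 * (2 * (A ^ 2) ^ 2)) c w, LK_nonneg (by positivity) hc0 hw, ?_⟩
  intro t ht ht1 τ Ht Hf Hc H1 h0 hτ hHt0 hHt hHf0 hHf hHc0 hHc hH10 hH1 hh00 hh0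
  have P := pw_pos ht
  have hτ0 : 0 < τ := lt_of_lt_of_le (P tb) hτ
  have g1 := gau_A ht ht1 hA hxx hff hHt0 hHt hHf
  have g0 : 0 ≤ max 1 √(Hf * Ht) := le_trans zero_le_one (le_max_left _ _)
  have a1 : max 1 √(Hf * Ht) * H1 ≤ A * A * t ^ (-(ff + xx) + -hh) := mul_A ht hH10 hA0.le g1 hH1
  have a2 : max 1 √(Hf * Ht) * Hc ≤ A * A * t ^ (-(ff + xx) + -hh) := mul_A ht hHc0 hA0.le g1 hHc
  have a3 : max 1 √(Hf * Ht) * H1 + h0 ≤ (2 * A ^ 2) * t ^ (-(ff + xx) + -hh) := by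
    have b1 : h0 ≤ A * A * t ^ (-(ff + xx) + -hh) := by
      refine hh0.trans ?_
      refine mul_le_mul (by nlinarith) (pw_le ht ht1 (by linarith)) (P _).le (by positivity)
    nlinarith
  have a4 := sq_A ht (by positivity) a3
  have a5 : (max 1 √(Hf * Ht) * Hc) ^ 2 ≤ (A ^ 2) ^ 2 * t ^ (2 * (-(ff + xx) + -hh)) :=
    sq_A ht (by positivity) (by rw [sq]; exact a2)
  have a6 : (1 * τ ^ 2)⁻¹ ≤ t ^ (-(2 * tb)) := by
    rw [Real.rpow_neg ht.le, one_mul]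
    refine inv_anti₀ (P _) ?_
    have : t ^ (2 * tb) = t ^ tb * t ^ tb := by rw [pw_add ht]; congr 1; ring
    rw [this, sq]
    exact mul_le_mul hτ hτ (P _).le hτ0.le
  refine one_log ht ht1 (by positivity) hc0 hw (by positivity) ?_
  rw [div_eq_mul_inv]
  have p1 := P (2 * (-(ff + xx) + -hh))
  have p2 := P (-(2 * tb))
  calc (max 1 √(Hf * Ht) * H1 + h0) ^ 2 * (2 * (max 1 √(Hf * Ht) * Hc) ^ 2) * (1 * τ ^ 2)⁻¹ ≤
      ((2 * A ^ 2) ^ 2 * t ^ (2 * (-(ff + xx) + -hh))) *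
        (2 * ((A ^ 2) ^ 2 * t ^ (2 * (-(ff + xx) + -hh)))) * t ^ (-(2 * tb)) := by
        refine mul_le_mul (mul_le_mul a4 (by linarith) (by positivity) (by positivity)) a6
          (by positivity) (by positivity)
    _ = (2 * A ^ 2) ^ 2 * (2 * (A ^ 2) ^ 2) * (t ^ (2 * (-(ff + xx) + -hh)) *
        t ^ (2 * (-(ff + xx) + -hh)) * t ^ (-(2 * tb))) := by ring
    _ = _ := by
        rw [pw_add ht, pw_add ht, hc]
        congr 2
        ring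

/-- **REST words** -/
theorem num_R {K0 A δ σ la xx ff c1 hh nE gy w : ℝ} (hK0 : 0 ≤ K0) (hA : 1 ≤ A)
    (hxx : 0 ≤ xx) (hff : 0 ≤ ff) (hhh : 0 ≤ hh) (hw : 0 < w)
    (hδ : 2 * σ + ff ≤ δ) (hgy : gy + nE + la + c1 + 2 * w ≤ δ - 2 * σ - ff) :
    ∃ K : ℝ, 0 ≤ K ∧ ∀ t, 0 < t → t ≤ 1 → ∀ n : ℕ, (n : ℝ) ≤ 2 * t ^ (-nE) →
      ∀ La Ht Hf HC HX HY : ℝ, 0 ≤ La → La ≤ A * t ^ (-la) →
      1 ≤ Ht → Ht ≤ A * t ^ (-xx) → 0 ≤ Hf → Hf ≤ A * t ^ (-ff) → 0 ≤ HC → HC ≤ A * t ^ (-hh) →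
      0 ≤ HX → HX ≤ A * t ^ (-hh) → 0 ≤ HY → HY ≤ A * t ^ (-hh) →
      n * (La * (K0 * (1 + Real.log (1 + HC ^ 2 * (Hf * Ht * HX ^ 2 / t ^ (δ - 2 * σ - ff) +
        Hf * Ht * HY ^ 2 / t ^ (δ - 2 * σ - ff)) / 1 ^ 2)) * 1 *
        (√(Hf * A ^ 2 * (t ^ δ / t ^ (2 * σ)) * (1 + Real.log Ht) + t ^ (δ - 2 * σ - ff)) *
          √(Hf * A ^ 2 * (t ^ δ / t ^ (2 * σ)) * (1 + Real.log Ht) + t ^ (δ - 2 * σ - ff))))) ≤
        K * t ^ (gy + c1) := by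
  set d : ℝ := δ - 2 * σ - ff with hd
  have hd0 : 0 ≤ d := by linarith
  set c : ℝ := 4 * hh + ff + xx + d with hc
  have hc0 : 0 ≤ c := by positivity
  have hA0 : 0 < A := by linarith
  have k1 := LK_nonneg (A := A ^ 2 * (2 * (A * A * A ^ 2))) (by positivity) hc0 hw
  have k2 := LK_nonneg (A := A) (by positivity) hxx hw
  refine ⟨2 * (A * (K0 * LK (A ^ 2 * (2 * (A * A * A ^ 2))) c w * (A * A ^ 2 * LK A xx w + 1))),
    by positivity, ?_⟩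
  intro t ht ht1 n hn La Ht Hf HC HX HY hLa0 hLa hHt1 hHt hHf0 hHf hHC0 hHC hHX0 hHX hHY0 hHY
  have P := pw_pos ht
  have hHt0 : 0 ≤ Ht := by linarith
  have hlog0 : 0 ≤ Real.log Ht := Real.log_nonneg hHt1
  -- the logarithm
  have b1 : Hf * Ht ≤ A * A * t ^ (-ff + -xx) := mul_A ht hHt0 hA0.le hHf hHt
  have b2 := sq_A ht hHC0 hHC
  have b3 : ∀ {H : ℝ}, 0 ≤ H → H ≤ A * t ^ (-hh) → Hf * Ht * H ^ 2 / t ^ d ≤
      A * A * A ^ 2 * t ^ (-ff + -xx + 2 * (-hh) + -d) := by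
    intro H h0 h1
    have h2 : Hf * Ht * H ^ 2 ≤ A * A * A ^ 2 * t ^ (-ff + -xx + 2 * (-hh)) :=
      mul_A ht (by positivity) (by positivity) b1 (sq_A ht h0 h1)
    rw [div_eq_mul_inv, ← Real.rpow_neg ht.le]
    calc _ ≤ A * A * A ^ 2 * t ^ (-ff + -xx + 2 * (-hh)) * t ^ (-d) :=
          mul_le_mul_of_nonneg_right h2 (P _).le
      _ = _ := by rw [mul_assoc, pw_add ht]
  have b4 := b3 hHX0 hHX
  have b5 := b3 hHY0 hHY
  have hE0 : 0 ≤ HC ^ 2 * (Hf * Ht * HX ^ 2 / t ^ d + Hf * Ht * HY ^ 2 / t ^ d) / 1 ^ 2 := by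
    have := P d
    positivity
  have hE : HC ^ 2 * (Hf * Ht * HX ^ 2 / t ^ d + Hf * Ht * HY ^ 2 / t ^ d) / 1 ^ 2 ≤
      A ^ 2 * (2 * (A * A * A ^ 2)) * t ^ (-c) := by
    rw [one_pow, div_one]
    have h6 : Hf * Ht * HX ^ 2 / t ^ d + Hf * Ht * HY ^ 2 / t ^ d ≤
        2 * (A * A * A ^ 2) * t ^ (-ff + -xx + 2 * (-hh) + -d) := by linarith
    refine (mul_A ht (by have := P d; positivity) (by positivity) b2 h6).trans (le_of_eq ?_)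
    rw [hc]
    congr 2
    ring
  have l1 := one_log ht ht1 (by positivity) hc0 hw hE0 hE
  -- the energy
  have l2 : 1 + Real.log Ht ≤ LK A xx w * t ^ (-w) := by
    have h1 := one_log ht ht1 hA0.le hxx hw hHt0 hHt
    have h2 := Real.log_le_log (by linarith : (0 : ℝ) < Ht) (by linarith : Ht ≤ 1 + Ht)
    linarith
  have e1 : t ^ δ / t ^ (2 * σ) = t ^ (δ - 2 * σ) := (Real.rpow_sub ht _ _).symm
  have l3 : Hf * A ^ 2 * (t ^ δ / t ^ (2 * σ)) * (1 + Real.log Ht) + t ^ d ≤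
      (A * A ^ 2 * LK A xx w + 1) * t ^ (d - w) := by
    rw [e1]
    have h1 : Hf * A ^ 2 ≤ A * A ^ 2 * t ^ (-ff) := by
      have := mul_le_mul_of_nonneg_right hHf (sq_nonneg A)
      linarith
    have h2 : Hf * A ^ 2 * t ^ (δ - 2 * σ) ≤ A * A ^ 2 * 1 * t ^ (-ff + (δ - 2 * σ)) :=
      mul_A ht (P _).le (by positivity) h1 (le_of_eq (one_mul _).symm)
    have h3 : Hf * A ^ 2 * t ^ (δ - 2 * σ) * (1 + Real.log Ht) ≤
        A * A ^ 2 * 1 * LK A xx w * t ^ (-ff + (δ - 2 * σ) + -w) :=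
      mul_A ht (by linarith) (by positivity) h2 l2
    have h4 : t ^ d ≤ t ^ (d - w) := pw_le ht ht1 (by linarith)
    have h5 : -ff + (δ - 2 * σ) + -w = d - w := by rw [hd]; ring
    rw [h5] at h3
    linarith
  have s0 : 0 ≤ Hf * A ^ 2 * (t ^ δ / t ^ (2 * σ)) * (1 + Real.log Ht) + t ^ d := by
    have := P d
    have := P δ
    have := P (2 * σ)
    positivity
  rw [Real.mul_self_sqrt s0]
  have m1 : K0 * (1 + Real.log (1 + HC ^ 2 * (Hf * Ht * HX ^ 2 / t ^ d +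
      Hf * Ht * HY ^ 2 / t ^ d) / 1 ^ 2)) * 1 ≤
      K0 * LK (A ^ 2 * (2 * (A * A * A ^ 2))) c w * t ^ (-w) := by
    rw [mul_one]
    exact (mul_le_mul_of_nonneg_left l1 hK0).trans (le_of_eq (by ring))
  have m2 := mul_A ht s0 (by positivity) m1 l3
  have m3 := mul_A ht (a := La) (by
    have h1 : 0 ≤ 1 + Real.log (1 + HC ^ 2 * (Hf * Ht * HX ^ 2 / t ^ d +
      Hf * Ht * HY ^ 2 / t ^ d) / 1 ^ 2) := by
      have := Real.log_nonneg (show (1 : ℝ) ≤ 1 + HC ^ 2 * (Hf * Ht * HX ^ 2 / t ^ d +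
        Hf * Ht * HY ^ 2 / t ^ d) / 1 ^ 2 by linarith)
      linarith
    positivity) hA0.le hLa m2
  have m4 := mul_A ht (a := (n : ℝ)) (by
    have h1 : 0 ≤ 1 + Real.log (1 + HC ^ 2 * (Hf * Ht * HX ^ 2 / t ^ d +
      Hf * Ht * HY ^ 2 / t ^ d) / 1 ^ 2) := by
      have := Real.log_nonneg (show (1 : ℝ) ≤ 1 + HC ^ 2 * (Hf * Ht * HX ^ 2 / t ^ d +
        Hf * Ht * HY ^ 2 / t ^ d) / 1 ^ 2 by linarith)
      linarith
    positivity) (by norm_num) hn m3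
  refine m4.trans ?_
  refine mul_le_mul_of_nonneg_left (pw_le ht ht1 ?_) (by positivity)
  linarith

end pieces

end Crest.Agent.R079.GaQx571
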