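import Crest.Agent.R079.TauW_253
import Crest.Agent.R079.TKg_248

/-! R079, Step I, (G) words (helper253): TRUNCATION OF THE FROZEN KILLER LETTER (slot `m`).

* `tallM`     : the tall part of the letter of the slot `m` is killed next to a core mixture (`Rc`) and
  two letters of size `a`, `b` (from 248's `tall_TR`, scaled);
* `tallMT`    : the same for `E - τ_{H c} E`;
* `word_tauM` : a word over windows against the word with `F m` replaced by `τ_{H c} (F m)`. -/

set_option autoImplicit false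

namespace Crest.Agent.R079.TauMx253

open Finset Crest.Agent.R079.Grid Crest.Agent.R079.Growth Crest.Agent.R079.QRed
  Crest.Agent.R079.OpS276 Crest.Agent.R079.POx263 Crest.Agent.R079.BadN360
  Crest.Agent.R079.GnMx45 Crest.Agent.R079.AsmA844 Crest.Agent.R079.T6bx252
  Crest.Agent.R079.TRec Crest.Agent.R079.TKx248 Crest.Agent.R079.GaTx571
  Crest.Agent.R079.TauWx253

lemma TR_smul (bb : ℤ) (ε : ℕ → ℤ → ℂ) (W : Finset Nd) (F : Fin 4 → Fn) (r : Fin 4) (c : ℂ)
    (X : Fn) : TR bb ε W (Function.update F r (fun y => c * X y)) =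
      c * TR bb ε W (Function.update F r X) := by
  unfold TR
  rw [Finset.mul_sum]
  refine Finset.sum_congr rfl fun p _ => ?_
  exact (TRec.T2.Lp bb ε F r p).map_smul c X

lemma upc {x y : Fin 4} (h : x ≠ y) (X Y : Fn) (F : Fin 4 → Fn) :
    Function.update (Function.update F x X) y Y = Function.update (Function.update F y Y) x X :=
  Function.update_comm h X Y F

lemma smul3 (bb : ℤ) (ε : ℕ → ℤ → ℂ) (W : Finset Nd) (F : Fin 4 → Fn) {m x y : Fin 4}
    (hxm : x ≠ m) (hym : y ≠ m) (hxy : x ≠ y) (c a b : ℂ) (E X Y : Fn) :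
    TR bb ε W (Function.update (Function.update (Function.update F m (fun z => c * E z)) x
      (fun z => a * X z)) y (fun z => b * Y z)) =
      c * (a * (b * TR bb ε W (Function.update (Function.update (Function.update F m E) x X) y Y)))
      := by
  rw [TR_smul, upc hxy (fun z => a * X z) Y, TR_smul,
    upc hym.symm (fun z => c * E z) Y,
    upc hxm.symm (fun z => c * E z) X, TR_smul,
    upc hxy X Y, upc hym.symm E Y,
    upc hxm.symm E X]
  ring

/-- **the tall part of the killer letter is killed** -/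
theorem tallM : ∃ K : ℝ, 0 ≤ K ∧ ∀ (i m e e' : Fin 4), Dst4 i m e e' →
    ∀ {bb : ℤ} {ε : ℕ → ℤ → ℂ}, Adm bb ε → ∀ (W : Finset Nd) (J I : Nd), Full W J → iv J ⊆ iv I →
    ∀ (F : Fin 4 → Fn) (Ht Hf La H : ℝ), 0 < Ht → 0 < Hf → 1 ≤ H →
    Rc i m e e' I Ht Hf La (F i) → ∀ x y : Fin 4, Oth i m x y →
    ∀ (a b c : ℝ), 0 < a → 0 < b → 0 < c → ∀ E X Y : Fn,
    (∀ p ∈ W, av p X ≤ a) → (∀ p ∈ W, av p Y ≤ b) → (∀ p ∈ W, av p E ≤ c) →
    ‖∑ p ∈ W, v4 bb ε (Function.update F m (hi (H * c) E)) x y X Y p‖ ≤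
      K * (1 + (Real.log (1 + Hf * Ht) + Real.log H)) * (La / H) * (a * b * c) * len J := by
  obtain ⟨K, hK0, hK⟩ := tall_TR
  refine ⟨K, hK0, ?_⟩
  intro i m e e' hd bb ε hA W J I hW hJI F Ht Hf La H hHt hHf hH hF x y hO a b c ha hb hc E X Y hX hY
    hE
  have hmi : m ≠ i := hd.jk
  have hxm := hO.am
  have hym := hO.bm
  have hxy := hO.ab
  set G : Fin 4 → Fn := Function.update (Function.update (Function.update F m
    (fun z => ((c⁻¹ : ℝ) : ℂ) * E z)) x (fun z => ((a⁻¹ : ℝ) : ℂ) * X z)) y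
    (fun z => ((b⁻¹ : ℝ) : ℂ) * Y z) with hG
  have Gi : G i = F i := by
    rw [hG, Function.update_of_ne hO.bi.symm, Function.update_of_ne hO.ai.symm,
      Function.update_of_ne hmi.symm]
  have Gm : G m = fun z => ((c⁻¹ : ℝ) : ℂ) * E z := by
    rw [hG, Function.update_of_ne hym.symm, Function.update_of_ne hxm.symm, Function.update_self]
  have Gx : G x = fun z => ((a⁻¹ : ℝ) : ℂ) * X z := by
    rw [hG, Function.update_of_ne hxy, Function.update_self]
  have Gy : G y = fun z => ((b⁻¹ : ℝ) : ℂ) * Y z := by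
    rw [hG, Function.update_self]
  have sc : ∀ {u : ℝ} {Z : Fn}, 0 < u → (∀ p ∈ W, av p Z ≤ u) →
      ∀ p ∈ W, av p (fun z => ((u⁻¹ : ℝ) : ℂ) * Z z) ≤ 1 := by
    intro u Z hu hZ p hp
    rw [av_smul' p (inv_nonneg.2 hu.le)]
    have := mul_le_mul_of_nonneg_left (hZ p hp) (inv_nonneg.2 hu.le)
    rwa [inv_mul_cancel₀ hu.ne'] at this
  have h1 := hK i m e e' m hd hmi hA W J I hW hJI G Ht Hf La H hHt hHf hH (by rw [Gi]; exact hF)
    (fun j hj p hp => by
      rcases oth_cases hmi.symm hO.ai hxm hO.bi hym hxy hj with rfl | rfl | rfl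
      · rw [Gm]; exact sc hc hE p hp
      · rw [Gx]; exact sc ha hX p hp
      · rw [Gy]; exact sc hb hY p hp)
  have e1 : Function.update G m (hi H (G m)) =
      Function.update (Function.update (Function.update F m
        (fun z => ((c⁻¹ : ℝ) : ℂ) * hi (H * c) E z)) x (fun z => ((a⁻¹ : ℝ) : ℂ) * X z)) y
        (fun z => ((b⁻¹ : ℝ) : ℂ) * Y z) := by
    rw [Gm, hi_smul hc]
    funext j
    by_cases hjm : j = m
    · subst hjm
      rw [Function.update_self, Function.update_of_ne hym.symm, Function.update_of_ne hxm.symm,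
        Function.update_self]
    · rw [Function.update_of_ne hjm, hG]
      by_cases hjy : j = y
      · subst hjy
        rw [Function.update_self, Function.update_self]
      · rw [Function.update_of_ne hjy, Function.update_of_ne hjy]
        by_cases hjx : j = x
        · subst hjx
          rw [Function.update_self, Function.update_self]
        · rw [Function.update_of_ne hjx, Function.update_of_ne hjx, Function.update_of_ne hjm,
            Function.update_of_ne hjm]
  rw [e1, smul3 bb ε W F hxm hym hxy, norm_mul, norm_mul, norm_mul, Complex.norm_real,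
    Complex.norm_real, Complex.norm_real, Real.norm_of_nonneg (inv_nonneg.2 ha.le),
    Real.norm_of_nonneg (inv_nonneg.2 hb.le), Real.norm_of_nonneg (inv_nonneg.2 hc.le)] at h1
  have h2 : ∑ p ∈ W, v4 bb ε (Function.update F m (hi (H * c) E)) x y X Y p =
      TR bb ε W (Function.update (Function.update (Function.update F m (hi (H * c) E)) x X) y Y) :=
    rfl
  rw [h2]
  have h3 := mul_le_mul_of_nonneg_left h1 (show 0 ≤ a * b * c by positivity)
  have h4 : a * b * c * (c⁻¹ * (a⁻¹ * (b⁻¹ * ‖TR bb ε W (Function.update (Function.update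
      (Function.update F m (hi (H * c) E)) x X) y Y)‖))) = ‖TR bb ε W (Function.update
      (Function.update (Function.update F m (hi (H * c) E)) x X) y Y)‖ := by
    field_simp
  rw [h4] at h3
  refine h3.trans (le_of_eq ?_)
  ring

/-- the same for the difference with the truncation `τ_{H c}` -/
theorem tallMT : ∃ K : ℝ, 0 ≤ K ∧ ∀ (i m e e' : Fin 4), Dst4 i m e e' →
    ∀ {bb : ℤ} {ε : ℕ → ℤ → ℂ}, Adm bb ε → ∀ (W : Finset Nd) (J I : Nd), Full W J → iv J ⊆ iv I →
    ∀ (F : Fin 4 → Fn) (Ht Hf La H : ℝ), 0 < Ht → 0 < Hf → 0 ≤ La → 2 ≤ H →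
    Rc i m e e' I Ht Hf La (F i) → ∀ x y : Fin 4, Oth i m x y →
    ∀ (a b c : ℝ), 0 < a → 0 < b → 0 < c → ∀ E X Y : Fn,
    (∀ p ∈ W, av p X ≤ a) → (∀ p ∈ W, av p Y ≤ b) → (∀ p ∈ W, av p E ≤ c) →
    ‖∑ p ∈ W, v4 bb ε (Function.update F m (fun z => E z - tau (H * c) (E z))) x y X Y p‖ ≤
      K * (1 + (Real.log (1 + Hf * Ht) + Real.log H)) * (La / H) * (a * b * c) * len J := by
  obtain ⟨K, hK0, hK⟩ := tallM
  refine ⟨3 * K, by positivity, ?_⟩
  intro i m e e' hd bb ε hA W J I hW hJI F Ht Hf La H hHt hHf hLa hH hF x y hO a b c ha hb hc E X Y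
    hX hY hE
  have hH0 : 0 < H := by linarith
  have hHc : 0 < H * c := mul_pos hH0 hc
  have hmx : m ≠ x := hO.am.symm
  have hmy : m ≠ y := hO.bm.symm
  have e1 : (fun z => E z - tau (H * c) (E z)) =
      fun z => hi (H * c) E z - hi (H / 2 * c) (uH (H * c) E) z := by
    funext z
    rw [sub_tau hHc, show H / 2 * c = H * c / 2 by ring]
  have hu : ∀ p ∈ W, av p (uH (H * c) E) ≤ c := fun p hp =>
    (av_mono' fun z _ => norm_uH_le hHc E z).trans (hE p hp)
  have f1 := hK i m e e' hd hA W J I hW hJI F Ht Hf La H hHt hHf (by linarith) hF x y hO a b c ha hb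
    hc E X Y hX hY hE
  have f2 := hK i m e e' hd hA W J I hW hJI F Ht Hf La (H / 2) hHt hHf (by linarith) hF x y hO a b c
    ha hb hc (uH (H * c) E) X Y hX hY hu
  have e2 : ∑ p ∈ W, v4 bb ε (Function.update F m (fun z => E z - tau (H * c) (E z))) x y X Y p =
      ∑ p ∈ W, v4 bb ε (Function.update F m (hi (H * c) E)) x y X Y p -
      ∑ p ∈ W, v4 bb ε (Function.update F m (hi (H / 2 * c) (uH (H * c) E))) x y X Y p := by
    rw [e1]
    have h : ∀ Z : Fn, ∑ p ∈ W, v4 bb ε (Function.update F m Z) x y X Y p =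
        TR bb ε W (Function.update (Function.update (Function.update F x X) y Y) m Z) := by
      intro Z
      unfold TR v4
      refine Finset.sum_congr rfl fun p _ => ?_
      rw [upc hmx Z X, upc hmy Z Y]
    rw [h, h, h, TR_sub]
  rw [e2]
  refine (norm_sub_le _ _).trans ((add_le_add f1 f2).trans ?_)
  have hlJ := (Growth.len_pos J).le
  have hL1 : 0 ≤ Real.log (1 + Hf * Ht) := Real.log_nonneg (by nlinarith [mul_pos hHf hHt])
  have hL2 : Real.log (H / 2) ≤ Real.log H := Real.log_le_log (by linarith) (by linarith)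
  have hP : 0 ≤ (La / H) * (a * b * c) * len J := by positivity
  have e3 : La / (H / 2) = 2 * (La / H) := by
    field_simp
  rw [e3]
  have h5 : K * (1 + (Real.log (1 + Hf * Ht) + Real.log (H / 2))) ≤
      K * (1 + (Real.log (1 + Hf * Ht) + Real.log H)) :=
    mul_le_mul_of_nonneg_left (by linarith) hK0
  have h6 := mul_le_mul_of_nonneg_right h5 (mul_nonneg (by norm_num : (0 : ℝ) ≤ 2) hP)
  calc K * (1 + (Real.log (1 + Hf * Ht) + Real.log H)) * (La / H) * (a * b * c) * len J +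
        K * (1 + (Real.log (1 + Hf * Ht) + Real.log (H / 2))) * (2 * (La / H)) * (a * b * c) * len J
      = K * (1 + (Real.log (1 + Hf * Ht) + Real.log H)) * ((La / H) * (a * b * c) * len J) +
        K * (1 + (Real.log (1 + Hf * Ht) + Real.log (H / 2))) *
          (2 * ((La / H) * (a * b * c) * len J)) := by ring
    _ ≤ K * (1 + (Real.log (1 + Hf * Ht) + Real.log H)) * ((La / H) * (a * b * c) * len J) +
        K * (1 + (Real.log (1 + Hf * Ht) + Real.log H)) *
          (2 * ((La / H) * (a * b * c) * len J)) := by linarith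
    _ = _ := by ring

/-- **a word over windows against the word with the truncated killer letter** -/
theorem word_tauM : ∃ K : ℝ, 0 ≤ K ∧ ∀ (i m e e' : Fin 4), Dst4 i m e e' →
    ∀ {bb : ℤ} {ε : ℕ → ℤ → ℂ}, Adm bb ε → ∀ (R0 : Finset Nd) (I0 I : Nd), Full R0 I0 →
    iv I0 ⊆ iv I →
    ∀ (F : Fin 4 → Fn) (Ht Hf La H : ℝ), 0 < Ht → 0 < Hf → 0 ≤ La → 2 ≤ H →
    Rc i m e e' I Ht Hf La (F i) → ∀ x y : Fin 4, Oth i m x y →
    ∀ (c : ℝ), 0 < c → (∀ p ∈ R0, av p (F m) ≤ c) →
    ∀ (S : Finset Nd) (W : Nd → Finset Nd), (∀ K ∈ S, Full (W K) K ∧ W K ⊆ R0) →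
    ∀ (a b : ℝ), 0 < a → 0 < b → ∀ X Y : Nd → Fn,
    (∀ K ∈ S, ∀ p ∈ W K, av p (X K) ≤ a) → (∀ K ∈ S, ∀ p ∈ W K, av p (Y K) ≤ b) →
    ‖∑ K ∈ S, ∑ p ∈ W K, v4 bb ε F x y (X K) (Y K) p‖ ≤
      ‖∑ K ∈ S, ∑ p ∈ W K, v4 bb ε (Function.update F m (fun z => tau (H * c) (F m z))) x y
        (X K) (Y K) p‖ +
      K * (1 + (Real.log (1 + Hf * Ht) + Real.log H)) * (La / H) * (a * b * c) *
        ∑ K ∈ S, len K := by
  obtain ⟨K0, hK0, hK⟩ := tallMT
  refine ⟨K0, hK0, ?_⟩
  intro i m e e' hd bb ε hA R0 I0 I hR0 hI0 F Ht Hf La H hHt hHf hLa hH hF x y hO c hc hFm S W hS a b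
    ha hb X Y hX hY
  have hmx : m ≠ x := hO.am.symm
  have hmy : m ≠ y := hO.bm.symm
  have e1 : ∑ K ∈ S, ∑ p ∈ W K, v4 bb ε F x y (X K) (Y K) p =
      ∑ K ∈ S, ∑ p ∈ W K, v4 bb ε (Function.update F m (fun z => tau (H * c) (F m z))) x y
        (X K) (Y K) p +
      ∑ K ∈ S, ∑ p ∈ W K, v4 bb ε (Function.update F m (fun z => F m z - tau (H * c) (F m z))) x y
        (X K) (Y K) p := by
    rw [← Finset.sum_add_distrib]
    refine Finset.sum_congr rfl fun K _ => ?_
    have h : ∀ Z : Fn, ∑ p ∈ W K, v4 bb ε (Function.update F m Z) x y (X K) (Y K) p =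
        TR bb ε (W K) (Function.update (Function.update (Function.update F x (X K)) y (Y K)) m Z)
        := by
      intro Z
      unfold TR v4
      refine Finset.sum_congr rfl fun p _ => ?_
      rw [upc hmx Z (X K), upc hmy Z (Y K)]
    have h0 : ∑ p ∈ W K, v4 bb ε F x y (X K) (Y K) p =
        ∑ p ∈ W K, v4 bb ε (Function.update F m (F m)) x y (X K) (Y K) p := by
      rw [Function.update_eq_self]
    rw [h0, h, h, h, ← TR_sub]
    ring
  rw [e1]
  refine (norm_add_le _ _).trans (add_le_add le_rfl ?_)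
  rw [Finset.mul_sum]
  refine (norm_sum_le _ _).trans (Finset.sum_le_sum fun K hKS => ?_)
  obtain ⟨hWF, hWR⟩ := hS K hKS
  exact hK i m e e' hd hA (W K) K I hWF ((hR0.reg.1 K (hWR hWF.top)).trans hI0) F Ht Hf La H hHt hHf
    hLa hH hF x y hO a b c ha hb hc (F m) (X K) (Y K) (hX K hKS) (hY K hKS)
    (fun p hp => hFm p (hWR hp))

end Crest.Agent.R079.TauMx253
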