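import Crest.Agent.R079.GaO_571
import Crest.Agent.R079.GaQ_571
import Crest.Agent.R079.GaK_256
import Crest.Agent.R079.GaL_446
import Crest.Agent.R079.GaM_446
import Crest.Agent.R079.B0N_253
import Crest.Agent.R079.TauM_253

/-! R079, Step I, (G) words (helper571): THE TWO TYPES OF (G) TOTALS for the common instance
`Fam` / `PhiE` (GaD_571), letters truncated, killer letter bounded.

* `slots` : the edges `e, e'` of the two moving slots;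
* `core_static`, `core_moving` : `g_static`, `g_moving` (GaO_571) with `HG` (256), `HB` (253),
  `HRst` (446) inserted. -/

set_option autoImplicit false

namespace Crest.Agent.R079.GaNx571

open Finset Crest.Agent.R079.Grid Crest.Agent.R079.Glue Crest.Agent.R079.Growth
  Crest.Agent.R079.QRed Crest.Agent.R079.TWin
open Crest.Agent.R079.RelW653 (vl NMP Jv Dv)
open Crest.Agent.R079.GaAx571 Crest.Agent.R079.GaBx571 Crest.Agent.R079.GaWx571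
  Crest.Agent.R079.GaXx571 Crest.Agent.R079.GaMx571 Crest.Agent.R079.GaSx571
  Crest.Agent.R079.GaTx571 Crest.Agent.R079.GaVx571 Crest.Agent.R079.GaZx260
  Crest.Agent.R079.GaFx371 Crest.Agent.R079.GaUx571 Crest.Agent.R079.GaRx571
open Crest.Agent.R079.Cel159 Crest.Agent.R079.ThA159 Crest.Agent.R079.Stk
  Crest.Agent.R079.PFx263 Crest.Agent.R079.GaDx571 Crest.Agent.R079.GaOx571
  Crest.Agent.R079.GaKx256 Crest.Agent.R079.GaQx571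
open Crest.Agent.R079.AsmA844 (v4 Oth)
open Crest.Agent.R079.GnMx45 (en en_nonneg)

lemma slots3 : ∀ v a b : Fin 3, a ≠ v → b ≠ v → a ≠ b → ∃ e e' : Fin 3, e ≠ e' ∧ e ≠ v + 1 ∧
    e' ≠ v + 1 ∧ a = e + 2 ∧ b = e' + 2 := by decide

/-- the edges of the two moving slots -/
theorem slots {i m x y : Fin 4} (hO : Oth i m x y) {v : Fin 3} (hv : i.succAbove v = m) :
    ∃ e e' : Fin 3, e ≠ e' ∧ e ≠ v + 1 ∧ e' ≠ v + 1 ∧ x = i.succAbove (e + 2) ∧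
      y = i.succAbove (e' + 2) := by
  obtain ⟨a, rfl⟩ := Fin.exists_succAbove_eq hO.ai
  obtain ⟨b, rfl⟩ := Fin.exists_succAbove_eq hO.bi
  have h1 : a ≠ v := fun h => hO.am (by rw [h, hv])
  have h2 : b ≠ v := fun h => hO.bm (by rw [h, hv])
  have h3 : a ≠ b := fun h => hO.ab (by rw [h])
  obtain ⟨e, e', h4, h5, h6, rfl, rfl⟩ := slots3 v a b h1 h2 h3
  exact ⟨e, e', h4, h5, h6, rfl, rfl⟩

lemma sqrt_A {A0 η : ℝ} (hA0 : 2 ≤ A0) (hη : η ≤ 1 / 2) : √(2 * (1 : ℝ) ^ 2 + 4 * η) ≤ A0 :=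
  Real.sqrt_le_iff.2 ⟨by linarith, by nlinarith⟩

/-- **STATIC TOTAL**, truncated letters -/
theorem core_static : ∃ K1 K2 K4 : ℝ, 0 ≤ K1 ∧ 0 ≤ K2 ∧ 0 ≤ K4 ∧
    ∀ {bb : ℤ}, bb = -1 ∨ bb = -7 → ∀ {i m : Fin 4} {v : Fin 3} {I : Nd} {Ht Hf La : ℝ} {N : ℕ}
    {f0 : Fn} {T : Fin N → Fin 3 → Finset ℤ} {g : Fin N → Fin 3 → ℤ → ℤ → ℂ}
    {θ : Fin N → ℤ → ℝ} {μ : Fin N → ℝ}, Fam i m v I Ht Hf La N f0 T g θ μ →
    1 ≤ Ht → 0 ≤ Hf → 0 < La → ∀ {R : Finset Nd} {J : Nd}, Full R J → iv J ⊆ iv I →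
    ∀ {S : Finset Nd} {W : Nd → Finset Nd} {C : ℝ}, TWin.Part R S W C →
    ∀ {F : Fin 4 → Fn} {s ε D Hh dd τ A0 : ℝ}, F i = f0 → 0 ≤ s → 0 < ε → 0 ≤ D → 0 < Hh →
    0 < dd → 2 ≤ A0 → (∀ p ∈ R, av p (F m) ≤ 1) → (∀ y, ‖F m y‖ ≤ Hh) →
    (∀ l, GaIx256.ExE i (v + 1) R (T l) (g l) (F m) s D) →
    ∀ {e e' : Fin 3}, e ≠ e' → e ≠ v + 1 → e' ≠ v + 1 →
    ∀ {kap : ℝ} {kc Kl : ℕ}, 0 < kap → 0 < Kl → ∀ {r : ℕ → ℝ}, (∀ q, 0 ≤ r q) →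
    ∀ {X : Fn} {η : ℝ} {f : Nd → Fn},
    NMP (fun _ _ => True) (PhiE i e T g μ I La kap kc Kl r) X η f →
    (∀ p ∈ R, av p X ≤ 1) → η ≤ 1 / 2 → GaBtx251.tauB kc (r 0) Ht Hf A0 Hh Hh ≤ τ → 0 < τ →
    ∀ {n : ℕ} {m0 : ℝ}, 0 < m0 → η * (2 * n + 1) ≤ m0 →
    ∀ {epsi : ℕ → ℤ → ℂ}, (∀ m x, ‖epsi m x‖ ≤ 1) →
    ∀ {Y : Fn}, (∀ y, ‖Y y‖ ≤ Hh) → (∀ p ∈ R, av p Y ≤ A0) →
    ‖∑ K ∈ S.filter (fun K => idx S K ≤ n), ∑ q ∈ W K,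
      v4 bb epsi F (i.succAbove (e + 2)) (i.succAbove (e' + 2)) (fun y => tau Hh (gl (W K) f y))
        Y q‖ ≤
      9 * (n1G K1 J Hh 1 s ε Hf Ht (2 ^ (bn n + 1) * Hh) (2 ^ (bn n + 1) * Hh)
        (len J * m0 / kap) (len J * m0) * (La / √kap)) * ((bn n : ℕ) + 1) ^ 2 *
          ((m0 + en J X Y) * len J) +
      (La * B0Nx253.eKB K4 Ht Hf Hh Hh Hh τ 1 A0 1 *
        ∑ K ∈ S.filter (fun K => idx S K ≤ n), len K +
        n * (La * GaLx446.eRst K2 Ht Hf D ε 1 Hh Hh Hh A0 A0 dd dd * len J)) := by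
  obtain ⟨K1, hK1, hg⟩ := hg_fam
  obtain ⟨K2, hK2, hr0⟩ := GaLx446.hrst_static
  obtain ⟨K4, hK4, hb⟩ := B0Nx253.hb_static
  refine ⟨K1, K2, K4, hK1, hK2, hK4, ?_⟩
  intro bb hbb i m v I Ht Hf La N f0 T g θ μ hFam hHt hHf hLa R J hR hJI S W C hPt F s ε D Hh dd τ
    A0 hFi hs hε hD hHh hdd hA0 hFm hFmH hEx e e' hee he he' kap kc Kl hkap hKl r hr X η f hN hX hη
    hτB hτ n m0 hm0 hηm epsi hepsi Y hYH hY
  obtain ⟨L1, -, hcov⟩ := exists_cube T (J.1 + 1) 0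
  have hW := gw_fam hFam hbb hee hJI hLa hkap kc hKl hr hFi hcov hR hepsi
  have hτ2 : 0 < 81 * s + 170 * (1 : ℝ) * √ε := by
    have := Real.sqrt_pos.2 hε
    linarith
  have hl := Growth.len_pos J
  have hfa : 0 < len J * m0 / kap := div_pos (mul_pos hl hm0) hkap
  have hfb : 0 < len J * m0 := mul_pos hl hm0
  have hAX := sqrt_A (η := η) hA0 hη
  have hG := hg hFam hHf hbb hee he he' hJI hR hKl (F := F) (s := s) (ε := ε) (Av := 1) (HC := Hh)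
    hs hε.le zero_le_one hτ2 hFm (fun y _ => hFmH y) (H := 2 ^ (bn n + 1) * Hh)
    (H' := 2 ^ (bn n + 1) * Hh) hfa hfb L1
  have hB := hb bb hbb i m v I Ht Hf La N f0 T g θ μ hFam hHf hLa R J hR hJI S W C hPt F (F m) 1 Hh
    Hh Hh τ 1 A0 A0 (fun y _ => rfl) hFm (fun y _ => hFmH y) hHh.le e e' hee he he' n kap kc Kl hKl
    r X η 1 f hkap.le hr hN hX hAX hHh hHh hτB hτ one_pos Y (fun y _ => hYH y) hY L1 (J.1 + 1)
  have hRs := hr0 bb hbb i m v I Ht Hf La N f0 T g θ μ hFam hHt hHf hLa R J hR hJI S W C hPt F (F m)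
    s ε D 1 Hh Hh Hh A0 A0 dd dd (fun y _ => rfl) hε hD one_pos hFm (fun y _ => hFmH y) hEx e e' hee
    he he' n kap kc Kl r X η 1 f hkap.le hr hN hX hAX hHh.le Y (fun y _ => hYH y) hY hdd hdd L1
  have hN' := hN
  rw [phi_eq] at hN'
  have hN1 : 0 ≤ n1G K1 J Hh 1 s ε Hf Ht (2 ^ (bn n + 1) * Hh) (2 ^ (bn n + 1) * Hh)
      (len J * m0 / kap) (len J * m0) :=
    n1G_nonneg hK1 J zero_le_one hs hHf (by linarith) hfa.le hfb.le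
  have heB := B0Nx253.eKB_nonneg (Ht := Ht) (Hf := Hf) (H1 := Hh) (h0 := Hh) (H := Hh) hK4 hτ.le
    (zero_le_one : (0 : ℝ) ≤ 1) (show 0 ≤ A0 by linarith) (zero_le_one : (0 : ℝ) ≤ 1)
  have heR := GaLx446.eRst_nonneg (D := D) (ε := ε) (HC := Hh) (HX := Hh) (HY := Hh) (AX := A0)
    (AY := A0) hK2 hHt hHf (zero_le_one : (0 : ℝ) ≤ 1) hdd.le hdd.le
  have main := g_static hW hN' hR hPt (n_le_bn n) hm0.le hηm hN1 le_rfl heB heR hG Y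
    (fun y _ => hYH y) hHh.le le_rfl le_rfl hB hRs
  refine main.trans (add_le_add ?_ le_rfl)
  have hQ0 : 0 ≤ n1G K1 J Hh 1 s ε Hf Ht (2 ^ (bn n + 1) * Hh) (2 ^ (bn n + 1) * Hh)
      (len J * m0 / kap) (len J * m0) * (La / √kap) :=
    mul_nonneg hN1 (div_nonneg hLa.le (Real.sqrt_nonneg _))
  have hen := en_nonneg J X Y
  have h1 : 0 ≤ (m0 + en J X Y) * len J := mul_nonneg (by linarith) hl.le
  have hb0 : (0 : ℝ) ≤ (bn n : ℕ) := Nat.cast_nonneg _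
  refine mul_le_mul_of_nonneg_right (mul_le_mul_of_nonneg_right ?_ (by positivity)) h1
  linarith

/-- **MOVING TOTAL**, truncated letters -/
theorem core_moving : ∃ K1 K2 K4 : ℝ, 0 ≤ K1 ∧ 0 ≤ K2 ∧ 0 ≤ K4 ∧
    ∀ {bb : ℤ}, bb = -1 ∨ bb = -7 → ∀ {i m : Fin 4} {v : Fin 3} {I : Nd} {Ht Hf La : ℝ} {N : ℕ}
    {f0 : Fn} {T : Fin N → Fin 3 → Finset ℤ} {g : Fin N → Fin 3 → ℤ → ℤ → ℂ}
    {θ : Fin N → ℤ → ℝ} {μ : Fin N → ℝ}, Fam i m v I Ht Hf La N f0 T g θ μ →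
    1 ≤ Ht → 0 ≤ Hf → 0 < La → ∀ {R : Finset Nd} {J : Nd}, Full R J → iv J ⊆ iv I →
    ∀ {S : Finset Nd} {W : Nd → Finset Nd} {C : ℝ}, TWin.Part R S W C →
    ∀ {F : Fin 4 → Fn} {s ε D Hh dd τ A0 : ℝ}, F i = f0 → 0 ≤ s → 0 < ε → 0 ≤ D → 0 < Hh →
    0 < dd → 2 ≤ A0 → (∀ p ∈ R, av p (F m) ≤ 1) → (∀ y, ‖F m y‖ ≤ Hh) →
    (∀ l, GaIx256.ExE i (v + 1) R (T l) (g l) (F m) s D) →
    ∀ {e e' : Fin 3}, e ≠ e' → e ≠ v + 1 → e' ≠ v + 1 →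
    ∀ {kap : ℝ} {kc Kl : ℕ}, 0 < kap → 0 < Kl → ∀ {r : ℕ → ℝ}, (∀ q, 0 ≤ r q) →
    ∀ {X : Fn} {η : ℝ} {f : Nd → Fn},
    NMP (fun _ _ => True) (PhiE i e T g μ I La kap kc Kl r) X η f →
    (∀ p ∈ R, av p X ≤ 1) → η ≤ 1 / 2 → GaBtx251.tauB kc (r 0) Ht Hf A0 Hh Hh ≤ τ → 0 < τ →
    ∀ {n : ℕ} {m0 : ℝ}, 0 < m0 → η * (2 * n + 1) ≤ m0 →
    ∀ {epsi : ℕ → ℤ → ℂ}, (∀ m x, ‖epsi m x‖ ≤ 1) →
    ∀ {Y : Fn} {f' : Nd → Fn},
    NMP (fun _ _ => True) (PhiE i e' T g μ I La kap kc Kl r) Y η f' → (∀ p ∈ R, av p Y ≤ 1) →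
    ‖∑ K ∈ S.filter (fun K => idx S K ≤ n), ∑ q ∈ W K,
      v4 bb epsi F (i.succAbove (e + 2)) (i.succAbove (e' + 2)) (fun y => tau Hh (gl (W K) f y))
        (fun y => tau Hh (gl (W K) f' y)) q‖ ≤
      9 * (n1G K1 J Hh 1 s ε Hf Ht (2 ^ (bn n + 1) * Hh) (2 ^ (bn n + 1) * Hh)
        (len J * m0 / kap) (len J * m0) * (La / √kap)) * ((bn n : ℕ) + 1) ^ 2 *
          ((m0 + en J X Y) * len J) +
      (La * B0Nx253.eKB K4 Ht Hf Hh Hh Hh τ 1 A0 1 *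
        ∑ K ∈ S.filter (fun K => idx S K ≤ n), len K +
        n * (La * GaLx446.eRst K2 Ht Hf D ε 1 Hh Hh Hh A0 A0 dd dd * len J)) := by
  obtain ⟨K1, hK1, hg⟩ := hg_fam
  obtain ⟨K2, hK2, hr0⟩ := GaLx446.hrst_moving
  obtain ⟨K4, hK4, hb⟩ := B0Nx253.hb_moving
  refine ⟨K1, K2, K4, hK1, hK2, hK4, ?_⟩
  intro bb hbb i m v I Ht Hf La N f0 T g θ μ hFam hHt hHf hLa R J hR hJI S W C hPt F s ε D Hh dd τ
    A0 hFi hs hε hD hHh hdd hA0 hFm hFmH hEx e e' hee he he' kap kc Kl hkap hKl r hr X η f hN hX hη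
    hτB hτ n m0 hm0 hηm epsi hepsi Y f' hNY hY
  obtain ⟨L1, -, hcov⟩ := exists_cube T (J.1 + 1) 0
  have hW := gw_fam hFam hbb hee hJI hLa hkap kc hKl hr hFi hcov hR hepsi
  have hτ2 : 0 < 81 * s + 170 * (1 : ℝ) * √ε := by
    have := Real.sqrt_pos.2 hε
    linarith
  have hl := Growth.len_pos J
  have hfa : 0 < len J * m0 / kap := div_pos (mul_pos hl hm0) hkap
  have hfb : 0 < len J * m0 := mul_pos hl hm0
  have hAX := sqrt_A (η := η) hA0 hη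
  have hG := hg hFam hHf hbb hee he he' hJI hR hKl (F := F) (s := s) (ε := ε) (Av := 1) (HC := Hh)
    hs hε.le zero_le_one hτ2 hFm (fun y _ => hFmH y) (H := 2 ^ (bn n + 1) * Hh)
    (H' := 2 ^ (bn n + 1) * Hh) hfa hfb L1
  have hB := hb bb hbb i m v I Ht Hf La N f0 T g θ μ hFam hHf hLa R J hR hJI S W C hPt F (F m) 1 Hh
    Hh Hh τ 1 A0 A0 (fun y _ => rfl) hFm (fun y _ => hFmH y) hHh.le e e' hee he he' n kap kc Kl hKl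
    r X η 1 f hkap.le hr hN hX hAX hHh hHh hτB hτ one_pos kap kc Kl r Y η 1 Hh f' hkap.le hr hNY hY
    hAX hHh.le le_rfl L1 (J.1 + 1)
  have hRs := hr0 bb hbb i m v I Ht Hf La N f0 T g θ μ hFam hHt hHf hLa R J hR hJI S W C hPt F (F m)
    s ε D 1 Hh Hh Hh A0 A0 dd dd (fun y _ => rfl) hε hD one_pos hFm (fun y _ => hFmH y) hEx e e' hee
    he he' n kap kc Kl r X η 1 f hkap.le hr hN hX hAX hHh.le kap kc Kl r Y η 1 f' hkap.le hr hNY hY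
    hAX hHh.le hdd hdd L1
  have hN' := hN
  rw [phi_eq] at hN'
  have hNY' := hNY
  rw [phi_eq] at hNY'
  have hN1 : 0 ≤ n1G K1 J Hh 1 s ε Hf Ht (2 ^ (bn n + 1) * Hh) (2 ^ (bn n + 1) * Hh)
      (len J * m0 / kap) (len J * m0) :=
    n1G_nonneg hK1 J zero_le_one hs hHf (by linarith) hfa.le hfb.le
  have heB := B0Nx253.eKB_nonneg (Ht := Ht) (Hf := Hf) (H1 := Hh) (h0 := Hh) (H := Hh) hK4 hτ.le
    (zero_le_one : (0 : ℝ) ≤ 1) (show 0 ≤ A0 by linarith) (zero_le_one : (0 : ℝ) ≤ 1)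
  have heR := GaLx446.eRst_nonneg (D := D) (ε := ε) (HC := Hh) (HX := Hh) (HY := Hh) (AX := A0)
    (AY := A0) hK2 hHt hHf (zero_le_one : (0 : ℝ) ≤ 1) hdd.le hdd.le
  exact g_moving hW hN' (bndF hFam e' kc Kl) (fun c => hr c.2)
    (fun c => div_nonneg (mul_nonneg hkap.le (hFam.μ0 c.1)) hLa.le) hNY' hR hPt (n_le_bn n) hm0.le
    hηm hηm hN1 le_rfl heB heR hG hHh.le hHh.le le_rfl le_rfl hB hRs

end Crest.Agent.R079.GaNx571
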