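import Crest.Agent.R079.GaU_571

/-! R079, Step I, (G) words (helper571): ONE (G) WORD = MOVE + killer words of the windows + rest words of
the stacks.

* `gword_static` : partner static; `gword_moving` : partner the truncated glued letter of another
  functional. -/

set_option autoImplicit false

namespace Crest.Agent.R079.GaRx571

open Finset Crest.Agent.R079.Grid Crest.Agent.R079.Glue Crest.Agent.R079.Growth
  Crest.Agent.R079.QRed Crest.Agent.R079.TWin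
open Crest.Agent.R079.RelW653 (vl NMP Jv Dv)
open Crest.Agent.R079.GaAx571 Crest.Agent.R079.GaBx571 Crest.Agent.R079.GaWx571
  Crest.Agent.R079.GaXx571 Crest.Agent.R079.GaMx571 Crest.Agent.R079.GaSx571
  Crest.Agent.R079.GaTx571 Crest.Agent.R079.GaVx571 Crest.Agent.R079.GaZx260
  Crest.Agent.R079.GaFx371 Crest.Agent.R079.KLX279 Crest.Agent.R079.GaUx571
open Crest.Agent.R079.ThA159 Crest.Agent.R079.ThB159 Crest.Agent.R079.Stk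
open Crest.Agent.R079.AsmA844 (v4)

variable {ι I' : Type*} [Fintype ι] [Fintype I']
  {j : Fin 4} {bb : ℤ} {e e' : Fin 3} {T : ι → Fin 3 → Finset ℤ}
  {g : ι → Fin 3 → ℤ → ℤ → ℂ} {c0 : ι → I'} {J : Nd} {Bd : I' → Nd → Finset (ℤ × ℤ × ℤ)}
  {pos : I' → ℤ × ℤ × ℤ → ℤ} {N : I' → Nd → (ℤ × ℤ × ℤ → ℂ) → ℝ} {ν : I' → ℝ}
  {a : I' → ℤ × ℤ × ℤ → ℂ} {r : I' → ℝ} {κ : I' → ℝ} {X : Fn} {η : ℝ} {f : Nd → Fn}
  {R S : Finset Nd} {W : Nd → Finset Nd} {C : ℝ}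

/-- the budget of the kernel letters -/
noncomputable def budZ (J : Nd) (X : Fn) (η δ : ℝ) (n b : ℕ) : ℝ :=
  b * √(4 * (len J * (av J X ^ 2 + η) + 2 * η * len J * (n - 1 : ℕ))) +
    √(len J * (av J X ^ 2 + η)) + (b + 1) * δ

/-- the budget of the glued letters -/
noncomputable def budG (J : Nd) (X : Fn) (η δ : ℝ) (n b : ℕ) : ℝ :=
  b * √(2 * (len J * (av J X ^ 2 + η) + 2 * η * len J * (n - 1 : ℕ))) +
    √(2 * len J * av J X ^ 2 + 2 * (len J * (av J X ^ 2 + η))) + (b + 1) * δ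

/-- common hypotheses of one (G) word -/
structure GW (j : Fin 4) (bb : ℤ) (e e' : Fin 3) (T : ι → Fin 3 → Finset ℤ)
    (g : ι → Fin 3 → ℤ → ℤ → ℂ) (c0 : ι → I') (J : Nd) (Bd : I' → Nd → Finset (ℤ × ℤ × ℤ))
    (pos : I' → ℤ × ℤ × ℤ → ℤ) (N : I' → Nd → (ℤ × ℤ × ℤ → ℂ) → ℝ) (ν : I' → ℝ)
    (a : I' → ℤ × ℤ × ℤ → ℂ) (r κ : I' → ℝ) (μ : ι → ℝ) (cn La kap : ℝ) (F : Fin 4 → ℤ → ℂ)
    (P : Finset (ℤ × ℤ × ℤ)) (M : ℕ) (ε : ℕ → ℤ → ℂ) (R : Finset Nd) : Prop where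
  bb7 : bb = -1 ∨ bb = -7
  ne : e ≠ e'
  mu0 : ∀ l, 0 ≤ μ l
  cn0 : 0 < cn
  La0 : 0 < La
  kap0 : 0 < kap
  muS : ∑ l, μ l ≤ La
  inj : Function.Injective c0
  kn : ∀ l, kap * μ l / (La * cn) ≤ κ (c0 l) * ν (c0 l)
  bnd : ∀ i, Bnd (Bd i) (pos i) (N i) (ν i)
  r0 : ∀ i, 0 ≤ r i
  kp0 : ∀ i, 0 ≤ κ i
  ok : BdOK j e T g c0 J Bd pos a
  rep : ∀ y ∈ iv J, F j y = ∑ l, ((μ l / cn : ℝ) : ℂ) *
    atom j 1 (T l) (g l 0) (g l 1) (g l 2) y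
  cov : ∀ l, Cov M (T l) P
  lev : ∀ q ∈ R, q.1 < M
  eps : ∀ m x, ‖ε m x‖ ≤ 1

/-- GOOD words: absolute bound atom by atom -/
def HG (j : Fin 4) (bb : ℤ) (e e' : Fin 3) (T : ι → Fin 3 → Finset ℤ)
    (g : ι → Fin 3 → ℤ → ℤ → ℂ) (c0 : ι → I') (J : Nd) (Bd : I' → Nd → Finset (ℤ × ℤ × ℤ))
    (cn : ℝ) (F : Fin 4 → ℤ → ℂ) (P : Finset (ℤ × ℤ × ℤ)) (M : ℕ) (R : Finset Nd)
    (Gd : ι → ℕ → ℤ × ℤ × ℤ → ℕ → Prop) (N1 H H' fa fb : ℝ) : Prop :=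
  ∀ (l : ι) (u : ℤ × ℤ × ℤ → ℂ) (v : ℤ → ℂ), (∀ ω ∈ Bd (c0 l) J, ‖u ω‖ ≤ H) →
    (∀ y ∈ iv J, ‖v y‖ ≤ H') →
    TA bb P M (fun n p i => Gd l n p i ∧ AdX R n (xv j bb n p))
      (Function.update (Function.update (lks j (T l) (g l) (fun s => cutJ J (F s))) e'
        (lk j (T l) (g l) e' v)) e (ker (Bd (c0 l) J) u)) ≤
      N1 * cn * (√((∑ ω ∈ Bd (c0 l) J, ‖u ω‖ ^ 2) / cn + fa) * √(∑ y ∈ iv J, ‖v y‖ ^ 2 + fb))

/-- killer words of the windows -/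
def HB (j : Fin 4) (bb : ℤ) (e e' : Fin 3) (T : ι → Fin 3 → Finset ℤ)
    (g : ι → Fin 3 → ℤ → ℤ → ℂ) (c0 : ι → I') (Bd : I' → Nd → Finset (ℤ × ℤ × ℤ))
    (pos : I' → ℤ × ℤ × ℤ → ℤ) (N : I' → Nd → (ℤ × ℤ × ℤ → ℂ) → ℝ)
    (a : I' → ℤ × ℤ × ℤ → ℂ) (r : I' → ℝ) (cn : ℝ) (F : Fin 4 → ℤ → ℂ)
    (P : Finset (ℤ × ℤ × ℤ)) (M : ℕ) (S : Finset Nd) (W : Nd → Finset Nd) (n : ℕ)
    (H1 h0 : ℝ) (f : Nd → Fn) (Yw : Nd → Fn) (eB : ℝ) : Prop :=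
  ∀ K ∈ S, idx S K ≤ n → ∀ l : ι, TA bb P M (fun m p _ => AdX (W K) m (xv j bb m p))
    (KB j (T l) (g l) F e e' (Bd (c0 l)) (pos (c0 l)) (N (c0 l)) (a (c0 l)) (r (c0 l)) H1 h0
      (W K) K f (Yw K)) ≤ cn * (eB * len K)

/-- rest words of the stacks -/
def HRst (j : Fin 4) (bb : ℤ) (e e' : Fin 3) (T : ι → Fin 3 → Finset ℤ)
    (g : ι → Fin 3 → ℤ → ℤ → ℂ) (J : Nd) (cn : ℝ) (F : Fin 4 → ℤ → ℂ)
    (P : Finset (ℤ × ℤ × ℤ)) (M : ℕ) (R S : Finset Nd) (n : ℕ)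
    (Gd : ι → ℕ → ℤ × ℤ × ℤ → ℕ → Prop) (H1 : ℝ) (f : Nd → Fn) (Yk : ℕ → Fn) (eR : ℝ) : Prop :=
  ∀ k < n, ∀ l : ι,
    TA bb P M (fun m p v => ¬ Gd l m p v ∧ AdX (Rk R S (k + 1)) m (xv j bb m p))
      (KL j (T l) (g l) F e e' J (fun y => tau H1 (gl (Rk R S (k + 1)) f y)) (Yk (k + 1))) ≤
      cn * (eR * len J)

variable {μ : ι → ℝ} {cn La kap : ℝ} {F : Fin 4 → ℤ → ℂ} {P : Finset (ℤ × ℤ × ℤ)} {M : ℕ}
  {ε : ℕ → ℤ → ℂ} {Gd : ι → ℕ → ℤ × ℤ × ℤ → ℕ → Prop}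

omit [Fintype I'] in
/-- the error terms -/
theorem gword_err (hW : GW j bb e e' T g c0 J Bd pos N ν a r κ μ cn La kap F P M ε R) {n : ℕ}
    {H1 h0 eB eR : ℝ} (heB : 0 ≤ eB) (heR : 0 ≤ eR) {Yk : ℕ → Fn} {Yw : Nd → Fn}
    (hB : HB j bb e e' T g c0 Bd pos N a r cn F P M S W n H1 h0 f Yw eB)
    (hRs : HRst j bb e e' T g J cn F P M R S n Gd H1 f Yk eR) :
    (∑ K ∈ S.filter (fun K => idx S K ≤ n), ∑ l, μ l / cn *
        TA bb P M (fun m p _ => AdX (W K) m (xv j bb m p))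
          (KB j (T l) (g l) F e e' (Bd (c0 l)) (pos (c0 l)) (N (c0 l)) (a (c0 l)) (r (c0 l)) H1 h0
            (W K) K f (Yw K)) +
      ∑ k ∈ range n, ∑ l, μ l / cn *
        TA bb P M (fun m p v => ¬ Gd l m p v ∧ AdX (Rk R S (k + 1)) m (xv j bb m p))
          (KL j (T l) (g l) F e e' J (fun y => tau H1 (gl (Rk R S (k + 1)) f y)) (Yk (k + 1)))) ≤
      La * eB * ∑ K ∈ S.filter (fun K => idx S K ≤ n), len K + n * (La * eR * len J) := by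
  have hmul : ∀ (l : ι) {x y : ℝ}, 0 ≤ y → x ≤ cn * y → μ l / cn * x ≤ μ l * y := by
    intro l x y _ hx
    have h1 := mul_le_mul_of_nonneg_left hx (div_nonneg (hW.mu0 l) hW.cn0.le)
    refine h1.trans (le_of_eq ?_)
    have := hW.cn0.ne'
    field_simp
  refine add_le_add ?_ ?_
  · rw [Finset.mul_sum]
    refine Finset.sum_le_sum fun K hK => ?_
    obtain ⟨hKS, hKn⟩ := Finset.mem_filter.1 hK
    have hl := (Growth.len_pos K).le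
    have h1 : ∀ l : ι, μ l / cn * TA bb P M (fun m p _ => AdX (W K) m (xv j bb m p))
          (KB j (T l) (g l) F e e' (Bd (c0 l)) (pos (c0 l)) (N (c0 l)) (a (c0 l)) (r (c0 l)) H1 h0
            (W K) K f (Yw K)) ≤ μ l * (eB * len K) := fun l =>
      hmul l (mul_nonneg heB hl) (hB K hKS hKn l)
    refine (Finset.sum_le_sum fun l _ => h1 l).trans ?_
    rw [← Finset.sum_mul, mul_assoc]
    exact mul_le_mul_of_nonneg_right hW.muS (mul_nonneg heB hl)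
  · have hl := (Growth.len_pos J).le
    have h1 : ∀ k ∈ range n, ∑ l, μ l / cn *
        TA bb P M (fun m p v => ¬ Gd l m p v ∧ AdX (Rk R S (k + 1)) m (xv j bb m p))
          (KL j (T l) (g l) F e e' J (fun y => tau H1 (gl (Rk R S (k + 1)) f y)) (Yk (k + 1))) ≤
        La * eR * len J := by
      intro k hk
      refine (Finset.sum_le_sum fun l _ => hmul l (mul_nonneg heR hl)
        (hRs k (Finset.mem_range.1 hk) l)).trans ?_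
      rw [← Finset.sum_mul, mul_assoc]
      exact mul_le_mul_of_nonneg_right hW.muS (mul_nonneg heR hl)
    refine (Finset.sum_le_sum h1).trans (le_of_eq ?_)
    rw [Finset.sum_const, Finset.card_range, nsmul_eq_mul]

/-- **A (G) WORD, STATIC PARTNER** -/
theorem gword_static (hW : GW j bb e e' T g c0 J Bd pos N ν a r κ μ cn La kap F P M ε R)
    (h : NMP (fun _ _ => True) (ThF Bd pos N ν a r κ) X η f) (hR : Full R J)
    (hP : TWin.Part R S W C) {n b : ℕ} (hn : n ≤ 2 ^ b) {N1 H H' fa fb H1 h0 h0' eB eR : ℝ}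
    (hN1 : 0 ≤ N1) (hfa : 0 ≤ fa) (hfb : 0 ≤ fb) (heB : 0 ≤ eB) (heR : 0 ≤ eR)
    (hG : HG j bb e e' T g c0 J Bd cn F P M R Gd N1 H H' fa fb) (Y : Fn)
    (hY : ∀ y ∈ iv J, ‖Y y‖ ≤ h0') (hh0 : 0 ≤ h0) (hH : 2 ^ (b + 1) * h0 ≤ H)
    (hH' : 2 ^ (b + 1) * h0' ≤ H')
    (hB : HB j bb e e' T g c0 Bd pos N a r cn F P M S W n H1 h0 f (fun _ => Y) eB)
    (hRs : HRst j bb e e' T g J cn F P M R S n Gd H1 f (fun _ => Y) eR) :
    ‖∑ K ∈ S.filter (fun K => idx S K ≤ n), ∑ q ∈ W K,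
      v4 bb ε F (j.succAbove (e + 2)) (j.succAbove (e' + 2)) (fun y => tau H1 (gl (W K) f y))
        Y q‖ ≤
      N1 * (La / √kap) * budZ J X η √(kap * fa) n b *
        (nW (iv J) (fun _ => 1) Y + (b + 1) * √fb) +
      (La * eB * ∑ K ∈ S.filter (fun K => idx S K ≤ n), len K + n * (La * eR * len J)) := by
  have h1 := word_decomp (Gd := Gd) hW.bb7 hW.ne hW.mu0 hW.cn0 hW.bnd hW.r0 hW.ok hR hP n hW.rep
    hW.cov hW.lev hW.eps f H1 h0 (fun _ => Y) (fun _ => Y) (fun _ _ _ _ _ => rfl)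
  have h5 := gword_err (Yk := fun _ => Y) (Yw := fun _ => Y) hW heB heR hB hRs
  have hst := statI_joint j bb T g μ hW.mu0 c0 hW.inj P M (fun s => cutJ J (F s)) Bd J e e' hW.ne
    (R := R) (idx := fun q => idx S q - 1) hW.eps Gd hW.kp0 (fun i => (hW.bnd i).nu.le) hW.La0
    hW.kap0 hW.cn0 hN1 hfa hfb hW.muS hW.kn hG n
  have h4 := move_tZJ hW.bnd hW.r0 hW.kp0 h hR hP (fun _ => zero_le_one) hn
    (mul_nonneg hN1 (div_nonneg hW.La0.le (Real.sqrt_nonneg _))) (Real.sqrt_nonneg _)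
    (Real.sqrt_nonneg _) hst Y hh0 hY hH hH'
  exact h1.trans (add_le_add h4 h5)

section moving

variable {ι' : Type*} [Fintype ι'] {Ω' : ι' → Type*} {Bd' : ∀ i, Nd → Finset (Ω' i)}
  {pos' : ∀ i, Ω' i → ℤ} {N' : ∀ i, Nd → (Ω' i → ℂ) → ℝ} {ν' : ι' → ℝ} {a' : ∀ i, Ω' i → ℂ}
  {r' : ι' → ℝ} {κ' : ι' → ℝ} {X' : Fn} {η' : ℝ} {f' : Nd → Fn}

/-- **A (G) WORD, MOVING PARTNER** (truncated glued letter of another functional) -/
theorem gword_moving (hW : GW j bb e e' T g c0 J Bd pos N ν a r κ μ cn La kap F P M ε R)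
    (h : NMP (fun _ _ => True) (ThF Bd pos N ν a r κ) X η f)
    (hB' : ∀ i, Bnd (Bd' i) (pos' i) (N' i) (ν' i)) (hr' : ∀ i, 0 ≤ r' i) (hκ' : ∀ i, 0 ≤ κ' i)
    (h' : NMP (fun _ _ => True) (ThF Bd' pos' N' ν' a' r' κ') X' η' f') (hR : Full R J)
    (hP : TWin.Part R S W C) {n b : ℕ} (hn : n ≤ 2 ^ b) {N1 H H' fa fb H1 h0 h0' eB eR : ℝ}
    (hN1 : 0 ≤ N1) (hfa : 0 ≤ fa) (hfb : 0 ≤ fb) (heB : 0 ≤ eB) (heR : 0 ≤ eR)
    (hG : HG j bb e e' T g c0 J Bd cn F P M R Gd N1 H H' fa fb)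
    (hh0 : 0 ≤ h0) (hh0' : 0 ≤ h0') (hH : 2 ^ (b + 1) * h0 ≤ H) (hH' : 2 ^ (b + 1) * h0' ≤ H')
    (hB : HB j bb e e' T g c0 Bd pos N a r cn F P M S W n H1 h0 f
      (fun K y => tau h0' (gl (W K) f' y)) eB)
    (hRs : HRst j bb e e' T g J cn F P M R S n Gd H1 f
      (fun k y => tau h0' (gl (Rk R S k) f' y)) eR) :
    ‖∑ K ∈ S.filter (fun K => idx S K ≤ n), ∑ q ∈ W K,
      v4 bb ε F (j.succAbove (e + 2)) (j.succAbove (e' + 2)) (fun y => tau H1 (gl (W K) f y))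
        (fun y => tau h0' (gl (W K) f' y)) q‖ ≤
      N1 * (La / √kap) * budZ J X η √(kap * fa) n b * budG J X' η' √fb n b +
      (La * eB * ∑ K ∈ S.filter (fun K => idx S K ≤ n), len K + n * (La * eR * len J)) := by
  have h1 := word_decomp (Gd := Gd) hW.bb7 hW.ne hW.mu0 hW.cn0 hW.bnd hW.r0 hW.ok hR hP n hW.rep
    hW.cov hW.lev hW.eps f H1 h0 (fun k y => tau h0' (gl (Rk R S k) f' y))
      (fun K y => tau h0' (gl (W K) f' y)) (fun K hK _ y hy => by rw [gl_stack hR hP hK f' hy])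
  have h5 := gword_err (Yk := fun k y => tau h0' (gl (Rk R S k) f' y))
    (Yw := fun K y => tau h0' (gl (W K) f' y)) hW heB heR hB hRs
  have hst := statI_joint j bb T g μ hW.mu0 c0 hW.inj P M (fun s => cutJ J (F s)) Bd J e e' hW.ne
    (R := R) (idx := fun q => idx S q - 1) hW.eps Gd hW.kp0 (fun i => (hW.bnd i).nu.le) hW.La0
    hW.kap0 hW.cn0 hN1 hfa hfb hW.muS hW.kn hG n
  have h4 := move_tZJG hW.bnd hW.r0 hW.kp0 h hB' hr' hκ' h' hR hP hn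
    (mul_nonneg hN1 (div_nonneg hW.La0.le (Real.sqrt_nonneg _))) (Real.sqrt_nonneg _)
    (Real.sqrt_nonneg _) hst hh0 hh0' hH hH'
  exact h1.trans (add_le_add h4 h5)

end moving

end Crest.Agent.R079.GaRx571
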