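import Crest.Agent.R079.ThB_159
import Crest.Agent.R079.MovE_242
import Crest.Agent.R079.GaM_571

/-! R079, Step I, MOVE on the stacks over NODE-DEPENDENT band systems (helper571): port of 242's
`StkM` / `MovE` to `ThA_159` (Whitney cells), in JOINT form over the family of gauges: all kernel
letters above the thresholds together, weights `κ i ν i`, one budget.

* `Zs`, `Zs_leaf`, `Zs_node` : global kernel letter above the threshold on a full region;
* `var_g`, `var_ZJ` : quadratic variation between nested full regions (joint);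
* `size_ZJ`  : `∑_i κ_i ν_i ‖Z_i‖² ≤ len J (av J X ² + η)`;
* `stackZJ`, `stackG` : hypotheses of `GaMx571.move_I`. -/

set_option autoImplicit false

namespace Crest.Agent.R079.GaSx571

open Finset Crest.Agent.R079.Grid Crest.Agent.R079.Growth Crest.Agent.R079.QRed
  Crest.Agent.R079.Qh249 Crest.Agent.R079.TWin
open Crest.Agent.R079.RelW653 (vl NMP Jv Dv av_par sum_av' lf_sum_eq')
open Crest.Agent.R079.RelV653 Crest.Agent.R079.ThA159 Crest.Agent.R079.ThB159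
open Crest.Agent.R079.Stk (SL_nest sq_tri hh SL_hh len_hh Rk Rk_mono full_Rk)
open Crest.Agent.R079.MovC (chain_fix)
open Crest.Agent.R079.GaMx571

section one

variable {Ω : Type*} {Bd : Nd → Finset Ω} {pos : Ω → ℤ} {N : Nd → (Ω → ℂ) → ℝ} {ν : ℝ}

lemma dst_SL (hB : Bnd Bd pos N ν) {W : Finset Nd} {I : Nd} (hW : Full W I) (A B : Ω → ℂ) :
    ∀ p ∈ W, SL W p (fun q => dst Bd q A B / len q) = dst Bd p A B := by
  refine full_ind hW (fun p hp => ?_) fun m l hp hnl h0 h1 e0 e1 => ?_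
  · rw [SL_leaf hp]
    have := Growth.len_pos p
    field_simp
  · rw [SL_node hW hnl h0 h1, dst_ch hB, e0, e1]

lemma Bd_up (hB : Bnd Bd pos N ν) {ω : Ω} (m : ℕ) (l : ℤ) (h : ω ∈ Bd (m, l)) :
    ∀ k : ℕ, ω ∈ Bd (m + k, l / 2 ^ k) := by
  intro k
  induction k with
  | zero => simpa using h
  | succ k ih =>
    have e : l / 2 ^ (k + 1) = l / 2 ^ k / 2 := by
      have := L0e.ediv_pow_pow l k 1
      rw [pow_one] at this
      rw [← this]
    rw [e, ← add_assoc]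
    rcases Int.even_or_odd' (l / 2 ^ k) with ⟨c, hc | hc⟩
    · rw [hc, show 2 * c / 2 = c by omega]
      exact (hB.sub _ _ _).2 (Or.inl (hc ▸ ih))
    · rw [hc, show (2 * c + 1) / 2 = c by omega]
      exact (hB.sub _ _ _).2 (Or.inr (hc ▸ ih))

lemma Bd_mono (hB : Bnd Bd pos N ν) {p q : Nd} (h : iv p ⊆ iv q) {ω : Ω} (hω : ω ∈ Bd p) :
    ω ∈ Bd q := by
  obtain ⟨k, hk⟩ := Qe292.iv_sub_iff.1 h
  rw [hk]
  exact Bd_up hB p.1 p.2 hω k

lemma Bgl_loc (hB : Bnd Bd pos N ν) (a : Ω → ℂ) {r : ℝ} (hr : 0 ≤ r) {W : Finset Nd} {I : Nd}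
    (hW : Full W I) {p : Nd} (hp : p ∈ W) (g : Fn) {ω : Ω} (hω : ω ∈ Bd p) :
    Bgl Bd pos N a r W I g ω = Bgl Bd pos N a r W p g ω := by
  classical
  unfold Bgl
  symm
  refine Finset.sum_subset ?_ ?_
  · intro L hL
    rw [Finset.mem_filter] at hL ⊢
    exact ⟨hL.1, hL.2.trans (hW.reg.1 p hp)⟩
  · intro L hL hL'
    rw [Finset.mem_filter] at hL
    have hno : ω ∉ Bd L := by
      intro h
      exact hL' (Finset.mem_filter.2 ⟨hL.1, leaf_below hW hL.1 hp (hB.mem L ω h) (hB.mem p ω hω)⟩)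
    exact (Pj_spec hB hr L _).1.1 ω hno

/-- the global kernel letter above the threshold: `a g` minus the glued own exit projections -/
noncomputable def Zs (Bd : Nd → Finset Ω) (pos : Ω → ℤ) (N : Nd → (Ω → ℂ) → ℝ) (a : Ω → ℂ) (r : ℝ)
    (W : Finset Nd) (J : Nd) (f : Nd → Fn) : Ω → ℂ :=
  fun ω => ag Bd pos a J (gl W f) ω - Bgl Bd pos N a r W J (gl W f) ω

/-- on an exit it is the own part above the threshold -/
lemma Zs_leaf (hB : Bnd Bd pos N ν) (a : Ω → ℂ) {r : ℝ} (hr : 0 ≤ r) {W : Finset Nd} {J : Nd}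
    (hW : Full W J) (f : Nd → Fn) {p : Nd} (hp : p ∈ lf W) {ω : Ω} (hω : ω ∈ Bd p) :
    Zs Bd pos N a r W J f ω = Rs Bd pos N a r p (f p) ω := by
  have hpW := (mem_lf.1 hp).1
  have hωJ := Bd_mono hB (hW.reg.1 p hpW) hω
  have e1 : ag Bd pos a p (gl W f) = ag Bd pos a p (f p) :=
    ag_congr hB fun y hy => gl_eq hW f hp hy
  unfold Zs Rs
  rw [Bgl_loc hB a hr hW hpW _ hω, Bgl_leaf hp, e1, ag_eq hω, ag_eq hωJ,
    gl_eq hW f hp (hB.mem p ω hω)]

/-- on an inner node it is the part above the threshold of that node, corrected by the difference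
of the own projection and the glued exit projections -/
lemma Zs_node (hB : Bnd Bd pos N ν) (a : Ω → ℂ) {r : ℝ} (hr : 0 ≤ r) {W : Finset Nd} {J : Nd}
    (hW : Full W J) (f : Nd → Fn) {p : Nd} (hp : p ∈ W) {ω : Ω} (hω : ω ∈ Bd p) :
    Zs Bd pos N a r W J f ω = Rs Bd pos N a r p (gl W f) ω +
      (Pj Bd N r p (ag Bd pos a p (gl W f)) ω - Bgl Bd pos N a r W p (gl W f) ω) := by
  have hωJ := Bd_mono hB (hW.reg.1 p hp) hω
  unfold Zs Rs
  rw [Bgl_loc hB a hr hW hp _ hω, ag_eq hω, ag_eq hωJ]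
  ring

/-- outside the band of the top the letter vanishes -/
lemma Zs_zero (hB : Bnd Bd pos N ν) (a : Ω → ℂ) {r : ℝ} (hr : 0 ≤ r) {W : Finset Nd} {J : Nd}
    (hW : Full W J) (f : Nd → Fn) {ω : Ω} (hω : ω ∉ Bd J) : Zs Bd pos N a r W J f ω = 0 := by
  classical
  unfold Zs
  rw [(Bgl_adm hB a hr hW (gl W f) J hW.top).1 ω hω]
  unfold ag
  rw [if_neg hω, sub_zero]

end one

section family

variable {ι : Type*} [Fintype ι] {Ω : ι → Type*} {Bd : ∀ i, Nd → Finset (Ω i)}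
  {pos : ∀ i, Ω i → ℤ} {N : ∀ i, Nd → (Ω i → ℂ) → ℝ} {ν : ι → ℝ} {a : ∀ i, Ω i → ℂ} {r : ι → ℝ}
  {κ : ι → ℝ} {X : Fn} {η : ℝ} {f : Nd → Fn}

/-- joint band -/
def BJ (Bd : ∀ i, Nd → Finset (Ω i)) (J : Nd) : Finset (Σ i, Ω i) :=
  Finset.univ.sigma fun i => Bd i J

/-- joint weight -/
def rJ (κ ν : ι → ℝ) : (Σ i, Ω i) → ℝ := fun s => κ s.1 * ν s.1

/-- joint kernel letter above the thresholds -/
noncomputable def ZJ (Bd : ∀ i, Nd → Finset (Ω i)) (pos : ∀ i, Ω i → ℤ)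
    (N : ∀ i, Nd → (Ω i → ℂ) → ℝ) (a : ∀ i, Ω i → ℂ) (r : ι → ℝ) (W : Finset Nd) (J : Nd)
    (f : Nd → Fn) : (Σ i, Ω i) → ℂ :=
  fun s => Zs (Bd s.1) (pos s.1) (N s.1) (a s.1) (r s.1) W J f s.2

lemma qW_BJ (Bd : ∀ i, Nd → Finset (Ω i)) (κ ν : ι → ℝ) (J : Nd) (u : (Σ i, Ω i) → ℂ) :
    qW (BJ Bd J) (rJ κ ν) u = ∑ i, κ i * ν i * ∑ ω ∈ Bd i J, ‖u ⟨i, ω⟩‖ ^ 2 := by
  unfold qW BJ rJ
  rw [Finset.sum_sigma]
  refine Finset.sum_congr rfl fun i _ => ?_
  rw [Finset.mul_sum]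

variable (hB : ∀ i, Bnd (Bd i) (pos i) (N i) (ν i)) (hr : ∀ i, 0 ≤ r i) (hκ : ∀ i, 0 ≤ κ i)
  (h : NMP (fun _ _ => True) (ThF Bd pos N ν a r κ) X η f)

include hB hr hκ h

/-- the glued letters of two nested full regions -/
theorem var_g {W W' : Finset Nd} {J : Nd} (hW : Full W J) (hW' : Full W' J) (hs : W ⊆ W') :
    ∑ y ∈ iv J, ‖gl W f y - gl W' f y‖ ^ 2 ≤
      2 * (SL W' J (Jv (ThF Bd pos N ν a r κ) X f) - SL W J (Jv (ThF Bd pos N ν a r κ) X f) +
        2 * η * len J) := by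
  rw [← SL_hh _ hW hW' hs, ← SL_smul,
    sum_SL hW (fun y => ‖gl W f y - gl W' f y‖ ^ 2)
      (fun p => av p (fun y => f p y - gl W' f y) ^ 2) (fun L hL => ?_) J hW.top]
  · refine SL_mono fun L hL _ => ?_
    have h1 := strong_win hB hr hκ h hW' (hs (mem_lf.1 hL).1)
    have h2 : 0 ≤ (1 / 2 : ℝ) * ∑ i, κ i * (ν i * dst (Bd i) L
        (Rs (Bd i) (pos i) (N i) (a i) (r i) L (f L))
        (Rs (Bd i) (pos i) (N i) (a i) (r i) L (gl W' f))) :=
      mul_nonneg (by norm_num) (Finset.sum_nonneg fun i _ =>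
        mul_nonneg (hκ i) (mul_nonneg (hB i).nu.le (dst_nonneg _ _ _)))
    have h3 : 0 ≤ ∑ i, κ i * (ν i / 2 * dst (Bd i) L
        (Pj (Bd i) (N i) (r i) L (ag (Bd i) (pos i) (a i) L (gl W' f)))
        (Bgl (Bd i) (pos i) (N i) (a i) (r i) W' L (gl W' f))) :=
      Finset.sum_nonneg fun i _ =>
        mul_nonneg (hκ i) (mul_nonneg (by have := (hB i).nu; positivity) (dst_nonneg _ _ _))
    rw [← len_hh] at h1
    have hL0 := Growth.len_pos L
    have h4 : len L * av L (fun y => f L y - gl W' f y) ^ 2 ≤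
        len L * (2 * hh (ThF Bd pos N ν a r κ) X f η W' L) := by linarith
    exact le_of_mul_le_mul_left h4 hL0
  · rw [← sum_av']
    exact Finset.sum_congr rfl fun y hy => by rw [gl_eq hW f hL hy]

/-- the kernel letters above the thresholds of two nested full regions, JOINT form -/
theorem var_ZJ {W W' : Finset Nd} {J : Nd} (hW : Full W J) (hW' : Full W' J) (hs : W ⊆ W') :
    qW (BJ Bd J) (rJ κ ν) (ZJ Bd pos N a r W J f - ZJ Bd pos N a r W' J f) ≤
      4 * (SL W' J (Jv (ThF Bd pos N ν a r κ) X f) - SL W J (Jv (ThF Bd pos N ν a r κ) X f) +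
        2 * η * len J) := by
  rw [qW_BJ]
  have e0 : ∑ i, κ i * ν i * ∑ ω ∈ Bd i J,
      ‖(ZJ Bd pos N a r W J f - ZJ Bd pos N a r W' J f) ⟨i, ω⟩‖ ^ 2 =
      SL W J (fun L => ∑ i, κ i * ν i * (dst (Bd i) L (Zs (Bd i) (pos i) (N i) (a i) (r i) W J f)
        (Zs (Bd i) (pos i) (N i) (a i) (r i) W' J f) / len L)) := by
    have e1 : ∀ i, κ i * ν i * ∑ ω ∈ Bd i J,
        ‖(ZJ Bd pos N a r W J f - ZJ Bd pos N a r W' J f) ⟨i, ω⟩‖ ^ 2 =
        SL W J (fun L => κ i * ν i * (dst (Bd i) L (Zs (Bd i) (pos i) (N i) (a i) (r i) W J f)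
          (Zs (Bd i) (pos i) (N i) (a i) (r i) W' J f) / len L)) := by
      intro i
      rw [SL_smul, dst_SL (hB i) hW _ _ J hW.top]
      rfl
    rw [Finset.sum_congr rfl fun i _ => e1 i]
    unfold SL
    rw [Finset.sum_comm]
    refine Finset.sum_congr rfl fun L _ => ?_
    rw [Finset.mul_sum]
  rw [e0, ← SL_hh _ hW hW' hs, ← SL_smul]
  refine SL_mono fun L hL _ => ?_
  have hL0 := Growth.len_pos L
  have h1 := strong_win hB hr hκ h hW' (hs (mem_lf.1 hL).1)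
  have h0 : 0 ≤ len L * ((1 / 2) * av L (fun y => f L y - gl W' f y) ^ 2) := by positivity
  set A : ι → ℝ := fun i => dst (Bd i) L (Rs (Bd i) (pos i) (N i) (a i) (r i) L (f L))
    (Rs (Bd i) (pos i) (N i) (a i) (r i) L (gl W' f)) with hA
  set B : ι → ℝ := fun i => dst (Bd i) L
    (Pj (Bd i) (N i) (r i) L (ag (Bd i) (pos i) (a i) L (gl W' f)))
    (Bgl (Bd i) (pos i) (N i) (a i) (r i) W' L (gl W' f)) with hBd
  have h4 : ∀ i, κ i * ν i * dst (Bd i) L (Zs (Bd i) (pos i) (N i) (a i) (r i) W J f)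
      (Zs (Bd i) (pos i) (N i) (a i) (r i) W' J f) ≤
        2 * (κ i * (ν i * A i)) + 4 * (κ i * (ν i / 2 * B i)) := by
    intro i
    have h5 : dst (Bd i) L (Zs (Bd i) (pos i) (N i) (a i) (r i) W J f)
        (Zs (Bd i) (pos i) (N i) (a i) (r i) W' J f) ≤ 2 * A i + 2 * B i := by
      simp only [hA, hBd]
      unfold dst
      rw [Finset.mul_sum, Finset.mul_sum, ← Finset.sum_add_distrib]
      refine Finset.sum_le_sum fun ω hω => ?_
      rw [Zs_leaf (hB i) (a i) (hr i) hW f hL hω,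
        Zs_node (hB i) (a i) (hr i) hW' f (hs (mem_lf.1 hL).1) hω]
      exact sq_tri _ _ _
    have h6 : 0 ≤ κ i * ν i := mul_nonneg (hκ i) (hB i).nu.le
    have h7 := mul_le_mul_of_nonneg_left h5 h6
    linarith
  rw [← len_hh] at h1
  have h8 : ∑ i, κ i * ν i * dst (Bd i) L (Zs (Bd i) (pos i) (N i) (a i) (r i) W J f)
      (Zs (Bd i) (pos i) (N i) (a i) (r i) W' J f) ≤
      len L * (4 * hh (ThF Bd pos N ν a r κ) X f η W' L) := by
    refine (Finset.sum_le_sum fun i _ => h4 i).trans ?_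
    rw [Finset.sum_add_distrib, ← Finset.mul_sum, ← Finset.mul_sum]
    nlinarith [h1, h0]
  have h9 : len L * (∑ i, κ i * ν i * (dst (Bd i) L (Zs (Bd i) (pos i) (N i) (a i) (r i) W J f)
      (Zs (Bd i) (pos i) (N i) (a i) (r i) W' J f) / len L)) ≤
      len L * (4 * hh (ThF Bd pos N ν a r κ) X f η W' L) := by
    refine le_trans (le_of_eq ?_) h8
    rw [Finset.mul_sum]
    refine Finset.sum_congr rfl fun i _ => ?_
    field_simp
  exact le_of_mul_le_mul_left h9 hL0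

/-- total value on the exits of a full region -/
lemma SL_Jv_le {W : Finset Nd} {J : Nd} (hW : Full W J) :
    SL W J (Jv (ThF Bd pos N ν a r κ) X f) ≤ len J * (av J X ^ 2 + η) := by
  have hP := pen_ThF (a := a) (κ := κ) hB hr hκ
  calc SL W J (Jv (ThF Bd pos N ν a r κ) X f) ≤ SL W J (fun L => av L X ^ 2 + η) := by
        refine SL_mono fun L _ _ => ?_
        have := Jv_le hP h L
        linarith
    _ = len J * (av J X ^ 2 + η) := by
        rw [SL_add, SL_av hW X J hW.top, SL_const hW η J hW.top]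
        ring

lemma SL_Jv_nonneg {W : Finset Nd} {J : Nd} :
    0 ≤ SL W J (Jv (ThF Bd pos N ν a r κ) X f) := by
  have hP := pen_ThF (a := a) (κ := κ) hB hr hκ
  unfold SL
  exact Finset.sum_nonneg fun L _ => mul_nonneg (Growth.len_pos L).le (Jv_nonneg hP L)

/-- size of the kernel letters above the thresholds, JOINT form -/
theorem size_ZJ {W : Finset Nd} {J : Nd} (hW : Full W J) :
    qW (BJ Bd J) (rJ κ ν) (ZJ Bd pos N a r W J f) ≤ len J * (av J X ^ 2 + η) := by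
  refine le_trans ?_ (SL_Jv_le hB hr hκ h hW)
  rw [qW_BJ]
  have e1 : ∀ i, κ i * ν i * ∑ ω ∈ Bd i J, ‖ZJ Bd pos N a r W J f ⟨i, ω⟩‖ ^ 2 =
      SL W J (fun L => κ i * Th (Bd i) (pos i) (N i) (ν i) (a i) (r i) L (gl W f)) := by
    intro i
    have e2 : ∑ ω ∈ Bd i J, ‖ZJ Bd pos N a r W J f ⟨i, ω⟩‖ ^ 2 =
        dst (Bd i) J (ag (Bd i) (pos i) (a i) J (gl W f))
          (Bgl (Bd i) (pos i) (N i) (a i) (r i) W J (gl W f)) := rfl
    rw [e2, mul_assoc, Bgl_dst (hB i) (a i) (hr i) hW (gl W f) J hW.top, ← SL_smul]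
  rw [Finset.sum_congr rfl fun i _ => e1 i]
  have e3 : ∑ i, SL W J (fun L => κ i * Th (Bd i) (pos i) (N i) (ν i) (a i) (r i) L (gl W f)) =
      SL W J (fun L => ThF Bd pos N ν a r κ L (gl W f)) := by
    unfold SL ThF Sg
    rw [Finset.sum_comm]
    refine Finset.sum_congr rfl fun L _ => ?_
    rw [Finset.mul_sum]
  rw [e3]
  refine SL_mono fun L hL _ => ?_
  have e4 : ThF Bd pos N ν a r κ L (gl W f) = ThF Bd pos N ν a r κ L (f L) := by
    have hP := pen_ThF (a := a) (κ := κ) hB hr hκ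
    exact hP.loc L _ _ fun y hy => gl_eq hW f hL hy
  rw [e4]
  unfold Jv vl
  have h2 : 0 ≤ av L (fun y => X y - f L y) ^ 2 := sq_nonneg _
  linarith

variable {R S : Finset Nd} {J : Nd} {W : Nd → Finset Nd} {C : ℝ} (hR : Full R J)
  (hP : TWin.Part R S W C)

include hR hP

/-- **the moving kernel letters satisfy the hypotheses of `move_I`** -/
theorem stackZJ (m : ℕ) :
    ∃ D : ℕ → ℝ, (∀ k l, k ≤ l → qW (BJ Bd J) (rJ κ ν)
      (ZJ Bd pos N a r (Rk R S (min k m + 1)) J f -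
        ZJ Bd pos N a r (Rk R S (min l m + 1)) J f) ≤ D l - D k) ∧
      ∀ k, D k - D 0 ≤ 4 * (len J * (av J X ^ 2 + η) + 2 * η * len J * m) := by
  have hJ := Growth.len_pos J
  have he : 0 ≤ 2 * η * len J := by
    have := h.eta
    positivity
  have hfix := chain_fix
    (fun k l => qW (BJ Bd J) (rJ κ ν) (ZJ Bd pos N a r (Rk R S k) J f -
      ZJ Bd pos N a r (Rk R S l) J f))
    (fun k => SL (Rk R S k) J (Jv (ThF Bd pos N ν a r κ) X f))
    (c := 4) (e := 2 * η * len J) (B := len J * (av J X ^ 2 + η))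
    (by norm_num) he m ?_ ?_ ?_
  · exact ⟨_, hfix.1, hfix.2⟩
  · intro k l hk hkl
    exact var_ZJ hB hr hκ h (full_Rk hR hP hk) (full_Rk hR hP (hk.trans hkl)) (Rk_mono hkl)
  · intro k
    rw [sub_self, qW_zero]
  · intro k hk
    have h1 := SL_Jv_le hB hr hκ h (full_Rk hR hP hk)
    have h2 := SL_Jv_nonneg (W := Rk R S 1) (J := J) hB hr hκ h
    linarith

/-- the moving glued letters satisfy the hypotheses of `move_I` -/
theorem stackG (m : ℕ) :
    ∃ D : ℕ → ℝ, (∀ k l, k ≤ l → ∑ y ∈ iv J,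
      ‖gl (Rk R S (min k m + 1)) f y - gl (Rk R S (min l m + 1)) f y‖ ^ 2 ≤ D l - D k) ∧
      ∀ k, D k - D 0 ≤ 2 * (len J * (av J X ^ 2 + η) + 2 * η * len J * m) := by
  have hJ := Growth.len_pos J
  have he : 0 ≤ 2 * η * len J := by
    have := h.eta
    positivity
  have hfix := chain_fix
    (fun k l => ∑ y ∈ iv J, ‖gl (Rk R S k) f y - gl (Rk R S l) f y‖ ^ 2)
    (fun k => SL (Rk R S k) J (Jv (ThF Bd pos N ν a r κ) X f))
    (c := 2) (e := 2 * η * len J) (B := len J * (av J X ^ 2 + η))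
    (by norm_num) he m ?_ ?_ ?_
  · exact ⟨_, hfix.1, hfix.2⟩
  · intro k l hk hkl
    exact var_g hB hr hκ h (full_Rk hR hP hk) (full_Rk hR hP (hk.trans hkl)) (Rk_mono hkl)
  · intro k
    simp
  · intro k hk
    have h1 := SL_Jv_le hB hr hκ h (full_Rk hR hP hk)
    have h2 := SL_Jv_nonneg (W := Rk R S 1) (J := J) hB hr hκ h
    linarith

/-- norm of the last kernel letters -/
lemma nW_ZJ {k : ℕ} (hk : 1 ≤ k) :
    nW (BJ Bd J) (rJ κ ν) (ZJ Bd pos N a r (Rk R S k) J f) ≤ √(len J * (av J X ^ 2 + η)) :=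
  Real.sqrt_le_sqrt (size_ZJ hB hr hκ h (full_Rk hR hP hk))

end family

end Crest.Agent.R079.GaSx571
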