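import Crest.Agent.R079.TwL_253
import Crest.Agent.R079.GaZ_260
import Crest.Agent.R079.TK_248

/-! R079, Step I (helper247): THE TALL REMAINDER `Z - tau h Z` OF A KERNEL LETTER AS A KILLER.

* `opB_tau`, `opS_tau`, `opZ_tau` : rows and columns of `K` of energy `≤ V` on a box give operator bound
  `V / h` for `K - tau h K` (Schur);
* `tw_leE`, `sum_twE` : helper253's `tw_le'`, `sum_tw'` with the MEAN SQUARE `E0` of the killer on the
  alive boxes in place of the square of its sup bound (the tall remainder of a glued kernel has no sup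
  bound free of the length);
* `sum_tw_tall` : the word with the tall remainder in the killer place:
  price `K (1 + log (1 + Ar (HA²/fa + HB²/fb) h² / Hr)) (Hr / h)`. -/

set_option autoImplicit false

namespace Crest.Agent.R079.GaTx247

open Finset Crest.Agent.R079.Grid Crest.Agent.R079.Glue Crest.Agent.R079.Growth
  Crest.Agent.R079.QRed Crest.Agent.R079.KLx446 Crest.Agent.R079.KC996
  Crest.Agent.R079.TwLx253
open Crest.Agent.R079.GaTx571 (tau tau_le tau_le' tau_of_le tau_sub)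
open Crest.Agent.R079.GaZx260 (tau_rest)

/-! ### the remainder of the truncation on a box -/

/-- the remainder `z - tau h z` -/
noncomputable def tr (h : ℝ) (z : ℂ) : ℂ := z - tau h z

lemma tr_le {h : ℝ} (hh : 0 ≤ h) (z : ℂ) : ‖tr h z‖ ≤ ‖z‖ := (tau_sub hh z).1

lemma tr_sq {h : ℝ} (hh : 0 < h) (z : ℂ) : ‖tr h z‖ ≤ ‖z‖ ^ 2 / h := tau_rest hh z

lemma tr_zero {h : ℝ} (hh : 0 ≤ h) : tr h 0 = 0 := (tau_sub hh 0).2 (by rw [norm_zero]; exact hh)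

section box

variable {K : ℤ → ℤ → ℂ} {S T : Finset ℤ} {V h : ℝ}

/-- **Schur for the tall remainder**, bilinear form -/
theorem opB_tau (hh : 0 < h) (hV : 0 ≤ V) (hr : ∀ x ∈ S, ∑ y ∈ T, ‖K x y‖ ^ 2 ≤ V)
    (hc : ∀ y ∈ T, ∑ x ∈ S, ‖K x y‖ ^ 2 ≤ V) :
    BadTx138.OpB (fun x y => tr h (K x y)) S T (V / h) := by
  have key : ∀ (U : Finset ℤ) (g : ℤ → ℂ), ∑ y ∈ U, ‖g y‖ ^ 2 ≤ V →
      ∑ y ∈ U, ‖tr h (g y)‖ ≤ V / h := by
    intro U g hg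
    calc ∑ y ∈ U, ‖tr h (g y)‖ ≤ ∑ y ∈ U, ‖g y‖ ^ 2 / h :=
          Finset.sum_le_sum fun y _ => tr_sq hh _
      _ = (∑ y ∈ U, ‖g y‖ ^ 2) / h := by rw [Finset.sum_div]
      _ ≤ V / h := div_le_div_of_nonneg_right hg hh.le
  exact TKx248.opB_schur (div_nonneg hV hh.le) (fun x hx => key T _ (hr x hx))
    (fun y hy => key S _ (hc y hy))

/-- from the bilinear form to the operator form -/
theorem opS_of_opB {B : ℤ → ℤ → ℂ} {c : ℝ} (h : BadTx138.OpB B S T c) : ClW59.OpS S T B c := by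
  intro f
  set u : ℤ → ℂ := fun x => ∑ y ∈ T, B x y * f y with hu
  have h1 := h (fun x => (starRingEnd ℂ) (u x)) f
  have e1 : ∑ x ∈ S, ∑ y ∈ T, (starRingEnd ℂ) (u x) * B x y * f y =
      ((∑ x ∈ S, ‖u x‖ ^ 2 : ℝ) : ℂ) := by
    push_cast
    refine Finset.sum_congr rfl fun x _ => ?_
    have : ∑ y ∈ T, (starRingEnd ℂ) (u x) * B x y * f y = (starRingEnd ℂ) (u x) * u x := by
      rw [hu]
      simp only
      rw [Finset.mul_sum]
      exact Finset.sum_congr rfl fun y _ => by ring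
    rw [this, mul_comm, Complex.mul_conj, Complex.normSq_eq_norm_sq]
    push_cast
    rfl
  rw [e1, Complex.norm_real, Real.norm_eq_abs, sq_abs] at h1
  have e2 : ∀ x, ‖(starRingEnd ℂ) (u x)‖ = ‖u x‖ := fun x => RCLike.norm_conj _
  simp only [e2] at h1
  set X : ℝ := ∑ x ∈ S, ‖u x‖ ^ 2 with hX
  have hX0 : 0 ≤ X := Finset.sum_nonneg fun _ _ => sq_nonneg _
  have hY0 : 0 ≤ c ^ 2 * ∑ y ∈ T, ‖f y‖ ^ 2 :=
    mul_nonneg (sq_nonneg _) (Finset.sum_nonneg fun _ _ => sq_nonneg _)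
  change X ≤ c ^ 2 * ∑ y ∈ T, ‖f y‖ ^ 2
  rcases eq_or_lt_of_le hX0 with h0 | h0
  · rw [← h0]; exact hY0
  · have h2 : X * X ≤ (c ^ 2 * ∑ y ∈ T, ‖f y‖ ^ 2) * X := by
      calc X * X = X ^ 2 := by ring
        _ ≤ _ := h1
        _ = _ := by ring
    exact le_of_mul_le_mul_right h2 h0

/-- **Schur for the tall remainder**, operator form -/
theorem opS_tau (hh : 0 < h) (hV : 0 ≤ V) (hr : ∀ x ∈ S, ∑ y ∈ T, ‖K x y‖ ^ 2 ≤ V)
    (hc : ∀ y ∈ T, ∑ x ∈ S, ‖K x y‖ ^ 2 ≤ V) :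
    ClW59.OpS S T (fun x y => tr h (K x y)) (V / h) := opS_of_opB (opB_tau hh hV hr hc)

/-- Hilbert-Schmidt norm of the remainder -/
lemma hs_tr (hh : 0 ≤ h) (K : ℤ → ℤ → ℂ) (S T : Finset ℤ) :
    ∑ x ∈ S, ∑ y ∈ T, ‖tr h (K x y)‖ ^ 2 ≤ ∑ x ∈ S, ∑ y ∈ T, ‖K x y‖ ^ 2 :=
  Finset.sum_le_sum fun _ _ => Finset.sum_le_sum fun _ _ =>
    pow_le_pow_left₀ (norm_nonneg _) (tr_le hh _) 2

end box

/-- **Schur for the tall remainder**, real words -/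
theorem opZ_tau {K : ℤ → ℤ → ℂ} {N : ℕ} {q p : ℤ} {V h : ℝ} (hh : 0 < h) (hV : 0 ≤ V)
    (hr : ∀ x ∈ Ico q (q + (N : ℤ)), ∑ y ∈ Ico p (p + (N : ℤ)), ‖K x y‖ ^ 2 ≤ V)
    (hc : ∀ y ∈ Ico p (p + (N : ℤ)), ∑ x ∈ Ico q (q + (N : ℤ)), ‖K x y‖ ^ 2 ≤ V) (σ : Bool) :
    OpZ (fun x y => pr σ (tr h (K x y))) N q p (V / h) :=
  opZ_of_opB (opB_tau hh hV hr hc) σ

/-! ### the corner with the mean square of the killer -/

/-- **THE CORNER AT ONE FROZEN VALUE**, mean square `E0` of the killer instead of its sup -/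
theorem tw_leE : ∃ K : ℝ, 0 ≤ K ∧ ∀ (l : ℤ), |l| ≤ 7 →
    ∀ (R : Finset Nd) (J : Nd) (α β γ w x0 x1 y0 y1 : ℤ) (al : ℕ → ℤ → ℤ → Prop),
    IsRegion R J → Cof α β γ → AlC R J α β γ w x0 x1 y0 y1 al →
    ∀ (A B C : ℤ → ℤ → ℝ) (τ HA HB E0 a2 b2 : ℝ), FS A → FS B → FS C →
    0 < τ → 0 < a2 → 0 < b2 → 0 ≤ E0 →
    (∀ x y, |A x y| ≤ HA) → (∀ x y, |B x y| ≤ HB) →
    (∀ m q p, al m q p →
      ∑ x ∈ Ico q (q + (2 : ℤ) ^ m), ∑ y ∈ Ico p (p + (2 : ℤ) ^ m), C x y ^ 2 ≤ 4 ^ m * E0) →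
    (∀ X Y : Finset ℤ, ∑ x ∈ X, ∑ y ∈ Y, A x y ^ 2 ≤ a2) →
    (∀ X Y : Finset ℤ, ∑ x ∈ X, ∑ y ∈ Y, B x y ^ 2 ≤ b2) →
    (∀ m q p, al m q p → OpZ C (2 ^ m) q p (2 ^ m * τ)) →
    ∀ (Gm : ℕ → ℤ → ℤ → ℤ → Prop), (∀ m ≤ J.1, ∀ p0 p1 p2, Gm m p0 p1 p2 →
      (∃ i j : ℕ, i < 2 ^ (m + 1) ∧ j < 2 ^ (m + 1) ∧ C (p2 + i) (p0 + j) ≠ 0) →
      Al4Z al m p2 p0) →
    ∀ L1 : ℕ, Tw Gm A B C (J.1 + 1) L1 l w ≤
      K * (1 + Real.log (1 + E0 * (((Ico x0 x1).card : ℝ) * len J) *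
        (HA ^ 2 / a2 + HB ^ 2 / b2) / τ ^ 2)) * (τ * √a2 * √b2) := by
  classical
  obtain ⟨K, hK0, hK⟩ := corner_const KTx279.cornerZ
  refine ⟨300 * K, by positivity, ?_⟩
  intro l hl R J α β γ w x0 x1 y0 y1 al hR hc hal A B C τ HA HB E0 a2 b2 sA sB sC hτ ha hb hE0
    hA hB hC eA eB hop Gm hGm L1
  set Ar0 : ℝ := ((Ico x0 x1).card : ℝ) * len J with hAr0
  have hAr0' : 0 ≤ Ar0 := mul_nonneg (Nat.cast_nonneg _) (Growth.len_pos J).le
  set D : ℝ := HA ^ 2 / a2 + HB ^ 2 / b2 with hD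
  have hD0 : 0 ≤ D := by positivity
  set z : ℝ := E0 * Ar0 * D / τ ^ 2 with hz
  have hz0 : 0 ≤ z := by positivity
  have hlog0 : 0 ≤ Real.log (1 + z) := Real.log_nonneg (by linarith)
  have hrhs : 0 ≤ 300 * K * (1 + Real.log (1 + z)) * (τ * √a2 * √b2) := by positivity
  -- restrict to the boxes which meet the support of `C`
  set Gm' : ℕ → ℤ → ℤ → ℤ → Prop := fun m p0 p1 p2 => (m ≤ J.1 ∧ Gm m p0 p1 p2) ∧
    (∃ i j : ℕ, i < 2 ^ (m + 1) ∧ j < 2 ^ (m + 1) ∧ C (p2 + i) (p0 + j) ≠ 0) with hGm'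
  have e0 : Tw Gm A B C (J.1 + 1) L1 l w = Tw Gm' A B C (J.1 + 1) L1 l w := by
    unfold Tw
    refine Finset.sum_congr rfl fun m hm => ?_
    have hm' : m ≤ J.1 := Nat.lt_succ_iff.1 (Finset.mem_range.1 hm)
    congr 1
    refine Finset.sum_congr rfl fun i _ => Finset.sum_congr rfl fun p0 _ => Finset.sum_congr rfl
      fun p1 _ => ?_
    by_cases hg : Gm m p0 p1 (l * 2 ^ m + (i : ℤ) - w - p0 - p1)
    · by_cases hs : ∃ i' j : ℕ, i' < 2 ^ (m + 1) ∧ j < 2 ^ (m + 1) ∧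
        C ((l * 2 ^ m + (i : ℤ) - w - p0 - p1) + i') (p0 + j) ≠ 0
      · rw [if_pos hg, if_pos ⟨⟨hm', hg⟩, hs⟩]
      · rw [if_pos hg, if_neg (fun h => hs h.2), Lb3r_zero_C hs, abs_zero]
    · rw [if_neg hg, if_neg (fun h => hg h.1.2)]
  rw [e0]
  by_cases hD1 : D = 0
  · -- no letter at all
    have hA0 : ∀ x y, A x y = 0 := by
      have h1 : HA ^ 2 / a2 = 0 := by
        have h2 : 0 ≤ HA ^ 2 / a2 := by positivity
        have h3 : 0 ≤ HB ^ 2 / b2 := by positivity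
        linarith
      have h4 : HA = 0 := by
        rcases div_eq_zero_iff.1 h1 with h | h
        · exact pow_eq_zero_iff (two_ne_zero) |>.1 h
        · exact absurd h ha.ne'
      intro x y
      have := hA x y
      rw [h4] at this
      exact abs_eq_zero.1 (le_antisymm this (abs_nonneg _))
    rw [tw_zero (Lb3r_zero_A hA0)]
    exact hrhs
  have hDp : 0 < D := lt_of_le_of_ne hD0 (Ne.symm hD1)
  obtain ⟨SA, hSA⟩ := sA
  obtain ⟨SB, hSB⟩ := sB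
  obtain ⟨SC, hSC⟩ := sC
  obtain ⟨SX, hSX⟩ := exists_absbd {x0, x1, y0, y1}
  set S0 : ℕ := max (max SA SB) (max SC SX) with hS0
  have iA : (SA : ℤ) ≤ S0 := by exact_mod_cast (le_max_left SA SB).trans (le_max_left _ _)
  have iB : (SB : ℤ) ≤ S0 := by exact_mod_cast (le_max_right SA SB).trans (le_max_left _ _)
  have iC : (SC : ℤ) ≤ S0 := by exact_mod_cast (le_max_left SC SX).trans (le_max_right _ _)
  have iX : (SX : ℤ) ≤ S0 := by exact_mod_cast (le_max_right SC SX).trans (le_max_right _ _)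
  have hx0 := abs_le.1 (hSX x0 (by simp))
  have hx1 := abs_le.1 (hSX x1 (by simp))
  have hy0 := abs_le.1 (hSX y0 (by simp))
  have hy1 := abs_le.1 (hSX y1 (by simp))
  obtain ⟨J', hJ1, hJ2⟩ := exists_steps z hz0
  have hr : 0 < 1 / D := by positivity
  have main := hK l hl (J.1 + 1) J' S0 A B C al w a2 b2 (1 / D) τ E0 (61 * Ar0) ha hb hr hτ
    (fun x y h => ⟨(hSA x y h).1.trans iA, (hSA x y h).2.trans iA⟩)
    (fun x y h => ⟨(hSB x y h).1.trans iB, (hSB x y h).2.trans iB⟩)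
    (fun x y h => ⟨(hSC x y h).1.trans iC, (hSC x y h).2.trans iC⟩)
    (eA _ _) (eB _ _)
    (fun x y => by
      have h1 : A x y ^ 2 ≤ HA ^ 2 := by
        rw [← sq_abs (A x y)]
        exact pow_le_pow_left₀ (abs_nonneg _) (hA x y) 2
      have h2 : HA ^ 2 / a2 ≤ D := le_add_of_nonneg_right (by positivity)
      have h3 : a2 / (1 / D) = a2 * D := by field_simp
      rw [h3]
      rw [div_le_iff₀ ha] at h2
      linarith)
    (fun x y => by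
      have h1 : B x y ^ 2 ≤ HB ^ 2 := by
        rw [← sq_abs (B x y)]
        exact pow_le_pow_left₀ (abs_nonneg _) (hB x y) 2
      have h2 : HB ^ 2 / b2 ≤ D := le_add_of_nonneg_left (by positivity)
      have h3 : b2 / (1 / D) = b2 * D := by field_simp
      rw [h3]
      rw [div_le_iff₀ hb] at h2
      linarith)
    { dom := fun m q p h => by
        obtain ⟨h1, h2⟩ := hal.dom m q p h
        have hm0 : (0 : ℤ) < 2 ^ m := by positivity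
        refine ⟨?_, ?_, ?_⟩
        · have h3 := h1 q (Finset.mem_Ico.2 ⟨le_rfl, by linarith⟩) p
            (Finset.mem_Ico.2 ⟨le_rfl, by linarith⟩)
          rw [mem_Rm] at h3
          have h4 := Glue.level_le R J hR _ h3
          exact Nat.lt_succ_of_le h4
        · rw [abs_le]
          unfold Dm2 at h2
          constructor <;> linarith [h2.1, h2.2.1]
        · rw [abs_le]
          unfold Dm2 at h2
          constructor <;> linarith [h2.2.2.1, h2.2.2.2]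
      op := hop
      ex := fun k' hk L c d => hal.exl k' hk L c d }
    { hs := fun m q p h => hC m q p h
      ar := fun m => by
        refine (area_global hR hc m (fun q p h => hal.dom m q p h) _ _).trans ?_
        change Ar0 ≤ _
        linarith
      ex := fun k' hk => hal.exg k' hk _ _ _ }
    (by
      have h1 : τ ^ 2 * (1 / D * 2 ^ J') = τ ^ 2 / D * 2 ^ J' := by ring
      rw [h1]
      have h2 : E0 * (61 * Ar0) = τ ^ 2 / D * (61 * z) := by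
        rw [hz]
        field_simp
      rw [h2]
      exact mul_le_mul_of_nonneg_left hJ1 (by positivity))
    Gm' (fun m p0 p1 p2 h => hGm m h.1.1 p0 p1 p2 h.1.2 h.2) L1
  refine main.trans ?_
  have h5 : K * (2 * (J' : ℝ) + 1) ≤ 300 * K * (1 + Real.log (1 + z)) := by
    calc K * (2 * (J' : ℝ) + 1) ≤ K * (300 * (1 + Real.log (1 + z))) :=
          mul_le_mul_of_nonneg_left hJ2 hK0
      _ = _ := by ring
  exact mul_le_mul_of_nonneg_right h5 (by positivity)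

/-- **SUM OVER THE FROZEN VALUES**, floors `fa`, `fb`, mean square `E0` of the killer -/
theorem sum_twE : ∃ K : ℝ, 0 ≤ K ∧ ∀ (l : ℤ), |l| ≤ 7 →
    ∀ (R : Finset Nd) (J : Nd) (α β γ x0 x1 y0 y1 : ℤ) (al : ℤ → ℕ → ℤ → ℤ → Prop),
    IsRegion R J → Cof α β γ → (∀ w, AlC R J α β γ w x0 x1 y0 y1 (al w)) →
    ∀ (A B C : ℤ → ℤ → ℤ → ℝ) (τ HA HB E0 fa fb SA SB : ℝ) (W1 : Finset ℤ),
    (∀ w, FS (A w)) → (∀ w, FS (B w)) → (∀ w, FS (C w)) →
    0 < τ → 0 < fa → 0 < fb → 0 ≤ E0 →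
    (∀ w x y, |A w x y| ≤ HA) → (∀ w x y, |B w x y| ≤ HB) →
    (∀ w ∈ W1, ∀ m q p, al w m q p →
      ∑ x ∈ Ico q (q + (2 : ℤ) ^ m), ∑ y ∈ Ico p (p + (2 : ℤ) ^ m), C w x y ^ 2 ≤ 4 ^ m * E0) →
    (∀ w, w ∉ W1 → (∀ x y, A w x y = 0) ∨ (∀ x y, B w x y = 0)) →
    (∀ X Y : Finset ℤ, ∑ w ∈ W1, ∑ x ∈ X, ∑ y ∈ Y, A w x y ^ 2 ≤ SA) →
    (∀ X Y : Finset ℤ, ∑ w ∈ W1, ∑ x ∈ X, ∑ y ∈ Y, B w x y ^ 2 ≤ SB) →
    (∀ w ∈ W1, ∀ m q p, al w m q p → OpZ (C w) (2 ^ m) q p (2 ^ m * τ)) →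
    ∀ (Gm : ℤ → ℕ → ℤ → ℤ → ℤ → Prop), (∀ w, ∀ m ≤ J.1, ∀ p0 p1 p2, Gm w m p0 p1 p2 →
      (∃ i j : ℕ, i < 2 ^ (m + 1) ∧ j < 2 ^ (m + 1) ∧ C w (p2 + i) (p0 + j) ≠ 0) →
      Al4Z (al w) m p2 p0) →
    ∀ (Wf : Finset ℤ) (L1 : ℕ), ∑ w ∈ Wf, Tw (Gm w) (A w) (B w) (C w) (J.1 + 1) L1 l w ≤
      K * (1 + Real.log (1 + E0 * (((Ico x0 x1).card : ℝ) * len J) *
        (HA ^ 2 / fa + HB ^ 2 / fb) / τ ^ 2)) *
        (τ * √(SA + W1.card * fa) * √(SB + W1.card * fb)) := by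
  classical
  obtain ⟨K, hK0, hK⟩ := tw_leE
  refine ⟨K, hK0, ?_⟩
  intro l hl R J α β γ x0 x1 y0 y1 al hR hc hal A B C τ HA HB E0 fa fb SA SB W1 sA sB sC hτ hfa
    hfb hE0 hA hB hC h0 eA eB hop Gm hGm Wf L1
  set Ar0 : ℝ := ((Ico x0 x1).card : ℝ) * len J with hAr0
  have hAr0' : 0 ≤ Ar0 := mul_nonneg (Nat.cast_nonneg _) (Growth.len_pos J).le
  -- one box containing all supports
  obtain ⟨S, hS⟩ : ∃ S : ℕ, ∀ w ∈ W1, (∀ x y, A w x y ≠ 0 → |x| ≤ S ∧ |y| ≤ S) ∧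
      (∀ x y, B w x y ≠ 0 → |x| ≤ S ∧ |y| ≤ S) := by
    choose fA hfA using sA
    choose fB hfB using sB
    refine ⟨∑ w ∈ W1, (fA w + fB w), fun w hw => ?_⟩
    have h1 : fA w + fB w ≤ ∑ w ∈ W1, (fA w + fB w) :=
      Finset.single_le_sum (f := fun w => fA w + fB w) (fun _ _ => Nat.zero_le _) hw
    have h2 : (fA w : ℤ) + fB w ≤ ((∑ w ∈ W1, (fA w + fB w) : ℕ) : ℤ) := by exact_mod_cast h1
    refine ⟨fun x y hxy => ?_, fun x y hxy => ?_⟩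
    · have := hfA w x y hxy
      constructor <;> linarith [this.1, this.2, Int.natCast_nonneg (fB w)]
    · have := hfB w x y hxy
      constructor <;> linarith [this.1, this.2, Int.natCast_nonneg (fA w)]
  set IS : Finset ℤ := Icc (-(S : ℤ)) S with hIS
  set EA : ℤ → ℝ := fun w => ∑ x ∈ IS, ∑ y ∈ IS, A w x y ^ 2 with hEA
  set EB : ℤ → ℝ := fun w => ∑ x ∈ IS, ∑ y ∈ IS, B w x y ^ 2 with hEB
  have tot : ∀ (F : ℤ → ℤ → ℝ), (∀ x y, F x y ≠ 0 → |x| ≤ S ∧ |y| ≤ S) → ∀ X Y : Finset ℤ,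
      ∑ x ∈ X, ∑ y ∈ Y, F x y ^ 2 ≤ ∑ x ∈ IS, ∑ y ∈ IS, F x y ^ 2 := by
    intro F hF X Y
    have hm : ∀ x, |x| ≤ (S : ℤ) → x ∈ IS := fun x hx => by
      rw [hIS, Finset.mem_Icc]; exact abs_le.1 hx
    calc ∑ x ∈ X, ∑ y ∈ Y, F x y ^ 2 = ∑ z ∈ X ×ˢ Y, F z.1 z.2 ^ 2 := by
          rw [Finset.sum_product]
      _ = ∑ z ∈ (X ×ˢ Y).filter (fun z => F z.1 z.2 ≠ 0), F z.1 z.2 ^ 2 := by
          rw [Finset.sum_filter]
          refine Finset.sum_congr rfl fun z _ => ?_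
          by_cases hz : F z.1 z.2 = 0
          · simp [hz]
          · rw [if_pos hz]
      _ ≤ ∑ z ∈ IS ×ˢ IS, F z.1 z.2 ^ 2 := by
          refine Finset.sum_le_sum_of_subset_of_nonneg ?_ (fun _ _ _ => sq_nonneg _)
          intro z hz
          rw [Finset.mem_filter] at hz
          rw [Finset.mem_product]
          exact ⟨hm _ (hF _ _ hz.2).1, hm _ (hF _ _ hz.2).2⟩
      _ = _ := by rw [Finset.sum_product]
  set Lg : ℝ := 1 + Real.log (1 + E0 * Ar0 * (HA ^ 2 / fa + HB ^ 2 / fb) / τ ^ 2) with hLg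
  have hLg0 : 0 ≤ Lg := by
    have : 0 ≤ Real.log (1 + E0 * Ar0 * (HA ^ 2 / fa + HB ^ 2 / fb) / τ ^ 2) :=
      Real.log_nonneg (by
        have : 0 ≤ E0 * Ar0 * (HA ^ 2 / fa + HB ^ 2 / fb) / τ ^ 2 := by positivity
        linarith)
    linarith
  have hEA0 : ∀ w, 0 ≤ EA w := fun w => Finset.sum_nonneg fun _ _ => Finset.sum_nonneg
    fun _ _ => sq_nonneg _
  have hEB0 : ∀ w, 0 ≤ EB w := fun w => Finset.sum_nonneg fun _ _ => Finset.sum_nonneg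
    fun _ _ => sq_nonneg _
  have one : ∀ w ∈ W1, Tw (Gm w) (A w) (B w) (C w) (J.1 + 1) L1 l w ≤
      K * Lg * (τ * √(EA w + fa) * √(EB w + fb)) := by
    intro w hw
    have h1 := hK l hl R J α β γ w x0 x1 y0 y1 (al w) hR hc (hal w) (A w) (B w) (C w) τ HA HB E0
      (EA w + fa) (EB w + fb) (sA w) (sB w) (sC w) hτ (by linarith [hEA0 w]) (by linarith [hEB0 w])
      hE0 (hA w) (hB w) (hC w hw)
      (fun X Y => (tot (A w) (hS w hw).1 X Y).trans (by simp only [hEA]; linarith))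
      (fun X Y => (tot (B w) (hS w hw).2 X Y).trans (by simp only [hEB]; linarith))
      (hop w hw) (Gm w) (hGm w) L1
    refine h1.trans (mul_le_mul_of_nonneg_right (mul_le_mul_of_nonneg_left ?_ hK0) (by positivity))
    have h2 : HA ^ 2 / (EA w + fa) ≤ HA ^ 2 / fa :=
      div_le_div_of_nonneg_left (sq_nonneg _) hfa (by linarith [hEA0 w])
    have h3 : HB ^ 2 / (EB w + fb) ≤ HB ^ 2 / fb :=
      div_le_div_of_nonneg_left (sq_nonneg _) hfb (by linarith [hEB0 w])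
    have h4 : E0 * Ar0 * (HA ^ 2 / (EA w + fa) + HB ^ 2 / (EB w + fb)) / τ ^ 2 ≤
        E0 * Ar0 * (HA ^ 2 / fa + HB ^ 2 / fb) / τ ^ 2 := by
      refine div_le_div_of_nonneg_right ?_ (by positivity)
      exact mul_le_mul_of_nonneg_left (add_le_add h2 h3) (by positivity)
    have h5 : 0 ≤ E0 * Ar0 * (HA ^ 2 / (EA w + fa) + HB ^ 2 / (EB w + fb)) / τ ^ 2 := by
      have := hEA0 w
      have := hEB0 w
      positivity
    simp only [hLg]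
    have h6 := Real.log_le_log (by linarith) (by linarith : 1 + E0 * Ar0 *
      (HA ^ 2 / (EA w + fa) + HB ^ 2 / (EB w + fb)) / τ ^ 2 ≤
        1 + E0 * Ar0 * (HA ^ 2 / fa + HB ^ 2 / fb) / τ ^ 2)
    linarith
  have hzero : ∀ w ∈ Wf, w ∉ W1 → Tw (Gm w) (A w) (B w) (C w) (J.1 + 1) L1 l w = 0 := by
    intro w _ hw
    rcases h0 w hw with h | h
    · exact tw_zero (Lb3r_zero_A h)
    · exact tw_zero (Lb3r_zero_B h)
  have hTw0 : ∀ w, 0 ≤ Tw (Gm w) (A w) (B w) (C w) (J.1 + 1) L1 l w := by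
    intro w
    unfold Tw
    refine Finset.sum_nonneg fun m _ => mul_nonneg (by positivity) ?_
    refine Finset.sum_nonneg fun i _ => Finset.sum_nonneg fun p0 _ => Finset.sum_nonneg
      fun p1 _ => ?_
    split_ifs
    · exact abs_nonneg _
    · exact le_rfl
  calc ∑ w ∈ Wf, Tw (Gm w) (A w) (B w) (C w) (J.1 + 1) L1 l w
      = ∑ w ∈ Wf.filter (fun w => w ∈ W1), Tw (Gm w) (A w) (B w) (C w) (J.1 + 1) L1 l w := by
        rw [Finset.sum_filter]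
        refine Finset.sum_congr rfl fun w hw => ?_
        by_cases hw1 : w ∈ W1
        · rw [if_pos hw1]
        · rw [if_neg hw1, hzero w hw hw1]
    _ ≤ ∑ w ∈ W1, Tw (Gm w) (A w) (B w) (C w) (J.1 + 1) L1 l w :=
        Finset.sum_le_sum_of_subset_of_nonneg (fun w hw => (Finset.mem_filter.1 hw).2)
          (fun w _ _ => hTw0 w)
    _ ≤ ∑ w ∈ W1, K * Lg * (τ * √(EA w + fa) * √(EB w + fb)) := Finset.sum_le_sum one
    _ = K * Lg * (τ * ∑ w ∈ W1, √(EA w + fa) * √(EB w + fb)) := by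
        rw [Finset.mul_sum, Finset.mul_sum]
        refine Finset.sum_congr rfl fun w _ => by ring
    _ ≤ K * Lg * (τ * (√(SA + W1.card * fa) * √(SB + W1.card * fb))) := by
        refine mul_le_mul_of_nonneg_left (mul_le_mul_of_nonneg_left ?_ hτ.le) (by positivity)
        refine (Real.sum_sqrt_mul_sqrt_le W1 (fun w => by linarith [hEA0 w])
          (fun w => by linarith [hEB0 w])).trans ?_
        refine mul_le_mul (Real.sqrt_le_sqrt ?_) (Real.sqrt_le_sqrt ?_) (Real.sqrt_nonneg _)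
          (Real.sqrt_nonneg _)
        · rw [Finset.sum_add_distrib, Finset.sum_const, nsmul_eq_mul]
          linarith [eA IS IS]
        · rw [Finset.sum_add_distrib, Finset.sum_const, nsmul_eq_mul]
          linarith [eB IS IS]
    _ = _ := by ring

/-! ### the tall remainder as a killer -/

/-- **THE TALL REMAINDER OF A KERNEL IN THE KILLER PLACE** : rows and columns of `Z w` of energy
`≤ Hr 2^m` on the alive boxes -/
theorem sum_tw_tall : ∃ K : ℝ, 0 ≤ K ∧ ∀ (l : ℤ), |l| ≤ 7 →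
    ∀ (R : Finset Nd) (J : Nd) (α β γ x0 x1 y0 y1 : ℤ) (al : ℤ → ℕ → ℤ → ℤ → Prop),
    IsRegion R J → Cof α β γ → (∀ w, AlC R J α β γ w x0 x1 y0 y1 (al w)) →
    ∀ (A B : ℤ → ℤ → ℤ → ℝ) (Z : ℤ → ℤ → ℤ → ℂ) (h Hr HA HB fa fb SA SB : ℝ) (W1 : Finset ℤ),
    (∀ w, FS (A w)) → (∀ w, FS (B w)) →
    (∀ w, ∃ S : ℕ, ∀ x y, Z w x y ≠ 0 → |x| ≤ S ∧ |y| ≤ S) →
    0 < h → 0 < Hr → 0 < fa → 0 < fb →
    (∀ w x y, |A w x y| ≤ HA) → (∀ w x y, |B w x y| ≤ HB) →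
    (∀ w ∈ W1, ∀ m q p, al w m q p → ∀ x ∈ Ico q (q + (2 : ℤ) ^ m),
      ∑ y ∈ Ico p (p + (2 : ℤ) ^ m), ‖Z w x y‖ ^ 2 ≤ Hr * 2 ^ m) →
    (∀ w ∈ W1, ∀ m q p, al w m q p → ∀ y ∈ Ico p (p + (2 : ℤ) ^ m),
      ∑ x ∈ Ico q (q + (2 : ℤ) ^ m), ‖Z w x y‖ ^ 2 ≤ Hr * 2 ^ m) →
    (∀ w, w ∉ W1 → (∀ x y, A w x y = 0) ∨ (∀ x y, B w x y = 0)) →
    (∀ X Y : Finset ℤ, ∑ w ∈ W1, ∑ x ∈ X, ∑ y ∈ Y, A w x y ^ 2 ≤ SA) →
    (∀ X Y : Finset ℤ, ∑ w ∈ W1, ∑ x ∈ X, ∑ y ∈ Y, B w x y ^ 2 ≤ SB) →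
    ∀ (σ : Bool) (Gm : ℤ → ℕ → ℤ → ℤ → ℤ → Prop), (∀ w, ∀ m ≤ J.1, ∀ p0 p1 p2, Gm w m p0 p1 p2 →
      (∃ i j : ℕ, i < 2 ^ (m + 1) ∧ j < 2 ^ (m + 1) ∧ Z w (p2 + i) (p0 + j) ≠ 0) →
      Al4Z (al w) m p2 p0) →
    ∀ (Wf : Finset ℤ) (L1 : ℕ),
      ∑ w ∈ Wf, Tw (Gm w) (A w) (B w) (fun x y => pr σ (tr h (Z w x y))) (J.1 + 1) L1 l w ≤
      K * (1 + Real.log (1 + (((Ico x0 x1).card : ℝ) * len J) *
        (HA ^ 2 / fa + HB ^ 2 / fb) * h ^ 2 / Hr)) *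
        (Hr / h * √(SA + W1.card * fa) * √(SB + W1.card * fb)) := by
  obtain ⟨K, hK0, hK⟩ := sum_twE
  refine ⟨K, hK0, ?_⟩
  intro l hl R J α β γ x0 x1 y0 y1 al hR hc hal A B Z h Hr HA HB fa fb SA SB W1 sA sB sZ hh hHr
    hfa hfb hA hB hrow hcol h0 eA eB σ Gm hGm Wf L1
  have hnz : ∀ w x y, pr σ (tr h (Z w x y)) ≠ 0 → Z w x y ≠ 0 := by
    intro w x y hne hz
    exact hne (by rw [hz, tr_zero hh.le, pr_zero])
  have e4 : ∀ m : ℕ, (4 : ℝ) ^ m = 2 ^ m * 2 ^ m := fun m => by rw [← mul_pow]; norm_num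
  have key := hK l hl R J α β γ x0 x1 y0 y1 al hR hc hal A B
    (fun w x y => pr σ (tr h (Z w x y))) (Hr / h) HA HB Hr fa fb SA SB W1 sA sB
    (fun w => by
      obtain ⟨S, hS⟩ := sZ w
      exact ⟨S, fun x y hxy => hS x y (hnz w x y hxy)⟩)
    (div_pos hHr hh) hfa hfb hHr.le hA hB
    (fun w hw m q p hal' => by
      calc ∑ x ∈ Ico q (q + (2 : ℤ) ^ m), ∑ y ∈ Ico p (p + (2 : ℤ) ^ m),
            pr σ (tr h (Z w x y)) ^ 2
          ≤ ∑ x ∈ Ico q (q + (2 : ℤ) ^ m), ∑ y ∈ Ico p (p + (2 : ℤ) ^ m), ‖Z w x y‖ ^ 2 := by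
            refine Finset.sum_le_sum fun x _ => Finset.sum_le_sum fun y _ => ?_
            rw [← sq_abs]
            exact pow_le_pow_left₀ (abs_nonneg _) ((abs_pr_le σ _).trans (tr_le hh.le _)) 2
        _ ≤ ∑ _x ∈ Ico q (q + (2 : ℤ) ^ m), Hr * 2 ^ m :=
            Finset.sum_le_sum fun x hx => hrow w hw m q p hal' x hx
        _ = 4 ^ m * Hr := by
            rw [Finset.sum_const, Int.card_Ico, nsmul_eq_mul, e4]
            have e1 : ((q + 2 ^ m - q).toNat : ℝ) = 2 ^ m := by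
              have : q + 2 ^ m - q = ((2 ^ m : ℕ) : ℤ) := by push_cast; ring
              rw [this, Int.toNat_natCast]
              push_cast
              rfl
            rw [e1]
            ring)
    h0 eA eB
    (fun w hw m q p hal' => by
      have hc2 : ((2 ^ m : ℕ) : ℤ) = (2 : ℤ) ^ m := by push_cast; rfl
      have h1 := opZ_tau (K := Z w) (N := 2 ^ m) (q := q) (p := p) (V := Hr * 2 ^ m) hh
        (by positivity) (by rw [hc2]; exact hrow w hw m q p hal')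
        (by rw [hc2]; exact hcol w hw m q p hal') σ
      have e1 : (2 : ℝ) ^ m * (Hr / h) = Hr * 2 ^ m / h := by ring
      rw [e1]
      exact h1)
    Gm (fun w m hm p0 p1 p2 hg ⟨i, j, hi, hj, hij⟩ =>
      hGm w m hm p0 p1 p2 hg ⟨i, j, hi, hj, hnz w _ _ hij⟩) Wf L1
  have e2 : Hr * (((Ico x0 x1).card : ℝ) * len J) * (HA ^ 2 / fa + HB ^ 2 / fb) / (Hr / h) ^ 2 =
      (((Ico x0 x1).card : ℝ) * len J) * (HA ^ 2 / fa + HB ^ 2 / fb) * h ^ 2 / Hr := by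
    have := hHr.ne'
    have := hh.ne'
    field_simp
  rw [e2] at key
  exact key

end Crest.Agent.R079.GaTx247
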