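import Crest.Agent.R079.GaS_571
import Crest.Agent.R079.GaH_260
import Crest.Agent.R079.ExC_999
import Crest.Agent.R079.FrozenB_569

/-! R079, Step I, words of type (G) (helper251): the pieces of a kernel letter on SMALL boxes.

* `chi_row`, `chi_col`, `clip_row`, `clip_col`, `cl_row` .. : rows and columns of the clip and of the
  part above the clip are at most those of the kernel;
* `split_row`, `split_col` : the same for `A - Pj A` on the band of a node that splits into cells;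
* `Zs_row`, `Zs_col` : the same for the glued letter `Zs` of a full region, at every node of the region;
* `opC_small`, `opS_node`, `opS_glued` : the glued projections `Bgl` have operator norm
  `≤ 6 2^k r 2^m` on EVERY box of side `2^m` all of whose shadows lie in nodes of level `m`;
* `box_row`, `box_col`, `box_hs` : rows, columns, HS norm of `Zs` on these boxes; `opS_Zhi` : tall part;
* `opS_kill` : the killer `B_0 + (Z - tau_h Z)` of a window. -/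

set_option autoImplicit false

namespace Crest.Agent.R079.GaTx251

open Finset Crest.Agent.R079.Grid Crest.Agent.R079.Growth Crest.Agent.R079.QRed
  Crest.Agent.R079.Qh249 Crest.Agent.R079.TWin Crest.Agent.R079.HiF881
  Crest.Agent.R079.ClW59 Crest.Agent.R079.Cel159 Crest.Agent.R079.ThA159 Crest.Agent.R079.PjC881
open Crest.Agent.R079.ThB159
open Crest.Agent.R079.Glue (Rm mem_Rm)
open Crest.Agent.R079.Whit (Ins Ins.mono Ins.sub sub0 sub1)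
open Crest.Agent.R079.GaSx571

open scoped ComplexConjugate

/-! ### rows and columns of the clip -/

section mat

variable {m n : Type*} [Fintype m] [Fintype n] [DecidableEq n]

theorem clip_row (A : m → n → ℂ) {s : ℝ} (hs : 0 ≤ s) (x : m) :
    ∑ y, ‖clip A s x y‖ ^ 2 ≤ ∑ y, ‖A x y‖ ^ 2 := by
  obtain ⟨X, σ, h⟩ := exists_SVD A
  rw [clip_eq h hs]
  refine Mul_row_le h (fun k => ?_) x
  have h0 := cc_nonneg h.nn hs k
  have h1 := cc_le_one (s := σ) hs k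
  nlinarith

theorem clip_col (A : m → n → ℂ) {s : ℝ} (hs : 0 ≤ s) (y : n) :
    ∑ x, ‖clip A s x y‖ ^ 2 ≤ ∑ x, ‖A x y‖ ^ 2 := by
  obtain ⟨X, σ, h⟩ := exists_SVD A
  rw [clip_eq h hs]
  refine Mul_col_le h (fun k => ?_) y
  have h0 := cc_nonneg h.nn hs k
  have h1 := cc_le_one (s := σ) hs k
  nlinarith

theorem chi_row (A : m → n → ℂ) {s : ℝ} (hs : 0 ≤ s) (x : m) :
    ∑ y, ‖chi A s x y‖ ^ 2 ≤ ∑ y, ‖A x y‖ ^ 2 := by
  obtain ⟨X, σ, h⟩ := exists_SVD A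
  rw [chi_eq h hs]
  refine Mul_row_le h (fun k => ?_) x
  have h0 := cc_nonneg h.nn hs k
  have h1 := cc_le_one (s := σ) hs k
  nlinarith

theorem chi_col (A : m → n → ℂ) {s : ℝ} (hs : 0 ≤ s) (y : n) :
    ∑ x, ‖chi A s x y‖ ^ 2 ≤ ∑ x, ‖A x y‖ ^ 2 := by
  obtain ⟨X, σ, h⟩ := exists_SVD A
  rw [chi_eq h hs]
  refine Mul_col_le h (fun k => ?_) y
  have h0 := cc_nonneg h.nn hs k
  have h1 := cc_le_one (s := σ) hs k
  nlinarith

end mat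

section rect

variable (A : ℤ → ℤ → ℂ) {S S' : Finset ℤ} {s : ℝ}

lemma cl_at {x y : ℤ} (hx : x ∈ S) (hy : y ∈ S') : cl A S S' s x y =
    clip (fun (x : {x // x ∈ S}) (y : {y // y ∈ S'}) => A x y) s ⟨x, hx⟩ ⟨y, hy⟩ := by
  rw [cl, dif_pos ⟨hx, hy⟩]

/-- rows of the clip on a rectangle -/
theorem cl_row (hs : 0 ≤ s) {x : ℤ} (hx : x ∈ S) :
    ∑ y ∈ S', ‖cl A S S' s x y‖ ^ 2 ≤ ∑ y ∈ S', ‖A x y‖ ^ 2 := by
  have h := clip_row (fun (x : {x // x ∈ S}) (y : {y // y ∈ S'}) => A x y) hs ⟨x, hx⟩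
  rw [← Finset.sum_coe_sort S', ← Finset.sum_coe_sort S' (fun y => ‖A x y‖ ^ 2)]
  refine le_trans (le_of_eq ?_) h
  exact Finset.sum_congr rfl fun y _ => by rw [cl_at A hx y.2]

/-- columns of the clip on a rectangle -/
theorem cl_col (hs : 0 ≤ s) {y : ℤ} (hy : y ∈ S') :
    ∑ x ∈ S, ‖cl A S S' s x y‖ ^ 2 ≤ ∑ x ∈ S, ‖A x y‖ ^ 2 := by
  have h := clip_col (fun (x : {x // x ∈ S}) (y : {y // y ∈ S'}) => A x y) hs ⟨y, hy⟩
  rw [← Finset.sum_coe_sort S, ← Finset.sum_coe_sort S (fun x => ‖A x y‖ ^ 2)]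
  refine le_trans (le_of_eq ?_) h
  exact Finset.sum_congr rfl fun x _ => by rw [cl_at A x.2 hy]

/-- rows of the part above the clip on a rectangle -/
theorem hi_row (hs : 0 ≤ s) {x : ℤ} (hx : x ∈ S) :
    ∑ y ∈ S', ‖A x y - cl A S S' s x y‖ ^ 2 ≤ ∑ y ∈ S', ‖A x y‖ ^ 2 := by
  have h := chi_row (fun (x : {x // x ∈ S}) (y : {y // y ∈ S'}) => A x y) hs ⟨x, hx⟩
  rw [← Finset.sum_coe_sort S', ← Finset.sum_coe_sort S' (fun y => ‖A x y‖ ^ 2)]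
  refine le_trans (le_of_eq ?_) h
  exact Finset.sum_congr rfl fun y _ => by rw [cl_at A hx y.2]; rfl

/-- columns of the part above the clip on a rectangle -/
theorem hi_col (hs : 0 ≤ s) {y : ℤ} (hy : y ∈ S') :
    ∑ x ∈ S, ‖A x y - cl A S S' s x y‖ ^ 2 ≤ ∑ x ∈ S, ‖A x y‖ ^ 2 := by
  have h := chi_col (fun (x : {x // x ∈ S}) (y : {y // y ∈ S'}) => A x y) hs ⟨y, hy⟩
  rw [← Finset.sum_coe_sort S, ← Finset.sum_coe_sort S (fun x => ‖A x y‖ ^ 2)]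
  refine le_trans (le_of_eq ?_) h
  exact Finset.sum_congr rfl fun x _ => by rw [cl_at A x.2 hy]; rfl

end rect

/-! ### rows and columns of a band that splits into cells -/

section split

variable {κ : Type*} {Bd : Nd → Finset (ℤ × ℤ × ℤ)} {pos : ℤ × ℤ × ℤ → ℤ}
  {N : Nd → (ℤ × ℤ × ℤ → ℂ) → ℝ} {ν : ℝ} {p : Nd}
  {cells : Finset κ} {z : κ → ℤ} {S T : κ → Finset ℤ} {w : κ → ℝ}

/-- a sum over a part of the band is a sum over the cells -/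
lemma split_sum (hs : Split Bd N p cells z S T w) (Q : ℤ × ℤ × ℤ → Prop) [DecidablePred Q]
    (F : ℤ × ℤ × ℤ → ℝ) :
    ∑ ω ∈ (Bd p).filter Q, F ω =
      ∑ c ∈ cells, ∑ ω ∈ (({z c} : Finset ℤ) ×ˢ (S c ×ˢ T c)).filter Q, F ω := by
  classical
  have e : (Bd p).filter Q =
      cells.biUnion fun c => (({z c} : Finset ℤ) ×ˢ (S c ×ˢ T c)).filter Q := by
    ext ω
    simp only [Finset.mem_filter, Finset.mem_biUnion]
    constructor
    · rintro ⟨h1, h2⟩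
      obtain ⟨c, hc, hm⟩ := (hs.mem ω).1 h1
      exact ⟨c, hc, hm, h2⟩
    · rintro ⟨c, hc, hm, h2⟩
      exact ⟨(hs.mem ω).2 ⟨c, hc, hm⟩, h2⟩
  rw [e, Finset.sum_biUnion]
  intro c hc c' hc' hne
  rw [Function.onFun, Finset.disjoint_left]
  intro ω h1 h2
  exact hs.dj c hc c' hc' hne ω (Finset.mem_filter.1 h1).1 (Finset.mem_filter.1 h2).1

/-- the row `(z0, u)` of a rectangle -/
lemma rect_row (z0 u z1 : ℤ) (S0 T0 : Finset ℤ) (F : ℤ × ℤ × ℤ → ℝ) :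
    ∑ ω ∈ (({z1} : Finset ℤ) ×ˢ (S0 ×ˢ T0)).filter (fun ω => ω.1 = z0 ∧ ω.2.1 = u), F ω =
      if z1 = z0 ∧ u ∈ S0 then ∑ v ∈ T0, F (z0, u, v) else 0 := by
  split_ifs with h
  · obtain ⟨rfl, hu⟩ := h
    symm
    refine Finset.sum_bij (fun v _ => (z1, u, v)) ?_ ?_ ?_ ?_
    · intro v hv
      simp only [Finset.mem_filter, Finset.mem_product, Finset.mem_singleton]
      exact ⟨⟨trivial, hu, hv⟩, trivial, trivial⟩
    · intro v _ v' _ hvv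
      simpa using hvv
    · rintro ⟨a, b, c⟩ hω
      simp only [Finset.mem_filter, Finset.mem_product, Finset.mem_singleton] at hω
      obtain ⟨⟨h1, h2, h3⟩, h4, h5⟩ := hω
      exact ⟨c, h3, by rw [h4, h5]⟩
    · intro v _
      rfl
  · refine Finset.sum_eq_zero ?_
    rintro ⟨a, b, c⟩ hω
    exfalso
    simp only [Finset.mem_filter, Finset.mem_product, Finset.mem_singleton] at hω
    obtain ⟨⟨h1, h2, h3⟩, h4, h5⟩ := hω
    exact h ⟨by rw [← h1, h4], by rw [← h5]; exact h2⟩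

/-- the column `(z0, v)` of a rectangle -/
lemma rect_col (z0 v z1 : ℤ) (S0 T0 : Finset ℤ) (F : ℤ × ℤ × ℤ → ℝ) :
    ∑ ω ∈ (({z1} : Finset ℤ) ×ˢ (S0 ×ˢ T0)).filter (fun ω => ω.1 = z0 ∧ ω.2.2 = v), F ω =
      if z1 = z0 ∧ v ∈ T0 then ∑ u ∈ S0, F (z0, u, v) else 0 := by
  split_ifs with h
  · obtain ⟨rfl, hv⟩ := h
    symm
    refine Finset.sum_bij (fun u _ => (z1, u, v)) ?_ ?_ ?_ ?_
    · intro u hu
      simp only [Finset.mem_filter, Finset.mem_product, Finset.mem_singleton]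
      exact ⟨⟨trivial, hu, hv⟩, trivial, trivial⟩
    · intro u _ u' _ huu
      simpa using huu
    · rintro ⟨a, b, c⟩ hω
      simp only [Finset.mem_filter, Finset.mem_product, Finset.mem_singleton] at hω
      obtain ⟨⟨h1, h2, h3⟩, h4, h5⟩ := hω
      exact ⟨b, h2, by rw [h4, h5]⟩
    · intro u _
      rfl
  · refine Finset.sum_eq_zero ?_
    rintro ⟨a, b, c⟩ hω
    exfalso
    simp only [Finset.mem_filter, Finset.mem_product, Finset.mem_singleton] at hω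
    obtain ⟨⟨h1, h2, h3⟩, h4, h5⟩ := hω
    exact h ⟨by rw [← h1, h4], by rw [← h5]; exact h3⟩

/-- **rows of the part above the threshold** on the band of a node -/
theorem split_row (hB : Bnd Bd pos N ν) (hs : Split Bd N p cells z S T w) {r : ℝ} (hr : 0 ≤ r)
    (A : ℤ × ℤ × ℤ → ℂ) (z0 u : ℤ) :
    ∑ ω ∈ (Bd p).filter (fun ω => ω.1 = z0 ∧ ω.2.1 = u), ‖A ω - Pj Bd N r p A ω‖ ^ 2 ≤
      ∑ ω ∈ (Bd p).filter (fun ω => ω.1 = z0 ∧ ω.2.1 = u), ‖A ω‖ ^ 2 := by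
  rw [split_sum hs, split_sum hs]
  refine Finset.sum_le_sum fun c hc => ?_
  rw [rect_row, rect_row]
  split_ifs with h
  · obtain ⟨rfl, hu⟩ := h
    refine le_trans (le_of_eq ?_) (hi_row (fun u v => A (z c, u, v)) (S := S c) (S' := T c)
      (mul_nonneg hr (hs.w0 c hc)) hu)
    exact Finset.sum_congr rfl fun v hv => by
      rw [PjC881.Pj_cell hB hs hr A hc u hu v hv]
  · exact le_rfl

/-- **columns of the part above the threshold** on the band of a node -/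
theorem split_col (hB : Bnd Bd pos N ν) (hs : Split Bd N p cells z S T w) {r : ℝ} (hr : 0 ≤ r)
    (A : ℤ × ℤ × ℤ → ℂ) (z0 v : ℤ) :
    ∑ ω ∈ (Bd p).filter (fun ω => ω.1 = z0 ∧ ω.2.2 = v), ‖A ω - Pj Bd N r p A ω‖ ^ 2 ≤
      ∑ ω ∈ (Bd p).filter (fun ω => ω.1 = z0 ∧ ω.2.2 = v), ‖A ω‖ ^ 2 := by
  rw [split_sum hs, split_sum hs]
  refine Finset.sum_le_sum fun c hc => ?_
  rw [rect_col, rect_col]
  split_ifs with h
  · obtain ⟨rfl, hv⟩ := h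
    refine le_trans (le_of_eq ?_) (hi_col (fun u v => A (z c, u, v)) (S := S c) (S' := T c)
      (mul_nonneg hr (hs.w0 c hc)) hv)
    exact Finset.sum_congr rfl fun u hu => by
      rw [PjC881.Pj_cell hB hs hr A hc u hu v hv]
  · exact le_rfl

/-- rows of the projection -/
theorem split_row' (hB : Bnd Bd pos N ν) (hs : Split Bd N p cells z S T w) {r : ℝ} (hr : 0 ≤ r)
    (A : ℤ × ℤ × ℤ → ℂ) (z0 u : ℤ) :
    ∑ ω ∈ (Bd p).filter (fun ω => ω.1 = z0 ∧ ω.2.1 = u), ‖Pj Bd N r p A ω‖ ^ 2 ≤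
      ∑ ω ∈ (Bd p).filter (fun ω => ω.1 = z0 ∧ ω.2.1 = u), ‖A ω‖ ^ 2 := by
  rw [split_sum hs, split_sum hs]
  refine Finset.sum_le_sum fun c hc => ?_
  rw [rect_row, rect_row]
  split_ifs with h
  · obtain ⟨rfl, hu⟩ := h
    refine le_trans (le_of_eq ?_) (cl_row (fun u v => A (z c, u, v)) (S := S c) (S' := T c)
      (mul_nonneg hr (hs.w0 c hc)) hu)
    exact Finset.sum_congr rfl fun v hv => by
      rw [PjC881.Pj_cell hB hs hr A hc u hu v hv]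
  · exact le_rfl

/-- columns of the projection -/
theorem split_col' (hB : Bnd Bd pos N ν) (hs : Split Bd N p cells z S T w) {r : ℝ} (hr : 0 ≤ r)
    (A : ℤ × ℤ × ℤ → ℂ) (z0 v : ℤ) :
    ∑ ω ∈ (Bd p).filter (fun ω => ω.1 = z0 ∧ ω.2.2 = v), ‖Pj Bd N r p A ω‖ ^ 2 ≤
      ∑ ω ∈ (Bd p).filter (fun ω => ω.1 = z0 ∧ ω.2.2 = v), ‖A ω‖ ^ 2 := by
  rw [split_sum hs, split_sum hs]
  refine Finset.sum_le_sum fun c hc => ?_
  rw [rect_col, rect_col]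
  split_ifs with h
  · obtain ⟨rfl, hv⟩ := h
    refine le_trans (le_of_eq ?_) (cl_col (fun u v => A (z c, u, v)) (S := S c) (S' := T c)
      (mul_nonneg hr (hs.w0 c hc)) hv)
    exact Finset.sum_congr rfl fun u hu => by
      rw [PjC881.Pj_cell hB hs hr A hc u hu v hv]
  · exact le_rfl

end split

/-! ### the glued letter of a full region -/

section glued

variable {Ω : Type*} {Bd : Nd → Finset Ω} {pos : Ω → ℤ} {N : Nd → (Ω → ℂ) → ℝ} {ν : ℝ}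

lemma band_ch (hB : Bnd Bd pos N ν) (Q : Ω → Prop) [DecidablePred Q] (F : Ω → ℝ) (m : ℕ) (l : ℤ) :
    ∑ ω ∈ (Bd (m + 1, l)).filter Q, F ω =
      ∑ ω ∈ (Bd (m, 2 * l)).filter Q, F ω + ∑ ω ∈ (Bd (m, 2 * l + 1)).filter Q, F ω := by
  classical
  have e : (Bd (m + 1, l)).filter Q = (Bd (m, 2 * l)).filter Q ∪ (Bd (m, 2 * l + 1)).filter Q := by
    ext ω
    simp only [Finset.mem_filter, Finset.mem_union, hB.sub]
    tauto
  rw [e, Finset.sum_union]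
  exact Finset.disjoint_filter_filter (hB.dj m l)

/-- a part `Q` of the band (row, column, box): the glued letter against `a g` -/
theorem Zs_part (hB : Bnd Bd pos N ν) (a : Ω → ℂ) {r : ℝ} (hr : 0 ≤ r) {W : Finset Nd} {J : Nd}
    (hW : Full W J) (f : Nd → Fn) (Q : Ω → Prop) [DecidablePred Q]
    (hQ : ∀ q ∈ lf W, ∀ A : Ω → ℂ, ∑ ω ∈ (Bd q).filter Q, ‖A ω - Pj Bd N r q A ω‖ ^ 2 ≤
      ∑ ω ∈ (Bd q).filter Q, ‖A ω‖ ^ 2) :
    ∀ p ∈ W, ∑ ω ∈ (Bd p).filter Q, ‖Zs Bd pos N a r W J f ω‖ ^ 2 ≤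
      ∑ ω ∈ (Bd p).filter Q, ‖a ω * gl W f (pos ω)‖ ^ 2 := by
  refine full_ind hW (fun p hp => ?_) fun m l _ _ _ _ e0 e1 => ?_
  · refine le_trans (le_of_eq ?_) ((hQ p hp (ag Bd pos a p (f p))).trans (le_of_eq ?_))
    · exact Finset.sum_congr rfl fun ω hω => by
        rw [Zs_leaf hB a hr hW f hp (Finset.mem_filter.1 hω).1]; rfl
    · exact Finset.sum_congr rfl fun ω hω => by
        have h := (Finset.mem_filter.1 hω).1
        rw [ag_eq h, gl_eq hW f hp (hB.mem p ω h)]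
  · rw [band_ch hB, band_ch hB]
    exact add_le_add e0 e1

/-- the same for the glued projections -/
theorem Bgl_part (hB : Bnd Bd pos N ν) (a : Ω → ℂ) {r : ℝ} (hr : 0 ≤ r) {W : Finset Nd} {J : Nd}
    (hW : Full W J) (g : Fn) (Q : Ω → Prop) [DecidablePred Q]
    (hQ : ∀ q ∈ lf W, ∀ A : Ω → ℂ, ∑ ω ∈ (Bd q).filter Q, ‖Pj Bd N r q A ω‖ ^ 2 ≤
      ∑ ω ∈ (Bd q).filter Q, ‖A ω‖ ^ 2) :
    ∀ p ∈ W, ∑ ω ∈ (Bd p).filter Q, ‖Bgl Bd pos N a r W J g ω‖ ^ 2 ≤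
      ∑ ω ∈ (Bd p).filter Q, ‖a ω * g (pos ω)‖ ^ 2 := by
  refine full_ind hW (fun p hp => ?_) fun m l _ _ _ _ e0 e1 => ?_
  · refine le_trans (le_of_eq ?_) ((hQ p hp (ag Bd pos a p g)).trans (le_of_eq ?_))
    · exact Finset.sum_congr rfl fun ω hω => by
        rw [Bgl_loc hB a hr hW (mem_lf.1 hp).1 g (Finset.mem_filter.1 hω).1, Bgl_leaf hp]
    · exact Finset.sum_congr rfl fun ω hω => by
        have h := (Finset.mem_filter.1 hω).1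
        rw [ag_eq h]
  · rw [band_ch hB, band_ch hB]
    exact add_le_add e0 e1

/-- energy of an injective part -/
lemma part_energy {V : Finset ℤ} {T : Finset Ω} (hinj : Set.InjOn pos (T : Set Ω))
    (hmem : ∀ ω ∈ T, pos ω ∈ V) {a : Ω → ℂ} {Ha : ℝ} (ha : ∀ ω ∈ T, ‖a ω‖ ≤ Ha) (g : Fn) :
    ∑ ω ∈ T, ‖a ω * g (pos ω)‖ ^ 2 ≤ Ha ^ 2 * ∑ y ∈ V, ‖g y‖ ^ 2 := by
  classical
  have h1 : ∑ ω ∈ T, ‖a ω * g (pos ω)‖ ^ 2 ≤ ∑ ω ∈ T, Ha ^ 2 * ‖g (pos ω)‖ ^ 2 :=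
    Finset.sum_le_sum fun ω hω => by
      rw [norm_mul, mul_pow]
      exact mul_le_mul_of_nonneg_right (pow_le_pow_left₀ (norm_nonneg _) (ha ω hω) 2) (sq_nonneg _)
  refine h1.trans ?_
  rw [← Finset.mul_sum]
  refine mul_le_mul_of_nonneg_left ?_ (sq_nonneg _)
  rw [← Finset.sum_image (f := fun y => ‖g y‖ ^ 2) hinj]
  refine Finset.sum_le_sum_of_subset_of_nonneg ?_ fun _ _ _ => sq_nonneg _
  intro y hy
  obtain ⟨ω, hω, rfl⟩ := Finset.mem_image.1 hy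
  exact hmem ω hω

end glued

/-! ### operator bounds -/

section op

lemma opS_add {S S' : Finset ℤ} {B B' : ℤ → ℤ → ℂ} {s s' : ℝ} (hs : 0 ≤ s) (hs' : 0 ≤ s')
    (h : OpS S S' B s) (h' : OpS S S' B' s') :
    OpS S S' (fun x y => B x y + B' x y) (s + s') := by
  refine opS_of_bil (add_nonneg hs hs') fun ξ ζ => ?_
  have h1 := bil_of_opS hs h ξ ζ
  have h2 := bil_of_opS hs' h' ξ ζ
  have e : ∑ u ∈ S, ∑ v ∈ S', (B u v + B' u v) * (ξ u * ζ v) =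
      ∑ u ∈ S, ∑ v ∈ S', B u v * (ξ u * ζ v) + ∑ u ∈ S, ∑ v ∈ S', B' u v * (ξ u * ζ v) := by
    simp only [add_mul, Finset.sum_add_distrib]
  rw [e, add_mul]
  exact (norm_add_le _ _).trans (add_le_add h1 h2)

lemma opS_le {S S' : Finset ℤ} {B : ℤ → ℤ → ℂ} {s s' : ℝ} (hs : 0 ≤ s) (hss : s ≤ s')
    (h : OpS S S' B s) : OpS S S' B s' := fun f =>
  (h f).trans (mul_le_mul_of_nonneg_right (pow_le_pow_left₀ hs hss 2)
    (Finset.sum_nonneg fun _ _ => sq_nonneg _))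

/-- Schur test -/
theorem opS_schur {S S' : Finset ℤ} {B : ℤ → ℤ → ℂ} {s : ℝ} (hs : 0 ≤ s)
    (h1 : ∀ x ∈ S, ∑ y ∈ S', ‖B x y‖ ≤ s) (h2 : ∀ y ∈ S', ∑ x ∈ S, ‖B x y‖ ≤ s) :
    OpS S S' B s := by
  intro f
  have hx : ∀ x ∈ S, ‖∑ y ∈ S', B x y * f y‖ ^ 2 ≤ s * ∑ y ∈ S', ‖B x y‖ * ‖f y‖ ^ 2 := by
    intro x hx
    have e1 : ‖∑ y ∈ S', B x y * f y‖ ≤ ∑ y ∈ S', √‖B x y‖ * (√‖B x y‖ * ‖f y‖) := by
      refine (norm_sum_le _ _).trans (le_of_eq (Finset.sum_congr rfl fun y _ => ?_))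
      rw [norm_mul, ← mul_assoc, Real.mul_self_sqrt (norm_nonneg _)]
    have e2 := Finset.sum_mul_sq_le_sq_mul_sq S' (fun y => √‖B x y‖) (fun y => √‖B x y‖ * ‖f y‖)
    have e3 : ∑ y ∈ S', √‖B x y‖ ^ 2 = ∑ y ∈ S', ‖B x y‖ :=
      Finset.sum_congr rfl fun y _ => Real.sq_sqrt (norm_nonneg _)
    have e4 : ∑ y ∈ S', (√‖B x y‖ * ‖f y‖) ^ 2 = ∑ y ∈ S', ‖B x y‖ * ‖f y‖ ^ 2 :=
      Finset.sum_congr rfl fun y _ => by rw [mul_pow, Real.sq_sqrt (norm_nonneg _)]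
    rw [e3, e4] at e2
    have e5 : 0 ≤ ∑ y ∈ S', ‖B x y‖ * ‖f y‖ ^ 2 :=
      Finset.sum_nonneg fun y _ => mul_nonneg (norm_nonneg _) (sq_nonneg _)
    calc ‖∑ y ∈ S', B x y * f y‖ ^ 2
        ≤ (∑ y ∈ S', √‖B x y‖ * (√‖B x y‖ * ‖f y‖)) ^ 2 :=
          pow_le_pow_left₀ (norm_nonneg _) e1 2
      _ ≤ _ := e2
      _ ≤ _ := mul_le_mul_of_nonneg_right (h1 x hx) e5
  calc ∑ x ∈ S, ‖∑ y ∈ S', B x y * f y‖ ^ 2
      ≤ ∑ x ∈ S, s * ∑ y ∈ S', ‖B x y‖ * ‖f y‖ ^ 2 := Finset.sum_le_sum hx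
    _ = s * ∑ y ∈ S', (∑ x ∈ S, ‖B x y‖) * ‖f y‖ ^ 2 := by
        rw [← Finset.mul_sum, Finset.sum_comm]
        congr 1
        exact Finset.sum_congr rfl fun y _ => by rw [Finset.sum_mul]
    _ ≤ s * ∑ y ∈ S', s * ‖f y‖ ^ 2 := by
        refine mul_le_mul_of_nonneg_left (Finset.sum_le_sum fun y hy => ?_) hs
        exact mul_le_mul_of_nonneg_right (h2 y hy) (sq_nonneg _)
    _ = s ^ 2 * ∑ y ∈ S', ‖f y‖ ^ 2 := by rw [← Finset.mul_sum]; ring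

/-- entries `≤ ‖K‖² / h`, rows and columns of energy `≤ V` -/
theorem opS_tall {S S' : Finset ℤ} {K L : ℤ → ℤ → ℂ} {V h : ℝ} (hh : 0 < h) (hV : 0 ≤ V)
    (hL : ∀ x ∈ S, ∀ y ∈ S', ‖L x y‖ ≤ ‖K x y‖ ^ 2 / h)
    (h1 : ∀ x ∈ S, ∑ y ∈ S', ‖K x y‖ ^ 2 ≤ V) (h2 : ∀ y ∈ S', ∑ x ∈ S, ‖K x y‖ ^ 2 ≤ V) :
    OpS S S' L (V / h) := by
  refine opS_schur (by positivity) (fun x hx => ?_) fun y hy => ?_
  · refine (Finset.sum_le_sum fun y hy => hL x hx y hy).trans ?_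
    rw [← Finset.sum_div]
    exact div_le_div_of_nonneg_right (h1 x hx) hh.le
  · refine (Finset.sum_le_sum fun x hx => hL x hx y hy).trans ?_
    rw [← Finset.sum_div]
    exact div_le_div_of_nonneg_right (h2 y hy) hh.le

end op

/-! ### Whitney cells: boxes of side `2^m` against nodes of level `m` -/

section whit

variable {Y : ℤ → ℤ → ℤ → ℤ} {k : ℕ} {S : Finset (ℤ × ℤ × ℤ)}

/-- an admissible kernel on the small aligned squares, inside or not -/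
theorem opC_small {p : Nd} {B : ℤ × ℤ × ℤ → ℂ} {r : ℝ} (hr : 0 ≤ r) (z : ℤ)
    (h0 : ∀ u v, Y z u v ∉ iv p → msk S B z u v = 0)
    (hM : ∀ n a b, Mx (Y z) k p n a b → OpC (msk S B z) n a b r) :
    ∀ (n : ℕ) (a b : ℤ), n ≤ p.1 + k → ¬ Ins (Y z) (iv p) (n + 1) (a / 2) (b / 2) →
      OpC (msk S B z) n a b r := by
  intro n
  induction n with
  | zero =>
    intro a b hn hI
    by_cases hi : Ins (Y z) (iv p) 0 a b
    · exact hM 0 a b ⟨hn, hi, Or.inr hI⟩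
    · have e : ∀ c : ℤ, dI 0 c = {c} := by
        intro c
        unfold dI
        ext x
        simp only [pow_zero, mul_one, Finset.mem_Ico, Finset.mem_singleton]
        omega
      have hY : Y z a b ∉ iv p := by
        intro h
        apply hi
        intro x hx y hy
        rw [e, Finset.mem_singleton] at hx hy
        rw [hx, hy]
        exact h
      intro ξ ζ
      rw [e, e, Finset.sum_singleton, Finset.sum_singleton, h0 a b hY, zero_mul, norm_zero]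
      positivity
  | succ n ih =>
    intro a b hn hI
    by_cases hi : Ins (Y z) (iv p) (n + 1) a b
    · exact hM (n + 1) a b ⟨hn, hi, Or.inr hI⟩
    · have hc : ∀ i j : ℤ, (i = 0 ∨ i = 1) → (j = 0 ∨ j = 1) →
          OpC (msk S B z) n (2 * a + i) (2 * b + j) r := by
        intro i j hi' hj'
        refine ih _ _ (by omega) ?_
        rw [show (2 * a + i) / 2 = a by omega, show (2 * b + j) / 2 = b by omega]
        exact hi
      have c00 := hc 0 0 (Or.inl rfl) (Or.inl rfl)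
      have c01 := hc 0 1 (Or.inl rfl) (Or.inr rfl)
      have c10 := hc 1 0 (Or.inr rfl) (Or.inl rfl)
      have c11 := hc 1 1 (Or.inr rfl) (Or.inr rfl)
      simp only [add_zero] at c00 c01 c10
      exact OpC.quad hr c00 c01 c10 c11

/-- **an admissible kernel of the node `p` on ANY box of side `2^n`, `n ≤ p.1 + k`** -/
theorem opS_node {p : Nd} {B : ℤ × ℤ × ℤ → ℂ} {r : ℝ} (hr : 0 ≤ r)
    (hB : Adm (fun p => S.filter (fun ω => Y ω.1 ω.2.1 ω.2.2 ∈ iv p)) (NmP S cf (okc Y k)) r p B)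
    (z : ℤ) {n : ℕ} (hn : n ≤ p.1 + k) (q u : ℤ) :
    OpS (Ico q (q + 2 ^ n)) (Ico u (u + 2 ^ n)) (fun x y => B (z, x, y))
      (2 * (r * 2 ^ (p.1 + k))) := by
  classical
  have hm : ∀ x y, msk S B z x y = B (z, x, y) := by
    intro x y
    unfold msk
    split_ifs with h
    · rfl
    · rw [hB.1 (z, x, y) (fun h' => h (Finset.mem_filter.1 h').1)]
  have h0 : ∀ x y, Y z x y ∉ iv p → msk S B z x y = 0 := by
    intro x y h
    rw [hm]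
    exact hB.1 (z, x, y) (fun h' => h (Finset.mem_filter.1 h').2)
  have h1 := fun n a b => (N_iff (Y := Y) (k := k) (S := S) (p := p) (B := B) hr).1 hB.2 z n a b
  have h2 : ∀ a b : ℤ, OpS (dI (p.1 + k) a) (dI (p.1 + k) b) (msk S B z) (r * 2 ^ (p.1 + k)) := by
    intro a b
    refine (opC_iff hr).1 ?_
    by_cases hi : Ins (Y z) (iv p) (p.1 + k) a b
    · exact h1 _ _ _ ⟨le_rfl, hi, Or.inl rfl⟩
    · refine opC_small hr z h0 h1 _ a b le_rfl fun h => hi ?_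
      refine Ins.sub (n := p.1 + k + 1) (a := a / 2) (b := b / 2) ?_ ?_ h
      · have := L0e.dI_sub (p.1 + k) 1 a
        rwa [pow_one] at this
      · have := L0e.dI_sub (p.1 + k) 1 b
        rwa [pow_one] at this
  have h3 := ExA999.opS_box h2 q u
  have h4 : OpS (Ico q (q + 2 ^ (p.1 + k))) (Ico u (u + 2 ^ (p.1 + k))) (fun x y => B (z, x, y))
      (2 * (r * 2 ^ (p.1 + k))) := by
    have e : msk S B z = fun x y => B (z, x, y) := by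
      funext x y; exact hm x y
    rwa [e] at h3
  have h5 : (2 : ℤ) ^ n ≤ 2 ^ (p.1 + k) := pow_le_pow_right₀ (by norm_num) hn
  exact ExA999.opS_mono (Finset.Ico_subset_Ico_right (by linarith))
    (Finset.Ico_subset_Ico_right (by linarith)) h4

/-! ### glued letters on the boxes of the level of a node -/

/-- `|Y z x y - Y z x' y'| ≤ 3 (|x - x'| + |y - y'|)` -/
def Lp (Y : ℤ → ℤ → ℤ → ℤ) : Prop :=
  ∀ z x y x' y', |Y z x y - Y z x' y'| ≤ 3 * (|x - x'| + |y - y'|)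

/-- all shadows of the box of side `2^m` at `(q, u)`, frozen value `z`, lie in nodes of level `m` -/
def BxO (Y : ℤ → ℤ → ℤ → ℤ) (W : Finset Nd) (z : ℤ) (m : ℕ) (q u : ℤ) : Prop :=
  ∀ x ∈ Ico q (q + 2 ^ m), ∀ y ∈ Ico u (u + 2 ^ m), Y z x y ∈ Rm W m

lemma mem_iv' {y : ℤ} {m : ℕ} {l : ℤ} : y ∈ iv (m, l) ↔ y / 2 ^ (m + 7) = l := mem_iv

lemma three (hl : Lp Y) {z : ℤ} {m : ℕ} {q u x y : ℤ} (hx : x ∈ Ico q (q + 2 ^ m))
    (hy : y ∈ Ico u (u + 2 ^ m)) :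
    Y z x y / 2 ^ (m + 7) = Y z q u / 2 ^ (m + 7) - 1 ∨
    Y z x y / 2 ^ (m + 7) = Y z q u / 2 ^ (m + 7) ∨
    Y z x y / 2 ^ (m + 7) = Y z q u / 2 ^ (m + 7) + 1 := by
  rw [Finset.mem_Ico] at hx hy
  have h1 := hl z x y q u
  have h2 : |x - q| ≤ 2 ^ m := by rw [abs_le]; constructor <;> linarith
  have h3 : |y - u| ≤ 2 ^ m := by rw [abs_le]; constructor <;> linarith
  have h4 : |Y z x y - Y z q u| ≤ 6 * 2 ^ m := by linarith
  rw [abs_le] at h4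
  have hN : (0 : ℤ) < 2 ^ m := by positivity
  have hpos : (0 : ℤ) < 2 ^ (m + 7) := by positivity
  have e7 : (2 : ℤ) ^ (m + 7) = 128 * 2 ^ m := by ring
  have a1 := Int.emod_add_mul_ediv (Y z x y) (2 ^ (m + 7))
  have a2 := Int.emod_nonneg (Y z x y) (ne_of_gt hpos)
  have a3 := Int.emod_lt_of_pos (Y z x y) hpos
  have b1 := Int.emod_add_mul_ediv (Y z q u) (2 ^ (m + 7))
  have b2 := Int.emod_nonneg (Y z q u) (ne_of_gt hpos)
  have b3 := Int.emod_lt_of_pos (Y z q u) hpos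
  have c1 : Y z x y / 2 ^ (m + 7) < Y z q u / 2 ^ (m + 7) + 2 := by
    by_contra hc
    push Not at hc
    have : (Y z q u / 2 ^ (m + 7) + 2) * 2 ^ (m + 7) ≤ (Y z x y / 2 ^ (m + 7)) * 2 ^ (m + 7) :=
      mul_le_mul_of_nonneg_right hc hpos.le
    nlinarith
  have c2 : Y z q u / 2 ^ (m + 7) < Y z x y / 2 ^ (m + 7) + 2 := by
    by_contra hc
    push Not at hc
    have : (Y z x y / 2 ^ (m + 7) + 2) * 2 ^ (m + 7) ≤ (Y z q u / 2 ^ (m + 7)) * 2 ^ (m + 7) :=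
      mul_le_mul_of_nonneg_right hc hpos.le
    nlinarith
  omega

/-- a kernel on a small box splits over three nodes -/
lemma opS_three (hl : Lp Y) {z : ℤ} {m : ℕ} {q u : ℤ} {K : ℤ → ℤ → ℂ} {s : ℝ} (hs : 0 ≤ s)
    (h : ∀ l : ℤ, OpS (Ico q (q + 2 ^ m)) (Ico u (u + 2 ^ m))
      (fun x y => if Y z x y ∈ iv (m, l) then K x y else 0) s) :
    OpS (Ico q (q + 2 ^ m)) (Ico u (u + 2 ^ m)) K (3 * s) := by
  set l0 := Y z q u / 2 ^ (m + 7) with hl0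
  have h1 := opS_add (add_nonneg hs hs) hs (opS_add hs hs (h (l0 - 1)) (h l0)) (h (l0 + 1))
  rw [show 3 * s = s + s + s by ring]
  refine opS_congr h1 fun x hx y hy => ?_
  have e : ∀ l : ℤ, Y z x y ∈ iv (m, l) ↔ Y z x y / 2 ^ (m + 7) = l := fun l => mem_iv'
  simp only [e]
  rcases three hl hx hy with h3 | h3 | h3
  · rw [h3, ← hl0]
    have h5 : ¬ (l0 - 1 = l0 + 1) := by omega
    simp [h5]
  · rw [h3, ← hl0]
    have h5 : ¬ (l0 = l0 - 1) := by omega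
    simp [h5]
  · rw [h3, ← hl0]
    have h5 : ¬ (l0 + 1 = l0 - 1) := by omega
    simp [h5]

variable {ν : ℝ}

/-- **the glued projections on a small box**: operator norm `≤ 6 2^k r 2^m` -/
theorem opS_glued
    (hB : Bnd (fun p => S.filter (fun ω => Y ω.1 ω.2.1 ω.2.2 ∈ iv p))
      (fun ω => Y ω.1 ω.2.1 ω.2.2) (NmP S cf (okc Y k)) ν) (hl : Lp Y) (a : ℤ × ℤ × ℤ → ℂ) {r : ℝ}
    (hr : 0 ≤ r) {W : Finset Nd} {J : Nd} (hW : Full W J) (g : Fn) {z : ℤ} {m : ℕ} {q u : ℤ}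
    (hO : BxO Y W z m q u) :
    OpS (Ico q (q + 2 ^ m)) (Ico u (u + 2 ^ m))
      (fun x y => Bgl (fun p => S.filter (fun ω => Y ω.1 ω.2.1 ω.2.2 ∈ iv p))
        (fun ω => Y ω.1 ω.2.1 ω.2.2) (NmP S cf (okc Y k)) a r W J g (z, x, y))
      (3 * (2 * (r * 2 ^ (m + k)))) := by
  refine opS_three hl (z := z) (by positivity) fun l => ?_
  by_cases hm : (m, l) ∈ W
  · have h1 := Bgl_adm hB a hr hW g _ hm
    have h2 := opS_node (p := (m, l)) hr h1 z (n := m) (Nat.le_add_right _ _) q u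
    refine opS_congr h2 fun x _ y _ => ?_
    by_cases hω : (z, x, y) ∈ S.filter (fun ω => Y ω.1 ω.2.1 ω.2.2 ∈ iv (m, l))
    · rw [if_pos (Finset.mem_filter.1 hω).2]
      exact (Bgl_loc hB a hr hW hm g hω).symm
    · rw [h1.1 _ hω]
      split_ifs with h3
      · have hJ : (z, x, y) ∉ S.filter (fun ω => Y ω.1 ω.2.1 ω.2.2 ∈ iv J) := fun h =>
          hω (Finset.mem_filter.2 ⟨(Finset.mem_filter.1 h).1, h3⟩)
        exact ((Bgl_adm hB a hr hW g _ hW.top).1 _ hJ).symm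
      · rfl
  · refine opS_congr (opS_zero _ _ _) fun x hx y hy => ?_
    rw [if_neg]
    intro h
    have h1 := (mem_Rm W m _).1 (hO x hx y hy)
    have h2 : Y z x y / 2 ^ (m + 7) = l := mem_iv'.1 h
    rw [h2] at h1
    exact hm h1

end whit

/-! ### rows and columns of the glued letter on small boxes, and its tall part -/

section tall

variable {Y : ℤ → ℤ → ℤ → ℤ} {k : ℕ} {T₀ T₁ T₂ : Finset ℤ} {ν : ℝ}

/-- both partial maps injective -/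
structure Inj2 (Y : ℤ → ℤ → ℤ → ℤ) : Prop where
  row : ∀ z x, Function.Injective (Y z x)
  col : ∀ z y, Function.Injective fun x => Y z x y

/-- rows of the glued letter on the band of a node -/
theorem Zs_row
    (hB : Bnd (fun p => (T₀ ×ˢ (T₁ ×ˢ T₂)).filter (fun ω => Y ω.1 ω.2.1 ω.2.2 ∈ iv p))
      (fun ω => Y ω.1 ω.2.1 ω.2.2) (NmP (T₀ ×ˢ (T₁ ×ˢ T₂)) cf (okc Y k)) ν) (hi : Inj2 Y)
    {a : ℤ × ℤ × ℤ → ℂ} {Ha : ℝ} (ha : ∀ ω ∈ T₀ ×ˢ (T₁ ×ˢ T₂), ‖a ω‖ ≤ Ha) {r : ℝ} (hr : 0 ≤ r)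
    {W : Finset Nd} {J : Nd} (hW : Full W J) (f : Nd → Fn) {p : Nd} (hp : p ∈ W) (z x : ℤ) :
    ∑ ω ∈ ((T₀ ×ˢ (T₁ ×ˢ T₂)).filter (fun ω => Y ω.1 ω.2.1 ω.2.2 ∈ iv p)).filter
        (fun ω => ω.1 = z ∧ ω.2.1 = x),
      ‖Zs (fun p => (T₀ ×ˢ (T₁ ×ˢ T₂)).filter (fun ω => Y ω.1 ω.2.1 ω.2.2 ∈ iv p))
        (fun ω => Y ω.1 ω.2.1 ω.2.2) (NmP (T₀ ×ˢ (T₁ ×ˢ T₂)) cf (okc Y k)) a r W J f ω‖ ^ 2 ≤
      Ha ^ 2 * ∑ y ∈ iv p, ‖gl W f y‖ ^ 2 := by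
  refine (Zs_part hB a hr hW f (fun ω => ω.1 = z ∧ ω.2.1 = x) (fun q _ A => ?_) p hp).trans ?_
  · obtain ⟨cells, hs⟩ := split_cells (Y := Y) (k := k) (T₀ := T₀) (T₁ := T₁) (T₂ := T₂) q
    exact split_row hB hs hr A z x
  · refine part_energy (pos := fun ω : ℤ × ℤ × ℤ => Y ω.1 ω.2.1 ω.2.2) ?_ ?_ ?_ _
    · rintro ⟨z1, x1, y1⟩ h1 ⟨z2, x2, y2⟩ h2 h
      simp only [Finset.coe_filter, Set.mem_ofPred_eq] at h1 h2 h
      obtain ⟨_, rfl, rfl⟩ := h1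
      obtain ⟨_, rfl, rfl⟩ := h2
      rw [hi.row _ _ h]
    · intro ω hω
      exact (Finset.mem_filter.1 (Finset.mem_filter.1 hω).1).2
    · intro ω hω
      exact ha ω (Finset.mem_filter.1 (Finset.mem_filter.1 hω).1).1

/-- columns of the glued letter on the band of a node -/
theorem Zs_col
    (hB : Bnd (fun p => (T₀ ×ˢ (T₁ ×ˢ T₂)).filter (fun ω => Y ω.1 ω.2.1 ω.2.2 ∈ iv p))
      (fun ω => Y ω.1 ω.2.1 ω.2.2) (NmP (T₀ ×ˢ (T₁ ×ˢ T₂)) cf (okc Y k)) ν) (hi : Inj2 Y)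
    {a : ℤ × ℤ × ℤ → ℂ} {Ha : ℝ} (ha : ∀ ω ∈ T₀ ×ˢ (T₁ ×ˢ T₂), ‖a ω‖ ≤ Ha) {r : ℝ} (hr : 0 ≤ r)
    {W : Finset Nd} {J : Nd} (hW : Full W J) (f : Nd → Fn) {p : Nd} (hp : p ∈ W) (z y : ℤ) :
    ∑ ω ∈ ((T₀ ×ˢ (T₁ ×ˢ T₂)).filter (fun ω => Y ω.1 ω.2.1 ω.2.2 ∈ iv p)).filter
        (fun ω => ω.1 = z ∧ ω.2.2 = y),
      ‖Zs (fun p => (T₀ ×ˢ (T₁ ×ˢ T₂)).filter (fun ω => Y ω.1 ω.2.1 ω.2.2 ∈ iv p))
        (fun ω => Y ω.1 ω.2.1 ω.2.2) (NmP (T₀ ×ˢ (T₁ ×ˢ T₂)) cf (okc Y k)) a r W J f ω‖ ^ 2 ≤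
      Ha ^ 2 * ∑ y ∈ iv p, ‖gl W f y‖ ^ 2 := by
  refine (Zs_part hB a hr hW f (fun ω => ω.1 = z ∧ ω.2.2 = y) (fun q _ A => ?_) p hp).trans ?_
  · obtain ⟨cells, hs⟩ := split_cells (Y := Y) (k := k) (T₀ := T₀) (T₁ := T₁) (T₂ := T₂) q
    exact split_col hB hs hr A z y
  · refine part_energy (pos := fun ω : ℤ × ℤ × ℤ => Y ω.1 ω.2.1 ω.2.2) ?_ ?_ ?_ _
    · rintro ⟨z1, x1, y1⟩ h1 ⟨z2, x2, y2⟩ h2 h
      simp only [Finset.coe_filter, Set.mem_ofPred_eq] at h1 h2 h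
      obtain ⟨_, rfl, rfl⟩ := h1
      obtain ⟨_, rfl, rfl⟩ := h2
      have := hi.col _ _ h
      rw [this]
    · intro ω hω
      exact (Finset.mem_filter.1 (Finset.mem_filter.1 hω).1).2
    · intro ω hω
      exact ha ω (Finset.mem_filter.1 (Finset.mem_filter.1 hω).1).1

/-- generic: a nonnegative function on the box, split over three nodes -/
lemma sum_three (hl : Lp Y) {z : ℤ} {m : ℕ} {q u : ℤ} {T : Finset (ℤ × ℤ)}
    (hT : ∀ c ∈ T, c.1 ∈ Ico q (q + 2 ^ m) ∧ c.2 ∈ Ico u (u + 2 ^ m)) {F : ℤ × ℤ → ℝ}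
    (hF : ∀ c, 0 ≤ F c) {E : ℝ}
    (h : ∀ l : ℤ, ∑ c ∈ T.filter (fun c => Y z c.1 c.2 ∈ iv (m, l)), F c ≤ E) :
    ∑ c ∈ T, F c ≤ 3 * E := by
  classical
  set l0 := Y z q u / 2 ^ (m + 7) with hl0
  have hsub : T ⊆ T.filter (fun c => Y z c.1 c.2 ∈ iv (m, l0 - 1)) ∪
      (T.filter (fun c => Y z c.1 c.2 ∈ iv (m, l0)) ∪
        T.filter (fun c => Y z c.1 c.2 ∈ iv (m, l0 + 1))) := by
    intro c hc
    obtain ⟨h1, h2⟩ := hT c hc
    simp only [Finset.mem_union, Finset.mem_filter]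
    have e : ∀ l : ℤ, Y z c.1 c.2 ∈ iv (m, l) ↔ Y z c.1 c.2 / 2 ^ (m + 7) = l := fun l => mem_iv'
    simp only [e]
    rcases three hl h1 h2 with h3 | h3 | h3
    · exact Or.inl ⟨hc, h3⟩
    · exact Or.inr (Or.inl ⟨hc, h3⟩)
    · exact Or.inr (Or.inr ⟨hc, h3⟩)
  have hU : ∀ (A B : Finset (ℤ × ℤ)), ∑ c ∈ A ∪ B, F c ≤ ∑ c ∈ A, F c + ∑ c ∈ B, F c := by
    intro A B
    rw [← Finset.sum_union_inter]
    have : 0 ≤ ∑ x ∈ A ∩ B, F x := Finset.sum_nonneg fun x _ => hF x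
    linarith
  have h1 := Finset.sum_le_sum_of_subset_of_nonneg hsub (f := F) (fun _ _ _ => hF _)
  have h2 := hU (T.filter (fun c => Y z c.1 c.2 ∈ iv (m, l0 - 1)))
      (T.filter (fun c => Y z c.1 c.2 ∈ iv (m, l0)) ∪
        T.filter (fun c => Y z c.1 c.2 ∈ iv (m, l0 + 1)))
  have h3 := hU (T.filter (fun c => Y z c.1 c.2 ∈ iv (m, l0)))
      (T.filter (fun c => Y z c.1 c.2 ∈ iv (m, l0 + 1)))
  have h4 := h (l0 - 1)
  have h5 := h l0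
  have h6 := h (l0 + 1)
  linarith

section boxes

variable (hB : Bnd (fun p => (T₀ ×ˢ (T₁ ×ˢ T₂)).filter (fun ω => Y ω.1 ω.2.1 ω.2.2 ∈ iv p))
      (fun ω => Y ω.1 ω.2.1 ω.2.2) (NmP (T₀ ×ˢ (T₁ ×ˢ T₂)) cf (okc Y k)) ν) (hi : Inj2 Y)
    (hl : Lp Y)
    {a : ℤ × ℤ × ℤ → ℂ} {Ha : ℝ} (ha : ∀ ω ∈ T₀ ×ˢ (T₁ ×ˢ T₂), ‖a ω‖ ≤ Ha) {r : ℝ} (hr : 0 ≤ r)
    {W : Finset Nd} {J : Nd} (hW : Full W J) (f : Nd → Fn) {z : ℤ} {m : ℕ} {q u : ℤ}
    (hO : BxO Y W z m q u) {E : ℝ} (hE0 : 0 ≤ E)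
    (hE : ∀ l, (m, l) ∈ W → ∑ y ∈ iv (m, l), ‖gl W f y‖ ^ 2 ≤ E)

include hB hi hl ha hr hW hO hE0 hE

/-- rows on a small box -/
theorem box_row {x : ℤ} (hx : x ∈ Ico q (q + 2 ^ m)) :
    ∑ y ∈ Ico u (u + 2 ^ m),
      ‖Zs (fun p => (T₀ ×ˢ (T₁ ×ˢ T₂)).filter (fun ω => Y ω.1 ω.2.1 ω.2.2 ∈ iv p))
        (fun ω => Y ω.1 ω.2.1 ω.2.2) (NmP (T₀ ×ˢ (T₁ ×ˢ T₂)) cf (okc Y k)) a r W J f (z, x, y)‖ ^ 2
      ≤ 3 * (Ha ^ 2 * E) := by
  classical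
  set Z := Zs (fun p => (T₀ ×ˢ (T₁ ×ˢ T₂)).filter (fun ω => Y ω.1 ω.2.1 ω.2.2 ∈ iv p))
        (fun ω => Y ω.1 ω.2.1 ω.2.2) (NmP (T₀ ×ˢ (T₁ ×ˢ T₂)) cf (okc Y k)) a r W J f with hZ
  have e1 : ∑ y ∈ Ico u (u + 2 ^ m), ‖Z (z, x, y)‖ ^ 2 =
      ∑ c ∈ (Ico u (u + 2 ^ m)).image (fun y => (x, y)), ‖Z (z, c.1, c.2)‖ ^ 2 := by
    rw [Finset.sum_image]
    intro y _ y' _ h
    exact (Prod.mk.inj h).2
  rw [e1]
  refine sum_three hl (z := z) (m := m) (q := q) (u := u) ?_ (fun _ => sq_nonneg _) fun l => ?_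
  · intro c hc
    obtain ⟨y, hy, rfl⟩ := Finset.mem_image.1 hc
    exact ⟨hx, hy⟩
  · by_cases hm : (m, l) ∈ W
    · refine le_trans ?_ ((Zs_row hB hi ha hr hW f hm z x).trans
        (mul_le_mul_of_nonneg_left (hE l hm) (sq_nonneg _)))
      rw [← hZ]
      have e2 : ∑ c ∈ ((Ico u (u + 2 ^ m)).image (fun y => (x, y))).filter
          (fun c => Y z c.1 c.2 ∈ iv (m, l)), ‖Z (z, c.1, c.2)‖ ^ 2 =
          ∑ c ∈ (((Ico u (u + 2 ^ m)).image (fun y => (x, y))).filter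
          (fun c => Y z c.1 c.2 ∈ iv (m, l))).filter (fun c => (z, c.1, c.2) ∈ T₀ ×ˢ (T₁ ×ˢ T₂)),
            ‖Z (z, c.1, c.2)‖ ^ 2 := by
        symm
        refine Finset.sum_subset (Finset.filter_subset _ _) fun c hc hc' => ?_
        have : Z (z, c.1, c.2) = 0 := by
          refine Zs_zero hB a hr hW f fun h => hc' ?_
          exact Finset.mem_filter.2 ⟨hc, (Finset.mem_filter.1 h).1⟩
        rw [this, norm_zero]; norm_num
      rw [e2, ← Finset.sum_image (g := fun c : ℤ × ℤ => (z, c.1, c.2))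
        (f := fun ω => ‖Z ω‖ ^ 2)]
      · refine Finset.sum_le_sum_of_subset_of_nonneg ?_ fun _ _ _ => sq_nonneg _
        intro ω hω
        obtain ⟨c, hc, rfl⟩ := Finset.mem_image.1 hω
        rw [Finset.mem_filter, Finset.mem_filter, Finset.mem_image] at hc
        obtain ⟨⟨⟨y, hy, rfl⟩, h2⟩, h3⟩ := hc
        exact Finset.mem_filter.2 ⟨Finset.mem_filter.2 ⟨h3, h2⟩, rfl, rfl⟩
      · rintro ⟨c1, c2⟩ _ ⟨d1, d2⟩ _ h
        simp only [Prod.mk.injEq, true_and] at h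
        rw [h.1, h.2]
    · refine le_trans (le_of_eq ?_) (mul_nonneg (sq_nonneg Ha) hE0)
      refine Finset.sum_eq_zero fun c hc => ?_
      exfalso
      rw [Finset.mem_filter, Finset.mem_image] at hc
      obtain ⟨⟨y, hy, rfl⟩, h2⟩ := hc
      have h1 := (mem_Rm W m _).1 (hO x hx y hy)
      have h3 : Y z x y / 2 ^ (m + 7) = l := mem_iv'.1 h2
      rw [h3] at h1
      exact hm h1

/-- columns on a small box -/
theorem box_col {y : ℤ} (hy : y ∈ Ico u (u + 2 ^ m)) :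
    ∑ x ∈ Ico q (q + 2 ^ m),
      ‖Zs (fun p => (T₀ ×ˢ (T₁ ×ˢ T₂)).filter (fun ω => Y ω.1 ω.2.1 ω.2.2 ∈ iv p))
        (fun ω => Y ω.1 ω.2.1 ω.2.2) (NmP (T₀ ×ˢ (T₁ ×ˢ T₂)) cf (okc Y k)) a r W J f (z, x, y)‖ ^ 2
      ≤ 3 * (Ha ^ 2 * E) := by
  classical
  set Z := Zs (fun p => (T₀ ×ˢ (T₁ ×ˢ T₂)).filter (fun ω => Y ω.1 ω.2.1 ω.2.2 ∈ iv p))
        (fun ω => Y ω.1 ω.2.1 ω.2.2) (NmP (T₀ ×ˢ (T₁ ×ˢ T₂)) cf (okc Y k)) a r W J f with hZ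
  have e1 : ∑ x ∈ Ico q (q + 2 ^ m), ‖Z (z, x, y)‖ ^ 2 =
      ∑ c ∈ (Ico q (q + 2 ^ m)).image (fun x => (x, y)), ‖Z (z, c.1, c.2)‖ ^ 2 := by
    rw [Finset.sum_image]
    intro y _ y' _ h
    exact (Prod.mk.inj h).1
  rw [e1]
  refine sum_three hl (z := z) (m := m) (q := q) (u := u) ?_ (fun _ => sq_nonneg _) fun l => ?_
  · intro c hc
    obtain ⟨x, hx, rfl⟩ := Finset.mem_image.1 hc
    exact ⟨hx, hy⟩
  · by_cases hm : (m, l) ∈ W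
    · refine le_trans ?_ ((Zs_col hB hi ha hr hW f hm z y).trans
        (mul_le_mul_of_nonneg_left (hE l hm) (sq_nonneg _)))
      rw [← hZ]
      have e2 : ∑ c ∈ ((Ico q (q + 2 ^ m)).image (fun x => (x, y))).filter
          (fun c => Y z c.1 c.2 ∈ iv (m, l)), ‖Z (z, c.1, c.2)‖ ^ 2 =
          ∑ c ∈ (((Ico q (q + 2 ^ m)).image (fun x => (x, y))).filter
          (fun c => Y z c.1 c.2 ∈ iv (m, l))).filter (fun c => (z, c.1, c.2) ∈ T₀ ×ˢ (T₁ ×ˢ T₂)),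
            ‖Z (z, c.1, c.2)‖ ^ 2 := by
        symm
        refine Finset.sum_subset (Finset.filter_subset _ _) fun c hc hc' => ?_
        have : Z (z, c.1, c.2) = 0 := by
          refine Zs_zero hB a hr hW f fun h => hc' ?_
          exact Finset.mem_filter.2 ⟨hc, (Finset.mem_filter.1 h).1⟩
        rw [this, norm_zero]; norm_num
      rw [e2, ← Finset.sum_image (g := fun c : ℤ × ℤ => (z, c.1, c.2))
        (f := fun ω => ‖Z ω‖ ^ 2)]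
      · refine Finset.sum_le_sum_of_subset_of_nonneg ?_ fun _ _ _ => sq_nonneg _
        intro ω hω
        obtain ⟨c, hc, rfl⟩ := Finset.mem_image.1 hω
        rw [Finset.mem_filter, Finset.mem_filter, Finset.mem_image] at hc
        obtain ⟨⟨⟨x, hx, rfl⟩, h2⟩, h3⟩ := hc
        exact Finset.mem_filter.2 ⟨Finset.mem_filter.2 ⟨h3, h2⟩, rfl, rfl⟩
      · rintro ⟨c1, c2⟩ _ ⟨d1, d2⟩ _ h
        simp only [Prod.mk.injEq, true_and] at h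
        rw [h.1, h.2]
    · refine le_trans (le_of_eq ?_) (mul_nonneg (sq_nonneg Ha) hE0)
      refine Finset.sum_eq_zero fun c hc => ?_
      exfalso
      rw [Finset.mem_filter, Finset.mem_image] at hc
      obtain ⟨⟨x, hx, rfl⟩, h2⟩ := hc
      have h1 := (mem_Rm W m _).1 (hO x hx y hy)
      have h3 : Y z x y / 2 ^ (m + 7) = l := mem_iv'.1 h2
      rw [h3] at h1
      exact hm h1

/-- Hilbert–Schmidt norm of the glued letter on a small box -/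
theorem box_hs : ∑ x ∈ Ico q (q + 2 ^ m), ∑ y ∈ Ico u (u + 2 ^ m),
      ‖Zs (fun p => (T₀ ×ˢ (T₁ ×ˢ T₂)).filter (fun ω => Y ω.1 ω.2.1 ω.2.2 ∈ iv p))
        (fun ω => Y ω.1 ω.2.1 ω.2.2) (NmP (T₀ ×ˢ (T₁ ×ˢ T₂)) cf (okc Y k)) a r W J f (z, x, y)‖ ^ 2
      ≤ 2 ^ m * (3 * (Ha ^ 2 * E)) := by
  refine (Finset.sum_le_sum fun x hx => box_row hB hi hl ha hr hW f hO hE0 hE hx).trans
    (le_of_eq ?_)
  rw [Finset.sum_const, nsmul_eq_mul, Int.card_Ico]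
  have e : q + 2 ^ m - q = ((2 ^ m : ℕ) : ℤ) := by push_cast; ring
  rw [e, Int.toNat_natCast]
  push_cast
  ring

/-- **tall part of the glued letter on a small box**: `L` = any kernel with entries `≤ ‖Z‖² / h` -/
theorem opS_Zhi {h : ℝ} (hh : 0 < h) {L : ℤ → ℤ → ℂ}
    (hL : ∀ x ∈ Ico q (q + 2 ^ m), ∀ y ∈ Ico u (u + 2 ^ m), ‖L x y‖ ≤
      ‖Zs (fun p => (T₀ ×ˢ (T₁ ×ˢ T₂)).filter (fun ω => Y ω.1 ω.2.1 ω.2.2 ∈ iv p))
        (fun ω => Y ω.1 ω.2.1 ω.2.2) (NmP (T₀ ×ˢ (T₁ ×ˢ T₂)) cf (okc Y k)) a r W J f (z, x, y)‖ ^ 2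
        / h) :
    OpS (Ico q (q + 2 ^ m)) (Ico u (u + 2 ^ m)) L (3 * (Ha ^ 2 * E) / h) :=
  opS_tall hh (by positivity) hL (fun _ hx => box_row hB hi hl ha hr hW f hO hE0 hE hx)
    fun _ hy => box_col hB hi hl ha hr hW f hO hE0 hE hy

/-- **the killer of a window**: `a g - tau_h Z = (a g - Z) + (Z - tau_h Z)` on a small box -/
theorem opS_kill {h : ℝ} (hh : 0 < h) {L : ℤ → ℤ → ℂ}
    (hL : ∀ x ∈ Ico q (q + 2 ^ m), ∀ y ∈ Ico u (u + 2 ^ m), ‖L x y‖ ≤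
      ‖Zs (fun p => (T₀ ×ˢ (T₁ ×ˢ T₂)).filter (fun ω => Y ω.1 ω.2.1 ω.2.2 ∈ iv p))
        (fun ω => Y ω.1 ω.2.1 ω.2.2) (NmP (T₀ ×ˢ (T₁ ×ˢ T₂)) cf (okc Y k)) a r W J f (z, x, y)‖ ^ 2
        / h) :
    OpS (Ico q (q + 2 ^ m)) (Ico u (u + 2 ^ m))
      (fun x y => Bgl (fun p => (T₀ ×ˢ (T₁ ×ˢ T₂)).filter (fun ω => Y ω.1 ω.2.1 ω.2.2 ∈ iv p))
        (fun ω => Y ω.1 ω.2.1 ω.2.2) (NmP (T₀ ×ˢ (T₁ ×ˢ T₂)) cf (okc Y k)) a r W J (gl W f)
        (z, x, y) + L x y)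
      (3 * (2 * (r * 2 ^ (m + k))) + 3 * (Ha ^ 2 * E) / h) :=
  opS_add (by positivity) (by positivity) (opS_glued hB hl a hr hW _ hO)
    (opS_Zhi hB hi hl ha hr hW f hO hE0 hE hh hL)

end boxes

end tall

end Crest.Agent.R079.GaTx251
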