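import Crest.Agent.R079.GaQ_571

/-! R079, frame errors (helper112): POWERS OF `t` for the energy of the error letter (`ErL_255.err_fam`). -/

set_option autoImplicit false

namespace Crest.Agent.R079.NumS112

open Crest.Agent.R079.GaQx571

/-- **energy of the error letter**: `kap = t ^ (-kx)`, `C1 ≤ A t ^ (-e')`, `C2 ≤ A t ^ c1` -/
theorem num_err {A : ℝ} (hA : 1 ≤ A) (Kl k3 : ℕ) {kx e' c1 a : ℝ} (hkx : 0 ≤ kx) (he : 0 ≤ e')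
    (ha : 2 * kx + e' ≤ a) :
    ∃ K : ℝ, 1 ≤ K ∧ ∀ t, 0 < t → t ≤ 1 → ∀ C1 C2 δ η s : ℝ, 0 ≤ C1 → C1 ≤ A * t ^ (-e') →
      0 ≤ C2 → C2 ≤ A * t ^ c1 → 0 ≤ δ → δ ≤ t ^ c1 → 0 ≤ η → η ≤ t ^ c1 → 0 ≤ s → s ≤ A →
      2 ^ k3 * (2 * ((2 * (1 + Kl * t ^ (-kx)) + 2 * t ^ (-kx) * (Kl : ℝ) ^ 3 * C1) * (δ + η) +
        2 * (t ^ (-kx)) ^ 2 * (Kl : ℝ) ^ 4 * C2 * s ^ 2)) ≤ K * t ^ (-a) * t ^ c1 := by
  refine ⟨2 ^ k3 * (2 * ((2 * (1 + Kl) + 2 * (Kl : ℝ) ^ 3 * A) * 2 +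
    2 * (Kl : ℝ) ^ 4 * A * A ^ 2)), ?_, ?_⟩
  · have h1 : (1 : ℝ) ≤ 2 ^ k3 := one_le_pow₀ (by norm_num)
    have h2 : (1 : ℝ) ≤ 2 * ((2 * (1 + Kl) + 2 * (Kl : ℝ) ^ 3 * A) * 2 +
        2 * (Kl : ℝ) ^ 4 * A * A ^ 2) := by
      have h3 : (0 : ℝ) ≤ Kl := Nat.cast_nonneg _
      have h4 : (0 : ℝ) ≤ 2 * (Kl : ℝ) ^ 3 * A := by positivity
      have h5 : (0 : ℝ) ≤ 2 * (Kl : ℝ) ^ 4 * A * A ^ 2 := by positivity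
      linarith
    nlinarith
  intro t ht ht1 C1 C2 δ η s hC10 hC1 hC20 hC2 hδ0 hδ hη0 hη hs0 hs
  have P := pw_pos ht
  have p : ∀ s : ℝ, 0 ≤ t ^ s := fun s => (P s).le
  have hA0 : 0 ≤ A := by linarith
  have hK0 : (0 : ℝ) ≤ Kl := Nat.cast_nonneg _
  have q1 : 1 ≤ t ^ (-a) := one_le_pw ht ht1 (by linarith)
  have q2 : t ^ (-kx) ≤ t ^ (-a) := pw_le ht ht1 (by linarith)
  have q3 : t ^ (-kx) * t ^ (-e') ≤ t ^ (-a) := by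
    rw [pw_add ht]
    exact pw_le ht ht1 (by linarith)
  have q4 : (t ^ (-kx)) ^ 2 ≤ t ^ (-a) := by
    rw [sq, pw_add ht]
    exact pw_le ht ht1 (by linarith)
  have e1 : 2 * (1 + Kl * t ^ (-kx)) ≤ 2 * (1 + Kl) * t ^ (-a) := by nlinarith
  have e2 : 2 * t ^ (-kx) * (Kl : ℝ) ^ 3 * C1 ≤ 2 * (Kl : ℝ) ^ 3 * A * t ^ (-a) := by
    calc 2 * t ^ (-kx) * (Kl : ℝ) ^ 3 * C1 ≤ 2 * t ^ (-kx) * (Kl : ℝ) ^ 3 * (A * t ^ (-e')) :=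
          mul_le_mul_of_nonneg_left hC1 (by have := p (-kx); positivity)
      _ = 2 * (Kl : ℝ) ^ 3 * A * (t ^ (-kx) * t ^ (-e')) := by ring
      _ ≤ _ := mul_le_mul_of_nonneg_left q3 (by positivity)
  have e3 : (2 * (1 + Kl * t ^ (-kx)) + 2 * t ^ (-kx) * (Kl : ℝ) ^ 3 * C1) * (δ + η) ≤
      ((2 * (1 + Kl) + 2 * (Kl : ℝ) ^ 3 * A) * 2) * (t ^ (-a) * t ^ c1) := by
    calc _ ≤ ((2 * (1 + Kl) + 2 * (Kl : ℝ) ^ 3 * A) * t ^ (-a)) * (2 * t ^ c1) := by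
          refine mul_le_mul (by linarith) (by linarith) (by linarith) ?_
          have := p (-a)
          positivity
      _ = _ := by ring
  have e4 : 2 * (t ^ (-kx)) ^ 2 * (Kl : ℝ) ^ 4 * C2 * s ^ 2 ≤
      2 * (Kl : ℝ) ^ 4 * A * A ^ 2 * (t ^ (-a) * t ^ c1) := by
    have a1 : s ^ 2 ≤ A ^ 2 := pow_le_pow_left₀ hs0 hs 2
    calc 2 * (t ^ (-kx)) ^ 2 * (Kl : ℝ) ^ 4 * C2 * s ^ 2 ≤
        2 * t ^ (-a) * (Kl : ℝ) ^ 4 * (A * t ^ c1) * A ^ 2 := by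
          have := p (-a)
          have := p c1
          gcongr
      _ = _ := by ring
  have h2 : (0 : ℝ) < 2 ^ k3 := by positivity
  calc _ ≤ 2 ^ k3 * (2 * (((2 * (1 + Kl) + 2 * (Kl : ℝ) ^ 3 * A) * 2) * (t ^ (-a) * t ^ c1) +
        2 * (Kl : ℝ) ^ 4 * A * A ^ 2 * (t ^ (-a) * t ^ c1))) := by
        refine mul_le_mul_of_nonneg_left ?_ h2.le
        linarith
    _ = _ := by ring

end Crest.Agent.R079.NumS112
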