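import Crest.Agent.R079.NL_112
import Crest.Agent.R079.NumE_112
import Crest.Agent.R079.NrF_228
import Crest.Agent.R079.ErO_255

/-! R079, T7 (helper263): THE ERROR HALF OF `NJ_112.InES` WITH NUMBERS, at the parameters `NL_112.parF`.

* `PsF`      : the frame letters of one generation at the parameters of `parF`;
* **`errF`** : `2 ^ (k0 + 3) * ∑_c len Q * av Q (ek ..)² ≤ ω t ^ c1 len Q` for every `Q ∈ R`. -/

set_option autoImplicit false

namespace Crest.Agent.R079.GnEx263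

open Finset Crest.Agent.R079.Grid Crest.Agent.R079.Growth Crest.Agent.R079.QRed
  Crest.Agent.R079.TWin
open Crest.Agent.R079.RelW653 (vl NMP Jv Dv)
open Crest.Agent.R079.RelV653 Crest.Agent.R079.HWx323 Crest.Agent.R079.Chn110
open Crest.Agent.R079.TRec Crest.Agent.R079.T6bx252 Crest.Agent.R079.Tailx726 Crest.Agent.R079.Stk
  Crest.Agent.R079.AsmA844
open Crest.Agent.R079.FLDx263 Crest.Agent.R079.GnSx263 Crest.Agent.R079.GnNx263
  Crest.Agent.R079.PFx263 Crest.Agent.R079.GaDx571 Crest.Agent.R079.GaFx371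
  Crest.Agent.R079.WS112 Crest.Agent.R079.WS0112 Crest.Agent.R079.POx263
  Crest.Agent.R079.OpS276 Crest.Agent.R079.GnUx263 Crest.Agent.R079.SbWx795
open Crest.Agent.R079.NJ112 Crest.Agent.R079.NL112 Crest.Agent.R079.GaQx571
open Crest.Agent.R079.ErMx255 Crest.Agent.R079.ErOx255 Crest.Agent.R079.NrEx228

/-- exponent of the top threshold -/
noncomputable def topx (P : Prm) (i : Fin 4) : ℝ := (xxC P i + ffC P i) / 2

/-- **top threshold**: `2 ^ 7 √(Hf Ht) * 3` is below the last step of the ladder -/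
theorem top_le {P : Prm} {i : Fin 4} {c1 y : ℝ} {k0 Kl : ℕ} {M Ko t : ℝ} (ht : 0 < t)
    (ht0 : t ≤ 1 / 700) (hKl : 2 * P.θ + topx P i + 1 ≤ ((Kl : ℝ) - 1) * y) {q : ℕ}
    (hq : q + 1 = Kl) :
    2 ^ 7 * Real.sqrt (HfC P i t * HtC P i t) * 3 ≤ (parF P c1 y k0 Kl M Ko).r t q := by
  have ht1 : t ≤ 1 := ht0.trans (by norm_num)
  have hq' : ((Kl : ℝ) - 1) = q := by
    rw [← hq]
    push_cast
    ring
  rw [hq'] at hKl
  have e1 : HfC P i t * HtC P i t = 3 * (t ^ (-topx P i)) ^ 2 := by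
    unfold HfC HtC topx
    rw [sq, pw_add ht, mul_comm (t ^ (-ffC P i)), mul_assoc, pw_add ht]
    congr 2
    ring
  have e2 : Real.sqrt (HfC P i t * HtC P i t) ≤ 1.74 * t ^ (-topx P i) := by
    rw [e1]
    refine Real.sqrt_le_iff.2 ⟨by have := pw_pos ht (-topx P i); positivity, ?_⟩
    have := sq_nonneg (t ^ (-topx P i))
    nlinarith
  have e3 : t ^ (-topx P i) * 700 ≤ t ^ (-topx P i) * t ^ (-(1 : ℝ)) := by
    refine mul_le_mul_of_nonneg_left ?_ (pw_pos ht _).le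
    rw [Real.rpow_neg_one, le_inv_comm₀ (by norm_num) ht]
    linarith
  have e4 : t ^ (-topx P i) * t ^ (-(1 : ℝ)) ≤ (parF P c1 y k0 Kl M Ko).r t q := by
    rw [pw_add ht]
    show _ ≤ t ^ (2 * P.θ - y * (q : ℝ))
    exact pw_le ht ht1 (by linarith)
  have e5 := pw_pos ht (-topx P i)
  calc 2 ^ 7 * Real.sqrt (HfC P i t * HtC P i t) * 3 ≤
        2 ^ 7 * (1.74 * t ^ (-topx P i)) * 3 := by linarith
    _ ≤ t ^ (-topx P i) * 700 := by nlinarith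
    _ ≤ _ := e3.trans e4

/-- ladder of `parF`: positive -/
lemma parF_rpos {P : Prm} {c1 y : ℝ} {k0 Kl : ℕ} {M Ko t : ℝ} (ht : 0 < t) (q : ℕ) :
    0 < (parF P c1 y k0 Kl M Ko).r t q := Real.rpow_pos_of_pos ht _

/-- ladder of `parF`: increasing -/
lemma parF_mono {P : Prm} {c1 y : ℝ} {k0 Kl : ℕ} {M Ko t : ℝ} (ht : 0 < t) (ht1 : t ≤ 1)
    (hy : 0 ≤ y) (q : ℕ) :
    (parF P c1 y k0 Kl M Ko).r t q ≤ (parF P c1 y k0 Kl M Ko).r t (q + 1) := by
  rw [parF_step ht]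
  have h1 := one_le_pw ht ht1 hy
  have h2 := (parF_rpos (P := P) (c1 := c1) (y := y) (k0 := k0) (Kl := Kl) (M := M) (Ko := Ko)
    ht q).le
  nlinarith

/-- **THE ERROR HALF OF `InES`** at the parameters `parF` -/
theorem errF (P : Prm) (d ε : ℝ) {k : ℝ} (hk : 0 ≤ k) (q3 : ℝ) (i m e e' : Fin 4) {c1 y : ℝ}
    (hc1 : 0 ≤ c1) (hy : 0 ≤ y) {k0 : ℕ} (hk0 : 9 ≤ k0) (Kl : ℕ)
    (hKl : 2 * P.θ + topx P i + 1 ≤ ((Kl : ℝ) - 1) * y) :
    ∃ Ko0 : ℝ, 1 ≤ Ko0 ∧ ∀ Ko, Ko0 ≤ Ko → ∀ M : ℝ,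
      ∀ {N : ℕ} {B t : ℝ} {W : Finset Nd} {I : Nd} {F : Fin 4 → Fn} {xy : Fin 2 → Fin 4}
        {bb : ℤ} {E : ℕ → ℤ → ℂ} {R : Finset Nd} {J : Nd} {Z : Fin 2 → Fn} {v : Fin 3} {n : ℕ}
        {T : Fin n → Fin 3 → Finset ℤ} {g : Fin n → Fin 3 → ℤ → ℤ → ℂ} {al : Fin n → ℤ → ℝ}
        {mu : Fin n → ℝ} {es : Fin 2 → Fin 3},
      Su P d ε k q3 i m e e' N B t W I F xy bb E R J Z v n T g al mu es → t ≤ 1 / 700 →
      ∀ η : ℝ, η ≤ t ^ c1 → ∀ f : Fin 2 → Nd → Fn,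
        (∀ c', NMP (fun _ _ => True)
          (PhiC P ε i T g mu I t ((parF P c1 y k0 Kl M Ko).kap t) ((parF P c1 y k0 Kl M Ko).kc t)
            ((parF P c1 y k0 Kl M Ko).Kl t) ((parF P c1 y k0 Kl M Ko).r t) es c') (Z c') η (f c')) →
        ∀ Q ∈ R, 2 ^ ((parF P c1 y k0 Kl M Ko).k0 + 3) * ∑ c', len Q * av Q (ek Z f (VG R
          (PhiC P ε i T g mu I t ((parF P c1 y k0 Kl M Ko).kap t) ((parF P c1 y k0 Kl M Ko).kc t)
            ((parF P c1 y k0 Kl M Ko).Kl t) ((parF P c1 y k0 Kl M Ko).r t) es) Z η f (t ^ c1))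
          (PsX i T g mu I (LaC P ε i t) ((parF P c1 y k0 Kl M Ko).kap t)
            ((parF P c1 y k0 Kl M Ko).kc t) ((parF P c1 y k0 Kl M Ko).Kl t)
            ((parF P c1 y k0 Kl M Ko).r t) es f
            (VG R (PhiC P ε i T g mu I t ((parF P c1 y k0 Kl M Ko).kap t)
              ((parF P c1 y k0 Kl M Ko).kc t) ((parF P c1 y k0 Kl M Ko).Kl t)
              ((parF P c1 y k0 Kl M Ko).r t) es) Z η f (t ^ c1)) (parF P c1 y k0 Kl M Ko).k0
              ((parF P c1 y k0 Kl M Ko).j0 t) ((parF P c1 y k0 Kl M Ko).n0 t)) c' Q) ^ 2 ≤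
          (parF P c1 y k0 Kl M Ko).om t * t ^ c1 * len Q := by
  set A1 : ℝ := K1c 7 (1 / 2 ^ (k0 + 3)) with hA1
  set A2 : ℝ := K2c 7 (1 / 2 ^ (k0 + 3)) with hA2
  have hA10 : 0 ≤ A1 := K1c_nonneg 7 (by positivity)
  have hA20 : 0 ≤ A2 := K2c_nonneg 7 _
  obtain ⟨K, hK1, hK⟩ := NumS112.num_err (A := 3 + A1 + 2 * A2) (by linarith) Kl (k0 + 3)
    (kx := 4 * y) (e' := y) (c1 := c1) (a := 9 * y) (by linarith) hy (by linarith)
  refine ⟨K, hK1, ?_⟩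
  intro Ko hKo M N B t W I F xy bb E R J Z v n T g al mu es hS ht0 η hη f hf Q hQ
  have ht := hS.t0
  have ht1 : t ≤ 1 := ht0.trans (by norm_num)
  set p := parF P c1 y k0 Kl M Ko with hp
  have hc0 := pw_pos ht c1
  have hη1 : η ≤ 1 := hη.trans (Real.rpow_le_one ht.le ht1 hc1)
  have hkap : 0 ≤ p.kap t := (Real.rpow_pos_of_pos ht _).le
  have hR : 1 ≤ t ^ (-y) := one_le_pw ht ht1 hy
  have hj : (1 : ℝ) / 2 ^ lev c1 t ≤ t ^ c1 := lev_le hc1 ht ht1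
  have hjk : k0 ≤ k0 + lev c1 t := Nat.le_add_right _ _
  set C1 : ℝ := A1 * t ^ (-y) / 2 with hC1
  set C2 : ℝ := A2 * (2 * (1 / 2) ^ (k0 + lev c1 t)) with hC2
  have hC10 : 0 ≤ C1 := by positivity
  have hC20 : 0 ≤ C2 := by positivity
  have hfull : Full R J := hS.full
  have hcell : CellsX i T g I (p.kc t) (p.Kl t) (p.r t) es f
      (VG R (PhiC P ε i T g mu I t (p.kap t) (p.kc t) (p.Kl t) (p.r t) es) Z η f (t ^ c1)) k0
      (k0 + lev c1 t) (lev M t) C1 C2 Q := by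
    intro c
    refine NrFx228.cellLt_zfX (ν := 1 / (sd I : ℝ) ^ 2) hR
      (fun l => bnd_E i (es c) I (sd_pos I) (hS.fam.opD l).card _)
      (fun q => parF_rpos ht q) (fun q => parF_mono ht ht1 hy q) (fun q => ?_)
      (VK_full hfull hQ) hk0 hjk
    exact (parF_step ht q).le
  have h1 := hE_psX hS hk hkap (p.kc t) (p.Kl t) (r := p.r t) (fun q => (parF_rpos ht q).le)
    (fun q hq => top_le ht ht0 hKl hq) hc0.le hη hη1 hf (k0 := k0) (j0 := k0 + lev c1 t)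
    (n0 := lev M t) (by omega) hC10 hC20 hQ hcell
  have h2 := hK t ht ht1 C1 C2 (t ^ c1) (t ^ c1) (Real.sqrt 6) hC10 (by
      have := pw_pos ht (-y)
      rw [hC1]
      nlinarith) hC20 (by
      have e1 : (1 / 2 : ℝ) ^ (k0 + lev c1 t) ≤ t ^ c1 := by
        have e2 : (1 / 2 : ℝ) ^ (k0 + lev c1 t) ≤ (1 / 2) ^ lev c1 t :=
          pow_le_pow_of_le_one (by norm_num) (by norm_num) (Nat.le_add_left _ _)
        rw [one_div_pow] at e2 ⊢
        rw [one_div_pow] at e2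
        exact e2.trans hj
      have e3 := mul_le_mul_of_nonneg_left e1 hA20
      rw [hC2]
      nlinarith) hc0.le le_rfl hc0.le le_rfl (Real.sqrt_nonneg _) (by
      have : Real.sqrt 6 ≤ 3 := Real.sqrt_le_iff.2 ⟨by norm_num, by norm_num⟩
      linarith)
  rw [Real.sq_sqrt (by norm_num), ← two_mul] at h2
  have hlQ := (Growth.len_pos Q).le
  calc (2 : ℝ) ^ (p.k0 + 3) * ∑ c', len Q * av Q (ek Z f (VG R
          (PhiC P ε i T g mu I t (p.kap t) (p.kc t) (p.Kl t) (p.r t) es) Z η f (t ^ c1))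
          (PsX i T g mu I (LaC P ε i t) (p.kap t) (p.kc t) (p.Kl t) (p.r t) es f
            (VG R (PhiC P ε i T g mu I t (p.kap t) (p.kc t) (p.Kl t) (p.r t) es) Z η f (t ^ c1))
            p.k0 (p.j0 t) (p.n0 t)) c' Q) ^ 2
      ≤ 2 ^ (k0 + 3) * (lnum (p.kap t) (p.Kl t) C1 C2 (t ^ c1) * len Q) :=
        mul_le_mul_of_nonneg_left h1 (by positivity)
    _ = (2 ^ (k0 + 3) * lnum (t ^ (-(4 * y))) Kl C1 C2 (t ^ c1)) * len Q := by
        rw [← mul_assoc]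
        rfl
    _ ≤ (K * t ^ (-(9 * y)) * t ^ c1) * len Q := mul_le_mul_of_nonneg_right h2 hlQ
    _ ≤ (Ko * t ^ (-(9 * y)) * t ^ c1) * len Q := by
        have := pw_pos ht (-(9 * y))
        gcongr
    _ = _ := rfl

end Crest.Agent.R079.GnEx263
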