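import Crest.Agent.R079.GnE_263
import Crest.Agent.R079.FrF_360

/-! R079, T7 (helper263): COMPOSITION of `InES` from the error half (`GnE_263.errF`), the (S) words
(`FrF_360.swd_fin`) and the numbers of the (S) side.

* `NumS`            : the numbers of the (S) side at the parameters `parF`;
* **`inES_of_num`** : `NumS` => `InES`. -/

set_option autoImplicit false

namespace Crest.Agent.R079.GnHx263

open Finset Crest.Agent.R079.Grid Crest.Agent.R079.Growth Crest.Agent.R079.QRed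
  Crest.Agent.R079.TWin
open Crest.Agent.R079.RelW653 (vl NMP Jv Dv)
open Crest.Agent.R079.RelV653 Crest.Agent.R079.HWx323 Crest.Agent.R079.Chn110
open Crest.Agent.R079.TRec Crest.Agent.R079.T6bx252 Crest.Agent.R079.Tailx726 Crest.Agent.R079.Stk
  Crest.Agent.R079.AsmA844
open Crest.Agent.R079.FLDx263 Crest.Agent.R079.GnSx263 Crest.Agent.R079.GnNx263
  Crest.Agent.R079.PFx263 Crest.Agent.R079.GaDx571 Crest.Agent.R079.GaFx371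
  Crest.Agent.R079.WS112 Crest.Agent.R079.WS0112 Crest.Agent.R079.POx263
  Crest.Agent.R079.OpS276 Crest.Agent.R079.GnUx263 Crest.Agent.R079.SbWx795
open Crest.Agent.R079.NJ112 Crest.Agent.R079.NL112 Crest.Agent.R079.GaQx571
open Crest.Agent.R079.ErMx255 Crest.Agent.R079.ErOx255 Crest.Agent.R079.GnEx263
open Crest.Agent.R079.FrZx360 Crest.Agent.R079.SKx261
open Crest.Agent.R079.FrMx717 (cM)

/-- size of the letters -/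
noncomputable def SaN (Ko : ℝ) : ℝ := 4 + Real.sqrt Ko

/-- **THE NUMBERS OF THE (S) SIDE** at the parameters `parF` -/
def NumS (P : Prm) (d ε : ℝ) (i m : Fin 4) (c1 y : ℝ) (k0 Kl : ℕ) (M Ko gS K0 K t0 : ℝ) : Prop :=
  ∀ t, 0 < t → t ≤ t0 → ∃ (A Θ X : ℝ) (rr : ℕ → ℝ),
    0 ≤ X ∧ aiS P d i t ^ 2 ≤ A ∧ 1 ≤ A ∧ SaN Ko ^ 2 ≤ A ∧
    (∀ a < Kl, 0 < rr a ∧ cM k0 ((parF P c1 y k0 Kl M Ko).r t a)
      ((parF P c1 y k0 Kl M Ko).r t (a + 1)) ≤ (rr a)⁻¹) ∧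
    (∀ a < Kl, SKZ Θ A (gkS P m t) (dkS P m t) (SaN Ko ^ 2) 0
      (2 ^ 7 * (parF P c1 y k0 Kl M Ko).r t a) (rr a) (2 ^ 7 * 9 * (HfC P i t * HtC P i t)) 0
      (t ^ (-(4 * y))) (Real.sqrt (HfC P i t * HtC P i t) * LaC P ε i t)) ∧
    (∀ a < Kl, gX A (gkS P m t) (dkS P m t) (SaN Ko) (t ^ (-(4 * y)))
      (2 ^ 7 * (parF P c1 y k0 Kl M Ko).r t a) (rr a) (2 ^ 7 * 9 * (HfC P i t * HtC P i t))
      (lev M t) Θ ≤ X) ∧
    kaG Kl (k0 + lev c1 t) (lev M t) (gkS P m t) (dkS P m t) (aiS P d i t) (LaC P ε i t) (SaN Ko)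
      K0 X (t ^ (-(4 * y)) * 2 ^ 7 * 9) ≤ K * t ^ gS

/-- `SWd` is monotone -/
theorem SWd_mono {bb : ℤ} {E : ℕ → ℤ → ℂ} {F : Fin 4 → Fn} {xy : Fin 2 → Fin 4} {Z : Fin 2 → Fn}
    {f : Fin 2 → Nd → Fn} {Psi : Fin 2 → Nd → Fn} {W' : Nd → Finset Nd} {κ κ' : ℝ} {w : Nd}
    (hκ : κ ≤ κ') (h : SWd bb E F xy Z f Psi W' κ w) : SWd bb E F xy Z f Psi W' κ' w := by
  have hm : κ * len w ≤ κ' * len w := mul_le_mul_of_nonneg_right hκ (Growth.len_pos w).le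
  obtain ⟨a1, a2, a3, a4, a5⟩ := h
  exact ⟨a1.trans hm, a2.trans hm, a3.trans hm, a4.trans hm, a5.trans hm⟩

/-- **`InES` FROM THE NUMBERS** -/
theorem inES_of_num : ∃ K0 : ℝ, 0 ≤ K0 ∧ ∃ κ0 : ℕ, ∀ {P : Prm} {d ε k q3 : ℝ}
    {i m e e' : Fin 4}, Ok0 P → 0 ≤ k → m ≠ 3 → P.gc m ≤ P.Cc m → ∀ {c1 y : ℝ}, 0 ≤ c1 → 0 ≤ y →
    9 * y ≤ c1 → ∀ {k0 : ℕ}, 9 ≤ k0 → κ0 + 4 ≤ k0 → ∀ Kl : ℕ,
    2 * P.θ + topx P i + 1 ≤ ((Kl : ℝ) - 1) * y →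
    ∃ Ko0 : ℝ, 1 ≤ Ko0 ∧ ∀ Ko, Ko0 ≤ Ko → ∀ M gS K t0 : ℝ, t0 ≤ 1 / 700 →
      NumS P d ε i m c1 y k0 Kl M Ko gS K0 K t0 →
      InES P d ε k q3 i m e e' c1 gS t0 K (parF P c1 y k0 Kl M Ko) := by
  obtain ⟨K0, hK0, κ0, hfin⟩ := swd_fin
  refine ⟨K0, hK0, κ0, ?_⟩
  intro P d ε k q3 i m e e' hP hk hm3 hgC c1 y hc1 hy h9 k0 hk0 hκ Kl hKl
  obtain ⟨Ko0, hKo0, hE⟩ := errF P d ε hk q3 i m e e' hc1 hy hk0 Kl hKl
  refine ⟨Ko0, hKo0, ?_⟩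
  intro Ko hKo M gS K t0 ht0 hN N B t W I F xy bb E R J Z v n T g al mu es hS htt
  have ht := hS.t0
  have ht7 : t ≤ 1 / 700 := htt.trans ht0
  have ht1 : t ≤ 1 := ht7.trans (by norm_num)
  have hKo1 : 1 ≤ Ko := hKo0.trans hKo
  refine ⟨t ^ c1, pw_pos ht c1, fun η hη hηη f hf => ?_⟩
  have hE1 := hE Ko hKo M hS ht7 η hηη f hf
  obtain ⟨A, Θ, X, rr, hX, hAi, hA1, hSA, hrr, hZ, hgX, hka⟩ := hN t ht htt
  refine ⟨_, hE1, fun w hw => ?_⟩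
  refine SWd_mono hka ?_
  have hom : (parF P c1 y k0 Kl M Ko).om t * t ^ c1 ≤ Real.sqrt Ko ^ 2 := by
    rw [Real.sq_sqrt (by linarith)]
    show Ko * t ^ (-(9 * y)) * t ^ c1 ≤ Ko
    rw [mul_assoc, pw_add ht]
    have : t ^ (-(9 * y) + c1) ≤ 1 := Real.rpow_le_one ht.le ht1 (by linarith)
    nlinarith
  have hη1 : η ≤ 1 := hηη.trans (Real.rpow_le_one ht.le ht1 hc1)
  have hkap : 0 ≤ t ^ (-(4 * y)) := (pw_pos ht _).le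
  have hgk : 0 ≤ gkS P m t := mul_nonneg (by norm_num) (Real.rpow_nonneg ht.le _)
  have hdk : 0 ≤ dkS P m t := mul_nonneg (by norm_num) (Real.rpow_nonneg ht.le _)
  refine hfin hS hk hkap hη1 (Real.sqrt_nonneg Ko) hom le_rfl (fun q => parF_rpos ht q)
    (fun q => parF_mono ht ht1 hy q) hk0 (Nat.le_add_right _ _) (by omega) hf rfl rfl rfl hw ?_ hgk
    hdk (LaC_pos P ε i ht).le hX hAi hA1 hSA hS.avi (Su.supi hS) (Su.ncol hS hP hk hm3 hgC ht1)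
    hrr (fun _ _ => le_rfl) hZ hgX
  refine ek_top ?_
  have h1 := hE1 w hw
  have h2 : (1 : ℝ) ≤ 2 ^ ((parF P c1 y k0 Kl M Ko).k0 + 3) := one_le_pow₀ (by norm_num)
  have hl := (Growth.len_pos w).le
  refine le_trans ?_ (h1.trans (mul_le_mul_of_nonneg_right hom hl))
  exact le_mul_of_one_le_left (Finset.sum_nonneg fun _ _ => mul_nonneg hl (sq_nonneg _)) h2

end Crest.Agent.R079.GnHx263
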