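import Crest.Agent.R079.GnH_263

/-! R079, T7 (helper263): `ESF` FROM THE NUMBERS, exponents of the final parameters `PF x C ρ c`.

* `gaS` : the gain `θ gc_m / 2 - clx_i`;
* `NumF` : the number statement with conditions on the exponents;
* `gaS_pos`, conditions for `PF`;
* **`esf_of_num`** : `NumF` => `ESF (PF x C ρ c)` for `2 x + 75 ≤ C`; `target_of_num`. -/

set_option autoImplicit false

namespace Crest.Agent.R079.GnIx263

open Finset Crest.Agent.R079.Grid Crest.Agent.R079.Growth Crest.Agent.R079.QRed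
  Crest.Agent.R079.TWin
open Crest.Agent.R079.RelV653 Crest.Agent.R079.HWx323 Crest.Agent.R079.Chn110
open Crest.Agent.R079.TRec Crest.Agent.R079.T6bx252 Crest.Agent.R079.Tailx726 Crest.Agent.R079.Stk
  Crest.Agent.R079.AsmA844
open Crest.Agent.R079.FLDx263 Crest.Agent.R079.GnSx263 Crest.Agent.R079.GnNx263
  Crest.Agent.R079.PFx263 Crest.Agent.R079.GaDx571 Crest.Agent.R079.GaFx371
  Crest.Agent.R079.WS112 Crest.Agent.R079.WS0112 Crest.Agent.R079.POx263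
  Crest.Agent.R079.OpS276 Crest.Agent.R079.GnUx263 Crest.Agent.R079.SbWx795
open Crest.Agent.R079.NJ112 Crest.Agent.R079.NL112 Crest.Agent.R079.NP112 Crest.Agent.R079.GaQx571
open Crest.Agent.R079.GnEx263 Crest.Agent.R079.GnHx263

/-- **gain of the (S) words** -/
noncomputable def gaS (P : Prm) (d : ℝ) (i m : Fin 4) : ℝ := P.θ * P.gc m / 2 - clx P d i

/-- the number statement -/
def NumF : Prop :=
  ∀ (P : Prm) (d ε : ℝ) (i m : Fin 4) (c1 y : ℝ) (k0 Kl : ℕ) (M Ko K0 : ℝ), 0 < P.θ →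
    0 ≤ P.gc m → 0 ≤ clx P d i → 0 ≤ ffC P i → 0 ≤ xxC P i → 0 ≤ ε → 0 ≤ P.g i → 0 ≤ c1 → 0 < y →
    0 ≤ K0 → 1 ≤ Ko → 2 * c1 + 9 * y ≤ gaS P d i m →
    2 * gaS P d i m ≤ P.θ * (P.Cc m - P.gc m) - 2 * (1 + ε) * (P.θ * P.g i) →
    2 * (P.θ * P.gc m) ≤ P.θ * (P.Cc m - P.gc m) - 4 * clx P d i - (ffC P i + xxC P i) -
      4 * P.θ →
    2 * (P.θ * P.gc m) + 4 * clx P d i + (ffC P i + xxC P i) + 4 * P.θ ≤ M →
    ∃ K t0 : ℝ, 1 ≤ K ∧ 0 < t0 ∧ t0 ≤ 1 / 700 ∧ NumS P d ε i m c1 y k0 Kl M Ko (2 * c1 + y) K0 K t0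

section

variable {x C ρ c : ℝ}

/-- the gain is positive -/
theorem gaS_pos (h : Adm4 x C ρ c) {i m : Fin 4} (hmi : m < i) (hi3 : i ≠ 3) :
    0 < gaS (PF x C ρ c) (dF C ρ c) i m := by
  have hθ : 0 < (PF x C ρ c).θ := θ_pos h
  have hρ := h.ρ0
  have hρ1 := h.ρ1
  have hc := h.c0
  have e1 : gaS (PF x C ρ c) (dF C ρ c) i m =
      (PF x C ρ c).θ * (c * (ρ ^ (m : ℕ) / 2 - 2 * ρ ^ (i : ℕ) - ρ ^ 3)) := by
    show (1 / (C + 2)) * (c * ρ ^ (m : ℕ)) / 2 -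
      (2 * ((1 / (C + 2)) * (c * ρ ^ (i : ℕ))) + 1 / (C + 2) * (c * ρ ^ 3)) = _
    show _ = (1 / (C + 2)) * (c * (ρ ^ (m : ℕ) / 2 - 2 * ρ ^ (i : ℕ) - ρ ^ 3))
    ring
  rw [e1]
  refine mul_pos hθ (mul_pos hc ?_)
  have h2 : ρ ^ 2 ≤ 1 / 64 := by nlinarith
  have h3 : 0 < ρ ^ 2 := by positivity
  fin_cases i <;> fin_cases m <;> first
    | exact absurd hmi (by decide)
    | exact absurd rfl hi3
    | (norm_num; nlinarith)

/-- exponent of the sup -/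
theorem cond1 (h : Adm4 x C ρ c) {ε : ℝ} (hε1 : ε ≤ 1) (i m : Fin 4) :
    2 * gaS (PF x C ρ c) (dF C ρ c) i m ≤ (PF x C ρ c).θ * ((PF x C ρ c).Cc m -
      (PF x C ρ c).gc m) - 2 * (1 + ε) * ((PF x C ρ c).θ * (PF x C ρ c).g i) := by
  have hθ : 0 < (PF x C ρ c).θ := θ_pos h
  have hm := gc_le h m
  have hi := (gc_pos h i).le
  have hd := (dF_pos h).le
  have hC := h.C0
  unfold gaS clx
  show 2 * ((PF x C ρ c).θ * (c * ρ ^ (m : ℕ)) / 2 -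
      (2 * ((PF x C ρ c).θ * (c * ρ ^ (i : ℕ))) + dF C ρ c)) ≤
    (PF x C ρ c).θ * (C - c * ρ ^ (m : ℕ)) - 2 * (1 + ε) * ((PF x C ρ c).θ * 1)
  have h1 := mul_le_mul_of_nonneg_left hm hθ.le
  have h2 := mul_nonneg hθ.le hi
  have h3 : (PF x C ρ c).θ * 6 ≤ (PF x C ρ c).θ * C := mul_le_mul_of_nonneg_left hC hθ.le
  have h4 : (PF x C ρ c).θ * ε ≤ (PF x C ρ c).θ * 1 := mul_le_mul_of_nonneg_left hε1 hθ.le
  nlinarith

theorem dF_le (h : Adm4 x C ρ c) : dF C ρ c ≤ (PF x C ρ c).θ := by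
  have hθ : 0 < (PF x C ρ c).θ := θ_pos h
  have h3 := gc_le h 3
  show (PF x C ρ c).θ * (c * ρ ^ 3) ≤ _
  have : c * ρ ^ 3 ≤ 1 := h3
  nlinarith

/-- exponent of the bad shifts -/
theorem cond2 (h : Adm4 x C ρ c) (hC : 2 * x + 75 ≤ C) (i m : Fin 4) :
    2 * ((PF x C ρ c).θ * (PF x C ρ c).gc m) ≤ (PF x C ρ c).θ * ((PF x C ρ c).Cc m -
      (PF x C ρ c).gc m) - 4 * clx (PF x C ρ c) (dF C ρ c) i -
      (ffC (PF x C ρ c) i + xxC (PF x C ρ c) i) - 4 * (PF x C ρ c).θ := by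
  have hθ : 0 < (PF x C ρ c).θ := θ_pos h
  have hm := gc_le h m
  have hi := gc_le h i
  have hd := dF_le h
  unfold clx ffC xxC
  show 2 * ((PF x C ρ c).θ * (c * ρ ^ (m : ℕ))) ≤ (PF x C ρ c).θ * (C - c * ρ ^ (m : ℕ)) -
    4 * (2 * ((PF x C ρ c).θ * (c * ρ ^ (i : ℕ))) + dF C ρ c) -
    (2 * ((PF x C ρ c).θ * (2 * 1 + 12 * 1)) + 2 * ((PF x C ρ c).θ * (x + 2 * 1 + 12 * 1))) -
    4 * (PF x C ρ c).θ
  have h1 := mul_le_mul_of_nonneg_left hm hθ.le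
  have h2 := mul_le_mul_of_nonneg_left hi hθ.le
  have h3 := mul_le_mul_of_nonneg_left hC hθ.le
  nlinarith

/-- **`ESF` from the numbers** -/
theorem esf_of_num (hN : NumF) (h : Adm4 x C ρ c) (hC : 2 * x + 75 ≤ C) (q3 : ℝ) :
    ESF (PF x C ρ c) q3 (dF C ρ c) := by
  obtain ⟨K0, hK0, κ0, hI⟩ := inES_of_num
  intro i m e e' hdd hmi hi3
  set P := PF x C ρ c with hP
  set d := dF C ρ c with hd
  have hG : 0 < gaS P d i m := gaS_pos h hmi hi3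
  have hθ : 0 < P.θ := θ_pos h
  have hm3 : m ≠ 3 := by
    intro hm
    subst hm
    have : (3 : Fin 4) < i := hmi
    revert this
    fin_cases i <;> decide
  have hgC : P.gc m ≤ P.Cc m := by
    have h1 := gc_le h m
    have h2 := h.C0
    show c * ρ ^ (m : ℕ) ≤ C
    linarith
  have hgm : 0 ≤ P.gc m := (gc_pos h m).le
  have hcl : 0 ≤ clx P d i := by
    have h1 : 0 ≤ P.gc i := (gc_pos h i).le
    have h2 : 0 ≤ d := (dF_pos h).le
    unfold clx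
    positivity
  have hx0 := h.x0
  have hff : 0 ≤ ffC P i := by
    show 0 ≤ 2 * (P.θ * (2 * 1 + 12 * 1))
    positivity
  have hxx : 0 ≤ xxC P i := by
    show 0 ≤ 2 * (P.θ * (x + 2 * 1 + 12 * 1))
    have : 0 ≤ x := by linarith
    positivity
  refine ⟨gaS P d i m / 4, by positivity, fun c1 hc1 hc1G => ?_⟩
  refine ⟨9, c1 / 9, by norm_num, by positivity, fun y hy hy9 => ?_⟩
  have hy9' : 9 * y ≤ c1 := by linarith
  refine ⟨1, one_pos, fun ε hε hε1 => ⟨1, one_pos, fun k hk hk1 => ?_⟩⟩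
  set k0 : ℕ := 9 + κ0 + 4 with hk0
  set Kl : ℕ := ⌈(2 * P.θ + topx P i + 1) / y⌉₊ + 1 with hKl
  have hKl' : 2 * P.θ + topx P i + 1 ≤ ((Kl : ℝ) - 1) * y := by
    have h1 := Nat.le_ceil ((2 * P.θ + topx P i + 1) / y)
    rw [div_le_iff₀ hy] at h1
    rw [hKl]
    push_cast
    linarith
  obtain ⟨Ko, hKo, hI⟩ := hI (P := P) (d := d) (ε := ε) (k := k) (q3 := q3) (i := i) (m := m)
    (e := e) (e' := e') (ok_PF h) hk.le hm3 hgC (c1 := c1) (y := y) hc1.le hy.le hy9' (k0 := k0)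
    (by omega) (by omega) Kl hKl'
  set M : ℝ := 2 * (P.θ * P.gc m) + 4 * clx P d i + (ffC P i + xxC P i) + 4 * P.θ with hM
  obtain ⟨K, t0, hK, ht0, ht07, hNS⟩ := hN P d ε i m c1 y k0 Kl M Ko K0 hθ hgm hcl hff hxx hε.le
    (show (0 : ℝ) ≤ 1 by norm_num) hc1.le hy hK0 hKo (by linarith) (cond1 h hε1 i m)
    (cond2 h hC i m) le_rfl
  have ht01 : t0 ≤ 1 := ht07.trans (by norm_num)
  refine ⟨t0, max K Ko, parF P c1 y k0 Kl M Ko, 7, ht0, ht01, le_max_of_le_left hK,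
    parF_ok (by omega) (by linarith), fun t => rfl, fun t _ _ => rfl, fun t _ _ => Nat.succ_pos _,
    fun t ht _ => parF_r0, fun t ht _ => ?_, ?_⟩
  · exact mul_le_mul_of_nonneg_right (le_max_right _ _) (Real.rpow_nonneg ht.le _)
  · exact inES_mono (le_max_left _ _) (hI Ko le_rfl M _ K t0 ht07 hNS)

end

/-- **`S0106` from the numbers** -/
theorem target_of_num (hN : NumF) : L0.Target := by
  refine target_of_ESF ⟨1, fun x _ => ⟨1, one_pos, fun ρ _ _ => ⟨1, one_pos, fun c _ _ =>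
    ⟨2 * x + 75, fun C hC q3 _ hA => esf_of_num hN hA hC q3⟩⟩⟩⟩

end Crest.Agent.R079.GnIx263
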