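import Crest.Agent.R079.GwP_571
import Crest.Agent.R079.NP_112

/-! R079, Step I, (G) words (helper571): **THE THREE (G) TOTALS, POWERS OF `t`** (end).

* `pow_moving`; **`gwords_pow`** : the hypotheses `hG1`, `hG2`, `hG3` of `WdT_276.words_genD`;
* `gwords_PF` : the final parameters of `NP_112`. -/

set_option autoImplicit false

namespace Crest.Agent.R079.GwQx571

open Finset Crest.Agent.R079.Grid Crest.Agent.R079.Glue Crest.Agent.R079.Growth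
  Crest.Agent.R079.QRed Crest.Agent.R079.TWin
open Crest.Agent.R079.RelW653 (vl NMP Jv Dv)
open Crest.Agent.R079.GaTx571 (tau tau_le tau_le')
open Crest.Agent.R079.Stk Crest.Agent.R079.PFx263 Crest.Agent.R079.GaDx571
  Crest.Agent.R079.GaNx571 Crest.Agent.R079.GwNx571 Crest.Agent.R079.GaQx571
  Crest.Agent.R079.POx263 Crest.Agent.R079.T6bx252 Crest.Agent.R079.GnNx263
  Crest.Agent.R079.OpS276 Crest.Agent.R079.GwPx571
open Crest.Agent.R079.AsmA844 (v4 Oth Sm)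
open Crest.Agent.R079.GnMx45 (en en_nonneg)

section main

variable {P : WS112.Prm} {i m e1 e2 : Fin 4} {k cl la xx ff σ c1 kx nE eC gy r0x w : ℝ}

/-- **MOVING TOTAL** -/
theorem pow_moving (hP : WS0112.Ok0 P) (hd : Dst4 i m e1 e2) (hm3 : m ≠ 3)
    (hn : Nm P m k la xx ff σ c1 kx nE eC gy r0x w) (kc : ℕ) {Kc : ℝ} (hKc : 0 ≤ Kc) :
    ∃ K : ℝ, 0 ≤ K ∧ ∀ t, 0 < t → t ≤ 1 → ∀ (W : Finset Nd) (I : Nd) (F : Fin 4 → Fn),
      PRc (WS0112.DF0 P) k 1 cl t (621432 * t ^ (-la)) (3 * t ^ (-xx)) (t ^ (-ff)) W I i m e1 e2 F →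
      ∀ x y : Fin 4, Oth i m x y → ∀ bb ε, Adm bb ε → ∀ R J, Full R J → R ⊆ W → ∀ X Y,
      Sm k 1 R X Y → ∀ (v : Fin 3) (N : ℕ) (T : Fin N → Fin 3 → Finset ℤ)
      (g : Fin N → Fin 3 → ℤ → ℤ → ℂ) (θ : Fin N → ℤ → ℝ) (μ : Fin N → ℝ),
      Fam i m v I (3 * t ^ (-xx)) (t ^ (-ff)) (621432 * t ^ (-la)) N (F i) T g θ μ →
      ∀ e e' : Fin 3, e ≠ e' → e ≠ v + 1 → e' ≠ v + 1 → x = i.succAbove (e + 2) →
      y = i.succAbove (e' + 2) → ∀ Kl : ℕ, 0 < Kl → ∀ r : ℕ → ℝ, (∀ q, 0 ≤ r q) →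
      r 0 ≤ t ^ r0x → ∀ (η : ℝ) (f : Nd → Fn),
      NMP (fun _ _ => True) (PhiE i e T g μ I (621432 * t ^ (-la)) (t ^ (-kx)) kc Kl r) X η f →
      η ≤ 1 / 2 → η * (2 * (nn t nE : ℕ) + 1) ≤ t ^ c1 → ∀ f' : Nd → Fn,
      NMP (fun _ _ => True) (PhiE i e' T g μ I (621432 * t ^ (-la)) (t ^ (-kx)) kc Kl r) Y η f' →
      ∀ (S : Finset Nd) (W' : Nd → Finset Nd) (C : ℝ), TWin.Part R S W' C →
      ∑ K ∈ S, len K ≤ Kc * t ^ (-eC) * ((t ^ c1 + en J X Y) * len J) →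
      ‖∑ K ∈ S.filter (fun K => idx S K ≤ nn t nE), ∑ p ∈ W' K, v4 bb ε F x y (gl (W' K) f)
        (gl (W' K) f') p‖ ≤
        K * t ^ gy * ((t ^ c1 + en J X Y) * len J) := by
  obtain ⟨K1, K2, K4, hK1, hK2, hK4, hcore⟩ := core_moving
  obtain ⟨K6, K7, hK6, hK7, hun⟩ := untr
  set h : ℝ := xx + ff + r0x + la + 1 + eC + gy + σ with hh
  have hk := hn.k0
  have hla := hn.la0
  have hxx := hn.xx0
  have hff := hn.ff0
  have hσ := hn.σ0
  have hc1 := hn.c10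
  have hkx := hn.kx0
  have hnE := hn.nE0
  have heC := hn.eC0
  have hr00 := hn.r00
  have hw := hn.w0
  have hgy := hn.gy0
  have hσg := hn.σg
  have hσf := hn.σf
  have hngood := hn.good
  have hnkill := hn.kill
  have hnrest := hn.rest
  obtain ⟨KG, hKG, hG⟩ := numG (K1 := K1) (σ := σ) (la := la) (xx := xx) (ff := ff) (c1 := c1)
    (kx := kx) (h := h) (nE := nE) (gy := gy) (w := w) (g1 := 1 * (P.θ * P.g m))
    (f1 := 1 * (P.θ * P.f m)) hK1 hσ (by linarith) (by linarith) (by linarith) hxx hff hc1 hkx hnE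
    hw hngood
  obtain ⟨KB, hKB, hB⟩ := numB (K4 := K4) (la := la) (xx := xx) (ff := ff) (h := h) (r0x := r0x)
    (gE := gy + eC) (w := w) hK4 hxx hff (by linarith) hr00 hw (by linarith) kc
  obtain ⟨KR, hKR, hR⟩ := numR (K2 := K2) (δ := 1 * (P.θ * P.x m)) (σ := σ) (la := la) (xx := xx)
    (ff := ff) (c1 := c1) (h := h) (nE := nE) (gy := gy) (w := w) hK2 hxx hff (by linarith) hnE hw
    (by linarith) (by linarith)
  obtain ⟨KH, hKH, hH⟩ := numH (K6 := K6) (K7 := K7) (la := la) (xx := xx) (ff := ff) (h := h)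
    (gE := gy + eC) hK6 hK7 hxx hff (by linarith) (by linarith)
  refine ⟨KG + KB * Kc + KR + KH * Kc, by positivity, ?_⟩
  intro t ht ht1 W I F hPR x y hO bb ε hA R J hRF hRW X Y hXY v N T g θ μ hFam e e' hee he he' hx hy
    Kl hKl r hr hr0 η f hN hη hηn f' hNY S W' C hPt hcnt
  have Pw : ∀ s : ℝ, 0 < t ^ s := fun s => pw_pos ht s
  obtain ⟨hX, hY⟩ := av_one hk hXY
  have hF1 := hPR.avR hk.le
  have hJI : iv J ⊆ iv I := hPR.full.reg.1 J (hRW hRF.top)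
  have hLa : 0 < 621432 * t ^ (-la) := mul_pos (by norm_num) (Pw _)
  have hHt : 1 ≤ 3 * t ^ (-xx) := by
    have := one_le_pw ht ht1 hxx
    linarith
  have hHf : 0 < t ^ (-ff) := Pw _
  have hkap : 0 < t ^ (-kx) := Pw _
  have hth : 1 ≤ t ^ (-h) := one_le_pw ht ht1 (by linarith)
  have hHh : 0 < Hh t h := Hh_pos ht h
  have hpen := penPhi hFam e hkap.le hLa kc Kl hr
  have hpen' := hpen
  rw [phi_eq] at hpen'
  have hN' := hN
  rw [phi_eq] at hN'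
  have hpenY := penPhi hFam e' hkap.le hLa kc Kl hr
  rw [phi_eq] at hpenY
  have hNY' := hNY
  rw [phi_eq] at hNY'
  have hsub : ∀ K ∈ S.filter (fun K => idx S K ≤ nn t nE), Full (W' K) K ∧ W' K ⊆ R := by
    intro K hK
    have hKS := (Finset.mem_filter.1 hK).1
    exact ⟨hPt.full K hKS, hPt.wsub K hKS⟩
  have hmi : m ≠ i := hd.jk
  have e0 : (2 * t ^ (-h)) * 2 = Hh t h := by
    unfold Hh
    ring
  -- untruncation
  have u1 := hun i m e1 e2 hd hA W I hPR.full F (3 * t ^ (-xx)) (t ^ (-ff)) (621432 * t ^ (-la))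
    (2 * t ^ (-h)) (by linarith) hHf hLa.le (by linarith) hPR.mix hF1 x y hO
    (S.filter (fun K => idx S K ≤ nn t nE)) W'
    (fun K hK => ⟨(hsub K hK).1, (hsub K hK).2.trans hRW⟩) (fun K => gl (W' K) f) (fun K => gl (W' K) f')
    (fun K hK p hp => B0Nx253.av_gl_win hpen' hN' (hsub K hK).1 (hsub K hK).2 hX
      (sqrt_A le_rfl hη) hp)
    (fun K hK p hp => B0Nx253.av_gl_win hpenY hNY' (hsub K hK).1 (hsub K hK).2 hY
      (sqrt_A le_rfl hη) hp)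
  rw [e0] at u1
  -- the core
  set F' : Fin 4 → Fn := Function.update F m (fun z => tau (Hh t h) (F m z)) with hF'
  have hF'i : F' i = F i := by rw [hF', Function.update_of_ne hmi.symm]
  have hF'm : F' m = fun z => tau (Hh t h) (F m z) := by rw [hF', Function.update_self]
  have hEx : ∀ l, GaIx256.ExE i (v + 1) R (T l) (g l) (F' m)
      (128 * t ^ (1 * (P.θ * P.g m)) + 24 * t ^ (1 * (P.θ * P.f m)) + 128 * (1 / Hh t h))
      (t ^ (1 * (P.θ * P.x m))) := by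
    intro l
    rw [hF'm]
    exact GaMx446.exE_prc hP hd hk.le hm3 zero_le_one ht ht1 hPR hRW hFam.vm (hFam.opD l) hHh
  have hs0 : 0 ≤ 128 * t ^ (1 * (P.θ * P.g m)) + 24 * t ^ (1 * (P.θ * P.f m)) +
      128 * (1 / Hh t h) := by
    have a1 := Pw (1 * (P.θ * P.g m))
    have a2 := Pw (1 * (P.θ * P.f m))
    have a3 := one_div_pos.2 hHh
    positivity
  have hAA : (2 : ℝ) ≤ AA := by unfold AA; norm_num
  have u2 := hcore hA.1 hFam hHt hHf.le hLa hRF hJI hPt (F := F')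
    (s := 128 * t ^ (1 * (P.θ * P.g m)) + 24 * t ^ (1 * (P.θ * P.f m)) + 128 * (1 / Hh t h))
    (ε := t ^ (2 * σ)) (D := t ^ (1 * (P.θ * P.x m))) (Hh := Hh t h)
    (dd := t ^ (1 * (P.θ * P.x m) - 2 * σ - ff)) (τ := At kc * t ^ r0x) (A0 := AA) hF'i hs0 (Pw _)
    (Pw _).le hHh (Pw _) hAA
    (fun p hp => by
      rw [hF'm]
      exact (TauWx253.av_tau hHh.le (F m)).trans (hF1 p (hRW hp)))
    (fun z => by
      rw [hF'm]
      exact tau_le hHh.le (F m z)) hEx hee he he' hkap hKl hr hN hX hη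
    (numT hxx hff (by linarith) ht ht1 kc hr0)
    (mul_pos (by have := At_ge kc; linarith) (Pw _)) (m0 := t ^ c1) (Pw _) hηn hA.2 hNY hY
  rw [← hx, ← hy] at u2
  -- numbers
  have hl := Growth.len_pos J
  have hen := en_nonneg J X Y
  have hT0 := Pw c1
  have hSL0 : 0 ≤ ∑ K ∈ S.filter (fun K => idx S K ≤ nn t nE), len K :=
    Finset.sum_nonneg fun q _ => (Growth.len_pos q).le
  have hSL : ∑ K ∈ S.filter (fun K => idx S K ≤ nn t nE), len K ≤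
      Kc * t ^ (-eC) * ((t ^ c1 + en J X Y) * len J) :=
    (Finset.sum_le_sum_of_subset_of_nonneg (Finset.filter_subset _ _)
      fun q _ _ => (Growth.len_pos q).le).trans hcnt
  have fin := fin4 (n := nn t nE) (gy := gy) (eC := eC) (c1 := c1) ht hKG hKB hKR hKH
    (A' := (t ^ c1 + en J X Y) * len J) (mul_nonneg (by linarith) hl.le) le_rfl hl.le
    (mul_le_mul_of_nonneg_right (by linarith) hl.le) hSL0 hSL (hG t ht ht1 J) (hB t ht ht1)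
    (hR t ht ht1) (hH t ht ht1)
  exact (u1.trans (add_le_add u2 le_rfl)).trans fin


/-- exchange of the two moving slots -/
lemma v4_comm (bb : ℤ) (ε : ℕ → ℤ → ℂ) (F : Fin 4 → Fn) {x y : Fin 4} (h : x ≠ y) (X Y : Fn) :
    v4 bb ε F x y X Y = v4 bb ε F y x Y X := by
  funext p
  unfold AsmA844.v4
  rw [Function.update_comm h]

lemma en_comm (J : Nd) (X Y : Fn) : en J X Y = en J Y X := by
  unfold GnMx45.en
  ring

/-- **THE THREE (G) TOTALS** = `hG1`, `hG2`, `hG3` of `WdT_276.words_genD` -/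
theorem gwords_pow (hP : WS0112.Ok0 P) (hd : Dst4 i m e1 e2) (hm3 : m ≠ 3)
    (hn : Nm P m k la xx ff σ c1 kx nE eC gy r0x w) (kc : ℕ) {Kc : ℝ} (hKc : 0 ≤ Kc) :
    ∃ K : ℝ, 0 ≤ K ∧ ∀ t, 0 < t → t ≤ 1 → ∀ (W : Finset Nd) (I : Nd) (F : Fin 4 → Fn),
      PRc (WS0112.DF0 P) k 1 cl t (621432 * t ^ (-la)) (3 * t ^ (-xx)) (t ^ (-ff)) W I i m e1 e2 F →
      ∀ x y : Fin 4, Oth i m x y → ∀ bb ε, Adm bb ε → ∀ R J, Full R J → R ⊆ W → ∀ X Y,
      Sm k 1 R X Y → ∀ (v : Fin 3) (N : ℕ) (T : Fin N → Fin 3 → Finset ℤ)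
      (g : Fin N → Fin 3 → ℤ → ℤ → ℂ) (θ : Fin N → ℤ → ℝ) (μ : Fin N → ℝ),
      Fam i m v I (3 * t ^ (-xx)) (t ^ (-ff)) (621432 * t ^ (-la)) N (F i) T g θ μ →
      ∀ e e' : Fin 3, e ≠ e' → e ≠ v + 1 → e' ≠ v + 1 → x = i.succAbove (e + 2) →
      y = i.succAbove (e' + 2) → ∀ Kl : ℕ, 0 < Kl → ∀ r : ℕ → ℝ, (∀ q, 0 ≤ r q) →
      r 0 ≤ t ^ r0x → ∀ (η : ℝ) (f f' : Nd → Fn),
      NMP (fun _ _ => True) (PhiE i e T g μ I (621432 * t ^ (-la)) (t ^ (-kx)) kc Kl r) X η f →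
      NMP (fun _ _ => True) (PhiE i e' T g μ I (621432 * t ^ (-la)) (t ^ (-kx)) kc Kl r) Y η f' →
      η ≤ 1 / 2 → η * (2 * (nn t nE : ℕ) + 1) ≤ t ^ c1 →
      ∀ (S : Finset Nd) (W' : Nd → Finset Nd) (C : ℝ), TWin.Part R S W' C →
      ∑ K ∈ S, len K ≤ Kc * t ^ (-eC) * ((t ^ c1 + en J X Y) * len J) →
      ‖∑ K ∈ S.filter (fun K => idx S K ≤ nn t nE), ∑ p ∈ W' K, v4 bb ε F x y (gl (W' K) f) Y p‖ ≤
          K * t ^ gy * ((t ^ c1 + en J X Y) * len J) ∧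
        ‖∑ K ∈ S.filter (fun K => idx S K ≤ nn t nE), ∑ p ∈ W' K,
          v4 bb ε F x y X (gl (W' K) f') p‖ ≤ K * t ^ gy * ((t ^ c1 + en J X Y) * len J) ∧
        ‖∑ K ∈ S.filter (fun K => idx S K ≤ nn t nE), ∑ p ∈ W' K,
          v4 bb ε F x y (gl (W' K) f) (gl (W' K) f') p‖ ≤
          K * t ^ gy * ((t ^ c1 + en J X Y) * len J) := by
  obtain ⟨Ka, hKa, ha⟩ := pow_static (cl := cl) hP hd hm3 hn kc hKc
  obtain ⟨Kb, hKb, hb⟩ := pow_moving (cl := cl) hP hd hm3 hn kc hKc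
  refine ⟨Ka + Kb, add_nonneg hKa hKb, ?_⟩
  intro t ht ht1 W I F hPR x y hO bb ε hA R J hRF hRW X Y hXY v N T g θ μ hFam e e' hee he he' hx hy
    Kl hKl r hr hr0 η f f' hN hN' hη hηn S W' C hPt hcnt
  have hg : 0 ≤ t ^ gy * ((t ^ c1 + en J X Y) * len J) := by
    have h1 := pw_pos ht gy
    have h2 := pw_pos ht c1
    have h3 := en_nonneg J X Y
    have h4 := Growth.len_pos J
    positivity
  have g1 := ha t ht ht1 W I F hPR x y hO bb ε hA R J hRF hRW X Y hXY v N T g θ μ hFam e e' hee he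
    he' hx hy Kl hKl r hr hr0 η f hN hη hηn S W' C hPt hcnt
  have hO' : Oth i m y x := ⟨hO.bi, hO.bm, hO.ai, hO.am, hO.ab.symm⟩
  have hYX : Sm k 1 R Y X := fun p hp => ⟨(hXY p hp).2, (hXY p hp).1⟩
  have g2 := ha t ht ht1 W I F hPR y x hO' bb ε hA R J hRF hRW Y X hYX v N T g θ μ hFam e' e
    hee.symm he' he hy hx Kl hKl r hr hr0 η f' hN' hη hηn S W' C hPt (by rw [en_comm J Y X]; exact hcnt)
  rw [en_comm J Y X] at g2
  have g3 := hb t ht ht1 W I F hPR x y hO bb ε hA R J hRF hRW X Y hXY v N T g θ μ hFam e e' hee he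
    he' hx hy Kl hKl r hr hr0 η f hN hη hηn f' hN' S W' C hPt hcnt
  refine ⟨g1.trans (by nlinarith), ?_, g3.trans (by nlinarith)⟩
  have e3 : ∑ K ∈ S.filter (fun K => idx S K ≤ nn t nE), ∑ p ∈ W' K,
      v4 bb ε F x y X (gl (W' K) f') p = ∑ K ∈ S.filter (fun K => idx S K ≤ nn t nE), ∑ p ∈ W' K,
      v4 bb ε F y x (gl (W' K) f') X p := by
    refine Finset.sum_congr rfl fun K _ => Finset.sum_congr rfl fun p _ => ?_
    rw [v4_comm bb ε F hO.ab]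
  rw [e3]
  exact g2.trans (by nlinarith)

end main

/-- **THE EXPONENTS for the final parameters** (`σ = θ`): three inequalities -/
theorem nm_PF {x C ρ c : ℝ} (h : NP112.Adm4 x C ρ c) (i m : Fin 4)
    {k ε c1 kx nE eC gy r0x w : ℝ} (hk : 0 < k) (hε : 0 ≤ ε) (hc1 : 0 ≤ c1) (hkx : 0 ≤ kx)
    (hnE : 0 ≤ nE) (heC : 0 ≤ eC) (hr0 : 0 ≤ r0x) (hw : 0 < w) (hgy : 0 ≤ gy)
    (hG : gy + ε * (NP112.PF x C ρ c).θ + 3 * w ≤ kx / 2)
    (hB : gy + eC + (1 + ε) * (NP112.PF x C ρ c).θ + w ≤ r0x)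
    (hR : gy + nE + (1 + ε) * (NP112.PF x C ρ c).θ + c1 + 2 * w ≤
      (NP112.PF x C ρ c).θ * (x - 30)) :
    Nm (NP112.PF x C ρ c) m k ((1 + ε) * ((NP112.PF x C ρ c).θ * (NP112.PF x C ρ c).g i))
      (xxC (NP112.PF x C ρ c) i) (ffC (NP112.PF x C ρ c) i) (NP112.PF x C ρ c).θ c1 kx nE eC gy
      r0x w := by
  have hθ := NP112.θ_pos h
  have hx := h.x0
  have e1 : (NP112.PF x C ρ c).g i = 1 := rfl
  have e2 : (NP112.PF x C ρ c).g m = 1 := rfl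
  have e3 : (NP112.PF x C ρ c).f m = 1 := rfl
  have e4 : (NP112.PF x C ρ c).x m = x := rfl
  have e5 : ffC (NP112.PF x C ρ c) i = 28 * (NP112.PF x C ρ c).θ := by
    show 2 * ((NP112.PF x C ρ c).θ * (2 * 1 + 12 * 1)) = _
    ring
  have e6 : xxC (NP112.PF x C ρ c) i = 2 * ((NP112.PF x C ρ c).θ * (x + 14)) := by
    show 2 * ((NP112.PF x C ρ c).θ * (x + 2 * 1 + 12 * 1)) = _
    ring
  set θ := (NP112.PF x C ρ c).θ with hθd
  have hεθ : 0 ≤ ε * θ := mul_nonneg hε hθ.le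
  refine ⟨hk, ?_, ?_, ?_, hθ.le, hc1, hkx, hnE, heC, hr0, hw, hgy, ?_, ?_, ?_, ?_, ?_⟩
  · rw [e1]; nlinarith
  · rw [e6]; positivity
  · rw [e5]; positivity
  · rw [e2]; linarith
  · rw [e3]; linarith
  · rw [e1]; nlinarith
  · rw [e1]; nlinarith
  · rw [e1, e4, e5]; nlinarith

end Crest.Agent.R079.GwQx571
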