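import Crest.Agent.R079.NJ_112
import Crest.Agent.R079.GwQ_571

/-! R079, T7 (helper263): **the (G) input `InG` of `NJ_112`** from 571's `gwords_pow`.

`inG` : exponents `Nm` with `eC = 2 c1`, weight `kap t = t ^ (-kx)`, constant cell parameter, lowest
threshold `r t 0 ≤ t ^ r0x`. -/

set_option autoImplicit false

namespace Crest.Agent.R079.GnYx263

open Finset Crest.Agent.R079.Grid Crest.Agent.R079.Growth Crest.Agent.R079.QRed
  Crest.Agent.R079.TWin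
open Crest.Agent.R079.RelW653 (vl NMP Jv Dv)
open Crest.Agent.R079.RelV653 Crest.Agent.R079.HWx323 Crest.Agent.R079.Chn110
open Crest.Agent.R079.TRec Crest.Agent.R079.T6bx252 Crest.Agent.R079.Tailx726 Crest.Agent.R079.Stk
  Crest.Agent.R079.AsmA844
open Crest.Agent.R079.GnMx45 (en en_nonneg)
open Crest.Agent.R079.FLDx263 Crest.Agent.R079.GnSx263 Crest.Agent.R079.GnNx263
  Crest.Agent.R079.PFx263 Crest.Agent.R079.GaDx571 Crest.Agent.R079.GaFx371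
  Crest.Agent.R079.WS112 Crest.Agent.R079.WS0112 Crest.Agent.R079.POx263
  Crest.Agent.R079.OpS276 Crest.Agent.R079.GnUx263 Crest.Agent.R079.NJ112
  Crest.Agent.R079.GwPx571 Crest.Agent.R079.GwQx571

/-- **(G) INPUT** -/
theorem inG {P : Prm} {d ε k q3 : ℝ} {i m e e' : Fin 4} {c1 nE σ kx gy r0x w : ℝ} (hP : Ok0 P)
    (hdd : Dst4 i m e e') (hm3 : m ≠ 3)
    (hn : Nm P m k ((1 + ε) * (P.θ * P.g i)) (xxC P i) (ffC P i) σ c1 kx nE (2 * c1) gy r0x w)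
    (p : Par) {t0 : ℝ} (ht01 : t0 ≤ 1) (kc : ℕ) (hkc : ∀ t, p.kc t = kc)
    (hkap : ∀ t, 0 < t → t ≤ t0 → p.kap t = t ^ (-kx)) (hKl : ∀ t, 0 < t → t ≤ t0 → 0 < p.Kl t)
    (hr : ∀ t, 0 < t → t ≤ t0 → ∀ q, 0 ≤ p.r t q) (hr0 : ∀ t, 0 < t → t ≤ t0 → p.r t 0 ≤ t ^ r0x) :
    ∃ K : ℝ, 1 ≤ K ∧ InG P d ε k q3 i m e e' c1 gy t0 K nE p := by
  obtain ⟨K, hK, hg⟩ := gwords_pow (cl := clx P d i) hP hdd hm3 hn kc
    (Kc := 2 * 2 ^ (p.k0 + 5)) (by positivity)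
  refine ⟨K + 1, by linarith, ?_⟩
  intro N B t W I F xy bb E R J Z v n T g al mu es hS htt
  have ht := hS.t0
  have ht1 : t ≤ 1 := htt.trans ht01
  have Pw : ∀ s : ℝ, 0 < t ^ s := fun s => Real.rpow_pos_of_pos ht s
  have hm0 := Pw c1
  have hn0 : (0 : ℝ) ≤ (nn t nE : ℕ) := Nat.cast_nonneg _
  refine ⟨min (1 / 2) (t ^ c1 / (2 * (nn t nE : ℕ) + 1)), lt_min (by norm_num) (by positivity), ?_⟩
  intro η hη hηη f hf S W' Rg Er hT hdr
  have hη2 : η ≤ 1 / 2 := hηη.trans (min_le_left _ _)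
  have hηn : η * (2 * (nn t nE : ℕ) + 1) ≤ t ^ c1 := by
    have h1 := hηη.trans (min_le_right (1 / 2) (t ^ c1 / (2 * (nn t nE : ℕ) + 1)))
    rwa [le_div_iff₀ (by positivity)] at h1
  obtain ⟨C, hPt⟩ := hT.part
  have hcnt : ∑ w ∈ S, len w ≤ 2 * 2 ^ (p.k0 + 5) * t ^ (-(2 * c1)) *
      ((t ^ c1 + en J (Z 0) (Z 1)) * len J) := by
    have h1 := WdTx276.cnt_of hT hm0 (by positivity) hdr (Finset.Subset.refl S)
    refine h1.trans (le_of_eq ?_)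
    have h2 : (t ^ c1) ^ 2 = (t ^ (-(2 * c1)))⁻¹ := by
      rw [Real.rpow_neg ht.le, inv_inv, sq, ← Real.rpow_add ht]
      congr 1
      ring
    rw [h2, div_inv_eq_mul]
  have hf' : ∀ c', NMP (fun _ _ => True)
      (PhiE i (es c') T g mu I (621432 * t ^ (-((1 + ε) * (P.θ * P.g i)))) (t ^ (-kx)) kc (p.Kl t)
        (p.r t)) (Z c') η (f c') := by
    intro c'
    have h1 := hf c'
    unfold PhiC at h1
    rw [hkc t, hkap t ht htt] at h1
    exact h1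
  have key := hg t ht ht1 W I F hS.prc (xy 0) (xy 1) hS.oth bb E hS.adm R J hS.full hS.sub
    (Z 0) (Z 1) hS.sm v n T g al mu hS.fam (es 0) (es 1) hS.es01 (hS.es_ne 0) (hS.es_ne 1)
    (hS.slot 0).symm (hS.slot 1).symm (p.Kl t) (hKl t ht htt) (p.r t) (hr t ht htt) (hr0 t ht htt) η
    (f 0) (f 1) (hf' 0) (hf' 1) hη2 hηn S W' C hPt hcnt
  have hB := hS.B0
  have hmono : K * t ^ gy * ((t ^ c1 + en J (Z 0) (Z 1)) * len J) ≤
      (K + 1) * (1 + B) * t ^ gy * ((t ^ c1 + en J (Z 0) (Z 1)) * len J) := by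
    have h1 := en_nonneg J (Z 0) (Z 1)
    have h2 := (Growth.len_pos J).le
    have h3 := (Pw gy).le
    refine mul_le_mul_of_nonneg_right (mul_le_mul_of_nonneg_right ?_ h3) (by positivity)
    nlinarith
  exact ⟨key.1.trans hmono, key.2.1.trans hmono, key.2.2.trans hmono⟩

end Crest.Agent.R079.GnYx263
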