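import Crest.Agent.R079.NrC_228
import Crest.Agent.R079.ErL_255
import Crest.Agent.R079.DLa_250

/-! # R079 (S0106), T3 (helper228): THE PER-CELL INPUT `CellIn` of `ErL_255` for the frame kernels `ZF`
of `NrB_228`, from the geometry `CG` of the big cells and the one-cell theorem `CellT`. -/

set_option autoImplicit false

namespace Crest.Agent.R079.NrDx228

open Finset Crest.Agent.R079.Grid Crest.Agent.R079.Growth Crest.Agent.R079.QRed
  Crest.Agent.R079.Qh249 Crest.Agent.R079.QVar181 Crest.Agent.R079.TWin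
open Crest.Agent.R079.ThA159
open Crest.Agent.R079.Cel159 (NmP cf okc mcell split_cell Mx Mx_mcell Mx_eq sc)
open Crest.Agent.R079.ClW59 (OpS cl)
open Crest.Agent.R079.GaFx371 Crest.Agent.R079.GaDx571 Crest.Agent.R079.PFx263
open Crest.Agent.R079.NrDx276 Crest.Agent.R079.SbWx795 Crest.Agent.R079.ErLx255
open Crest.Agent.R079.NrTx259 Crest.Agent.R079.NrUx259 Crest.Agent.R079.NrWx259
  Crest.Agent.R079.NrTx276 Crest.Agent.R079.NrAx228 Crest.Agent.R079.NrBx228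
  Crest.Agent.R079.NrCx228

open scoped ComplexConjugate

/-- the one-cell theorem -/
def CellT (kg : ℕ) (θ C1 C2 : ℝ) : Prop :=
  ∀ (m : ℕ) (a b : ℤ) (Ti E1 : Finset (ℕ × ℤ × ℤ)) (Q : Finset Nd)
    (E2 : Nd → Finset (ℕ × ℤ × ℤ)) (P : Nd → ℤ → ℤ → Prop) [∀ q u v, Decidable (P q u v)] (l : ℕ)
    (A B : ℤ → ℤ → ℂ) (S T : Finset ℤ) (s : ℤ → ℝ) (Y X : ℤ → ℤ → ℂ) (r r' : ℝ),
    CG m a b Ti E1 Q E2 P l kg θ → 0 < r → r ≤ r' →
    (∀ c ∈ Ti, OpS (Rw c) (Cl c) B (r * 2 ^ c.1)) → SvC A S T s Y X → S ⊆ dI m a → T ⊆ dI m b →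
    ∑ q ∈ Q, ∑ u ∈ S, ∑ v ∈ T, (if P q u v then
      ‖∑ k ∈ T, (dk s (r * 2 ^ m) (r' * 2 ^ m) k : ℂ) * Y k u * conj (X k v) -
        ∑ k ∈ T, Pu m a b E1 (E2 q) B r (2 ^ l) Y (dk s (r * 2 ^ m) (r' * 2 ^ m)) u k *
          Qv m a b E1 (E2 q) B r (2 ^ l) X (dk s (r * 2 ^ m) (r' * 2 ^ m)) v k‖ ^ 2 else 0) ≤
      C1 * ((r' - r) / r) * Gd B S T Y X s (r * 2 ^ m) +
        C2 * (2 ^ l / 2 ^ m) * ∑ k ∈ T, dk s (r * 2 ^ m) (r' * 2 ^ m) k ^ 2

section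

variable {n : ℕ} (i : Fin 4) (e : Fin 3) (T : Fin n → Fin 3 → Finset ℤ)
  (g : Fin n → Fin 3 → ℤ → ℤ → ℂ) (I : Nd) (kc Kl : ℕ) (r : ℕ → ℝ) (V : Finset Nd) (K : Nd) (G : Fn)
  (k0 j0 n0 : ℕ)

/-- the frame kernels of the family -/
noncomputable def Zff (l : Fin n) (q : ℕ) : ℤ × ℤ × ℤ → ℂ :=
  ZF (Ye i e) kc j0 n0 Kl V K (BdE i e (T l) I) (poE i e)
    (NmP (SE i e (T l) I) cf (okc (Ye i e) kc)) (fun ω => g l e ω.2.1 ω.2.2) r G (T l e) (T l (e + 1))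
    (QQ V k0 j0 n0 K) q

/-- geometry of the big cells of the family -/
def GeoF (kg : ℕ) (θ : ℝ) : Prop :=
  ∀ l, ∀ t ∈ cel i e T I kc K l,
    (∃ q0 ∈ QQ V k0 j0 n0 K, ∃ u ∈ dI t.2.1 t.2.2.1, ∃ v ∈ dI t.2.1 t.2.2.2,
      Ye i e t.1 u v ∈ iv q0) →
    CG t.2.1 t.2.2.1 t.2.2.2 (Til (Ye i e) kc V t.1 t.2.1 t.2.2.1 t.2.2.2)
      (E1 (Ye i e) kc V j0 K t.1 t.2.1 t.2.2.1 t.2.2.2) (QQ V k0 j0 n0 K)
      (fun q0 => E2 (Ye i e) kc V n0 q0 t.1 t.2.1 t.2.2.1 t.2.2.2)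
      (fun q0 u v => Ye i e t.1 u v ∈ iv q0) (K.1 - j0) kg θ ∧ K.1 ≤ t.2.1 + 1

variable {i e T g I kc Kl r V K G k0 j0 n0}

/-- value of a frame kernel on a cell -/
theorem ZF_cell {Y : ℤ → ℤ → ℤ → ℤ} {Bd : Nd → Finset (ℤ × ℤ × ℤ)} {pos : ℤ × ℤ × ℤ → ℤ}
    {N : Nd → (ℤ × ℤ × ℤ → ℂ) → ℝ} {aa : ℤ × ℤ × ℤ → ℂ} {T1 T2 : Finset ℤ} (hr : ∀ q, 0 ≤ r q)
    {z : ℤ} {m : ℕ} {a b : ℤ} (hM : Mx (Y z) kc K m a b) {u v : ℤ} (hu : u ∈ dI m a)
    (hv : v ∈ dI m b) {q : ℕ} (hq : q + 1 < Kl) {q0 : Nd} (hq0 : q0 ∈ QQ V k0 j0 n0 K)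
    (hy : Y z u v ∈ iv q0) :
    ZF Y kc j0 n0 Kl V K Bd pos N aa r G T1 T2 (QQ V k0 j0 n0 K) q (z, u, v) =
      ∑ k ∈ dI m b ∩ T2, Pu m a b (E1 Y kc V j0 K z m a b) (E2 Y kc V n0 q0 z m a b)
        (Bk Bd pos N aa (r q) V K G z) (r q) (2 ^ (K.1 - j0))
        (sY (Ak Bd pos aa K G z) (dI m a ∩ T1) (dI m b ∩ T2))
        (dk (sS (Ak Bd pos aa K G z) (dI m a ∩ T1) (dI m b ∩ T2)) (r q * 2 ^ m)
          (r (q + 1) * 2 ^ m)) u k *
        Qv m a b (E1 Y kc V j0 K z m a b) (E2 Y kc V n0 q0 z m a b)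
        (Bk Bd pos N aa (r q) V K G z) (r q) (2 ^ (K.1 - j0))
        (sX (Ak Bd pos aa K G z) (dI m a ∩ T1) (dI m b ∩ T2))
        (dk (sS (Ak Bd pos aa K G z) (dI m a ∩ T1) (dI m b ∩ T2)) (r q * 2 ^ m)
          (r (q + 1) * 2 ^ m)) v k := by
  classical
  have hK : Y z u v ∈ iv K := (mem_QQ.1 hq0).2.2.2.1 hy
  have hmc : mcell Y kc K (z, u, v) = (z, m, a, b) := by
    have h1 := Mx_mcell (Y := Y) (k := kc) (p := K) (ω := (z, u, v)) hK
    obtain ⟨g1, g2, g3⟩ := Mx_eq h1 hM (self_dI _ _) hu (self_dI _ _) hv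
    unfold mcell
    exact Prod.ext rfl (Prod.ext g1 (Prod.ext g2 g3))
  unfold ZF
  rw [Finset.sum_eq_single_of_mem q0 hq0]
  · rw [if_pos hy, hmc]
    have hsub : dI m b ∩ T2 ⊆ T2 := Finset.inter_subset_right
    have hl : q0.1 = K.1 - j0 := (mem_QQ.1 hq0).2.2.1
    rw [← Finset.sum_subset hsub]
    · refine Finset.sum_congr rfl fun k _ => ?_
      unfold PF QF Pu Qv dd
      simp only [if_pos hq, hl]
    · intro k _ hk
      have h0 : sS (Ak Bd pos aa K G z) (dI m a ∩ T1) (dI m b ∩ T2) k = 0 := (sv _ _ _).s0 hk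
      have hd : dd (sS (Ak Bd pos aa K G z) (dI m a ∩ T1) (dI m b ∩ T2)) r Kl q m k = 0 := by
        unfold dd dk
        rw [if_pos hq, h0, min_eq_left (mul_nonneg (hr _) (by positivity)),
          min_eq_left (mul_nonneg (hr _) (by positivity)), sub_zero]
      unfold PF Pu
      simp only [hd, Real.sqrt_zero, Complex.ofReal_zero, zero_mul]
  · intro q' hq' hne
    rw [if_neg]
    intro h
    exact Finset.disjoint_left.1 (QQ_disj hq0 hq' (Ne.symm hne)) hy h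

/-- the last step is not framed -/
theorem ZF_last {Y : ℤ → ℤ → ℤ → ℤ} {Bd : Nd → Finset (ℤ × ℤ × ℤ)} {pos : ℤ × ℤ × ℤ → ℤ}
    {N : Nd → (ℤ × ℤ × ℤ → ℂ) → ℝ} {aa : ℤ × ℤ × ℤ → ℂ} {T1 T2 : Finset ℤ} {q : ℕ}
    (hq : ¬ q + 1 < Kl) (Q : Finset Nd) (ω : ℤ × ℤ × ℤ) :
    ZF Y kc j0 n0 Kl V K Bd pos N aa r G T1 T2 Q q ω = 0 := by
  classical
  unfold ZF
  refine Finset.sum_eq_zero fun q0 _ => ?_
  split_ifs
  · refine Finset.sum_eq_zero fun k _ => ?_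
    unfold PF Pu dd
    simp only [if_neg hq, Real.sqrt_zero, Complex.ofReal_zero, zero_mul]
  · rfl

open Classical in
/-- the labels off the layer, by grid nodes -/
theorem lay_sum {y : ℤ} (hy : y ∈ iv K) (F : ℝ) :
    (if y ∈ LayK V k0 j0 n0 K then 0 else F) =
      ∑ q0 ∈ QQ V k0 j0 n0 K, if y ∈ iv q0 then F else 0 := by
  by_cases h : ∃ q0 ∈ QQ V k0 j0 n0 K, y ∈ iv q0
  · obtain ⟨q0, hq0, hyq⟩ := h
    rw [if_neg]
    · rw [Finset.sum_eq_single_of_mem q0 hq0, if_pos hyq]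
      intro q' hq' hne
      rw [if_neg]
      intro h
      exact Finset.disjoint_left.1 (QQ_disj hq0 hq' (Ne.symm hne)) hyq h
    · unfold LayK
      rw [Finset.mem_sdiff]
      rintro ⟨_, h2⟩
      exact h2 (Finset.mem_biUnion.2 ⟨q0, hq0, hyq⟩)
  · push Not at h
    rw [if_pos, Finset.sum_eq_zero]
    · intro q0 hq0
      rw [if_neg (h q0 hq0)]
    · unfold LayK
      rw [Finset.mem_sdiff]
      refine ⟨hy, fun h2 => ?_⟩
      obtain ⟨q0, hq0, hyq⟩ := Finset.mem_biUnion.1 h2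
      exact h q0 hq0 hyq

/-- data of a cell of the family -/
theorem cel_spec {l : Fin n} {t : ℤ × ℕ × ℤ × ℤ} (ht : t ∈ cel i e T I kc K l) :
    t.1 ∈ W0 i e (T l) I ∧ Mx (Ye i e t.1) kc K t.2.1 t.2.2.1 t.2.2.2 := by
  unfold cel at ht
  obtain ⟨ω, hω, rfl⟩ := Finset.mem_image.1 ht
  unfold BdE SE at hω
  rw [Finset.mem_filter, Finset.mem_product] at hω
  exact ⟨hω.1.1, Mx_mcell hω.2⟩

/-- linear coordinates are injective -/
theorem Ye_inj1 (z u : ℤ) : Function.Injective fun v => Ye i e z u v := by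
  intro v v' h
  have hc' : ∀ (i : Fin 4) (e : Fin 3), sl (i.succAbove (e + 1)) - sl (i.succAbove (e + 2)) ≠ 0 := by
    decide
  have hc := hc' i e
  simp only [Ye] at h
  have h2 : (sl (i.succAbove (e + 1)) - sl (i.succAbove (e + 2))) * (v - v') = 0 := by linarith
  rcases mul_eq_zero.1 h2 with h3 | h3
  · exact absurd h3 hc
  · linarith

theorem Ye_inj2 (z v : ℤ) : Function.Injective fun u => Ye i e z u v := by
  intro u u' h
  have hc' : ∀ (i : Fin 4) (e : Fin 3), sl (i.succAbove e) - sl (i.succAbove (e + 2)) ≠ 0 := by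
    decide
  have hc := hc' i e
  simp only [Ye] at h
  have h2 : (sl (i.succAbove e) - sl (i.succAbove (e + 2))) * (u - u') = 0 := by linarith
  rcases mul_eq_zero.1 h2 with h3 | h3
  · exact absurd h3 hc
  · linarith

open Classical in
/-- splitting of the node of the family -/
theorem fam_split (l : Fin n) : PjC881.Split (BdE i e (T l) I)
    (NmP (SE i e (T l) I) cf (okc (Ye i e) kc)) K (cel i e T I kc K l)
    (fun c => c.1) (fun c => dI c.2.1 c.2.2.1 ∩ T l e) (fun c => dI c.2.1 c.2.2.2 ∩ T l (e + 1))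
    (fun c => 2 ^ c.2.1) :=
  split_cell (Y := Ye i e) (k := kc) (T₀ := W0 i e (T l) I) (T₁ := T l e) (T₂ := T l (e + 1)) K

/-- a framed step on a cell -/
theorem st_cell {ν : ℝ} {l : Fin n}
    (hB : Bnd (BdE i e (T l) I) (poE i e) (NmP (SE i e (T l) I) cf (okc (Ye i e) kc)) ν)
    (hr : ∀ q, 0 ≤ r q) {z : ℤ} {m : ℕ} {a b : ℤ} (ht : (z, m, a, b) ∈ cel i e T I kc K l) {q : ℕ}
    (hq : q + 1 < Kl) {u v : ℤ} (hu : u ∈ dI m a ∩ T l e) (hv : v ∈ dI m b ∩ T l (e + 1)) :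
    stK i e T g I kc Kl r K G l q (z, u, v) =
      cl (Ak (BdE i e (T l) I) (poE i e) (fun ω => g l e ω.2.1 ω.2.2) K G z) (dI m a ∩ T l e)
        (dI m b ∩ T l (e + 1)) (r (q + 1) * 2 ^ m) u v -
      cl (Ak (BdE i e (T l) I) (poE i e) (fun ω => g l e ω.2.1 ω.2.2) K G z) (dI m a ∩ T l e)
        (dI m b ∩ T l (e + 1)) (r q * 2 ^ m) u v :=
  stp_cell hB (fam_split (K := K) (kc := kc) l) hr hq (AK i e T g I K G l) ht u hu v hv

/-- the last step on a cell -/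
theorem st_last {ν : ℝ} {l : Fin n}
    (hB : Bnd (BdE i e (T l) I) (poE i e) (NmP (SE i e (T l) I) cf (okc (Ye i e) kc)) ν)
    (hr : ∀ q, 0 ≤ r q) {z : ℤ} {m : ℕ} {a b : ℤ} (ht : (z, m, a, b) ∈ cel i e T I kc K l) {q : ℕ}
    (hq : q + 1 = Kl) {u v : ℤ} (hu : u ∈ dI m a ∩ T l e) (hv : v ∈ dI m b ∩ T l (e + 1)) :
    stK i e T g I kc Kl r K G l q (z, u, v) =
      Ak (BdE i e (T l) I) (poE i e) (fun ω => g l e ω.2.1 ω.2.2) K G z u v -
      cl (Ak (BdE i e (T l) I) (poE i e) (fun ω => g l e ω.2.1 ω.2.2) K G z) (dI m a ∩ T l e)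
        (dI m b ∩ T l (e + 1)) (r q * 2 ^ m) u v :=
  stp_cell_last hB (fam_split (K := K) (kc := kc) l) hr hq (AK i e T g I K G l) ht u hu v hv

/-- the competitor on a cell -/
theorem b_cell {ν : ℝ} {l : Fin n}
    (hB : Bnd (BdE i e (T l) I) (poE i e) (NmP (SE i e (T l) I) cf (okc (Ye i e) kc)) ν)
    {rq : ℝ} (hr : 0 ≤ rq) (hV : Full V K) {z : ℤ} {m : ℕ} {a b : ℤ}
    (ht : (z, m, a, b) ∈ cel i e T I kc K l) :
    OpS (dI m a ∩ T l e) (dI m b ∩ T l (e + 1)) (Bk (BdE i e (T l) I) (poE i e)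
      (NmP (SE i e (T l) I) cf (okc (Ye i e) kc)) (fun ω => g l e ω.2.1 ω.2.2) rq V K G z)
      (rq * 2 ^ m) := by
  have h1 := Bgl_adm hB (fun ω => g l e ω.2.1 ω.2.2) hr hV G K hV.top
  have h2 := adm_cell (fam_split (T := T) (I := I) (K := K) (kc := kc) l) hr h1 ht
  exact h2

/-- **THE PER-CELL INPUT** -/
theorem cellIn_of {kg : ℕ} {ν θ C1 C2 R Hg sA : ℝ} (hC1 : 0 ≤ C1) (hC2 : 0 ≤ C2) (hR : 1 ≤ R)
    (hCT : CellT kg θ C1 C2)
    (hB : ∀ l, Bnd (BdE i e (T l) I) (poE i e) (NmP (SE i e (T l) I) cf (okc (Ye i e) kc)) ν)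
    (hr : ∀ q, 0 < r q) (hmono : ∀ q, r q ≤ r (q + 1)) (hRr : ∀ q, r (q + 1) ≤ R * r q)
    (hH : ∀ l u v, ‖g l e u v‖ ≤ Hg) (hs : av K G ≤ sA)
    (hTop : 2 ^ 8 * (Hg * sA) ≤ r (Kl - 1)) (hV : Full V K)
    (hG : GeoF i e T I kc V K k0 j0 n0 kg θ) :
    CellIn i e T g I kc Kl r V K G (LayK V k0 j0 n0 K) (Zff i e T g I kc Kl r V K G k0 j0 n0)
      (C1 * R / 2) (C2 * (2 * (1 / 2) ^ j0)) := by
  classical
  intro l q hq t ht
  obtain ⟨hz, hM⟩ := cel_spec ht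
  obtain ⟨z, m, a, b⟩ := t
  simp only at hz hM ⊢
  set S := dI m a ∩ T l e with hS
  set T' := dI m b ∩ T l (e + 1) with hT'
  have hSs : S ⊆ dI m a := Finset.inter_subset_left
  have hTs : T' ⊆ dI m b := Finset.inter_subset_left
  have hr0 : ∀ q, 0 ≤ r q := fun q => (hr q).le
  set A : ℤ → ℤ → ℂ := Ak (BdE i e (T l) I) (poE i e) (fun ω => g l e ω.2.1 ω.2.2) K G z with hA
  set B : ℤ → ℤ → ℂ := Bk (BdE i e (T l) I) (poE i e) (NmP (SE i e (T l) I) cf (okc (Ye i e) kc))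
    (fun ω => g l e ω.2.1 ω.2.2) (r q) V K G z with hBd
  have hlab : ∀ u ∈ S, ∀ v ∈ T', Ye i e z u v ∈ iv K := fun u hu v hv =>
    hM.2.1 u (hSs hu) v (hTs hv)
  -- the cell of the competitor
  have hBop : OpS S T' B (r q * 2 ^ m) := b_cell (hB l) (hr0 q) hV ht
  have hgp0 : 0 ≤ gpS A B S T' (r q * 2 ^ m) := gpS_nonneg A (mul_nonneg (hr0 q) (by positivity)) hBop
  have hE0 : 0 ≤ ∑ u ∈ S, ∑ v ∈ T', ‖A u v‖ ^ 2 :=
    Finset.sum_nonneg fun _ _ => Finset.sum_nonneg fun _ _ => sq_nonneg _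
  have hrhs : 0 ≤ C1 * R / 2 * gpS A B S T' (r q * 2 ^ m) +
      C2 * (2 * (1 / 2) ^ j0) * ∑ u ∈ S, ∑ v ∈ T', ‖A u v‖ ^ 2 := by positivity
  -- the left side by grid nodes
  have hL : ∑ u ∈ S, ∑ v ∈ T', (if poE i e (z, u, v) ∈ LayK V k0 j0 n0 K then 0 else
        ‖stK i e T g I kc Kl r K G l q (z, u, v) -
          Zff i e T g I kc Kl r V K G k0 j0 n0 l q (z, u, v)‖ ^ 2) =
      ∑ q0 ∈ QQ V k0 j0 n0 K, ∑ u ∈ S, ∑ v ∈ T', (if Ye i e z u v ∈ iv q0 then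
        ‖stK i e T g I kc Kl r K G l q (z, u, v) -
          Zff i e T g I kc Kl r V K G k0 j0 n0 l q (z, u, v)‖ ^ 2 else 0) := by
    rw [Finset.sum_congr rfl fun u hu => Finset.sum_congr rfl fun v hv =>
      lay_sum (V := V) (K := K) (k0 := k0) (j0 := j0) (n0 := n0) (y := poE i e (z, u, v))
        (hlab u hu v hv) _]
    rw [Finset.sum_congr rfl fun u _ => Finset.sum_comm, Finset.sum_comm]
    rfl
  by_cases hne : ∃ q0 ∈ QQ V k0 j0 n0 K, ∃ u ∈ dI m a, ∃ v ∈ dI m b, Ye i e z u v ∈ iv q0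
  swap
  · -- no grid node meets the cell
    push Not at hne
    rw [show (∑ u ∈ S, ∑ v ∈ T', (if poE i e (z, u, v) ∈ LayK V k0 j0 n0 K then 0 else
        ‖stK i e T g I kc Kl r K G l q (z, u, v) -
          Zff i e T g I kc Kl r V K G k0 j0 n0 l q (z, u, v)‖ ^ 2)) = 0 from by
      rw [hL]
      refine Finset.sum_eq_zero fun q0 hq0 => Finset.sum_eq_zero fun u hu =>
        Finset.sum_eq_zero fun v hv => ?_
      rw [if_neg (hne q0 hq0 u (hSs hu) v (hTs hv))]]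
    exact hrhs
  obtain ⟨hCG, hbig⟩ := hG l (z, m, a, b) ht hne
  simp only at hCG hbig
  by_cases hq1 : q + 1 < Kl
  · -- a framed step
    have hst : ∀ u ∈ S, ∀ v ∈ T', stK i e T g I kc Kl r K G l q (z, u, v) =
        cl A S T' (r (q + 1) * 2 ^ m) u v - cl A S T' (r q * 2 ^ m) u v :=
      fun u hu v hv => st_cell (hB l) hr0 ht hq1 hu hv
    have hSV := sv A S T'
    have hstep := hSV.step_eq (ρ := r q * 2 ^ m) (ρ' := r (q + 1) * 2 ^ m)
      (mul_nonneg (hr0 q) (by positivity)) (mul_nonneg (hr0 _) (by positivity))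
    have hop : ∀ c ∈ Til (Ye i e) kc V z m a b, OpS (Rw c) (Cl c) B (r q * 2 ^ c.1) :=
      fun c hc => til_op (hB l) (fun ω => g l e ω.2.1 ω.2.2) (hr0 q) hV G hV.top hM hc
    have h1 := hCT m a b _ _ _ _ _ _ A B S T' (sS A S T') (sY A S T') (sX A S T') (r q) (r (q + 1))
      hCG (hr q) (hmono q) hop hSV hSs hTs
    have h2 : ∑ q0 ∈ QQ V k0 j0 n0 K, ∑ u ∈ S, ∑ v ∈ T', (if Ye i e z u v ∈ iv q0 then
        ‖stK i e T g I kc Kl r K G l q (z, u, v) -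
          Zff i e T g I kc Kl r V K G k0 j0 n0 l q (z, u, v)‖ ^ 2 else 0) =
      ∑ q0 ∈ QQ V k0 j0 n0 K, ∑ u ∈ S, ∑ v ∈ T', (if Ye i e z u v ∈ iv q0 then
        ‖∑ k ∈ T', (dk (sS A S T') (r q * 2 ^ m) (r (q + 1) * 2 ^ m) k : ℂ) * sY A S T' k u *
            conj (sX A S T' k v) -
          ∑ k ∈ T', Pu m a b (E1 (Ye i e) kc V j0 K z m a b) (E2 (Ye i e) kc V n0 q0 z m a b) B
            (r q) (2 ^ (K.1 - j0)) (sY A S T')
            (dk (sS A S T') (r q * 2 ^ m) (r (q + 1) * 2 ^ m)) u k *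
          Qv m a b (E1 (Ye i e) kc V j0 K z m a b) (E2 (Ye i e) kc V n0 q0 z m a b) B
            (r q) (2 ^ (K.1 - j0)) (sX A S T')
            (dk (sS A S T') (r q * 2 ^ m) (r (q + 1) * 2 ^ m)) v k‖ ^ 2 else 0) := by
      refine Finset.sum_congr rfl fun q0 hq0 => Finset.sum_congr rfl fun u hu =>
        Finset.sum_congr rfl fun v hv => ?_
      by_cases hy : Ye i e z u v ∈ iv q0
      · rw [if_pos hy, if_pos hy, hst u hu v hv, hstep u hu v hv]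
        congr 3
        exact ZF_cell hr0 hM (hSs hu) (hTs hv) hq1 hq0 hy
      · rw [if_neg hy, if_neg hy]
    rw [hL, h2]
    refine h1.trans (?_ : _ ≤ C1 * R / 2 * gpS A B S T' (r q * 2 ^ m) +
      C2 * (2 * (1 / 2) ^ j0) * ∑ u ∈ S, ∑ v ∈ T', ‖A u v‖ ^ 2)
    have h3 := hSV.gap_le (ρ := r q * 2 ^ m) (mul_nonneg (hr0 q) (by positivity)) B
    have h4 : Gd B S T' (sY A S T') (sX A S T') (sS A S T') (r q * 2 ^ m) ≤
        gpS A B S T' (r q * 2 ^ m) / 2 := by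
      unfold NrWx259.Gd gpS
      linarith
    have h5 : 0 ≤ Gd B S T' (sY A S T') (sX A S T') (sS A S T') (r q * 2 ^ m) :=
      Finset.sum_nonneg fun k _ => mul_nonneg (le_max_right _ _)
        (dfc_nonneg (mul_nonneg (hr0 q) (by positivity)) hSV hBop k)
    have h6 : (r (q + 1) - r q) / r q ≤ R := by
      rw [div_le_iff₀ (hr q)]
      have := hRr q
      have := (hr q).le
      linarith
    have h7 : ∑ k ∈ T', dk (sS A S T') (r q * 2 ^ m) (r (q + 1) * 2 ^ m) k ^ 2 ≤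
        ∑ u ∈ S, ∑ v ∈ T', ‖A u v‖ ^ 2 := by
      rw [← hSV.hsA]
      refine Finset.sum_le_sum fun k _ => ?_
      have hm : r q * 2 ^ m ≤ r (q + 1) * 2 ^ m :=
        mul_le_mul_of_nonneg_right (hmono q) (by positivity)
      have a1 := dk_nonneg (s := sS A S T') hm k
      have a2 := dk_le_max (s := sS A S T') (ρ := r q * 2 ^ m) (ρ' := r (q + 1) * 2 ^ m) k
      have a3 : max (sS A S T' k - r q * 2 ^ m) 0 ≤ sS A S T' k := by
        refine max_le ?_ (hSV.nn k)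
        have : 0 ≤ r q * 2 ^ m := mul_nonneg (hr0 q) (by positivity)
        linarith
      exact pow_le_pow_left₀ a1 (a2.trans a3) 2
    have h8 : (2 : ℝ) ^ (K.1 - j0) / 2 ^ m ≤ 2 * (1 / 2) ^ j0 := by
      obtain ⟨q0, hq0, _⟩ := hne
      have hj : q0.1 + j0 = K.1 := (QQ_spec hV hq0).2.1
      rw [div_le_iff₀ (by positivity)]
      have e1 : K.1 - j0 + j0 = K.1 := by omega
      have e2 : (2 : ℝ) ^ K.1 ≤ 2 ^ (m + 1) := pow_le_pow_right₀ (by norm_num) hbig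
      have e3 : (2 : ℝ) ^ (K.1 - j0) = 2 ^ K.1 * (1 / 2) ^ j0 := by
        conv_rhs => rw [← e1, pow_add, mul_assoc, ← mul_pow]
        norm_num
      rw [e3]
      have e4 : (0 : ℝ) < (1 / 2) ^ j0 := by positivity
      calc (2 : ℝ) ^ K.1 * (1 / 2) ^ j0 ≤ 2 ^ (m + 1) * (1 / 2) ^ j0 :=
            mul_le_mul_of_nonneg_right e2 e4.le
        _ = _ := by rw [pow_succ]; ring
    have h9 : 0 ≤ ∑ k ∈ T', dk (sS A S T') (r q * 2 ^ m) (r (q + 1) * 2 ^ m) k ^ 2 :=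
      Finset.sum_nonneg fun _ _ => sq_nonneg _
    refine add_le_add ?_ ?_
    · calc C1 * ((r (q + 1) - r q) / r q) *
          Gd B S T' (sY A S T') (sX A S T') (sS A S T') (r q * 2 ^ m)
          ≤ C1 * R * (gpS A B S T' (r q * 2 ^ m) / 2) :=
            mul_le_mul (mul_le_mul_of_nonneg_left h6 hC1) h4 h5 (by positivity)
        _ = _ := by ring
    · exact mul_le_mul (mul_le_mul_of_nonneg_left h8 hC2) h7 h9 (by positivity)
  · -- the last step: nothing is clipped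
    have hq2 : q + 1 = Kl := by omega
    have hst : ∀ u ∈ S, ∀ v ∈ T', stK i e T g I kc Kl r K G l q (z, u, v) =
        A u v - cl A S T' (r q * 2 ^ m) u v :=
      fun u hu v hv => st_last (hB l) hr0 ht hq2 hu hv
    have hop : OpS S T' A (r q * 2 ^ m) := by
      have h1 := DLx250.raw_op (Z := Ye i e z) (Ye_inj1 z) (Ye_inj2 z) (T₁ := S) (T₂ := T') (q := K)
        (al := fun u v => g l e u v) (g := G) (fun u v => hH l u v) hs
      have h2 : OpS S T' A (Hg * sA * len K) := by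
        refine PjC881.opS_congr h1 fun u hu v hv => ?_
        have hy := hlab u hu v hv
        have hmem : ((z, u, v) : ℤ × ℤ × ℤ) ∈ BdE i e (T l) I K := by
          unfold BdE SE
          rw [Finset.mem_filter, Finset.mem_product, Finset.mem_product]
          exact ⟨⟨hz, (Finset.mem_inter.1 hu).2, (Finset.mem_inter.1 hv).2⟩, hy⟩
        have e1 : A u v = g l e u v * G (Ye i e z u v) := by
          rw [hA]
          unfold Ak ag
          rw [if_pos hmem]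
          rfl
        rw [e1]
        rw [if_pos hy]
      have hH0 : 0 ≤ Hg := (norm_nonneg _).trans (hH l 0 0)
      have hs0 : 0 ≤ sA := (Growth.av_nonneg K G).trans hs
      refine DLx250.opS_mono (mul_nonneg (mul_nonneg hH0 hs0) (Growth.len_pos K).le) ?_ h2
      have hlen : len K ≤ 2 ^ 8 * 2 ^ m := by
        have : len K = 2 ^ (K.1 + 7) := rfl
        rw [this, ← pow_add]
        exact pow_le_pow_right₀ (by norm_num) (by omega)
      have hq3 : q = Kl - 1 := by omega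
      have h3 : 2 ^ 8 * (Hg * sA) ≤ r q := by rw [hq3]; exact hTop
      calc Hg * sA * len K ≤ Hg * sA * (2 ^ 8 * 2 ^ m) :=
            mul_le_mul_of_nonneg_left hlen (by positivity)
        _ = (2 ^ 8 * (Hg * sA)) * 2 ^ m := by ring
        _ ≤ _ := mul_le_mul_of_nonneg_right h3 (by positivity)
    have hself := cl_self (mul_nonneg (hr0 q) (by positivity)) hop
    rw [show (∑ u ∈ S, ∑ v ∈ T', (if poE i e (z, u, v) ∈ LayK V k0 j0 n0 K then 0 else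
        ‖stK i e T g I kc Kl r K G l q (z, u, v) -
          Zff i e T g I kc Kl r V K G k0 j0 n0 l q (z, u, v)‖ ^ 2)) = 0 from by
      refine Finset.sum_eq_zero fun u hu => Finset.sum_eq_zero fun v hv => ?_
      split_ifs
      · rfl
      · have h4 : Zff i e T g I kc Kl r V K G k0 j0 n0 l q (z, u, v) = 0 := ZF_last hq1 _ _
        rw [hst u hu v hv, h4, ← hself u hu v hv]
        simp]
    exact hrhs

end

end Crest.Agent.R079.NrDx228
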