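import Crest.Agent.R079.ErM_255
import Crest.Agent.R079.NrD_228
import Crest.Agent.R079.FrZa_360
import Crest.Agent.R079.NJ_112

/-! R079, T7 (helper263): THE FRAME LETTERS of one generation: 255's `PsiS` (errors) = 360's `psX` (words).

* `PsiG` : the common definition, `psiG_eq : PsiG = PsiS` with 228's kernels `Zff`. -/

set_option autoImplicit false

namespace Crest.Agent.R079.GnZx263

open Finset Crest.Agent.R079.Grid Crest.Agent.R079.Growth Crest.Agent.R079.QRed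
  Crest.Agent.R079.TWin
open Crest.Agent.R079.GaFx371 Crest.Agent.R079.GaDx571 Crest.Agent.R079.PFx263
open Crest.Agent.R079.SbWx795 Crest.Agent.R079.ErLx255 Crest.Agent.R079.ErMx255
open Crest.Agent.R079.NrDx228 Crest.Agent.R079.FrZx360

variable {n : ℕ}

/-- **frame letters of one generation** (360's form) -/
noncomputable def PsiG (i : Fin 4) (T : Fin n → Fin 3 → Finset ℤ)
    (g : Fin n → Fin 3 → ℤ → ℤ → ℂ) (mu : Fin n → ℝ) (I : Nd) (La kap : ℝ) (kc Kl : ℕ) (r : ℕ → ℝ)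
    (es : Fin 2 → Fin 3) (f : Fin 2 → Nd → Fn) (V : Nd → Finset Nd) (k0 j0 n0 : ℕ)
    (c : Fin 2) (K : Nd) : Fn :=
  psX i (es c) kc j0 n0 Kl (V K) K I T g r (gl (V K) (f c)) (fun l => kap * mu l / La) (sd I)
    (LayK (V K) k0 j0 n0 K) (QQ (V K) k0 j0 n0 K)

/-- **the two forms agree** -/
theorem psiG_eq (i : Fin 4) (T : Fin n → Fin 3 → Finset ℤ)
    (g : Fin n → Fin 3 → ℤ → ℤ → ℂ) (mu : Fin n → ℝ) (I : Nd) (La kap : ℝ) (kc Kl : ℕ) (r : ℕ → ℝ)
    (es : Fin 2 → Fin 3) (f : Fin 2 → Nd → Fn) (V : Nd → Finset Nd) (k0 j0 n0 : ℕ) :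
    PsiG i T g mu I La kap kc Kl r es f V k0 j0 n0 =
      PsiS i T g mu I La kap kc Kl r es f V k0 j0 n0
        (fun c K => Zff i (es c) T g I kc Kl r (V K) K (gl (V K) (f c)) k0 j0 n0) := rfl

end Crest.Agent.R079.GnZx263
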