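import Crest.Agent.R079.GaN_571
import Crest.Agent.R079.GnN_263

/-! R079, Step I, (G) words (helper571): numbers of the (G) totals in powers of `t`.

All heights are `Hh t h = 4 t ^ (-h)`; `AA = 700000`.
* `numG` : good words;  `numT`, `numB` : killer words;  `numR` : rest words;  `numH` : tall parts. -/

set_option autoImplicit false

namespace Crest.Agent.R079.GwNx571

open Finset Crest.Agent.R079.Grid Crest.Agent.R079.Glue Crest.Agent.R079.Growth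
  Crest.Agent.R079.QRed Crest.Agent.R079.TWin
open Crest.Agent.R079.GaKx256 Crest.Agent.R079.GaQx571 Crest.Agent.R079.B0Nx253
  Crest.Agent.R079.GaLx446 Crest.Agent.R079.GaBtx251 Crest.Agent.R079.GnNx263

/-- the heights -/
noncomputable def Hh (t h : ℝ) : ℝ := 4 * t ^ (-h)

/-- the large constant -/
noncomputable def AA : ℝ := 700000

section

variable {t : ℝ}

lemma Hh_pos (ht : 0 < t) (h : ℝ) : 0 < Hh t h := mul_pos (by norm_num) (pw_pos ht _)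

lemma Hh_le (ht : 0 < t) (ht1 : t ≤ 1) {h h' : ℝ} (hh : h ≤ h') : Hh t h ≤ AA * t ^ (-h') := by
  unfold Hh AA
  have := pw_le ht ht1 (neg_le_neg hh)
  have h2 := pw_pos ht (-h')
  nlinarith

lemma nn_ne (ht : 0 < t) (nE : ℝ) : nn t nE ≠ 0 := by
  unfold nn
  have := Nat.ceil_pos.2 (pw_pos ht (-nE))
  omega

lemma HP_le (ht : 0 < t) {h nE : ℝ} {n : ℕ} (hn : n ≠ 0) (hn2 : (n : ℝ) ≤ 2 * t ^ (-nE)) :
    (2 : ℝ) ^ (bn n + 1) * Hh t h ≤ AA * t ^ (-(h + nE)) := by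
  have h1 := pow_bn hn
  have h2 := Hh_pos ht h
  have h3 : (2 : ℝ) ^ (bn n + 1) * Hh t h ≤ 8 * t ^ (-nE) * Hh t h :=
    mul_le_mul_of_nonneg_right (h1.trans (by linarith)) h2.le
  refine h3.trans ?_
  unfold Hh AA
  have h4 : t ^ (-nE) * t ^ (-h) = t ^ (-(h + nE)) := by
    rw [pw_add ht]
    congr 1
    ring
  have h5 := pw_pos ht (-(h + nE))
  calc 8 * t ^ (-nE) * (4 * t ^ (-h)) = 32 * (t ^ (-nE) * t ^ (-h)) := by ring
    _ = 32 * t ^ (-(h + nE)) := by rw [h4]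
    _ ≤ _ := by nlinarith

/-- **GOOD WORDS** -/
theorem numG {K1 σ la xx ff c1 kx h nE gy w g1 f1 : ℝ} (hK1 : 0 ≤ K1) (hσ : 0 ≤ σ) (hg1 : σ ≤ g1)
    (hf1 : σ ≤ f1) (hσh : σ ≤ h)
    (hxx : 0 ≤ xx) (hff : 0 ≤ ff) (hc1 : 0 ≤ c1) (hkx : 0 ≤ kx) (hnE : 0 ≤ nE)
    (hw : 0 < w) (hgy : gy + la + 3 * w ≤ σ + kx / 2) :
    ∃ K : ℝ, 0 ≤ K ∧ ∀ t, 0 < t → t ≤ 1 → ∀ J : Nd,
      9 * (n1G K1 J (Hh t h) 1 (128 * t ^ g1 + 24 * t ^ f1 + 128 * (1 / Hh t h)) (t ^ (2 * σ))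
        (t ^ (-ff)) (3 * t ^ (-xx)) (2 ^ (bn (nn t nE) + 1) * Hh t h)
        (2 ^ (bn (nn t nE) + 1) * Hh t h) (len J * t ^ c1 / t ^ (-kx)) (len J * t ^ c1) *
        (621432 * t ^ (-la) / √(t ^ (-kx)))) * ((bn (nn t nE) : ℕ) + 1) ^ 2 ≤ K * t ^ gy := by
  obtain ⟨K, hK, hm⟩ := num_good (K0 := K1) (A := AA) (σ := σ) (la := la) (xx := xx) (ff := ff)
    (c1 := c1) (kx := kx) (hh := h + nE) (nE := nE) (gy := gy) (w := w) hK1 (by unfold AA; norm_num)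
    hσ hxx hff hc1 hkx (by linarith) hnE hw hgy
  refine ⟨K, hK, fun t ht ht1 J => ?_⟩
  have P : ∀ s : ℝ, 0 < t ^ s := fun s => pw_pos ht s
  have hn := nn_ne ht nE
  have hn2 := nn_le ht ht1 hnE
  have hsq : √(t ^ (2 * σ)) = t ^ σ := by
    rw [show (2 : ℝ) * σ = σ + σ by ring, Real.rpow_add ht, Real.sqrt_mul_self (P σ).le]
  have hH1 : 1 / Hh t h ≤ t ^ σ := by
    unfold Hh
    have h1 : 1 / (4 * t ^ (-h)) = 1 / 4 * t ^ h := by
      rw [Real.rpow_neg ht.le]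
      have := (P h).ne'
      field_simp
    rw [h1]
    have := pw_le ht ht1 hσh
    have := P σ
    nlinarith
  have hH0 : 0 < 1 / Hh t h := one_div_pos.2 (Hh_pos ht h)
  have a1 := pw_le ht ht1 hg1
  have a2 := pw_le ht ht1 hf1
  have a3 := P g1
  have a4 := P f1
  have a5 := P σ
  have hlo : t ^ σ ≤ 81 * (128 * t ^ g1 + 24 * t ^ f1 + 128 * (1 / Hh t h)) +
      170 * 1 * √(t ^ (2 * σ)) := by
    rw [hsq]
    nlinarith
  have hup : 81 * (128 * t ^ g1 + 24 * t ^ f1 + 128 * (1 / Hh t h)) +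
      170 * 1 * √(t ^ (2 * σ)) ≤ AA * t ^ σ := by
    rw [hsq]
    unfold AA
    nlinarith
  have e0 : t ^ (-ff) ≤ AA * t ^ (-ff) := by
    unfold AA
    have := P (-ff)
    nlinarith
  have hX := hm t ht ht1 (nn t nE) hn hn2
    (81 * (128 * t ^ g1 + 24 * t ^ f1 + 128 * (1 / Hh t h)) + 170 * 1 * √(t ^ (2 * σ)))
    (621432 * t ^ (-la)) (3 * t ^ (-xx)) (t ^ (-ff)) (Hh t h) (2 ^ (bn (nn t nE) + 1) * Hh t h)
    (2 ^ (bn (nn t nE) + 1) * Hh t h) (len J) hlo hup (by have := P (-la); positivity)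
    (mul_le_mul_of_nonneg_right (by unfold AA; norm_num) (P _).le) (by have := P (-xx); positivity)
    (mul_le_mul_of_nonneg_right (by unfold AA; norm_num) (P _).le) (P _).le e0 (Hh_pos ht h).le
    (Hh_le ht ht1 (by linarith)) (mul_pos (by positivity) (Hh_pos ht h)).le (HP_le ht hn hn2)
    (mul_pos (by positivity) (Hh_pos ht h)).le (HP_le ht hn hn2) (Growth.len_pos J)
  refine le_trans (le_of_eq ?_) hX
  unfold n1G
  ring

lemma hfht_eq (ht : 0 < t) (xx ff : ℝ) : t ^ (-ff) * (3 * t ^ (-xx)) = 3 * t ^ (-(ff + xx)) := by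
  have : t ^ (-(ff + xx)) = t ^ (-ff) * t ^ (-xx) := by
    rw [pw_add ht]
    congr 1
    ring
  rw [this]
  ring

/-- the threshold of the killer words -/
noncomputable def At (kc : ℕ) : ℝ := 6 * 2 ^ kc + 384 * AA ^ 2 + 384 * AA ^ 3

lemma At_ge (kc : ℕ) : 1 ≤ At kc := by
  unfold At AA
  have : (0 : ℝ) < 2 ^ kc := by positivity
  nlinarith

theorem numT {xx ff h r0x : ℝ} (hxx : 0 ≤ xx) (hff : 0 ≤ ff) (hh : xx + ff + r0x ≤ h)
    (ht : 0 < t) (ht1 : t ≤ 1) (kc : ℕ) {r0 : ℝ} (hr0 : r0 ≤ t ^ r0x) :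
    tauB kc r0 (3 * t ^ (-xx)) (t ^ (-ff)) AA (Hh t h) (Hh t h) ≤ At kc * t ^ r0x := by
  have P : ∀ s : ℝ, 0 < t ^ s := fun s => pw_pos ht s
  unfold tauB At
  rw [add_mul, add_mul]
  have hdiv : ∀ z : ℝ, z / Hh t h = z / 4 * t ^ h := by
    intro z
    unfold Hh
    rw [Real.rpow_neg ht.le]
    have := (P h).ne'
    field_simp
  have hkey : t ^ (-(ff + xx)) * t ^ h ≤ t ^ r0x := by
    rw [pw_add ht]
    exact pw_le ht ht1 (by linarith)
  have h1 : 6 * 2 ^ kc * r0 ≤ 6 * 2 ^ kc * t ^ r0x := mul_le_mul_of_nonneg_left hr0 (by positivity)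
  have h2 : 384 * (t ^ (-ff) * (3 * t ^ (-xx))) * AA ^ 2 / Hh t h ≤ 384 * AA ^ 2 * t ^ r0x := by
    rw [hfht_eq ht, hdiv]
    have h3 : 384 * (3 * t ^ (-(ff + xx))) * AA ^ 2 / 4 * t ^ h =
        288 * AA ^ 2 * (t ^ (-(ff + xx)) * t ^ h) := by ring
    rw [h3]
    refine (mul_le_mul_of_nonneg_left hkey (by unfold AA; positivity)).trans ?_
    exact mul_le_mul_of_nonneg_right (by unfold AA; norm_num) (P _).le
  have hg : √(t ^ (-ff) * (3 * t ^ (-xx))) ≤ AA * t ^ (-(ff + xx)) := by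
    refine le_trans (le_max_right 1 _) (gau_A ht ht1 (A := AA) (by unfold AA; norm_num) hxx hff
      (by have := P (-xx); positivity) (mul_le_mul_of_nonneg_right (by unfold AA; norm_num) (P _).le)
      ?_)
    have := P (-ff)
    unfold AA
    nlinarith
  have h4 : 384 * √(t ^ (-ff) * (3 * t ^ (-xx))) * AA ^ 2 / Hh t h ≤ 384 * AA ^ 3 * t ^ r0x := by
    rw [hdiv]
    have h5 : 384 * √(t ^ (-ff) * (3 * t ^ (-xx))) * AA ^ 2 / 4 * t ^ h ≤
        384 * (AA * t ^ (-(ff + xx))) * AA ^ 2 / 4 * t ^ h := by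
      refine mul_le_mul_of_nonneg_right ?_ (P _).le
      refine div_le_div_of_nonneg_right ?_ (by norm_num)
      refine mul_le_mul_of_nonneg_right ?_ (sq_nonneg _)
      exact mul_le_mul_of_nonneg_left hg (by norm_num)
    refine h5.trans ?_
    have h6 : 384 * (AA * t ^ (-(ff + xx))) * AA ^ 2 / 4 * t ^ h =
        96 * AA ^ 3 * (t ^ (-(ff + xx)) * t ^ h) := by ring
    rw [h6]
    refine (mul_le_mul_of_nonneg_left hkey (by unfold AA; positivity)).trans ?_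
    exact mul_le_mul_of_nonneg_right (by unfold AA; norm_num) (P _).le
  linarith

/-- **KILLER WORDS** -/
theorem numB {K4 la xx ff h r0x gE w : ℝ} (hK4 : 0 ≤ K4) (hxx : 0 ≤ xx) (hff : 0 ≤ ff)
    (hh : 0 ≤ h) (hr0 : 0 ≤ r0x) (hw : 0 < w) (hgE : gE + la + w ≤ r0x) (kc : ℕ) :
    ∃ K : ℝ, 0 ≤ K ∧ ∀ t, 0 < t → t ≤ 1 →
      621432 * t ^ (-la) * eKB K4 (3 * t ^ (-xx)) (t ^ (-ff)) (Hh t h) (Hh t h) (Hh t h)
        (At kc * t ^ r0x) 1 AA 1 ≤ K * t ^ gE := by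
  obtain ⟨K, hK, hm⟩ := num_Blog (A := AA) (xx := xx) (ff := ff) (hh := h) (tb := r0x) (w := w)
    (by unfold AA; norm_num) hxx hff hh hr0 hw
  refine ⟨621432 * (K4 * K * (At kc * ((AA + 1) * (1 + 1)))), ?_, fun t ht ht1 => ?_⟩
  · have := At_ge kc
    unfold AA
    positivity
  have P : ∀ s : ℝ, 0 < t ^ s := fun s => pw_pos ht s
  have hA := At_ge kc
  have e0 : t ^ (-ff) ≤ AA * t ^ (-ff) := by
    unfold AA
    have := P (-ff)
    nlinarith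
  have hX := hm t ht ht1 (At kc * t ^ r0x) (3 * t ^ (-xx)) (t ^ (-ff)) (Hh t h) (Hh t h) (Hh t h)
    (by have := P r0x; nlinarith) (by have := P (-xx); positivity)
    (mul_le_mul_of_nonneg_right (by unfold AA; norm_num) (P _).le) (P _).le e0 (Hh_pos ht h).le
    (Hh_le ht ht1 le_rfl) (Hh_pos ht h).le (Hh_le ht ht1 le_rfl) (Hh_pos ht h).le
    (Hh_le ht ht1 le_rfl)
  unfold eKB
  rw [Real.sqrt_one]
  have hAA : (0 : ℝ) ≤ (AA + 1) * (1 + 1) := by unfold AA; norm_num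
  have h1 := mul_le_mul_of_nonneg_left hX hK4
  have h2 : 0 ≤ At kc * t ^ r0x * ((AA + 1) * (1 + 1)) :=
    mul_nonneg (mul_nonneg (by linarith) (P _).le) hAA
  have h3 := mul_le_mul_of_nonneg_right h1 h2
  have h4 := mul_le_mul_of_nonneg_left h3 (show 0 ≤ 621432 * t ^ (-la) by
    have := P (-la); positivity)
  refine h4.trans ?_
  have h5 : t ^ (-la) * (t ^ (-w) * t ^ r0x) ≤ t ^ gE := by
    rw [pw_add ht, pw_add ht]
    exact pw_le ht ht1 (by linarith)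
  have h6 : 0 ≤ 621432 * (K4 * K * (At kc * ((AA + 1) * (1 + 1)))) := by
    unfold AA
    positivity
  calc 621432 * t ^ (-la) * (K4 * (K * t ^ (-w)) * (At kc * t ^ r0x * ((AA + 1) * (1 + 1)))) =
      621432 * (K4 * K * (At kc * ((AA + 1) * (1 + 1)))) * (t ^ (-la) * (t ^ (-w) * t ^ r0x)) := by
        ring
    _ ≤ _ := mul_le_mul_of_nonneg_left h5 h6

/-- **REST WORDS** -/
theorem numR {K2 δ σ la xx ff c1 h nE gy w : ℝ} (hK2 : 0 ≤ K2) (hxx : 0 ≤ xx) (hff : 0 ≤ ff)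
    (hh : 0 ≤ h) (hnE : 0 ≤ nE) (hw : 0 < w) (hδ : 2 * σ + ff ≤ δ)
    (hgy : gy + nE + la + c1 + 2 * w ≤ δ - 2 * σ - ff) :
    ∃ K : ℝ, 0 ≤ K ∧ ∀ t, 0 < t → t ≤ 1 →
      (nn t nE : ℕ) * (621432 * t ^ (-la) * eRst K2 (3 * t ^ (-xx)) (t ^ (-ff)) (t ^ δ)
        (t ^ (2 * σ)) 1 (Hh t h) (Hh t h) (Hh t h) AA AA (t ^ (δ - 2 * σ - ff))
        (t ^ (δ - 2 * σ - ff))) ≤ K * t ^ (gy + c1) := by
  obtain ⟨K, hK, hm⟩ := num_R (K0 := K2) (A := AA) (δ := δ) (σ := σ) (la := la) (xx := xx)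
    (ff := ff) (c1 := c1) (hh := h) (nE := nE) (gy := gy) (w := w) hK2 (by unfold AA; norm_num) hxx
    hff hh hw hδ hgy
  refine ⟨K, hK, fun t ht ht1 => ?_⟩
  have P : ∀ s : ℝ, 0 < t ^ s := fun s => pw_pos ht s
  have e0 : t ^ (-ff) ≤ AA * t ^ (-ff) := by
    unfold AA
    have := P (-ff)
    nlinarith
  have e1 : 1 ≤ 3 * t ^ (-xx) := by
    have := one_le_pw ht ht1 hxx
    linarith
  have hX := hm t ht ht1 (nn t nE) (nn_le ht ht1 hnE) (621432 * t ^ (-la)) (3 * t ^ (-xx))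
    (t ^ (-ff)) (Hh t h) (Hh t h) (Hh t h) (by have := P (-la); positivity)
    (mul_le_mul_of_nonneg_right (by unfold AA; norm_num) (P _).le) e1
    (mul_le_mul_of_nonneg_right (by unfold AA; norm_num) (P _).le) (P _).le e0 (Hh_pos ht h).le
    (Hh_le ht ht1 le_rfl) (Hh_pos ht h).le (Hh_le ht ht1 le_rfl) (Hh_pos ht h).le
    (Hh_le ht ht1 le_rfl)
  refine le_trans (le_of_eq ?_) hX
  unfold eRst
  ring

end

end Crest.Agent.R079.GwNx571
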