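import Crest.Agent.R079.GwN_571
import Crest.Agent.R079.PW_263

/-! R079, Step I, (G) words (helper571): **THE THREE (G) TOTALS, POWERS OF `t`**.

* `untr` : a total with arbitrary letters against the total with all letters truncated;
* **`gwords_pow`** : the hypotheses `hG1`, `hG2`, `hG3` of `WdT_276.words_genD`. -/

set_option autoImplicit false

namespace Crest.Agent.R079.GwPx571

open Finset Crest.Agent.R079.Grid Crest.Agent.R079.Glue Crest.Agent.R079.Growth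
  Crest.Agent.R079.QRed Crest.Agent.R079.TWin
open Crest.Agent.R079.RelW653 (vl NMP Jv Dv)
open Crest.Agent.R079.GaTx571 (tau tau_le tau_le')
open Crest.Agent.R079.Stk Crest.Agent.R079.PFx263 Crest.Agent.R079.GaDx571
  Crest.Agent.R079.GaNx571 Crest.Agent.R079.GwNx571 Crest.Agent.R079.GaQx571
  Crest.Agent.R079.POx263 Crest.Agent.R079.T6bx252 Crest.Agent.R079.GnNx263 Crest.Agent.R079.OpS276
open Crest.Agent.R079.AsmA844 (v4 Oth Sm)
open Crest.Agent.R079.GnMx45 (en en_nonneg)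

/-- logarithms of the heights -/
lemma log_c {t h c : ℝ} (ht : 0 < t) (hc : 1 ≤ c) :
    Real.log (c * t ^ (-h)) ≤ c + Real.log (t ^ (-h)) := by
  rw [Real.log_mul (by linarith) (pw_pos ht _).ne']
  have := Real.log_le_sub_one_of_pos (show 0 < c by linarith)
  linarith

/-- **TALL PARTS**, all numbers -/
theorem numH {K6 K7 la xx ff h gE : ℝ} (hK6 : 0 ≤ K6) (hK7 : 0 ≤ K7) (hxx : 0 ≤ xx)
    (hff : 0 ≤ ff) (hh : 0 ≤ h) (hgE : gE + la + 1 ≤ h) :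
    ∃ K : ℝ, 0 ≤ K ∧ ∀ t, 0 < t → t ≤ 1 →
      2 * (K7 * (1 + (Real.log (1 + t ^ (-ff) * (3 * t ^ (-xx))) + Real.log (2 * t ^ (-h)))) *
          (621432 * t ^ (-la) / (2 * t ^ (-h))) +
        K7 * (1 + (Real.log (1 + t ^ (-ff) * (3 * t ^ (-xx))) + Real.log (2 * t ^ (-h) / 2))) *
          (621432 * t ^ (-la) / (2 * t ^ (-h) / 2))) * 2 ^ 2 +
      K6 * (1 + (Real.log (1 + t ^ (-ff) * (3 * t ^ (-xx))) + Real.log (Hh t h))) *
        (621432 * t ^ (-la) / Hh t h) * (2 * 2 * 1) ≤ K * t ^ gE := by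
  refine ⟨(24 * K7 + 4 * K6) * ((4 + (4 + (ff + xx) + h)) * 621432), by positivity,
    fun t ht ht1 => ?_⟩
  have P : ∀ s : ℝ, 0 < t ^ s := fun s => pw_pos ht s
  have hti : 1 ≤ t ^ (-1 : ℝ) := one_le_pw ht ht1 zero_le_one
  have hL0 : 0 ≤ Real.log (t ^ (-h)) := Real.log_nonneg (one_le_pw ht ht1 hh)
  have hP0 : 0 < t ^ (-ff) * (3 * t ^ (-xx)) := mul_pos (P _) (mul_pos (by norm_num) (P _))
  have hLP : 0 ≤ Real.log (1 + t ^ (-ff) * (3 * t ^ (-xx))) := Real.log_nonneg (by linarith)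
  have h1 := TKx248.log_pow (c := ff + xx) (P := t ^ (-ff) * (3 * t ^ (-xx))) ht ht1 (by linarith)
    hh hP0.le (hfht_eq ht xx ff).le
  set Lg := 1 + (Real.log (1 + t ^ (-ff) * (3 * t ^ (-xx))) + Real.log (t ^ (-h))) with hLg
  have hB : 4 + Lg ≤ (4 + (4 + (ff + xx) + h)) * t ^ (-1 : ℝ) := by nlinarith
  have hpow : t ^ (-1 : ℝ) * (t ^ (-la) * t ^ h) ≤ t ^ gE := by
    rw [pw_add ht, pw_add ht]
    exact pw_le ht ht1 (by linarith)
  have hdiv : ∀ c : ℝ, 0 < c → 621432 * t ^ (-la) / (c * t ^ (-h)) =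
      621432 / c * (t ^ (-la) * t ^ h) := by
    intro c hc
    rw [Real.rpow_neg ht.le h]
    have := (P h).ne'
    field_simp
  have hq : 0 < t ^ (-la) * t ^ h := mul_pos (P _) (P _)
  -- one term
  have term : ∀ (K c Lc : ℝ), 0 ≤ K → 1 ≤ c → Lc ≤ 4 + Lg → 0 ≤ Lc →
      K * Lc * (621432 / c * (t ^ (-la) * t ^ h)) ≤
        K * ((4 + (4 + (ff + xx) + h)) * 621432) * t ^ gE := by
    intro K c Lc hK hc hLc hLc0
    have e1 : 621432 / c * (t ^ (-la) * t ^ h) ≤ 621432 * (t ^ (-la) * t ^ h) :=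
      mul_le_mul_of_nonneg_right (div_le_self (by norm_num) hc) hq.le
    calc K * Lc * (621432 / c * (t ^ (-la) * t ^ h)) ≤
        K * ((4 + (4 + (ff + xx) + h)) * t ^ (-1 : ℝ)) * (621432 * (t ^ (-la) * t ^ h)) := by
          refine mul_le_mul (mul_le_mul_of_nonneg_left (hLc.trans hB) hK) e1 (by positivity) ?_
          exact mul_nonneg hK (le_trans (by linarith) hB)
      _ = K * ((4 + (4 + (ff + xx) + h)) * 621432) * (t ^ (-1 : ℝ) * (t ^ (-la) * t ^ h)) := by ring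
      _ ≤ _ := mul_le_mul_of_nonneg_left hpow (by positivity)
  have l1 := log_c (h := h) ht (c := 2) (by norm_num)
  have l3 := log_c (h := h) ht (c := 4) (by norm_num)
  have p1 : 0 ≤ Real.log (2 * t ^ (-h)) := Real.log_nonneg (by
    have := one_le_pw ht ht1 hh
    linarith)
  have p3 : 0 ≤ Real.log (4 * t ^ (-h)) := Real.log_nonneg (by
    have := one_le_pw ht ht1 hh
    linarith)
  have e2 : 2 * t ^ (-h) / 2 = 1 * t ^ (-h) := by ring
  rw [e2]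
  unfold Hh
  rw [hdiv 2 (by norm_num), hdiv 1 one_pos, hdiv 4 (by norm_num), one_mul]
  have t1 := term K7 2 (1 + (Real.log (1 + t ^ (-ff) * (3 * t ^ (-xx))) +
    Real.log (2 * t ^ (-h)))) hK7 (by norm_num) (by linarith) (by linarith)
  have t2 := term K7 1 (1 + (Real.log (1 + t ^ (-ff) * (3 * t ^ (-xx))) +
    Real.log (t ^ (-h)))) hK7 le_rfl (by linarith) (by linarith)
  have t3 := term K6 4 (1 + (Real.log (1 + t ^ (-ff) * (3 * t ^ (-xx))) +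
    Real.log (4 * t ^ (-h)))) hK6 (by norm_num) (by linarith) (by linarith)
  have hK7' : 0 ≤ K7 * ((4 + (4 + (ff + xx) + h)) * 621432) * t ^ gE := by
    have := P gE
    positivity
  nlinarith

/-- **untruncation** -/
theorem untr : ∃ K6 K7 : ℝ, 0 ≤ K6 ∧ 0 ≤ K7 ∧ ∀ (i m e1 e2 : Fin 4), Dst4 i m e1 e2 →
    ∀ {bb : ℤ} {ε : ℕ → ℤ → ℂ}, Adm bb ε → ∀ (R0 : Finset Nd) (I0 : Nd), Full R0 I0 →
    ∀ (F : Fin 4 → Fn) (Ht Hf La H : ℝ), 0 < Ht → 0 < Hf → 0 ≤ La → 2 ≤ H →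
    Rc i m e1 e2 I0 Ht Hf La (F i) → (∀ p ∈ R0, av p (F m) ≤ 1) → ∀ x y : Fin 4, Oth i m x y →
    ∀ (S : Finset Nd) (W : Nd → Finset Nd), (∀ K ∈ S, Full (W K) K ∧ W K ⊆ R0) →
    ∀ X Y : Nd → Fn,
    (∀ K ∈ S, ∀ p ∈ W K, av p (X K) ≤ 2) → (∀ K ∈ S, ∀ p ∈ W K, av p (Y K) ≤ 2) →
    ‖∑ K ∈ S, ∑ p ∈ W K, v4 bb ε F x y (X K) (Y K) p‖ ≤
      ‖∑ K ∈ S, ∑ p ∈ W K, v4 bb ε (Function.update F m (fun z => tau (H * 2) (F m z))) x y
        (fun z => tau (H * 2) (X K z)) (fun z => tau (H * 2) (Y K z)) p‖ +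
      (2 * (K7 * (1 + (Real.log (1 + Hf * Ht) + Real.log H)) * (La / H) +
        K7 * (1 + (Real.log (1 + Hf * Ht) + Real.log (H / 2))) * (La / (H / 2))) * 2 ^ 2 +
      K6 * (1 + (Real.log (1 + Hf * Ht) + Real.log (H * 2))) * (La / (H * 2)) * (2 * 2 * 1)) *
        ∑ K ∈ S, len K := by
  obtain ⟨K6, hK6, hM⟩ := TauMx253.word_tauM
  obtain ⟨K7, hK7, hT⟩ := TKx248.tallW_of
  refine ⟨K6, K7, hK6, hK7, ?_⟩
  intro i m e1 e2 hd bb ε hA R0 I0 hR0 F Ht Hf La H hHt hHf hLa hH hF hFm x y hO S W hS X Y hX hY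
  have hH0 : 0 < H := by linarith
  have hT1 := hT i m e1 e2 hd hA R0 I0 hR0 F Ht Hf La H hHt hHf (by linarith) hF hFm x y hO
  have hT2 := hT i m e1 e2 hd hA R0 I0 hR0 F Ht Hf La (H / 2) hHt hHf (by linarith) hF hFm x y hO
  have a1 := TauWx253.word_tau (GenT934.bil_v4 bb ε F hO.ab) hH0 hT1 hT2 (a := 2) (by norm_num) S W
    hS X Y hX hY
  have hH2 : 0 ≤ H * 2 := by linarith
  have a2 := hM i m e1 e2 hd hA R0 I0 I0 hR0 (Finset.Subset.refl _) F Ht Hf La (H * 2) hHt hHf hLa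
    (by linarith) hF x y hO 1 one_pos hFm S W hS 2 2 (by norm_num) (by norm_num)
    (fun K z => tau (H * 2) (X K z)) (fun K z => tau (H * 2) (Y K z))
    (fun K hK p hp => (TauWx253.av_tau hH2 (X K)).trans (hX K hK p hp))
    (fun K hK p hp => (TauWx253.av_tau hH2 (Y K)).trans (hY K hK p hp))
  rw [mul_one] at a2
  refine a1.trans ((add_le_add a2 le_rfl).trans (le_of_eq ?_))
  ring

/-- sum of the four parts -/
theorem fin4 {t gy eC c1 A SL L KG KB KR KH Kc a b c d : ℝ} {n : ℕ} (ht : 0 < t)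
    (hKG : 0 ≤ KG) (hKB : 0 ≤ KB) (hKR : 0 ≤ KR) (hKH : 0 ≤ KH) {A' : ℝ}
    (hA'0 : 0 ≤ A') (hA' : A' ≤ A) (hL : 0 ≤ L) (hLA : t ^ c1 * L ≤ A) (hSL0 : 0 ≤ SL)
    (hSL : SL ≤ Kc * t ^ (-eC) * A) (ha : a ≤ KG * t ^ gy) (hb : b ≤ KB * t ^ (gy + eC))
    (hc : n * c ≤ KR * t ^ (gy + c1)) (hd : d ≤ KH * t ^ (gy + eC)) :
    a * A' + (b * SL + n * (c * L)) + d * SL ≤ (KG + KB * Kc + KR + KH * Kc) * t ^ gy * A := by
  have P : ∀ s : ℝ, 0 < t ^ s := fun s => pw_pos ht s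
  have e1 : t ^ (gy + eC) * t ^ (-eC) = t ^ gy := by
    rw [pw_add ht]
    congr 1
    ring
  have e2 : t ^ (gy + c1) = t ^ gy * t ^ c1 := (pw_add ht _ _).symm
  have h1 : a * A' ≤ KG * t ^ gy * A :=
    mul_le_mul ha hA' hA'0 (mul_nonneg hKG (P _).le)
  have h2 : ∀ {K z : ℝ}, 0 ≤ K → z ≤ K * t ^ (gy + eC) → z * SL ≤ K * Kc * t ^ gy * A := by
    intro K z hK hz
    calc z * SL ≤ K * t ^ (gy + eC) * SL := mul_le_mul_of_nonneg_right hz hSL0
      _ ≤ K * t ^ (gy + eC) * (Kc * t ^ (-eC) * A) :=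
        mul_le_mul_of_nonneg_left hSL (mul_nonneg hK (P _).le)
      _ = K * Kc * (t ^ (gy + eC) * t ^ (-eC)) * A := by ring
      _ = _ := by rw [e1]
  have h3 : n * (c * L) ≤ KR * t ^ gy * A := by
    calc n * (c * L) = n * c * L := by ring
      _ ≤ KR * t ^ (gy + c1) * L := mul_le_mul_of_nonneg_right hc hL
      _ = KR * t ^ gy * (t ^ c1 * L) := by rw [e2]; ring
      _ ≤ _ := mul_le_mul_of_nonneg_left hLA (mul_nonneg hKR (P _).le)
  have h4 := h2 hKB hb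
  have h5 := h2 hKH hd
  calc _ ≤ KG * t ^ gy * A + (KB * Kc * t ^ gy * A + KR * t ^ gy * A) + KH * Kc * t ^ gy * A :=
        add_le_add (add_le_add h1 (add_le_add h4 h3)) h5
    _ = _ := by ring

section main

variable {P : WS112.Prm} {i m e1 e2 : Fin 4} {k cl la xx ff σ c1 kx nE eC gy r0x w : ℝ}

/-- the inequalities between the exponents -/
structure Nm (P : WS112.Prm) (m : Fin 4) (k la xx ff σ c1 kx nE eC gy r0x w : ℝ) : Prop where
  k0 : 0 < k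
  la0 : 0 ≤ la
  xx0 : 0 ≤ xx
  ff0 : 0 ≤ ff
  σ0 : 0 ≤ σ
  c10 : 0 ≤ c1
  kx0 : 0 ≤ kx
  nE0 : 0 ≤ nE
  eC0 : 0 ≤ eC
  r00 : 0 ≤ r0x
  w0 : 0 < w
  gy0 : 0 ≤ gy
  σg : σ ≤ P.θ * P.g m
  σf : σ ≤ P.θ * P.f m
  good : gy + la + 3 * w ≤ σ + kx / 2
  kill : gy + eC + la + w ≤ r0x
  rest : gy + nE + la + c1 + 2 * w ≤ P.θ * P.x m - 2 * σ - ff

lemma av_one (hk : 0 < k) {R : Finset Nd} {X Y : Fn} (h : Sm k 1 R X Y) :
    (∀ p ∈ R, av p X ≤ 1) ∧ ∀ p ∈ R, av p Y ≤ 1 :=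
  ⟨fun p hp => (TRec.TAsm398.av_le_aq (by linarith) p X).trans (h p hp).1,
    fun p hp => (TRec.TAsm398.av_le_aq (by linarith) p Y).trans (h p hp).2⟩

/-- **STATIC TOTAL** -/
theorem pow_static (hP : WS0112.Ok0 P) (hd : Dst4 i m e1 e2) (hm3 : m ≠ 3)
    (hn : Nm P m k la xx ff σ c1 kx nE eC gy r0x w) (kc : ℕ) {Kc : ℝ} (hKc : 0 ≤ Kc) :
    ∃ K : ℝ, 0 ≤ K ∧ ∀ t, 0 < t → t ≤ 1 → ∀ (W : Finset Nd) (I : Nd) (F : Fin 4 → Fn),
      PRc (WS0112.DF0 P) k 1 cl t (621432 * t ^ (-la)) (3 * t ^ (-xx)) (t ^ (-ff)) W I i m e1 e2 F →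
      ∀ x y : Fin 4, Oth i m x y → ∀ bb ε, Adm bb ε → ∀ R J, Full R J → R ⊆ W → ∀ X Y,
      Sm k 1 R X Y → ∀ (v : Fin 3) (N : ℕ) (T : Fin N → Fin 3 → Finset ℤ)
      (g : Fin N → Fin 3 → ℤ → ℤ → ℂ) (θ : Fin N → ℤ → ℝ) (μ : Fin N → ℝ),
      Fam i m v I (3 * t ^ (-xx)) (t ^ (-ff)) (621432 * t ^ (-la)) N (F i) T g θ μ →
      ∀ e e' : Fin 3, e ≠ e' → e ≠ v + 1 → e' ≠ v + 1 → x = i.succAbove (e + 2) →
      y = i.succAbove (e' + 2) → ∀ Kl : ℕ, 0 < Kl → ∀ r : ℕ → ℝ, (∀ q, 0 ≤ r q) →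
      r 0 ≤ t ^ r0x → ∀ (η : ℝ) (f : Nd → Fn),
      NMP (fun _ _ => True) (PhiE i e T g μ I (621432 * t ^ (-la)) (t ^ (-kx)) kc Kl r) X η f →
      η ≤ 1 / 2 → η * (2 * (nn t nE : ℕ) + 1) ≤ t ^ c1 →
      ∀ (S : Finset Nd) (W' : Nd → Finset Nd) (C : ℝ), TWin.Part R S W' C →
      ∑ K ∈ S, len K ≤ Kc * t ^ (-eC) * ((t ^ c1 + en J X Y) * len J) →
      ‖∑ K ∈ S.filter (fun K => idx S K ≤ nn t nE), ∑ p ∈ W' K, v4 bb ε F x y (gl (W' K) f) Y p‖ ≤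
        K * t ^ gy * ((t ^ c1 + en J X Y) * len J) := by
  obtain ⟨K1, K2, K4, hK1, hK2, hK4, hcore⟩ := core_static
  obtain ⟨K6, K7, hK6, hK7, hun⟩ := untr
  set h : ℝ := xx + ff + r0x + la + 1 + eC + gy + σ with hh
  have hk := hn.k0
  have hla := hn.la0
  have hxx := hn.xx0
  have hff := hn.ff0
  have hσ := hn.σ0
  have hc1 := hn.c10
  have hkx := hn.kx0
  have hnE := hn.nE0
  have heC := hn.eC0
  have hr00 := hn.r00
  have hw := hn.w0
  have hgy := hn.gy0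
  have hσg := hn.σg
  have hσf := hn.σf
  have hngood := hn.good
  have hnkill := hn.kill
  have hnrest := hn.rest
  obtain ⟨KG, hKG, hG⟩ := numG (K1 := K1) (σ := σ) (la := la) (xx := xx) (ff := ff) (c1 := c1)
    (kx := kx) (h := h) (nE := nE) (gy := gy) (w := w) (g1 := 1 * (P.θ * P.g m))
    (f1 := 1 * (P.θ * P.f m)) hK1 hσ (by linarith) (by linarith) (by linarith) hxx hff hc1 hkx hnE
    hw hngood
  obtain ⟨KB, hKB, hB⟩ := numB (K4 := K4) (la := la) (xx := xx) (ff := ff) (h := h) (r0x := r0x)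
    (gE := gy + eC) (w := w) hK4 hxx hff (by linarith) hr00 hw (by linarith) kc
  obtain ⟨KR, hKR, hR⟩ := numR (K2 := K2) (δ := 1 * (P.θ * P.x m)) (σ := σ) (la := la) (xx := xx)
    (ff := ff) (c1 := c1) (h := h) (nE := nE) (gy := gy) (w := w) hK2 hxx hff (by linarith) hnE hw
    (by linarith) (by linarith)
  obtain ⟨KH, hKH, hH⟩ := numH (K6 := K6) (K7 := K7) (la := la) (xx := xx) (ff := ff) (h := h)
    (gE := gy + eC) hK6 hK7 hxx hff (by linarith) (by linarith)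
  refine ⟨KG + KB * Kc + KR + KH * Kc, by positivity, ?_⟩
  intro t ht ht1 W I F hPR x y hO bb ε hA R J hRF hRW X Y hXY v N T g θ μ hFam e e' hee he he' hx hy
    Kl hKl r hr hr0 η f hN hη hηn S W' C hPt hcnt
  have Pw : ∀ s : ℝ, 0 < t ^ s := fun s => pw_pos ht s
  obtain ⟨hX, hY⟩ := av_one hk hXY
  have hF1 := hPR.avR hk.le
  have hJI : iv J ⊆ iv I := hPR.full.reg.1 J (hRW hRF.top)
  have hLa : 0 < 621432 * t ^ (-la) := mul_pos (by norm_num) (Pw _)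
  have hHt : 1 ≤ 3 * t ^ (-xx) := by
    have := one_le_pw ht ht1 hxx
    linarith
  have hHf : 0 < t ^ (-ff) := Pw _
  have hkap : 0 < t ^ (-kx) := Pw _
  have hth : 1 ≤ t ^ (-h) := one_le_pw ht ht1 (by linarith)
  have hHh : 0 < Hh t h := Hh_pos ht h
  have hpen := penPhi hFam e hkap.le hLa kc Kl hr
  have hpen' := hpen
  rw [phi_eq] at hpen'
  have hN' := hN
  rw [phi_eq] at hN'
  have hsub : ∀ K ∈ S.filter (fun K => idx S K ≤ nn t nE), Full (W' K) K ∧ W' K ⊆ R := by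
    intro K hK
    have hKS := (Finset.mem_filter.1 hK).1
    exact ⟨hPt.full K hKS, hPt.wsub K hKS⟩
  have hmi : m ≠ i := hd.jk
  have e0 : (2 * t ^ (-h)) * 2 = Hh t h := by
    unfold Hh
    ring
  -- untruncation
  have u1 := hun i m e1 e2 hd hA W I hPR.full F (3 * t ^ (-xx)) (t ^ (-ff)) (621432 * t ^ (-la))
    (2 * t ^ (-h)) (by linarith) hHf hLa.le (by linarith) hPR.mix hF1 x y hO
    (S.filter (fun K => idx S K ≤ nn t nE)) W'
    (fun K hK => ⟨(hsub K hK).1, (hsub K hK).2.trans hRW⟩) (fun K => gl (W' K) f) (fun _ => Y)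
    (fun K hK p hp => B0Nx253.av_gl_win hpen' hN' (hsub K hK).1 (hsub K hK).2 hX
      (sqrt_A le_rfl hη) hp)
    (fun K hK p hp => (hY p ((hsub K hK).2 hp)).trans (by norm_num))
  rw [e0] at u1
  -- the core
  set F' : Fin 4 → Fn := Function.update F m (fun z => tau (Hh t h) (F m z)) with hF'
  have hF'i : F' i = F i := by rw [hF', Function.update_of_ne hmi.symm]
  have hF'm : F' m = fun z => tau (Hh t h) (F m z) := by rw [hF', Function.update_self]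
  have hEx : ∀ l, GaIx256.ExE i (v + 1) R (T l) (g l) (F' m)
      (128 * t ^ (1 * (P.θ * P.g m)) + 24 * t ^ (1 * (P.θ * P.f m)) + 128 * (1 / Hh t h))
      (t ^ (1 * (P.θ * P.x m))) := by
    intro l
    rw [hF'm]
    exact GaMx446.exE_prc hP hd hk.le hm3 zero_le_one ht ht1 hPR hRW hFam.vm (hFam.opD l) hHh
  have hs0 : 0 ≤ 128 * t ^ (1 * (P.θ * P.g m)) + 24 * t ^ (1 * (P.θ * P.f m)) +
      128 * (1 / Hh t h) := by
    have a1 := Pw (1 * (P.θ * P.g m))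
    have a2 := Pw (1 * (P.θ * P.f m))
    have a3 := one_div_pos.2 hHh
    positivity
  have hAA : (2 : ℝ) ≤ AA := by unfold AA; norm_num
  have u2 := hcore hA.1 hFam hHt hHf.le hLa hRF hJI hPt (F := F')
    (s := 128 * t ^ (1 * (P.θ * P.g m)) + 24 * t ^ (1 * (P.θ * P.f m)) + 128 * (1 / Hh t h))
    (ε := t ^ (2 * σ)) (D := t ^ (1 * (P.θ * P.x m))) (Hh := Hh t h)
    (dd := t ^ (1 * (P.θ * P.x m) - 2 * σ - ff)) (τ := At kc * t ^ r0x) (A0 := AA) hF'i hs0 (Pw _)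
    (Pw _).le hHh (Pw _) hAA
    (fun p hp => by
      rw [hF'm]
      exact (TauWx253.av_tau hHh.le (F m)).trans (hF1 p (hRW hp)))
    (fun z => by
      rw [hF'm]
      exact tau_le hHh.le (F m z)) hEx hee he he' hkap hKl hr hN hX hη
    (numT hxx hff (by linarith) ht ht1 kc hr0)
    (mul_pos (by have := At_ge kc; linarith) (Pw _)) (m0 := t ^ c1) (Pw _) hηn hA.2
    (Y := fun z => tau (Hh t h) (Y z)) (fun z => tau_le hHh.le (Y z))
    (fun p hp => ((TauWx253.av_tau hHh.le Y).trans (hY p hp)).trans (by linarith))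
  rw [← hx, ← hy] at u2
  -- numbers
  have hl := Growth.len_pos J
  have hen' : en J X (fun z => tau (Hh t h) (Y z)) ≤ en J X Y := by
    unfold en
    have := pow_le_pow_left₀ (Growth.av_nonneg J _) (TauWx253.av_tau (p := J) hHh.le Y) 2
    linarith
  have hen := en_nonneg J X Y
  have hen0 := en_nonneg J X (fun z => tau (Hh t h) (Y z))
  have hT0 := Pw c1
  have hSL0 : 0 ≤ ∑ K ∈ S.filter (fun K => idx S K ≤ nn t nE), len K :=
    Finset.sum_nonneg fun q _ => (Growth.len_pos q).le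
  have hSL : ∑ K ∈ S.filter (fun K => idx S K ≤ nn t nE), len K ≤
      Kc * t ^ (-eC) * ((t ^ c1 + en J X Y) * len J) :=
    (Finset.sum_le_sum_of_subset_of_nonneg (Finset.filter_subset _ _)
      fun q _ _ => (Growth.len_pos q).le).trans hcnt
  have fin := fin4 (n := nn t nE) (gy := gy) (eC := eC) (c1 := c1) ht hKG hKB hKR hKH
    (A' := (t ^ c1 + en J X (fun z => tau (Hh t h) (Y z))) * len J)
    (mul_nonneg (by linarith) hl.le) (mul_le_mul_of_nonneg_right (by linarith) hl.le) hl.le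
    (mul_le_mul_of_nonneg_right (by linarith) hl.le) hSL0 hSL (hG t ht ht1 J) (hB t ht ht1)
    (hR t ht ht1) (hH t ht ht1)
  exact (u1.trans (add_le_add u2 le_rfl)).trans fin

end main

end Crest.Agent.R079.GwPx571
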