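import Crest.Agent.R079.GwQ_571
import Crest.Agent.R079.NJ_112

/-! R079, Step I, (G) words (helper571): **`InG` of `NJ_112`** from `GwQ_571.gwords_pow`.

* `inG` : any exponents with `GwP_571.Nm` (`2 c1 ≤ eC`);
* `inG_PF` : the final parameters of `NP_112`. -/

set_option autoImplicit false

namespace Crest.Agent.R079.GwRx571

open Finset Crest.Agent.R079.Grid Crest.Agent.R079.Growth Crest.Agent.R079.QRed
  Crest.Agent.R079.TWin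
open Crest.Agent.R079.RelW653 (vl NMP Jv Dv)
open Crest.Agent.R079.RelV653 Crest.Agent.R079.HWx323 Crest.Agent.R079.Chn110
open Crest.Agent.R079.TRec Crest.Agent.R079.T6bx252 Crest.Agent.R079.Tailx726 Crest.Agent.R079.Stk
  Crest.Agent.R079.AsmA844
open Crest.Agent.R079.GnMx45 (en en_nonneg)
open Crest.Agent.R079.FLDx263 Crest.Agent.R079.GnSx263 Crest.Agent.R079.GnNx263
  Crest.Agent.R079.PFx263 Crest.Agent.R079.GaDx571 Crest.Agent.R079.GaFx371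
  Crest.Agent.R079.WS112 Crest.Agent.R079.WS0112 Crest.Agent.R079.POx263
  Crest.Agent.R079.OpS276 Crest.Agent.R079.GnUx263 Crest.Agent.R079.SbWx795
  Crest.Agent.R079.NJ112 Crest.Agent.R079.GwPx571 Crest.Agent.R079.GwQx571
  Crest.Agent.R079.GaQx571

/-- **`InG`** -/
theorem inG {P : Prm} (hP : Ok0 P) {d ε k q3 : ℝ} {i m e e' : Fin 4} (hdd : Dst4 i m e e')
    (hm3 : m ≠ 3) {σ c1 kx nE eC gy r0x w t0 : ℝ} (ht01 : t0 ≤ 1)
    (hn : Nm P m k ((1 + ε) * (P.θ * P.g i)) (xxC P i) (ffC P i) σ c1 kx nE eC gy r0x w)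
    (heC : 2 * c1 ≤ eC) (p : Par) (kc : ℕ)
    (hkc : ∀ t, 0 < t → t ≤ t0 → p.kc t = kc)
    (hkap : ∀ t, 0 < t → t ≤ t0 → p.kap t = t ^ (-kx))
    (hKl : ∀ t, 0 < t → t ≤ t0 → 0 < p.Kl t)
    (hr : ∀ t, 0 < t → t ≤ t0 → ∀ q, 0 ≤ p.r t q)
    (hr0 : ∀ t, 0 < t → t ≤ t0 → p.r t 0 ≤ t ^ r0x) :
    ∃ K : ℝ, 0 ≤ K ∧ ∀ K', K ≤ K' → InG P d ε k q3 i m e e' c1 gy t0 K' nE p := by
  obtain ⟨K, hK, hm⟩ := gwords_pow (cl := clx P d i) hP hdd hm3 hn kc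
    (Kc := 2 * 2 ^ (p.k0 + 5)) (by positivity)
  refine ⟨K, hK, fun K' hKK => ?_⟩
  intro N B t W I F xy bb E R J Z v n T g al mu es hS htt
  have ht := hS.t0
  have ht1 : t ≤ 1 := htt.trans ht01
  have hB := hS.B0
  set m0 : ℝ := t ^ c1 with hm0
  have hm0p : 0 < m0 := Real.rpow_pos_of_pos ht _
  have hn1 : (0 : ℝ) < 2 * (nn t nE : ℕ) + 1 := by positivity
  refine ⟨min (1 / 2) (m0 / (2 * (nn t nE : ℕ) + 1)), lt_min (by norm_num) (div_pos hm0p hn1), ?_⟩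
  intro η hη hηη f hf S W' Rg Er hT hdr
  obtain ⟨C, hPt⟩ := hT.part
  have hη1 : η ≤ 1 / 2 := hηη.trans (min_le_left _ _)
  have hη2 : η * (2 * (nn t nE : ℕ) + 1) ≤ m0 := by
    have h1 : η ≤ m0 / (2 * (nn t nE : ℕ) + 1) := hηη.trans (min_le_right _ _)
    rwa [le_div_iff₀ hn1] at h1
  have hen := en_nonneg J (Z 0) (Z 1)
  have hl := (Growth.len_pos J).le
  have hcnt : ∑ K ∈ S, len K ≤ 2 * 2 ^ (p.k0 + 5) * t ^ (-eC) *
      ((t ^ c1 + en J (Z 0) (Z 1)) * len J) := by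
    have h1 := WdTx276.cnt_of hT hm0p (by positivity) hdr (Finset.Subset.refl S)
    refine h1.trans (mul_le_mul_of_nonneg_right ?_ (mul_nonneg (by linarith) hl))
    have h2 : m0 ^ 2 = t ^ (2 * c1) := by
      rw [hm0, sq, ← Real.rpow_add ht]
      congr 1
      ring
    have h3 : 2 * (2 : ℝ) ^ (p.k0 + 5) / m0 ^ 2 = 2 * 2 ^ (p.k0 + 5) * t ^ (-(2 * c1)) := by
      rw [h2, Real.rpow_neg ht.le, div_eq_mul_inv]
    rw [h3]
    exact mul_le_mul_of_nonneg_left (pw_le ht ht1 (by linarith)) (by positivity)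
  have f0 := hf 0
  have f1 := hf 1
  unfold PhiC at f0 f1
  rw [hkap t ht htt, hkc t ht htt] at f0 f1
  have key := hm t ht ht1 W I F hS.prc (xy 0) (xy 1) hS.oth bb E hS.adm R J hS.full hS.sub (Z 0)
    (Z 1) hS.sm v n T g al mu hS.fam (es 0) (es 1) hS.es01 (hS.es_ne 0) (hS.es_ne 1)
    (hS.slot 0).symm (hS.slot 1).symm (p.Kl t) (hKl t ht htt) (p.r t) (hr t ht htt)
    (hr0 t ht htt) η (f 0) (f 1) f0 f1 hη1 hη2 S W' C hPt hcnt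
  obtain ⟨k1, k2, k3⟩ := key
  have hfin : K * t ^ gy * ((t ^ c1 + en J (Z 0) (Z 1)) * len J) ≤
      K' * (1 + B) * t ^ gy * ((m0 + en J (Z 0) (Z 1)) * len J) := by
    have h1 : 0 ≤ t ^ gy * ((m0 + en J (Z 0) (Z 1)) * len J) :=
      mul_nonneg (Real.rpow_nonneg ht.le _) (mul_nonneg (by linarith) hl)
    have h2 : K ≤ K' * (1 + B) := by nlinarith
    calc K * t ^ gy * ((t ^ c1 + en J (Z 0) (Z 1)) * len J) =
        K * (t ^ gy * ((m0 + en J (Z 0) (Z 1)) * len J)) := by ring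
      _ ≤ K' * (1 + B) * (t ^ gy * ((m0 + en J (Z 0) (Z 1)) * len J)) :=
        mul_le_mul_of_nonneg_right h2 h1
      _ = _ := by ring
  exact ⟨k1.trans hfin, k2.trans hfin, k3.trans hfin⟩

/-- **`InG` for the final parameters** -/
theorem inG_PF {x C ρ c : ℝ} (h : NP112.Adm4 x C ρ c) {d ε k q3 : ℝ} {i m e e' : Fin 4}
    (hdd : Dst4 i m e e') (hm3 : m ≠ 3) {c1 kx nE gy r0x w t0 : ℝ} (ht01 : t0 ≤ 1)
    (hk : 0 < k) (hε : 0 ≤ ε) (hc1 : 0 ≤ c1) (hkx : 0 ≤ kx) (hnE : 0 ≤ nE) (hr0x : 0 ≤ r0x)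
    (hw : 0 < w) (hgy : 0 ≤ gy)
    (hG : gy + ε * (NP112.PF x C ρ c).θ + 3 * w ≤ kx / 2)
    (hB : gy + 2 * c1 + (1 + ε) * (NP112.PF x C ρ c).θ + w ≤ r0x)
    (hR : gy + nE + (1 + ε) * (NP112.PF x C ρ c).θ + c1 + 2 * w ≤
      (NP112.PF x C ρ c).θ * (x - 30)) (p : Par) (kc : ℕ)
    (hkc : ∀ t, 0 < t → t ≤ t0 → p.kc t = kc)
    (hkap : ∀ t, 0 < t → t ≤ t0 → p.kap t = t ^ (-kx))
    (hKl : ∀ t, 0 < t → t ≤ t0 → 0 < p.Kl t)
    (hr : ∀ t, 0 < t → t ≤ t0 → ∀ q, 0 ≤ p.r t q)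
    (hr0 : ∀ t, 0 < t → t ≤ t0 → p.r t 0 ≤ t ^ r0x) :
    ∃ K : ℝ, 0 ≤ K ∧ ∀ K', K ≤ K' →
      InG (NP112.PF x C ρ c) d ε k q3 i m e e' c1 gy t0 K' nE p :=
  inG (NP112.ok_PF h) hdd hm3 ht01
    (nm_PF h i m hk hε hc1 hkx hnE (by linarith) hr0x hw hgy hG hB hR) le_rfl p kc hkc hkap hKl hr
    hr0

end Crest.Agent.R079.GwRx571
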