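import Crest.Agent.R079.LabE_255
import Crest.Agent.R079.Wr_408
import Crest.Agent.R079.Wc_530
import Crest.Agent.R079.Leaf_259

/-! R079: the MAIN WORD of a static window for a GENERAL EDGE `e` (helper255; `MainW_259` is the case
`e = 0`, `j.succAbove (e + 2) = 3`).  `j` = frozen slot, `a = j.succAbove e`, `b = j.succAbove (e+1)` line slots,
static letter in the slot `m = j.succAbove (e+2)`.  Labels carry `√κ`.

* `main_windows` : Gram windows of the labels inside given windows;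
* `er0_eq`       : the comparison error of `wr_total` is the periodised kernel of `E + X`;
* `main_word`    : the main word on a window, from `Wr408.wr_total`.   helper259. -/

set_option autoImplicit false
set_option linter.unusedVariables false

namespace Crest.Agent.R079.MainEx255

open Finset Matrix Crest.Agent.R079.Grid Crest.Agent.R079.Growth Crest.Agent.R079.QRed
  Crest.Agent.R079.Glue Crest.Agent.R079.Tr230 Crest.Agent.R079.LK990 Crest.Agent.R079.EWG990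
  Crest.Agent.R079.LabEx255 Crest.Agent.R079.F2 Crest.Agent.R079.St2
  Crest.Agent.R079.LeafV71 Crest.Agent.R079.TWin Crest.Agent.R079.Ero526 Crest.Agent.R079.Cg408
  Crest.Agent.R079.LfK71
open scoped ComplexOrder MatrixOrder

/-- the relevant points of the reduced plane (`y_a, y_b ∈ iv J`, residues `r < 3`) -/
noncomputable def Z0 (j : Fin 4) (e : Fin 3) (J : Nd) : Finset (ℤ × ℤ × ℤ) :=
  (range 3).biUnion fun r =>
    (Wb71.Xs ((sl j - sl (j.succAbove (e + 1))) * (r : ℤ)) (-dd (j.succAbove e) (j.succAbove (e + 1))) J ×ˢ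
      Wb71.Xs ((sl j - sl (j.succAbove e)) * (r : ℤ)) (dd (j.succAbove e) (j.succAbove (e + 1))) J).image
      (fun q : ℤ × ℤ => pt e q.1 q.2)

lemma dj_ne (j : Fin 4) (e : Fin 3) : dd (j.succAbove e) (j.succAbove (e + 1)) ≠ 0 := by
  revert j e; decide

lemma dj_le (j : Fin 4) (e : Fin 3) : (dd (j.succAbove e) (j.succAbove (e + 1))).natAbs ≤ 3 := by
  revert j e; decide

lemma dst_j (j : Fin 4) (e : Fin 3) :
    Dst j (j.succAbove (e + 2)) (j.succAbove e) (j.succAbove (e + 1)) := by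
  revert j e; decide

lemma mem_Z0 (j : Fin 4) (e : Fin 3) {J : Nd} {r : ℕ} (hr : r < 3) {z z' : ℤ}
    (h1 : (sl j - sl (j.succAbove e)) * (r : ℤ) + dd (j.succAbove e) (j.succAbove (e + 1)) * z' ∈ iv J)
    (h2 : (sl j - sl (j.succAbove (e + 1))) * (r : ℤ) + -dd (j.succAbove e) (j.succAbove (e + 1)) * z ∈ iv J) :
    pt e z z' ∈ Z0 j e J := by
  unfold Z0
  rw [Finset.mem_biUnion]
  refine ⟨r, Finset.mem_range.2 hr, Finset.mem_image.2 ⟨(z, z'), Finset.mem_product.2 ⟨?_, ?_⟩, rfl⟩⟩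
  · exact (Wb71.mem_Xs (neg_ne_zero.2 (dj_ne j e))).2 h2
  · exact (Wb71.mem_Xs (dj_ne j e)).2 h1

section labels

variable (j : Fin 4) (e : Fin 3) (κ : ℝ) (T : Fin 3 → Finset ℤ) (g : Fin 3 → ℤ → ℤ → ℂ) {n : ℕ}
  (u v : Fin n → ℤ → ℤ → ℂ) (d : Fin n → ℂ) (S : Finset (ℤ × ℤ × ℤ))

/-- label vector on the `z` side, with the factor `√κ` -/
noncomputable def wL (r : ℕ) (z : ℤ) : {s // s ∈ S} × Fin n → ℂ :=
  ((Real.sqrt κ : ℝ) : ℂ) • wl e T g u d S (r : ℤ) z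

open Classical in
/-- label vector on the `z'` side as a function of the shadow `y_a`, with the factor `√κ` -/
noncomputable def vL (r : ℕ) (y : ℤ) : {s // s ∈ S} × Fin n → ℂ :=
  if dd (j.succAbove e) (j.succAbove (e + 1)) ∣ y - (sl j - sl (j.succAbove e)) * (r : ℤ) then
    ((Real.sqrt κ : ℝ) : ℂ) • vl e T g v d S (r : ℤ)
      ((y - (sl j - sl (j.succAbove e)) * (r : ℤ)) / dd (j.succAbove e) (j.succAbove (e + 1))) else 0

lemma vL_at (r : ℕ) (z' : ℤ) :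
    vL j e κ T g v d S r ((sl j - sl (j.succAbove e)) * (r : ℤ) +
      dd (j.succAbove e) (j.succAbove (e + 1)) * z') =
      ((Real.sqrt κ : ℝ) : ℂ) • vl e T g v d S (r : ℤ) z' := by
  unfold vL
  have e0 : (sl j - sl (j.succAbove e)) * (r : ℤ) + dd (j.succAbove e) (j.succAbove (e + 1)) * z' -
      (sl j - sl (j.succAbove e)) * (r : ℤ) = dd (j.succAbove e) (j.succAbove (e + 1)) * z' := by ring
  rw [e0, if_pos (Dvd.intro _ rfl), Int.mul_ediv_cancel_left _ (dj_ne j e)]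

lemma vL_supp (r : ℕ) (y : ℤ) (h : vL j e κ T g v d S r y ≠ 0) :
    ∃ z, y = (sl j - sl (j.succAbove e)) * (r : ℤ) + dd (j.succAbove e) (j.succAbove (e + 1)) * z := by
  unfold vL at h
  by_cases hd : dd (j.succAbove e) (j.succAbove (e + 1)) ∣ y - (sl j - sl (j.succAbove e)) * (r : ℤ)
  · obtain ⟨z, hz⟩ := hd
    exact ⟨z, by linarith⟩
  · rw [if_neg hd] at h
    exact absurd rfl h

lemma n2_smul {ι : Type*} [Fintype ι] (c : ℝ) (hc : 0 ≤ c) (x : ι → ℂ) :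
    n2 (((Real.sqrt c : ℝ) : ℂ) • x) = c * n2 x := by
  unfold n2
  rw [Finset.mul_sum]
  refine Finset.sum_congr rfl fun i _ => ?_
  rw [Pi.smul_apply, norm_smul, mul_pow, Complex.norm_real, Real.norm_of_nonneg (Real.sqrt_nonneg _),
    Real.sq_sqrt hc]

lemma n2_zero' {ι : Type*} [Fintype ι] : n2 (0 : ι → ℂ) = 0 := by
  unfold n2; simp

variable {j e κ T g u v d S}

lemma n2_wL {M D : ℝ} (hκ : 0 ≤ κ) (hM : 0 ≤ M) (hS0 : ∀ s ∈ S, cfz j s = 0)
    (hu : ∀ l w z, ‖u l w z‖ ≤ 1) (hd : ∑ l, ‖d l‖ ≤ D)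
    (hg : κ * ∑ x ∈ T (e + 2), ∑ x' ∈ T e, ‖g (e + 2) x x'‖ ^ 2 ≤ M) (r : ℕ) (z : ℤ) :
    n2 (wL e κ T g u d S r z) ≤ D * M := by
  unfold wL
  rw [n2_smul κ hκ]
  have h0 : 0 ≤ ∑ l, ‖d l‖ := Finset.sum_nonneg fun _ _ => norm_nonneg _
  calc κ * n2 (wl e T g u d S (r : ℤ) z)
      ≤ κ * ((∑ l, ‖d l‖) * ∑ x ∈ T (e + 2), ∑ x' ∈ T e, ‖g (e + 2) x x'‖ ^ 2) :=
        mul_le_mul_of_nonneg_left (n2_wl e T g u d S (r : ℤ) hS0 hu z) hκ
    _ = (∑ l, ‖d l‖) * (κ * ∑ x ∈ T (e + 2), ∑ x' ∈ T e, ‖g (e + 2) x x'‖ ^ 2) := by ring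
    _ ≤ D * M := mul_le_mul hd hg (mul_nonneg hκ (by positivity)) (h0.trans hd)

lemma n2_vL {M D : ℝ} (hκ : 0 ≤ κ) (hM : 0 ≤ M) (hS0 : ∀ s ∈ S, cfz j s = 0)
    (hv : ∀ l w z, ‖v l w z‖ ≤ 1) (hd : ∑ l, ‖d l‖ ≤ D)
    (hg : κ * ∑ x ∈ T (e + 1), ∑ x' ∈ T (e + 2), ‖g (e + 1) x x'‖ ^ 2 ≤ M) (r : ℕ) (y : ℤ) :
    n2 (vL j e κ T g v d S r y) ≤ D * M := by
  have h0 : 0 ≤ ∑ l, ‖d l‖ := Finset.sum_nonneg fun _ _ => norm_nonneg _
  unfold vL
  split_ifs with h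
  · rw [n2_smul κ hκ]
    calc _ ≤ κ * ((∑ l, ‖d l‖) * ∑ x ∈ T (e + 1), ∑ x' ∈ T (e + 2), ‖g (e + 1) x x'‖ ^ 2) :=
          mul_le_mul_of_nonneg_left (n2_vl e T g v d S (r : ℤ) hS0 hv _) hκ
      _ = (∑ l, ‖d l‖) * (κ * ∑ x ∈ T (e + 1), ∑ x' ∈ T (e + 2), ‖g (e + 1) x x'‖ ^ 2) := by ring
      _ ≤ D * M := mul_le_mul hd hg (mul_nonneg hκ (by positivity)) (h0.trans hd)
  · rw [n2_zero']
    exact mul_nonneg (h0.trans hd) hM

/-- **the labels give the main kernel** -/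
lemma lab_dot' (hκ : 0 ≤ κ) (r : ℕ) (z z' : ℤ) :
    star (wL e κ T g u d S r z) ⬝ᵥ vL j e κ T g v d S r ((sl j - sl (j.succAbove e)) * (r : ℤ) +
      dd (j.succAbove e) (j.succAbove (e + 1)) * z') =
      (κ : ℂ) * ∑ s ∈ S, ∑ l, d l * (al e T g (u l) (r : ℤ) s z * be e T g (v l) (r : ℤ) s z') := by
  rw [vL_at, wL, star_smul, smul_dotProduct, dotProduct_smul, lab_dot]
  have h1 : (starRingEnd ℂ) ((Real.sqrt κ : ℝ) : ℂ) = ((Real.sqrt κ : ℝ) : ℂ) :=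
    Complex.conj_ofReal _
  have h2 : ((Real.sqrt κ : ℝ) : ℂ) * ((Real.sqrt κ : ℝ) : ℂ) = (κ : ℂ) := by
    rw [← Complex.ofReal_mul, Real.mul_self_sqrt hκ]
  simp only [smul_eq_mul]
  rw [← mul_assoc, show star ((Real.sqrt κ : ℝ) : ℂ) = ((Real.sqrt κ : ℝ) : ℂ) from h1, h2]

end labels

/-! ### pointwise identities at a reduced point `(r, z, z')` -/

/-- the point `(T, A)` of the reduced coordinates -/
lemma red_pts (j : Fin 4) (e : Fin 3) (r z z' : ℤ) :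
    (sl j * r + sl (j.succAbove e) * z + sl (j.succAbove (e + 1)) * z') - sl j * (r + z + z') =
      cf j e * z + cf j (e + 1) * z' ∧
    (sl j * r + sl (j.succAbove e) * z + sl (j.succAbove (e + 1)) * z') -
        sl (j.succAbove e) * (r + z + z') =
      (sl j - sl (j.succAbove e)) * r + dd (j.succAbove e) (j.succAbove (e + 1)) * z' ∧
    (sl j * r + sl (j.succAbove e) * z + sl (j.succAbove (e + 1)) * z') -
        sl (j.succAbove (e + 1)) * (r + z + z') =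
      (sl j - sl (j.succAbove (e + 1))) * r + -dd (j.succAbove e) (j.succAbove (e + 1)) * z := by
  unfold cf dd
  refine ⟨?_, ?_, ?_⟩ <;> ring

/-- the main kernel at a reduced point -/
lemma main_at {j : Fin 4} {e : Fin 3} {κ : ℝ} (hκ : 0 ≤ κ) (T : Fin 3 → Finset ℤ) (g : Fin 3 → ℤ → ℤ → ℂ)
    {n : ℕ} (u v : Fin n → ℤ → ℤ → ℂ) (d : Fin n → ℂ) (J : Nd) {r : ℕ} (hr : r < 3) {z z' : ℤ}
    (h1 : (sl j - sl (j.succAbove e)) * (r : ℤ) + dd (j.succAbove e) (j.succAbove (e + 1)) * z' ∈ iv J)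
    (h2 : (sl j - sl (j.succAbove (e + 1))) * (r : ℤ) + -dd (j.succAbove e) (j.succAbove (e + 1)) * z ∈ iv J) :
    (κ : ℂ) * Per j T (PhiW (upk g e (fun w x x' => ∑ l, d l * (u l w x * v l w x'))))
      (cf j e * z + cf j (e + 1) * z') ((r : ℤ) + z + z') =
      star (wL e κ T g u d (Sh j T (Z0 j e J)) r z) ⬝ᵥ vL j e κ T g v d (Sh j T (Z0 j e J)) r
        ((sl j - sl (j.succAbove e)) * (r : ℤ) + dd (j.succAbove e) (j.succAbove (e + 1)) * z') := by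
  rw [lab_dot' hκ, main_labels j e T g u v d (Z0 j e J) (Sh j T (Z0 j e J)) (Finset.Subset.refl _)
    (fun s hs => Sh_plane hs) (r : ℤ) z z' (mem_Z0 j e hr h1 h2)]

/-- letters: `G` in the slot `m`, `1` elsewhere -/
noncomputable def oG (m : Fin 4) (G : ℤ → ℂ) : Fin 4 → ℤ → ℂ :=
  fun k => if k = m then G else fun _ => 1

/-- **the comparison error of `wr_total`** is the periodised kernel of `E` and `X` -/
theorem er0_eq {j : Fin 4} (e : Fin 3) {κ : ℝ} (hκ : 0 ≤ κ) (T : Fin 3 → Finset ℤ)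
    (g : Fin 3 → ℤ → ℤ → ℂ) {n : ℕ} (u v : Fin n → ℤ → ℤ → ℂ) (d : Fin n → ℂ)
    (E X : ℤ → ℤ → ℤ → ℂ) (P G : ℤ → ℂ) (J K : Nd)
    (hdec : ∀ w, ∀ z ∈ T e, ∀ z' ∈ T (e + 1), (sl j - sl (j.succAbove (e + 2))) * w + (sl (j.succAbove e) - sl (j.succAbove (e + 2))) * z +
        (sl (j.succAbove (e + 1)) - sl (j.succAbove (e + 2))) * z' ∈ iv K →
      g e z z' * G ((sl j - sl (j.succAbove (e + 2))) * w + (sl (j.succAbove e) - sl (j.succAbove (e + 2))) * z +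
        (sl (j.succAbove (e + 1)) - sl (j.succAbove (e + 2))) * z') =
        ∑ l, d l * (u l w z * v l w z') + E w z z' + X w z z')
    {r : ℕ} (hr : r < 3) {z z' : ℤ}
    (h1 : (sl j - sl (j.succAbove e)) * (r : ℤ) + dd (j.succAbove e) (j.succAbove (e + 1)) * z' ∈ iv J)
    (h2 : (sl j - sl (j.succAbove (e + 1))) * (r : ℤ) + -dd (j.succAbove e) (j.succAbove (e + 1)) * z ∈ iv J)
    (h3 : (sl j * (r : ℤ) + sl (j.succAbove e) * z + sl (j.succAbove (e + 1)) * z') -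
      sl (j.succAbove (e + 2)) * ((r : ℤ) + z + z') ∈ iv K)
    (hP : P (cf j e * z + cf j (e + 1) * z') = atom j κ T (g 0) (g 1) (g 2) (cf j e * z + cf j (e + 1) * z')) :
    Wb71.Er0 (K2 j j (j.succAbove (e + 2)) (j.succAbove e) (j.succAbove (e + 1)) P G (r : ℤ))
      (wL e κ T g u d (Sh j T (Z0 j e J)) r) (vL j e κ T g v d (Sh j T (Z0 j e J)) r)
      ((sl j - sl (j.succAbove e)) * (r : ℤ)) (dd (j.succAbove e) (j.succAbove (e + 1))) z z' =
      (κ : ℂ) * Per j T (PhiW (upk g e E)) (cf j e * z + cf j (e + 1) * z') ((r : ℤ) + z + z') +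
      (κ : ℂ) * Per j T (PhiW (upk g e X)) (cf j e * z + cf j (e + 1) * z') ((r : ℤ) + z + z') := by
  unfold Wb71.Er0 K2
  rw [(red_pts j e (r : ℤ) z z').1, hP, ← main_at hκ T g u v d J hr h1 h2]
  have hs := KP_split j e T g (oG (j.succAbove (e + 2)) G)
    (fun w x x' => ∑ l, d l * (u l w x * v l w x')) E X (iv K)
    (by
      intro w x hx x' hx' hy
      simp only [oG, if_true]
      exact hdec w x hx x' hx' hy)
    ((r : ℤ) + z + z') (sl j * (r : ℤ) + sl (j.succAbove e) * z + sl (j.succAbove (e + 1)) * z') h3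
  have hprod : ∀ s A : ℤ, ∏ e' : Fin 3, upF (oG (j.succAbove (e + 2)) G) (j.succAbove (e + 2))
      (j.succAbove e') (A - sl (j.succAbove e') * s) = 1 := by
    intro s A
    refine Finset.prod_eq_one fun e' _ => ?_
    unfold upF oG
    split_ifs <;> rfl
  have hprod2 : ∀ s A : ℤ, ∏ e' : Fin 3, oG (j.succAbove (e + 2)) G (j.succAbove e')
      (A - sl (j.succAbove e') * s) = G (A - sl (j.succAbove (e + 2)) * s) := by
    intro s A
    rw [Finset.prod_eq_single (e + 2)]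
    · simp only [oG, if_true]
    · intro e' _ he'
      have hne : j.succAbove e' ≠ j.succAbove (e + 2) :=
        fun h => he' (Fin.succAbove_right_injective h)
      simp only [oG, if_neg hne]
    · intro h; exact absurd (Finset.mem_univ _) h
  unfold KP at hs
  rw [hprod, hprod2, (red_pts j e (r : ℤ) z z').1] at hs
  simp only [mul_one] at hs
  have hat : atom j κ T (g 0) (g 1) (g 2) (cf j e * z + cf j (e + 1) * z') =
      (κ : ℂ) * Per j T (PhiW (fun e' _ => g e')) (cf j e * z + cf j (e + 1) * z')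
        ((r : ℤ) + z + z') := by
    unfold atom Per PhiW
    rfl
  rw [hat, mul_assoc, hs]
  ring

/-! ### windows -/

/-- closeness data of the labels on a window `V` -/
def LabOK {j : Fin 4} {e : Fin 3} {κ : ℝ} {T : Fin 3 → Finset ℤ} {g : Fin 3 → ℤ → ℤ → ℂ} {n : ℕ}
    (v : Fin n → ℤ → ℤ → ℂ) (d : Fin n → ℂ) (S : Finset (ℤ × ℤ × ℤ)) (V : Finset Nd) (θ : ℝ) :
    Prop :=
  ∀ r ∈ range 3, ∃ M : Matrix ({s // s ∈ S} × Fin n) ({s // s ∈ S} × Fin n) ℂ,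
    M.PosSemidef ∧ GrU V (vL j e κ T g v d S r) M θ ∧ GrL V (vL j e κ T g v d S r) M θ

/-- **S6 (A): GRAM WINDOWS** of the labels inside given windows -/
theorem main_windows {R : Finset Nd} {J : Nd} (hR : Full R J) (j : Fin 4) (e : Fin 3) {κ : ℝ} (hκ : 0 ≤ κ)
    (T : Fin 3 → Finset ℤ) (g : Fin 3 → ℤ → ℤ → ℂ) {M D : ℝ} (hM : 0 ≤ M)
    (hg1 : κ * ∑ x ∈ T (e + 1), ∑ x' ∈ T (e + 2), ‖g (e + 1) x x'‖ ^ 2 ≤ M)
    {S0 : Finset Nd} {V0 : Nd → Finset Nd} {C0 : ℝ} (h : Part R S0 V0 C0) (J0 : Nd)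
    (n : Nd → ℕ) (v : (K : Nd) → Fin (n K) → ℤ → ℤ → ℂ) (d : (K : Nd) → Fin (n K) → ℂ)
    (hv : ∀ K ∈ S0, ∀ l w z, ‖v K l w z‖ ≤ 1) (hd : ∀ K ∈ S0, ∑ l, ‖d K l‖ ≤ D)
    {θ : ℝ} (hθ : 0 < θ) :
    ∃ (S' : Finset Nd) (V' : Nd → Finset Nd),
      Part R S' V' ((1 + 3 * (2 + 40 * (D * M) ^ 2 / θ ^ 2)) * (1 + C0)) ∧
      ∀ K' ∈ S', ∃ K ∈ S0, K' ∈ V0 K ∧ V' K' ⊆ V0 K ∧
        LabOK (j := j) (e := e) (κ := κ) (T := T) (g := g) (v K) (d K) (Sh j T (Z0 j e J0)) (V' K') θ := by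
  classical
  have hg := Wc530.gram_inside (range 3) hR h
    (fun K => {s // s ∈ Sh j T (Z0 j e J0)} × Fin (n K))
    (fun K r => vL j e κ T g (v K) (d K) (Sh j T (Z0 j e J0)) r) (B := D * M) hθ
    (fun K hK r _ y => n2_vL hκ hM (fun s hs => Sh_plane hs) (hv K hK) (hd K hK) hg1 r y)
  obtain ⟨S', V', hP, hT⟩ := hg
  refine ⟨S', V', ?_, fun K' hK' => ?_⟩
  · rw [Finset.card_range] at hP
    push_cast at hP
    exact hP
  · obtain ⟨K, hK, h1, h2, h3⟩ := hT K' hK'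
    exact ⟨K, hK, h1, h2, h3⟩

/-- **S6 (B): THE MAIN WORD on a window** -/
theorem main_word {j : Fin 4} {e : Fin 3} {κ : ℝ} (hκ : 0 ≤ κ) (T : Fin 3 → Finset ℤ)
    (g : Fin 3 → ℤ → ℤ → ℂ) {M D : ℝ} (hM : 0 ≤ M) (hD0 : 0 ≤ D)
    (hg2 : κ * ∑ x ∈ T (e + 2), ∑ x' ∈ T e, ‖g (e + 2) x x'‖ ^ 2 ≤ M)
    {n : ℕ} (u v : Fin n → ℤ → ℤ → ℂ) (d : Fin n → ℂ) (hu : ∀ l w z, ‖u l w z‖ ≤ 1)
    (hd : ∑ l, ‖d l‖ ≤ D) (J0 : Nd) {W : Finset Nd} {J : Nd} (hW : Full W J) (hJ : iv J ⊆ iv J0)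
    {V : Finset Nd} (hWV : W ⊆ V) {θ : ℝ} (hθ : 0 < θ)
    (hlab : LabOK (j := j) (e := e) (κ := κ) (T := T) (g := g) v d (Sh j T (Z0 j e J0)) V θ)
    (F : Fin 4 → ℤ → ℂ)
    (hFa : ∀ p ∈ W, ∑ y ∈ iv p, ‖F (j.succAbove e) y‖ ^ 2 ≤ 1 * len p)
    (hFb : ∀ p ∈ W, ∑ y ∈ iv p, ‖F (j.succAbove (e + 1)) y‖ ^ 2 ≤ 1 * len p)
    {bb : ℤ} (hbb : bb = -1 ∨ bb = -7) (C : ℕ) (hC : 1 ≤ C) (P G : ℤ → ℂ) {k1 kE : ℝ}
    (hk1 : 0 ≤ k1) (hkE : 0 ≤ kE)
    (hleaf : ∀ r : ℕ, r < (dd (j.succAbove e) (j.succAbove (e + 1))).natAbs → ∀ k,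
      ∀ p ∈ Wa71.Pn W C ((sl j - sl (j.succAbove (e + 1))) * r) (-dd (j.succAbove e) (j.succAbove (e + 1))) k,
      Wb71.LK ((sl j - sl (j.succAbove (e + 1))) * r) (-dd (j.succAbove e) (j.succAbove (e + 1)))
        ((sl j - sl (j.succAbove e)) * r) (dd (j.succAbove e) (j.succAbove (e + 1)))
        (K2 j j (j.succAbove (e + 2)) (j.succAbove e) (j.succAbove (e + 1)) P G r)
        (Wb71.mk W C ((sl j - sl (j.succAbove (e + 1))) * r) (-dd (j.succAbove e) (j.succAbove (e + 1)))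
          (fun z => star (F (j.succAbove (e + 1)) ((sl j - sl (j.succAbove (e + 1))) * r +
            -dd (j.succAbove e) (j.succAbove (e + 1)) * z))) k) p ≤ k1 * len p)
    (herr : ∀ r : ℕ, r < (dd (j.succAbove e) (j.succAbove (e + 1))).natAbs → ∀ k,
      ∀ p ∈ Wa71.Pn W C ((sl j - sl (j.succAbove (e + 1))) * r) (-dd (j.succAbove e) (j.succAbove (e + 1))) k,
      Wb71.LK ((sl j - sl (j.succAbove (e + 1))) * r) (-dd (j.succAbove e) (j.succAbove (e + 1)))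
        ((sl j - sl (j.succAbove e)) * r) (dd (j.succAbove e) (j.succAbove (e + 1)))
        (Wb71.Er0 (K2 j j (j.succAbove (e + 2)) (j.succAbove e) (j.succAbove (e + 1)) P G r)
          (wL e κ T g u d (Sh j T (Z0 j e J0)) r) (vL j e κ T g v d (Sh j T (Z0 j e J0)) r)
          ((sl j - sl (j.succAbove e)) * r) (dd (j.succAbove e) (j.succAbove (e + 1))))
        (Wb71.mk W C ((sl j - sl (j.succAbove (e + 1))) * r) (-dd (j.succAbove e) (j.succAbove (e + 1)))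
          (fun z => star (F (j.succAbove (e + 1)) ((sl j - sl (j.succAbove (e + 1))) * r +
            -dd (j.succAbove e) (j.succAbove (e + 1)) * z))) k) p ≤ kE * len p)
    (X : Finset Nd) (hX : X ⊆ W) (hXb : ∀ p ∈ X, ¬ Bad W C p) :
    ∑ p ∈ X, ∑ x ∈ adm p.1 p.2, ‖LboxG (2 ^ p.1) bb (fun s A => (κ : ℂ) *
      KP j T (upk g e (fun w z z' => ∑ l, d l * (u l w z * v l w z'))) (upF F (j.succAbove (e + 2))) s A) x‖ ≤
      48 * (16 * (2 * (C + 2 + 1) + 1) + 1) * (2 * √(k1 + kE + θ * (D * M))) * len J := by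
  classical
  have hdl := dj_le j e
  have hsq : √(2 * k1 + 2 * kE + (θ + θ) * (D * M) * 1) * √((1 + θ / θ) * 1) =
      2 * √(k1 + kE + θ * (D * M)) := by
    rw [div_self hθ.ne', show 2 * k1 + 2 * kE + (θ + θ) * (D * M) * 1 =
      2 * (k1 + kE + θ * (D * M)) by ring, show ((1 : ℝ) + 1) * 1 = 2 by norm_num,
      Real.sqrt_mul (by norm_num), mul_right_comm, Real.mul_self_sqrt (by norm_num)]
  rw [← hsq]
  have hM' : ∀ r : ℕ, ∃ Mr : Matrix ({s // s ∈ Sh j T (Z0 j e J0)} × Fin n)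
      ({s // s ∈ Sh j T (Z0 j e J0)} × Fin n) ℂ, Mr.PosSemidef ∧
      (r < 3 → GrU V (vL j e κ T g v d (Sh j T (Z0 j e J0)) r) Mr θ ∧
        GrL V (vL j e κ T g v d (Sh j T (Z0 j e J0)) r) Mr θ) := by
    intro r
    by_cases hr : r < 3
    · obtain ⟨Mr, h1, h2, h3⟩ := hlab r (Finset.mem_range.2 hr)
      exact ⟨Mr, h1, fun _ => ⟨h2, h3⟩⟩
    · exact ⟨0, Matrix.PosSemidef.zero, fun h => absurd h hr⟩
  choose Mr hMr1 hMr2 using hM'
  refine Wr408.wr_total j (j.succAbove (e + 2)) (j.succAbove e) (j.succAbove (e + 1)) (dst_j j e) _ hbb hW C hC X hX hXb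
    (fun r => wL e κ T g u d (Sh j T (Z0 j e J0)) r) (fun r => vL j e κ T g v d (Sh j T (Z0 j e J0)) r) Mr
    hθ hθ.le (mul_nonneg hD0 hM) hMr1
    (fun r hr p hp => (hMr2 r (by omega)).1 p (hWV hp))
    (fun r hr p hp => (hMr2 r (by omega)).2 p (hWV hp))
    (fun r _ y hy => vL_supp j e κ T g v d _ r y hy)
    (fun r _ z _ => n2_wL hκ hM (fun s hs => Sh_plane hs) hu hd hg2 r z)
    (fun r z => star (F (j.succAbove (e + 1)) ((sl j - sl (j.succAbove (e + 1))) * r +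
            -dd (j.succAbove e) (j.succAbove (e + 1)) * z)))
    (fun r z => F (j.succAbove e) ((sl j - sl (j.succAbove e)) * r +
            dd (j.succAbove e) (j.succAbove (e + 1)) * z))
    (F (j.succAbove (e + 1))) (F (j.succAbove e)) (fun r z => by rw [norm_star]) (fun r z => le_rfl)
    1 1 k1 kE zero_le_one zero_le_one hk1 hkE hFa hFb ?_
    (fun r => K2 j j (j.succAbove (e + 2)) (j.succAbove e) (j.succAbove (e + 1)) P G r) hleaf herr
  intro r hr z z' h1 h2 h3 h4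
  have hr3 : r < 3 := by omega
  rw [← main_at hκ T g u v d J0 hr3 (hJ h1) (hJ h2)]
  unfold red KP
  beta_reduce
  obtain ⟨e1, e2, e3⟩ := red_pts j e (r : ℤ) z z'
  have hp3 : ∀ f : Fin 3 → ℂ, ∏ e' : Fin 3, f e' = f e * f (e + 1) * f (e + 2) := by
    intro f
    rw [Fin.prod_univ_three]
    obtain rfl | rfl | rfl := LabEx255.e3 e
    · rfl
    · show _ = f 1 * f 2 * f 0
      ring
    · show _ = f 2 * f 0 * f 1
      ring
  rw [e1, hp3, e2, e3, star_star]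
  have g0 : j.succAbove e ≠ j.succAbove (e + 2) := (dst_j j e).2.2.2.1.symm
  have g1 : j.succAbove (e + 1) ≠ j.succAbove (e + 2) := (dst_j j e).2.2.2.2.1.symm
  unfold upF
  rw [if_neg g0, if_neg g1, if_pos rfl]
  ring

end Crest.Agent.R079.MainEx255
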