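import Crest.Agent.R079.HEsC_702
import Crest.Agent.R079.MainE_255

/-! R079, Step II, general edge `e` (helper702): hypothesis `herr` of `MainEx255.main_word`. -/

set_option autoImplicit false
set_option linter.unusedVariables false

namespace Crest.Agent.R079.HErC702

open Finset Crest.Agent.R079.Grid Crest.Agent.R079.Growth Crest.Agent.R079.QRed
  Crest.Agent.R079.Glue Crest.Agent.R079.Tr230 Crest.Agent.R079.F2 Crest.Agent.R079.MainEx255
open Crest.Agent.R079.XR112 (E2T)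
open Crest.Agent.R079.HEr702 (kE)

/-- **`herr` of `MainEx255.main_word`** -/
theorem herr_main {j : Fin 4} (e : Fin 3) {κ : ℝ} (hκ : 0 ≤ κ) (T : Fin 3 → Finset ℤ)
    (g : Fin 3 → ℤ → ℤ → ℂ) (hg2 : ∀ z z', ‖g (e + 2) z z'‖ ≤ 1) {M V BE σ : ℝ} (hM0 : 0 ≤ M)
    (hV : 0 ≤ V) (hBE : 0 ≤ BE) (hσ : 0 ≤ σ)
    (h1 : κ * ∑ z ∈ T (e + 1), ∑ z' ∈ T (e + 2), ‖g (e + 1) z z'‖ ^ 2 ≤ M)
    (h2 : κ * ∑ z ∈ T (e + 2), ∑ z' ∈ T e, ‖g (e + 2) z z'‖ ^ 2 ≤ M)
    {n : ℕ} (u v : Fin n → ℤ → ℤ → ℂ) (d : Fin n → ℂ) (E X : ℤ → ℤ → ℤ → ℂ) (P G : ℤ → ℂ)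
    {J0 J K : Nd} (hJ0 : iv J ⊆ iv J0) (hJK : iv J ⊆ iv K)
    (hdec : ∀ w, ∀ z ∈ T e, ∀ z' ∈ T (e + 1), (sl j - sl (j.succAbove (e + 2))) * w +
        (sl (j.succAbove e) - sl (j.succAbove (e + 2))) * z +
        (sl (j.succAbove (e + 1)) - sl (j.succAbove (e + 2))) * z' ∈ iv K →
      g e z z' * G ((sl j - sl (j.succAbove (e + 2))) * w +
        (sl (j.succAbove e) - sl (j.succAbove (e + 2))) * z +
        (sl (j.succAbove (e + 1)) - sl (j.succAbove (e + 2))) * z') =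
        ∑ l, d l * (u l w z * v l w z') + E w z z' + X w z z')
    (hP : ∀ y ∈ iv J, P y = atom j κ T (g 0) (g 1) (g 2) y)
    {W : Finset Nd} (hW : Full W J) (C : ℕ) (hC : 7 ≤ C) (F : Fin 4 → ℤ → ℂ)
    (hFb : ∀ p ∈ W, ∑ y ∈ iv p, ‖F (j.succAbove (e + 1)) y‖ ^ 2 ≤ 1 * len p)
    (hE : E2T W (sl j - sl (j.succAbove (e + 2))) (sl (j.succAbove e) - sl (j.succAbove (e + 2)))
      (sl (j.succAbove (e + 1)) - sl (j.succAbove (e + 2))) (T e) (T (e + 1)) BE E) {κ' : ℕ}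
    (hX : EW49.S4W W κ' V σ (sl j - sl (j.succAbove (e + 2)))
      (sl (j.succAbove e) - sl (j.succAbove (e + 2)))
      (sl (j.succAbove (e + 1)) - sl (j.succAbove (e + 2))) (T e) (T (e + 1)) X (fun _ => 1)) :
    ∀ r : ℕ, r < (dd (j.succAbove e) (j.succAbove (e + 1))).natAbs → ∀ k,
      ∀ p ∈ Wa71.Pn W C ((sl j - sl (j.succAbove (e + 1))) * r)
        (-dd (j.succAbove e) (j.succAbove (e + 1))) k,
      Wb71.LK ((sl j - sl (j.succAbove (e + 1))) * r) (-dd (j.succAbove e) (j.succAbove (e + 1)))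
        ((sl j - sl (j.succAbove e)) * r) (dd (j.succAbove e) (j.succAbove (e + 1)))
        (Wb71.Er0 (LfK71.K2 j j (j.succAbove (e + 2)) (j.succAbove e) (j.succAbove (e + 1)) P G r)
          (wL e κ T g u d (Sh j T (Z0 j e J0)) r) (vL j e κ T g v d (Sh j T (Z0 j e J0)) r)
          ((sl j - sl (j.succAbove e)) * r) (dd (j.succAbove e) (j.succAbove (e + 1))))
        (Wb71.mk W C ((sl j - sl (j.succAbove (e + 1))) * r)
          (-dd (j.succAbove e) (j.succAbove (e + 1)))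
          (fun z => star (F (j.succAbove (e + 1)) ((sl j - sl (j.succAbove (e + 1))) * r +
            -dd (j.succAbove e) (j.succAbove (e + 1)) * z))) k) p ≤ kE κ M V BE σ 1 * len p := by
  intro r hr k p hp
  have hr3 : r < 3 := by have := dj_le j e; omega
  refine herr_val j e T g hκ hg2 hM0 hV hBE hσ zero_le_one h1 h2 hW C hC r _
    (F (j.succAbove (e + 1))) (fun z => by rw [norm_star]) hFb hE hX _ ?_ k p hp
  intro z z' g1 g2 g3 g4
  refine er0_eq e hκ T g u v d E X P G J0 K hdec hr3 (hJ0 g1) (hJ0 g2) ?_ (hP _ ?_)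
  · refine hJK ?_
    refine (congrArg (· ∈ iv J) ?_).mp g4
    ring
  · exact g3

end Crest.Agent.R079.HErC702
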