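import Crest.Agent.R079.HEs_702
import Crest.Agent.R079.MainW_259

/-! R079, Step II (RULE S), leaf S5 of note 781 (helper702): hypothesis `herr` of `MainW259.main_word`. -/

set_option autoImplicit false
set_option linter.unusedVariables false

namespace Crest.Agent.R079.HEr702

open Finset Crest.Agent.R079.Grid Crest.Agent.R079.Growth Crest.Agent.R079.QRed
  Crest.Agent.R079.Glue Crest.Agent.R079.Tr230 Crest.Agent.R079.F2 Crest.Agent.R079.MainW259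
open Crest.Agent.R079.XR112 (E2T)

/-- **`herr` of `MainW259.main_word`** -/
theorem herr_main {j : Fin 4} (hj : j ≠ 3) {κ : ℝ} (hκ : 0 ≤ κ) (T : Fin 3 → Finset ℤ)
    (g : Fin 3 → ℤ → ℤ → ℂ) (hg2 : ∀ z z', ‖g 2 z z'‖ ≤ 1) {M V BE σ : ℝ} (hM0 : 0 ≤ M)
    (hV : 0 ≤ V) (hBE : 0 ≤ BE) (hσ : 0 ≤ σ)
    (h1 : κ * ∑ z ∈ T 1, ∑ z' ∈ T 2, ‖g 1 z z'‖ ^ 2 ≤ M)
    (h2 : κ * ∑ z ∈ T 2, ∑ z' ∈ T 0, ‖g 2 z z'‖ ^ 2 ≤ M)
    {n : ℕ} (u v : Fin n → ℤ → ℤ → ℂ) (d : Fin n → ℂ) (E X : ℤ → ℤ → ℤ → ℂ) (P G : ℤ → ℂ)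
    {J0 J K : Nd} (hJ0 : iv J ⊆ iv J0) (hJK : iv J ⊆ iv K)
    (hdec : ∀ w, ∀ z ∈ T 0, ∀ z' ∈ T 1, (sl j - sl 3) * w + (sl (j.succAbove 0) - sl 3) * z +
        (sl (j.succAbove 1) - sl 3) * z' ∈ iv K →
      g 0 z z' * G ((sl j - sl 3) * w + (sl (j.succAbove 0) - sl 3) * z +
        (sl (j.succAbove 1) - sl 3) * z') =
        ∑ l, d l * (u l w z * v l w z') + E w z z' + X w z z')
    (hP : ∀ y ∈ iv J, P y = atom j κ T (g 0) (g 1) (g 2) y)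
    {W : Finset Nd} (hW : Full W J) (C : ℕ) (hC : 7 ≤ C) (F : Fin 4 → ℤ → ℂ)
    (hFb : ∀ p ∈ W, ∑ y ∈ iv p, ‖F (j.succAbove 1) y‖ ^ 2 ≤ 1 * len p)
    (hE : E2T W (sl j - sl 3) (sl (j.succAbove 0) - sl 3) (sl (j.succAbove 1) - sl 3) (T 0) (T 1)
      BE E) {κ' : ℕ}
    (hX : EW49.S4W W κ' V σ (sl j - sl 3) (sl (j.succAbove 0) - sl 3) (sl (j.succAbove 1) - sl 3)
      (T 0) (T 1) X (fun _ => 1)) :
    ∀ r : ℕ, r < (dd (j.succAbove 0) (j.succAbove 1)).natAbs → ∀ k,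
      ∀ p ∈ Wa71.Pn W C ((sl j - sl (j.succAbove 1)) * r) (-dd (j.succAbove 0) (j.succAbove 1)) k,
      Wb71.LK ((sl j - sl (j.succAbove 1)) * r) (-dd (j.succAbove 0) (j.succAbove 1))
        ((sl j - sl (j.succAbove 0)) * r) (dd (j.succAbove 0) (j.succAbove 1))
        (Wb71.Er0 (LfK71.K2 j j 3 (j.succAbove 0) (j.succAbove 1) P G r)
          (wL κ T g u d (Sh j T (Z0 j J0)) r) (vL j κ T g v d (Sh j T (Z0 j J0)) r)
          ((sl j - sl (j.succAbove 0)) * r) (dd (j.succAbove 0) (j.succAbove 1)))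
        (Wb71.mk W C ((sl j - sl (j.succAbove 1)) * r) (-dd (j.succAbove 0) (j.succAbove 1))
          (fun z => star (F (j.succAbove 1) ((sl j - sl (j.succAbove 1)) * r +
            -dd (j.succAbove 0) (j.succAbove 1) * z))) k) p ≤ kE κ M V BE σ 1 * len p := by
  intro r hr k p hp
  have h32 := sA2 j hj
  have hr3 : r < 3 := by have := dj_le j; omega
  rw [← h32] at hE hX
  refine herr_val j T g hκ hg2 hM0 hV hBE hσ zero_le_one h1 h2 hW C hC r _ (F (j.succAbove 1))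
    (fun z => by rw [norm_star]) hFb hE hX _ ?_ k p hp
  intro z z' g1 g2 g3 g4
  refine er0_eq hj hκ T g u v d E X P G J0 K hdec hr3 (hJ0 g1) (hJ0 g2) ?_ (hP _ ?_)
  · refine hJK ?_
    rw [h32] at g4
    refine (congrArg (· ∈ iv J) ?_).mp g4
    ring
  · exact g3

end Crest.Agent.R079.HEr702
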