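import Crest.Agent.R079.AU_110

/-! R079, notes 1119 (helper55) + 1128 (helper323): tools for the TREE LEMMA of the windows with holes
(helper323): exits of a window, adding sibling pairs, accumulated drift = drift of the inner nodes. -/

set_option autoImplicit false

namespace Crest.Agent.R079.HWx323

open Finset Crest.Agent.R079.Grid Crest.Agent.R079.Growth Crest.Agent.R079.QRed
  Crest.Agent.R079.TWin Crest.Agent.R079.Qe292 Crest.Agent.R079.Qh249
  Crest.Agent.R079.GLA110 Crest.Agent.R079.Chn110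

/-! ### exits of a window -/

open Classical in
/-- exits of the window `W` inside `R` -/
noncomputable def ex (R W : Finset Nd) : Finset Nd := R.filter (fun c => c ∉ W ∧ par c ∈ W)

lemma mem_ex {R W : Finset Nd} {c : Nd} : c ∈ ex R W ↔ c ∈ R ∧ c ∉ W ∧ par c ∈ W := by
  unfold ex
  rw [Finset.mem_filter]

variable {R W : Finset Nd} {J I : Nd}

lemma ex_sub (hW : Full W I) {c : Nd} (hc : c ∈ ex R W) : iv c ⊆ iv I :=
  (iv_par c).trans (hW.reg.1 _ (mem_ex.1 hc).2.2)

lemma ex_level (hW : Full W I) {c : Nd} (hc : c ∈ ex R W) : c.1 < I.1 := by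
  have h := Qe292.iv_level (hW.reg.1 _ (mem_ex.1 hc).2.2)
  simp only [par] at h
  omega

lemma up_mem (hW : Full W I) {p q : Nd} (hp : p ∈ W) (h1 : iv p ⊆ iv q) (h2 : iv q ⊆ iv I) :
    q ∈ W := hW.reg.2 p hp q h1 h2

/-- nothing of the window is below an exit -/
lemma ex_notMem (hW : Full W I) {c p : Nd} (hc : c ∈ ex R W) (hp : iv p ⊆ iv c) : p ∉ W :=
  fun h => (mem_ex.1 hc).2.1 (up_mem hW h hp (ex_sub hW hc))

lemma ex_disj (hW : Full W I) {c c' : Nd} (hc : c ∈ ex R W) (hc' : c' ∈ ex R W) {p : Nd}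
    (h : iv p ⊆ iv c) (h' : iv p ⊆ iv c') : c = c' := by
  have key : ∀ {a b : Nd}, a ∈ ex R W → b ∈ ex R W → iv a ⊆ iv b → a = b := by
    intro a b ha hb hab
    by_contra hne
    exact ex_notMem hW hb (par_sub hab hne) (mem_ex.1 ha).2.2
  rcases sub_total h h' with h1 | h1
  · exact key hc hc' h1
  · exact (key hc' hc h1).symm

lemma ex_disj_iv (hW : Full W I) {c c' : Nd} (hc : c ∈ ex R W) (hc' : c' ∈ ex R W)
    (hne : c ≠ c') : Disjoint (iv c) (iv c') := by
  rw [Finset.disjoint_left]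
  intro y hy hy'
  rcases iv_nest hy hy' with h1 | h1
  · exact hne (ex_disj hW hc hc' subset_rfl h1)
  · exact hne (ex_disj hW hc hc' h1 subset_rfl)

lemma ex_sib (hR : Full R J) (hW : Full W I) (hWR : W ⊆ R) {c : Nd} (hc : c ∈ ex R W) :
    sib c ∈ ex R W := by
  have h := mem_ex.1 hc
  refine mem_ex.2 ⟨sib_mem hR h.1 (hWR h.2.2), fun hs => ?_, by rw [par_sib]; exact h.2.2⟩
  have := sib_mem hW hs (by rw [par_sib]; exact h.2.2)
  rw [sib_sib] at this
  exact h.2.1 this

/-- a node of `R` below `I` is in the window or below an exit -/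
lemma ex_cover (hR : Full R J) (hW : Full W I) (hWR : W ⊆ R) :
    ∀ (n : ℕ) (p : Nd), I.1 = p.1 + n → p ∈ R → iv p ⊆ iv I → p ∉ W →
      ∃ c ∈ ex R W, iv p ⊆ iv c := by
  intro n
  induction n with
  | zero =>
    intro p hn _ hpI hpW
    exact absurd (eq_of_sub_level hpI (by omega) ▸ hW.top) hpW
  | succ n ih =>
    intro p hn hp hpI hpW
    have hne : p ≠ I := by rintro rfl; omega
    have h1 := par_sub hpI hne
    have hpar : par p ∈ R :=
      hR.reg.2 p hp _ (iv_par p) (h1.trans (hR.reg.1 I (hWR hW.top)))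
    by_cases hw : par p ∈ W
    · exact ⟨p, mem_ex.2 ⟨hp, hpW, hw⟩, subset_rfl⟩
    · obtain ⟨c, hc, hc'⟩ := ih (par p) (by simp only [par]; omega) hpar h1 hw
      exact ⟨c, hc, (iv_par p).trans hc'⟩

lemma ex_cover' (hR : Full R J) (hW : Full W I) (hWR : W ⊆ R) {p : Nd} (hp : p ∈ R)
    (hpI : iv p ⊆ iv I) (hpW : p ∉ W) : ∃ c ∈ ex R W, iv p ⊆ iv c := by
  have hl := Qe292.iv_level hpI
  exact ex_cover hR hW hWR (I.1 - p.1) p (by omega) hp hpI hpW

lemma sum_ex_le (hW : Full W I) : ∑ c ∈ ex R W, len c ≤ len I :=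
  sum_len_disj _ I (fun _ hc => ex_sub hW hc) fun _ hc _ hc' hne => ex_disj_iv hW hc hc' hne

/-- leaves of a full region are pairwise disjoint -/
lemma lf_disj {c c' : Nd} (hc : c ∈ lf W) (hc' : c' ∈ lf W) (hne : c ≠ c') :
    Disjoint (iv c) (iv c') := by
  rw [Finset.disjoint_left]
  intro y hy hy'
  have h := mem_lf.1 hc
  have h' := mem_lf.1 hc'
  rcases iv_nest hy hy' with h1 | h1
  · exact hne (h'.2 c h.1 h1)
  · exact hne (h.2 c' h'.1 h1).symm

/-- an interval of a leaf of `R` which lies in the window is disjoint from the exits -/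
lemma lf_ex_disj (hW : Full W I) {z c : Nd} (hz : z ∈ lf R) (hzW : z ∈ W)
    (hc : c ∈ ex R W) : Disjoint (iv z) (iv c) := by
  rw [Finset.disjoint_left]
  intro y hy hy'
  rcases iv_nest hy hy' with h1 | h1
  · exact ex_notMem hW hc h1 hzW
  · have e := (mem_lf.1 hz).2 c (mem_ex.1 hc).1 h1
    exact (mem_ex.1 hc).2.1 (e ▸ hzW)

/-! ### adding sibling pairs -/

open Classical in
/-- adding a sibling closed set of nodes whose parents are in the window -/
lemma full_add (hW : Full W I) {A : Finset Nd} (hp : ∀ c ∈ A, par c ∈ W)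
    (hs : ∀ c ∈ A, sib c ∈ A) : Full (W ∪ A) I := by
  refine ⟨⟨fun p hp' => ?_, fun p hp' q h1 h2 => ?_⟩, Finset.mem_union_left _ hW.top,
    bin_of fun c hc hpc => ?_⟩
  · rcases Finset.mem_union.1 hp' with h | h
    · exact hW.reg.1 p h
    · exact (iv_par p).trans (hW.reg.1 _ (hp p h))
  · rcases Finset.mem_union.1 hp' with h | h
    · exact Finset.mem_union_left _ (up_mem hW h h1 h2)
    · by_cases hqp : p = q
      · rw [← hqp]; exact hp'
      · exact Finset.mem_union_left _ (up_mem hW (hp p h) (par_sub h1 hqp) h2)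
  · rcases Finset.mem_union.1 hc with h | h
    · refine Finset.mem_union_left _ (sib_mem hW h ?_)
      refine up_mem hW h (iv_par c) ?_
      rcases Finset.mem_union.1 hpc with h' | h'
      · exact hW.reg.1 _ h'
      · exact (iv_par _).trans (hW.reg.1 _ (hp _ h'))
    · exact Finset.mem_union_right _ (hs c h)

open Classical in
lemma add_sub_lf (hW : Full W I) {A : Finset Nd} (hp : ∀ c ∈ A, par c ∈ W)
    (hn : ∀ c ∈ A, c ∉ W) : A ⊆ lf (W ∪ A) := by
  intro c hc
  refine mem_lf.2 ⟨Finset.mem_union_right _ hc, fun q hq hqc => ?_⟩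
  have hcI : iv c ⊆ iv I := (iv_par c).trans (hW.reg.1 _ (hp c hc))
  rcases Finset.mem_union.1 hq with h' | h'
  · exact absurd (up_mem hW h' hqc hcI) (hn c hc)
  · by_contra hne
    exact hn c hc (up_mem hW (hp q h') (par_sub hqc hne) hcI)

/-! ### accumulated drift -/

/-- **the accumulated drift at the leaves is the drift of the inner nodes** -/
lemma SL_acc_eq (hW : Full W I) (D : Nd → ℝ) :
    ∀ p ∈ W, SL W p (fun L => acc D p L) =
      ∑ q ∈ (W \ lf W).filter (fun q => iv q ⊆ iv p), len q * D q := by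
  classical
  refine full_ind hW (fun p hp => ?_) fun m l hp hnl h0 h1 e0 e1 => ?_
  · rw [SL_leaf hp, acc_self, mul_zero]
    symm
    refine Finset.sum_eq_zero fun q hq => ?_
    rw [Finset.mem_filter, Finset.mem_sdiff] at hq
    have := (mem_lf.1 hp).2 q hq.1.1 hq.2
    exact absurd (this ▸ hp) hq.1.2
  · have a0 := SL_acc_ch hW D (m := m) (l := l) (l' := 2 * l) (by omega) (sub_ch0 m l) h0
      (fun _ => 0)
    have a1 := SL_acc_ch hW D (m := m) (l := l) (l' := 2 * l + 1) (by omega) (sub_ch1 m l) h1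
      (fun _ => 0)
    simp only [zero_add] at a0 a1
    rw [SL_node hW hnl h0 h1, a0, a1, e0, e1]
    have hl0 : len (m + 1, l) = 2 * len (m, 2 * l) := len_ch m l _
    have hl1 : len (m, 2 * l + 1) = len (m, 2 * l) := rfl
    have hset : (W \ lf W).filter (fun q => iv q ⊆ iv (m + 1, l)) =
        insert (m + 1, l) ((W \ lf W).filter (fun q => iv q ⊆ iv (m, 2 * l)) ∪
          (W \ lf W).filter (fun q => iv q ⊆ iv (m, 2 * l + 1))) := by
      ext q
      simp only [Finset.mem_insert, Finset.mem_union, Finset.mem_filter]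
      constructor
      · rintro ⟨hq, hs⟩
        by_cases he : q = (m + 1, l)
        · exact Or.inl he
        right
        have hlev := Qe292.iv_level hs
        have hlt : q.1 < m + 1 := by
          rcases hlev.lt_or_eq with h | h
          · exact h
          · exact absurd (eq_of_sub_level hs h) he
        obtain ⟨y, hy⟩ := iv_nonempty q
        have hyp := hs hy
        rw [iv_ch, Finset.mem_union] at hyp
        rcases hyp with h | h
        · exact Or.inl ⟨hq, sub_of_level hy h (by simp only; omega)⟩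
        · exact Or.inr ⟨hq, sub_of_level hy h (by simp only; omega)⟩
      · rintro (rfl | ⟨hq, hs⟩ | ⟨hq, hs⟩)
        · exact ⟨Finset.mem_sdiff.2 ⟨hp, hnl⟩, subset_rfl⟩
        · exact ⟨hq, hs.trans (sub_ch0 m l)⟩
        · exact ⟨hq, hs.trans (sub_ch1 m l)⟩
    rw [hset, Finset.sum_insert, Finset.sum_union]
    · rw [hl0, hl1]
      ring
    · rw [Finset.disjoint_left]
      intro q hq hq'
      rw [Finset.mem_filter] at hq hq'
      obtain ⟨y, hy⟩ := iv_nonempty q
      exact Finset.disjoint_left.1 (disj_ch m l) (hq.2 hy) (hq'.2 hy)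
    · intro hmem
      rcases Finset.mem_union.1 hmem with h | h <;>
      · rw [Finset.mem_filter] at h
        have := Qe292.iv_level h.2
        simp only at this
        omega

lemma acc_lf_eq (hW : Full W I) (D : Nd → ℝ) :
    ∑ L ∈ lf W, len L * acc D I L = ∑ q ∈ W \ lf W, len q * D q := by
  classical
  have e : ∑ L ∈ lf W, len L * acc D I L = SL W I (fun L => acc D I L) := by
    unfold SL
    refine Finset.sum_congr ?_ fun _ _ => rfl
    exact (Finset.filter_eq_self.2 fun L hL => hW.reg.1 L (mem_lf.1 hL).1).symm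
  rw [e, SL_acc_eq hW D I hW.top]
  refine Finset.sum_congr ?_ fun _ _ => rfl
  rw [Finset.filter_eq_self]
  exact fun q hq => hW.reg.1 q (Finset.mem_sdiff.1 hq).1

/-- drift of the inner nodes below `x`: bounded by the bound of the accumulated drift -/
lemma drift_below_le (hW : Full W I) {D : Nd → ℝ} (hD : ∀ q, 0 ≤ D q) {τ : ℝ}
    (hg : ∀ L ∈ W, acc D I L ≤ τ) {x : Nd} (hx : x ∈ W) :
    ∑ q ∈ (W \ lf W).filter (fun q => iv q ⊆ iv x), len q * D q ≤ τ * len x := by
  rw [← SL_acc_eq hW D x hx, mul_comm, ← SL_const hW τ x hx]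
  refine SL_mono fun L hL hLx => ?_
  have h1 := acc_trans D hLx (hW.reg.1 x hx)
  have h2 := acc_nonneg hD I x
  have h3 := hg L (mem_lf.1 hL).1
  linarith

end Crest.Agent.R079.HWx323
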