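import Crest.Agent.R079.HWa_323

/-! R079, notes 1119 (helper55) + 1128 (helper323): TREE LEMMA of the windows with holes, definitions
and PAYMENTS of one window (helper323). -/

set_option autoImplicit false

namespace Crest.Agent.R079.HWx323

open Finset Crest.Agent.R079.Grid Crest.Agent.R079.Growth Crest.Agent.R079.QRed
  Crest.Agent.R079.TWin Crest.Agent.R079.Qe292 Crest.Agent.R079.Qh249
  Crest.Agent.R079.GLA110 Crest.Agent.R079.Chn110

/-- field (letters are ADDED: `D = ∑ i, D i`, `dev = ∑ i, dev i`) -/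
structure FldH (R : Finset Nd) (D : Nd → ℝ) (dev : Nd → Nd → ℝ) : Prop where
  D0 : ∀ q, 0 ≤ D q
  dev0 : ∀ I p, 0 ≤ dev I p
  self : ∀ I, dev I I = 0
  le : ∀ I ∈ R, ∀ W : Finset Nd, Full W I → W ⊆ R →
    ∑ p ∈ lf W, len p * dev I p ≤ ∑ q ∈ W \ lf W, len q * D q

/-- stop function: deviation + accumulated drift -/
noncomputable def gs (D : Nd → ℝ) (dev : Nd → Nd → ℝ) (I p : Nd) : ℝ := dev I p + acc D I p

/-- RANGE of the top `K` at the depth `d`: nodes of level `≥ d` of the adapted region `V K`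
which are not below a stop (`V K` = `R` below `K` minus the end layer of `K`) -/
noncomputable def rg (V : Nd → Finset Nd) (D : Nd → ℝ) (dev : Nd → Nd → ℝ) (τ : ℝ) (K : Nd)
    (d : ℕ) : Finset Nd :=
  Wd (Wf (V K) K d) (gs D dev) τ K

open Classical in
/-- tops of the end layer of `K` -/
noncomputable def lay (R : Finset Nd) (V : Nd → Finset Nd) (K : Nd) : Finset Nd :=
  R.filter (fun c => c ∉ V K ∧ par c ∈ V K)

open Classical in
/-- DEAD exits: leaves of the range above the exit level, except the exits to the end layer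
(= leaves of `R`, or a child has stopped) -/
noncomputable def dead (R : Finset Nd) (V : Nd → Finset Nd) (D : Nd → ℝ) (dev : Nd → Nd → ℝ)
    (τ : ℝ) (K : Nd) (d : ℕ) : Finset Nd :=
  (lf (rg V D dev τ K d)).filter (fun z => d < z.1 ∧ ∀ c ∈ lay R V K, par c ≠ z)

/-- drift of the range -/
noncomputable def rd (V : Nd → Finset Nd) (D : Nd → ℝ) (dev : Nd → Nd → ℝ) (τ : ℝ) (K : Nd)
    (d : ℕ) : ℝ :=
  ∑ q ∈ rg V D dev τ K d \ lf (rg V D dev τ K d), len q * D q

/-- total length of the dead exits -/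
noncomputable def dl (R : Finset Nd) (V : Nd → Finset Nd) (D : Nd → ℝ) (dev : Nd → Nd → ℝ)
    (τ : ℝ) (K : Nd) (d : ℕ) : ℝ :=
  ∑ z ∈ dead R V D dev τ K d, len z

open Classical in
/-- drift of the own nodes of a window -/
noncomputable def own (R : Finset Nd) (D : Nd → ℝ) (W : Finset Nd) : ℝ :=
  ∑ q ∈ W.filter (fun q => q ∉ lf R), len q * D q

open Classical in
/-- length of the leaves of `R` in the window -/
noncomputable def zl (R W : Finset Nd) : ℝ := ∑ z ∈ W.filter (fun z => z ∈ lf R), len z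

section pay

variable {R : Finset Nd} {J I : Nd} {D : Nd → ℝ} {dev : Nd → Nd → ℝ} {V : Nd → Finset Nd} {τ : ℝ}

lemma own_nonneg (hD : ∀ q, 0 ≤ D q) (W : Finset Nd) : 0 ≤ own R D W :=
  Finset.sum_nonneg fun q _ => mul_nonneg (Growth.len_pos q).le (hD q)

lemma zl_nonneg (W : Finset Nd) : 0 ≤ zl R W :=
  Finset.sum_nonneg fun q _ => (Growth.len_pos q).le

lemma gs_nonneg (h : FldH R D dev) (I p : Nd) : 0 ≤ gs D dev I p :=
  add_nonneg (h.dev0 I p) (acc_nonneg h.D0 I p)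

lemma gs_self (h : FldH R D dev) (I : Nd) : gs D dev I I = 0 := by
  unfold gs
  rw [h.self, acc_self, add_zero]

lemma rg_full (hV : Full (V I) I) {d : ℕ} (hd : d ≤ I.1) : Full (rg V D dev τ I d) I :=
  Wd_full (Wf_full hV hV.top hd) (Wf_full hV hV.top hd).top

lemma rg_subV {d : ℕ} : rg V D dev τ I d ⊆ V I := Wd_sub.trans Wf_sub

lemma mem_rg {d : ℕ} {p : Nd} :
    p ∈ rg V D dev τ I d ↔ d ≤ p.1 ∧ p ∈ rg V D dev τ I 0 := by
  unfold rg
  rw [mem_Wd, mem_Wd, mem_Wf, mem_Wf]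
  constructor
  · rintro ⟨⟨h1, h2, h3⟩, _, h5⟩
    refine ⟨h3, ⟨h1, h2, Nat.zero_le _⟩, h2, fun q hq hpq hqI hne => h5 q ?_ hpq hqI hne⟩
    have := mem_Wf.1 hq
    exact mem_Wf.2 ⟨this.1, this.2.1, h3.trans (Qe292.iv_level hpq)⟩
  · rintro ⟨h3, ⟨h1, h2, _⟩, _, h5⟩
    refine ⟨⟨h1, h2, h3⟩, h2, fun q hq hpq hqI hne => h5 q ?_ hpq hqI hne⟩
    have := mem_Wf.1 hq
    exact mem_Wf.2 ⟨this.1, this.2.1, Nat.zero_le _⟩

lemma rg_mono {d d' : ℕ} (hd : d ≤ d') : rg V D dev τ I d' ⊆ rg V D dev τ I d := by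
  intro p hp
  have := mem_rg.1 hp
  exact mem_rg.2 ⟨hd.trans this.1, this.2⟩

lemma rg_good (h : FldH R D dev) (hτ : 0 ≤ τ) {d : ℕ} {p : Nd} (hp : p ∈ rg V D dev τ I d) :
    gs D dev I p ≤ τ :=
  Wd_good (fun I => by rw [gs_self h]; exact hτ) hp

/-- an inner node has a node strictly below it -/
lemma inner_lt {W : Finset Nd} {q : Nd} (hq : q ∈ W) (hl : q ∉ lf W) :
    ∃ r ∈ W, iv r ⊆ iv q ∧ r.1 < q.1 := by
  have h2 : ∃ r ∈ W, iv r ⊆ iv q ∧ r ≠ q := by
    by_contra hcon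
    push Not at hcon
    exact hl (mem_lf.2 ⟨hq, hcon⟩)
  obtain ⟨r, hr, hrq, hne⟩ := h2
  refine ⟨r, hr, hrq, ?_⟩
  rcases (Qe292.iv_level hrq).lt_or_eq with h | h
  · exact h
  · exact absurd (eq_of_sub_level hrq h) hne

lemma inner_level {d : ℕ} {q : Nd} (hq : q ∈ rg V D dev τ I d)
    (hl : q ∉ lf (rg V D dev τ I d)) : d < q.1 := by
  obtain ⟨r, hr, _, hlt⟩ := inner_lt hq hl
  have := (mem_rg.1 hr).1
  omega

/-- **(P2)** drift of the range, at the depth `d` of the window or one level lower -/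
lemma rd_le (h : FldH R D dev) (hτ : 0 ≤ τ) (hV : Full (V I) I) (hVR : V I ⊆ R) {d d' : ℕ}
    (hdd : d ≤ d') (hdd' : d' ≤ d + 1) (hdI : d' ≤ I.1) {W : Finset Nd} (hW : Full W I)
    (hWr : W ⊆ rg V D dev τ I d') :
    rd V D dev τ I d ≤ own R D W + τ * ∑ x ∈ ex (rg V D dev τ I d') W, len x := by
  classical
  have hF := rg_full (D := D) (dev := dev) (τ := τ) hV (hdd.trans hdI)
  have hF' := rg_full (D := D) (dev := dev) (τ := τ) hV hdI
  set G := rg V D dev τ I d with hG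
  set G' := rg V D dev τ I d' with hG'
  have hGG : G' ⊆ G := rg_mono hdd
  have hGR : G ⊆ R := rg_subV.trans hVR
  have hsub : G \ lf G ⊆ W.filter (fun q => q ∉ lf R) ∪
      (ex G' W).biUnion (fun x => (G \ lf G).filter (fun q => iv q ⊆ iv x)) := by
    intro q hq
    have hq' := Finset.mem_sdiff.1 hq
    have hqG' : q ∈ G' := mem_rg.2 ⟨by have := inner_level hq'.1 hq'.2; omega, (mem_rg.1 hq'.1).2⟩
    by_cases hqW : q ∈ W
    · exact Finset.mem_union_left _ (Finset.mem_filter.2 ⟨hqW, (nl_sub hGR hq'.1 hq'.2).2⟩)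
    · obtain ⟨x, hx, hqx⟩ := ex_cover' hF' hW hWr hqG' (hF'.reg.1 q hqG') hqW
      exact Finset.mem_union_right _ (Finset.mem_biUnion.2 ⟨x, hx, Finset.mem_filter.2 ⟨hq, hqx⟩⟩)
  have hnn : ∀ q : Nd, 0 ≤ len q * D q := fun q => mul_nonneg (Growth.len_pos q).le (h.D0 q)
  unfold rd
  refine (Finset.sum_le_sum_of_subset_of_nonneg hsub fun q _ _ => hnn q).trans ?_
  refine (sum_union_le' _ _ _ hnn).trans (add_le_add (le_of_eq rfl) ?_)
  rw [Finset.sum_biUnion, Finset.mul_sum]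
  · refine Finset.sum_le_sum fun x hx => ?_
    have hxG : x ∈ G := hGG (mem_ex.1 hx).1
    refine drift_below_le hF h.D0 (fun L hL => ?_) hxG
    have := rg_good h hτ hL
    unfold gs at this
    linarith [h.dev0 I L]
  · intro x hx x' hx' hne
    rw [Function.onFun, Finset.disjoint_left]
    intro q hq hq'
    rw [Finset.mem_filter] at hq hq'
    exact hne (ex_disj hW (by exact_mod_cast hx) (by exact_mod_cast hx') hq.2 hq'.2)
where
  sum_union_le' (A B : Finset Nd) (f : Nd → ℝ) [DecidableEq Nd] (hf : ∀ q, 0 ≤ f q) :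
      ∑ q ∈ A ∪ B, f q ≤ ∑ q ∈ A, f q + ∑ q ∈ B, f q := by
    have := Finset.sum_union_inter (s₁ := A) (s₂ := B) (f := f)
    have h2 : 0 ≤ ∑ q ∈ A ∩ B, f q := Finset.sum_nonneg fun q _ => hf q
    linarith

open Classical in
/-- dead exits in the window, stopped by the field -/
noncomputable def ud (R : Finset Nd) (V : Nd → Finset Nd) (D : Nd → ℝ) (dev : Nd → Nd → ℝ) (τ : ℝ)
    (I : Nd) (d : ℕ) (W : Finset Nd) : Finset Nd :=
  (dead R V D dev τ I d).filter (fun z => z ∈ W ∧ z ∉ lf R)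

lemma mem_dead {d : ℕ} {z : Nd} : z ∈ dead R V D dev τ I d ↔
    z ∈ lf (rg V D dev τ I d) ∧ d < z.1 ∧ ∀ c ∈ lay R V I, par c ≠ z := by
  unfold dead
  rw [Finset.mem_filter]

/-- **(P3)** dead exits: leaves of `R`, stops of the field, look-ahead stops -/
lemma dl_le (hV : Full (V I) I) {d d' : ℕ}
    (hdd : d ≤ d') (hdd' : d' ≤ d + 1) (hdI : d' ≤ I.1) {W : Finset Nd} (hW : Full W I)
    (hWr : W ⊆ rg V D dev τ I d') :
    dl R V D dev τ I d ≤ ∑ z ∈ (dead R V D dev τ I d).filter (fun z => z ∈ W ∧ z ∈ lf R), len z +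
      ∑ z ∈ ud R V D dev τ I d W, len z + ∑ x ∈ ex (rg V D dev τ I d') W, len x := by
  classical
  have hF' := rg_full (D := D) (dev := dev) (τ := τ) hV hdI
  set A := dead R V D dev τ I d with hA
  set G' := rg V D dev τ I d' with hG'
  have hsub : A ⊆ (A.filter (fun z => z ∈ W ∧ z ∈ lf R) ∪ ud R V D dev τ I d W) ∪
      (ex G' W).biUnion (fun x => A.filter (fun q => iv q ⊆ iv x)) := by
    intro z hz
    have hz' := mem_dead.1 hz
    have hzG : z ∈ rg V D dev τ I d := (mem_lf.1 hz'.1).1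
    have hzG' : z ∈ G' := mem_rg.2 ⟨by have := hz'.2.1; omega, (mem_rg.1 hzG).2⟩
    by_cases hzW : z ∈ W
    · refine Finset.mem_union_left _ ?_
      by_cases hl : z ∈ lf R
      · exact Finset.mem_union_left _ (Finset.mem_filter.2 ⟨hz, hzW, hl⟩)
      · refine Finset.mem_union_right _ ?_
        unfold ud
        exact Finset.mem_filter.2 ⟨hz, hzW, hl⟩
    · obtain ⟨x, hx, hqx⟩ := ex_cover' hF' hW hWr hzG' (hF'.reg.1 z hzG') hzW
      exact Finset.mem_union_right _ (Finset.mem_biUnion.2 ⟨x, hx, Finset.mem_filter.2 ⟨hz, hqx⟩⟩)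
  have hnn : ∀ q : Nd, 0 ≤ len q := fun q => (Growth.len_pos q).le
  unfold dl
  refine (Finset.sum_le_sum_of_subset_of_nonneg hsub fun q _ _ => hnn q).trans ?_
  refine (rd_le.sum_union_le' _ _ _ hnn).trans (add_le_add (rd_le.sum_union_le' _ _ _ hnn) ?_)
  rw [Finset.sum_biUnion]
  · refine Finset.sum_le_sum fun x hx => sum_len_disj _ x (fun c hc => (Finset.mem_filter.1 hc).2)
      fun c hc c' hc' hne => lf_disj (mem_dead.1 (Finset.mem_filter.1 hc).1).1
        (mem_dead.1 (Finset.mem_filter.1 hc').1).1 hne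
  · intro x hx x' hx' hne
    rw [Function.onFun, Finset.disjoint_left]
    intro q hq hq'
    rw [Finset.mem_filter] at hq hq'
    exact hne (ex_disj hW (by exact_mod_cast hx) (by exact_mod_cast hx') hq.2 hq'.2)

/-- sibling closed sets: half of the threshold is paid -/
lemma half_sum {A : Finset Nd} {g : Nd → ℝ} (hg : ∀ c, 0 ≤ g c) (hs : ∀ c ∈ A, sib c ∈ A)
    (hb : ∀ c ∈ A, τ < g c ∨ τ < g (sib c)) :
    τ / 2 * ∑ c ∈ A, len c ≤ ∑ c ∈ A, len c * g c := by
  have e1 : ∑ c ∈ A, len (sib c) * g (sib c) = ∑ c ∈ A, len c * g c :=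
    Finset.sum_nbij' sib sib hs hs (fun c _ => sib_sib c) (fun c _ => sib_sib c) fun c _ => rfl
  simp only [len_sib] at e1
  have e : ∑ c ∈ A, len c * g c = 1 / 2 * ∑ c ∈ A, len c * (g c + g (sib c)) := by
    simp only [mul_add, Finset.sum_add_distrib]
    rw [e1]
    ring
  rw [e, Finset.mul_sum, Finset.mul_sum]
  refine Finset.sum_le_sum fun c hc => ?_
  have hsum : τ ≤ g c + g (sib c) := by
    rcases hb c hc with h | h
    · linarith [hg (sib c)]
    · linarith [hg c]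
  have := mul_le_mul_of_nonneg_left hsum (Growth.len_pos c).le
  linarith

/-- **(P4)** the stops of the field are paid by the own drift -/
lemma ud_le (hR : Full R J) (h : FldH R D dev) (hI : I ∈ R)
    (hV : Full (V I) I) (hVR : V I ⊆ R) {d d' : ℕ}
    (hdd : d ≤ d') (hdI : d' ≤ I.1) {W : Finset Nd} (hW : Full W I)
    (hWr : W ⊆ rg V D dev τ I d') :
    τ / 4 * ∑ z ∈ ud R V D dev τ I d W, len z ≤ own R D W := by
  classical
  have hF := rg_full (D := D) (dev := dev) (τ := τ) hV (hdd.trans hdI)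
  have hF' := rg_full (D := D) (dev := dev) (τ := τ) hV hdI
  set G := rg V D dev τ I d with hG
  set G' := rg V D dev τ I d' with hG'
  have hGG : G' ⊆ G := rg_mono hdd
  have hGR : G ⊆ R := rg_subV.trans hVR
  have hWR : W ⊆ R := hWr.trans (hGG.trans hGR)
  set U := ud R V D dev τ I d W with hU
  have mU : ∀ {z}, z ∈ U → (z ∈ lf G ∧ d < z.1 ∧ ∀ c ∈ lay R V I, par c ≠ z) ∧ z ∈ W ∧ z ∉ lf R := by
    intro z hz
    have := Finset.mem_filter.1 hz
    exact ⟨mem_dead.1 this.1, this.2⟩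
  set A : Finset Nd := R.filter (fun c => par c ∈ U) with hA
  have mA : ∀ {c}, c ∈ A ↔ c ∈ R ∧ par c ∈ U := by
    intro c
    rw [hA, Finset.mem_filter]
  have hAW : ∀ c ∈ A, par c ∈ W := fun c hc => (mU (mA.1 hc).2).2.1
  have hAs : ∀ c ∈ A, sib c ∈ A := by
    intro c hc
    have := mA.1 hc
    exact mA.2 ⟨sib_mem hR this.1 (hWR (hAW c hc)), by rw [par_sib]; exact this.2⟩
  have hAG : ∀ c ∈ A, c ∉ G := by
    intro c hc hcG
    have h1 := (mem_lf.1 (mU (mA.1 hc).2).1.1).2 c hcG (iv_par c)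
    have h2 := congrArg Prod.fst h1
    simp only [par] at h2
    omega
  have hAn : ∀ c ∈ A, c ∉ W := fun c hc hcW => hAG c hc (hGG (hWr hcW))
  have hATp : ∀ c ∈ A, c ∈ Tp (Wf (V I) I d) (gs D dev) τ I := by
    intro c hc
    have hm := mA.1 hc
    have hu := mU hm.2
    have hpV : par c ∈ V I := rg_subV ((mem_lf.1 hu.1.1).1)
    have hcV : c ∈ V I := by
      by_contra hcon
      exact hu.1.2.2 c (by unfold lay; exact Finset.mem_filter.2 ⟨hm.1, hcon, hpV⟩) rfl
    have hlev : d ≤ c.1 := by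
      have := hu.1.2.1
      simp only [par] at this
      omega
    exact mem_Tp.2 ⟨mem_Wf.2 ⟨hcV, hV.reg.1 c hcV, hlev⟩, hV.reg.1 c hcV, hAG c hc,
      (mem_lf.1 hu.1.1).1⟩
  have hfull := full_add hW hAW hAs
  have hlf := add_sub_lf hW hAW hAn
  have hWAR : W ∪ A ⊆ R := Finset.union_subset hWR fun c hc => (mA.1 hc).1
  -- the drift of the inner nodes
  have c0 : ∑ q ∈ (W ∪ A) \ lf (W ∪ A), len q * D q ≤ own R D W := by
    unfold own
    refine Finset.sum_le_sum_of_subset_of_nonneg ?_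
      fun q _ _ => mul_nonneg (Growth.len_pos q).le (h.D0 q)
    intro q hq
    have hq' := Finset.mem_sdiff.1 hq
    refine Finset.mem_filter.2 ⟨?_, (nl_sub hWAR hq'.1 hq'.2).2⟩
    rcases Finset.mem_union.1 hq'.1 with h1 | h1
    · exact h1
    · exact absurd (hlf h1) hq'.2
  have c1 := h.le I hI _ hfull hWAR
  have c2 : ∑ c ∈ A, len c * dev I c ≤ ∑ p ∈ lf (W ∪ A), len p * dev I p :=
    Finset.sum_le_sum_of_subset_of_nonneg hlf fun p _ _ =>
      mul_nonneg (Growth.len_pos p).le (h.dev0 I p)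
  have c3 := acc_lf_eq hfull D
  have c4 : ∑ c ∈ A, len c * acc D I c ≤ ∑ p ∈ lf (W ∪ A), len p * acc D I p :=
    Finset.sum_le_sum_of_subset_of_nonneg hlf fun p _ _ =>
      mul_nonneg (Growth.len_pos p).le (acc_nonneg h.D0 I p)
  have c5 : ∑ c ∈ A, len c * gs D dev I c =
      ∑ c ∈ A, len c * dev I c + ∑ c ∈ A, len c * acc D I c := by
    unfold gs
    simp only [mul_add, Finset.sum_add_distrib]
  have c6 := half_sum (τ := τ) (A := A) (g := gs D dev I) (gs_nonneg h I) hAs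
    fun c hc => Tp_bad (hATp c hc)
  -- the lengths
  have c7 : ∑ z ∈ U, len z ≤ ∑ c ∈ A, len c := by
    have hmaps : ∀ c ∈ A, par c ∈ U := fun c hc => (mA.1 hc).2
    rw [← Finset.sum_fiberwise_of_maps_to hmaps]
    refine Finset.sum_le_sum fun z hz => ?_
    have hu := mU hz
    have hzR : z ∈ R := hWR hu.2.1
    obtain ⟨m, l, rfl, h0, h1⟩ := children_mem hR hzR hu.2.2
    have e0 : par (m, 2 * l) = (m + 1, l) := Prod.ext rfl (by simp only [par]; omega)
    have e1 : par (m, 2 * l + 1) = (m + 1, l) := Prod.ext rfl (by simp only [par]; omega)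
    have hs : ({(m, 2 * l), (m, 2 * l + 1)} : Finset Nd) ⊆ A.filter (fun c => par c = (m + 1, l)) := by
      intro c hc
      rw [Finset.mem_insert, Finset.mem_singleton] at hc
      rcases hc with rfl | rfl
      · exact Finset.mem_filter.2 ⟨mA.2 ⟨h0, by rw [e0]; exact hz⟩, e0⟩
      · exact Finset.mem_filter.2 ⟨mA.2 ⟨h1, by rw [e1]; exact hz⟩, e1⟩
    refine le_trans (le_of_eq ?_) (Finset.sum_le_sum_of_subset_of_nonneg hs
      fun q _ _ => (Growth.len_pos q).le)
    rw [Finset.sum_pair (by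
      intro hh
      have := congrArg Prod.snd hh
      simp only at this
      omega)]
    have hl0 : len (m + 1, l) = 2 * len (m, 2 * l) := len_ch m l _
    have hl1 : len (m, 2 * l + 1) = len (m, 2 * l) := rfl
    rw [hl0, hl1]
    ring
  rcases le_or_gt 0 τ with hτ | hτ
  · have := mul_le_mul_of_nonneg_left c7 (show 0 ≤ τ / 4 by positivity)
    linarith
  · have h1 : 0 ≤ ∑ z ∈ U, len z := Finset.sum_nonneg fun q _ => (Growth.len_pos q).le
    have h2 := own_nonneg (R := R) h.D0 W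
    nlinarith

end pay

end Crest.Agent.R079.HWx323
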