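import Crest.Agent.R079.Cell_37

/-! R079 (helper37): HANKEL / TOEPLITZ KERNELS.  `hankel_op`: for integers `α, β ≠ 0` and every boxes
`X, Y` the kernel `k (α x + β y + c)` has operator norm at most `sup_ξ |∑ k(z) e(ξ z)|` (finite Fourier
analysis with a large period, no `ZMod`). -/

set_option autoImplicit false

namespace Crest.Agent.R079.Hank37

open Finset Crest.Agent.R079.Cell37

theorem ee_zero : ee 0 = 1 := by unfold ee; simp

theorem ee_int (n : ℤ) : ee (n : ℝ) = 1 := by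
  unfold ee
  rw [Complex.exp_eq_one_iff]
  refine ⟨n, ?_⟩
  push_cast
  ring

theorem ee_eq_one {x : ℝ} (h : ee x = 1) : ∃ n : ℤ, x = n := by
  unfold ee at h
  rw [Complex.exp_eq_one_iff] at h
  obtain ⟨n, hn⟩ := h
  refine ⟨n, ?_⟩
  have h1 : (2 * Real.pi * Complex.I : ℂ) ≠ 0 := by
    simp [Real.pi_ne_zero, Complex.I_ne_zero]
  have h2 : ((x : ℝ) : ℂ) * (2 * Real.pi * Complex.I) = ((n : ℝ) : ℂ) * (2 * Real.pi * Complex.I) := by
    push_cast at hn ⊢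
    linear_combination hn
  exact_mod_cast mul_right_cancel₀ h1 h2

theorem ee_pow (x : ℝ) (m : ℕ) : ee x ^ m = ee (m * x) := by
  induction m with
  | zero => simp [ee_zero]
  | succ m ih => rw [pow_succ, ih, ← ee_add]; congr 1; push_cast; ring

/-- orthogonality -/
theorem orth {N : ℕ} (hN : 0 < N) {z : ℤ} (hz : |z| < N) :
    ∑ η ∈ Finset.range N, ee ((η : ℝ) * ((z : ℝ) / N)) = if z = 0 then (N : ℂ) else 0 := by
  have hN' : (0 : ℝ) < N := by exact_mod_cast hN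
  by_cases h0 : z = 0
  · rw [if_pos h0, h0]
    simp [ee_zero]
  · rw [if_neg h0]
    have h1 : ee ((z : ℝ) / N) ≠ 1 := by
      intro h
      obtain ⟨n, hn⟩ := ee_eq_one h
      rw [div_eq_iff hN'.ne'] at hn
      have hn' : z = n * N := by exact_mod_cast hn
      rcases eq_or_ne n 0 with h2 | h2
      · exact h0 (by rw [hn', h2, zero_mul])
      · have h3 : (1 : ℤ) ≤ |n| := Int.one_le_abs h2
        have h4 : |z| = |n| * N := by rw [hn', abs_mul]; simp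
        have h5 : (0 : ℤ) < N := by exact_mod_cast hN
        nlinarith
    have h2 : ∑ η ∈ Finset.range N, ee ((η : ℝ) * ((z : ℝ) / N)) =
        ∑ η ∈ Finset.range N, ee ((z : ℝ) / N) ^ η :=
      Finset.sum_congr rfl fun η _ => (ee_pow _ _).symm
    rw [h2, geom_sum_eq h1, ee_pow, mul_div_cancel₀ _ hN'.ne', ee_int]
    simp

/-- Parseval -/
theorem parseval {N : ℕ} (hN : 0 < N) (X : Finset ℤ) (f : ℤ → ℂ) {α : ℤ} (hα : α ≠ 0)
    (hX : ∀ x ∈ X, ∀ x' ∈ X, |α * x - α * x'| < N) :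
    ∑ η ∈ Finset.range N, ‖∑ x ∈ X, f x * ee ((η : ℝ) * (((α * x : ℤ) : ℝ) / N))‖ ^ 2 =
      N * ∑ x ∈ X, ‖f x‖ ^ 2 := by
  have hc : ((∑ η ∈ Finset.range N, ‖∑ x ∈ X, f x * ee ((η : ℝ) * (((α * x : ℤ) : ℝ) / N))‖ ^ 2 :
      ℝ) : ℂ) = ((N * ∑ x ∈ X, ‖f x‖ ^ 2 : ℝ) : ℂ) := by
    push_cast
    have h1 : ∀ η ∈ Finset.range N, ((‖∑ x ∈ X, f x * ee ((η : ℝ) * (((α : ℝ) * x) / N))‖ : ℝ) : ℂ) ^ 2
        = ∑ x ∈ X, ∑ x' ∈ X, f x * (starRingEnd ℂ) (f x') *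
          ee ((η : ℝ) * (((α * x - α * x' : ℤ) : ℝ) / N)) := by
      intro η _
      rw [← Complex.ofReal_pow, ← Complex.normSq_eq_norm_sq, ← Complex.mul_conj, map_sum,
        Finset.sum_mul_sum]
      refine Finset.sum_congr rfl fun x _ => Finset.sum_congr rfl fun x' _ => ?_
      rw [map_mul, ee_conj]
      have : ee ((η : ℝ) * (((α * x - α * x' : ℤ) : ℝ) / N)) =
          ee ((η : ℝ) * (((α : ℝ) * x) / N)) * ee (-((η : ℝ) * (((α : ℝ) * x') / N))) := by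
        rw [← ee_add]; congr 1; push_cast; ring
      rw [this]; ring
    rw [Finset.sum_congr rfl h1, Finset.sum_comm]
    simp only [Finset.mul_sum]
    refine Finset.sum_congr rfl fun x hx => ?_
    rw [Finset.sum_comm]
    have h2 : ∀ x' ∈ X, ∑ η ∈ Finset.range N, f x * (starRingEnd ℂ) (f x') *
        ee ((η : ℝ) * (((α * x - α * x' : ℤ) : ℝ) / N)) =
        if x' = x then (N : ℂ) * ((‖f x‖ : ℝ) : ℂ) ^ 2 else 0 := by
      intro x' hx'
      rw [← Finset.mul_sum, orth hN (hX x hx x' hx')]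
      by_cases h3 : x' = x
      · rw [if_pos h3, h3, sub_self, if_pos rfl, Complex.mul_conj, Complex.normSq_eq_norm_sq]
        push_cast; ring
      · rw [if_neg h3, if_neg, mul_zero]
        intro h4
        apply h3
        have h5 : α * x = α * x' := by linarith
        exact (mul_left_cancel₀ hα h5).symm
    rw [Finset.sum_congr rfl h2, Finset.sum_ite_eq' X x, if_pos hx]
  exact_mod_cast hc

/-- **operator norm of a Hankel kernel** -/
theorem hankel_op (Z X Y : Finset ℤ) (k f g : ℤ → ℂ) {α β : ℤ} (hα : α ≠ 0) (hβ : β ≠ 0) (c : ℤ)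
    {B : ℝ} (hB : ∀ ξ : ℝ, ‖∑ z ∈ Z, k z * ee (ξ * (z : ℝ))‖ ≤ B) :
    ‖∑ x ∈ X, ∑ y ∈ Y, (if α * x + β * y + c ∈ Z then k (α * x + β * y + c) else 0) * f x * g y‖ ≤
      B * Real.sqrt (∑ x ∈ X, ‖f x‖ ^ 2) * Real.sqrt (∑ y ∈ Y, ‖g y‖ ^ 2) := by
  have hB0 : 0 ≤ B := (norm_nonneg _).trans (hB 0)
  -- a large period
  obtain ⟨N1, hN1⟩ := ((X ×ˢ X).image (fun x => (|α * x.1 - α * x.2|).toNat)).exists_le
  obtain ⟨N2, hN2⟩ := ((Y ×ˢ Y).image (fun x => (|β * x.1 - β * x.2|).toNat)).exists_le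
  obtain ⟨N3, hN3⟩ := ((X ×ˢ (Y ×ˢ Z)).image
    (fun x => (|α * x.1 + β * x.2.1 + c - x.2.2|).toNat)).exists_le
  set N : ℕ := N1 + N2 + N3 + 1 with hN
  have hNp : 0 < N := by omega
  have hX : ∀ x ∈ X, ∀ x' ∈ X, |α * x - α * x'| < N := by
    intro x hx x' hx'
    have := hN1 (|α * x - α * x'|).toNat (Finset.mem_image.2 ⟨(x, x'), by simp [hx, hx'], rfl⟩)
    omega
  have hY : ∀ x ∈ Y, ∀ x' ∈ Y, |β * x - β * x'| < N := by
    intro x hx x' hx'
    have := hN2 (|β * x - β * x'|).toNat (Finset.mem_image.2 ⟨(x, x'), by simp [hx, hx'], rfl⟩)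
    omega
  have hZ : ∀ x ∈ X, ∀ y ∈ Y, ∀ z ∈ Z, |α * x + β * y + c - z| < N := by
    intro x hx y hy z hz
    have := hN3 (|α * x + β * y + c - z|).toNat
      (Finset.mem_image.2 ⟨(x, (y, z)), by simp [hx, hy, hz], rfl⟩)
    omega
  have hN' : (0 : ℝ) < N := by exact_mod_cast hNp
  have hNc : (N : ℂ) ≠ 0 := by exact_mod_cast hNp.ne'
  set F : ℕ → ℂ := fun η => ∑ x ∈ X, f x * ee ((η : ℝ) * (((α * x : ℤ) : ℝ) / N)) with hF
  set G : ℕ → ℂ := fun η => ∑ y ∈ Y, g y * ee ((η : ℝ) * (((β * y : ℤ) : ℝ) / N)) with hG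
  set Kh : ℕ → ℂ := fun η => ∑ z ∈ Z, k z * ee (-((η : ℝ) / N) * (z : ℝ)) with hKh
  have hval : ∑ x ∈ X, ∑ y ∈ Y,
      (if α * x + β * y + c ∈ Z then k (α * x + β * y + c) else 0) * f x * g y =
      (1 / (N : ℂ)) * ∑ η ∈ Finset.range N, ee ((η : ℝ) * ((c : ℝ) / N)) * Kh η * (F η * G η) := by
    have h1 : ∀ x ∈ X, ∀ y ∈ Y, (if α * x + β * y + c ∈ Z then k (α * x + β * y + c) else 0) =
        (1 / (N : ℂ)) * ∑ η ∈ Finset.range N, ∑ z ∈ Z,
          k z * ee ((η : ℝ) * (((α * x + β * y + c - z : ℤ) : ℝ) / N)) := by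
      intro x hx y hy
      rw [Finset.sum_comm]
      have h2 : ∀ z ∈ Z, ∑ η ∈ Finset.range N,
          k z * ee ((η : ℝ) * (((α * x + β * y + c - z : ℤ) : ℝ) / N)) =
          if z = α * x + β * y + c then (N : ℂ) * k z else 0 := by
        intro z hz
        rw [← Finset.mul_sum, orth hNp (hZ x hx y hy z hz)]
        by_cases h3 : z = α * x + β * y + c
        · rw [if_pos h3, if_pos (by omega)]; ring
        · rw [if_neg h3, if_neg (by omega), mul_zero]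
      rw [Finset.sum_congr rfl h2, Finset.sum_ite_eq']
      split_ifs
      · field_simp
      · simp
    have h4 : ∀ x ∈ X, ∀ y ∈ Y,
        (if α * x + β * y + c ∈ Z then k (α * x + β * y + c) else 0) * f x * g y =
        ∑ η ∈ Finset.range N, (1 / (N : ℂ)) * (ee ((η : ℝ) * ((c : ℝ) / N)) * Kh η *
          ((f x * ee ((η : ℝ) * (((α * x : ℤ) : ℝ) / N))) *
            (g y * ee ((η : ℝ) * (((β * y : ℤ) : ℝ) / N))))) := by
      intro x hx y hy
      rw [h1 x hx y hy, Finset.mul_sum, Finset.sum_mul, Finset.sum_mul]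
      refine Finset.sum_congr rfl fun η _ => ?_
      have h5 : ∑ z ∈ Z, k z * ee ((η : ℝ) * (((α * x + β * y + c - z : ℤ) : ℝ) / N)) =
          ee ((η : ℝ) * ((c : ℝ) / N)) * Kh η * (ee ((η : ℝ) * (((α * x : ℤ) : ℝ) / N)) *
            ee ((η : ℝ) * (((β * y : ℤ) : ℝ) / N))) := by
        simp only [hKh]
        rw [Finset.mul_sum, Finset.sum_mul]
        refine Finset.sum_congr rfl fun z _ => ?_
        have h6 : ee ((η : ℝ) * (((α * x + β * y + c - z : ℤ) : ℝ) / N)) =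
            ee ((η : ℝ) * ((c : ℝ) / N)) * ee (-((η : ℝ) / N) * (z : ℝ)) *
            (ee ((η : ℝ) * (((α * x : ℤ) : ℝ) / N)) * ee ((η : ℝ) * (((β * y : ℤ) : ℝ) / N))) := by
          rw [← ee_add, ← ee_add, ← ee_add]
          congr 1
          push_cast
          ring
        rw [h6]; ring
      rw [h5]; ring
    rw [Finset.sum_congr rfl fun x hx => Finset.sum_congr rfl fun y hy => h4 x hx y hy]
    rw [Finset.sum_congr rfl fun x _ => Finset.sum_comm, Finset.sum_comm, Finset.mul_sum]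
    refine Finset.sum_congr rfl fun η _ => ?_
    simp only [hF, hG]
    rw [Finset.sum_mul_sum]
    simp only [Finset.mul_sum]
  rw [hval]
  have hKB : ∀ η, ‖Kh η‖ ≤ B := fun η => hB _
  have h7 : ‖∑ η ∈ Finset.range N, ee ((η : ℝ) * ((c : ℝ) / N)) * Kh η * (F η * G η)‖ ≤
      B * ∑ η ∈ Finset.range N, ‖F η‖ * ‖G η‖ := by
    rw [Finset.mul_sum]
    refine (norm_sum_le _ _).trans (Finset.sum_le_sum fun η _ => ?_)
    rw [norm_mul, norm_mul, norm_mul, norm_ee, one_mul]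
    exact mul_le_mul_of_nonneg_right (hKB η) (by positivity)
  have h8 : ∑ η ∈ Finset.range N, ‖F η‖ * ‖G η‖ ≤
      Real.sqrt (N * ∑ x ∈ X, ‖f x‖ ^ 2) * Real.sqrt (N * ∑ y ∈ Y, ‖g y‖ ^ 2) := by
    rw [← parseval hNp X f hα hX, ← parseval hNp Y g hβ hY]
    exact Real.sum_mul_le_sqrt_mul_sqrt _ _ _
  have h9 : Real.sqrt (N * ∑ x ∈ X, ‖f x‖ ^ 2) * Real.sqrt (N * ∑ y ∈ Y, ‖g y‖ ^ 2) =
      N * (Real.sqrt (∑ x ∈ X, ‖f x‖ ^ 2) * Real.sqrt (∑ y ∈ Y, ‖g y‖ ^ 2)) := by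
    rw [Real.sqrt_mul hN'.le, Real.sqrt_mul hN'.le]
    have : Real.sqrt N * Real.sqrt N = N := Real.mul_self_sqrt hN'.le
    linear_combination (Real.sqrt (∑ x ∈ X, ‖f x‖ ^ 2) * Real.sqrt (∑ y ∈ Y, ‖g y‖ ^ 2)) * this
  rw [h9] at h8
  rw [norm_mul, norm_div, norm_one, Complex.norm_natCast]
  calc 1 / (N : ℝ) * ‖∑ η ∈ Finset.range N, ee ((η : ℝ) * ((c : ℝ) / N)) * Kh η * (F η * G η)‖ ≤
      1 / (N : ℝ) * (B * (N * (Real.sqrt (∑ x ∈ X, ‖f x‖ ^ 2) *
        Real.sqrt (∑ y ∈ Y, ‖g y‖ ^ 2)))) := by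
        refine mul_le_mul_of_nonneg_left (h7.trans ?_) (by positivity)
        exact mul_le_mul_of_nonneg_left h8 hB0
    _ = _ := by field_simp

end Crest.Agent.R079.Hank37
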