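import Crest.Agent.R079.AsmG_734

/-! R079, Step I + Step II: THE ITERATION WITH SIZES, COUNTS AND ENERGIES (helper45).

Notes 1119 (helper55) and 1127 / 1128 (helper323): the windows of one generation are counted by
`len I / δ + drift / (δ² s²)`, not by a fixed multiple of `len I`, so the iteration carries
* the size `s` of the two free letters at ALL nodes of the window (`Sm s`),
* the total length of the tops,
* the ENERGY `en w X Y = av w X ^ 2 + av w Y ^ 2` at the tops.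

`ClE s α β γ` : `‖∑_R v X Y‖ ≤ s² (α |I| + β bT) + γ en_I |I|`;
`GenE a0 a1 b0 b1 c0 c1 r` : one generation
(`s² ∑ |w| ≤ (a0 s² + a1 en) |I|`, `∑ en_w |w| ≤ (b0 s² + b1 en) |I|`, cost `(c0 s² + c1 en) |I|`);
`stepE`, `iterE`, `itE` : `n` generations, parameters depending on the generation. -/

set_option autoImplicit false

namespace Crest.Agent.R079.ItEx45

open Finset Crest.Agent.R079.Grid Crest.Agent.R079.Growth Crest.Agent.R079.QRed
open Crest.Agent.R079.TRec Crest.Agent.R079.It260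

/-- energy of the two free letters at a node -/
noncomputable def en (p : Nd) (X Y : Fn) : ℝ := av p X ^ 2 + av p Y ^ 2

theorem en_nonneg (p : Nd) (X Y : Fn) : 0 ≤ en p X Y := add_nonneg (sq_nonneg _) (sq_nonneg _)

/-- claim of size `s` with coefficients `α`, `β`, `γ` -/
def ClE (v : Fn → Fn → Nd → ℂ) (Sm : ℝ → Finset Nd → Fn → Fn → Prop) (R0 TB : Finset Nd)
    (s α β γ : ℝ) : Prop :=
  ∀ R I, Full R I → R ⊆ R0 → ∀ X Y, Sm s R X Y →
    ‖∑ p ∈ R, v X Y p‖ ≤ s ^ 2 * (α * len I + β * bT TB R I) + γ * (en I X Y * len I)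

/-- ONE GENERATION with sizes, counts and energies -/
def GenE (v : Fn → Fn → Nd → ℂ) (Sm : ℝ → Finset Nd → Fn → Fn → Prop) (R0 : Finset Nd)
    (a0 a1 b0 b1 c0 c1 r : ℝ) : Prop :=
  ∀ s, 0 < s → ∀ R I, Full R I → R ⊆ R0 → ∀ X Y, Sm s R X Y →
    ∃ (T : Finset Nd) (X' Y' : Nd → Fn), Tops R I T ∧
      s ^ 2 * ∑ w ∈ T, len w ≤ (a0 * s ^ 2 + a1 * en I X Y) * len I ∧
      (∀ w ∈ T, Sm (r * s) (win R T w) (X' w) (Y' w)) ∧
      ∑ w ∈ T, en w (X' w) (Y' w) * len w ≤ (b0 * s ^ 2 + b1 * en I X Y) * len I ∧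
      ‖∑ p ∈ R, v X Y p‖ ≤ (c0 * s ^ 2 + c1 * en I X Y) * len I +
        ∑ w ∈ T, ‖∑ p ∈ win R T w, v (X' w) (Y' w) p‖

variable {v : Fn → Fn → Nd → ℂ} {Sm : ℝ → Finset Nd → Fn → Fn → Prop} {R0 TB : Finset Nd}

theorem clE_mono {s α β γ α' β' γ' : ℝ} (h : ClE v Sm R0 TB s α β γ) (hα : α ≤ α') (hβ : β ≤ β')
    (hγ : γ ≤ γ') : ClE v Sm R0 TB s α' β' γ' := by
  intro R I hR hRR X Y hXY
  have hl := (Growth.len_pos I).le
  refine (h R I hR hRR X Y hXY).trans (add_le_add (mul_le_mul_of_nonneg_left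
    (add_le_add ?_ ?_) (sq_nonneg _)) ?_)
  · exact mul_le_mul_of_nonneg_right hα hl
  · exact mul_le_mul_of_nonneg_right hβ (bT_nonneg _ _ _)
  · exact mul_le_mul_of_nonneg_right hγ (mul_nonneg (en_nonneg _ _ _) hl)

theorem clE_of {s α β : ℝ} (h : Cl v Sm R0 TB s α β) : ClE v Sm R0 TB s α β 0 := by
  intro R I hR hRR X Y hXY
  have := h R I hR hRR X Y hXY
  linarith

/-- parameters of a generation may be increased -/
theorem genE_mono {a0 a1 b0 b1 c0 c1 r a0' a1' b0' b1' c0' c1' : ℝ}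
    (h : GenE v Sm R0 a0 a1 b0 b1 c0 c1 r) (h1 : a0 ≤ a0') (h2 : a1 ≤ a1') (h3 : b0 ≤ b0')
    (h4 : b1 ≤ b1') (h5 : c0 ≤ c0') (h6 : c1 ≤ c1') :
    GenE v Sm R0 a0' a1' b0' b1' c0' c1' r := by
  intro s hs R I hR hRR X Y hXY
  obtain ⟨T, X', Y', hT, hc, hS, hE, hV⟩ := h s hs R I hR hRR X Y hXY
  have hl := (Growth.len_pos I).le
  have he := en_nonneg I X Y
  have key : ∀ x x' y y' : ℝ, x ≤ x' → y ≤ y' →
      (x * s ^ 2 + y * en I X Y) * len I ≤ (x' * s ^ 2 + y' * en I X Y) * len I := by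
    intro x x' y y' hx hy
    refine mul_le_mul_of_nonneg_right (add_le_add ?_ ?_) hl
    · exact mul_le_mul_of_nonneg_right hx (sq_nonneg _)
    · exact mul_le_mul_of_nonneg_right hy he
  exact ⟨T, X', Y', hT, hc.trans (key _ _ _ _ h1 h2), hS, hE.trans (key _ _ _ _ h3 h4),
    hV.trans (add_le_add (key _ _ _ _ h5 h6) le_rfl)⟩

/-- an old generation is a new one -/
theorem genE_of_gen {κ A r : ℝ}
    (hen : ∀ s R I X Y, Full R I → Sm s R X Y → en I X Y ≤ 2 * s ^ 2)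
    (h : Gen v Sm R0 κ A r) : GenE v Sm R0 A 0 (2 * r ^ 2 * A) 0 κ 0 r := by
  intro s hs R I hR hRR X Y hXY
  obtain ⟨T, X', Y', hT, hc, hS, hV⟩ := h s hs R I hR hRR X Y hXY
  refine ⟨T, X', Y', hT, ?_, hS, ?_, ?_⟩
  · have := mul_le_mul_of_nonneg_left hc (sq_nonneg s)
    calc s ^ 2 * ∑ w ∈ T, len w ≤ s ^ 2 * (A * len I) := this
      _ = (A * s ^ 2 + 0 * en I X Y) * len I := by ring
  · have h1 : ∀ w ∈ T, en w (X' w) (Y' w) * len w ≤ 2 * (r * s) ^ 2 * len w := fun w hw =>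
      mul_le_mul_of_nonneg_right (hen _ _ _ _ _ (win_full hR hT hw) (hS w hw))
        (Growth.len_pos w).le
    refine (Finset.sum_le_sum h1).trans ?_
    rw [← Finset.mul_sum]
    have h2 : 0 ≤ 2 * (r * s) ^ 2 := by positivity
    calc 2 * (r * s) ^ 2 * ∑ w ∈ T, len w ≤ 2 * (r * s) ^ 2 * (A * len I) :=
          mul_le_mul_of_nonneg_left hc h2
      _ = _ := by ring
  · refine hV.trans (add_le_add (le_of_eq ?_) le_rfl)
    ring

/-- **STEP**: one generation -/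
theorem stepE {a0 a1 b0 b1 c0 c1 r : ℝ} (hG : GenE v Sm R0 a0 a1 b0 b1 c0 c1 r)
    {s α β γ : ℝ} (hs : 0 < s) (hα : 0 ≤ α) (hβ : 0 ≤ β) (hγ : 0 ≤ γ)
    (h : ClE v Sm R0 TB (r * s) α β γ) :
    ClE v Sm R0 TB s (c0 + r ^ 2 * a0 * α + b0 * γ) (r ^ 2 * β)
      (c1 + r ^ 2 * a1 * α + b1 * γ) := by
  intro R I hR hRR X Y hXY
  obtain ⟨T, X', Y', hT, hc, hS, hE, hV⟩ := hG s hs R I hR hRR X Y hXY
  refine hV.trans ?_
  have h1 : ∑ w ∈ T, ‖∑ p ∈ win R T w, v (X' w) (Y' w) p‖ ≤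
      ∑ w ∈ T, ((r * s) ^ 2 * (α * len w + β * bT TB (win R T w) w) +
        γ * (en w (X' w) (Y' w) * len w)) :=
    Finset.sum_le_sum fun w hw =>
      h _ w (win_full hR hT hw) (win_sub.trans hRR) _ _ (hS w hw)
  have h2 : ∑ w ∈ T, ((r * s) ^ 2 * (α * len w + β * bT TB (win R T w) w) +
        γ * (en w (X' w) (Y' w) * len w)) =
      r ^ 2 * α * (s ^ 2 * ∑ w ∈ T, len w) + (r * s) ^ 2 * β * ∑ w ∈ T, bT TB (win R T w) w +
        γ * ∑ w ∈ T, en w (X' w) (Y' w) * len w := by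
    rw [Finset.sum_add_distrib, ← Finset.mul_sum, ← Finset.mul_sum, Finset.sum_add_distrib,
      ← Finset.mul_sum, ← Finset.mul_sum]
    ring
  have g1 : r ^ 2 * α * (s ^ 2 * ∑ w ∈ T, len w) ≤
      r ^ 2 * α * ((a0 * s ^ 2 + a1 * en I X Y) * len I) :=
    mul_le_mul_of_nonneg_left hc (by positivity)
  have g2 : (r * s) ^ 2 * β * ∑ w ∈ T, bT TB (win R T w) w ≤ (r * s) ^ 2 * β * bT TB R I :=
    mul_le_mul_of_nonneg_left (sum_bT hR hT TB) (by positivity)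
  have g3 : γ * ∑ w ∈ T, en w (X' w) (Y' w) * len w ≤
      γ * ((b0 * s ^ 2 + b1 * en I X Y) * len I) :=
    mul_le_mul_of_nonneg_left hE hγ
  rw [h2] at h1
  have e : s ^ 2 * ((c0 + r ^ 2 * a0 * α + b0 * γ) * len I + r ^ 2 * β * bT TB R I) +
      (c1 + r ^ 2 * a1 * α + b1 * γ) * (en I X Y * len I) =
      (c0 * s ^ 2 + c1 * en I X Y) * len I +
        (r ^ 2 * α * ((a0 * s ^ 2 + a1 * en I X Y) * len I) + (r * s) ^ 2 * β * bT TB R I +
        γ * ((b0 * s ^ 2 + b1 * en I X Y) * len I)) := by ring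
  rw [e]
  linarith

/-- **STEP with one number**: `d` = window parameter, `L` = loss, `κ` = cost -/
theorem stepM {a0 a1 b0 b1 c0 c1 r d L κ : ℝ} (hG : GenE v Sm R0 a0 a1 b0 b1 c0 c1 r)
    (hd : 0 < d) (hL : 0 ≤ L) (h1 : r ^ 2 * a0 ≤ L) (h2 : r ^ 2 * a1 * d ≤ L)
    (h3 : b0 ≤ L * d) (h4 : b1 ≤ L) (h5 : c0 ≤ d * κ) (h6 : c1 ≤ κ)
    {s β M : ℝ} (hs : 0 < s) (hβ : 0 ≤ β) (hM : 0 ≤ M)
    (h : ClE v Sm R0 TB (r * s) (d * M) β M) :
    ClE v Sm R0 TB s (d * (κ + 2 * L * M)) (r ^ 2 * β) (κ + 2 * L * M) := by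
  refine clE_mono (stepE hG hs (mul_nonneg hd.le hM) hβ hM h) ?_ le_rfl ?_
  · have g1 := mul_le_mul_of_nonneg_right h1 (mul_nonneg hd.le hM)
    have g2 := mul_le_mul_of_nonneg_right h3 hM
    nlinarith
  · have g1 := mul_le_mul_of_nonneg_right h2 hM
    have g2 := mul_le_mul_of_nonneg_right h4 hM
    nlinarith

/-- **`n` GENERATIONS** -/
theorem iterE {d P P' : ℝ} (hd : 0 < d) (hP : ∀ s, 0 < s → ClE v Sm R0 TB s (d * P) P' P)
    (hP0 : 0 ≤ P) (hP1 : 0 ≤ P') (n : ℕ) :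
    ∀ (a0 a1 b0 b1 c0 c1 r L κ : ℕ → ℝ), (∀ j, 0 ≤ κ j) → (∀ j, 0 < r j) → (∀ j, 0 ≤ L j) →
    (∀ j, r j ^ 2 * a0 j ≤ L j) → (∀ j, r j ^ 2 * a1 j * d ≤ L j) → (∀ j, b0 j ≤ L j * d) →
    (∀ j, b1 j ≤ L j) → (∀ j, c0 j ≤ d * κ j) → (∀ j, c1 j ≤ κ j) →
    (∀ j, j < n → GenE v Sm R0 (a0 j) (a1 j) (b0 j) (b1 j) (c0 j) (c1 j) (r j)) →
    ∀ s, 0 < s → ClE v Sm R0 TB s
      (d * ((∏ i ∈ range n, (2 * L i)) * P + ∑ j ∈ range n, (∏ i ∈ range j, (2 * L i)) * κ j))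
      ((∏ i ∈ range n, r i ^ 2) * P')
      ((∏ i ∈ range n, (2 * L i)) * P + ∑ j ∈ range n, (∏ i ∈ range j, (2 * L i)) * κ j) := by
  induction n with
  | zero =>
    intro a0 a1 b0 b1 c0 c1 r L κ _ _ _ _ _ _ _ _ _ _ s hs
    simpa using hP s hs
  | succ n ih =>
    intro a0 a1 b0 b1 c0 c1 r L κ hκ hr hL g1 g2 g3 g4 g5 g6 hG s hs
    have h0 := ih (fun j => a0 (j + 1)) (fun j => a1 (j + 1)) (fun j => b0 (j + 1))
      (fun j => b1 (j + 1)) (fun j => c0 (j + 1)) (fun j => c1 (j + 1)) (fun j => r (j + 1))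
      (fun j => L (j + 1)) (fun j => κ (j + 1)) (fun j => hκ _) (fun j => hr _) (fun j => hL _)
      (fun j => g1 _) (fun j => g2 _) (fun j => g3 _) (fun j => g4 _) (fun j => g5 _)
      (fun j => g6 _) (fun j hj => hG (j + 1) (by omega)) (r 0 * s) (mul_pos (hr 0) hs)
    have hL0 : ∀ j, 0 ≤ 2 * L j := fun j => by linarith [hL j]
    have hM : 0 ≤ (∏ i ∈ range n, (2 * L (i + 1))) * P +
        ∑ j ∈ range n, (∏ i ∈ range j, (2 * L (i + 1))) * κ (j + 1) :=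
      add_nonneg (mul_nonneg (Finset.prod_nonneg fun i _ => hL0 _) hP0)
        (Finset.sum_nonneg fun j _ => mul_nonneg (Finset.prod_nonneg fun i _ => hL0 _) (hκ _))
    have hβ : 0 ≤ (∏ i ∈ range n, r (i + 1) ^ 2) * P' :=
      mul_nonneg (Finset.prod_nonneg fun i _ => sq_nonneg _) hP1
    have h1 := stepM (hG 0 (by omega)) hd (hL 0) (g1 0) (g2 0) (g3 0) (g4 0) (g5 0) (g6 0) hs
      hβ hM h0
    have e1 : (∏ i ∈ range (n + 1), (2 * L i)) * P +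
        ∑ j ∈ range (n + 1), (∏ i ∈ range j, (2 * L i)) * κ j =
        κ 0 + 2 * L 0 * ((∏ i ∈ range n, (2 * L (i + 1))) * P +
          ∑ j ∈ range n, (∏ i ∈ range j, (2 * L (i + 1))) * κ (j + 1)) := by
      rw [Finset.prod_range_succ', Finset.sum_range_succ']
      have e2 : ∑ j ∈ range n, (∏ i ∈ range (j + 1), (2 * L i)) * κ (j + 1) =
          2 * L 0 * ∑ j ∈ range n, (∏ i ∈ range j, (2 * L (i + 1))) * κ (j + 1) := by
        rw [Finset.mul_sum]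
        refine Finset.sum_congr rfl fun j _ => ?_
        rw [Finset.prod_range_succ']
        ring
      rw [e2]
      simp only [Finset.range_zero, Finset.prod_empty, one_mul]
      ring
    rw [e1]
    refine clE_mono h1 le_rfl (le_of_eq ?_) le_rfl
    rw [Finset.prod_range_succ']
    ring

/-- **[IT] WITH ENERGIES**: static pieces (cost `P`), `n` generations, number `AB` of static tops -/
theorem itE (hmono : ∀ s R R' X Y, Sm s R X Y → R' ⊆ R → Sm s R' X Y) {I0 : Nd}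
    (hR0 : Full R0 I0) (hTB : Tops R0 I0 TB) {AB : ℝ} (hc : Cnt R0 TB AB)
    {d P : ℝ} (hd : 0 < d) (hP0 : 0 ≤ P) (hP : Piece v Sm R0 TB P) (n : ℕ)
    {a0 a1 b0 b1 c0 c1 r L κ : ℕ → ℝ} (hκ : ∀ j, 0 ≤ κ j) (hr : ∀ j, 0 < r j)
    (hL : ∀ j, 0 ≤ L j) (g1 : ∀ j, r j ^ 2 * a0 j ≤ L j) (g2 : ∀ j, r j ^ 2 * a1 j * d ≤ L j)
    (g3 : ∀ j, b0 j ≤ L j * d) (g4 : ∀ j, b1 j ≤ L j) (g5 : ∀ j, c0 j ≤ d * κ j)
    (g6 : ∀ j, c1 j ≤ κ j)
    (hG : ∀ j, j < n → GenE v Sm R0 (a0 j) (a1 j) (b0 j) (b1 j) (c0 j) (c1 j) (r j))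
    {X Y : Fn} (hXY : Sm 1 R0 X Y) (hen : en I0 X Y ≤ 2) :
    ‖∑ p ∈ R0, v X Y p‖ ≤ ((d + 2) * ((∏ i ∈ range n, (2 * L i)) * (P / d) +
      ∑ j ∈ range n, (∏ i ∈ range j, (2 * L i)) * κ j) +
        (∏ i ∈ range n, r i ^ 2) * P * AB) * len I0 := by
  have hb : ∀ s, 0 < s → ClE v Sm R0 TB s (d * (P / d)) P (P / d) := by
    intro s hs
    refine clE_mono (clE_of (base hmono hR0 hTB hP0 hP s hs)) (le_of_eq ?_) le_rfl
      (div_nonneg hP0 hd.le)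
    field_simp
  have h1 := iterE hd hb (div_nonneg hP0 hd.le) hP0 n a0 a1 b0 b1 c0 c1 r L κ hκ hr hL g1 g2 g3
    g4 g5 g6 hG 1 one_pos R0 I0 hR0 subset_rfl X Y hXY
  have hM : 0 ≤ (∏ i ∈ range n, (2 * L i)) * (P / d) +
      ∑ j ∈ range n, (∏ i ∈ range j, (2 * L i)) * κ j := by
    have hL0 : ∀ j, 0 ≤ 2 * L j := fun j => by linarith [hL j]
    exact add_nonneg (mul_nonneg (Finset.prod_nonneg fun i _ => hL0 _) (div_nonneg hP0 hd.le))
      (Finset.sum_nonneg fun j _ => mul_nonneg (Finset.prod_nonneg fun i _ => hL0 _) (hκ _))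
  refine h1.trans ?_
  have h0 : 0 ≤ (∏ i ∈ range n, r i ^ 2) * P :=
    mul_nonneg (Finset.prod_nonneg fun i _ => sq_nonneg _) hP0
  have h2 := mul_le_mul_of_nonneg_left (bT_le hR0 hc) h0
  have h3 := mul_le_mul_of_nonneg_left
    (mul_le_mul_of_nonneg_right hen (Growth.len_pos I0).le) hM
  rw [one_pow, one_mul]
  have e : ((d + 2) * ((∏ i ∈ range n, (2 * L i)) * (P / d) +
      ∑ j ∈ range n, (∏ i ∈ range j, (2 * L i)) * κ j) +
        (∏ i ∈ range n, r i ^ 2) * P * AB) * len I0 =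
      d * ((∏ i ∈ range n, (2 * L i)) * (P / d) +
      ∑ j ∈ range n, (∏ i ∈ range j, (2 * L i)) * κ j) * len I0 +
      (∏ i ∈ range n, r i ^ 2) * P * (AB * len I0) +
      ((∏ i ∈ range n, (2 * L i)) * (P / d) +
      ∑ j ∈ range n, (∏ i ∈ range j, (2 * L i)) * κ j) * (2 * len I0) := by ring
  rw [e]
  linarith

end Crest.Agent.R079.ItEx45
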