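import Crest.Agent.R079.TDef_853
import Crest.Agent.R079.Growth_181

/-! R079 (helper608): **John-Nirenberg for window counts** (note 533 (B) of helper257).

`T` = tops of windows, `cn T q y` = number of windows strictly inside `q` over the point `y`.  Under the
Carleson condition `Cnt` the count has exponential moments, hence `∑_{I ∈ T} ∫_I ‖e‖²` is at most
`t^(-C5-s) ∫ ‖e‖²` up to an arbitrarily high power of `t` times the local `L^(2+k)` norm. -/

set_option autoImplicit false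

namespace Crest.Agent.R079.JNx608

open Finset Crest.Agent.R079.Grid Crest.Agent.R079.Growth Crest.Agent.R079.QRed
open Crest.Agent.R079.TRec
open Crest.Agent.R079.Growth181 (mem_iv len_pos nest iv_card iv_nonempty level_le iv_inj)

open Classical in
/-- the windows strictly inside `q` over the point `y` -/
noncomputable def cs (T : Finset Nd) (q : Nd) (y : ℤ) : Finset Nd :=
  T.filter (fun I => iv I ⊂ iv q ∧ y ∈ iv I)

/-- number of windows strictly inside `q` over the point `y` -/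
noncomputable def cn (T : Finset Nd) (q : Nd) (y : ℤ) : ℕ := (cs T q y).card

lemma mem_cs {T : Finset Nd} {q : Nd} {y : ℤ} {I : Nd} :
    I ∈ cs T q y ↔ I ∈ T ∧ iv I ⊂ iv q ∧ y ∈ iv I := by
  classical
  unfold cs
  rw [Finset.mem_filter]

/-- geometric sum along a chain of levels -/
lemma chain_sum (a : ℝ) (S : Finset ℕ) :
    ∑ m ∈ S, a * (1 + a) ^ (S.filter (fun m' => m' < m)).card = (1 + a) ^ S.card - 1 := by
  induction S using Finset.induction_on_max with
  | empty => simp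
  | insert b S hb ih =>
    have hbS : b ∉ S := fun h => lt_irrefl _ (hb b h)
    rw [Finset.sum_insert hbS, Finset.card_insert_of_notMem hbS]
    have e1 : (insert b S).filter (fun m' => m' < b) = S := by
      ext m
      simp only [Finset.mem_filter, Finset.mem_insert]
      constructor
      · rintro ⟨h | h, h'⟩
        · exact absurd h' (by omega)
        · exact h
      · intro h
        exact ⟨Or.inr h, hb m h⟩
    have e2 : ∀ m ∈ S, (insert b S).filter (fun m' => m' < m) = S.filter (fun m' => m' < m) := by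
      intro m hm
      ext m'
      simp only [Finset.mem_filter, Finset.mem_insert]
      constructor
      · rintro ⟨h | h, h'⟩
        · have := hb m hm; omega
        · exact ⟨h, h'⟩
      · rintro ⟨h, h'⟩
        exact ⟨Or.inr h, h'⟩
    rw [e1, Finset.sum_congr rfl fun m hm => by rw [e2 m hm], ih]
    ring

lemma cs_level_inj (T : Finset Nd) (q : Nd) (y : ℤ) :
    Set.InjOn (fun I : Nd => I.1) (cs T q y : Set Nd) := by
  intro I hI I' hI' h
  have h1 := (mem_cs.1 (Finset.mem_coe.1 hI)).2.2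
  have h2 := (mem_cs.1 (Finset.mem_coe.1 hI')).2.2
  exact iv_inj (nest h1 h2 (le_of_eq h)) (le_of_eq h.symm)

/-- pointwise identity -/
lemma pt_sum (a : ℝ) (T : Finset Nd) (q : Nd) (y : ℤ) :
    ∑ I ∈ cs T q y, a * (1 + a) ^ (cn T I y) = (1 + a) ^ (cn T q y) - 1 := by
  classical
  have hinj := cs_level_inj T q y
  have h1 := chain_sum a ((cs T q y).image (fun I : Nd => I.1))
  rw [Finset.card_image_of_injOn hinj, Finset.sum_image hinj] at h1
  rw [show (1 + a) ^ (cn T q y) - 1 = (1 + a) ^ (cs T q y).card - 1 from rfl, ← h1]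
  refine Finset.sum_congr rfl fun I hI => ?_
  have hI' := mem_cs.1 hI
  have e : cn T I y = (((cs T q y).image (fun I : Nd => I.1)).filter (fun m' => m' < I.1)).card := by
    have e1 : ((cs T q y).image (fun I : Nd => I.1)).filter (fun m' => m' < I.1) =
        (cs T I y).image (fun I : Nd => I.1) := by
      ext m
      simp only [Finset.mem_filter, Finset.mem_image]
      constructor
      · rintro ⟨⟨I', h1, rfl⟩, h2⟩
        have h3 := mem_cs.1 h1
        refine ⟨I', mem_cs.2 ⟨h3.1, ?_, h3.2.2⟩, rfl⟩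
        refine Finset.ssubset_iff_subset_ne.2 ⟨nest h3.2.2 hI'.2.2 h2.le, fun h => ?_⟩
        have h4 := level_le h.ge
        omega
      · rintro ⟨I', h1, rfl⟩
        have h3 := mem_cs.1 h1
        refine ⟨⟨I', mem_cs.2 ⟨h3.1, h3.2.1.trans hI'.2.1, h3.2.2⟩, rfl⟩, ?_⟩
        by_contra h5
        have h6 := iv_inj h3.2.1.subset (not_lt.1 h5)
        rw [h6] at h3
        exact h3.2.1.ne rfl
    rw [e1, Finset.card_image_of_injOn (cs_level_inj T I y)]
    rfl
  rw [e]

/-- exchange of sums -/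
lemma sum_swap (T : Finset Nd) (q : Nd) (f : Nd → ℤ → ℝ) [DecidablePred fun I : Nd => iv I ⊂ iv q] :
    ∑ y ∈ iv q, ∑ I ∈ cs T q y, f I y = ∑ I ∈ T.filter (fun I => iv I ⊂ iv q), ∑ y ∈ iv I, f I y := by
  classical
  refine Finset.sum_comm' fun y I => ?_
  rw [mem_cs, Finset.mem_filter]
  constructor
  · rintro ⟨h1, h2, h3, h4⟩
    exact ⟨h4, h2, h3⟩
  · rintro ⟨h1, h2, h3⟩
    exact ⟨h3.subset h1, h2, h3, h1⟩

/-- **exponential moment** -/
theorem exp_moment {R T : Finset Nd} {A : ℝ} (hA : 0 < A) (hTR : T ⊆ R) (hC : Cnt R T A) :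
    ∀ q ∈ R, ∑ y ∈ iv q, (1 + 1 / (2 * A)) ^ (cn T q y) ≤ 2 * len q := by
  classical
  have key : ∀ (n : ℕ) (q : Nd), q ∈ R → q.1 = n →
      ∑ y ∈ iv q, (1 + 1 / (2 * A)) ^ (cn T q y) ≤ 2 * len q := by
    intro n
    induction n using Nat.strong_induction_on with
    | _ n ih =>
      intro q hq hqn
      set a : ℝ := 1 / (2 * A) with ha
      have ha0 : 0 ≤ a := by positivity
      have h1 : ∑ y ∈ iv q, ((1 + a) ^ (cn T q y) - 1) ≤ len q := by
        rw [Finset.sum_congr rfl fun y _ => (pt_sum a T q y).symm, sum_swap]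
        have h2 : ∀ I ∈ T.filter (fun I => iv I ⊂ iv q),
            ∑ y ∈ iv I, a * (1 + a) ^ (cn T I y) ≤ a * (2 * len I) := by
          intro I hI
          rw [Finset.mem_filter] at hI
          rw [← Finset.mul_sum]
          refine mul_le_mul_of_nonneg_left ?_ ha0
          have h3 : I.1 < n := by
            have h4 := level_le hI.2.subset
            rcases lt_or_eq_of_le h4 with h5 | h5
            · omega
            · exfalso
              have h6 := iv_inj hI.2.subset h5.ge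
              rw [h6] at hI
              exact hI.2.ne rfl
          exact ih I.1 h3 I (hTR hI.1) rfl
        refine (Finset.sum_le_sum h2).trans ?_
        rw [← Finset.mul_sum, ← Finset.mul_sum]
        have h3 : ∑ I ∈ T.filter (fun I => iv I ⊂ iv q), len I ≤ A * len q := by
          have := hC q hq
          convert this using 2
        calc a * (2 * ∑ I ∈ T.filter (fun I => iv I ⊂ iv q), len I)
            ≤ a * (2 * (A * len q)) := by gcongr
          _ = len q := by rw [ha]; field_simp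
      rw [Finset.sum_sub_distrib, Finset.sum_const, nsmul_eq_mul, mul_one, iv_card] at h1
      linarith
  exact fun q hq => key q.1 q hq rfl

/-- weighted sums over the windows = weighted count -/
lemma sum_windows (T : Finset Nd) (q : Nd) (w : ℤ → ℝ) [DecidablePred fun I : Nd => iv I ⊂ iv q] :
    ∑ I ∈ T.filter (fun I => iv I ⊂ iv q), ∑ y ∈ iv I, w y = ∑ y ∈ iv q, (cn T q y : ℝ) * w y := by
  rw [← sum_swap T q (fun _ y => w y)]
  refine Finset.sum_congr rfl fun y _ => ?_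
  rw [Finset.sum_const, nsmul_eq_mul]
  rfl

/-- **tail** -/
theorem tail {R T : Finset Nd} {A : ℝ} (hA : 0 < A) (hTR : T ⊆ R) (hC : Cnt R T A) {q : Nd}
    (hq : q ∈ R) (n : ℕ) :
    (((iv q).filter (fun y => n ≤ cn T q y)).card : ℝ) * (1 + 1 / (2 * A)) ^ n ≤ 2 * len q := by
  have h1 := exp_moment hA hTR hC q hq
  have ha : (1 : ℝ) ≤ 1 + 1 / (2 * A) := by
    have : 0 ≤ 1 / (2 * A) := by positivity
    linarith
  refine le_trans ?_ h1
  calc (((iv q).filter (fun y => n ≤ cn T q y)).card : ℝ) * (1 + 1 / (2 * A)) ^ n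
      = ∑ y ∈ (iv q).filter (fun y => n ≤ cn T q y), (1 + 1 / (2 * A)) ^ n := by
        rw [Finset.sum_const, nsmul_eq_mul]
    _ ≤ ∑ y ∈ (iv q).filter (fun y => n ≤ cn T q y), (1 + 1 / (2 * A)) ^ (cn T q y) := by
        refine Finset.sum_le_sum fun y hy => ?_
        exact pow_le_pow_right₀ ha (Finset.mem_filter.1 hy).2
    _ ≤ ∑ y ∈ iv q, (1 + 1 / (2 * A)) ^ (cn T q y) :=
        Finset.sum_le_sum_of_subset_of_nonneg (Finset.filter_subset _ _)
          fun y _ _ => by positivity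

lemma one_add_ge {A : ℝ} (hA : 1 / 2 ≤ A) : Real.exp (1 / (4 * A)) ≤ 1 + 1 / (2 * A) := by
  have hA0 : 0 < A := by linarith
  set a : ℝ := 1 / (2 * A) with ha
  have ha0 : 0 < a := by positivity
  have ha1 : a ≤ 1 := by
    rw [ha, div_le_one (by positivity)]
    linarith
  have e1 : 1 / (4 * A) = a / 2 := by rw [ha]; field_simp; norm_num
  rw [e1]
  have h1 : 1 - a / 2 ≤ Real.exp (-(a / 2)) := by
    have := Real.add_one_le_exp (-(a / 2))
    linarith
  have h2 : Real.exp (a / 2) * Real.exp (-(a / 2)) = 1 := by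
    rw [← Real.exp_add]; simp
  have h3 : 0 < Real.exp (a / 2) := Real.exp_pos _
  have h4 : Real.exp (a / 2) * (1 - a / 2) ≤ 1 :=
    (mul_le_mul_of_nonneg_left h1 h3.le).trans h2.le
  have h5 : 1 ≤ (1 + a) * (1 - a / 2) := by nlinarith
  have h6 : 0 < 1 - a / 2 := by linarith
  by_contra h7
  push Not at h7
  have h8 : (1 + a) * (1 - a / 2) < Real.exp (a / 2) * (1 - a / 2) :=
    mul_lt_mul_of_pos_right h7 h6
  linarith

/-- powers against exponentials -/
lemma rpow_le_exp {P u : ℝ} (hP : 0 ≤ P) (hu : 0 ≤ u) :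
    u ^ P ≤ (Nat.factorial ⌈P⌉₊ : ℝ) * Real.exp u := by
  have hf : (1 : ℝ) ≤ (Nat.factorial ⌈P⌉₊ : ℝ) := by
    exact_mod_cast Nat.succ_le_of_lt (Nat.factorial_pos _)
  rcases le_total u 1 with h | h
  · have h1 : u ^ P ≤ 1 := Real.rpow_le_one hu h hP
    have h2 : 1 ≤ Real.exp u := Real.one_le_exp hu
    nlinarith
  · have h1 : u ^ P ≤ u ^ (⌈P⌉₊ : ℝ) := Real.rpow_le_rpow_of_exponent_le h (Nat.le_ceil P)
    rw [Real.rpow_natCast] at h1
    have h2 := Real.pow_div_factorial_le_exp u hu ⌈P⌉₊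
    rw [div_le_iff₀ (by linarith)] at h2
    linarith

/-- decay of the exponential -/
lemma exp_neg_le {P u : ℝ} (hP : 0 ≤ P) (hu : 0 < u) :
    Real.exp (-u) ≤ (Nat.factorial ⌈P⌉₊ : ℝ) * u ^ (-P) := by
  have h1 := rpow_le_exp hP hu.le
  rw [Real.rpow_neg hu.le, Real.exp_neg, ← div_eq_mul_inv, inv_eq_one_div,
    div_le_div_iff₀ (Real.exp_pos _) (Real.rpow_pos_of_pos hu _)]
  linarith

/-- tail of the moments of the count -/
theorem tail_moment {R T : Finset Nd} {A : ℝ} (hA : 1 / 2 ≤ A) (hTR : T ⊆ R) (hC : Cnt R T A)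
    {q : Nd} (hq : q ∈ R) (n : ℕ) {P : ℝ} (hP : 0 ≤ P) :
    ∑ y ∈ (iv q).filter (fun y => n < cn T q y), (cn T q y : ℝ) ^ P ≤
      (8 * A) ^ P * (Nat.factorial ⌈P⌉₊ : ℝ) * Real.exp (-(n / (8 * A))) * (2 * len q) := by
  have hA0 : 0 < A := by linarith
  have h1 := exp_moment hA0 hTR hC q hq
  have h2 : ∀ y ∈ (iv q).filter (fun y => n < cn T q y), (cn T q y : ℝ) ^ P ≤
      (8 * A) ^ P * (Nat.factorial ⌈P⌉₊ : ℝ) * Real.exp (-(n / (8 * A))) *
        (1 + 1 / (2 * A)) ^ (cn T q y) := by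
    intro y hy
    have hy' := (Finset.mem_filter.1 hy).2
    set N := cn T q y with hN
    have h3 : (N : ℝ) ^ P = (8 * A) ^ P * ((N : ℝ) / (8 * A)) ^ P := by
      rw [← Real.mul_rpow (by positivity) (by positivity)]
      congr 1
      field_simp
    have h4 := rpow_le_exp hP (show 0 ≤ (N : ℝ) / (8 * A) by positivity)
    have h5 : Real.exp ((N : ℝ) / (8 * A)) ≤
        Real.exp (-(n / (8 * A))) * (1 + 1 / (2 * A)) ^ N := by
      have h6 : Real.exp ((N : ℝ) / (4 * A)) ≤ (1 + 1 / (2 * A)) ^ N := by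
        calc Real.exp ((N : ℝ) / (4 * A)) = Real.exp (1 / (4 * A)) ^ N := by
              rw [← Real.exp_nat_mul]; congr 1; ring
          _ ≤ _ := pow_le_pow_left₀ (Real.exp_pos _).le (one_add_ge hA) N
      have h7 : Real.exp ((N : ℝ) / (8 * A)) ≤
          Real.exp (-(n / (8 * A))) * Real.exp ((N : ℝ) / (4 * A)) := by
        rw [← Real.exp_add]
        apply Real.exp_le_exp.2
        have h8 : (n : ℝ) ≤ N := by exact_mod_cast hy'.le
        have h9 : (N : ℝ) / (4 * A) = 2 * ((N : ℝ) / (8 * A)) := by field_simp; ring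
        rw [h9]
        have h10 : (n : ℝ) / (8 * A) ≤ (N : ℝ) / (8 * A) := by gcongr
        linarith
      exact h7.trans (mul_le_mul_of_nonneg_left h6 (Real.exp_pos _).le)
    rw [h3]
    calc (8 * A) ^ P * ((N : ℝ) / (8 * A)) ^ P
        ≤ (8 * A) ^ P * ((Nat.factorial ⌈P⌉₊ : ℝ) * (Real.exp (-(n / (8 * A))) *
            (1 + 1 / (2 * A)) ^ N)) := by
          refine mul_le_mul_of_nonneg_left (h4.trans ?_) (by positivity)
          exact mul_le_mul_of_nonneg_left h5 (by positivity)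
      _ = _ := by ring
  refine (Finset.sum_le_sum h2).trans ?_
  rw [← Finset.mul_sum]
  refine mul_le_mul_of_nonneg_left ?_ (by positivity)
  exact (Finset.sum_le_sum_of_subset_of_nonneg (Finset.filter_subset _ _)
    fun y _ _ => by positivity).trans h1

lemma sum_av (p : Nd) (X : Fn) : ∑ y ∈ iv p, ‖X y‖ ^ 2 = len p * av p X ^ 2 := by
  have hl := len_pos p
  have e : av p X ^ 2 = (1 / len p) * ∑ y ∈ iv p, ‖X y‖ ^ 2 := by
    unfold av av2
    rw [Real.sq_sqrt]
    · rfl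
    · exact mul_nonneg (by positivity) (Finset.sum_nonneg fun _ _ => by positivity)
  rw [e]
  field_simp

lemma aq_nonneg (q : ℝ) (p : Nd) (f : Fn) : 0 ≤ aq q p f := Lq853.avq_nonneg _ _ _ _

lemma sum_aq {r : ℝ} (hr : 0 < r) (p : Nd) (X : Fn) :
    ∑ y ∈ iv p, ‖X y‖ ^ r = len p * aq r p X ^ r := by
  have hl := len_pos p
  have e : aq r p X = ((1 / len p) * ∑ y ∈ iv p, ‖X y‖ ^ r) ^ (1 / r) := rfl
  have h0 : 0 ≤ (1 / len p) * ∑ y ∈ iv p, ‖X y‖ ^ r :=
    mul_nonneg (by positivity) (Finset.sum_nonneg fun _ _ => by positivity)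
  rw [e, ← Real.rpow_mul h0, one_div_mul_cancel hr.ne', Real.rpow_one]
  field_simp

/-- **(3)** weighted form of the counting: cut the count at `n` -/
theorem window_sum_n {R T : Finset Nd} {A : ℝ} (hA : 1 / 2 ≤ A) (hTR : T ⊆ R) (hC : Cnt R T A)
    {q : Nd} (hq : q ∈ R) (n : ℕ) {k : ℝ} (hk : 0 < k) (e : Fn)
    [DecidablePred fun I : Nd => iv I ⊂ iv q] :
    ∑ I ∈ T.filter (fun I => iv I ⊂ iv q), ∑ y ∈ iv I, ‖e y‖ ^ 2 ≤
      (n * av q e ^ 2 + 8 * A * (2 * (Nat.factorial ⌈(2 + k) / k⌉₊ : ℝ)) *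
        Real.exp (-(n * k / (8 * A * (2 + k)))) * aq (2 + k) q e ^ 2) * len q := by
  have hA0 : 0 < A := by linarith
  have hl := len_pos q
  have h2k : 0 < 2 + k := by linarith
  set P : ℝ := (2 + k) / k with hP
  have hP0 : 0 < P := by positivity
  rw [sum_windows]
  have h0 : ∑ y ∈ iv q, (cn T q y : ℝ) * ‖e y‖ ^ 2 =
      ∑ y ∈ (iv q).filter (fun y => n < cn T q y), (cn T q y : ℝ) * ‖e y‖ ^ 2 +
      ∑ y ∈ (iv q).filter (fun y => ¬ n < cn T q y), (cn T q y : ℝ) * ‖e y‖ ^ 2 :=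
    (Finset.sum_filter_add_sum_filter_not _ _ _).symm
  have h1 : ∑ y ∈ (iv q).filter (fun y => ¬ n < cn T q y), (cn T q y : ℝ) * ‖e y‖ ^ 2 ≤
      n * (len q * av q e ^ 2) := by
    rw [← sum_av, Finset.mul_sum]
    refine (Finset.sum_le_sum fun y hy => ?_).trans
      (Finset.sum_le_sum_of_subset_of_nonneg (Finset.filter_subset _ _)
        fun y _ _ => by positivity)
    have h2 := not_lt.1 (Finset.mem_filter.1 hy).2
    have h3 : (cn T q y : ℝ) ≤ n := by exact_mod_cast h2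
    gcongr
  have hpq : Real.HolderConjugate P ((2 + k) / 2) := by
    rw [Real.holderConjugate_iff]
    constructor
    · rw [hP, lt_div_iff₀ hk]; linarith
    · rw [hP]; field_simp; ring
  have h2 := Real.inner_le_Lp_mul_Lq ((iv q).filter (fun y => n < cn T q y))
    (fun y => (cn T q y : ℝ)) (fun y => ‖e y‖ ^ 2) hpq
  have h3 := tail_moment hA hTR hC hq n hP0.le
  have e3 : ∑ y ∈ (iv q).filter (fun y => n < cn T q y), |(cn T q y : ℝ)| ^ P =
      ∑ y ∈ (iv q).filter (fun y => n < cn T q y), (cn T q y : ℝ) ^ P :=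
    Finset.sum_congr rfl fun y _ => by rw [abs_of_nonneg (Nat.cast_nonneg _)]
  have h4 : ∑ y ∈ (iv q).filter (fun y => n < cn T q y), |‖e y‖ ^ 2| ^ ((2 + k) / 2) ≤
      len q * aq (2 + k) q e ^ (2 + k) := by
    rw [← sum_aq h2k]
    refine (Finset.sum_le_sum fun y _ => ?_).trans
      (Finset.sum_le_sum_of_subset_of_nonneg (Finset.filter_subset _ _)
        fun y _ _ => by positivity)
    rw [abs_of_nonneg (by positivity), ← Real.rpow_natCast, ← Real.rpow_mul (norm_nonneg _)]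
    refine le_of_eq ?_
    congr 1
    push_cast
    field_simp
  rw [e3] at h2
  set M : ℝ := (Nat.factorial ⌈P⌉₊ : ℝ) with hM
  have hM1 : (1 : ℝ) ≤ M := by
    rw [hM]
    exact_mod_cast Nat.succ_le_of_lt (Nat.factorial_pos _)
  set aa : ℝ := aq (2 + k) q e with haa
  have haa0 : 0 ≤ aa := aq_nonneg _ _ _
  have h5 : (∑ y ∈ (iv q).filter (fun y => n < cn T q y), (cn T q y : ℝ) ^ P) ^ (1 / P) ≤
      8 * A * (2 * M) * Real.exp (-(n * k / (8 * A * (2 + k)))) * len q ^ (1 / P) := by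
    refine (Real.rpow_le_rpow (Finset.sum_nonneg fun y _ => by positivity) h3 (by positivity)).trans
      ?_
    have e5 : (8 * A) ^ P * M * Real.exp (-(n / (8 * A))) * (2 * len q) =
        (8 * A) ^ P * ((2 * M) * (Real.exp (-(n / (8 * A))) * len q)) := by ring
    have hE : 0 < Real.exp (-(n / (8 * A))) := Real.exp_pos _
    have hAP : 0 ≤ (8 * A) ^ P := Real.rpow_nonneg (by positivity) _
    rw [e5, Real.mul_rpow hAP (mul_nonneg (by linarith) (mul_nonneg hE.le hl.le)),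
      Real.mul_rpow (show 0 ≤ 2 * M by linarith) (mul_nonneg hE.le hl.le),
      Real.mul_rpow hE.le hl.le,
      ← Real.rpow_mul (show 0 ≤ 8 * A by positivity), mul_one_div_cancel hP0.ne', Real.rpow_one,
      ← Real.exp_mul]
    have e6 : -(n / (8 * A)) * (1 / P) = -(n * k / (8 * A * (2 + k))) := by
      rw [hP]; field_simp
    rw [e6]
    have e7 : (2 * M) ^ (1 / P) ≤ 2 * M := by
      calc (2 * M) ^ (1 / P) ≤ (2 * M) ^ (1 : ℝ) := by
            refine Real.rpow_le_rpow_of_exponent_le (by linarith) ?_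
            rw [div_le_one hP0, hP, le_div_iff₀ hk]
            linarith
        _ = 2 * M := Real.rpow_one _
    calc 8 * A * ((2 * M) ^ (1 / P) * (Real.exp (-(n * k / (8 * A * (2 + k)))) * len q ^ (1 / P)))
        ≤ 8 * A * ((2 * M) * (Real.exp (-(n * k / (8 * A * (2 + k)))) * len q ^ (1 / P))) := by
          gcongr
      _ = _ := by ring
  have h6 : (∑ y ∈ (iv q).filter (fun y => n < cn T q y), |‖e y‖ ^ 2| ^ ((2 + k) / 2)) ^
      (1 / ((2 + k) / 2)) ≤ len q ^ (1 / ((2 + k) / 2)) * aa ^ 2 := by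
    refine (Real.rpow_le_rpow (Finset.sum_nonneg fun y _ => by positivity) h4 (by positivity)).trans
      ?_
    rw [Real.mul_rpow hl.le (by positivity), ← Real.rpow_mul haa0]
    refine le_of_eq ?_
    congr 1
    rw [← Real.rpow_natCast]
    congr 1
    push_cast
    field_simp
  have h7 : len q ^ (1 / P) * len q ^ (1 / ((2 + k) / 2)) = len q := by
    rw [← Real.rpow_add hl]
    have : 1 / P + 1 / ((2 + k) / 2) = 1 := by rw [hP]; field_simp; ring
    rw [this, Real.rpow_one]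
  have h8 : ∑ y ∈ (iv q).filter (fun y => n < cn T q y), (cn T q y : ℝ) * ‖e y‖ ^ 2 ≤
      8 * A * (2 * M) * Real.exp (-(n * k / (8 * A * (2 + k)))) * aa ^ 2 * len q := by
    refine h2.trans ?_
    calc _ ≤ (8 * A * (2 * M) * Real.exp (-(n * k / (8 * A * (2 + k)))) * len q ^ (1 / P)) *
          (len q ^ (1 / ((2 + k) / 2)) * aa ^ 2) := by
            gcongr
      _ = 8 * A * (2 * M) * Real.exp (-(n * k / (8 * A * (2 + k)))) * aa ^ 2 *
          (len q ^ (1 / P) * len q ^ (1 / ((2 + k) / 2))) := by ring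
      _ = _ := by rw [h7]
  rw [h0]
  calc _ ≤ 8 * A * (2 * M) * Real.exp (-(n * k / (8 * A * (2 + k)))) * aa ^ 2 * len q +
        n * (len q * av q e ^ 2) := add_le_add h8 h1
    _ = _ := by ring

/-- **(4) CLOSED FORM**: counts `K t^(-C5)` at every node; any `s > 0`, any `D` -/
theorem window_sum (k s D C5 K : ℝ) (hk : 0 < k) (hs : 0 < s) (hD : 0 ≤ D) (hC5 : 0 ≤ C5)
    (hK : 1 ≤ K) : ∃ C : ℝ, 0 ≤ C ∧ ∀ (R T : Finset Nd), T ⊆ R → ∀ t : ℝ, 0 < t → t ≤ 1 →
      Cnt R T (K * t ^ (-C5)) → ∀ q ∈ R, ∀ e : Fn, ∀ [DecidablePred fun I : Nd => iv I ⊂ iv q],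
      ∑ I ∈ T.filter (fun I => iv I ⊂ iv q), ∑ y ∈ iv I, ‖e y‖ ^ 2 ≤
        (2 * t ^ (-(C5 + s)) * av q e ^ 2 + C * t ^ D * aq (2 + k) q e ^ 2) * len q := by
  set M : ℝ := (Nat.factorial ⌈(2 + k) / k⌉₊ : ℝ) with hM
  set Q : ℝ := (D + C5) / s with hQ
  have hQ0 : 0 ≤ Q := by positivity
  set F : ℝ := (Nat.factorial ⌈Q⌉₊ : ℝ) with hF
  set b : ℝ := k / (8 * K * (2 + k)) with hb
  have hK0 : 0 < K := by linarith
  have hb0 : 0 < b := by positivity
  refine ⟨8 * K * (2 * M) * (F * b ^ (-Q)), by positivity, ?_⟩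
  intro R T hTR t ht ht1 hC q hq e _
  have hl := len_pos q
  have hA : 1 / 2 ≤ K * t ^ (-C5) := by
    have h1 : 1 ≤ t ^ (-C5) := Real.one_le_rpow_of_pos_of_le_one_of_nonpos ht ht1 (by linarith)
    nlinarith
  set n : ℕ := ⌈t ^ (-(C5 + s))⌉₊ with hn
  have hts : 1 ≤ t ^ (-(C5 + s)) :=
    Real.one_le_rpow_of_pos_of_le_one_of_nonpos ht ht1 (by linarith)
  have hn1 : t ^ (-(C5 + s)) ≤ n := Nat.le_ceil _
  have hn2 : (n : ℝ) ≤ 2 * t ^ (-(C5 + s)) := by
    have := Nat.ceil_lt_add_one (show 0 ≤ t ^ (-(C5 + s)) by positivity)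
    rw [← hn] at this
    linarith
  have h1 := window_sum_n hA hTR hC hq n hk e
  refine h1.trans (mul_le_mul_of_nonneg_right ?_ hl.le)
  refine add_le_add (mul_le_mul_of_nonneg_right hn2 (sq_nonneg _)) ?_
  refine mul_le_mul_of_nonneg_right ?_ (sq_nonneg _)
  -- the exponential
  have h2 : b * t ^ (-s) ≤ n * k / (8 * (K * t ^ (-C5)) * (2 + k)) := by
    have e1 : b * t ^ (-s) = t ^ (-(C5 + s)) * k / (8 * (K * t ^ (-C5)) * (2 + k)) := by
      have e2 : t ^ (-(C5 + s)) = t ^ (-C5) * t ^ (-s) := by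
        rw [← Real.rpow_add ht]; congr 1; ring
      have e3 : (0 : ℝ) < t ^ (-C5) := by positivity
      rw [e2, hb]
      field_simp
    rw [e1]
    gcongr
  have h3 : Real.exp (-(n * k / (8 * (K * t ^ (-C5)) * (2 + k)))) ≤ Real.exp (-(b * t ^ (-s))) :=
    Real.exp_le_exp.2 (by linarith)
  have h4 := exp_neg_le hQ0 (show 0 < b * t ^ (-s) by positivity)
  have h5 : (b * t ^ (-s)) ^ (-Q) = b ^ (-Q) * t ^ (D + C5) := by
    rw [Real.mul_rpow hb0.le (by positivity), ← Real.rpow_mul ht.le]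
    congr 2
    rw [hQ]
    field_simp
  rw [h5] at h4
  calc 8 * (K * t ^ (-C5)) * (2 * M) * Real.exp (-(n * k / (8 * (K * t ^ (-C5)) * (2 + k))))
      ≤ 8 * (K * t ^ (-C5)) * (2 * M) * (F * (b ^ (-Q) * t ^ (D + C5))) := by
        refine mul_le_mul_of_nonneg_left (h3.trans h4) ?_
        have : 0 ≤ M := by positivity
        positivity
    _ = 8 * K * (2 * M) * (F * b ^ (-Q)) * (t ^ (-C5) * t ^ (D + C5)) := by ring
    _ = 8 * K * (2 * M) * (F * b ^ (-Q)) * t ^ D := by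
        rw [← Real.rpow_add ht]
        congr 2
        ring

/-- the same including a possible window with top `q` itself -/
theorem window_sum_le (k s D C5 K : ℝ) (hk : 0 < k) (hs : 0 < s) (hD : 0 ≤ D) (hC5 : 0 ≤ C5)
    (hK : 1 ≤ K) : ∃ C : ℝ, 0 ≤ C ∧ ∀ (R T : Finset Nd), T ⊆ R → ∀ t : ℝ, 0 < t → t ≤ 1 →
      Cnt R T (K * t ^ (-C5)) → ∀ q ∈ R, ∀ e : Fn, ∀ [DecidablePred fun I : Nd => iv I ⊆ iv q],
      ∑ I ∈ T.filter (fun I => iv I ⊆ iv q), ∑ y ∈ iv I, ‖e y‖ ^ 2 ≤
        (3 * t ^ (-(C5 + s)) * av q e ^ 2 + C * t ^ D * aq (2 + k) q e ^ 2) * len q := by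
  classical
  obtain ⟨C, hC, h⟩ := window_sum k s D C5 K hk hs hD hC5 hK
  refine ⟨C, hC, ?_⟩
  intro R T hTR t ht ht1 hcnt q hq e _
  have hl := len_pos q
  have h1 := h R T hTR t ht ht1 hcnt q hq e
  have hts : 1 ≤ t ^ (-(C5 + s)) :=
    Real.one_le_rpow_of_pos_of_le_one_of_nonpos ht ht1 (by linarith)
  have h2 : T.filter (fun I => iv I ⊆ iv q) ⊆ insert q (T.filter (fun I => iv I ⊂ iv q)) := by
    intro I hI
    rw [Finset.mem_filter] at hI
    rw [Finset.mem_insert, Finset.mem_filter]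
    by_cases hIq : I = q
    · exact Or.inl hIq
    · right
      refine ⟨hI.1, Finset.ssubset_iff_subset_ne.2 ⟨hI.2, fun h => hIq ?_⟩⟩
      exact iv_inj hI.2 (level_le h.ge)
  have h3 : ∑ I ∈ T.filter (fun I => iv I ⊆ iv q), ∑ y ∈ iv I, ‖e y‖ ^ 2 ≤
      ∑ I ∈ insert q (T.filter (fun I => iv I ⊂ iv q)), ∑ y ∈ iv I, ‖e y‖ ^ 2 :=
    Finset.sum_le_sum_of_subset_of_nonneg h2 fun I _ _ => Finset.sum_nonneg fun y _ => by positivity
  have hq' : q ∉ T.filter (fun I => iv I ⊂ iv q) := by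
    intro hq'
    exact (Finset.mem_filter.1 hq').2.ne rfl
  rw [Finset.sum_insert hq', sum_av] at h3
  refine h3.trans ?_
  have h4 : len q * av q e ^ 2 ≤ t ^ (-(C5 + s)) * av q e ^ 2 * len q := by
    have : 0 ≤ len q * av q e ^ 2 := by positivity
    nlinarith
  calc _ ≤ t ^ (-(C5 + s)) * av q e ^ 2 * len q +
      (2 * t ^ (-(C5 + s)) * av q e ^ 2 + C * t ^ D * aq (2 + k) q e ^ 2) * len q :=
        add_le_add h4 h1
    _ = _ := by ring

end Crest.Agent.R079.JNx608
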