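import Crest.Agent.R079.KLw_446

/-! R079, KILL LEMMA, part F (helper446): the words of one atom against the killer. -/

set_option autoImplicit false

namespace Crest.Agent.R079.KLx446

open Finset Crest.Agent.R079.Grid Crest.Agent.R079.Glue Crest.Agent.R079.Growth
  Crest.Agent.R079.QRed Crest.Agent.R079.BadTx138 Crest.Agent.R079.KC996 Crest.Agent.R079.KLdx138
  Crest.Agent.R079.TwLx253

/-- exceptional density only sees the letter on the nodes of the region -/
lemma exD_congr {R : Finset Nd} {c : ℤ → ℤ → ℂ} {K K' : Fn} {α β γ : ℤ} {s D : ℝ}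
    (h : ∀ p ∈ R, ∀ y ∈ iv p, K y = K' y) (hE : ExD R c K α β γ s D) : ExD R c K' α β γ s D := by
  classical
  intro p hp w a b
  refine le_trans (le_of_eq ?_) (hE p hp w a b)
  congr 2
  refine Finset.filter_congr fun w' _ => ?_
  have e : kp c K' α β γ p w' = kp c K α β γ p w' := by
    funext x y
    unfold kp
    split_ifs with hm
    · rw [h p hp _ hm]
    · rfl
  unfold OpP
  rw [e]

/-- the values `w` with a point of a bounded box in a bounded strip -/
lemma w_range {a w v M : ℤ} (ha : a ≠ 0) (h : |a * w - v| ≤ M) : |w - v / a| ≤ M + 1 := by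
  have h1 := Int.mul_ediv_add_emod v a
  have h2 := Int.emod_nonneg v ha
  have h3 := Int.emod_lt_abs v ha
  have h4 : 1 ≤ |a| := Int.one_le_abs ha
  have hM : 0 ≤ M := (abs_nonneg _).trans h
  have h5 : a * (w - v / a) = (a * w - v) + v % a := by linarith
  have h6 : |a| * |w - v / a| ≤ M + |a| := by
    rw [← abs_mul, h5]
    refine (abs_add_le _ _).trans ?_
    rw [abs_of_nonneg h2]
    linarith
  have h7 : |a| * |w - v / a| ≤ |a| * (M + 1) := by nlinarith
  exact le_of_mul_le_mul_left h7 (by linarith)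

/-- the frozen values seen by one letter -/
lemma fr4_w {T T' : Finset ℤ} {a : ℤ → ℤ → ℂ} {F : ℤ → ℂ} {J : Nd} (hF : ∀ y, y ∉ iv J → F y = 0)
    {α β γ : ℤ} (hα : α ≠ 0) (hβ : |β| ≤ 3) (hγ : |γ| ≤ 3) {t t' : ℤ}
    (hT : T ⊆ Ico t (t + 2 ^ J.1)) (hT' : T' ⊆ Ico t' (t' + 2 ^ J.1)) :
    ∃ w0 : ℤ, ∀ w, w ∉ Ico w0 (w0 + ((271 * 2 ^ J.1 : ℕ) : ℤ)) → ∀ z z', fr4 T T' a F α β γ w z z' = 0 := by
  set n : ℤ := 2 ^ J.1 with hn
  have hn1 : 1 ≤ n := one_le_pow₀ (by norm_num)
  set v : ℤ := J.2 * 2 ^ (J.1 + 7) - β * t - γ * t' with hv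
  refine ⟨v / α - (134 * n + 1), ?_⟩
  intro w hw z z'
  unfold fr4
  split_ifs with h
  · by_contra hne
    have hy : α * w + β * z + γ * z' ∈ iv J := by
      by_contra hy
      exact hne (by rw [hF _ hy, mul_zero])
    rw [mem_iv_Ico] at hy
    have h1 := Finset.mem_Ico.1 (hT h.1)
    have h2 := Finset.mem_Ico.1 (hT' h.2)
    have e : (2 : ℤ) ^ (J.1 + 7) = 128 * n := by rw [pow_add]; norm_num; ring
    have hb : |β * (z - t)| ≤ 3 * n := by
      rw [abs_mul]
      refine mul_le_mul hβ ?_ (abs_nonneg _) (by norm_num)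
      rw [abs_le]
      constructor <;> linarith
    have hc : |γ * (z' - t')| ≤ 3 * n := by
      rw [abs_mul]
      refine mul_le_mul hγ ?_ (abs_nonneg _) (by norm_num)
      rw [abs_le]
      constructor <;> linarith
    have h3 : |α * w - v| ≤ 134 * n := by
      rw [abs_le] at hb hc ⊢
      rw [e] at hy
      rw [hv, e]
      constructor <;> nlinarith [hb.1, hb.2, hc.1, hc.2, hy.1, hy.2]
    have h4 := w_range hα h3
    rw [abs_le] at h4
    apply hw
    rw [Finset.mem_Ico]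
    push_cast
    rw [← hn]
    constructor <;> linarith [h4.1, h4.2]
  · rfl

lemma av_sq_iv {p : Nd} {X : Fn} {A : ℝ} (hA : 0 ≤ A) (h : av p X ≤ A) :
    ∑ y ∈ iv p, ‖X y‖ ^ 2 ≤ A ^ 2 * len p := by
  unfold av av2 at h
  have hl : (0 : ℝ) < 2 ^ (p.1 + 7) := by positivity
  have h0 : 0 ≤ ∑ y ∈ iv p, ‖X y‖ ^ 2 := Finset.sum_nonneg fun _ _ => sq_nonneg _
  have h1 : (1 / 2 ^ (p.1 + 7)) * ∑ y ∈ iv p, ‖X y‖ ^ 2 ≤ A ^ 2 := by
    have := (Real.sqrt_le_left hA).1 h
    exact this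
  unfold len
  rw [div_mul_eq_mul_div, one_mul, div_le_iff₀ hl] at h1
  exact h1

end Crest.Agent.R079.KLx446
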