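import Crest.Agent.R079.MainW_259
import Crest.Agent.R079.XR_112
import Crest.Agent.R079.EW5_702
import Crest.Agent.R079.S2D_530

/-! R079 (T5, wiring for S9): the product of the four letters on a window minus the main kernel is, on
the boxes of the window, the `E` kernel plus the `X` kernel.  helper259. -/

set_option autoImplicit false
set_option linter.unusedVariables false

namespace Crest.Agent.R079.KbS259

open Finset Crest.Agent.R079.Grid Crest.Agent.R079.Glue Crest.Agent.R079.GlueK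
  Crest.Agent.R079.LK990 Crest.Agent.R079.EWG990 Crest.Agent.R079.Growth Crest.Agent.R079.QRed
  Crest.Agent.R079.Cg408 Crest.Agent.R079.MainW259 Crest.Agent.R079.S2D530
  Crest.Agent.R079.XR112

/-- the main kernel with the factor `κ` (same shape as in `MainW259.main_word`) -/
noncomputable def Km (j : Fin 4) (κ : ℝ) (T : Fin 3 → Finset ℤ) (g : Fin 3 → ℤ → ℤ → ℂ) {n : ℕ}
    (u v : Fin n → ℤ → ℤ → ℂ) (d : Fin n → ℂ) (F : Fin 4 → ℤ → ℂ) (s A : ℤ) : ℂ :=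
  (κ : ℂ) * KP j T (upk g 0 (fun w z z' => ∑ l, d l * (u l w z * v l w z'))) (upF F 3) s A

/-- the error kernel of the window -/
noncomputable def Kb (j : Fin 4) (κ : ℝ) (T : Fin 3 → Finset ℤ) (g : Fin 3 → ℤ → ℤ → ℂ) {n : ℕ}
    (u v : Fin n → ℤ → ℤ → ℂ) (d : Fin n → ℂ) (J : Nd) (F : Fin 4 → ℤ → ℂ) (s A : ℤ) : ℂ :=
  ∏ i, rs J F i (A - sl i * s) - Km j κ T g u v d (rs J F) s A

lemma split_kb (j : Fin 4) (κ : ℝ) (T : Fin 3 → Finset ℤ) (g : Fin 3 → ℤ → ℤ → ℂ) {n : ℕ}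
    (u v : Fin n → ℤ → ℤ → ℂ) (d : Fin n → ℂ) (J : Nd) (F : Fin 4 → ℤ → ℂ) (s A : ℤ) :
    ∏ i, rs J F i (A - sl i * s) =
      Km j κ T g u v d (rs J F) s A + Kb j κ T g u v d J F s A := by
  unfold Kb; ring

/-- pointwise: product of the letters with the slot `j` an atom -/
lemma prod_atom {j : Fin 4} (κ : ℝ) (T : Fin 3 → Finset ℤ) (g : Fin 3 → ℤ → ℤ → ℂ)
    (F : Fin 4 → ℤ → ℂ) (s A : ℤ)
    (hF : F j (A - sl j * s) = atom j κ T (g 0) (g 1) (g 2) (A - sl j * s)) :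
    ∏ i, F i (A - sl i * s) = (κ : ℂ) * KP j T (fun e' _ => g e') F s A := by
  rw [Fin.prod_univ_succAbove (fun i => F i (A - sl i * s)) j, hF]
  unfold KP atom Per PhiW
  ring

/-- **the error kernel on a box of the window** -/
theorem kb_box {j : Fin 4} (hj : j ≠ 3) (κ : ℝ) (T : Fin 3 → Finset ℤ)
    (g : Fin 3 → ℤ → ℤ → ℂ) {n : ℕ} (u v : Fin n → ℤ → ℤ → ℂ) (d : Fin n → ℂ)
    (E X : ℤ → ℤ → ℤ → ℂ) {J K : Nd} (hJK : iv J ⊆ iv K) (F : Fin 4 → ℤ → ℂ)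
    (hF : ∀ y ∈ iv J, F j y = atom j κ T (g 0) (g 1) (g 2) y)
    (hdec : ∀ w, ∀ z ∈ T 0, ∀ z' ∈ T 1, (sl j - sl 3) * w + (sl (j.succAbove 0) - sl 3) * z +
        (sl (j.succAbove 1) - sl 3) * z' ∈ iv K →
      Cc (g 0) (F 3) (sl j - sl 3) (sl (j.succAbove 0) - sl 3) (sl (j.succAbove 1) - sl 3) w z z' =
        ∑ l, d l * (u l w z * v l w z') + E w z z' + X w z z')
    {bb : ℤ} (hbb : bb = -1 ∨ bb = -7) {p : Nd} (hp : iv p ⊆ iv J) {x : ℤ} (hx : x ∈ adm p.1 p.2) :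
    LboxG (2 ^ p.1) bb (Kb j κ T g u v d J F) x =
      (κ : ℂ) * LboxG (2 ^ p.1) bb (KP j T (upk g 0 E) (upF F 3)) x +
      (κ : ℂ) * LboxG (2 ^ p.1) bb (KP j T (upk g 0 X) (upF F 3)) x := by
  have h32 : j.succAbove 2 = 3 := sA2 j hj
  have e02 : ((0 : Fin 3) + 2) = 2 := rfl
  have e01 : ((0 : Fin 3) + 1) = 1 := rfl
  rw [← EW5702.LboxG_smul, ← EW5702.LboxG_smul, ← LboxG_add]
  refine LboxG_congr _ bb _ _ x fun w => ?_
  set s : ℤ := bb * ((2 ^ p.1 : ℕ) : ℤ) + ∑ i, ((w i : ℕ) : ℤ) with hs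
  set A : ℤ := x + ∑ i, sl i * ((w i : ℕ) : ℤ) with hA
  -- all shadows are in `iv p`
  have hy : ∀ k : Fin 4, A - sl k * s ∈ iv J := by
    intro k
    have h1 := yv_mem p.1 p.2 bb x hbb hx w k
    rw [yv_eq] at h1
    exact hp h1
  have hrs : ∀ k : Fin 4, rs J F k (A - sl k * s) = F k (A - sl k * s) := by
    intro k
    unfold rs
    rw [if_pos (hy k)]
  have hprod : ∏ i, rs J F i (A - sl i * s) = ∏ i, F i (A - sl i * s) :=
    Finset.prod_congr rfl fun i _ => hrs i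
  have hKm : Km j κ T g u v d (rs J F) s A = Km j κ T g u v d F s A := by
    unfold Km KP
    congr 2
    refine Finset.prod_congr rfl fun e _ => ?_
    unfold upF
    split_ifs with h
    · rfl
    · exact hrs _
  unfold Kb
  rw [hprod, hKm, prod_atom κ T g F s A (hF _ (hy j))]
  have hsp := KP_split j 0 T g F (fun w z z' => ∑ l, d l * (u l w z * v l w z')) E X (iv K)
    (by
      rw [e02, e01, h32]
      intro w z hz z' hz' hyy
      exact hdec w z hz z' hz' hyy) s A (by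
      rw [e02, h32]
      exact hJK (hy 3))
  rw [e02, h32] at hsp
  rw [hsp]
  unfold Km
  ring

/-- **(kb2)**: the error word over any set of nodes of the window -/
theorem kb_sum {j : Fin 4} (hj : j ≠ 3) {κ : ℝ} (hκ : 0 ≤ κ) (T : Fin 3 → Finset ℤ)
    (g : Fin 3 → ℤ → ℤ → ℂ) {n : ℕ} (u v : Fin n → ℤ → ℤ → ℂ) (d : Fin n → ℂ)
    (E X : ℤ → ℤ → ℤ → ℂ) {J K : Nd} (hJK : iv J ⊆ iv K) (F : Fin 4 → ℤ → ℂ)
    (hF : ∀ y ∈ iv J, F j y = atom j κ T (g 0) (g 1) (g 2) y)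
    (hdec : ∀ w, ∀ z ∈ T 0, ∀ z' ∈ T 1, (sl j - sl 3) * w + (sl (j.succAbove 0) - sl 3) * z +
        (sl (j.succAbove 1) - sl 3) * z' ∈ iv K →
      Cc (g 0) (F 3) (sl j - sl 3) (sl (j.succAbove 0) - sl 3) (sl (j.succAbove 1) - sl 3) w z z' =
        ∑ l, d l * (u l w z * v l w z') + E w z z' + X w z z')
    {bb : ℤ} (hbb : bb = -1 ∨ bb = -7) {R Y : Finset Nd} (hR : ∀ p ∈ R, iv p ⊆ iv J) (hY : Y ⊆ R) :
    ∑ p ∈ Y, ∑ x ∈ adm p.1 p.2, ‖LboxG (2 ^ p.1) bb (Kb j κ T g u v d J F) x‖ ≤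
      κ * ∑ p ∈ R, ∑ x ∈ adm p.1 p.2,
        ‖LboxG (2 ^ p.1) bb (KP j T (upk g 0 E) (upF F (j.succAbove 2))) x‖ +
      κ * ∑ p ∈ R, ∑ x ∈ adm p.1 p.2,
        ‖LboxG (2 ^ p.1) bb (KP j T (upk g 0 X) (upF F (j.succAbove 2))) x‖ := by
  rw [sA2 j hj]
  have hsub : ∑ p ∈ Y, ∑ x ∈ adm p.1 p.2, ‖LboxG (2 ^ p.1) bb (Kb j κ T g u v d J F) x‖ ≤
      ∑ p ∈ R, ∑ x ∈ adm p.1 p.2, ‖LboxG (2 ^ p.1) bb (Kb j κ T g u v d J F) x‖ :=
    Finset.sum_le_sum_of_subset_of_nonneg hY fun p _ _ => Finset.sum_nonneg fun x _ => norm_nonneg _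
  refine hsub.trans ?_
  rw [Finset.mul_sum, Finset.mul_sum, ← Finset.sum_add_distrib]
  refine Finset.sum_le_sum fun p hp => ?_
  rw [Finset.mul_sum, Finset.mul_sum, ← Finset.sum_add_distrib]
  refine Finset.sum_le_sum fun x hx => ?_
  rw [kb_box hj κ T g u v d E X hJK F hF hdec hbb (hR p hp) hx]
  refine (norm_add_le _ _).trans (le_of_eq ?_)
  rw [norm_mul, norm_mul, Complex.norm_real, Real.norm_of_nonneg hκ]

end Crest.Agent.R079.KbS259
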