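import Crest.Agent.R079.KbS_259

/-! R079 (T4/T5): edge-generic version of `KbS_259`.  Edge `e : Fin 3`, line slots `j.succAbove e`,
`j.succAbove (e+1)`, static slot `j.succAbove (e+2)` (any slot, not only `3`).  helper259. -/

set_option autoImplicit false
set_option linter.unusedVariables false

namespace Crest.Agent.R079.KbSe259

open Finset Crest.Agent.R079.Grid Crest.Agent.R079.Glue Crest.Agent.R079.GlueK
  Crest.Agent.R079.LK990 Crest.Agent.R079.EWG990 Crest.Agent.R079.Growth Crest.Agent.R079.QRed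
  Crest.Agent.R079.Cg408 Crest.Agent.R079.S2D530 Crest.Agent.R079.XR112

/-- the main kernel on the edge `e`, with the factor `κ` -/
noncomputable def Kme (j : Fin 4) (e : Fin 3) (κ : ℝ) (T : Fin 3 → Finset ℤ)
    (g : Fin 3 → ℤ → ℤ → ℂ) {n : ℕ} (u v : Fin n → ℤ → ℤ → ℂ) (d : Fin n → ℂ)
    (F : Fin 4 → ℤ → ℂ) (s A : ℤ) : ℂ :=
  (κ : ℂ) * KP j T (upk g e (fun w z z' => ∑ l, d l * (u l w z * v l w z')))
    (upF F (j.succAbove (e + 2))) s A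

/-- the error kernel of the window -/
noncomputable def Kbe (j : Fin 4) (e : Fin 3) (κ : ℝ) (T : Fin 3 → Finset ℤ)
    (g : Fin 3 → ℤ → ℤ → ℂ) {n : ℕ} (u v : Fin n → ℤ → ℤ → ℂ) (d : Fin n → ℂ) (J : Nd)
    (F : Fin 4 → ℤ → ℂ) (s A : ℤ) : ℂ :=
  ∏ i, rs J F i (A - sl i * s) - Kme j e κ T g u v d (rs J F) s A

lemma split_kbe (j : Fin 4) (e : Fin 3) (κ : ℝ) (T : Fin 3 → Finset ℤ) (g : Fin 3 → ℤ → ℤ → ℂ)
    {n : ℕ} (u v : Fin n → ℤ → ℤ → ℂ) (d : Fin n → ℂ) (J : Nd) (F : Fin 4 → ℤ → ℂ) (s A : ℤ) :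
    ∏ i, rs J F i (A - sl i * s) =
      Kme j e κ T g u v d (rs J F) s A + Kbe j e κ T g u v d J F s A := by
  unfold Kbe; ring

/-- **the error kernel on a box of the window** -/
theorem kbe_box (j : Fin 4) (e : Fin 3) (κ : ℝ) (T : Fin 3 → Finset ℤ)
    (g : Fin 3 → ℤ → ℤ → ℂ) {n : ℕ} (u v : Fin n → ℤ → ℤ → ℂ) (d : Fin n → ℂ)
    (E X : ℤ → ℤ → ℤ → ℂ) {J K : Nd} (hJK : iv J ⊆ iv K) (F : Fin 4 → ℤ → ℂ)
    (hF : ∀ y ∈ iv J, F j y = atom j κ T (g 0) (g 1) (g 2) y)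
    (hdec : ∀ w, ∀ z ∈ T e, ∀ z' ∈ T (e + 1), (sl j - sl (j.succAbove (e + 2))) * w +
        (sl (j.succAbove e) - sl (j.succAbove (e + 2))) * z +
        (sl (j.succAbove (e + 1)) - sl (j.succAbove (e + 2))) * z' ∈ iv K →
      Cc (g e) (F (j.succAbove (e + 2))) (sl j - sl (j.succAbove (e + 2)))
        (sl (j.succAbove e) - sl (j.succAbove (e + 2)))
        (sl (j.succAbove (e + 1)) - sl (j.succAbove (e + 2))) w z z' =
        ∑ l, d l * (u l w z * v l w z') + E w z z' + X w z z')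
    {bb : ℤ} (hbb : bb = -1 ∨ bb = -7) {p : Nd} (hp : iv p ⊆ iv J) {x : ℤ} (hx : x ∈ adm p.1 p.2) :
    LboxG (2 ^ p.1) bb (Kbe j e κ T g u v d J F) x =
      (κ : ℂ) * LboxG (2 ^ p.1) bb (KP j T (upk g e E) (upF F (j.succAbove (e + 2)))) x +
      (κ : ℂ) * LboxG (2 ^ p.1) bb (KP j T (upk g e X) (upF F (j.succAbove (e + 2)))) x := by
  rw [← EW5702.LboxG_smul, ← EW5702.LboxG_smul, ← LboxG_add]
  refine LboxG_congr _ bb _ _ x fun w => ?_
  set s : ℤ := bb * ((2 ^ p.1 : ℕ) : ℤ) + ∑ i, ((w i : ℕ) : ℤ) with hs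
  set A : ℤ := x + ∑ i, sl i * ((w i : ℕ) : ℤ) with hA
  have hy : ∀ k : Fin 4, A - sl k * s ∈ iv J := by
    intro k
    have h1 := yv_mem p.1 p.2 bb x hbb hx w k
    rw [yv_eq] at h1
    exact hp h1
  have hrs : ∀ k : Fin 4, rs J F k (A - sl k * s) = F k (A - sl k * s) := by
    intro k
    unfold rs
    rw [if_pos (hy k)]
  have hprod : ∏ i, rs J F i (A - sl i * s) = ∏ i, F i (A - sl i * s) :=
    Finset.prod_congr rfl fun i _ => hrs i
  have hKm : Kme j e κ T g u v d (rs J F) s A = Kme j e κ T g u v d F s A := by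
    unfold Kme KP
    congr 2
    refine Finset.prod_congr rfl fun f _ => ?_
    unfold upF
    split_ifs with h
    · rfl
    · exact hrs _
  unfold Kbe
  rw [hprod, hKm, KbS259.prod_atom κ T g F s A (hF _ (hy j))]
  have hsp := KP_split j e T g F (fun w z z' => ∑ l, d l * (u l w z * v l w z')) E X (iv K)
    hdec s A (hJK (hy _))
  rw [hsp]
  unfold Kme
  ring

/-- the error word over any set of nodes of the window -/
theorem kbe_sum (j : Fin 4) (e : Fin 3) {κ : ℝ} (hκ : 0 ≤ κ) (T : Fin 3 → Finset ℤ)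
    (g : Fin 3 → ℤ → ℤ → ℂ) {n : ℕ} (u v : Fin n → ℤ → ℤ → ℂ) (d : Fin n → ℂ)
    (E X : ℤ → ℤ → ℤ → ℂ) {J K : Nd} (hJK : iv J ⊆ iv K) (F : Fin 4 → ℤ → ℂ)
    (hF : ∀ y ∈ iv J, F j y = atom j κ T (g 0) (g 1) (g 2) y)
    (hdec : ∀ w, ∀ z ∈ T e, ∀ z' ∈ T (e + 1), (sl j - sl (j.succAbove (e + 2))) * w +
        (sl (j.succAbove e) - sl (j.succAbove (e + 2))) * z +
        (sl (j.succAbove (e + 1)) - sl (j.succAbove (e + 2))) * z' ∈ iv K →
      Cc (g e) (F (j.succAbove (e + 2))) (sl j - sl (j.succAbove (e + 2)))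
        (sl (j.succAbove e) - sl (j.succAbove (e + 2)))
        (sl (j.succAbove (e + 1)) - sl (j.succAbove (e + 2))) w z z' =
        ∑ l, d l * (u l w z * v l w z') + E w z z' + X w z z')
    {bb : ℤ} (hbb : bb = -1 ∨ bb = -7) {R Y : Finset Nd} (hR : ∀ p ∈ R, iv p ⊆ iv J) (hY : Y ⊆ R) :
    ∑ p ∈ Y, ∑ x ∈ adm p.1 p.2, ‖LboxG (2 ^ p.1) bb (Kbe j e κ T g u v d J F) x‖ ≤
      κ * ∑ p ∈ R, ∑ x ∈ adm p.1 p.2,
        ‖LboxG (2 ^ p.1) bb (KP j T (upk g e E) (upF F (j.succAbove (e + 2)))) x‖ +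
      κ * ∑ p ∈ R, ∑ x ∈ adm p.1 p.2,
        ‖LboxG (2 ^ p.1) bb (KP j T (upk g e X) (upF F (j.succAbove (e + 2)))) x‖ := by
  have hsub : ∑ p ∈ Y, ∑ x ∈ adm p.1 p.2, ‖LboxG (2 ^ p.1) bb (Kbe j e κ T g u v d J F) x‖ ≤
      ∑ p ∈ R, ∑ x ∈ adm p.1 p.2, ‖LboxG (2 ^ p.1) bb (Kbe j e κ T g u v d J F) x‖ :=
    Finset.sum_le_sum_of_subset_of_nonneg hY fun p _ _ => Finset.sum_nonneg fun x _ => norm_nonneg _
  refine hsub.trans ?_
  rw [Finset.mul_sum, Finset.mul_sum, ← Finset.sum_add_distrib]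
  refine Finset.sum_le_sum fun p hp => ?_
  rw [Finset.mul_sum, Finset.mul_sum, ← Finset.sum_add_distrib]
  refine Finset.sum_le_sum fun x hx => ?_
  rw [kbe_box j e κ T g u v d E X hJK F hF hdec hbb (hR p hp) hx]
  refine (norm_add_le _ _).trans (le_of_eq ?_)
  rw [norm_mul, norm_mul, Complex.norm_real, Real.norm_of_nonneg hκ]

end Crest.Agent.R079.KbSe259
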