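import Crest.Agent.R079.Tr2_230
import Crest.Agent.R079.LeafV_71
import Crest.Agent.R079.PerT_530

/-! R079, Step II: labels of the main kernel for a GENERAL EDGE `e` (helper255; `PerT_530`, `Lab_530`
are the case `e = 0`).  Slots `a = j.succAbove e`, `b = j.succAbove (e+1)`, static slot
`j.succAbove (e+2)`. -/

set_option autoImplicit false

namespace Crest.Agent.R079.LabEx255

open Finset Matrix Crest.Agent.R079.Grid Crest.Agent.R079.Glue Crest.Agent.R079.Tr230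
  Crest.Agent.R079.LK990 Crest.Agent.R079.EWG990 Crest.Agent.R079.St2

/-- component -/
def pr (e : Fin 3) (s : ℤ × ℤ × ℤ) : ℤ := ![s.1, s.2.1, s.2.2] e

/-- the point with components `x` at `e`, `x'` at `e+1`, `0` at `e+2` -/
def pt (e : Fin 3) (x x' : ℤ) : ℤ × ℤ × ℤ := ![(x, x', 0), (0, x, x'), (x', 0, x)] e

lemma e3 (e : Fin 3) : e = 0 ∨ e = 1 ∨ e = 2 := by fin_cases e <;> simp

lemma cfz_pt (j : Fin 4) (e : Fin 3) (x x' : ℤ) :
    cfz j (pt e x x') = cf j e * x + cf j (e + 1) * x' := by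
  obtain rfl | rfl | rfl := e3 e
  · simp [pt, cfz]
  · simp [pt, cfz, show (1 : Fin 3) + 1 = 2 from rfl]
  · simp [pt, cfz, show (2 : Fin 3) + 1 = 0 from rfl]; ring

/-- label letter on the `z`-side (edges `e` and `e+2`) -/
noncomputable def al (e : Fin 3) (T : Fin 3 → Finset ℤ) (g : Fin 3 → ℤ → ℤ → ℂ) (u : ℤ → ℤ → ℂ)
    (r : ℤ) (s : ℤ × ℤ × ℤ) (z : ℤ) : ℂ :=
  kT (T (e + 2)) (T e) (g (e + 2)) (pr (e + 2) s) (z + pr e s) *
    u (r - (s.1 + s.2.1 + s.2.2)) (z + pr e s)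

/-- label letter on the `z'`-side (edges `e` and `e+1`) -/
noncomputable def be (e : Fin 3) (T : Fin 3 → Finset ℤ) (g : Fin 3 → ℤ → ℤ → ℂ) (v : ℤ → ℤ → ℂ)
    (r : ℤ) (s : ℤ × ℤ × ℤ) (z' : ℤ) : ℂ :=
  kT (T (e + 1)) (T (e + 2)) (g (e + 1)) (z' + pr (e + 1) s) (pr (e + 2) s) *
    v (r - (s.1 + s.2.1 + s.2.2)) (z' + pr (e + 1) s)

/-- **LABELS OF THE MAIN KERNEL**, edge `e` -/
theorem main_labels (j : Fin 4) (e : Fin 3) (T : Fin 3 → Finset ℤ) (g : Fin 3 → ℤ → ℤ → ℂ) {n : ℕ}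
    (u v : Fin n → ℤ → ℤ → ℂ) (d : Fin n → ℂ) (Z S : Finset (ℤ × ℤ × ℤ)) (hS : Sh j T Z ⊆ S)
    (hS0 : ∀ s ∈ S, cfz j s = 0) (r z z' : ℤ) (hz : pt e z z' ∈ Z) :
    Per j T (PhiW (upk g e (fun w x x' => ∑ l, d l * (u l w x * v l w x'))))
      (cf j e * z + cf j (e + 1) * z') (r + z + z') =
      ∑ s ∈ S, ∑ l, d l * (al e T g (u l) r s z * be e T g (v l) r s z') := by
  rw [← cfz_pt, PerT530.per_translates j T _ Z S hS hS0 hz]
  refine Finset.sum_congr rfl fun s _ => ?_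
  obtain rfl | rfl | rfl := e3 e
  · have ew : r + z + z' - (z + s.1) - (z' + s.2.1) - s.2.2 =
        r - (s.1 + s.2.1 + s.2.2) := by ring
    have q1 : (pt 0 z z').1 = z := rfl
    have q2 : (pt 0 z z').2.1 = z' := rfl
    have q3 : (pt 0 z z').2.2 = 0 := rfl
    rw [q1, q2, q3]
    simp only [zero_add]
    rw [ew]
    have p0 : pr 0 s = s.1 := rfl
    have p1 : pr 1 s = s.2.1 := rfl
    have p2 : pr 2 s = s.2.2 := rfl
    by_cases h : z + s.1 ∈ T 0 ∧ z' + s.2.1 ∈ T 1 ∧ s.2.2 ∈ T 2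
    · rw [if_pos h]
      have hP : PhiW (upk g 0 (fun w x x' => ∑ l, d l * (u l w x * v l w x')))
          (r - (s.1 + s.2.1 + s.2.2)) (z + s.1) (z' + s.2.1) s.2.2 =
          (∑ l, d l * (u l (r - (s.1 + s.2.1 + s.2.2)) (z + s.1) *
            v l (r - (s.1 + s.2.1 + s.2.2)) (z' + s.2.1))) *
            g 1 (z' + s.2.1) s.2.2 * g 2 s.2.2 (z + s.1) := by
        unfold PhiW upk
        rw [if_pos rfl, if_neg (show ¬ ((1 : Fin 3) = 0) by decide),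
          if_neg (show ¬ ((2 : Fin 3) = 0) by decide)]
      rw [hP, Finset.sum_mul, Finset.sum_mul]
      refine Finset.sum_congr rfl fun l _ => ?_
      unfold al be kT
      simp only [zero_add]
      rw [p0, p1, p2, if_pos ⟨h.2.2, h.1⟩, if_pos ⟨h.2.1, h.2.2⟩]
      ring
    · rw [if_neg h]
      symm
      refine Finset.sum_eq_zero fun l _ => ?_
      simp only [al, be, kT, zero_add]
      rw [p0, p1, p2]
      by_cases h1 : s.2.2 ∈ T 2 ∧ z + s.1 ∈ T 0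
      · have h2 : ¬ (z' + s.2.1 ∈ T 1 ∧ s.2.2 ∈ T 2) := fun hc => h ⟨h1.2, hc.1, hc.2⟩
        rw [if_neg h2]
        ring
      · rw [if_neg h1]
        ring
  · have ew : r + z + z' - s.1 - (z + s.2.1) - (z' + s.2.2) =
        r - (s.1 + s.2.1 + s.2.2) := by ring
    have q1 : (pt 1 z z').1 = 0 := rfl
    have q2 : (pt 1 z z').2.1 = z := rfl
    have q3 : (pt 1 z z').2.2 = z' := rfl
    rw [q1, q2, q3]
    simp only [zero_add]
    rw [ew]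
    have p0 : pr 0 s = s.1 := rfl
    have p1 : pr 1 s = s.2.1 := rfl
    have p2 : pr 2 s = s.2.2 := rfl
    have f1 : (1 : Fin 3) + 1 = 2 := rfl
    have f2 : (1 : Fin 3) + 2 = 0 := rfl
    by_cases h : s.1 ∈ T 0 ∧ z + s.2.1 ∈ T 1 ∧ z' + s.2.2 ∈ T 2
    · rw [if_pos h]
      have hP : PhiW (upk g 1 (fun w x x' => ∑ l, d l * (u l w x * v l w x')))
          (r - (s.1 + s.2.1 + s.2.2)) s.1 (z + s.2.1) (z' + s.2.2) =
          g 0 s.1 (z + s.2.1) * (∑ l, d l * (u l (r - (s.1 + s.2.1 + s.2.2)) (z + s.2.1) *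
            v l (r - (s.1 + s.2.1 + s.2.2)) (z' + s.2.2))) *
            g 2 (z' + s.2.2) s.1 := by
        unfold PhiW upk
        rw [if_pos rfl, if_neg (show ¬ ((0 : Fin 3) = 1) by decide),
          if_neg (show ¬ ((2 : Fin 3) = 1) by decide)]
      rw [hP, Finset.mul_sum, Finset.sum_mul]
      refine Finset.sum_congr rfl fun l _ => ?_
      unfold al be kT
      rw [f1, f2, p0, p1, p2, if_pos ⟨h.1, h.2.1⟩, if_pos ⟨h.2.2, h.1⟩]
      ring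
    · rw [if_neg h]
      symm
      refine Finset.sum_eq_zero fun l _ => ?_
      simp only [al, be, kT]
      rw [f1, f2, p0, p1, p2]
      by_cases h1 : s.1 ∈ T 0 ∧ z + s.2.1 ∈ T 1
      · have h2 : ¬ (z' + s.2.2 ∈ T 2 ∧ s.1 ∈ T 0) := fun hc => h ⟨h1.1, h1.2, hc.1⟩
        rw [if_neg h2]
        ring
      · rw [if_neg h1]
        ring
  · have ew : r + z + z' - (z' + s.1) - s.2.1 - (z + s.2.2) =
        r - (s.1 + s.2.1 + s.2.2) := by ring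
    have q1 : (pt 2 z z').1 = z' := rfl
    have q2 : (pt 2 z z').2.1 = 0 := rfl
    have q3 : (pt 2 z z').2.2 = z := rfl
    rw [q1, q2, q3]
    simp only [zero_add]
    rw [ew]
    have p0 : pr 0 s = s.1 := rfl
    have p1 : pr 1 s = s.2.1 := rfl
    have p2 : pr 2 s = s.2.2 := rfl
    have f1 : (2 : Fin 3) + 1 = 0 := rfl
    have f2 : (2 : Fin 3) + 2 = 1 := rfl
    by_cases h : z' + s.1 ∈ T 0 ∧ s.2.1 ∈ T 1 ∧ z + s.2.2 ∈ T 2
    · rw [if_pos h]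
      have hP : PhiW (upk g 2 (fun w x x' => ∑ l, d l * (u l w x * v l w x')))
          (r - (s.1 + s.2.1 + s.2.2)) (z' + s.1) s.2.1 (z + s.2.2) =
          g 0 (z' + s.1) s.2.1 * g 1 s.2.1 (z + s.2.2) *
            (∑ l, d l * (u l (r - (s.1 + s.2.1 + s.2.2)) (z + s.2.2) *
            v l (r - (s.1 + s.2.1 + s.2.2)) (z' + s.1))) := by
        unfold PhiW upk
        rw [if_pos rfl, if_neg (show ¬ ((0 : Fin 3) = 2) by decide),
          if_neg (show ¬ ((1 : Fin 3) = 2) by decide)]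
      rw [hP, Finset.mul_sum]
      refine Finset.sum_congr rfl fun l _ => ?_
      unfold al be kT
      rw [f1, f2, p0, p1, p2, if_pos ⟨h.2.1, h.2.2⟩, if_pos ⟨h.1, h.2.1⟩]
      ring
    · rw [if_neg h]
      symm
      refine Finset.sum_eq_zero fun l _ => ?_
      simp only [al, be, kT]
      rw [f1, f2, p0, p1, p2]
      by_cases h1 : s.2.1 ∈ T 1 ∧ z + s.2.2 ∈ T 2
      · have h2 : ¬ (z' + s.1 ∈ T 0 ∧ s.2.1 ∈ T 1) := fun hc => h ⟨hc.1, h1.1, h1.2⟩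
        rw [if_neg h2]
        ring
      · rw [if_neg h1]
        ring

/-- two consecutive coordinates of a plane vector determine it -/
lemma injE {j : Fin 4} (e : Fin 3) {s s' : ℤ × ℤ × ℤ} (h : cfz j s = 0) (h' : cfz j s' = 0)
    (h0 : pr e s = pr e s') (h1 : pr (e + 1) s = pr (e + 1) s') : s = s' := by
  obtain rfl | rfl | rfl := e3 e
  · exact inj01 h h' h0 h1
  · exact inj12 h h' h0 h1
  · exact inj20 h h' h0 h1

/-- pointwise price of the translates, edge `e` -/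
theorem priceE {j : Fin 4} (e : Fin 3) {S : Finset (ℤ × ℤ × ℤ)} (hS0 : ∀ s ∈ S, cfz j s = 0)
    (T T' : Finset ℤ) (a : ℤ → ℤ → ℂ) (r : ℕ) (hr : r ≠ 0) (z z' : ℤ) :
    ∑ s ∈ S, ‖kT T T' a (z + pr e s) (z' + pr (e + 1) s)‖ ^ r ≤
      ∑ x ∈ T, ∑ x' ∈ T', ‖a x x'‖ ^ r := by
  obtain rfl | rfl | rfl := e3 e
  · exact price01 hS0 T T' a r hr z z'
  · exact price12 hS0 T T' a r hr z z'
  · exact price20 hS0 T T' a r hr z z'

lemma ee2 (e : Fin 3) : e + 2 + 1 = e := by revert e; decide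

lemma ee1 (e : Fin 3) : e + 1 + 1 = e + 2 := by revert e; decide

/-- labels are square summable: `∑_τ |al|² ≤ ∑ |g (e+2)|²` when `|u| ≤ 1` -/
theorem sum_al_le {j : Fin 4} (e : Fin 3) (T : Fin 3 → Finset ℤ) (g : Fin 3 → ℤ → ℤ → ℂ)
    (u : ℤ → ℤ → ℂ) (hu : ∀ w z, ‖u w z‖ ≤ 1) (r : ℤ) {S : Finset (ℤ × ℤ × ℤ)}
    (hS0 : ∀ s ∈ S, cfz j s = 0) (z : ℤ) :
    ∑ s ∈ S, ‖al e T g u r s z‖ ^ 2 ≤ ∑ x ∈ T (e + 2), ∑ x' ∈ T e, ‖g (e + 2) x x'‖ ^ 2 := by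
  have h := priceE (j := j) (e + 2) hS0 (T (e + 2)) (T e) (g (e + 2)) 2 (by norm_num) 0 z
  rw [ee2] at h
  refine le_trans (Finset.sum_le_sum fun s _ => ?_) h
  unfold al
  rw [norm_mul, mul_pow, zero_add]
  exact mul_le_of_le_one_right (by positivity) (pow_le_one₀ (norm_nonneg _) (hu _ _))

theorem sum_be_le {j : Fin 4} (e : Fin 3) (T : Fin 3 → Finset ℤ) (g : Fin 3 → ℤ → ℤ → ℂ)
    (v : ℤ → ℤ → ℂ) (hv : ∀ w z, ‖v w z‖ ≤ 1) (r : ℤ) {S : Finset (ℤ × ℤ × ℤ)}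
    (hS0 : ∀ s ∈ S, cfz j s = 0) (z' : ℤ) :
    ∑ s ∈ S, ‖be e T g v r s z'‖ ^ 2 ≤
      ∑ x ∈ T (e + 1), ∑ x' ∈ T (e + 2), ‖g (e + 1) x x'‖ ^ 2 := by
  have h := priceE (j := j) (e + 1) hS0 (T (e + 1)) (T (e + 2)) (g (e + 1)) 2 (by norm_num) z' 0
  rw [ee1] at h
  refine le_trans (Finset.sum_le_sum fun s _ => ?_) h
  unfold be
  rw [norm_mul, mul_pow, zero_add]
  exact mul_le_of_le_one_right (by positivity) (pow_le_one₀ (norm_nonneg _) (hv _ _))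

section vec

variable (e : Fin 3) (T : Fin 3 → Finset ℤ) (g : Fin 3 → ℤ → ℤ → ℂ) {n : ℕ}
  (u v : Fin n → ℤ → ℤ → ℂ) (d : Fin n → ℂ) (S : Finset (ℤ × ℤ × ℤ)) (r : ℤ)

/-- label vector on the `z` side -/
noncomputable def wl (z : ℤ) (q : {s // s ∈ S} × Fin n) : ℂ :=
  star ((Real.sqrt ‖d q.2‖ : ℂ) * al e T g (u q.2) r q.1.1 z)

/-- label vector on the `z'` side -/
noncomputable def vl (z' : ℤ) (q : {s // s ∈ S} × Fin n) : ℂ :=
  ph (d q.2) * (Real.sqrt ‖d q.2‖ : ℂ) * be e T g (v q.2) r q.1.1 z'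

theorem lab_dot (z z' : ℤ) : star (wl e T g u d S r z) ⬝ᵥ vl e T g v d S r z' =
    ∑ s ∈ S, ∑ l, d l * (al e T g (u l) r s z * be e T g (v l) r s z') := by
  unfold dotProduct
  rw [Fintype.sum_prod_type, ← Finset.sum_coe_sort S]
  refine Finset.sum_congr rfl fun s _ => Finset.sum_congr rfl fun l _ => ?_
  simp only [Pi.star_apply, wl, vl, star_star]
  have h1 : (Real.sqrt ‖d l‖ : ℂ) * (Real.sqrt ‖d l‖ : ℂ) = (‖d l‖ : ℂ) := by
    rw [← Complex.ofReal_mul, Real.mul_self_sqrt (norm_nonneg _)]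
  have h2 := ph_mul (d l)
  calc _ = ((Real.sqrt ‖d l‖ : ℂ) * (Real.sqrt ‖d l‖ : ℂ)) * ph (d l) *
        (al e T g (u l) r s.1 z * be e T g (v l) r s.1 z') := by ring
    _ = _ := by rw [h1, h2]

theorem n2_wl {j : Fin 4} (hS0 : ∀ s ∈ S, cfz j s = 0) (hu : ∀ l w z, ‖u l w z‖ ≤ 1) (z : ℤ) :
    n2 (wl e T g u d S r z) ≤
      (∑ l, ‖d l‖) * ∑ x ∈ T (e + 2), ∑ x' ∈ T e, ‖g (e + 2) x x'‖ ^ 2 := by
  unfold n2
  rw [Fintype.sum_prod_type_right, Finset.sum_mul]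
  refine Finset.sum_le_sum fun l _ => ?_
  have he : ∑ s : {s // s ∈ S}, ‖wl e T g u d S r z (s, l)‖ ^ 2 =
      ‖d l‖ * ∑ s ∈ S, ‖al e T g (u l) r s z‖ ^ 2 := by
    rw [Finset.mul_sum, ← Finset.sum_coe_sort S]
    refine Finset.sum_congr rfl fun s _ => ?_
    simp only [wl]
    rw [norm_star, norm_mul, mul_pow, Complex.norm_real, Real.norm_of_nonneg (Real.sqrt_nonneg _),
      Real.sq_sqrt (norm_nonneg _)]
  rw [he]
  exact mul_le_mul_of_nonneg_left (sum_al_le e T g (u l) (hu l) r hS0 z) (norm_nonneg _)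

theorem n2_vl {j : Fin 4} (hS0 : ∀ s ∈ S, cfz j s = 0) (hv : ∀ l w z, ‖v l w z‖ ≤ 1) (z' : ℤ) :
    n2 (vl e T g v d S r z') ≤
      (∑ l, ‖d l‖) * ∑ x ∈ T (e + 1), ∑ x' ∈ T (e + 2), ‖g (e + 1) x x'‖ ^ 2 := by
  unfold n2
  rw [Fintype.sum_prod_type_right, Finset.sum_mul]
  refine Finset.sum_le_sum fun l _ => ?_
  have he : ∑ s : {s // s ∈ S}, ‖vl e T g v d S r z' (s, l)‖ ^ 2 =
      ‖d l‖ * ∑ s ∈ S, ‖be e T g (v l) r s z'‖ ^ 2 := by
    rw [Finset.mul_sum, ← Finset.sum_coe_sort S]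
    refine Finset.sum_congr rfl fun s _ => ?_
    simp only [vl]
    rw [norm_mul, norm_mul, norm_ph, one_mul, mul_pow, Complex.norm_real,
      Real.norm_of_nonneg (Real.sqrt_nonneg _), Real.sq_sqrt (norm_nonneg _)]
  rw [he]
  exact mul_le_mul_of_nonneg_left (sum_be_le e T g (v l) (hv l) r hS0 z') (norm_nonneg _)

end vec

end Crest.Agent.R079.LabEx255
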