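import Crest.Agent.R079.LiftW_429

/-! R079, T5 leaf [S2], part 1 (helper700): `LiftW.lift_windows` with, at every node `p` of the window, the
residual `Y p = C - f p` of the OWN near-minimiser of `p`: level at `p`, MASK inequality (rows / columns),
and `X - Y p` small in `L²` and bounded. -/

set_option autoImplicit false

namespace Crest.Agent.R079.Lift2700

open Finset Crest.Agent.R079.Grid Crest.Agent.R079.Growth Crest.Agent.R079.QRed
  Crest.Agent.R079.TWin Crest.Agent.R079.LiftW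

/-- energies on the finer line -/
lemma energy_up (r : ℕ) (p : Nd) (F : Fn) :
    ∑ y ∈ iv p, ∑ k ∈ range (2 ^ r), ‖un r F y k‖ ^ 2 = 2 ^ r * len p * av (up r p) F ^ 2 := by
  have h3 := Growth.sum_av (up r p) F
  rw [sum_up, len_up] at h3
  rw [← h3]
  rfl

open Classical in
/-- a mask -/
noncomputable def msk (χ : ℤ → ℕ → Prop) (ψ : ℤ → ℕ → ℂ) (y : ℤ) (k : ℕ) : ℂ :=
  if χ y k then 0 else ψ y k

open Classical in
/-- **STATIC WINDOWS OF A VECTOR-VALUED LETTER**, with the own-node data of all nodes. -/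
theorem lift_windows2 {R : Finset Nd} {J : Nd} (hR : Full R J) (r : ℕ) (C : ℤ → ℕ → ℂ)
    (hC : ∀ p ∈ R, ∑ y ∈ iv p, ∑ k ∈ range (2 ^ r), ‖C y k‖ ^ 2 ≤ 2 ^ r * len p)
    (A : (ℤ → ℕ → ℂ) → Prop) (hconj : ∀ ψ, A ψ → A (fun y k => (starRingEnd ℂ) (ψ y k)))
    (hbd : ∀ ψ, A ψ → ∀ y k, k < 2 ^ r → ‖ψ y k‖ ≤ 1)
    {σ δ η₁ : ℝ} (hσ : 0 < σ) (hδ : 0 < δ) (hη₁ : 0 < η₁) :
    ∃ (S : Finset Nd) (W : Nd → Finset Nd), Part R S W (2 + 16 / δ) ∧
      ∀ K ∈ S, ∃ (n : ℕ) (ψ : Fin n → ℤ → ℕ → ℂ) (c : Fin n → ℂ) (E X : ℤ → ℕ → ℂ)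
        (Y : Nd → ℤ → ℕ → ℂ),
        (∀ j, A (ψ j)) ∧ ∑ j, ‖c j‖ ≤ 1 / σ ∧
        (∀ y ∈ iv K, ∀ k, k < 2 ^ r → C y k = ∑ j, c j * ψ j y k + E y k + X y k) ∧
        (∀ p ∈ W K, ∑ y ∈ iv p, ∑ k ∈ range (2 ^ r), ‖E y k‖ ^ 2 ≤ 9 * δ * (2 ^ r * len p)) ∧
        (∀ p ∈ W K, ∀ φ, A φ →
          ‖∑ y ∈ iv p, ∑ k ∈ range (2 ^ r), X y k * φ y k‖ ≤ 2 * σ * (2 ^ r * len p)) ∧
        (∀ y ∈ iv K, ∀ k, k < 2 ^ r → ‖E y k‖ ≤ 2 / σ) ∧
        (∀ p ∈ W K, ∑ y ∈ iv p, ∑ k ∈ range (2 ^ r), ‖X y k - Y p y k‖ ^ 2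
          ≤ 3 * δ * (2 ^ r * len p)) ∧
        (∀ p ∈ W K, ∀ y ∈ iv p, ∀ k, k < 2 ^ r → ‖X y k - Y p y k‖ ≤ 2 / σ) ∧
        (∀ p ∈ W K, ∀ φ, A φ →
          ‖∑ y ∈ iv p, ∑ k ∈ range (2 ^ r), Y p y k * φ y k‖ ≤ 2 * σ * (2 ^ r * len p)) ∧
        (∀ p ∈ W K, ∀ y ∈ iv p, ∀ k, k < 2 ^ r → ‖C y k - Y p y k‖ ≤ 1 / σ) ∧
        (∀ p ∈ W K, ∀ χ : ℤ → ℕ → Prop, (∀ ψ, A ψ → A (msk χ ψ)) →
          ∑ y ∈ iv p, ∑ k ∈ range (2 ^ r), (if χ y k then ‖Y p y k‖ ^ 2 else 0) ≤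
            ∑ y ∈ iv p, ∑ k ∈ range (2 ^ r), (if χ y k then ‖C y k‖ ^ 2 else 0) +
              η₁ * (2 ^ r * len p)) := by
  have h2r : (0 : ℝ) < 2 ^ r := by positivity
  -- the dictionary on the finer line
  let At : Nd → Fn → Prop := fun _ φ => ∃ ψ, A ψ ∧ φ = sc r ψ
  have hkk : ∀ Y : ℤ, (Y % 2 ^ r).toNat < 2 ^ r := by
    intro Y
    have h2 : (0 : ℤ) < 2 ^ r := by positivity
    have h3 := Int.emod_lt_of_pos Y h2
    have h4 := Int.emod_nonneg Y h2.ne'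
    zify
    rw [Int.toNat_of_nonneg h4]
    exact_mod_cast h3
  have hA : Dic At := by
    refine ⟨?_, ?_, ?_⟩
    · rintro p φ ⟨ψ, hψ, rfl⟩
      exact ⟨_, hconj ψ hψ, sc_conj r ψ⟩
    · rintro p φ ⟨ψ, hψ, rfl⟩ Y _
      exact hbd ψ hψ _ _ (hkk Y)
    · rintro p q φ _ h
      exact h
  have hR' := full_up r hR
  -- normalisation
  have hG : ∀ q ∈ upR r R, av q (sc r C) ≤ 1 := by
    intro q hq
    obtain ⟨p, hp, rfl⟩ := exists_of_mem hq
    have h1 := Growth.sum_av (up r p) (sc r C)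
    rw [sum_up, len_up] at h1
    have h3 : ∑ y ∈ iv p, ∑ k ∈ range (2 ^ r), ‖sc r C (y * 2 ^ r + (k : ℤ))‖ ^ 2
        = ∑ y ∈ iv p, ∑ k ∈ range (2 ^ r), ‖C y k‖ ^ 2 := by
      refine Finset.sum_congr rfl fun y _ => Finset.sum_congr rfl fun k hk => ?_
      rw [sc_add r C y (Finset.mem_range.1 hk)]
    rw [h3] at h1
    have h4 := hC p hp
    have h5 : 0 < 2 ^ r * len p := mul_pos h2r (Growth.len_pos p)
    have h6 : av (up r p) (sc r C) ^ 2 ≤ 1 := by
      by_contra h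
      push Not at h
      have : 2 ^ r * len p * 1 < 2 ^ r * len p * av (up r p) (sc r C) ^ 2 :=
        mul_lt_mul_of_pos_left h h5
      linarith
    exact abs_le_of_sq_le_sq' (by simpa using h6) zero_le_one |>.2
  -- parameters
  set η : ℝ := min (min (min (1 / 2) (σ ^ 2)) (δ / (16 * (2 * (1 + (up r J).1))))) (η₁ / 2) with hη
  have hJ0 : (0 : ℝ) < 1 + (up r J).1 := by positivity
  have hη0 : 0 < η := by
    rw [hη]
    refine lt_min (lt_min (lt_min (by norm_num) (by positivity)) (by positivity)) (by positivity)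
  have hη1 : η ≤ 1 / 2 := (min_le_left _ _).trans ((min_le_left _ _).trans (min_le_left _ _))
  have hη2 : η ≤ σ ^ 2 := (min_le_left _ _).trans ((min_le_left _ _).trans (min_le_right _ _))
  have hη3 : η ≤ δ / (16 * (2 * (1 + (up r J).1))) := (min_le_left _ _).trans (min_le_right _ _)
  have hη6 : 2 * η ≤ η₁ := by
    have : η ≤ η₁ / 2 := min_le_right _ _
    linarith
  have hη4 : 16 * η * (2 * (1 + (up r J).1)) ≤ δ := by
    rw [le_div_iff₀ (by positivity)] at hη3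
    linarith
  have hη5 : 16 * η ≤ δ := by
    have : 16 * η * 1 ≤ 16 * η * (2 * (1 + (up r J).1)) := by
      refine mul_le_mul_of_nonneg_left ?_ (by positivity)
      have : (0 : ℝ) ≤ (up r J).1 := by positivity
      linarith
    linarith
  obtain ⟨f, t, hNM⟩ := exists_NM hA hσ hη0 (sc r C)
  obtain ⟨S, W, hP, hGd⟩ := exists_windows (ι := Fin 1) hR' (fun _ => At) (fun _ => hA)
    (fun _ => σ) η (fun _ => sc r C) (fun _ => f) (fun _ => t) (fun _ => hNM) (fun _ => hG) hη1 hδ (by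
      simp only [Fintype.card_fin, Nat.cast_one, one_mul]
      linarith)
  have hP' : Part (upR r R) S W (2 + 16 / δ) := by
    simpa using hP
  refine ⟨dn r R S, fun K => dn r R (W (up r K)), part_dn hP', fun K hK => ?_⟩
  have hKS : up r K ∈ S := (mem_dn hP'.sub).1 hK
  have hWs := hP'.wsub _ hKS
  have hWf := hP'.full _ hKS
  have hG' : ∀ p ∈ W (up r K), av p (sc r C) ≤ 1 := fun p hp => hG p (hWs hp)
  obtain ⟨n, φ, c, hφ, hf, hc⟩ := hNM.rep (up r K)
  choose ψ hψ hφψ using hφ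
  have hgl1 : ∀ p ∈ W (up r K), ∀ y ∈ iv p, ‖gl (W (up r K)) f y‖ ≤ 1 / σ := fun p hp y hy =>
    norm_gl_le hNM hA hη1 hWf hG' (hWf.reg.1 p hp hy)
  have hfl1 : ∀ p ∈ W (up r K), ∀ y ∈ iv p, ‖f p y‖ ≤ 1 / σ := fun p hp y hy =>
    (repD_bd hA (hNM.rep p) hy).trans (mass_le' hNM hη1 (hG' p hp))
  refine ⟨n, ψ, c, un r (fun Y => gl (W (up r K)) f Y - f (up r K) Y),
    un r (fun Y => sc r C Y - gl (W (up r K)) f Y),
    fun p => un r (fun Y => sc r C Y - f (up r p) Y), hψ, ?_, ?_, ?_, ?_, ?_, ?_, ?_, ?_, ?_, ?_⟩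
  · exact hc.trans (mass_le' hNM hη1 (hG' _ hWf.top))
  · intro y hy k hk
    have h1 := hf (y * 2 ^ r + (k : ℤ)) (mem_up_of hy hk)
    have h3 : ∀ j, φ j (y * 2 ^ r + (k : ℤ)) = ψ j y k := by
      intro j
      rw [hφψ j, sc_add r (ψ j) y hk]
    simp only [h3] at h1
    simp only [un]
    rw [← h1, sc_add r C y hk]
    ring
  · intro p hp
    have hp' := (mem_dn hWs).1 hp
    have h1 := av_E_le hA hNM hWf hδ hη5 (hGd _ hKS 0) hp'
    rw [energy_up]
    have h4 : av (up r p) (fun Y => gl (W (up r K)) f Y - f (up r K) Y) ^ 2 ≤ 9 * δ := by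
      have h5 := pow_le_pow_left₀ (Growth.av_nonneg _ _) h1 2
      rw [mul_pow, Real.sq_sqrt hδ.le] at h5
      linarith
    calc _ ≤ 2 ^ r * len p * (9 * δ) :=
          mul_le_mul_of_nonneg_left h4 (mul_pos h2r (Growth.len_pos p)).le
      _ = _ := by ring
  · intro p hp χ hχ
    have hp' := (mem_dn hWs).1 hp
    have h1 := lev_res hA hNM hWf _ hp' (sc r χ) ⟨χ, hχ, rfl⟩
    rw [sum_up, len_up] at h1
    have h3 : Real.sqrt η ≤ σ := by
      rw [← Real.sqrt_sq hσ.le]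
      exact Real.sqrt_le_sqrt hη2
    have h4 : ∑ y ∈ iv p, ∑ k ∈ range (2 ^ r), (sc r C (y * 2 ^ r + (k : ℤ))
          - gl (W (up r K)) f (y * 2 ^ r + (k : ℤ))) * sc r χ (y * 2 ^ r + (k : ℤ))
        = ∑ y ∈ iv p, ∑ k ∈ range (2 ^ r),
          un r (fun Y => sc r C Y - gl (W (up r K)) f Y) y k * χ y k := by
      refine Finset.sum_congr rfl fun y _ => Finset.sum_congr rfl fun k hk => ?_
      rw [sc_add r χ y (Finset.mem_range.1 hk)]
      rfl
    rw [h4] at h1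
    refine h1.trans ?_
    refine mul_le_mul_of_nonneg_right (by linarith) (mul_pos h2r (Growth.len_pos p)).le
  · intro y hy k hk
    have hY := mem_up_of (r := r) hy hk
    have h1 := hgl1 _ hWf.top _ hY
    have h3 := hfl1 _ hWf.top _ hY
    simp only [un]
    refine (norm_sub_le _ _).trans ?_
    calc _ ≤ 1 / σ + 1 / σ := add_le_add h1 h3
      _ = 2 / σ := by ring
  · intro p hp
    have hp' := (mem_dn hWs).1 hp
    have h1 := av_glue_le hA hNM hWf hp' (δ := δ) fun L hL hLp =>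
      acc_le_of_Gd hA hNM hWf (hGd _ hKS 0) hp' (Qh249.mem_lf.1 hL).1 hLp
    have e : ∑ y ∈ iv p, ∑ k ∈ range (2 ^ r),
        ‖un r (fun Y => sc r C Y - gl (W (up r K)) f Y) y k -
          un r (fun Y => sc r C Y - f (up r p) Y) y k‖ ^ 2 =
        ∑ y ∈ iv p, ∑ k ∈ range (2 ^ r),
          ‖un r (fun Y => f (up r p) Y - gl (W (up r K)) f Y) y k‖ ^ 2 := by
      refine Finset.sum_congr rfl fun y _ => Finset.sum_congr rfl fun k _ => ?_
      simp only [un]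
      congr 2
      ring
    rw [e, energy_up]
    have h4 : av (up r p) (fun Y => f (up r p) Y - gl (W (up r K)) f Y) ^ 2 ≤ 3 * δ := by
      linarith
    calc _ ≤ 2 ^ r * len p * (3 * δ) :=
          mul_le_mul_of_nonneg_left h4 (mul_pos h2r (Growth.len_pos p)).le
      _ = _ := by ring
  · intro p hp y hy k hk
    have hp' := (mem_dn hWs).1 hp
    have hY := mem_up_of (r := r) hy hk
    have h1 := hgl1 _ hp' _ hY
    have h3 := hfl1 _ hp' _ hY
    simp only [un]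
    have e : sc r C (y * 2 ^ r + (k : ℤ)) - gl (W (up r K)) f (y * 2 ^ r + (k : ℤ)) -
        (sc r C (y * 2 ^ r + (k : ℤ)) - f (up r p) (y * 2 ^ r + (k : ℤ))) =
        f (up r p) (y * 2 ^ r + (k : ℤ)) - gl (W (up r K)) f (y * 2 ^ r + (k : ℤ)) := by ring
    rw [e]
    refine (norm_sub_le _ _).trans ?_
    calc _ ≤ 1 / σ + 1 / σ := add_le_add h3 h1
      _ = 2 / σ := by ring
  · intro p hp χ hχ
    have h1 := hNM.lev (up r p) (sc r χ) ⟨χ, hχ, rfl⟩
    rw [sum_up, len_up] at h1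
    have h3 : Real.sqrt η ≤ σ := by
      rw [← Real.sqrt_sq hσ.le]
      exact Real.sqrt_le_sqrt hη2
    have h4 : ∑ y ∈ iv p, ∑ k ∈ range (2 ^ r), (sc r C (y * 2 ^ r + (k : ℤ))
          - f (up r p) (y * 2 ^ r + (k : ℤ))) * sc r χ (y * 2 ^ r + (k : ℤ))
        = ∑ y ∈ iv p, ∑ k ∈ range (2 ^ r),
          un r (fun Y => sc r C Y - f (up r p) Y) y k * χ y k := by
      refine Finset.sum_congr rfl fun y _ => Finset.sum_congr rfl fun k hk => ?_
      rw [sc_add r χ y (Finset.mem_range.1 hk)]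
      rfl
    rw [h4] at h1
    refine h1.trans ?_
    refine mul_le_mul_of_nonneg_right (by linarith) (mul_pos h2r (Growth.len_pos p)).le
  · intro p hp y hy k hk
    have hp' := (mem_dn hWs).1 hp
    have h3 := hfl1 _ hp' _ (mem_up_of (r := r) hy hk)
    simp only [un]
    rw [sc_add r C y hk]
    have e : C y k - (C y k - f (up r p) (y * 2 ^ r + (k : ℤ))) =
        f (up r p) (y * 2 ^ r + (k : ℤ)) := by ring
    rw [e]
    exact h3
  · intro p hp χ hχ
    have hp' := (mem_dn hWs).1 hp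
    -- the masked competitor
    set g : Fn := fun Y => if χ (Y / 2 ^ r) (Y % 2 ^ r).toNat then 0 else f (up r p) Y with hg
    have hrep : RepD At (up r p) g (t (up r p)) := by
      obtain ⟨n', φ', c', hφ', hf', hc'⟩ := hNM.rep (up r p)
      choose ψ' hψ' hφψ' using hφ'
      refine ⟨n', fun i => sc r (msk χ (ψ' i)), c', fun i => ⟨_, hχ _ (hψ' i), rfl⟩, ?_, hc'⟩
      intro Y hY
      simp only [hg]
      by_cases h : χ (Y / 2 ^ r) (Y % 2 ^ r).toNat
      · rw [if_pos h]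
        symm
        refine Finset.sum_eq_zero fun i _ => ?_
        simp only [sc, msk]
        rw [if_pos h, mul_zero]
      · rw [if_neg h, hf' Y hY]
        refine Finset.sum_congr rfl fun i _ => ?_
        rw [hφψ' i]
        simp only [sc, msk]
        rw [if_neg h]
    have h1 := hNM.cvx (up r p) g (t (up r p)) hrep
    unfold Ph at h1
    have h0 : 0 ≤ (1 / 2 : ℝ) * av (up r p) (fun y => g y - f (up r p) y) ^ 2 := by positivity
    have h2 : av (up r p) (fun Y => sc r C Y - f (up r p) Y) ^ 2 ≤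
        av (up r p) (fun Y => sc r C Y - g Y) ^ 2 + 2 * η := by linarith
    have hl : 0 < 2 ^ r * len p := mul_pos h2r (Growth.len_pos p)
    have h3 := mul_le_mul_of_nonneg_left h2 hl.le
    rw [mul_add, ← energy_up, ← energy_up] at h3
    have h5 : ∀ y ∈ iv p, ∀ k ∈ range (2 ^ r),
        ‖un r (fun Y => sc r C Y - f (up r p) Y) y k‖ ^ 2 =
        (if χ y k then ‖un r (fun Y => sc r C Y - f (up r p) Y) y k‖ ^ 2 else 0) +
        (if χ y k then 0 else ‖un r (fun Y => sc r C Y - f (up r p) Y) y k‖ ^ 2) := by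
      intro y _ k _
      split_ifs <;> simp
    have h6 : ∀ y ∈ iv p, ∀ k ∈ range (2 ^ r),
        ‖un r (fun Y => sc r C Y - g Y) y k‖ ^ 2 =
        (if χ y k then ‖C y k‖ ^ 2 else 0) +
        (if χ y k then 0 else ‖un r (fun Y => sc r C Y - f (up r p) Y) y k‖ ^ 2) := by
      intro y _ k hk
      have hk' := Finset.mem_range.1 hk
      have e1 : g (y * 2 ^ r + (k : ℤ)) = if χ y k then 0 else f (up r p) (y * 2 ^ r + (k : ℤ)) := by
        simp only [hg]
        rw [div_add r y hk', mod_add r y hk', Int.toNat_natCast]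
      simp only [un]
      rw [e1, sc_add r C y hk']
      split_ifs <;> simp
    rw [Finset.sum_congr rfl fun y hy => Finset.sum_congr rfl fun k hk => h5 y hy k hk,
      Finset.sum_congr rfl fun y hy => Finset.sum_congr rfl fun k hk => h6 y hy k hk] at h3
    simp only [Finset.sum_add_distrib] at h3
    have h7 : 2 ^ r * len p * (2 * η) ≤ η₁ * (2 ^ r * len p) := by
      calc 2 ^ r * len p * (2 * η) ≤ 2 ^ r * len p * η₁ := mul_le_mul_of_nonneg_left hη6 hl.le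
        _ = _ := by ring
    linarith

end Crest.Agent.R079.Lift2700
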