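import Crest.Agent.R079.CKh_217

/-! R079 (helper533): **logarithmic maximal majorant** on `ℤ`: for `0 ≤ θ ≤ Ht` finitely supported there is
`g ≥ 0` dominating all centred averages of `θ` with `∑_T g ≤ C (1 + log Ht) (∑ θ + #T)` for every finite
set `T` (weak type (1,1) on the levels `2^k`, `k ≤ log₂ Ht`).  Replaces `BadTx138.exists_max_int` whose
loss is a power of `Ht`. -/

set_option autoImplicit false

namespace Crest.Agent.R079.MaxLx533

open Finset Crest.Agent.R079.Grid Crest.Agent.R079.CKh217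

/-- `x` is in or next to a cell whose `th`-average exceeds `γ` -/
def InB (th : ℤ → ℝ) (γ : ℝ) (x : ℤ) : Prop :=
  ∃ (m : ℕ) (l : ℤ), bad th γ m l ∧ |x / 2 ^ m - l| ≤ 1

lemma ediv_close {a b c : ℤ} (hc : 0 < c) (h : |a - b| ≤ 1) : |a / c - b / c| ≤ 1 := by
  rw [abs_le] at h
  have h1 : a / c ≤ (b + 1 * c) / c := Int.ediv_le_ediv hc (by linarith [h.2])
  have h2 : b / c ≤ (a + 1 * c) / c := Int.ediv_le_ediv hc (by linarith [h.1])
  rw [Int.add_mul_ediv_right _ _ hc.ne'] at h1 h2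
  rw [abs_le]
  constructor <;> linarith

/-- **size of the bad set** -/
theorem card_InB {th : ℤ → ℝ} (hth : ∀ x, 0 ≤ th x) {S : Finset ℤ} (hS : ∀ x, x ∉ S → th x = 0)
    {γ : ℝ} (hγ : 0 < γ) (T : Finset ℤ) (hT : ∀ x ∈ T, InB th γ x) :
    γ * (T.card : ℝ) ≤ 3 * ∑ x ∈ S, th x := by
  classical
  obtain ⟨M0, hM0⟩ : ∃ M0 : ℕ, ∑ y ∈ S, th y ≤ γ * 2 ^ M0 := by
    obtain ⟨M0, h⟩ := pow_unbounded_of_one_lt ((∑ y ∈ S, th y) / γ) (by norm_num : (1 : ℝ) < 2)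
    exact ⟨M0, by rw [div_lt_iff₀ hγ] at h; linarith⟩
  have hsub : T ⊆ (Mx th γ S M0).biUnion fun c =>
      dI c.1 (c.2 - 1) ∪ (dI c.1 c.2 ∪ dI c.1 (c.2 + 1)) := by
    intro x hx
    obtain ⟨m, l, hb, hl⟩ := hT x hx
    obtain ⟨j, hj⟩ := exists_mx hth hS hγ.le hM0 hb
    rw [Finset.mem_biUnion]
    refine ⟨_, hj, ?_⟩
    have h1 : |x / 2 ^ (m + j) - l / 2 ^ j| ≤ 1 := by
      rw [← L0e.ediv_pow_pow]
      exact ediv_close (by positivity) hl
    rw [abs_le] at h1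
    simp only [Finset.mem_union, L0e.mem_dI]
    omega
  have hcard : (T.card : ℝ) ≤ 3 * ∑ c ∈ Mx th γ S M0, (2 : ℝ) ^ c.1 := by
    have h1 : T.card ≤ ∑ c ∈ Mx th γ S M0, 3 * 2 ^ c.1 := by
      refine (Finset.card_le_card hsub).trans (Finset.card_biUnion_le.trans ?_)
      refine Finset.sum_le_sum fun c _ => ?_
      have hd : ∀ (m : ℕ) (l : ℤ), (dI m l).card = 2 ^ m := by
        intro m l
        unfold dI
        rw [Int.card_Ico]
        have : (l + 1) * 2 ^ m - l * 2 ^ m = ((2 ^ m : ℕ) : ℤ) := by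
          push_cast; ring
        rw [this, Int.toNat_natCast]
      refine (Finset.card_union_le _ _).trans ?_
      have h2 := Finset.card_union_le (dI c.1 c.2) (dI c.1 (c.2 + 1))
      rw [hd, hd] at h2
      rw [hd]
      omega
    have h2 : (T.card : ℝ) ≤ ((∑ c ∈ Mx th γ S M0, 3 * 2 ^ c.1 : ℕ) : ℝ) := by exact_mod_cast h1
    refine h2.trans (le_of_eq ?_)
    push_cast
    rw [Finset.mul_sum]
  have h3 := mx_total (M0 := M0) (γ := γ) hth hS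
  calc γ * (T.card : ℝ) ≤ γ * (3 * ∑ c ∈ Mx th γ S M0, (2 : ℝ) ^ c.1) :=
        mul_le_mul_of_nonneg_left hcard hγ.le
    _ = 3 * (γ * ∑ c ∈ Mx th γ S M0, (2 : ℝ) ^ c.1) := by ring
    _ ≤ 3 * ∑ x ∈ S, th x := by linarith

/-- dyadic layer cake -/
lemma layer (a : ℝ) (P : ℕ → Prop) [DecidablePred P] (hP : ∀ k, 2 ^ k < a → P k) (k0 : ℕ)
    (ha : a ≤ 2 ^ k0) : a ≤ 1 + ∑ k ∈ Finset.range k0, (if P k then (2 : ℝ) ^ k else 0) := by
  induction k0 with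
  | zero => simpa using ha
  | succ n ih =>
    by_cases h : (2 : ℝ) ^ n < a
    · have h1 : ∑ k ∈ Finset.range (n + 1), (if P k then (2 : ℝ) ^ k else 0) =
          ∑ k ∈ Finset.range (n + 1), (2 : ℝ) ^ k := by
        refine Finset.sum_congr rfl fun k hk => ?_
        rw [Finset.mem_range] at hk
        rw [if_pos]
        refine hP k (lt_of_le_of_lt ?_ h)
        exact pow_le_pow_right₀ (by norm_num) (by omega)
      rw [h1, geom_sum_eq (by norm_num)]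
      norm_num
      linarith
    · rw [not_lt] at h
      refine (ih h).trans ?_
      rw [Finset.sum_range_succ]
      have : (0 : ℝ) ≤ if P n then (2 : ℝ) ^ n else 0 := by
        split_ifs <;> positivity
      linarith

open Classical in
/-- the majorant -/
noncomputable def mj (th : ℤ → ℝ) (k0 : ℕ) (x : ℤ) : ℝ :=
  6 * (1 + ∑ k ∈ Finset.range k0, if InB th (2 ^ k) x then (2 : ℝ) ^ k else 0)

lemma mj_nonneg (th : ℤ → ℝ) (k0 : ℕ) (x : ℤ) : 0 ≤ mj th k0 x := by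
  classical
  unfold mj
  have : (0 : ℝ) ≤ ∑ k ∈ Finset.range k0, if InB th (2 ^ k) x then (2 : ℝ) ^ k else 0 :=
    Finset.sum_nonneg fun k _ => by split_ifs <;> positivity
  linarith

lemma one_le_mj (th : ℤ → ℝ) (k0 : ℕ) (x : ℤ) : 1 ≤ mj th k0 x := by
  classical
  unfold mj
  have : (0 : ℝ) ≤ ∑ k ∈ Finset.range k0, if InB th (2 ^ k) x then (2 : ℝ) ^ k else 0 :=
    Finset.sum_nonneg fun k _ => by split_ifs <;> positivity
  linarith

lemma cell_le {th : ℤ → ℝ} {k0 : ℕ} (hH : ∀ x, th x ≤ 2 ^ k0) (x : ℤ) (m : ℕ) (l : ℤ)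
    (hl : |x / 2 ^ m - l| ≤ 1) :
    ∑ y ∈ dI m l, th y ≤ 2 ^ m * (mj th k0 x / 6) := by
  classical
  have hp : (0 : ℝ) < 2 ^ m := by positivity
  set a : ℝ := (∑ y ∈ dI m l, th y) / 2 ^ m with ha
  have e : ∑ y ∈ dI m l, th y = 2 ^ m * a := by
    rw [ha, mul_div_cancel₀ _ hp.ne']
  rw [e]
  refine mul_le_mul_of_nonneg_left ?_ hp.le
  have h1 : a ≤ 2 ^ k0 := by
    rw [ha, div_le_iff₀ hp]
    have h2 := Finset.sum_le_card_nsmul (dI m l) th (2 ^ k0) fun y _ => hH y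
    rw [nsmul_eq_mul] at h2
    have h3 : ((dI m l).card : ℝ) = 2 ^ m := by
      unfold dI
      rw [Int.card_Ico]
      have : (l + 1) * 2 ^ m - l * 2 ^ m = ((2 ^ m : ℕ) : ℤ) := by
        push_cast; ring
      rw [this, Int.toNat_natCast]
      push_cast
      ring
    rw [h3] at h2
    linarith
  have h2 := layer a (fun k => InB th (2 ^ k) x) (fun k hk => ⟨m, l, by
    unfold bad
    rw [e]
    rw [mul_comm]
    exact mul_lt_mul_of_pos_left hk hp, hl⟩) k0 h1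
  unfold mj
  linarith

theorem mj_avg {th : ℤ → ℝ} (hth : ∀ x, 0 ≤ th x) {k0 : ℕ} (hH : ∀ x, th x ≤ 2 ^ k0) (x : ℤ) (K : ℕ) :
    ∑ d ∈ Icc (-(K : ℤ)) K, th (x + d) ≤ (2 * K + 1) * mj th k0 x := by
  classical
  obtain ⟨m, hm1, hm2⟩ : ∃ m : ℕ, 2 * K + 1 ≤ 2 ^ m ∧ 2 ^ m ≤ 2 * (2 * K + 1) := by
    refine ⟨Nat.clog 2 (2 * K + 1), Nat.le_pow_clog (by norm_num) _, ?_⟩
    rcases Nat.eq_zero_or_pos K with h | h
    · subst h
      simp
    · have h1 := Nat.pow_pred_clog_lt_self (b := 2) (by norm_num) (x := 2 * K + 1) (by omega)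
      have h2 : 0 < Nat.clog 2 (2 * K + 1) := Nat.clog_pos (by norm_num) (by omega)
      obtain ⟨c, hc⟩ : ∃ c, Nat.clog 2 (2 * K + 1) = c + 1 := ⟨_, (Nat.succ_pred_eq_of_pos h2).symm⟩
      rw [hc] at h1 ⊢
      simp only [Nat.pred_eq_sub_one, Nat.add_sub_cancel] at h1
      rw [pow_succ]
      omega
  have hP : (0 : ℤ) < 2 ^ m := by positivity
  have hKm : ((2 * K + 1 : ℕ) : ℤ) ≤ 2 ^ m := by exact_mod_cast hm1
  push_cast at hKm
  set l0 := x / 2 ^ m with hl0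
  have e1 : l0 * 2 ^ m ≤ x := Int.ediv_mul_le _ hP.ne'
  have e2 : x < (l0 + 1) * 2 ^ m := Int.lt_ediv_add_one_mul_self x hP
  have hsum : ∑ d ∈ Icc (-(K : ℤ)) K, th (x + d) = ∑ y ∈ Icc (x - K) (x + K), th y := by
    refine Finset.sum_bij (fun d _ => x + d) ?_ ?_ ?_ ?_
    · intro d hd
      rw [Finset.mem_Icc] at hd ⊢
      constructor <;> linarith [hd.1, hd.2]
    · intro d _ d' _ h
      linarith
    · intro y hy
      rw [Finset.mem_Icc] at hy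
      exact ⟨y - x, by rw [Finset.mem_Icc]; constructor <;> linarith [hy.1, hy.2], by ring⟩
    · intro d _
      rfl
  have hcov : Icc (x - K) (x + K) ⊆ (Finset.Icc (l0 - 1) (l0 + 1)).biUnion (fun l => dI m l) := by
    intro y hy
    rw [Finset.mem_Icc] at hy
    rw [Finset.mem_biUnion]
    refine ⟨y / 2 ^ m, ?_, L0e.mem_dI.2 rfl⟩
    rw [Finset.mem_Icc]
    constructor
    · refine Int.le_ediv_of_mul_le hP ?_
      nlinarith [hy.1]
    · have : y / 2 ^ m < l0 + 2 := Int.ediv_lt_of_lt_mul hP (by nlinarith [hy.2])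
      omega
  have h1 : ∀ l ∈ Finset.Icc (l0 - 1) (l0 + 1), ∑ y ∈ dI m l, th y ≤ 2 ^ m * (mj th k0 x / 6) := by
    intro l hl
    rw [Finset.mem_Icc] at hl
    refine cell_le hH x m l ?_
    rw [← hl0, abs_le]
    omega
  have h3 : (Finset.Icc (l0 - 1) (l0 + 1)).card = 3 := by
    rw [Int.card_Icc]
    have : l0 + 1 + 1 - (l0 - 1) = ((3 : ℕ) : ℤ) := by push_cast; ring
    rw [this, Int.toNat_natCast]
  have hm2' : (2 : ℝ) ^ m ≤ 2 * (2 * K + 1) := by exact_mod_cast hm2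
  calc ∑ d ∈ Icc (-(K : ℤ)) K, th (x + d) = ∑ y ∈ Icc (x - K) (x + K), th y := hsum
    _ ≤ ∑ y ∈ (Finset.Icc (l0 - 1) (l0 + 1)).biUnion (fun l => dI m l), th y :=
        Finset.sum_le_sum_of_subset_of_nonneg hcov fun y _ _ => hth y
    _ = ∑ l ∈ Finset.Icc (l0 - 1) (l0 + 1), ∑ y ∈ dI m l, th y :=
        Finset.sum_biUnion fun a _ b _ hab => L0e.dI_disj hab
    _ ≤ ∑ _l ∈ Finset.Icc (l0 - 1) (l0 + 1), 2 ^ m * (mj th k0 x / 6) := Finset.sum_le_sum h1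
    _ = 2 ^ m * (mj th k0 x / 2) := by
        rw [Finset.sum_const, nsmul_eq_mul, h3]
        push_cast
        ring
    _ ≤ (2 * (2 * K + 1)) * (mj th k0 x / 2) :=
        mul_le_mul_of_nonneg_right hm2' (by linarith [mj_nonneg th k0 x])
    _ = (2 * K + 1) * mj th k0 x := by ring

theorem mj_sum {th : ℤ → ℝ} (hth : ∀ x, 0 ≤ th x) {S : Finset ℤ} (hS : ∀ x, x ∉ S → th x = 0)
    (k0 : ℕ) (T : Finset ℤ) : ∑ x ∈ T, mj th k0 x ≤ 6 * T.card + 18 * k0 * ∑ x ∈ S, th x := by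
  classical
  unfold mj
  rw [← Finset.mul_sum, Finset.sum_add_distrib, Finset.sum_comm]
  have h1 : ∀ k ∈ Finset.range k0, ∑ x ∈ T, (if InB th (2 ^ k) x then (2 : ℝ) ^ k else 0) ≤
      3 * ∑ x ∈ S, th x := by
    intro k _
    rw [← Finset.sum_filter, Finset.sum_const, nsmul_eq_mul, mul_comm]
    exact card_InB hth hS (by positivity) _ fun x hx => (Finset.mem_filter.1 hx).2
  have h2 := Finset.sum_le_sum h1
  rw [Finset.sum_const, Finset.card_range, nsmul_eq_mul] at h2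
  rw [Finset.sum_const, nsmul_eq_mul, mul_one]
  linarith

/-- **LOGARITHMIC MAXIMAL MAJORANT.** -/
theorem exists_max_log : ∃ C : ℝ, 0 ≤ C ∧ ∀ (th : ℤ → ℝ) (Ht : ℝ), (∀ x, 0 ≤ th x) → 1 ≤ Ht →
    (∀ x, th x ≤ Ht) → ∀ (S : Finset ℤ), (∀ x, x ∉ S → th x = 0) → ∃ g : ℤ → ℝ, (∀ x, 0 ≤ g x) ∧
      (∀ (x : ℤ) (K : ℕ), ∑ d ∈ Icc (-(K : ℤ)) K, th (x + d) ≤ (2 * K + 1) * g x) ∧
      ∀ T : Finset ℤ, ∑ x ∈ T, g x ≤ C * (1 + Real.log Ht) * (T.card + ∑ x ∈ S, th x) := by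
  refine ⟨36, by norm_num, ?_⟩
  intro th Ht hth hHt hH S hS
  have hlog : 0 ≤ Real.log Ht := Real.log_nonneg hHt
  obtain ⟨k0, hk0, hk1⟩ : ∃ k0 : ℕ, Ht ≤ 2 ^ k0 ∧ (k0 : ℝ) ≤ 2 * (1 + Real.log Ht) := by
    refine ⟨⌈Real.logb 2 Ht⌉₊, ?_, ?_⟩
    · have h1 : Real.logb 2 Ht ≤ ⌈Real.logb 2 Ht⌉₊ := Nat.le_ceil _
      have h2 : (2 : ℝ) ^ (Real.logb 2 Ht) = Ht :=
        Real.rpow_logb (by norm_num) (by norm_num) (by linarith)
      rw [← Real.rpow_natCast]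
      calc Ht = (2 : ℝ) ^ (Real.logb 2 Ht) := h2.symm
        _ ≤ _ := Real.rpow_le_rpow_of_exponent_le (by norm_num) h1
    · have h0 : 0 ≤ Real.logb 2 Ht := Real.logb_nonneg (by norm_num) hHt
      have h1 : (⌈Real.logb 2 Ht⌉₊ : ℝ) < Real.logb 2 Ht + 1 := Nat.ceil_lt_add_one h0
      have h2 : Real.logb 2 Ht ≤ 2 * Real.log Ht := by
        unfold Real.logb
        rw [div_le_iff₀ (Real.log_pos (by norm_num))]
        nlinarith [Real.log_two_gt_d9]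
      linarith
  refine ⟨mj th k0, mj_nonneg th k0, fun x K => mj_avg hth (fun y => (hH y).trans hk0) x K, ?_⟩
  intro T
  have hV : 0 ≤ ∑ x ∈ S, th x := Finset.sum_nonneg fun x _ => hth x
  have hT : (0 : ℝ) ≤ T.card := by positivity
  have h1 := mj_sum hth hS k0 T
  have h2 : 18 * (k0 : ℝ) * ∑ x ∈ S, th x ≤ 36 * (1 + Real.log Ht) * ∑ x ∈ S, th x :=
    mul_le_mul_of_nonneg_right (by linarith) hV
  have h3 : (6 : ℝ) * T.card ≤ 36 * (1 + Real.log Ht) * T.card :=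
    mul_le_mul_of_nonneg_right (by linarith) hT
  calc ∑ x ∈ T, mj th k0 x ≤ 6 * T.card + 18 * k0 * ∑ x ∈ S, th x := h1
    _ ≤ 36 * (1 + Real.log Ht) * T.card + 36 * (1 + Real.log Ht) * ∑ x ∈ S, th x := by linarith
    _ = _ := by ring

end Crest.Agent.R079.MaxLx533
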