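import Crest.Agent.R079.GnY_263

/-! R079, T7 (helper112): **THE ONE REMAINING INPUT `ESF`** (frame letters with small errors and per-window
(S) bounds for the core data) and the target from it.

* `inG_mono`, `inES_mono`;
* `ESF` : frames of one generation, all exponents in the order of the choices;
* `gdf_of_ESF` : `ESF` => `GDF` for the final parameters (`x ≥ 40`);
* **`target_of_ESF`**. -/

set_option autoImplicit false
set_option linter.unusedVariables false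

namespace Crest.Agent.R079.NP112

open Finset Crest.Agent.R079.Grid Crest.Agent.R079.Growth Crest.Agent.R079.QRed
  Crest.Agent.R079.TWin
open Crest.Agent.R079.RelW653 (vl NMP Jv Dv)
open Crest.Agent.R079.RelV653 Crest.Agent.R079.HWx323 Crest.Agent.R079.Chn110
open Crest.Agent.R079.TRec Crest.Agent.R079.T6bx252 Crest.Agent.R079.Tailx726 Crest.Agent.R079.Stk
  Crest.Agent.R079.AsmA844
open Crest.Agent.R079.GnMx45 (en en_nonneg)
open Crest.Agent.R079.FLDx263 Crest.Agent.R079.GnSx263 Crest.Agent.R079.GnNx263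
  Crest.Agent.R079.PFx263 Crest.Agent.R079.GaDx571 Crest.Agent.R079.GaFx371
  Crest.Agent.R079.WS112 Crest.Agent.R079.WS0112 Crest.Agent.R079.POx263
  Crest.Agent.R079.OpS276 Crest.Agent.R079.GnUx263 Crest.Agent.R079.SbWx795
  Crest.Agent.R079.NJ112

theorem inG_mono {P : Prm} {d ε k q3 : ℝ} {i m e e' : Fin 4} {c1 gG t0 K K' nE : ℝ} {p : Par}
    (hK : K ≤ K') (h : InG P d ε k q3 i m e e' c1 gG t0 K nE p) :
    InG P d ε k q3 i m e e' c1 gG t0 K' nE p := by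
  intro N B t W I F xy bb E R J Z v n T g al mu es hS htt
  obtain ⟨η0, hη0, h1⟩ := h hS htt
  refine ⟨η0, hη0, fun η hη hηη f hf S W' Rg Er hT hdr => ?_⟩
  have h2 := h1 η hη hηη f hf S W' Rg Er hT hdr
  have hB := hS.B0
  have ht := hS.t0
  have hen := en_nonneg J (Z 0) (Z 1)
  have hl := (Growth.len_pos J).le
  have hm : K * (1 + B) * t ^ gG * ((t ^ c1 + en J (Z 0) (Z 1)) * len J) ≤
      K' * (1 + B) * t ^ gG * ((t ^ c1 + en J (Z 0) (Z 1)) * len J) := by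
    have a1 : 0 ≤ t ^ gG := Real.rpow_nonneg ht.le _
    have a2 : 0 ≤ t ^ c1 := Real.rpow_nonneg ht.le _
    exact mul_le_mul_of_nonneg_right (mul_le_mul_of_nonneg_right
      (mul_le_mul_of_nonneg_right hK (by linarith)) a1) (by positivity)
  exact ⟨h2.1.trans hm, h2.2.1.trans hm, h2.2.2.trans hm⟩

theorem inES_mono {P : Prm} {d ε k q3 : ℝ} {i m e e' : Fin 4} {c1 gS t0 K K' : ℝ} {p : Par}
    (hK : K ≤ K') (h : InES P d ε k q3 i m e e' c1 gS t0 K p) :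
    InES P d ε k q3 i m e e' c1 gS t0 K' p := by
  intro N B t W I F xy bb E R J Z v n T g al mu es hS htt
  obtain ⟨η0, hη0, h1⟩ := h hS htt
  refine ⟨η0, hη0, fun η hη hηη f hf => ?_⟩
  obtain ⟨Psi, h2, h3⟩ := h1 η hη hηη f hf
  refine ⟨Psi, h2, fun w hw => ?_⟩
  have ht := hS.t0
  have hm : K * t ^ gS * len w ≤ K' * t ^ gS * len w :=
    mul_le_mul_of_nonneg_right (mul_le_mul_of_nonneg_right hK (Real.rpow_nonneg ht.le _))
      (Growth.len_pos w).le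
  obtain ⟨a1, a2, a3, a4, a5⟩ := h3 w hw
  exact ⟨a1.trans hm, a2.trans hm, a3.trans hm, a4.trans hm, a5.trans hm⟩

/-- **FRAMES for the core data**: errors and (S) words, exponents in the order of the choices.
`kap = t ^ (-4 y)`, lowest threshold `≤ t ^ (2 θ)`, `ω ≤ K t ^ (-C y)`, (S) gain `t ^ (2 c1 + y)`. -/
def ESF (P : Prm) (q3 d : ℝ) : Prop :=
  ∀ i m e e' : Fin 4, Dst4 i m e e' → m < i → i ≠ 3 → ∃ cm : ℝ, 0 < cm ∧ ∀ c1, 0 < c1 → c1 ≤ cm →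
    ∃ C ys : ℝ, 0 < C ∧ 0 < ys ∧ ∀ y, 0 < y → y ≤ ys → ∃ e1 : ℝ, 0 < e1 ∧ ∀ ε, 0 < ε → ε ≤ e1 →
      ∃ k1 : ℝ, 0 < k1 ∧ ∀ k, 0 < k → k ≤ k1 → ∃ (t0 K : ℝ) (p : Par) (kc : ℕ), 0 < t0 ∧ t0 ≤ 1 ∧
        1 ≤ K ∧ p.Ok t0 ∧ (∀ t, p.kc t = kc) ∧
        (∀ t, 0 < t → t ≤ t0 → p.kap t = t ^ (-(4 * y))) ∧
        (∀ t, 0 < t → t ≤ t0 → 0 < p.Kl t) ∧
        (∀ t, 0 < t → t ≤ t0 → p.r t 0 ≤ t ^ (2 * P.θ)) ∧
        (∀ t, 0 < t → t ≤ t0 → p.om t ≤ K * t ^ (-(C * y))) ∧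
        InES P d ε k q3 i m e e' c1 (2 * c1 + y) t0 K p

/-- **`GDF` from the frames**, final parameters -/
theorem gdf_of_ESF {x C ρ c q3 : ℝ} (h : Adm4 x C ρ c) (hx : 40 ≤ x)
    (hE : ESF (PF x C ρ c) q3 (dF C ρ c)) : GDF (PF x C ρ c) q3 (dF C ρ c) := by
  intro i m e e' hdd hmi hi3
  have hθ : 0 < (PF x C ρ c).θ := θ_pos h
  have hm3 : m ≠ 3 := by
    intro hm
    subst hm
    have : (3 : Fin 4) < i := hmi
    revert this
    fin_cases i <;> decide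
  obtain ⟨cm, hcm, hE⟩ := hE i m e e' hdd hmi hi3
  set θ := (PF x C ρ c).θ with hθd
  refine ⟨min cm (θ / 10), lt_min hcm (by positivity), fun c1 hc1 hc1m => ?_⟩
  obtain ⟨D, ys, hD, hys, hE⟩ := hE c1 hc1 (hc1m.trans (min_le_left _ _))
  have hc1θ : c1 ≤ θ / 10 := hc1m.trans (min_le_right _ _)
  have hD3 : 0 < 10 * (D + 3) := by linarith
  refine ⟨D, 1, min ys (θ / (10 * (D + 3))), hD, one_pos, lt_min hys (by positivity),
    fun y hy hyy => ?_⟩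
  obtain ⟨e1, he1, hE⟩ := hE y hy (hyy.trans (min_le_left _ _))
  have hyθ : y ≤ θ / (10 * (D + 3)) := hyy.trans (min_le_right _ _)
  have hyθ' : (D + 3) * y ≤ θ / 10 := by
    rw [le_div_iff₀ hD3] at hyθ
    linarith
  have hDy : 0 < D * y := mul_pos hD hy
  refine ⟨min e1 (y / (4 * θ)), lt_min he1 (by positivity), fun ε hε hεε => ?_⟩
  obtain ⟨k1, hk1, hE⟩ := hE ε hε (hεε.trans (min_le_left _ _))
  have hεθ : ε * θ ≤ y / 4 := by
    have h1 := hεε.trans (min_le_right e1 (y / (4 * θ)))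
    rw [le_div_iff₀ (by positivity)] at h1
    linarith
  have hεθ0 : 0 < ε * θ := mul_pos hε hθ
  refine ⟨k1, hk1, fun k hk hkk => ?_⟩
  obtain ⟨t0, K, p, kc, ht0, ht01, hK, hOk, hkc, hkap, hKl, hr0, hom, hES⟩ := hE k hk hkk
  have hnm := Crest.Agent.R079.GwQx571.nm_PF h i m (k := k) (ε := ε) (c1 := c1) (kx := 4 * y)
    (nE := 2 * θ) (eC := 2 * c1) (gy := y) (r0x := 2 * θ) (w := y / 12) hk hε.le hc1.le
    (by linarith) (by linarith) (by linarith) (by linarith) (by linarith) hy.le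
    (by rw [← hθd]; linarith) (by rw [← hθd]; nlinarith)
    (by
      rw [← hθd]
      have : θ * 10 ≤ θ * (x - 30) := mul_le_mul_of_nonneg_left (by linarith) hθ.le
      nlinarith)
  obtain ⟨K1, hK1, hG⟩ := Crest.Agent.R079.GnYx263.inG (d := dF C ρ c) (q3 := q3) (e := e)
    (e' := e') (ok_PF h) hdd hm3 hnm p ht01 kc hkc hkap hKl (fun t h0 h1 => hOk.r0 t h0 h1)
    (fun t h0 h1 => hr0 t h0 h1)
  have eg : (PF x C ρ c).θ * (PF x C ρ c).g i = θ := by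
    show (PF x C ρ c).θ * 1 = θ
    rw [mul_one]
  have hgen := genP_of_in (ok_PF h) (d := dF C ρ c) (q3 := q3) (K := max K K1) (a := D * y)
    (gE := 1 * y) (gG := y) (gS := 2 * c1 + y) (CM := (1 + ε) * θ + y) (nE := 2 * θ) hdd ht01 hk
    (le_max_of_le_left hK) hc1.le hDy.le (by rw [eg]; linarith) (by linarith) (by linarith) p hOk
    (fun t h0 h1 => (hom t h0 h1).trans (mul_le_mul_of_nonneg_right (le_max_left _ _)
      (Real.rpow_nonneg h0.le _)))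
    (inG_mono (le_max_right _ _) hG) (inES_mono (le_max_left _ _) hES)
  obtain ⟨K2, hK2, hgen⟩ := hgen
  exact ⟨t0, K2, (1 + ε) * θ + y, 2 * θ, ht0, ht01, hK2, by nlinarith, hgen⟩

/-- **`S0106` from the frames of one generation** -/
theorem target_of_ESF
    (hs : ∃ x0 : ℝ, ∀ x, x0 ≤ x → ∃ ρ0 : ℝ, 0 < ρ0 ∧ ∀ ρ, 0 < ρ → ρ ≤ ρ0 → ∃ c0 : ℝ, 0 < c0 ∧
      ∀ c, 0 < c → c ≤ c0 → ∃ C0 : ℝ, ∀ C, C0 ≤ C → ∀ q3, 2 < q3 → Adm4 x C ρ c →
        ESF (PF x C ρ c) q3 (dF C ρ c)) : L0.Target := by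
  refine target_of_genP ?_
  obtain ⟨x0, hs⟩ := hs
  refine ⟨max x0 40, fun x hx => ?_⟩
  obtain ⟨ρ0, hρ0, hs⟩ := hs x ((le_max_left _ _).trans hx)
  refine ⟨ρ0, hρ0, fun ρ hρ hρρ => ?_⟩
  obtain ⟨c0, hc0, hs⟩ := hs ρ hρ hρρ
  refine ⟨c0, hc0, fun c hc hcc => ?_⟩
  obtain ⟨C0, hs⟩ := hs c hc hcc
  exact ⟨C0, fun C hC q3 hq hA => gdf_of_ESF hA ((le_max_right _ _).trans hx) (hs C hC q3 hq hA)⟩

end Crest.Agent.R079.NP112
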