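import Crest.Agent.R079.SWe_360
import Crest.Agent.R079.SKb_261
import Crest.Agent.R079.Qb_247

/-! R079, item (c) of 973 / note 1201 (helper261): 360's `sword_0/1/2` at a general label vertex,
representation needed on the top only. -/

set_option autoImplicit false
set_option linter.unusedSectionVars false

namespace Crest.Agent.R079.SKx261

open Finset Crest.Agent.R079.Grid Crest.Agent.R079.Glue Crest.Agent.R079.GlueK
  Crest.Agent.R079.Growth Crest.Agent.R079.Sgn Crest.Agent.R079.F24 Crest.Agent.R079.SWc360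

/-- fewer shifts -/
lemma SW.mono {κ : Type} [Fintype κ] [DecidableEq κ] {ι : Type} {v : Fin 3} {R : Finset (ℕ × ℤ)}
    {κ0 κ1 : ℕ} (hκ : κ0 ≤ κ1) {j : Fin 4} {S : Finset ι} {lam : ι → ℝ} {T : Fin 3 → Finset ℤ}
    {U W : ι → ℤ → ℤ → κ → ℂ} {G : ι → ℤ → ℤ → ℂ} {F : Fin 4 → ℤ → ℂ}
    {A g1 d1 g2 d2 h1 h2 TR1 TR2 E1 E2 mb H0 : ℝ} {m0 : ℕ}
    (D : SW v R κ1 j S lam T U W G F A g1 d1 g2 d2 h1 h2 TR1 TR2 E1 E2 mb H0 m0) :
    SW v R κ0 j S lam T U W G F A g1 d1 g2 d2 h1 h2 TR1 TR2 E1 E2 mb H0 m0 :=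
  { D with
    hs1 := fun p hp k hk Λ => D.hs1 p hp k (hk.trans hκ) Λ
    hs2 := fun p hp k hk Λ => D.hs2 p hp k (hk.trans hκ) Λ }

/-- **(S) word, labels at a general vertex** -/
theorem sword_g : ∃ K : ℝ, 0 ≤ K ∧ ∃ κ0 : ℕ, ∀ (bb : ℤ), bb = -1 ∨ bb = -7 →
    ∀ (R : Finset (ℕ × ℤ)) (J : ℕ × ℤ), IsRegion R J → ∀ (j : Fin 4) (e : Fin 3)
    {κ : Type} [Fintype κ] [DecidableEq κ] {ι : Type} (S : Finset ι) (lam : ι → ℝ)
    (T : Fin 3 → Finset ℤ) (U W : ι → ℤ → ℤ → κ → ℂ) (G : ι → ℤ → ℤ → ℂ) (F : Fin 4 → ℤ → ℂ)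
    (A g1 d1 g2 d2 h1 h2 TR1 TR2 E1 E2 mb H0 : ℝ) (m0 : ℕ) (Q1 Q2 V3 M Θ : ℝ),
    SW e R κ0 j S lam T U W G F A g1 d1 g2 d2 h1 h2 TR1 TR2 E1 E2 mb H0 m0 →
    SN A g1 d1 g2 d2 h1 h2 TR1 TR2 E1 E2 mb H0 m0 Q1 Q2 V3 M Θ →
    (∀ y ∈ iv J, F j y = ∑ n ∈ S, (lam n : ℂ) *
      kerG j e T (fun z u v => (∑ l, U n z u l * W n v z l) * G n u v) y) →
    ∑ p ∈ R, ∑ x ∈ adm p.1 p.2, ‖Lbox (2 ^ p.1) bb F x‖ ≤
      K * (Real.sqrt (Real.sqrt (Q1 * Q2) * V3) * (1 + 4 * Real.log Θ) * 2 ^ (J.1 + 7)) := by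
  obtain ⟨K0, hK0, κ0, h0⟩ := sword_0
  obtain ⟨K1, hK1, κ1, h1⟩ := sword_1
  obtain ⟨K2, hK2, κ2, h2⟩ := sword_2
  refine ⟨max K0 (max K1 K2), le_max_of_le_left hK0, max κ0 (max κ1 κ2), ?_⟩
  intro bb hbb R J hR j e κ _ _ ι S lam T U W G F A g1 d1 g2 d2 h1' h2' TR1 TR2 E1 E2 mb H0 m0
    Q1 Q2 V3 M Θ D N hF
  have hmono : ∀ (K' : ℝ), K' ≤ max K0 (max K1 K2) → ∀ X : ℝ, X ≤ K' *
      (Real.sqrt (Real.sqrt (Q1 * Q2) * V3) * (1 + 4 * Real.log Θ) * 2 ^ (J.1 + 7)) →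
      X ≤ max K0 (max K1 K2) *
      (Real.sqrt (Real.sqrt (Q1 * Q2) * V3) * (1 + 4 * Real.log Θ) * 2 ^ (J.1 + 7)) := by
    intro K' hK' X hX
    refine hX.trans (mul_le_mul_of_nonneg_right hK' ?_)
    have : 0 ≤ Real.log Θ := Real.log_nonneg N.Θ1
    positivity
  -- replace the letter of the slot `j`
  set Ψ : ℤ → ℂ := fun y => ∑ n ∈ S, (lam n : ℂ) *
      kerG j e T (fun z u v => (∑ l, U n z u l * W n v z l) * G n u v) y with hΨ
  set F' : Fin 4 → ℤ → ℂ := Function.update F j Ψ with hF'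
  have eF : ∀ i : Fin 3, F' (j.succAbove i) = F (j.succAbove i) := fun i => by
    rw [hF', Function.update_of_ne (Fin.succAbove_ne j i)]
  have hLb : ∑ p ∈ R, ∑ x ∈ adm p.1 p.2, ‖Lbox (2 ^ p.1) bb F x‖ =
      ∑ p ∈ R, ∑ x ∈ adm p.1 p.2, ‖Lbox (2 ^ p.1) bb F' x‖ := by
    refine Finset.sum_congr rfl fun p hp => Finset.sum_congr rfl fun x hx => ?_
    rw [QRed.Qb247.Lbox_congr p.1 p.2 bb x hbb hx F F' ?_]
    intro i y hy
    by_cases hi : i = j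
    · subst hi
      rw [hF', Function.update_self]
      exact hF y (hR.1 p hp hy)
    · rw [hF', Function.update_of_ne hi]
  rw [hLb]
  have D' : ∀ κ', κ' ≤ max κ0 (max κ1 κ2) →
      SW e R κ' j S lam T U W G F' A g1 d1 g2 d2 h1' h2' TR1 TR2 E1 E2 mb H0 m0 := by
    intro κ' hκ'
    have D1 := SW.mono hκ' D
    exact
      { D1 with
        l2 := fun p hp i => by rw [eF]; exact D1.l2 p hp i
        nc1 := fun p hp => by rw [eF]; exact D1.nc1 p hp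
        nc2 := fun p hp => by rw [eF]; exact D1.nc2 p hp
        gh := fun n hn z z' y => by rw [eF]; exact D1.gh n hn z z' y }
  have hrep : ∀ y, F' j y = ∑ n ∈ S, (lam n : ℂ) *
      kerG j e T (fun z u v => (∑ l, U n z u l * W n v z l) * G n u v) y := by
    intro y
    rw [hF', Function.update_self]
  clear_value F'
  clear hLb hF eF hF' hΨ Ψ D
  fin_cases e
  · refine hmono K0 (le_max_left _ _) _ ?_
    exact h0 bb hbb R J hR j S lam T U W G F' A g1 d1 g2 d2 h1' h2' TR1 TR2 E1 E2 mb H0 m0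
      Q1 Q2 V3 M Θ (D' _ (le_max_left _ _)) N (fun y => (hrep y).trans
        (Finset.sum_congr rfl fun n _ => congrArg (fun x => (lam n : ℂ) * x) (kerG_0 j T _ y)))
  · refine hmono K1 ((le_max_left _ _).trans (le_max_right _ _)) _ ?_
    exact h1 bb hbb R J hR j S lam T U W G F' A g1 d1 g2 d2 h1' h2' TR1 TR2 E1 E2 mb H0 m0
      Q1 Q2 V3 M Θ (D' _ ((le_max_left _ _).trans (le_max_right _ _))) N (fun y => (hrep y).trans
        (Finset.sum_congr rfl fun n _ => congrArg (fun x => (lam n : ℂ) * x) (kerG_1 j T _ y)))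
  · refine hmono K2 ((le_max_right _ _).trans (le_max_right _ _)) _ ?_
    exact h2 bb hbb R J hR j S lam T U W G F' A g1 d1 g2 d2 h1' h2' TR1 TR2 E1 E2 mb H0 m0
      Q1 Q2 V3 M Θ (D' _ ((le_max_right _ _).trans (le_max_right _ _))) N (fun y => (hrep y).trans
        (Finset.sum_congr rfl fun n _ => congrArg (fun x => (lam n : ℂ) * x) (kerG_2 j T _ y)))

end Crest.Agent.R079.SKx261
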