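import Crest.Agent.R079.SKk_261
import Crest.Agent.R079.SKs_261

/-! R079, item (c) of 973 / note 1201 (helper261): **the (S) word of a Whitney top**.

`SKword`: the split slot is, on the Whitney top `P'` of `P`, the gauge `al` times `C w - Pj r P (C w)`:
the word total over any region below `P'` costs
`(X1 X2)^(1/4) √((G + 1/Θ) (A mb + 1/Θ)) (1 + log Θ) len P'`,
`G = GS … ` the normalised energy of the cells of `P` near `P'`, `X = XS` the gain. -/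

set_option autoImplicit false
set_option linter.unusedSectionVars false

namespace Crest.Agent.R079.SKx261

open Finset Crest.Agent.R079.Grid Crest.Agent.R079.Growth Crest.Agent.R079.QRed
  Crest.Agent.R079.Qh249 Crest.Agent.R079.QVar181
  Crest.Agent.R079.TWin Crest.Agent.R079.Glue Crest.Agent.R079.SWc360 Crest.Agent.R079.Cel159
  Crest.Agent.R079.SplSx69 Crest.Agent.R079.ThA159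
open Crest.Agent.R079.ClW59 (OpS cl)
open Crest.Agent.R079.Whit (Ins)

open scoped ComplexConjugate

/-- diagonal of the frames -/
noncomputable def hS (r Hr : ℝ) : ℝ := (2 ^ 7 + 2) * (1 / (4 * r) * Hr)

/-- leaf cost of the frames, per unit of energy -/
noncomputable def eS (ρ r : ℝ) : ℝ := (2 ^ 7 + 2) * (8 * (1 / (4 * r) * ρ) ^ 2)

/-- **gain of one labelled edge** -/
noncomputable def XS (A g d ρ r Hr : ℝ) (m0 : ℕ) (θ : ℝ) : ℝ :=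
  2 ^ 7 * g ^ 2 * eS ρ r + (2 ^ 14 * A ^ 2 * d * hS r Hr + 2 ^ 8 * A ^ 2 * hS r Hr / 2 ^ m0) *
    (1 / (4 * r)) + θ

lemma hS_nonneg {r Hr : ℝ} (hr : 0 < r) (h : 0 ≤ Hr) : 0 ≤ hS r Hr := by
  unfold hS; positivity

lemma eS_nonneg (ρ r : ℝ) : 0 ≤ eS ρ r := by
  unfold eS; positivity

/-- the `S₄` cost -/
lemma q4_le {A g d r Hr G ρ θ : ℝ} {m0 : ℕ} (hr : 0 < r) (hHr : 0 ≤ Hr)
    (hd : 0 ≤ d) (hG : 0 ≤ G) (hθ : 0 ≤ θ) :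
    q4 A g d (hS r Hr) (1 / (4 * r) * G) (eS ρ r * G) m0 ≤ XS A g d ρ r Hr m0 θ * (G + θ) := by
  have h1 := hS_nonneg hr hHr
  have h2 := eS_nonneg ρ r
  unfold q4 XS
  have h3 : 0 ≤ 2 ^ 7 * g ^ 2 * eS ρ r + (2 ^ 14 * A ^ 2 * d * hS r Hr +
    2 ^ 8 * A ^ 2 * hS r Hr / 2 ^ m0) * (1 / (4 * r)) := by positivity
  nlinarith [mul_nonneg h3 hθ, mul_nonneg hθ hG, mul_nonneg hθ hθ]

/-- size of the gain -/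
lemma XS_le {A g d r Hr ρ Θ : ℝ} {m0 : ℕ} (hr : 0 < r) (hHr : 0 ≤ Hr) (hΘ : 1 ≤ Θ)
    (hA : 0 ≤ A) (hg : 0 ≤ g) (hd : 0 ≤ d) (hρ : 0 ≤ ρ) (hA' : A ≤ Θ) (hg' : g ≤ Θ) (hd' : d ≤ Θ)
    (hρ' : ρ ≤ Θ) (hri : r⁻¹ ≤ Θ) (hH' : Hr ≤ Θ) :
    XS A g d ρ r Hr m0 Θ⁻¹ ≤ 2 ^ 19 * Θ ^ 8 := by
  have hri0 : 0 < r⁻¹ := inv_pos.2 hr
  have e1 : 1 / (4 * r) = r⁻¹ / 4 := by
    field_simp
  have p8 : ∀ n : ℕ, n ≤ 8 → Θ ^ n ≤ Θ ^ 8 := fun n hn => pow_le_pow_right₀ hΘ hn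
  have h1 : eS ρ r ≤ 65 * Θ ^ 6 := by
    unfold eS
    rw [e1]
    have h2 : r⁻¹ / 4 * ρ ≤ Θ / 4 * Θ := by gcongr
    calc (2 ^ 7 + 2) * (8 * (r⁻¹ / 4 * ρ) ^ 2) ≤
        (2 ^ 7 + 2) * (8 * (Θ / 4 * Θ) ^ 2) := by gcongr
      _ = 65 * Θ ^ 4 := by ring
      _ ≤ 65 * Θ ^ 6 := by
        have : Θ ^ 4 ≤ Θ ^ 6 := pow_le_pow_right₀ hΘ (by norm_num)
        linarith
  have h3 : hS r Hr ≤ 33 * Θ ^ 2 := by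
    unfold hS
    rw [e1]
    calc (2 ^ 7 + 2) * (r⁻¹ / 4 * Hr) ≤ (2 ^ 7 + 2) * (Θ / 4 * Θ) := by gcongr
      _ ≤ 33 * Θ ^ 2 := by nlinarith [sq_nonneg Θ]
  have h30 := hS_nonneg hr hHr
  have h4 : (1 : ℝ) ≤ 2 ^ m0 := one_le_pow₀ (by norm_num)
  unfold XS
  rw [e1]
  have a1 : 2 ^ 7 * g ^ 2 * eS ρ r ≤ 2 ^ 7 * Θ ^ 2 * (65 * Θ ^ 6) := by
    have := eS_nonneg ρ r
    gcongr
  have a2 : 2 ^ 14 * A ^ 2 * d * hS r Hr ≤ 2 ^ 14 * Θ ^ 2 * Θ * (33 * Θ ^ 2) := by gcongr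
  have a3 : 2 ^ 8 * A ^ 2 * hS r Hr / 2 ^ m0 ≤ 2 ^ 8 * Θ ^ 2 * (33 * Θ ^ 2) := by
    refine (div_le_self (by positivity) h4).trans ?_
    gcongr
  have a4 : (2 ^ 14 * A ^ 2 * d * hS r Hr + 2 ^ 8 * A ^ 2 * hS r Hr / 2 ^ m0) * (r⁻¹ / 4) ≤
      (2 ^ 14 * Θ ^ 2 * Θ * (33 * Θ ^ 2) + 2 ^ 8 * Θ ^ 2 * (33 * Θ ^ 2)) * (Θ / 4) := by gcongr
  have a5 : Θ⁻¹ ≤ 1 := inv_le_one_of_one_le₀ hΘ
  have b6 := p8 6 (by norm_num)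
  have b5 := p8 5 (by norm_num)
  have b0 := p8 0 (by norm_num)
  calc _ ≤ 2 ^ 7 * Θ ^ 2 * (65 * Θ ^ 6) + (2 ^ 14 * Θ ^ 2 * Θ * (33 * Θ ^ 2) +
        2 ^ 8 * Θ ^ 2 * (33 * Θ ^ 2)) * (Θ / 4) + 1 := by linarith
    _ = 2 ^ 7 * 65 * Θ ^ 8 + 2 ^ 12 * 33 * Θ ^ 6 + 2 ^ 6 * 33 * Θ ^ 5 + Θ ^ 0 := by ring
    _ ≤ 2 ^ 7 * 65 * Θ ^ 8 + 2 ^ 12 * 33 * Θ ^ 8 + 2 ^ 6 * 33 * Θ ^ 8 + Θ ^ 8 := by linarith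
    _ ≤ 2 ^ 19 * Θ ^ 8 := by nlinarith [pow_nonneg (by linarith : (0:ℝ) ≤ Θ) 8]

/-- **all numbers of the word** -/
theorem sn_of {A g1 d1 g2 d2 r Hr ρ Θ G mb H0 : ℝ} {m0 : ℕ} (hr : 0 < r) (hHr : 0 ≤ Hr)
    (hΘ : 1 ≤ Θ) (hA : 0 ≤ A) (hg1 : 0 ≤ g1) (hd1 : 0 ≤ d1) (hg2 : 0 ≤ g2) (hd2 : 0 ≤ d2)
    (hρ : 0 ≤ ρ) (hG : 0 ≤ G) (hmb : 0 ≤ mb) (hH0 : 0 ≤ H0) (hA' : A ≤ Θ) (hg1' : g1 ≤ Θ)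
    (hd1' : d1 ≤ Θ) (hg2' : g2 ≤ Θ) (hd2' : d2 ≤ Θ) (hρ' : ρ ≤ Θ)
    (hri : r⁻¹ ≤ Θ) (hH' : Hr ≤ Θ) (hG' : G ≤ Θ) (hmb' : mb ≤ Θ) (hH0' : H0 ≤ Θ) :
    SN A g1 d1 g2 d2 (hS r Hr) (hS r Hr) (1 / (4 * r) * G) (1 / (4 * r) * G) (eS ρ r * G)
      (eS ρ r * G) mb H0 m0 (XS A g1 d1 ρ r Hr m0 Θ⁻¹ * (G + Θ⁻¹))
      (XS A g2 d2 ρ r Hr m0 Θ⁻¹ * (G + Θ⁻¹)) (A * mb + Θ⁻¹) (2 ^ 6 * Θ ^ 4)
      (2 ^ 20 * Θ ^ 9) := by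
  have hΘ0 : 0 < Θ := by linarith
  have hθ0 : 0 < Θ⁻¹ := inv_pos.2 hΘ0
  have hθ1 : Θ⁻¹ ≤ 1 := inv_le_one_of_one_le₀ hΘ
  have x1 := XS_le (m0 := m0) hr hHr hΘ hA hg1 hd1 hρ hA' hg1' hd1' hρ' hri hH'
  have x2 := XS_le (m0 := m0) hr hHr hΘ hA hg2 hd2 hρ hA' hg2' hd2' hρ' hri hH'
  have hh := hS_nonneg hr hHr
  have he := eS_nonneg ρ r
  have y1 : Θ⁻¹ ≤ XS A g1 d1 ρ r Hr m0 Θ⁻¹ := by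
    unfold XS
    have : 0 ≤ 2 ^ 7 * g1 ^ 2 * eS ρ r + (2 ^ 14 * A ^ 2 * d1 * hS r Hr +
      2 ^ 8 * A ^ 2 * hS r Hr / 2 ^ m0) * (1 / (4 * r)) := by positivity
    linarith
  have y2 : Θ⁻¹ ≤ XS A g2 d2 ρ r Hr m0 Θ⁻¹ := by
    unfold XS
    have : 0 ≤ 2 ^ 7 * g2 ^ 2 * eS ρ r + (2 ^ 14 * A ^ 2 * d2 * hS r Hr +
      2 ^ 8 * A ^ 2 * hS r Hr / 2 ^ m0) * (1 / (4 * r)) := by positivity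
    linarith
  set X1 := XS A g1 d1 ρ r Hr m0 Θ⁻¹ with hX1
  set X2 := XS A g2 d2 ρ r Hr m0 Θ⁻¹ with hX2
  have x10 : 0 < X1 := lt_of_lt_of_le hθ0 y1
  have x20 : 0 < X2 := lt_of_lt_of_le hθ0 y2
  have hGθ : G + Θ⁻¹ ≤ 2 * Θ := by linarith
  have hGθ0 : Θ⁻¹ ≤ G + Θ⁻¹ := by linarith
  have hGp : 0 < G + Θ⁻¹ := by linarith
  have bigΘ : Θ ^ 2 ≤ 2 ^ 20 * Θ ^ 9 := by
    have : Θ ^ 2 ≤ Θ ^ 9 := pow_le_pow_right₀ hΘ (by norm_num)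
    nlinarith [pow_pos hΘ0 9]
  have bigΘ1 : Θ ≤ 2 ^ 20 * Θ ^ 9 := by
    have : Θ ^ 1 ≤ Θ ^ 9 := pow_le_pow_right₀ hΘ (by norm_num)
    rw [pow_one] at this
    nlinarith [pow_pos hΘ0 9]
  have lowθ2 : (2 ^ 20 * Θ ^ 9)⁻¹ ≤ Θ⁻¹ * Θ⁻¹ := by
    rw [← mul_inv]
    refine inv_anti₀ (by positivity) ?_
    calc Θ * Θ = Θ ^ 2 := by ring
      _ ≤ _ := bigΘ
  have lowθ1 : (2 ^ 20 * Θ ^ 9)⁻¹ ≤ Θ⁻¹ := inv_anti₀ (by positivity) bigΘ1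
  have ql : ∀ X : ℝ, Θ⁻¹ ≤ X → (2 ^ 20 * Θ ^ 9)⁻¹ ≤ X * (G + Θ⁻¹) := by
    intro X hX
    refine lowθ2.trans ?_
    exact mul_le_mul hX hGθ0 hθ0.le (hθ0.le.trans hX)
  have qu : ∀ X : ℝ, 0 ≤ X → X ≤ 2 ^ 19 * Θ ^ 8 → X * (G + Θ⁻¹) ≤ 2 ^ 20 * Θ ^ 9 := by
    intro X hX0 hX
    calc X * (G + Θ⁻¹) ≤ 2 ^ 19 * Θ ^ 8 * (2 * Θ) := mul_le_mul hX hGθ hGp.le (by positivity)
      _ = _ := by ring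
  have sq1 : ∀ X : ℝ, Θ⁻¹ ≤ X → Θ⁻¹ ≤ Real.sqrt (X * (G + Θ⁻¹)) := by
    intro X hX
    refine Real.le_sqrt_of_sq_le ?_
    rw [sq]
    exact mul_le_mul hX hGθ0 hθ0.le (hθ0.le.trans hX)
  have tt : ∀ X : ℝ, Θ⁻¹ ≤ X → A * (1 / (4 * r) * G) ≤ 2 ^ 6 * Θ ^ 4 *
      Real.sqrt (X * (G + Θ⁻¹)) := by
    intro X hX
    have e1 : 1 / (4 * r) = r⁻¹ / 4 := by field_simp
    rw [e1]
    have h1 : A * (r⁻¹ / 4 * G) ≤ Θ * (Θ / 4 * Θ) := by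
      have : 0 < r⁻¹ := inv_pos.2 hr
      gcongr
    have h2 : 2 ^ 6 * Θ ^ 4 * Θ⁻¹ ≤ 2 ^ 6 * Θ ^ 4 * Real.sqrt (X * (G + Θ⁻¹)) :=
      mul_le_mul_of_nonneg_left (sq1 X hX) (by positivity)
    have h3 : 2 ^ 6 * Θ ^ 4 * Θ⁻¹ = 2 ^ 6 * Θ ^ 3 := by field_simp
    have h4 : Θ * (Θ / 4 * Θ) ≤ 2 ^ 6 * Θ ^ 3 := by
      have : 0 < Θ ^ 3 := by positivity
      nlinarith
    linarith
  have hV : A * mb + Θ⁻¹ ≤ 2 * Θ ^ 2 := by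
    have h1 : A * mb ≤ Θ * Θ := mul_le_mul hA' hmb' hmb hΘ0.le
    have h2 : 1 ≤ Θ ^ 2 := one_le_pow₀ hΘ
    nlinarith
  have hV0 : 0 < A * mb + Θ⁻¹ := by positivity
  refine ⟨q4_le hr hHr hd1 hG hθ0.le, q4_le hr hHr hd2 hG hθ0.le, by linarith, tt X1 y1, tt X2 y2,
    ?_, ?_, ql X1 y1, qu X1 x10.le x1, ql X2 y2, qu X2 x20.le x2, ?_, by positivity, ?_, ?_, hH0⟩
  · -- n4
    have h1 : Real.sqrt (X1 * (G + Θ⁻¹) * (X2 * (G + Θ⁻¹))) ≤ 2 ^ 20 * Θ ^ 9 := by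
      rw [Real.sqrt_le_left (by positivity), sq]
      exact mul_le_mul (qu X1 x10.le x1) (qu X2 x20.le x2) (by positivity) (by positivity)
    calc _ ≤ 2 ^ 20 * Θ ^ 9 * (2 * Θ ^ 2) := mul_le_mul h1 hV hV0.le (by positivity)
      _ = 2 ^ 21 * Θ ^ 11 := by ring
      _ ≤ 2 ^ 24 * Θ ^ 16 := by
        have : Θ ^ 11 ≤ Θ ^ 16 := pow_le_pow_right₀ hΘ (by norm_num)
        nlinarith [pow_pos hΘ0 16]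
      _ = _ := by ring
  · have : 1 ≤ Θ ^ 9 := one_le_pow₀ hΘ
    nlinarith
  · exact lowθ1.trans (by nlinarith [mul_nonneg hA hmb])
  · have : Θ ^ 4 ≤ Θ ^ 9 := pow_le_pow_right₀ hΘ (by norm_num)
    nlinarith [pow_pos hΘ0 9]
  · exact hH0'.trans bigΘ1

end Crest.Agent.R079.SKx261
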