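import Crest.Agent.R079.GaQ_571
import Crest.Agent.R079.SKw_261

/-! R079, (S) words (helper112): POWERS OF `t` (item W6).

* `XG A g d e h c m0 θ` : the gain of one labelled edge with free leaf cost `e`, diagonal `h`,
  trace cost `c`; `XS_eq_XG`;
* `num_XG` : `XG ≤ K t ^ x`; `num_far` : the far word; `num_near` : the near word; `num_win`. -/

set_option autoImplicit false

namespace Crest.Agent.R079.NumS112

open Crest.Agent.R079.GaQx571 Crest.Agent.R079.SKx261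

/-- gain of one labelled edge, free constants -/
noncomputable def XG (A g d e h c : ℝ) (m0 : ℕ) (θ : ℝ) : ℝ :=
  2 ^ 7 * g ^ 2 * e + (2 ^ 14 * A ^ 2 * d * h + 2 ^ 8 * A ^ 2 * h / 2 ^ m0) * c + θ

lemma XS_eq_XG (A g d ρ r Hr : ℝ) (m0 : ℕ) (θ : ℝ) :
    XS A g d ρ r Hr m0 θ = XG A g d (eS ρ r) (hS r Hr) (1 / (4 * r)) m0 θ := rfl

lemma XG_nonneg {A g d e h c θ : ℝ} {m0 : ℕ} (hd : 0 ≤ d) (he : 0 ≤ e) (hh : 0 ≤ h)
    (hc : 0 ≤ c) (hθ : 0 ≤ θ) : 0 ≤ XG A g d e h c m0 θ := by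
  unfold XG; positivity

/-- **one edge** -/
theorem num_XG {t : ℝ} (ht : 0 < t) (ht1 : t ≤ 1) {K a γ D ee hh cc M M' x : ℝ} (hK : 1 ≤ K)
    (h1 : x ≤ 2 * γ - ee) (h2 : x ≤ D - 2 * a - hh - cc) (h3 : x ≤ M - 2 * a - hh - cc)
    (h4 : x ≤ M') {A g d e h c θ : ℝ} {m0 : ℕ} (hA0 : 0 ≤ A) (hA : A ≤ K * t ^ (-a))
    (hg0 : 0 ≤ g) (hg : g ≤ K * t ^ γ) (hd0 : 0 ≤ d) (hd : d ≤ K * t ^ D) (he0 : 0 ≤ e)
    (he : e ≤ K * t ^ (-ee)) (hh0 : 0 ≤ h) (hh' : h ≤ K * t ^ (-hh)) (hc0 : 0 ≤ c)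
    (hc : c ≤ K * t ^ (-cc)) (hm : (1 : ℝ) / 2 ^ m0 ≤ K * t ^ M) (hθ : θ ≤ K * t ^ M') :
    XG A g d e h c m0 θ ≤ 2 ^ 15 * K ^ 5 * t ^ x := by
  have P := pw_pos ht
  have hK0 : 0 ≤ K := by linarith
  have p : ∀ s : ℝ, 0 ≤ t ^ s := fun s => (P s).le
  have A2 : A ^ 2 ≤ K ^ 2 * t ^ (-(2 * a)) := by
    have := sq_A ht hA0 hA
    rwa [show 2 * -a = -(2 * a) by ring] at this
  have e1 : 2 ^ 7 * g ^ 2 * e ≤ 2 ^ 7 * K ^ 3 * t ^ x := by
    have := mul_A ht he0 (sq_nonneg K) (sq_A ht hg0 hg) he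
    calc 2 ^ 7 * g ^ 2 * e = 2 ^ 7 * (g ^ 2 * e) := by ring
      _ ≤ 2 ^ 7 * (K ^ 2 * K * t ^ (2 * γ + -ee)) := by gcongr
      _ ≤ 2 ^ 7 * (K ^ 2 * K * t ^ x) := by
          have := pw_le ht ht1 (s := 2 * γ + -ee) (s' := x) (by linarith)
          gcongr
      _ = _ := by ring
  have hAh : A ^ 2 * h ≤ K ^ 2 * K * t ^ (-(2 * a) + -hh) := mul_A ht hh0 (sq_nonneg K) A2 hh'
  have hAhc : A ^ 2 * h * c ≤ K ^ 2 * K * K * t ^ (-(2 * a) + -hh + -cc) :=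
    mul_A ht hc0 (by positivity) hAh hc
  have e2 : 2 ^ 14 * (A ^ 2 * h * c * d) ≤ 2 ^ 14 * K ^ 5 * t ^ x := by
    have := mul_A ht hd0 (by positivity) hAhc hd
    calc _ ≤ 2 ^ 14 * (K ^ 2 * K * K * K * t ^ (-(2 * a) + -hh + -cc + D)) := by gcongr
      _ ≤ 2 ^ 14 * (K ^ 2 * K * K * K * t ^ x) := by
          have := pw_le ht ht1 (s := -(2 * a) + -hh + -cc + D) (s' := x) (by linarith)
          gcongr
      _ = _ := by ring
  have e3 : 2 ^ 8 * (A ^ 2 * h * c * (1 / 2 ^ m0)) ≤ 2 ^ 8 * K ^ 5 * t ^ x := by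
    have := mul_A ht (by positivity) (by positivity) hAhc hm
    calc _ ≤ 2 ^ 8 * (K ^ 2 * K * K * K * t ^ (-(2 * a) + -hh + -cc + M)) := by gcongr
      _ ≤ 2 ^ 8 * (K ^ 2 * K * K * K * t ^ x) := by
          have := pw_le ht ht1 (s := -(2 * a) + -hh + -cc + M) (s' := x) (by linarith)
          gcongr
      _ = _ := by ring
  have e4 : θ ≤ K * t ^ x := hθ.trans (mul_le_mul_of_nonneg_left (pw_le ht ht1 h4) hK0)
  have k3 : K ^ 3 ≤ K ^ 5 := pow_le_pow_right₀ hK (by norm_num)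
  have k1 : K ≤ K ^ 5 := le_self_pow₀ hK (by norm_num)
  have q1 : K ^ 3 * t ^ x ≤ K ^ 5 * t ^ x := mul_le_mul_of_nonneg_right k3 (p x)
  have q2 : K * t ^ x ≤ K ^ 5 * t ^ x := mul_le_mul_of_nonneg_right k1 (p x)
  have q3 : 0 ≤ K ^ 5 * t ^ x := mul_nonneg (by positivity) (p x)
  have : XG A g d e h c m0 θ = 2 ^ 7 * g ^ 2 * e + 2 ^ 14 * (A ^ 2 * h * c * d) +
      2 ^ 8 * (A ^ 2 * h * c * (1 / 2 ^ m0)) + θ := by
    unfold XG; ring
  rw [this]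
  nlinarith

/-- **the far word**: two edges, one gauge -/
theorem num_far {t : ℝ} (ht : 0 < t) (ht1 : t ≤ 1) {K x1 x2 a b M' s y : ℝ} (hK : 1 ≤ K)
    (hy : 4 * y ≤ x1 + x2 - 2 * a - 2 * b - 4 * s) (hM : 4 * y ≤ x1 + x2 + 2 * M' - 4 * s)
    {X1 X2 A mb θ L : ℝ} (h1 : X1 ≤ K * t ^ x1) (h20 : 0 ≤ X2)
    (h2 : X2 ≤ K * t ^ x2) (hA0 : 0 ≤ A) (hA : A ≤ K * t ^ (-a)) (hmb0 : 0 ≤ mb)
    (hmb : mb ≤ K * t ^ (-b)) (hθ0 : 0 ≤ θ) (hθ : θ ≤ K * t ^ M')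
    (hL : L ≤ K * t ^ (-s)) :
    L * √(√(X1 * X2) * (A * mb + θ)) ≤ 2 * K ^ 3 * t ^ y := by
  have P := pw_pos ht
  have p : ∀ s : ℝ, 0 ≤ t ^ s := fun s => (P s).le
  have hK0 : 0 ≤ K := by linarith
  have e1 : √(X1 * X2) ≤ K * t ^ ((x1 + x2) / 2) := by
    refine Real.sqrt_le_iff.2 ⟨mul_nonneg hK0 (p _), ?_⟩
    have := mul_A ht h20 hK0 h1 h2
    calc X1 * X2 ≤ K * K * t ^ (x1 + x2) := this
      _ = (K * t ^ ((x1 + x2) / 2)) ^ 2 := by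
          rw [mul_pow, sq (t ^ _), pw_add ht]
          ring_nf
  have e2 : A * mb ≤ K * K * t ^ (-a + -b) := mul_A ht hmb0 hK0 hA hmb
  have e3 : √(X1 * X2) * (A * mb + θ) ≤ 2 * K ^ 3 * t ^ (2 * (y + s)) := by
    have hz : 0 ≤ A * mb + θ := by positivity
    calc √(X1 * X2) * (A * mb + θ) ≤ (K * t ^ ((x1 + x2) / 2)) *
          (K * K * t ^ (-a + -b) + K * t ^ M') := by
          exact mul_le_mul e1 (add_le_add e2 hθ) hz (mul_nonneg hK0 (p _))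
      _ = K * K * K * (t ^ ((x1 + x2) / 2) * t ^ (-a + -b)) +
          K * K * (t ^ ((x1 + x2) / 2) * t ^ M') := by ring
      _ ≤ K * K * K * t ^ (2 * (y + s)) + K * K * t ^ (2 * (y + s)) := by
          rw [pw_add ht, pw_add ht]
          refine add_le_add (mul_le_mul_of_nonneg_left (pw_le ht ht1 (by linarith)) (by positivity))
            (mul_le_mul_of_nonneg_left (pw_le ht ht1 (by linarith)) (by positivity))
      _ ≤ _ := by
          have q : 0 ≤ t ^ (2 * (y + s)) := p _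
          have : K * K ≤ K * K * K := by nlinarith
          nlinarith [mul_le_mul_of_nonneg_right this q]
  have e4 : √(√(X1 * X2) * (A * mb + θ)) ≤ 2 * K ^ 2 * t ^ (y + s) := by
    refine Real.sqrt_le_iff.2 ⟨mul_nonneg (by positivity) (p _), e3.trans ?_⟩
    have : (2 * K ^ 2 * t ^ (y + s)) ^ 2 = 4 * K ^ 4 * t ^ (2 * (y + s)) := by
      rw [mul_pow, sq (t ^ _), pw_add ht]
      ring_nf
    rw [this]
    have k : K ^ 3 ≤ K ^ 4 := pow_le_pow_right₀ hK (by norm_num)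
    have q : 0 ≤ t ^ (2 * (y + s)) := p _
    nlinarith [mul_le_mul_of_nonneg_right k q, mul_nonneg (pow_nonneg hK0 4) q]
  have := mul_A ht (Real.sqrt_nonneg _) hK0 hL e4
  refine this.trans (le_of_eq ?_)
  rw [show -s + (y + s) = y by ring]
  ring

/-- **the near word** -/
theorem num_near {K1 A J c s sa sb y : ℝ} (hK1 : 0 ≤ K1) (hA : 1 ≤ A) (hJ : 0 ≤ J) (hs : 0 < s)
    (hy : y ≤ c - sa - sb - s) :
    ∃ K : ℝ, 0 ≤ K ∧ ∀ t, 0 < t → t ≤ 1 → ∀ j0 : ℕ, (j0 : ℝ) ≤ A + J * Real.log (1 / t) →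
      ∀ w : ℝ, 0 ≤ w → ((j0 : ℝ) + 1) * (K1 * t ^ (c - sa - sb)) * w ≤ K * t ^ y * w := by
  refine ⟨(A + J / s + 1) * K1, by positivity, ?_⟩
  intro t ht ht1 j0 hj w hw
  refine mul_le_mul_of_nonneg_right ?_ hw
  have P := pw_pos ht
  have h1 : 1 ≤ t ^ (-s) := one_le_pw ht ht1 hs.le
  have h2 : Real.log (1 / t) ≤ t ^ (-s) / s := by
    have h5 := Real.log_le_rpow_div (x := t⁻¹) (inv_pos.2 ht).le hs
    rwa [Real.inv_rpow ht.le, ← Real.rpow_neg ht.le, ← one_div t] at h5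
  have h3 : (j0 : ℝ) + 1 ≤ (A + J / s + 1) * t ^ (-s) := by
    have h4 : J * Real.log (1 / t) ≤ J * (t ^ (-s) / s) := mul_le_mul_of_nonneg_left h2 hJ
    have h5 : J * (t ^ (-s) / s) = J / s * t ^ (-s) := by ring
    nlinarith
  have h0 : (0 : ℝ) ≤ (j0 : ℝ) + 1 := by positivity
  calc ((j0 : ℝ) + 1) * (K1 * t ^ (c - sa - sb)) ≤ ((A + J / s + 1) * t ^ (-s)) *
        (K1 * t ^ (c - sa - sb)) :=
        mul_le_mul_of_nonneg_right h3 (mul_nonneg hK1 (P _).le)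
    _ = (A + J / s + 1) * K1 * (t ^ (-s) * t ^ (c - sa - sb)) := by ring
    _ ≤ _ := by
        rw [pw_add ht]
        exact mul_le_mul_of_nonneg_left (pw_le ht ht1 (by linarith)) (by positivity)

/-- a level `m0` with `2 ^ (-m0) ≤ t ^ M`, of size `O(log 1/t)` -/
theorem exists_lev {M : ℝ} (hM : 0 ≤ M) : ∃ A : ℝ, 1 ≤ A ∧ ∀ t, 0 < t → t ≤ 1 →
    ∃ m0 : ℕ, (1 : ℝ) / 2 ^ m0 ≤ t ^ M ∧ t ^ M ≤ 2 * (1 / 2 ^ m0) ∧
      (m0 : ℝ) ≤ A + 2 * M * Real.log (1 / t) := by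
  refine ⟨1, le_rfl, ?_⟩
  intro t ht ht1
  have hl0 : 0 ≤ Real.log (1 / t) := Real.log_nonneg (by
    rw [le_div_iff₀ ht]; linarith)
  have h2 : (1 : ℝ) / 2 < Real.log 2 := by
    have := Real.log_two_gt_d9
    linarith
  have h2' : 0 < Real.log 2 := by linarith
  set q : ℝ := M * Real.log (1 / t) / Real.log 2 with hq
  have hq0 : 0 ≤ q := by positivity
  have hqe : q * Real.log 2 = M * Real.log (1 / t) := by
    rw [hq]; field_simp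
  have htM : t ^ M = Real.exp (-(q * Real.log 2)) := by
    rw [hqe, Real.rpow_def_of_pos ht, one_div, Real.log_inv]
    congr 1
    ring
  have h2n : ∀ n : ℕ, (1 : ℝ) / 2 ^ n = Real.exp (-(n * Real.log 2)) := by
    intro n
    rw [Real.exp_neg, Real.exp_nat_mul, Real.exp_log (by norm_num), one_div]
  refine ⟨⌈q⌉₊, ?_, ?_, ?_⟩
  · rw [htM, h2n]
    refine Real.exp_le_exp.2 ?_
    have := Nat.le_ceil q
    nlinarith
  · rw [htM, h2n]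
    have h3 : (2 : ℝ) = Real.exp (Real.log 2) := (Real.exp_log (by norm_num)).symm
    have h4 : (2 : ℝ) * Real.exp (-((⌈q⌉₊ : ℕ) * Real.log 2)) =
        Real.exp (Real.log 2 + -((⌈q⌉₊ : ℕ) * Real.log 2)) := by
      rw [Real.exp_add, Real.exp_log (by norm_num)]
    rw [h4]
    refine Real.exp_le_exp.2 ?_
    have := (Nat.ceil_lt_add_one hq0).le
    nlinarith
  · have h3 := (Nat.ceil_lt_add_one hq0).le
    have h4 : q ≤ 2 * M * Real.log (1 / t) := by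
      rw [hq, div_le_iff₀ h2']
      have : 0 ≤ M * Real.log (1 / t) := by positivity
      nlinarith
    linarith

end Crest.Agent.R079.NumS112
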