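import Crest.Agent.R079.NK_112
import Crest.Agent.R079.NumS_112
import Crest.Agent.R079.NumE_112

/-! R079, T7 (helper112): THE PARAMETERS of one generation, explicit functions of `t`.

* `lev M t` : level with `2 ^ (-lev) ~ t ^ M`;
* `parF`    : weight `t ^ (-4 y)`, cell cap `7`, ladder `t ^ (2 θ - y q)`, `j0 = k0 + lev c1`, `n0 = lev M`,
  `ω = Ko t ^ (-9 y)`; `parF_ok`. -/

set_option autoImplicit false

namespace Crest.Agent.R079.NL112

open Crest.Agent.R079.Grid Crest.Agent.R079.Growth Crest.Agent.R079.QRed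
  Crest.Agent.R079.TWin
open Crest.Agent.R079.RelV653 Crest.Agent.R079.HWx323 Crest.Agent.R079.Chn110
open Crest.Agent.R079.TRec Crest.Agent.R079.T6bx252 Crest.Agent.R079.Tailx726 Crest.Agent.R079.Stk
  Crest.Agent.R079.AsmA844
open Crest.Agent.R079.WS112 Crest.Agent.R079.WS0112
open Crest.Agent.R079.NJ112 Crest.Agent.R079.GaQx571

/-- level of the power `t ^ M` -/
noncomputable def lev (M t : ℝ) : ℕ := ⌈M * Real.log (1 / t) / Real.log 2⌉₊

section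

variable {M t : ℝ}

private lemma aux (hM : 0 ≤ M) (ht : 0 < t) (ht1 : t ≤ 1) :
    0 < Real.log 2 ∧ 0 ≤ M * Real.log (1 / t) / Real.log 2 ∧
      t ^ M = Real.exp (-(M * Real.log (1 / t) / Real.log 2 * Real.log 2)) := by
  have hl0 : 0 ≤ Real.log (1 / t) := Real.log_nonneg (by rw [le_div_iff₀ ht]; linarith)
  have h2 : 0 < Real.log 2 := Real.log_pos (by norm_num)
  refine ⟨h2, by positivity, ?_⟩
  rw [div_mul_cancel₀ _ h2.ne', Real.rpow_def_of_pos ht, one_div, Real.log_inv]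
  congr 1
  ring

private lemma h2n (n : ℕ) : (1 : ℝ) / 2 ^ n = Real.exp (-(n * Real.log 2)) := by
  rw [Real.exp_neg, Real.exp_nat_mul, Real.exp_log (by norm_num), one_div]

theorem lev_le (hM : 0 ≤ M) (ht : 0 < t) (ht1 : t ≤ 1) : (1 : ℝ) / 2 ^ lev M t ≤ t ^ M := by
  obtain ⟨h2, _, h3⟩ := aux hM ht ht1
  rw [h3, h2n]
  refine Real.exp_le_exp.2 ?_
  have := Nat.le_ceil (M * Real.log (1 / t) / Real.log 2)
  unfold lev
  nlinarith

theorem lev_ge (hM : 0 ≤ M) (ht : 0 < t) (ht1 : t ≤ 1) :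
    t ^ M ≤ 2 * (1 / 2 ^ lev M t) := by
  obtain ⟨h2, h0, h3⟩ := aux hM ht ht1
  rw [h3, h2n]
  have h4 : (2 : ℝ) * Real.exp (-((lev M t : ℕ) * Real.log 2)) =
      Real.exp (Real.log 2 + -((lev M t : ℕ) * Real.log 2)) := by
    rw [Real.exp_add, Real.exp_log (by norm_num)]
  rw [h4]
  refine Real.exp_le_exp.2 ?_
  have := (Nat.ceil_lt_add_one h0).le
  unfold lev
  nlinarith

/-- the level is logarithmic -/
theorem lev_log (hM : 0 ≤ M) (ht : 0 < t) (ht1 : t ≤ 1) :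
    (lev M t : ℝ) ≤ 1 + 2 * M * Real.log (1 / t) := by
  obtain ⟨h2', h0, _⟩ := aux hM ht ht1
  have hl0 : 0 ≤ Real.log (1 / t) := Real.log_nonneg (by rw [le_div_iff₀ ht]; linarith)
  have h2 : (1 : ℝ) / 2 < Real.log 2 := by
    have := Real.log_two_gt_d9
    linarith
  have h3 := (Nat.ceil_lt_add_one h0).le
  have h4 : M * Real.log (1 / t) / Real.log 2 ≤ 2 * M * Real.log (1 / t) := by
    rw [div_le_iff₀ h2']
    have : 0 ≤ M * Real.log (1 / t) := by positivity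
    nlinarith
  unfold lev
  linarith

/-- the level is smaller than every negative power -/
theorem lev_pow (hM : 0 ≤ M) {s : ℝ} (hs : 0 < s) : ∃ K : ℝ, 1 ≤ K ∧ ∀ t, 0 < t → t ≤ 1 →
    (lev M t : ℝ) + 1 ≤ K * t ^ (-s) := by
  refine ⟨2 + 2 * M / s, ?_, fun t ht ht1 => ?_⟩
  · have : 0 ≤ 2 * M / s := by positivity
    linarith
  · have h1 := lev_log hM ht ht1
    have h2 : Real.log (1 / t) ≤ t ^ (-s) / s := by
      have h5 := Real.log_le_rpow_div (x := t⁻¹) (inv_pos.2 ht).le hs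
      rwa [Real.inv_rpow ht.le, ← Real.rpow_neg ht.le, ← one_div t] at h5
    have h3 : 1 ≤ t ^ (-s) := one_le_pw ht ht1 hs.le
    have h4 : 2 * M * Real.log (1 / t) ≤ 2 * M * (t ^ (-s) / s) :=
      mul_le_mul_of_nonneg_left h2 (by positivity)
    have h5 : 2 * M * (t ^ (-s) / s) = 2 * M / s * t ^ (-s) := by ring
    nlinarith

end

/-- **THE PARAMETERS** -/
noncomputable def parF (P : Prm) (c1 y : ℝ) (k0 Kl : ℕ) (M Ko : ℝ) : Par where
  kap t := t ^ (-(4 * y))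
  kc _ := 7
  Kl _ := Kl
  r t q := t ^ (2 * P.θ - y * q)
  k0 := k0
  j0 t := k0 + lev c1 t
  n0 t := lev M t
  om t := Ko * t ^ (-(9 * y))

theorem parF_ok {P : Prm} {c1 y : ℝ} {k0 Kl : ℕ} {M Ko t0 : ℝ} (hk0 : 4 ≤ k0) (hKo : 0 < Ko) :
    (parF P c1 y k0 Kl M Ko).Ok t0 where
  kap0 t ht _ := Real.rpow_nonneg ht.le _
  r0 t ht _ q := Real.rpow_nonneg ht.le _
  k4 := hk0
  kj t _ _ := Nat.le_add_right _ _
  om0 t ht _ := mul_pos hKo (Real.rpow_pos_of_pos ht _)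

lemma parF_r0 {P : Prm} {c1 y : ℝ} {k0 Kl : ℕ} {M Ko t : ℝ} :
    (parF P c1 y k0 Kl M Ko).r t 0 ≤ t ^ (2 * P.θ) := by
  show t ^ (2 * P.θ - y * (0 : ℕ)) ≤ _
  rw [Nat.cast_zero, mul_zero, sub_zero]

/-- one step of the ladder -/
lemma parF_step {P : Prm} {c1 y : ℝ} {k0 Kl : ℕ} {M Ko t : ℝ} (ht : 0 < t) (q : ℕ) :
    (parF P c1 y k0 Kl M Ko).r t (q + 1) = t ^ (-y) * (parF P c1 y k0 Kl M Ko).r t q := by
  show t ^ (2 * P.θ - y * ((q + 1 : ℕ) : ℝ)) = t ^ (-y) * t ^ (2 * P.θ - y * (q : ℝ))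
  rw [← Real.rpow_add ht]
  congr 1
  push_cast
  ring

end Crest.Agent.R079.NL112
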