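import Crest.Agent.R079.NL_112
import Crest.Agent.R079.FrZc_360

/-! R079, (S) words (helper112): ALL NUMBERS of `FrZc_360.swd_su` for the parameters `parF`.

* `AS, ThS, roS, rrS, HrS` : the sizes of the frames as functions of `t`;
* **`numS`** : `SKZ`, the gain `gX` and the total `kaS ≤ K t ^ gS`. -/

set_option autoImplicit false

namespace Crest.Agent.R079.NL112

open Crest.Agent.R079.Grid Crest.Agent.R079.Growth Crest.Agent.R079.QRed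
  Crest.Agent.R079.TWin
open Crest.Agent.R079.RelV653 Crest.Agent.R079.HWx323 Crest.Agent.R079.Chn110
open Crest.Agent.R079.TRec Crest.Agent.R079.T6bx252 Crest.Agent.R079.Tailx726 Crest.Agent.R079.Stk
  Crest.Agent.R079.AsmA844
open Crest.Agent.R079.WS112 Crest.Agent.R079.WS0112
open Crest.Agent.R079.NJ112 Crest.Agent.R079.GaQx571 Crest.Agent.R079.NumS112
open Crest.Agent.R079.SKx261 Crest.Agent.R079.FrZx360 Crest.Agent.R079.GnUx263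
  Crest.Agent.R079.POx263

/-- `L²` bound of the letters -/
noncomputable def AS (cl t : ℝ) : ℝ := 25 * t ^ (-(2 * cl))

/-- cap of all sizes -/
noncomputable def ThS (Cm M' t : ℝ) : ℝ := (1300000 + Cm) * t ^ (-M')

/-- operator bound of the dominating kernels -/
noncomputable def roS (θ y t : ℝ) (a : ℕ) : ℝ := 2 ^ 7 * t ^ (2 * θ - y * a)

/-- inverse of the domination constant -/
noncomputable def rrS (θ y Cm t : ℝ) (a : ℕ) : ℝ := t ^ (2 * θ - y * a) * t ^ y / Cm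

/-- rows of the dominating kernels -/
noncomputable def HrS (P : Prm) (i : Fin 4) (t : ℝ) : ℝ := 2 ^ 7 * 9 * (HfC P i t * HtC P i t)

section

variable {t : ℝ}

lemma HH_eq (P : Prm) (i : Fin 4) (ht : 0 < t) :
    HfC P i t * HtC P i t = 3 * t ^ (-(xxC P i + ffC P i)) := by
  unfold HfC HtC
  rw [show t ^ (-(ffC P i)) * (3 * t ^ (-(xxC P i))) = 3 * (t ^ (-(ffC P i)) * t ^ (-(xxC P i)))
    by ring, pw_add ht]
  congr 2
  ring

lemma rrS_pos {θ y Cm : ℝ} (hCm : 0 < Cm) (ht : 0 < t) (a : ℕ) : 0 < rrS θ y Cm t a := by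
  unfold rrS
  have := pw_pos ht (2 * θ - y * a)
  have := pw_pos ht y
  positivity

/-- `1 / (4 rr)` -/
lemma rr_inv {θ y Cm : ℝ} (hy : 0 ≤ y) (hCm : 0 < Cm) (ht : 0 < t) (ht1 : t ≤ 1)
    (a : ℕ) : 1 / (4 * rrS θ y Cm t a) ≤ Cm * t ^ (-(2 * θ + y)) ∧
      (rrS θ y Cm t a)⁻¹ ≤ Cm * t ^ (-(2 * θ + y)) := by
  have p1 := pw_pos ht (2 * θ - y * a)
  have p2 := pw_pos ht y
  have ha : (0 : ℝ) ≤ y * a := mul_nonneg hy (Nat.cast_nonneg _)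
  have e1 : (rrS θ y Cm t a)⁻¹ = Cm * t ^ (-(2 * θ + y) + y * a) := by
    unfold rrS
    rw [pw_add ht, inv_div, show -(2 * θ + y) + y * a = -(2 * θ - y * a + y) by ring,
      Real.rpow_neg ht.le]
    rfl
  have e2 : (rrS θ y Cm t a)⁻¹ ≤ Cm * t ^ (-(2 * θ + y)) := by
    rw [e1]
    exact mul_le_mul_of_nonneg_left (pw_le ht ht1 (by linarith)) hCm.le
  refine ⟨?_, e2⟩
  have h0 := rrS_pos (θ := θ) (y := y) hCm ht a
  have h3 : 1 / (4 * rrS θ y Cm t a) = 1 / 4 * (rrS θ y Cm t a)⁻¹ := by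
    field_simp
  rw [h3]
  have h4 : 0 ≤ (rrS θ y Cm t a)⁻¹ := inv_nonneg.2 h0.le
  linarith

/-- `ρ / rr` -/
lemma ro_rr {θ y Cm : ℝ} (hCm : 0 < Cm) (ht : 0 < t) (a : ℕ) :
    1 / (4 * rrS θ y Cm t a) * roS θ y t a = 2 ^ 5 * Cm * t ^ (-y) := by
  have p1 := pw_pos ht (2 * θ - y * a)
  have p2 := pw_pos ht y
  unfold rrS roS
  rw [Real.rpow_neg ht.le]
  field_simp
  norm_num

set_option maxHeartbeats 2000000 in
/-- **GAIN OF ONE STEP** -/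
theorem num_gX {γ D cl xf θ y Cm M' : ℝ} (hγ : 0 < γ) (hcl : 0 ≤ cl) (hy : 0 < y) (hCm : 1 ≤ Cm)
    (hD : 4 * cl + xf + 4 * θ + 2 * γ ≤ D) (hM' : 2 * γ ≤ M') :
    ∃ K : ℝ, 1 ≤ K ∧ ∀ t, 0 < t → t ≤ 1 → ∀ (n0 : ℕ) (gk dk mb Hr : ℝ),
      (1 : ℝ) / 2 ^ n0 ≤ t ^ D → 0 ≤ gk → gk ≤ 3 * t ^ γ → 0 ≤ dk → dk ≤ 2 * t ^ D → 0 ≤ mb →
      mb ≤ t ^ (-(4 * y)) → 0 ≤ Hr → Hr ≤ 3456 * t ^ (-xf) → ∀ a : ℕ,
      gX (AS cl t) gk dk 5 mb (roS θ y t a) (rrS θ y Cm t a) Hr n0 (ThS Cm M' t) ≤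
        K * t ^ (γ / 2 - cl - 4 * y) := by
  have hCm0 : 0 < Cm := by linarith
  set K1 : ℝ := 2 ^ 30 * Cm ^ 2 with hK1
  have hCm2 : 1 ≤ Cm ^ 2 := one_le_pow₀ hCm
  have hCmm : Cm ≤ Cm ^ 2 := le_self_pow₀ hCm (by norm_num)
  have hK11 : 1 ≤ K1 := by rw [hK1]; linarith
  have hM0 : 0 ≤ M' := by linarith
  set KT : ℝ := 1300000 + Cm with hKT
  have hKT1 : 1 ≤ KT := by rw [hKT]; linarith
  set K2 : ℝ := 2 ^ 15 * K1 ^ 5 + (1 + Real.log KT + M' / y) + 25 with hK2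
  have hlogKT : 0 ≤ Real.log KT := Real.log_nonneg hKT1
  have hMy : 0 ≤ M' / y := by positivity
  have hK15 : 1 ≤ K1 ^ 5 := one_le_pow₀ hK11
  have hK21 : 1 ≤ K2 := by rw [hK2]; linarith
  refine ⟨2 * K2 ^ 3, ?_, ?_⟩
  · have : 1 ≤ K2 ^ 3 := one_le_pow₀ hK21
    linarith
  intro t ht ht1 n0 gk dk mb Hr hn0 hgk0 hgk hdk0 hdk hmb0 hmb hHr0 hHr a
  have P := pw_pos ht
  have p : ∀ s : ℝ, 0 ≤ t ^ s := fun s => (P s).le
  have hr := rrS_pos (θ := θ) (y := y) hCm0 ht a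
  obtain ⟨i1, i2⟩ := rr_inv (θ := θ) (y := y) hy.le hCm0 ht ht1 a
  have i0 : 0 ≤ 1 / (4 * rrS θ y Cm t a) := by positivity
  -- sizes
  have hA0 : 0 ≤ AS cl t := mul_nonneg (by norm_num) (p _)
  have hAK : AS cl t ≤ K1 * t ^ (-(2 * cl)) :=
    mul_le_mul_of_nonneg_right (by rw [hK1]; linarith) (p _)
  have heS : eS (roS θ y t a) (rrS θ y Cm t a) ≤ K1 * t ^ (-(2 * y)) := by
    unfold eS
    rw [ro_rr hCm0 ht a]
    have e1 : (2 ^ 5 * Cm * t ^ (-y)) ^ 2 = 2 ^ 10 * Cm ^ 2 * t ^ (-(2 * y)) := by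
      rw [mul_pow, sq (t ^ (-y)), pw_add ht, show -y + -y = -(2 * y) by ring]
      ring
    rw [e1, hK1]
    have := mul_nonneg (sq_nonneg Cm) (p (-(2 * y)))
    nlinarith
  have hhS0 : 0 ≤ hS (rrS θ y Cm t a) Hr := hS_nonneg hr hHr0
  have hhS : hS (rrS θ y Cm t a) Hr ≤ K1 * t ^ (-(xf + 2 * θ + y)) := by
    unfold hS
    have := mul_A ht hHr0 hCm0.le i1 hHr
    have e1 : (2 ^ 7 + 2) * (1 / (4 * rrS θ y Cm t a) * Hr) ≤
        (2 ^ 7 + 2) * (Cm * 3456 * t ^ (-(2 * θ + y) + -xf)) :=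
      mul_le_mul_of_nonneg_left this (by norm_num)
    refine e1.trans ?_
    rw [show -(2 * θ + y) + -xf = -(xf + 2 * θ + y) by ring, hK1]
    have := p (-(xf + 2 * θ + y))
    have h3 : (2 ^ 7 + 2) * (Cm * 3456) ≤ 2 ^ 30 * Cm ^ 2 := by nlinarith
    calc (2 ^ 7 + 2) * (Cm * 3456 * t ^ (-(xf + 2 * θ + y))) =
          (2 ^ 7 + 2) * (Cm * 3456) * t ^ (-(xf + 2 * θ + y)) := by ring
      _ ≤ _ := mul_le_mul_of_nonneg_right h3 this
  have hcK : 1 / (4 * rrS θ y Cm t a) ≤ K1 * t ^ (-(2 * θ + y)) :=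
    i1.trans (mul_le_mul_of_nonneg_right (by rw [hK1]; linarith) (p _))
  have hT1 : 1 ≤ ThS Cm M' t := by
    have := one_le_pw ht ht1 hM0
    unfold ThS
    rw [← hKT]
    nlinarith
  have hTi : (ThS Cm M' t)⁻¹ ≤ K1 * t ^ M' := by
    have e1 : (ThS Cm M' t)⁻¹ ≤ t ^ M' := by
      unfold ThS
      rw [← hKT, mul_inv, Real.rpow_neg ht.le, inv_inv]
      have : KT⁻¹ ≤ 1 := inv_le_one_of_one_le₀ hKT1
      nlinarith [p M']
    refine e1.trans ?_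
    nlinarith [p M']
  have hTi0 : 0 ≤ (ThS Cm M' t)⁻¹ := inv_nonneg.2 (by linarith)
  have hn : (1 : ℝ) / 2 ^ n0 ≤ K1 * t ^ D := hn0.trans (by nlinarith [p D])
  -- the two edges
  have x1 := num_XG ht ht1 (K := K1) (a := 2 * cl) (γ := γ) (D := D) (ee := 2 * y)
    (hh := xf + 2 * θ + y) (cc := 2 * θ + y) (M := D) (M' := M') (x := 2 * γ - 2 * y) hK11
    (by linarith) (by linarith) (by linarith) (by linarith) (A := AS cl t) (g := gk) (d := dk)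
    (m0 := n0) hA0 hAK hgk0
    (hgk.trans (mul_le_mul_of_nonneg_right (by rw [hK1]; linarith) (p _))) hdk0
    (hdk.trans (mul_le_mul_of_nonneg_right (by rw [hK1]; linarith) (p _)))
    (eS_nonneg (roS θ y t a) (rrS θ y Cm t a)) heS hhS0 hhS i0 hcK hn hTi
  have x2 := num_XG ht ht1 (K := K1) (a := 2 * cl) (γ := 0) (D := D) (ee := 2 * y)
    (hh := xf + 2 * θ + y) (cc := 2 * θ + y) (M := D) (M' := M') (x := -(2 * y)) hK11
    (by linarith) (by linarith) (by linarith) (by linarith) (A := AS cl t) (g := 5 ^ 2) (d := 0)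
    (m0 := n0) hA0 hAK (by norm_num)
    (by rw [Real.rpow_zero, mul_one, hK1]; linarith) le_rfl (mul_nonneg (by linarith) (p _))
    (eS_nonneg (roS θ y t a) (rrS θ y Cm t a)) heS hhS0 hhS i0 hcK hn hTi
  rw [← XS_eq_XG] at x1 x2
  have k25 : 2 ^ 15 * K1 ^ 5 ≤ K2 := by rw [hK2]; linarith
  have hX20 : 0 ≤ XS (AS cl t) (5 ^ 2) 0 (roS θ y t a) (rrS θ y Cm t a) Hr n0
      (ThS Cm M' t)⁻¹ := by
    rw [XS_eq_XG]
    exact XG_nonneg le_rfl (eS_nonneg _ _) hhS0 i0 hTi0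
  have hL : 1 + Real.log (ThS Cm M' t) ≤ K2 * t ^ (-y) := by
    unfold ThS
    rw [← hKT, Real.log_mul (by linarith) (P _).ne', Real.log_rpow ht]
    have h5 : -Real.log t ≤ t ^ (-y) / y := by
      have h5 := Real.log_le_rpow_div (x := t⁻¹) (inv_pos.2 ht).le hy
      rw [Real.log_inv, Real.inv_rpow ht.le, ← Real.rpow_neg ht.le] at h5
      exact h5
    have h6 := one_le_pw ht ht1 hy.le
    have h7 : M' * (-Real.log t) ≤ M' * (t ^ (-y) / y) := mul_le_mul_of_nonneg_left h5 hM0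
    have h8 : M' * (t ^ (-y) / y) = M' / y * t ^ (-y) := by ring
    have h9 : 1 + Real.log KT ≤ (1 + Real.log KT) * t ^ (-y) := by nlinarith
    have h10 : (1 + Real.log KT + M' / y) * t ^ (-y) ≤ K2 * t ^ (-y) :=
      mul_le_mul_of_nonneg_right (by rw [hK2]; linarith) (p _)
    nlinarith
  have := num_far ht ht1 (K := K2) (x1 := 2 * γ - 2 * y) (x2 := -(2 * y)) (a := 2 * cl)
    (b := 4 * y) (M' := M') (s := y) (y := γ / 2 - cl - 4 * y) hK21 (by linarith) (by linarith)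
    (X1 := XS (AS cl t) gk dk (roS θ y t a) (rrS θ y Cm t a) Hr n0 (ThS Cm M' t)⁻¹)
    (x1.trans (mul_le_mul_of_nonneg_right k25 (p _))) hX20
    (x2.trans (mul_le_mul_of_nonneg_right k25 (p _))) hA0
    (mul_le_mul_of_nonneg_right (by rw [hK2]; linarith) (p _)) hmb0
    (hmb.trans (by nlinarith [p (-(4 * y))])) hTi0
    (hTi.trans (mul_le_mul_of_nonneg_right (by
      have : K1 ≤ K1 ^ 5 := le_self_pow₀ hK11 (by norm_num)
      linarith) (p _))) hL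
  exact this

/-- **near + far** -/
theorem num_kaS {P : Prm} {d ε y gS K0 KX c1 : ℝ} {i m : Fin 4} (hy : 0 < y) (hK0 : 0 ≤ K0)
    (hKX : 0 ≤ KX) (hc1 : 0 ≤ c1) (hD0 : 0 ≤ P.θ * (P.Cc m - P.gc m))
    (hD : P.θ * P.gc m + 2 * ((1 + ε) * (P.θ * P.g i)) ≤
      P.θ * (P.Cc m - P.gc m) + 2 * clx P d i)
    (hgS : gS ≤ P.θ * P.gc m / 2 - clx P d i - 8 * y) (Kl k0 : ℕ) :
    ∃ K : ℝ, 1 ≤ K ∧ ∀ t, 0 < t → t ≤ 1 → ∀ X, 0 ≤ X →
      X ≤ KX * t ^ (P.θ * P.gc m / 2 - clx P d i - 4 * y) →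
      kaS P d ε i m t (t ^ (-(4 * y))) Kl (k0 + lev c1 t) (lev (P.θ * (P.Cc m - P.gc m)) t) K0 X ≤
        K * t ^ gS := by
  set γ := P.θ * P.gc m with hγd
  set D := P.θ * (P.Cc m - P.gc m) with hDd
  set cl := clx P d i with hcl
  set la := (1 + ε) * (P.θ * P.g i) with hla
  obtain ⟨L1, hL1, h1⟩ := lev_pow hc1 (s := y) hy
  obtain ⟨L2, hL2, h2⟩ := lev_pow hD0 (s := y) hy
  set K : ℝ := ((k0 : ℝ) + L1 + L2) * (2 ^ 12 * 10 ^ 6 * 25) +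
    (Kl : ℝ) ^ 2 * (K0 * KX) * (1 + 2 ^ 7 * 9) with hK
  have hk00 : (0 : ℝ) ≤ k0 := Nat.cast_nonneg _
  refine ⟨K, ?_, ?_⟩
  · have : 0 ≤ (Kl : ℝ) ^ 2 * (K0 * KX) * (1 + 2 ^ 7 * 9) := by positivity
    rw [hK]
    nlinarith
  intro t ht ht1 X hX0 hX
  have p : ∀ s : ℝ, 0 ≤ t ^ s := fun s => (pw_pos ht s).le
  have q1 : (((k0 + lev c1 t : ℕ) : ℝ) + 1 + (lev D t : ℝ)) ≤ ((k0 : ℝ) + L1 + L2) * t ^ (-y) := by
    have a1 := h1 t ht ht1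
    have a2 := h2 t ht ht1
    have a3 := one_le_pw ht ht1 hy.le
    push_cast
    nlinarith
  have hai : aiS P d i t ^ 2 = 16 * t ^ (-(2 * cl)) := by
    unfold aiS
    rw [mul_pow, sq (t ^ _), pw_add ht, show -clx P d i + -clx P d i = -(2 * cl) by rw [hcl]; ring]
    norm_num
  have hLa : LaC P ε i t ^ 2 = 621432 ^ 2 * t ^ (-(2 * la)) := by
    unfold LaC
    rw [mul_pow, sq (t ^ _), pw_add ht]
    congr 2
    ring
  have q2 : Real.sqrt (3 * gkS P m t * aiS P d i t ^ 2 +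
      dkS P m t * (LaC P ε i t ^ 2 * 1 ^ 2)) ≤ 10 ^ 6 * t ^ (γ / 2 - cl) := by
    refine Real.sqrt_le_iff.2 ⟨mul_nonneg (by norm_num) (p _), ?_⟩
    rw [hai, hLa]
    unfold gkS dkS
    rw [← hγd, ← hDd]
    have e1 : 3 * (3 * t ^ γ) * (16 * t ^ (-(2 * cl))) = 144 * t ^ (γ - 2 * cl) := by
      calc _ = 144 * (t ^ γ * t ^ (-(2 * cl))) := by ring
        _ = _ := by rw [pw_add ht]; congr 2
    have e2 : 2 * t ^ D * (621432 ^ 2 * t ^ (-(2 * la)) * 1 ^ 2) =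
        2 * 621432 ^ 2 * t ^ (D - 2 * la) := by
      calc _ = 2 * 621432 ^ 2 * (t ^ D * t ^ (-(2 * la))) := by ring
        _ = _ := by rw [pw_add ht]; congr 2
    have e3 : (10 ^ 6 * t ^ (γ / 2 - cl)) ^ 2 = 10 ^ 12 * t ^ (γ - 2 * cl) := by
      rw [mul_pow, sq (t ^ _), pw_add ht,
        show γ / 2 - cl + (γ / 2 - cl) = γ - 2 * cl by ring]
      norm_num
    rw [e1, e2, e3]
    have e4 : t ^ (D - 2 * la) ≤ t ^ (γ - 2 * cl) := pw_le ht ht1 (by linarith)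
    have e5 := p (γ - 2 * cl)
    nlinarith
  have n1 : (((k0 + lev c1 t : ℕ) : ℝ) + 1 + (lev D t : ℝ)) * (2 ^ 12 * Real.sqrt (3 * gkS P m t *
      aiS P d i t ^ 2 + dkS P m t * (LaC P ε i t ^ 2 * 1 ^ 2)) * 5 * 5) ≤
      ((k0 : ℝ) + L1 + L2) * (2 ^ 12 * 10 ^ 6 * 25) * t ^ gS := by
    calc _ ≤ (((k0 : ℝ) + L1 + L2) * t ^ (-y)) * (2 ^ 12 * (10 ^ 6 * t ^ (γ / 2 - cl)) * 5 * 5) := by
          refine mul_le_mul q1 ?_ (by positivity) (mul_nonneg (by linarith) (p _))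
          linarith
      _ = ((k0 : ℝ) + L1 + L2) * (2 ^ 12 * 10 ^ 6 * 25) * (t ^ (-y) * t ^ (γ / 2 - cl)) := by ring
      _ ≤ _ := by
          rw [pw_add ht]
          exact mul_le_mul_of_nonneg_left (pw_le ht ht1 (by linarith)) (by positivity)
  have n2 : (Kl : ℝ) ^ 2 * (K0 * X) * (1 + t ^ (-(4 * y)) * 2 ^ 7 * 9) ≤
      (Kl : ℝ) ^ 2 * (K0 * KX) * (1 + 2 ^ 7 * 9) * t ^ gS := by
    have a3 := one_le_pw ht ht1 (s := 4 * y) (by linarith)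
    have a4 : 1 + t ^ (-(4 * y)) * 2 ^ 7 * 9 ≤ (1 + 2 ^ 7 * 9) * t ^ (-(4 * y)) := by linarith
    calc _ ≤ (Kl : ℝ) ^ 2 * (K0 * (KX * t ^ (γ / 2 - cl - 4 * y))) *
          ((1 + 2 ^ 7 * 9) * t ^ (-(4 * y))) := by
          refine mul_le_mul (mul_le_mul_of_nonneg_left (mul_le_mul_of_nonneg_left hX hK0)
            (by positivity)) a4 (by positivity) ?_
          have := p (γ / 2 - cl - 4 * y)
          positivity
      _ = (Kl : ℝ) ^ 2 * (K0 * KX) * (1 + 2 ^ 7 * 9) *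
          (t ^ (γ / 2 - cl - 4 * y) * t ^ (-(4 * y))) := by ring
      _ ≤ _ := by
          rw [pw_add ht]
          exact mul_le_mul_of_nonneg_left (pw_le ht ht1 (by linarith)) (by positivity)
  have hfin : K * t ^ gS = ((k0 : ℝ) + L1 + L2) * (2 ^ 12 * 10 ^ 6 * 25) * t ^ gS +
      (Kl : ℝ) ^ 2 * (K0 * KX) * (1 + 2 ^ 7 * 9) * t ^ gS := by
    rw [hK]; ring
  rw [hfin]
  exact add_le_add n1 n2

end

end Crest.Agent.R079.NL112
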