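import Crest.Agent.R079.NM_112
import Crest.Agent.R079.GnE_263
import Crest.Agent.R079.FrN_717
import Crest.Agent.R079.FrZd_360

/-! R079, T7 (helper112): **`InES` AT THE PARAMETERS `parF`**.

* `numZ` : the cap `ThS` of all sizes (`SKZ`);
* **`inES_parF`** : `InES` from 263's error half, 360's five words and 717's frame data. -/

set_option autoImplicit false
set_option linter.unusedVariables false

namespace Crest.Agent.R079.NN112

open Finset Crest.Agent.R079.Grid Crest.Agent.R079.Growth Crest.Agent.R079.QRed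
  Crest.Agent.R079.TWin
open Crest.Agent.R079.RelW653 (vl NMP Jv Dv)
open Crest.Agent.R079.RelV653 Crest.Agent.R079.HWx323 Crest.Agent.R079.Chn110
open Crest.Agent.R079.TRec Crest.Agent.R079.T6bx252 Crest.Agent.R079.Tailx726 Crest.Agent.R079.Stk
  Crest.Agent.R079.AsmA844
open Crest.Agent.R079.GnMx45 (en en_nonneg)
open Crest.Agent.R079.FLDx263 Crest.Agent.R079.GnSx263 Crest.Agent.R079.GnNx263
  Crest.Agent.R079.PFx263 Crest.Agent.R079.GaDx571 Crest.Agent.R079.GaFx371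
  Crest.Agent.R079.WS112 Crest.Agent.R079.WS0112 Crest.Agent.R079.POx263
  Crest.Agent.R079.OpS276 Crest.Agent.R079.GnUx263 Crest.Agent.R079.SbWx795
open Crest.Agent.R079.NJ112 Crest.Agent.R079.NL112 Crest.Agent.R079.GaQx571
  Crest.Agent.R079.NumS112 Crest.Agent.R079.SKx261 Crest.Agent.R079.FrZx360
open Crest.Agent.R079.ErOx255 (PsX)
open Crest.Agent.R079.GnEx263 (topx errF parF_rpos parF_mono)

/-- **the cap of all sizes** -/
theorem numZ {P : Prm} {ε : ℝ} {i m : Fin 4} {cl y Cm M' t : ℝ} {Kl : ℕ} (hθ : 0 ≤ P.θ)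
    (hγ : 0 ≤ P.θ * P.gc m) (hD : 0 ≤ P.θ * (P.Cc m - P.gc m)) (hcl : 0 ≤ cl)
    (hxf : 0 ≤ xxC P i + ffC P i) (hla : 0 ≤ (1 + ε) * (P.θ * P.g i)) (hy : 0 ≤ y) (hCm : 1 ≤ Cm)
    (hM' : 2 * cl + y * Kl + 2 * P.θ + 5 * y + (xxC P i + ffC P i) + (1 + ε) * (P.θ * P.g i) ≤ M')
    (ht : 0 < t) (ht1 : t ≤ 1) {a : ℕ} (ha : a < Kl) :
    SKZ (ThS Cm M' t) (AS cl t) (gkS P m t) (dkS P m t) (5 ^ 2) 0 (roS P.θ y t a)
      (rrS P.θ y Cm t a) (HrS P i t) 0 (t ^ (-(4 * y))) (hoS P ε i t) := by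
  have p : ∀ s : ℝ, 0 ≤ t ^ s := fun s => (pw_pos ht s).le
  have hCm0 : 0 < Cm := by linarith
  have hyK : 0 ≤ y * (Kl : ℝ) := mul_nonneg hy (Nat.cast_nonneg _)
  have hya : 0 ≤ y * (a : ℝ) := mul_nonneg hy (Nat.cast_nonneg _)
  have haK : y * (a : ℝ) ≤ y * Kl := mul_le_mul_of_nonneg_left (by exact_mod_cast ha.le) hy
  have hM0 : 0 ≤ M' := by linarith
  have h1 : 1 ≤ t ^ (-M') := one_le_pw ht ht1 hM0
  -- the comparison
  have cmp : ∀ (c s : ℝ), 0 ≤ c → c ≤ 1300000 + Cm → -M' ≤ s → c * t ^ s ≤ ThS Cm M' t := by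
    intro c s hc hc' hs
    unfold ThS
    exact mul_le_mul hc' (pw_le ht ht1 hs) (p _) (by linarith)
  have cst : ∀ c : ℝ, 0 ≤ c → c ≤ 1300000 + Cm → c ≤ ThS Cm M' t := by
    intro c hc hc'
    have := cmp c 0 hc hc' (by linarith)
    rwa [Real.rpow_zero, mul_one] at this
  refine ⟨cst 1 (by norm_num) (by linarith), cmp 25 _ (by norm_num) (by linarith) (by linarith),
    cmp 3 _ (by norm_num) (by linarith) (by linarith),
    cmp 2 _ (by norm_num) (by linarith) (by linarith), cst _ (by norm_num) (by linarith),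
    cst 0 le_rfl (by linarith), cmp _ _ (by norm_num) (by linarith) (by linarith), ?_, ?_,
    cst 0 le_rfl (by linarith), ?_, ?_⟩
  · exact (rr_inv (θ := P.θ) (y := y) hy hCm0 ht ht1 a).2.trans
      (cmp Cm _ hCm0.le (by linarith) (by linarith))
  · unfold HrS
    rw [HH_eq P i ht]
    have := cmp 3456 (-(xxC P i + ffC P i)) (by norm_num) (by linarith) (by linarith)
    linarith
  · have := cmp 1 (-(4 * y)) (by norm_num) (by linarith) (by linarith)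
    rwa [one_mul] at this
  · unfold hoS
    rw [HH_eq P i ht]
    have e1 : Real.sqrt (3 * t ^ (-(xxC P i + ffC P i))) ≤ 2 * t ^ (-(xxC P i + ffC P i)) := by
      refine Real.sqrt_le_iff.2 ⟨mul_nonneg (by norm_num) (p _), ?_⟩
      have a1 : 1 ≤ t ^ (-(xxC P i + ffC P i)) := one_le_pw ht ht1 hxf
      nlinarith
    have e2 : 0 ≤ LaC P ε i t := (LaC_pos P ε i ht).le
    calc _ ≤ 2 * t ^ (-(xxC P i + ffC P i)) * LaC P ε i t := mul_le_mul_of_nonneg_right e1 e2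
      _ = 1242864 * (t ^ (-(xxC P i + ffC P i)) * t ^ (-((1 + ε) * (P.θ * P.g i)))) := by
          unfold LaC; ring
      _ = 1242864 * t ^ (-(xxC P i + ffC P i) + -((1 + ε) * (P.θ * P.g i))) := by rw [pw_add ht]
      _ ≤ _ := cmp _ _ (by norm_num) (by linarith) (by linarith)

/-- the five words are monotone in the number -/
lemma swd_mono {bb : ℤ} {E : ℕ → ℤ → ℂ} {F : Fin 4 → Fn} {xy : Fin 2 → Fin 4} {Z : Fin 2 → Fn}
    {f : Fin 2 → Nd → Fn} {Psi : Fin 2 → Nd → Fn} {W' : Nd → Finset Nd} {κ κ' : ℝ} {w : Nd}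
    (h : κ ≤ κ') (hs : SWd bb E F xy Z f Psi W' κ w) : SWd bb E F xy Z f Psi W' κ' w := by
  have hm : κ * len w ≤ κ' * len w := mul_le_mul_of_nonneg_right h (Growth.len_pos w).le
  obtain ⟨a1, a2, a3, a4, a5⟩ := hs
  exact ⟨a1.trans hm, a2.trans hm, a3.trans hm, a4.trans hm, a5.trans hm⟩

set_option maxHeartbeats 1000000 in
/-- **`InES` AT `parF`** -/
theorem inES_parF : ∃ κ0 : ℕ, ∀ {P : Prm} {d ε k : ℝ} (q3 : ℝ) {i m : Fin 4} (e e' : Fin 4)
    {c1 y gS : ℝ} {k0 Kl : ℕ}, Ok0 P → 0 ≤ k → m ≠ 3 → P.gc m ≤ P.Cc m → 0 ≤ P.θ →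
    0 < P.θ * P.gc m → 0 ≤ clx P d i → 0 ≤ xxC P i + ffC P i → 0 ≤ (1 + ε) * (P.θ * P.g i) →
    0 < c1 → 0 < y → 9 * y < c1 → 9 ≤ k0 → κ0 + 4 ≤ k0 →
    2 * P.θ + topx P i + 1 ≤ ((Kl : ℝ) - 1) * y →
    4 * clx P d i + (xxC P i + ffC P i) + 4 * P.θ + 2 * (P.θ * P.gc m) ≤
      P.θ * (P.Cc m - P.gc m) →
    P.θ * P.gc m + 2 * ((1 + ε) * (P.θ * P.g i)) ≤ P.θ * (P.Cc m - P.gc m) + 2 * clx P d i →
    gS ≤ P.θ * P.gc m / 2 - clx P d i - 8 * y →
    ∃ t0 K Ko : ℝ, 0 < t0 ∧ t0 ≤ 1 ∧ 1 ≤ K ∧ 1 ≤ Ko ∧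
      InES P d ε k q3 i m e e' c1 gS t0 K
        (parF P c1 y k0 Kl (P.θ * (P.Cc m - P.gc m)) Ko) := by
  obtain ⟨K0, hK0, κ0, hswd⟩ := swd_su
  refine ⟨κ0, ?_⟩
  intro P d ε k q3 i m e e' c1 y gS k0 Kl hP hk hm3 hgC hθ hγ hcl hxf hla hc1 hy h9 hk0 hκ hKl hD1
    hD2 hgS
  set γ := P.θ * P.gc m with hγd
  set D := P.θ * (P.Cc m - P.gc m) with hDd
  set cl := clx P d i with hcld
  set la := (1 + ε) * (P.θ * P.g i) with hlad
  have hD0 : 0 ≤ D := mul_nonneg hθ (by linarith)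
  obtain ⟨Ko, hKo1, herr⟩ := errF P d ε hk q3 i m e e' hc1.le hy.le hk0 Kl hKl
  set p := parF P c1 y k0 Kl D Ko with hp
  set Cm : ℝ := (2 ^ 9 + 1) * 2 ^ 7 * (2 ^ (k0 + 3)) ^ 2 with hCm
  have hCm1 : 1 ≤ Cm := by
    have : (1 : ℝ) ≤ (2 ^ (k0 + 3)) ^ 2 := one_le_pow₀ (one_le_pow₀ (by norm_num))
    rw [hCm]; linarith
  have hCm0 : 0 < Cm := by linarith
  have hyK : 0 ≤ y * (Kl : ℝ) := mul_nonneg hy.le (Nat.cast_nonneg _)
  set M' : ℝ := 2 * γ + 2 * cl + y * Kl + 2 * P.θ + 5 * y + (xxC P i + ffC P i) + la with hM'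
  obtain ⟨KX, hKX1, hgX⟩ := num_gX (γ := γ) (D := D) (cl := cl) (xf := xxC P i + ffC P i)
    (θ := P.θ) (y := y) (Cm := Cm) (M' := M') hγ hcl hy hCm1 hD1 (by linarith)
  obtain ⟨K, hK1, hka⟩ := num_kaS (P := P) (d := d) (ε := ε) (y := y) (gS := gS) (K0 := K0)
    (KX := KX) (i := i) (m := m) (c1 := c1) hy hK0 (by linarith) hc1.le hD0 hD2 hgS Kl k0
  -- small parameters
  have hc9 : 0 < c1 - 9 * y := by linarith
  have hKo0 : 0 < Ko := by linarith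
  set tt : ℝ := (1 / Ko) ^ (1 / (c1 - 9 * y)) with htt
  have htt0 : 0 < tt := Real.rpow_pos_of_pos (by positivity) _
  refine ⟨min (1 / 700) tt, K, Ko, lt_min (by norm_num) htt0,
    (min_le_left _ _).trans (by norm_num), hK1, hKo1, ?_⟩
  intro N B t W I F xy bb E R J Z v n T g al mu es hS ht0
  have ht := hS.t0
  have ht7 : t ≤ 1 / 700 := ht0.trans (min_le_left _ _)
  have ht1 : t ≤ 1 := ht7.trans (by norm_num)
  have hc0 : 0 < t ^ c1 := pw_pos ht c1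
  have hom : p.om t * t ^ c1 ≤ 1 := by
    show Ko * t ^ (-(9 * y)) * t ^ c1 ≤ 1
    rw [mul_assoc, pw_add ht, show -(9 * y) + c1 = c1 - 9 * y by ring]
    have e1 : t ^ (c1 - 9 * y) ≤ tt ^ (c1 - 9 * y) :=
      Real.rpow_le_rpow ht.le (ht0.trans (min_le_right _ _)) hc9.le
    have e2 : tt ^ (c1 - 9 * y) = 1 / Ko := by
      rw [htt, ← Real.rpow_mul (by positivity), one_div_mul_cancel hc9.ne', Real.rpow_one]
    calc Ko * t ^ (c1 - 9 * y) ≤ Ko * (1 / Ko) := by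
          rw [← e2]; exact mul_le_mul_of_nonneg_left e1 hKo0.le
      _ = 1 := by field_simp
  refine ⟨t ^ c1, hc0, fun η hη hηη f hf => ?_⟩
  have hη1 : η ≤ 1 := hηη.trans (Real.rpow_le_one ht.le ht1 hc1.le)
  have hE := herr Ko le_rfl D hS ht7 η hηη f hf
  refine ⟨PsX i T g mu I (LaC P ε i t) (p.kap t) (p.kc t) (p.Kl t) (p.r t) es f
    (VG R (PhiC P ε i T g mu I t (p.kap t) (p.kc t) (p.Kl t) (p.r t) es) Z η f (t ^ c1)) p.k0
    (p.j0 t) (p.n0 t), hE, fun w hw => ?_⟩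
  have hkap : 0 ≤ p.kap t := (pw_pos ht _).le
  have hjk : k0 ≤ p.j0 t := Nat.le_add_right _ _
  have hErG : ErG R (PhiC P ε i T g mu I t (p.kap t) (p.kc t) (p.Kl t) (p.r t) es) Z η f (t ^ c1)
      (PsX i T g mu I (LaC P ε i t) (p.kap t) (p.kc t) (p.Kl t) (p.r t) es f
        (VG R (PhiC P ε i T g mu I t (p.kap t) (p.kc t) (p.Kl t) (p.r t) es) Z η f (t ^ c1)) p.k0
        (p.j0 t) (p.n0 t)) w w ≤ 1 := by
    refine ek_top ?_
    have h1 := hE w hw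
    have hl := (Growth.len_pos w).le
    have h2 : (1 : ℝ) ≤ 2 ^ (p.k0 + 3) := one_le_pow₀ (by norm_num)
    have h3 : 0 ≤ ∑ c', len w * av w (ek Z f (VG R
          (PhiC P ε i T g mu I t (p.kap t) (p.kc t) (p.Kl t) (p.r t) es) Z η f (t ^ c1))
          (PsX i T g mu I (LaC P ε i t) (p.kap t) (p.kc t) (p.Kl t) (p.r t) es f
            (VG R (PhiC P ε i T g mu I t (p.kap t) (p.kc t) (p.Kl t) (p.r t) es) Z η f (t ^ c1))
            p.k0 (p.j0 t) (p.n0 t)) c' w) ^ 2 :=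
      Finset.sum_nonneg fun c' _ => mul_nonneg hl (sq_nonneg _)
    have h4 : p.om t * t ^ c1 * len w ≤ 1 * len w := mul_le_mul_of_nonneg_right hom hl
    nlinarith
  -- the gain of all steps
  set X : ℝ := KX * t ^ (γ / 2 - cl - 4 * y) with hX
  have hX0 : 0 ≤ X := mul_nonneg (by linarith) (pw_pos ht _).le
  have hHrHH : HrS P i t = 2 ^ 7 * 9 * (HfC P i t * HtC P i t) := rfl
  have key := hswd hS hP hk hm3 hgC ht1 hkap hc0 hη1 hom
    (kc := p.kc t) (Kl := p.Kl t) (k0 := p.k0) (j0 := p.j0 t) (n0 := p.n0 t) (r := p.r t)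
    (fun q => (parF_rpos ht q).le) (by show 1 ≤ k0; omega) hjk hf rfl
    (Psi := PsX i T g mu I (LaC P ε i t) (p.kap t) (p.kc t) (p.Kl t) (p.r t) es f
      (VG R (PhiC P ε i T g mu I t (p.kap t) (p.kc t) (p.Kl t) (p.r t) es) Z η f (t ^ c1)) p.k0
      (p.j0 t) (p.n0 t)) rfl rfl hw hErG
    (Θ := ThS Cm M' t) (X := X) (ρ := fun a => roS P.θ y t a) (rr := fun a => rrS P.θ y Cm t a)
    (Hr := fun _ => HrS P i t) (A := AS cl t) hX0 (mul_nonneg (by norm_num) (pw_pos ht _).le)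
    ?_ ?_ ?_ ?_ ?_
  · refine swd_mono ?_ key
    exact hka t ht ht1 X hX0 le_rfl
  · -- `aiS ^ 2 ≤ A`
    unfold aiS AS
    rw [mul_pow, sq (t ^ _), pw_add ht, show -clx P d i + -clx P d i = -(2 * cl) by rw [hcld]; ring]
    have := (pw_pos ht (-(2 * cl))).le
    nlinarith
  · unfold AS
    have := one_le_pw ht ht1 (s := 2 * cl) (by linarith)
    linarith
  · -- the frame data
    intro c q hq a ha
    refine FrNx717.fcx_su (Psi := PsX i T g mu I (LaC P ε i t) (p.kap t) (p.kc t) (p.Kl t) (p.r t)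
      es f (VG R (PhiC P ε i T g mu I t (p.kap t) (p.kc t) (p.Kl t) (p.r t) es) Z η f (t ^ c1))
      p.k0 (p.j0 t) (p.n0 t)) hS hk hkap (fun q => parF_rpos ht q)
      (fun q => parF_mono ht ht1 hy.le q) hη1 hk0 hjk (by omega) hf rfl rfl hw c hq
      (rrS_pos hCm0 ht a) ?_ le_rfl
    -- the domination constant
    unfold FrMx717.cM
    rw [← hCm, parF_step ht a]
    show Cm * (t ^ (-y) * t ^ (2 * P.θ - y * (a : ℝ))) / (t ^ (2 * P.θ - y * (a : ℝ))) ^ 2 ≤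
      (rrS P.θ y Cm t a)⁻¹
    unfold rrS
    have p1 := pw_pos ht (2 * P.θ - y * (a : ℝ))
    have p2 := pw_pos ht y
    rw [Real.rpow_neg ht.le]
    refine le_of_eq ?_
    field_simp
  · intro a ha
    have hM2 : 2 * cl + y * Kl + 2 * P.θ + 5 * y + (xxC P i + ffC P i) +
        (1 + ε) * (P.θ * P.g i) ≤ M' := by
      rw [hM', ← hlad]
      linarith
    exact numZ (m := m) (cl := cl) (y := y) (Cm := Cm) (M' := M') (Kl := Kl) hθ hγ.le hD0 hcl hxf hla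
      hy.le hCm1 hM2 ht ht1 ha
  · intro a ha
    refine hgX t ht ht1 (p.n0 t) (gkS P m t) (dkS P m t) (p.kap t) (HrS P i t) (lev_le hD0 ht ht1)
      ?_ le_rfl ?_ le_rfl hkap le_rfl ?_ ?_ a
    · exact mul_nonneg (by norm_num) (pw_pos ht _).le
    · exact mul_nonneg (by norm_num) (pw_pos ht _).le
    · unfold HrS
      have := HfC_pos P i ht
      have := HtC_pos P i ht
      positivity
    · unfold HrS
      rw [HH_eq P i ht]
      linarith

end Crest.Agent.R079.NN112
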