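import Crest.Agent.R079.NN_112

/-! R079, T7 (helper112): **`ESF` FOR THE FINAL PARAMETERS AND `S0106`**.

`c1 ≤ θ gc_m / 24`, `9 y ≤ c1 / 2`, `C ≥ 2 x + 75`, `ρ ≤ 1 / 8`, `k0 = max 9 (κ0 + 4)`. -/

set_option autoImplicit false

namespace Crest.Agent.R079.NP112

open Finset Crest.Agent.R079.Grid Crest.Agent.R079.Growth Crest.Agent.R079.QRed
  Crest.Agent.R079.TWin
open Crest.Agent.R079.TRec Crest.Agent.R079.T6bx252
open Crest.Agent.R079.WS112 Crest.Agent.R079.WS0112 Crest.Agent.R079.POx263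
  Crest.Agent.R079.OpS276 Crest.Agent.R079.GnUx263
open Crest.Agent.R079.NJ112 Crest.Agent.R079.NL112 Crest.Agent.R079.NN112
open Crest.Agent.R079.GnEx263 (topx)

/-- **`ESF` for `PF`** -/
theorem esf_PF {x C ρ c : ℝ} (h : Adm4 x C ρ c) (hC : 2 * x + 75 ≤ C) (q3 : ℝ) :
    ESF (PF x C ρ c) q3 (dF C ρ c) := by
  obtain ⟨κ0, hI⟩ := inES_parF
  intro i m e e' hdd hmi hi3
  have hθ := θ_pos h
  have hx := h.x0
  have hC6 := h.C0
  have hgm : 0 < (PF x C ρ c).gc m := gc_pos h m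
  have hgm1 : (PF x C ρ c).gc m ≤ 1 := gc_le h m
  have hgi : 0 < (PF x C ρ c).gc i := gc_pos h i
  have hgi1 : (PF x C ρ c).gc i ≤ 1 := gc_le h i
  have hcl := clx_le h hmi hi3
  have hd0 := dF_pos h
  have hρ1 := h.ρ1
  set P := PF x C ρ c with hP
  set θ := P.θ with hθd
  set γ := θ * P.gc m with hγ
  have hγ0 : 0 < γ := mul_pos hθ hgm
  have hγθ : γ ≤ θ := by
    rw [hγ]; nlinarith
  set cl := clx P (dF C ρ c) i with hcld
  have hcl0 : 0 ≤ cl := by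
    have : 0 < θ * P.gc i := mul_pos hθ hgi
    show 0 ≤ 2 * (P.θ * P.gc i) + dF C ρ c
    linarith
  have hclγ : cl ≤ 3 / 8 * γ := hcl.trans (mul_le_mul_of_nonneg_right (by linarith) hγ0.le)
  have hm3 : m ≠ 3 := by
    intro hm
    subst hm
    have : (3 : Fin 4) < i := hmi
    revert this
    fin_cases i <;> decide
  have hxf : xxC P i + ffC P i = θ * (2 * x + 56) := by
    show 2 * (P.θ * (x + 2 * 1 + 12 * 1)) + 2 * (P.θ * (2 * 1 + 12 * 1)) = _
    rw [← hθd]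
    ring
  have hxf0 : 0 ≤ xxC P i + ffC P i := by
    rw [hxf]
    exact mul_nonneg hθ.le (by linarith)
  have hgP : P.g i = 1 := rfl
  have hCc : P.Cc m = C := rfl
  have hgC : P.gc m ≤ P.Cc m := by rw [hCc]; linarith
  have hDge : θ * (C - 1) ≤ θ * (P.Cc m - P.gc m) := by
    rw [hCc]
    exact mul_le_mul_of_nonneg_left (by linarith) hθ.le
  have hC75 : θ * (2 * x + 74) ≤ θ * (C - 1) := mul_le_mul_of_nonneg_left (by linarith) hθ.le
  have hC5 : θ * 5 ≤ θ * (C - 1) := mul_le_mul_of_nonneg_left (by linarith) hθ.le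
  refine ⟨γ / 24, by positivity, fun c1 hc1 hc1m => ⟨9, c1 / 18, by norm_num, by positivity,
    fun y hy hyy => ⟨1, one_pos, fun ε hε hεε => ⟨1, one_pos, fun k hk hkk => ?_⟩⟩⟩⟩
  set k0 : ℕ := max 9 (κ0 + 4) with hk0
  set Kl : ℕ := ⌈(2 * P.θ + topx P i + 1) / y⌉₊ + 1 with hKl
  have hKly : 2 * P.θ + topx P i + 1 ≤ ((Kl : ℝ) - 1) * y := by
    have h1 := Nat.le_ceil ((2 * P.θ + topx P i + 1) / y)
    have h2 : ((Kl : ℝ) - 1) = (⌈(2 * P.θ + topx P i + 1) / y⌉₊ : ℝ) := by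
      rw [hKl]; push_cast; ring
    rw [h2]
    rwa [div_le_iff₀ hy] at h1
  have hla : (1 + ε) * (P.θ * P.g i) = (1 + ε) * θ := by rw [hgP, mul_one]
  have hla0 : 0 ≤ (1 + ε) * (P.θ * P.g i) := by
    rw [hla]; positivity
  have hla2 : (1 + ε) * (P.θ * P.g i) ≤ 2 * θ := by
    rw [hla]
    exact mul_le_mul_of_nonneg_right (by linarith) hθ.le
  obtain ⟨t0, K, Ko, ht0, ht01, hK, hKo, hES⟩ := hI (P := P) (d := dF C ρ c) (ε := ε) (k := k) q3
    (i := i) (m := m) e e' (c1 := c1) (y := y) (gS := 2 * c1 + y) (k0 := k0) (Kl := Kl)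
    (ok_PF h) hk.le hm3 hgC hθ.le hγ0 hcl0 hxf0 hla0 hc1 hy (by linarith) (le_max_left _ _)
    (le_max_right _ _) hKly
    (by
      rw [hxf]
      have : 4 * cl + θ * (2 * x + 56) + 4 * P.θ + 2 * (P.θ * P.gc m) ≤ θ * (2 * x + 74) := by
        rw [← hθd, ← hγ]
        nlinarith
      linarith)
    (by
      rw [← hθd, ← hγ] at *
      linarith)
    (by
      rw [← hθd, ← hγ]
      linarith)
  refine ⟨t0, max K Ko, parF P c1 y k0 Kl (P.θ * (P.Cc m - P.gc m)) Ko, 7, ht0, ht01,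
    le_max_of_le_left hK, parF_ok (le_trans (by norm_num) (le_max_left _ _)) (by linarith),
    fun t => rfl, fun t _ _ => rfl, fun t _ _ => Nat.succ_pos _, fun t _ _ => parF_r0,
    fun t ht _ => ?_, inES_mono (le_max_left _ _) hES⟩
  exact mul_le_mul_of_nonneg_right (le_max_right _ _) (Real.rpow_nonneg ht.le _)

/-- **THE TARGET** -/
theorem target_closed : L0.Target := by
  refine target_of_ESF ⟨1, fun x hx => ⟨1 / 8, by norm_num, fun ρ hρ hρρ => ⟨1, one_pos,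
    fun c hc hcc => ⟨2 * x + 75, fun C hC q3 hq3 hA => esf_PF hA hC q3⟩⟩⟩⟩

end Crest.Agent.R079.NP112
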