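import Crest.Agent.R079.NodeB_254
import Crest.Agent.R079.NCol_37
import Crest.Agent.R079.AsmA_844
import Crest.Agent.R079.AdjT_69

/-! R079, Step I (helper254): THE ONE-NODE GAIN in the `v4` form (adjacent nodes, bottom nodes).

* `v4_node`     : `‖v4 X Y p‖ ≤ 2^12 √(3 g A² + δ H²) |X|_p |Y|_p len p` at EVERY node `p` of the region
  (frozen letter `|P|_p ≤ A`, `|P| ≤ H`; killer non-collided, `NCol W R g δ`, `|R|_p ≤ 1`);
* `v4_node_num` : the same with powers of `t`;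
* `adj_word`    : summed over the adjacent nodes of all windows. -/

set_option autoImplicit false

namespace Crest.Agent.R079.NodeVx254

open Finset Crest.Agent.R079.Grid Crest.Agent.R079.Growth Crest.Agent.R079.QRed
open Crest.Agent.R079.TRec Crest.Agent.R079.AsmA844 Crest.Agent.R079.NC237
open Crest.Agent.R079.F2

/-- **ONE NODE**, `v4` form -/
theorem v4_node {i m x y : Fin 4} (him : i ≠ m) (hO : Oth i m x y) {bb : ℤ} {ε : ℕ → ℤ → ℂ}
    (hAd : Adm bb ε) {W : Finset Nd} {p : Nd} (hp : p ∈ W) (F : Fin 4 → Fn) (X Y : Fn)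
    {A H g δ : ℝ} (hg : 0 ≤ g) (hδ : 0 ≤ δ) (hH : 0 ≤ H) (hP : av p (F i) ≤ A)
    (hPH : ∀ z ∈ iv p, ‖F i z‖ ≤ H) (hR : av p (F m) ≤ 1) (hn : NCol W (F m) g δ) :
    ‖v4 bb ε F x y X Y p‖ ≤
      2 ^ 12 * Real.sqrt (3 * g * A ^ 2 + δ * H ^ 2) * av p X * av p Y * len p := by
  have hD : Dst i m x y := ⟨him, hO.ai.symm, hO.bi.symm, hO.am.symm, hO.bm.symm, hO.ab⟩
  set F' : Fin 4 → Fn := Function.update (Function.update F x X) y Y with hF'
  have ei : F' i = F i := by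
    rw [hF', Function.update_of_ne hO.bi.symm, Function.update_of_ne hO.ai.symm]
  have em : F' m = F m := by
    rw [hF', Function.update_of_ne hO.bm.symm, Function.update_of_ne hO.am.symm]
  have ex : F' x = X := by
    rw [hF', Function.update_of_ne hO.ab, Function.update_self]
  have ey : F' y = Y := by rw [hF', Function.update_self]
  have h2 : ∀ f : Fn, ∀ C : ℝ, av p f ≤ C → ∑ z ∈ iv p, ‖f z‖ ^ 2 ≤ C ^ 2 * len p := fun f C h =>
    Leaf259.sum2_of_av h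
  have hR' : ∑ z ∈ iv p, ‖F' m z‖ ^ 2 ≤ 1 * len p := by
    rw [em]
    simpa using h2 (F m) 1 hR
  have h1 := NodeBx254.node_nc hD p hAd.1 F' hH hg (sq_nonneg A) zero_le_one hδ
    (by rw [ei]; exact h2 (F i) A hP) (by rw [ei]; exact hPH) hR'
    (by rw [em]; exact nc2_of_ncol hn hp hp rfl)
  rw [ex, ey, mul_one] at h1
  refine le_trans ?_ h1
  unfold v4 TI
  refine (norm_sum_le _ _).trans (Finset.sum_le_sum fun z _ => ?_)
  rw [norm_mul]
  calc ‖ε p.1 z‖ * ‖Lbox (2 ^ p.1) bb F' z‖ ≤ 1 * ‖Lbox (2 ^ p.1) bb F' z‖ :=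
        mul_le_mul_of_nonneg_right (hAd.2 _ _) (norm_nonneg _)
    _ = _ := one_mul _

/-- the same with powers of `t` -/
theorem v4_node_num {i m x y : Fin 4} (him : i ≠ m) (hO : Oth i m x y) {bb : ℤ} {ε : ℕ → ℤ → ℂ}
    (hAd : Adm bb ε) {W : Finset Nd} {p : Nd} (hp : p ∈ W) (F : Fin 4 → Fn) (X Y : Fn)
    {t K cl h gm dm c : ℝ} (ht : 0 < t) (ht1 : t ≤ 1) (hK : 1 ≤ K)
    (h1 : 2 * c ≤ gm - 2 * cl) (h2 : 2 * c ≤ dm - 2 * h)
    (hP : av p (F i) ≤ K * t ^ (-cl)) (hPH : ∀ z ∈ iv p, ‖F i z‖ ≤ K * t ^ (-h))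
    (hR : av p (F m) ≤ 1) (hn : NCol W (F m) (K * t ^ gm) (K * t ^ dm)) :
    ‖v4 bb ε F x y X Y p‖ ≤ 2 ^ 13 * K ^ 2 * t ^ c * av p X * av p Y * len p := by
  have hK0 : 0 < K := by linarith
  have hr : ∀ a : ℝ, 0 < t ^ a := fun a => Real.rpow_pos_of_pos ht a
  have h3 := v4_node him hO hAd hp F X Y (A := K * t ^ (-cl)) (H := K * t ^ (-h))
    (mul_pos hK0 (hr gm)).le (mul_pos hK0 (hr dm)).le (mul_pos hK0 (hr _)).le hP hPH hR hn
  refine h3.trans ?_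
  have h4 : 3 * (K * t ^ gm) * (K * t ^ (-cl)) ^ 2 + K * t ^ dm * (K * t ^ (-h)) ^ 2 ≤
      (2 * K ^ 2 * t ^ c) ^ 2 := by
    have e1 : 3 * (K * t ^ gm) * (K * t ^ (-cl)) ^ 2 = 3 * K ^ 3 * t ^ (gm - 2 * cl) := by
      have : t ^ (gm - 2 * cl) = t ^ gm * (t ^ (-cl) * t ^ (-cl)) := by
        rw [← Real.rpow_add ht, ← Real.rpow_add ht]; congr 1; ring
      rw [this]; ring
    have e2 : K * t ^ dm * (K * t ^ (-h)) ^ 2 = K ^ 3 * t ^ (dm - 2 * h) := by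
      have : t ^ (dm - 2 * h) = t ^ dm * (t ^ (-h) * t ^ (-h)) := by
        rw [← Real.rpow_add ht, ← Real.rpow_add ht]; congr 1; ring
      rw [this]; ring
    have e3 : (2 * K ^ 2 * t ^ c) ^ 2 = 4 * K ^ 4 * t ^ (2 * c) := by
      have : t ^ (2 * c) = t ^ c * t ^ c := by rw [← Real.rpow_add ht]; congr 1; ring
      rw [this]; ring
    rw [e1, e2, e3]
    have g1 : t ^ (gm - 2 * cl) ≤ t ^ (2 * c) := Real.rpow_le_rpow_of_exponent_ge ht ht1 h1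
    have g2 : t ^ (dm - 2 * h) ≤ t ^ (2 * c) := Real.rpow_le_rpow_of_exponent_ge ht ht1 h2
    have g3 : K ^ 3 ≤ K ^ 4 := pow_le_pow_right₀ hK (by norm_num)
    have g4 : 0 ≤ t ^ (2 * c) := (hr _).le
    have g5 : 0 ≤ K ^ 3 := by positivity
    nlinarith [mul_le_mul_of_nonneg_left g1 (mul_nonneg (by norm_num : (0:ℝ) ≤ 3) g5),
      mul_le_mul_of_nonneg_left g2 g5, mul_le_mul_of_nonneg_right g3 g4]
  have h5 : Real.sqrt (3 * (K * t ^ gm) * (K * t ^ (-cl)) ^ 2 + K * t ^ dm * (K * t ^ (-h)) ^ 2) ≤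
      2 * K ^ 2 * t ^ c :=
    Real.sqrt_le_iff.2 ⟨by have := hr c; positivity, h4⟩
  have hx := Growth.av_nonneg p X
  have hy := Growth.av_nonneg p Y
  have hl := (Growth.len_pos p).le
  have h6 : 2 ^ 12 * Real.sqrt (3 * (K * t ^ gm) * (K * t ^ (-cl)) ^ 2 +
      K * t ^ dm * (K * t ^ (-h)) ^ 2) ≤ 2 ^ 13 * K ^ 2 * t ^ c := by
    have := mul_le_mul_of_nonneg_left h5 (by norm_num : (0:ℝ) ≤ 2 ^ 12)
    linarith
  exact mul_le_mul_of_nonneg_right (mul_le_mul_of_nonneg_right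
    (mul_le_mul_of_nonneg_right h6 hx) hy) hl

/-- the adjacent nodes of all windows, letters depending on the window -/
theorem adj_word {R T : Finset Nd} {C0 : ℕ} {κ s : ℝ} (hκ : 0 ≤ κ) (hs : 0 ≤ s)
    {v : Fn → Fn → Nd → ℂ} (U V : Nd → Fn)
    (hv : ∀ p ∈ R, ∀ X Y : Fn, ‖v X Y p‖ ≤ κ * av p X * av p Y * len p)
    (hU : ∀ Q ∈ T, ∀ p ∈ win R T Q, av p (U Q) ≤ s ∧ av p (V Q) ≤ s)
    [∀ Q, DecidablePred fun p : Nd => SplSx69.Adj C0 Q p] :
    ∑ Q ∈ T, ∑ p ∈ (win R T Q).filter (fun p => SplSx69.Adj C0 Q p), ‖v (U Q) (V Q) p‖ ≤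
      κ * s ^ 2 * (4 * C0) * ∑ Q ∈ T, len Q := by
  rw [Finset.mul_sum]
  refine Finset.sum_le_sum fun Q hQ => ?_
  have h1 : ∀ p ∈ (win R T Q).filter (fun p => SplSx69.Adj C0 Q p),
      ‖v (U Q) (V Q) p‖ ≤ κ * s ^ 2 * len p := by
    intro p hp
    have hp' := (Finset.mem_filter.1 hp).1
    obtain ⟨a1, a2⟩ := hU Q hQ p hp'
    refine (hv p (mem_win.1 hp').1 _ _).trans
      (mul_le_mul_of_nonneg_right ?_ (Growth.len_pos p).le)
    have b1 := Growth.av_nonneg p (U Q)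
    have b2 := Growth.av_nonneg p (V Q)
    calc κ * av p (U Q) * av p (V Q) = κ * (av p (U Q) * av p (V Q)) := by ring
      _ ≤ κ * (s * s) := mul_le_mul_of_nonneg_left (mul_le_mul a1 a2 b2 hs) hκ
      _ = κ * s ^ 2 := by ring
  refine (Finset.sum_le_sum h1).trans ?_
  rw [← Finset.mul_sum]
  calc κ * s ^ 2 * ∑ p ∈ (win R T Q).filter (fun p => SplSx69.Adj C0 Q p), len p ≤
      κ * s ^ 2 * (4 * C0 * len Q) :=
        mul_le_mul_of_nonneg_left (AdjTx69.adj_nodes_len Q C0) (by positivity)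
    _ = _ := by ring

end Crest.Agent.R079.NodeVx254
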