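import Crest.Agent.R079.SKt_69
import Crest.Agent.R079.NodeV_254

/-! R079 (helper254), W5 of msg 9864: near / far nodes of a window.

* `Nr C0 n0 P p`  : near node (adjacent to the ends of `P`, or of level `< n0`);
* `near_sum`      : nonnegative node functions over the near nodes;
* `node_g0`       : ONE node, `Lbox` form, any four letters (killer non-collided, frozen letter bounded);
* `near_word`     : the word over the near nodes of a window, whole letters (`av` bounded on `W`);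
* `sktotF`        : the (S) word over the FAR nodes of a window (no node bound needed). -/

set_option autoImplicit false

namespace Crest.Agent.R079.NodeWx254

open Finset Crest.Agent.R079.Grid Crest.Agent.R079.Growth Crest.Agent.R079.QRed
  Crest.Agent.R079.Qh249 Crest.Agent.R079.QVar181
  Crest.Agent.R079.TWin Crest.Agent.R079.Glue Crest.Agent.R079.SWc360 Crest.Agent.R079.Cel159
  Crest.Agent.R079.SplSx69 Crest.Agent.R079.ThA159 Crest.Agent.R079.SKx261 Crest.Agent.R079.SKtx69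

open Crest.Agent.R079.NC237 (NC2 NCol nc2_of_ncol)
open Crest.Agent.R079.TRec Crest.Agent.R079.AsmA844 Crest.Agent.R079.F2

open scoped ComplexConjugate

/-- near nodes of a window with top `P` -/
def Nr (C0 n0 : ℕ) (P p : Nd) : Prop := Adj C0 P p ∨ p.1 < n0

open Classical in
/-- nonnegative node functions over the near nodes -/
theorem near_sum {W : Finset Nd} {P : Nd} (hW : ∀ p ∈ W, Le p P) (C0 n0 : ℕ) (f : Nd → ℝ)
    (hf : ∀ p ∈ W, 0 ≤ f p) {g0 : ℝ} (hg0 : 0 ≤ g0)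
    (h : ∀ p ∈ W, Nr C0 n0 P p → f p ≤ g0 * 2 ^ (p.1 + 7)) :
    ∑ p ∈ W.filter (fun p => Nr C0 n0 P p), f p ≤ (4 * C0 + n0) * g0 * 2 ^ (P.1 + 7) := by
  set RA := W.filter fun p => Adj C0 P p with hRA
  set RB := W.filter fun p => p.1 < n0 with hRB
  have hRAs : RA ⊆ W := Finset.filter_subset _ _
  have hRBs : RB ⊆ W := Finset.filter_subset _ _
  have hA : ∑ p ∈ RA, f p ≤ (4 * C0) * g0 * 2 ^ (P.1 + 7) := by
    calc ∑ p ∈ RA, f p ≤ ∑ p ∈ RA, g0 * (2 : ℝ) ^ (p.1 + 7) :=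
          Finset.sum_le_sum fun p hp => h p (hRAs hp) (Or.inl (Finset.mem_filter.1 hp).2)
      _ = g0 * ∑ p ∈ RA, (2 : ℝ) ^ (p.1 + 7) := by rw [Finset.mul_sum]
      _ ≤ g0 * (2 * ((2 * C0 : ℕ) : ℝ) * 2 ^ (P.1 + 7)) := by
          refine mul_le_mul_of_nonneg_left ?_ hg0
          exact sum_len_le RA P.1 (2 * C0) (fun p hp => (le_iff.1 (hW p (hRAs hp))).1)
            (adj_card C0 P RA (fun p hp => hW p (hRAs hp)) fun p hp => (Finset.mem_filter.1 hp).2)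
      _ = _ := by push_cast; ring
  have hB : ∑ p ∈ RB, f p ≤ n0 * g0 * 2 ^ (P.1 + 7) := by
    have hm : ∀ p ∈ RB, p.1 ∈ Finset.range n0 := fun p hp =>
      Finset.mem_range.2 (Finset.mem_filter.1 hp).2
    calc ∑ p ∈ RB, f p ≤ ∑ p ∈ RB, g0 * (2 : ℝ) ^ (p.1 + 7) :=
          Finset.sum_le_sum fun p hp => h p (hRBs hp) (Or.inr (Finset.mem_filter.1 hp).2)
      _ = g0 * ∑ p ∈ RB, (2 : ℝ) ^ (p.1 + 7) := by rw [Finset.mul_sum]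
      _ = g0 * ∑ m ∈ Finset.range n0, ∑ p ∈ RB.filter (fun p => p.1 = m), (2 : ℝ) ^ (p.1 + 7) := by
          rw [Finset.sum_fiberwise_of_maps_to hm]
      _ ≤ g0 * ∑ m ∈ Finset.range n0, (2 : ℝ) ^ (P.1 + 7) := by
          refine mul_le_mul_of_nonneg_left (Finset.sum_le_sum fun m _ => ?_) hg0
          exact all_len P RB (fun p hp => hW p (hRBs hp)) m
      _ = _ := by rw [Finset.sum_const, Finset.card_range, nsmul_eq_mul]; ring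
  have e : W.filter (fun p => Nr C0 n0 P p) = RA ∪ RB := by
    ext p
    simp only [hRA, hRB, Finset.mem_union, Finset.mem_filter, Nr]
    tauto
  have hun := Finset.sum_union_inter (s₁ := RA) (s₂ := RB) (f := f)
  have h0 : 0 ≤ ∑ p ∈ RA ∩ RB, f p := Finset.sum_nonneg fun p hp =>
    hf p (hRAs (Finset.mem_inter.1 hp).1)
  rw [e]
  have e2 : (4 * (C0 : ℝ) + n0) * g0 * 2 ^ (P.1 + 7) =
      (4 * C0) * g0 * 2 ^ (P.1 + 7) + n0 * g0 * 2 ^ (P.1 + 7) := by ring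
  rw [e2]
  linarith

/-- **ONE NODE**, `Lbox` form -/
theorem node_g0 {i m a b : Fin 4} (hD : Dst i m a b) {bb : ℤ} (hbb : bb = -1 ∨ bb = -7)
    {W : Finset Nd} {p : Nd} (hp : p ∈ W) (F : Fin 4 → ℤ → ℂ) {A H B g δ Sa Sb : ℝ}
    (hg : 0 ≤ g) (hδ : 0 ≤ δ) (hH : 0 ≤ H) (hSa : 0 ≤ Sa)
    (hP : av p (F i) ≤ A) (hPH : ∀ z ∈ iv p, ‖F i z‖ ≤ H) (hR : av p (F m) ≤ B)
    (hn : NCol W (F m) g δ) (ha : av p (F a) ≤ Sa) (hb : av p (F b) ≤ Sb) :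
    ∑ x ∈ adm p.1 p.2, ‖Lbox (2 ^ p.1) bb F x‖ ≤
      (2 ^ 12 * Real.sqrt (3 * g * A ^ 2 + δ * (H ^ 2 * B ^ 2)) * Sa * Sb) * 2 ^ (p.1 + 7) := by
  have h2 : ∀ f : Fn, ∀ C : ℝ, av p f ≤ C → ∑ z ∈ iv p, ‖f z‖ ^ 2 ≤ C ^ 2 * len p := fun f C h =>
    Leaf259.sum2_of_av h
  have h1 := NodeBx254.node_nc hD p hbb F hH hg (sq_nonneg A) (sq_nonneg B) hδ
    (h2 (F i) A hP) hPH (h2 (F m) B hR) (nc2_of_ncol hn hp hp rfl)
  refine h1.trans ?_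
  have hl : len p = 2 ^ (p.1 + 7) := rfl
  rw [hl]
  have a0 := Growth.av_nonneg p (F a)
  have b0 := Growth.av_nonneg p (F b)
  gcongr

open Classical in
/-- **the word over the near nodes of a window** -/
theorem near_word {i m a b : Fin 4} (hD : Dst i m a b) {bb : ℤ} (hbb : bb = -1 ∨ bb = -7)
    {W : Finset Nd} {P : Nd} (hW : ∀ p ∈ W, Le p P) (C0 n0 : ℕ) (F : Fin 4 → ℤ → ℂ)
    {A H B g δ Sa Sb : ℝ} (hg : 0 ≤ g) (hδ : 0 ≤ δ) (hH : 0 ≤ H) (hSa : 0 ≤ Sa) (hSb : 0 ≤ Sb)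
    (hP : ∀ p ∈ W, av p (F i) ≤ A) (hPH : ∀ p ∈ W, ∀ z ∈ iv p, ‖F i z‖ ≤ H)
    (hR : ∀ p ∈ W, av p (F m) ≤ B) (hn : NCol W (F m) g δ)
    (ha : ∀ p ∈ W, av p (F a) ≤ Sa) (hb : ∀ p ∈ W, av p (F b) ≤ Sb) :
    ∑ p ∈ W.filter (fun p => Nr C0 n0 P p), ∑ x ∈ adm p.1 p.2, ‖Lbox (2 ^ p.1) bb F x‖ ≤
      (4 * C0 + n0) * (2 ^ 12 * Real.sqrt (3 * g * A ^ 2 + δ * (H ^ 2 * B ^ 2)) * Sa * Sb) *
        2 ^ (P.1 + 7) :=
  near_sum hW C0 n0 _ (fun _ _ => Finset.sum_nonneg fun _ _ => norm_nonneg _)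
    (by positivity) fun p hp _ => node_g0 hD hbb hp F hg hδ hH hSa (hP p hp) (hPH p hp) (hR p hp)
      hn (ha p hp) (hb p hp)

open Classical in
/-- the same with powers of `t` -/
theorem near_word_num {i m a b : Fin 4} (hD : Dst i m a b) {bb : ℤ} (hbb : bb = -1 ∨ bb = -7)
    {W : Finset Nd} {P : Nd} (hW : ∀ p ∈ W, Le p P) (C0 n0 : ℕ) (F : Fin 4 → ℤ → ℂ)
    {t K cl h gm dm c sa sb : ℝ} (ht : 0 < t) (ht1 : t ≤ 1) (hK : 1 ≤ K)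
    (h1 : 2 * c ≤ gm - 2 * cl) (h2 : 2 * c ≤ dm - 2 * h)
    (hP : ∀ p ∈ W, av p (F i) ≤ K * t ^ (-cl))
    (hPH : ∀ p ∈ W, ∀ z ∈ iv p, ‖F i z‖ ≤ K * t ^ (-h))
    (hR : ∀ p ∈ W, av p (F m) ≤ 1) (hn : NCol W (F m) (K * t ^ gm) (K * t ^ dm))
    (ha : ∀ p ∈ W, av p (F a) ≤ K * t ^ (-sa)) (hb : ∀ p ∈ W, av p (F b) ≤ K * t ^ (-sb)) :
    ∑ p ∈ W.filter (fun p => Nr C0 n0 P p), ∑ x ∈ adm p.1 p.2, ‖Lbox (2 ^ p.1) bb F x‖ ≤
      (4 * C0 + n0) * (2 ^ 13 * K ^ 4 * t ^ (c - sa - sb)) * 2 ^ (P.1 + 7) := by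
  have hK0 : 0 < K := by linarith
  have hr : ∀ a : ℝ, 0 < t ^ a := fun a => Real.rpow_pos_of_pos ht a
  have h3 := near_word hD hbb hW C0 n0 F (A := K * t ^ (-cl)) (H := K * t ^ (-h)) (B := 1)
    (mul_pos hK0 (hr gm)).le (mul_pos hK0 (hr dm)).le (mul_pos hK0 (hr _)).le
    (mul_pos hK0 (hr (-sa))).le (mul_pos hK0 (hr (-sb))).le hP hPH hR hn ha hb
  refine h3.trans ?_
  have h4 : 3 * (K * t ^ gm) * (K * t ^ (-cl)) ^ 2 + K * t ^ dm * ((K * t ^ (-h)) ^ 2 * 1 ^ 2) ≤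
      (2 * K ^ 2 * t ^ c) ^ 2 := by
    have e1 : 3 * (K * t ^ gm) * (K * t ^ (-cl)) ^ 2 = 3 * K ^ 3 * t ^ (gm - 2 * cl) := by
      have : t ^ (gm - 2 * cl) = t ^ gm * (t ^ (-cl) * t ^ (-cl)) := by
        rw [← Real.rpow_add ht, ← Real.rpow_add ht]; congr 1; ring
      rw [this]; ring
    have e2 : K * t ^ dm * ((K * t ^ (-h)) ^ 2 * 1 ^ 2) = K ^ 3 * t ^ (dm - 2 * h) := by
      have : t ^ (dm - 2 * h) = t ^ dm * (t ^ (-h) * t ^ (-h)) := by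
        rw [← Real.rpow_add ht, ← Real.rpow_add ht]; congr 1; ring
      rw [this]; ring
    have e3 : (2 * K ^ 2 * t ^ c) ^ 2 = 4 * K ^ 4 * t ^ (2 * c) := by
      have : t ^ (2 * c) = t ^ c * t ^ c := by rw [← Real.rpow_add ht]; congr 1; ring
      rw [this]; ring
    rw [e1, e2, e3]
    have g1 : t ^ (gm - 2 * cl) ≤ t ^ (2 * c) := Real.rpow_le_rpow_of_exponent_ge ht ht1 h1
    have g2 : t ^ (dm - 2 * h) ≤ t ^ (2 * c) := Real.rpow_le_rpow_of_exponent_ge ht ht1 h2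
    have g3 : K ^ 3 ≤ K ^ 4 := pow_le_pow_right₀ hK (by norm_num)
    have g4 : 0 ≤ t ^ (2 * c) := (hr _).le
    have g5 : 0 ≤ K ^ 3 := by positivity
    nlinarith [mul_le_mul_of_nonneg_left g1 (mul_nonneg (by norm_num : (0:ℝ) ≤ 3) g5),
      mul_le_mul_of_nonneg_left g2 g5, mul_le_mul_of_nonneg_right g3 g4]
  have h5 : Real.sqrt (3 * (K * t ^ gm) * (K * t ^ (-cl)) ^ 2 +
      K * t ^ dm * ((K * t ^ (-h)) ^ 2 * 1 ^ 2)) ≤ 2 * K ^ 2 * t ^ c :=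
    Real.sqrt_le_iff.2 ⟨by have := hr c; positivity, h4⟩
  have e4 : t ^ (c - sa - sb) = t ^ c * t ^ (-sa) * t ^ (-sb) := by
    rw [← Real.rpow_add ht, ← Real.rpow_add ht]; congr 1
  have ra := hr (-sa)
  have rb := hr (-sb)
  rw [e4]
  calc (4 * (C0 : ℝ) + n0) * (2 ^ 12 * Real.sqrt (3 * (K * t ^ gm) * (K * t ^ (-cl)) ^ 2 +
        K * t ^ dm * ((K * t ^ (-h)) ^ 2 * 1 ^ 2)) * (K * t ^ (-sa)) * (K * t ^ (-sb))) *
        2 ^ (P.1 + 7)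
      ≤ (4 * (C0 : ℝ) + n0) * (2 ^ 12 * (2 * K ^ 2 * t ^ c) * (K * t ^ (-sa)) * (K * t ^ (-sb))) *
        2 ^ (P.1 + 7) := by gcongr
    _ = _ := by ring

/-- literal of the (S) word over the far nodes of a window (`SKtotP` without the node bounds) -/
def SKtotFP : Prop := ∃ K : ℝ, 0 ≤ K ∧ ∃ C0 : ℕ, 1 ≤ C0 ∧ ∀ (bb : ℤ), bb = -1 ∨ bb = -7 →
    ∀ (W : Finset Nd) (P : Nd), IsRegion W P → ∀ (j : Fin 4) (e : Fin 3) {ι : Type}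
    (S : Finset ι) (kap : ι → ℝ) (k d : ℕ) (T : Fin 3 → Finset ℤ)
    (C : ι → ℤ × ℤ × ℤ → ℂ) (ρ r Hr E : ℝ) (al : ι → ℤ → ℤ → ℂ) (F : Fin 4 → ℤ → ℂ)
    (A g1 d1 g2 d2 mb H0 : ℝ) (n0 : ℕ) (Θ ν : ℝ) [DecidablePred fun p : Nd => Nr C0 n0 P p],
    SKW S kap j e k d P T W C ρ r Hr E →
    SKL S kap j e T W al F A g1 d1 g2 d2 mb H0 0 →
    SKZ Θ A g1 d1 g2 d2 ρ r Hr 0 mb H0 →
    Bnd (fun p => (T e ×ˢ (T (e + 1) ×ˢ T (e + 2))).filter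
        (fun ω => Yl j e ω.1 ω.2.1 ω.2.2 ∈ iv p)) (fun ω => Yl j e ω.1 ω.2.1 ω.2.2)
      (NmP (T e ×ˢ (T (e + 1) ×ˢ T (e + 2))) Cel159.cf (okc (Yl j e) k)) ν →
    (∀ y ∈ iv P, F j y = ∑ w ∈ S, (kap w : ℂ) * kerG j e T (fun z u v =>
      (C w (z, u, v) - PjY j e k T r P (C w) (z, u, v)) * conj (al w u v)) y) →
    ∑ p ∈ W.filter (fun p => ¬ Nr C0 n0 P p), ∑ x ∈ adm p.1 p.2, ‖Lbox (2 ^ p.1) bb F x‖ ≤
      K * (1 + Real.log Θ) * Real.sqrt (Real.sqrt (XS A g1 d1 ρ r Hr n0 Θ⁻¹ *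
        XS A g2 d2 ρ r Hr n0 Θ⁻¹) * (A * mb + Θ⁻¹)) * (1 + E) * 2 ^ (P.1 + 7)

/-- **(S) word of a window, far nodes** -/
theorem sktotF : SKtotFP := by
  obtain ⟨K, hK, κ0, hw⟩ := SKword
  refine ⟨3 * K * 2 ^ 9, by positivity, 2 ^ κ0, Nat.one_le_two_pow, ?_⟩
  intro bb hbb W P hW j e ι S kap k d T C ρ r Hr E al F A g1 d1 g2 d2 mb H0 n0 Θ ν dec H L Z hB hF
  classical
  have hC1 : 1 ≤ 2 ^ κ0 := Nat.one_le_two_pow
  have hΘ0 : 0 < Θ := by linarith [Z.Θ1]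
  have hmb : 0 ≤ mb := (Finset.sum_nonneg fun w hw => mul_nonneg (H.kap0 w hw)
    (Finset.sum_nonneg fun _ _ => Finset.sum_nonneg fun _ _ => sq_nonneg _)).trans L.gm
  set X1 := XS A g1 d1 ρ r Hr n0 Θ⁻¹ with hX1
  set X2 := XS A g2 d2 ρ r Hr n0 Θ⁻¹ with hX2
  have hX10 : 0 ≤ X1 := XS_nonneg L.d10 H.r0 H.Hr0 (by positivity)
  have hX20 : 0 ≤ X2 := XS_nonneg L.d20 H.r0 H.Hr0 (by positivity)
  set B := Real.sqrt (Real.sqrt (X1 * X2) * (A * mb + Θ⁻¹)) with hBd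
  have hB0 : 0 ≤ B := Real.sqrt_nonneg _
  have hl : 0 ≤ Real.log Θ := Real.log_nonneg Z.Θ1
  have key : ∀ P' ∈ W, Le P' P → WTop (2 ^ κ0) P P' →
      ∑ p ∈ W.filter (fun p => Le p P' ∧ n0 ≤ p.1), ∑ x ∈ adm p.1 p.2, ‖Lbox (2 ^ p.1) bb F x‖ ≤
        (3 * K * (1 + Real.log Θ) * B * (1 + GS S j e k P P' T kap C)) * 2 ^ (P'.1 + 7) := by
    intro P' hP' hle hwt
    have hG := GS_nonneg (j := j) (e := e) (k := k) (P := P) (P' := P') (T := T) H.kap0 C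
    set G := GS S j e k P P' T kap C with hGd
    have hP'P : iv P' ⊆ iv P := hle
    set R := W.filter (fun p => Le p P' ∧ n0 ≤ p.1) with hRd
    have hR : IsRegion R P' := sub_region hW hle n0
    have hRW : ∀ p ∈ R, p ∈ W := fun p hp => (Finset.mem_filter.1 hp).1
    have hΘ' : Θ ≤ max Θ G := le_max_left _ _
    have hΘ'0 : 0 < max Θ G := lt_of_lt_of_le hΘ0 hΘ'
    have h1 := hw bb hbb R P' hR j e S kap k d (2 ^ κ0) P T C ρ r Hr al F A g1 d1 g2 d2 mb H0 n0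
      (max Θ G) ν
      ⟨H.kap0, le_rfl, hP'P, hwt.1, fun p hp => (le_iff.1 (Finset.mem_filter.1 hp).2.1).1,
        fun p hp => H.hWd p (hRW p hp), H.ρ0, H.r0, H.Hr0, H.hex,
        fun w hw z hz m a b hM hm => H.hrow w hw z hz m a b hM ((H.hWd P' hP').trans hm),
        fun w hw z hz m a b hM hm => H.hcol w hw z hz m a b hM ((H.hWd P' hP').trans hm)⟩
      (skl_sub L hRW fun p hp => (Finset.mem_filter.1 hp).2.2)
      ⟨Z.Θ1.trans hΘ', Z.A.trans hΘ', Z.g1.trans hΘ', Z.d1.trans hΘ', Z.g2.trans hΘ',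
        Z.d2.trans hΘ', Z.ρ.trans hΘ', Z.r.trans hΘ', Z.Hr.trans hΘ', le_max_right _ _,
        Z.mb.trans hΘ', Z.H0.trans hΘ'⟩ hB (fun y hy => hF y (hP'P hy))
    have hinv : (max Θ G)⁻¹ ≤ Θ⁻¹ := inv_anti₀ hΘ0 hΘ'
    have hinv0 : 0 < (max Θ G)⁻¹ := inv_pos.2 hΘ'0
    have hx1 : XS A g1 d1 ρ r Hr n0 (max Θ G)⁻¹ ≤ X1 := XS_mono hinv
    have hx2 : XS A g2 d2 ρ r Hr n0 (max Θ G)⁻¹ ≤ X2 := XS_mono hinv
    have hx10 : 0 ≤ XS A g1 d1 ρ r Hr n0 (max Θ G)⁻¹ := XS_nonneg L.d10 H.r0 H.Hr0 hinv0.le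
    have hx20 : 0 ≤ XS A g2 d2 ρ r Hr n0 (max Θ G)⁻¹ := XS_nonneg L.d20 H.r0 H.Hr0 hinv0.le
    have hA0 := L.A0
    have hl' : 0 ≤ Real.log (max Θ G) := Real.log_nonneg (Z.Θ1.trans hΘ')
    have h2 : Real.sqrt (Real.sqrt (XS A g1 d1 ρ r Hr n0 (max Θ G)⁻¹ *
        XS A g2 d2 ρ r Hr n0 (max Θ G)⁻¹) * (G + (max Θ G)⁻¹) * (A * mb + (max Θ G)⁻¹)) ≤
        B * Real.sqrt (G + (max Θ G)⁻¹) := by
      rw [hBd, ← Real.sqrt_mul (by positivity)]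
      refine Real.sqrt_le_sqrt ?_
      have h3 : Real.sqrt (XS A g1 d1 ρ r Hr n0 (max Θ G)⁻¹ *
        XS A g2 d2 ρ r Hr n0 (max Θ G)⁻¹) ≤ Real.sqrt (X1 * X2) :=
        Real.sqrt_le_sqrt (mul_le_mul hx1 hx2 hx20 hX10)
      calc Real.sqrt (XS A g1 d1 ρ r Hr n0 (max Θ G)⁻¹ *
            XS A g2 d2 ρ r Hr n0 (max Θ G)⁻¹) * (G + (max Θ G)⁻¹) * (A * mb + (max Θ G)⁻¹)
          ≤ Real.sqrt (X1 * X2) * (G + (max Θ G)⁻¹) * (A * mb + Θ⁻¹) := by gcongr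
        _ = _ := by ring
    have h4 := sc_le Z.Θ1 hG
    refine h1.trans ?_
    calc K * (Real.sqrt (Real.sqrt (XS A g1 d1 ρ r Hr n0 (max Θ G)⁻¹ *
            XS A g2 d2 ρ r Hr n0 (max Θ G)⁻¹) * (G + (max Θ G)⁻¹) * (A * mb + (max Θ G)⁻¹)) *
            (1 + Real.log (max Θ G)) * 2 ^ (P'.1 + 7))
        ≤ K * (B * Real.sqrt (G + (max Θ G)⁻¹) * (1 + Real.log (max Θ G)) * 2 ^ (P'.1 + 7)) := by
          gcongr
      _ = K * B * (Real.sqrt (G + (max Θ G)⁻¹) * (1 + Real.log (max Θ G))) * 2 ^ (P'.1 + 7) := by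
          ring
      _ ≤ K * B * (3 * (1 + Real.log Θ) * (1 + G)) * 2 ^ (P'.1 + 7) := by gcongr
      _ = _ := by ring
  set f : Nd → ℝ := fun p => ∑ x ∈ adm p.1 p.2, ‖Lbox (2 ^ p.1) bb F x‖ with hf
  have hf0 : ∀ p, 0 ≤ f p := fun p => Finset.sum_nonneg fun _ _ => norm_nonneg _
  set f' : Nd → ℝ := fun p => if Nr (2 ^ κ0) n0 P p then 0 else f p with hf'
  have hf'0 : ∀ p, 0 ≤ f' p := fun p => by
    simp only [hf']; split_ifs; exacts [le_rfl, hf0 p]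
  have hf'f : ∀ p, f' p ≤ f p := fun p => by
    simp only [hf']; split_ifs; exacts [hf0 p, le_rfl]
  have hmain := split_region' hW (2 ^ κ0) hC1 n0 f' (fun p _ => hf'0 p) 0
    (fun P' => 3 * K * (1 + Real.log Θ) * B * (1 + GS S j e k P P' T kap C)) le_rfl
    (fun p _ h => by
      have : f' p = 0 := if_pos (show Nr (2 ^ κ0) n0 P p from Or.inl h)
      rw [this, zero_mul])
    (fun p _ h => by
      have : f' p = 0 := if_pos (show Nr (2 ^ κ0) n0 P p from Or.inr h)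
      rw [this, zero_mul])
    (fun P' hP' hle hwt => (Finset.sum_le_sum fun p _ => hf'f p).trans (key P' hP' hle hwt))
  have hsum : ∑ p ∈ W.filter (fun p => ¬ Nr (2 ^ κ0) n0 P p), f p = ∑ p ∈ W, f' p := by
    rw [Finset.sum_filter]
    refine Finset.sum_congr rfl fun p _ => ?_
    simp only [hf']
    by_cases h : Nr (2 ^ κ0) n0 P p
    · rw [if_pos h, if_neg (not_not.2 h)]
    · rw [if_neg h, if_pos h]
  rw [hsum]
  rw [mul_zero, zero_mul, zero_add] at hmain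
  refine hmain.trans ?_
  set Q := W.filter (fun P' => WTop (2 ^ κ0) P P') with hQ
  have hQ' : ∀ P' ∈ Q, iv P' ⊆ iv P ∧ WTop (2 ^ κ0) P P' := fun P' h =>
    ⟨hW.1 P' (Finset.mem_filter.1 h).1, (Finset.mem_filter.1 h).2⟩
  have s1 := wtop_len Q hQ'
  have s2 := sum_GS S j e k hC1 Q hQ' T H.kap0 C
  have hE := H.hE
  have hE0 := H.E0
  have s3 : ∑ P' ∈ Q, (3 * K * (1 + Real.log Θ) * B * (1 + GS S j e k P P' T kap C)) *
      (2 : ℝ) ^ (P'.1 + 7) = 3 * K * (1 + Real.log Θ) * B * (∑ P' ∈ Q, (2 : ℝ) ^ (P'.1 + 7) +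
        ∑ P' ∈ Q, GS S j e k P P' T kap C * (2 : ℝ) ^ (P'.1 + 7)) := by
    rw [← Finset.sum_add_distrib, Finset.mul_sum]
    exact Finset.sum_congr rfl fun _ _ => by ring
  have hlen : len P = (2 : ℝ) ^ (P.1 + 7) := rfl
  have s4 : ∑ P' ∈ Q, (2 : ℝ) ^ (P'.1 + 7) +
        ∑ P' ∈ Q, GS S j e k P P' T kap C * (2 : ℝ) ^ (P'.1 + 7) ≤
      2 ^ 9 * (1 + E) * 2 ^ (P.1 + 7) := by
    rw [hlen] at hE
    have hp : (0 : ℝ) < 2 ^ (P.1 + 7) := by positivity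
    have := mul_le_mul_of_nonneg_left hE (by norm_num : (0 : ℝ) ≤ 2 ^ 9)
    nlinarith
  rw [s3]
  calc 3 * K * (1 + Real.log Θ) * B * (∑ P' ∈ Q, (2 : ℝ) ^ (P'.1 + 7) +
        ∑ P' ∈ Q, GS S j e k P P' T kap C * (2 : ℝ) ^ (P'.1 + 7))
      ≤ 3 * K * (1 + Real.log Θ) * B * (2 ^ 9 * (1 + E) * 2 ^ (P.1 + 7)) := by gcongr
    _ = _ := by ring

end Crest.Agent.R079.NodeWx254
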