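import Crest.Agent.R079.CellH2_37
import Crest.Agent.R079.Hank_37

/-! R079, T2 (helper37): NON-COLLISION in operator form (note 852, 3(H2)).

`noncoll_op`: a function `g` (any height) of level `s` against the cells at the node `q`,
`av q g ≤ A`: off a set `Bad` of at most `ε len q` shifts `h`, for ALL integers `α, β ≠ 0`, all `c`,
all finite boxes the kernel `(x,y) ↦ [g · conj g(·-h)](α x + β y + c)` (both arguments in `iv q`) has
operator norm `≤ (s t^γ (t^δ + A) + A³ t^C/ε) len q` (unnormalised). -/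

set_option autoImplicit false

namespace Crest.Agent.R079.NonCol37

open Finset Crest.Agent.R079.Grid Crest.Agent.R079.Glue Crest.Agent.R079.Growth
  Crest.Agent.R079.QRed Crest.Agent.R079.Cell37 Crest.Agent.R079.CellH237 Crest.Agent.R079.Hank37

/-- no correlation at shifts of length `≥ len q` -/
theorem acor_zero {q : Nd} {g : Fn} {h : ℤ} (hh : h ∉ Finset.Ico (-(Ln q : ℤ)) (Ln q : ℤ)) (ξ : ℝ) :
    acor q g h ξ = 0 := by
  unfold acor
  refine Finset.sum_eq_zero fun y _ => ?_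
  unfold cr
  rw [if_neg, zero_mul]
  rintro ⟨h3, h4⟩
  rw [iv_eq, Finset.mem_Ico] at h3 h4
  apply hh
  rw [Finset.mem_Ico]
  constructor <;> linarith

/-- **non-collision, set form** -/
theorem noncoll_set {γ δ C t s A ε : ℝ} (ht : 0 < t) (hs : 0 ≤ s) {q : Nd} {g : Fn}
    (hlv : LvC γ δ C t s q g) (hA : av q g ≤ A) (hε : 2 * t ^ C ≤ ε) :
    ∃ Bad : Finset ℤ, (Bad.card : ℝ) ≤ ε * len q ∧ ∀ h ∉ Bad, ∀ ξ : ℝ,
      ‖acor q g h ξ‖ ≤ (s * (t ^ γ * (t ^ δ + A)) + A ^ 3 * t ^ C / ε) * len q := by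
  classical
  set lam : ℝ := s * (t ^ γ * (t ^ δ + A)) + A ^ 3 * t ^ C / ε with hlam
  have hl : 0 < len q := QVar181.len_pos' q
  have hA0 : 0 ≤ A := (av_nonneg' q g).trans hA
  have htC : 0 < t ^ C := Real.rpow_pos_of_pos ht _
  have htγ : 0 < t ^ γ := Real.rpow_pos_of_pos ht _
  have htδ : 0 < t ^ δ := Real.rpow_pos_of_pos ht _
  have hε0 : 0 < ε := by linarith
  have hlam0 : 0 ≤ lam := by positivity
  set Bad : Finset ℤ := (Finset.Ico (-(Ln q : ℤ)) (Ln q : ℤ)).filter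
    (fun h => ∃ ξ : ℝ, lam * len q < ‖acor q g h ξ‖) with hBad
  have hex : ∀ h : ℤ, ∃ ξ : ℝ, h ∈ Bad → lam * len q < ‖acor q g h ξ‖ := by
    intro h
    by_cases hh : h ∈ Bad
    · obtain ⟨ξ, hξ⟩ := (Finset.mem_filter.1 hh).2
      exact ⟨ξ, fun _ => hξ⟩
    · exact ⟨0, fun h1 => absurd h1 hh⟩
  choose ξ hξ using hex
  refine ⟨Bad, noncoll ht hs hlv hA hε Bad ξ fun h hh => hξ h hh, ?_⟩
  intro h hh x
  by_cases h1 : h ∈ Finset.Ico (-(Ln q : ℤ)) (Ln q : ℤ)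
  · by_contra hcon
    rw [not_le] at hcon
    exact hh (Finset.mem_filter.2 ⟨h1, x, hcon⟩)
  · rw [acor_zero h1, norm_zero]
    positivity

/-- **non-collision, operator form** -/
theorem noncoll_op {γ δ C t s A ε : ℝ} (ht : 0 < t) (hs : 0 ≤ s) {q : Nd} {g : Fn}
    (hlv : LvC γ δ C t s q g) (hA : av q g ≤ A) (hε : 2 * t ^ C ≤ ε) :
    ∃ Bad : Finset ℤ, (Bad.card : ℝ) ≤ ε * len q ∧ ∀ h ∉ Bad, ∀ (α β c : ℤ), α ≠ 0 → β ≠ 0 →
      ∀ (X Y : Finset ℤ) (f1 f2 : ℤ → ℂ),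
      ‖∑ x ∈ X, ∑ y ∈ Y, cr q g h (α * x + β * y + c) * f1 x * f2 y‖ ≤
        (s * (t ^ γ * (t ^ δ + A)) + A ^ 3 * t ^ C / ε) * len q *
          Real.sqrt (∑ x ∈ X, ‖f1 x‖ ^ 2) * Real.sqrt (∑ y ∈ Y, ‖f2 y‖ ^ 2) := by
  obtain ⟨Bad, h1, h2⟩ := noncoll_set ht hs hlv hA hε
  refine ⟨Bad, h1, fun h hh α β c hα hβ X Y f1 f2 => ?_⟩
  have h3 := hankel_op (iv q) X Y (cr q g h) f1 f2 hα hβ c (h2 h hh)
  have h4 : ∀ z : ℤ, (if z ∈ iv q then cr q g h z else 0) = cr q g h z := by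
    intro z
    split_ifs with hz
    · rfl
    · unfold cr
      rw [if_neg fun hh => hz hh.1]
  simp only [h4] at h3
  exact h3

end Crest.Agent.R079.NonCol37
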