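import Crest.Agent.R079.ElU_440

/-! R079 (helper276), (T4) of note 1820: NEAR-NORMING.
`near_win` : for every node `p` of a window, the glued leaf projections `B` nearly norm `A = a gl`:
`∑ κ ν (dst A B - dst A (Pj A)) ≤ len p (δ + η)`.
`el_own` : `X - gl - (own ladder)` is small at every node; `el_repl` : the own ladder may be replaced by
any kernels `E w i` at the price of their distance to the steps of the ladder. -/

set_option autoImplicit false

namespace Crest.Agent.R079.NrDx276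

open Finset Crest.Agent.R079.Grid Crest.Agent.R079.Growth Crest.Agent.R079.QRed
  Crest.Agent.R079.Qh249 Crest.Agent.R079.QVar181 Crest.Agent.R079.TWin
open Crest.Agent.R079.RelW653 (vl NMP Jv Dv av_par sum_av' lf_sum_eq')
open Crest.Agent.R079.RelV653 Crest.Agent.R079.ThA159 Crest.Agent.R079.ThB159
open Crest.Agent.R079.ElS440 (Ln LnF Ln_sub)
open Crest.Agent.R079.ElW778 (Ln_congr Ln_sum tele)
open Crest.Agent.R079.ElT440 (lad lad_dst LnF_dst GrF_eq)
open Crest.Agent.R079.ElU440 (upto lad_eq0 ThL0)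

section one

variable {Ω : Type*} {Bd : Nd → Finset Ω} {pos : Ω → ℤ} {N : Nd → (Ω → ℂ) → ℝ} {ν : ℝ}

/-- the deficiency of an admissible kernel `B` against the projection -/
noncomputable def dfc (Bd : Nd → Finset Ω) (N : Nd → (Ω → ℂ) → ℝ) (r : ℝ) (p : Nd)
    (A B : Ω → ℂ) : ℝ := dst Bd p A B - dst Bd p A (Pj Bd N r p A)

lemma dfc_nonneg (hB : Bnd Bd pos N ν) {r : ℝ} (hr : 0 ≤ r) (p : Nd) (A : Ω → ℂ) {B : Ω → ℂ}
    (hBa : Adm Bd N r p B) : 0 ≤ dfc Bd N r p A B :=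
  sub_nonneg.2 ((Pj_spec hB hr p A).2 B hBa)

/-- the step `i` of the own ladder: `C_{i+1} - C_i`, `C_j = Pj (r j) A` for `j < K`, `C_K = A` -/
noncomputable def stp (Bd : Nd → Finset Ω) (N : Nd → (Ω → ℂ) → ℝ) (r : ℕ → ℝ) (K : ℕ) (p : Nd)
    (A : Ω → ℂ) (i : ℕ) : Ω → ℂ :=
  fun ω => upto K (fun j => Pj Bd N (r j) p A) A (i + 1) ω
    - upto K (fun j => Pj Bd N (r j) p A) A i ω

/-- sum of the parts above the thresholds as the weighted sum of the steps -/
lemma stp_sum (r : ℕ → ℝ) (K : ℕ) (p : Nd) (A : Ω → ℂ) (ω : Ω) :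
    ∑ j ∈ range K, (A ω - Pj Bd N (r j) p A ω)
      = ∑ i ∈ range K, ((i : ℂ) + 1) * stp Bd N r K p A i ω := by
  set u : ℕ → ℂ := fun i => upto K (fun j => Pj Bd N (r j) p A) A i ω with hu
  have h1 : ∑ i ∈ range K, ((i : ℂ) + 1) * stp Bd N r K p A i ω
      = ∑ i ∈ range K, ((i : ℂ) + 1) * (u (i + 1) - u i) := rfl
  rw [h1, tele u K, Finset.sum_sub_distrib, Finset.sum_const, Finset.card_range, nsmul_eq_mul]
  have h2 : u K = A ω := by simp only [hu, upto, if_neg (lt_irrefl K)]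
  have h3 : ∑ j ∈ range K, u j = ∑ j ∈ range K, Pj Bd N (r j) p A ω :=
    Finset.sum_congr rfl fun j hj => by simp only [hu, upto, if_pos (Finset.mem_range.1 hj)]
  rw [h2, h3]

/-- the deficiency of the glued leaf projections is the sum of the increments -/
theorem dfc_SN (hB : Bnd Bd pos N ν) (a : Ω → ℂ) {r : ℝ} (hr : 0 ≤ r) {W : Finset Nd}
    {I : Nd} (hW : Full W I) (g : Fn) {p : Nd} (hp : p ∈ W) :
    ν * dfc Bd N r p (ag Bd pos a p g) (Bgl Bd pos N a r W p g)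
      = SN W p (Inc fun q => Th Bd pos N ν a r q g) := by
  have h2 := Bgl_dst hB a hr hW g p hp
  rw [SN_Inc hW _ p hp, ← h2]
  have h4 : len p * Th Bd pos N ν a r p g
      = ν * dst Bd p (ag Bd pos a p g) (Pj Bd N r p (ag Bd pos a p g)) := by
    have hL := Growth.len_pos p
    unfold Th
    field_simp
  rw [h4]
  unfold dfc
  ring

end one

section family

variable {ι : Type*} [Fintype ι] {Ω : ι → Type*} {Bd : ∀ i, Nd → Finset (Ω i)}
  {pos : ∀ i, Ω i → ℤ} {N : ∀ i, Nd → (Ω i → ℂ) → ℝ} {ν : ι → ℝ} {a : ∀ i, Ω i → ℂ}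
  {κ : ι → ℝ} {X : Fn} {η : ℝ} {f : Nd → Fn}

/-- **near-norming, all gauges and thresholds, at every node of a window** -/
theorem near_win {r : ι → ℝ} (hB : ∀ i, Bnd (Bd i) (pos i) (N i) (ν i)) (hr : ∀ i, 0 ≤ r i)
    (hκ : ∀ i, 0 ≤ κ i) (h : NMP (fun _ _ => True) (ThF Bd pos N ν a r κ) X η f)
    {W : Finset Nd} {I : Nd} (hW : Full W I) {δ : ℝ}
    (hG : GdP (ThF Bd pos N ν a r κ) X η f δ W I) {p : Nd} (hp : p ∈ W) :
    ∑ i, κ i * (ν i * dfc (Bd i) (N i) (r i) p (ag (Bd i) (pos i) (a i) p (gl W f))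
      (Bgl (Bd i) (pos i) (N i) (a i) (r i) W p (gl W f))) ≤ len p * (δ + η) := by
  have hP := pen_ThF (a := a) (κ := κ) hB hr hκ
  have h1 := incr_le hP h hW hp
  have h2 := drift_P hP h hW hG hp
  have h3 : SN W p (Inc fun q => ThF Bd pos N ν a r κ q (gl W f)) ≤ len p * (δ + η) := by
    linarith
  unfold ThF at h3
  rw [SN_Sg hW κ _ _ hp] at h3
  refine le_trans (le_of_eq ?_) h3
  refine Finset.sum_congr rfl fun i _ => ?_
  rw [dfc_SN (hB i) (a i) (hr i) hW (gl W f) hp]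

variable {r : ι → ℕ → ℝ}

/-- near-norming for the ladder functional `ThL0` -/
theorem near_win0 {K : ℕ} (hB : ∀ i, Bnd (Bd i) (pos i) (N i) (ν i)) (hr : ∀ i j, 0 ≤ r i j)
    (hκ : ∀ i, 0 ≤ κ i) (h : NMP (fun _ _ => True) (ThL0 K Bd pos N ν a r κ) X η f)
    {W : Finset Nd} {I : Nd} (hW : Full W I) {δ : ℝ}
    (hG : GdP (ThL0 K Bd pos N ν a r κ) X η f δ W I) {p : Nd} (hp : p ∈ W) :
    ∑ w, κ w * (ν w * ∑ j ∈ range K, dfc (Bd w) (N w) (r w j) p
      (ag (Bd w) (pos w) (a w) p (gl W f))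
      (Bgl (Bd w) (pos w) (N w) (a w) (r w j) W p (gl W f))) ≤ len p * (δ + η) := by
  have h5 := near_win (ι := ι × Fin K) (fun i => hB i.1) (fun i => hr i.1 i.2)
      (fun i => hκ i.1) h hW hG hp
  rw [Fintype.sum_prod_type] at h5
  refine le_trans (le_of_eq ?_) h5
  refine Finset.sum_congr rfl fun w _ => ?_
  rw [← Fin.sum_univ_eq_sum_range (fun j => dfc (Bd w) (N w) (r w j) p
      (ag (Bd w) (pos w) (a w) p (gl W f))
      (Bgl (Bd w) (pos w) (N w) (a w) (r w j) W p (gl W f))) K, Finset.mul_sum, Finset.mul_sum]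

/-- **own ladder**: `X - gl - (own ladder of the node)` is small at every node of a window -/
theorem el_own {K : ℕ} (hB : ∀ i, Bnd (Bd i) (pos i) (N i) (ν i)) (ha : ∀ i ω, ‖a i ω‖ ≤ 1)
    (hr : ∀ i j, 0 ≤ r i j) (hκ : ∀ i, 0 ≤ κ i)
    (h : NMP (fun _ _ => True) (ThL0 K Bd pos N ν a r κ) X η f)
    {W : Finset Nd} {I : Nd} (hW : Full W I) {δ : ℝ}
    (hG : GdP (ThL0 K Bd pos N ν a r κ) X η f δ W I) {p : Nd} (hp : p ∈ W) :
    av p (fun y => X y - gl W f y - LnF Bd pos ν a κ p (fun w ω => ∑ i ∈ range K, ((i : ℂ) + 1)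
      * stp (Bd w) (N w) (r w) K p (ag (Bd w) (pos w) (a w) p (gl W f)) i ω) y) ^ 2
      ≤ (1 + K * ∑ i, κ i) * (δ + η) := by
  have hP : PenC 0 (fun _ _ => True) (ThL0 K Bd pos N ν a r κ) :=
    pen_ThF (fun i => hB i.1) (fun i => hr i.1 i.2) (fun i => hκ i.1)
  have hM : ∑ i : ι × Fin K, κ i.1 = K * ∑ i, κ i := by
    rw [Fintype.sum_prod_type, Finset.mul_sum]
    refine Finset.sum_congr rfl fun i _ => ?_
    simp
  set g := gl W f with hg
  set A : ∀ w, Ω w → ℂ := fun w => ag (Bd w) (pos w) (a w) p g with hA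
  have h1 := el_win (Ψ := GrF (ι := ι × Fin K) (fun i => Bd i.1) (fun i => pos i.1)
    (fun i => N i.1) (fun i => ν i.1) (fun i => a i.1) (fun i => r i.1 i.2) (fun i => κ i.1) p
    (gl W f)) (M := ∑ i : ι × Fin K, κ i.1) hP h hW hG hp
    (Finset.sum_nonneg fun i _ => hκ i.1)
    (fv_ThF (ι := ι × Fin K) (a := fun i => a i.1) (r := fun i => r i.1 i.2)
      (κ := fun i => κ i.1) (fun i => hB i.1) (fun i => ha i.1) (fun i => hr i.1 i.2)
      (fun i => hκ i.1) p _ _)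
    trivial
  rw [← hg, hM] at h1
  have h2 : GrF (ι := ι × Fin K) (fun i => Bd i.1) (fun i => pos i.1)
      (fun i => N i.1) (fun i => ν i.1) (fun i => a i.1) (fun i => r i.1 i.2) (fun i => κ i.1) p g
      = LnF Bd pos ν a κ p (fun w ω => ∑ i ∈ range K, ((i : ℂ) + 1)
        * stp (Bd w) (N w) (r w) K p (A w) i ω) := by
    rw [GrF_eq]
    funext y
    unfold LnF
    rw [Fintype.sum_prod_type]
    refine Finset.sum_congr rfl fun w _ => ?_
    show ∑ j : Fin K, (κ w : ℂ) * Ln (Bd w) (pos w) (ν w) (a w) p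
      (Rs (Bd w) (pos w) (N w) (a w) (r w j) p g) y = _
    rw [← Finset.mul_sum]
    congr 1
    have h3 := Ln_sum (Bd := Bd w) (pos := pos w) (ν := ν w) (a := a w) (p := p)
      (Finset.univ : Finset (Fin K))
      (fun j => Rs (Bd w) (pos w) (N w) (a w) (r w j) p g) y
    refine h3.trans ?_
    refine congrFun (Ln_congr fun ω hω => ?_) y
    refine Eq.trans ?_ (stp_sum (r w) K p (A w) ω)
    exact Fin.sum_univ_eq_sum_range (fun j => A w ω - Pj (Bd w) (N w) (r w j) p (A w) ω) K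
  rw [h2] at h1
  exact h1

/-- distance of two weighted sums of steps -/
lemma wsum_dst {Ω : Type*} (Bd : Nd → Finset Ω) (K : ℕ) (p : Nd) (G E : ℕ → Ω → ℂ) :
    dst Bd p (fun ω => ∑ i ∈ range K, ((i : ℂ) + 1) * G i ω)
      (fun ω => ∑ i ∈ range K, ((i : ℂ) + 1) * E i ω)
      ≤ (K : ℝ) ^ 3 * ∑ i ∈ range K, dst Bd p (G i) (E i) := by
  unfold dst
  rw [Finset.sum_comm, Finset.mul_sum]
  refine Finset.sum_le_sum fun ω _ => ?_
  rw [← Finset.sum_sub_distrib]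
  have h2 : ‖∑ i ∈ range K, (((i : ℂ) + 1) * G i ω - ((i : ℂ) + 1) * E i ω)‖
      ≤ ∑ i ∈ range K, (K : ℝ) * ‖G i ω - E i ω‖ := by
    refine (norm_sum_le _ _).trans (Finset.sum_le_sum fun i hi => ?_)
    rw [← mul_sub, norm_mul]
    refine mul_le_mul_of_nonneg_right ?_ (norm_nonneg _)
    have e : ((i : ℂ) + 1) = ((i + 1 : ℕ) : ℂ) := by push_cast; ring
    rw [e, Complex.norm_natCast]
    exact_mod_cast Finset.mem_range.1 hi
  refine (pow_le_pow_left₀ (norm_nonneg _) h2 2).trans ?_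
  have h4 := sq_sum_le_card_mul_sum_sq (s := range K) (f := fun i => (K : ℝ) * ‖G i ω - E i ω‖)
  rw [Finset.card_range] at h4
  refine h4.trans (le_of_eq ?_)
  rw [Finset.mul_sum, Finset.mul_sum]
  refine Finset.sum_congr rfl fun i _ => ?_
  ring

/-- **replacement of the steps of the own ladder by other kernels** -/
theorem el_repl {K : ℕ} (hB : ∀ i, Bnd (Bd i) (pos i) (N i) (ν i)) (ha : ∀ i ω, ‖a i ω‖ ≤ 1)
    (hr : ∀ i j, 0 ≤ r i j) (hκ : ∀ i, 0 ≤ κ i)
    (h : NMP (fun _ _ => True) (ThL0 K Bd pos N ν a r κ) X η f)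
    {W : Finset Nd} {I : Nd} (hW : Full W I) {δ : ℝ}
    (hG : GdP (ThL0 K Bd pos N ν a r κ) X η f δ W I) {p : Nd} (hp : p ∈ W)
    (E : ∀ w, ℕ → Ω w → ℂ) {ε : ℝ}
    (hE : ∑ w, κ w * (ν w * ∑ i ∈ range K, dst (Bd w) p
      (stp (Bd w) (N w) (r w) K p (ag (Bd w) (pos w) (a w) p (gl W f)) i) (E w i)) ≤ len p * ε) :
    av p (fun y => X y - gl W f y - LnF Bd pos ν a κ p (fun w ω => ∑ i ∈ range K, ((i : ℂ) + 1)
      * E w i ω) y) ^ 2
      ≤ 2 * (1 + K * ∑ i, κ i) * (δ + η) + 2 * ((∑ i, κ i) * (K : ℝ) ^ 3) * ε := by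
  have hL := Growth.len_pos p
  have hM0 : 0 ≤ ∑ i, κ i := Finset.sum_nonneg fun i _ => hκ i
  set g := gl W f with hg
  have h1 := el_own hB ha hr hκ h hW hG hp
  rw [← hg] at h1
  set G := LnF Bd pos ν a κ p (fun w ω => ∑ i ∈ range K, ((i : ℂ) + 1)
      * stp (Bd w) (N w) (r w) K p (ag (Bd w) (pos w) (a w) p g) i ω) with hGd
  set L := LnF Bd pos ν a κ p (fun w ω => ∑ i ∈ range K, ((i : ℂ) + 1) * E w i ω) with hLd
  have h3 := LnF_dst hB ha hκ p (fun w ω => ∑ i ∈ range K, ((i : ℂ) + 1)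
      * stp (Bd w) (N w) (r w) K p (ag (Bd w) (pos w) (a w) p g) i ω)
      (fun w ω => ∑ i ∈ range K, ((i : ℂ) + 1) * E w i ω)
  rw [← hGd, ← hLd] at h3
  have h4 : ∑ w, κ w * (ν w * dst (Bd w) p (fun ω => ∑ i ∈ range K, ((i : ℂ) + 1)
      * stp (Bd w) (N w) (r w) K p (ag (Bd w) (pos w) (a w) p g) i ω)
      (fun ω => ∑ i ∈ range K, ((i : ℂ) + 1) * E w i ω))
      ≤ (K : ℝ) ^ 3 * (len p * ε) := by
    refine le_trans ?_ (mul_le_mul_of_nonneg_left hE (by positivity))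
    rw [Finset.mul_sum]
    refine Finset.sum_le_sum fun w _ => ?_
    have h5 := wsum_dst (Bd w) K p
      (stp (Bd w) (N w) (r w) K p (ag (Bd w) (pos w) (a w) p g)) (E w)
    have hκν : 0 ≤ κ w * ν w := mul_nonneg (hκ w) (hB w).nu.le
    have h6 := mul_le_mul_of_nonneg_left h5 hκν
    refine le_trans (le_of_eq ?_) (h6.trans (le_of_eq ?_))
    · ring
    · ring
  have h5 : av p (fun y => G y - L y) ^ 2 ≤ (∑ i, κ i) * ((K : ℝ) ^ 3 * ε) := by
    have h6 := h3.trans (mul_le_mul_of_nonneg_left h4 hM0)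
    have h7 : len p * av p (fun y => G y - L y) ^ 2
        ≤ len p * ((∑ i, κ i) * ((K : ℝ) ^ 3 * ε)) := by
      refine h6.trans (le_of_eq ?_)
      ring
    exact le_of_mul_le_mul_left h7 hL
  have h6 : av p (fun y => X y - g y - L y) ^ 2
      ≤ 2 * av p (fun y => X y - g y - G y) ^ 2 + 2 * av p (fun y => G y - L y) ^ 2 := by
    have h4 : len p * av p (fun y => X y - g y - L y) ^ 2
        ≤ len p * (2 * av p (fun y => X y - g y - G y) ^ 2
          + 2 * av p (fun y => G y - L y) ^ 2) := by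
      rw [mul_add, mul_left_comm (len p) 2, mul_left_comm (len p) 2, ← sum_av', ← sum_av',
        ← sum_av', Finset.mul_sum, Finset.mul_sum, ← Finset.sum_add_distrib]
      refine Finset.sum_le_sum fun y _ => ?_
      have e : X y - g y - L y = (X y - g y - G y) + (G y - L y) := by ring
      rw [e]
      have h5 := norm_add_le (X y - g y - G y) (G y - L y)
      have h6 := pow_le_pow_left₀ (norm_nonneg _) h5 2
      nlinarith [sq_nonneg (‖X y - g y - G y‖ - ‖G y - L y‖)]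
    exact le_of_mul_le_mul_left h4 hL
  refine h6.trans ?_
  nlinarith [h1, h5]

/-- **(T4), main form**: kernels `E w i` whose distance to the steps of the own ladder is
`≤ Cs · deficiency + x` give a letter with error `≤ C (δ + η) + C ε` -/
theorem near_frames {K : ℕ} (hB : ∀ i, Bnd (Bd i) (pos i) (N i) (ν i)) (ha : ∀ i ω, ‖a i ω‖ ≤ 1)
    (hr : ∀ i j, 0 ≤ r i j) (hκ : ∀ i, 0 ≤ κ i)
    (h : NMP (fun _ _ => True) (ThL0 K Bd pos N ν a r κ) X η f)
    {W : Finset Nd} {I : Nd} (hW : Full W I) {δ : ℝ}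
    (hG : GdP (ThL0 K Bd pos N ν a r κ) X η f δ W I) {p : Nd} (hp : p ∈ W)
    (E : ∀ w, ℕ → Ω w → ℂ) (x : ι → ℕ → ℝ) {Cs ε : ℝ} (hCs : 0 ≤ Cs)
    (hE : ∀ w, ∀ i < K, dst (Bd w) p
      (stp (Bd w) (N w) (r w) K p (ag (Bd w) (pos w) (a w) p (gl W f)) i) (E w i)
      ≤ Cs * dfc (Bd w) (N w) (r w i) p (ag (Bd w) (pos w) (a w) p (gl W f))
        (Bgl (Bd w) (pos w) (N w) (a w) (r w i) W p (gl W f)) + x w i)
    (hx : ∑ w, κ w * (ν w * ∑ i ∈ range K, x w i) ≤ len p * ε) :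
    av p (fun y => X y - gl W f y - LnF Bd pos ν a κ p (fun w ω => ∑ i ∈ range K, ((i : ℂ) + 1)
      * E w i ω) y) ^ 2
      ≤ (2 * (1 + K * ∑ i, κ i) + 2 * ((∑ i, κ i) * (K : ℝ) ^ 3) * Cs) * (δ + η)
        + 2 * ((∑ i, κ i) * (K : ℝ) ^ 3) * ε := by
  have h1 := near_win0 hB hr hκ h hW hG hp
  have h2 : ∑ w, κ w * (ν w * ∑ i ∈ range K, dst (Bd w) p
      (stp (Bd w) (N w) (r w) K p (ag (Bd w) (pos w) (a w) p (gl W f)) i) (E w i))
      ≤ len p * (Cs * (δ + η) + ε) := by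
    have h3 : ∑ w, κ w * (ν w * ∑ i ∈ range K, dst (Bd w) p
      (stp (Bd w) (N w) (r w) K p (ag (Bd w) (pos w) (a w) p (gl W f)) i) (E w i))
      ≤ Cs * (∑ w, κ w * (ν w * ∑ j ∈ range K, dfc (Bd w) (N w) (r w j) p
      (ag (Bd w) (pos w) (a w) p (gl W f))
      (Bgl (Bd w) (pos w) (N w) (a w) (r w j) W p (gl W f))))
        + ∑ w, κ w * (ν w * ∑ i ∈ range K, x w i) := by
      rw [Finset.mul_sum, ← Finset.sum_add_distrib]
      refine Finset.sum_le_sum fun w _ => ?_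
      have hκν : 0 ≤ κ w * ν w := mul_nonneg (hκ w) (hB w).nu.le
      have h4 : ∑ i ∈ range K, dst (Bd w) p
        (stp (Bd w) (N w) (r w) K p (ag (Bd w) (pos w) (a w) p (gl W f)) i) (E w i)
        ≤ Cs * (∑ j ∈ range K, dfc (Bd w) (N w) (r w j) p
        (ag (Bd w) (pos w) (a w) p (gl W f))
        (Bgl (Bd w) (pos w) (N w) (a w) (r w j) W p (gl W f)))
        + ∑ i ∈ range K, x w i := by
        rw [Finset.mul_sum, ← Finset.sum_add_distrib]
        exact Finset.sum_le_sum fun i hi => hE w i (Finset.mem_range.1 hi)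
      have h5 := mul_le_mul_of_nonneg_left h4 hκν
      refine le_trans (le_of_eq ?_) (h5.trans (le_of_eq ?_))
      · ring
      · ring
    refine h3.trans ?_
    have h4 := mul_le_mul_of_nonneg_left h1 hCs
    refine (add_le_add h4 hx).trans (le_of_eq ?_)
    ring
  refine (el_repl hB ha hr hκ h hW hG hp E h2).trans (le_of_eq ?_)
  ring

end family

end Crest.Agent.R079.NrDx276
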