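import Crest.Agent.R079.ClW_59

/-! R079, note 1820 (T3), helper259: THE TILE CALCULUS of near-norming, abstract finite form.

A rectangle `I × J` is cut into tiles `c` (rows `Ro c`, columns `Co c`, size `sz c`), the kernel `B` has
operator norm `≤ r * sz c` on every tile.  `mm c u` = normalised sum of the row `u` of the tile `c`.
* `Til.mass` : `∑ u, ∑ c on row u, (sz c / s) |mm c u|^2 ≤ r^2 ∑ |f|^2`;
* `Til.lemmaA` : Lemma A, `Til.defi` : the deficiency is nonnegative;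
* `jensen` : the mean over a part of the tiles of the row;
* `schur` : operator norm of a part of the tiles (spread of the frames, strips);
* `hs_bes` : Hilbert-Schmidt norm of `∑ k, x k u * V k v` for a Bessel family `V`. -/

set_option autoImplicit false

namespace Crest.Agent.R079.NrMx259

open Finset
open Crest.Agent.R079.ClW59 (OpS)

open scoped ComplexConjugate

section tiles

variable {τ : Type*}

/-- tiles of a rectangle -/
structure Til (Tl : Finset τ) (I J : Finset ℤ) (Ro Co : τ → Finset ℤ) (sz : τ → ℝ) (s : ℝ) :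
    Prop where
  pos : ∀ c ∈ Tl, 0 < sz c
  ro : ∀ c ∈ Tl, Ro c ⊆ I
  co : ∀ c ∈ Tl, Co c ⊆ J
  part : ∀ u ∈ I, ∀ v ∈ J, ∃! c, c ∈ Tl ∧ u ∈ Ro c ∧ v ∈ Co c
  row : ∀ u ∈ I, ∑ c ∈ Tl.filter (fun c => u ∈ Ro c), sz c ≤ s
  col : ∀ v ∈ J, ∑ c ∈ Tl.filter (fun c => v ∈ Co c), sz c ≤ s

/-- normalised sum of the row `u` of the tile `c` -/
noncomputable def mm (Co : τ → Finset ℤ) (sz : τ → ℝ) (B : ℤ → ℤ → ℂ) (f : ℤ → ℂ) (c : τ) (u : ℤ) :
    ℂ := (∑ v ∈ Co c, B u v * f v) / (sz c : ℂ)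

variable {Tl : Finset τ} {I J : Finset ℤ} {Ro Co : τ → Finset ℤ} {sz : τ → ℝ} {s r : ℝ}
  {B : ℤ → ℤ → ℂ}

lemma Til.swap (h : Til Tl I J Ro Co sz s) : Til Tl J I Co Ro sz s where
  pos := h.pos
  ro := h.co
  co := h.ro
  part v hv u hu := by
    obtain ⟨c, hc, h1⟩ := h.part u hu v hv
    exact ⟨c, ⟨hc.1, hc.2.2, hc.2.1⟩, fun c' hc' => h1 c' ⟨hc'.1, hc'.2.2, hc'.2.1⟩⟩
  row := h.col
  col := h.row

/-- exchange of the sums: rows of the tiles -/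
lemma sum_rows (A : Finset τ) (I0 : Finset ℤ) (Ro : τ → Finset ℤ) (F : τ → ℤ → ℝ) :
    ∑ u ∈ I0, ∑ c ∈ A.filter (fun c => u ∈ Ro c), F c u
      = ∑ c ∈ A, ∑ u ∈ I0.filter (fun u => u ∈ Ro c), F c u := by
  refine Finset.sum_comm' fun u c => ?_
  simp only [Finset.mem_filter]
  tauto

/-- the columns of the tiles of a row fill the row -/
lemma Til.sum_row (h : Til Tl I J Ro Co sz s) {u : ℤ} (hu : u ∈ I) (g : ℤ → ℂ) :
    ∑ c ∈ Tl.filter (fun c => u ∈ Ro c), ∑ v ∈ Co c, g v = ∑ v ∈ J, g v := by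
  have h1 : ∑ c ∈ Tl.filter (fun c => u ∈ Ro c), ∑ v ∈ Co c, g v =
      ∑ v ∈ J, ∑ _c ∈ Tl.filter (fun c => u ∈ Ro c ∧ v ∈ Co c), g v := by
    refine Finset.sum_comm' fun c v => ?_
    simp only [Finset.mem_filter]
    constructor
    · rintro ⟨⟨h1, h2⟩, h3⟩
      exact ⟨⟨h1, h2, h3⟩, h.co c h1 h3⟩
    · rintro ⟨⟨h1, h2, h3⟩, _⟩
      exact ⟨⟨h1, h2⟩, h3⟩
  rw [h1]
  refine Finset.sum_congr rfl fun v hv => ?_
  obtain ⟨c, hc, hc'⟩ := h.part u hu v hv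
  have e : Tl.filter (fun c => u ∈ Ro c ∧ v ∈ Co c) = {c} := by
    ext c'
    rw [Finset.mem_filter, Finset.mem_singleton]
    constructor
    · rintro ⟨h1, h2⟩
      exact hc' c' ⟨h1, h2⟩
    · rintro rfl
      exact ⟨hc.1, hc.2⟩
  rw [e, Finset.sum_singleton]

/-- **Schur form** : operator norm of a part of the tiles on the rows `I0` -/
theorem schur {A : Finset τ} {I0 : Finset ℤ} {S' l : ℝ} (hpos : ∀ c ∈ A, 0 < sz c)
    (hco : ∀ c ∈ A, Co c ⊆ J) (hop : ∀ c ∈ A, OpS (Ro c) (Co c) B (r * sz c)) (hS' : 0 ≤ S')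
    (hrow : ∀ u ∈ I0, ∑ c ∈ A.filter (fun c => u ∈ Ro c), sz c ≤ S')
    (hcol : ∀ v ∈ J, ∑ c ∈ A.filter (fun c => v ∈ Co c ∧ (Ro c ∩ I0).Nonempty), sz c ≤ l)
    (f : ℤ → ℂ) :
    ∑ u ∈ I0, ‖∑ c ∈ A.filter (fun c => u ∈ Ro c), ∑ v ∈ Co c, B u v * f v‖ ^ 2
      ≤ r ^ 2 * (S' * l) * ∑ v ∈ J, ‖f v‖ ^ 2 := by
  -- one row
  have h1 : ∀ u ∈ I0, ‖∑ c ∈ A.filter (fun c => u ∈ Ro c), ∑ v ∈ Co c, B u v * f v‖ ^ 2 ≤
      S' * ∑ c ∈ A.filter (fun c => u ∈ Ro c), ‖∑ v ∈ Co c, B u v * f v‖ ^ 2 / sz c := by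
    intro u hu
    have a1 : ‖∑ c ∈ A.filter (fun c => u ∈ Ro c), ∑ v ∈ Co c, B u v * f v‖ ^ 2 ≤
        (∑ c ∈ A.filter (fun c => u ∈ Ro c), ‖∑ v ∈ Co c, B u v * f v‖) ^ 2 :=
      pow_le_pow_left₀ (norm_nonneg _) (norm_sum_le _ _) 2
    have a2 : (∑ c ∈ A.filter (fun c => u ∈ Ro c), ‖∑ v ∈ Co c, B u v * f v‖) ^ 2 ≤
        (∑ c ∈ A.filter (fun c => u ∈ Ro c), sz c) *
          ∑ c ∈ A.filter (fun c => u ∈ Ro c), ‖∑ v ∈ Co c, B u v * f v‖ ^ 2 / sz c := by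
      refine Finset.sum_sq_le_sum_mul_sum_of_sq_le_mul _ (fun c hc => ?_) (fun c hc => ?_)
        fun c hc => ?_
      · exact (hpos c (Finset.mem_filter.1 hc).1).le
      · exact div_nonneg (sq_nonneg _) (hpos c (Finset.mem_filter.1 hc).1).le
      · have := (hpos c (Finset.mem_filter.1 hc).1).ne'
        refine le_of_eq ?_
        field_simp
    refine a1.trans (a2.trans (mul_le_mul_of_nonneg_right (hrow u hu) ?_))
    exact Finset.sum_nonneg fun c hc => div_nonneg (sq_nonneg _)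
      (hpos c (Finset.mem_filter.1 hc).1).le
  refine (Finset.sum_le_sum h1).trans ?_
  rw [← Finset.mul_sum, sum_rows A I0 Ro (fun c u => ‖∑ v ∈ Co c, B u v * f v‖ ^ 2 / sz c)]
  -- one tile
  have h2 : ∀ c ∈ A, ∑ u ∈ I0.filter (fun u => u ∈ Ro c), ‖∑ v ∈ Co c, B u v * f v‖ ^ 2 / sz c ≤
      if (Ro c ∩ I0).Nonempty then r ^ 2 * (sz c * ∑ v ∈ Co c, ‖f v‖ ^ 2) else 0 := by
    intro c hc
    have hp := hpos c hc
    split_ifs with hne
    · have a1 : ∑ u ∈ I0.filter (fun u => u ∈ Ro c), ‖∑ v ∈ Co c, B u v * f v‖ ^ 2 ≤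
          (r * sz c) ^ 2 * ∑ v ∈ Co c, ‖f v‖ ^ 2 := by
        refine le_trans (Finset.sum_le_sum_of_subset_of_nonneg ?_ fun _ _ _ => sq_nonneg _)
          (hop c hc f)
        intro u hu
        exact (Finset.mem_filter.1 hu).2
      rw [← Finset.sum_div, div_le_iff₀ hp]
      refine a1.trans (le_of_eq ?_)
      ring
    · refine le_of_eq (Finset.sum_eq_zero fun u hu => ?_)
      exact absurd ⟨u, Finset.mem_inter.2 ⟨(Finset.mem_filter.1 hu).2,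
        (Finset.mem_filter.1 hu).1⟩⟩ hne
  have h3 : ∑ c ∈ A, (if (Ro c ∩ I0).Nonempty then r ^ 2 * (sz c * ∑ v ∈ Co c, ‖f v‖ ^ 2) else 0) =
      r ^ 2 * ∑ v ∈ J, (∑ c ∈ A.filter (fun c => v ∈ Co c ∧ (Ro c ∩ I0).Nonempty), sz c) *
        ‖f v‖ ^ 2 := by
    rw [← Finset.sum_filter, ← Finset.mul_sum]
    congr 1
    simp only [Finset.mul_sum, Finset.sum_mul]
    refine Finset.sum_comm' fun c v => ?_
    simp only [Finset.mem_filter]
    constructor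
    · rintro ⟨⟨h1, h2⟩, h3⟩
      exact ⟨⟨h1, h3, h2⟩, hco c h1 h3⟩
    · rintro ⟨⟨h1, h2, h3⟩, _⟩
      exact ⟨⟨h1, h3⟩, h2⟩
  have h4 : ∑ v ∈ J, (∑ c ∈ A.filter (fun c => v ∈ Co c ∧ (Ro c ∩ I0).Nonempty), sz c) *
        ‖f v‖ ^ 2 ≤ l * ∑ v ∈ J, ‖f v‖ ^ 2 := by
    rw [Finset.mul_sum]
    exact Finset.sum_le_sum fun v hv => mul_le_mul_of_nonneg_right (hcol v hv) (sq_nonneg _)
  calc S' * ∑ c ∈ A, ∑ u ∈ I0.filter (fun u => u ∈ Ro c), ‖∑ v ∈ Co c, B u v * f v‖ ^ 2 / sz c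
      ≤ S' * (r ^ 2 * (l * ∑ v ∈ J, ‖f v‖ ^ 2)) := by
        refine mul_le_mul_of_nonneg_left ?_ hS'
        exact (Finset.sum_le_sum h2).trans (h3.le.trans
          (mul_le_mul_of_nonneg_left h4 (sq_nonneg r)))
    _ = _ := by ring

/-- mass of the normalised row sums -/
theorem Til.mass (h : Til Tl I J Ro Co sz s) (hs : 0 < s)
    (hop : ∀ c ∈ Tl, OpS (Ro c) (Co c) B (r * sz c)) (f : ℤ → ℂ) :
    ∑ u ∈ I, ∑ c ∈ Tl.filter (fun c => u ∈ Ro c), sz c / s * ‖mm Co sz B f c u‖ ^ 2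
      ≤ r ^ 2 * ∑ v ∈ J, ‖f v‖ ^ 2 := by
  rw [sum_rows Tl I Ro (fun c u => sz c / s * ‖mm Co sz B f c u‖ ^ 2)]
  have h2 : ∀ c ∈ Tl, ∑ u ∈ I.filter (fun u => u ∈ Ro c), sz c / s * ‖mm Co sz B f c u‖ ^ 2 ≤
      r ^ 2 / s * (sz c * ∑ v ∈ Co c, ‖f v‖ ^ 2) := by
    intro c hc
    have hp := h.pos c hc
    have e1 : ∀ u, sz c / s * ‖mm Co sz B f c u‖ ^ 2 =
        ‖∑ v ∈ Co c, B u v * f v‖ ^ 2 / (s * sz c) := by
      intro u
      unfold mm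
      rw [norm_div, Complex.norm_real, Real.norm_of_nonneg hp.le]
      field_simp
    simp only [e1]
    have a1 : ∑ u ∈ I.filter (fun u => u ∈ Ro c), ‖∑ v ∈ Co c, B u v * f v‖ ^ 2 ≤
        (r * sz c) ^ 2 * ∑ v ∈ Co c, ‖f v‖ ^ 2 := by
      refine le_trans (Finset.sum_le_sum_of_subset_of_nonneg ?_ fun _ _ _ => sq_nonneg _)
        (hop c hc f)
      intro u hu
      exact (Finset.mem_filter.1 hu).2
    rw [← Finset.sum_div, div_le_iff₀ (mul_pos hs hp)]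
    refine a1.trans (le_of_eq ?_)
    field_simp
  refine (Finset.sum_le_sum h2).trans ?_
  have h3 : ∑ c ∈ Tl, r ^ 2 / s * (sz c * ∑ v ∈ Co c, ‖f v‖ ^ 2) =
      r ^ 2 / s * ∑ v ∈ J, (∑ c ∈ Tl.filter (fun c => v ∈ Co c), sz c) * ‖f v‖ ^ 2 := by
    rw [← Finset.mul_sum]
    congr 1
    simp only [Finset.mul_sum, Finset.sum_mul]
    refine Finset.sum_comm' fun c v => ?_
    simp only [Finset.mem_filter]
    constructor
    · rintro ⟨h1, h3⟩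
      exact ⟨⟨h1, h3⟩, h.co c h1 h3⟩
    · rintro ⟨⟨h1, h2⟩, _⟩
      exact ⟨h1, h2⟩
  have h4 : ∑ v ∈ J, (∑ c ∈ Tl.filter (fun c => v ∈ Co c), sz c) * ‖f v‖ ^ 2 ≤
      s * ∑ v ∈ J, ‖f v‖ ^ 2 := by
    rw [Finset.mul_sum]
    exact Finset.sum_le_sum fun v hv => mul_le_mul_of_nonneg_right (h.col v hv) (sq_nonneg _)
  rw [h3]
  calc r ^ 2 / s * ∑ v ∈ J, (∑ c ∈ Tl.filter (fun c => v ∈ Co c), sz c) * ‖f v‖ ^ 2
      ≤ r ^ 2 / s * (s * ∑ v ∈ J, ‖f v‖ ^ 2) :=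
        mul_le_mul_of_nonneg_left h4 (by positivity)
    _ = _ := by field_simp

/-- expansion of the square -/
lemma sq_expand (x m : ℂ) {r : ℝ} (hr : 0 < r) :
    ‖x - m / (r : ℂ)‖ ^ 2 = ‖x‖ ^ 2 - 2 / r * (conj x * m).re + ‖m‖ ^ 2 / r ^ 2 := by
  have e : ‖m‖ ^ 2 / r ^ 2 = ‖m / (r : ℂ)‖ ^ 2 := by
    rw [norm_div, Complex.norm_real, Real.norm_of_nonneg hr.le, div_pow]
  have e2 : 2 / r * (conj x * m).re = 2 * (conj x * (m / (r : ℂ))).re := by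
    have : conj x * (m / (r : ℂ)) = (conj x * m) / (r : ℂ) := by ring
    rw [this, Complex.div_ofReal_re]
    ring
  rw [e, e2]
  simp only [← Complex.normSq_eq_norm_sq, Complex.normSq_apply, Complex.sub_re, Complex.sub_im,
    Complex.mul_re, Complex.conj_re, Complex.conj_im]
  ring

/-- **LEMMA A** : the row sums over the single tiles are all close to `r * x u` -/
theorem Til.lemmaA (h : Til Tl I J Ro Co sz s) (hs : 0 < s) (hr : 0 < r)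
    (hop : ∀ c ∈ Tl, OpS (Ro c) (Co c) B (r * sz c)) {x y : ℤ → ℂ}
    (hx : ∑ u ∈ I, ‖x u‖ ^ 2 ≤ 1) (hy : ∑ v ∈ J, ‖y v‖ ^ 2 ≤ 1) :
    ∑ u ∈ I, ∑ c ∈ Tl.filter (fun c => u ∈ Ro c), sz c / s * ‖x u - mm Co sz B y c u / (r : ℂ)‖ ^ 2
      ≤ 2 / (r * s) * (r * s - ∑ u ∈ I, ∑ v ∈ J, (conj (x u) * (B u v * y v)).re) := by
  have e1 : ∑ u ∈ I, ∑ c ∈ Tl.filter (fun c => u ∈ Ro c),
        sz c / s * ‖x u - mm Co sz B y c u / (r : ℂ)‖ ^ 2 =
      ∑ u ∈ I, (∑ c ∈ Tl.filter (fun c => u ∈ Ro c), sz c) / s * ‖x u‖ ^ 2 -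
        2 / (r * s) * ∑ u ∈ I, ∑ v ∈ J, (conj (x u) * (B u v * y v)).re +
        (∑ u ∈ I, ∑ c ∈ Tl.filter (fun c => u ∈ Ro c), sz c / s * ‖mm Co sz B y c u‖ ^ 2) /
          r ^ 2 := by
    rw [Finset.mul_sum, Finset.sum_div, ← Finset.sum_sub_distrib, ← Finset.sum_add_distrib]
    refine Finset.sum_congr rfl fun u hu => ?_
    have e2 : ∑ v ∈ J, (conj (x u) * (B u v * y v)).re =
        ∑ c ∈ Tl.filter (fun c => u ∈ Ro c), sz c * (conj (x u) * mm Co sz B y c u).re := by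
      have e3 := h.sum_row hu (fun v => conj (x u) * (B u v * y v))
      have e4 := congrArg Complex.re e3
      rw [Complex.re_sum, Complex.re_sum] at e4
      rw [← e4]
      refine Finset.sum_congr rfl fun c hc => ?_
      have hp := h.pos c (Finset.mem_filter.1 hc).1
      have hpc : (sz c : ℂ) ≠ 0 := by exact_mod_cast hp.ne'
      rw [← Finset.mul_sum, ← Complex.re_ofReal_mul]
      congr 1
      unfold mm
      field_simp
    rw [e2, Finset.sum_div, Finset.mul_sum, Finset.sum_div, Finset.sum_mul,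
      ← Finset.sum_sub_distrib, ← Finset.sum_add_distrib]
    refine Finset.sum_congr rfl fun c hc => ?_
    rw [sq_expand _ _ hr]
    field_simp
  have h1 : ∑ u ∈ I, (∑ c ∈ Tl.filter (fun c => u ∈ Ro c), sz c) / s * ‖x u‖ ^ 2 ≤ 1 := by
    refine le_trans (Finset.sum_le_sum fun u hu => ?_) hx
    have := mul_le_mul_of_nonneg_right ((div_le_one hs).2 (h.row u hu)) (sq_nonneg ‖x u‖)
    linarith
  have h2 : (∑ u ∈ I, ∑ c ∈ Tl.filter (fun c => u ∈ Ro c), sz c / s * ‖mm Co sz B y c u‖ ^ 2) /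
      r ^ 2 ≤ 1 := by
    rw [div_le_one (by positivity)]
    refine (h.mass hs hop y).trans ?_
    have := mul_le_mul_of_nonneg_left hy (sq_nonneg r)
    linarith
  rw [e1]
  have h3 : 2 / (r * s) * (r * s - ∑ u ∈ I, ∑ v ∈ J, (conj (x u) * (B u v * y v)).re) =
      2 - 2 / (r * s) * ∑ u ∈ I, ∑ v ∈ J, (conj (x u) * (B u v * y v)).re := by
    field_simp
  rw [h3]
  linarith

/-- the deficiency is nonnegative -/
theorem Til.defi (h : Til Tl I J Ro Co sz s) (hs : 0 < s) (hr : 0 < r)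
    (hop : ∀ c ∈ Tl, OpS (Ro c) (Co c) B (r * sz c)) {x y : ℤ → ℂ}
    (hx : ∑ u ∈ I, ‖x u‖ ^ 2 ≤ 1) (hy : ∑ v ∈ J, ‖y v‖ ^ 2 ≤ 1) :
    0 ≤ r * s - ∑ u ∈ I, ∑ v ∈ J, (conj (x u) * (B u v * y v)).re := by
  have h1 := h.lemmaA hs hr hop hx hy
  have h2 : 0 ≤ ∑ u ∈ I, ∑ c ∈ Tl.filter (fun c => u ∈ Ro c),
      sz c / s * ‖x u - mm Co sz B y c u / (r : ℂ)‖ ^ 2 :=
    Finset.sum_nonneg fun u _ => Finset.sum_nonneg fun c hc =>
      mul_nonneg (div_nonneg (h.pos c (Finset.mem_filter.1 hc).1).le hs.le) (sq_nonneg _)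
  have h3 := h2.trans h1
  by_contra hneg
  have h4 : 2 / (r * s) * (r * s - ∑ u ∈ I, ∑ v ∈ J, (conj (x u) * (B u v * y v)).re) < 0 :=
    mul_neg_of_pos_of_neg (by positivity) (not_le.1 hneg)
  linarith

/-- **mean over a part of the tiles of the row** -/
theorem jensen {A : Finset τ} (hpos : ∀ c ∈ A, 0 < sz c) (hs : 0 < s) (hr : 0 < r) (x : ℂ)
    (y : ℤ → ℂ) (u : ℤ) (hN : 0 < ∑ c ∈ A.filter (fun c => u ∈ Ro c), sz c) :
    ‖x - (∑ c ∈ A.filter (fun c => u ∈ Ro c), ∑ v ∈ Co c, B u v * y v) /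
        ((r * ∑ c ∈ A.filter (fun c => u ∈ Ro c), sz c : ℝ) : ℂ)‖ ^ 2
      ≤ s / (∑ c ∈ A.filter (fun c => u ∈ Ro c), sz c) *
        ∑ c ∈ A.filter (fun c => u ∈ Ro c), sz c / s * ‖x - mm Co sz B y c u / (r : ℂ)‖ ^ 2 := by
  set N : ℝ := ∑ c ∈ A.filter (fun c => u ∈ Ro c), sz c with hNd
  have hNc : (N : ℂ) ≠ 0 := by exact_mod_cast hN.ne'
  have hrc : (r : ℂ) ≠ 0 := by exact_mod_cast hr.ne'
  have e1 : (N : ℂ) * (x - (∑ c ∈ A.filter (fun c => u ∈ Ro c), ∑ v ∈ Co c, B u v * y v) /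
        ((r * N : ℝ) : ℂ)) =
      ∑ c ∈ A.filter (fun c => u ∈ Ro c), (sz c : ℂ) * (x - mm Co sz B y c u / (r : ℂ)) := by
    have e2 : ∀ c ∈ A.filter (fun c => u ∈ Ro c), (sz c : ℂ) * (x - mm Co sz B y c u / (r : ℂ)) =
        (sz c : ℂ) * x - (∑ v ∈ Co c, B u v * y v) / (r : ℂ) := by
      intro c hc
      have hp : (sz c : ℂ) ≠ 0 := by exact_mod_cast (hpos c (Finset.mem_filter.1 hc).1).ne'
      unfold mm
      field_simp
    rw [Finset.sum_congr rfl e2, Finset.sum_sub_distrib, ← Finset.sum_mul, ← Finset.sum_div,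
      mul_sub]
    congr 1
    · rw [hNd]
      push_cast
      rfl
    · push_cast
      field_simp
  have h1 : ‖(N : ℂ) * (x - (∑ c ∈ A.filter (fun c => u ∈ Ro c), ∑ v ∈ Co c, B u v * y v) /
        ((r * N : ℝ) : ℂ))‖ ^ 2 ≤
      N * ∑ c ∈ A.filter (fun c => u ∈ Ro c), sz c * ‖x - mm Co sz B y c u / (r : ℂ)‖ ^ 2 := by
    rw [e1]
    have a1 : ‖∑ c ∈ A.filter (fun c => u ∈ Ro c), (sz c : ℂ) *
          (x - mm Co sz B y c u / (r : ℂ))‖ ^ 2 ≤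
        (∑ c ∈ A.filter (fun c => u ∈ Ro c), sz c * ‖x - mm Co sz B y c u / (r : ℂ)‖) ^ 2 := by
      refine pow_le_pow_left₀ (norm_nonneg _) ((norm_sum_le _ _).trans (le_of_eq ?_)) 2
      refine Finset.sum_congr rfl fun c hc => ?_
      rw [norm_mul, Complex.norm_real, Real.norm_of_nonneg (hpos c (Finset.mem_filter.1 hc).1).le]
    refine a1.trans ?_
    refine Finset.sum_sq_le_sum_mul_sum_of_sq_le_mul _ (fun c hc => ?_) (fun c hc => ?_)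
      fun c hc => ?_
    · exact (hpos c (Finset.mem_filter.1 hc).1).le
    · exact mul_nonneg (hpos c (Finset.mem_filter.1 hc).1).le (sq_nonneg _)
    · refine le_of_eq ?_
      ring
  rw [norm_mul, Complex.norm_real, Real.norm_of_nonneg hN.le, mul_pow] at h1
  have e3 : s / N * ∑ c ∈ A.filter (fun c => u ∈ Ro c),
        sz c / s * ‖x - mm Co sz B y c u / (r : ℂ)‖ ^ 2 =
      (∑ c ∈ A.filter (fun c => u ∈ Ro c), sz c * ‖x - mm Co sz B y c u / (r : ℂ)‖ ^ 2) / N := by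
    rw [Finset.mul_sum, Finset.sum_div]
    refine Finset.sum_congr rfl fun c _ => ?_
    field_simp
  rw [e3, le_div_iff₀ hN]
  have h2 : N * (‖x - (∑ c ∈ A.filter (fun c => u ∈ Ro c), ∑ v ∈ Co c, B u v * y v) /
        ((r * N : ℝ) : ℂ)‖ ^ 2 * N) ≤
      N * ∑ c ∈ A.filter (fun c => u ∈ Ro c), sz c * ‖x - mm Co sz B y c u / (r : ℂ)‖ ^ 2 := by
    refine le_trans (le_of_eq ?_) h1
    ring
  exact le_of_mul_le_mul_left h2 hN

end tiles

/-- Bessel family with constant `b` on `J` -/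
def Bes {κ : Type*} [Fintype κ] (J : Finset ℤ) (V : κ → ℤ → ℂ) (b : ℝ) : Prop :=
  ∀ c : κ → ℂ, ∑ v ∈ J, ‖∑ k, c k * V k v‖ ^ 2 ≤ b * ∑ k, ‖c k‖ ^ 2

section bes

variable {κ : Type*} [Fintype κ] {I J : Finset ℤ} {V : κ → ℤ → ℂ} {b : ℝ}

lemma Bes.mono {J' : Finset ℤ} (h : Bes J V b) (hJ : J' ⊆ J) : Bes J' V b := fun c =>
  (Finset.sum_le_sum_of_subset_of_nonneg hJ fun _ _ _ => sq_nonneg _).trans (h c)

lemma Bes.mono_b {b' : ℝ} (h : Bes J V b) (hb : b ≤ b') : Bes J V b' := fun c =>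
  (h c).trans (mul_le_mul_of_nonneg_right hb (Finset.sum_nonneg fun _ _ => sq_nonneg _))

/-- Hilbert-Schmidt norm, one factor a Bessel family (columns may depend on the row) -/
theorem hs_bes_dep (Jr : ℤ → Finset ℤ) (h : ∀ u ∈ I, Bes (Jr u) V b) (x : κ → ℤ → ℂ) :
    ∑ u ∈ I, ∑ v ∈ Jr u, ‖∑ k, x k u * V k v‖ ^ 2 ≤ b * ∑ u ∈ I, ∑ k, ‖x k u‖ ^ 2 := by
  rw [Finset.mul_sum]
  exact Finset.sum_le_sum fun u hu => h u hu fun k => x k u

theorem hs_bes (h : Bes J V b) (x : κ → ℤ → ℂ) :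
    ∑ u ∈ I, ∑ v ∈ J, ‖∑ k, x k u * V k v‖ ^ 2 ≤ b * ∑ k, ∑ u ∈ I, ‖x k u‖ ^ 2 := by
  rw [Finset.sum_comm (s := (univ : Finset κ))]
  exact hs_bes_dep (fun _ => J) (fun _ _ => h) x

/-- image of a Bessel family under a kernel with an operator bound -/
theorem Bes.image (h : Bes J V b) {I0 : Finset ℤ} {K : ℤ → ℤ → ℂ} {o : ℝ}
    (hK : OpS I0 J K o) : Bes I0 (fun k u => ∑ v ∈ J, K u v * V k v) (o ^ 2 * b) := by
  intro c
  have e : ∀ u, ∑ k, c k * ∑ v ∈ J, K u v * V k v = ∑ v ∈ J, K u v * ∑ k, c k * V k v := by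
    intro u
    simp only [Finset.mul_sum]
    rw [Finset.sum_comm]
    refine Finset.sum_congr rfl fun v _ => Finset.sum_congr rfl fun k _ => ?_
    ring
  simp only [e]
  have h1 := hK (fun v => ∑ k, c k * V k v)
  have h2 := mul_le_mul_of_nonneg_left (h c) (sq_nonneg o)
  refine h1.trans (h2.trans (le_of_eq ?_))
  ring

/-- each member of a Bessel family -/
lemma Bes.single (h : Bes J V b) (k : κ) : ∑ v ∈ J, ‖V k v‖ ^ 2 ≤ b := by
  classical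
  have h1 := h (Pi.single k 1)
  have e1 : ∀ v, ∑ k', (Pi.single k (1 : ℂ) : κ → ℂ) k' * V k' v = V k v := by
    intro v
    rw [Finset.sum_eq_single k]
    · simp
    · intro k' _ hk
      simp [hk]
    · simp
  have e2 : ∑ k', ‖(Pi.single k (1 : ℂ) : κ → ℂ) k'‖ ^ 2 = 1 := by
    rw [Finset.sum_eq_single k]
    · simp
    · intro k' _ hk
      simp [hk]
    · simp
  simp only [e1] at h1
  rw [e2, mul_one] at h1
  exact h1

end bes

end Crest.Agent.R079.NrMx259
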