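import Crest.Agent.R079.NrX_259

/-! R079, notes 1820 / 1922 (T5c), helper259: DOMINATION OF THE FRAMES of one cell, in CG form.

`majU_cg` : the rows `Pu` of a grid node on a block of length `2 ^ l` are dominated by the kernel `CU`;
`majW_cg` : the columns. -/

set_option autoImplicit false

namespace Crest.Agent.R079.NrPx259

open Finset Crest.Agent.R079.Grid Crest.Agent.R079.NrTx259
  Crest.Agent.R079.NrUx259 Crest.Agent.R079.NrWx259 Crest.Agent.R079.NrAx228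
open Crest.Agent.R079.NrBx228 (y1 x1 yt xt Pu Qv CU CW)
open Crest.Agent.R079.NrCx228 (CG bf_x1 bf_y1)
open Crest.Agent.R079.ClW59 (OpS)

open scoped ComplexConjugate

/-- constant of the domination -/
noncomputable def cm (kc : ℕ) (θ : ℝ) : ℝ := 514 * 2 ^ kc / θ ^ 2

lemma cm_nn (kc : ℕ) (θ : ℝ) : 0 ≤ cm kc θ := by
  unfold cm
  positivity

section one

variable {β : Type} {m : ℕ} {a b : ℤ} {Ti E1 : Finset (ℕ × ℤ × ℤ)} {Q : Finset β}
  {E2 : β → Finset (ℕ × ℤ × ℤ)} {P : β → ℤ → ℤ → Prop} {l kc : ℕ} {θ : ℝ}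
  {A B : ℤ → ℤ → ℂ} {S T : Finset ℤ} {s : ℤ → ℝ} {Y X : ℤ → ℤ → ℂ} {r : ℝ}

lemma dI_diam {n : ℕ} {a u u' : ℤ} (h : u ∈ dI n a) (h' : u' ∈ dI n a) : |u - u'| ≤ 2 ^ n := by
  unfold dI at h h'
  rw [Finset.mem_Ico] at h h'
  rw [abs_le]
  constructor <;> nlinarith [h.1, h.2, h'.1, h'.2]

/-- spread on a set of diameter `≤ 2 ^ (l + 8)`, columns -/
theorem x1E (G : CG m a b Ti E1 Q E2 P l kc θ) (H : SvC A S T s Y X) (hS : S ⊆ dI m a)
    (hr : 0 < r) (hθ : 0 < θ) (hop : ∀ c ∈ Ti, OpS (Rw c) (Cl c) B (r * 2 ^ c.1))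
    {J : Finset ℤ} (hJ : J ⊆ dI m b) (hw : ∀ v ∈ J, ∀ v' ∈ J, |v - v'| ≤ 2 ^ (l + 8)) :
    BF T J (x1 m a E1 B r Y) (514 * (2 ^ (l + kc) / 2 ^ m / θ ^ 2)) := by
  rcases J.eq_empty_or_nonempty with h0 | ⟨w, hw0⟩
  · subst h0
    intro c
    rw [Finset.sum_empty]
    exact mul_nonneg (by positivity) (Finset.sum_nonneg fun _ _ => sq_nonneg _)
  · have h1 := bf_x1 G hr hθ hop H hS hJ (x := w - 2 ^ (l + 8)) (y := w + 2 ^ (l + 8) + 1)
      (N := 513) (by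
        have h1 : (1 : ℤ) ≤ 2 ^ l := one_le_pow₀ (by norm_num)
        rw [pow_add]
        push_cast
        linarith) (by
        intro v hv
        have := abs_le.1 (hw v hv w hw0)
        rw [Finset.mem_Ico]
        constructor <;> linarith)
    refine h1.mono_b (le_of_eq ?_)
    push_cast
    norm_num

/-- spread on a set of diameter `≤ 2 ^ (l + 8)`, rows -/
theorem y1E (G : CG m a b Ti E1 Q E2 P l kc θ) (H : SvC A S T s Y X) (hT : T ⊆ dI m b)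
    (hr : 0 < r) (hθ : 0 < θ) (hop : ∀ c ∈ Ti, OpS (Rw c) (Cl c) B (r * 2 ^ c.1))
    {I : Finset ℤ} (hI : I ⊆ dI m a) (hw : ∀ v ∈ I, ∀ v' ∈ I, |v - v'| ≤ 2 ^ (l + 8)) :
    BF T I (y1 m b E1 B r X) (514 * (2 ^ (l + kc) / 2 ^ m / θ ^ 2)) := by
  rcases I.eq_empty_or_nonempty with h0 | ⟨w, hw0⟩
  · subst h0
    intro c
    rw [Finset.sum_empty]
    exact mul_nonneg (by positivity) (Finset.sum_nonneg fun _ _ => sq_nonneg _)
  · have h1 := bf_y1 G hr hθ hop H hT hI (x := w - 2 ^ (l + 8)) (y := w + 2 ^ (l + 8) + 1)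
      (N := 513) (by
        have h1 : (1 : ℤ) ≤ 2 ^ l := one_le_pow₀ (by norm_num)
        rw [pow_add]
        push_cast
        linarith) (by
        intro v hv
        have := abs_le.1 (hw v hv w hw0)
        rw [Finset.mem_Ico]
        constructor <;> linarith)
    refine h1.mono_b (le_of_eq ?_)
    push_cast
    norm_num

/-- a row of the frames through the dominating kernel -/
lemma Pu_eq {A2 : Finset (ℕ × ℤ × ℤ)} {lq : ℝ} (hr : 0 < r) (hq : 0 < lq) {d : ℤ → ℝ} (k u : ℤ) :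
    Pu m a b E1 A2 B r lq Y d u k =
      ((Real.sqrt (d k) / (r * lq) : ℝ) : ℂ) *
        ∑ v ∈ dI m b, CU A2 B lq u v * x1 m a E1 B r Y k v := by
  classical
  unfold Pu yt CU
  split_ifs with h
  · have h0 : 0 < wt A2 u := lt_of_lt_of_le hq h
    have e1 : ∑ v ∈ dI m b, ((lq / wt A2 u : ℝ) : ℂ) * mB A2 B u v * x1 m a E1 B r Y k v =
        ((lq / wt A2 u : ℝ) : ℂ) * ∑ v ∈ dI m b, mB A2 B u v * x1 m a E1 B r Y k v := by
      rw [Finset.mul_sum]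
      exact Finset.sum_congr rfl fun v _ => by ring
    rw [e1]
    unfold avg
    have hrc : (r : ℂ) ≠ 0 := by exact_mod_cast hr.ne'
    have hqc : (lq : ℂ) ≠ 0 := by exact_mod_cast hq.ne'
    have hwc : (wt A2 u : ℂ) ≠ 0 := by exact_mod_cast h0.ne'
    push_cast
    field_simp
  · simp

/-- a column of the frames through the dominating kernel -/
lemma Qv_eq {A2 : Finset (ℕ × ℤ × ℤ)} {lq : ℝ} (hr : 0 < r) (hq : 0 < lq) {d : ℤ → ℝ} (k v : ℤ) :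
    Qv m a b E1 A2 B r lq X d v k =
      ((Real.sqrt (d k) / (r * lq) : ℝ) : ℂ) *
        ∑ u ∈ dI m a, CW A2 B lq u v * conj (y1 m b E1 B r X k u) := by
  classical
  unfold Qv xt CW
  split_ifs with h
  · have h0 : 0 < wtc A2 v := lt_of_lt_of_le hq h
    have e1 : ∑ u ∈ dI m a, ((lq / wtc A2 v : ℝ) : ℂ) * mB A2 B u v *
        conj (y1 m b E1 B r X k u) =
        ((lq / wtc A2 v : ℝ) : ℂ) * ∑ u ∈ dI m a, mB A2 B u v * conj (y1 m b E1 B r X k u) := by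
      rw [Finset.mul_sum]
      exact Finset.sum_congr rfl fun v _ => by ring
    rw [e1]
    have e2 : conj (avgc m a A2 B r (y1 m b E1 B r X k) v) =
        (∑ u ∈ dI m a, mB A2 B u v * conj (y1 m b E1 B r X k u)) / ((r * wtc A2 v : ℝ) : ℂ) := by
      unfold avgc
      rw [map_div₀, map_sum, Complex.conj_ofReal]
      congr 1
      exact Finset.sum_congr rfl fun u _ => by rw [map_mul, Complex.conj_conj]
    rw [e2]
    have hrc : (r : ℂ) ≠ 0 := by exact_mod_cast hr.ne'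
    have hqc : (lq : ℂ) ≠ 0 := by exact_mod_cast hq.ne'
    have hwc : (wtc A2 v : ℂ) ≠ 0 := by exact_mod_cast h0.ne'
    push_cast
    field_simp
  · simp

/-- abstract domination -/
theorem maj_abs {K I J : Finset ℤ} {p : ℤ → ℤ → ℂ} {C : ℤ → ℤ → ℂ} {x : ℤ → ℤ → ℂ} {d : ℤ → ℝ}
    {c D b1 : ℝ} (hc : 0 < c) (hD0 : 0 ≤ D) (hD : ∀ k ∈ K, d k ≤ D) (hd : ∀ k ∈ K, 0 ≤ d k) (hb : 0 ≤ b1)
    (hp : ∀ k ∈ K, ∀ u ∈ I, p u k = ((Real.sqrt (d k) / c : ℝ) : ℂ) * ∑ v ∈ J, C u v * x k v)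
    {J' : Finset ℤ} (hJ' : J' ⊆ J) (h0 : ∀ u ∈ I, ∀ v ∈ J, v ∉ J' → C u v = 0)
    (hx : BF K J' x b1) (f : ℤ → ℂ) :
    ∑ k ∈ K, ‖∑ u ∈ I, f u * p u k‖ ^ 2 ≤
      D * b1 / c ^ 2 * ∑ v ∈ J, ‖∑ u ∈ I, f u * C u v‖ ^ 2 := by
  have e1 : ∀ k ∈ K, ∑ u ∈ I, f u * p u k = ((Real.sqrt (d k) / c : ℝ) : ℂ) *
      ∑ v ∈ J', (∑ u ∈ I, f u * C u v) * x k v := by
    intro k hk
    have e2 : ∑ v ∈ J', (∑ u ∈ I, f u * C u v) * x k v =
        ∑ u ∈ I, f u * ∑ v ∈ J, C u v * x k v := by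
      have e3 : ∀ u ∈ I, f u * ∑ v ∈ J, C u v * x k v = ∑ v ∈ J', f u * C u v * x k v := by
        intro u hu
        rw [← Finset.sum_subset hJ' (f := fun v => C u v * x k v)
          (fun v hv hv' => by rw [h0 u hu v hv hv', zero_mul]), Finset.mul_sum]
        exact Finset.sum_congr rfl fun v _ => by ring
      rw [Finset.sum_congr rfl e3, Finset.sum_comm]
      exact Finset.sum_congr rfl fun v _ => by rw [Finset.sum_mul]
    rw [e2, Finset.mul_sum]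
    refine Finset.sum_congr rfl fun u hu => ?_
    rw [hp k hk u hu]
    ring
  have e4 : ∀ k ∈ K, ‖∑ u ∈ I, f u * p u k‖ ^ 2 ≤ D / c ^ 2 *
      ‖∑ v ∈ J', (∑ u ∈ I, f u * C u v) * x k v‖ ^ 2 := by
    intro k hk
    rw [e1 k hk, norm_mul, mul_pow, Complex.norm_real, Real.norm_eq_abs, sq_abs, div_pow,
      Real.sq_sqrt (hd k hk)]
    refine mul_le_mul_of_nonneg_right ?_ (sq_nonneg _)
    exact div_le_div_of_nonneg_right (hD k hk) (by positivity)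
  refine (Finset.sum_le_sum e4).trans ?_
  rw [← Finset.mul_sum]
  have h1 := hx.dual hb (fun v => ∑ u ∈ I, f u * C u v)
  have h2 : ∑ v ∈ J', ‖∑ u ∈ I, f u * C u v‖ ^ 2 ≤ ∑ v ∈ J, ‖∑ u ∈ I, f u * C u v‖ ^ 2 :=
    Finset.sum_le_sum_of_subset_of_nonneg hJ' fun _ _ _ => sq_nonneg _
  calc D / c ^ 2 * ∑ k ∈ K, ‖∑ v ∈ J', (∑ u ∈ I, f u * C u v) * x k v‖ ^ 2
      ≤ D / c ^ 2 * (b1 * ∑ v ∈ J', ‖∑ u ∈ I, f u * C u v‖ ^ 2) :=
        mul_le_mul_of_nonneg_left h1 (by positivity)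
    _ ≤ D / c ^ 2 * (b1 * ∑ v ∈ J, ‖∑ u ∈ I, f u * C u v‖ ^ 2) :=
        mul_le_mul_of_nonneg_left (mul_le_mul_of_nonneg_left h2 hb) (by positivity)
    _ = _ := by ring

/-- **domination, rows** -/
theorem majU_cg (G : CG m a b Ti E1 Q E2 P l kc θ) (H : SvC A S T s Y X) (hS : S ⊆ dI m a)
    (hr : 0 < r) (hθ : 0 < θ) (hop : ∀ c ∈ Ti, OpS (Rw c) (Cl c) B (r * 2 ^ c.1)) {q : β}
    (hq : q ∈ Q) (hP : ∀ u ∈ dI m a, ∀ u' ∈ dI m a, ∀ v ∈ dI m b, ∀ v' ∈ dI m b, P q u v →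
      P q u' v' → |u - u'| ≤ 2 ^ l → |v - v'| ≤ 2 ^ (l + 8)) {d : ℤ → ℝ} {D0 : ℝ} (hD0 : 0 ≤ D0)
    (hd0 : ∀ k ∈ T, 0 ≤ d k) (hd : ∀ k ∈ T, d k ≤ D0 * 2 ^ m) (a' : ℤ) (f : ℤ → ℂ) :
    ∑ k ∈ T, ‖∑ u ∈ dI l a' ∩ dI m a, f u * Pu m a b E1 (E2 q) B r (2 ^ l) Y d u k‖ ^ 2 ≤
      (cm kc θ * D0 / r ^ 2) / 2 ^ l * ∑ v ∈ dI m b, ‖∑ u ∈ dI l a' ∩ dI m a,
        f u * CU (E2 q) B (2 ^ l) u v‖ ^ 2 := by
  classical
  set J' := (dI m b).filter (fun v => ∃ u ∈ dI l a' ∩ dI m a, P q u v) with hJ'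
  have h1 := maj_abs (K := T) (I := dI l a' ∩ dI m a) (J := dI m b)
    (p := fun u k => Pu m a b E1 (E2 q) B r (2 ^ l) Y d u k) (C := fun u v => CU (E2 q) B (2 ^ l) u v)
    (x := x1 m a E1 B r Y) (d := d) (c := r * 2 ^ l) (D := D0 * 2 ^ m)
    (b1 := 514 * (2 ^ (l + kc) / 2 ^ m / θ ^ 2)) (by positivity) (by positivity) hd hd0
    (by positivity) (fun k _ u _ => Pu_eq hr (by positivity) k u) (J' := J')
    (Finset.filter_subset _ _) (fun u hu v hv hv' => by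
      unfold CU
      split_ifs with h
      · have h2 : mB (E2 q) B u v = 0 := by
          unfold mB
          rw [if_neg]
          rintro ⟨c, hc, h3, h4⟩
          exact hv' (Finset.mem_filter.2 ⟨hv, u, hu, G.E2P q hq c hc u h3 v h4⟩)
        rw [h2, mul_zero]
      · rfl)
    (x1E G H hS hr hθ hop (Finset.filter_subset _ _) (fun v hv v' hv' => by
      obtain ⟨hv1, u, hu, hPu⟩ := Finset.mem_filter.1 hv
      obtain ⟨hv1', u', hu', hPu'⟩ := Finset.mem_filter.1 hv'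
      rw [Finset.mem_inter] at hu hu'
      exact hP u hu.2 u' hu'.2 v hv1 v' hv1' hPu hPu' (dI_diam hu.1 hu'.1))) f
  refine h1.trans (le_of_eq ?_)
  congr 1
  unfold cm
  rw [pow_add]
  field_simp

/-- **domination, columns** -/
theorem majW_cg (G : CG m a b Ti E1 Q E2 P l kc θ) (H : SvC A S T s Y X) (hT : T ⊆ dI m b)
    (hr : 0 < r) (hθ : 0 < θ) (hop : ∀ c ∈ Ti, OpS (Rw c) (Cl c) B (r * 2 ^ c.1)) {q : β}
    (hq : q ∈ Q) (hP : ∀ u ∈ dI m a, ∀ u' ∈ dI m a, ∀ v ∈ dI m b, ∀ v' ∈ dI m b, P q u v →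
      P q u' v' → |v - v'| ≤ 2 ^ l → |u - u'| ≤ 2 ^ (l + 8)) {d : ℤ → ℝ} {D0 : ℝ} (hD0 : 0 ≤ D0)
    (hd0 : ∀ k ∈ T, 0 ≤ d k) (hd : ∀ k ∈ T, d k ≤ D0 * 2 ^ m) (b' : ℤ) (f : ℤ → ℂ) :
    ∑ k ∈ T, ‖∑ v ∈ dI l b' ∩ dI m b, f v * Qv m a b E1 (E2 q) B r (2 ^ l) X d v k‖ ^ 2 ≤
      (cm kc θ * D0 / r ^ 2) / 2 ^ l * ∑ u ∈ dI m a, ‖∑ v ∈ dI l b' ∩ dI m b,
        f v * CW (E2 q) B (2 ^ l) u v‖ ^ 2 := by
  classical
  set I' := (dI m a).filter (fun u => ∃ v ∈ dI l b' ∩ dI m b, P q u v) with hI'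
  have h1 := maj_abs (K := T) (I := dI l b' ∩ dI m b) (J := dI m a)
    (p := fun v k => Qv m a b E1 (E2 q) B r (2 ^ l) X d v k) (C := fun v u => CW (E2 q) B (2 ^ l) u v)
    (x := fun k u => conj (y1 m b E1 B r X k u)) (d := d) (c := r * 2 ^ l) (D := D0 * 2 ^ m)
    (b1 := 514 * (2 ^ (l + kc) / 2 ^ m / θ ^ 2)) (by positivity) (by positivity) hd hd0
    (by positivity) (fun k _ v _ => Qv_eq hr (by positivity) k v) (J' := I')
    (Finset.filter_subset _ _) (fun v hv u hu hu' => by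
      unfold CW
      split_ifs with h
      · have h2 : mB (E2 q) B u v = 0 := by
          unfold mB
          rw [if_neg]
          rintro ⟨c, hc, h3, h4⟩
          exact hu' (Finset.mem_filter.2 ⟨hu, v, hv, G.E2P q hq c hc u h3 v h4⟩)
        rw [h2, mul_zero]
      · rfl)
    ((y1E G H hT hr hθ hop (Finset.filter_subset _ _) (fun u hu u' hu' => by
      obtain ⟨hu1, v, hv, hPv⟩ := Finset.mem_filter.1 hu
      obtain ⟨hu1', v', hv', hPv'⟩ := Finset.mem_filter.1 hu'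
      rw [Finset.mem_inter] at hv hv'
      exact hP u hu1 u' hu1' v hv.2 v' hv'.2 hPv hPv' (dI_diam hv.1 hv'.1))).star) f
  refine h1.trans (le_of_eq ?_)
  congr 1
  unfold cm
  rw [pow_add]
  field_simp

end one

end Crest.Agent.R079.NrPx259
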