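import Crest.Agent.R079.NrC_228

/-! R079, notes 1820 / 1922 (T3), helper259: ONE CELL, complete, in the names of NrB_228.

`R1, R1c` : Lemma A on the alive tiles of all grid nodes; `R2, R2c` : means of a vector;
`wt_le8`, `wtc_le8` : weights of the alive tiles of a grid node; `ytB` : spread of `yt`;
`cell` : the frames of the cell approximate the step of the ladder up to
`CA * (r' - r) / r * Gd + CB * 2 ^ l / 2 ^ m * ∑ dk ^ 2`. -/

set_option autoImplicit false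

namespace Crest.Agent.R079.NrXx259

open Finset Crest.Agent.R079.Grid Crest.Agent.R079.NrTx259
  Crest.Agent.R079.NrUx259 Crest.Agent.R079.NrWx259 Crest.Agent.R079.NrAx228
open Crest.Agent.R079.NrBx228 (y1 x1 yt xt Pu Qv PuQv)
open Crest.Agent.R079.NrCx228 (CG edg be edges bf_x1 bf_y1)
open Crest.Agent.R079.ClW59 (OpS)
open Crest.Agent.R079.NrSx248 (Syn strip_abs)

open scoped ComplexConjugate

section rows

variable {m : ℕ} {a b : ℤ} {Ti A : Finset (ℕ × ℤ × ℤ)} {ι : Type} {Qs : Finset ι}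
  {A2 : ι → Finset (ℕ × ℤ × ℤ)} {B : ℤ → ℤ → ℂ} {r lq M : ℝ}

/-- Lemma A on the alive tiles of all grid nodes, rows -/
theorem R1 (h : Tlg m a b Ti) (hA : ∀ q ∈ Qs, A2 q ⊆ Ti)
    (dj : ∀ q ∈ Qs, ∀ q' ∈ Qs, ∀ c, c ∈ A2 q → c ∈ A2 q' → q = q') (hr : 0 < r) (hq : 0 < lq)
    (hop : ∀ c ∈ Ti, OpS (Rw c) (Cl c) B (r * 2 ^ c.1)) (y x : ℤ → ℂ) {I : ι → Finset ℤ}
    (hI : ∀ q ∈ Qs, I q ⊆ dI m a) (hw : ∀ q ∈ Qs, ∀ u ∈ I q, lq ≤ wt (A2 q) u) :
    ∑ q ∈ Qs, ∑ u ∈ I q, ‖y u - avg m b (A2 q) B r x u‖ ^ 2 ≤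
      2 ^ m / lq * (∑ u ∈ dI m a, ‖y u‖ ^ 2 + ∑ v ∈ dI m b, ‖x v‖ ^ 2 -
        2 / (r * 2 ^ m) * (∑ u ∈ dI m a, ∑ v ∈ dI m b, conj (y u) * (B u v * x v)).re) := by
  classical
  have h1 := lemA h hr hop y x
  refine le_trans ?_ (mul_le_mul_of_nonneg_left h1 (by positivity))
  set g : ℤ → ℕ × ℤ × ℤ → ℝ := fun u c => (2 : ℝ) ^ c.1 / 2 ^ m * ‖y u - mc B r x c u‖ ^ 2 with hg
  have hg0 : ∀ u c, 0 ≤ g u c := fun u c => by positivity
  have h2 : ∀ q ∈ Qs, ∑ u ∈ I q, ‖y u - avg m b (A2 q) B r x u‖ ^ 2 ≤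
      2 ^ m / lq * ∑ u ∈ dI m a, ∑ c ∈ (A2 q).filter (fun c => u ∈ Rw c), g u c := by
    intro q hqq
    rw [Finset.mul_sum]
    refine le_trans (Finset.sum_le_sum fun u hu => ?_)
      (Finset.sum_le_sum_of_subset_of_nonneg (hI q hqq) fun u _ _ => ?_)
    · have hw0 : 0 < wt (A2 q) u := lt_of_lt_of_le hq (hw q hqq u hu)
      refine (jen h (hA q hqq) hr (y u) x hw0).trans ?_
      refine mul_le_mul_of_nonneg_right ?_ (Finset.sum_nonneg fun c _ => hg0 u c)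
      exact div_le_div_of_nonneg_left (by positivity) hq (hw q hqq u hu)
    · exact mul_nonneg (by positivity) (Finset.sum_nonneg fun c _ => hg0 u c)
  refine (Finset.sum_le_sum h2).trans ?_
  rw [← Finset.mul_sum]
  refine mul_le_mul_of_nonneg_left ?_ (by positivity)
  rw [Finset.sum_comm]
  refine Finset.sum_le_sum fun u _ => ?_
  rw [← Finset.sum_biUnion]
  · refine Finset.sum_le_sum_of_subset_of_nonneg (fun c hc => ?_) fun c _ _ => hg0 u c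
    obtain ⟨q, hqq, hc⟩ := Finset.mem_biUnion.1 hc
    rw [Finset.mem_filter] at hc ⊢
    exact ⟨hA q hqq hc.1, hc.2⟩
  · intro q hqq q' hq' hne
    refine Finset.disjoint_left.2 fun c hc hc' => hne ?_
    exact dj q hqq q' hq' c (Finset.mem_filter.1 hc).1 (Finset.mem_filter.1 hc').1

/-- Lemma A on the alive tiles of all grid nodes, columns -/
theorem R1c (h : Tlg m a b Ti) (hA : ∀ q ∈ Qs, A2 q ⊆ Ti)
    (dj : ∀ q ∈ Qs, ∀ q' ∈ Qs, ∀ c, c ∈ A2 q → c ∈ A2 q' → q = q') (hr : 0 < r) (hq : 0 < lq)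
    (hop : ∀ c ∈ Ti, OpS (Rw c) (Cl c) B (r * 2 ^ c.1)) (y x : ℤ → ℂ) {J : ι → Finset ℤ}
    (hJ : ∀ q ∈ Qs, J q ⊆ dI m b) (hw : ∀ q ∈ Qs, ∀ v ∈ J q, lq ≤ wtc (A2 q) v) :
    ∑ q ∈ Qs, ∑ v ∈ J q, ‖x v - avgc m a (A2 q) B r y v‖ ^ 2 ≤
      2 ^ m / lq * (∑ u ∈ dI m a, ‖y u‖ ^ 2 + ∑ v ∈ dI m b, ‖x v‖ ^ 2 -
        2 / (r * 2 ^ m) * (∑ u ∈ dI m a, ∑ v ∈ dI m b, conj (y u) * (B u v * x v)).re) := by
  have h1 := R1 (A2 := fun q => (A2 q).image sw) (Tlg.sw h)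
    (fun q hqq => Finset.image_subset_image (hA q hqq))
    (fun q hqq q' hq' c hc hc' => dj q hqq q' hq' (sw c) (mem_sw.1 hc) (mem_sw.1 hc')) hr hq
    (op_sw hr.le hop) x y hJ (fun q hqq v hv => by rw [wt_sw]; exact hw q hqq v hv)
  simp only [avgc_eq]
  refine h1.trans (le_of_eq ?_)
  have e2 : (∑ v ∈ dI m b, ∑ u ∈ dI m a, conj (x v) * (conj (B u v) * y u)).re =
      (∑ u ∈ dI m a, ∑ v ∈ dI m b, conj (y u) * (B u v * x v)).re := by
    rw [Finset.sum_comm, ← Complex.conj_re]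
    congr 1
    rw [map_sum]
    refine Finset.sum_congr rfl fun u _ => ?_
    rw [map_sum]
    refine Finset.sum_congr rfl fun v _ => ?_
    simp only [map_mul, Complex.conj_conj]
    ring
  rw [e2]
  ring

/-- operator norm of the masked kernel, rows and columns of weight `≤ M lq` -/
lemma opM (h : Tlg m a b Ti) (hA : A ⊆ Ti) (hM : 0 ≤ M * lq)
    (hop : ∀ c ∈ A, OpS (Rw c) (Cl c) B (r * 2 ^ c.1)) {I : Finset ℤ}
    (hrow : ∀ u ∈ I, wt A u ≤ M * lq) (hcol : ∀ v ∈ dI m b, wtc A v ≤ M * lq) :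
    OpS I (dI m b) (mB A B) (r * (M * lq)) := by
  have h1 := op_strip h hA hop (I0 := I) (S' := M * lq) (l := M * lq) hM hM hrow
    fun v hv => (Finset.sum_le_sum_of_subset_of_nonneg (fun c hc => by
      rw [Finset.mem_filter] at hc ⊢
      exact ⟨hc.1, hc.2.1⟩) fun c _ _ => by positivity).trans (hcol v hv)
  rwa [Real.sqrt_mul_self hM] at h1

/-- the means of a vector, rows -/
theorem R2 (h : Tlg m a b Ti) (hA : A ⊆ Ti) (hr : 0 < r) (hq : 0 < lq) (hM : 0 ≤ M)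
    (hop : ∀ c ∈ A, OpS (Rw c) (Cl c) B (r * 2 ^ c.1)) {I : Finset ℤ} (hw : ∀ u ∈ I, lq ≤ wt A u)
    (hrow : ∀ u ∈ I, wt A u ≤ M * lq) (hcol : ∀ v ∈ dI m b, wtc A v ≤ M * lq) (x : ℤ → ℂ) :
    ∑ u ∈ I, ‖avg m b A B r x u‖ ^ 2 ≤ M ^ 2 * ∑ v ∈ dI m b, ‖x v‖ ^ 2 := by
  have h1 := opM h hA (by positivity) hop hrow hcol x
  have h2 : ∀ u ∈ I, ‖avg m b A B r x u‖ ^ 2 ≤
      1 / (r * lq) ^ 2 * ‖∑ v ∈ dI m b, mB A B u v * x v‖ ^ 2 := by
    intro u hu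
    have hw0 : 0 < wt A u := lt_of_lt_of_le hq (hw u hu)
    unfold avg
    rw [norm_div, Complex.norm_real, Real.norm_of_nonneg (by positivity), div_pow,
      div_eq_mul_one_div, mul_comm]
    refine mul_le_mul_of_nonneg_right ?_ (sq_nonneg _)
    refine one_div_le_one_div_of_le (by positivity) ?_
    exact pow_le_pow_left₀ (by positivity) (mul_le_mul_of_nonneg_left (hw u hu) hr.le) 2
  refine (Finset.sum_le_sum h2).trans ?_
  rw [← Finset.mul_sum]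
  refine (mul_le_mul_of_nonneg_left h1 (by positivity)).trans (le_of_eq ?_)
  field_simp

/-- the means of a vector, columns -/
theorem R2c (h : Tlg m a b Ti) (hA : A ⊆ Ti) (hr : 0 < r) (hq : 0 < lq) (hM : 0 ≤ M)
    (hop : ∀ c ∈ A, OpS (Rw c) (Cl c) B (r * 2 ^ c.1)) {J : Finset ℤ} (hw : ∀ v ∈ J, lq ≤ wtc A v)
    (hcol : ∀ v ∈ J, wtc A v ≤ M * lq) (hrow : ∀ u ∈ dI m a, wt A u ≤ M * lq) (y : ℤ → ℂ) :
    ∑ v ∈ J, ‖avgc m a A B r y v‖ ^ 2 ≤ M ^ 2 * ∑ u ∈ dI m a, ‖y u‖ ^ 2 := by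
  have h1 := R2 (Tlg.sw h) (Finset.image_subset_image hA) hr hq hM (op_sw hr.le hop)
    (I := J) (fun v hv => by rw [wt_sw]; exact hw v hv)
    (fun v hv => by rw [wt_sw]; exact hcol v hv)
    (fun u hu => by
      have e : wtc (A.image sw) u = wt A u := by
        rw [← wt_sw, Finset.image_image]
        congr 1
        have : (sw ∘ sw) = id := by funext c; rfl
        rw [this, Finset.image_id]
      rw [e]; exact hrow u hu) y
  simp only [avgc_eq]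
  exact h1

end rows

/-- spread constant of the first smoothing on an interval of length `≤ 257 * 2 ^ l` -/
noncomputable def sg (m l kc : ℕ) (θ : ℝ) : ℝ :=
  (((257 : ℕ) : ℝ) + 1) * (2 ^ (l + kc) / 2 ^ m / θ ^ 2)

lemma sg_nn (m l kc : ℕ) (θ : ℝ) : 0 ≤ sg m l kc θ := by
  unfold sg
  positivity

section one

variable {β : Type} {m : ℕ} {a b : ℤ} {Ti E1 : Finset (ℕ × ℤ × ℤ)} {Q : Finset β}
  {E2 : β → Finset (ℕ × ℤ × ℤ)} {P : β → ℤ → ℤ → Prop} {l kc : ℕ} {θ : ℝ}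
  {A B : ℤ → ℤ → ℂ} {S T : Finset ℤ} {s : ℤ → ℝ} {Y X : ℤ → ℤ → ℂ} {r r' : ℝ}

variable (G : CG m a b Ti E1 Q E2 P l kc θ) (H : SvC A S T s Y X) (hS : S ⊆ dI m a)
  (hT : T ⊆ dI m b) (hr : 0 < r) (hθ : 0 < θ)
  (hop : ∀ c ∈ Ti, OpS (Rw c) (Cl c) B (r * 2 ^ c.1))

lemma diam_card {J : Finset ℤ} {D : ℕ} (h : ∀ v ∈ J, ∀ v' ∈ J, |v - v'| ≤ (D : ℤ)) :
    (J.card : ℝ) ≤ D + 1 := by
  rcases J.eq_empty_or_nonempty with h0 | h0
  · subst h0
    simp
    positivity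
  · have h1 : J ⊆ Finset.Icc (J.min' h0) (J.min' h0 + D) := by
      intro v hv
      have h2 := abs_le.1 (h v hv _ (J.min'_mem h0))
      rw [Finset.mem_Icc]
      exact ⟨J.min'_le v hv, by linarith [h2.2]⟩
    have h2 := Finset.card_le_card h1
    rw [Int.card_Icc] at h2
    have h3 : J.card ≤ D + 1 := by omega
    exact_mod_cast h3

include G in
/-- weight of the alive tiles of a grid node on a row -/
theorem wt_le8 {q : β} (hq : q ∈ Q) (u : ℤ) : wt (E2 q) u ≤ 2 ^ 8 * 2 ^ l := by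
  classical
  set A := (E2 q).filter (fun c => u ∈ Rw c) with hA
  have h1 : wt (E2 q) u = ((A.biUnion Cl).card : ℝ) := by
    rw [Finset.card_biUnion (G.tl.cdis ((Finset.filter_subset _ _).trans (G.E2s q hq))
      fun c hc => (Finset.mem_filter.1 hc).2)]
    push_cast
    exact Finset.sum_congr rfl fun c _ => (card_dI _ _).symm
  have h2 : ((A.biUnion Cl).card : ℝ) ≤ ((2 ^ (l + 7) : ℕ) : ℝ) + 1 := by
    refine diam_card fun v hv v' hv' => ?_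
    obtain ⟨c, hc, hvc⟩ := Finset.mem_biUnion.1 hv
    obtain ⟨c', hc', hvc'⟩ := Finset.mem_biUnion.1 hv'
    rw [hA, Finset.mem_filter] at hc hc'
    have h3 := G.Pr q hq u v v' (G.E2P q hq c hc.1 u hc.2 v hvc) (G.E2P q hq c' hc'.1 u hc'.2 v' hvc')
    push_cast
    exact h3
  rw [h1]
  refine h2.trans ?_
  push_cast
  rw [pow_add]
  have h3 : (1 : ℝ) ≤ 2 ^ l := one_le_pow₀ (by norm_num)
  nlinarith

include G in
/-- weight of the alive tiles of a grid node on a column -/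
theorem wtc_le8 {q : β} (hq : q ∈ Q) (v : ℤ) : wtc (E2 q) v ≤ 2 ^ 8 * 2 ^ l := by
  classical
  set A := (E2 q).filter (fun c => v ∈ Cl c) with hA
  have h1 : wtc (E2 q) v = ((A.biUnion Rw).card : ℝ) := by
    rw [Finset.card_biUnion (G.tl.rdis ((Finset.filter_subset _ _).trans (G.E2s q hq))
      fun c hc => (Finset.mem_filter.1 hc).2)]
    push_cast
    exact Finset.sum_congr rfl fun c _ => (card_dI _ _).symm
  have h2 : ((A.biUnion Rw).card : ℝ) ≤ ((2 ^ (l + 7) : ℕ) : ℝ) + 1 := by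
    refine diam_card fun u hu u' hu' => ?_
    obtain ⟨c, hc, huc⟩ := Finset.mem_biUnion.1 hu
    obtain ⟨c', hc', huc'⟩ := Finset.mem_biUnion.1 hu'
    rw [hA, Finset.mem_filter] at hc hc'
    have h3 := G.Pc q hq u u' v (G.E2P q hq c hc.1 u huc v hc.2) (G.E2P q hq c' hc'.1 u' huc' v hc'.2)
    push_cast
    exact h3
  rw [h1]
  refine h2.trans ?_
  push_cast
  rw [pow_add]
  have h3 : (1 : ℝ) ≤ 2 ^ l := one_le_pow₀ (by norm_num)
  nlinarith

include G H hS hr hθ hop in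
/-- spread of `x1` near a column -/
theorem x1B (w : ℤ) {J : Finset ℤ} (hJ : J ⊆ dI m b) (hw : ∀ v ∈ J, |v - w| ≤ 2 ^ (l + 7)) :
    BF T J (x1 m a E1 B r Y) (sg m l kc θ) := by
  refine bf_x1 G hr hθ hop H hS hJ (x := w - 2 ^ (l + 7)) (y := w + 2 ^ (l + 7) + 1) ?_ ?_
  · have h1 : (1 : ℤ) ≤ 2 ^ l := one_le_pow₀ (by norm_num)
    rw [pow_add]
    push_cast
    linarith
  · intro v hv
    have := abs_le.1 (hw v hv)
    rw [Finset.mem_Ico]
    constructor <;> linarith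

include G H hT hr hθ hop in
/-- spread of `y1` near a row -/
theorem y1B (w : ℤ) {I : Finset ℤ} (hI : I ⊆ dI m a) (hw : ∀ u ∈ I, |u - w| ≤ 2 ^ (l + 7)) :
    BF T I (y1 m b E1 B r X) (sg m l kc θ) := by
  refine bf_y1 G hr hθ hop H hT hI (x := w - 2 ^ (l + 7)) (y := w + 2 ^ (l + 7) + 1) ?_ ?_
  · have h1 : (1 : ℤ) ≤ 2 ^ l := one_le_pow₀ (by norm_num)
    rw [pow_add]
    push_cast
    linarith
  · intro v hv
    have := abs_le.1 (hw v hv)
    rw [Finset.mem_Ico]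
    constructor <;> linarith

include G H hS hr hθ hop in
/-- spread of `x1` on a set of small diameter -/
theorem x1D {J : Finset ℤ} (hJ : J ⊆ dI m b) (hw : ∀ v ∈ J, ∀ v' ∈ J, |v - v'| ≤ 2 ^ (l + 7)) :
    BF T J (x1 m a E1 B r Y) (sg m l kc θ) := by
  rcases J.eq_empty_or_nonempty with h0 | ⟨w, hw0⟩
  · subst h0
    intro c
    rw [Finset.sum_empty]
    exact mul_nonneg (sg_nn _ _ _ _) (Finset.sum_nonneg fun _ _ => sq_nonneg _)
  · exact x1B G H hS hr hθ hop w hJ fun v hv => hw v hv w hw0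

include G H hS hr hθ hop in
/-- spread of `yt` on the rows of a column of the strip -/
theorem ytB {q : β} (hq : q ∈ Q) {y : ℤ} {I : Finset ℤ} (hP : ∀ u ∈ I, P q u y)
    (hw : ∀ u ∈ I, (2 : ℝ) ^ l ≤ wt (E2 q) u) :
    BF T I (yt m a b E1 (E2 q) B r (2 ^ l) Y) ((2 ^ 8) ^ 2 * sg m l kc θ) := by
  classical
  have hl : (0 : ℝ) < 2 ^ l := by positivity
  -- `x1` cut to the columns near `y`
  set V : ℤ → ℤ → ℂ := fun k v => if |v - y| ≤ 2 ^ (l + 7) then x1 m a E1 B r Y k v else 0 with hV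
  have hVB : BF T (dI m b) V (sg m l kc θ) := by
    intro c
    have h1 := x1B G H hS hr hθ hop y (J := (dI m b).filter (fun v => |v - y| ≤ 2 ^ (l + 7)))
      (Finset.filter_subset _ _) (fun v hv => (Finset.mem_filter.1 hv).2) c
    refine le_trans (le_of_eq ?_) h1
    rw [Finset.sum_filter]
    refine Finset.sum_congr rfl fun v _ => ?_
    by_cases hv : |v - y| ≤ 2 ^ (l + 7)
    · simp only [hV, if_pos hv]
    · simp only [hV, if_neg hv]
      simp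
  have h1 := hVB.image (opM (M := 2 ^ 8) (lq := 2 ^ l) G.tl (G.E2s q hq) (by positivity)
    (fun c hc => hop c (G.E2s q hq hc))
    (I := I) (fun u _ => wt_le8 G hq u) (fun v _ => wtc_le8 G hq v))
  have h2 := h1.wgt (mul_nonneg (sq_nonneg _) (sg_nn m l kc θ))
    (w := fun u => (((r * wt (E2 q) u : ℝ) : ℂ))⁻¹) (M := (r * 2 ^ l)⁻¹) fun u hu => by
      have hw0 : 0 < wt (E2 q) u := lt_of_lt_of_le hl (hw u hu)
      rw [norm_inv, Complex.norm_real, Real.norm_of_nonneg (by positivity)]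
      exact inv_anti₀ (by positivity) (mul_le_mul_of_nonneg_left (hw u hu) hr.le)
  have e : (r * 2 ^ l)⁻¹ ^ 2 * ((r * (2 ^ 8 * 2 ^ l)) ^ 2 * sg m l kc θ) =
      (2 ^ 8) ^ 2 * sg m l kc θ := by
    field_simp
  rw [e] at h2
  refine h2.congr fun k _ u hu => ?_
  unfold yt
  rw [if_pos (hw u hu)]
  unfold avg
  rw [div_eq_inv_mul]
  congr 1
  refine Finset.sum_congr rfl fun v hv => ?_
  by_cases hc : ∃ c ∈ E2 q, u ∈ Rw c ∧ v ∈ Cl c
  · obtain ⟨c, hc1, hc2, hc3⟩ := hc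
    have h3 := G.Pr q hq u v y (G.E2P q hq c hc1 u hc2 v hc3) (hP u hu)
    simp only [hV, if_pos h3]
  · unfold mB
    rw [if_neg hc, zero_mul, zero_mul]

/-- constant of the spread -/
noncomputable def ka (kc : ℕ) (θ : ℝ) : ℝ := 258 * 2 ^ kc / θ ^ 2

lemma ka_nn (kc : ℕ) (θ : ℝ) : 0 ≤ ka kc θ := by
  unfold ka
  positivity

lemma sg_ka (m l kc : ℕ) (θ : ℝ) : sg m l kc θ = ka kc θ * (2 ^ l / 2 ^ m) := by
  unfold sg ka
  rw [pow_add]
  push_cast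
  ring

lemma sg_mul (m l kc : ℕ) (θ : ℝ) : sg m l kc θ * (2 ^ m / 2 ^ l) = ka kc θ := by
  rw [sg_ka]
  field_simp

include G in
lemma sg_card : (Q.card : ℝ) * sg m l kc θ ≤ 2 * ka kc θ := by
  rw [sg_ka]
  have h1 := G.cd
  have h2 := ka_nn kc θ
  have h3 : (Q.card : ℝ) * (2 ^ l / 2 ^ m) ≤ 2 := by
    rw [← mul_div_assoc, div_le_iff₀ (by positivity)]
    exact h1
  nlinarith

lemma sq2 (x y z : ℂ) : ‖x - z‖ ^ 2 ≤ 2 * ‖x - y‖ ^ 2 + 2 * ‖y - z‖ ^ 2 := by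
  have h1 : ‖x - z‖ ≤ ‖x - y‖ + ‖y - z‖ := norm_sub_le_norm_sub_add_norm_sub x y z
  have h2 : ‖x - z‖ ^ 2 ≤ (‖x - y‖ + ‖y - z‖) ^ 2 := pow_le_pow_left₀ (norm_nonneg _) h1 2
  nlinarith [sq_nonneg (‖x - y‖ - ‖y - z‖)]

lemma sq3 (x y z w : ℂ) :
    ‖x - w‖ ^ 2 ≤ 3 * ‖y - x‖ ^ 2 + 3 * ‖y - z‖ ^ 2 + 3 * ‖z - w‖ ^ 2 := by
  have h1 : ‖x - w‖ ≤ ‖y - x‖ + ‖y - z‖ + ‖z - w‖ := by
    have e : x - w = -(y - x) + (y - z) + (z - w) := by ring
    rw [e]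
    refine norm_add₃_le.trans (le_of_eq ?_)
    rw [norm_neg]
  have h2 : ‖x - w‖ ^ 2 ≤ (‖y - x‖ + ‖y - z‖ + ‖z - w‖) ^ 2 :=
    pow_le_pow_left₀ (norm_nonneg _) h1 2
  nlinarith [sq_nonneg (‖y - x‖ - ‖y - z‖), sq_nonneg (‖y - x‖ - ‖z - w‖),
    sq_nonneg (‖y - z‖ - ‖z - w‖)]

include G H hS hT hr hθ hop in
/-- the rows of all strips -/
theorem rowF (k : ℤ) {I : β → Finset ℤ} (hI : ∀ q ∈ Q, I q ⊆ dI m a)
    (hw : ∀ q ∈ Q, ∀ u ∈ I q, (2 : ℝ) ^ l ≤ wt (E2 q) u) :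
    ∑ q ∈ Q, sg m l kc θ * ∑ u ∈ I q, ‖Y k u - yt m a b E1 (E2 q) B r (2 ^ l) Y k u‖ ^ 2 ≤
      (4 * ka kc θ + 8 * 2 ^ 16 * ka kc θ / θ) / (r * 2 ^ m) * dfc B S T Y X (r * 2 ^ m) k := by
  have hl : (0 : ℝ) < 2 ^ l := by positivity
  have hσ := sg_nn m l kc θ
  have hD := dfc_nn G.tl hr hop H hS hT k
  set D := dfc B S T Y X (r * 2 ^ m) k with hDd
  have h1 : ∑ q ∈ Q, ∑ u ∈ I q, ‖Y k u - avg m b (E2 q) B r (X k) u‖ ^ 2 ≤
      2 ^ m / 2 ^ l * (2 / (r * 2 ^ m) * D) :=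
    (R1 G.tl G.E2s G.E2d hr hl hop (Y k) (X k) hI hw).trans
      (mul_le_mul_of_nonneg_left (two_le H hS hT hr k) (by positivity))
  have hcol : ∑ v ∈ dI m b, ‖X k v - x1 m a E1 B r Y k v‖ ^ 2 ≤ 2 / (θ * (r * 2 ^ m)) * D :=
    col_err G.tl G.E1s hr hθ hop H hS hT (Finset.Subset.refl _) (fun v hv => G.E1c v hv) k
  have h2 : ∀ q ∈ Q, ∑ u ∈ I q, ‖avg m b (E2 q) B r (X k) u -
      avg m b (E2 q) B r (x1 m a E1 B r Y k) u‖ ^ 2 ≤
      (2 ^ 8) ^ 2 * (2 / (θ * (r * 2 ^ m)) * D) := by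
    intro q hq
    simp only [avg_sub]
    exact (R2 (M := 2 ^ 8) G.tl (G.E2s q hq) hr hl (by positivity)
      (fun c hc => hop c (G.E2s q hq hc)) (hw q hq) (fun u _ => wt_le8 G hq u)
      (fun v _ => wtc_le8 G hq v) _).trans (mul_le_mul_of_nonneg_left hcol (by positivity))
  have h3 : ∑ q ∈ Q, ∑ u ∈ I q, ‖Y k u - yt m a b E1 (E2 q) B r (2 ^ l) Y k u‖ ^ 2 ≤
      2 * (2 ^ m / 2 ^ l * (2 / (r * 2 ^ m) * D)) +
        Q.card * (2 * ((2 ^ 8) ^ 2 * (2 / (θ * (r * 2 ^ m)) * D))) := by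
    calc ∑ q ∈ Q, ∑ u ∈ I q, ‖Y k u - yt m a b E1 (E2 q) B r (2 ^ l) Y k u‖ ^ 2
        ≤ ∑ q ∈ Q, (2 * ∑ u ∈ I q, ‖Y k u - avg m b (E2 q) B r (X k) u‖ ^ 2 +
          2 * ((2 ^ 8) ^ 2 * (2 / (θ * (r * 2 ^ m)) * D))) := by
          refine Finset.sum_le_sum fun q hq => ?_
          refine le_trans ?_ (add_le_add le_rfl (mul_le_mul_of_nonneg_left (h2 q hq) zero_le_two))
          rw [Finset.mul_sum, Finset.mul_sum, ← Finset.sum_add_distrib]
          refine Finset.sum_le_sum fun u hu => ?_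
          have e : yt m a b E1 (E2 q) B r (2 ^ l) Y k u =
              avg m b (E2 q) B r (x1 m a E1 B r Y k) u := by
            unfold yt
            rw [if_pos (hw q hq u hu)]
          rw [e]
          exact sq2 _ _ _
      _ ≤ _ := by
          rw [Finset.sum_add_distrib, ← Finset.mul_sum, Finset.sum_const, nsmul_eq_mul]
          exact add_le_add (mul_le_mul_of_nonneg_left h1 zero_le_two) le_rfl
  rw [← Finset.mul_sum]
  refine (mul_le_mul_of_nonneg_left h3 hσ).trans ?_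
  have h4 := sg_card G
  have e1 : sg m l kc θ * (2 * (2 ^ m / 2 ^ l * (2 / (r * 2 ^ m) * D)) +
        Q.card * (2 * ((2 ^ 8) ^ 2 * (2 / (θ * (r * 2 ^ m)) * D)))) =
      4 * (sg m l kc θ * (2 ^ m / 2 ^ l)) / (r * 2 ^ m) * D +
        (Q.card * sg m l kc θ) * (4 * 2 ^ 16 / (θ * (r * 2 ^ m)) * D) := by ring
  rw [e1, sg_mul]
  have h5 : 0 ≤ 4 * 2 ^ 16 / (θ * (r * 2 ^ m)) * D := by positivity
  refine (add_le_add le_rfl (mul_le_mul_of_nonneg_right h4 h5)).trans (le_of_eq ?_)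
  field_simp
  ring

include G H hS hT hr hθ hop in
/-- the columns of all strips -/
theorem colG (k : ℤ) {J : β → Finset ℤ} (hJ : ∀ q ∈ Q, J q ⊆ dI m b)
    (hw : ∀ q ∈ Q, ∀ v ∈ J q, (2 : ℝ) ^ l ≤ wtc (E2 q) v) :
    ∑ q ∈ Q, ((2 ^ 8) ^ 2 * sg m l kc θ) *
        ∑ v ∈ J q, ‖x1 m a E1 B r Y k v - xt m a b E1 (E2 q) B r (2 ^ l) X k v‖ ^ 2 ≤
      3 * 2 ^ 16 * (2 * ka kc θ + 4 * ka kc θ / θ + 4 * 2 ^ 16 * ka kc θ / θ) / (r * 2 ^ m) *
        dfc B S T Y X (r * 2 ^ m) k := by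
  have hl : (0 : ℝ) < 2 ^ l := by positivity
  have hσ := sg_nn m l kc θ
  have hD := dfc_nn G.tl hr hop H hS hT k
  set D := dfc B S T Y X (r * 2 ^ m) k with hDd
  have h1 : ∑ q ∈ Q, ∑ v ∈ J q, ‖X k v - avgc m a (E2 q) B r (Y k) v‖ ^ 2 ≤
      2 ^ m / 2 ^ l * (2 / (r * 2 ^ m) * D) :=
    (R1c G.tl G.E2s G.E2d hr hl hop (Y k) (X k) hJ hw).trans
      (mul_le_mul_of_nonneg_left (two_le H hS hT hr k) (by positivity))
  have hcol : ∑ v ∈ dI m b, ‖X k v - x1 m a E1 B r Y k v‖ ^ 2 ≤ 2 / (θ * (r * 2 ^ m)) * D :=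
    col_err G.tl G.E1s hr hθ hop H hS hT (Finset.Subset.refl _) (fun v hv => G.E1c v hv) k
  have hrow : ∑ u ∈ dI m a, ‖Y k u - y1 m b E1 B r X k u‖ ^ 2 ≤ 2 / (θ * (r * 2 ^ m)) * D :=
    row_err G.tl G.E1s hr hθ hop H hS hT (Finset.Subset.refl _) (fun v hv => G.E1r v hv) k
  have h2 : ∀ q ∈ Q, ∑ v ∈ J q, ‖avgc m a (E2 q) B r (Y k) v -
      avgc m a (E2 q) B r (y1 m b E1 B r X k) v‖ ^ 2 ≤
      (2 ^ 8) ^ 2 * (2 / (θ * (r * 2 ^ m)) * D) := by
    intro q hq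
    simp only [avgc_sub]
    exact (R2c (M := 2 ^ 8) G.tl (G.E2s q hq) hr hl (by positivity)
      (fun c hc => hop c (G.E2s q hq hc)) (hw q hq) (fun v _ => wtc_le8 G hq v)
      (fun u _ => wt_le8 G hq u) _).trans (mul_le_mul_of_nonneg_left hrow (by positivity))
  have h0 : ∀ q ∈ Q, ∑ v ∈ J q, ‖X k v - x1 m a E1 B r Y k v‖ ^ 2 ≤
      2 / (θ * (r * 2 ^ m)) * D := fun q hq =>
    (Finset.sum_le_sum_of_subset_of_nonneg (hJ q hq) fun _ _ _ => sq_nonneg _).trans hcol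
  have h3 : ∑ q ∈ Q, ∑ v ∈ J q,
      ‖x1 m a E1 B r Y k v - xt m a b E1 (E2 q) B r (2 ^ l) X k v‖ ^ 2 ≤
      3 * (2 ^ m / 2 ^ l * (2 / (r * 2 ^ m) * D)) +
        Q.card * (3 * (2 / (θ * (r * 2 ^ m)) * D) +
          3 * ((2 ^ 8) ^ 2 * (2 / (θ * (r * 2 ^ m)) * D))) := by
    calc ∑ q ∈ Q, ∑ v ∈ J q,
          ‖x1 m a E1 B r Y k v - xt m a b E1 (E2 q) B r (2 ^ l) X k v‖ ^ 2
        ≤ ∑ q ∈ Q, (3 * ∑ v ∈ J q, ‖X k v - avgc m a (E2 q) B r (Y k) v‖ ^ 2 +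
          (3 * (2 / (θ * (r * 2 ^ m)) * D) +
          3 * ((2 ^ 8) ^ 2 * (2 / (θ * (r * 2 ^ m)) * D)))) := by
          refine Finset.sum_le_sum fun q hq => ?_
          refine le_trans ?_ (add_le_add le_rfl (add_le_add
            (mul_le_mul_of_nonneg_left (h0 q hq) (by norm_num : (0 : ℝ) ≤ 3))
            (mul_le_mul_of_nonneg_left (h2 q hq) (by norm_num : (0 : ℝ) ≤ 3))))
          rw [Finset.mul_sum, Finset.mul_sum, Finset.mul_sum, ← Finset.sum_add_distrib,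
            ← Finset.sum_add_distrib]
          refine Finset.sum_le_sum fun v hv => ?_
          have e : xt m a b E1 (E2 q) B r (2 ^ l) X k v =
              avgc m a (E2 q) B r (y1 m b E1 B r X k) v := by
            unfold xt
            rw [if_pos (hw q hq v hv)]
          rw [e]
          have h4 := sq3 (x1 m a E1 B r Y k v) (X k v) (avgc m a (E2 q) B r (Y k) v)
            (avgc m a (E2 q) B r (y1 m b E1 B r X k) v)
          linarith
      _ ≤ _ := by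
          rw [Finset.sum_add_distrib, ← Finset.mul_sum, Finset.sum_const, nsmul_eq_mul]
          exact add_le_add (mul_le_mul_of_nonneg_left h1 (by norm_num)) le_rfl
  rw [← Finset.mul_sum]
  refine (mul_le_mul_of_nonneg_left h3 (mul_nonneg (by positivity) hσ)).trans ?_
  have h4 := sg_card G
  have e1 : (2 ^ 8) ^ 2 * sg m l kc θ * (3 * (2 ^ m / 2 ^ l * (2 / (r * 2 ^ m) * D)) +
        Q.card * (3 * (2 / (θ * (r * 2 ^ m)) * D) +
          3 * ((2 ^ 8) ^ 2 * (2 / (θ * (r * 2 ^ m)) * D)))) =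
      6 * 2 ^ 16 * (sg m l kc θ * (2 ^ m / 2 ^ l)) / (r * 2 ^ m) * D +
        (Q.card * sg m l kc θ) * (6 * 2 ^ 16 * (1 + 2 ^ 16) / (θ * (r * 2 ^ m)) * D) := by ring
  rw [e1, sg_mul]
  have h5 : 0 ≤ 6 * 2 ^ 16 * (1 + 2 ^ 16) / (θ * (r * 2 ^ m)) * D := by positivity
  refine (add_le_add le_rfl (mul_le_mul_of_nonneg_right h4 h5)).trans (le_of_eq ?_)
  field_simp
  ring

/-- the constant of the inner positions -/
noncomputable def C0 (kc : ℕ) (θ : ℝ) : ℝ :=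
  2 / θ + (4 * ka kc θ + 8 * 2 ^ 16 * ka kc θ / θ) +
    3 * 2 ^ 16 * (2 * ka kc θ + 4 * ka kc θ / θ + 4 * 2 ^ 16 * ka kc θ / θ)

lemma C0_nn (kc : ℕ) {θ : ℝ} (hθ : 0 < θ) : 0 ≤ C0 kc θ := by
  have := ka_nn kc θ
  unfold C0
  positivity

include G H hS hT hr hθ hop in
open Classical in
/-- **inner positions** -/
theorem inner (hrr : r ≤ r') :
    ∑ q ∈ Q, ∑ u ∈ S, ∑ v ∈ T.filter (fun v => P q u v ∧ (2 : ℝ) ^ l ≤ wt (E2 q) u ∧
        (2 : ℝ) ^ l ≤ wtc (E2 q) v),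
      ‖∑ k ∈ T, (dk s (r * 2 ^ m) (r' * 2 ^ m) k : ℂ) * (Y k u * conj (X k v) -
        yt m a b E1 (E2 q) B r (2 ^ l) Y k u * conj (xt m a b E1 (E2 q) B r (2 ^ l) X k v))‖ ^ 2 ≤
      3 * C0 kc θ * ((r' - r) / r) * Gd B S T Y X s (r * 2 ^ m) := by
  have hρ : 0 < r * 2 ^ m := by positivity
  set P' : β → ℤ → ℤ → Prop := fun q u v => P q u v ∧ (2 : ℝ) ^ l ≤ wt (E2 q) u ∧
        (2 : ℝ) ^ l ≤ wtc (E2 q) v with hP'
  set D : ℤ → ℝ := fun k => dfc B S T Y X (r * 2 ^ m) k with hDd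
  have h1 := strip_abs T Q S T (dk s (r * 2 ^ m) (r' * 2 ^ m)) Y X (x1 m a E1 B r Y)
    (fun q => yt m a b E1 (E2 q) B r (2 ^ l) Y) (fun q => xt m a b E1 (E2 q) B r (2 ^ l) X) P'
    (fun u _ v _ q hq q' hq' h h' => G.Pd q hq q' hq' u v h.1 h'.1)
    ((bfY H hS).mono hS) (σ := sg m l kc θ) (σ' := (2 ^ 8) ^ 2 * sg m l kc θ)
    (fun k => 2 / (θ * (r * 2 ^ m)) * D k)
    (fun k => (4 * ka kc θ + 8 * 2 ^ 16 * ka kc θ / θ) / (r * 2 ^ m) * D k)
    (fun k => 3 * 2 ^ 16 * (2 * ka kc θ + 4 * ka kc θ / θ + 4 * 2 ^ 16 * ka kc θ / θ) /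
      (r * 2 ^ m) * D k)
    (fun k _ => col_err G.tl G.E1s hr hθ hop H hS hT hT (fun v hv => G.E1c v (hT hv)) k)
    (fun q hq u hu => x1D G H hS hr hθ hop ((Finset.filter_subset _ _).trans hT)
      fun v hv v' hv' => G.Pr q hq u v v' (Finset.mem_filter.1 hv).2.1
        (Finset.mem_filter.1 hv').2.1)
    (fun q hq v hv => ytB G H hS hr hθ hop hq (y := v)
      (fun u hu => (Finset.mem_filter.1 hu).2.1) (fun u hu => (Finset.mem_filter.1 hu).2.2.1))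
    (fun k _ => rowF G H hS hT hr hθ hop k (fun q _ => (Finset.filter_subset _ _).trans hS)
      fun q _ u hu => by
        obtain ⟨v, _, hv⟩ := (Finset.mem_filter.1 hu).2
        exact hv.2.1)
    (fun k _ => colG G H hS hT hr hθ hop k (fun q _ => (Finset.filter_subset _ _).trans hT)
      fun q _ v hv => by
        obtain ⟨u, _, hu⟩ := (Finset.mem_filter.1 hv).2
        exact hu.2.2)
  refine h1.trans ?_
  have h2 := step_sum (s := s) (T := T) (B := B) (S := S) (Y := Y) (X := X)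
    (ρ := r * 2 ^ m) (ρ' := r' * 2 ^ m) (M := C0 kc θ / (r * 2 ^ m))
    (E := fun k => 2 / (θ * (r * 2 ^ m)) * D k +
      (4 * ka kc θ + 8 * 2 ^ 16 * ka kc θ / θ) / (r * 2 ^ m) * D k +
      3 * 2 ^ 16 * (2 * ka kc θ + 4 * ka kc θ / θ + 4 * 2 ^ 16 * ka kc θ / θ) /
      (r * 2 ^ m) * D k)
    (mul_le_mul_of_nonneg_right hrr (by positivity)) (div_nonneg (C0_nn kc hθ) hρ.le)
    (fun k _ => dfc_nn G.tl hr hop H hS hT k) (fun k _ => by
      refine le_of_eq ?_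
      simp only [hDd]
      unfold C0
      field_simp)
  refine (mul_le_mul_of_nonneg_left h2 (by norm_num)).trans (le_of_eq ?_)
  field_simp

/-- constants of the cell -/
noncomputable def CA (kc : ℕ) (θ : ℝ) : ℝ := 3 * C0 kc θ + 8 / θ

/-- constants of the cell -/
noncomputable def CB (kc : ℕ) (θ : ℝ) : ℝ := 8 * (2 ^ 7 + 1) * 2 ^ kc / θ ^ 2

lemma CA_nn (kc : ℕ) {θ : ℝ} (hθ : 0 < θ) : 0 ≤ CA kc θ := by
  have := C0_nn kc hθ
  unfold CA
  positivity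

lemma CB_nn (kc : ℕ) (θ : ℝ) : 0 ≤ CB kc θ := by
  unfold CB
  positivity

include G H hS hT hr hθ hop in
open Classical in
/-- **ONE CELL**: the frames `Pu, Qv` of the grid nodes approximate the step of the ladder off the
positions `Lay` -/
theorem cell (hrr : r ≤ r') (st Z : ℤ → ℤ → ℂ) (Lay : ℤ → ℤ → Prop)
    (hst : ∀ u ∈ S, ∀ v ∈ T, st u v =
      ∑ k ∈ T, (dk s (r * 2 ^ m) (r' * 2 ^ m) k : ℂ) * Y k u * conj (X k v))
    (hZ : ∀ u ∈ S, ∀ v ∈ T, ¬ Lay u v → ∃ q ∈ Q, P q u v ∧ Z u v = ∑ k ∈ T,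
      Pu m a b E1 (E2 q) B r (2 ^ l) Y (dk s (r * 2 ^ m) (r' * 2 ^ m)) u k *
        Qv m a b E1 (E2 q) B r (2 ^ l) X (dk s (r * 2 ^ m) (r' * 2 ^ m)) v k) :
    ∑ u ∈ S, ∑ v ∈ T, (if Lay u v then 0 else ‖st u v - Z u v‖ ^ 2) ≤
      CA kc θ * ((r' - r) / r) * Gd B S T Y X s (r * 2 ^ m) +
        CB kc θ * (2 ^ l / 2 ^ m) * ∑ k ∈ T, dk s (r * 2 ^ m) (r' * 2 ^ m) k ^ 2 := by
  have hmm : r * 2 ^ m ≤ r' * 2 ^ m := mul_le_mul_of_nonneg_right hrr (by positivity)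
  set d : ℤ → ℝ := dk s (r * 2 ^ m) (r' * 2 ^ m) with hd
  have hd0 : ∀ k, 0 ≤ d k := fun k => dk_nonneg hmm k
  have h1 := inner G H hS hT hr hθ hop hrr
  have h2 := edges G hr hrr hθ hop H hS hT
  rw [← hd] at h1 h2
  set tm : β → ℤ → ℤ → ℝ := fun q u v => ‖∑ k ∈ T, (d k : ℂ) * (Y k u * conj (X k v) -
        yt m a b E1 (E2 q) B r (2 ^ l) Y k u * conj (xt m a b E1 (E2 q) B r (2 ^ l) X k v))‖ ^ 2
    with htm
  set f0 : ℤ → ℤ → ℝ := fun u v => ‖∑ k ∈ T, (d k : ℂ) * Y k u * conj (X k v)‖ ^ 2 with hf0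
  -- pointwise
  have h3 : ∀ u ∈ S, ∀ v ∈ T, (if Lay u v then 0 else ‖st u v - Z u v‖ ^ 2) ≤
      ∑ q ∈ Q, (if P q u v ∧ (2 : ℝ) ^ l ≤ wt (E2 q) u ∧ (2 : ℝ) ^ l ≤ wtc (E2 q) v then
        tm q u v else 0) +
      ((if u ∈ edg m a (l + 7) then f0 u v else 0) +
        (if v ∈ edg m b (l + 7) then f0 u v else 0)) := by
    intro u hu v hv
    have n0 : 0 ≤ ∑ q ∈ Q, (if P q u v ∧ (2 : ℝ) ^ l ≤ wt (E2 q) u ∧ (2 : ℝ) ^ l ≤ wtc (E2 q) v
        then tm q u v else 0) := Finset.sum_nonneg fun q _ => by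
      split_ifs
      · exact sq_nonneg _
      · exact le_rfl
    have n1 : 0 ≤ (if u ∈ edg m a (l + 7) then f0 u v else 0) := by
      split_ifs
      · exact sq_nonneg _
      · exact le_rfl
    have n2 : 0 ≤ (if v ∈ edg m b (l + 7) then f0 u v else 0) := by
      split_ifs
      · exact sq_nonneg _
      · exact le_rfl
    by_cases hL : Lay u v
    · rw [if_pos hL]
      linarith
    · rw [if_neg hL]
      obtain ⟨q, hq, hP, hZq⟩ := hZ u hu v hv hL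
      have hua := hS hu
      have hvb := hT hv
      have hub : a * 2 ^ m ≤ u ∧ u < (a + 1) * 2 ^ m := by
        unfold dI at hua
        rwa [Finset.mem_Ico] at hua
      have hvb' : b * 2 ^ m ≤ v ∧ v < (b + 1) * 2 ^ m := by
        unfold dI at hvb
        rwa [Finset.mem_Ico] at hvb
      by_cases c1 : (2 : ℝ) ^ l ≤ wt (E2 q) u
      · by_cases c2 : (2 : ℝ) ^ l ≤ wtc (E2 q) v
        · -- inner position
          have e : ‖st u v - Z u v‖ ^ 2 = tm q u v := by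
            rw [hst u hu v hv, hZq, ← Finset.sum_sub_distrib, htm]
            simp only
            congr 2
            refine Finset.sum_congr rfl fun k _ => ?_
            rw [PuQv (hd0 k)]
            ring
          rw [e]
          have h4 : tm q u v ≤ ∑ q ∈ Q, (if P q u v ∧ (2 : ℝ) ^ l ≤ wt (E2 q) u ∧
              (2 : ℝ) ^ l ≤ wtc (E2 q) v then tm q u v else 0) := by
            refine le_trans (le_of_eq ?_) (Finset.single_le_sum (f := fun q =>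
              if P q u v ∧ (2 : ℝ) ^ l ≤ wt (E2 q) u ∧ (2 : ℝ) ^ l ≤ wtc (E2 q) v then
                tm q u v else 0) (fun q _ => ?_) hq)
            · rw [if_pos ⟨hP, c1, c2⟩]
            · split_ifs
              · exact sq_nonneg _
              · exact le_rfl
          linarith
        · -- the column is not alive
          have e : ‖st u v - Z u v‖ ^ 2 = f0 u v := by
            have e1 : Z u v = 0 := by
              rw [hZq]
              refine Finset.sum_eq_zero fun k _ => ?_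
              unfold Qv xt
              rw [if_neg c2]
              simp
            rw [e1, sub_zero, hst u hu v hv]
          have hue : u ∈ edg m a (l + 7) := by
            unfold edg
            rw [Finset.mem_filter]
            refine ⟨hua, ?_⟩
            by_contra hc
            rw [not_or, not_lt, not_le] at hc
            exact c2 (G.inC q hq u hua v hvb hP hc.1 hc.2)
          rw [e]
          rw [if_pos hue] at n1 ⊢
          linarith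
      · -- the row is not alive
        have e : ‖st u v - Z u v‖ ^ 2 = f0 u v := by
          have e1 : Z u v = 0 := by
            rw [hZq]
            refine Finset.sum_eq_zero fun k _ => ?_
            unfold Pu yt
            rw [if_neg c1]
            simp
          rw [e1, sub_zero, hst u hu v hv]
        have hve : v ∈ edg m b (l + 7) := by
          unfold edg
          rw [Finset.mem_filter]
          refine ⟨hvb, ?_⟩
          by_contra hc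
          rw [not_or, not_lt, not_le] at hc
          exact c1 (G.inR q hq u hua v hvb hP hc.1 hc.2)
        rw [e]
        rw [if_pos hve] at n2 ⊢
        linarith
  -- sums
  have h4 : ∑ u ∈ S, ∑ v ∈ T, ∑ q ∈ Q, (if P q u v ∧ (2 : ℝ) ^ l ≤ wt (E2 q) u ∧
      (2 : ℝ) ^ l ≤ wtc (E2 q) v then tm q u v else 0) ≤
      3 * C0 kc θ * ((r' - r) / r) * Gd B S T Y X s (r * 2 ^ m) := by
    refine le_trans (le_of_eq ?_) h1
    simp only [Finset.sum_filter]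
    calc ∑ u ∈ S, ∑ v ∈ T, ∑ q ∈ Q, (if P q u v ∧ (2 : ℝ) ^ l ≤ wt (E2 q) u ∧
      (2 : ℝ) ^ l ≤ wtc (E2 q) v then tm q u v else 0)
        = ∑ u ∈ S, ∑ q ∈ Q, ∑ v ∈ T, (if P q u v ∧ (2 : ℝ) ^ l ≤ wt (E2 q) u ∧
      (2 : ℝ) ^ l ≤ wtc (E2 q) v then tm q u v else 0) :=
          Finset.sum_congr rfl fun u _ => Finset.sum_comm
      _ = _ := Finset.sum_comm
  have h5 : ∑ u ∈ S, ∑ v ∈ T, (if u ∈ edg m a (l + 7) then f0 u v else 0) ≤
      ∑ u ∈ edg m a (l + 7), ∑ v ∈ T, f0 u v := by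
    have e : ∀ u, ∑ v ∈ T, (if u ∈ edg m a (l + 7) then f0 u v else 0) =
        if u ∈ edg m a (l + 7) then ∑ v ∈ T, f0 u v else 0 := by
      intro u
      split_ifs
      · rfl
      · exact Finset.sum_const_zero
    rw [Finset.sum_congr rfl fun u _ => e u, ← Finset.sum_filter]
    refine Finset.sum_le_sum_of_subset_of_nonneg (fun u hu => (Finset.mem_filter.1 hu).2)
      fun u _ _ => Finset.sum_nonneg fun v _ => sq_nonneg _
  have h6 : ∑ u ∈ S, ∑ v ∈ T, (if v ∈ edg m b (l + 7) then f0 u v else 0) ≤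
      ∑ u ∈ S, ∑ v ∈ edg m b (l + 7), f0 u v := by
    refine Finset.sum_le_sum fun u _ => ?_
    rw [← Finset.sum_filter]
    exact Finset.sum_le_sum_of_subset_of_nonneg (fun v hv => (Finset.mem_filter.1 hv).2)
      fun v _ _ => sq_nonneg _
  have h7 : ∑ u ∈ S, ∑ v ∈ T, (if Lay u v then 0 else ‖st u v - Z u v‖ ^ 2) ≤
      ∑ u ∈ S, ∑ v ∈ T, (∑ q ∈ Q, (if P q u v ∧ (2 : ℝ) ^ l ≤ wt (E2 q) u ∧
        (2 : ℝ) ^ l ≤ wtc (E2 q) v then tm q u v else 0) +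
      ((if u ∈ edg m a (l + 7) then f0 u v else 0) +
        (if v ∈ edg m b (l + 7) then f0 u v else 0))) :=
    Finset.sum_le_sum fun u hu => Finset.sum_le_sum fun v hv => h3 u hu v hv
  simp only [Finset.sum_add_distrib] at h7
  have e8 : be m l kc θ * 4 = CB kc θ * (2 ^ l / 2 ^ m) := by
    unfold be CB
    rw [pow_add]
    ring
  have e9 : 4 * (2 * (r' - r) / (θ * r) * Gd B S T Y X s (r * 2 ^ m)) =
      8 / θ * ((r' - r) / r) * Gd B S T Y X s (r * 2 ^ m) := by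
    field_simp
    ring
  have e10 : CA kc θ * ((r' - r) / r) * Gd B S T Y X s (r * 2 ^ m) =
      3 * C0 kc θ * ((r' - r) / r) * Gd B S T Y X s (r * 2 ^ m) +
        8 / θ * ((r' - r) / r) * Gd B S T Y X s (r * 2 ^ m) := by
    unfold CA
    ring
  rw [e9] at h2
  rw [e10, ← e8]
  have e11 : be m l kc θ * 4 * ∑ k ∈ T, d k ^ 2 = 4 * (be m l kc θ * ∑ k ∈ T, d k ^ 2) := by ring
  rw [e11]
  linarith

include H in
/-- energy of the step of the ladder -/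
theorem dk_energy {ρ ρ' : ℝ} (hρ : 0 ≤ ρ) (hρρ : ρ ≤ ρ') :
    ∑ k ∈ T, dk s ρ ρ' k ^ 2 ≤ ∑ u ∈ S, ∑ v ∈ T, ‖A u v‖ ^ 2 := by
  rw [← H.hsA]
  refine Finset.sum_le_sum fun k _ => ?_
  have h1 := dk_nonneg (s := s) hρρ k
  have h2 := dk_le_max (s := s) (ρ := ρ) (ρ' := ρ') k
  have h3 : max (s k - ρ) 0 ≤ s k := max_le (by linarith) (H.nn k)
  exact pow_le_pow_left₀ h1 (h2.trans h3) 2

end one

end Crest.Agent.R079.NrXx259
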