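import Crest.Agent.R079.NrD_228
import Crest.Agent.R079.NrX_259

/-! R079, notes 1820 / 1922 (T3), helper259: the one-cell theorem `CellT` of NrD_228. -/

set_option autoImplicit false

namespace Crest.Agent.R079.NrZx259

open Finset Crest.Agent.R079.Grid Crest.Agent.R079.NrTx259
  Crest.Agent.R079.NrUx259 Crest.Agent.R079.NrWx259 Crest.Agent.R079.NrAx228
open Crest.Agent.R079.NrBx228 (y1 x1 yt xt Pu Qv PuQv)
open Crest.Agent.R079.NrCx228 (CG)
open Crest.Agent.R079.ClW59 (OpS)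

open scoped ComplexConjugate

/-- **the one-cell theorem, unconditional** -/
theorem cellT (kc : ℕ) {θ : ℝ} (hθ : 0 < θ) :
    NrDx228.CellT kc θ (NrXx259.CA kc θ) (NrXx259.CB kc θ) := by
  classical
  intro m a b Ti E1 Q E2 P _ l A B S T s Y X r r' G hr hrr hop H hS hT
  set d : ℤ → ℝ := dk s (r * 2 ^ m) (r' * 2 ^ m) with hd
  set st : ℤ → ℤ → ℂ := fun u v => ∑ k ∈ T, (d k : ℂ) * Y k u * conj (X k v) with hst
  set zf : _ → ℤ → ℤ → ℂ := fun q u v => ∑ k ∈ T, Pu m a b E1 (E2 q) B r (2 ^ l) Y d u k *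
          Qv m a b E1 (E2 q) B r (2 ^ l) X d v k with hzf
  set Z : ℤ → ℤ → ℂ := fun u v => ∑ q ∈ Q, if P q u v then zf q u v else 0 with hZ
  have hZq : ∀ u v, ∀ q ∈ Q, P q u v → Z u v = zf q u v := by
    intro u v q hq hP
    rw [hZ]
    simp only
    rw [Finset.sum_eq_single_of_mem q hq, if_pos hP]
    intro q' hq' hne
    rw [if_neg]
    intro hP'
    exact hne (G.Pd q' hq' q hq u v hP' hP)
  have h1 := NrXx259.cell G H hS hT hr hθ hop hrr st Z (fun u v => ¬ ∃ q ∈ Q, P q u v)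
    (fun u _ v _ => rfl) (fun u _ v _ hL => by
      obtain ⟨q, hq, hP⟩ := not_not.1 hL
      exact ⟨q, hq, hP, hZq u v q hq hP⟩)
  refine le_trans (le_of_eq ?_) h1
  have e : ∀ u v, (if ¬ ∃ q ∈ Q, P q u v then 0 else ‖st u v - Z u v‖ ^ 2) =
      ∑ q ∈ Q, if P q u v then ‖st u v - zf q u v‖ ^ 2 else 0 := by
    intro u v
    by_cases hc : ∃ q ∈ Q, P q u v
    · rw [if_neg (not_not.2 hc)]
      obtain ⟨q, hq, hP⟩ := hc
      rw [Finset.sum_eq_single_of_mem q hq, if_pos hP, hZq u v q hq hP]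
      intro q' hq' hne
      rw [if_neg]
      intro hP'
      exact hne (G.Pd q' hq' q hq u v hP' hP)
    · rw [if_pos hc]
      symm
      refine Finset.sum_eq_zero fun q hq => ?_
      rw [if_neg fun hP => hc ⟨q, hq, hP⟩]
  rw [Finset.sum_comm]
  refine Finset.sum_congr rfl fun u _ => ?_
  rw [Finset.sum_comm]
  refine Finset.sum_congr rfl fun v _ => ?_
  rw [← e u v]
  congr

end Crest.Agent.R079.NrZx259
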