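import Crest.Agent.R079.OpKa_276
import Crest.Agent.R079.BadN_360

/-! R079 (helper276): **cut of the tall parts of the free letters** next to a frozen letter of polynomial
mass (`cut_all`), cut of the killer (`LvS.cut`). -/

set_option autoImplicit false

namespace Crest.Agent.R079.OpK276

open Finset Crest.Agent.R079.Grid Crest.Agent.R079.Growth Crest.Agent.R079.QRed
  Crest.Agent.R079.Qe292 Crest.Agent.R079.TRec Crest.Agent.R079.T6ax252
  Crest.Agent.R079.TFrz679

/-- letters of the slots of `S` cut at height `H` -/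
noncomputable def cutS (H : ℝ) (S : Finset (Fin 4)) (F : Fin 4 → Fn) (j : Fin 4) : Fn :=
  if j ∈ S then BadN360.lo H (F j) else F j

/-- `L²` size of the tall part of the slot `j` -/
noncomputable def etaq (k q3 H : ℝ) (j : Fin 4) : ℝ := H ^ (-((qx k q3 j - 2) / 2))

theorem etaq_nonneg {k q3 H : ℝ} (hH : 0 < H) (j : Fin 4) : 0 ≤ etaq k q3 H j :=
  (Real.rpow_pos_of_pos hH _).le

theorem norm_TR_abs {bb : ℤ} {ε : ℕ → ℤ → ℂ} (hA : Adm bb ε) (R : Finset Nd) (F : Fin 4 → Fn) :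
    ‖TR bb ε R F‖ ≤ ∑ p ∈ R, ∑ x ∈ adm p.1 p.2, ‖Lbox (2 ^ p.1) bb F x‖ :=
  Qb247.norm_TR_le hA.2 R F

theorem av_cutS {k q3 : ℝ} (hk : 0 < k) (hq3 : 2 < q3) {H : ℝ} {S : Finset (Fin 4)}
    {F : Fin 4 → Fn} {j : Fin 4} {p : Nd} (h : aq (qx k q3 j) p (F j) ≤ 1) :
    av p (cutS H S F j) ≤ 1 := by
  have hq : 2 ≤ qx k q3 j := (two_lt_qx hk hq3 j).le
  have h1 : av p (F j) ≤ 1 := (TAsm398.av_le_aq hq p (F j)).trans h
  unfold cutS
  split_ifs
  · exact (BadN360.av_lo H p _).trans h1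
  · exact h1

/-- one more slot is cut -/
theorem cut_step : ∃ K : ℝ, 0 ≤ K ∧ ∀ {bb : ℤ} {ε : ℕ → ℤ → ℂ}, Adm bb ε → ∀ {W : Finset Nd} {I : Nd},
    Full W I → ∀ {k q3 : ℝ}, 0 < k → 2 < q3 → ∀ {F : Fin 4 → Fn} {i : Fin 4},
    (∀ j, j ≠ i → ∀ p ∈ W, aq (qx k q3 j) p (F j) ≤ 1) → ∀ {M H : ℝ}, 0 < H → 0 ≤ M →
    Rep i I (F i) M → ∀ (S : Finset (Fin 4)) (a : Fin 4), i ∉ S → a ∉ S → a ≠ i →
    ‖TR bb ε W (cutS H S F)‖ ≤ ‖TR bb ε W (cutS H (insert a S) F)‖ +
      K * M * etaq k q3 H a * len I := by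
  obtain ⟨K, hK, hQ⟩ := BadN360.abs_qb
  refine ⟨K, hK, ?_⟩
  intro bb ε hA W I hW k q3 hk hq3 F i hF M H hH hM hrep S a hiS haS hai
  have hW' : ∀ p ∈ W, iv p ⊆ iv I := fun p hp => hW.reg.1 p hp
  have h1 := TR_comb (ε := ε) hA hW' (cutS H S F) a (n := 2)
    ![BadN360.lo H (F a), BadN360.hi H (F a)] (fun _ => 1) (by
      intro y _
      have : cutS H S F a = F a := by unfold cutS; rw [if_neg haS]
      rw [this, Fin.sum_univ_two]
      simpa using BadN360.lo_add_hi H (F a) y)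
  rw [Fin.sum_univ_two] at h1
  simp only [Matrix.cons_val_zero, Matrix.cons_val_one, one_mul] at h1
  have e1 : Function.update (cutS H S F) a (BadN360.lo H (F a)) = cutS H (insert a S) F := by
    funext j
    by_cases hj : j = a
    · subst hj
      rw [Function.update_self]
      unfold cutS
      rw [if_pos (Finset.mem_insert_self _ _)]
    · rw [Function.update_of_ne hj]
      unfold cutS
      by_cases hjS : j ∈ S
      · rw [if_pos hjS, if_pos (Finset.mem_insert_of_mem hjS)]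
      · rw [if_neg hjS, if_neg (fun h => by
          rcases Finset.mem_insert.1 h with h | h
          · exact hj h
          · exact hjS h)]
  rw [e1] at h1
  set G := Function.update (cutS H S F) a (BadN360.hi H (F a)) with hG
  set A : Fin 4 → ℝ := fun j => if j = a then etaq k q3 H a else if j = i then
    ∑ p ∈ W, av p (F i) else 1 with hAdef
  have hav0 : ∀ (p : Nd) (f : Fn), 0 ≤ av p f := fun p f => Real.sqrt_nonneg _
  have hA0 : ∀ j, 0 ≤ A j := by
    intro j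
    simp only [hAdef]
    split_ifs
    · exact etaq_nonneg hH a
    · exact Finset.sum_nonneg fun p _ => hav0 _ _
    · exact zero_le_one
  have hGi : G i = F i := by
    rw [hG, Function.update_of_ne (Ne.symm hai)]
    unfold cutS
    rw [if_neg hiS]
  have hGA : ∀ j, ∀ p ∈ W, av p (G j) ≤ A j := by
    intro j p hp
    by_cases hja : j = a
    · subst hja
      rw [hG, Function.update_self]
      simp only [hAdef, if_true]
      exact BadN360.av_hi (two_lt_qx hk hq3 j) hH (hF j hai p hp)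
    · by_cases hji : j = i
      · subst hji
        rw [hGi]
        simp only [hAdef, if_neg hja, if_true]
        exact Finset.single_le_sum (f := fun p => av p (F j)) (fun p _ => hav0 _ _) hp
      · rw [hG, Function.update_of_ne hja]
        simp only [hAdef, if_neg hja, if_neg hji]
        exact av_cutS hk hq3 (hF j hji p hp)
  have h2 := hQ bb hA.1 W I hW.reg G A hA0 hGA i M (by rw [hGi]; exact hrep)
  have h3 : ∏ j : Fin 3, A (i.succAbove j) = etaq k q3 H a := by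
    obtain ⟨b, hb⟩ := Fin.exists_succAbove_eq hai
    rw [Finset.prod_eq_single b]
    · simp only [hAdef, hb, if_true]
    · intro c _ hc
      have h4 : i.succAbove c ≠ a := fun h => hc (Fin.succAbove_right_injective (by rw [h, hb]))
      simp only [hAdef, if_neg h4, if_neg (Fin.succAbove_ne i c)]
    · intro h; exact absurd (Finset.mem_univ _) h
  rw [h3] at h2
  rw [h1]
  exact (norm_add_le _ _).trans (add_le_add le_rfl ((norm_TR_abs hA W G).trans h2))

/-- all free letters are cut -/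
theorem cut_all : ∃ K : ℝ, 0 ≤ K ∧ ∀ {bb : ℤ} {ε : ℕ → ℤ → ℂ}, Adm bb ε → ∀ {W : Finset Nd} {I : Nd},
    Full W I → ∀ {k q3 : ℝ}, 0 < k → 2 < q3 → ∀ {F : Fin 4 → Fn} {i : Fin 4},
    (∀ j, j ≠ i → ∀ p ∈ W, aq (qx k q3 j) p (F j) ≤ 1) → ∀ {M H : ℝ}, 0 < H → 0 ≤ M →
    Rep i I (F i) M →
    ‖TR bb ε W F‖ ≤ ‖TR bb ε W (cutS H ((Finset.univ : Finset (Fin 4)).erase i) F)‖ +
      K * M * (∑ j ∈ (Finset.univ : Finset (Fin 4)).erase i, etaq k q3 H j) * len I := by
  classical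
  obtain ⟨K, hK, hS⟩ := cut_step
  refine ⟨K, hK, ?_⟩
  intro bb ε hA W I hW k q3 hk hq3 F i hF M H hH hM hrep
  have key : ∀ S : Finset (Fin 4), i ∉ S → ‖TR bb ε W F‖ ≤ ‖TR bb ε W (cutS H S F)‖ +
      K * M * (∑ j ∈ S, etaq k q3 H j) * len I := by
    intro S
    induction S using Finset.induction_on with
    | empty =>
      intro _
      have : cutS H ∅ F = F := by
        funext j; unfold cutS; rw [if_neg (Finset.notMem_empty j)]
      rw [this, Finset.sum_empty]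
      simp
    | insert a S ha ih =>
      intro hi
      have hiS : i ∉ S := fun h => hi (Finset.mem_insert_of_mem h)
      have hai : a ≠ i := fun h => hi (by rw [← h]; exact Finset.mem_insert_self _ _)
      have h1 := ih hiS
      have h2 := hS hA hW hk hq3 hF hH hM hrep S a hiS ha hai
      rw [Finset.sum_insert ha]
      have : K * M * (etaq k q3 H a + ∑ j ∈ S, etaq k q3 H j) * len I =
        K * M * etaq k q3 H a * len I + K * M * (∑ j ∈ S, etaq k q3 H j) * len I := by ring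
      rw [this]
      linarith
  exact key _ (Finset.notMem_erase i _)

/-- size of the three tall parts -/
theorem sum_etaq {k q3 H : ℝ} (hk : 0 < k) (hkq : 2 + k ≤ q3) (hH : 1 ≤ H) (i : Fin 4) :
    ∑ j ∈ (Finset.univ : Finset (Fin 4)).erase i, etaq k q3 H j ≤ 3 * H ^ (-(k / 2)) := by
  have h1 : ∀ j, etaq k q3 H j ≤ H ^ (-(k / 2)) := by
    intro j
    unfold etaq
    refine Real.rpow_le_rpow_of_exponent_le hH ?_
    have : 2 + k ≤ qx k q3 j := by unfold qx; split_ifs <;> linarith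
    linarith
  calc _ ≤ ∑ _j ∈ (Finset.univ : Finset (Fin 4)).erase i, H ^ (-(k / 2)) :=
        Finset.sum_le_sum fun j _ => h1 j
    _ = 3 * H ^ (-(k / 2)) := by
        rw [Finset.sum_const, Finset.card_erase_of_mem (Finset.mem_univ i)]
        simp

/-- tall part in `L¹` -/
theorem sum_hi_le {k : ℝ} (hk : 0 < k) {H : ℝ} (hH : 0 < H) {p : Nd} {G : Fn}
    (hG : aq (2 + k) p G ≤ 1) : ∑ y ∈ iv p, ‖BadN360.hi H G y‖ ≤ H ^ (-(1 + k)) * len p := by
  have hL := Growth.len_pos p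
  have hq0 : (0 : ℝ) < 2 + k := by linarith
  have h1 : (1 / len p) * ∑ y ∈ iv p, ‖G y‖ ^ (2 + k) ≤ 1 := by
    by_contra hcon
    push Not at hcon
    have := Real.one_lt_rpow hcon (show 0 < 1 / (2 + k) by positivity)
    rw [← aq_eq] at this
    linarith
  have h2 : ∑ y ∈ iv p, ‖G y‖ ^ (2 + k) ≤ len p := by
    rw [one_div, inv_mul_le_iff₀ hL] at h1
    linarith
  have h3 : ∀ y, ‖BadN360.hi H G y‖ ≤ H ^ (-(1 + k)) * ‖G y‖ ^ (2 + k) := by
    intro y
    unfold BadN360.hi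
    split_ifs with h
    · rw [norm_zero]
      have := Real.rpow_pos_of_pos hH (-(1 + k))
      have := Real.rpow_nonneg (norm_nonneg (G y)) (2 + k)
      positivity
    · push Not at h
      have hG0 : 0 < ‖G y‖ := hH.trans h
      have e1 : ‖G y‖ ^ (2 + k) = ‖G y‖ * ‖G y‖ ^ (1 + k) := by
        have := Real.rpow_add hG0 1 (1 + k)
        rw [Real.rpow_one] at this
        rw [← this]; congr 1; ring
      have e2 : H ^ (1 + k) ≤ ‖G y‖ ^ (1 + k) :=
        Real.rpow_le_rpow hH.le h.le (by linarith)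
      have e3 : H ^ (-(1 + k)) * H ^ (1 + k) = 1 := by
        rw [← Real.rpow_add hH]; simp
      have e4 : 0 < H ^ (-(1 + k)) := Real.rpow_pos_of_pos hH _
      rw [e1]
      calc ‖G y‖ = ‖G y‖ * (H ^ (-(1 + k)) * H ^ (1 + k)) := by rw [e3, mul_one]
        _ ≤ ‖G y‖ * (H ^ (-(1 + k)) * ‖G y‖ ^ (1 + k)) := by gcongr
        _ = _ := by ring
  calc ∑ y ∈ iv p, ‖BadN360.hi H G y‖ ≤ ∑ y ∈ iv p, H ^ (-(1 + k)) * ‖G y‖ ^ (2 + k) :=
        Finset.sum_le_sum fun y _ => h3 y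
    _ = H ^ (-(1 + k)) * ∑ y ∈ iv p, ‖G y‖ ^ (2 + k) := by rw [Finset.mul_sum]
    _ ≤ _ := mul_le_mul_of_nonneg_left h2 (Real.rpow_pos_of_pos hH _).le

/-- the level of the cut killer -/
theorem lvS_cut {g x f : ℝ} {m : Fin 4} {t s : ℝ} (ht : 0 < t) {p : Nd} {G : Fn}
    (h : OpS276.LvS g x f m t s p G) {k : ℝ} (hk : 0 < k) {H : ℝ} (hH : 0 < H)
    (hG : aq (2 + k) p G ≤ 1) :
    OpS276.LvS g x f m t (s + t ^ (-g) * H ^ (-(1 + k))) p (BadN360.lo H G) := by
  intro φ hφ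
  have h1 := h φ hφ
  have hsup : ∀ y, ‖φ y‖ ≤ t ^ (-g) := by
    obtain ⟨j, e, e', n, hd, ψ, ⟨w, q, u, m', U, V, α, hD, rfl⟩, rfl⟩ := hφ
    intro y
    have ht0 : 0 ≤ t ^ (-g) := (Real.rpow_pos_of_pos ht _).le
    show ‖((t ^ (-g) / (n : ℝ) ^ 2 : ℝ) : ℂ) * _‖ ≤ _
    rw [norm_mul, Complex.norm_real, Real.norm_of_nonneg (by positivity)]
    rcases Nat.eq_zero_or_pos n with hn | hn
    · subst hn; simpa using ht0
    · have hn' : (0 : ℝ) < n := by exact_mod_cast hn
      calc t ^ (-g) / (n : ℝ) ^ 2 * ‖OLevSw.opA m j e e' n w q u m' U V y‖ ≤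
          t ^ (-g) / (n : ℝ) ^ 2 * (n : ℝ) ^ 2 :=
            mul_le_mul_of_nonneg_left (OpS276.sup_opA hd hD w q u y) (by positivity)
        _ = t ^ (-g) := by field_simp
  have h2 := sum_hi_le hk hH hG
  have e1 : ∑ y ∈ iv p, BadN360.lo H G y * φ y =
      ∑ y ∈ iv p, G y * φ y - ∑ y ∈ iv p, BadN360.hi H G y * φ y := by
    rw [← Finset.sum_sub_distrib]
    refine Finset.sum_congr rfl fun y _ => ?_
    rw [BadN360.lo_add_hi H G y]; ring
  rw [e1]
  have h3 : ‖∑ y ∈ iv p, BadN360.hi H G y * φ y‖ ≤ t ^ (-g) * (H ^ (-(1 + k)) * len p) := by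
    refine (norm_sum_le _ _).trans ?_
    calc ∑ y ∈ iv p, ‖BadN360.hi H G y * φ y‖ ≤ ∑ y ∈ iv p, t ^ (-g) * ‖BadN360.hi H G y‖ := by
          refine Finset.sum_le_sum fun y _ => ?_
          rw [norm_mul, mul_comm]
          exact mul_le_mul_of_nonneg_right (hsup y) (norm_nonneg _)
      _ = t ^ (-g) * ∑ y ∈ iv p, ‖BadN360.hi H G y‖ := by rw [Finset.mul_sum]
      _ ≤ _ := mul_le_mul_of_nonneg_left h2 (Real.rpow_pos_of_pos ht _).le
  calc _ ≤ ‖∑ y ∈ iv p, G y * φ y‖ + ‖∑ y ∈ iv p, BadN360.hi H G y * φ y‖ := norm_sub_le _ _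
    _ ≤ s * len p + t ^ (-g) * (H ^ (-(1 + k)) * len p) := add_le_add h1 h3
    _ = _ := by ring

end Crest.Agent.R079.OpK276
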