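import Crest.Agent.R079.TDfb_853
import Crest.Agent.R079.TDw_351
import Crest.Agent.R079.LasN_525

/-! R079, RECURSION FOR NODE-DEPENDENT DICTIONARIES (helper533): definitions.

A dictionary is now a family of NODE-LOCAL COSTS `D j t p f` (slot `j`, parameter `t`, node `p`,
letter `f`; think of the atomic norm of `f` on `iv p` with respect to the atoms of the node `p`, all
prices divided out).  The only structural axiom on the scales is SUPER-AVERAGING (`Cst.sup`).  Frozen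
letters have cost `≤ 1` at EVERY node of the region, killers are leveled at every node of the region.
Everything else (`BN`, `Ok2`, windows, moving letters) is the one of `TDef_853` / `TDfb_853`. -/

set_option autoImplicit false

namespace Crest.Agent.R079.TRecN

open Finset Crest.Agent.R079.Grid Crest.Agent.R079.Growth Crest.Agent.R079.QRed
open Crest.Agent.R079.TRec

/-- node-dependent dictionary: `D j t p f` = cost of the letter `f` of slot `j` at the node `p`,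
parameter `t` (a letter is "in the dictionary at `p`" iff its cost is `≤ 1`) -/
abbrev Dict : Type := Fin 4 → ℝ → Nd → Fn → ℝ

/-- what the recursion needs of the dictionary -/
structure Dic (D : Dict) (sg : ℝ) : Prop where
  /-- nonnegative, local, subadditive, homogeneous, SUPER-AVERAGING -/
  cst : ∀ j t, 0 < t → t ≤ 1 → LasN525.Cst (D j t)
  /-- sup norm -/
  sup : ∀ j t, 0 < t → t ≤ 1 → ∀ p f, ∀ y ∈ iv p, ‖f y‖ ≤ D j t p f * t ^ (-(sx sg j))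
  /-- smaller parameter = smaller cost -/
  mono : ∀ j s t, 0 < s → s ≤ t → t ≤ 1 → ∀ p f, D j s p f ≤ D j t p f
  /-- closed under complex conjugation -/
  conj : ∀ j t, 0 < t → t ≤ 1 → ∀ p f, D j t p (fun y => (starRingEnd ℂ) (f y)) ≤ D j t p f

/-- POINT MASSES of height at least `t^(-th)` have cost `≤ 1` (a priori bound at finite resolution;
any `th > 0` will do, `bt` is chosen below `th`) -/
def PtE (D : Dict) (th : ℝ) : Prop :=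
  ∀ j, j ≠ 3 → ∀ t, 0 < t → t ≤ 1 → ∀ y : ℤ, ∃ u : ℝ, 0 < u ∧ u ≤ t ^ th ∧
    ∀ p, D j t p (fun x => if x = y then ((u : ℂ))⁻¹ else 0) ≤ 1

/-- level `≤ s` at the node `p`: against all letters of cost `≤ 1` at `p` (`Lv.hom`: equivalently
`‖∑ g φ‖ ≤ s * D j t p φ * len p` for all `φ`) -/
def Lv (D : Dict) (j : Fin 4) (t s : ℝ) (p : Nd) (g : Fn) : Prop :=
  ∀ φ : Fn, D j t p φ ≤ 1 → ‖∑ y ∈ iv p, g y * φ y‖ ≤ s * len p

/-- frozen of cost `≤ M` at the node `p` -/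
def Fz (D : Dict) (j : Fin 4) (t M : ℝ) (p : Nd) (f : Fn) : Prop := D j t p f ≤ M

/-- frozen letters of the slots `0,1,2` at a FIXED parameter (no gain) -/
def FrzBd (D : Dict) (k q3 : ℝ) : Prop :=
  ∀ t, 0 < t → t ≤ 1 → ∃ K : ℝ, 0 ≤ K ∧ ∀ bb ε, Adm bb ε → ∀ W I, Full W I → ∀ F, nrm k q3 W F →
    ∀ i : Fin 4, i ≠ 3 → (∀ p ∈ W, Fz D i t 1 p (F i)) → ‖TR bb ε W F‖ ≤ K * len I

/-- **windowed residual** `X = G - H - E` of slot `j`, level `t`, window fineness `t^c1` -/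
structure WRd (D : Dict) (k q3 sg c1 C : ℝ) (j : Fin 4) (t : ℝ) (R : Finset Nd) (J : Nd)
    (T : Finset Nd) (G : Fn) (H E X : Nd → Fn) : Prop where
  tops : Tops R J T
  adH : Adp R T H
  adE : Adp R T E
  eq : ∀ p ∈ R, ∀ y, X p y = G y - H p y - E p y
  nrm : ∀ p ∈ R, aq (qx k q3 j) p G ≤ 1
  lev : ∀ p ∈ R, Lv D j t C p (X p)
  frz : ∀ p ∈ R, Fz D j t C p (H p)
  hav : ∀ p ∈ R, av p (H p) ≤ C
  eav : ∀ p ∈ R, av p (E p) ≤ C * t ^ (c1 / 2)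
  hsup : ∀ p ∈ R, ∀ y ∈ iv p, ‖H p y‖ ≤ C * t ^ (-(sx sg j))
  esup : ∀ p ∈ R, ∀ y ∈ iv p, ‖E p y‖ ≤ C * t ^ (-(sx sg j))
  cnt : Cnt R T (C * t ^ (-c1))
  sq : Sq R T E C

/-- **[T1] WINDOWS**: common windows of four static letters at level `t`; `C` absolute -/
def WinLem : Prop :=
  ∃ C : ℝ, 1 ≤ C ∧ ∀ (D : Dict) (k q3 sg c1 : ℝ), Dic D sg → 0 < k → k < 1 → 2 < q3 → 0 ≤ sg →
    sg ≤ 1 → 0 < c1 → c1 ≤ 1 → ∀ R J, Full R J → ∀ G : Fin 4 → Fn, nrm k q3 R G →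
    ∀ t, 0 < t → t ≤ 1 → ∃ (T : Finset Nd) (H E : Fin 4 → Nd → Fn),
      ∀ j, WRd D k q3 sg c1 C j t R J T (G j) (H j) (E j)
        (fun p y => G j y - H j p y - E j p y)

/-- `A` bounds all tuples with ONE windowed residual of level `t` (slot `m ≠ 3`), three static -/
def An (D : Dict) (k q3 sg c1 C : ℝ) (N : ℕ) (t A : ℝ) : Prop :=
  ∀ bb ε, Adm bb ε → ∀ R J, Full R J → J.1 ≤ N → ∀ m : Fin 4, m ≠ 3 → ∀ T G H E X,
    WRd D k q3 sg c1 C m t R J T G H E X → ∀ F : Fin 4 → Fn,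
    (∀ j, j ≠ m → ∀ p ∈ R, aq (qx k q3 j) p (F j) ≤ 1) →
    ‖TP bb ε R (Function.update (fun j _ => F j) m X)‖ ≤ A * len J

/-- `A` bounds all tuples with TWO windowed residuals (levels `t'`, `t`; slots `m ≠ m'`, both `≠ 3`) -/
def Bn (D : Dict) (k q3 sg c1 C : ℝ) (N : ℕ) (t' t A : ℝ) : Prop :=
  ∀ bb ε, Adm bb ε → ∀ R J, Full R J → J.1 ≤ N → ∀ m m' : Fin 4, m ≠ 3 → m' ≠ 3 → m ≠ m' →
    ∀ T G H E X, WRd D k q3 sg c1 C m t' R J T G H E X →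
    ∀ T' G' H' E' X', WRd D k q3 sg c1 C m' t R J T' G' H' E' X' → ∀ F : Fin 4 → Fn,
    (∀ j, j ≠ m → j ≠ m' → ∀ p ∈ R, aq (qx k q3 j) p (F j) ≤ 1) →
    ‖TP bb ε R (Function.update (Function.update (fun j _ => F j) m X) m' X')‖ ≤ A * len J

/-- **[T4a] A PRIORI** at finite resolution -/
def AprLem : Prop :=
  ∀ (D : Dict) (k q3 sg c0 c3 e c1 bt C th : ℝ), Ok k q3 sg c0 c3 e c1 bt → PtE D th → 1 ≤ C →
    ∀ N, ∃ K : ℝ, 0 ≤ K ∧ ∀ t, 0 < t → t ≤ 1 → An D k q3 sg c1 C N t (K * t ^ th)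

/-- **[T4b] TOP STEP** (fixed parameter `t`) -/
def TopLem : Prop :=
  ∃ Cw : ℝ, 1 ≤ Cw ∧ ∀ (D : Dict) (k q3 sg c0 c3 e c1 bt C : ℝ), Ok k q3 sg c0 c3 e c1 bt →
    Dic D sg → Cw ≤ C → FrzBd D k q3 → ∃ K : ℝ, 0 ≤ K ∧ ∀ t, 0 < t → t ≤ 1 → ∃ Kt : ℝ, 0 ≤ Kt ∧
    ∀ N B A, 0 ≤ B → BN k q3 N B → 0 ≤ A → An D k q3 sg c1 C N t A →
      BN k q3 N (Kt + K * t ^ (-(20 * k)) * A + K * B * t ^ bt)

/-- **RULE (A) = MIX**, only slots `0,1,2`: slot `i` frozen (cost `≤ 1` at every node), killer `m`,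
others arbitrary -/
def RuleA2 (D : Dict) (k q3 c0 e t0 K : ℝ) : Prop :=
  ∀ (N : ℕ) (B : ℝ), 0 ≤ B → BN k q3 N B → ∀ t, 0 < t → t ≤ t0 → ∀ bb ε, Adm bb ε → ∀ W I,
    Full W I → I.1 ≤ N → ∀ F, nrm k q3 W F →
    ∀ i m : Fin 4, i ≠ m → i ≠ 3 → m ≠ 3 → (∀ p ∈ W, Fz D i (t ^ (1 + e)) 1 p (F i)) →
      (∀ p ∈ W, Lv D m t 1 p (F m)) → ‖TR bb ε W F‖ ≤ K * (1 + B) * t ^ c0 * len I

/-- **RULE (S) = STATIC PAIR**: slot `m` frozen (cost `1` at `t^(1+e)`) AND nice up to a small letter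
`E` (`av ≤ t^s1`), slot `3` arbitrary static; on at most `K t^(-CS)` windows, which depend only on
`(P, G)`, the two other letters being arbitrary. -/
def RuleS (D : Dict) (k q3 cS CS s1 e t0 K : ℝ) : Prop :=
  ∀ (N : ℕ) (B : ℝ), 0 ≤ B → BN k q3 N B → ∀ t, 0 < t → t ≤ t0 → ∀ bb W I, Full W I → I.1 ≤ N →
    ∀ (m : Fin 4), m ≠ 3 → ∀ P G X E : Fn,
    (∀ p ∈ W, aq (2 + k) p P ≤ 1) → (∀ p ∈ W, aq q3 p G ≤ 1) →
    (∀ p ∈ W, Fz D m (t ^ (1 + e)) 1 p P) →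
    (∀ y ∈ iv I, P y = X y + E y) → (∀ p ∈ W, Lv D m t 1 p X) → (∀ p ∈ W, av p E ≤ t ^ s1) →
    ∃ T : Finset Nd, Tops W I T ∧ Cnt W T (K * t ^ (-CS)) ∧
      ∀ I' ∈ T, ∀ W' J, Full W' J → W' ⊆ win W T I' → ∀ F : Fin 4 → Fn, F m = P → F 3 = G →
        (∀ j, j ≠ m → j ≠ 3 → ∀ p ∈ W', aq (2 + k) p (F j) ≤ 1) → ∀ ε, Adm bb ε →
        ‖TR bb ε W' F‖ ≤ K * (1 + B) * t ^ cS * len J

/-- two residuals -/
def TwoLem2 : Prop :=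
  ∀ (D : Dict) (k q3 c0 cS CS s1 e c1 bt κ t0 K C : ℝ) (K0 : ℕ),
    Ok2 k q3 c0 cS CS s1 e c1 bt κ K0 → 0 < t0 → t0 ≤ 1 → 0 ≤ K → 1 ≤ C → Dic D 0 →
    RuleA2 D k q3 c0 e t0 K → ∃ K' : ℝ, 0 ≤ K' ∧
    ∀ N B t A, 0 ≤ B → BN k q3 N B → 0 < t → t ≤ t0 → 0 ≤ A →
      An D k q3 0 c1 C N (t ^ (1 + e)) A →
      Bn D k q3 0 c1 C N (t ^ (1 + e)) t
        (K' * t ^ (-(6 * k)) * A + K' * (1 + B) * t ^ (bt + 10 * κ))

/-- **THE STEP** -/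
def StepLem2 : Prop :=
  ∃ Cw : ℝ, 1 ≤ Cw ∧ ∀ (D : Dict) (k q3 c0 cS CS s1 e c1 bt κ t0 K C : ℝ) (K0 : ℕ),
    Ok2 k q3 c0 cS CS s1 e c1 bt κ K0 → 0 < t0 → t0 ≤ 1 → 0 ≤ K → Cw ≤ C → Dic D 0 →
    RuleA2 D k q3 c0 e t0 K → RuleS D k q3 cS CS s1 e t0 K → ∃ K' : ℝ, 0 ≤ K' ∧
    ∀ N B t A, 0 ≤ B → BN k q3 N B → 0 < t → t ≤ t0 → 0 ≤ A →
      An D k q3 0 c1 C N (t ^ (1 + e)) A →
      An D k q3 0 c1 C N t (K' * t ^ (-(20 * κ)) * A + K' * (1 + B) * t ^ bt)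

/-- **GOAL of the recursion** -/
def RecGoal2 : Prop :=
  ∀ (D : Dict) (k q3 c0 cS CS s1 e c1 bt κ t0 K : ℝ) (K0 : ℕ),
    Ok2 k q3 c0 cS CS s1 e c1 bt κ K0 → 0 < t0 → 0 ≤ K →
    Dic D 0 → PtE D bt → RuleA2 D k q3 c0 e t0 K → RuleS D k q3 cS CS s1 e t0 K → FrzBd D k q3 →
    ∃ B : ℝ, 0 ≤ B ∧ ∀ N, BN k q3 N B

/-- what the analysis has to deliver -/
def Analytic2 : Prop :=
  ∃ (D : Dict) (k q3 c0 cS CS s1 e c1 bt κ t0 K : ℝ) (K0 : ℕ),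
    Ok2 k q3 c0 cS CS s1 e c1 bt κ K0 ∧ 0 < t0 ∧ 0 ≤ K ∧ Dic D 0 ∧ PtE D bt ∧
    RuleA2 D k q3 c0 e t0 K ∧ RuleS D k q3 cS CS s1 e t0 K ∧ FrzBd D k q3

end Crest.Agent.R079.TRecN
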