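import Crest.Agent.R079.RuS4_256
import Crest.Agent.R079.TNDef_533

/-! R079, RULE (S), DICTIONARY-FREE FORM (helper256): `RuleSO` (frozen letter = mixture of bounded atoms
of mass `A1 t^(-C1)` on the top, level = `OLev` at the nodes), its proof `ruleSO_of`, and `RULE (S)` of the
node-dependent recursion `TRecN`. -/

set_option autoImplicit false
set_option linter.unusedVariables false

namespace Crest.Agent.R079.RuS256

open Finset Crest.Agent.R079.Grid Crest.Agent.R079.Growth Crest.Agent.R079.QRed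
  Crest.Agent.R079.Glue Crest.Agent.R079.TRec Crest.Agent.R079.TWin Crest.Agent.R079.Ero526
  Crest.Agent.R079.OpLev Crest.Agent.R079.S2D530 Crest.Agent.R079.Cg408 Crest.Agent.R079.BadN360
  Crest.Agent.R079.BAt112

/-- **RULE (S), dictionary-free** -/
def RuleSO (k q3 cS CS s1 A1 C1 A2 gm : ℝ) (κ0 : ℕ) (t0 K : ℝ) : Prop :=
  ∀ t, 0 < t → t ≤ t0 → ∀ bb W I, Full W I → ∀ (m : Fin 4), m ≠ 3 → ∀ P G X E : Fn,
    (∀ p ∈ W, aq (2 + k) p P ≤ 1) → (∀ p ∈ W, aq q3 p G ≤ 1) → RepB m I P (A1 * t ^ (-C1)) →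
    (∀ y ∈ iv I, P y = X y + E y) →
    (∀ p ∈ W, av p X ≤ 2 → OLev κ0 m p X (A2 * t ^ gm)) → (∀ p ∈ W, av p E ≤ t ^ s1) →
    ∃ T : Finset Nd, Tops W I T ∧ Cnt W T (K * t ^ (-CS)) ∧
      ∀ I' ∈ T, ∀ W' J, Full W' J → W' ⊆ win W T I' → ∀ F : Fin 4 → Fn, F m = P → F 3 = G →
        (∀ j, j ≠ m → j ≠ 3 → ∀ p ∈ W', aq (2 + k) p (F j) ≤ 1) → ∀ ε, Adm bb ε →
        ‖TR bb ε W' F‖ ≤ K * t ^ cS * len J

/-- **`RuleSO` holds** (`cS = gS q3 gm s1`, `CS = eC q3 (C1/2) gm s1` do not depend on `k, A1, A2, κ0`) -/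
theorem ruleSO_of {q3 C1 gm s1 : ℝ} (hq3 : 2 < q3) (hC1 : 0 ≤ C1) (hgm : 0 < gm) (hs1 : 0 < s1)
    {k A1 A2 : ℝ} (hk : 0 < k) (hA1 : 0 ≤ A1) (hA2 : 0 ≤ A2) {κ0 : ℕ} (hκ0 : 13 ≤ κ0) :
    ∃ t0 K : ℝ, 0 < t0 ∧ t0 ≤ 1 ∧ 0 ≤ K ∧
      RuleSO k q3 (gS q3 gm s1) (eC q3 (C1 / 2) gm s1) s1 A1 C1 A2 gm κ0 t0 K := by
  have hC : 0 ≤ C1 / 2 := by positivity
  obtain ⟨t0, K, h0, ht01, hK, hst⟩ := static_core hq3 hC hgm hs1 hk hA1 hA2 hκ0
  obtain ⟨K2, hK2, htall⟩ := tall_words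
  set cS : ℝ := gS q3 gm s1 with hcS
  set CG : ℝ := eG q3 (C1 / 2) gm s1 with hCGd
  set CS : ℝ := eC q3 (C1 / 2) gm s1 with hCSd
  have hCG0 : 0 ≤ CG := eG_nonneg hq3 hC hgm hs1
  have hCG : C1 + cS ≤ CG * ((q3 - 2) / 2) := by
    have hq : 0 < q3 - 2 := by linarith
    rw [hCGd]; unfold eG
    rw [← hcS, div_mul_div_comm, mul_comm (q3 - 2) 2, ← div_mul_div_comm, div_self hq.ne', mul_one]
    linarith
  set Kb : ℝ := 512 * Real.sqrt (2 * A2) + 128 with hKb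
  have hKb0 : 0 ≤ Kb := by positivity
  set cc : ℝ := 16 * (2 * (((7 : ℕ) : ℝ) + 1) + 1) with hcc
  have hcc0 : 0 ≤ cc := by positivity
  refine ⟨t0, (2 + cc) * (K + Kb) + K2 * A1, h0, ht01, by positivity, ?_⟩
  intro t ht ht0 bb W I hW m hm P G X E h1 h2 h3 h4 h5 h6
  have ht1 : t ≤ 1 := ht0.trans ht01
  set H : ℝ := t ^ (-CG) with hHdef
  have hH : 0 < H := Real.rpow_pos_of_pos ht _
  have hat : ∃ κ : ℝ, 0 < κ ∧ ∃ f : Fn, BA m κ ((A1 + 1) * t ^ (-(2 * (C1 / 2)))) f ∧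
      ∀ y ∈ iv I, P y = f y := by
    obtain ⟨κ, hκ, -, f, hf, hPf⟩ := one_atom h3
    refine ⟨κ, hκ, f, hf.mono ?_, hPf⟩
    have e1 : -(2 * (C1 / 2)) = -C1 := by ring
    rw [e1]
    have e2 : 1 ≤ t ^ (-C1) := one_le_neg ht ht1 hC1
    linarith
  obtain ⟨S, V, hP, hb⟩ := hst t ht ht0 W I hW m hm P (lo H G) X E h1
    (fun p hp => (aq_lo (by linarith) H p G).trans (h2 p hp)) (fun y => norm_lo_le hH.le G y)
    hat h4 h5 h6
  have hKt : 0 ≤ K * t ^ (-CS) := mul_nonneg hK (Real.rpow_nonneg ht.le _)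
  have hP' : Part W S V (((2 + cc) * (K + Kb) + K2 * A1) * t ^ (-CS)) := by
    refine WinA222.part_mono hP ?_
    have : 0 ≤ (K + Kb + cc * (K + Kb) + K2 * A1) * t ^ (-CS) := by positivity
    have h7 : 0 ≤ t ^ (-CS) := Real.rpow_nonneg ht.le _
    nlinarith [mul_nonneg hKb0 h7, mul_nonneg (mul_nonneg hcc0 (add_nonneg hK hKb0)) h7,
      mul_nonneg (mul_nonneg hK2 hA1) h7]
  refine ⟨S, WinA222.tops_of_part hW hP', WinA222.cnt_of_part hP', ?_⟩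
  intro K' hK' W' J hW' hsub F hFm hF3 hF ε hε
  rw [Rs530.win_eq hW hP' hK'] at hsub
  have hWsub : ∀ p ∈ W', p ∈ W := fun p hp => hP.wsub K' hK' (hsub hp)
  have hJI : iv J ⊆ iv I := hW.reg.1 J (hWsub J hW'.top)
  have hlen : 0 < len J := Growth.len_pos J
  have hFav : ∀ j, j ≠ 3 → ∀ p ∈ W', av p (F j) ≤ 1 := by
    intro j hj p hp
    by_cases hjm : j = m
    · subst hjm
      rw [hFm]
      exact (TWL649.av_le_aq (by linarith) p P).trans (h1 p (hWsub p hp))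
    · exact (TWL649.av_le_aq (by linarith) p (F j)).trans (hF j hjm hj p hp)
  have hG3 : ∀ p ∈ W', aq q3 p (F 3) ≤ 1 := fun p hp => by
    rw [hF3]; exact h2 p (hWsub p hp)
  have hrep : Rep m J (F m) (A1 * t ^ (-C1)) := by
    rw [hFm]
    exact rep_mono h3.rep hJI
  -- low word
  set F' : Fin 4 → Fn := Function.update F 3 (lo H (F 3)) with hF'
  have hF'm : F' m = P := by rw [hF', Function.update_of_ne hm, hFm]
  have hF'3 : F' 3 = lo H G := by rw [hF', Function.update_self, hF3]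
  obtain ⟨Ka, Kb', e1, e2, e3⟩ := hb K' hK' W' J hW' hsub F' hF'm hF'3 (fun j hj hj3 p hp => by
    rw [hF', Function.update_of_ne hj3]; exact hF j hj hj3 p hp) bb hε.1
  have hlow : ‖TR bb ε W' F'‖ ≤
      (K * t ^ cS + K * t ^ cS + cc * (Kb * t ^ cS)) * len J := by
    refine S2D530.window_split hε hW' 7 F' Ka Kb' e1 (by positivity) e2 e3 ?_
    intro p hp _
    have hpW := hWsub p hp
    have hpI : iv p ⊆ iv I := hW.reg.1 p hpW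
    have hPav : av p P ≤ 1 := (TWL649.av_le_aq (by linarith) p P).trans (h1 p hpW)
    have hEav : av p E ≤ t ^ s1 := h6 p hpW
    have hXav : av p X ≤ 2 := Leaf259.av_X (fun y hy => h4 y (hpI hy)) hPav
      (hEav.trans (Real.rpow_le_one ht.le ht1 hs1.le))
    have hbad := node_bad hε.1 hm (p := p) (F := F') (X := X) (E := E) (κ := κ0)
      (s := A2 * t ^ gm) (sE := t ^ s1) (H := t ^ (-(gm / 4))) (q3 := q3) (by positivity)
      (Real.rpow_pos_of_pos ht _) hq3 (fun y hy => by rw [hF'm]; exact h4 y (hpI hy))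
      (h5 p hpW hXav) hXav hEav
      (by rw [hF'3]; exact (aq_lo (by linarith) H p G).trans (h2 p hpW))
      (fun j hj => by rw [hF', Function.update_of_ne hj]; exact hFav j hj p hp)
    exact hbad.trans (mul_le_mul_of_nonneg_right
      (bad_num ht ht1 hA2 (gS_1 _ _ _) (gS_2 _ _ _) (gS_3 _ _ _)) (Growth.len_pos p).le)
  -- tall word
  have hhi : ‖TR bb ε W' (Function.update F 3 (hi H (F 3)))‖ ≤
      K2 * (A1 * t ^ (-C1)) * H ^ (-((q3 - 2) / 2)) * len J :=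
    (Qb247.norm_TR_le hε.2 W' _).trans (htall bb hε.1 W' J hW'.reg F m hm hFav q3 H _ hq3 hH hG3 hrep)
  have hhi2 : K2 * (A1 * t ^ (-C1)) * H ^ (-((q3 - 2) / 2)) ≤ K2 * A1 * t ^ cS := by
    have f1 : t ^ (-C1) * H ^ (-((q3 - 2) / 2)) ≤ t ^ cS := by
      rw [hHdef, ← Real.rpow_mul ht.le, ← Real.rpow_add ht]
      exact Real.rpow_le_rpow_of_exponent_ge ht ht1 (by nlinarith)
    calc _ = K2 * A1 * (t ^ (-C1) * H ^ (-((q3 - 2) / 2))) := by ring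
      _ ≤ _ := mul_le_mul_of_nonneg_left f1 (by positivity)
  -- sum
  have hsum : TR bb ε W' F = TR bb ε W' F' + TR bb ε W' (Function.update F 3 (hi H (F 3))) := by
    unfold TR TI
    rw [← Finset.sum_add_distrib]
    refine Finset.sum_congr rfl fun p _ => ?_
    rw [← Finset.sum_add_distrib]
    refine Finset.sum_congr rfl fun x _ => ?_
    rw [← mul_add]
    congr 1
    rw [hF', ← Lbox_upd_add]
    congr 1
    funext j
    by_cases hj : j = 3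
    · subst hj
      rw [Function.update_self]
      funext y
      exact lo_add_hi H (F 3) y
    · rw [Function.update_of_ne hj]
  have htc : 0 ≤ t ^ cS := Real.rpow_nonneg ht.le _
  rw [hsum]
  refine (norm_add_le _ _).trans ?_
  calc _ ≤ (K * t ^ cS + K * t ^ cS + cc * (Kb * t ^ cS)) * len J +
        K2 * A1 * t ^ cS * len J := add_le_add hlow
          (hhi.trans (mul_le_mul_of_nonneg_right hhi2 hlen.le))
    _ = (2 * K + cc * Kb + K2 * A1) * (t ^ cS * len J) := by ring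
    _ ≤ ((2 + cc) * (K + Kb) + K2 * A1) * (t ^ cS * len J) := by
        refine mul_le_mul_of_nonneg_right ?_ (by positivity)
        nlinarith [mul_nonneg hcc0 hK, mul_nonneg hcc0 hKb0]
    _ = _ := by ring

/-! ### the node-dependent recursion -/

/-- (B) for node-dependent dictionaries -/
def HBN (D : TRecN.Dict) (A C : ℝ) : Prop :=
  ∀ m : Fin 4, m ≠ 3 → ∀ t, 0 < t → t ≤ 1 → ∀ (p : Nd) (P : Fn), TRecN.Fz D m t 1 p P →
    RepB m p P (A * t ^ (-C))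

/-- (O) for node-dependent dictionaries -/
def OpLevelN (D : TRecN.Dict) (κ : ℕ) (A gm t0 : ℝ) : Prop :=
  ∀ m : Fin 4, m ≠ 3 → ∀ t, 0 < t → t ≤ t0 → ∀ p X, TRecN.Lv D m t 1 p X → av p X ≤ 2 →
    OLev κ m p X (A * t ^ gm)

theorem ruleSN_of_SO {D : TRecN.Dict} {k q3 cS CS s1 A C A2 gm e t1 t0 K : ℝ} {κ0 : ℕ}
    (hA : 0 ≤ A) (hC : 0 ≤ C) (he0 : 0 ≤ e) (he : e ≤ 1) (hK : 0 ≤ K) (ht01 : t0 ≤ 1)
    (ht0t1 : t0 ≤ t1) (hB : HBN D A C) (hO : OpLevelN D κ0 A2 gm t1)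
    (h : RuleSO k q3 cS CS s1 A (2 * C) A2 gm κ0 t0 K) : TRecN.RuleS D k q3 cS CS s1 e t0 K := by
  intro N B hB0 hBN t ht htt bb W I hW hI m hm P G X E h1 h2 h3 h4 h5 h6
  have ht1 : t ≤ 1 := htt.trans ht01
  have hte : 0 < t ^ (1 + e) := Real.rpow_pos_of_pos ht _
  have hte1 : t ^ (1 + e) ≤ 1 := Real.rpow_le_one ht.le ht1 (by linarith)
  have hrep : RepB m I P (A * t ^ (-(2 * C))) := by
    refine (hB m hm _ hte hte1 I P (h3 I hW.top)).mono (mul_le_mul_of_nonneg_left ?_ hA)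
    rw [← Real.rpow_mul ht.le]
    exact Real.rpow_le_rpow_of_exponent_ge ht ht1 (by nlinarith)
  obtain ⟨T, hT, hcnt, hb⟩ := h t ht htt bb W I hW m hm P G X E h1 h2 hrep h4
    (fun p hp hX => hO m hm t ht (htt.trans ht0t1) p X (h5 p hp) hX) h6
  refine ⟨T, hT, hcnt, fun I' hI' W' J hW' hsub F hFm hF3 hF ε hε => ?_⟩
  refine (hb I' hI' W' J hW' hsub F hFm hF3 hF ε hε).trans ?_
  have hl := Growth.len_pos J
  refine mul_le_mul_of_nonneg_right (mul_le_mul_of_nonneg_right ?_ (Real.rpow_nonneg ht.le _)) hl.le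
  nlinarith [mul_nonneg hK hB0]

theorem ruleSO_mono {k q3 cS CS s1 A1 C1 A2 gm t0 t0' K : ℝ} {κ0 : ℕ}
    (h : RuleSO k q3 cS CS s1 A1 C1 A2 gm κ0 t0 K) (ht : t0' ≤ t0) :
    RuleSO k q3 cS CS s1 A1 C1 A2 gm κ0 t0' K := fun t h0 h1 => h t h0 (h1.trans ht)

/-- **RULE (S) of `TRecN`** for every node-dependent dictionary with (B), (O) -/
theorem ruleSN_of {q3 C gm s1 : ℝ} (hq3 : 2 < q3) (hC : 0 ≤ C) (hgm : 0 < gm) (hs1 : 0 < s1)
    {k A A2 t1 : ℝ} (hk : 0 < k) (hA : 0 ≤ A) (hA2 : 0 ≤ A2) (ht1 : 0 < t1) {κ0 : ℕ}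
    (hκ0 : 13 ≤ κ0) {e : ℝ} (he0 : 0 ≤ e) (he : e ≤ 1) {D : TRecN.Dict} (hB : HBN D A C)
    (hO : OpLevelN D κ0 A2 gm t1) :
    ∃ t0 K : ℝ, 0 < t0 ∧ t0 ≤ 1 ∧ 0 ≤ K ∧
      TRecN.RuleS D k q3 (gS q3 gm s1) (eC q3 C gm s1) s1 e t0 K := by
  obtain ⟨t0, K, h0, h01, hK, h⟩ := ruleSO_of (C1 := 2 * C) hq3 (by positivity) hgm hs1 hk hA hA2
    hκ0
  rw [show 2 * C / 2 = C by ring] at h
  exact ⟨min t0 t1, K, lt_min h0 ht1, (min_le_left _ _).trans h01, hK,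
    ruleSN_of_SO hA hC he0 he hK ((min_le_left _ _).trans h01) (min_le_right _ _) hB hO
      (ruleSO_mono h (min_le_left _ _))⟩

/-- **hypothesis `hS`** in the form of `Par4_734`, node-dependent dictionaries -/
theorem hSN_of {q3 : ℝ} (hq3 : 2 < q3) (D : ℝ → ℝ → TRecN.Dict)
    (hBO : ∃ e2 : ℝ, 0 < e2 ∧ ∀ e, 0 < e → e ≤ e2 → ∃ C gm k2 : ℝ, 0 ≤ C ∧ 0 < gm ∧ 0 < k2 ∧
      ∀ k, 0 < k → k ≤ k2 → ∃ (A A2 t1 : ℝ) (κ0 : ℕ), 0 ≤ A ∧ 0 ≤ A2 ∧ 0 < t1 ∧ 13 ≤ κ0 ∧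
        HBN (D e k) A C ∧ OpLevelN (D e k) κ0 A2 gm t1) :
    ∃ e2 : ℝ, 0 < e2 ∧ ∀ e, 0 < e → e ≤ e2 → ∀ s1, 0 < s1 → ∃ cS CS k2 : ℝ,
      0 < cS ∧ 0 ≤ CS ∧ 0 < k2 ∧ ∀ k, 0 < k → k ≤ k2 →
        ∃ t0 K : ℝ, 0 < t0 ∧ 0 ≤ K ∧ TRecN.RuleS (D e k) k q3 cS CS s1 e t0 K := by
  obtain ⟨e2, he2, h⟩ := hBO
  refine ⟨min 1 e2, lt_min one_pos he2, fun e he hee s1 hs1 => ?_⟩
  obtain ⟨C, gm, k2, hC, hgm, hk2, hk⟩ := h e he (hee.trans (min_le_right _ _))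
  refine ⟨gS q3 gm s1, eC q3 C gm s1, k2, gS_pos hq3 hgm hs1, eC_nonneg hq3 hC hgm hs1, hk2,
    fun k hk0 hkk => ?_⟩
  obtain ⟨A, A2, t1, κ0, hA, hA2, ht1, hκ0, hB, hO⟩ := hk k hk0 hkk
  obtain ⟨t0, K, h0, -, hK, hR⟩ := ruleSN_of hq3 hC hgm hs1 hk0 hA hA2 ht1 hκ0 he.le
    (hee.trans (min_le_left _ _)) hB hO
  exact ⟨t0, K, h0, hK, hR⟩

end Crest.Agent.R079.RuS256
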