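import Crest.Agent.R079.T6a_252
import Crest.Agent.R079.TTopA_13
import Crest.Agent.R079.TWin3_903
import Crest.Agent.R079.TAsm_398

/-! R079, T6 (helper252): RULE (A) FOR ONE PAIR FROM THE OPERATOR PART AND THE CELLS of the frozen letter.

Dictionary in the cost form of `TNDef_533`; every letter of cost `≤ 1` at a node splits there into a
combination of operator atoms `OA j t` (cost `1` each, price divided out) and of CELLS `CA j t` (pairs
`(ψ, w)`, `w : Nd → ℝ` the node-dependent, super-averaging cost), see `Spl`.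

* `PairG` : rule (A) for the pair `(i, m)`, frozen at `t ^ a`, killer of level `t ^ b`
  (`(a, b) = (1 + e, 1)` : nontrivial pairs; `(a, b) = (1, 1 + δ)` : trivial pairs);
* `CellKill` : ONE cell in the slot `i`: `‖TR‖ ≤ K (1 + B) t ^ c0 * w I * len I`;
* `OpKill` : ONE operator atom in the slot `i`: `‖TR‖ ≤ K (1 + B) t ^ c0 * len I`;
* `PairO` : rule (A) for a MIXTURE of operator atoms of mass `≤ 2` whose local `L²` norms are
  `≤ 3 t ^ (-cl)` at all nodes of the region;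
* `pairG_of_op` : `Spl`, `CellKill`, `OpKill` => `PairG`;
* `pairG_of_mix` : `Spl`, `CellKill`, `PairO` => `PairG` (one stopping time for the cost of the cells;
  the stopped windows cost `B`). -/

set_option autoImplicit false

namespace Crest.Agent.R079.T6bx252

open Finset Crest.Agent.R079.Grid Crest.Agent.R079.Growth Crest.Agent.R079.QRed
open Crest.Agent.R079.Qe292 Crest.Agent.R079.TRec Crest.Agent.R079.T6ax252

/-- cells: pairs (function, node-dependent cost) -/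
abbrev CDict : Type := Fin 4 → ℝ → Set (Fn × (Nd → ℝ))

/-- the letters of cost `≤ 1` split into operator atoms and cells -/
structure Spl (D : TRecN.Dict) (OA : TRec.Dict) (CA : CDict) (cc : Fin 4 → ℝ) : Prop where
  split : ∀ j, j ≠ 3 → ∀ t, 0 < t → t ≤ 1 → ∀ p f, D j t p f ≤ 1 →
    ∃ (n n' : ℕ) (φ : Fin n → Fn) (α : Fin n → ℂ) (ψ : Fin n' → Fn × (Nd → ℝ)) (β : Fin n' → ℂ),
      (∀ i, φ i ∈ OA j t) ∧ (∀ i, ψ i ∈ CA j t) ∧
      (∀ y ∈ iv p, f y = ∑ i, α i * φ i y + ∑ i, β i * (ψ i).1 y) ∧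
      ∑ i, ‖α i‖ + ∑ i, ‖β i‖ * (ψ i).2 p ≤ 2
  nn : ∀ j t, 0 < t → t ≤ 1 → ∀ x ∈ CA j t, ∀ q, 0 ≤ x.2 q
  sav : ∀ j t, 0 < t → t ≤ 1 → ∀ x ∈ CA j t, Sav x.2
  av : ∀ j t, 0 < t → t ≤ 1 → ∀ x ∈ CA j t, ∀ q, Growth.av q x.1 ≤ t ^ (-(cc j)) * x.2 q

/-- rule (A) for the pair `(i, m)`: frozen at `t ^ a`, killer of level `t ^ b` -/
def PairG (D : TRecN.Dict) (k q3 c0 a b t0 K : ℝ) (i m : Fin 4) : Prop :=
  ∀ (N : ℕ) (B : ℝ), 0 ≤ B → BN k q3 N B → ∀ t, 0 < t → t ≤ t0 → ∀ bb ε, Adm bb ε → ∀ W I,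
    Full W I → I.1 ≤ N → ∀ F, nrm k q3 W F → (∀ p ∈ W, TRecN.Fz D i (t ^ a) 1 p (F i)) →
      (∀ p ∈ W, TRecN.Lv D m (t ^ b) 1 p (F m)) → ‖TR bb ε W F‖ ≤ K * (1 + B) * t ^ c0 * len I

/-- ONE CELL of the slot `i` (parameter `t ^ a`), killer `m` of level `t ^ b` -/
def CellKill (D : TRecN.Dict) (CA : CDict) (k q3 c0 a b t0 K : ℝ) (i m : Fin 4) : Prop :=
  ∀ (N : ℕ) (B : ℝ), 0 ≤ B → BN k q3 N B → ∀ t, 0 < t → t ≤ t0 → ∀ bb ε, Adm bb ε → ∀ W I,
    Full W I → I.1 ≤ N → ∀ F, (∀ j, j ≠ i → ∀ p ∈ W, aq (qx k q3 j) p (F j) ≤ 1) →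
      ∀ x ∈ CA i (t ^ a), F i = x.1 → (∀ p ∈ W, TRecN.Lv D m (t ^ b) 1 p (F m)) →
      ‖TR bb ε W F‖ ≤ K * (1 + B) * t ^ c0 * (x.2 I * len I)

/-- ONE OPERATOR ATOM of the slot `i` (parameter `t ^ a`, price divided out), killer `m` of level
`t ^ b` -/
def OpKill (D : TRecN.Dict) (OA : TRec.Dict) (k q3 c0 a b t0 K : ℝ) (i m : Fin 4) : Prop :=
  ∀ (N : ℕ) (B : ℝ), 0 ≤ B → BN k q3 N B → ∀ t, 0 < t → t ≤ t0 → ∀ bb ε, Adm bb ε → ∀ W I,
    Full W I → I.1 ≤ N → ∀ F, (∀ j, j ≠ i → ∀ p ∈ W, aq (qx k q3 j) p (F j) ≤ 1) →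
      F i ∈ OA i (t ^ a) → (∀ p ∈ W, TRecN.Lv D m (t ^ b) 1 p (F m)) →
      ‖TR bb ε W F‖ ≤ K * (1 + B) * t ^ c0 * len I

/-- the data of rule (A) for a mixture of operator atoms -/
structure PRo (D : TRecN.Dict) (OA : TRec.Dict) (k a b cl t : ℝ) (W : Finset Nd) (I : Nd)
    (i m : Fin 4) (F : Fin 4 → Fn) : Prop where
  full : Full W I
  nR : ∀ p ∈ W, aq (2 + k) p (F m) ≤ 1
  mix : TRec.Fz OA i (t ^ a) 2 I (F i)
  avP : ∀ p ∈ W, av p (F i) ≤ 3 * t ^ (-cl)
  lev : ∀ p ∈ W, TRecN.Lv D m (t ^ b) 1 p (F m)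

/-- rule (A) for a mixture of operator atoms -/
def PairO (D : TRecN.Dict) (OA : TRec.Dict) (k q3 c0 a b cl t0 K : ℝ) (i m : Fin 4) : Prop :=
  ∀ (N : ℕ) (B : ℝ), 0 ≤ B → BN k q3 N B → ∀ t, 0 < t → t ≤ t0 → ∀ bb ε, Adm bb ε → ∀ W I F,
    PRo D OA k a b cl t W I i m F → I.1 ≤ N →
      (∀ j, j ≠ i → ∀ p ∈ W, aq (qx k q3 j) p (F j) ≤ 1) →
      ‖TR bb ε W F‖ ≤ K * (1 + B) * t ^ c0 * len I

/-! ### linearity -/

/-- `TR` is linear in the slot `i` -/
theorem TR_two {bb : ℤ} {ε : ℕ → ℤ → ℂ} (hA : Adm bb ε) {W : Finset Nd} {I : Nd}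
    (hW : ∀ p ∈ W, iv p ⊆ iv I) (F : Fin 4 → Fn) (i : Fin 4) {n n' : ℕ} (φ : Fin n → Fn)
    (α : Fin n → ℂ) (ψ : Fin n' → Fn × (Nd → ℝ)) (β : Fin n' → ℂ)
    (h : ∀ y ∈ iv I, F i y = ∑ l, α l * φ l y + ∑ l, β l * (ψ l).1 y) :
    TR bb ε W F = TR bb ε W (Function.update F i (fun y => ∑ l, α l * φ l y)) +
      ∑ l, β l * TR bb ε W (Function.update F i (ψ l).1) := by
  have e0 : ∀ p ∈ W, TI bb ε F p = TI bb ε (Function.update F i (fun y => ∑ l, α l * φ l y)) p +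
      ∑ l, β l * TI bb ε (Function.update F i (ψ l).1) p := by
    intro p hp
    have e1 : TI bb ε F p = TI bb ε (Function.update F i
        (fun y => ∑ r : Fin 2, (![1, 1] : Fin 2 → ℂ) r *
          (![fun y => ∑ l, α l * φ l y, fun y => ∑ l, β l * (ψ l).1 y] : Fin 2 → Fn) r y)) p := by
      refine Qb247.TI_congr bb hA.1 ε _ _ p fun j y hy => ?_
      by_cases hj : j = i
      · subst hj
        rw [Function.update_self, Fin.sum_univ_two]
        simp only [Matrix.cons_val_zero, Matrix.cons_val_one, one_mul]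
        exact h y (hW p hp hy)
      · rw [Function.update_of_ne hj]
    rw [e1, Qb247.TI_update_sum, Fin.sum_univ_two]
    simp only [Matrix.cons_val_zero, Matrix.cons_val_one, one_mul]
    rw [Qb247.TI_update_sum bb ε F i n' (fun l => (ψ l).1) β p]
  unfold TR
  rw [Finset.sum_congr rfl e0, Finset.sum_add_distrib]
  congr 1
  simp only [Finset.mul_sum]
  rw [Finset.sum_comm]

/-- the cells of the frozen letter -/
theorem cells_le {D : TRecN.Dict} {CA : CDict} {k q3 c0 a b t0 K : ℝ} {i m : Fin 4} (him : i ≠ m)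
    (hC : CellKill D CA k q3 c0 a b t0 K i m) {N : ℕ} {B : ℝ} (hB : 0 ≤ B) (hBN : BN k q3 N B)
    {t : ℝ} (ht : 0 < t) (htt : t ≤ t0) {bb : ℤ} {ε : ℕ → ℤ → ℂ} (hA : Adm bb ε) {W : Finset Nd}
    {I : Nd} (hW : Full W I) (hI : I.1 ≤ N) {F : Fin 4 → Fn}
    (hF : ∀ j, j ≠ i → ∀ p ∈ W, aq (qx k q3 j) p (F j) ≤ 1)
    (hlv : ∀ p ∈ W, TRecN.Lv D m (t ^ b) 1 p (F m)) {n' : ℕ} {ψ : Fin n' → Fn × (Nd → ℝ)}
    {β : Fin n' → ℂ} (hψ : ∀ l, ψ l ∈ CA i (t ^ a)) :
    ‖∑ l, β l * TR bb ε W (Function.update F i (ψ l).1)‖ ≤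
      K * (1 + B) * t ^ c0 * ((∑ l, ‖β l‖ * (ψ l).2 I) * len I) := by
  refine (norm_sum_le _ _).trans ?_
  rw [Finset.sum_mul, Finset.mul_sum]
  refine Finset.sum_le_sum fun l _ => ?_
  rw [norm_mul]
  have h1 := hC N B hB hBN t ht htt bb ε hA W I hW hI (Function.update F i (ψ l).1)
    (fun j hj p hp => by rw [Function.update_of_ne hj]; exact hF j hj p hp) (ψ l) (hψ l)
    (by rw [Function.update_self]) (fun p hp => by
      rw [Function.update_of_ne him.symm]; exact hlv p hp)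
  calc ‖β l‖ * ‖TR bb ε W (Function.update F i (ψ l).1)‖ ≤
      ‖β l‖ * (K * (1 + B) * t ^ c0 * ((ψ l).2 I * len I)) :=
        mul_le_mul_of_nonneg_left h1 (norm_nonneg _)
    _ = _ := by ring

/-- **trivial pairs**: operator atoms one by one -/
theorem pairG_of_op {D : TRecN.Dict} {OA : TRec.Dict} {CA : CDict} {cc : Fin 4 → ℝ}
    (hS : Spl D OA CA cc) {k q3 c0 a b t0 K : ℝ} (ha : 0 ≤ a) (ht0 : t0 ≤ 1) (hK : 0 ≤ K)
    {i m : Fin 4} (him : i ≠ m) (hi3 : i ≠ 3)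
    (hC : CellKill D CA k q3 c0 a b t0 K i m) (hO : OpKill D OA k q3 c0 a b t0 K i m) :
    PairG D k q3 c0 a b t0 (2 * K) i m := by
  intro N B hB hBN t ht htt bb ε hA W I hW hI F hF hfz hlv
  have hs0 : 0 < t ^ a := Real.rpow_pos_of_pos ht _
  have hs1 : t ^ a ≤ 1 := Real.rpow_le_one ht.le (htt.trans ht0) ha
  obtain ⟨n, n', φ, α, ψ, β, hφ, hψ, hf, hm⟩ := hS.split i hi3 _ hs0 hs1 I (F i) (hfz I hW.top)
  have hF' : ∀ j, j ≠ i → ∀ p ∈ W, aq (qx k q3 j) p (F j) ≤ 1 := fun j _ => hF j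
  rw [TR_two hA (fun p hp => hW.reg.1 p hp) F i φ α ψ β hf]
  have h1 := cells_le him hC hB hBN ht htt hA hW hI hF' hlv (β := β) hψ
  have e1 : TR bb ε W (Function.update F i (fun y => ∑ l, α l * φ l y)) =
      ∑ l, α l * TR bb ε W (Function.update F i (φ l)) := by
    unfold TR
    simp only [Qb247.TI_update_sum, Finset.mul_sum]
    rw [Finset.sum_comm]
  have hl := (Growth.len_pos I).le
  have hKB : 0 ≤ K * (1 + B) * t ^ c0 := by
    have : 0 ≤ t ^ c0 := Real.rpow_nonneg ht.le _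
    have : 0 ≤ 1 + B := by linarith
    positivity
  have h2 : ‖∑ l, α l * TR bb ε W (Function.update F i (φ l))‖ ≤
      K * (1 + B) * t ^ c0 * ((∑ l, ‖α l‖) * len I) := by
    refine (norm_sum_le _ _).trans ?_
    rw [Finset.sum_mul, Finset.mul_sum]
    refine Finset.sum_le_sum fun l _ => ?_
    rw [norm_mul]
    have h3 := hO N B hB hBN t ht htt bb ε hA W I hW hI (Function.update F i (φ l))
      (fun j hj p hp => by rw [Function.update_of_ne hj]; exact hF j p hp)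
      (by rw [Function.update_self]; exact hφ l) (fun p hp => by
        rw [Function.update_of_ne him.symm]; exact hlv p hp)
    calc ‖α l‖ * ‖TR bb ε W (Function.update F i (φ l))‖ ≤
        ‖α l‖ * (K * (1 + B) * t ^ c0 * len I) := mul_le_mul_of_nonneg_left h3 (norm_nonneg _)
      _ = _ := by ring
  rw [e1]
  refine (norm_add_le _ _).trans ((add_le_add h2 h1).trans ?_)
  rw [← mul_add, ← add_mul]
  calc K * (1 + B) * t ^ c0 * ((∑ l, ‖α l‖ + ∑ l, ‖β l‖ * (ψ l).2 I) * len I) ≤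
      K * (1 + B) * t ^ c0 * (2 * len I) :=
        mul_le_mul_of_nonneg_left (mul_le_mul_of_nonneg_right hm hl) hKB
    _ = _ := by ring

/-- local `L²` norms of multiples -/
theorem av_cmul (p : Nd) (c : ℂ) (X : Fn) : av p (fun y => c * X y) = ‖c‖ * av p X := by
  unfold av av2
  have e : ∀ y, ‖c * X y‖ ^ 2 = ‖c‖ ^ 2 * ‖X y‖ ^ 2 := by
    intro y
    rw [norm_mul, mul_pow]
  simp only [e]
  rw [← Finset.mul_sum, mul_left_comm, Real.sqrt_mul (sq_nonneg _), Real.sqrt_sq (norm_nonneg _)]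

/-- local `L²` norms of sums -/
theorem av_sum_le {p : Nd} {n : ℕ} (β : Fin n → ℂ) (ψ : Fin n → Fn) :
    av p (fun y => ∑ l, β l * ψ l y) ≤ ∑ l, ‖β l‖ * av p (ψ l) := by
  classical
  have key : ∀ s : Finset (Fin n), av p (fun y => ∑ l ∈ s, β l * ψ l y) ≤
      ∑ l ∈ s, ‖β l‖ * av p (ψ l) := by
    intro s
    induction s using Finset.induction_on with
    | empty =>
      simp only [Finset.sum_empty]
      have : av p (fun _ => (0 : ℂ)) = 0 := by unfold av av2; simp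
      exact this.le
    | insert a s ha ih =>
      rw [Finset.sum_insert ha]
      have e : (fun y => ∑ l ∈ insert a s, β l * ψ l y) =
          fun y => β a * ψ a y + ∑ l ∈ s, β l * ψ l y := by
        funext y; rw [Finset.sum_insert ha]
      rw [e]
      exact (TWin.av_add_le p _ _).trans (add_le_add (av_cmul p _ _).le ih)
  exact key Finset.univ

/-- **nontrivial pairs**: the mixture of operator atoms on the main window, the cells one by one, the
stopped windows by `B` -/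
theorem pairG_of_mix {D : TRecN.Dict} {OA : TRec.Dict} {CA : CDict} {cc : Fin 4 → ℝ}
    (hS : Spl D OA CA cc) {k q3 cO cC a b d cl t0 K K' : ℝ} (hk : 0 < k) (hkq : 2 + k ≤ q3)
    (ha : 0 ≤ a) (hd : 0 ≤ d) (ht0 : t0 ≤ 1) (hK : 0 ≤ K) (hK' : 0 ≤ K') {i m : Fin 4} (him : i ≠ m)
    (hi3 : i ≠ 3) (hcc : 0 ≤ cc i) (hcl : a * cc i + d ≤ cl)
    (hC : CellKill D CA k q3 cC a b t0 K i m) (hO : PairO D OA k q3 cO a b cl t0 K' i m) :
    PairG D k q3 (min (min cO cC) d) a b t0 (K' + 2 * K + 2) i m := by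
  intro N B hB hBN t ht htt bb ε hA W I hW hI F hF hfz hlv
  have ht1 : t ≤ 1 := htt.trans ht0
  have hs0 : 0 < t ^ a := Real.rpow_pos_of_pos ht _
  have hs1 : t ^ a ≤ 1 := Real.rpow_le_one ht.le ht1 ha
  obtain ⟨n, n', φ, α, ψ, β, hφ, hψ, hf, hm⟩ := hS.split i hi3 _ hs0 hs1 I (F i) (hfz I hW.top)
  have hF' : ∀ j, j ≠ i → ∀ p ∈ W, aq (qx k q3 j) p (F j) ≤ 1 := fun j _ => hF j
  have hl := (Growth.len_pos I).le
  have hd0 : 0 < t ^ (-d) := Real.rpow_pos_of_pos ht _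
  have hd1 : 1 ≤ t ^ (-d) := Real.one_le_rpow_of_pos_of_le_one_of_nonpos ht ht1 (by linarith)
  -- the cost of the cells
  set G : Nd → ℝ := fun q => ∑ l, ‖β l‖ * (ψ l).2 q with hG
  have hG0 : ∀ q, 0 ≤ G q := fun q => Finset.sum_nonneg fun l _ =>
    mul_nonneg (norm_nonneg _) (hS.nn i _ hs0 hs1 _ (hψ l) q)
  have hGs : Sav G := by
    intro r l
    simp only [hG]
    rw [← Finset.sum_add_distrib, Finset.mul_sum]
    refine Finset.sum_le_sum fun j _ => ?_
    have := mul_le_mul_of_nonneg_left (hS.sav i _ hs0 hs1 _ (hψ j) r l) (norm_nonneg (β j))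
    linarith
  have hα0 : 0 ≤ ∑ l, ‖α l‖ := Finset.sum_nonneg fun l _ => norm_nonneg _
  have hGI : G I ≤ 2 := by
    have : ∑ l, ‖α l‖ + G I ≤ 2 := hm
    linarith
  have hα2 : ∑ l, ‖α l‖ ≤ 2 := by
    have : ∑ l, ‖α l‖ + G I ≤ 2 := hm
    linarith [hG0 I]
  set θ : ℝ := 2 * t ^ (-d) with hθ
  have hθ0 : 0 < θ := by positivity
  set V := Wd W (fun _ p => G p) θ I with hV
  set T := Tp W (fun _ p => G p) θ I with hT
  have hVW : V ⊆ W := Wd_sub
  have hVf : Full V I := Wd_full hW hW.top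
  have hVg : ∀ p ∈ V, G p ≤ θ := by
    intro p hp
    by_cases h : p = I
    · rw [h]; linarith [hGI]
    · have := mem_Wd.1 hp
      exact (this.2.2 p this.1 subset_rfl this.2.1 h).1
  -- the stopped windows
  have hst : ∑ c ∈ T, len c ≤ 2 * t ^ d * len I := by
    have h1 := stop_len hGs hG0 hW hθ0
    have h2 : θ * ∑ c ∈ T, len c ≤ 4 * len I := by
      refine h1.trans ?_
      have := mul_le_mul_of_nonneg_left hGI hl
      linarith
    have e : t ^ d * t ^ (-d) = 1 := by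
      rw [← Real.rpow_add ht]; simp
    have h3 := mul_le_mul_of_nonneg_left h2 (Real.rpow_nonneg ht.le d)
    have e2 : t ^ d * (θ * ∑ c ∈ T, len c) = 2 * ∑ c ∈ T, len c := by
      rw [hθ]
      calc t ^ d * (2 * t ^ (-d) * ∑ c ∈ T, len c) = 2 * (t ^ d * t ^ (-d)) * ∑ c ∈ T, len c := by
            ring
        _ = _ := by rw [e]; ring
    rw [e2] at h3
    linarith
  have hTR : TR bb ε W F = TR bb ε V F + ∑ c ∈ T, TR bb ε (blw W c) F := by
    unfold TR
    exact stop_sum hW _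
  have hsub : ‖∑ c ∈ T, TR bb ε (blw W c) F‖ ≤ B * (2 * t ^ d * len I) := by
    refine (norm_sum_le _ _).trans ?_
    have h1 : ∀ c ∈ T, ‖TR bb ε (blw W c) F‖ ≤ B * len c := by
      intro c hc
      have hc' := mem_Tp.1 hc
      refine hBN bb ε hA (blw W c) c (blw_full hW hc'.1) ?_ F fun j p hp => hF j p (blw_sub hp)
      exact (Qe292.iv_level hc'.2.1).trans hI
    refine (Finset.sum_le_sum h1).trans ?_
    rw [← Finset.mul_sum]
    exact mul_le_mul_of_nonneg_left hst hB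
  -- the main window
  have hlvV : ∀ p ∈ V, TRecN.Lv D m (t ^ b) 1 p (F m) := fun p hp => hlv p (hVW hp)
  have hFV : ∀ j, j ≠ i → ∀ p ∈ V, aq (qx k q3 j) p (F j) ≤ 1 := fun j hj p hp => hF j p (hVW hp)
  have htwo := TR_two (ε := ε) hA (fun p hp => hVf.reg.1 p hp) F i φ α ψ β hf
  have hcell := cells_le him hC hB hBN ht htt hA hVf hI hFV hlvV (β := β) hψ
  -- the mixture
  have h2k : ∀ j, ∀ p ∈ W, aq (2 + k) p (F j) ≤ 1 := fun j p hp =>
    (AsmA844.aq_le_aq (by linarith) (by unfold qx; split_ifs <;> linarith) p (F j)).trans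
      (hF j p hp)
  have hav : ∀ p ∈ V, av p (fun y => ∑ l, α l * φ l y) ≤ 3 * t ^ (-cl) := by
    intro p hp
    have h1 : av p (fun y => ∑ l, β l * (ψ l).1 y) ≤ (t ^ a) ^ (-(cc i)) * G p := by
      refine (av_sum_le β fun l => (ψ l).1).trans ?_
      simp only [hG]
      rw [Finset.mul_sum]
      refine Finset.sum_le_sum fun l _ => ?_
      have := mul_le_mul_of_nonneg_left (hS.av i _ hs0 hs1 _ (hψ l) p) (norm_nonneg (β l))
      linarith
    have h2 : av p (F i) ≤ 1 := by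
      have h3 := h2k i p (hVW hp)
      exact (TAsm398.av_le_aq (by linarith) p (F i)).trans h3
    have h3 : av p (fun y => ∑ l, α l * φ l y) ≤ av p (F i) +
        av p (fun y => ∑ l, β l * (ψ l).1 y) := by
      have e1 : av p (fun y => ∑ l, α l * φ l y) =
          av p (fun y => F i y + (-1 : ℂ) * ∑ l, β l * (ψ l).1 y) := by
        refine TWin.av_congr fun y hy => ?_
        rw [hf y (hVf.reg.1 p hp hy)]
        ring
      rw [e1]
      refine (TWin.av_add_le p _ _).trans (add_le_add le_rfl (le_of_eq ?_))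
      rw [av_cmul]
      simp
    have h4 : (t ^ a) ^ (-(cc i)) * G p ≤ 2 * t ^ (-cl) := by
      rw [← Real.rpow_mul ht.le]
      calc t ^ (a * -(cc i)) * G p ≤ t ^ (a * -(cc i)) * (2 * t ^ (-d)) :=
            mul_le_mul_of_nonneg_left (hVg p hp) (Real.rpow_nonneg ht.le _)
        _ = 2 * t ^ (a * -(cc i) + -d) := by rw [Real.rpow_add ht]; ring
        _ ≤ 2 * t ^ (-cl) := by
            refine mul_le_mul_of_nonneg_left ?_ (by norm_num)
            exact Real.rpow_le_rpow_of_exponent_ge ht ht1 (by linarith)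
    have hcl0 : 0 ≤ cl := by
      have : 0 ≤ a * cc i := mul_nonneg ha hcc
      linarith
    have h5 : 1 ≤ t ^ (-cl) := Real.one_le_rpow_of_pos_of_le_one_of_nonpos ht ht1 (by linarith)
    linarith
  have hPR : PRo D OA k a b cl t V I i m (Function.update F i (fun y => ∑ l, α l * φ l y)) :=
    { full := hVf
      nR := fun p hp => by
        rw [Function.update_of_ne him.symm]; exact h2k m p (hVW hp)
      mix := ⟨n, φ, α, hφ, fun y _ => by rw [Function.update_self], hα2⟩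
      avP := fun p hp => by rw [Function.update_self]; exact hav p hp
      lev := fun p hp => by rw [Function.update_of_ne him.symm]; exact hlvV p hp }
  have hmain := hO N B hB hBN t ht htt bb ε hA V I _ hPR hI fun j hj p hp => by
    rw [Function.update_of_ne hj]; exact hFV j hj p hp
  rw [hTR, htwo]
  set c0 := min (min cO cC) d with hc0
  have g1 : t ^ cO ≤ t ^ c0 :=
    Real.rpow_le_rpow_of_exponent_ge ht ht1 ((min_le_left _ _).trans (min_le_left _ _))
  have g2 : t ^ cC ≤ t ^ c0 :=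
    Real.rpow_le_rpow_of_exponent_ge ht ht1 ((min_le_left _ _).trans (min_le_right _ _))
  have g3 : t ^ d ≤ t ^ c0 := Real.rpow_le_rpow_of_exponent_ge ht ht1 (min_le_right _ _)
  have g0 : 0 ≤ t ^ c0 := Real.rpow_nonneg ht.le _
  have hB1 : 0 ≤ 1 + B := by linarith
  have b1 : K' * (1 + B) * t ^ cO * len I ≤ K' * (1 + B) * t ^ c0 * len I :=
    mul_le_mul_of_nonneg_right (mul_le_mul_of_nonneg_left g1 (mul_nonneg hK' hB1)) hl
  have b2 : K * (1 + B) * t ^ cC * (G I * len I) ≤ 2 * K * (1 + B) * t ^ c0 * len I := by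
    have h5 : K * (1 + B) * t ^ cC * (G I * len I) ≤ K * (1 + B) * t ^ cC * (2 * len I) :=
      mul_le_mul_of_nonneg_left (mul_le_mul_of_nonneg_right hGI hl)
        (mul_nonneg (mul_nonneg hK hB1) (Real.rpow_nonneg ht.le _))
    have h6 : K * (1 + B) * t ^ cC * (2 * len I) ≤ K * (1 + B) * t ^ c0 * (2 * len I) :=
      mul_le_mul_of_nonneg_right (mul_le_mul_of_nonneg_left g2 (mul_nonneg hK hB1)) (by linarith)
    calc _ ≤ K * (1 + B) * t ^ c0 * (2 * len I) := h5.trans h6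
      _ = _ := by ring
  have b3 : B * (2 * t ^ d * len I) ≤ 2 * (1 + B) * t ^ c0 * len I := by
    have h5 : B * (2 * t ^ d * len I) ≤ B * (2 * t ^ c0 * len I) :=
      mul_le_mul_of_nonneg_left (mul_le_mul_of_nonneg_right
        (mul_le_mul_of_nonneg_left g3 (by norm_num)) hl) hB
    have h6 : 0 ≤ 2 * t ^ c0 * len I := by positivity
    nlinarith
  calc ‖_‖ ≤ (‖TR bb ε V (Function.update F i (fun y => ∑ l, α l * φ l y))‖ +
        ‖∑ l, β l * TR bb ε V (Function.update F i (ψ l).1)‖) +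
        ‖∑ c ∈ T, TR bb ε (blw W c) F‖ :=
        (norm_add_le _ _).trans (add_le_add (norm_add_le _ _) le_rfl)
    _ ≤ (K' * (1 + B) * t ^ cO * len I + K * (1 + B) * t ^ cC * (G I * len I)) +
        B * (2 * t ^ d * len I) := add_le_add (add_le_add hmain hcell) hsub
    _ ≤ _ := by linarith

end Crest.Agent.R079.T6bx252
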