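import Crest.Agent.R079.WS_112
import Crest.Agent.R079.Cell2_37
import Crest.Agent.R079.T6b_252
import Crest.Agent.R079.RuS5_256

/-! R079 (helper112): **THE FINAL DICTIONARY** `DF0 P` (cost form): op-atoms with `L¹` weight (276)
at price `t'^(g j)`, cells (37); `t' = t ^ θ`.  No plain family, no tall point masses: the unit point
masses are op-atoms with `n = 1`.

`cst_DF0`, `sup_DF0`, `mono_DF0`, `conj_DF0`, `pt_DF0` (point masses of height `t^(-θ g j)` have cost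
`≤ 1`), `frzBd_DF0`, `repB_DF0`, `lvS_DF0`, `lvC_DF0`, `olev_DF0`, `hBN_DF0`, `opLevelN_DF0`,
`ruleS_DF0`, **`spl_DF0`** (splitting into op-atoms and cells, `T6bx252.Spl`). -/

set_option autoImplicit false
set_option linter.unusedVariables false

namespace Crest.Agent.R079.WS0112

open Finset Crest.Agent.R079.Grid Crest.Agent.R079.Glue Crest.Agent.R079.Growth
  Crest.Agent.R079.QRed Crest.Agent.R079.BAt112 Crest.Agent.R079.TFrz679
  Crest.Agent.R079.DicB112 Crest.Agent.R079.WA112 Crest.Agent.R079.WB112 Crest.Agent.R079.WS112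
  Crest.Agent.R079.OLevSw Crest.Agent.R079.OpS276 Crest.Agent.R079.DicOp679
  Crest.Agent.R079.RuS256 Crest.Agent.R079.OpLev

/-! ### admissible families without tall points -/

/-- admissible weighted family -/
structure WF (A : Fin 4 → ℝ → Set WA) : Prop where
  ws : ∀ j t, 0 < t → t ≤ 1 → WS (A j t)
  sup : ∀ j t, 0 < t → t ≤ 1 → ∀ x ∈ A j t, ∀ p, ∀ y ∈ iv p, ‖x.1 y‖ ≤ x.2 p * t ^ (-(TRec.sx 0 j))
  mono : ∀ j s t, 0 < s → s ≤ t → t ≤ 1 → ∀ x ∈ A j t, ∃ x' ∈ A j s,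
    (∀ y, x'.1 y = x.1 y) ∧ ∀ p, x'.2 p ≤ x.2 p
  conj : ∀ j t, 0 < t → t ≤ 1 → ∀ x ∈ A j t, ∃ x' ∈ A j t,
    (∀ y, x'.1 y = (starRingEnd ℂ) (x.1 y)) ∧ ∀ p, x'.2 p ≤ x.2 p
  mass : ∃ A0 C0 : ℝ, 0 ≤ A0 ∧ 0 ≤ C0 ∧ ∀ j, j ≠ 3 → ∀ t, 0 < t → t ≤ 1 → ∀ x ∈ A j t, ∀ p,
    RepB j p x.1 (A0 * t ^ (-C0) * x.2 p)

section gen

variable {A : Fin 4 → ℝ → Set WA} (h : WF A)

include h

theorem cst_WF (j : Fin 4) (t : ℝ) (ht : 0 < t) (ht1 : t ≤ 1) : LasN525.Cst (gD A j t) :=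
  cst_gau (h.ws j t ht ht1)

theorem sup_WF (j : Fin 4) (t : ℝ) (ht : 0 < t) (ht1 : t ≤ 1) (p : Nd) (f : Fn) :
    ∀ y ∈ iv p, ‖f y‖ ≤ gD A j t p f * t ^ (-(TRec.sx 0 j)) := by
  intro y hy
  have hT : 0 < t ^ (-(TRec.sx 0 j)) := Real.rpow_pos_of_pos ht _
  have hS := h.ws j t ht ht1
  rw [← div_le_iff₀ hT]
  refine le_gau hS ?_
  rintro M ⟨n, x, c, h1, h2, rfl⟩
  rw [div_le_iff₀ hT, h2 y hy, Finset.sum_mul]
  refine (norm_sum_le _ _).trans (Finset.sum_le_sum fun i _ => ?_)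
  rw [norm_mul, mul_assoc]
  exact mul_le_mul_of_nonneg_left (h.sup j t ht ht1 _ (h1 i) p y hy) (norm_nonneg _)

theorem mono_WF (j : Fin 4) (s t : ℝ) (hs : 0 < s) (hst : s ≤ t) (ht1 : t ≤ 1) (p : Nd) (f : Fn) :
    gD A j s p f ≤ gD A j t p f := by
  refine le_gau (h.ws j t (hs.trans_le hst) ht1) fun M hM => ?_
  obtain ⟨M', hM', hle⟩ := dec_mono (h.mono j s t hs hst ht1) hM
  exact (gau_le (h.ws j s hs (hst.trans ht1)) hM').trans hle

theorem conj_WF (j : Fin 4) (t : ℝ) (ht : 0 < t) (ht1 : t ≤ 1) (p : Nd) (f : Fn) :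
    gD A j t p (fun y => (starRingEnd ℂ) (f y)) ≤ gD A j t p f := by
  refine le_gau (h.ws j t ht ht1) fun M hM => ?_
  obtain ⟨M', hM', hle⟩ := dec_conj (h.conj j t ht ht1) hM
  exact (gau_le (h.ws j t ht ht1) hM').trans hle

theorem repB_WF : ∃ A0 C0 : ℝ, 0 ≤ A0 ∧ 0 ≤ C0 ∧ ∀ j, j ≠ 3 → ∀ t, 0 < t → t ≤ 1 →
    ∀ p f M, gD A j t p f < M → RepB j p f (A0 * t ^ (-C0) * M) := by
  obtain ⟨A0, C0, hA0, hC0, hm⟩ := h.mass
  refine ⟨A0, C0, hA0, hC0, fun j hj t ht ht1 p f M hM => ?_⟩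
  have hS := h.ws j t ht ht1
  obtain ⟨M', ⟨n, x, c, h1, h2, rfl⟩, hM'⟩ := exists_dec hS p f (η := M - gD A j t p f)
    (by linarith)
  have hM2 : ∑ i, ‖c i‖ * (x i).2 p < M := by
    have : gau (A j t) p f = gD A j t p f := rfl
    linarith
  have h3 : RepB j p (fun y => ∑ i ∈ Finset.univ, c i * (x i).1 y)
      (∑ i, ‖c i‖ * (A0 * t ^ (-C0) * (x i).2 p)) := by
    have key : ∀ s : Finset (Fin n), RepB j p (fun y => ∑ i ∈ s, c i * (x i).1 y)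
        (∑ i ∈ s, ‖c i‖ * (A0 * t ^ (-C0) * (x i).2 p)) := by
      intro s
      classical
      induction s using Finset.induction_on with
      | empty => simpa using RepB.zero (j := j) (p := p) (le_refl (0 : ℝ))
      | insert a s ha ih =>
        have h4 := RepB.add (RepB.cmul (hm j hj t ht ht1 _ (h1 a) p) (c a)) ih
        rw [Finset.sum_insert ha]
        refine h4.congr fun y _ => ?_
        rw [Finset.sum_insert ha]
    exact key Finset.univ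
  refine (h3.congr fun y hy => h2 y hy).mono ?_
  have e : ∑ i, ‖c i‖ * (A0 * t ^ (-C0) * (x i).2 p) =
      A0 * t ^ (-C0) * ∑ i, ‖c i‖ * (x i).2 p := by
    rw [Finset.mul_sum]; exact Finset.sum_congr rfl fun i _ => by ring
  rw [e]
  exact mul_le_mul_of_nonneg_left hM2.le (by positivity)

/-- level (in the sense of `TRecN.Lv`) against the members of the family -/
theorem lv_WF {j : Fin 4} {t : ℝ} (ht : 0 < t) (ht1 : t ≤ 1) {s : ℝ} (hs : 0 ≤ s)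
    {p : Nd} {g : Fn} (hg : TRecN.Lv (gD A) j t s p g) {x : WA} (hx : x ∈ A j t) :
    ‖∑ y ∈ iv p, g y * x.1 y‖ ≤ s * x.2 p * len p := by
  have hS := h.ws j t ht ht1
  have hl : 0 < len p := Growth.len_pos p
  have hw := hS.nonneg x hx p
  rcases hw.eq_or_lt with h0 | h0
  · -- weight zero: the function vanishes on `iv p`
    have hz : ∀ y ∈ iv p, x.1 y = 0 := by
      intro y hy
      have := h.sup j t ht ht1 x hx p y hy
      rw [← h0, zero_mul] at this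
      exact norm_le_zero_iff.1 this
    rw [Finset.sum_eq_zero fun y hy => by rw [hz y hy, mul_zero], norm_zero, ← h0]
    simp
  · set w := x.2 p with hwdef
    have h1 : ‖((w⁻¹ : ℝ) : ℂ)‖ * x.2 p ∈ Dec (A j t) p (fun y => ((w⁻¹ : ℝ) : ℂ) * x.1 y) :=
      dec_one hx fun z _ => rfl
    rw [Complex.norm_real, Real.norm_of_nonneg (inv_nonneg.2 h0.le), ← hwdef,
      inv_mul_cancel₀ h0.ne'] at h1
    have h2 := hg _ (gau_le hS h1)
    have h3 : ∑ y ∈ iv p, g y * (((w⁻¹ : ℝ) : ℂ) * x.1 y) =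
        ((w⁻¹ : ℝ) : ℂ) * ∑ y ∈ iv p, g y * x.1 y := by
      rw [Finset.mul_sum]; exact Finset.sum_congr rfl fun y _ => by ring
    rw [h3, norm_mul, Complex.norm_real, Real.norm_of_nonneg (inv_nonneg.2 h0.le),
      inv_mul_le_iff₀ h0] at h2
    linarith

theorem frzBd_WF {k q3 : ℝ} (hk : 0 ≤ k) (hq3 : 2 ≤ q3) : TRecN.FrzBd (gD A) k q3 := by
  obtain ⟨A0, C0, hA0, hC0, hm⟩ := repB_WF h
  exact frzBd_of_repB hk hq3 hA0 hm

end gen

/-! ### the family -/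

/-- unit point masses are op-atoms with `n = 1` -/
theorem pt_US {x f : Fin 4 → ℝ} (hx : ∀ j, 0 ≤ x j) (hf : ∀ j, 0 ≤ f j) (k : Fin 4) {t : ℝ}
    (ht : 0 < t) (ht1 : t ≤ 1) (y : ℤ) :
    (fun z => if z = y then (1 : ℂ) else 0) ∈ US x f k t := by
  obtain ⟨j, e, e', hd, w, q, u, hw⟩ : ∃ j e e' : Fin 4, Dst4 k j e e' ∧ ∃ w q u : ℤ,
      (sl j - sl k) * w + (sl e - sl k) * q + (sl e' - sl k) * u = y := by
    fin_cases k
    · exact ⟨1, 2, 3, ⟨by decide, by decide, by decide, by decide, by decide, by decide⟩,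
        y, 0, 0, by simp [sl]⟩
    · exact ⟨0, 2, 3, ⟨by decide, by decide, by decide, by decide, by decide, by decide⟩,
        -y, 0, 0, by simp [sl]⟩
    · exact ⟨1, 0, 3, ⟨by decide, by decide, by decide, by decide, by decide, by decide⟩,
        -y, 0, 0, by simp [sl]⟩
    · exact ⟨0, 1, 2, ⟨by decide, by decide, by decide, by decide, by decide, by decide⟩,
        y, 0, 0, by simp [sl]⟩
  refine ⟨j, e, e', 1, hd, _, ⟨w, q, u, fun _ _ => 1, fun _ _ => 1, fun _ _ => 1, fun _ => 1,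
    ?_, rfl⟩, ?_⟩
  · have h1 : (1 : ℝ) ≤ t ^ (-(x k)) :=
      Real.one_le_rpow_of_pos_of_le_one_of_nonpos ht ht1 (by have := hx k; linarith)
    have h2 : (1 : ℝ) ≤ t ^ (-(2 * f k)) :=
      Real.one_le_rpow_of_pos_of_le_one_of_nonpos ht ht1 (by have := hf k; linarith)
    refine ⟨fun _ _ => by simp, fun _ => zero_le_one, fun _ => by simp, fun _ => by simp,
      by simp, fun _ => h1, fun _ _ => by simpa using h2, fun _ _ => by simpa using h2⟩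
  · funext z
    unfold opA
    simp only [Finset.univ_unique, Fin.default_eq_zero, Fin.isValue, Finset.sum_singleton,
      Fin.val_zero, Nat.cast_zero, Int.add_zero]
    simp only [hw, Nat.cast_one, one_pow, div_one,
      Complex.ofReal_one, one_mul, mul_one]
    rcases eq_or_ne z y with h | h
    · simp [h]
    · simp [h, Ne.symm h]

/-- admissible parameters: `Prm.Ok` without the plain family -/
structure Ok0 (P : Prm) : Prop where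
  g0 : ∀ j, 0 ≤ P.g j
  x0 : ∀ j, 0 ≤ P.x j
  f0 : ∀ j, 0 ≤ P.f j
  gc0 : ∀ j, 0 ≤ P.gc j
  dc0 : ∀ j, 0 ≤ P.dc j
  Cc0 : ∀ j, 0 ≤ P.Cc j
  θ0 : 0 < P.θ
  g1 : ∀ j, P.θ * P.g j ≤ 1
  c1 : ∀ j, P.θ * (P.Cc j + P.gc j + P.dc j) ≤ 1

/-- the weighted family before reparametrisation -/
def AF0 (P : Prm) (j : Fin 4) (t : ℝ) : Set WA :=
  PrF (US P.x P.f) P.g j t ∪ Cell37.Cel (P.gc j) (P.dc j) (P.Cc j) t

open Classical in
/-- the full weighted family -/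
noncomputable def AFull0 (P : Prm) (j : Fin 4) (t : ℝ) : Set WA :=
  if j = 3 then S3 else AF0 P j (t ^ P.θ)

/-- **THE DICTIONARY** -/
noncomputable def DF0 (P : Prm) : TRecN.Dict := gD (AFull0 P)

theorem wg_AF0 {P : Prm} (h : Ok0 P) : WG 1 (fun j t => AF0 P j (t ^ P.θ)) := by
  set E : ℝ := P.θ⁻¹ with hE
  have hE1 : P.θ * E = 1 := mul_inv_cancel₀ h.θ0.ne'
  have key : ∀ {a : ℝ}, P.θ * a ≤ 1 → a ≤ E := by
    intro a ha
    rw [hE, ← one_div, le_div_iff₀ h.θ0]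
    linarith
  have h1 : WG E (AF0 P) := by
    refine WG.union (wg_prF (ufam_US h.x0 h.f0) h.g0 fun j => ?_)
      (wg_cel h.gc0 h.dc0 h.Cc0 fun j => key (h.c1 j))
    rw [zero_add]; exact key (h.g1 j)
  have h2 := h1.reparam h.θ0
  rwa [hE1] at h2

theorem full0_ne {P : Prm} {j : Fin 4} (hj : j ≠ 3) (t : ℝ) :
    AFull0 P j t = AF0 P j (t ^ P.θ) := if_neg hj

theorem full0_3 {P : Prm} (t : ℝ) : AFull0 P 3 t = S3 := if_pos rfl

/-- **the family is admissible** -/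
theorem wf_DF0 {P : Prm} (hP : Ok0 P) : WF (AFull0 P) := by
  have h := wg_AF0 hP
  have hT0 : ∀ t : ℝ, 0 < t → 0 < t ^ P.θ := fun t ht => Real.rpow_pos_of_pos ht _
  have hT1 : ∀ t : ℝ, 0 < t → t ≤ 1 → t ^ P.θ ≤ 1 := fun t ht ht1 =>
    Real.rpow_le_one ht.le ht1 hP.θ0.le
  refine ⟨?_, ?_, ?_, ?_, ?_⟩
  · intro j t ht ht1
    by_cases hj : j = 3
    · subst hj
      rw [full0_3]
      refine ⟨?_, ?_, ?_⟩
      · rintro x ⟨-, hw⟩ p; rw [hw]; exact zero_le_one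
      · rintro x ⟨-, hw⟩ m l; rw [hw]; norm_num
      · intro y
        refine ⟨(fun z => if z = y then 1 else 0, fun _ => 1), ⟨fun z => ?_, rfl⟩, 1, one_ne_zero,
          fun z => rfl⟩
        show ‖(if z = y then (1 : ℂ) else 0)‖ ≤ 1
        split_ifs <;> simp
    · rw [full0_ne hj]
      refine ⟨fun x hx p => h.nonneg j hj t ht ht1 x hx p,
        fun x hx m l => h.super j hj t ht ht1 x hx m l, fun y => ?_⟩
      exact ⟨(fun z => if z = y then (1 : ℂ) else 0, fun _ => (t ^ P.θ) ^ (P.g j)),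
        Or.inl ⟨pt_US hP.x0 hP.f0 j (hT0 t ht) (hT1 t ht ht1) y, rfl⟩, 1, one_ne_zero,
        fun z => rfl⟩
  · intro j t ht ht1 x hx p y hy
    by_cases hj : j = 3
    · subst hj
      rw [full0_3] at hx
      obtain ⟨h1, h2⟩ := hx
      rw [h2]
      simpa [TRec.sx] using h1 y
    · rw [full0_ne hj] at hx
      have hsx : TRec.sx 0 j = 1 := by simp [TRec.sx, hj]
      rw [hsx]
      exact h.sup j hj t ht ht1 x hx p y hy
  · intro j s t hs hst ht1 x hx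
    by_cases hj : j = 3
    · subst hj
      rw [full0_3] at hx ⊢
      exact ⟨x, hx, fun _ => rfl, fun _ => le_rfl⟩
    · rw [full0_ne hj] at hx ⊢
      exact h.mono j hj s t hs hst ht1 x hx
  · intro j t ht ht1 x hx
    by_cases hj : j = 3
    · subst hj
      rw [full0_3] at hx ⊢
      exact ⟨(fun y => (starRingEnd ℂ) (x.1 y), x.2),
        ⟨fun y => by show ‖(starRingEnd ℂ) (x.1 y)‖ ≤ 1; rw [RCLike.norm_conj]; exact hx.1 y, hx.2⟩,
        fun _ => rfl, fun _ => le_rfl⟩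
    · rw [full0_ne hj] at hx ⊢
      exact h.conj j hj t ht ht1 x hx
  · obtain ⟨A0, C0, hA0, hC0, hm⟩ := h.mass
    refine ⟨A0, C0, hA0, hC0, fun j hj t ht ht1 x hx p => ?_⟩
    rw [full0_ne hj] at hx
    exact hm j hj t ht ht1 x hx p

/-! ### the axioms of `TRecN.Dic` -/

section axioms

variable {P : Prm} (h : Ok0 P)

include h

theorem cst_DF0 : ∀ j t, 0 < t → t ≤ 1 → LasN525.Cst (DF0 P j t) := cst_WF (wf_DF0 h)

theorem sup_DF0 : ∀ j t, 0 < t → t ≤ 1 → ∀ p f, ∀ y ∈ iv p,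
    ‖f y‖ ≤ DF0 P j t p f * t ^ (-(TRec.sx 0 j)) := sup_WF (wf_DF0 h)

theorem mono_DF0 : ∀ j s t, 0 < s → s ≤ t → t ≤ 1 → ∀ p f, DF0 P j s p f ≤ DF0 P j t p f :=
  mono_WF (wf_DF0 h)

theorem conj_DF0 : ∀ j t, 0 < t → t ≤ 1 → ∀ p f,
    DF0 P j t p (fun y => (starRingEnd ℂ) (f y)) ≤ DF0 P j t p f := conj_WF (wf_DF0 h)

/-- point masses of height `t^(-θ g j)` have cost `≤ 1` -/
theorem pt_DF0 : ∀ j, j ≠ 3 → ∀ t, 0 < t → t ≤ 1 → ∀ y : ℤ, ∀ p,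
    DF0 P j t p (fun x => if x = y then (((t ^ (P.θ * P.g j) : ℝ) : ℂ))⁻¹ else 0) ≤ 1 := by
  intro j hj t ht ht1 y p
  have hT0 : 0 < t ^ P.θ := Real.rpow_pos_of_pos ht _
  have hT1 : t ^ P.θ ≤ 1 := Real.rpow_le_one ht.le ht1 h.θ0.le
  have hx : ((fun z => if z = y then (1 : ℂ) else 0, fun _ => (t ^ P.θ) ^ (P.g j)) : WA) ∈
      AFull0 P j t := by
    rw [full0_ne hj]
    exact Or.inl ⟨pt_US h.x0 h.f0 j hT0 hT1 y, rfl⟩
  have h1 := dec_one (p := p) (f := fun x => if x = y then (((t ^ (P.θ * P.g j) : ℝ) : ℂ))⁻¹ else 0)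
    hx (c := (((t ^ (P.θ * P.g j) : ℝ) : ℂ))⁻¹) (fun z _ => by
      show (if z = y then _ else 0) = _ * (if z = y then (1 : ℂ) else 0)
      split_ifs <;> simp)
  have h2 := gau_le ((wf_DF0 h).ws j t ht ht1) h1
  refine h2.trans (le_of_eq ?_)
  have hpos : 0 < t ^ (P.θ * P.g j) := Real.rpow_pos_of_pos ht _
  rw [norm_inv, Complex.norm_real, Real.norm_of_nonneg hpos.le]
  show (t ^ (P.θ * P.g j))⁻¹ * (t ^ P.θ) ^ (P.g j) = 1
  rw [← Real.rpow_mul ht.le]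
  exact inv_mul_cancel₀ hpos.ne'

theorem frzBd_DF0 {k q3 : ℝ} (hk : 0 ≤ k) (hq3 : 2 ≤ q3) : TRecN.FrzBd (DF0 P) k q3 :=
  frzBd_WF (wf_DF0 h) hk hq3

/-- **(B)**: frozen letters are mixtures of bounded atoms of polynomial mass -/
theorem repB_DF0 : ∃ A0 C0 : ℝ, 0 ≤ A0 ∧ 0 ≤ C0 ∧ ∀ j, j ≠ 3 → ∀ t, 0 < t →
    t ≤ 1 → ∀ p f M, DF0 P j t p f < M → RepB j p f (A0 * t ^ (-C0) * M) := repB_WF (wf_DF0 h)

end axioms

/-! ### levels -/

section level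

variable {P : Prm} (h : Ok0 P) {j : Fin 4} (hj : j ≠ 3) {t : ℝ} (ht : 0 < t) (ht1 : t ≤ 1)
  {s : ℝ} (hs : 0 ≤ s) {p : Nd} {X : Fn} (hX : TRecN.Lv (DF0 P) j t s p X)

include h hj ht ht1 hs hX

/-- level against a member -/
theorem lvM_DF0 {x : WA} (hx : x ∈ AF0 P j (t ^ P.θ)) :
    ‖∑ y ∈ iv p, X y * x.1 y‖ ≤ s * x.2 p * len p :=
  lv_WF (wf_DF0 h) ht ht1 hs hX (by rw [full0_ne hj]; exact hx)

/-- level against the op-atoms of helper276 (at the parameter `t ^ θ`) -/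
theorem lvS_DF0 : LvS (P.g j) (P.x j) (P.f j) j (t ^ P.θ) s p X := by
  have hT : 0 < t ^ P.θ := Real.rpow_pos_of_pos ht _
  rintro φ ⟨i, e, e', n, hd, ψ, hψ, rfl⟩
  have h1 := lvM_DF0 h hj ht ht1 hs hX
    (x := ((fun y => ((1 / (n : ℝ) ^ 2 : ℝ) : ℂ) * ψ y), fun _ => (t ^ P.θ) ^ (P.g j)))
    (Or.inl ⟨⟨i, e, e', n, hd, ψ, hψ, rfl⟩, rfl⟩)
  have h2 : ∑ y ∈ iv p, X y * (((((t ^ P.θ) ^ (-(P.g j)) / (n : ℝ) ^ 2 : ℝ)) : ℂ) * ψ y) =
      (((t ^ P.θ) ^ (-(P.g j)) : ℝ) : ℂ) *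
        ∑ y ∈ iv p, X y * (((1 / (n : ℝ) ^ 2 : ℝ) : ℂ) * ψ y) := by
    rw [Finset.mul_sum]
    refine Finset.sum_congr rfl fun y _ => ?_
    push_cast
    ring
  show ‖∑ y ∈ iv p, X y * (((((t ^ P.θ) ^ (-(P.g j)) / (n : ℝ) ^ 2 : ℝ)) : ℂ) * ψ y)‖ ≤ _
  rw [h2, norm_mul, Complex.norm_real, Real.norm_of_nonneg (Real.rpow_pos_of_pos hT _).le,
    Real.rpow_neg hT.le, inv_mul_le_iff₀ (Real.rpow_pos_of_pos hT _)]
  refine h1.trans (le_of_eq ?_)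
  ring

/-- level against the cells of helper37 (at the parameter `t ^ θ`) -/
theorem lvC_DF0 : CellH237.LvC (P.gc j) (P.dc j) (P.Cc j) (t ^ P.θ) s p X :=
  fun x hx => lvM_DF0 h hj ht ht1 hs hX (Or.inr hx)

/-- **(O)** operator level -/
theorem olev_DF0 {κ : ℕ} {A : ℝ} (hA : 0 ≤ A) (hav : av p X ≤ A) :
    OpLev.OLev κ j p X (128 * s * (t ^ P.θ) ^ (P.g j) + 24 * A * (t ^ P.θ) ^ (P.f j) +
      12 * A * (t ^ P.θ) ^ (P.x j)) :=
  olev_of_lvS (Real.rpow_pos_of_pos ht _) hs hA (lvS_DF0 h hj ht ht1 hs hX) hav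

end level

/-! ### RULE (S) -/

theorem hBN_DF0 {P : Prm} (h : Ok0 P) : ∃ A C : ℝ, 0 ≤ A ∧ 0 ≤ C ∧ HBN (DF0 P) A C := by
  obtain ⟨A0, C0, hA0, hC0, hm⟩ := repB_DF0 h
  refine ⟨A0 * 2, C0, by positivity, hC0, fun m hm3 t ht ht1 p f hf => ?_⟩
  have := hm m hm3 t ht ht1 p f 2 (lt_of_le_of_lt hf one_lt_two)
  refine this.mono (le_of_eq ?_)
  ring

theorem opLevelN_DF0 {P : Prm} (h : Ok0 P) {gm : ℝ} (h1 : ∀ j, j ≠ 3 → gm ≤ P.θ * P.g j)
    (h2 : ∀ j, j ≠ 3 → gm ≤ P.θ * P.f j) (h3 : ∀ j, j ≠ 3 → gm ≤ P.θ * P.x j) (κ : ℕ) :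
    OpLevelN (DF0 P) κ 200 gm 1 := by
  intro m hm t ht ht1 p X hX hav
  have h4 := olev_DF0 h hm ht ht1 zero_le_one hX (κ := κ) (A := 2) (by norm_num) hav
  have e1 : (t ^ P.θ) ^ (P.g m) ≤ t ^ gm := by
    rw [← Real.rpow_mul ht.le]
    exact Real.rpow_le_rpow_of_exponent_ge ht ht1 (h1 m hm)
  have e2 : (t ^ P.θ) ^ (P.f m) ≤ t ^ gm := by
    rw [← Real.rpow_mul ht.le]
    exact Real.rpow_le_rpow_of_exponent_ge ht ht1 (h2 m hm)
  have e3 : (t ^ P.θ) ^ (P.x m) ≤ t ^ gm := by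
    rw [← Real.rpow_mul ht.le]
    exact Real.rpow_le_rpow_of_exponent_ge ht ht1 (h3 m hm)
  refine h4.mono ?_
  linarith

/-- **RULE (S) for the final dictionary** -/
theorem ruleS_DF0 {P : Prm} (h : Ok0 P) {gm : ℝ} (hgm : 0 < gm)
    (h1 : ∀ j, j ≠ 3 → gm ≤ P.θ * P.g j) (h2 : ∀ j, j ≠ 3 → gm ≤ P.θ * P.f j)
    (h3 : ∀ j, j ≠ 3 → gm ≤ P.θ * P.x j) {q3 s1 : ℝ} (hq3 : 2 < q3) (hs1 : 0 < s1) :
    ∃ cS CS : ℝ, 0 < cS ∧ 0 ≤ CS ∧ ∀ k e : ℝ, 0 < k → 0 ≤ e → e ≤ 1 →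
      ∃ t0 K : ℝ, 0 < t0 ∧ t0 ≤ 1 ∧ 0 ≤ K ∧ TRecN.RuleS (DF0 P) k q3 cS CS s1 e t0 K := by
  obtain ⟨A, C, hA, hC, hB⟩ := hBN_DF0 h
  refine ⟨gS q3 gm s1, eC q3 C gm s1, gS_pos hq3 hgm hs1, eC_nonneg hq3 hC hgm hs1,
    fun k e hk he0 he => ?_⟩
  exact ruleSN_of hq3 hC hgm hs1 hk hA (by norm_num) one_pos le_rfl he0 he hB
    (opLevelN_DF0 h h1 h2 h3 13)

/-! ### the splitting of helper252 -/

/-- op-atoms of cost `1` -/
def OA0 (P : Prm) : TRec.Dict := fun j t =>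
  {φ | ∃ ψ ∈ US P.x P.f j (t ^ P.θ), φ = fun y => (((t ^ P.θ) ^ (-(P.g j)) : ℝ) : ℂ) * ψ y}

/-- cells -/
def CA0 (P : Prm) : T6bx252.CDict := fun j t => Cell37.Cel (P.gc j) (P.dc j) (P.Cc j) (t ^ P.θ)

/-- the op-atoms of cost `1` are those of helper276's family -/
theorem oA0_eq (P : Prm) (j : Fin 4) (t : ℝ) :
    OA0 P j t = OpS (P.g j) (P.x j) (P.f j) j (t ^ P.θ) := by
  ext φ
  constructor
  · rintro ⟨ψ, ⟨i, e, e', n, hd, χ, hχ, rfl⟩, rfl⟩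
    refine ⟨i, e, e', n, hd, χ, hχ, ?_⟩
    funext y
    push_cast
    ring
  · rintro ⟨i, e, e', n, hd, χ, hχ, rfl⟩
    refine ⟨_, ⟨i, e, e', n, hd, χ, hχ, rfl⟩, ?_⟩
    funext y
    push_cast
    ring

theorem spl_DF0 {P : Prm} (h : Ok0 P) :
    T6bx252.Spl (DF0 P) (OA0 P) (CA0 P) (fun j => P.θ * P.gc j) := by
  classical
  have hT0 : ∀ t : ℝ, 0 < t → 0 < t ^ P.θ := fun t ht => Real.rpow_pos_of_pos ht _
  refine ⟨?_, ?_, ?_, ?_⟩
  · intro j hj t ht ht1 p f hf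
    have hS := (wf_DF0 h).ws j t ht ht1
    obtain ⟨M, ⟨n, x, c, h1, h2, rfl⟩, hM⟩ := exists_dec hS p f (one_pos (α := ℝ))
    have hM2 : ∑ i, ‖c i‖ * (x i).2 p ≤ 2 := by
      have : gau (AFull0 P j t) p f ≤ 1 := hf
      linarith
    rw [full0_ne hj] at h1
    have hT : 0 < t ^ P.θ := hT0 t ht
    have hw : 0 < (t ^ P.θ) ^ (P.g j) := Real.rpow_pos_of_pos hT _
    -- the two kinds of indices
    set So : Finset (Fin n) := Finset.univ.filter fun i => x i ∈ PrF (US P.x P.f) P.g j (t ^ P.θ)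
      with hSo
    have hc : ∀ i, i ∉ So → x i ∈ Cell37.Cel (P.gc j) (P.dc j) (P.Cc j) (t ^ P.θ) := by
      intro i hi
      rcases h1 i with h3 | h3
      · exact absurd (show i ∈ So from Finset.mem_filter.2 ⟨Finset.mem_univ _, h3⟩) hi
      · exact h3
    have ho : ∀ i, i ∈ So → x i ∈ PrF (US P.x P.f) P.g j (t ^ P.θ) := fun i hi =>
      (Finset.mem_filter.1 hi).2
    set eo := So.equivFin with heo
    set ec := (Soᶜ).equivFin with hec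
    refine ⟨So.card, (Soᶜ).card,
      fun i => fun y => (((t ^ P.θ) ^ (-(P.g j)) : ℝ) : ℂ) * (x (eo.symm i)).1 y,
      fun i => c (eo.symm i) * (((t ^ P.θ) ^ (P.g j) : ℝ) : ℂ),
      fun i => x (ec.symm i), fun i => c (ec.symm i), ?_, ?_, ?_, ?_⟩
    · intro i
      exact ⟨_, (ho _ (eo.symm i).2).1, rfl⟩
    · intro i
      exact hc _ (Finset.mem_compl.1 (ec.symm i).2)
    · intro y hy
      rw [h2 y hy]
      have e1 : ∑ i : Fin So.card, c (eo.symm i) * (((t ^ P.θ) ^ (P.g j) : ℝ) : ℂ) *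
          ((((t ^ P.θ) ^ (-(P.g j)) : ℝ) : ℂ) * (x (eo.symm i)).1 y) =
          ∑ i ∈ So, c i * (x i).1 y := by
        rw [← Finset.sum_coe_sort So, ← Equiv.sum_comp eo.symm]
        refine Finset.sum_congr rfl fun i _ => ?_
        have e3 : (((t ^ P.θ) ^ (P.g j) : ℝ) : ℂ) * (((t ^ P.θ) ^ (-(P.g j)) : ℝ) : ℂ) = 1 := by
          rw [← Complex.ofReal_mul, ← Real.rpow_add hT]
          simp
        calc _ = (((t ^ P.θ) ^ (P.g j) : ℝ) : ℂ) * (((t ^ P.θ) ^ (-(P.g j)) : ℝ) : ℂ) *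
              (c (eo.symm i) * (x (eo.symm i)).1 y) := by ring
          _ = _ := by rw [e3, one_mul]
      have e2 : ∑ i : Fin (Soᶜ).card, c (ec.symm i) * (x (ec.symm i)).1 y =
          ∑ i ∈ Soᶜ, c i * (x i).1 y := by
        rw [← Finset.sum_coe_sort Soᶜ, ← Equiv.sum_comp ec.symm]
      rw [e1, e2, Finset.sum_add_sum_compl]
    · have e1 : ∑ i : Fin So.card, ‖c (eo.symm i) * (((t ^ P.θ) ^ (P.g j) : ℝ) : ℂ)‖ =
          ∑ i ∈ So, ‖c i‖ * (x i).2 p := by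
        rw [← Finset.sum_coe_sort So, ← Equiv.sum_comp eo.symm]
        refine Finset.sum_congr rfl fun i _ => ?_
        rw [norm_mul, Complex.norm_real, Real.norm_of_nonneg hw.le, (ho _ (eo.symm i).2).2]
      have e2 : ∑ i : Fin (Soᶜ).card, ‖c (ec.symm i)‖ * (x (ec.symm i)).2 p =
          ∑ i ∈ Soᶜ, ‖c i‖ * (x i).2 p := by
        rw [← Finset.sum_coe_sort Soᶜ, ← Equiv.sum_comp ec.symm]
      rw [e1, e2, Finset.sum_add_sum_compl]
      exact hM2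
  · intro j t ht ht1 x hx q
    exact Cell37.cel_nonneg (hT0 t ht) hx q
  · intro j t ht ht1 x hx m l
    exact Cell37.cel_super (hT0 t ht) hx m l
  · intro j t ht ht1 x hx q
    have h1 := Cell37.cel_av (hT0 t ht) hx q
    have h2 : 0 < (t ^ P.θ) ^ (P.gc j) := Real.rpow_pos_of_pos (hT0 t ht) _
    have h3 : t ^ (-(P.θ * P.gc j)) = ((t ^ P.θ) ^ (P.gc j))⁻¹ := by
      rw [Real.rpow_neg ht.le, Real.rpow_mul ht.le]
    rw [h3, inv_mul_eq_div, le_div_iff₀ h2]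
    linarith

end Crest.Agent.R079.WS0112
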