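import Crest.Agent.R079.OpKe_276
import Crest.Agent.R079.WS0_112

/-! R079 (helper276): **`OpKill` of helper252 for the final dictionary `DF0 P` of helper112**, from the
kill lemma `KillN (PhiL ..)`. -/

set_option autoImplicit false

namespace Crest.Agent.R079.OpK276

open Finset Crest.Agent.R079.Grid Crest.Agent.R079.Growth Crest.Agent.R079.QRed
  Crest.Agent.R079.Qe292 Crest.Agent.R079.TRec Crest.Agent.R079.T6ax252 Crest.Agent.R079.T6bx252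
  Crest.Agent.R079.TFrz679 Crest.Agent.R079.OLevSw Crest.Agent.R079.OpS276
  Crest.Agent.R079.WS0112 Crest.Agent.R079.WS112

/-- **OpKill for `DF0 P`**, exponent `c0` given -/
theorem opKill_DF0 {C : ℝ} (hC : 0 ≤ C) {r : ℕ} {e1 e2 e4 e5 : ℝ} (he2 : 0 ≤ e2)
    (hKN : KillN (PhiL C r e1 e2 e4 e5)) {P : Prm} (h : Ok0 P) {i m : Fin 4} (hi3 : i ≠ 3)
    (hm3 : m ≠ 3) (him : i ≠ m) {a b c0 : ℝ} (ha : 0 ≤ a) (hb : 0 < b) (hc0 : 0 ≤ c0)
    (hg : 0 < P.g m) (hf : 0 < P.f m)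
    (h1 : a * P.θ * P.g i + c0 < b * P.θ * min (P.g m) (P.f m))
    (h2 : a * P.θ * P.g i + c0 < b * P.θ * P.x m * e4 -
      (2 * (a * P.θ * P.f i) + 6 * (a * P.θ * P.g i + c0)) * e1 -
      (2 * (a * P.θ * P.f i) + a * P.θ * P.x i + 6 * (a * P.θ * P.g i + c0)) * e2 -
      b * P.θ * min (P.g m) (P.f m) * e5) {k q3 : ℝ} (hk : 0 < k) (hk1 : k ≤ 1)
    (hkq : 2 + k ≤ q3) :
    ∃ t0 K : ℝ, 0 < t0 ∧ t0 ≤ 1 ∧ 0 ≤ K ∧ OpKill (DF0 P) (OA0 P) k q3 c0 a b t0 K i m := by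
  have hθ := h.θ0
  have hgi := h.g0 i
  have hxi := h.x0 i
  have hfi := h.f0 i
  have hxm := h.x0 m
  obtain ⟨t0, K, ht0, ht01, hK, hmain⟩ := opKill_num hC he2 hKN hk hk1 hkq hi3 hm3 him
    (ga := a * P.θ * P.g i) (x0 := a * P.θ * P.x i) (f0 := a * P.θ * P.f i) (β := b * P.θ)
    (g := P.g m) (x := P.x m) (f := P.f m) (c0 := c0) (by positivity) hc0 (by positivity)
    (by positivity) (by positivity) hg hxm hf h1 h2
  refine ⟨t0, K, ht0, ht01, hK, ?_⟩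
  intro N B hB hBN t ht htt bb ε hA W I hW hI F hF hFi hlv
  have ht1 : t ≤ 1 := htt.trans ht01
  have hs0 : 0 < t ^ b := Real.rpow_pos_of_pos ht _
  have hs1 : t ^ b ≤ 1 := Real.rpow_le_one ht.le ht1 hb.le
  rw [oA0_eq] at hFi
  obtain ⟨j, e, e', n, hd, ψ, hψ, hFe⟩ := hFi
  have E : ∀ u : ℝ, ((t ^ a) ^ P.θ) ^ u = t ^ (a * P.θ * u) := by
    intro u
    rw [← Real.rpow_mul ht.le, ← Real.rpow_mul ht.le]
  refine hmain N B hB hBN t ht htt bb ε hA W I hW hI F hF j e e' n ψ hd ?_ ?_ ?_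
  · rw [E, E] at hψ
    have a1 : a * P.θ * -(P.x i) = -(a * P.θ * P.x i) := by ring
    have a2 : a * P.θ * -(2 * P.f i) = -(2 * (a * P.θ * P.f i)) := by ring
    rwa [a1, a2] at hψ
  · intro y _
    rw [hFe]
    have a1 : ((t ^ a) ^ P.θ) ^ (-(P.g i)) = t ^ (-(a * P.θ * P.g i)) := by
      rw [E]; congr 1; ring
    simp only [a1]
  · intro p hp
    have h3 := lvS_DF0 h hm3 hs0 hs1 zero_le_one (hlv p hp)
    rwa [← Real.rpow_mul ht.le] at h3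

/-- **OpKill for `DF0 P`**: strict inequalities at `c0 = 0` suffice; the exponent does not depend on `k` -/
theorem opKill_exists {C : ℝ} (hC : 0 ≤ C) {r : ℕ} {e1 e2 e4 e5 : ℝ} (he1 : 0 ≤ e1) (he2 : 0 ≤ e2)
    (hKN : KillN (PhiL C r e1 e2 e4 e5)) {P : Prm} (h : Ok0 P) {i m : Fin 4} (hi3 : i ≠ 3)
    (hm3 : m ≠ 3) (him : i ≠ m) {a b : ℝ} (ha : 0 ≤ a) (hb : 0 < b)
    (hg : 0 < P.g m) (hf : 0 < P.f m)
    (h1 : a * P.g i < b * min (P.g m) (P.f m))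
    (h2 : a * P.g i < b * P.x m * e4 - (2 * (a * P.f i) + 6 * (a * P.g i)) * e1 -
      (2 * (a * P.f i) + a * P.x i + 6 * (a * P.g i)) * e2 -
      b * min (P.g m) (P.f m) * e5) :
    ∃ cM : ℝ, 0 < cM ∧ ∀ c0, 0 < c0 → c0 ≤ cM → ∀ k q3 : ℝ, 0 < k → k ≤ 1 → 2 + k ≤ q3 →
    ∃ t0 K : ℝ, 0 < t0 ∧ t0 ≤ 1 ∧ 0 ≤ K ∧ OpKill (DF0 P) (OA0 P) k q3 c0 a b t0 K i m := by
  have hθ := h.θ0
  set u1 := b * min (P.g m) (P.f m) - a * P.g i with hu1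
  set u2 := b * P.x m * e4 - (2 * (a * P.f i) + 6 * (a * P.g i)) * e1 -
      (2 * (a * P.f i) + a * P.x i + 6 * (a * P.g i)) * e2 -
      b * min (P.g m) (P.f m) * e5 - a * P.g i with hu2
  have hu10 : 0 < u1 := by rw [hu1]; linarith
  have hu20 : 0 < u2 := by rw [hu2]; linarith
  refine ⟨P.θ * min u1 (u2 / (2 + 6 * e1 + 6 * e2)) / 2, by positivity, ?_⟩
  intro c0 hc0 hc k q3 hk hk1 hkq
  have hmin1 : min u1 (u2 / (2 + 6 * e1 + 6 * e2)) ≤ u1 := min_le_left _ _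
  have hmin2 : min u1 (u2 / (2 + 6 * e1 + 6 * e2)) ≤ u2 / (2 + 6 * e1 + 6 * e2) := min_le_right _ _
  have hmin0 : 0 < min u1 (u2 / (2 + 6 * e1 + 6 * e2)) := by positivity
  refine opKill_DF0 hC he2 hKN h hi3 hm3 him ha hb hc0.le hg hf ?_ ?_ hk hk1 hkq
  · have a1 : c0 < P.θ * u1 := by
      have : P.θ * min u1 (u2 / (2 + 6 * e1 + 6 * e2)) ≤ P.θ * u1 :=
        mul_le_mul_of_nonneg_left hmin1 hθ.le
      have : 0 < P.θ * min u1 (u2 / (2 + 6 * e1 + 6 * e2)) := by positivity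
      linarith
    have a2 : P.θ * u1 = b * P.θ * min (P.g m) (P.f m) - a * P.θ * P.g i := by rw [hu1]; ring
    linarith
  · have a1 : c0 * (2 + 6 * e1 + 6 * e2) < P.θ * u2 := by
      have a3 : P.θ * min u1 (u2 / (2 + 6 * e1 + 6 * e2)) ≤ P.θ * (u2 / (2 + 6 * e1 + 6 * e2)) :=
        mul_le_mul_of_nonneg_left hmin2 hθ.le
      have a4 : 0 < P.θ * (u2 / (2 + 6 * e1 + 6 * e2)) := by positivity
      have a5 : c0 < P.θ * (u2 / (2 + 6 * e1 + 6 * e2)) := by linarith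
      have a6 : P.θ * (u2 / (2 + 6 * e1 + 6 * e2)) * (2 + 6 * e1 + 6 * e2) = P.θ * u2 := by
        field_simp
      rw [← a6]
      exact mul_lt_mul_of_pos_right a5 (by positivity)
    have a2 : P.θ * u2 = b * P.θ * P.x m * e4 -
      (2 * (a * P.θ * P.f i) + 6 * (a * P.θ * P.g i)) * e1 -
      (2 * (a * P.θ * P.f i) + a * P.θ * P.x i + 6 * (a * P.θ * P.g i)) * e2 -
      b * P.θ * min (P.g m) (P.f m) * e5 - a * P.θ * P.g i := by rw [hu2]; ring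
    nlinarith

end Crest.Agent.R079.OpK276
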