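import Crest.Agent.R079.OpKg_276
import Crest.Agent.R079.NP_112

/-! R079 (helper276): the field `op` of `LeavesC (PF x C ρ c) q3 d` for `24 ≤ x`, from the kill lemma. -/

set_option autoImplicit false

namespace Crest.Agent.R079.OpK276

open Finset Crest.Agent.R079.Grid Crest.Agent.R079.Growth Crest.Agent.R079.QRed
  Crest.Agent.R079.T6bx252 Crest.Agent.R079.OpS276
  Crest.Agent.R079.WS0112 Crest.Agent.R079.WS112 Crest.Agent.R079.NP112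

/-- **the leaf `op` for the final parameters** -/
theorem op_PF {C0 C1 : ℝ} (hC0 : 0 ≤ C0) (hC1 : 1 ≤ C1) (hKN : KillN (Phi446 C0 C1))
    {x C ρ c : ℝ} (h : Adm4 x C ρ c) (hx : 24 ≤ x) {q3 : ℝ} (hq3 : 2 < q3) :
    ∀ i m : Fin 4, i < m → m ≠ 3 → ∃ d1 : ℝ, 0 < d1 ∧ ∀ δ, 0 < δ → δ ≤ d1 →
    ∃ c0 k1 : ℝ, 0 < c0 ∧ 0 < k1 ∧ ∀ k, 0 < k → k ≤ k1 → ∃ t0 K : ℝ, 0 < t0 ∧ 0 ≤ K ∧
      OpKill (DF0 (PF x C ρ c)) (OA0 (PF x C ρ c)) k q3 c0 1 (1 + δ) t0 K i m := by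
  intro i m him hm3
  have h5 : 0 ≤ Real.log C1 := Real.log_nonneg hC1
  refine op_leaf (C := C0 * (5 + Real.log C1)) (by positivity) zero_le_one (by norm_num)
    zero_le_one zero_le_two (killN_of_446 hC0 hC1 hKN) (ok_PF h) hq3 him hm3 ?_ ?_ ?_ ?_
  · exact one_pos
  · exact one_pos
  · show (1 : ℝ) ≤ min 1 1
    simp
  · show (1 : ℝ) + (2 * 1 + 6 * 1) * 1 + (2 * 1 + x + 6 * 1) * (1 / 3) +
      2 * min 1 1 * 2 < x * 1
    rw [min_self]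
    linarith

end Crest.Agent.R079.OpK276
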