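import Crest.Agent.R079.T6b_252
import Crest.Agent.R079.OpSr_276

/-! R079, T2/T6 (helper263): **REDUCTION OF THE FROZEN MIXTURE TO CORE DATA.**

`Rc k m e e' I Ht Hf M f` : on `iv I` the letter `f` is `∑ α_l ψ_l / N²`, `N = 2 ^ I.1`, `ψ_l` unit
op-atoms of side EXACTLY `N`, special vertex `m` (the killer slot), caps `Ht`, `Hf`, `α_l ≥ 0`,
`∑ α_l ≤ M`.

* `atom_split` : every member of `OpS γ x f k T` is, on `iv I`, such a combination plus a function with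
  sup `≤ T ^ (-γ)` and `L¹` norm `≤ T ^ (-γ) σ N` (atoms of side `< σ N`);
* `pairO_of_core` : `PairO` (mixtures of op-atoms of arbitrary side and special vertex) from `PairC` (core
  data); the small atoms are paid by `B` with one stopping time. -/

set_option autoImplicit false

namespace Crest.Agent.R079.POx263

open Finset Crest.Agent.R079.Grid Crest.Agent.R079.Growth Crest.Agent.R079.QRed
open Crest.Agent.R079.TRec Crest.Agent.R079.T6ax252 Crest.Agent.R079.T6bx252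
open Crest.Agent.R079.OpS276 Crest.Agent.R079.OLevSw Crest.Agent.R079.Qe292

/-! ### unit op-atoms -/

theorem isOpS_phase {k j e e' : Fin 4} {n : ℕ} {Ht Hf : ℝ} {φ : Fn} (h : IsOpS k j e e' n Ht Hf φ)
    {c : ℂ} (hc : ‖c‖ ≤ 1) : IsOpS k j e e' n Ht Hf (fun y => c * φ y) := by
  obtain ⟨w, q, u, m, U, V, α, hD, rfl⟩ := h
  refine ⟨w, q, u, fun z z' => c * m z z', U, V, α,
    ⟨fun z z' => ?_, hD.α0, hD.U2, hD.V2, hD.α1, hD.αH, hD.UH, hD.VH⟩, ?_⟩
  · rw [norm_mul]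
    exact mul_le_one₀ hc (norm_nonneg _) (hD.m1 z z')
  · funext y
    unfold opA
    simp only [Finset.mul_sum]
    refine Finset.sum_congr rfl fun c' _ => Finset.sum_congr rfl fun i _ =>
      Finset.sum_congr rfl fun i' _ => ?_
    split_ifs
    · ring
    · simp

theorem isOpS_mono {k j e e' : Fin 4} {n : ℕ} {Ht Hf Ht' Hf' : ℝ} {φ : Fn}
    (h : IsOpS k j e e' n Ht Hf φ) (h1 : Ht ≤ Ht') (h2 : Hf ≤ Hf') :
    IsOpS k j e e' n Ht' Hf' φ := by
  obtain ⟨w, q, u, m, U, V, α, hD, rfl⟩ := h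
  exact ⟨w, q, u, m, U, V, α, ⟨hD.m1, hD.α0, hD.U2, hD.V2, hD.α1, fun c => (hD.αH c).trans h1,
    fun c i => (hD.UH c i).trans (mul_le_mul_of_nonneg_right h2 (hD.α0 c)),
    fun c i => (hD.VH c i).trans (mul_le_mul_of_nonneg_right h2 (hD.α0 c))⟩, rfl⟩

/-- `L¹` norm of a unit op-atom -/
theorem l1_opA {k j e e' : Fin 4} {n : ℕ} {Ht Hf : ℝ} {m : ℤ → ℤ → ℂ}
    {U V : Fin n → Fin n → ℂ} {α : Fin n → ℝ} (h : SD n Ht Hf m U V α) (w q u : ℤ)
    (S : Finset ℤ) : ∑ y ∈ S, ‖opA k j e e' n w q u m U V y‖ ≤ (n : ℝ) ^ 3 := by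
  classical
  have h1 : ∀ y, ‖opA k j e e' n w q u m U V y‖ ≤ ∑ c : Fin n, ∑ i : Fin n, ∑ i' : Fin n,
      (if (sl j - sl k) * (w + ((c : ℕ) : ℤ)) + (sl e - sl k) * (q + ((i : ℕ) : ℤ)) +
        (sl e' - sl k) * (u + ((i' : ℕ) : ℤ)) = y then ‖U c i‖ * ‖V c i'‖ else 0) := by
    intro y
    unfold opA
    refine (norm_sum_le _ _).trans (Finset.sum_le_sum fun c _ => ?_)
    refine (norm_sum_le _ _).trans (Finset.sum_le_sum fun i _ => ?_)
    refine (norm_sum_le _ _).trans (Finset.sum_le_sum fun i' _ => ?_)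
    split_ifs
    · rw [norm_mul, norm_mul, mul_assoc]
      exact mul_le_of_le_one_left (mul_nonneg (norm_nonneg _) (norm_nonneg _)) (h.m1 _ _)
    · simp
  have h2 : ∀ (c i i' : Fin n), ∑ y ∈ S,
      (if (sl j - sl k) * (w + ((c : ℕ) : ℤ)) + (sl e - sl k) * (q + ((i : ℕ) : ℤ)) +
        (sl e' - sl k) * (u + ((i' : ℕ) : ℤ)) = y then ‖U c i‖ * ‖V c i'‖ else 0) ≤
      ‖U c i‖ * ‖V c i'‖ := by
    intro c i i'
    rw [Finset.sum_ite_eq]
    split_ifs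
    · exact le_rfl
    · exact mul_nonneg (norm_nonneg _) (norm_nonneg _)
  have hn0 : (0 : ℝ) ≤ n := Nat.cast_nonneg n
  have h3 : ∀ c : Fin n, ∑ i : Fin n, ∑ i' : Fin n, ‖U c i‖ * ‖V c i'‖ ≤ (n : ℝ) ^ 2 * α c := by
    intro c
    have e1 : ∑ i : Fin n, ∑ i' : Fin n, ‖U c i‖ * ‖V c i'‖ =
        (∑ i, ‖U c i‖) * ∑ i', ‖V c i'‖ := by
      rw [Finset.sum_mul_sum]
    have hU : (∑ i, ‖U c i‖) ^ 2 ≤ (n : ℝ) * (n * α c) := by
      have h4 := Finset.sum_mul_sq_le_sq_mul_sq Finset.univ (fun _ : Fin n => (1 : ℝ))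
        (fun i => ‖U c i‖)
      simp only [one_mul, one_pow, Finset.sum_const, Finset.card_univ, Fintype.card_fin,
        nsmul_eq_mul, mul_one] at h4
      exact h4.trans (mul_le_mul_of_nonneg_left (h.U2 c) hn0)
    have hV : (∑ i, ‖V c i‖) ^ 2 ≤ (n : ℝ) * (n * α c) := by
      have h4 := Finset.sum_mul_sq_le_sq_mul_sq Finset.univ (fun _ : Fin n => (1 : ℝ))
        (fun i => ‖V c i‖)
      simp only [one_mul, one_pow, Finset.sum_const, Finset.card_univ, Fintype.card_fin,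
        nsmul_eq_mul, mul_one] at h4
      exact h4.trans (mul_le_mul_of_nonneg_left (h.V2 c) hn0)
    rw [e1]
    nlinarith [sq_nonneg ((∑ i, ‖U c i‖) - ∑ i', ‖V c i'‖)]
  calc ∑ y ∈ S, ‖opA k j e e' n w q u m U V y‖ ≤ ∑ y ∈ S, ∑ c : Fin n, ∑ i : Fin n, ∑ i' : Fin n,
      (if (sl j - sl k) * (w + ((c : ℕ) : ℤ)) + (sl e - sl k) * (q + ((i : ℕ) : ℤ)) +
        (sl e' - sl k) * (u + ((i' : ℕ) : ℤ)) = y then ‖U c i‖ * ‖V c i'‖ else 0) :=
        Finset.sum_le_sum fun y _ => h1 y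
    _ = ∑ c : Fin n, ∑ i : Fin n, ∑ i' : Fin n, ∑ y ∈ S,
      (if (sl j - sl k) * (w + ((c : ℕ) : ℤ)) + (sl e - sl k) * (q + ((i : ℕ) : ℤ)) +
        (sl e' - sl k) * (u + ((i' : ℕ) : ℤ)) = y then ‖U c i‖ * ‖V c i'‖ else 0) := by
        rw [Finset.sum_comm]
        refine Finset.sum_congr rfl fun c _ => ?_
        rw [Finset.sum_comm]
        refine Finset.sum_congr rfl fun i _ => ?_
        rw [Finset.sum_comm]
    _ ≤ ∑ c : Fin n, ∑ i : Fin n, ∑ i' : Fin n, ‖U c i‖ * ‖V c i'‖ :=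
        Finset.sum_le_sum fun c _ => Finset.sum_le_sum fun i _ => Finset.sum_le_sum fun i' _ =>
          h2 c i i'
    _ ≤ ∑ c : Fin n, (n : ℝ) ^ 2 * α c := Finset.sum_le_sum fun c _ => h3 c
    _ = (n : ℝ) ^ 2 * ∑ c, α c := by rw [Finset.mul_sum]
    _ ≤ (n : ℝ) ^ 2 * n := mul_le_mul_of_nonneg_left h.α1 (by positivity)
    _ = (n : ℝ) ^ 3 := by ring

/-! ### core representations -/

/-- **core representation** on `iv I` -/
def Rc (k m e e' : Fin 4) (I : Nd) (Ht Hf M : ℝ) (f : Fn) : Prop :=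
  ∃ (n : ℕ) (ψ : Fin n → Fn) (α : Fin n → ℝ), (∀ l, 0 ≤ α l) ∧
    (∀ l, IsOpS k m e e' (2 ^ I.1) Ht Hf (ψ l)) ∧
    (∀ y ∈ iv I, f y = ∑ l, ((α l / ((2 : ℝ) ^ I.1) ^ 2 : ℝ) : ℂ) * ψ l y) ∧ ∑ l, α l ≤ M

section rc

variable {k m e e' : Fin 4} {I : Nd} {Ht Hf M : ℝ}

theorem rc_of {ι : Type*} [Fintype ι] {f : Fn} (ψ : ι → Fn) (α : ι → ℝ) (h0 : ∀ l, 0 ≤ α l)
    (h1 : ∀ l, IsOpS k m e e' (2 ^ I.1) Ht Hf (ψ l))
    (h2 : ∀ y ∈ iv I, f y = ∑ l, ((α l / ((2 : ℝ) ^ I.1) ^ 2 : ℝ) : ℂ) * ψ l y)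
    (h3 : ∑ l, α l ≤ M) : Rc k m e e' I Ht Hf M f := by
  classical
  let eq := Fintype.equivFin ι
  refine ⟨Fintype.card ι, fun l => ψ (eq.symm l), fun l => α (eq.symm l), fun l => h0 _,
    fun l => h1 _, fun y hy => ?_, ?_⟩
  · rw [h2 y hy]
    exact (Equiv.sum_comp eq.symm
      (fun l => ((α l / ((2 : ℝ) ^ I.1) ^ 2 : ℝ) : ℂ) * ψ l y)).symm
  · exact (Equiv.sum_comp eq.symm α).trans_le h3

theorem Rc.congr {f g : Fn} (h : Rc k m e e' I Ht Hf M f) (hfg : ∀ y ∈ iv I, g y = f y) :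
    Rc k m e e' I Ht Hf M g := by
  obtain ⟨n, ψ, α, h0, h1, h2, h3⟩ := h
  exact ⟨n, ψ, α, h0, h1, fun y hy => (hfg y hy).trans (h2 y hy), h3⟩

theorem Rc.mono {f : Fn} {M' : ℝ} (h : Rc k m e e' I Ht Hf M f) (hM : M ≤ M') :
    Rc k m e e' I Ht Hf M' f := by
  obtain ⟨n, ψ, α, h0, h1, h2, h3⟩ := h
  exact ⟨n, ψ, α, h0, h1, h2, h3.trans hM⟩

theorem Rc.zero (hM : 0 ≤ M) : Rc k m e e' I Ht Hf M (fun _ => 0) :=
  ⟨0, fun _ _ => 0, fun _ => 0, fun _ => le_rfl, fun l => l.elim0, fun y _ => by simp, by simpa⟩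

theorem Rc.caps {f : Fn} {Ht' Hf' : ℝ} (h : Rc k m e e' I Ht Hf M f) (h1 : Ht ≤ Ht')
    (h2 : Hf ≤ Hf') : Rc k m e e' I Ht' Hf' M f := by
  obtain ⟨n, ψ, α, h0, h1', h2', h3⟩ := h
  exact ⟨n, ψ, α, h0, fun l => isOpS_mono (h1' l) h1 h2, h2', h3⟩

/-- combinations -/
theorem Rc.sum {n : ℕ} (c : Fin n → ℂ) (f : Fin n → Fn) (Mm : Fin n → ℝ)
    (h : ∀ i, Rc k m e e' I Ht Hf (Mm i) (f i)) :
    Rc k m e e' I Ht Hf (∑ i, ‖c i‖ * Mm i) (fun y => ∑ i, c i * f i y) := by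
  classical
  choose L ψ α h0 h1 h2 h3 using h
  refine rc_of (ι := Σ i : Fin n, Fin (L i))
    (fun l y => (c l.1 / ((‖c l.1‖ : ℝ) : ℂ)) * ψ l.1 l.2 y) (fun l => ‖c l.1‖ * α l.1 l.2)
    (fun l => mul_nonneg (norm_nonneg _) (h0 _ _)) (fun l => isOpS_phase (h1 _ _) ?_) ?_ ?_
  · rw [norm_div, Complex.norm_real, norm_norm]
    exact div_self_le_one _
  · intro y hy
    rw [Fintype.sum_sigma]
    refine Finset.sum_congr rfl fun i _ => ?_
    rw [h2 i y hy, Finset.mul_sum]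
    refine Finset.sum_congr rfl fun l _ => ?_
    by_cases hc : c i = 0
    · simp [hc]
    · have hn : ((‖c i‖ : ℝ) : ℂ) ≠ 0 := by
        rw [Complex.ofReal_ne_zero]; exact norm_ne_zero_iff.2 hc
      push_cast
      field_simp
  · rw [Fintype.sum_sigma]
    refine Finset.sum_le_sum fun i _ => ?_
    show ∑ l : Fin (L i), ‖c i‖ * α i l ≤ ‖c i‖ * Mm i
    rw [← Finset.mul_sum]
    exact mul_le_mul_of_nonneg_left (h3 i) (norm_nonneg _)

/-- one unit atom of side `2 ^ I.1` and arbitrary special vertex -/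
theorem rc_any (hd : Dst4 k m e e') {j a a' : Fin 4} (hj : Dst4 k j a a') (hHf : 0 ≤ Hf)
    {ψ : Fn} (h : IsOpS k j a a' (2 ^ I.1) Ht Hf ψ) :
    Rc k m e e' I Ht Hf 324 (fun y => ψ y / (((2 ^ I.1 : ℕ) : ℂ)) ^ 2) := by
  obtain ⟨N, ψ', hN, h1, h2⟩ := isOpS_any hj.jk (Ne.symm hj.ke) (Ne.symm hj.ke') hj.je hj.je' hj.ee'
    (by positivity) hHf h m e e' hd.jk (Ne.symm hd.ke) (Ne.symm hd.ke') hd.je hd.je' hd.ee'
  refine ⟨N, ψ', fun _ => 1, fun _ => zero_le_one, h1, fun y _ => ?_, ?_⟩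
  · show ψ y / (((2 ^ I.1 : ℕ) : ℂ)) ^ 2 = _
    rw [h2]
    show (∑ t, ψ' t y) / (((2 ^ I.1 : ℕ) : ℂ)) ^ 2 = _
    rw [Finset.sum_div]
    refine Finset.sum_congr rfl fun l _ => ?_
    push_cast
    ring
  · simp only [Finset.sum_const, Finset.card_univ, Fintype.card_fin, nsmul_eq_mul, mul_one]
    exact_mod_cast hN

end rc

/-- **splitting of one atom of the family** -/
theorem atom_split {k m e e' : Fin 4} (hd : Dst4 k m e e') {γ x f T σ : ℝ} (hT : 0 < T)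
    (hT1 : T ≤ 1) (hx : 0 ≤ x) (hf : 0 ≤ f) (hσ : 0 < σ) (hσ1 : σ ≤ 1) (I : Nd) {φ : Fn}
    (hφ : φ ∈ OpS γ x f k T) :
    ∃ φs : Fn, Rc k m e e' I (3 * σ⁻¹ * (T ^ (-(2 * f)) * T ^ (-x))) (σ⁻¹ * T ^ (-(2 * f)))
        (310716 * T ^ (-γ)) (fun y => φ y - φs y) ∧ (∀ y, ‖φs y‖ ≤ T ^ (-γ)) ∧
      ∑ y ∈ iv I, ‖φs y‖ ≤ T ^ (-γ) * (σ * 2 ^ I.1) := by
  obtain ⟨j, a, a', n, hj, ψ, hψ, rfl⟩ := hφ
  have hg : 0 < T ^ (-γ) := Real.rpow_pos_of_pos hT _
  have hHt : 1 ≤ T ^ (-x) := Real.one_le_rpow_of_pos_of_le_one_of_nonpos hT hT1 (by linarith)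
  have hHf : 1 ≤ T ^ (-(2 * f)) :=
    Real.one_le_rpow_of_pos_of_le_one_of_nonpos hT hT1 (by linarith)
  have hσi : 1 ≤ σ⁻¹ := (one_le_inv₀ hσ).2 hσ1
  set Ht := T ^ (-x) with hHtd
  set Hf := T ^ (-(2 * f)) with hHfd
  set N : ℕ := 2 ^ I.1 with hN
  have hN0 : 0 < N := by positivity
  have hNr : ((N : ℕ) : ℝ) = 2 ^ I.1 := by rw [hN]; push_cast; ring
  have hp : 0 ≤ Hf * Ht := by positivity
  have hcap1 : (Hf + 1) * Ht + 1 ≤ 3 * σ⁻¹ * (Hf * Ht) := by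
    have h1 : (Hf + 1) * Ht + 1 ≤ 3 * (Hf * Ht) := by nlinarith
    have h2 : 3 * (Hf * Ht) ≤ 3 * σ⁻¹ * (Hf * Ht) := by nlinarith
    linarith
  have hcap2 : Hf ≤ σ⁻¹ * Hf := by nlinarith
  -- a unit atom of side `N`
  have hfin : ∀ (L : ℕ) (μ : Fin L → ℝ) (ψ' : Fin L → Fn), (∀ l, 0 ≤ μ l) →
      (∀ l, IsOpS k j a a' N (3 * σ⁻¹ * (Hf * Ht)) (σ⁻¹ * Hf) (ψ' l)) → ∑ l, μ l ≤ 959 →
      (∀ y ∈ iv I, ψ y / (n : ℂ) ^ 2 = ∑ l, ((μ l : ℝ) : ℂ) * (ψ' l y / (N : ℂ) ^ 2)) →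
      Rc k m e e' I (3 * σ⁻¹ * (Hf * Ht)) (σ⁻¹ * Hf) (310716 * T ^ (-γ))
        (fun y => ((T ^ (-γ) / (n : ℝ) ^ 2 : ℝ) : ℂ) * ψ y) := by
    intro L μ ψ' h0 h1 h2 h3
    have h4 := Rc.sum (fun l => ((T ^ (-γ) * μ l : ℝ) : ℂ))
      (fun l y => ψ' l y / (((2 ^ I.1 : ℕ) : ℂ)) ^ 2) (fun _ => 324)
      (fun l => rc_any hd hj (by positivity) (h1 l))
    refine (h4.congr fun y hy => ?_).mono ?_
    · have h5 := h3 y hy
      calc ((T ^ (-γ) / (n : ℝ) ^ 2 : ℝ) : ℂ) * ψ y = ((T ^ (-γ) : ℝ) : ℂ) * (ψ y / (n : ℂ) ^ 2) := by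
            push_cast; ring
        _ = _ := by
            rw [h5, Finset.mul_sum]
            refine Finset.sum_congr rfl fun l _ => ?_
            rw [hN, Complex.ofReal_mul]
            ring
    · have h6 : ∀ l, ‖((T ^ (-γ) * μ l : ℝ) : ℂ)‖ = T ^ (-γ) * μ l := fun l => by
        rw [Complex.norm_real, Real.norm_of_nonneg (mul_nonneg hg.le (h0 l))]
      simp only [h6]
      rw [← Finset.sum_mul, ← Finset.mul_sum]
      nlinarith
  have hz : Rc k m e e' I (3 * σ⁻¹ * (Hf * Ht)) (σ⁻¹ * Hf) (310716 * T ^ (-γ)) (fun _ => 0) :=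
    Rc.zero (by positivity)
  by_cases hn : n = 0
  · -- empty atom
    refine ⟨fun _ => 0, ?_, fun y => by simpa using hg.le, ?_⟩
    · refine hz.congr fun y _ => ?_
      subst hn
      simp
    · simp only [norm_zero, Finset.sum_const_zero]
      positivity
  have hn0 : 0 < n := Nat.pos_of_ne_zero hn
  have hn' : (0 : ℝ) < n := by exact_mod_cast hn0
  have hN' : (0 : ℝ) < N := by exact_mod_cast hN0
  by_cases hNn : N ≤ n
  · -- large side
    obtain ⟨L, μ, ψ', h0, h1, h2, h3⟩ := restr_opS hj hN0 hNn (J := I)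
      (by rw [hNr]; unfold len; rw [pow_add]; norm_num; linarith) (by linarith) hψ
    refine ⟨fun _ => 0, ?_, fun y => by simpa using hg.le, ?_⟩
    · refine (hfin L μ ψ' h0 (fun l => isOpS_mono (h1 l) hcap1 hcap2) h2 h3).congr fun y _ => ?_
      ring
    · simp only [norm_zero, Finset.sum_const_zero]
      positivity
  · push Not at hNn
    by_cases hs : σ * N ≤ n
    · -- intermediate side
      obtain ⟨ψ', h1, h2⟩ := emb_opS hn0 hNn.le (by linarith : (0 : ℝ) ≤ Hf) hψ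
      have hr : (N / n : ℝ) ≤ σ⁻¹ := by
        rw [div_le_iff₀ hn', ← div_eq_inv_mul, le_div_iff₀ hσ]
        linarith
      refine ⟨fun _ => 0, ?_, fun y => by simpa using hg.le, ?_⟩
      · refine (hfin 1 (fun _ => 1) (fun _ => ψ') (fun _ => zero_le_one)
          (fun _ => isOpS_mono h1 ?_ ?_) (by simp) fun y _ => ?_).congr fun y _ => ?_
        · have h3 : (N / n : ℝ) * Ht ≤ σ⁻¹ * Ht := mul_le_mul_of_nonneg_right hr (by linarith)
          have h4 : σ⁻¹ * Ht ≤ 3 * σ⁻¹ * (Hf * Ht) := by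
            have h5 : Ht ≤ Hf * Ht := by nlinarith
            have h6 : σ⁻¹ * Ht ≤ σ⁻¹ * (Hf * Ht) := mul_le_mul_of_nonneg_left h5 (by linarith)
            have h7 : 0 ≤ σ⁻¹ * (Hf * Ht) := by positivity
            nlinarith
          exact h3.trans h4
        · exact mul_le_mul_of_nonneg_right hr (by linarith)
        · simp [h2 y]
        · ring
      · simp only [norm_zero, Finset.sum_const_zero]
        positivity
    · -- small side
      push Not at hs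
      obtain ⟨w, q, u, mm, U, V, α, hD, rfl⟩ := hψ
      refine ⟨fun y => ((T ^ (-γ) / (n : ℝ) ^ 2 : ℝ) : ℂ) * opA k j a a' n w q u mm U V y, ?_,
        fun y => ?_, ?_⟩
      · exact hz.congr fun y _ => by ring
      · rw [norm_mul, Complex.norm_real, Real.norm_of_nonneg (by positivity)]
        have := sup_opA hj hD w q u y
        calc T ^ (-γ) / (n : ℝ) ^ 2 * ‖opA k j a a' n w q u mm U V y‖ ≤
            T ^ (-γ) / (n : ℝ) ^ 2 * (n : ℝ) ^ 2 := mul_le_mul_of_nonneg_left this (by positivity)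
          _ = _ := by field_simp
      · have h1 := l1_opA (k := k) (j := j) (e := a) (e' := a') hD w q u (iv I)
        have e1 : ∀ y, ‖((T ^ (-γ) / (n : ℝ) ^ 2 : ℝ) : ℂ) * opA k j a a' n w q u mm U V y‖ =
            T ^ (-γ) / (n : ℝ) ^ 2 * ‖opA k j a a' n w q u mm U V y‖ := fun y => by
          rw [norm_mul, Complex.norm_real, Real.norm_of_nonneg (by positivity)]
        simp only [e1]
        rw [← Finset.mul_sum]
        calc T ^ (-γ) / (n : ℝ) ^ 2 * ∑ y ∈ iv I, ‖opA k j a a' n w q u mm U V y‖ ≤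
            T ^ (-γ) / (n : ℝ) ^ 2 * (n : ℝ) ^ 3 := mul_le_mul_of_nonneg_left h1 (by positivity)
          _ = T ^ (-γ) * n := by field_simp
          _ ≤ _ := by
              refine mul_le_mul_of_nonneg_left ?_ hg.le
              rw [← hNr]
              exact hs.le

/-! ### the data -/

/-- **CORE DATA** of rule (A) for the pair `(i, m)`; `(e, e')` = the two other slots -/
structure PRc (D : TRecN.Dict) (k b cl t La Ht Hf : ℝ) (W : Finset Nd) (I : Nd)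
    (i m e e' : Fin 4) (F : Fin 4 → Fn) : Prop where
  full : Full W I
  nR : ∀ p ∈ W, aq (2 + k) p (F m) ≤ 1
  mix : Rc i m e e' I Ht Hf La (F i)
  avP : ∀ p ∈ W, av p (F i) ≤ 4 * t ^ (-cl)
  lev : ∀ p ∈ W, TRecN.Lv D m (t ^ b) 1 p (F m)

/-- rule (A) for core data -/
def PairC (D : TRecN.Dict) (k q3 c0 b cl la xx ff t0 K : ℝ) (i m e e' : Fin 4) : Prop :=
  ∀ (N : ℕ) (B : ℝ), 0 ≤ B → BN k q3 N B → ∀ t, 0 < t → t ≤ t0 → ∀ bb ε, Adm bb ε → ∀ W I F,
    PRc D k b cl t (621432 * t ^ (-la)) (3 * t ^ (-xx)) (t ^ (-ff)) W I i m e e' F → I.1 ≤ N →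
      (∀ j, j ≠ i → ∀ p ∈ W, aq (qx k q3 j) p (F j) ≤ 1) →
      ‖TR bb ε W F‖ ≤ K * (1 + B) * t ^ c0 * len I

/-- averages of the modulus are super-averaging -/
theorem sav_avg (X : Fn) : Sav (fun p => (∑ y ∈ iv p, ‖X y‖) / len p) := by
  intro r l
  have h1 : ∑ y ∈ iv (r + 1, l), ‖X y‖ = ∑ y ∈ iv (r, 2 * l), ‖X y‖ +
      ∑ y ∈ iv (r, 2 * l + 1), ‖X y‖ := TWin.sum_ch r l _
  have h2 : len (r + 1, l) = 2 * len (r, 2 * l) := TWin.len_ch r l _
  have h3 : len (r, 2 * l + 1) = len (r, 2 * l) := rfl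
  have hpos := Growth.len_pos (r, 2 * l)
  show (∑ y ∈ iv (r, 2 * l), ‖X y‖) / len (r, 2 * l) +
    (∑ y ∈ iv (r, 2 * l + 1), ‖X y‖) / len (r, 2 * l + 1) ≤
      2 * ((∑ y ∈ iv (r + 1, l), ‖X y‖) / len (r + 1, l))
  rw [h1, h2, h3]
  apply le_of_eq
  field_simp

/-- sup norm of the family -/
theorem sup_opS {k : Fin 4} {γ x f T : ℝ} (hT : 0 < T) {φ : Fn} (hφ : φ ∈ OpS γ x f k T) (y : ℤ) :
    ‖φ y‖ ≤ T ^ (-γ) := by
  obtain ⟨j, e, e', n, hd, ψ, ⟨w, q, u, m, U, V, α, hD, rfl⟩, rfl⟩ := hφ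
  have ht0 : 0 ≤ T ^ (-γ) := (Real.rpow_pos_of_pos hT _).le
  show ‖((T ^ (-γ) / (n : ℝ) ^ 2 : ℝ) : ℂ) * opA k j e e' n w q u m U V y‖ ≤ T ^ (-γ)
  rw [norm_mul, Complex.norm_real, Real.norm_of_nonneg (by positivity)]
  rcases Nat.eq_zero_or_pos n with hn | hn
  · subst hn; simpa using ht0
  · have hn' : (0 : ℝ) < n := by exact_mod_cast hn
    calc T ^ (-γ) / (n : ℝ) ^ 2 * ‖opA k j e e' n w q u m U V y‖ ≤
        T ^ (-γ) / (n : ℝ) ^ 2 * (n : ℝ) ^ 2 :=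
          mul_le_mul_of_nonneg_left (sup_opA hd hD w q u y) (by positivity)
      _ = T ^ (-γ) := by field_simp

/-- `B` with one letter of size `ρ` -/
theorem bn_one {k q3 : ℝ} (hk : 0 < k) (hq : 2 < q3) {N : ℕ} {B : ℝ} (hB : BN k q3 N B)
    {bb : ℤ} {ε : ℕ → ℤ → ℂ} (hA : Adm bb ε) {W : Finset Nd} {I : Nd} (hW : Full W I)
    (hN : I.1 ≤ N) {F : Fin 4 → Fn} {i : Fin 4} {ρ : ℝ} (hρ : 0 < ρ)
    (hi : ∀ p ∈ W, aq (qx k q3 i) p (F i) ≤ ρ)
    (hF : ∀ j, j ≠ i → ∀ p ∈ W, aq (qx k q3 j) p (F j) ≤ 1) :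
    ‖TR bb ε W F‖ ≤ B * ρ * len I := by
  have h := TTop13.BN_scaled hk hq hB hA hW hN (F := F) (a := fun j => if j = i then ρ else 1)
    (fun j => by
      show 0 < (if j = i then ρ else 1)
      split_ifs <;> linarith) (fun j p hp => by
      show aq (qx k q3 j) p (F j) ≤ (if j = i then ρ else 1)
      by_cases hj : j = i
      · rw [if_pos hj, hj]; exact hi p hp
      · rw [if_neg hj]; exact hF j hj p hp)
  have e : ∏ j : Fin 4, (if j = i then ρ else 1) = ρ := by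
    rw [Finset.prod_ite_eq' Finset.univ i (fun _ => ρ)]
    simp
  rw [e] at h
  exact h

/-- **REDUCTION** -/
theorem pairO_of_core {D : TRecN.Dict} {OA : TRec.Dict}
    {k q3 cO a b cl th γ x f ω la xx ff t0 K : ℝ} {i m e e' : Fin 4} (hd : Dst4 i m e e')
    (hi3 : i ≠ 3) (hk : 0 < k) (hk1 : k ≤ 1) (hq3 : 2 < q3) (ha : 0 ≤ a) (hth : 0 ≤ th)
    (hγ : 0 ≤ γ) (hx : 0 ≤ x) (hf : 0 ≤ f) (hω : 6 * (a * th * γ) ≤ ω) (hcl : 0 ≤ cl)
    (ht0 : t0 ≤ 1) (hK : 0 ≤ K)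
    (hOA : ∀ s, 0 < s → s ≤ 1 → OA i s ⊆ OpS γ x f i (s ^ th))
    (hla : a * th * γ ≤ la) (hxx : a * th * (x + 2 * f) + ω ≤ xx) (hff : a * th * (2 * f) + ω ≤ ff)
    (hC : PairC D k q3 cO b cl la xx ff t0 K i m e e') :
    PairO D OA k q3 (min cO (ω / 6 - a * th * γ)) a b cl t0 (K + 3) i m := by
  intro N B hB hBN t ht htt bb ε hA W I F hPR hI hF
  have ht1 : t ≤ 1 := htt.trans ht0
  have hs0 : 0 < t ^ a := Real.rpow_pos_of_pos ht _
  have hs1 : t ^ a ≤ 1 := Real.rpow_le_one ht.le ht1 ha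
  set T : ℝ := (t ^ a) ^ th with hT
  have hT0 : 0 < T := Real.rpow_pos_of_pos hs0 _
  have hT1 : T ≤ 1 := Real.rpow_le_one hs0.le hs1 hth
  have hTe : ∀ r : ℝ, T ^ (-r) = t ^ (-(a * th * r)) := by
    intro r
    rw [hT, ← Real.rpow_mul ht.le, ← Real.rpow_mul ht.le]
    congr 1
    ring
  set X : ℝ := a * th * γ with hX
  have hX0 : 0 ≤ X := by positivity
  have hω0 : 0 ≤ ω := by linarith
  have hmi : m ≠ i := hd.jk
  obtain ⟨n, φ, α, hφ, hf', hm⟩ := hPR.mix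
  set σ : ℝ := t ^ ω with hσ
  have hσ0 : 0 < σ := Real.rpow_pos_of_pos ht _
  have hσ1 : σ ≤ 1 := Real.rpow_le_one ht.le ht1 hω0
  have key := fun l => atom_split hd hT0 hT1 hx hf hσ0 hσ1 I (hOA _ hs0 hs1 (hφ l))
  choose φs hRc hsup hl1 using key
  set Fs : Fn := fun y => ∑ l, α l * φs l y with hFs
  set Fc : Fn := fun y => ∑ l, α l * (φ l y - φs l y) with hFc
  have hsum : ∀ y ∈ iv I, F i y = Fc y + Fs y := by
    intro y hy
    rw [hf' y hy, hFc, hFs]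
    simp only
    rw [← Finset.sum_add_distrib]
    exact Finset.sum_congr rfl fun l _ => by ring
  have hTg : T ^ (-γ) = t ^ (-X) := hTe γ
  have hg1 : 1 ≤ t ^ (-X) := Real.one_le_rpow_of_pos_of_le_one_of_nonpos ht ht1 (by linarith)
  have hpow : ∀ {r s : ℝ}, s ≤ r → t ^ r ≤ t ^ s := fun h =>
    Real.rpow_le_rpow_of_exponent_ge ht ht1 h
  have hα0 : 0 ≤ ∑ l, ‖α l‖ := Finset.sum_nonneg fun l _ => norm_nonneg _
  -- the core
  have hcore : Rc i m e e' I (3 * t ^ (-xx)) (t ^ (-ff)) (621432 * t ^ (-la)) Fc := by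
    have h1 := Rc.sum α (fun l y => φ l y - φs l y) (fun _ => 310716 * T ^ (-γ)) hRc
    refine (h1.mono ?_).caps ?_ ?_
    · rw [← Finset.sum_mul, hTg]
      have h2 : t ^ (-X) ≤ t ^ (-la) := hpow (by linarith)
      have h3 : (∑ l, ‖α l‖) * (310716 * t ^ (-X)) ≤ 2 * (310716 * t ^ (-X)) :=
        mul_le_mul_of_nonneg_right hm (by positivity)
      linarith
    · rw [hTe, hTe, hσ, ← Real.rpow_neg ht.le, mul_assoc, ← Real.rpow_add ht, ← Real.rpow_add ht]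
      refine mul_le_mul_of_nonneg_left (hpow ?_) (by norm_num)
      linarith
    · rw [hTe, hσ, ← Real.rpow_neg ht.le, ← Real.rpow_add ht]
      exact hpow (by linarith)
  -- the small part
  set H : ℝ := 2 * t ^ (-X) with hH
  have hH0 : 0 < H := by positivity
  have hFsup : ∀ y, ‖Fs y‖ ≤ H := by
    intro y
    refine (norm_sum_le _ _).trans ?_
    calc ∑ l, ‖α l * φs l y‖ ≤ ∑ l, ‖α l‖ * t ^ (-X) := Finset.sum_le_sum fun l _ => by
          rw [norm_mul]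
          exact mul_le_mul_of_nonneg_left ((hsup l y).trans_eq hTg) (norm_nonneg _)
      _ = (∑ l, ‖α l‖) * t ^ (-X) := by rw [Finset.sum_mul]
      _ ≤ _ := mul_le_mul_of_nonneg_right hm (by positivity)
  have hFl1 : ∑ y ∈ iv I, ‖Fs y‖ ≤ H * (σ * 2 ^ I.1) := by
    calc ∑ y ∈ iv I, ‖Fs y‖ ≤ ∑ y ∈ iv I, ∑ l, ‖α l‖ * ‖φs l y‖ := Finset.sum_le_sum fun y _ => by
          refine (norm_sum_le _ _).trans (Finset.sum_le_sum fun l _ => ?_)
          rw [norm_mul]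
      _ = ∑ l, ‖α l‖ * ∑ y ∈ iv I, ‖φs l y‖ := by
          rw [Finset.sum_comm]
          exact Finset.sum_congr rfl fun l _ => by rw [Finset.mul_sum]
      _ ≤ ∑ l, ‖α l‖ * (t ^ (-X) * (σ * 2 ^ I.1)) := Finset.sum_le_sum fun l _ =>
          mul_le_mul_of_nonneg_left ((hl1 l).trans_eq (by rw [hTg])) (norm_nonneg _)
      _ = (∑ l, ‖α l‖) * (t ^ (-X) * (σ * 2 ^ I.1)) := by rw [Finset.sum_mul]
      _ ≤ 2 * (t ^ (-X) * (σ * 2 ^ I.1)) := mul_le_mul_of_nonneg_right hm (by positivity)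
      _ = _ := by rw [hH]; ring
  have hFisup : ∀ y ∈ iv I, ‖F i y‖ ≤ H := by
    intro y hy
    rw [hf' y hy]
    refine (norm_sum_le _ _).trans ?_
    calc ∑ l, ‖α l * φ l y‖ ≤ ∑ l, ‖α l‖ * t ^ (-X) := Finset.sum_le_sum fun l _ => by
          rw [norm_mul]
          exact mul_le_mul_of_nonneg_left ((sup_opS hT0 (hOA _ hs0 hs1 (hφ l)) y).trans_eq hTg)
            (norm_nonneg _)
      _ = (∑ l, ‖α l‖) * t ^ (-X) := by rw [Finset.sum_mul]
      _ ≤ _ := mul_le_mul_of_nonneg_right hm (by positivity)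
  -- the stopping time
  set G : Nd → ℝ := fun p => (∑ y ∈ iv p, ‖Fs y‖) / len p with hG
  have hG0 : ∀ p, 0 ≤ G p := fun p => div_nonneg (Finset.sum_nonneg fun y _ => norm_nonneg _)
    (Growth.len_pos p).le
  have hGs : Sav G := sav_avg Fs
  have hl := (Growth.len_pos I)
  have hGI : G I ≤ t ^ (ω - X) / 64 := by
    rw [hG]
    simp only
    rw [div_le_iff₀ hl]
    refine hFl1.trans (le_of_eq ?_)
    unfold len
    rw [hH, hσ, Real.rpow_sub ht, Real.rpow_neg ht.le, pow_add]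
    field_simp
    norm_num
  set θ : ℝ := t ^ (ω / 2) / 4 with hθ
  have hθ0 : 0 < θ := by positivity
  have hGθ : G I ≤ θ := by
    refine hGI.trans ?_
    have h1 : t ^ (ω - X) ≤ t ^ (ω / 2) := hpow (by linarith)
    have h2 : 0 < t ^ (ω / 2) := Real.rpow_pos_of_pos ht _
    rw [hθ]
    linarith
  have hW := hPR.full
  set V := Wd W (fun _ p => G p) θ I with hV
  set Tt := Tp W (fun _ p => G p) θ I with hTt
  have hVW : V ⊆ W := Wd_sub
  have hVf : Full V I := Wd_full hW hW.top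
  have hVg : ∀ p ∈ V, G p ≤ θ := by
    intro p hp
    by_cases h : p = I
    · rw [h]; exact hGθ
    · have := mem_Wd.1 hp
      exact (this.2.2 p this.1 subset_rfl this.2.1 h).1
  have hst : ∑ c ∈ Tt, len c ≤ t ^ (ω / 2 - X) * len I := by
    have h1 := stop_len hGs hG0 hW hθ0
    have h2 : θ * ∑ c ∈ Tt, len c ≤ 2 * (len I * (t ^ (ω - X) / 64)) :=
      h1.trans (mul_le_mul_of_nonneg_left (mul_le_mul_of_nonneg_left hGI hl.le) (by norm_num))
    have e : t ^ (ω - X) = t ^ (ω / 2) * t ^ (ω / 2 - X) := by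
      rw [← Real.rpow_add ht]; congr 1; ring
    have h3 : 0 < t ^ (ω / 2) := Real.rpow_pos_of_pos ht _
    have h4 : 0 < t ^ (ω / 2 - X) := Real.rpow_pos_of_pos ht _
    have hS0 : 0 ≤ ∑ c ∈ Tt, len c := Finset.sum_nonneg fun c _ => (Growth.len_pos c).le
    rw [hθ, e] at h2
    have h5 : t ^ (ω / 2) * ∑ c ∈ Tt, len c ≤ t ^ (ω / 2) * (t ^ (ω / 2 - X) * len I / 8) := by
      linarith
    have h6 := le_of_mul_le_mul_left h5 h3
    have h7 : 0 ≤ t ^ (ω / 2 - X) * len I := by positivity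
    linarith
  have hTR : TR bb ε W F = TR bb ε V F + ∑ c ∈ Tt, TR bb ε (blw W c) F := by
    unfold TR
    exact stop_sum hW _
  have hqi : qx k q3 i = 2 + k := TTop13.qx_ne hi3
  -- stopped windows
  have hsub : ‖∑ c ∈ Tt, TR bb ε (blw W c) F‖ ≤ B * H * (t ^ (ω / 2 - X) * len I) := by
    refine (norm_sum_le _ _).trans ?_
    have h1 : ∀ c ∈ Tt, ‖TR bb ε (blw W c) F‖ ≤ B * H * len c := by
      intro c hc
      have hc' := mem_Tp.1 hc
      refine bn_one hk hq3 hBN hA (blw_full hW hc'.1) ((Qe292.iv_level hc'.2.1).trans hI)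
        (i := i) hH0 (fun p hp => ?_) fun j hj p hp => hF j hj p (blw_sub hp)
      rw [hqi]
      exact TTop13.aq_le_of_sup (by linarith) hH0.le fun y hy =>
        hFisup y (hW.reg.1 p (blw_sub hp) hy)
    refine (Finset.sum_le_sum h1).trans ?_
    rw [← Finset.mul_sum]
    exact mul_le_mul_of_nonneg_left hst (mul_nonneg hB hH0.le)
  -- the small part on the main window
  have havs : ∀ p ∈ V, av p Fs ^ 2 ≤ t ^ (ω / 2 - X) / 2 := by
    intro p hp
    have hlp := Growth.len_pos p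
    have h1 := Growth.sum_av p Fs
    have h2 : ∑ y ∈ iv p, ‖Fs y‖ ^ 2 ≤ H * (G p * len p) := by
      have e : G p * len p = ∑ y ∈ iv p, ‖Fs y‖ := by
        rw [hG]; simp only; field_simp
      rw [e, Finset.mul_sum]
      refine Finset.sum_le_sum fun y _ => ?_
      rw [sq]
      exact mul_le_mul_of_nonneg_right (hFsup y) (norm_nonneg _)
    have h3 : H * (G p * len p) ≤ H * (θ * len p) :=
      mul_le_mul_of_nonneg_left (mul_le_mul_of_nonneg_right (hVg p hp) hlp.le) hH0.le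
    have h4 : H * θ = t ^ (ω / 2 - X) / 2 := by
      rw [hH, hθ, sub_eq_add_neg, Real.rpow_add ht]; ring
    have h5 : len p * av p Fs ^ 2 ≤ len p * (t ^ (ω / 2 - X) / 2) := by
      rw [← h1, ← h4]
      calc _ ≤ _ := h2.trans h3
        _ = _ := by ring
    exact le_of_mul_le_mul_left h5 hlp
  have hlt1 : t ^ (ω / 2 - X) ≤ 1 := Real.rpow_le_one ht.le ht1 (by linarith)
  have hρ0 : 0 < t ^ (ω / 6 - X) := Real.rpow_pos_of_pos ht _
  have haqs : ∀ p ∈ V, aq (2 + k) p Fs ≤ t ^ (ω / 6 - X) := by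
    intro p hp
    have h0 : 0 ≤ t ^ (ω / 2 - X) / 2 := by positivity
    have h1 : av p Fs ≤ Real.sqrt (t ^ (ω / 2 - X) / 2) :=
      Real.le_sqrt_of_sq_le (havs p hp)
    have h2 := TTop13.aq_interp hk hH0.le h1 fun y _ => hFsup y
    rw [Real.sq_sqrt h0] at h2
    refine h2.trans ?_
    have h3 : H ^ k ≤ H := by
      have : H ^ k ≤ H ^ (1 : ℝ) := Real.rpow_le_rpow_of_exponent_le (by linarith) hk1
      rwa [Real.rpow_one] at this
    have h4 : t ^ (ω / 2 - X) / 2 * H ^ k ≤ t ^ (ω / 2 - 2 * X) := by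
      calc t ^ (ω / 2 - X) / 2 * H ^ k ≤ t ^ (ω / 2 - X) / 2 * H := mul_le_mul_of_nonneg_left h3 h0
        _ = t ^ (ω / 2 - X) * t ^ (-X) := by rw [hH]; ring
        _ = t ^ (ω / 2 - 2 * X) := by rw [← Real.rpow_add ht]; congr 1; ring
    calc (t ^ (ω / 2 - X) / 2 * H ^ k) ^ (1 / (2 + k)) ≤ (t ^ (ω / 2 - 2 * X)) ^ (1 / (2 + k)) :=
          Real.rpow_le_rpow (by positivity) h4 (by positivity)
      _ = t ^ ((ω / 2 - 2 * X) * (1 / (2 + k))) := by rw [← Real.rpow_mul ht.le]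
      _ ≤ _ := by
          refine hpow ?_
          rw [mul_one_div, le_div_iff₀ (by linarith)]
          have h7 := mul_nonneg hω0 (sub_nonneg.2 hk1)
          have h8 := mul_nonneg hX0 hk.le
          linarith
  have hsm : ‖TR bb ε V (Function.update F i Fs)‖ ≤ B * t ^ (ω / 6 - X) * len I := by
    refine bn_one hk hq3 hBN hA hVf hI (i := i) hρ0 (fun p hp => ?_) fun j hj p hp => ?_
    · rw [Function.update_self, hqi]; exact haqs p hp
    · rw [Function.update_of_ne hj]; exact hF j hj p (hVW hp)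
  -- the core on the main window
  have htwo : TR bb ε V F = TR bb ε V (Function.update F i Fc) +
      TR bb ε V (Function.update F i Fs) := by
    have h := TR_two hA (fun p hp => hVf.reg.1 p hp) F i (n := 1) (n' := 1) (fun _ => Fc)
      (fun _ => 1) (fun _ => (Fs, fun _ => 0)) (fun _ => 1) (fun y hy => by
        rw [hsum y hy]; simp)
    rw [h]
    simp
  have hPC : PRc D k b cl t (621432 * t ^ (-la)) (3 * t ^ (-xx)) (t ^ (-ff)) V I i m e e'
      (Function.update F i Fc) :=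
    { full := hVf
      nR := fun p hp => by
        rw [Function.update_of_ne hmi]; exact hPR.nR p (hVW hp)
      mix := by rw [Function.update_self]; exact hcore
      avP := fun p hp => by
        rw [Function.update_self]
        have h1 : av p Fc ≤ av p (F i) + av p Fs := by
          have e1 : av p Fc = av p (fun y => F i y + (-1 : ℂ) * Fs y) := by
            refine TWin.av_congr fun y hy => ?_
            rw [hsum y (hVf.reg.1 p hp hy)]
            ring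
          rw [e1]
          refine (TWin.av_add_le p _ _).trans (add_le_add le_rfl (le_of_eq ?_))
          rw [av_cmul]
          simp
        have h2 := hPR.avP p (hVW hp)
        have h3 : av p Fs ≤ 1 := by
          have h4 := havs p hp
          have h5 := Growth.av_nonneg p Fs
          exact (sq_le_one_iff₀ h5).1 (by linarith)
        have h6 : 1 ≤ t ^ (-cl) :=
          Real.one_le_rpow_of_pos_of_le_one_of_nonpos ht ht1 (by linarith)
        linarith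
      lev := fun p hp => by rw [Function.update_of_ne hmi]; exact hPR.lev p (hVW hp) }
  have hmain := hC N B hB hBN t ht htt bb ε hA V I _ hPC hI fun j hj p hp => by
    rw [Function.update_of_ne hj]; exact hF j hj p (hVW hp)
  rw [hTR, htwo]
  set c0 := min cO (ω / 6 - X) with hc0
  have g1 : t ^ cO ≤ t ^ c0 := hpow (min_le_left _ _)
  have g2 : t ^ (ω / 6 - X) ≤ t ^ c0 := hpow (min_le_right _ _)
  have g3 : H * t ^ (ω / 2 - X) ≤ 2 * t ^ c0 := by
    have e : H * t ^ (ω / 2 - X) = 2 * t ^ (ω / 2 - 2 * X) := by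
      rw [hH, mul_assoc, ← Real.rpow_add ht]; congr 2; ring
    rw [e]
    have h1 : t ^ (ω / 2 - 2 * X) ≤ t ^ (ω / 6 - X) := hpow (by linarith)
    linarith
  have hB1 : 0 ≤ 1 + B := by linarith
  have g0 : 0 ≤ t ^ c0 := (Real.rpow_pos_of_pos ht _).le
  have b1 : K * (1 + B) * t ^ cO * len I ≤ K * (1 + B) * t ^ c0 * len I :=
    mul_le_mul_of_nonneg_right (mul_le_mul_of_nonneg_left g1 (mul_nonneg hK hB1)) hl.le
  have b2 : B * t ^ (ω / 6 - X) * len I ≤ B * t ^ c0 * len I :=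
    mul_le_mul_of_nonneg_right (mul_le_mul_of_nonneg_left g2 hB) hl.le
  have b3 : B * H * (t ^ (ω / 2 - X) * len I) ≤ 2 * B * t ^ c0 * len I := by
    calc B * H * (t ^ (ω / 2 - X) * len I) = B * (H * t ^ (ω / 2 - X)) * len I := by ring
      _ ≤ B * (2 * t ^ c0) * len I :=
          mul_le_mul_of_nonneg_right (mul_le_mul_of_nonneg_left g3 hB) hl.le
      _ = _ := by ring
  have b4 : 0 ≤ t ^ c0 * len I := mul_nonneg g0 hl.le
  calc ‖_‖ ≤ (‖TR bb ε V (Function.update F i Fc)‖ + ‖TR bb ε V (Function.update F i Fs)‖) +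
        ‖∑ c ∈ Tt, TR bb ε (blw W c) F‖ :=
        (norm_add_le _ _).trans (add_le_add (norm_add_le _ _) le_rfl)
    _ ≤ (K * (1 + B) * t ^ cO * len I + B * t ^ (ω / 6 - X) * len I) +
        B * H * (t ^ (ω / 2 - X) * len I) := add_le_add (add_le_add hmain hsm) hsub
    _ ≤ (K * (1 + B) * t ^ c0 * len I + B * t ^ c0 * len I) + 2 * B * t ^ c0 * len I :=
        add_le_add (add_le_add b1 b2) b3
    _ ≤ (K + 3) * (1 + B) * t ^ c0 * len I := by linarith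

end Crest.Agent.R079.POx263
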