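import Crest.Agent.R079.WS0_112
import Crest.Agent.R079.NCol_37

/-! R079, T6 (helper256): DATA OF STEP II for the final dictionary `DF0 P` (helper112).

For `PRo (DF0 P) (OA0 P) k a b cl t W I i m F` (252's data of rule (A) for a mixture of op-atoms):

* `repB_PRo` : the frozen letter `F i` is a mixture of bounded atoms of mass `K t ^ (-C1)` on `iv I`;
* `sup_PRo` : `|F i| ≤ 2 t ^ (-(a θ g i))` on `iv I`;
* `ncol_PRo` : the killer `F m` does not collide: `NCol W (F m) (3 t ^ (b θ gc m)) (2 t ^ (b θ (Cc m - gc m)))`. -/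

set_option autoImplicit false
set_option linter.unusedVariables false

namespace Crest.Agent.R079.StO256

open Finset Crest.Agent.R079.Grid Crest.Agent.R079.Glue Crest.Agent.R079.Growth
  Crest.Agent.R079.QRed Crest.Agent.R079.BAt112 Crest.Agent.R079.DicB112
  Crest.Agent.R079.WS112 Crest.Agent.R079.WS0112 Crest.Agent.R079.T6bx252 Crest.Agent.R079.WB112

/-- finite sums of mixtures -/
theorem repB_sum {j : Fin 4} {p : Nd} {n : ℕ} {φ : Fin n → Fn} {c : Fin n → ℂ} {M : ℝ} (hM : 0 ≤ M)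
    (h : ∀ i, RepB j p (φ i) M) : RepB j p (fun y => ∑ i, c i * φ i y) ((∑ i, ‖c i‖) * M) := by
  classical
  have key : ∀ s : Finset (Fin n), RepB j p (fun y => ∑ i ∈ s, c i * φ i y)
      (∑ i ∈ s, ‖c i‖ * M) := by
    intro s
    induction s using Finset.induction_on with
    | empty => simpa using RepB.zero (j := j) (p := p) (le_refl (0 : ℝ))
    | insert a s ha ih =>
      have h4 := RepB.add (RepB.cmul (h a) (c a)) ih
      rw [Finset.sum_insert ha]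
      refine h4.congr fun y _ => ?_
      rw [Finset.sum_insert ha]
  have := key Finset.univ
  rwa [← Finset.sum_mul] at this

/-- op-atoms of cost `1` are mixtures of bounded atoms of polynomial mass -/
theorem repB_OA0 {P : Prm} (h : Ok0 P) : ∃ A0 C0 : ℝ, 0 ≤ A0 ∧ 0 ≤ C0 ∧ ∀ j, j ≠ 3 → ∀ t, 0 < t →
    t ≤ 1 → ∀ φ ∈ OA0 P j t, ∀ p, RepB j p φ (A0 * t ^ (-C0)) := by
  obtain ⟨A0, C0, hA0, hC0, hm⟩ := (ufam_US h.x0 h.f0).mass
  refine ⟨A0, P.θ * (∑ j, P.g j + C0), hA0,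
    mul_nonneg h.θ0.le (add_nonneg (Finset.sum_nonneg fun j _ => h.g0 j) hC0), ?_⟩
  rintro j hj t ht ht1 φ ⟨ψ, hψ, rfl⟩ p
  have hT : 0 < t ^ P.θ := Real.rpow_pos_of_pos ht _
  have hT1 : t ^ P.θ ≤ 1 := Real.rpow_le_one ht.le ht1 h.θ0.le
  have h1 := RepB.cmul (hm j hj (t ^ P.θ) hT hT1 ψ hψ p) (((t ^ P.θ) ^ (-(P.g j)) : ℝ) : ℂ)
  refine h1.mono ?_
  rw [Complex.norm_real, Real.norm_of_nonneg (Real.rpow_nonneg hT.le _), mul_left_comm,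
    ← Real.rpow_add hT, ← Real.rpow_mul ht.le]
  refine mul_le_mul_of_nonneg_left ?_ hA0
  refine Real.rpow_le_rpow_of_exponent_ge ht ht1 ?_
  have hg : P.g j ≤ ∑ i, P.g i := Finset.single_le_sum (f := P.g) (fun i _ => h.g0 i)
    (Finset.mem_univ j)
  have := mul_le_mul_of_nonneg_left hg h.θ0.le
  nlinarith

/-- op-atoms of cost `1` are bounded by `t ^ (-(θ g j))` -/
theorem sup_OA0 {P : Prm} (h : Ok0 P) {j : Fin 4} (hj : j ≠ 3) {t : ℝ} (ht : 0 < t) (ht1 : t ≤ 1)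
    {φ : Fn} (hφ : φ ∈ OA0 P j t) (y : ℤ) : ‖φ y‖ ≤ t ^ (-(P.θ * P.g j)) := by
  obtain ⟨ψ, hψ, rfl⟩ := hφ
  have hT : 0 < t ^ P.θ := Real.rpow_pos_of_pos ht _
  have hT1 : t ^ P.θ ≤ 1 := Real.rpow_le_one ht.le ht1 h.θ0.le
  have h1 := (ufam_US h.x0 h.f0).sup j hj (t ^ P.θ) hT hT1 ψ hψ y
  rw [neg_zero, Real.rpow_zero] at h1
  show ‖(((t ^ P.θ) ^ (-(P.g j)) : ℝ) : ℂ) * ψ y‖ ≤ _
  rw [norm_mul, Complex.norm_real, Real.norm_of_nonneg (Real.rpow_nonneg hT.le _),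
    ← Real.rpow_mul ht.le]
  have h2 : 0 ≤ t ^ (P.θ * -(P.g j)) := Real.rpow_nonneg ht.le _
  calc t ^ (P.θ * -(P.g j)) * ‖ψ y‖ ≤ t ^ (P.θ * -(P.g j)) * 1 := mul_le_mul_of_nonneg_left h1 h2
    _ = t ^ (-(P.θ * P.g j)) := by rw [mul_one]; congr 1; ring

section

variable {P : Prm} {k a b cl t : ℝ} {W : Finset Nd} {I : Nd} {i m : Fin 4} {F : Fin 4 → Fn}

/-- the frozen letter as a mixture of bounded atoms -/
theorem repB_PRo (h : Ok0 P) : ∃ A0 C0 : ℝ, 0 ≤ A0 ∧ 0 ≤ C0 ∧ ∀ {k a b cl t : ℝ} {W : Finset Nd}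
    {I : Nd} {i m : Fin 4} {F : Fin 4 → Fn}, i ≠ 3 → 0 ≤ a → 0 < t → t ≤ 1 →
    PRo (DF0 P) (OA0 P) k a b cl t W I i m F → RepB i I (F i) (2 * A0 * t ^ (-(a * C0))) := by
  obtain ⟨A0, C0, hA0, hC0, hm⟩ := repB_OA0 h
  refine ⟨A0, C0, hA0, hC0, ?_⟩
  intro k a b cl t W I i m F hi3 ha ht ht1 hPR
  obtain ⟨n, φ, c, h1, h2, h3⟩ := hPR.mix
  have hs0 : 0 < t ^ a := Real.rpow_pos_of_pos ht _
  have hs1 : t ^ a ≤ 1 := Real.rpow_le_one ht.le ht1 ha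
  have hM : 0 ≤ A0 * (t ^ a) ^ (-C0) := mul_nonneg hA0 (Real.rpow_nonneg hs0.le _)
  have h4 := repB_sum (c := c) hM fun l => hm i hi3 (t ^ a) hs0 hs1 (φ l) (h1 l) I
  refine (h4.congr fun y hy => h2 y hy).mono ?_
  have e : A0 * (t ^ a) ^ (-C0) = A0 * t ^ (-(a * C0)) := by
    rw [← Real.rpow_mul ht.le]; congr 2; ring
  rw [e]
  have h5 : 0 ≤ A0 * t ^ (-(a * C0)) := mul_nonneg hA0 (Real.rpow_nonneg ht.le _)
  calc (∑ i, ‖c i‖) * (A0 * t ^ (-(a * C0))) ≤ 2 * (A0 * t ^ (-(a * C0))) :=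
        mul_le_mul_of_nonneg_right h3 h5
    _ = _ := by ring

/-- sup bound of the frozen letter -/
theorem sup_PRo (h : Ok0 P) (hi3 : i ≠ 3) (ha : 0 ≤ a) (ht : 0 < t) (ht1 : t ≤ 1)
    (hPR : PRo (DF0 P) (OA0 P) k a b cl t W I i m F) {y : ℤ} (hy : y ∈ iv I) :
    ‖F i y‖ ≤ 2 * t ^ (-(a * (P.θ * P.g i))) := by
  obtain ⟨n, φ, c, h1, h2, h3⟩ := hPR.mix
  have hs0 : 0 < t ^ a := Real.rpow_pos_of_pos ht _
  have hs1 : t ^ a ≤ 1 := Real.rpow_le_one ht.le ht1 ha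
  have e : (t ^ a) ^ (-(P.θ * P.g i)) = t ^ (-(a * (P.θ * P.g i))) := by
    rw [← Real.rpow_mul ht.le]; congr 1; ring
  rw [h2 y hy]
  refine (norm_sum_le _ _).trans ?_
  have h4 : ∀ l, ‖c l * φ l y‖ ≤ ‖c l‖ * t ^ (-(a * (P.θ * P.g i))) := by
    intro l
    rw [norm_mul]
    refine mul_le_mul_of_nonneg_left ?_ (norm_nonneg _)
    have := sup_OA0 h hi3 hs0 hs1 (h1 l) y
    rwa [e] at this
  refine (Finset.sum_le_sum fun l _ => h4 l).trans ?_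
  rw [← Finset.sum_mul]
  exact mul_le_mul_of_nonneg_right h3 (Real.rpow_nonneg ht.le _)

/-- **non-collision of the killer** -/
theorem ncol_PRo (h : Ok0 P) (hk : 0 ≤ k) (hm3 : m ≠ 3) (hb : 0 ≤ b) (hC : P.gc m ≤ P.Cc m)
    (ht : 0 < t) (ht1 : t ≤ 1) (hPR : PRo (DF0 P) (OA0 P) k a b cl t W I i m F) :
    NC237.NCol W (F m) (3 * t ^ (b * (P.θ * P.gc m))) (2 * t ^ (b * (P.θ * (P.Cc m - P.gc m)))) := by
  have hs0 : 0 < t ^ b := Real.rpow_pos_of_pos ht _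
  have hs1 : t ^ b ≤ 1 := Real.rpow_le_one ht.le ht1 hb
  have hT : 0 < (t ^ b) ^ P.θ := Real.rpow_pos_of_pos hs0 _
  have hT1 : (t ^ b) ^ P.θ ≤ 1 := Real.rpow_le_one hs0.le hs1 h.θ0.le
  have hlv : ∀ p ∈ W, CellH237.LvC (P.gc m) (P.dc m) (P.Cc m) ((t ^ b) ^ P.θ) 1 p (F m) :=
    fun p hp => lvC_DF0 h hm3 hs0 hs1 zero_le_one (hPR.lev p hp)
  have hav : ∀ p ∈ W, av p (F m) ≤ 1 := fun p hp =>
    (TRec.TAsm398.av_le_aq (by linarith) p (F m)).trans (hPR.nR p hp)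
  set T : ℝ := (t ^ b) ^ P.θ with hTdef
  have eT : ∀ x : ℝ, T ^ x = t ^ (b * (P.θ * x)) := by
    intro x
    rw [hTdef, ← Real.rpow_mul ht.le, ← Real.rpow_mul ht.le]
    congr 1; ring
  have h0 : T ^ (P.Cc m) ≤ T ^ (P.Cc m - P.gc m) :=
    Real.rpow_le_rpow_of_exponent_ge hT hT1 (by have := h.gc0 m; linarith)
  have h1 := NC237.ncol_of_lv (ε := 2 * T ^ (P.Cc m - P.gc m)) hT zero_le_one hlv hav (by linarith)
  have hg0 : 0 < T ^ (P.Cc m - P.gc m) := Real.rpow_pos_of_pos hT _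
  have hgp : 0 < T ^ (P.gc m) := Real.rpow_pos_of_pos hT _
  have hd1 : T ^ (P.dc m) ≤ 1 := Real.rpow_le_one hT.le hT1 (h.dc0 m)
  have h2 : 1 * (T ^ (P.gc m) * (T ^ (P.dc m) + 1)) + 1 ^ 3 * T ^ (P.Cc m) /
      (2 * T ^ (P.Cc m - P.gc m)) ≤ 3 * T ^ (P.gc m) := by
    have e1 : T ^ (P.Cc m) = T ^ (P.gc m) * T ^ (P.Cc m - P.gc m) := by
      rw [← Real.rpow_add hT]; congr 1; ring
    have e2 : 1 ^ 3 * T ^ (P.Cc m) / (2 * T ^ (P.Cc m - P.gc m)) = T ^ (P.gc m) / 2 := by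
      rw [e1]; field_simp
    rw [e2]
    nlinarith
  rw [← eT, ← eT]
  intro p hp p' hp' hl
  obtain ⟨Bd, h3, h4⟩ := h1 p hp p' hp' hl
  have hlp : 0 < len p := QVar181.len_pos' p
  exact ⟨Bd, h3, fun h hh ξ => (h4 h hh ξ).trans (mul_le_mul_of_nonneg_right h2 hlp.le)⟩

end

end Crest.Agent.R079.StO256
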