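import Crest.Agent.R079.PO_263
import Crest.Agent.R079.T6q_252
import Crest.Agent.R079.StO1_256
import Crest.Agent.R079.KLd_276
import Crest.Agent.R079.SWc_360

/-! R079, T2/T6 (helper263): **WHAT THE CORE DATA GIVE** (consumers: Step I, Step II).

* `QC` : the core data as a data predicate of `T6q_252`; `pairO_of_pairQ` : `PairQ (QC ..) → PairO ..`;
* `Rc.repB`, `Rc.sup` : the frozen letter is a mixture of bounded atoms of mass `M (Hf Ht)`, sup `≤ M`;
* `PRc.ncol` : non-collision of the killer (dictionary `DF0 P` of 112);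
* `PRc.exD` : exceptional density of the killer's kernels for every bounded gauge (276/446);
* `ncs_of_ncol` : `NCol W R g d → NCs p g d R` (the form used by the (S) words, 360/261). -/

set_option autoImplicit false
set_option linter.unusedVariables false

namespace Crest.Agent.R079.POx263

open Finset Crest.Agent.R079.Grid Crest.Agent.R079.Growth Crest.Agent.R079.QRed
open Crest.Agent.R079.TRec Crest.Agent.R079.T6ax252 Crest.Agent.R079.T6bx252
open Crest.Agent.R079.OpS276 Crest.Agent.R079.OLevSw Crest.Agent.R079.Qe292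
open Crest.Agent.R079.BAt112 Crest.Agent.R079.DicB112 Crest.Agent.R079.WS112
open Crest.Agent.R079.WS0112

/-- **core data as a data predicate** -/
def QC (D : TRecN.Dict) (k b cl la xx ff : ℝ) (i m e e' : Fin 4) : DataQ := fun t W I F =>
  PRc D k b cl t (621432 * t ^ (-la)) (3 * t ^ (-xx)) (t ^ (-ff)) W I i m e e' F

theorem qC_full {D : TRecN.Dict} {k b cl la xx ff : ℝ} {i m e e' : Fin 4} :
    ∀ t W I F, QC D k b cl la xx ff i m e e' t W I F → Full W I := fun _ _ _ _ h => h.full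

theorem pairC_iff {D : TRecN.Dict} {k q3 c0 b cl la xx ff t0 K : ℝ} {i m e e' : Fin 4} :
    PairC D k q3 c0 b cl la xx ff t0 K i m e e' ↔
      PairQ (QC D k b cl la xx ff i m e e') k q3 c0 t0 K i := Iff.rfl

/-- **REDUCTION**, in the words of `T6q_252` -/
theorem pairO_of_pairQ {D : TRecN.Dict} {OA : TRec.Dict}
    {k q3 cO a b cl th γ x f ω la xx ff t0 K : ℝ} {i m e e' : Fin 4} (hd : Dst4 i m e e')
    (hi3 : i ≠ 3) (hk : 0 < k) (hk1 : k ≤ 1) (hq3 : 2 < q3) (ha : 0 ≤ a) (hth : 0 ≤ th)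
    (hγ : 0 ≤ γ) (hx : 0 ≤ x) (hf : 0 ≤ f) (hω : 6 * (a * th * γ) ≤ ω) (hcl : 0 ≤ cl)
    (ht0 : t0 ≤ 1) (hK : 0 ≤ K)
    (hOA : ∀ s, 0 < s → s ≤ 1 → OA i s ⊆ OpS γ x f i (s ^ th))
    (hla : a * th * γ ≤ la) (hxx : a * th * (x + 2 * f) + ω ≤ xx) (hff : a * th * (2 * f) + ω ≤ ff)
    (hC : PairQ (QC D k b cl la xx ff i m e e') k q3 cO t0 K i) :
    PairQ (fun t W I F => PRo D OA k a b cl t W I i m F) k q3 (min cO (ω / 6 - a * th * γ)) t0
      (K + 3) i :=
  pairO_iff.1 (pairO_of_core hd hi3 hk hk1 hq3 ha hth hγ hx hf hω hcl ht0 hK hOA hla hxx hff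
    (pairC_iff.2 hC))

section rc

variable {k m e e' : Fin 4} {I : Nd} {Ht Hf M : ℝ} {f : Fn}

/-- one unit atom of the core, normalised -/
theorem unit_repB (hd : Dst4 k m e e') {n : ℕ} {ψ : Fn} (hHt : 0 ≤ Ht) (hHf : 0 ≤ Hf)
    (h : IsOpS k m e e' n Ht Hf ψ) (p : Nd) :
    RepB k p (fun y => ((1 / (n : ℝ) ^ 2 : ℝ) : ℂ) * ψ y) (Hf * Ht) := by
  obtain ⟨w, q, u, mm, U, V, α, hS, rfl⟩ := h
  set H : ℝ := Real.sqrt (Hf * Ht) with hH
  have hp : 0 ≤ Hf * Ht := mul_nonneg hHf hHt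
  have hH0 : 0 ≤ H := Real.sqrt_nonneg _
  have hHH : Hf * Ht = H ^ 2 := (Real.sq_sqrt hp).symm
  have hU : ∀ c i, ‖U c i‖ ≤ H := fun c i => by
    refine (abs_le_of_sq_le_sq' ?_ hH0).2
    exact ((hS.UH c i).trans (mul_le_mul_of_nonneg_left (hS.αH c) hHf)).trans hHH.le
  have hV : ∀ c i, ‖V c i‖ ≤ H := fun c i => by
    refine (abs_le_of_sq_le_sq' ?_ hH0).2
    exact ((hS.VH c i).trans (mul_le_mul_of_nonneg_left (hS.αH c) hHf)).trans hHH.le
  refine repB_opT hd.jk hd.je hd.je' hd.ke hd.ke' hd.ee' hS.m1 w q u (by positivity) hH0 hH0 hU hV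
    ?_ p
  rcases Nat.eq_zero_or_pos n with hn | hn
  · subst hn
    simpa using hp
  · have hn' : (0 : ℝ) < n := by exact_mod_cast hn
    rw [hHH]
    refine le_of_eq ?_
    field_simp

/-- **mixture of bounded atoms** -/
theorem Rc.repB (hd : Dst4 k m e e') (hHt : 0 ≤ Ht) (hHf : 0 ≤ Hf)
    (h : Rc k m e e' I Ht Hf M f) : RepB k I f (M * (Hf * Ht)) := by
  obtain ⟨n, ψ, α, h0, h1, h2, h3⟩ := h
  have hp : 0 ≤ Hf * Ht := mul_nonneg hHf hHt
  have h4 := StO256.repB_sum (c := fun l => ((α l : ℝ) : ℂ)) hp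
    (fun l => unit_repB hd hHt hHf (h1 l) I)
  refine (h4.congr fun y hy => ?_).mono ?_
  · rw [h2 y hy]
    refine Finset.sum_congr rfl fun l _ => ?_
    push_cast
    ring
  · refine mul_le_mul_of_nonneg_right ?_ hp
    refine le_trans (le_of_eq ?_) h3
    refine Finset.sum_congr rfl fun l _ => ?_
    rw [Complex.norm_real, Real.norm_of_nonneg (h0 l)]

/-- sup norm -/
theorem Rc.sup (hd : Dst4 k m e e') (h : Rc k m e e' I Ht Hf M f) {y : ℤ} (hy : y ∈ iv I) :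
    ‖f y‖ ≤ M := by
  obtain ⟨n, ψ, α, h0, h1, h2, h3⟩ := h
  rw [h2 y hy]
  refine (norm_sum_le _ _).trans (le_trans (Finset.sum_le_sum fun l _ => ?_) h3)
  obtain ⟨w, q, u, mm, U, V, β, hS, hψ⟩ := h1 l
  have h5 := sup_opA hd hS w q u y
  rw [← hψ] at h5
  rw [norm_mul, Complex.norm_real, Real.norm_of_nonneg (div_nonneg (h0 l) (by positivity))]
  push_cast at h5
  calc α l / ((2 : ℝ) ^ I.1) ^ 2 * ‖ψ l y‖ ≤ α l / ((2 : ℝ) ^ I.1) ^ 2 * (2 ^ I.1) ^ 2 :=
        mul_le_mul_of_nonneg_left h5 (div_nonneg (h0 l) (by positivity))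
    _ = α l := by field_simp

end rc

section data

variable {D : TRecN.Dict} {P : Prm} {k b cl t La Ht Hf : ℝ} {W : Finset Nd} {I : Nd}
  {i m e e' : Fin 4} {F : Fin 4 → Fn}

theorem PRc.avR (hk : 0 ≤ k) (h : PRc D k b cl t La Ht Hf W I i m e e' F) :
    ∀ p ∈ W, av p (F m) ≤ 1 := fun p hp =>
  (TAsm398.av_le_aq (by linarith) p (F m)).trans (h.nR p hp)

/-- the data of `PRo` with the frozen letter replaced by `0` -/
theorem PRc.pro0 {OA : TRec.Dict} (a : ℝ) (hd : Dst4 i m e e') (ht : 0 < t)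
    (h : PRc D k b cl t La Ht Hf W I i m e e' F) :
    PRo D OA k a b cl t W I i m (Function.update F i (fun _ => 0)) where
  full := h.full
  nR := fun p hp => by rw [Function.update_of_ne hd.jk]; exact h.nR p hp
  mix := ⟨0, fun _ _ => 0, fun _ => 0, fun l => l.elim0, fun y _ => by simp, by simp⟩
  avP := fun p _ => by
    rw [Function.update_self]
    have : av p (fun _ => (0 : ℂ)) = 0 := by unfold av av2; simp
    rw [this]
    have := Real.rpow_pos_of_pos ht (-cl)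
    positivity
  lev := fun p hp => by rw [Function.update_of_ne hd.jk]; exact h.lev p hp

/-- **non-collision of the killer** -/
theorem PRc.ncol (h : Ok0 P) (hd : Dst4 i m e e') (hk : 0 ≤ k) (hm3 : m ≠ 3) (hb : 0 ≤ b)
    (hC : P.gc m ≤ P.Cc m) (ht : 0 < t) (ht1 : t ≤ 1)
    (hPR : PRc (DF0 P) k b cl t La Ht Hf W I i m e e' F) :
    NC237.NCol W (F m) (3 * t ^ (b * (P.θ * P.gc m)))
      (2 * t ^ (b * (P.θ * (P.Cc m - P.gc m)))) := by
  have h1 := StO256.ncol_PRo h hk hm3 hb hC ht ht1 (hPR.pro0 (OA := OA0 P) 0 hd ht)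
  rwa [Function.update_of_ne hd.jk] at h1

/-- **exceptional density of the killer's kernels** -/
theorem PRc.exD (h : Ok0 P) (hd : Dst4 i m e e') (hk : 0 ≤ k) (hm3 : m ≠ 3) (hb : 0 ≤ b)
    (ht : 0 < t) (ht1 : t ≤ 1) (hPR : PRc (DF0 P) k b cl t La Ht Hf W I i m e e' F)
    {c : ℤ → ℤ → ℂ} (hc : ∀ z z', ‖c z z'‖ ≤ 1) {j a a' : Fin 4} (hj : Dst4 m j a a') :
    KLx446.ExD W c (F m) (sl j - sl m) (sl a - sl m) (sl a' - sl m)
      (128 * t ^ (b * (P.θ * P.g m)) + 24 * t ^ (b * (P.θ * P.f m)))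
      (t ^ (b * (P.θ * P.x m))) := by
  have hs0 : 0 < t ^ b := Real.rpow_pos_of_pos ht _
  have hs1 : t ^ b ≤ 1 := Real.rpow_le_one ht.le ht1 hb
  have hT : 0 < (t ^ b) ^ P.θ := Real.rpow_pos_of_pos hs0 _
  have eT : ∀ x : ℝ, ((t ^ b) ^ P.θ) ^ x = t ^ (b * (P.θ * x)) := by
    intro x
    rw [← Real.rpow_mul ht.le, ← Real.rpow_mul ht.le]
    congr 1; ring
  have hL : ∀ p ∈ W, LvS (P.g m) (P.x m) (P.f m) m ((t ^ b) ^ P.θ) 1 p (F m) := fun p hp =>
    lvS_DF0 h hm3 hs0 hs1 zero_le_one (hPR.lev p hp)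
  have h1 := exD_of_lvS hj hT zero_le_one zero_le_one hL (hPR.avR hk) hc
  rw [eT, eT, eT] at h1
  simpa using h1

end data

/-- non-collision in the form of the (S) words -/
theorem ncs_of_ncol {W : Finset Nd} {R : Fn} {g dl : ℝ} (h : NC237.NCol W R g dl) {p : Nd}
    (hp : p ∈ W) : SWc360.NCs p g dl R := by
  classical
  obtain ⟨Z, h1, h2⟩ := h p hp p hp rfl
  refine ⟨Z.image (fun z => -z), le_trans (by exact_mod_cast Finset.card_image_le) h1,
    fun s hs ξ => ?_⟩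
  have hs' : -s ∉ Z := fun hh => hs (Finset.mem_image.2 ⟨-s, hh, neg_neg s⟩)
  have h3 := h2 (-s) hs' ξ
  unfold CellH237.acor
  rw [Finset.sum_filter] at h3
  refine le_trans (le_of_eq ?_) h3
  congr 1
  refine Finset.sum_congr rfl fun y hy => ?_
  unfold CellH237.cr
  rw [← sub_eq_add_neg]
  by_cases hc : y - s ∈ iv p
  · rw [if_pos ⟨hy, hc⟩, if_pos hc]
  · rw [if_neg (fun hh => hc hh.2), if_neg hc, zero_mul]

end Crest.Agent.R079.POx263
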