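import Crest.Agent.R079.PjC_881

/-! # R079: the rank perturbation lemma of the clip residual (helper608; 323's hint to 1119 (C3))

`rank_pert` : `Op (A - A') τ`, `0 < s` ⟹ `hs (chi A s - chi A' s) ≤ (τ / s)² (hs A + hs A')`.
`rank_pert_cell` : the same for kernels `ℤ × ℤ` on a rectangle (`cl`, `OpS`, `nq`).
`opS_cells` : operator norm of a sum of kernels carried by rectangles `R c × C c`, each with
`OpS (r · n_c)`, rows meet rectangles of total side `≤ L`, columns too ⟹ `OpS (r · L)`. -/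

set_option autoImplicit false

open scoped BigOperators ComplexConjugate

namespace Crest.Agent.R079.RkPx608

open Finset Crest.Agent.R079.HiF881 Crest.Agent.R079.ClW59

section mat
variable {m n : Type*} [Fintype m] [Fintype n] [DecidableEq n]

/-- the number of nonzero singular values is at most the number of vectors spanning the columns -/
theorem card_sv_le {ι : Type*} [Fintype ι] {D : m → n → ℂ} {X : n → n → ℂ} {σ : n → ℝ}
    (h : SVD D X σ) (w : ι → m → ℂ)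
    (hW : ∀ f : n → ℂ, (fun x => ∑ y, D x y * f y) ∈ Submodule.span ℂ (Set.range w)) :
    (univ.filter fun k => σ k ≠ 0).card ≤ Fintype.card ι := by
  classical
  set v : {k // σ k ≠ 0} → (m → ℂ) := fun k => fun x => ∑ y, D x y * X k y with hv
  have hli : LinearIndependent ℂ v := by
    rw [linearIndependent_iff']
    intro S g hg l hl
    have h1 : ∑ x, conj (v l x) * (∑ k ∈ S, g k * v k x) = 0 := by
      refine Finset.sum_eq_zero fun x _ => ?_
      have h2 := congrFun hg x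
      simp only [Finset.sum_apply, Pi.smul_apply, smul_eq_mul, Pi.zero_apply] at h2
      rw [h2, mul_zero]
    have h3 : ∑ x, conj (v l x) * (∑ k ∈ S, g k * v k x)
        = ∑ k ∈ S, g k * ∑ x, conj (v l x) * v k x := by
      simp only [Finset.mul_sum]
      rw [Finset.sum_comm]
      exact Finset.sum_congr rfl fun k _ => Finset.sum_congr rfl fun x _ => by ring
    have h4 : ∀ k : {k // σ k ≠ 0}, ∑ x, conj (v l x) * v k x
        = if (l : n) = k then ((σ l : ℂ)) ^ 2 else 0 := fun k => h.gram l k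
    rw [h3] at h1
    simp only [h4] at h1
    rw [Finset.sum_eq_single l] at h1
    · simp only [if_true] at h1
      have h5 : ((σ l : ℂ)) ^ 2 ≠ 0 := pow_ne_zero _ (by exact_mod_cast l.2)
      exact (mul_eq_zero.1 h1).resolve_right h5
    · intro k _ hk
      rw [if_neg (fun hh => hk (Subtype.ext hh.symm)), mul_zero]
    · intro h6; exact absurd hl h6
  have h1 : Set.range v ≤ (Submodule.span ℂ (Set.range w) : Set (m → ℂ)) := by
    rintro _ ⟨k, rfl⟩
    exact hW (X k)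
  let _ : Fintype (Set.range w) := Fintype.ofFinite _
  have h2 := linearIndependent_le_span_aux' v hli (Set.range w) h1
  have h3 : Fintype.card (Set.range w) ≤ Fintype.card ι := Fintype.card_range_le w
  rw [← Fintype.card_subtype]
  exact h2.trans h3

/-- hi singular values: Chebyshev -/
theorem card_hi_le {A : m → n → ℂ} {X : n → n → ℂ} {σ : n → ℝ} (h : SVD A X σ) {s : ℝ} (hs0 : 0 < s) :
    ((univ.filter fun k => s < σ k).card : ℝ) * s ^ 2 ≤ hs A := by
  classical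
  have h1 : hs A = ∑ k, σ k ^ 2 := hs_A h
  rw [h1]
  calc ((univ.filter fun k => s < σ k).card : ℝ) * s ^ 2
      = ∑ _k ∈ univ.filter (fun k => s < σ k), s ^ 2 := by rw [Finset.sum_const, nsmul_eq_mul]
    _ ≤ ∑ k ∈ univ.filter (fun k => s < σ k), σ k ^ 2 := by
        refine Finset.sum_le_sum fun k hk => ?_
        have := (Finset.mem_filter.1 hk).2
        exact pow_le_pow_left₀ hs0.le this.le 2
    _ ≤ ∑ k, σ k ^ 2 := Finset.sum_le_sum_of_subset_of_nonneg (Finset.filter_subset _ _)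
        (fun _ _ _ => sq_nonneg _)

/-- columns of `chi A s` lie in the span of the hi left singular vectors -/
theorem chi_mem {A : m → n → ℂ} {X : n → n → ℂ} {σ : n → ℝ} (h : SVD A X σ) {s : ℝ} (hs0 : 0 ≤ s)
    (f : n → ℂ) : (fun x => ∑ y, chi A s x y * f y) ∈
      Submodule.span ℂ (Set.range fun k : {k // s < σ k} => AX A X k) := by
  classical
  have e : (fun x => ∑ y, chi A s x y * f y)
      = ∑ k : n, (((1 - cc σ s k : ℝ) : ℂ) * ∑ y, conj (X k y) * f y) • AX A X k := by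
    funext x
    rw [chi_eq h hs0]
    simp only [HiF881.Mul, Finset.sum_apply, Pi.smul_apply, smul_eq_mul, Finset.sum_mul,
      Finset.mul_sum]
    rw [Finset.sum_comm]
    exact Finset.sum_congr rfl fun k _ => Finset.sum_congr rfl fun y _ => by ring
  rw [e]
  refine Submodule.sum_mem _ fun k _ => ?_
  by_cases hk : s < σ k
  · exact Submodule.smul_mem _ _ (Submodule.subset_span ⟨⟨k, hk⟩, rfl⟩)
  · have : cc σ s k = 1 := by unfold cc; rw [if_neg hk]
    rw [this]; simp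

/-- nuclear against Hilbert-Schmidt: `⟨D, T⟩ ≤ τ √rank √hs` -/
theorem ip_le_rank {D T : m → n → ℂ} {X : n → n → ℂ} {σ : n → ℝ} (h : SVD D X σ) {τ : ℝ}
    (hτ : 0 ≤ τ) (hT : Op T τ) :
    ip D T ≤ τ * (Real.sqrt ((univ.filter fun k => σ k ≠ 0).card) * Real.sqrt (hs D)) := by
  classical
  have h0 : D = HiF881.Mul D X (fun _ => 1) := by
    funext x y; rw [Mul_one h]
  have h1 := ip_Mul_Op h (c := fun _ => 1) (fun _ => zero_le_one) hτ hT
  rw [← h0] at h1
  refine h1.trans ?_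
  have h2 : ∑ k, (1 : ℝ) * (σ k * τ) = τ * ∑ k, σ k := by
    rw [Finset.mul_sum]; exact Finset.sum_congr rfl fun k _ => by ring
  rw [h2]
  refine mul_le_mul_of_nonneg_left ?_ hτ
  have h3 : ∑ k, σ k = ∑ k ∈ univ.filter (fun k => σ k ≠ 0), 1 * σ k := by
    simp only [one_mul]
    rw [Finset.sum_filter_ne_zero]
  rw [h3]
  refine (Real.sum_mul_le_sqrt_mul_sqrt _ _ _).trans ?_
  have h4 : ∑ _k ∈ univ.filter (fun k => σ k ≠ 0), (1 : ℝ) ^ 2
      = ((univ.filter fun k => σ k ≠ 0).card : ℝ) := by simp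
  rw [h4]
  refine mul_le_mul_of_nonneg_left (Real.sqrt_le_sqrt ?_) (Real.sqrt_nonneg _)
  have h5 : hs D = ∑ k, σ k ^ 2 := hs_A h
  rw [h5]
  exact Finset.sum_le_sum_of_subset_of_nonneg (Finset.filter_subset _ _)
        (fun _ _ _ => sq_nonneg _)

/-- the real arithmetic of the rank perturbation lemma -/
theorem real_fin {H r τ s B : ℝ} (hD0 : 0 ≤ H) (hr0 : 0 ≤ r) (_hτ : 0 ≤ τ) (hs0 : 0 < s)
    (h7 : H ≤ τ * (Real.sqrt r * Real.sqrt H)) (h5 : r * s ^ 2 ≤ B) : H ≤ (τ / s) ^ 2 * B := by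
  have h8 : H ≤ τ ^ 2 * r := by
    rcases (Real.sqrt_nonneg H).eq_or_lt with h9 | h9
    · have : H = 0 := by rw [← Real.sq_sqrt hD0, ← h9]; ring
      rw [this]; positivity
    · have e1 : H = Real.sqrt H * Real.sqrt H := (Real.mul_self_sqrt hD0).symm
      have h10 : Real.sqrt H * Real.sqrt H ≤ (τ * Real.sqrt r) * Real.sqrt H := by
        rw [← e1]
        calc H ≤ _ := h7
          _ = _ := by ring
      have h11 : Real.sqrt H ≤ τ * Real.sqrt r := le_of_mul_le_mul_right h10 h9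
      calc H = Real.sqrt H ^ 2 := (Real.sq_sqrt hD0).symm
        _ ≤ (τ * Real.sqrt r) ^ 2 := pow_le_pow_left₀ h9.le h11 2
        _ = τ ^ 2 * r := by rw [mul_pow, Real.sq_sqrt hr0]
  have hs2 : s ≠ 0 := hs0.ne'
  calc H ≤ τ ^ 2 * r := h8
    _ = (τ / s) ^ 2 * (r * s ^ 2) := by field_simp
    _ ≤ (τ / s) ^ 2 * B := mul_le_mul_of_nonneg_left h5 (sq_nonneg _)

/-- `hs (χA - χA') ≤ ⟨χA - χA', A - A'⟩` -/
theorem hs_le_ip (A A' : m → n → ℂ) {s : ℝ} (hs0 : 0 ≤ s) :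
    hs (fun x y => chi A s x y - chi A' s x y)
      ≤ ip (fun x y => chi A s x y - chi A' s x y) (fun x y => A x y - A' x y) := by
  have h1 := clip_proj A hs0 (clip_op A' hs0)
  have h2 := clip_proj A' hs0 (clip_op A hs0)
  have e : (fun x y => A x y - A' x y)
      = fun x y => (chi A s x y - chi A' s x y) + (clip A s x y - clip A' s x y) := by
    funext x y; simp only [chi]; ring
  rw [e, ip_add_right, ip_self, ip_sub_left, ip_sub_right, ip_sub_right]
  linarith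

/-- rank of the difference of two residuals -/
theorem card_diff_le {A A' : m → n → ℂ} {X X' : n → n → ℂ} {σ σ' : n → ℝ} (h : SVD A X σ)
    (h' : SVD A' X' σ') {s : ℝ} (hs0 : 0 < s) {D : m → n → ℂ} {Y : n → n → ℂ} {ρ : n → ℝ}
    (hY : SVD D Y ρ) (hD : ∀ x y, D x y = chi A s x y - chi A' s x y) :
    ((univ.filter fun k => ρ k ≠ 0).card : ℝ) * s ^ 2 ≤ hs A + hs A' := by
  classical
  have h4 : (univ.filter fun k => ρ k ≠ 0).card
      ≤ Fintype.card ({k // s < σ k} ⊕ {k // s < σ' k}) := by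
    refine card_sv_le hY (Sum.elim (fun k : {k // s < σ k} => AX A X k)
      (fun k : {k // s < σ' k} => AX A' X' k)) fun f => ?_
    have e : (fun x => ∑ y, D x y * f y)
        = (fun x => ∑ y, chi A s x y * f y) - fun x => ∑ y, chi A' s x y * f y := by
      funext x
      rw [Pi.sub_apply, ← Finset.sum_sub_distrib]
      exact Finset.sum_congr rfl fun y _ => by rw [hD]; ring
    rw [e]
    refine Submodule.sub_mem _ ?_ ?_
    · refine Submodule.span_mono ?_ (chi_mem h hs0.le f)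
      rintro _ ⟨k, rfl⟩
      exact ⟨Sum.inl k, rfl⟩
    · refine Submodule.span_mono ?_ (chi_mem h' hs0.le f)
      rintro _ ⟨k, rfl⟩
      exact ⟨Sum.inr k, rfl⟩
  have h6 : ((univ.filter fun k => ρ k ≠ 0).card : ℝ)
      ≤ ((univ.filter fun k => s < σ k).card : ℝ) + ((univ.filter fun k => s < σ' k).card : ℝ) := by
    rw [Fintype.card_sum, Fintype.card_subtype, Fintype.card_subtype] at h4
    exact_mod_cast h4
  have h7 := card_hi_le h hs0
  have h8 := card_hi_le h' hs0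
  have h9 : 0 ≤ s ^ 2 := sq_nonneg _
  nlinarith

/-- **rank perturbation lemma** -/
theorem rank_pert (A A' : m → n → ℂ) {s τ : ℝ} (hs0 : 0 < s) (hτ : 0 ≤ τ)
    (hT : Op (fun x y => A x y - A' x y) τ) :
    hs (fun x y => chi A s x y - chi A' s x y) ≤ (τ / s) ^ 2 * (hs A + hs A') := by
  classical
  obtain ⟨X, σ, h⟩ := exists_SVD A
  obtain ⟨X', σ', h'⟩ := exists_SVD A'
  obtain ⟨Y, ρ, hY⟩ := exists_SVD (fun x y => chi A s x y - chi A' s x y)
  have h3 := (hs_le_ip A A' hs0.le).trans (ip_le_rank hY hτ hT)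
  have h5 := card_diff_le h h' hs0 hY (fun _ _ => rfl)
  exact real_fin (hs_nonneg _) (Nat.cast_nonneg _) hτ hs0 h3 h5

end mat

/-- **rank perturbation on a rectangle** -/
theorem rank_pert_cell (A A' : ℤ → ℤ → ℂ) {S S' : Finset ℤ} {s τ : ℝ} (hs0 : 0 < s) (hτ : 0 ≤ τ)
    (hT : OpS S S' (fun x y => A x y - A' x y) τ) :
    ∑ x ∈ S, ∑ y ∈ S', ‖(A x y - cl A S S' s x y) - (A' x y - cl A' S S' s x y)‖ ^ 2
      ≤ (τ / s) ^ 2 * (∑ x ∈ S, ∑ y ∈ S', ‖A x y‖ ^ 2 + ∑ x ∈ S, ∑ y ∈ S', ‖A' x y‖ ^ 2) := by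
  have hO := op_of hT
  have h := rank_pert (fun (x : {x // x ∈ S}) (y : {y // y ∈ S'}) => A x y)
    (fun (x : {x // x ∈ S}) (y : {y // y ∈ S'}) => A' x y) hs0 hτ hO
  have h1 := hs_sum S S' A
  have h2 := hs_sum S S' A'
  have h3 := hs_sum S S' (fun x y => (A x y - cl A S S' s x y) - (A' x y - cl A' S S' s x y))
  have h4 : (fun (x : {x // x ∈ S}) (y : {y // y ∈ S'}) =>
      (A x y - cl A S S' s x y) - (A' x y - cl A' S S' s x y))
      = fun x y => chi (fun (x : {x // x ∈ S}) (y : {y // y ∈ S'}) => A x y) s x y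
        - chi (fun (x : {x // x ∈ S}) (y : {y // y ∈ S'}) => A' x y) s x y := by
    funext x y
    rw [cl_mem, cl_mem, chi, chi]
  rw [h4] at h3
  rw [h1, h2, h3] at h
  exact h

/-- bilinear form of the sum of a finite family of kernels carried by rectangles: operator norm by
the total side of the rectangles met by a row and by a column -/
theorem opS_cells {ι : Type*} (I : Finset ι) (R C : ι → Finset ℤ) (B : ι → ℤ → ℤ → ℂ) (len : ι → ℝ)
    {r L : ℝ} (hr : 0 ≤ r) (hL : 0 ≤ L) (hlen : ∀ c ∈ I, 0 ≤ len c)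
    (hop : ∀ c ∈ I, OpS (R c) (C c) (B c) (r * len c)) {S S' : Finset ℤ}
    (hR : ∀ c ∈ I, R c ⊆ S) (hC : ∀ c ∈ I, C c ⊆ S')
    (hrow : ∀ x ∈ S, ∑ c ∈ I.filter (fun c => x ∈ R c), len c ≤ L)
    (hcol : ∀ y ∈ S', ∑ c ∈ I.filter (fun c => y ∈ C c), len c ≤ L) :
    OpS S S' (fun x y => ∑ c ∈ I.filter (fun c => x ∈ R c ∧ y ∈ C c), B c x y) (r * L) := by
  classical
  refine PjC881.opS_of_bil (by positivity) fun ξ ζ => ?_
  have e : ∑ u ∈ S, ∑ v ∈ S', (∑ c ∈ I.filter (fun c => u ∈ R c ∧ v ∈ C c), B c u v) * (ξ u * ζ v)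
      = ∑ c ∈ I, ∑ u ∈ R c, ∑ v ∈ C c, B c u v * (ξ u * ζ v) := by
    have h1 : ∀ u v, (∑ c ∈ I.filter (fun c => u ∈ R c ∧ v ∈ C c), B c u v) * (ξ u * ζ v)
        = ∑ c ∈ I, if u ∈ R c ∧ v ∈ C c then B c u v * (ξ u * ζ v) else 0 := by
      intro u v
      rw [Finset.sum_mul, Finset.sum_filter]
    simp only [h1]
    have h2 : ∀ u, ∑ v ∈ S', ∑ c ∈ I, (if u ∈ R c ∧ v ∈ C c then B c u v * (ξ u * ζ v) else 0)
        = ∑ c ∈ I, ∑ v ∈ S', (if u ∈ R c ∧ v ∈ C c then B c u v * (ξ u * ζ v) else 0) :=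
      fun u => Finset.sum_comm
    simp only [h2]
    rw [Finset.sum_comm]
    refine Finset.sum_congr rfl fun c hc => ?_
    have h3 : ∀ u, ∑ v ∈ S', (if u ∈ R c ∧ v ∈ C c then B c u v * (ξ u * ζ v) else 0)
        = if u ∈ R c then ∑ v ∈ C c, B c u v * (ξ u * ζ v) else 0 := by
      intro u
      by_cases hu : u ∈ R c
      · simp only [hu, true_and, if_true]
        rw [← Finset.sum_filter]
        congr 1
        ext v
        simp only [Finset.mem_filter]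
        exact ⟨fun h => h.2, fun h => ⟨hC c hc h, h⟩⟩
      · simp [hu]
    simp only [h3]
    rw [← Finset.sum_filter]
    congr 1
    ext u
    simp only [Finset.mem_filter]
    exact ⟨fun h => h.2, fun h => ⟨hR c hc h, h⟩⟩
  rw [e]
  have h1 : ∀ c ∈ I, ‖∑ u ∈ R c, ∑ v ∈ C c, B c u v * (ξ u * ζ v)‖
      ≤ r * (Real.sqrt (len c * ∑ u ∈ R c, ‖ξ u‖ ^ 2) * Real.sqrt (len c * ∑ v ∈ C c, ‖ζ v‖ ^ 2)) := by
    intro c hc
    have hl := hlen c hc
    refine (PjC881.bil_of_opS (mul_nonneg hr hl) (hop c hc) ξ ζ).trans (le_of_eq ?_)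
    rw [Real.sqrt_mul hl, Real.sqrt_mul hl]
    have := Real.mul_self_sqrt hl
    calc r * len c * (Real.sqrt (∑ u ∈ R c, ‖ξ u‖ ^ 2) * Real.sqrt (∑ v ∈ C c, ‖ζ v‖ ^ 2))
        = r * (Real.sqrt (len c) * Real.sqrt (len c))
            * (Real.sqrt (∑ u ∈ R c, ‖ξ u‖ ^ 2) * Real.sqrt (∑ v ∈ C c, ‖ζ v‖ ^ 2)) := by rw [this]
      _ = _ := by ring
  refine (norm_sum_le _ _).trans ((Finset.sum_le_sum h1).trans ?_)
  rw [← Finset.mul_sum, mul_assoc]
  refine mul_le_mul_of_nonneg_left ?_ hr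
  refine (Finset.sum_le_sum fun c _ => le_rfl).trans ((Real.sum_mul_le_sqrt_mul_sqrt _ _ _).trans ?_)
  have hs1 : ∀ c ∈ I, Real.sqrt (len c * ∑ u ∈ R c, ‖ξ u‖ ^ 2) ^ 2 = len c * ∑ u ∈ R c, ‖ξ u‖ ^ 2 :=
    fun c hc => Real.sq_sqrt (mul_nonneg (hlen c hc) (Finset.sum_nonneg fun _ _ => sq_nonneg _))
  have hs2 : ∀ c ∈ I, Real.sqrt (len c * ∑ v ∈ C c, ‖ζ v‖ ^ 2) ^ 2 = len c * ∑ v ∈ C c, ‖ζ v‖ ^ 2 :=
    fun c hc => Real.sq_sqrt (mul_nonneg (hlen c hc) (Finset.sum_nonneg fun _ _ => sq_nonneg _))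
  rw [Finset.sum_congr rfl hs1, Finset.sum_congr rfl hs2]
  have key : ∀ (Q : ι → Finset ℤ) (U : Finset ℤ) (ψ : ℤ → ℂ), (∀ c ∈ I, Q c ⊆ U) →
      (∀ x ∈ U, ∑ c ∈ I.filter (fun c => x ∈ Q c), len c ≤ L) →
      ∑ c ∈ I, len c * ∑ u ∈ Q c, ‖ψ u‖ ^ 2 ≤ L * ∑ u ∈ U, ‖ψ u‖ ^ 2 := by
    intro Q U ψ hQ hq
    have e1 : ∑ c ∈ I, len c * ∑ u ∈ Q c, ‖ψ u‖ ^ 2
        = ∑ u ∈ U, (∑ c ∈ I.filter (fun c => u ∈ Q c), len c) * ‖ψ u‖ ^ 2 := by
      have e2 : ∀ c ∈ I, len c * ∑ u ∈ Q c, ‖ψ u‖ ^ 2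
          = ∑ u ∈ U, if u ∈ Q c then len c * ‖ψ u‖ ^ 2 else 0 := by
        intro c hc
        rw [← Finset.sum_filter, Finset.mul_sum]
        congr 1
        ext u
        simp only [Finset.mem_filter]
        exact ⟨fun h => ⟨hQ c hc h, h⟩, fun h => h.2⟩
      rw [Finset.sum_congr rfl e2, Finset.sum_comm]
      refine Finset.sum_congr rfl fun u _ => ?_
      rw [← Finset.sum_filter, Finset.sum_mul]
    rw [e1, Finset.mul_sum]
    exact Finset.sum_le_sum fun u hu => mul_le_mul_of_nonneg_right (hq u hu) (sq_nonneg _)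
  calc Real.sqrt (∑ c ∈ I, len c * ∑ u ∈ R c, ‖ξ u‖ ^ 2)
        * Real.sqrt (∑ c ∈ I, len c * ∑ v ∈ C c, ‖ζ v‖ ^ 2)
      ≤ Real.sqrt (L * ∑ u ∈ S, ‖ξ u‖ ^ 2) * Real.sqrt (L * ∑ v ∈ S', ‖ζ v‖ ^ 2) :=
        mul_le_mul (Real.sqrt_le_sqrt (key R S ξ hR hrow)) (Real.sqrt_le_sqrt (key C S' ζ hC hcol))
          (Real.sqrt_nonneg _) (Real.sqrt_nonneg _)
    _ = L * (Real.sqrt (∑ u ∈ S, ‖ξ u‖ ^ 2) * Real.sqrt (∑ v ∈ S', ‖ζ v‖ ^ 2)) := by
        rw [Real.sqrt_mul hL, Real.sqrt_mul hL]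
        have := Real.mul_self_sqrt hL
        calc _ = (Real.sqrt L * Real.sqrt L)
            * (Real.sqrt (∑ u ∈ S, ‖ξ u‖ ^ 2) * Real.sqrt (∑ v ∈ S', ‖ζ v‖ ^ 2)) := by ring
          _ = _ := by rw [this]

end Crest.Agent.R079.RkPx608
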