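import Crest.Agent.R079.RuS3_256

/-! R079, RuleS assembly, leaf S9 part 4 (helper256): dictionary-free static rule `static_core`, then
`BadN360.CoreG`, `TRec.RuleS` and the hypothesis `hS` of `Par4_734` for every dictionary with (B) `HB`
(elements are mixtures of polynomial mass of bounded atoms) and (O) `OpLevel`. -/

set_option autoImplicit false
set_option linter.unusedVariables false

namespace Crest.Agent.R079.RuS256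

open Finset Crest.Agent.R079.Grid Crest.Agent.R079.Growth Crest.Agent.R079.QRed
  Crest.Agent.R079.Glue Crest.Agent.R079.TRec Crest.Agent.R079.TWin Crest.Agent.R079.Ero526
  Crest.Agent.R079.OpLev Crest.Agent.R079.S2D530 Crest.Agent.R079.Cg408 Crest.Agent.R079.BadN360
  Crest.Agent.R079.BAt112

/-- height exponent of `G` -/
noncomputable def eG (q3 C gm s1 : ℝ) : ℝ := 2 * (2 * C + gS q3 gm s1) / (q3 - 2)

/-- exponent of `σ` -/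
noncomputable def eb (q3 C gm s1 : ℝ) : ℝ := eG q3 C gm s1 + 20 * (2 * C + gS q3 gm s1)

/-- exponent of the number of windows -/
noncomputable def eC (q3 C gm s1 : ℝ) : ℝ := 7 * eb q3 C gm s1 + 8 * C + 4 * gS q3 gm s1

theorem eG_nonneg {q3 C gm s1 : ℝ} (hq3 : 2 < q3) (hC : 0 ≤ C) (hgm : 0 < gm) (hs1 : 0 < s1) :
    0 ≤ eG q3 C gm s1 := by
  have := gS_pos hq3 hgm hs1
  have : 0 < q3 - 2 := by linarith
  unfold eG; positivity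

theorem eb_pos {q3 C gm s1 : ℝ} (hq3 : 2 < q3) (hC : 0 ≤ C) (hgm : 0 < gm) (hs1 : 0 < s1) :
    0 < eb q3 C gm s1 := by
  have := gS_pos hq3 hgm hs1
  have := eG_nonneg hq3 hC hgm hs1
  unfold eb; positivity

theorem eC_nonneg {q3 C gm s1 : ℝ} (hq3 : 2 < q3) (hC : 0 ≤ C) (hgm : 0 < gm) (hs1 : 0 < s1) :
    0 ≤ eC q3 C gm s1 := by
  have := gS_pos hq3 hgm hs1
  have := eb_pos hq3 hC hgm hs1
  unfold eC; positivity

open Classical in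
/-- **THE STATIC RULE, dictionary-free** (`P` = one bounded atom of mass `(A+1) t^(-2C)` on `iv I`) -/
theorem static_core {q3 C gm s1 : ℝ} (hq3 : 2 < q3) (hC : 0 ≤ C) (hgm : 0 < gm) (hs1 : 0 < s1)
    {k A A2 : ℝ} (hk : 0 < k) (hA : 0 ≤ A) (hA2 : 0 ≤ A2) {κ0 : ℕ} (hκ0 : 13 ≤ κ0) :
    ∃ t0 K : ℝ, 0 < t0 ∧ t0 ≤ 1 ∧ 0 ≤ K ∧ ∀ t, 0 < t → t ≤ t0 → ∀ (W : Finset Nd) (I : Nd),
      Full W I → ∀ m : Fin 4, m ≠ 3 → ∀ P G X E : Fn, (∀ p ∈ W, aq (2 + k) p P ≤ 1) →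
      (∀ p ∈ W, aq q3 p G ≤ 1) → (∀ y, ‖G y‖ ≤ t ^ (-eG q3 C gm s1)) →
      (∃ κ : ℝ, 0 < κ ∧ ∃ f : Fn, BA m κ ((A + 1) * t ^ (-(2 * C))) f ∧ ∀ y ∈ iv I, P y = f y) →
      (∀ y ∈ iv I, P y = X y + E y) →
      (∀ p ∈ W, av p X ≤ 2 → OLev κ0 m p X (A2 * t ^ gm)) → (∀ p ∈ W, av p E ≤ t ^ s1) →
      ∃ (S : Finset Nd) (V : Nd → Finset Nd), Part W S V (K * t ^ (-eC q3 C gm s1)) ∧
        ∀ K' ∈ S, ∀ W' J, Full W' J → W' ⊆ V K' → ∀ F : Fin 4 → Fn, F m = P → F 3 = G →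
          (∀ j, j ≠ m → j ≠ 3 → ∀ p ∈ W', aq (2 + k) p (F j) ≤ 1) →
          ∀ bb : ℤ, (bb = -1 ∨ bb = -7) →
          ∃ Ka Kb : ℤ → ℤ → ℂ, (∀ T A, ∏ j, S2D530.rs J F j (A - sl j * T) = Ka T A + Kb T A) ∧
            ∑ p ∈ W'.filter (fun p => ¬ Bad W' 7 p), ∑ x ∈ adm p.1 p.2,
              ‖Cg408.LboxG (2 ^ p.1) bb Ka x‖ ≤ K * t ^ gS q3 gm s1 * len J ∧
            ∑ p ∈ W'.filter (fun p => ¬ Bad W' 7 p), ∑ x ∈ adm p.1 p.2,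
              ‖Cg408.LboxG (2 ^ p.1) bb Kb x‖ ≤ K * t ^ gS q3 gm s1 * len J := by
  obtain ⟨K1, hK1, hreg⟩ := region_core
  set c : ℝ := gS q3 gm s1 with hc
  set b : ℝ := eb q3 C gm s1 with hb
  have hc0 : 0 < c := gS_pos hq3 hgm hs1
  have hG0 : 0 ≤ eG q3 C gm s1 := eG_nonneg hq3 hC hgm hs1
  have hb0 : 0 < b := eb_pos hq3 hC hgm hs1
  set Q0 : ℝ := 2 ^ 54 * A2 + 2 ^ 20 + 2 ^ 18 + 2 ^ 31 * (A + 1) ^ 2 + (A + 1) with hQ0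
  have hQ00 : 0 ≤ Q0 := by
    have h1 : (0 : ℝ) ≤ 2 ^ 54 * A2 := mul_nonneg (by norm_num) hA2
    have h2 : (0 : ℝ) ≤ 2 ^ 31 * (A + 1) ^ 2 := mul_nonneg (by norm_num) (sq_nonneg _)
    rw [hQ0]; linarith
  set K : ℝ := K1 * √Q0 + K1 * (1 + 1 / k) * (A + 1) + (7 + 120 * (A + 1) ^ 2) * 19 with hK
  have hK0 : 0 ≤ K := by positivity
  refine ⟨min 1 ((1 / 2 ^ 60 : ℝ) ^ (1 / b)), K, lt_min one_pos (Real.rpow_pos_of_pos (by norm_num) _),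
    min_le_left _ _, hK0, ?_⟩
  intro t ht htt W I hW m hm P G X E haP haG hG hat hPX hO hE
  have ht1 : t ≤ 1 := htt.trans (min_le_left _ _)
  have hσs : t ^ b ≤ 1 / 2 ^ 60 := by
    have h1 : t ≤ (1 / 2 ^ 60 : ℝ) ^ (1 / b) := htt.trans (min_le_right _ _)
    calc t ^ b ≤ ((1 / 2 ^ 60 : ℝ) ^ (1 / b)) ^ b := Real.rpow_le_rpow ht.le h1 hb0.le
      _ = 1 / 2 ^ 60 := by
          rw [← Real.rpow_mul (by norm_num), one_div_mul_cancel hb0.ne', Real.rpow_one]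
  obtain ⟨κ, hκ, f, hf, hPf⟩ := hat
  obtain ⟨T, a, b', c', hBA⟩ := hf
  set M : ℝ := (A + 1) * t ^ (-(2 * C)) with hM
  have htC : 0 < t ^ (-(2 * C)) := Real.rpow_pos_of_pos ht _
  have hM0 : 0 < M := by positivity
  have hσ : 0 < t ^ b := Real.rpow_pos_of_pos ht _
  have hθ : 0 < t ^ (b + 2 * C + 2 * c) := Real.rpow_pos_of_pos ht _
  have hGσ : ∀ y, ‖G y‖ ≤ 1 / t ^ b := by
    intro y
    refine (hG y).trans ?_
    rw [one_div, ← Real.rpow_neg ht.le]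
    refine Real.rpow_le_rpow_of_exponent_ge ht ht1 ?_
    rw [hb]; unfold eb
    nlinarith
  obtain ⟨S, V, hPt, hS⟩ := hreg m hm k q3 κ M (t ^ b) (t ^ (b + 2 * C + 2 * c)) (A2 * t ^ gm)
    (t ^ s1) (t ^ (-(gm / 4))) hk hq3 hσ hσs hθ (mul_nonneg hA2 (Real.rpow_nonneg ht.le _))
    (Real.rpow_le_one ht.le ht1 hs1.le) (Real.rpow_pos_of_pos ht _) T ![a, b', c']
    { k0 := hκ, M0 := hM0, g0 := hBA.ha, g1 := hBA.hb, g2 := hBA.hc, n0 := hBA.na, n1 := hBA.nb,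
      n2 := hBA.nc } κ0 hκ0 P G X E W I hW
    (fun y hy => by rw [hPf y hy, hBA.eq y]; rfl) hGσ hPX haP haG hE hO
  have htS : 0 < t ^ (-eC q3 C gm s1) := Real.rpow_pos_of_pos ht _
  refine ⟨S, V, WinA222.part_mono hPt ?_, ?_⟩
  · have h1 := num_cnt (C := C) (A := A) (b := b) (t := t) (c := c) hA hC hb0.le hc0.le ht ht1
    have e : -(7 * b + 8 * C + 4 * c) = -eC q3 C gm s1 := by unfold eC; rw [← hb, ← hc]
    rw [e] at h1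
    refine h1.trans (mul_le_mul_of_nonneg_right ?_ htS.le)
    have h2 : 0 ≤ K1 * √Q0 := mul_nonneg hK1 (Real.sqrt_nonneg _)
    have h3 : 0 ≤ K1 * (1 + 1 / k) * (A + 1) := by positivity
    rw [hK]; linarith
  · intro K' hK' W' J hW' hsub F hFm hF3 hF bb hbb
    obtain ⟨Ka, Kb, h1, h2, h3⟩ := hS K' hK' W' J hW' hsub F hFm hF3 hF bb hbb
    have hl := Growth.len_pos J
    have htc : 0 < t ^ c := Real.rpow_pos_of_pos ht _
    refine ⟨Ka, Kb, h1, h2.trans ?_, h3.trans ?_⟩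
    · refine mul_le_mul_of_nonneg_right ?_ hl.le
      have h4 := num_Q (q3 := q3) (C := C) (gm := gm) (s1 := s1) (A := A) (A2 := A2) (b := b)
        (t := t) (c := c) hq3 hA hA2 (gS_1 _ _ _) (gS_2 _ _ _) (gS_3 _ _ _)
        (by rw [hb]; unfold eb; rw [← hc]; nlinarith) ht ht1
      have h5 : √(Qm q3 M (t ^ b) (t ^ (b + 2 * C + 2 * c)) (A2 * t ^ gm) (t ^ s1)
          (t ^ (-(gm / 4)))) ≤ √Q0 * t ^ c := by
        refine (Real.sqrt_le_sqrt h4).trans (le_of_eq ?_)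
        rw [Real.sqrt_mul hQ00]
        congr 1
        have : t ^ (2 * c) = (t ^ c) ^ 2 := by
          rw [← Real.rpow_natCast, ← Real.rpow_mul ht.le]
          congr 1
          push_cast
          ring
        rw [this, Real.sqrt_sq htc.le]
      calc K1 * √(Qm q3 M (t ^ b) (t ^ (b + 2 * C + 2 * c)) (A2 * t ^ gm) (t ^ s1)
          (t ^ (-(gm / 4)))) ≤ K1 * (√Q0 * t ^ c) := mul_le_mul_of_nonneg_left h5 hK1
        _ = K1 * √Q0 * t ^ c := by ring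
        _ ≤ K * t ^ c := by
            refine mul_le_mul_of_nonneg_right ?_ htc.le
            have h3 : 0 ≤ K1 * (1 + 1 / k) * (A + 1) := by positivity
            have h6 : 0 ≤ (7 + 120 * (A + 1) ^ 2) * 19 := by positivity
            rw [hK]; linarith
    · refine mul_le_mul_of_nonneg_right ?_ hl.le
      have h4 := num_K (C := C) (A := A) (b := b) (t := t) (c := c) hA
        (by rw [hb]; unfold eb; rw [← hc]; nlinarith) ht ht1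
      calc K1 * (1 + 1 / k) * (t ^ b) ^ (1 / 20 : ℝ) * M
          = K1 * (1 + 1 / k) * ((t ^ b) ^ (1 / 20 : ℝ) * ((A + 1) * t ^ (-(2 * C)))) := by
            rw [hM]; ring
        _ ≤ K1 * (1 + 1 / k) * ((A + 1) * t ^ c) :=
            mul_le_mul_of_nonneg_left h4 (by positivity)
        _ = K1 * (1 + 1 / k) * (A + 1) * t ^ c := by ring
        _ ≤ K * t ^ c := by
            refine mul_le_mul_of_nonneg_right ?_ htc.le
            have h2 : 0 ≤ K1 * √Q0 := mul_nonneg hK1 (Real.sqrt_nonneg _)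
            have h6 : 0 ≤ (7 + 120 * (A + 1) ^ 2) * 19 := by positivity
            rw [hK]; linarith

/-! ### dictionaries of `TRec` -/

theorem polyRep_of_HB {D : Dict} {A C : ℝ} (hA : 0 ≤ A) (hB : HB D A C) : PolyRep D A C := by
  intro m hm t ht ht1 I P h
  have h1 := (repB_of_fz hA hB hm ht ht1 zero_le_one h).rep
  rwa [one_mul] at h1

/-- a frozen letter of mass `1` at `t^(1+e)` is one bounded atom of energy `(A+1) t^(-2C)` -/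
theorem atom_of_fz {D : Dict} {A C e t : ℝ} (hA : 0 ≤ A) (hC : 0 ≤ C) (he0 : 0 ≤ e) (he : e ≤ 1)
    (hB : HB D A C) (ht : 0 < t) (ht1 : t ≤ 1) {m : Fin 4} (hm : m ≠ 3) {I : Nd} {P : Fn}
    (h : Fz D m (t ^ (1 + e)) 1 I P) :
    ∃ κ : ℝ, 0 < κ ∧ ∃ f : Fn, BA m κ ((A + 1) * t ^ (-(2 * C))) f ∧ ∀ y ∈ iv I, P y = f y := by
  have h1 : 0 < t ^ (1 + e) := Real.rpow_pos_of_pos ht _
  have h2 : t ^ (1 + e) ≤ 1 := Real.rpow_le_one ht.le ht1 (by linarith)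
  obtain ⟨κ, hκ, -, f, hf, hPf⟩ := fz_atom hA hB hm h1 h2 zero_le_one h
  refine ⟨κ, hκ, f, hf.mono ?_, hPf⟩
  have e1 : (t ^ (1 + e)) ^ (-C) ≤ t ^ (-(2 * C)) := by
    rw [← Real.rpow_mul ht.le]
    exact Real.rpow_le_rpow_of_exponent_ge ht ht1 (by nlinarith)
  have e2 : 1 ≤ t ^ (-(2 * C)) := one_le_neg ht ht1 (by positivity)
  have e3 := mul_le_mul_of_nonneg_left e1 hA
  rw [one_mul]
  linarith

theorem coreG_mono {D : Dict} {k q3 cS CS s1 e t0 t0' K CG : ℝ} {C : ℕ}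
    (h : CoreG D k q3 cS CS s1 e t0 K CG C) (ht : t0' ≤ t0) :
    CoreG D k q3 cS CS s1 e t0' K CG C := fun N B hB hBN t h1 h2 =>
  h N B hB hBN t h1 (h2.trans ht)

/-- **`CoreG` from (B) and (O)** -/
theorem coreG_of {q3 C gm s1 : ℝ} (hq3 : 2 < q3) (hC : 0 ≤ C) (hgm : 0 < gm) (hs1 : 0 < s1)
    {k A A2 t1 : ℝ} (hk : 0 < k) (hA : 0 ≤ A) (hA2 : 0 ≤ A2) (ht1 : 0 < t1) {κ0 : ℕ}
    (hκ0 : 13 ≤ κ0) {e : ℝ} (he0 : 0 ≤ e) (he : e ≤ 1) {D : Dict} (hB : HB D A C)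
    (hO : OpLevel D κ0 A2 gm t1) :
    ∃ t0 K : ℝ, 0 < t0 ∧ t0 ≤ 1 ∧ t0 ≤ t1 ∧ 0 ≤ K ∧
      CoreG D k q3 (gS q3 gm s1) (eC q3 C gm s1) s1 e t0 K (eG q3 C gm s1) 7 := by
  obtain ⟨t0, K, h0, h01, hK, hst⟩ := static_core hq3 hC hgm hs1 hk hA hA2 hκ0
  refine ⟨min t0 t1, K, lt_min h0 ht1, (min_le_left _ _).trans h01, min_le_right _ _, hK, ?_⟩
  intro N B hB0 hBN t ht htt bb W I hW hI m hm P G X E h1 h2 h3 h4 h5 h6 h7
  have htt0 : t ≤ t0 := htt.trans (min_le_left _ _)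
  have htt1 : t ≤ t1 := htt.trans (min_le_right _ _)
  obtain ⟨S, V, hP, hS⟩ := hst t ht htt0 W I hW m hm P G X E h1 h2 h3
    (atom_of_fz hA hC he0 he hB ht (htt0.trans h01) hm h4) h5
    (fun p hp hX => hO m hm t ht htt1 p X (h6 p hp) hX) h7
  refine ⟨S, V, hP, ?_⟩
  intro K' hK' W' J hW' hsub F hFm hF3 hF hbb
  obtain ⟨Ka, Kb, g1, g2, g3⟩ := hS K' hK' W' J hW' hsub F hFm hF3 hF bb hbb
  have hle : K * t ^ gS q3 gm s1 * len J ≤ K * (1 + B) * t ^ gS q3 gm s1 * len J := by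
    have hl := Growth.len_pos J
    have : 0 ≤ K * t ^ gS q3 gm s1 * len J := by
      have := Real.rpow_nonneg ht.le (gS q3 gm s1)
      positivity
    have e1 : K * (1 + B) * t ^ gS q3 gm s1 * len J =
        K * t ^ gS q3 gm s1 * len J + B * (K * t ^ gS q3 gm s1 * len J) := by ring
    rw [e1]
    nlinarith [mul_nonneg hB0 this]
  exact ⟨Ka, Kb, g1, g2.trans hle, g3.trans hle⟩

/-- **RULE (S)** for every dictionary with (B) and (O); `cS`, `CS` depend only on `q3, C, gm, s1` -/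
theorem ruleS_of {q3 C gm s1 : ℝ} (hq3 : 2 < q3) (hC : 0 ≤ C) (hgm : 0 < gm) (hs1 : 0 < s1)
    {k A A2 t1 : ℝ} (hk : 0 < k) (hA : 0 ≤ A) (hA2 : 0 ≤ A2) (ht1 : 0 < t1) {κ0 : ℕ}
    (hκ0 : 13 ≤ κ0) {e : ℝ} (he0 : 0 ≤ e) (he : e ≤ 1) {D : Dict} (hB : HB D A C)
    (hO : OpLevel D κ0 A2 gm t1) :
    ∃ t0 K : ℝ, 0 < t0 ∧ t0 ≤ 1 ∧ 0 ≤ K ∧ RuleS D k q3 (gS q3 gm s1) (eC q3 C gm s1) s1 e t0 K := by
  obtain ⟨t0, K, h0, h01, h1, hK, hc⟩ := coreG_of hq3 hC hgm hs1 hk hA hA2 ht1 hκ0 he0 he hB hO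
  have hq : 0 < q3 - 2 := by linarith
  obtain ⟨K1, hK1, hR⟩ := ruleS_of_good hk.le hq3 he0 he hs1.le h01 hK (eC_nonneg hq3 hC hgm hs1)
    (eG_nonneg hq3 hC hgm hs1) hA hC hA2 (polyRep_of_HB hA hB)
    (fun m hm t ht htt => hO m hm t ht (htt.trans h1))
    (by unfold eG; rw [div_mul_div_comm, mul_comm (q3 - 2) 2, ← div_mul_div_comm,
          mul_div_assoc, div_self hq.ne']
        linarith)
    (gS_1 _ _ _) (gS_2 _ _ _) (gS_3 _ _ _) hc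
  exact ⟨t0, K1, h0, h01, hK1, hR⟩

/-- **HYPOTHESIS `hS` OF `Par4_734.analytic4_of`** (constants of (B), (O) may depend on `e`; `A`, `A2`,
`t1` also on `k`) -/
theorem hS_of {q3 : ℝ} (hq3 : 2 < q3) (D : ℝ → ℝ → Dict)
    (hBO : ∃ e2 : ℝ, 0 < e2 ∧ ∀ e, 0 < e → e ≤ e2 → ∃ C gm k2 : ℝ, 0 ≤ C ∧ 0 < gm ∧ 0 < k2 ∧
      ∀ k, 0 < k → k ≤ k2 → ∃ (A A2 t1 : ℝ) (κ0 : ℕ), 0 ≤ A ∧ 0 ≤ A2 ∧ 0 < t1 ∧ 13 ≤ κ0 ∧
        HB (D e k) A C ∧ OpLevel (D e k) κ0 A2 gm t1) :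
    ∃ e2 : ℝ, 0 < e2 ∧ ∀ e, 0 < e → e ≤ e2 → ∀ s1, 0 < s1 → ∃ cS CS k2 : ℝ,
      0 < cS ∧ 0 ≤ CS ∧ 0 < k2 ∧ ∀ k, 0 < k → k ≤ k2 →
        ∃ t0 K : ℝ, 0 < t0 ∧ 0 ≤ K ∧ RuleS (D e k) k q3 cS CS s1 e t0 K := by
  obtain ⟨e2, he2, h⟩ := hBO
  refine ⟨min 1 e2, lt_min one_pos he2, fun e he hee s1 hs1 => ?_⟩
  obtain ⟨C, gm, k2, hC, hgm, hk2, hk⟩ := h e he (hee.trans (min_le_right _ _))
  refine ⟨gS q3 gm s1, eC q3 C gm s1, k2, gS_pos hq3 hgm hs1, eC_nonneg hq3 hC hgm hs1, hk2,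
    fun k hk0 hkk => ?_⟩
  obtain ⟨A, A2, t1, κ0, hA, hA2, ht1, hκ0, hB, hO⟩ := hk k hk0 hkk
  obtain ⟨t0, K, h0, -, hK, hR⟩ := ruleS_of hq3 hC hgm hs1 hk0 hA hA2 ht1 hκ0 he.le
    (hee.trans (min_le_left _ _)) hB hO
  exact ⟨t0, K, h0, hK, hR⟩

end Crest.Agent.R079.RuS256
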