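import Crest.Agent.R079.WB_112
import Crest.Agent.R079.OpS_276
import Crest.Agent.R079.CellH2_37

/-! R079 (helper112): **THE CONCRETE COST DICTIONARY** (`TRecN.Dict`): bounded atoms at price
`t^(θ γ j)`, op-atoms with `L¹` weight (helper276) at price `t^(θ g j)`, cells (helper37), point
masses.  `DF P` for a parameter structure `P : Prm`; **`dic_DF`, `frzBd_DF`, `repB_DF`, `lvB_DF`
(bounded atoms), `lvS_DF` (276), `lvC_DF` (37), `olev_DF`**. -/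

set_option autoImplicit false
set_option linter.unusedVariables false

namespace Crest.Agent.R079.WS112

open Finset Crest.Agent.R079.Grid Crest.Agent.R079.Glue Crest.Agent.R079.Growth
  Crest.Agent.R079.QRed Crest.Agent.R079.BAt112 Crest.Agent.R079.TFrz679
  Crest.Agent.R079.DicB112 Crest.Agent.R079.WA112 Crest.Agent.R079.WB112
  Crest.Agent.R079.OLevSw Crest.Agent.R079.OpS276 Crest.Agent.R079.DicOp679

/-- unit op-atoms of slot `k` (caps `t^(-x k)` of the weight, `t^(-2 f k)` of the fibres) -/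
def US (x f : Fin 4 → ℝ) (k : Fin 4) (t : ℝ) : Set Fn :=
  {φ | ∃ (j e e' : Fin 4) (n : ℕ), Dst4 k j e e' ∧ ∃ ψ : Fn,
    IsOpS k j e e' n (t ^ (-(x k))) (t ^ (-(2 * f k))) ψ ∧
    φ = fun y => ((1 / (n : ℝ) ^ 2 : ℝ) : ℂ) * ψ y}

theorem SD.mono' {n : ℕ} {Ht Hf Ht' Hf' : ℝ} {m : ℤ → ℤ → ℂ} {U V : Fin n → Fin n → ℂ}
    {α : Fin n → ℝ} (h : SD n Ht Hf m U V α) (h1 : Ht ≤ Ht') (h2 : Hf ≤ Hf') :
    SD n Ht' Hf' m U V α :=
  ⟨h.m1, h.α0, h.U2, h.V2, h.α1, fun c => (h.αH c).trans h1,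
    fun c i => (h.UH c i).trans (mul_le_mul_of_nonneg_right h2 (h.α0 c)),
    fun c i => (h.VH c i).trans (mul_le_mul_of_nonneg_right h2 (h.α0 c))⟩

theorem SD.conj' {n : ℕ} {Ht Hf : ℝ} {m : ℤ → ℤ → ℂ} {U V : Fin n → Fin n → ℂ}
    {α : Fin n → ℝ} (h : SD n Ht Hf m U V α) :
    SD n Ht Hf (fun z z' => (starRingEnd ℂ) (m z z')) (fun c i => (starRingEnd ℂ) (U c i))
      (fun c i => (starRingEnd ℂ) (V c i)) α := by
  refine ⟨fun z z' => ?_, h.α0, fun c => ?_, fun c => ?_, h.α1, h.αH, fun c i => ?_, fun c i => ?_⟩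
  · rw [RCLike.norm_conj]; exact h.m1 z z'
  · simpa only [RCLike.norm_conj] using h.U2 c
  · simpa only [RCLike.norm_conj] using h.V2 c
  · rw [RCLike.norm_conj]; exact h.UH c i
  · rw [RCLike.norm_conj]; exact h.VH c i

theorem conj_opA (k j e e' : Fin 4) (n : ℕ) (w q u : ℤ) (m : ℤ → ℤ → ℂ)
    (U V : Fin n → Fin n → ℂ) (y : ℤ) :
    (starRingEnd ℂ) (opA k j e e' n w q u m U V y) =
      opA k j e e' n w q u (fun z z' => (starRingEnd ℂ) (m z z'))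
        (fun c i => (starRingEnd ℂ) (U c i)) (fun c i => (starRingEnd ℂ) (V c i)) y := by
  unfold opA
  simp only [map_sum, apply_ite (starRingEnd ℂ), map_mul, map_zero]

theorem ufam_US {x f : Fin 4 → ℝ} (hx : ∀ j, 0 ≤ x j) (hf : ∀ j, 0 ≤ f j) : UFam 0 (US x f) := by
  refine ⟨?_, ?_, ?_, ?_⟩
  · rintro k hk t ht ht1 φ ⟨j, e, e', n, hd, ψ, ⟨w, q, u, m, U, V, α, hS, rfl⟩, rfl⟩ y
    rw [neg_zero, Real.rpow_zero]
    show ‖((1 / (n : ℝ) ^ 2 : ℝ) : ℂ) * opA k j e e' n w q u m U V y‖ ≤ 1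
    rw [norm_mul, Complex.norm_real, Real.norm_of_nonneg (by positivity)]
    rcases Nat.eq_zero_or_pos n with hn | hn
    · subst hn; simp
    · have hn' : (0 : ℝ) < n := by exact_mod_cast hn
      calc 1 / (n : ℝ) ^ 2 * ‖opA k j e e' n w q u m U V y‖ ≤ 1 / (n : ℝ) ^ 2 * (n : ℝ) ^ 2 :=
            mul_le_mul_of_nonneg_left (sup_opA hd hS w q u y) (by positivity)
        _ = 1 := by field_simp
  · rintro k hk s t hs hst ht1 φ ⟨j, e, e', n, hd, ψ, ⟨w, q, u, m, U, V, α, hS, rfl⟩, rfl⟩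
    refine ⟨j, e, e', n, hd, _, ⟨w, q, u, m, U, V, α, SD.mono' hS ?_ ?_, rfl⟩, rfl⟩
    · exact Real.rpow_le_rpow_of_nonpos hs hst (by have := hx k; linarith)
    · exact Real.rpow_le_rpow_of_nonpos hs hst (by have := hf k; linarith)
  · rintro k hk t ht ht1 φ ⟨j, e, e', n, hd, ψ, ⟨w, q, u, m, U, V, α, hS, rfl⟩, rfl⟩
    refine ⟨j, e, e', n, hd, _, ⟨w, q, u, _, _, _, α, SD.conj' hS, rfl⟩, ?_⟩
    funext y
    show (starRingEnd ℂ) (((1 / (n : ℝ) ^ 2 : ℝ) : ℂ) * opA k j e e' n w q u m U V y) = _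
    rw [map_mul, Complex.conj_ofReal, conj_opA]
  · have hG : ∀ j, x j + 2 * f j ≤ ∑ i, (x i + 2 * f i) := fun j =>
      Finset.single_le_sum (f := fun i => x i + 2 * f i)
        (fun i _ => by have := hx i; have := hf i; positivity) (Finset.mem_univ j)
    refine ⟨1, ∑ i, (x i + 2 * f i), zero_le_one,
      Finset.sum_nonneg fun i _ => by have := hx i; have := hf i; positivity, ?_⟩
    rintro k hk t ht ht1 φ ⟨j, e, e', n, hd, ψ, ⟨w, q, u, m, U, V, α, hS, rfl⟩, rfl⟩ p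
    set H : ℝ := t ^ (-(x k / 2 + f k)) with hH
    have hH0 : 0 ≤ H := (Real.rpow_pos_of_pos ht _).le
    have hHH : t ^ (-(2 * f k)) * t ^ (-(x k)) = H ^ 2 := by
      rw [hH, ← Real.rpow_natCast (t ^ (-(x k / 2 + f k))) 2, ← Real.rpow_mul ht.le,
        ← Real.rpow_add ht]
      congr 1; push_cast; ring
    have hHf : 0 ≤ t ^ (-(2 * f k)) := (Real.rpow_pos_of_pos ht _).le
    have hU : ∀ c i, ‖U c i‖ ≤ H := fun c i => by
      refine (abs_le_of_sq_le_sq' ?_ hH0).2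
      exact ((hS.UH c i).trans (mul_le_mul_of_nonneg_left (hS.αH c) hHf)).trans hHH.le
    have hV : ∀ c i, ‖V c i‖ ≤ H := fun c i => by
      refine (abs_le_of_sq_le_sq' ?_ hH0).2
      exact ((hS.VH c i).trans (mul_le_mul_of_nonneg_left (hS.αH c) hHf)).trans hHH.le
    refine repB_opT hd.jk hd.je hd.je' hd.ke hd.ke' hd.ee' hS.m1 w q u (by positivity) hH0 hH0 hU hV
      ?_ p
    have e1 : H * H ≤ 1 * t ^ (-∑ i, (x i + 2 * f i)) := by
      rw [one_mul, ← sq, ← hHH, ← Real.rpow_add ht]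
      exact Real.rpow_le_rpow_of_exponent_ge ht ht1 (by have := hG k; linarith)
    refine le_trans ?_ e1
    rcases Nat.eq_zero_or_pos n with hn | hn
    · subst hn
      have : 0 ≤ H * H := by positivity
      simpa using this
    · have hn' : (0 : ℝ) < n := by exact_mod_cast hn
      refine le_of_eq ?_
      field_simp

/-! ### the concrete dictionary -/

/-- parameters of the dictionary (per slot): `γ` price of bounded atoms; `g`, `x`, `f` price and caps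
of the op-atoms; `gc`, `dc`, `Cc` price, floor and height of the cells; `θ` reparametrisation -/
structure Prm where
  γ : Fin 4 → ℝ
  g : Fin 4 → ℝ
  x : Fin 4 → ℝ
  f : Fin 4 → ℝ
  gc : Fin 4 → ℝ
  dc : Fin 4 → ℝ
  Cc : Fin 4 → ℝ
  θ : ℝ

/-- admissible parameters -/
structure Prm.Ok (P : Prm) : Prop where
  γ0 : ∀ j, 0 ≤ P.γ j
  g0 : ∀ j, 0 ≤ P.g j
  x0 : ∀ j, 0 ≤ P.x j
  f0 : ∀ j, 0 ≤ P.f j
  gc0 : ∀ j, 0 ≤ P.gc j
  dc0 : ∀ j, 0 ≤ P.dc j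
  Cc0 : ∀ j, 0 ≤ P.Cc j
  θ0 : 0 < P.θ
  γ1 : ∀ j, P.θ * P.γ j ≤ 1
  g1 : ∀ j, P.θ * P.g j ≤ 1
  c1 : ∀ j, P.θ * (P.Cc j + P.gc j + P.dc j) ≤ 1

/-- the weighted family before reparametrisation -/
def AF (P : Prm) (j : Fin 4) (t : ℝ) : Set WA :=
  (PrF UB P.γ j t ∪ PrF (US P.x P.f) P.g j t) ∪ Cell37.Cel (P.gc j) (P.dc j) (P.Cc j) t

/-- the full weighted family -/
noncomputable def AFull (P : Prm) : Fin 4 → ℝ → Set WA := full (fun j t => AF P j (t ^ P.θ))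

/-- **THE DICTIONARY** -/
noncomputable def DF (P : Prm) : TRecN.Dict := gD (AFull P)

theorem wg_AF {P : Prm} (h : P.Ok) : WG 1 (fun j t => AF P j (t ^ P.θ)) := by
  set E : ℝ := P.θ⁻¹ with hE
  have hE1 : P.θ * E = 1 := mul_inv_cancel₀ h.θ0.ne'
  have key : ∀ {a : ℝ}, P.θ * a ≤ 1 → a ≤ E := by
    intro a ha
    rw [hE, ← one_div, le_div_iff₀ h.θ0]
    linarith
  have h1 : WG E (AF P) := by
    refine WG.union (WG.union (wg_bat h.γ0 fun j => key (h.γ1 j))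
      (wg_prF (ufam_US h.x0 h.f0) h.g0 fun j => ?_)) (wg_cel h.gc0 h.dc0 h.Cc0 fun j => key (h.c1 j))
    rw [zero_add]; exact key (h.g1 j)
  have h2 := h1.reparam h.θ0
  rwa [hE1] at h2

theorem wfam_DF {P : Prm} (h : P.Ok) : WFam (AFull P) := wfam_full (wg_AF h)

theorem dic_DF {P : Prm} (h : P.Ok) : TRecN.Dic (DF P) 0 := dic_gD (wfam_DF h)

theorem frzBd_DF {P : Prm} (h : P.Ok) {k q3 : ℝ} (hk : 0 ≤ k) (hq3 : 2 ≤ q3) :
    TRecN.FrzBd (DF P) k q3 := frzBd_gD (wfam_DF h) hk hq3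

/-- **(B)**: frozen letters are mixtures of bounded atoms of polynomial mass -/
theorem repB_DF {P : Prm} (h : P.Ok) : ∃ A0 C0 : ℝ, 0 ≤ A0 ∧ 0 ≤ C0 ∧ ∀ j, j ≠ 3 → ∀ t, 0 < t →
    t ≤ 1 → ∀ p f M, DF P j t p f < M → RepB j p f (A0 * t ^ (-C0) * M) := repB_gD (wfam_DF h)

theorem mem_AFull {P : Prm} {j : Fin 4} (hj : j ≠ 3) {t : ℝ} {x : WA}
    (hx : x ∈ AF P j (t ^ P.θ)) : x ∈ AFull P j t := by
  unfold AFull full
  rw [if_neg hj]
  exact Or.inl hx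

section level

variable {P : Prm} (h : P.Ok) {j : Fin 4} (hj : j ≠ 3) {t : ℝ} (ht : 0 < t) (ht1 : t ≤ 1)
  {s : ℝ} (hs : 0 ≤ s) {p : Nd} {X : Fn} (hX : TRecN.Lv (DF P) j t s p X)

include h hj ht ht1 hs hX

/-- level against a member -/
theorem lvM_DF {x : WA} (hx : x ∈ AF P j (t ^ P.θ)) :
    ‖∑ y ∈ iv p, X y * x.1 y‖ ≤ s * x.2 p * len p :=
  lv_mem (wfam_DF h) ht ht1 hs hX (mem_AFull hj hx)

/-- level against bounded atoms -/
theorem lvB_DF {φ : Fn} (hφ : BAt j φ) :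
    ‖∑ y ∈ iv p, X y * φ y‖ ≤ s * (t ^ P.θ) ^ (P.γ j) * len p :=
  lvM_DF h hj ht ht1 hs hX (x := (φ, fun _ => (t ^ P.θ) ^ (P.γ j))) (Or.inl (Or.inl ⟨hφ, rfl⟩))

/-- level against the op-atoms of helper276 (at the parameter `t ^ θ`) -/
theorem lvS_DF : LvS (P.g j) (P.x j) (P.f j) j (t ^ P.θ) s p X := by
  have hT : 0 < t ^ P.θ := Real.rpow_pos_of_pos ht _
  rintro φ ⟨i, e, e', n, hd, ψ, hψ, rfl⟩
  have h1 := lvM_DF h hj ht ht1 hs hX
    (x := ((fun y => ((1 / (n : ℝ) ^ 2 : ℝ) : ℂ) * ψ y), fun _ => (t ^ P.θ) ^ (P.g j)))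
    (Or.inl (Or.inr ⟨⟨i, e, e', n, hd, ψ, hψ, rfl⟩, rfl⟩))
  have h2 : ∑ y ∈ iv p, X y * (((((t ^ P.θ) ^ (-(P.g j)) / (n : ℝ) ^ 2 : ℝ)) : ℂ) * ψ y) =
      (((t ^ P.θ) ^ (-(P.g j)) : ℝ) : ℂ) *
        ∑ y ∈ iv p, X y * (((1 / (n : ℝ) ^ 2 : ℝ) : ℂ) * ψ y) := by
    rw [Finset.mul_sum]
    refine Finset.sum_congr rfl fun y _ => ?_
    push_cast
    ring
  show ‖∑ y ∈ iv p, X y * (((((t ^ P.θ) ^ (-(P.g j)) / (n : ℝ) ^ 2 : ℝ)) : ℂ) * ψ y)‖ ≤ _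
  rw [h2, norm_mul, Complex.norm_real, Real.norm_of_nonneg (Real.rpow_pos_of_pos hT _).le,
    Real.rpow_neg hT.le, inv_mul_le_iff₀ (Real.rpow_pos_of_pos hT _)]
  refine h1.trans (le_of_eq ?_)
  ring

/-- level against the cells of helper37 (at the parameter `t ^ θ`) -/
theorem lvC_DF : CellH237.LvC (P.gc j) (P.dc j) (P.Cc j) (t ^ P.θ) s p X :=
  fun x hx => lvM_DF h hj ht ht1 hs hX (Or.inr hx)

/-- **(O)** operator level -/
theorem olev_DF {κ : ℕ} {A : ℝ} (hA : 0 ≤ A) (hav : av p X ≤ A) :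
    OpLev.OLev κ j p X (128 * s * (t ^ P.θ) ^ (P.g j) + 24 * A * (t ^ P.θ) ^ (P.f j) +
      12 * A * (t ^ P.θ) ^ (P.x j)) :=
  olev_of_lvS (Real.rpow_pos_of_pos ht _) hs hA (lvS_DF h hj ht ht1 hs hX) hav

end level

end Crest.Agent.R079.WS112
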