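import Crest.Agent.R079.RuS5_256
import Crest.Agent.R079.WS_112

/-! R079: RULE (S) of `TRecN` for the concrete cost dictionary `WS112.DF P` (helper256). -/

set_option autoImplicit false
set_option linter.unusedVariables false

namespace Crest.Agent.R079.RuS256

open Finset Crest.Agent.R079.Growth Crest.Agent.R079.QRed Crest.Agent.R079.WS112
  Crest.Agent.R079.OpLev

/-- (B) for `DF P` -/
theorem hbn_DF {P : Prm} (h : P.Ok) : ∃ A C : ℝ, 0 ≤ A ∧ 0 ≤ C ∧ HBN (DF P) A C := by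
  obtain ⟨A0, C0, hA0, hC0, hr⟩ := repB_DF h
  refine ⟨2 * A0, C0, by positivity, hC0, ?_⟩
  intro m hm t ht ht1 p f hf
  have h1 : DF P m t p f < 2 := lt_of_le_of_lt hf (by norm_num)
  have h2 := hr m hm t ht ht1 p f 2 h1
  have e : A0 * t ^ (-C0) * 2 = 2 * A0 * t ^ (-C0) := by ring
  rwa [e] at h2

/-- (O) for `DF P` -/
theorem opl_DF {P : Prm} (h : P.Ok) {gm : ℝ} (κ0 : ℕ)
    (hg : ∀ j : Fin 4, j ≠ 3 → gm ≤ P.θ * P.g j) (hf : ∀ j : Fin 4, j ≠ 3 → gm ≤ P.θ * P.f j)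
    (hx : ∀ j : Fin 4, j ≠ 3 → gm ≤ P.θ * P.x j) : OpLevelN (DF P) κ0 200 gm 1 := by
  intro m hm t ht ht1 p X hX hav
  refine (olev_DF h hm ht ht1 zero_le_one hX zero_le_two hav).mono ?_
  have f1 : ∀ a : ℝ, gm ≤ P.θ * a → (t ^ P.θ) ^ a ≤ t ^ gm := by
    intro a ha
    rw [← Real.rpow_mul ht.le]
    exact Real.rpow_le_rpow_of_exponent_ge ht ht1 ha
  have := f1 _ (hg m hm)
  have := f1 _ (hf m hm)
  have := f1 _ (hx m hm)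
  linarith

/-- the common exponent -/
theorem exists_gm {P : Prm} (h : P.Ok) (hg : ∀ j, j ≠ 3 → 0 < P.g j) (hf : ∀ j, j ≠ 3 → 0 < P.f j)
    (hx : ∀ j, j ≠ 3 → 0 < P.x j) : ∃ gm : ℝ, 0 < gm ∧ (∀ j : Fin 4, j ≠ 3 → gm ≤ P.θ * P.g j) ∧
      (∀ j : Fin 4, j ≠ 3 → gm ≤ P.θ * P.f j) ∧ (∀ j : Fin 4, j ≠ 3 → gm ≤ P.θ * P.x j) := by
  have key : ∀ a : Fin 4 → ℝ, (∀ j, j ≠ 3 → 0 < a j) → ∃ g : ℝ, 0 < g ∧
      ∀ j : Fin 4, j ≠ 3 → g ≤ P.θ * a j := by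
    intro a ha
    refine ⟨min (P.θ * a 0) (min (P.θ * a 1) (P.θ * a 2)), ?_, ?_⟩
    · exact lt_min (mul_pos h.θ0 (ha 0 (by decide))) (lt_min (mul_pos h.θ0 (ha 1 (by decide)))
        (mul_pos h.θ0 (ha 2 (by decide))))
    · intro j hj
      fin_cases j
      · exact min_le_left _ _
      · exact (min_le_right _ _).trans (min_le_left _ _)
      · exact (min_le_right _ _).trans (min_le_right _ _)
      · exact absurd rfl hj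
  obtain ⟨g1, h1, k1⟩ := key _ hg
  obtain ⟨g2, h2, k2⟩ := key _ hf
  obtain ⟨g3, h3, k3⟩ := key _ hx
  exact ⟨min g1 (min g2 g3), lt_min h1 (lt_min h2 h3), fun j hj => (min_le_left _ _).trans (k1 j hj),
    fun j hj => ((min_le_right _ _).trans (min_le_left _ _)).trans (k2 j hj),
    fun j hj => ((min_le_right _ _).trans (min_le_right _ _)).trans (k3 j hj)⟩

/-- **RULE (S) FOR THE CONCRETE DICTIONARY** -/
theorem ruleS_DF {P : Prm} (h : P.Ok) (hg : ∀ j, j ≠ 3 → 0 < P.g j) (hf : ∀ j, j ≠ 3 → 0 < P.f j)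
    (hx : ∀ j, j ≠ 3 → 0 < P.x j) {q3 s1 : ℝ} (hq3 : 2 < q3) (hs1 : 0 < s1) :
    ∃ cS CS : ℝ, 0 < cS ∧ 0 ≤ CS ∧ ∀ k : ℝ, 0 < k → ∀ e : ℝ, 0 ≤ e → e ≤ 1 →
      ∃ t0 K : ℝ, 0 < t0 ∧ t0 ≤ 1 ∧ 0 ≤ K ∧ TRecN.RuleS (DF P) k q3 cS CS s1 e t0 K := by
  obtain ⟨A, C, hA, hC, hB⟩ := hbn_DF h
  obtain ⟨gm, hgm, k1, k2, k3⟩ := exists_gm h hg hf hx
  refine ⟨gS q3 gm s1, eC q3 C gm s1, gS_pos hq3 hgm hs1, eC_nonneg hq3 hC hgm hs1, ?_⟩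
  intro k hk e he0 he
  exact ruleSN_of hq3 hC hgm hs1 hk hA (by norm_num) one_pos (le_refl 13) he0 he hB
    (opl_DF h 13 k1 k2 k3)

end Crest.Agent.R079.RuS256
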