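import Crest.Agent.R079.ClX_59

/-! R079, item (c) of 973 / note 1201 (helper261), matrix part: on a rectangle `S × T` the part of a
kernel above its clip `cl` factors through the columns, with PSD majorants. -/

set_option autoImplicit false

namespace Crest.Agent.R079.SKx261

open Finset Crest.Agent.R079.HiF881 Crest.Agent.R079.ClW59

open scoped ComplexConjugate

/-- **factorisation of `A - cl A`** on `S × T`: labels = `T`, majorants `A A* / 4s`, `A* A / 4s` -/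
theorem fac_cl (A : ℤ → ℤ → ℂ) (S T : Finset ℤ) {s : ℝ} (hs : 0 < s) :
    ∃ P Q : ℤ → ℤ → ℂ,
      (∀ x k, ¬ (x ∈ S ∧ k ∈ T) → P x k = 0) ∧ (∀ k y, ¬ (k ∈ T ∧ y ∈ T) → Q k y = 0) ∧
      (∀ x ∈ S, ∀ y ∈ T, ∑ k ∈ T, P x k * Q k y = A x y - cl A S T s x y) ∧
      (∀ f : ℤ → ℂ, ∑ k ∈ T, ‖∑ x ∈ S, f x * P x k‖ ^ 2 ≤
        (4 * s)⁻¹ * ∑ y ∈ T, ‖∑ x ∈ S, f x * A x y‖ ^ 2) ∧
      (∀ f : ℤ → ℂ, ∑ k ∈ T, ‖∑ y ∈ T, f y * Q k y‖ ^ 2 ≤
        (4 * s)⁻¹ * ∑ x ∈ S, ‖∑ y ∈ T, f y * A x y‖ ^ 2) := by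
  classical
  set B : {x // x ∈ S} → {y // y ∈ T} → ℂ := fun x y => A x y with hB
  obtain ⟨P, Q, ψ, h⟩ := chiFac B hs
  have hc : (0 : ℝ) < 4 * s := by positivity
  have key : ∀ a b : ℝ, 4 * s * a ≤ b → a ≤ (4 * s)⁻¹ * b := by
    intro a b hab
    rw [inv_mul_eq_div, le_div_iff₀ hc]
    linarith
  refine ⟨fun x k => if h : x ∈ S ∧ k ∈ T then P ⟨x, h.1⟩ ⟨k, h.2⟩ else 0,
    fun k y => if h : k ∈ T ∧ y ∈ T then Q ⟨k, h.1⟩ ⟨y, h.2⟩ else 0, ?_, ?_, ?_, ?_, ?_⟩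
  · intro x k hx
    exact dif_neg hx
  · intro k y hy
    exact dif_neg hy
  · intro x hx y hy
    rw [← Finset.sum_coe_sort T]
    have h1 := h.eq ⟨x, hx⟩ ⟨y, hy⟩
    have h2 : cl A S T s x y = clip B s ⟨x, hx⟩ ⟨y, hy⟩ := by
      unfold cl
      rw [dif_pos ⟨hx, hy⟩]
    rw [h2]
    refine Eq.trans ?_ h1
    refine Finset.sum_congr rfl fun k _ => ?_
    show (if h : x ∈ S ∧ (k : ℤ) ∈ T then _ else _) * (if h : (k : ℤ) ∈ T ∧ y ∈ T then _ else _) = _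
    rw [dif_pos ⟨hx, k.2⟩, dif_pos ⟨k.2, hy⟩]
  · intro f
    have h1 := key _ _ (h.majP (fun x => f x))
    rw [← Finset.sum_coe_sort T, ← Finset.sum_coe_sort T (fun y => ‖∑ x ∈ S, f x * A x y‖ ^ 2)]
    refine le_trans (le_of_eq ?_) (h1.trans (le_of_eq ?_))
    · refine Finset.sum_congr rfl fun k _ => ?_
      rw [← Finset.sum_coe_sort S]
      congr 2
      refine Finset.sum_congr rfl fun x _ => ?_
      show f x * (if h : (x : ℤ) ∈ S ∧ (k : ℤ) ∈ T then _ else _) = _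
      rw [dif_pos ⟨x.2, k.2⟩, mul_comm]
    · congr 1
      refine Finset.sum_congr rfl fun y _ => ?_
      rw [← Finset.sum_coe_sort S]
      congr 2
      exact Finset.sum_congr rfl fun x _ => mul_comm _ _
  · intro f
    have h1 := key _ _ (h.majQ (fun y => f y))
    rw [← Finset.sum_coe_sort T, ← Finset.sum_coe_sort S (fun x => ‖∑ y ∈ T, f y * A x y‖ ^ 2)]
    refine le_trans (le_of_eq ?_) (h1.trans (le_of_eq ?_))
    · refine Finset.sum_congr rfl fun k _ => ?_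
      rw [← Finset.sum_coe_sort T]
      congr 2
      refine Finset.sum_congr rfl fun y _ => ?_
      show f y * (if h : (k : ℤ) ∈ T ∧ (y : ℤ) ∈ T then _ else _) = _
      rw [dif_pos ⟨k.2, y.2⟩, mul_comm]
    · congr 1
      refine Finset.sum_congr rfl fun x _ => ?_
      rw [← Finset.sum_coe_sort T]
      congr 2
      exact Finset.sum_congr rfl fun y _ => mul_comm _ _

end Crest.Agent.R079.SKx261
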