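import Crest.Agent.R079.SKcell_608

/-! # R079, (c) of 973 / note 1201: boxes of rows / columns near a Whitney top (helper608)

`box_count` : a box of `≤ 2^(P'.1+7)` rows meets at most `2 (L + 2)` maximal cells of `P` at points of
the strip of `P'`; `box_count'` : the same for columns. -/

set_option autoImplicit false

namespace Crest.Agent.R079.SKcx608

open Finset Crest.Agent.R079 Crest.Agent.R079.Grid Crest.Agent.R079.Growth
open Crest.Agent.R079.Whit (Ins)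
open Crest.Agent.R079.Cel159 (Mx Mx_eq sc mcell Mx_mcell)
open Crest.Agent.R079.SplSx69 (Le Adj WTop dist_of_not_adj)

variable {Y : ℤ → ℤ → ℤ → ℤ} {k L C0 : ℕ}

/-- values at mutual distance `< M 2^s` meet at most `M + 1` blocks -/
lemma card_blocks {ι : Type*} (S : Finset ι) (f : ι → ℤ) (s M : ℕ)
    (h : ∀ c ∈ S, ∀ c' ∈ S, |f c - f c'| < M * 2 ^ s) :
    (S.image fun c => f c / 2 ^ s).card ≤ M + 1 := by
  classical
  rcases S.eq_empty_or_nonempty with rfl | hne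
  · simp
  obtain ⟨c0, hc0, hmin⟩ := Finset.exists_min_image S f hne
  have h0 : (0 : ℤ) < 2 ^ s := by positivity
  have hsub : S.image (fun c => f c / 2 ^ s) ⊆
      Finset.Ico (f c0 / 2 ^ s) (f c0 / 2 ^ s + (M + 1 : ℕ)) := by
    intro x hx
    obtain ⟨c, hc, rfl⟩ := Finset.mem_image.1 hx
    have h1 := hmin c hc
    have h2 := (abs_lt.1 (h c hc c0 hc0)).2
    have h3 : f c0 / 2 ^ s ≤ f c / 2 ^ s := Int.ediv_le_ediv h0 h1
    rw [Finset.mem_Ico]
    refine ⟨h3, ?_⟩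
    rw [Int.ediv_lt_iff_lt_mul h0]
    have h5 := Int.lt_ediv_add_one_mul_self (f c0) h0
    push_cast
    have h6 : (f c0 / 2 ^ s + ((M : ℤ) + 1)) * 2 ^ s
        = (f c0 / 2 ^ s + 1) * 2 ^ s + M * 2 ^ s := by ring
    rw [h6]; linarith
  refine (Finset.card_le_card hsub).trans ?_
  rw [Int.card_Ico]
  have : f c0 / 2 ^ s + ((M + 1 : ℕ) : ℤ) - f c0 / 2 ^ s = ((M + 1 : ℕ) : ℤ) := by ring
  rw [this, Int.toNat_natCast]

/-- **a box of rows** -/
theorem box_count (hL : LipY Y L) (hL1 : 1 ≤ L) (hC : 64 * L ≤ C0) (hE : ExpV Y) {P P' : ℕ × ℤ}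
    (hle : Le P' P) (hna : ¬ Adj C0 P P') (z q : ℤ) {N : ℕ} (hN : N ≤ 2 ^ (P'.1 + 7))
    (S : Finset (ℕ × ℤ × ℤ))
    (hS : ∀ c ∈ S, Mx (Y z) k P c.1 c.2.1 c.2.2 ∧ ∃ u ∈ dI c.1 c.2.1, (q ≤ u ∧ u < q + N) ∧
      ∃ v ∈ dI c.1 c.2.2, Y z u v ∈ iv P') : S.card ≤ 2 * (L + 2) := by
  classical
  have hch : ∀ c : ℕ × ℤ × ℤ, ∃ u v, c ∈ S → u ∈ dI c.1 c.2.1 ∧ (q ≤ u ∧ u < q + N) ∧
      v ∈ dI c.1 c.2.2 ∧ Y z u v ∈ iv P' := by
    intro c
    by_cases hc : c ∈ S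
    · obtain ⟨_, u, h1, h2, v, h3, h4⟩ := hS c hc
      exact ⟨u, v, fun _ => ⟨h1, h2, h3, h4⟩⟩
    · exact ⟨0, 0, fun h => absurd h hc⟩
  choose f g hfg using hch
  set s : ℕ := P'.1 + 7 with hs
  have hN' : (N : ℤ) ≤ 2 ^ s := by exact_mod_cast hN
  have hLn : (0 : ℤ) ≤ L := Int.natCast_nonneg _
  have hf : ∀ c ∈ S, ∀ c' ∈ S, |f c - f c'| < (1 : ℕ) * 2 ^ s := by
    intro c hc c' hc'
    have h1 := (hfg c hc).2.1
    have h2 := (hfg c' hc').2.1
    push_cast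
    rw [abs_lt]
    constructor <;> linarith [h1.1, h1.2, h2.1, h2.2]
  have hg : ∀ c ∈ S, ∀ c' ∈ S, |g c - g c'| < ((L + 1 : ℕ) : ℤ) * 2 ^ s := by
    intro c hc c' hc'
    have h1 := (hfg c hc).2.2.2
    have h2 := (hfg c' hc').2.2.2
    unfold iv dI at h1 h2
    rw [Finset.mem_Ico] at h1 h2
    have e : (P'.2 + 1) * 2 ^ (P'.1 + 7) = P'.2 * 2 ^ (P'.1 + 7) + (2 : ℤ) ^ (P'.1 + 7) := by ring
    rw [e] at h1 h2
    have h3 : |Y z (f c) (g c) - Y z (f c') (g c')| < 2 ^ s := by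
      rw [abs_lt]
      constructor <;> linarith [h1.1, h1.2, h2.1, h2.2]
    have h4 := hL z (f c') (g c') (f c) (g c')
    rw [sub_self, abs_zero, add_zero] at h4
    have h5 := hf c' hc' c hc
    have h6 : |Y z (f c') (g c') - Y z (f c) (g c')| ≤ L * 2 ^ s := by
      refine h4.trans (mul_le_mul_of_nonneg_left ?_ hLn)
      have := h5.le
      push_cast at this
      linarith
    have h7 := hE z (f c) (g c) (g c')
    have h8 : |Y z (f c) (g c) - Y z (f c) (g c')|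
        ≤ |Y z (f c) (g c) - Y z (f c') (g c')| + |Y z (f c') (g c') - Y z (f c) (g c')| := by
      have e2 : Y z (f c) (g c) - Y z (f c) (g c')
          = (Y z (f c) (g c) - Y z (f c') (g c')) + (Y z (f c') (g c') - Y z (f c) (g c')) := by
        ring
      calc |Y z (f c) (g c) - Y z (f c) (g c')| = _ := congrArg _ e2
        _ ≤ _ := abs_add_le _ _
    push_cast
    nlinarith
  have h1 := card_blocks S f s 1 hf
  have h2 := card_blocks S g s (L + 1) hg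
  have hinj : ∀ c ∈ S, ∀ c' ∈ S, (f c / 2 ^ s, g c / 2 ^ s) = (f c' / 2 ^ s, g c' / 2 ^ s) →
      c = c' := by
    intro c hc c' hc' he
    rw [Prod.mk.injEq] at he
    obtain ⟨hM, _⟩ := hS c hc
    obtain ⟨hM', _⟩ := hS c' hc'
    have h7 := size7 hL hL1 hC hle hna hM (hfg c hc).1 (hfg c hc).2.2.1 (hfg c hc).2.2.2
    have hu' := mem_of_div h7 (hfg c hc).1 he.1
    have hv' := mem_of_div h7 (hfg c hc).2.2.1 he.2
    obtain ⟨e1, e2, e3⟩ := Mx_eq hM hM' hu' (hfg c' hc').1 hv' (hfg c' hc').2.2.1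
    exact Prod.ext e1 (Prod.ext e2 e3)
  have hcard : S.card = (S.image fun c => (f c / 2 ^ s, g c / 2 ^ s)).card :=
    (Finset.card_image_of_injOn fun c hc c' hc' => hinj c hc c' hc').symm
  have hsub : (S.image fun c => (f c / 2 ^ s, g c / 2 ^ s)) ⊆
      (S.image fun c => f c / 2 ^ s) ×ˢ (S.image fun c => g c / 2 ^ s) := by
    intro x hx
    obtain ⟨c, hc, rfl⟩ := Finset.mem_image.1 hx
    exact Finset.mem_product.2 ⟨Finset.mem_image_of_mem _ hc, Finset.mem_image_of_mem _ hc⟩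
  rw [hcard]
  refine (Finset.card_le_card hsub).trans ?_
  rw [Finset.card_product]
  calc _ ≤ (1 + 1) * (L + 1 + 1) := Nat.mul_le_mul h1 h2
    _ = 2 * (L + 2) := by ring

/-- **a box of columns** -/
theorem box_count' (hL : LipY Y L) (hL1 : 1 ≤ L) (hC : 64 * L ≤ C0) (hE : ExpU Y) {P P' : ℕ × ℤ}
    (hle : Le P' P) (hna : ¬ Adj C0 P P') (z q : ℤ) {N : ℕ} (hN : N ≤ 2 ^ (P'.1 + 7))
    (S : Finset (ℕ × ℤ × ℤ))
    (hS : ∀ c ∈ S, Mx (Y z) k P c.1 c.2.1 c.2.2 ∧ ∃ v ∈ dI c.1 c.2.2, (q ≤ v ∧ v < q + N) ∧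
      ∃ u ∈ dI c.1 c.2.1, Y z u v ∈ iv P') : S.card ≤ 2 * (L + 2) := by
  classical
  have hch : ∀ c : ℕ × ℤ × ℤ, ∃ v u, c ∈ S → v ∈ dI c.1 c.2.2 ∧ (q ≤ v ∧ v < q + N) ∧
      u ∈ dI c.1 c.2.1 ∧ Y z u v ∈ iv P' := by
    intro c
    by_cases hc : c ∈ S
    · obtain ⟨_, v, h1, h2, u, h3, h4⟩ := hS c hc
      exact ⟨v, u, fun _ => ⟨h1, h2, h3, h4⟩⟩
    · exact ⟨0, 0, fun h => absurd h hc⟩
  choose f g hfg using hch
  set s : ℕ := P'.1 + 7 with hs
  have hN' : (N : ℤ) ≤ 2 ^ s := by exact_mod_cast hN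
  have hLn : (0 : ℤ) ≤ L := Int.natCast_nonneg _
  have hf : ∀ c ∈ S, ∀ c' ∈ S, |f c - f c'| < (1 : ℕ) * 2 ^ s := by
    intro c hc c' hc'
    have h1 := (hfg c hc).2.1
    have h2 := (hfg c' hc').2.1
    push_cast
    rw [abs_lt]
    constructor <;> linarith [h1.1, h1.2, h2.1, h2.2]
  have hg : ∀ c ∈ S, ∀ c' ∈ S, |g c - g c'| < ((L + 1 : ℕ) : ℤ) * 2 ^ s := by
    intro c hc c' hc'
    have h1 := (hfg c hc).2.2.2
    have h2 := (hfg c' hc').2.2.2
    unfold iv dI at h1 h2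
    rw [Finset.mem_Ico] at h1 h2
    have e : (P'.2 + 1) * 2 ^ (P'.1 + 7) = P'.2 * 2 ^ (P'.1 + 7) + (2 : ℤ) ^ (P'.1 + 7) := by ring
    rw [e] at h1 h2
    have h3 : |Y z (g c) (f c) - Y z (g c') (f c')| < 2 ^ s := by
      rw [abs_lt]
      constructor <;> linarith [h1.1, h1.2, h2.1, h2.2]
    have h4 := hL z (g c') (f c') (g c') (f c)
    rw [sub_self, abs_zero, zero_add] at h4
    have h5 := hf c' hc' c hc
    have h6 : |Y z (g c') (f c') - Y z (g c') (f c)| ≤ L * 2 ^ s := by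
      refine h4.trans (mul_le_mul_of_nonneg_left ?_ hLn)
      have := h5.le
      push_cast at this
      linarith
    have h7 := hE z (g c) (g c') (f c)
    have h8 : |Y z (g c) (f c) - Y z (g c') (f c)|
        ≤ |Y z (g c) (f c) - Y z (g c') (f c')| + |Y z (g c') (f c') - Y z (g c') (f c)| := by
      have e2 : Y z (g c) (f c) - Y z (g c') (f c)
          = (Y z (g c) (f c) - Y z (g c') (f c')) + (Y z (g c') (f c') - Y z (g c') (f c)) := by
        ring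
      calc |Y z (g c) (f c) - Y z (g c') (f c)| = _ := congrArg _ e2
        _ ≤ _ := abs_add_le _ _
    push_cast
    nlinarith
  have h1 := card_blocks S f s 1 hf
  have h2 := card_blocks S g s (L + 1) hg
  have hinj : ∀ c ∈ S, ∀ c' ∈ S, (f c / 2 ^ s, g c / 2 ^ s) = (f c' / 2 ^ s, g c' / 2 ^ s) →
      c = c' := by
    intro c hc c' hc' he
    rw [Prod.mk.injEq] at he
    obtain ⟨hM, _⟩ := hS c hc
    obtain ⟨hM', _⟩ := hS c' hc'
    have h7 := size7 hL hL1 hC hle hna hM (hfg c hc).2.2.1 (hfg c hc).1 (hfg c hc).2.2.2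
    have hv' := mem_of_div h7 (hfg c hc).1 he.1
    have hu' := mem_of_div h7 (hfg c hc).2.2.1 he.2
    obtain ⟨e1, e2, e3⟩ := Mx_eq hM hM' hu' (hfg c' hc').2.2.1 hv' (hfg c' hc').1
    exact Prod.ext e1 (Prod.ext e2 e3)
  have hcard : S.card = (S.image fun c => (f c / 2 ^ s, g c / 2 ^ s)).card :=
    (Finset.card_image_of_injOn fun c hc c' hc' => hinj c hc c' hc').symm
  have hsub : (S.image fun c => (f c / 2 ^ s, g c / 2 ^ s)) ⊆
      (S.image fun c => f c / 2 ^ s) ×ˢ (S.image fun c => g c / 2 ^ s) := by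
    intro x hx
    obtain ⟨c, hc, rfl⟩ := Finset.mem_image.1 hx
    exact Finset.mem_product.2 ⟨Finset.mem_image_of_mem _ hc, Finset.mem_image_of_mem _ hc⟩
  rw [hcard]
  refine (Finset.card_le_card hsub).trans ?_
  rw [Finset.card_product]
  calc _ ≤ (1 + 1) * (L + 1 + 1) := Nat.mul_le_mul h1 h2
    _ = 2 * (L + 2) := by ring

end Crest.Agent.R079.SKcx608
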