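import Crest.Agent.R079.SplS_69
import Crest.Agent.R079.CelD_159
import Crest.Agent.R079.GlueDefs_569

/-! # R079, (c) of 973 / note 1201: the CELLS block (helper608)

`Y : ℤ → ℤ → ℤ → ℤ` line form (`LipY Y L`, `ExpU Y`, `ExpV Y`; instance `Yf j e`, `L = 3`), `P` a top,
`P'` below `P`, not adjacent (`¬ Adj C0 P P'`), `64 L ≤ C0`.
`Cl Y k P P' T0 T1 T2` : the maximal cells of `P` met by the points of `T` with `Y ∈ iv P'`.
* `size7` : a maximal cell of `P` with a point of the strip of `P'` has `P'.1 + 7 ≤ n`;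
* `row_count`, `col_count` : a row (column) meets at most 2 such cells at points of the strip of `P'`;
* `tops_le` : `∑_{P' meets c} len P' ≤ (4 L + 2) 2^n` over pairwise disjoint `P'`;
* `energy_le` = (I3) : `∑_{P'} len P' ∑_{c ∈ Cl P'} |C|²_c / 2^n ≤ (4 L + 2) ∑_{Bd P} |C|²`. -/

set_option autoImplicit false

namespace Crest.Agent.R079.SKcx608

open Finset Crest.Agent.R079 Crest.Agent.R079.Grid Crest.Agent.R079.Growth
open Crest.Agent.R079.Whit (Ins)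
open Crest.Agent.R079.Cel159 (Mx Mx_eq sc mcell Mx_mcell)
open Crest.Agent.R079.SplSx69 (Le Adj WTop dist_of_not_adj)

/-- Lipschitz line form -/
def LipY (Y : ℤ → ℤ → ℤ → ℤ) (L : ℕ) : Prop :=
  ∀ z u v u' v', |Y z u v - Y z u' v'| ≤ (L : ℤ) * (|u - u'| + |v - v'|)

def ExpV (Y : ℤ → ℤ → ℤ → ℤ) : Prop := ∀ z u v v', |v - v'| ≤ |Y z u v - Y z u v'|

def ExpU (Y : ℤ → ℤ → ℤ → ℤ) : Prop := ∀ z u u' v, |u - u'| ≤ |Y z u v - Y z u' v|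

variable {Y : ℤ → ℤ → ℤ → ℤ} {k L C0 : ℕ}

lemma dI_dist {n : ℕ} {a u u' : ℤ} (hu : u ∈ dI n a) (hu' : u' ∈ dI n a) : |u - u'| ≤ 2 ^ n := by
  unfold dI at hu hu'
  rw [Finset.mem_Ico] at hu hu'
  have e : (a + 1) * 2 ^ n = a * 2 ^ n + (2 : ℤ) ^ n := by ring
  rw [abs_le]
  constructor <;> linarith [hu.1, hu.2, hu'.1, hu'.2]

lemma dI_up {n : ℕ} {a u : ℤ} (hu : u ∈ dI n a) : u ∈ dI (n + 1) (a / 2) := by
  have := L0e.dI_sub n 1 a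
  rw [pow_one] at this
  exact this hu

/-- size of the cells near a non-adjacent node -/
theorem size_le (hL : LipY Y L) (hL1 : 1 ≤ L) {P P' : ℕ × ℤ} (hle : Le P' P)
    (hna : ¬ Adj C0 P P') {z : ℤ} {n : ℕ} {a b : ℤ} (hM : Mx (Y z) k P n a b) {u v : ℤ}
    (hu : u ∈ dI n a) (hv : v ∈ dI n b) (hy : Y z u v ∈ iv P') :
    (C0 : ℤ) * 2 ^ (P'.1 + 1) ≤ L * 2 ^ n := by
  obtain ⟨h1, h2⟩ := dist_of_not_adj hle hna (y := Y z u v) hy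
  have hL1' : (1 : ℤ) ≤ L := by exact_mod_cast hL1
  have hC : (0 : ℤ) ≤ C0 := Int.natCast_nonneg _
  have e7 : (2 : ℤ) ^ (P'.1 + 7) = 64 * 2 ^ (P'.1 + 1) := by
    rw [show P'.1 + 7 = (P'.1 + 1) + 6 by ring, pow_add]; ring
  rcases hM.2.2 with h | h
  · have h3 : 2 * ((C0 : ℤ) * 2 ^ (P'.1 + 7)) < 2 ^ (P.1 + 7) := by
      have e : (P.2 + 1) * 2 ^ (P.1 + 7) = P.2 * 2 ^ (P.1 + 7) + (2 : ℤ) ^ (P.1 + 7) := by ring
      linarith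
    have e8 : (2 : ℤ) ^ (P.1 + 7) = 128 * 2 ^ P.1 := by rw [pow_add]; ring
    have h4 : (C0 : ℤ) * 2 ^ (P'.1 + 1) < 2 ^ P.1 := by
      rw [e7, e8] at h3
      nlinarith
    have h5 : (2 : ℤ) ^ P.1 ≤ 2 ^ n := pow_le_pow_right₀ (by norm_num) (by omega)
    have h6 : (2 : ℤ) ^ n ≤ L * 2 ^ n := le_mul_of_one_le_left (by positivity) hL1'
    linarith
  · unfold Ins at h
    push Not at h
    obtain ⟨x, hx, y, hy', hout⟩ := h
    have d1 := dI_dist hx (dI_up hu)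
    have d2 := dI_dist hy' (dI_up hv)
    have h3 := hL z x y u v
    have h4 : |Y z x y - Y z u v| ≤ L * 2 ^ (n + 2) := by
      refine h3.trans ?_
      have : (2 : ℤ) ^ (n + 2) = 2 ^ (n + 1) + 2 ^ (n + 1) := by rw [pow_succ]; ring
      rw [this]
      exact mul_le_mul_of_nonneg_left (add_le_add d1 d2) (by linarith)
    have h5 : (C0 : ℤ) * 2 ^ (P'.1 + 7) ≤ |Y z x y - Y z u v| := by
      unfold iv dI at hout
      rw [Finset.mem_Ico, not_and_or, not_le, not_lt] at hout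
      rcases hout with ho | ho
      · have := neg_abs_le (Y z x y - Y z u v)
        linarith
      · have := le_abs_self (Y z x y - Y z u v)
        linarith
    have h6 : (C0 : ℤ) * 2 ^ (P'.1 + 7) ≤ L * 2 ^ (n + 2) := h5.trans h4
    have e9 : (2 : ℤ) ^ (n + 2) = 4 * 2 ^ n := by rw [pow_add]; ring
    rw [e7, e9] at h6
    have h7 : (0 : ℤ) ≤ (C0 : ℤ) * 2 ^ (P'.1 + 1) := by positivity
    nlinarith

theorem size7 (hL : LipY Y L) (hL1 : 1 ≤ L) (hC : 64 * L ≤ C0) {P P' : ℕ × ℤ} (hle : Le P' P)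
    (hna : ¬ Adj C0 P P') {z : ℤ} {n : ℕ} {a b : ℤ} (hM : Mx (Y z) k P n a b) {u v : ℤ}
    (hu : u ∈ dI n a) (hv : v ∈ dI n b) (hy : Y z u v ∈ iv P') : P'.1 + 7 ≤ n := by
  have h := size_le hL hL1 hle hna hM hu hv hy
  have hL1' : (1 : ℤ) ≤ L := by exact_mod_cast hL1
  have hC' : (64 : ℤ) * L ≤ C0 := by exact_mod_cast hC
  have e7 : (2 : ℤ) ^ (P'.1 + 7) = 64 * 2 ^ (P'.1 + 1) := by
    rw [show P'.1 + 7 = (P'.1 + 1) + 6 by ring, pow_add]; ring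
  have h1 : (L : ℤ) * 2 ^ (P'.1 + 7) ≤ L * 2 ^ n := by
    refine le_trans ?_ h
    rw [e7]
    have : (0 : ℤ) < 2 ^ (P'.1 + 1) := by positivity
    nlinarith
  have h2 : (2 : ℤ) ^ (P'.1 + 7) ≤ 2 ^ n := le_of_mul_le_mul_left h1 (by linarith)
  exact (pow_le_pow_iff_right₀ (by norm_num : (1 : ℤ) < 2)).1 h2

/-- a set with values at mutual distance `< 2^s` meets at most two blocks of size `2^s` -/
lemma card_two {ι : Type*} [DecidableEq ι] (S : Finset ι) (f : ι → ℤ) (s : ℕ)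
    (h : ∀ c ∈ S, ∀ c' ∈ S, |f c - f c'| < 2 ^ s)
    (hinj : ∀ c ∈ S, ∀ c' ∈ S, f c / 2 ^ s = f c' / 2 ^ s → c = c') : S.card ≤ 2 := by
  classical
  rcases S.eq_empty_or_nonempty with rfl | hne
  · simp
  obtain ⟨c0, hc0, hmin⟩ := Finset.exists_min_image S f hne
  have h0 : (0 : ℤ) < 2 ^ s := by positivity
  have hsub : S.image (fun c => f c / 2 ^ s) ⊆ {f c0 / 2 ^ s, f c0 / 2 ^ s + 1} := by
    intro x hx
    obtain ⟨c, hc, rfl⟩ := Finset.mem_image.1 hx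
    have h1 := hmin c hc
    have h2 := (abs_lt.1 (h c hc c0 hc0)).2
    have h3 : f c0 / 2 ^ s ≤ f c / 2 ^ s := Int.ediv_le_ediv h0 h1
    have h4 : f c / 2 ^ s < f c0 / 2 ^ s + 2 := by
      rw [Int.ediv_lt_iff_lt_mul h0]
      have h5 := Int.lt_ediv_add_one_mul_self (f c0) h0
      have h6 : (f c0 / 2 ^ s + 2) * 2 ^ s = (f c0 / 2 ^ s + 1) * 2 ^ s + 2 ^ s := by ring
      rw [h6]; linarith
    rw [Finset.mem_insert, Finset.mem_singleton]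
    omega
  have hc : S.card = (S.image fun c => f c / 2 ^ s).card :=
    (Finset.card_image_of_injOn fun c hc c' hc' => hinj c hc c' hc').symm
  rw [hc]
  exact (Finset.card_le_card hsub).trans Finset.card_le_two

/-- the maximal cells of `P` met by the strip of `P'` (points of `T`) -/
noncomputable def Cl (Y : ℤ → ℤ → ℤ → ℤ) (k : ℕ) (P P' : ℕ × ℤ) (T0 T1 T2 : Finset ℤ) :
    Finset (ℤ × ℕ × ℤ × ℤ) :=
  ((T0 ×ˢ T1 ×ˢ T2).filter (fun ω => Y ω.1 ω.2.1 ω.2.2 ∈ iv P')).image (mcell Y k P)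

lemma self_mem (n : ℕ) (x : ℤ) : x ∈ dI n (x / 2 ^ n) := by rw [L0e.mem_dI]

lemma iv_le {P P' : ℕ × ℤ} (h : Le P' P) : iv P' ⊆ iv P := h

/-- a cell of `Cl` has a point of the strip -/
theorem mem_Cl {P P' : ℕ × ℤ} (hle : Le P' P) {T0 T1 T2 : Finset ℤ} {c : ℤ × ℕ × ℤ × ℤ}
    (hc : c ∈ Cl Y k P P' T0 T1 T2) : c.1 ∈ T0 ∧ Mx (Y c.1) k P c.2.1 c.2.2.1 c.2.2.2 ∧
      ∃ u ∈ dI c.2.1 c.2.2.1 ∩ T1, ∃ v ∈ dI c.2.1 c.2.2.2 ∩ T2, Y c.1 u v ∈ iv P' := by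
  unfold Cl at hc
  obtain ⟨ω, hω, rfl⟩ := Finset.mem_image.1 hc
  rw [Finset.mem_filter, Finset.mem_product, Finset.mem_product] at hω
  obtain ⟨⟨h0, h1, h2⟩, hy⟩ := hω
  refine ⟨h0, Mx_mcell (iv_le hle hy), ω.2.1, ?_, ω.2.2, ?_, hy⟩
  · exact Finset.mem_inter.2 ⟨self_mem _ _, h1⟩
  · exact Finset.mem_inter.2 ⟨self_mem _ _, h2⟩

/-- conversely the cell of a point of the strip is in `Cl` -/
theorem Cl_of_point {P P' : ℕ × ℤ} (hle : Le P' P) {T0 T1 T2 : Finset ℤ} {z : ℤ} {n : ℕ} {a b : ℤ}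
    (hM : Mx (Y z) k P n a b) {u v : ℤ} (hu : u ∈ dI n a) (hv : v ∈ dI n b) (hz : z ∈ T0)
    (hu1 : u ∈ T1) (hv1 : v ∈ T2) (hy : Y z u v ∈ iv P') : (z, n, a, b) ∈ Cl Y k P P' T0 T1 T2 := by
  unfold Cl
  refine Finset.mem_image.2 ⟨(z, u, v), ?_, ?_⟩
  · rw [Finset.mem_filter, Finset.mem_product, Finset.mem_product]
    exact ⟨⟨hz, hu1, hv1⟩, hy⟩
  · have h1 := Mx_mcell (k := k) (p := P) (ω := (z, u, v)) (Y := Y) (iv_le hle hy)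
    obtain ⟨e1, e2, e3⟩ := Mx_eq h1 hM (self_mem _ _) hu (self_mem _ _) hv
    unfold mcell
    rw [e2, e3, e1]

lemma mem_of_div {n s : ℕ} {b v v' : ℤ} (hs : s ≤ n) (hv : v ∈ dI n b)
    (h : v / 2 ^ s = v' / 2 ^ s) : v' ∈ dI n b := by
  obtain ⟨j, rfl⟩ := Nat.exists_eq_add_of_le hs
  rw [L0e.mem_dI] at hv ⊢
  rw [pow_add, ← Int.ediv_ediv_of_nonneg (by positivity)] at hv ⊢
  rw [← h]
  exact hv

/-- **row count** -/
theorem row_count (hL : LipY Y L) (hL1 : 1 ≤ L) (hC : 64 * L ≤ C0) (hE : ExpV Y) {P P' : ℕ × ℤ}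
    (hle : Le P' P) (hna : ¬ Adj C0 P P') (z u : ℤ) (S : Finset (ℕ × ℤ × ℤ))
    (hS : ∀ c ∈ S, Mx (Y z) k P c.1 c.2.1 c.2.2 ∧ u ∈ dI c.1 c.2.1 ∧
      ∃ v ∈ dI c.1 c.2.2, Y z u v ∈ iv P') : S.card ≤ 2 := by
  classical
  have hch : ∀ c : ℕ × ℤ × ℤ, ∃ v, c ∈ S → v ∈ dI c.1 c.2.2 ∧ Y z u v ∈ iv P' := by
    intro c
    by_cases hc : c ∈ S
    · obtain ⟨_, _, v, h1, h2⟩ := hS c hc
      exact ⟨v, fun _ => ⟨h1, h2⟩⟩
    · exact ⟨0, fun h => absurd h hc⟩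
  choose f hf using hch
  refine card_two S f (P'.1 + 7) ?_ ?_
  · intro c hc c' hc'
    have h1 := hE z u (f c) (f c')
    have h2 := (hf c hc).2
    have h3 := (hf c' hc').2
    refine lt_of_le_of_lt h1 ?_
    unfold iv dI at h2 h3
    rw [Finset.mem_Ico] at h2 h3
    have e : (P'.2 + 1) * 2 ^ (P'.1 + 7) = P'.2 * 2 ^ (P'.1 + 7) + (2 : ℤ) ^ (P'.1 + 7) := by ring
    rw [abs_lt]
    constructor <;> linarith [h2.1, h2.2, h3.1, h3.2]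
  · intro c hc c' hc' he
    obtain ⟨hM, hu, _⟩ := hS c hc
    obtain ⟨hM', hu', _⟩ := hS c' hc'
    have h7 := size7 hL hL1 hC hle hna hM hu (hf c hc).1 (hf c hc).2
    have hv' := mem_of_div h7 (hf c hc).1 he
    obtain ⟨e1, e2, e3⟩ := Mx_eq hM hM' hu hu' hv' (hf c' hc').1
    exact Prod.ext e1 (Prod.ext e2 e3)

/-- **column count** -/
theorem col_count (hL : LipY Y L) (hL1 : 1 ≤ L) (hC : 64 * L ≤ C0) (hE : ExpU Y) {P P' : ℕ × ℤ}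
    (hle : Le P' P) (hna : ¬ Adj C0 P P') (z v : ℤ) (S : Finset (ℕ × ℤ × ℤ))
    (hS : ∀ c ∈ S, Mx (Y z) k P c.1 c.2.1 c.2.2 ∧ v ∈ dI c.1 c.2.2 ∧
      ∃ u ∈ dI c.1 c.2.1, Y z u v ∈ iv P') : S.card ≤ 2 := by
  classical
  have hch : ∀ c : ℕ × ℤ × ℤ, ∃ u, c ∈ S → u ∈ dI c.1 c.2.1 ∧ Y z u v ∈ iv P' := by
    intro c
    by_cases hc : c ∈ S
    · obtain ⟨_, _, u, h1, h2⟩ := hS c hc
      exact ⟨u, fun _ => ⟨h1, h2⟩⟩
    · exact ⟨0, fun h => absurd h hc⟩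
  choose f hf using hch
  refine card_two S f (P'.1 + 7) ?_ ?_
  · intro c hc c' hc'
    have h1 := hE z (f c) (f c') v
    have h2 := (hf c hc).2
    have h3 := (hf c' hc').2
    refine lt_of_le_of_lt h1 ?_
    unfold iv dI at h2 h3
    rw [Finset.mem_Ico] at h2 h3
    have e : (P'.2 + 1) * 2 ^ (P'.1 + 7) = P'.2 * 2 ^ (P'.1 + 7) + (2 : ℤ) ^ (P'.1 + 7) := by ring
    rw [abs_lt]
    constructor <;> linarith [h2.1, h2.2, h3.1, h3.2]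
  · intro c hc c' hc' he
    obtain ⟨hM, hv, _⟩ := hS c hc
    obtain ⟨hM', hv', _⟩ := hS c' hc'
    have h7 := size7 hL hL1 hC hle hna hM (hf c hc).1 hv (hf c hc).2
    have hu' := mem_of_div h7 (hf c hc).1 he
    obtain ⟨e1, e2, e3⟩ := Mx_eq hM hM' hu' (hf c' hc').1 hv hv'
    exact Prod.ext e1 (Prod.ext e2 e3)

/-- the nodes meeting one cell -/
theorem tops_le (hL : LipY Y L) (hL1 : 1 ≤ L) (hC : 64 * L ≤ C0) {P : ℕ × ℤ}
    (WT : Finset (ℕ × ℤ)) (hWT : ∀ P' ∈ WT, Le P' P ∧ ¬ Adj C0 P P')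
    (hdisj : ∀ P' ∈ WT, ∀ P'' ∈ WT, P' ≠ P'' → Disjoint (iv P') (iv P''))
    {z : ℤ} {n : ℕ} {a b : ℤ} (hM : Mx (Y z) k P n a b)
    (hp : ∀ P' ∈ WT, ∃ u ∈ dI n a, ∃ v ∈ dI n b, Y z u v ∈ iv P') :
    ∑ P' ∈ WT, (2 : ℝ) ^ (P'.1 + 7) ≤ (4 * L + 2) * 2 ^ n := by
  classical
  have hL1' : (1 : ℤ) ≤ L := by exact_mod_cast hL1
  set y0 : ℤ := Y z (a * 2 ^ n) (b * 2 ^ n) with hy0
  have ha0 : a * 2 ^ n ∈ dI n a := by
    unfold dI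
    rw [Finset.mem_Ico]
    have : (0 : ℤ) < 2 ^ n := by positivity
    constructor <;> nlinarith
  have hb0 : b * 2 ^ n ∈ dI n b := by
    unfold dI
    rw [Finset.mem_Ico]
    have : (0 : ℤ) < 2 ^ n := by positivity
    constructor <;> nlinarith
  have hsub : WT.biUnion iv ⊆
      Finset.Ico (y0 - (2 * L + 1) * 2 ^ n) (y0 + (2 * L + 1) * 2 ^ n) := by
    intro y hy
    obtain ⟨P', hP', hyP⟩ := Finset.mem_biUnion.1 hy
    obtain ⟨u, hu, v, hv, hY⟩ := hp P' hP'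
    obtain ⟨hle, hna⟩ := hWT P' hP'
    have h7 := size7 hL hL1 hC hle hna hM hu hv hY
    have d1 := dI_dist hu ha0
    have d2 := dI_dist hv hb0
    have h3 : |Y z u v - y0| ≤ L * (2 ^ n + 2 ^ n) :=
      (hL z u v _ _).trans (mul_le_mul_of_nonneg_left (add_le_add d1 d2) (by linarith))
    have h4 : (2 : ℤ) ^ (P'.1 + 7) ≤ 2 ^ n := pow_le_pow_right₀ (by norm_num) h7
    unfold iv dI at hY hyP
    rw [Finset.mem_Ico] at hY hyP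
    have e : (P'.2 + 1) * 2 ^ (P'.1 + 7) = P'.2 * 2 ^ (P'.1 + 7) + (2 : ℤ) ^ (P'.1 + 7) := by ring
    rw [e] at hY hyP
    have h5 := (abs_le.1 h3).1
    have h6 := (abs_le.1 h3).2
    rw [Finset.mem_Ico]
    constructor <;> nlinarith [hY.1, hY.2, hyP.1, hyP.2]
  have hcard : (WT.biUnion iv).card = ∑ P' ∈ WT, (iv P').card :=
    Finset.card_biUnion fun P' h P'' h' hne => hdisj P' h P'' h' hne
  have hiv : ∀ P' : ℕ × ℤ, ((iv P').card : ℝ) = 2 ^ (P'.1 + 7) := by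
    intro P'
    unfold iv dI
    rw [Int.card_Ico]
    have : (P'.2 + 1) * 2 ^ (P'.1 + 7) - P'.2 * 2 ^ (P'.1 + 7) = ((2 ^ (P'.1 + 7) : ℕ) : ℤ) := by
      push_cast; ring
    rw [this, Int.toNat_natCast]
    push_cast; rfl
  have h1 := Finset.card_le_card hsub
  rw [hcard, Int.card_Ico] at h1
  have e2 : y0 + (2 * L + 1) * 2 ^ n - (y0 - (2 * L + 1) * 2 ^ n)
      = (((4 * L + 2) * 2 ^ n : ℕ) : ℤ) := by push_cast; ring
  rw [e2, Int.toNat_natCast] at h1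
  have h2 : ((∑ P' ∈ WT, (iv P').card : ℕ) : ℝ) ≤ (((4 * L + 2) * 2 ^ n : ℕ) : ℝ) := by
    exact_mod_cast h1
  push_cast at h2
  rw [Finset.sum_congr rfl fun P' _ => hiv P'] at h2
  exact h2

/-- energy of a kernel on a cell -/
noncomputable def en (T1 T2 : Finset ℤ) (C : ℤ × ℤ × ℤ → ℂ) (c : ℤ × ℕ × ℤ × ℤ) : ℝ :=
  ∑ u ∈ dI c.2.1 c.2.2.1 ∩ T1, ∑ v ∈ dI c.2.1 c.2.2.2 ∩ T2, ‖C (c.1, u, v)‖ ^ 2

lemma en_nonneg (T1 T2 : Finset ℤ) (C : ℤ × ℤ × ℤ → ℂ) (c : ℤ × ℕ × ℤ × ℤ) : 0 ≤ en T1 T2 C c :=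
  Finset.sum_nonneg fun _ _ => Finset.sum_nonneg fun _ _ => sq_nonneg _

/-- the cells partition the band of `P` -/
theorem sum_en (P : ℕ × ℤ) (T0 T1 T2 : Finset ℤ) (C : ℤ × ℤ × ℤ → ℂ) :
    ∑ c ∈ Cl Y k P P T0 T1 T2, en T1 T2 C c
      = ∑ ω ∈ (T0 ×ˢ T1 ×ˢ T2).filter (fun ω => Y ω.1 ω.2.1 ω.2.2 ∈ iv P), ‖C ω‖ ^ 2 := by
  classical
  have hle : Le P P := SplSx69.Le.refl P
  rw [← Finset.sum_fiberwise_of_maps_to (g := mcell Y k P) (t := Cl Y k P P T0 T1 T2)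
    (fun ω hω => Finset.mem_image_of_mem _ hω)]
  refine Finset.sum_congr rfl fun c hc => ?_
  obtain ⟨h0, hM, _⟩ := mem_Cl hle hc
  unfold en
  rw [← Finset.sum_product']
  symm
  refine Finset.sum_bij (fun ω _ => ω.2) ?_ ?_ ?_ ?_
  · intro ω hω
    rw [Finset.mem_filter, Finset.mem_filter, Finset.mem_product, Finset.mem_product] at hω
    obtain ⟨⟨⟨_, h1, h2⟩, _⟩, rfl⟩ := hω
    rw [Finset.mem_product, Finset.mem_inter, Finset.mem_inter]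
    exact ⟨⟨self_mem _ _, h1⟩, ⟨self_mem _ _, h2⟩⟩
  · intro ω hω ω' hω' he
    rw [Finset.mem_filter] at hω hω'
    have e1 : ω.1 = ω'.1 := by
      have h1 : (mcell Y k P ω).1 = (mcell Y k P ω').1 := by rw [hω.2, hω'.2]
      exact h1
    exact Prod.ext e1 he
  · intro x hx
    rw [Finset.mem_product, Finset.mem_inter, Finset.mem_inter] at hx
    obtain ⟨⟨hu, hu1⟩, ⟨hv, hv1⟩⟩ := hx
    have hy : Y c.1 x.1 x.2 ∈ iv P := hM.2.1 _ hu _ hv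
    refine ⟨(c.1, x.1, x.2), ?_, rfl⟩
    rw [Finset.mem_filter, Finset.mem_filter, Finset.mem_product, Finset.mem_product]
    refine ⟨⟨⟨h0, hu1, hv1⟩, hy⟩, ?_⟩
    have h1 := Mx_mcell (k := k) (p := P) (ω := (c.1, x.1, x.2)) (Y := Y) hy
    obtain ⟨e1, e2, e3⟩ := Mx_eq h1 hM (self_mem _ _) hu (self_mem _ _) hv
    unfold mcell
    rw [e2, e3, e1]
  · intro ω hω
    rw [Finset.mem_filter] at hω
    have e1 : c.1 = ω.1 := by rw [← hω.2]; rfl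
    rw [e1]

lemma Cl_mono {P P' : ℕ × ℤ} (hle : Le P' P) (T0 T1 T2 : Finset ℤ) :
    Cl Y k P P' T0 T1 T2 ⊆ Cl Y k P P T0 T1 T2 := by
  unfold Cl
  refine Finset.image_subset_image fun ω hω => ?_
  rw [Finset.mem_filter] at hω ⊢
  exact ⟨hω.1, iv_le hle hω.2⟩

/-- **(I3)** -/
theorem energy_le (hL : LipY Y L) (hL1 : 1 ≤ L) (hC : 64 * L ≤ C0) {P : ℕ × ℤ}
    (WT : Finset (ℕ × ℤ)) (hWT : ∀ P' ∈ WT, Le P' P ∧ ¬ Adj C0 P P')
    (hdisj : ∀ P' ∈ WT, ∀ P'' ∈ WT, P' ≠ P'' → Disjoint (iv P') (iv P''))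
    (T0 T1 T2 : Finset ℤ) (C : ℤ × ℤ × ℤ → ℂ) :
    ∑ P' ∈ WT, (2 : ℝ) ^ (P'.1 + 7) * ∑ c ∈ Cl Y k P P' T0 T1 T2, en T1 T2 C c / 2 ^ c.2.1
      ≤ (4 * L + 2) *
        ∑ ω ∈ (T0 ×ˢ T1 ×ˢ T2).filter (fun ω => Y ω.1 ω.2.1 ω.2.2 ∈ iv P), ‖C ω‖ ^ 2 := by
  classical
  have e1 : ∀ P' ∈ WT, (2 : ℝ) ^ (P'.1 + 7) * ∑ c ∈ Cl Y k P P' T0 T1 T2, en T1 T2 C c / 2 ^ c.2.1
      = ∑ c ∈ Cl Y k P P T0 T1 T2, if c ∈ Cl Y k P P' T0 T1 T2 then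
          (2 : ℝ) ^ (P'.1 + 7) * (en T1 T2 C c / 2 ^ c.2.1) else 0 := by
    intro P' hP'
    rw [Finset.mul_sum, ← Finset.sum_filter]
    refine Finset.sum_congr ?_ fun _ _ => rfl
    ext c
    rw [Finset.mem_filter]
    exact ⟨fun h => ⟨Cl_mono (hWT P' hP').1 _ _ _ h, h⟩, fun h => h.2⟩
  rw [Finset.sum_congr rfl e1, Finset.sum_comm, ← sum_en (k := k), Finset.mul_sum]
  refine Finset.sum_le_sum fun c hc => ?_
  obtain ⟨h0, hM, _⟩ := mem_Cl (SplSx69.Le.refl P) hc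
  rw [← Finset.sum_filter, ← Finset.sum_mul]
  have h1 : ∑ P' ∈ WT.filter (fun P' => c ∈ Cl Y k P P' T0 T1 T2), (2 : ℝ) ^ (P'.1 + 7)
      ≤ (4 * L + 2) * 2 ^ c.2.1 := by
    refine tops_le hL hL1 hC _ (fun P' h => hWT P' (Finset.mem_filter.1 h).1)
      (fun P' h P'' h' hne => hdisj P' (Finset.mem_filter.1 h).1 P'' (Finset.mem_filter.1 h').1 hne)
      hM fun P' h => ?_
    obtain ⟨hP', hcP⟩ := Finset.mem_filter.1 h
    obtain ⟨_, _, u, hu, v, hv, hy⟩ := mem_Cl (hWT P' hP').1 hcP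
    exact ⟨u, (Finset.mem_inter.1 hu).1, v, (Finset.mem_inter.1 hv).1, hy⟩
  have h2 : 0 ≤ en T1 T2 C c / 2 ^ c.2.1 := div_nonneg (en_nonneg _ _ _ _) (by positivity)
  refine (mul_le_mul_of_nonneg_right h1 h2).trans (le_of_eq ?_)
  have h3 : (2 : ℝ) ^ c.2.1 ≠ 0 := by positivity
  field_simp

/-! ### the line form of slot `j`, edge `e` -/

/-- line form -/
def Yf (j : Fin 4) (e : Fin 3) (z u v : ℤ) : ℤ :=
  Glue.cf j e * z + Glue.cf j (e + 1) * u + Glue.cf j (e + 2) * v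

lemma cf_abs (j : Fin 4) (i : Fin 3) : 1 ≤ |Glue.cf j i| ∧ |Glue.cf j i| ≤ 3 := by
  revert i
  revert j
  unfold Glue.cf sl
  decide

theorem lip_Yf (j : Fin 4) (e : Fin 3) : LipY (Yf j e) 3 := by
  intro z u v u' v'
  have e1 : Yf j e z u v - Yf j e z u' v'
      = Glue.cf j (e + 1) * (u - u') + Glue.cf j (e + 2) * (v - v') := by unfold Yf; ring
  rw [e1]
  refine (abs_add_le _ _).trans ?_
  rw [abs_mul, abs_mul, mul_add]
  exact add_le_add (mul_le_mul_of_nonneg_right (cf_abs j _).2 (abs_nonneg _))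
    (mul_le_mul_of_nonneg_right (cf_abs j _).2 (abs_nonneg _))

theorem expV_Yf (j : Fin 4) (e : Fin 3) : ExpV (Yf j e) := by
  intro z u v v'
  have e1 : Yf j e z u v - Yf j e z u v' = Glue.cf j (e + 2) * (v - v') := by unfold Yf; ring
  rw [e1, abs_mul]
  exact le_mul_of_one_le_left (abs_nonneg _) (cf_abs j _).1

theorem expU_Yf (j : Fin 4) (e : Fin 3) : ExpU (Yf j e) := by
  intro z u u' v
  have e1 : Yf j e z u v - Yf j e z u' v = Glue.cf j (e + 1) * (u - u') := by unfold Yf; ring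
  rw [e1, abs_mul]
  exact le_mul_of_one_le_left (abs_nonneg _) (cf_abs j _).1

end Crest.Agent.R079.SKcx608
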