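import Crest.Agent.R079.SKh_261

/-! R079, item (c) of 973 / note 1201 (helper261): definitions of the cells of `P` near `P'`. -/

set_option autoImplicit false

namespace Crest.Agent.R079.SKx261

open Finset Crest.Agent.R079.Grid Crest.Agent.R079.Growth Crest.Agent.R079.QRed
  Crest.Agent.R079.TWin Crest.Agent.R079.Glue Crest.Agent.R079.Cel159 Crest.Agent.R079.SplSx69

/-- the box of positions -/
def S3 (T : Fin 3 → Finset ℤ) (e : Fin 3) : Finset (ℤ × ℤ × ℤ) := T e ×ˢ (T (e + 1) ×ˢ T (e + 2))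

open Classical in
/-- maximal cells of `P` meeting the strip of `P'` (inside the box of positions) -/
noncomputable def Clx (j : Fin 4) (e : Fin 3) (k : ℕ) (P P' : Nd) (T : Fin 3 → Finset ℤ) :
    Finset (ℤ × ℕ × ℤ × ℤ) :=
  ((S3 T e).filter (fun ω => Yl j e ω.1 ω.2.1 ω.2.2 ∈ iv P')).image (mcell (Yl j e) k P)

/-- energy of a kernel on a cell -/
noncomputable def cE (T : Fin 3 → Finset ℤ) (e : Fin 3) (C : ℤ × ℤ × ℤ → ℂ)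
    (c : ℤ × ℕ × ℤ × ℤ) : ℝ :=
  ∑ u ∈ dI c.2.1 c.2.2.1 ∩ T (e + 1), ∑ v ∈ dI c.2.1 c.2.2.2 ∩ T (e + 2), ‖C (c.1, u, v)‖ ^ 2

/-- normalised energy of the cells near `P'` -/
noncomputable def GP {ι : Type} [Fintype ι] (j : Fin 4) (e : Fin 3) (k : ℕ) (P P' : Nd)
    (T : Fin 3 → Finset ℤ) (kap : ι → ℝ) (C : ι → ℤ × ℤ × ℤ → ℂ) : ℝ :=
  ∑ w, kap w * ∑ c ∈ Clx j e k P P' T, (1 / (2 : ℝ) ^ c.2.1) * cE T e (C w) c

variable {j : Fin 4} {e : Fin 3} {k : ℕ} {P P' : Nd} {T : Fin 3 → Finset ℤ}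

lemma mem_S3 {ω : ℤ × ℤ × ℤ} :
    ω ∈ S3 T e ↔ ω.1 ∈ T e ∧ ω.2.1 ∈ T (e + 1) ∧ ω.2.2 ∈ T (e + 2) := by
  unfold S3
  rw [Finset.mem_product, Finset.mem_product]

/-- the facts about a cell of `Clx` -/
lemma Clx_spec (hP : iv P' ⊆ iv P) {c : ℤ × ℕ × ℤ × ℤ} (hc : c ∈ Clx j e k P P' T) :
    c.1 ∈ T e ∧ Mx (Yl j e c.1) k P c.2.1 c.2.2.1 c.2.2.2 ∧
      ∃ u ∈ dI c.2.1 c.2.2.1 ∩ T (e + 1), ∃ v ∈ dI c.2.1 c.2.2.2 ∩ T (e + 2),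
        Yl j e c.1 u v ∈ iv P' := by
  classical
  unfold Clx at hc
  obtain ⟨ω, hω, rfl⟩ := Finset.mem_image.1 hc
  rw [Finset.mem_filter, mem_S3] at hω
  refine ⟨hω.1.1, Mx_mcell (hP hω.2), ω.2.1, ?_, ω.2.2, ?_, hω.2⟩
  · rw [Finset.mem_inter, L0e.mem_dI]
    exact ⟨rfl, hω.1.2.1⟩
  · rw [Finset.mem_inter, L0e.mem_dI]
    exact ⟨rfl, hω.1.2.2⟩

/-- the cell of a point of the strip of `P'` -/
lemma mem_Clx {z u v : ℤ} (hz : z ∈ T e) (hu : u ∈ T (e + 1)) (hv : v ∈ T (e + 2))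
    (hy : Yl j e z u v ∈ iv P') : mcell (Yl j e) k P (z, u, v) ∈ Clx j e k P P' T := by
  classical
  unfold Clx
  exact Finset.mem_image_of_mem _ (Finset.mem_filter.2 ⟨mem_S3.2 ⟨hz, hu, hv⟩, hy⟩)

lemma cE_nonneg (C : ℤ × ℤ × ℤ → ℂ) (c : ℤ × ℕ × ℤ × ℤ) : 0 ≤ cE T e C c :=
  Finset.sum_nonneg fun _ _ => Finset.sum_nonneg fun _ _ => sq_nonneg _

end Crest.Agent.R079.SKx261
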