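import Crest.Agent.R079.SKg_261
import Crest.Agent.R079.SKdef_261
import Crest.Agent.R079.SKcell_608

/-! # R079, (I3) of note 1201 with Whitney tops (helper608)

`energy_one` : one kernel; `energy_sum` : weighted sum over the gauges `w`. -/

set_option autoImplicit false

namespace Crest.Agent.R079.SKcx608

open Finset Crest.Agent.R079 Crest.Agent.R079.Grid Crest.Agent.R079.Growth
open Crest.Agent.R079.Whit (Ins)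
open Crest.Agent.R079.Cel159 (Mx Mx_eq sc mcell Mx_mcell)
open Crest.Agent.R079.SplSx69 (Le Adj WTop dist_of_not_adj)
open Crest.Agent.R079.SKx261 (Yl lin_Yl wtop_meet)

/-- **(I3), one kernel** -/
theorem energy_one (j : Fin 4) (e : Fin 3) (k : ℕ) {P : ℕ × ℤ} {C0 : ℕ} (hC : 1 ≤ C0)
    (S : Finset (ℕ × ℤ)) (hS : ∀ P' ∈ S, iv P' ⊆ iv P ∧ WTop C0 P P')
    (T0 T1 T2 : Finset ℤ) (C : ℤ × ℤ × ℤ → ℂ) :
    ∑ P' ∈ S, (2 : ℝ) ^ (P'.1 + 7) *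
        ∑ c ∈ Cl (Yl j e) k P P' T0 T1 T2, (1 / 2 ^ c.2.1) * en T1 T2 C c
      ≤ 2 ^ 9 * ∑ ω ∈ (T0 ×ˢ T1 ×ˢ T2).filter (fun ω => Yl j e ω.1 ω.2.1 ω.2.2 ∈ iv P),
          ‖C ω‖ ^ 2 := by
  classical
  have e1 : ∀ P' ∈ S, (2 : ℝ) ^ (P'.1 + 7) *
        ∑ c ∈ Cl (Yl j e) k P P' T0 T1 T2, (1 / 2 ^ c.2.1) * en T1 T2 C c
      = ∑ c ∈ Cl (Yl j e) k P P T0 T1 T2, if c ∈ Cl (Yl j e) k P P' T0 T1 T2 then
          (2 : ℝ) ^ (P'.1 + 7) * ((1 / 2 ^ c.2.1) * en T1 T2 C c) else 0 := by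
    intro P' hP'
    rw [Finset.mul_sum, ← Finset.sum_filter]
    refine Finset.sum_congr ?_ fun _ _ => rfl
    ext c
    rw [Finset.mem_filter]
    exact ⟨fun h => ⟨Cl_mono (hS P' hP').1 _ _ _ h, h⟩, fun h => h.2⟩
  rw [Finset.sum_congr rfl e1, Finset.sum_comm, ← sum_en (k := k), Finset.mul_sum]
  refine Finset.sum_le_sum fun c hc => ?_
  obtain ⟨h0, hM, _⟩ := mem_Cl (SplSx69.Le.refl P) hc
  rw [← Finset.sum_filter, ← Finset.sum_mul]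
  have h1 : ∑ P' ∈ S.filter (fun P' => c ∈ Cl (Yl j e) k P P' T0 T1 T2), (2 : ℝ) ^ (P'.1 + 7)
      ≤ 2 ^ 9 * 2 ^ c.2.1 := by
    refine wtop_meet (lin_Yl j e c.1) hC hM _ fun P' h => ?_
    obtain ⟨hP', hcP⟩ := Finset.mem_filter.1 h
    obtain ⟨_, _, u, hu, v, hv, hy⟩ := mem_Cl (hS P' hP').1 hcP
    exact ⟨(hS P' hP').1, (hS P' hP').2, u, (Finset.mem_inter.1 hu).1, v,
      (Finset.mem_inter.1 hv).1, hy⟩
  have h2 : 0 ≤ (1 / 2 ^ c.2.1) * en T1 T2 C c := mul_nonneg (by positivity) (en_nonneg _ _ _ _)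
  refine (mul_le_mul_of_nonneg_right h1 h2).trans (le_of_eq ?_)
  have h3 : (2 : ℝ) ^ c.2.1 ≠ 0 := by positivity
  field_simp

/-- **(I3)** -/
theorem energy_sum {ι : Type*} [Fintype ι] (j : Fin 4) (e : Fin 3) (k : ℕ) {P : ℕ × ℤ} {C0 : ℕ}
    (hC : 1 ≤ C0) (S : Finset (ℕ × ℤ)) (hS : ∀ P' ∈ S, iv P' ⊆ iv P ∧ WTop C0 P P')
    (T : Fin 3 → Finset ℤ) {kap : ι → ℝ} (hkap : ∀ w, 0 ≤ kap w) (C : ι → ℤ × ℤ × ℤ → ℂ) :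
    ∑ P' ∈ S, (2 : ℝ) ^ (P'.1 + 7) *
        ∑ w, kap w * ∑ c ∈ Cl (Yl j e) k P P' (T e) (T (e + 1)) (T (e + 2)),
          (1 / 2 ^ c.2.1) * en (T (e + 1)) (T (e + 2)) (C w) c
      ≤ 2 ^ 9 * ∑ w, kap w *
        ∑ ω ∈ (T e ×ˢ T (e + 1) ×ˢ T (e + 2)).filter (fun ω => Yl j e ω.1 ω.2.1 ω.2.2 ∈ iv P),
          ‖C w ω‖ ^ 2 := by
  classical
  have e1 : ∀ P' ∈ S, (2 : ℝ) ^ (P'.1 + 7) *
        ∑ w, kap w * ∑ c ∈ Cl (Yl j e) k P P' (T e) (T (e + 1)) (T (e + 2)),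
          (1 / 2 ^ c.2.1) * en (T (e + 1)) (T (e + 2)) (C w) c
      = ∑ w, kap w * ((2 : ℝ) ^ (P'.1 + 7) *
        ∑ c ∈ Cl (Yl j e) k P P' (T e) (T (e + 1)) (T (e + 2)),
          (1 / 2 ^ c.2.1) * en (T (e + 1)) (T (e + 2)) (C w) c) := by
    intro P' _
    rw [Finset.mul_sum]
    exact Finset.sum_congr rfl fun w _ => by ring
  rw [Finset.sum_congr rfl e1, Finset.sum_comm, Finset.mul_sum]
  refine Finset.sum_le_sum fun w _ => ?_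
  rw [← Finset.mul_sum]
  have h := mul_le_mul_of_nonneg_left
    (energy_one j e k hC S hS (T e) (T (e + 1)) (T (e + 2)) (C w)) (hkap w)
  refine h.trans (le_of_eq (by ring))

open Crest.Agent.R079.SKx261 (S3 Clx cE GP)

lemma Clx_eq (j : Fin 4) (e : Fin 3) (k : ℕ) (P P' : ℕ × ℤ) (T : Fin 3 → Finset ℤ) :
    Clx j e k P P' T = Cl (Yl j e) k P P' (T e) (T (e + 1)) (T (e + 2)) := by
  unfold Clx Cl S3
  congr!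

/-- **(I3) in the literal of SKdef_261** -/
theorem sum_GP {ι : Type} [Fintype ι] (j : Fin 4) (e : Fin 3) (k : ℕ) {P : ℕ × ℤ} {C0 : ℕ}
    (hC : 1 ≤ C0) (S : Finset (ℕ × ℤ)) (hS : ∀ P' ∈ S, iv P' ⊆ iv P ∧ WTop C0 P P')
    (T : Fin 3 → Finset ℤ) {kap : ι → ℝ} (hkap : ∀ w, 0 ≤ kap w) (C : ι → ℤ × ℤ × ℤ → ℂ) :
    ∑ P' ∈ S, (2 : ℝ) ^ (P'.1 + 7) * GP j e k P P' T kap C
      ≤ 2 ^ 9 * ∑ w, kap w *
        ∑ ω ∈ (S3 T e).filter (fun ω => Yl j e ω.1 ω.2.1 ω.2.2 ∈ iv P), ‖C w ω‖ ^ 2 := by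
  have h := energy_sum j e k hC S hS T hkap C
  have e1 : ∀ P' : ℕ × ℤ, GP j e k P P' T kap C
      = ∑ w, kap w * ∑ c ∈ Cl (Yl j e) k P P' (T e) (T (e + 1)) (T (e + 2)),
          (1 / 2 ^ c.2.1) * en (T (e + 1)) (T (e + 2)) (C w) c := by
    intro P'
    unfold GP
    rw [Clx_eq]
    rfl
  simp only [e1]
  exact h

/-- the other order of the factors -/
theorem sum_GP' {ι : Type} [Fintype ι] (j : Fin 4) (e : Fin 3) (k : ℕ) {P : ℕ × ℤ} {C0 : ℕ}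
    (hC : 1 ≤ C0) (S : Finset (ℕ × ℤ)) (hS : ∀ P' ∈ S, iv P' ⊆ iv P ∧ WTop C0 P P')
    (T : Fin 3 → Finset ℤ) {kap : ι → ℝ} (hkap : ∀ w, 0 ≤ kap w) (C : ι → ℤ × ℤ × ℤ → ℂ) :
    ∑ P' ∈ S, GP j e k P P' T kap C * (2 : ℝ) ^ (P'.1 + 7)
      ≤ 2 ^ 9 * ∑ w, kap w *
        ∑ ω ∈ (S3 T e).filter (fun ω => Yl j e ω.1 ω.2.1 ω.2.2 ∈ iv P), ‖C w ω‖ ^ 2 := by
  refine le_of_eq_of_le (Finset.sum_congr rfl fun P' _ => mul_comm _ _)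
    (sum_GP j e k hC S hS T hkap C)

end Crest.Agent.R079.SKcx608
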