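import Crest.Agent.R079.Max_292
import Crest.Agent.R079.GrowthDefs_248

/-! R079 (helper69): **Whitney splitting of a region** for (S).

`Adj C0 J p` = the node `p` below `J` is at distance `< C0` own lengths from an end of `J`.
`WTop C0 J P` = `P` is not `Adj`, its parent is `Adj` (Whitney interval of `iv J`).
`split_region`: if a nonnegative node function `f` is `≤ g0 * len p` at the adjacent nodes and at the
nodes of level `< n0`, and `∑_{p ∈ R, p ⊂ P, n0 ≤ p.1} f p ≤ g1 * len P` for all Whitney tops `P ∈ R`, then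
`∑_{p ∈ R} f p ≤ ((4 C0 + n0) g0 + 8 C0 g1) * len J`.
`sub_region`: `{p ∈ R, p ⊂ P, n0 ≤ p.1}` is a region with top `P`.
`dist_of_not_adj`, `near_of_wtop`: distances to the ends of `iv J`. -/

set_option autoImplicit false

namespace Crest.Agent.R079.SplSx69

open Finset Crest.Agent.R079 Crest.Agent.R079.Grid Crest.Agent.R079.L0e

/-- adjacent nodes -/
def Adj (C0 : ℕ) (J p : ℕ × ℤ) : Prop :=
  p.2 < J.2 * 2 ^ (J.1 - p.1) + C0 ∨ (J.2 + 1) * 2 ^ (J.1 - p.1) ≤ p.2 + C0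

/-- parent -/
def pa (p : ℕ × ℤ) : ℕ × ℤ := (p.1 + 1, p.2 / 2)

/-- Whitney tops -/
def WTop (C0 : ℕ) (J p : ℕ × ℤ) : Prop := ¬ Adj C0 J p ∧ Adj C0 J (pa p)

/-- `p` below `q` -/
def Le (p q : ℕ × ℤ) : Prop := dI (p.1 + 7) p.2 ⊆ dI (q.1 + 7) q.2

lemma le_iff {p q : ℕ × ℤ} : Le p q ↔ p.1 ≤ q.1 ∧ p.2 / 2 ^ (q.1 - p.1) = q.2 := by
  constructor
  · intro h
    obtain ⟨j, h1, h2⟩ := dI_sub_imp h
    have e : q.1 = p.1 + j := by omega
    refine ⟨by omega, ?_⟩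
    rw [e, Nat.add_sub_cancel_left, h2]
  · rintro ⟨h1, h2⟩
    obtain ⟨j, hj⟩ := Nat.exists_eq_add_of_le h1
    rw [hj, Nat.add_sub_cancel_left] at h2
    have := dI_sub (p.1 + 7) j p.2
    unfold Le
    rw [hj, ← h2, show p.1 + j + 7 = p.1 + 7 + j by ring]
    exact this

lemma Le.refl (p : ℕ × ℤ) : Le p p := Finset.Subset.refl _

lemma Le.trans {p q r : ℕ × ℤ} (h1 : Le p q) (h2 : Le q r) : Le p r := Finset.Subset.trans h1 h2

lemma le_pa (p : ℕ × ℤ) : Le p (pa p) := by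
  rw [le_iff]
  refine ⟨Nat.le_succ _, ?_⟩
  unfold pa
  simp

lemma pa_le {p J : ℕ × ℤ} (h : Le p J) (hl : p.1 < J.1) : Le (pa p) J := by
  rw [le_iff] at h ⊢
  obtain ⟨h1, h2⟩ := h
  refine ⟨hl, ?_⟩
  obtain ⟨j, hj⟩ := Nat.exists_eq_add_of_lt hl
  have e : J.1 - p.1 = 1 + j := by omega
  have e' : J.1 - (pa p).1 = j := by unfold pa; simp only; omega
  rw [e, ← ediv_pow_pow] at h2
  rw [e']
  unfold pa
  simpa using h2

lemma bounds {p J : ℕ × ℤ} (h : Le p J) :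
    J.2 * 2 ^ (J.1 - p.1) ≤ p.2 ∧ p.2 < (J.2 + 1) * 2 ^ (J.1 - p.1) := by
  rw [le_iff] at h
  obtain ⟨_, h2⟩ := h
  have h0 : (0 : ℤ) < 2 ^ (J.1 - p.1) := by positivity
  rw [← Int.le_ediv_iff_mul_le h0, ← Int.ediv_lt_iff_lt_mul h0]
  omega

lemma adj_pa {C0 : ℕ} {J p : ℕ × ℤ} (hl : p.1 < J.1) (h : Adj C0 J p) : Adj C0 J (pa p) := by
  unfold Adj at h ⊢
  obtain ⟨j, hj⟩ := Nat.exists_eq_add_of_lt hl
  have e : J.1 - p.1 = j + 1 := by omega
  have e' : J.1 - (pa p).1 = j := by unfold pa; simp only; omega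
  rw [e, pow_succ] at h
  rw [e']
  unfold pa
  simp only
  have hC : (0 : ℤ) ≤ C0 := Int.natCast_nonneg _
  rcases h with h | h
  · left
    have h' : p.2 < 2 * (J.2 * 2 ^ j) + C0 := by linarith [mul_comm (J.2 * 2 ^ j) (2 : ℤ), mul_assoc J.2 ((2 : ℤ) ^ j) 2]
    omega
  · right
    have h' : 2 * ((J.2 + 1) * 2 ^ j) ≤ p.2 + C0 := by
      linarith [mul_comm ((J.2 + 1) * 2 ^ j) (2 : ℤ), mul_assoc (J.2 + 1) ((2 : ℤ) ^ j) 2]
    omega

lemma adj_top {C0 : ℕ} (hC : 1 ≤ C0) (J : ℕ × ℤ) : Adj C0 J J := by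
  left
  simp only [Nat.sub_self, pow_zero, mul_one]
  have : (1 : ℤ) ≤ C0 := by exact_mod_cast hC
  omega

/-- every non-adjacent node below `J` has a Whitney ancestor -/
lemma exists_wtop {C0 : ℕ} (hC : 1 ≤ C0) {J : ℕ × ℤ} : ∀ (n : ℕ) (p : ℕ × ℤ), J.1 - p.1 = n →
    Le p J → ¬ Adj C0 J p → ∃ P, Le p P ∧ Le P J ∧ WTop C0 J P := by
  intro n
  induction n with
  | zero =>
    intro p hn hp ha
    exfalso
    have hp' := le_iff.1 hp
    have e : p.1 = J.1 := by omega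
    have e2 : p.2 = J.2 := by
      have := hp'.2
      rw [e] at this
      simpa using this
    apply ha
    have : p = J := Prod.ext e e2
    rw [this]
    exact adj_top hC J
  | succ n ih =>
    intro p hn hp ha
    have hl : p.1 < J.1 := by omega
    by_cases h : Adj C0 J (pa p)
    · exact ⟨p, Le.refl p, hp, ha, h⟩
    · obtain ⟨P, h1, h2, h3⟩ := ih (pa p) (by unfold pa; simp only; omega) (pa_le hp hl) h
      exact ⟨P, (le_pa p).trans h1, h2, h3⟩

/-- points of a non-adjacent node are far from the ends -/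
theorem dist_of_not_adj {C0 : ℕ} {J p : ℕ × ℤ} (hp : Le p J) (h : ¬ Adj C0 J p) {y : ℤ}
    (hy : y ∈ dI (p.1 + 7) p.2) :
    J.2 * 2 ^ (J.1 + 7) + C0 * 2 ^ (p.1 + 7) ≤ y ∧
      y + C0 * 2 ^ (p.1 + 7) < (J.2 + 1) * 2 ^ (J.1 + 7) := by
  unfold Adj at h
  push Not at h
  obtain ⟨h1, h2⟩ := h
  unfold dI at hy
  rw [Finset.mem_Ico] at hy
  obtain ⟨hle, _⟩ := le_iff.1 hp
  have e : J.1 + 7 = (J.1 - p.1) + (p.1 + 7) := by omega
  have h0 : (0 : ℤ) < 2 ^ (p.1 + 7) := by positivity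
  rw [e, pow_add, ← mul_assoc, ← mul_assoc]
  set D : ℤ := 2 ^ (J.1 - p.1)
  set L : ℤ := 2 ^ (p.1 + 7)
  constructor
  · calc J.2 * D * L + C0 * L = (J.2 * D + C0) * L := by ring
      _ ≤ p.2 * L := mul_le_mul_of_nonneg_right h1 h0.le
      _ ≤ y := hy.1
  · have h3 : p.2 + 1 + C0 ≤ (J.2 + 1) * D := by omega
    calc y + C0 * L < (p.2 + 1) * L + C0 * L := by linarith [hy.2]
      _ = (p.2 + 1 + C0) * L := by ring
      _ ≤ (J.2 + 1) * D * L := mul_le_mul_of_nonneg_right h3 h0.le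

/-- points of an adjacent node are close to an end -/
theorem near_of_adj {C0 : ℕ} {J p : ℕ × ℤ} (hp : Le p J) (h : Adj C0 J p) {y : ℤ}
    (hy : y ∈ dI (p.1 + 7) p.2) :
    y < J.2 * 2 ^ (J.1 + 7) + C0 * 2 ^ (p.1 + 7) ∨
      (J.2 + 1) * 2 ^ (J.1 + 7) ≤ y + C0 * 2 ^ (p.1 + 7) := by
  unfold Adj at h
  unfold dI at hy
  rw [Finset.mem_Ico] at hy
  obtain ⟨hle, _⟩ := le_iff.1 hp
  have e : J.1 + 7 = (J.1 - p.1) + (p.1 + 7) := by omega
  have h0 : (0 : ℤ) < 2 ^ (p.1 + 7) := by positivity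
  rw [e, pow_add, ← mul_assoc, ← mul_assoc]
  set D : ℤ := 2 ^ (J.1 - p.1)
  set L : ℤ := 2 ^ (p.1 + 7)
  rcases h with h | h
  · left
    have h3 : p.2 + 1 ≤ J.2 * D + C0 := by omega
    calc y < (p.2 + 1) * L := hy.2
      _ ≤ (J.2 * D + C0) * L := mul_le_mul_of_nonneg_right h3 h0.le
      _ = J.2 * D * L + C0 * L := by ring
  · right
    calc (J.2 + 1) * D * L ≤ (p.2 + C0) * L := mul_le_mul_of_nonneg_right h h0.le
      _ = p.2 * L + C0 * L := by ring
      _ ≤ y + C0 * L := by linarith [hy.1]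

/-- the part of a region below a node, with a scale floor, is a region -/
theorem sub_region {R : Finset (ℕ × ℤ)} {J : ℕ × ℤ} (hR : IsRegion R J) {P : ℕ × ℤ} (hP : Le P J)
    (n0 : ℕ) [DecidablePred fun p : ℕ × ℤ => Le p P ∧ n0 ≤ p.1] :
    IsRegion (R.filter fun p => Le p P ∧ n0 ≤ p.1) P := by
  constructor
  · intro p hp
    exact (Finset.mem_filter.1 hp).2.1
  · intro p hp q hpq hq
    obtain ⟨hp1, hp2, hp3⟩ := Finset.mem_filter.1 hp
    refine Finset.mem_filter.2 ⟨hR.2 p hp1 q hpq (hq.trans hP), hq, ?_⟩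
    have h1 : Le p q := hpq
    exact hp3.trans (le_iff.1 h1).1

lemma geom_le (M : ℕ) : ∑ m ∈ Finset.range (M + 1), (2 : ℝ) ^ (m + 7) ≤ 2 * 2 ^ (M + 7) := by
  have h : ∀ M : ℕ, ∑ m ∈ Finset.range (M + 1), (2 : ℝ) ^ (m + 7) = 2 * 2 ^ (M + 7) - 2 ^ 7 := by
    intro M
    induction M with
    | zero => norm_num
    | succ M ih =>
      rw [Finset.sum_range_succ, ih]
      ring
  rw [h M]
  norm_num

/-- counting: if the nodes of each level of `S` number at most `c`, the total length is small -/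
lemma sum_len_le (S : Finset (ℕ × ℤ)) (M c : ℕ) (hM : ∀ p ∈ S, p.1 ≤ M)
    (hc : ∀ m, (S.filter fun p => p.1 = m).card ≤ c) :
    ∑ p ∈ S, (2 : ℝ) ^ (p.1 + 7) ≤ 2 * c * 2 ^ (M + 7) := by
  have hm : ∀ p ∈ S, p.1 ∈ Finset.range (M + 1) := fun p hp =>
    Finset.mem_range.2 (Nat.lt_succ_of_le (hM p hp))
  rw [← Finset.sum_fiberwise_of_maps_to hm]
  calc ∑ m ∈ Finset.range (M + 1), ∑ p ∈ S.filter (fun p => p.1 = m), (2 : ℝ) ^ (p.1 + 7)
      ≤ ∑ m ∈ Finset.range (M + 1), (c : ℝ) * 2 ^ (m + 7) := by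
        refine Finset.sum_le_sum fun m _ => ?_
        rw [Finset.sum_congr rfl (fun p hp => by rw [(Finset.mem_filter.1 hp).2] :
          ∀ p ∈ S.filter (fun p => p.1 = m), (2 : ℝ) ^ (p.1 + 7) = 2 ^ (m + 7)),
          Finset.sum_const, nsmul_eq_mul]
        exact mul_le_mul_of_nonneg_right (by exact_mod_cast hc m) (by positivity)
    _ = c * ∑ m ∈ Finset.range (M + 1), (2 : ℝ) ^ (m + 7) := by rw [Finset.mul_sum]
    _ ≤ c * (2 * 2 ^ (M + 7)) := mul_le_mul_of_nonneg_left (geom_le M) (Nat.cast_nonneg _)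
    _ = _ := by ring

/-- number of adjacent nodes of one level -/
lemma adj_card (C0 : ℕ) (J : ℕ × ℤ) (S : Finset (ℕ × ℤ)) (hS : ∀ p ∈ S, Le p J)
    (ha : ∀ p ∈ S, Adj C0 J p) (m : ℕ) : (S.filter fun p => p.1 = m).card ≤ 2 * C0 := by
  classical
  set a : ℤ := J.2 * 2 ^ (J.1 - m)
  set b : ℤ := (J.2 + 1) * 2 ^ (J.1 - m)
  have hsub : (S.filter fun p => p.1 = m) ⊆
      ((Finset.Ico a (a + C0)) ∪ Finset.Ico (b - C0) b).image fun l => (m, l) := by
    intro p hp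
    obtain ⟨hp1, hp2⟩ := Finset.mem_filter.1 hp
    have h1 := bounds (hS p hp1)
    have h2 := ha p hp1
    unfold Adj at h2
    rw [hp2] at h1 h2
    rw [Finset.mem_image]
    refine ⟨p.2, ?_, Prod.ext hp2.symm rfl⟩
    rw [Finset.mem_union, Finset.mem_Ico, Finset.mem_Ico]
    rcases h2 with h2 | h2
    · left; exact ⟨h1.1, h2⟩
    · right; exact ⟨by linarith, h1.2⟩
  calc (S.filter fun p => p.1 = m).card ≤ _ := Finset.card_le_card hsub
    _ ≤ ((Finset.Ico a (a + C0)) ∪ Finset.Ico (b - C0) b).card := Finset.card_image_le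
    _ ≤ (Finset.Ico a (a + C0)).card + (Finset.Ico (b - C0) b).card := Finset.card_union_le _ _
    _ = 2 * C0 := by
        rw [Int.card_Ico, Int.card_Ico]
        simp
        ring

/-- number of Whitney tops of one level -/
lemma wtop_card (C0 : ℕ) (J : ℕ × ℤ) (S : Finset (ℕ × ℤ)) (hS : ∀ p ∈ S, Le p J)
    (ha : ∀ p ∈ S, WTop C0 J p) (hC : 1 ≤ C0) (m : ℕ) :
    (S.filter fun p => p.1 = m).card ≤ 4 * C0 := by
  classical
  by_cases hm : m < J.1
  · obtain ⟨j, hj⟩ := Nat.exists_eq_add_of_lt hm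
    have hJ1 : J.1 - m = j + 1 := by omega
    have hJ2 : J.1 - (m + 1) = j := by omega
    set a : ℤ := J.2 * 2 ^ j
    set b : ℤ := (J.2 + 1) * 2 ^ j
    have hsub : (S.filter fun p => p.1 = m) ⊆
        ((Finset.Ico (2 * a) (2 * a + 2 * C0)) ∪ Finset.Ico (2 * b - 2 * C0) (2 * b)).image
          fun l => (m, l) := by
      intro p hp
      obtain ⟨hp1, hp2⟩ := Finset.mem_filter.1 hp
      have h1 := bounds (hS p hp1)
      have h2 := (ha p hp1).2
      unfold Adj pa at h2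
      simp only at h2
      rw [hp2, hJ1, pow_succ] at h1
      rw [hp2, hJ2] at h2
      have e1 : J.2 * (2 ^ j * 2) = 2 * a := by simp only [a]; ring
      have e2 : (J.2 + 1) * (2 ^ j * 2) = 2 * b := by simp only [b]; ring
      rw [e1, e2] at h1
      rw [Finset.mem_image]
      refine ⟨p.2, ?_, Prod.ext hp2.symm rfl⟩
      rw [Finset.mem_union, Finset.mem_Ico, Finset.mem_Ico]
      change p.2 / 2 < a + C0 ∨ b ≤ p.2 / 2 + C0 at h2
      rcases h2 with h2 | h2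
      · left; exact ⟨h1.1, by omega⟩
      · right; exact ⟨by omega, h1.2⟩
    calc (S.filter fun p => p.1 = m).card ≤ _ := Finset.card_le_card hsub
      _ ≤ _ := Finset.card_image_le
      _ ≤ _ := Finset.card_union_le _ _
      _ = 4 * C0 := by
          rw [Int.card_Ico, Int.card_Ico]
          have : (2 * a + 2 * (C0 : ℤ) - 2 * a) = ((2 * C0 : ℕ) : ℤ) := by push_cast; ring
          have h' : (2 * b - (2 * b - 2 * (C0 : ℤ))) = ((2 * C0 : ℕ) : ℤ) := by push_cast; ring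
          rw [this, h', Int.toNat_natCast]
          ring
  · have : (S.filter fun p => p.1 = m) = ∅ := by
      rw [Finset.filter_eq_empty_iff]
      intro p hp hpm
      have h1 := le_iff.1 (hS p hp)
      have e : p.1 = J.1 := by omega
      have e2 : p.2 = J.2 := by
        have := h1.2
        rw [e] at this
        simpa using this
      apply (ha p hp).1
      rw [show p = J from Prod.ext e e2]
      exact adj_top hC J
    rw [this]
    simp

/-- number of all nodes of one level below `J` -/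
lemma all_len (J : ℕ × ℤ) (S : Finset (ℕ × ℤ)) (hS : ∀ p ∈ S, Le p J) (m : ℕ) :
    ∑ p ∈ S.filter (fun p => p.1 = m), (2 : ℝ) ^ (p.1 + 7) ≤ 2 ^ (J.1 + 7) := by
  classical
  by_cases hm : m ≤ J.1
  · set a : ℤ := J.2 * 2 ^ (J.1 - m)
    set b : ℤ := (J.2 + 1) * 2 ^ (J.1 - m)
    have hsub : (S.filter fun p => p.1 = m) ⊆ (Finset.Ico a b).image fun l => (m, l) := by
      intro p hp
      obtain ⟨hp1, hp2⟩ := Finset.mem_filter.1 hp
      have h1 := bounds (hS p hp1)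
      rw [hp2] at h1
      rw [Finset.mem_image]
      exact ⟨p.2, Finset.mem_Ico.2 h1, Prod.ext hp2.symm rfl⟩
    have hcard : (S.filter fun p => p.1 = m).card ≤ 2 ^ (J.1 - m) := by
      calc (S.filter fun p => p.1 = m).card ≤ _ := Finset.card_le_card hsub
        _ ≤ (Finset.Ico a b).card := Finset.card_image_le
        _ = 2 ^ (J.1 - m) := by
            rw [Int.card_Ico]
            have : b - a = ((2 ^ (J.1 - m) : ℕ) : ℤ) := by simp only [a, b]; push_cast; ring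
            rw [this, Int.toNat_natCast]
    rw [Finset.sum_congr rfl (fun p hp => by rw [(Finset.mem_filter.1 hp).2] :
      ∀ p ∈ S.filter (fun p => p.1 = m), (2 : ℝ) ^ (p.1 + 7) = 2 ^ (m + 7)),
      Finset.sum_const, nsmul_eq_mul]
    calc ((S.filter fun p => p.1 = m).card : ℝ) * 2 ^ (m + 7) ≤ 2 ^ (J.1 - m) * 2 ^ (m + 7) :=
          mul_le_mul_of_nonneg_right (by exact_mod_cast hcard) (by positivity)
      _ = 2 ^ (J.1 + 7) := by
          rw [← pow_add]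
          congr 1
          omega
  · have : (S.filter fun p => p.1 = m) = ∅ := by
      rw [Finset.filter_eq_empty_iff]
      intro p hp hpm
      have h1 := (le_iff.1 (hS p hp)).1
      omega
    rw [this]
    simp

open Classical in
/-- **Whitney splitting of a region** -/
theorem split_region {R : Finset (ℕ × ℤ)} {J : ℕ × ℤ} (hR : IsRegion R J) (C0 : ℕ) (hC : 1 ≤ C0)
    (n0 : ℕ) (f : ℕ × ℤ → ℝ) (hf : ∀ p ∈ R, 0 ≤ f p) (g0 g1 : ℝ) (hg0 : 0 ≤ g0) (hg1 : 0 ≤ g1)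
    (hadj : ∀ p ∈ R, Adj C0 J p → f p ≤ g0 * 2 ^ (p.1 + 7))
    (hbot : ∀ p ∈ R, p.1 < n0 → f p ≤ g0 * 2 ^ (p.1 + 7))
    (hwh : ∀ P ∈ R, Le P J → WTop C0 J P →
      ∑ p ∈ R.filter (fun p => Le p P ∧ n0 ≤ p.1), f p ≤ g1 * 2 ^ (P.1 + 7)) :
    ∑ p ∈ R, f p ≤ ((4 * C0 + n0) * g0 + 8 * C0 * g1) * 2 ^ (J.1 + 7) := by
  have hRJ : ∀ p ∈ R, Le p J := hR.1
  set RA := R.filter fun p => Adj C0 J p with hRA
  set RB := R.filter fun p => p.1 < n0 with hRB
  set WT := R.filter fun p => WTop C0 J p with hWT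
  set RC := WT.biUnion fun P => R.filter fun p => Le p P ∧ n0 ≤ p.1 with hRC
  have hcov : R ⊆ RA ∪ (RB ∪ RC) := by
    intro p hp
    by_cases h1 : Adj C0 J p
    · exact Finset.mem_union_left _ (Finset.mem_filter.2 ⟨hp, h1⟩)
    · refine Finset.mem_union_right _ ?_
      by_cases h2 : p.1 < n0
      · exact Finset.mem_union_left _ (Finset.mem_filter.2 ⟨hp, h2⟩)
      · refine Finset.mem_union_right _ ?_
        obtain ⟨P, hP1, hP2, hP3⟩ := exists_wtop hC (J.1 - p.1) p rfl (hRJ p hp) h1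
        rw [hRC, Finset.mem_biUnion]
        exact ⟨P, Finset.mem_filter.2 ⟨hR.2 p hp P hP1 hP2, hP3⟩,
          Finset.mem_filter.2 ⟨hp, hP1, by omega⟩⟩
  have hnn : ∀ S : Finset (ℕ × ℤ), S ⊆ R → ∀ p ∈ S, 0 ≤ f p := fun S hS p hp => hf p (hS hp)
  have hRAs : RA ⊆ R := Finset.filter_subset _ _
  have hRBs : RB ⊆ R := Finset.filter_subset _ _
  have hRCs : RC ⊆ R := by
    intro p hp
    obtain ⟨P, _, hp2⟩ := Finset.mem_biUnion.1 hp
    exact (Finset.mem_filter.1 hp2).1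
  have hun : ∀ A B : Finset (ℕ × ℤ), A ⊆ R → B ⊆ R →
      ∑ p ∈ A ∪ B, f p ≤ ∑ p ∈ A, f p + ∑ p ∈ B, f p := by
    intro A B hA hB
    have := Finset.sum_union_inter (s₁ := A) (s₂ := B) (f := f)
    have h0 : 0 ≤ ∑ p ∈ A ∩ B, f p := Finset.sum_nonneg fun p hp =>
      hf p (hA (Finset.mem_inter.1 hp).1)
    linarith
  have hA : ∑ p ∈ RA, f p ≤ (4 * C0) * g0 * 2 ^ (J.1 + 7) := by
    calc ∑ p ∈ RA, f p ≤ ∑ p ∈ RA, g0 * (2 : ℝ) ^ (p.1 + 7) :=
          Finset.sum_le_sum fun p hp => hadj p (hRAs hp) (Finset.mem_filter.1 hp).2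
      _ = g0 * ∑ p ∈ RA, (2 : ℝ) ^ (p.1 + 7) := by rw [Finset.mul_sum]
      _ ≤ g0 * (2 * ((2 * C0 : ℕ) : ℝ) * 2 ^ (J.1 + 7)) := by
          refine mul_le_mul_of_nonneg_left ?_ hg0
          exact sum_len_le RA J.1 (2 * C0) (fun p hp => (le_iff.1 (hRJ p (hRAs hp))).1)
            (adj_card C0 J RA (fun p hp => hRJ p (hRAs hp)) fun p hp => (Finset.mem_filter.1 hp).2)
      _ = _ := by push_cast; ring
  have hB : ∑ p ∈ RB, f p ≤ n0 * g0 * 2 ^ (J.1 + 7) := by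
    have hm : ∀ p ∈ RB, p.1 ∈ Finset.range n0 := fun p hp =>
      Finset.mem_range.2 (Finset.mem_filter.1 hp).2
    calc ∑ p ∈ RB, f p ≤ ∑ p ∈ RB, g0 * (2 : ℝ) ^ (p.1 + 7) :=
          Finset.sum_le_sum fun p hp => hbot p (hRBs hp) (Finset.mem_filter.1 hp).2
      _ = g0 * ∑ p ∈ RB, (2 : ℝ) ^ (p.1 + 7) := by rw [Finset.mul_sum]
      _ = g0 * ∑ m ∈ Finset.range n0, ∑ p ∈ RB.filter (fun p => p.1 = m), (2 : ℝ) ^ (p.1 + 7) := by
          rw [Finset.sum_fiberwise_of_maps_to hm]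
      _ ≤ g0 * ∑ m ∈ Finset.range n0, (2 : ℝ) ^ (J.1 + 7) := by
          refine mul_le_mul_of_nonneg_left (Finset.sum_le_sum fun m _ => ?_) hg0
          exact all_len J RB (fun p hp => hRJ p (hRBs hp)) m
      _ = _ := by rw [Finset.sum_const, Finset.card_range, nsmul_eq_mul]; ring
  have hCC : ∑ p ∈ RC, f p ≤ 8 * C0 * g1 * 2 ^ (J.1 + 7) := by
    have hWTs : WT ⊆ R := Finset.filter_subset _ _
    have h1 : ∑ p ∈ RC, f p ≤
        ∑ P ∈ WT, ∑ p ∈ R.filter (fun p => Le p P ∧ n0 ≤ p.1), f p := by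
      rw [hRC]
      have key : ∀ T : Finset (ℕ × ℤ), ∑ p ∈ T.biUnion (fun P => R.filter fun p => Le p P ∧
          n0 ≤ p.1), f p ≤ ∑ P ∈ T, ∑ p ∈ R.filter (fun p => Le p P ∧ n0 ≤ p.1), f p := by
        intro T
        induction T using Finset.induction_on with
        | empty => simp
        | insert a T ha ih =>
          rw [Finset.biUnion_insert, Finset.sum_insert ha]
          refine le_trans (hun _ _ (Finset.filter_subset _ _) ?_) (by linarith)
          intro p hp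
          obtain ⟨P, _, hp2⟩ := Finset.mem_biUnion.1 hp
          exact (Finset.mem_filter.1 hp2).1
      exact key WT
    calc ∑ p ∈ RC, f p ≤ _ := h1
      _ ≤ ∑ P ∈ WT, g1 * (2 : ℝ) ^ (P.1 + 7) := Finset.sum_le_sum fun P hP =>
          hwh P (hWTs hP) (hRJ P (hWTs hP)) (Finset.mem_filter.1 hP).2
      _ = g1 * ∑ P ∈ WT, (2 : ℝ) ^ (P.1 + 7) := by rw [Finset.mul_sum]
      _ ≤ g1 * (2 * ((4 * C0 : ℕ) : ℝ) * 2 ^ (J.1 + 7)) := by
          refine mul_le_mul_of_nonneg_left ?_ hg1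
          exact sum_len_le WT J.1 (4 * C0) (fun p hp => (le_iff.1 (hRJ p (hWTs hp))).1)
            (wtop_card C0 J WT (fun p hp => hRJ p (hWTs hp))
              (fun p hp => (Finset.mem_filter.1 hp).2) hC)
      _ = _ := by push_cast; ring
  calc ∑ p ∈ R, f p ≤ ∑ p ∈ RA ∪ (RB ∪ RC), f p :=
        Finset.sum_le_sum_of_subset_of_nonneg hcov fun p hp _ => by
          rcases Finset.mem_union.1 hp with h | h
          · exact hf p (hRAs h)
          · rcases Finset.mem_union.1 h with h | h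
            · exact hf p (hRBs h)
            · exact hf p (hRCs h)
    _ ≤ ∑ p ∈ RA, f p + ∑ p ∈ RB ∪ RC, f p := hun _ _ hRAs (Finset.union_subset hRBs hRCs)
    _ ≤ ∑ p ∈ RA, f p + (∑ p ∈ RB, f p + ∑ p ∈ RC, f p) := by linarith [hun RB RC hRBs hRCs]
    _ ≤ _ := by nlinarith [hA, hB, hCC]

end Crest.Agent.R079.SplSx69
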