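import Crest.Agent.R079.SKb_261
import Crest.Agent.R079.SplS_69
import Crest.Agent.R079.CelD_159
import Crest.Agent.R079.PjE_881

/-! R079, item (c) of 973 / note 1201 (helper261): geometry of the Whitney cells of a strip.

`Lin Z c β γ` : `Z u v = c + β u + γ v`, `1 ≤ |β|, |γ| ≤ 3`.  `cell_size`: a maximal cell of `P` which
meets the strip of a non-adjacent node `P'` has side `≥ C0 2^(P'.1)`; `row_card`: few cells per row;
`wtop_meet`: total length of the Whitney tops met by a cell; `box_op`: operator bound on all boxes of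
side `≥ 2^d` from the maximal cells of the nodes of level `d`. -/

set_option autoImplicit false
set_option linter.unusedSectionVars false

namespace Crest.Agent.R079.SKx261

open Finset Crest.Agent.R079.Grid Crest.Agent.R079.Growth Crest.Agent.R079.QRed
  Crest.Agent.R079.TWin Crest.Agent.R079.Glue Crest.Agent.R079.Cel159 Crest.Agent.R079.SplSx69
open Crest.Agent.R079.Whit (Ins Ins.mono Ins.sub sub0 sub1)

/-- linear forms of two variables -/
structure Lin (Z : ℤ → ℤ → ℤ) (c β γ : ℤ) : Prop where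
  eq : ∀ u v, Z u v = c + β * u + γ * v
  b0 : β ≠ 0
  g0 : γ ≠ 0
  b3 : |β| ≤ 3
  g3 : |γ| ≤ 3

lemma cf_bd (j : Fin 4) (e : Fin 3) : cf j e ≠ 0 ∧ |cf j e| ≤ 3 := by
  fin_cases j <;> fin_cases e <;> decide

lemma lin_Yl (j : Fin 4) (e : Fin 3) (z : ℤ) :
    Lin (Yl j e z) (cf j e * z) (cf j (e + 1)) (cf j (e + 2)) :=
  ⟨fun _ _ => rfl, (cf_bd j _).1, (cf_bd j _).1, (cf_bd j _).2, (cf_bd j _).2⟩

lemma Lin.swap {Z : ℤ → ℤ → ℤ} {c β γ : ℤ} (h : Lin Z c β γ) : Lin (fun v u => Z u v) c γ β :=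
  ⟨fun v u => by rw [h.eq]; ring, h.g0, h.b0, h.g3, h.b3⟩

lemma dI_diff {n : ℕ} {a x y : ℤ} (hx : x ∈ dI n a) (hy : y ∈ dI n a) : |x - y| < 2 ^ n := by
  unfold dI at hx hy
  rw [Finset.mem_Ico] at hx hy
  rw [abs_lt]
  constructor <;> nlinarith [hx.1, hx.2, hy.1, hy.2]

lemma Lin.diam {Z : ℤ → ℤ → ℤ} {c β γ : ℤ} (h : Lin Z c β γ) {n : ℕ} {a b u v u' v' : ℤ}
    (hu : u ∈ dI n a) (hu' : u' ∈ dI n a) (hv : v ∈ dI n b) (hv' : v' ∈ dI n b) :
    |Z u v - Z u' v'| < 6 * 2 ^ n := by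
  rw [h.eq, h.eq]
  have e : c + β * u + γ * v - (c + β * u' + γ * v') = β * (u - u') + γ * (v - v') := by ring
  rw [e]
  have h1 := dI_diff hu hu'
  have h2 := dI_diff hv hv'
  have h3 := abs_add_le (β * (u - u')) (γ * (v - v'))
  rw [abs_mul, abs_mul] at h3
  have h4 := h.b3
  have h5 := h.g3
  have h6 : |β| * |u - u'| ≤ 3 * |u - u'| := mul_le_mul_of_nonneg_right h4 (abs_nonneg _)
  have h7 : |γ| * |v - v'| ≤ 3 * |v - v'| := mul_le_mul_of_nonneg_right h5 (abs_nonneg _)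
  linarith

lemma le_of_iv {p q : Nd} (h : iv p ⊆ iv q) : Le p q := h

/-- **size of the cells** which meet the strip of a non-adjacent node -/
theorem cell_size {Z : ℤ → ℤ → ℤ} {c β γ : ℤ} (h : Lin Z c β γ) {k : ℕ} {P P' : Nd} {C0 : ℕ}
    (hP : iv P' ⊆ iv P) (hna : ¬ Adj C0 P P') {m : ℕ} {a b : ℤ} (hM : Mx Z k P m a b) {u v : ℤ}
    (hu : u ∈ dI m a) (hv : v ∈ dI m b) (hy : Z u v ∈ iv P') : (C0 : ℤ) * 2 ^ P'.1 ≤ 2 ^ m := by
  obtain ⟨hA, hB⟩ := dist_of_not_adj (le_of_iv hP) hna hy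
  have e7 : ∀ n : ℕ, (2 : ℤ) ^ (n + 7) = 128 * 2 ^ n := fun n => by rw [pow_add]; ring
  rw [e7, e7] at hA hB
  rcases hM.2.2 with hm | hm
  · have h1 : (2 : ℤ) ^ P.1 ≤ 2 ^ m := by
      rw [hm]
      exact pow_le_pow_right₀ (by norm_num) (Nat.le_add_right _ _)
    have h2 : (0 : ℤ) ≤ 2 ^ P'.1 := by positivity
    have h3 : (0 : ℤ) ≤ (C0 : ℤ) * 2 ^ P'.1 := by positivity
    nlinarith
  · unfold Ins at hm
    push Not at hm
    obtain ⟨u', hu', v', hv', hn⟩ := hm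
    have s1 := L0e.dI_sub m 1 a
    have s2 := L0e.dI_sub m 1 b
    rw [pow_one] at s1 s2
    have h1 := h.diam (s1 hu) hu' (s2 hv) hv'
    have h2 : ¬ (P.2 * (128 * 2 ^ P.1) ≤ Z u' v' ∧ Z u' v' < (P.2 + 1) * (128 * 2 ^ P.1)) := by
      intro hc
      apply hn
      unfold iv dI
      rw [Finset.mem_Ico, e7]
      exact hc
    rw [abs_lt, pow_succ] at h1
    by_cases h3 : P.2 * (128 * 2 ^ P.1) ≤ Z u' v'
    · have h4 : (P.2 + 1) * (128 * 2 ^ P.1) ≤ Z u' v' := by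
        by_contra hc
        exact h2 ⟨h3, not_le.1 hc⟩
      have h5 : (C0 : ℤ) * (128 * 2 ^ P'.1) < 12 * 2 ^ m := by linarith [h1.1, h1.2]
      have h6 : (0 : ℤ) ≤ (C0 : ℤ) * 2 ^ P'.1 := by positivity
      nlinarith
    · have h4 : Z u' v' < P.2 * (128 * 2 ^ P.1) := not_le.1 h3
      have h5 : (C0 : ℤ) * (128 * 2 ^ P'.1) < 12 * 2 ^ m := by linarith [h1.1, h1.2]
      have h6 : (0 : ℤ) ≤ (C0 : ℤ) * 2 ^ P'.1 := by positivity
      nlinarith

lemma level_le_of_size {C0 p m : ℕ} (hC : 1 ≤ C0) (h : (C0 : ℤ) * 2 ^ p ≤ 2 ^ m) : p ≤ m := by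
  by_contra hc
  have h1 : (2 : ℤ) ^ (m + 1) ≤ 2 ^ p := pow_le_pow_right₀ (by norm_num) (by omega)
  have h2 : (1 : ℤ) ≤ C0 := by exact_mod_cast hC
  have h3 : (0 : ℤ) < 2 ^ m := by positivity
  rw [pow_succ] at h1
  nlinarith

lemma level_add_le {κ0 C0 p m : ℕ} (hC : 2 ^ κ0 ≤ C0) (h : (C0 : ℤ) * 2 ^ p ≤ 2 ^ m) :
    p + κ0 ≤ m := by
  have h1 : ((2 ^ κ0 : ℕ) : ℤ) ≤ C0 := by exact_mod_cast hC
  have h2 : (2 : ℤ) ^ (p + κ0) ≤ 2 ^ m := by
    refine le_trans ?_ h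
    rw [pow_add, mul_comm]
    refine mul_le_mul_of_nonneg_right ?_ (by positivity)
    push_cast at h1
    exact h1
  exact (pow_le_pow_iff_right₀ (by norm_num : (1 : ℤ) < 2)).1 h2

/-- finite sets of integers of small diameter -/
lemma card_diam (A : Finset ℤ) (D : ℕ) (h : ∀ x ∈ A, ∀ y ∈ A, x - y ≤ D) : A.card ≤ D + 1 := by
  rcases A.eq_empty_or_nonempty with h0 | hne
  · rw [h0]; simp
  · have h1 : A ⊆ Finset.Icc (A.min' hne) (A.min' hne + D) := by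
      intro x hx
      rw [Finset.mem_Icc]
      have h2 := A.min'_le x hx
      have h3 := h x hx _ (A.min'_mem hne)
      exact ⟨h2, by linarith⟩
    refine (Finset.card_le_card h1).trans ?_
    rw [Int.card_Icc]
    omega

/-- **few cells per row**: cells of `P` containing the row `u` at points of the strip of `P'` -/
theorem row_card {Z : ℤ → ℤ → ℤ} {c β γ : ℤ} (h : Lin Z c β γ) {k : ℕ} {P P' : Nd} {C0 : ℕ}
    (hC : 1 ≤ C0) (hP : iv P' ⊆ iv P) (hna : ¬ Adj C0 P P') (u : ℤ) (A : Finset (ℕ × ℤ × ℤ))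
    (hA : ∀ t ∈ A, Mx Z k P t.1 t.2.1 t.2.2 ∧ u ∈ dI t.1 t.2.1 ∧
      ∃ v ∈ dI t.1 t.2.2, Z u v ∈ iv P') : A.card ≤ 2 ^ 7 + 2 := by
  classical
  choose! g hg using fun t ht => (hA t ht).2.2
  have hlev : ∀ t ∈ A, P'.1 ≤ t.1 := fun t ht =>
    level_le_of_size hC (cell_size h hP hna (hA t ht).1 (hA t ht).2.1 (hg t ht).1 (hg t ht).2)
  have hinj : Set.InjOn (fun t => g t / 2 ^ P'.1) (A : Set (ℕ × ℤ × ℤ)) := by
    intro t ht t' ht' he
    have h1 : g t ∈ dI P'.1 (g t / 2 ^ P'.1) := L0e.mem_dI.2 rfl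
    have h2 : g t' ∈ dI P'.1 (g t / 2 ^ P'.1) := L0e.mem_dI.2 he.symm
    obtain ⟨s, hs⟩ : ∃ s, t.1 = P'.1 + s := ⟨t.1 - P'.1, by have := hlev t ht; omega⟩
    have h3 := L0e.dI_sub P'.1 s (g t / 2 ^ P'.1)
    have h4 := h3 h1
    have h5 := h3 h2
    have h6 := (hg t ht).1
    rw [← hs, L0e.mem_dI] at h4 h5
    rw [L0e.mem_dI] at h6
    have h7 : g t' ∈ dI t.1 t.2.2 := L0e.mem_dI.2 (by rw [h5, ← h4, h6])
    obtain ⟨e1, e2, e3⟩ := Mx_eq (hA t ht).1 (hA t' ht').1 (hA t ht).2.1 (hA t' ht').2.1 h7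
      (hg t' ht').1
    exact Prod.ext e1 (Prod.ext e2 e3)
  have h1 : A.card = (A.image (fun t => g t / 2 ^ P'.1)).card :=
    (Finset.card_image_of_injOn hinj).symm
  rw [h1]
  refine card_diam _ (2 ^ 7 + 1) ?_
  intro x hx y hy
  obtain ⟨t, ht, rfl⟩ := Finset.mem_image.1 hx
  obtain ⟨t', ht', rfl⟩ := Finset.mem_image.1 hy
  have h2 := dI_diff (hg t ht).2 (hg t' ht').2
  rw [h.eq, h.eq] at h2
  have e : c + β * u + γ * g t - (c + β * u + γ * g t') = γ * (g t - g t') := by ring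
  rw [e, abs_mul] at h2
  have h3 : 1 ≤ |γ| := Int.one_le_abs h.g0
  have h4 : |g t - g t'| < 2 ^ (P'.1 + 7) := by
    have := abs_nonneg (g t - g t')
    nlinarith
  have h5 : g t < g t' + 2 ^ 7 * 2 ^ P'.1 := by
    have := (abs_lt.1 h4).2
    rw [pow_add] at this
    linarith
  have hp : (0 : ℤ) < 2 ^ P'.1 := by positivity
  have h6 : g t / 2 ^ P'.1 ≤ (g t' + 2 ^ 7 * 2 ^ P'.1) / 2 ^ P'.1 :=
    Int.ediv_le_ediv hp h5.le
  rw [Int.add_mul_ediv_right _ _ hp.ne'] at h6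
  push_cast
  linarith

/-- Whitney tops are disjoint -/
lemma wtop_disj {C0 : ℕ} {P p q : Nd} (hp : iv p ⊆ iv P) (hq : iv q ⊆ iv P)
    (wp : WTop C0 P p) (wq : WTop C0 P q) (hne : p ≠ q) : Disjoint (iv p) (iv q) := by
  classical
  have main : ∀ p q : Nd, iv p ⊆ iv P → iv q ⊆ iv P → WTop C0 P p → WTop C0 P q →
      iv p ⊆ iv q → p = q := by
    intro p q hp hq wp wq hpq
    by_contra hne
    obtain ⟨h1, h2⟩ := le_iff.1 (le_of_iv hpq)
    have hlt : p.1 < q.1 := by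
      rcases lt_or_eq_of_le h1 with h | h
      · exact h
      · exfalso
        apply hne
        refine Prod.ext h ?_
        rw [h, Nat.sub_self, pow_zero, Int.ediv_one] at h2
        exact h2
    have hq1 : q.1 ≤ P.1 := (le_iff.1 (le_of_iv hq)).1
    -- climb from `pa p` to `q`
    have climb : ∀ n : ℕ, p.1 + 1 + n ≤ P.1 → Adj C0 P (p.1 + 1 + n, p.2 / 2 ^ (1 + n)) := by
      intro n
      induction n with
      | zero =>
        intro _
        have := wp.2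
        unfold pa at this
        simpa using this
      | succ n ih =>
        intro hn
        have h3 := ih (by omega)
        have h4 := adj_pa (p := (p.1 + 1 + n, p.2 / 2 ^ (1 + n))) (by show p.1 + 1 + n < P.1; omega)
          h3
        unfold pa at h4
        have e : p.2 / 2 ^ (1 + n) / 2 = p.2 / 2 ^ (1 + (n + 1)) := by
          have h5 := L0e.ediv_pow_pow p.2 (1 + n) 1
          rw [pow_one] at h5
          rw [h5]
          congr 2
        simp only at h4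
        rw [e] at h4
        exact h4
    have h3 := climb (q.1 - p.1 - 1) (by omega)
    have e1 : p.1 + 1 + (q.1 - p.1 - 1) = q.1 := by omega
    have e2 : 1 + (q.1 - p.1 - 1) = q.1 - p.1 := by omega
    rw [e1, e2, h2] at h3
    exact wq.1 h3
  rw [Finset.disjoint_left]
  intro y hy hy'
  apply hne
  rcases le_total p.1 q.1 with hl | hl
  · refine main p q hp hq wp wq ?_
    obtain ⟨s, hs⟩ : ∃ s, q.1 = p.1 + s := ⟨q.1 - p.1, by omega⟩
    unfold iv at hy hy' ⊢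
    rw [L0e.mem_dI] at hy hy'
    have h1 := L0e.dI_sub (p.1 + 7) s p.2
    have e : p.2 / 2 ^ s = q.2 := by
      rw [← hy', ← hy, L0e.ediv_pow_pow]
      congr 2
      omega
    rw [e, show p.1 + 7 + s = q.1 + 7 by omega] at h1
    exact h1
  · refine (main q p hq hp wq wp ?_).symm
    obtain ⟨s, hs⟩ : ∃ s, p.1 = q.1 + s := ⟨p.1 - q.1, by omega⟩
    unfold iv at hy hy' ⊢
    rw [L0e.mem_dI] at hy hy'
    have h1 := L0e.dI_sub (q.1 + 7) s q.2
    have e : q.2 / 2 ^ s = p.2 := by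
      rw [← hy', ← hy, L0e.ediv_pow_pow]
      congr 2
      omega
    rw [e, show q.1 + 7 + s = p.1 + 7 by omega] at h1
    exact h1

/-- **total length of the Whitney tops met by a cell** -/
theorem wtop_meet {Z : ℤ → ℤ → ℤ} {c β γ : ℤ} (h : Lin Z c β γ) {k : ℕ} {P : Nd} {C0 : ℕ}
    (hC : 1 ≤ C0) {m : ℕ} {a b : ℤ} (hM : Mx Z k P m a b) (S : Finset Nd)
    (hS : ∀ P' ∈ S, iv P' ⊆ iv P ∧ WTop C0 P P' ∧ ∃ u ∈ dI m a, ∃ v ∈ dI m b, Z u v ∈ iv P') :
    ∑ P' ∈ S, (2 : ℝ) ^ (P'.1 + 7) ≤ 2 ^ 9 * 2 ^ m := by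
  classical
  rcases S.eq_empty_or_nonempty with h0 | ⟨P0, hP0⟩
  · rw [h0, Finset.sum_empty]; positivity
  obtain ⟨u0, hu0, v0, hv0, hy0⟩ := (hS P0 hP0).2.2
  set y0 := Z u0 v0 with hy0d
  have hsub : S.biUnion iv ⊆ Finset.Ico (y0 - 134 * 2 ^ m) (y0 + 134 * 2 ^ m) := by
    intro y hy
    obtain ⟨P', hP', hyP⟩ := Finset.mem_biUnion.1 hy
    obtain ⟨hs, hw, u, hu, v, hv, hyv⟩ := hS P' hP'
    have h1 := level_le_of_size hC (cell_size h hs hw.1 hM hu hv hyv)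
    have h2 := dI_diff hyP hyv
    have h3 := h.diam hu hu0 hv hv0
    have h4 : (2 : ℤ) ^ (P'.1 + 7) ≤ 128 * 2 ^ m := by
      rw [pow_add]
      have : (2 : ℤ) ^ P'.1 ≤ 2 ^ m := pow_le_pow_right₀ (by norm_num) h1
      linarith
    rw [abs_lt] at h2 h3
    rw [Finset.mem_Ico]
    constructor <;> linarith [h2.1, h2.2, h3.1, h3.2]
  have hcard : ∑ P' ∈ S, (iv P').card = (S.biUnion iv).card := by
    symm
    refine Finset.card_biUnion fun p hp q hq hne => ?_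
    exact wtop_disj (hS p hp).1 (hS q hq).1 (hS p hp).2.1 (hS q hq).2.1 hne
  have hc1 : ∀ p : Nd, ((iv p).card : ℝ) = 2 ^ (p.1 + 7) := by
    intro p
    unfold iv dI
    rw [Int.card_Ico]
    have e : (p.2 + 1) * 2 ^ (p.1 + 7) - p.2 * 2 ^ (p.1 + 7) = ((2 ^ (p.1 + 7) : ℕ) : ℤ) := by
      push_cast; ring
    rw [e, Int.toNat_natCast]
    push_cast
    rfl
  have h1 : ∑ P' ∈ S, (2 : ℝ) ^ (P'.1 + 7) = ((S.biUnion iv).card : ℝ) := by
    rw [← hcard]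
    push_cast
    exact Finset.sum_congr rfl fun p _ => (hc1 p).symm
  rw [h1]
  have h2 := Finset.card_le_card hsub
  rw [Int.card_Ico] at h2
  have e : y0 + 134 * 2 ^ m - (y0 - 134 * 2 ^ m) = ((268 * 2 ^ m : ℕ) : ℤ) := by push_cast; ring
  rw [e, Int.toNat_natCast] at h2
  have h3 : ((S.biUnion iv).card : ℝ) ≤ ((268 * 2 ^ m : ℕ) : ℝ) := by exact_mod_cast h2
  refine h3.trans ?_
  push_cast
  have : (0 : ℝ) < 2 ^ m := by positivity
  nlinarith

end Crest.Agent.R079.SKx261
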