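import Crest.Agent.R079.SKg_261

/-! R079, item (c) of 973 / note 1201 (helper261): operator bound on all boxes of side `≥ 2^d` from
the maximal cells of the nodes of level `d`. -/

set_option autoImplicit false
set_option linter.unusedSectionVars false

namespace Crest.Agent.R079.SKx261

open Finset Crest.Agent.R079.Grid Crest.Agent.R079.Growth Crest.Agent.R079.QRed
  Crest.Agent.R079.TWin Crest.Agent.R079.Glue Crest.Agent.R079.Cel159
open Crest.Agent.R079.Whit (Ins Ins.mono Ins.sub sub0 sub1)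
open Crest.Agent.R079.ClW59 (OpS)

lemma opC_mono {K : ℤ → ℤ → ℂ} {n : ℕ} {a b : ℤ} {s t : ℝ} (h : OpC K n a b s) (hst : s ≤ t) :
    OpC K n a b t := by
  intro ξ ζ
  refine (h ξ ζ).trans ?_
  refine mul_le_mul_of_nonneg_right ?_ (by positivity)
  exact mul_le_mul_of_nonneg_right hst (by positivity)

/-- sub boxes -/
lemma opC_sub {K : ℤ → ℤ → ℂ} {n m : ℕ} {a b a' b' : ℤ} {s t : ℝ} (h : OpC K m a' b' s)
    (ha : dI n a ⊆ dI m a') (hb : dI n b ⊆ dI m b') (ht : s * 2 ^ m ≤ t * 2 ^ n) :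
    OpC K n a b t := by
  classical
  intro ξ ζ
  have h1 := h (fun u => if u ∈ dI n a then ξ u else 0) (fun v => if v ∈ dI n b then ζ v else 0)
  have e1 : ∑ u ∈ dI m a', ∑ v ∈ dI m b', K u v *
      ((if u ∈ dI n a then ξ u else 0) * (if v ∈ dI n b then ζ v else 0)) =
      ∑ u ∈ dI n a, ∑ v ∈ dI n b, K u v * (ξ u * ζ v) := by
    symm
    rw [← Finset.sum_subset ha (f := fun u => ∑ v ∈ dI m b', K u v *
      ((if u ∈ dI n a then ξ u else 0) * (if v ∈ dI n b then ζ v else 0)))]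
    · refine Finset.sum_congr rfl fun u hu => ?_
      rw [← Finset.sum_subset hb (f := fun v => K u v *
        ((if u ∈ dI n a then ξ u else 0) * (if v ∈ dI n b then ζ v else 0)))]
      · exact Finset.sum_congr rfl fun v hv => by rw [if_pos hu, if_pos hv]
      · intro v _ hv
        rw [if_neg hv]; ring
    · intro u _ hu
      exact Finset.sum_eq_zero fun v _ => by rw [if_neg hu]; ring
  have e2 : ∀ (A B : Finset ℤ), A ⊆ B → ∀ φ : ℤ → ℂ, ∑ u ∈ B, ‖if u ∈ A then φ u else 0‖ ^ 2 =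
      ∑ u ∈ A, ‖φ u‖ ^ 2 := by
    intro A B hAB φ
    rw [← Finset.sum_subset hAB (f := fun u => ‖if u ∈ A then φ u else 0‖ ^ 2)]
    · exact Finset.sum_congr rfl fun u hu => by rw [if_pos hu]
    · intro u _ hu
      rw [if_neg hu]; simp
  rw [e1, e2 _ _ ha, e2 _ _ hb] at h1
  exact h1.trans (mul_le_mul_of_nonneg_right ht (by positivity))

/-- the node of level `d` through a point -/
lemma exists_node {P : Nd} {d : ℕ} (hd : d ≤ P.1) {y : ℤ} (hy : y ∈ iv P) :
    ∃ L : Nd, L.1 = d ∧ iv L ⊆ iv P ∧ y ∈ iv L := by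
  refine ⟨(d, y / 2 ^ (d + 7)), rfl, ?_, ?_⟩
  · unfold iv at hy ⊢
    obtain ⟨s, hs⟩ : ∃ s, P.1 = d + s := ⟨P.1 - d, by omega⟩
    have h1 := L0e.dI_sub (d + 7) s (y / 2 ^ (d + 7))
    rw [L0e.ediv_pow_pow, show d + 7 + s = P.1 + 7 by omega] at h1
    rw [L0e.mem_dI] at hy
    rw [hy] at h1
    exact h1
  · unfold iv
    exact L0e.mem_dI.2 rfl

section

variable {Z : ℤ → ℤ → ℤ} {k d : ℕ} {P : Nd} {ρ : ℝ} {K : ℤ → ℤ → ℂ}

/-- boxes which are maximal (or too large) in the nodes containing them -/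
theorem box_max (hρ : 0 ≤ ρ) (hd : d ≤ P.1)
    (hex : ∀ L : Nd, L.1 = d → iv L ⊆ iv P → ∀ n a b, Mx Z k L n a b → OpC K n a b ρ) :
    ∀ n a b, Ins Z (iv P) n a b →
      (∀ L : Nd, L.1 = d → iv L ⊆ iv P → Ins Z (iv L) n a b → Mx Z k L n a b ∨ d + k < n) →
      OpC K n a b ρ := by
  classical
  intro n
  induction n with
  | zero =>
    intro a b hi hq
    have hself : ∀ x : ℤ, x ∈ dI 0 x := by
      intro x
      rw [L0e.mem_dI]
      simp
    have honly : ∀ x : ℤ, ∀ z ∈ dI 0 x, z = x := by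
      intro x z hz
      rw [L0e.mem_dI] at hz
      simpa using hz
    obtain ⟨L, h1, h2, h3⟩ := exists_node hd (hi a (hself a) b (hself b))
    have h4 : Ins Z (iv L) 0 a b := by
      intro u hu v hv
      rw [honly a u hu, honly b v hv]
      exact h3
    rcases hq L h1 h2 h4 with h5 | h5
    · exact hex L h1 h2 0 a b h5
    · omega
  | succ n ih =>
    intro a b hi hq
    by_cases hm : ∃ L : Nd, L.1 = d ∧ iv L ⊆ iv P ∧ Mx Z k L (n + 1) a b
    · obtain ⟨L, h1, h2, h3⟩ := hm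
      exact hex L h1 h2 _ _ _ h3
    · push Not at hm
      have e0 : ∀ x : ℤ, 2 * x / 2 = x := fun x => by omega
      have e1 : ∀ x : ℤ, (2 * x + 1) / 2 = x := fun x => by omega
      have key : ∀ a' b' : ℤ, a' / 2 = a → b' / 2 = b → dI n a' ⊆ dI (n + 1) a →
          dI n b' ⊆ dI (n + 1) b → OpC K n a' b' ρ := by
        intro a' b' ha hb sa sb
        refine ih a' b' (hi.sub sa sb) fun L h1 h2 h3 => ?_
        by_cases hn : d + k < n
        · exact Or.inr hn
        left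
        by_cases hn' : n = d + k
        · exact ⟨by omega, h3, Or.inl (by omega)⟩
        · refine ⟨by omega, h3, Or.inr fun h4 => ?_⟩
          rw [ha, hb] at h4
          rcases hq L h1 h2 h4 with h5 | h5
          · exact hm L h1 h2 h5
          · omega
      exact OpC.quad hρ (key _ _ (e0 a) (e0 b) (sub0 n a) (sub0 n b))
        (key _ _ (e0 a) (e1 b) (sub0 n a) (sub1 n b))
        (key _ _ (e1 a) (e0 b) (sub1 n a) (sub0 n b))
        (key _ _ (e1 a) (e1 b) (sub1 n a) (sub1 n b))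

/-- **operator bound on the boxes of side `≥ 2^d`** -/
theorem box_op (hρ : 0 ≤ ρ) (hd : d ≤ P.1)
    (hex : ∀ L : Nd, L.1 = d → iv L ⊆ iv P → ∀ n a b, Mx Z k L n a b → OpC K n a b ρ)
    {n : ℕ} {a b : ℤ} (hn : d ≤ n) (hi : Ins Z (iv P) n a b) : OpC K n a b (2 ^ k * ρ) := by
  classical
  have hk1 : (1 : ℝ) ≤ 2 ^ k := one_le_pow₀ (by norm_num)
  by_cases hq : ∀ L : Nd, L.1 = d → iv L ⊆ iv P → Ins Z (iv L) n a b → Mx Z k L n a b ∨ d + k < n
  · exact opC_mono (box_max hρ hd hex n a b hi hq) (by nlinarith)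
  · push Not at hq
    obtain ⟨L, h1, h2, h3, h4, h5⟩ := hq
    have ha : a * 2 ^ n ∈ dI n a := by
      unfold dI
      rw [Finset.mem_Ico]
      have : (0 : ℤ) < 2 ^ n := by positivity
      constructor <;> nlinarith
    have hb : b * 2 ^ n ∈ dI n b := by
      unfold dI
      rw [Finset.mem_Ico]
      have : (0 : ℤ) < 2 ^ n := by positivity
      constructor <;> nlinarith
    obtain ⟨m, a', b', hM, hua, hvb⟩ := PjC881.exists_Mx (k := k) (Z := Z) (p := L)
      (h3 _ ha _ hb)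
    have nest : ∀ {x c c' : ℤ} {s t : ℕ}, s ≤ t → x ∈ dI s c → x ∈ dI t c' → dI s c ⊆ dI t c' := by
      intro x c c' s t hst hx hx'
      obtain ⟨j, rfl⟩ : ∃ j, t = s + j := ⟨t - s, by omega⟩
      have h6 := L0e.dI_sub s j c
      have h7 := h6 hx
      rw [L0e.mem_dI] at h7 hx'
      rw [← hx', h7]
      exact h6
    have hnm : n < m := by
      by_contra hc
      rcases lt_or_eq_of_le (not_lt.1 hc) with h6 | h6
      · -- the parent of the maximal cell lies in the box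
        rcases hM.2.2 with h7 | h7
        · omega
        · apply h7
          have s1 := L0e.dI_sub m 1 a'
          have s2 := L0e.dI_sub m 1 b'
          rw [pow_one] at s1 s2
          exact h3.sub (nest (by omega) (s1 hua) ha) (nest (by omega) (s2 hvb) hb)
      · subst h6
        rw [L0e.mem_dI] at ha hb hua hvb
        rw [← hua, ← hvb, ha, hb] at hM
        exact h4 hM
    have hm2 := hM.1
    refine opC_sub (hex L h1 h2 m a' b' hM) (nest hnm.le ha hua) (nest hnm.le hb hvb) ?_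
    have h6 : (2 : ℝ) ^ m ≤ 2 ^ k * 2 ^ n := by
      rw [← pow_add]
      exact pow_le_pow_right₀ (by norm_num) (by omega)
    calc ρ * 2 ^ m ≤ ρ * (2 ^ k * 2 ^ n) := mul_le_mul_of_nonneg_left h6 hρ
      _ = _ := by ring

/-- operator bound of a kernel masked to a cell -/
theorem masked_op {n m : ℕ} {a b : ℤ} {s : ℝ} (hs : 0 ≤ s) (hnm : n ≤ m)
    (h : ∀ i i', dI n i ⊆ dI m a → dI n i' ⊆ dI m b → OpC K n i i' s) (X : Set ℤ) (Y : Set ℤ)
    [∀ u v, Decidable (u ∈ dI m a ∧ v ∈ dI m b ∧ u ∈ X ∧ v ∈ Y)] (i i' : ℤ) :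
    OpS (dI n i) (dI n i')
      (fun u v => if u ∈ dI m a ∧ v ∈ dI m b ∧ u ∈ X ∧ v ∈ Y then K u v else 0) (s * 2 ^ n) := by
  classical
  obtain ⟨j, rfl⟩ : ∃ j, m = n + j := ⟨m - n, by omega⟩
  have dich : ∀ x c : ℤ, dI n x ⊆ dI (n + j) c ∨ ∀ u ∈ dI n x, u ∉ dI (n + j) c := by
    intro x c
    have h1 := L0e.dI_sub n j x
    by_cases hc : x / 2 ^ j = c
    · left; rw [← hc]; exact h1
    · right
      intro u hu hu'
      have h2 := h1 hu
      rw [L0e.mem_dI] at h2 hu'
      exact hc (h2.symm.trans hu')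
  have hzero : (∀ u ∈ dI n i, ∀ v ∈ dI n i', ¬ (u ∈ dI (n + j) a ∧ v ∈ dI (n + j) b)) →
      OpS (dI n i) (dI n i')
        (fun u v => if u ∈ dI (n + j) a ∧ v ∈ dI (n + j) b ∧ u ∈ X ∧ v ∈ Y then K u v else 0)
        (s * 2 ^ n) := by
    intro h0 f
    have e : ∀ u ∈ dI n i, ∑ v ∈ dI n i', (if u ∈ dI (n + j) a ∧ v ∈ dI (n + j) b ∧ u ∈ X ∧ v ∈ Y
        then K u v else 0) * f v = 0 := fun u hu => Finset.sum_eq_zero fun v hv => by
      rw [if_neg (fun hc => h0 u hu v hv ⟨hc.1, hc.2.1⟩), zero_mul]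
    rw [Finset.sum_eq_zero fun u hu => by rw [e u hu]; simp]
    positivity
  rcases dich i a with h1 | h1
  · rcases dich i' b with h2 | h2
    · have h3 := opS_of_opC (h i i' h1 h2)
      intro f
      have h4 := h3 (fun v => if v ∈ Y then f v else 0)
      have e1 : ∀ u ∈ dI n i, ‖∑ v ∈ dI n i', (if u ∈ dI (n + j) a ∧ v ∈ dI (n + j) b ∧ u ∈ X ∧
          v ∈ Y then K u v else 0) * f v‖ ^ 2 ≤
          ‖∑ v ∈ dI n i', K u v * (if v ∈ Y then f v else 0)‖ ^ 2 := by
        intro u hu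
        by_cases hX : u ∈ X
        · refine le_of_eq ?_
          congr 2
          refine Finset.sum_congr rfl fun v hv => ?_
          by_cases hY : v ∈ Y
          · rw [if_pos ⟨h1 hu, h2 hv, hX, hY⟩, if_pos hY]
          · rw [if_neg (fun hc => hY hc.2.2.2), if_neg hY]; ring
        · rw [Finset.sum_eq_zero fun v _ => by rw [if_neg (fun hc => hX hc.2.2.1), zero_mul]]
          rw [norm_zero, zero_pow two_ne_zero]
          exact sq_nonneg _
      have e2 : ∑ v ∈ dI n i', ‖if v ∈ Y then f v else 0‖ ^ 2 ≤ ∑ v ∈ dI n i', ‖f v‖ ^ 2 := by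
        refine Finset.sum_le_sum fun v _ => ?_
        split_ifs
        · exact le_rfl
        · rw [norm_zero, zero_pow two_ne_zero]; exact sq_nonneg _
      exact (Finset.sum_le_sum e1).trans (h4.trans (mul_le_mul_of_nonneg_left e2 (by positivity)))
    · exact hzero fun u _ v hv hc => h2 v hv hc.2
  · exact hzero fun u hu v _ hc => h1 u hu hc.1

/-- transposition -/
lemma opC_tr {n : ℕ} {a b : ℤ} {s : ℝ} (h : OpC K n a b s) : OpC (fun v u => K u v) n b a s := by
  intro ζ ξ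
  have h1 := h ξ ζ
  rw [Finset.sum_comm, mul_comm (Real.sqrt _) (Real.sqrt _)]
  refine le_trans (le_of_eq ?_) h1
  congr 1
  exact Finset.sum_congr rfl fun u _ => Finset.sum_congr rfl fun v _ => by ring

end

end Crest.Agent.R079.SKx261
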