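import Crest.Agent.R079.SKi_261
import Crest.Agent.R079.SKe_608

/-! R079, item (c) of 973 / note 1201 (helper261): labels of a Whitney top `P'` of `P`.

`lU`, `lW`: the two labelled kernels (labels = (type of cell, column)); `lab_eq`: on the strip of `P'`
their product is `C - Pj C`; `frU`, `frW`: both are `CellFr` families. -/

set_option autoImplicit false
set_option linter.unusedSectionVars false

namespace Crest.Agent.R079.SKx261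

open Finset Crest.Agent.R079.Grid Crest.Agent.R079.Growth Crest.Agent.R079.QRed
  Crest.Agent.R079.TWin Crest.Agent.R079.Glue Crest.Agent.R079.SWc360 Crest.Agent.R079.Cel159
  Crest.Agent.R079.SplSx69
open Crest.Agent.R079.ClW59 (OpS cl)
open Crest.Agent.R079.Whit (Ins)

/-- factorisation of a rectangle -/
structure Fac (A : ℤ → ℤ → ℂ) (S T : Finset ℤ) (s : ℝ) (P Q : ℤ → ℤ → ℂ) : Prop where
  p0 : ∀ x k, ¬ (x ∈ S ∧ k ∈ T) → P x k = 0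
  q0 : ∀ k y, ¬ (k ∈ T ∧ y ∈ T) → Q k y = 0
  eq : ∀ x ∈ S, ∀ y ∈ T, ∑ k ∈ T, P x k * Q k y = A x y - cl A S T s x y
  majP : ∀ f : ℤ → ℂ, ∑ k ∈ T, ‖∑ x ∈ S, f x * P x k‖ ^ 2 ≤
    (4 * s)⁻¹ * ∑ y ∈ T, ‖∑ x ∈ S, f x * A x y‖ ^ 2
  majQ : ∀ f : ℤ → ℂ, ∑ k ∈ T, ‖∑ y ∈ T, f y * Q k y‖ ^ 2 ≤
    (4 * s)⁻¹ * ∑ x ∈ S, ‖∑ y ∈ T, f y * A x y‖ ^ 2

theorem exists_fac {ι : Type} (C : ι → ℤ × ℤ × ℤ → ℂ) (T1 T2 : Finset ℤ) {r : ℝ} (hr : 0 < r) :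
    ∃ Pf Qf : ι → ℤ → ℕ × ℤ × ℤ → ℤ → ℤ → ℂ, ∀ w z t,
      Fac (fun u v => C w (z, u, v)) (dI t.1 t.2.1 ∩ T1) (dI t.1 t.2.2 ∩ T2) (r * 2 ^ t.1)
        (Pf w z t) (Qf w z t) := by
  have h : ∀ (w : ι) (z : ℤ) (t : ℕ × ℤ × ℤ), ∃ P Q : ℤ → ℤ → ℂ,
      Fac (fun u v => C w (z, u, v)) (dI t.1 t.2.1 ∩ T1) (dI t.1 t.2.2 ∩ T2) (r * 2 ^ t.1) P Q := by
    intro w z t
    obtain ⟨P, Q, h1, h2, h3, h4, h5⟩ := fac_cl (fun u v => C w (z, u, v)) (dI t.1 t.2.1 ∩ T1)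
      (dI t.1 t.2.2 ∩ T2) (s := r * 2 ^ t.1) (by positivity)
    exact ⟨P, Q, h1, h2, h3, h4, h5⟩
  choose Pf Qf hPQ using h
  exact ⟨Pf, Qf, hPQ⟩

section

variable (j : Fin 4) (e : Fin 3) (k : ℕ) (P P' : Nd) (T : Fin 3 → Finset ℤ)

open Classical in
/-- types of the cells -/
noncomputable def CT : Finset (ℕ × ℤ × ℤ) := (Clx j e k P P' T).image Prod.snd

/-- row mask -/
def XU (z : ℤ) (t : ℕ × ℤ × ℤ) : Set ℤ :=
  {u | ∃ v ∈ dI t.1 t.2.2 ∩ T (e + 2), Yl j e z u v ∈ iv P'}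

/-- column mask -/
def XW (z : ℤ) (t : ℕ × ℤ × ℤ) : Set ℤ :=
  {v | ∃ u ∈ dI t.1 t.2.1 ∩ T (e + 1), Yl j e z u v ∈ iv P'}

end

variable {ι : Type} {j : Fin 4} {e : Fin 3} {k : ℕ} {P P' : Nd} {T : Fin 3 → Finset ℤ}

open Classical in
/-- labelled kernel of the edge `(z, u)` -/
noncomputable def lU (j : Fin 4) (e : Fin 3) (k : ℕ) (P P' : Nd) (T : Fin 3 → Finset ℤ)
    (Pf : ι → ℤ → ℕ × ℤ × ℤ → ℤ → ℤ → ℂ) (w : ι) (z u : ℤ)
    (l : {t // t ∈ CT j e k P P' T} × {x // x ∈ T (e + 2)}) : ℂ :=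
  if (z, l.1.1) ∈ Clx j e k P P' T ∧ u ∈ XU j e P' T z l.1.1 then Pf w z l.1.1 u l.2.1 else 0

open Classical in
/-- labelled kernel of the edge `(v, z)` -/
noncomputable def lW (j : Fin 4) (e : Fin 3) (k : ℕ) (P P' : Nd) (T : Fin 3 → Finset ℤ)
    (Qf : ι → ℤ → ℕ × ℤ × ℤ → ℤ → ℤ → ℂ) (w : ι) (v z : ℤ)
    (l : {t // t ∈ CT j e k P P' T} × {x // x ∈ T (e + 2)}) : ℂ :=
  if (z, l.1.1) ∈ Clx j e k P P' T ∧ v ∈ XW j e P' T z l.1.1 then Qf w z l.1.1 l.2.1 v else 0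

/-- **the labels reproduce `C - cl C`** -/
theorem lab_eq {C : ι → ℤ × ℤ × ℤ → ℂ} {Pf Qf : ι → ℤ → ℕ × ℤ × ℤ → ℤ → ℤ → ℂ} {r : ℝ}
    (hPQ : ∀ w z t, Fac (fun u v => C w (z, u, v)) (dI t.1 t.2.1 ∩ T (e + 1))
      (dI t.1 t.2.2 ∩ T (e + 2)) (r * 2 ^ t.1) (Pf w z t) (Qf w z t))
    (hP : iv P' ⊆ iv P) (w : ι) {z u v : ℤ} (hz : z ∈ T e) (hu : u ∈ T (e + 1))
    (hv : v ∈ T (e + 2)) (hy : Yl j e z u v ∈ iv P') :
    ∑ l, lU j e k P P' T Pf w z u l * lW j e k P P' T Qf w v z l =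
      C w (z, u, v) - cl (fun u v => C w (z, u, v))
        (dI (mcell (Yl j e) k P (z, u, v)).2.1 (mcell (Yl j e) k P (z, u, v)).2.2.1 ∩ T (e + 1))
        (dI (mcell (Yl j e) k P (z, u, v)).2.1 (mcell (Yl j e) k P (z, u, v)).2.2.2 ∩ T (e + 2))
        (r * 2 ^ (mcell (Yl j e) k P (z, u, v)).2.1) u v := by
  classical
  set c0 := mcell (Yl j e) k P (z, u, v) with hc0
  have hcl : c0 ∈ Clx j e k P P' T := mem_Clx hz hu hv hy
  have e0 : (z, c0.2) = c0 := rfl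
  have hM0 : Mx (Yl j e z) k P c0.2.1 c0.2.2.1 c0.2.2.2 := Mx_mcell (hP hy)
  have hu0 : u ∈ dI c0.2.1 c0.2.2.1 := by rw [L0e.mem_dI]; rfl
  have hv0 : v ∈ dI c0.2.1 c0.2.2.2 := by rw [L0e.mem_dI]; rfl
  have ht0 : c0.2 ∈ CT j e k P P' T := by
    unfold CT
    exact Finset.mem_image_of_mem _ hcl
  rw [Fintype.sum_prod_type, Finset.sum_eq_single (⟨c0.2, ht0⟩ : {t // t ∈ CT j e k P P' T})]
  · have hFac := hPQ w z c0.2
    rw [← hFac.eq u (Finset.mem_inter.2 ⟨hu0, hu⟩) v (Finset.mem_inter.2 ⟨hv0, hv⟩)]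
    have h1 : ∀ x : {x // x ∈ T (e + 2)},
        lU j e k P P' T Pf w z u (⟨c0.2, ht0⟩, x) * lW j e k P P' T Qf w v z (⟨c0.2, ht0⟩, x) =
        Pf w z c0.2 u x.1 * Qf w z c0.2 x.1 v := by
      intro x
      unfold lU lW
      rw [if_pos ⟨hcl, v, Finset.mem_inter.2 ⟨hv0, hv⟩, hy⟩,
        if_pos ⟨hcl, u, Finset.mem_inter.2 ⟨hu0, hu⟩, hy⟩]
    rw [Finset.sum_congr rfl fun x _ => h1 x,
      Finset.sum_coe_sort (T (e + 2)) (fun x => Pf w z c0.2 u x * Qf w z c0.2 x v)]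
    symm
    refine Finset.sum_subset Finset.inter_subset_right fun x _ hx => ?_
    rw [hFac.q0 x v (fun hc => hx hc.1), mul_zero]
  · intro t _ ht
    refine Finset.sum_eq_zero fun x _ => ?_
    unfold lU lW
    by_cases h1 : (z, t.1) ∈ Clx j e k P P' T ∧ u ∈ XU j e P' T z t.1
    · by_cases h2 : (z, t.1) ∈ Clx j e k P P' T ∧ v ∈ XW j e P' T z t.1
      · show (if (z, t.1) ∈ Clx j e k P P' T ∧ u ∈ XU j e P' T z t.1 then Pf w z t.1 u x.1 else 0) *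
          (if (z, t.1) ∈ Clx j e k P P' T ∧ v ∈ XW j e P' T z t.1 then Qf w z t.1 x.1 v else 0) = 0
        rw [if_pos h1, if_pos h2]
        have hFac := hPQ w z t.1
        by_cases hut : u ∈ dI t.1.1 t.1.2.1
        · by_cases hvt : v ∈ dI t.1.1 t.1.2.2
          · exfalso
            apply ht
            have h3 := (Clx_spec hP h1.1).2.1
            obtain ⟨a1, a2, a3⟩ := Mx_eq h3 hM0 hut hu0 hvt hv0
            exact Subtype.ext (Prod.ext a1 (Prod.ext a2 a3))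
          · rw [hFac.q0 x.1 v (fun hc => hvt (Finset.mem_inter.1 hc.2).1), mul_zero]
        · rw [hFac.p0 u x.1 (fun hc => hut (Finset.mem_inter.1 hc.1).1), zero_mul]
      · rw [if_neg h2, mul_zero]
    · rw [if_neg h1, zero_mul]
  · intro h
    exact absurd (Finset.mem_univ _) h

/-! ### the two families of frames -/

/-- multiplicity, rows -/
theorem multU {C0 : ℕ} (hC : 1 ≤ C0) (hP : iv P' ⊆ iv P) (hna : ¬ Adj C0 P P') (z : ℤ) (u : ℤ) :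
    ∃ A : Finset {t // t ∈ CT j e k P P' T}, (A.card : ℝ) ≤ 2 ^ 7 + 2 ∧
      ∀ c ∉ A, (z, c.1) ∈ Clx j e k P P' T → u ∈ XU j e P' T z c.1 → u ∉ dI c.1.1 c.1.2.1 := by
  classical
  refine ⟨Finset.univ.filter (fun c => (z, c.1) ∈ Clx j e k P P' T ∧ u ∈ XU j e P' T z c.1 ∧
    u ∈ dI c.1.1 c.1.2.1), ?_, ?_⟩
  · set A := Finset.univ.filter (fun c : {t // t ∈ CT j e k P P' T} =>
      (z, c.1) ∈ Clx j e k P P' T ∧ u ∈ XU j e P' T z c.1 ∧ u ∈ dI c.1.1 c.1.2.1) with hA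
    have h1 := row_card (lin_Yl j e z) (k := k) hC hP hna u (A.image Subtype.val) (by
      intro t ht
      obtain ⟨c, hc, rfl⟩ := Finset.mem_image.1 ht
      rw [hA, Finset.mem_filter] at hc
      obtain ⟨_, h2, h3, h4⟩ := hc
      obtain ⟨v, hv, hy⟩ := h3
      exact ⟨(Clx_spec hP h2).2.1, h4, v, (Finset.mem_inter.1 hv).1, hy⟩)
    rw [Finset.card_image_of_injective _ Subtype.val_injective] at h1
    have h2 : (A.card : ℝ) ≤ ((2 ^ 7 + 2 : ℕ) : ℝ) := by exact_mod_cast h1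
    refine h2.trans (le_of_eq ?_)
    push_cast
    ring
  · intro c hc h1 h2 h3
    exact hc (Finset.mem_filter.2 ⟨Finset.mem_univ _, h1, h2, h3⟩)

/-- a cell of the transposed form -/
lemma Mx.swap {Z : ℤ → ℤ → ℤ} {n : ℕ} {a b : ℤ} (h : Mx Z k P n a b) :
    Mx (fun v u => Z u v) k P n b a := by
  refine ⟨h.1, fun v hv u hu => h.2.1 u hu v hv, ?_⟩
  rcases h.2.2 with h1 | h1
  · exact Or.inl h1
  · exact Or.inr fun h2 => h1 fun u hu v hv => h2 v hv u hu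

/-- multiplicity, columns -/
theorem multW {C0 : ℕ} (hC : 1 ≤ C0) (hP : iv P' ⊆ iv P) (hna : ¬ Adj C0 P P') (z : ℤ) (v : ℤ) :
    ∃ A : Finset {t // t ∈ CT j e k P P' T}, (A.card : ℝ) ≤ 2 ^ 7 + 2 ∧
      ∀ c ∉ A, (z, c.1) ∈ Clx j e k P P' T → v ∈ XW j e P' T z c.1 → v ∉ dI c.1.1 c.1.2.2 := by
  classical
  refine ⟨Finset.univ.filter (fun c => (z, c.1) ∈ Clx j e k P P' T ∧ v ∈ XW j e P' T z c.1 ∧
    v ∈ dI c.1.1 c.1.2.2), ?_, ?_⟩
  · set A := Finset.univ.filter (fun c : {t // t ∈ CT j e k P P' T} =>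
      (z, c.1) ∈ Clx j e k P P' T ∧ v ∈ XW j e P' T z c.1 ∧ v ∈ dI c.1.1 c.1.2.2) with hA
    have hinj : Function.Injective
        (fun c : {t // t ∈ CT j e k P P' T} => ((c.1.1, c.1.2.2, c.1.2.1) : ℕ × ℤ × ℤ)) := by
      intro c c' h
      simp only [Prod.mk.injEq] at h
      exact Subtype.ext (Prod.ext h.1 (Prod.ext h.2.2 h.2.1))
    have h1 := row_card (lin_Yl j e z).swap (k := k) hC hP hna v
      (A.image (fun c => ((c.1.1, c.1.2.2, c.1.2.1) : ℕ × ℤ × ℤ))) (by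
      intro t ht
      obtain ⟨c, hc, rfl⟩ := Finset.mem_image.1 ht
      rw [hA, Finset.mem_filter] at hc
      obtain ⟨_, h2, h3, h4⟩ := hc
      obtain ⟨u, hu, hy⟩ := h3
      exact ⟨Mx.swap (Clx_spec hP h2).2.1, h4, u, (Finset.mem_inter.1 hu).1, hy⟩)
    rw [Finset.card_image_of_injective _ hinj] at h1
    have h2 : (A.card : ℝ) ≤ ((2 ^ 7 + 2 : ℕ) : ℝ) := by exact_mod_cast h1
    refine h2.trans (le_of_eq ?_)
    push_cast
    ring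
  · intro c hc h1 h2 h3
    exact hc (Finset.mem_filter.2 ⟨Finset.mem_univ _, h1, h2, h3⟩)

/-- the dominating kernels of the rows -/
noncomputable def bU (j : Fin 4) (e : Fin 3) (k : ℕ) (P P' : Nd) (T : Fin 3 → Finset ℤ)
    (C : ι → ℤ × ℤ × ℤ → ℂ) : ι → ℤ → {t // t ∈ CT j e k P P' T} → ℤ → ℤ → ℂ :=
  BK (T (e + 1)) (T (e + 2)) (fun c => c.1.1) (fun c => c.1.2.1) (fun c => c.1.2.2)
    (fun z c => (z, c.1) ∈ Clx j e k P P' T) (fun z c => XU j e P' T z c.1)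
    (fun w z u v => C w (z, u, v))

/-- the dominating kernels of the columns -/
noncomputable def bW (j : Fin 4) (e : Fin 3) (k : ℕ) (P P' : Nd) (T : Fin 3 → Finset ℤ)
    (C : ι → ℤ × ℤ × ℤ → ℂ) : ι → ℤ → {t // t ∈ CT j e k P P' T} → ℤ → ℤ → ℂ :=
  BK (T (e + 2)) (T (e + 1)) (fun c => c.1.1) (fun c => c.1.2.2) (fun c => c.1.2.1)
    (fun z c => (z, c.1) ∈ Clx j e k P P' T) (fun z c => XW j e P' T z c.1)
    (fun w z v u => C w (z, u, v))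

/-- **frames of the rows** -/
theorem frU {C : ι → ℤ × ℤ × ℤ → ℂ} {Pf Qf : ι → ℤ → ℕ × ℤ × ℤ → ℤ → ℤ → ℂ} {r : ℝ} (hr : 0 < r)
    (hPQ : ∀ w z t, Fac (fun u v => C w (z, u, v)) (dI t.1 t.2.1 ∩ T (e + 1))
      (dI t.1 t.2.2 ∩ T (e + 2)) (r * 2 ^ t.1) (Pf w z t) (Qf w z t))
    {C0 : ℕ} (hC : 1 ≤ C0) (hP : iv P' ⊆ iv P) (hna : ¬ Adj C0 P P') (S : Finset ι) :
    CellFr S (T e) (T (e + 1)) (fun c : {t // t ∈ CT j e k P P' T} => c.1.1)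
      (fun c => c.1.2.2 * 2 ^ c.1.1) (bU j e k P P' T C) (lU j e k P P' T Pf) (1 / (4 * r))
      (2 ^ 7 + 2) := by
  classical
  refine cellFr_mk (Pf := fun w z (c : {t // t ∈ CT j e k P P' T}) x
    (l : {x // x ∈ T (e + 2)}) => Pf w z c.1 x l.1) (by positivity) (by positivity) ?_ ?_ ?_ ?_
  · intro w z x c l
    simp only [lU]
    split_ifs <;> rfl
  · intro w z c x l hx
    exact (hPQ w z c.1).p0 x l.1 (fun hc => hx hc.1)
  · intro w _ z _ c _ f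
    have h1 := (hPQ w z c.1).majP f
    refine le_trans (le_of_eq ?_) (h1.trans (le_of_eq ?_))
    · rw [Finset.sum_coe_sort (T (e + 2)) (fun l =>
        ‖∑ x ∈ dI c.1.1 c.1.2.1 ∩ T (e + 1), f x * Pf w z c.1 x l‖ ^ 2)]
      symm
      refine Finset.sum_subset Finset.inter_subset_right fun l _ hl => ?_
      rw [Finset.sum_eq_zero fun x _ => by rw [(hPQ w z c.1).p0 x l (fun hc => hl hc.2), mul_zero]]
      norm_num
    · congr 1
      field_simp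
  · intro z _ x
    exact multU hC hP hna z x

/-- **frames of the columns** -/
theorem frW {C : ι → ℤ × ℤ × ℤ → ℂ} {Pf Qf : ι → ℤ → ℕ × ℤ × ℤ → ℤ → ℤ → ℂ} {r : ℝ} (hr : 0 < r)
    (hPQ : ∀ w z t, Fac (fun u v => C w (z, u, v)) (dI t.1 t.2.1 ∩ T (e + 1))
      (dI t.1 t.2.2 ∩ T (e + 2)) (r * 2 ^ t.1) (Pf w z t) (Qf w z t))
    {C0 : ℕ} (hC : 1 ≤ C0) (hP : iv P' ⊆ iv P) (hna : ¬ Adj C0 P P') (S : Finset ι) :
    CellFr S (T e) (T (e + 2)) (fun c : {t // t ∈ CT j e k P P' T} => c.1.1)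
      (fun c => c.1.2.1 * 2 ^ c.1.1) (bW j e k P P' T C)
      (fun w z v l => lW j e k P P' T Qf w v z l) (1 / (4 * r)) (2 ^ 7 + 2) := by
  classical
  refine cellFr_mk (Pf := fun w z (c : {t // t ∈ CT j e k P P' T}) x
    (l : {x // x ∈ T (e + 2)}) => Qf w z c.1 l.1 x) (by positivity) (by positivity) ?_ ?_ ?_ ?_
  · intro w z x c l
    simp only [lW]
    split_ifs <;> rfl
  · intro w z c x l hx
    exact (hPQ w z c.1).q0 l.1 x (fun hc => hx hc.2)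
  · intro w _ z _ c _ f
    have h1 := (hPQ w z c.1).majQ f
    refine le_trans (le_of_eq ?_) (h1.trans (le_of_eq ?_))
    · rw [Finset.sum_coe_sort (T (e + 2)) (fun l =>
        ‖∑ x ∈ dI c.1.1 c.1.2.2 ∩ T (e + 2), f x * Qf w z c.1 l x‖ ^ 2)]
      symm
      refine Finset.sum_subset Finset.inter_subset_right fun l _ hl => ?_
      rw [Finset.sum_eq_zero fun x _ => by rw [(hPQ w z c.1).q0 l x (fun hc => hl hc.1), mul_zero]]
      norm_num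
    · congr 1
      field_simp
  · intro z _ x
    exact multW hC hP hna z x

end Crest.Agent.R079.SKx261
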