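import Crest.Agent.R079.SKj_261

/-! R079, item (c) of 973 / note 1201 (helper261): numbers of the two families of frames.

`GE_U`, `GE_W`: energies `≤ GP`; `lev_C`: levels of the cells; `op_U`, `op_W`: operator bounds on the
boxes of the nodes; `SKH`: the collected hypotheses; `numU`, `numW`: trace, diagonal, `HSk`. -/

set_option autoImplicit false
set_option linter.unusedSectionVars false

namespace Crest.Agent.R079.SKx261

open Finset Crest.Agent.R079.Grid Crest.Agent.R079.Growth Crest.Agent.R079.QRed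
  Crest.Agent.R079.TWin Crest.Agent.R079.Glue Crest.Agent.R079.SWc360 Crest.Agent.R079.Cel159
  Crest.Agent.R079.SplSx69
open Crest.Agent.R079.ClW59 (OpS cl)
open Crest.Agent.R079.Whit (Ins)

variable {ι : Type} {j : Fin 4} {e : Fin 3} {k : ℕ} {P P' : Nd} {T : Fin 3 → Finset ℤ}

/-- sums over the cells, fibre by fibre -/
lemma sum_Clx (hP : iv P' ⊆ iv P) (g : ℤ × ℕ × ℤ × ℤ → ℝ) [∀ z (c : {t // t ∈ CT j e k P P' T}),
    Decidable ((z, c.1) ∈ Clx j e k P P' T)] :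
    ∑ z ∈ T e, ∑ c : {t // t ∈ CT j e k P P' T}, (if (z, c.1) ∈ Clx j e k P P' T then g (z, c.1)
      else 0) = ∑ c ∈ Clx j e k P P' T, g c := by
  classical
  have h1 : ∀ z ∈ T e, ∑ c : {t // t ∈ CT j e k P P' T}, (if (z, c.1) ∈ Clx j e k P P' T then
      g (z, c.1) else 0) = ∑ c ∈ CT j e k P P' T, if (z, c) ∈ Clx j e k P P' T then
      g (z, c) else 0 := by
    intro z _
    rw [← Finset.sum_coe_sort (CT j e k P P' T)
      (fun c => if (z, c) ∈ Clx j e k P P' T then g (z, c) else 0)]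
    refine Finset.sum_congr rfl fun c _ => ?_
    split_ifs <;> rfl
  rw [Finset.sum_congr rfl h1, ← Finset.sum_product', ← Finset.sum_filter]
  refine Finset.sum_congr ?_ fun _ _ => rfl
  ext c
  rw [Finset.mem_filter, Finset.mem_product]
  constructor
  · rintro ⟨_, h⟩
    exact h
  · intro h
    refine ⟨⟨(Clx_spec hP h).1, ?_⟩, h⟩
    unfold CT
    exact Finset.mem_image_of_mem _ h

variable {S : Finset ι} {kap : ι → ℝ} {C : ι → ℤ × ℤ × ℤ → ℂ}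

/-- energy, rows -/
theorem GE_U (hP : iv P' ⊆ iv P) (hkap : ∀ w ∈ S, 0 ≤ kap w) :
    GE S kap (T e) (T (e + 1)) (fun c : {t // t ∈ CT j e k P P' T} => c.1.1)
      (fun c => c.1.2.2 * 2 ^ c.1.1) (bU j e k P P' T C) ≤
      ∑ w ∈ S, kap w * ∑ c ∈ Clx j e k P P' T, (1 / (2 : ℝ) ^ c.2.1) * cE T e (C w) c := by
  classical
  refine (GE_mk hkap).trans (le_of_eq ?_)
  refine Finset.sum_congr rfl fun w _ => ?_
  congr 1
  exact @sum_Clx j e k P P' T hP (fun c => (1 / (2 : ℝ) ^ c.2.1) * cE T e (C w) c)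
    (fun _ _ => Classical.propDecidable _)

/-- energy, columns -/
theorem GE_W (hP : iv P' ⊆ iv P) (hkap : ∀ w ∈ S, 0 ≤ kap w) :
    GE S kap (T e) (T (e + 2)) (fun c : {t // t ∈ CT j e k P P' T} => c.1.1)
      (fun c => c.1.2.1 * 2 ^ c.1.1) (bW j e k P P' T C) ≤
      ∑ w ∈ S, kap w * ∑ c ∈ Clx j e k P P' T, (1 / (2 : ℝ) ^ c.2.1) * cE T e (C w) c := by
  classical
  refine (GE_mk hkap).trans (le_of_eq ?_)
  refine Finset.sum_congr rfl fun w _ => ?_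
  congr 1
  refine Eq.trans ?_ (@sum_Clx j e k P P' T hP (fun c => (1 / (2 : ℝ) ^ c.2.1) * cE T e (C w) c)
    (fun _ _ => Classical.propDecidable _))
  refine Finset.sum_congr rfl fun z _ => Finset.sum_congr rfl fun c _ => ?_
  unfold cE
  rw [Finset.sum_comm]

/-- levels of the cells -/
lemma lev_C {C0 κ0 : ℕ} (hC : 2 ^ κ0 ≤ C0) (hP : iv P' ⊆ iv P) (hna : ¬ Adj C0 P P') {R : Finset Nd}
    (hR : ∀ p ∈ R, p.1 ≤ P'.1) (c : {t // t ∈ CT j e k P P' T}) : ∀ p ∈ R, p.1 + κ0 ≤ c.1.1 := by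
  classical
  intro p hp
  have hc := c.2
  unfold CT at hc
  obtain ⟨c', hc', he⟩ := Finset.mem_image.1 hc
  obtain ⟨_, hM, u, hu, v, hv, hy⟩ := Clx_spec hP hc'
  have h1 := cell_size (lin_Yl j e c'.1) hP hna hM (Finset.mem_inter.1 hu).1
    (Finset.mem_inter.1 hv).1 hy
  have h2 := level_add_le hC h1
  have h3 := hR p hp
  rw [← he]
  omega

/-- sub boxes of a cell lie in the strip -/
lemma Ins_sub {Z : ℤ → ℤ → ℤ} {m n : ℕ} {a b i i' : ℤ} (h : Mx Z k P m a b)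
    (hi : dI n i ⊆ dI m a) (hi' : dI n i' ⊆ dI m b) : Ins Z (iv P) n i i' :=
  fun u hu v hv => h.2.1 u (hi hu) v (hi' hv)

variable {d : ℕ} {ρ : ℝ}

/-- box form of the operator bound -/
def Hbox (S : Finset ι) (j : Fin 4) (e : Fin 3) (d : ℕ) (P : Nd) (T : Fin 3 → Finset ℤ)
    (C : ι → ℤ × ℤ × ℤ → ℂ) (ρ : ℝ) : Prop :=
  ∀ w ∈ S, ∀ z ∈ T e, ∀ n a b, d ≤ n → Ins (Yl j e z) (iv P) n a b →
    OpC (Cel159.msk (S3 T e) (C w) z) n a b ρ

/-- from the maximal cells of the nodes of level `d` -/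
theorem Hbox.of_exits (hρ : 0 ≤ ρ) (hd : d ≤ P.1)
    (hex : ∀ w ∈ S, ∀ z ∈ T e, ∀ L : Nd, L.1 = d → iv L ⊆ iv P → ∀ n a b,
      Mx (Yl j e z) k L n a b → OpC (Cel159.msk (S3 T e) (C w) z) n a b ρ) :
    Hbox S j e d P T C (2 ^ k * ρ) :=
  fun w hw z hz _ _ _ hn hi => box_op hρ hd (hex w hw z hz) hn hi

/-- **operator bounds, rows** -/
theorem op_U (hρ : 0 ≤ ρ) (hP : iv P' ⊆ iv P) (hex : Hbox S j e d P T C ρ)
    {w : ι} (hw : w ∈ S) {z : ℤ} (hz : z ∈ T e) (c : {t // t ∈ CT j e k P P' T}) {n : ℕ}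
    (hn : d ≤ n) (hnm : n ≤ c.1.1) (i i' : ℤ) :
    OpS (dI n i) (dI n i') (bU j e k P P' T C w z c) (ρ * 2 ^ n) := by
  classical
  by_cases hok : (z, c.1) ∈ Clx j e k P P' T
  · have hM := (Clx_spec hP hok).2.1
    have h1 := masked_op (K := Cel159.msk (S3 T e) (C w) z) (a := c.1.2.1) (b := c.1.2.2) hρ hnm
      (fun i i' h1 h2 => hex w hw z hz _ _ _ hn (Ins_sub hM h1 h2))
      {x | (z, c.1) ∈ Clx j e k P P' T ∧ x ∈ XU j e P' T z c.1 ∧ x ∈ T (e + 1)}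
      {y | y ∈ T (e + 2)} i i'
    refine PjC881.opS_congr h1 fun x _ y _ => ?_
    unfold bU BK
    by_cases hc : x ∈ dI c.1.1 c.1.2.1 ∧ y ∈ dI c.1.1 c.1.2.2 ∧
        x ∈ {x | (z, c.1) ∈ Clx j e k P P' T ∧ x ∈ XU j e P' T z c.1 ∧ x ∈ T (e + 1)} ∧
        y ∈ {y | y ∈ T (e + 2)}
    · rw [if_pos hc, if_pos hc]
      unfold Cel159.msk
      rw [if_pos]
      exact mem_S3.2 ⟨hz, hc.2.2.1.2.2, hc.2.2.2⟩
    · rw [if_neg hc, if_neg hc]
  · intro f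
    have e0 : ∀ x ∈ dI n i, ∑ y ∈ dI n i', bU j e k P P' T C w z c x y * f y = 0 := by
      intro x _
      refine Finset.sum_eq_zero fun y _ => ?_
      unfold bU BK
      rw [if_neg, zero_mul]
      intro hc
      exact hok hc.2.2.1.1
    rw [Finset.sum_eq_zero fun x hx => by rw [e0 x hx, norm_zero, zero_pow two_ne_zero]]
    positivity

/-- **operator bounds, columns** -/
theorem op_W (hρ : 0 ≤ ρ) (hP : iv P' ⊆ iv P) (hex : Hbox S j e d P T C ρ)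
    {w : ι} (hw : w ∈ S) {z : ℤ} (hz : z ∈ T e) (c : {t // t ∈ CT j e k P P' T}) {n : ℕ}
    (hn : d ≤ n) (hnm : n ≤ c.1.1) (i i' : ℤ) :
    OpS (dI n i) (dI n i') (bW j e k P P' T C w z c) (ρ * 2 ^ n) := by
  classical
  by_cases hok : (z, c.1) ∈ Clx j e k P P' T
  · have hM := (Clx_spec hP hok).2.1
    have h1 := masked_op (K := fun v u => Cel159.msk (S3 T e) (C w) z u v) (a := c.1.2.2)
      (b := c.1.2.1) hρ hnm
      (fun i i' h1 h2 => opC_tr (hex w hw z hz _ _ _ hn (Ins_sub hM h2 h1)))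
      {x | (z, c.1) ∈ Clx j e k P P' T ∧ x ∈ XW j e P' T z c.1 ∧ x ∈ T (e + 2)}
      {y | y ∈ T (e + 1)} i i'
    refine PjC881.opS_congr h1 fun x _ y _ => ?_
    unfold bW BK
    by_cases hc : x ∈ dI c.1.1 c.1.2.2 ∧ y ∈ dI c.1.1 c.1.2.1 ∧
        x ∈ {x | (z, c.1) ∈ Clx j e k P P' T ∧ x ∈ XW j e P' T z c.1 ∧ x ∈ T (e + 2)} ∧
        y ∈ {y | y ∈ T (e + 1)}
    · rw [if_pos hc, if_pos hc]
      unfold Cel159.msk
      rw [if_pos]
      exact mem_S3.2 ⟨hz, hc.2.2.2, hc.2.2.1.2.2⟩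
    · rw [if_neg hc, if_neg hc]
  · intro f
    have e0 : ∀ x ∈ dI n i, ∑ y ∈ dI n i', bW j e k P P' T C w z c x y * f y = 0 := by
      intro x _
      refine Finset.sum_eq_zero fun y _ => ?_
      unfold bW BK
      rw [if_neg, zero_mul]
      intro hc
      exact hok hc.2.2.1.1
    rw [Finset.sum_eq_zero fun x hx => by rw [e0 x hx, norm_zero, zero_pow two_ne_zero]]
    positivity

/-- hypotheses of the word of a Whitney top `P'` of `P` -/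
structure SKH (S : Finset ι) (kap : ι → ℝ) (j : Fin 4) (e : Fin 3) (k κ0 d C0 : ℕ) (P P' : Nd)
    (T : Fin 3 → Finset ℤ) (R : Finset Nd) (C : ι → ℤ × ℤ × ℤ → ℂ) (ρ r Hr : ℝ) : Prop where
  kap0 : ∀ w ∈ S, 0 ≤ kap w
  hC : 2 ^ κ0 ≤ C0
  hP : iv P' ⊆ iv P
  hna : ¬ Adj C0 P P'
  hR : ∀ p ∈ R, p.1 ≤ P'.1
  hRd : ∀ p ∈ R, d ≤ p.1
  ρ0 : 0 ≤ ρ
  r0 : 0 < r
  Hr0 : 0 ≤ Hr
  hex : Hbox S j e d P T C ρ
  hrow : ∀ w ∈ S, ∀ z ∈ T e, ∀ m a b, Mx (Yl j e z) k P m a b → P'.1 ≤ m →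
    ∀ u ∈ dI m a ∩ T (e + 1), ∑ v ∈ dI m b ∩ T (e + 2), ‖C w (z, u, v)‖ ^ 2 ≤ Hr * 2 ^ m
  hcol : ∀ w ∈ S, ∀ z ∈ T e, ∀ m a b, Mx (Yl j e z) k P m a b → P'.1 ≤ m →
    ∀ v ∈ dI m b ∩ T (e + 2), ∑ u ∈ dI m a ∩ T (e + 1), ‖C w (z, u, v)‖ ^ 2 ≤ Hr * 2 ^ m

variable {κ0 C0 : ℕ} {R : Finset Nd} {r Hr : ℝ}

/-- level of the cells, `P'` itself -/
lemma SKH.lev (H : SKH S kap j e k κ0 d C0 P P' T R C ρ r Hr) {z : ℤ} {c : ℕ × ℤ × ℤ}
    (hc : (z, c) ∈ Clx j e k P P' T) : P'.1 ≤ c.1 := by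
  obtain ⟨_, hM, u, hu, v, hv, hy⟩ := Clx_spec H.hP hc
  have h1 := cell_size (lin_Yl j e z) H.hP H.hna hM (Finset.mem_inter.1 hu).1
    (Finset.mem_inter.1 hv).1 hy
  exact level_le_of_size (le_trans (Nat.one_le_two_pow) H.hC) h1

/-- mass of the family over `S` -/
noncomputable def GS (S : Finset ι) (j : Fin 4) (e : Fin 3) (k : ℕ) (P P' : Nd)
    (T : Fin 3 → Finset ℤ) (kap : ι → ℝ) (C : ι → ℤ × ℤ × ℤ → ℂ) : ℝ :=
  ∑ w ∈ S, kap w * ∑ c ∈ Clx j e k P P' T, (1 / (2 : ℝ) ^ c.2.1) * cE T e (C w) c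

lemma GS_univ [Fintype ι] : GS (univ : Finset ι) j e k P P' T kap C = GP j e k P P' T kap C := rfl

/-- **numbers of the rows**: trace, diagonal, `HSk` -/
theorem SKH.numU (H : SKH S kap j e k κ0 d C0 P P' T R C ρ r Hr)
    {Pf Qf : ι → ℤ → ℕ × ℤ × ℤ → ℤ → ℤ → ℂ}
    (hPQ : ∀ w z t, Fac (fun u v => C w (z, u, v)) (dI t.1 t.2.1 ∩ T (e + 1))
      (dI t.1 t.2.2 ∩ T (e + 2)) (r * 2 ^ t.1) (Pf w z t) (Qf w z t)) :
    (∑ w ∈ S, kap w * ∑ z ∈ T e, ∑ x ∈ T (e + 1),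
      kD (T e) (T (e + 1)) (lU j e k P P' T Pf w) z x ≤ 1 / (4 * r) * GS S j e k P P' T kap C) ∧
    (∀ w ∈ S, ∀ z x, kD (T e) (T (e + 1)) (lU j e k P P' T Pf w) z x ≤
      (2 ^ 7 + 2) * (1 / (4 * r) * Hr)) ∧
    HSk S kap R κ0 ((2 ^ 7 + 2) * (8 * (1 / (4 * r) * ρ) ^ 2) * GS S j e k P P' T kap C)
      (T e) (T (e + 1)) (lU j e k P P' T Pf) := by
  have hr := H.r0
  have hC1 : 1 ≤ C0 := le_trans (Nat.one_le_two_pow) H.hC
  have F := frU (j := j) (k := k) (Pf := Pf) (Qf := Qf) hr hPQ hC1 H.hP H.hna S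
  have hG := GE_U (S := S) (kap := kap) (C := C) (k := k) (j := j) (e := e) (T := T) H.hP H.kap0
  refine ⟨?_, ?_, ?_⟩
  · exact (F.trace H.kap0).trans (mul_le_mul_of_nonneg_left hG (by positivity))
  · intro w hw z x
    refine F.kD_le H.Hr0 ?_ hw z x
    intro w hw z hz c x
    refine row_mk H.Hr0 ?_ x
    intro hok x hx
    exact H.hrow w hw z hz _ _ _ (Clx_spec H.hP hok).2.1 (H.lev hok) x hx
  · have h1 := F.hsk (R := R) (κ0 := κ0) (ρ := ρ) H.kap0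
      (lev_C H.hC H.hP H.hna H.hR) (by
        intro w hw z hz c p hp k' hk' i i'
        have h2 := lev_C H.hC H.hP H.hna H.hR c p hp
        have h3 := H.hRd p hp
        exact op_U H.ρ0 H.hP H.hex hw hz c (by omega) (by omega) i i')
    intro p hp k' hk' Λ
    exact (h1 p hp k' hk' Λ).trans (mul_le_mul_of_nonneg_left hG (by positivity))

/-- **numbers of the columns** -/
theorem SKH.numW (H : SKH S kap j e k κ0 d C0 P P' T R C ρ r Hr)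
    {Pf Qf : ι → ℤ → ℕ × ℤ × ℤ → ℤ → ℤ → ℂ}
    (hPQ : ∀ w z t, Fac (fun u v => C w (z, u, v)) (dI t.1 t.2.1 ∩ T (e + 1))
      (dI t.1 t.2.2 ∩ T (e + 2)) (r * 2 ^ t.1) (Pf w z t) (Qf w z t)) :
    (∑ w ∈ S, kap w * ∑ z ∈ T e, ∑ x ∈ T (e + 2),
      kD (T e) (T (e + 2)) (fun z v l => lW j e k P P' T Qf w v z l) z x ≤
        1 / (4 * r) * GS S j e k P P' T kap C) ∧
    (∀ w ∈ S, ∀ z x, kD (T e) (T (e + 2)) (fun z v l => lW j e k P P' T Qf w v z l) z x ≤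
      (2 ^ 7 + 2) * (1 / (4 * r) * Hr)) ∧
    HSk S kap R κ0 ((2 ^ 7 + 2) * (8 * (1 / (4 * r) * ρ) ^ 2) * GS S j e k P P' T kap C)
      (T e) (T (e + 2)) (fun w z v l => lW j e k P P' T Qf w v z l) := by
  have hr := H.r0
  have hC1 : 1 ≤ C0 := le_trans (Nat.one_le_two_pow) H.hC
  have F := frW (j := j) (k := k) (Pf := Pf) (Qf := Qf) hr hPQ hC1 H.hP H.hna S
  have hG := GE_W (S := S) (kap := kap) (C := C) (k := k) (j := j) (e := e) (T := T) H.hP H.kap0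
  refine ⟨?_, ?_, ?_⟩
  · exact (F.trace H.kap0).trans (mul_le_mul_of_nonneg_left hG (by positivity))
  · intro w hw z x
    refine F.kD_le H.Hr0 ?_ hw z x
    intro w hw z hz c x
    refine row_mk H.Hr0 ?_ x
    intro hok x hx
    exact H.hcol w hw z hz _ _ _ (Clx_spec H.hP hok).2.1 (H.lev hok) x hx
  · have h1 := F.hsk (R := R) (κ0 := κ0) (ρ := ρ) H.kap0
      (lev_C H.hC H.hP H.hna H.hR) (by
        intro w hw z hz c p hp k' hk' i i'
        have h2 := lev_C H.hC H.hP H.hna H.hR c p hp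
        have h3 := H.hRd p hp
        exact op_W H.ρ0 H.hP H.hex hw hz c (by omega) (by omega) i i')
    intro p hp k' hk' Λ
    exact (h1 p hp k' hk' Λ).trans (mul_le_mul_of_nonneg_left hG (by positivity))

end Crest.Agent.R079.SKx261
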