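import Crest.Agent.R079.SKg_261

/-! R079, item SKr of note 1201 / msg 5378 (helper69): rows and columns.

* `cl_row`, `cl_col` : rows / columns of the clip `cl A S T s` are bounded by those of `A`.
* `Pj_row`, `Pj_col` : the same for the projection of a node on one of its maximal cells;
  `Pj_row_sat`, `Pj_col_sat` : on a row of a maximal cell of a larger node `P`;
  `Pj_row_iv`, `Pj_col_iv` : on the whole row.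
* `Cg M g` = glued exit projections over a finite family `M` of disjoint nodes (holes allowed);
  `Cg_row`, `Cg_col` : rows on the maximal cells of `P`;
  `row_hr`, `col_hr` : `≤ 2^9 Ha^2 A 2^m` (`Lin`, exits of level `≤ m` with `∑_{iv L} |g|² ≤ A len L`).
-/

set_option autoImplicit false
set_option linter.unusedSectionVars false

namespace Crest.Agent.R079.SKrx69

open Finset Crest.Agent.R079.Grid Crest.Agent.R079.Growth Crest.Agent.R079.QRed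
  Crest.Agent.R079.Qh249 Crest.Agent.R079.QVar181 Crest.Agent.R079.TWin
open Crest.Agent.R079.ThA159 Crest.Agent.R079.Cel159 Crest.Agent.R079.SKx261
open Crest.Agent.R079.Whit (Ins Ins.mono Ins.sub sub0 sub1)
open Crest.Agent.R079.ClW59 (OpS cl)
open Crest.Agent.R079.HiF881 (clip cc exists_SVD clip_eq Mul_row_le Mul_col_le cc_nonneg cc_le_one)

/-! ### (a) the clip -/

section clip

variable {m n : Type*} [Fintype m] [Fintype n] [DecidableEq n]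

lemma cc_sq_le {s : n → ℝ} (hs : ∀ k, 0 ≤ s k) {th : ℝ} (hth : 0 ≤ th) (k : n) :
    cc s th k ^ 2 ≤ 1 := by
  have h1 := cc_nonneg hs hth k
  have h2 := cc_le_one (s := s) hth k
  nlinarith

/-- rows of the clip -/
theorem clip_row (A : m → n → ℂ) {th : ℝ} (hth : 0 ≤ th) (x : m) :
    ∑ y, ‖clip A th x y‖ ^ 2 ≤ ∑ y, ‖A x y‖ ^ 2 := by
  obtain ⟨X, s, h⟩ := exists_SVD A
  rw [clip_eq h hth]
  exact Mul_row_le h (cc_sq_le h.nn hth) x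

/-- columns of the clip -/
theorem clip_col (A : m → n → ℂ) {th : ℝ} (hth : 0 ≤ th) (y : n) :
    ∑ x, ‖clip A th x y‖ ^ 2 ≤ ∑ x, ‖A x y‖ ^ 2 := by
  obtain ⟨X, s, h⟩ := exists_SVD A
  rw [clip_eq h hth]
  exact Mul_col_le h (cc_sq_le h.nn hth) y

end clip

/-- **rows of the clip of a rectangle** -/
theorem cl_row (A : ℤ → ℤ → ℂ) (S T : Finset ℤ) {s : ℝ} (hs : 0 ≤ s) (x : ℤ) :
    ∑ y ∈ T, ‖cl A S T s x y‖ ^ 2 ≤ ∑ y ∈ T, ‖A x y‖ ^ 2 := by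
  classical
  by_cases hx : x ∈ S
  · have h := clip_row (fun (x : {x // x ∈ S}) (y : {y // y ∈ T}) => A x y) hs ⟨x, hx⟩
    rw [← Finset.sum_coe_sort T, ← Finset.sum_coe_sort T (fun y => ‖A x y‖ ^ 2)]
    refine le_trans (le_of_eq ?_) h
    refine Finset.sum_congr rfl fun y _ => ?_
    unfold cl
    rw [dif_pos ⟨hx, y.2⟩]
  · rw [Finset.sum_eq_zero fun y _ => by
      unfold cl
      rw [dif_neg fun h => hx h.1, norm_zero, zero_pow two_ne_zero]]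
    exact Finset.sum_nonneg fun _ _ => sq_nonneg _

/-- **columns of the clip of a rectangle** -/
theorem cl_col (A : ℤ → ℤ → ℂ) (S T : Finset ℤ) {s : ℝ} (hs : 0 ≤ s) (y : ℤ) :
    ∑ x ∈ S, ‖cl A S T s x y‖ ^ 2 ≤ ∑ x ∈ S, ‖A x y‖ ^ 2 := by
  classical
  by_cases hy : y ∈ T
  · have h := clip_col (fun (x : {x // x ∈ S}) (y : {y // y ∈ T}) => A x y) hs ⟨y, hy⟩
    rw [← Finset.sum_coe_sort S, ← Finset.sum_coe_sort S (fun x => ‖A x y‖ ^ 2)]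
    refine le_trans (le_of_eq ?_) h
    refine Finset.sum_congr rfl fun x _ => ?_
    unfold cl
    rw [dif_pos ⟨x.2, hy⟩]
  · rw [Finset.sum_eq_zero fun x _ => by
      unfold cl
      rw [dif_neg fun h => hy h.2, norm_zero, zero_pow two_ne_zero]]
    exact Finset.sum_nonneg fun _ _ => sq_nonneg _

/-! ### nesting -/

lemma nest {x c c' : ℤ} {s t : ℕ} (hst : s ≤ t) (hx : x ∈ dI s c) (hx' : x ∈ dI t c') :
    dI s c ⊆ dI t c' := by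
  obtain ⟨j, rfl⟩ : ∃ j, t = s + j := ⟨t - s, by omega⟩
  have h6 := L0e.dI_sub s j c
  have h7 := h6 hx
  rw [L0e.mem_dI] at h7 hx'
  rw [← hx', h7]
  exact h6

/-- a maximal cell of a node inside `P` lies in every maximal cell of `P` it meets -/
lemma mx_le {Z : ℤ → ℤ → ℤ} {k : ℕ} {P L : Nd} (hL : iv L ⊆ iv P) {m n : ℕ} {a b a' b' : ℤ}
    (hM : Mx Z k P m a b) (hM' : Mx Z k L n a' b') {u v : ℤ} (hu : u ∈ dI m a) (hv : v ∈ dI m b)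
    (hu' : u ∈ dI n a') (hv' : v ∈ dI n b') : n ≤ m := by
  by_contra hc
  have hl : L.1 ≤ P.1 := (SplSx69.le_iff.1 (le_of_iv hL)).1
  rcases hM.2.2 with h | h
  · have := hM'.1
    omega
  · apply h
    have s1 := L0e.dI_sub m 1 a
    have s2 := L0e.dI_sub m 1 b
    rw [pow_one] at s1 s2
    exact (hM'.2.1.sub (nest (by omega) (s1 hu) hu') (nest (by omega) (s2 hv) hv')).mono hL

/-! ### (b) the projection of a node -/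

section node

variable {Y : ℤ → ℤ → ℤ → ℤ} {k : ℕ} {T₀ T₁ T₂ : Finset ℤ} {ν : ℝ}

open Classical in
/-- off the band -/
lemma Pj_supp (hB : Bnd (fun p => (T₀ ×ˢ T₁ ×ˢ T₂).filter (fun ω => Y ω.1 ω.2.1 ω.2.2 ∈ iv p))
      (fun ω => Y ω.1 ω.2.1 ω.2.2) (NmP (T₀ ×ˢ T₁ ×ˢ T₂) cf (okc Y k)) ν) {r : ℝ} (hr : 0 ≤ r)
    (L : Nd) (A : ℤ × ℤ × ℤ → ℂ) {ω : ℤ × ℤ × ℤ}
    (hω : ¬ ((ω.1 ∈ T₀ ∧ ω.2.1 ∈ T₁ ∧ ω.2.2 ∈ T₂) ∧ Y ω.1 ω.2.1 ω.2.2 ∈ iv L)) :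
    Pj (fun p => (T₀ ×ˢ T₁ ×ˢ T₂).filter (fun ω => Y ω.1 ω.2.1 ω.2.2 ∈ iv p))
      (NmP (T₀ ×ˢ T₁ ×ˢ T₂) cf (okc Y k)) r L A ω = 0 := by
  refine (Pj_spec hB hr L A).1.1 ω fun h => hω ?_
  rw [Finset.mem_filter, Finset.mem_product, Finset.mem_product] at h
  exact h

open Classical in
/-- **rows of the projection on a maximal cell** -/
theorem Pj_row (hB : Bnd (fun p => (T₀ ×ˢ T₁ ×ˢ T₂).filter (fun ω => Y ω.1 ω.2.1 ω.2.2 ∈ iv p))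
      (fun ω => Y ω.1 ω.2.1 ω.2.2) (NmP (T₀ ×ˢ T₁ ×ˢ T₂) cf (okc Y k)) ν) {r : ℝ} (hr : 0 ≤ r)
    (L : Nd) (A : ℤ × ℤ × ℤ → ℂ) {z : ℤ} {n : ℕ} {a b : ℤ} (hM : Mx (Y z) k L n a b) {u : ℤ}
    (hu : u ∈ dI n a) :
    ∑ v ∈ dI n b ∩ T₂, ‖Pj (fun p => (T₀ ×ˢ T₁ ×ˢ T₂).filter
        (fun ω => Y ω.1 ω.2.1 ω.2.2 ∈ iv p)) (NmP (T₀ ×ˢ T₁ ×ˢ T₂) cf (okc Y k)) r L A (z, u, v)‖ ^ 2
      ≤ ∑ v ∈ dI n b ∩ T₂, ‖A (z, u, v)‖ ^ 2 := by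
  by_cases hz : z ∈ T₀ ∧ u ∈ T₁
  · have e : ∀ D : ℤ × ℤ × ℤ → ℂ, ∑ v ∈ dI n b ∩ T₂, ‖D (z, u, v)‖ ^ 2 =
        ∑ v ∈ dI n b, ‖msk (T₀ ×ˢ T₁ ×ˢ T₂) D z u v‖ ^ 2 := by
      intro D
      rw [← Finset.sum_subset (Finset.inter_subset_left (s₁ := dI n b) (s₂ := T₂))]
      · refine Finset.sum_congr rfl fun v hv => ?_
        unfold msk
        rw [if_pos]
        rw [Finset.mem_product, Finset.mem_product]
        exact ⟨hz.1, hz.2, (Finset.mem_inter.1 hv).2⟩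
      · intro v hv hv'
        unfold msk
        rw [if_neg, norm_zero, zero_pow two_ne_zero]
        intro hc
        rw [Finset.mem_product, Finset.mem_product] at hc
        exact hv' (Finset.mem_inter.2 ⟨hv, hc.2.2⟩)
    rw [e, e]
    refine le_trans (le_of_eq ?_) (cl_row (msk (T₀ ×ˢ T₁ ×ˢ T₂) A z) (dI n a) (dI n b)
      (s := r * 2 ^ n) (by positivity) u)
    refine Finset.sum_congr rfl fun v hv => ?_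
    rw [Cel159.Pj_eq_cl hB hr L A hz.1 hM hu hv]
  · rw [Finset.sum_eq_zero fun v _ => by
      rw [Pj_supp hB hr L A fun h => hz ⟨h.1.1, h.1.2.1⟩, norm_zero, zero_pow two_ne_zero]]
    exact Finset.sum_nonneg fun _ _ => sq_nonneg _

open Classical in
/-- **columns of the projection on a maximal cell** -/
theorem Pj_col (hB : Bnd (fun p => (T₀ ×ˢ T₁ ×ˢ T₂).filter (fun ω => Y ω.1 ω.2.1 ω.2.2 ∈ iv p))
      (fun ω => Y ω.1 ω.2.1 ω.2.2) (NmP (T₀ ×ˢ T₁ ×ˢ T₂) cf (okc Y k)) ν) {r : ℝ} (hr : 0 ≤ r)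
    (L : Nd) (A : ℤ × ℤ × ℤ → ℂ) {z : ℤ} {n : ℕ} {a b : ℤ} (hM : Mx (Y z) k L n a b) {v : ℤ}
    (hv : v ∈ dI n b) :
    ∑ u ∈ dI n a ∩ T₁, ‖Pj (fun p => (T₀ ×ˢ T₁ ×ˢ T₂).filter
        (fun ω => Y ω.1 ω.2.1 ω.2.2 ∈ iv p)) (NmP (T₀ ×ˢ T₁ ×ˢ T₂) cf (okc Y k)) r L A (z, u, v)‖ ^ 2
      ≤ ∑ u ∈ dI n a ∩ T₁, ‖A (z, u, v)‖ ^ 2 := by
  by_cases hz : z ∈ T₀ ∧ v ∈ T₂
  · have e : ∀ D : ℤ × ℤ × ℤ → ℂ, ∑ u ∈ dI n a ∩ T₁, ‖D (z, u, v)‖ ^ 2 =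
        ∑ u ∈ dI n a, ‖msk (T₀ ×ˢ T₁ ×ˢ T₂) D z u v‖ ^ 2 := by
      intro D
      rw [← Finset.sum_subset (Finset.inter_subset_left (s₁ := dI n a) (s₂ := T₁))]
      · refine Finset.sum_congr rfl fun u hu => ?_
        unfold msk
        rw [if_pos]
        rw [Finset.mem_product, Finset.mem_product]
        exact ⟨hz.1, (Finset.mem_inter.1 hu).2, hz.2⟩
      · intro u hu hu'
        unfold msk
        rw [if_neg, norm_zero, zero_pow two_ne_zero]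
        intro hc
        rw [Finset.mem_product, Finset.mem_product] at hc
        exact hu' (Finset.mem_inter.2 ⟨hu, hc.2.1⟩)
    rw [e, e]
    refine le_trans (le_of_eq ?_) (cl_col (msk (T₀ ×ˢ T₁ ×ˢ T₂) A z) (dI n a) (dI n b)
      (s := r * 2 ^ n) (by positivity) v)
    refine Finset.sum_congr rfl fun u hu => ?_
    rw [Cel159.Pj_eq_cl hB hr L A hz.1 hM hu hv]
  · rw [Finset.sum_eq_zero fun u _ => by
      rw [Pj_supp hB hr L A fun h => hz ⟨h.1.1, h.1.2.2⟩, norm_zero, zero_pow two_ne_zero]]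
    exact Finset.sum_nonneg fun _ _ => sq_nonneg _

/-- sums of nonnegative functions compared fibre by fibre -/
lemma sum_le_fib {α β : Type*} [DecidableEq β] (V : Finset α) (key : α → β) (f g : α → ℝ)
    (h : ∀ v0 ∈ V, ∑ v ∈ V.filter (fun v => key v = key v0), f v ≤
      ∑ v ∈ V.filter (fun v => key v = key v0), g v) : ∑ v ∈ V, f v ≤ ∑ v ∈ V, g v := by
  classical
  rw [← Finset.sum_fiberwise_of_maps_to (t := V.image key) (fun v hv => Finset.mem_image_of_mem key hv),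
    ← Finset.sum_fiberwise_of_maps_to (t := V.image key) (f := g)
      (fun v hv => Finset.mem_image_of_mem key hv)]
  refine Finset.sum_le_sum fun c hc => ?_
  obtain ⟨v0, hv0, rfl⟩ := Finset.mem_image.1 hc
  exact h v0 hv0

/-- the fibres of the maximal cells of `L` on a row of a set saturated by cells -/
lemma row_fib {L : Nd} {z u : ℤ} (V : Finset ℤ)
    (hVL : ∀ v ∈ V, v ∈ T₂ ∧ Y z u v ∈ iv L)
    (hsat : ∀ n a b, Mx (Y z) k L n a b → u ∈ dI n a → ∀ v ∈ V, v ∈ dI n b → dI n b ∩ T₂ ⊆ V)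
    {v0 : ℤ} (hv0 : v0 ∈ V) :
    V.filter (fun v => (sc Y k L (z, u, v), v / 2 ^ sc Y k L (z, u, v)) =
      (sc Y k L (z, u, v0), v0 / 2 ^ sc Y k L (z, u, v0))) =
      dI (sc Y k L (z, u, v0)) (v0 / 2 ^ sc Y k L (z, u, v0)) ∩ T₂ := by
  classical
  have hself : ∀ (n : ℕ) (x : ℤ), x ∈ dI n (x / 2 ^ n) := fun n x => by rw [L0e.mem_dI]
  have hM := Mx_mcell (Y := Y) (k := k) (p := L) (ω := (z, u, v0)) (hVL v0 hv0).2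
  ext v
  rw [Finset.mem_filter, Finset.mem_inter]
  constructor
  · rintro ⟨hv, he⟩
    refine ⟨?_, (hVL v hv).1⟩
    rw [Prod.mk.injEq] at he
    rw [← he.2, he.1]
    exact hself _ _
  · rintro ⟨hv, hT⟩
    have hV := hsat _ _ _ hM (hself _ _) v0 hv0 (hself _ _) (Finset.mem_inter.2 ⟨hv, hT⟩)
    refine ⟨hV, ?_⟩
    have hM' := Mx_mcell (Y := Y) (k := k) (p := L) (ω := (z, u, v)) (hVL v hV).2
    obtain ⟨e1, _, e3⟩ := Mx_eq hM hM' (hself _ u) (hself _ u) hv (hself _ v)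
    exact Prod.ext e1.symm e3.symm

/-- columns -/
lemma col_fib {L : Nd} {z v : ℤ} (V : Finset ℤ)
    (hVL : ∀ u ∈ V, u ∈ T₁ ∧ Y z u v ∈ iv L)
    (hsat : ∀ n a b, Mx (Y z) k L n a b → v ∈ dI n b → ∀ u ∈ V, u ∈ dI n a → dI n a ∩ T₁ ⊆ V)
    {u0 : ℤ} (hu0 : u0 ∈ V) :
    V.filter (fun u => (sc Y k L (z, u, v), u / 2 ^ sc Y k L (z, u, v)) =
      (sc Y k L (z, u0, v), u0 / 2 ^ sc Y k L (z, u0, v))) =
      dI (sc Y k L (z, u0, v)) (u0 / 2 ^ sc Y k L (z, u0, v)) ∩ T₁ := by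
  classical
  have hself : ∀ (n : ℕ) (x : ℤ), x ∈ dI n (x / 2 ^ n) := fun n x => by rw [L0e.mem_dI]
  have hM := Mx_mcell (Y := Y) (k := k) (p := L) (ω := (z, u0, v)) (hVL u0 hu0).2
  ext u
  rw [Finset.mem_filter, Finset.mem_inter]
  constructor
  · rintro ⟨hu, he⟩
    refine ⟨?_, (hVL u hu).1⟩
    rw [Prod.mk.injEq] at he
    rw [← he.2, he.1]
    exact hself _ _
  · rintro ⟨hu, hT⟩
    have hV := hsat _ _ _ hM (hself _ _) u0 hu0 (hself _ _) (Finset.mem_inter.2 ⟨hu, hT⟩)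
    refine ⟨hV, ?_⟩
    have hM' := Mx_mcell (Y := Y) (k := k) (p := L) (ω := (z, u, v)) (hVL u hV).2
    obtain ⟨e1, e2, _⟩ := Mx_eq hM hM' hu (hself _ u) (hself _ v) (hself _ v)
    exact Prod.ext e1.symm e2.symm

open Classical in
/-- **rows on a saturated set** -/
theorem Pj_row_sat (hB : Bnd (fun p => (T₀ ×ˢ T₁ ×ˢ T₂).filter (fun ω => Y ω.1 ω.2.1 ω.2.2 ∈ iv p))
      (fun ω => Y ω.1 ω.2.1 ω.2.2) (NmP (T₀ ×ˢ T₁ ×ˢ T₂) cf (okc Y k)) ν) {r : ℝ} (hr : 0 ≤ r)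
    (L : Nd) (A : ℤ × ℤ × ℤ → ℂ) {z u : ℤ} (V : Finset ℤ)
    (hVL : ∀ v ∈ V, v ∈ T₂ ∧ Y z u v ∈ iv L)
    (hsat : ∀ n a b, Mx (Y z) k L n a b → u ∈ dI n a → ∀ v ∈ V, v ∈ dI n b → dI n b ∩ T₂ ⊆ V) :
    ∑ v ∈ V, ‖Pj (fun p => (T₀ ×ˢ T₁ ×ˢ T₂).filter
        (fun ω => Y ω.1 ω.2.1 ω.2.2 ∈ iv p)) (NmP (T₀ ×ˢ T₁ ×ˢ T₂) cf (okc Y k)) r L A (z, u, v)‖ ^ 2
      ≤ ∑ v ∈ V, ‖A (z, u, v)‖ ^ 2 := by
  refine sum_le_fib V (fun v => (sc Y k L (z, u, v), v / 2 ^ sc Y k L (z, u, v))) _ _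
    fun v0 hv0 => ?_
  rw [row_fib V hVL hsat hv0]
  exact Pj_row hB hr L A (Mx_mcell (Y := Y) (k := k) (p := L) (ω := (z, u, v0)) (hVL v0 hv0).2)
    (by rw [L0e.mem_dI])

open Classical in
/-- **columns on a saturated set** -/
theorem Pj_col_sat (hB : Bnd (fun p => (T₀ ×ˢ T₁ ×ˢ T₂).filter (fun ω => Y ω.1 ω.2.1 ω.2.2 ∈ iv p))
      (fun ω => Y ω.1 ω.2.1 ω.2.2) (NmP (T₀ ×ˢ T₁ ×ˢ T₂) cf (okc Y k)) ν) {r : ℝ} (hr : 0 ≤ r)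
    (L : Nd) (A : ℤ × ℤ × ℤ → ℂ) {z v : ℤ} (V : Finset ℤ)
    (hVL : ∀ u ∈ V, u ∈ T₁ ∧ Y z u v ∈ iv L)
    (hsat : ∀ n a b, Mx (Y z) k L n a b → v ∈ dI n b → ∀ u ∈ V, u ∈ dI n a → dI n a ∩ T₁ ⊆ V) :
    ∑ u ∈ V, ‖Pj (fun p => (T₀ ×ˢ T₁ ×ˢ T₂).filter
        (fun ω => Y ω.1 ω.2.1 ω.2.2 ∈ iv p)) (NmP (T₀ ×ˢ T₁ ×ˢ T₂) cf (okc Y k)) r L A (z, u, v)‖ ^ 2
      ≤ ∑ u ∈ V, ‖A (z, u, v)‖ ^ 2 := by
  refine sum_le_fib V (fun u => (sc Y k L (z, u, v), u / 2 ^ sc Y k L (z, u, v))) _ _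
    fun u0 hu0 => ?_
  rw [col_fib V hVL hsat hu0]
  exact Pj_col hB hr L A (Mx_mcell (Y := Y) (k := k) (p := L) (ω := (z, u0, v)) (hVL u0 hu0).2)
    (by rw [L0e.mem_dI])

open Classical in
/-- **(b)** the whole row of a node -/
theorem Pj_row_iv (hB : Bnd (fun p => (T₀ ×ˢ T₁ ×ˢ T₂).filter (fun ω => Y ω.1 ω.2.1 ω.2.2 ∈ iv p))
      (fun ω => Y ω.1 ω.2.1 ω.2.2) (NmP (T₀ ×ˢ T₁ ×ˢ T₂) cf (okc Y k)) ν) {r : ℝ} (hr : 0 ≤ r)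
    (L : Nd) (A : ℤ × ℤ × ℤ → ℂ) (z u : ℤ) :
    ∑ v ∈ T₂.filter (fun v => Y z u v ∈ iv L), ‖Pj (fun p => (T₀ ×ˢ T₁ ×ˢ T₂).filter
        (fun ω => Y ω.1 ω.2.1 ω.2.2 ∈ iv p)) (NmP (T₀ ×ˢ T₁ ×ˢ T₂) cf (okc Y k)) r L A (z, u, v)‖ ^ 2
      ≤ ∑ v ∈ T₂.filter (fun v => Y z u v ∈ iv L), ‖A (z, u, v)‖ ^ 2 := by
  refine Pj_row_sat hB hr L A _ (fun v hv => Finset.mem_filter.1 hv) ?_
  intro n a b hM hu v _ _ v' hv'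
  rw [Finset.mem_inter] at hv'
  exact Finset.mem_filter.2 ⟨hv'.2, hM.2.1 u hu v' hv'.1⟩

open Classical in
/-- **(b)** the whole column of a node -/
theorem Pj_col_iv (hB : Bnd (fun p => (T₀ ×ˢ T₁ ×ˢ T₂).filter (fun ω => Y ω.1 ω.2.1 ω.2.2 ∈ iv p))
      (fun ω => Y ω.1 ω.2.1 ω.2.2) (NmP (T₀ ×ˢ T₁ ×ˢ T₂) cf (okc Y k)) ν) {r : ℝ} (hr : 0 ≤ r)
    (L : Nd) (A : ℤ × ℤ × ℤ → ℂ) (z v : ℤ) :
    ∑ u ∈ T₁.filter (fun u => Y z u v ∈ iv L), ‖Pj (fun p => (T₀ ×ˢ T₁ ×ˢ T₂).filter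
        (fun ω => Y ω.1 ω.2.1 ω.2.2 ∈ iv p)) (NmP (T₀ ×ˢ T₁ ×ˢ T₂) cf (okc Y k)) r L A (z, u, v)‖ ^ 2
      ≤ ∑ u ∈ T₁.filter (fun u => Y z u v ∈ iv L), ‖A (z, u, v)‖ ^ 2 := by
  refine Pj_col_sat hB hr L A _ (fun u hu => Finset.mem_filter.1 hu) ?_
  intro n a b hM hv u _ _ u' hu'
  rw [Finset.mem_inter] at hu'
  exact Finset.mem_filter.2 ⟨hu'.2, hM.2.1 u' hu'.1 v hv⟩

open Classical in
/-- **(b)** the part of a row inside a maximal cell of `P` -/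
theorem Pj_row_cell (hB : Bnd (fun p => (T₀ ×ˢ T₁ ×ˢ T₂).filter (fun ω => Y ω.1 ω.2.1 ω.2.2 ∈ iv p))
      (fun ω => Y ω.1 ω.2.1 ω.2.2) (NmP (T₀ ×ˢ T₁ ×ˢ T₂) cf (okc Y k)) ν) {r : ℝ} (hr : 0 ≤ r)
    {P L : Nd} (hL : iv L ⊆ iv P) (A : ℤ × ℤ × ℤ → ℂ) {z : ℤ} {m : ℕ} {a b : ℤ}
    (hM : Mx (Y z) k P m a b) {u : ℤ} (hu : u ∈ dI m a) :
    ∑ v ∈ (dI m b ∩ T₂).filter (fun v => Y z u v ∈ iv L), ‖Pj (fun p => (T₀ ×ˢ T₁ ×ˢ T₂).filter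
        (fun ω => Y ω.1 ω.2.1 ω.2.2 ∈ iv p)) (NmP (T₀ ×ˢ T₁ ×ˢ T₂) cf (okc Y k)) r L A (z, u, v)‖ ^ 2
      ≤ ∑ v ∈ (dI m b ∩ T₂).filter (fun v => Y z u v ∈ iv L), ‖A (z, u, v)‖ ^ 2 := by
  refine Pj_row_sat hB hr L A _ (fun v hv => ?_) ?_
  · rw [Finset.mem_filter, Finset.mem_inter] at hv
    exact ⟨hv.1.2, hv.2⟩
  · intro n a' b' hM' hu' v hv hvb v' hv'
    rw [Finset.mem_filter, Finset.mem_inter] at hv
    rw [Finset.mem_inter] at hv'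
    rw [Finset.mem_filter, Finset.mem_inter]
    have hnm := mx_le hL hM hM' hu hv.1.1 hu' hvb
    exact ⟨⟨nest hnm hvb hv.1.1 hv'.1, hv'.2⟩, hM'.2.1 u hu' v' hv'.1⟩

open Classical in
/-- **(b)** the part of a column inside a maximal cell of `P` -/
theorem Pj_col_cell (hB : Bnd (fun p => (T₀ ×ˢ T₁ ×ˢ T₂).filter (fun ω => Y ω.1 ω.2.1 ω.2.2 ∈ iv p))
      (fun ω => Y ω.1 ω.2.1 ω.2.2) (NmP (T₀ ×ˢ T₁ ×ˢ T₂) cf (okc Y k)) ν) {r : ℝ} (hr : 0 ≤ r)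
    {P L : Nd} (hL : iv L ⊆ iv P) (A : ℤ × ℤ × ℤ → ℂ) {z : ℤ} {m : ℕ} {a b : ℤ}
    (hM : Mx (Y z) k P m a b) {v : ℤ} (hv : v ∈ dI m b) :
    ∑ u ∈ (dI m a ∩ T₁).filter (fun u => Y z u v ∈ iv L), ‖Pj (fun p => (T₀ ×ˢ T₁ ×ˢ T₂).filter
        (fun ω => Y ω.1 ω.2.1 ω.2.2 ∈ iv p)) (NmP (T₀ ×ˢ T₁ ×ˢ T₂) cf (okc Y k)) r L A (z, u, v)‖ ^ 2
      ≤ ∑ u ∈ (dI m a ∩ T₁).filter (fun u => Y z u v ∈ iv L), ‖A (z, u, v)‖ ^ 2 := by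
  refine Pj_col_sat hB hr L A _ (fun u hu => ?_) ?_
  · rw [Finset.mem_filter, Finset.mem_inter] at hu
    exact ⟨hu.1.2, hu.2⟩
  · intro n a' b' hM' hv' u hu hua u' hu'
    rw [Finset.mem_filter, Finset.mem_inter] at hu
    rw [Finset.mem_inter] at hu'
    rw [Finset.mem_filter, Finset.mem_inter]
    have hnm := mx_le hL hM hM' hu.1.1 hv hua hv'
    exact ⟨⟨nest hnm hua hu.1.1 hu'.1, hu'.2⟩, hM'.2.1 u' hu'.1 v hv'⟩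

end node

/-! ### (c) glued exit projections over a family of exits (holes allowed) -/

section glued

variable {Ω : Type*}

/-- glued exit projections over the family `M` -/
noncomputable def Cg (Bd : Nd → Finset Ω) (pos : Ω → ℤ) (N : Nd → (Ω → ℂ) → ℝ) (a : Ω → ℂ) (r : ℝ)
    (M : Finset Nd) (g : Fn) : Ω → ℂ :=
  fun ω => ∑ L ∈ M, Pj Bd N r L (ag Bd pos a L g) ω

open Classical in
/-- `Bgl` is the case of all exits below `p` -/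
lemma Bgl_eq_Cg (Bd : Nd → Finset Ω) (pos : Ω → ℤ) (N : Nd → (Ω → ℂ) → ℝ) (a : Ω → ℂ) (r : ℝ)
    (W : Finset Nd) (p : Nd) (g : Fn) :
    Bgl Bd pos N a r W p g = Cg Bd pos N a r ((lf W).filter (fun L => iv L ⊆ iv p)) g := by
  unfold Bgl Cg
  rfl

/-- at most one nonzero term -/
lemma sq_sum_single {ι : Type*} (M : Finset ι) (f : ι → ℂ)
    (h : ∀ i ∈ M, ∀ j ∈ M, f i ≠ 0 → f j ≠ 0 → i = j) : ‖∑ i ∈ M, f i‖ ^ 2 = ∑ i ∈ M, ‖f i‖ ^ 2 := by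
  classical
  by_cases hex : ∃ i ∈ M, f i ≠ 0
  · obtain ⟨i, hi, hfi⟩ := hex
    have h0 : ∀ j ∈ M, j ≠ i → f j = 0 := fun j hj hne => by
      by_contra hc
      exact hne (h j hj i hi hc hfi)
    rw [Finset.sum_eq_single i h0 (fun hc => absurd hi hc),
      Finset.sum_eq_single i (fun j hj hne => by rw [h0 j hj hne, norm_zero, zero_pow two_ne_zero])
        (fun hc => absurd hi hc)]
  · push Not at hex
    rw [Finset.sum_eq_zero hex, Finset.sum_eq_zero fun i hi => by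
      rw [hex i hi, norm_zero, zero_pow two_ne_zero], norm_zero, zero_pow two_ne_zero]

end glued

section cells

variable {Y : ℤ → ℤ → ℤ → ℤ} {k : ℕ} {T₀ T₁ T₂ : Finset ℤ} {ν : ℝ}

open Classical in
lemma Cg_sq (hB : Bnd (fun p => (T₀ ×ˢ T₁ ×ˢ T₂).filter (fun ω => Y ω.1 ω.2.1 ω.2.2 ∈ iv p))
      (fun ω => Y ω.1 ω.2.1 ω.2.2) (NmP (T₀ ×ˢ T₁ ×ˢ T₂) cf (okc Y k)) ν) {r : ℝ} (hr : 0 ≤ r)
    (M : Finset Nd) (hdj : ∀ L ∈ M, ∀ L' ∈ M, L ≠ L' → Disjoint (iv L) (iv L'))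
    (al : ℤ × ℤ × ℤ → ℂ) (g : Fn) (ω : ℤ × ℤ × ℤ) :
    ‖Cg (fun p => (T₀ ×ˢ T₁ ×ˢ T₂).filter (fun ω => Y ω.1 ω.2.1 ω.2.2 ∈ iv p))
      (fun ω => Y ω.1 ω.2.1 ω.2.2) (NmP (T₀ ×ˢ T₁ ×ˢ T₂) cf (okc Y k)) al r M g ω‖ ^ 2 =
    ∑ L ∈ M, if Y ω.1 ω.2.1 ω.2.2 ∈ iv L then
      ‖Pj (fun p => (T₀ ×ˢ T₁ ×ˢ T₂).filter (fun ω => Y ω.1 ω.2.1 ω.2.2 ∈ iv p))
        (NmP (T₀ ×ˢ T₁ ×ˢ T₂) cf (okc Y k)) r L
        (ag (fun p => (T₀ ×ˢ T₁ ×ˢ T₂).filter (fun ω => Y ω.1 ω.2.1 ω.2.2 ∈ iv p))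
          (fun ω => Y ω.1 ω.2.1 ω.2.2) al L g) ω‖ ^ 2 else 0 := by
  unfold Cg
  rw [sq_sum_single]
  · refine Finset.sum_congr rfl fun L _ => ?_
    split_ifs with h
    · rfl
    · rw [Pj_supp hB hr L _ fun hc => h hc.2, norm_zero, zero_pow two_ne_zero]
  · intro L hL L' hL' h h'
    by_contra hne
    have m1 : Y ω.1 ω.2.1 ω.2.2 ∈ iv L := by
      by_contra hc
      exact h (Pj_supp hB hr L _ fun h => hc h.2)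
    have m2 : Y ω.1 ω.2.1 ω.2.2 ∈ iv L' := by
      by_contra hc
      exact h' (Pj_supp hB hr L' _ fun h => hc h.2)
    exact Finset.disjoint_left.1 (hdj L hL L' hL' hne) m1 m2

lemma ag_sq_le {Bd : Nd → Finset (ℤ × ℤ × ℤ)} {pos : ℤ × ℤ × ℤ → ℤ} (al : ℤ × ℤ × ℤ → ℂ) (L : Nd)
    (g : Fn) (ω : ℤ × ℤ × ℤ) : ‖ag Bd pos al L g ω‖ ^ 2 ≤ ‖al ω‖ ^ 2 * ‖g (pos ω)‖ ^ 2 := by
  unfold ag
  split_ifs
  · rw [norm_mul, mul_pow]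
  · rw [norm_zero, zero_pow two_ne_zero]
    positivity

open Classical in
/-- **(c) rows of the glued kernel on a maximal cell of `P`** -/
theorem Cg_row (hB : Bnd (fun p => (T₀ ×ˢ T₁ ×ˢ T₂).filter (fun ω => Y ω.1 ω.2.1 ω.2.2 ∈ iv p))
      (fun ω => Y ω.1 ω.2.1 ω.2.2) (NmP (T₀ ×ˢ T₁ ×ˢ T₂) cf (okc Y k)) ν) {r : ℝ} (hr : 0 ≤ r)
    {P : Nd} (M : Finset Nd) (hMP : ∀ L ∈ M, iv L ⊆ iv P)
    (hdj : ∀ L ∈ M, ∀ L' ∈ M, L ≠ L' → Disjoint (iv L) (iv L'))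
    (al : ℤ × ℤ × ℤ → ℂ) (g : Fn) {z : ℤ} {m : ℕ} {a b : ℤ}
    (hM : Mx (Y z) k P m a b) {u : ℤ} (hu : u ∈ dI m a) :
    ∑ v ∈ dI m b ∩ T₂, ‖Cg (fun p => (T₀ ×ˢ T₁ ×ˢ T₂).filter (fun ω => Y ω.1 ω.2.1 ω.2.2 ∈ iv p))
      (fun ω => Y ω.1 ω.2.1 ω.2.2) (NmP (T₀ ×ˢ T₁ ×ˢ T₂) cf (okc Y k)) al r M g (z, u, v)‖ ^ 2 ≤
    ∑ L ∈ M, ∑ v ∈ (dI m b ∩ T₂).filter (fun v => Y z u v ∈ iv L),
      ‖al (z, u, v)‖ ^ 2 * ‖g (Y z u v)‖ ^ 2 := by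
  simp only [Cg_sq hB hr M hdj]
  rw [Finset.sum_comm]
  refine Finset.sum_le_sum fun L hL => ?_
  rw [← Finset.sum_filter]
  refine (Pj_row_cell hB hr (hMP L hL) _ hM hu).trans ?_
  exact Finset.sum_le_sum fun v _ => ag_sq_le al L g (z, u, v)

open Classical in
/-- **(c) columns of the glued kernel on a maximal cell of `P`** -/
theorem Cg_col (hB : Bnd (fun p => (T₀ ×ˢ T₁ ×ˢ T₂).filter (fun ω => Y ω.1 ω.2.1 ω.2.2 ∈ iv p))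
      (fun ω => Y ω.1 ω.2.1 ω.2.2) (NmP (T₀ ×ˢ T₁ ×ˢ T₂) cf (okc Y k)) ν) {r : ℝ} (hr : 0 ≤ r)
    {P : Nd} (M : Finset Nd) (hMP : ∀ L ∈ M, iv L ⊆ iv P)
    (hdj : ∀ L ∈ M, ∀ L' ∈ M, L ≠ L' → Disjoint (iv L) (iv L'))
    (al : ℤ × ℤ × ℤ → ℂ) (g : Fn) {z : ℤ} {m : ℕ} {a b : ℤ}
    (hM : Mx (Y z) k P m a b) {v : ℤ} (hv : v ∈ dI m b) :
    ∑ u ∈ dI m a ∩ T₁, ‖Cg (fun p => (T₀ ×ˢ T₁ ×ˢ T₂).filter (fun ω => Y ω.1 ω.2.1 ω.2.2 ∈ iv p))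
      (fun ω => Y ω.1 ω.2.1 ω.2.2) (NmP (T₀ ×ˢ T₁ ×ˢ T₂) cf (okc Y k)) al r M g (z, u, v)‖ ^ 2 ≤
    ∑ L ∈ M, ∑ u ∈ (dI m a ∩ T₁).filter (fun u => Y z u v ∈ iv L),
      ‖al (z, u, v)‖ ^ 2 * ‖g (Y z u v)‖ ^ 2 := by
  simp only [Cg_sq hB hr M hdj]
  rw [Finset.sum_comm]
  refine Finset.sum_le_sum fun L hL => ?_
  rw [← Finset.sum_filter]
  refine (Pj_col_cell hB hr (hMP L hL) _ hM hv).trans ?_
  exact Finset.sum_le_sum fun u _ => ag_sq_le al L g (z, u, v)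

/-! ### (d) the size of a row -/

lemma card_iv (p : Nd) : ((iv p).card : ℝ) = 2 ^ (p.1 + 7) := by
  unfold iv dI
  rw [Int.card_Ico]
  have e : (p.2 + 1) * 2 ^ (p.1 + 7) - p.2 * 2 ^ (p.1 + 7) = ((2 ^ (p.1 + 7) : ℕ) : ℤ) := by
    push_cast; ring
  rw [e, Int.toNat_natCast]
  push_cast
  rfl

/-- disjoint nodes of level `≤ m` met by a set of diameter `< 6 * 2^m` -/
lemma met_len (M : Finset Nd) (hdj : ∀ L ∈ M, ∀ L' ∈ M, L ≠ L' → Disjoint (iv L) (iv L')) {m : ℕ}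
    (hlev : ∀ L ∈ M, L.1 ≤ m) (X : Set ℤ) (hX : ∀ x ∈ X, ∀ y ∈ X, |x - y| < 6 * 2 ^ m)
    (hmeet : ∀ L ∈ M, ∃ x ∈ X, x ∈ iv L) : ∑ L ∈ M, (2 : ℝ) ^ (L.1 + 7) ≤ 2 ^ 9 * 2 ^ m := by
  classical
  rcases M.eq_empty_or_nonempty with h0 | ⟨P0, hP0⟩
  · rw [h0, Finset.sum_empty]; positivity
  obtain ⟨y0, hy0X, hy0⟩ := hmeet P0 hP0
  have hsub : M.biUnion iv ⊆ Finset.Ico (y0 - 134 * 2 ^ m) (y0 + 134 * 2 ^ m) := by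
    intro y hy
    obtain ⟨P', hP', hyP⟩ := Finset.mem_biUnion.1 hy
    obtain ⟨x, hxX, hx⟩ := hmeet P' hP'
    have h1 := hlev P' hP'
    have h2 := dI_diff hyP hx
    have h3 := hX x hxX y0 hy0X
    have h4 : (2 : ℤ) ^ (P'.1 + 7) ≤ 128 * 2 ^ m := by
      rw [pow_add]
      have : (2 : ℤ) ^ P'.1 ≤ 2 ^ m := pow_le_pow_right₀ (by norm_num) h1
      linarith
    rw [abs_lt] at h2 h3
    rw [Finset.mem_Ico]
    constructor <;> linarith [h2.1, h2.2, h3.1, h3.2]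
  have hcard : ∑ P' ∈ M, (iv P').card = (M.biUnion iv).card := by
    symm
    exact Finset.card_biUnion fun p hp q hq hne => hdj p hp q hq hne
  have h1 : ∑ P' ∈ M, (2 : ℝ) ^ (P'.1 + 7) = ((M.biUnion iv).card : ℝ) := by
    rw [← hcard]
    push_cast
    exact Finset.sum_congr rfl fun p _ => (card_iv p).symm
  rw [h1]
  have h2 := Finset.card_le_card hsub
  rw [Int.card_Ico] at h2
  have e : y0 + 134 * 2 ^ m - (y0 - 134 * 2 ^ m) = ((268 * 2 ^ m : ℕ) : ℤ) := by push_cast; ring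
  rw [e, Int.toNat_natCast] at h2
  have h3 : ((M.biUnion iv).card : ℝ) ≤ ((268 * 2 ^ m : ℕ) : ℝ) := by exact_mod_cast h2
  refine h3.trans ?_
  push_cast
  have : (0 : ℝ) < 2 ^ m := by positivity
  nlinarith

/-- **row integral**: `x ∈ V ↦ y x` injective, of small diameter -/
lemma line_sum (M : Finset Nd) (hdj : ∀ L ∈ M, ∀ L' ∈ M, L ≠ L' → Disjoint (iv L) (iv L')) {m : ℕ}
    (hlev : ∀ L ∈ M, L.1 ≤ m) {A : ℝ} (hA : 0 ≤ A) (g : Fn)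
    (hg : ∀ L ∈ M, ∑ y ∈ iv L, ‖g y‖ ^ 2 ≤ A * 2 ^ (L.1 + 7)) (V : Finset ℤ) (y : ℤ → ℤ)
    (hinj : Function.Injective y) (hd : ∀ v ∈ V, ∀ v' ∈ V, |y v - y v'| < 6 * 2 ^ m)
    {Ha : ℝ} (c : ℤ → ℂ) (hc : ∀ v ∈ V, ‖c v‖ ≤ Ha) :
    ∑ L ∈ M, ∑ v ∈ V.filter (fun v => y v ∈ iv L), ‖c v‖ ^ 2 * ‖g (y v)‖ ^ 2 ≤
      2 ^ 9 * Ha ^ 2 * A * 2 ^ m := by
  classical
  have h1 : ∀ L ∈ M, ∑ v ∈ V.filter (fun v => y v ∈ iv L), ‖c v‖ ^ 2 * ‖g (y v)‖ ^ 2 ≤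
      if ∃ v ∈ V, y v ∈ iv L then Ha ^ 2 * (A * 2 ^ (L.1 + 7)) else 0 := by
    intro L hL
    split_ifs with hex
    · have h2 : ∑ v ∈ V.filter (fun v => y v ∈ iv L), ‖c v‖ ^ 2 * ‖g (y v)‖ ^ 2 ≤
          Ha ^ 2 * ∑ v ∈ V.filter (fun v => y v ∈ iv L), ‖g (y v)‖ ^ 2 := by
        rw [Finset.mul_sum]
        refine Finset.sum_le_sum fun v hv => ?_
        refine mul_le_mul_of_nonneg_right ?_ (sq_nonneg _)
        exact pow_le_pow_left₀ (norm_nonneg _) (hc v (Finset.mem_filter.1 hv).1) 2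
      refine h2.trans (mul_le_mul_of_nonneg_left ?_ (sq_nonneg _))
      refine le_trans ?_ (hg L hL)
      rw [← Finset.sum_image (f := fun y => ‖g y‖ ^ 2) (g := y) (fun v _ v' _ e => hinj e)]
      refine Finset.sum_le_sum_of_subset_of_nonneg ?_ fun _ _ _ => sq_nonneg _
      intro x hx
      obtain ⟨v, hv, rfl⟩ := Finset.mem_image.1 hx
      exact (Finset.mem_filter.1 hv).2
    · refine le_of_eq (Finset.sum_eq_zero fun v hv => ?_)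
      rw [Finset.mem_filter] at hv
      exact absurd ⟨v, hv.1, hv.2⟩ hex
  refine (Finset.sum_le_sum h1).trans ?_
  rw [← Finset.sum_filter, ← Finset.mul_sum, ← Finset.mul_sum]
  have h3 := met_len (M.filter (fun L => ∃ v ∈ V, y v ∈ iv L))
    (fun L hL L' hL' => hdj L (Finset.mem_filter.1 hL).1 L' (Finset.mem_filter.1 hL').1)
    (fun L hL => hlev L (Finset.mem_filter.1 hL).1) (y '' (V : Set ℤ)) (by
      rintro _ ⟨v, hv, rfl⟩ _ ⟨v', hv', rfl⟩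
      exact hd v hv v' hv') (by
      intro L hL
      obtain ⟨v, hv, hyv⟩ := (Finset.mem_filter.1 hL).2
      exact ⟨y v, ⟨v, hv, rfl⟩, hyv⟩)
  calc Ha ^ 2 * (A * ∑ L ∈ M.filter (fun L => ∃ v ∈ V, y v ∈ iv L), (2 : ℝ) ^ (L.1 + 7))
      ≤ Ha ^ 2 * (A * (2 ^ 9 * 2 ^ m)) := by gcongr
    _ = _ := by ring

open Classical in
/-- **(d) rows**: `≤ 2^9 Ha² A 2^m` -/
theorem row_hr (hB : Bnd (fun p => (T₀ ×ˢ T₁ ×ˢ T₂).filter (fun ω => Y ω.1 ω.2.1 ω.2.2 ∈ iv p))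
      (fun ω => Y ω.1 ω.2.1 ω.2.2) (NmP (T₀ ×ˢ T₁ ×ˢ T₂) cf (okc Y k)) ν) {r : ℝ} (hr : 0 ≤ r)
    {P : Nd} (M : Finset Nd) (hMP : ∀ L ∈ M, iv L ⊆ iv P)
    (hdj : ∀ L ∈ M, ∀ L' ∈ M, L ≠ L' → Disjoint (iv L) (iv L'))
    (al : ℤ × ℤ × ℤ → ℂ) (g : Fn) {z : ℤ} {c β γ : ℤ} (hY : Lin (Y z) c β γ) {m : ℕ} {a b : ℤ}
    (hM : Mx (Y z) k P m a b) {u : ℤ} (hu : u ∈ dI m a) (hlev : ∀ L ∈ M, L.1 ≤ m) {A : ℝ}
    (hA : 0 ≤ A) (hg : ∀ L ∈ M, ∑ y ∈ iv L, ‖g y‖ ^ 2 ≤ A * 2 ^ (L.1 + 7)) {Ha : ℝ}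
    (hal : ∀ v ∈ T₂, ‖al (z, u, v)‖ ≤ Ha) :
    ∑ v ∈ dI m b ∩ T₂, ‖Cg (fun p => (T₀ ×ˢ T₁ ×ˢ T₂).filter (fun ω => Y ω.1 ω.2.1 ω.2.2 ∈ iv p))
      (fun ω => Y ω.1 ω.2.1 ω.2.2) (NmP (T₀ ×ˢ T₁ ×ˢ T₂) cf (okc Y k)) al r M g (z, u, v)‖ ^ 2 ≤
    2 ^ 9 * Ha ^ 2 * A * 2 ^ m := by
  refine (Cg_row hB hr M hMP hdj al g hM hu).trans ?_
  refine line_sum M hdj hlev hA g hg (dI m b ∩ T₂) (fun v => Y z u v) ?_ ?_
    (fun v => al (z, u, v)) fun v hv => hal v (Finset.mem_inter.1 hv).2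
  · intro v v' e
    simp only [hY.eq] at e
    exact mul_left_cancel₀ hY.g0 (by linarith)
  · intro v hv v' hv'
    exact hY.diam hu hu (Finset.mem_inter.1 hv).1 (Finset.mem_inter.1 hv').1

open Classical in
/-- **(d) columns**: `≤ 2^9 Ha² A 2^m` -/
theorem col_hr (hB : Bnd (fun p => (T₀ ×ˢ T₁ ×ˢ T₂).filter (fun ω => Y ω.1 ω.2.1 ω.2.2 ∈ iv p))
      (fun ω => Y ω.1 ω.2.1 ω.2.2) (NmP (T₀ ×ˢ T₁ ×ˢ T₂) cf (okc Y k)) ν) {r : ℝ} (hr : 0 ≤ r)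
    {P : Nd} (M : Finset Nd) (hMP : ∀ L ∈ M, iv L ⊆ iv P)
    (hdj : ∀ L ∈ M, ∀ L' ∈ M, L ≠ L' → Disjoint (iv L) (iv L'))
    (al : ℤ × ℤ × ℤ → ℂ) (g : Fn) {z : ℤ} {c β γ : ℤ} (hY : Lin (Y z) c β γ) {m : ℕ} {a b : ℤ}
    (hM : Mx (Y z) k P m a b) {v : ℤ} (hv : v ∈ dI m b) (hlev : ∀ L ∈ M, L.1 ≤ m) {A : ℝ}
    (hA : 0 ≤ A) (hg : ∀ L ∈ M, ∑ y ∈ iv L, ‖g y‖ ^ 2 ≤ A * 2 ^ (L.1 + 7)) {Ha : ℝ}
    (hal : ∀ u ∈ T₁, ‖al (z, u, v)‖ ≤ Ha) :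
    ∑ u ∈ dI m a ∩ T₁, ‖Cg (fun p => (T₀ ×ˢ T₁ ×ˢ T₂).filter (fun ω => Y ω.1 ω.2.1 ω.2.2 ∈ iv p))
      (fun ω => Y ω.1 ω.2.1 ω.2.2) (NmP (T₀ ×ˢ T₁ ×ˢ T₂) cf (okc Y k)) al r M g (z, u, v)‖ ^ 2 ≤
    2 ^ 9 * Ha ^ 2 * A * 2 ^ m := by
  refine (Cg_col hB hr M hMP hdj al g hM hv).trans ?_
  refine line_sum M hdj hlev hA g hg (dI m a ∩ T₁) (fun u => Y z u v) ?_ ?_
    (fun u => al (z, u, v)) fun u hu => hal u (Finset.mem_inter.1 hu).2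
  · intro u u' e
    simp only [hY.eq] at e
    exact mul_left_cancel₀ hY.b0 (by linarith)
  · intro u hu u' hu'
    exact hY.diam (Finset.mem_inter.1 hu).1 (Finset.mem_inter.1 hu').1 hv hv

/-- raw letter of the last step (rows): `al * g` on the exits -/
theorem raw_row (M : Finset Nd) (hdj : ∀ L ∈ M, ∀ L' ∈ M, L ≠ L' → Disjoint (iv L) (iv L'))
    (al : ℤ × ℤ × ℤ → ℂ) (g : Fn) {z : ℤ} {c β γ : ℤ} (hY : Lin (Y z) c β γ) {m : ℕ} {a b : ℤ}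
    {u : ℤ} (hu : u ∈ dI m a) (hlev : ∀ L ∈ M, L.1 ≤ m) {A : ℝ}
    (hA : 0 ≤ A) (hg : ∀ L ∈ M, ∑ y ∈ iv L, ‖g y‖ ^ 2 ≤ A * 2 ^ (L.1 + 7)) {Ha : ℝ}
    (hal : ∀ v ∈ T₂, ‖al (z, u, v)‖ ≤ Ha) (C : ℤ × ℤ × ℤ → ℂ)
    (hC : ∀ v ∈ dI m b ∩ T₂, C (z, u, v) ≠ 0 →
      C (z, u, v) = al (z, u, v) * g (Y z u v) ∧ ∃ L ∈ M, Y z u v ∈ iv L) :
    ∑ v ∈ dI m b ∩ T₂, ‖C (z, u, v)‖ ^ 2 ≤ 2 ^ 9 * Ha ^ 2 * A * 2 ^ m := by
  classical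
  have h := line_sum M hdj hlev hA g hg (dI m b ∩ T₂) (fun v => Y z u v) (by
    intro v v' e
    simp only [hY.eq] at e
    exact mul_left_cancel₀ hY.g0 (by linarith)) (fun v hv v' hv' =>
      hY.diam hu hu (Finset.mem_inter.1 hv).1 (Finset.mem_inter.1 hv').1)
    (fun v => al (z, u, v)) fun v hv => hal v (Finset.mem_inter.1 hv).2
  refine le_trans ?_ h
  simp only [Finset.sum_filter]
  rw [Finset.sum_comm]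
  refine Finset.sum_le_sum fun v hv => ?_
  have h0 : ∀ L ∈ M, (0 : ℝ) ≤ if Y z u v ∈ iv L then ‖al (z, u, v)‖ ^ 2 * ‖g (Y z u v)‖ ^ 2
      else 0 := fun L _ => by split_ifs <;> positivity
  by_cases hz : C (z, u, v) = 0
  · rw [hz, norm_zero, zero_pow two_ne_zero]
    exact Finset.sum_nonneg h0
  · obtain ⟨e, L, hL, hLy⟩ := hC v hv hz
    have h1 := Finset.single_le_sum h0 hL
    rw [if_pos hLy] at h1
    refine le_trans (le_of_eq ?_) h1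
    rw [e, norm_mul, mul_pow]

/-- raw letter of the last step (columns) -/
theorem raw_col (M : Finset Nd) (hdj : ∀ L ∈ M, ∀ L' ∈ M, L ≠ L' → Disjoint (iv L) (iv L'))
    (al : ℤ × ℤ × ℤ → ℂ) (g : Fn) {z : ℤ} {c β γ : ℤ} (hY : Lin (Y z) c β γ) {m : ℕ} {a b : ℤ}
    {v : ℤ} (hv : v ∈ dI m b) (hlev : ∀ L ∈ M, L.1 ≤ m) {A : ℝ}
    (hA : 0 ≤ A) (hg : ∀ L ∈ M, ∑ y ∈ iv L, ‖g y‖ ^ 2 ≤ A * 2 ^ (L.1 + 7)) {Ha : ℝ}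
    (hal : ∀ u ∈ T₁, ‖al (z, u, v)‖ ≤ Ha) (C : ℤ × ℤ × ℤ → ℂ)
    (hC : ∀ u ∈ dI m a ∩ T₁, C (z, u, v) ≠ 0 →
      C (z, u, v) = al (z, u, v) * g (Y z u v) ∧ ∃ L ∈ M, Y z u v ∈ iv L) :
    ∑ u ∈ dI m a ∩ T₁, ‖C (z, u, v)‖ ^ 2 ≤ 2 ^ 9 * Ha ^ 2 * A * 2 ^ m := by
  classical
  have h := line_sum M hdj hlev hA g hg (dI m a ∩ T₁) (fun u => Y z u v) (by
    intro u u' e
    simp only [hY.eq] at e
    exact mul_left_cancel₀ hY.b0 (by linarith)) (fun u hu u' hu' =>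
      hY.diam (Finset.mem_inter.1 hu).1 (Finset.mem_inter.1 hu').1 hv hv)
    (fun u => al (z, u, v)) fun u hu => hal u (Finset.mem_inter.1 hu).2
  refine le_trans ?_ h
  simp only [Finset.sum_filter]
  rw [Finset.sum_comm]
  refine Finset.sum_le_sum fun u hu => ?_
  have h0 : ∀ L ∈ M, (0 : ℝ) ≤ if Y z u v ∈ iv L then ‖al (z, u, v)‖ ^ 2 * ‖g (Y z u v)‖ ^ 2
      else 0 := fun L _ => by split_ifs <;> positivity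
  by_cases hz : C (z, u, v) = 0
  · rw [hz, norm_zero, zero_pow two_ne_zero]
    exact Finset.sum_nonneg h0
  · obtain ⟨e, L, hL, hLy⟩ := hC u hu hz
    have h1 := Finset.single_le_sum h0 hL
    rw [if_pos hLy] at h1
    refine le_trans (le_of_eq ?_) h1
    rw [e, norm_mul, mul_pow]

end cells

end Crest.Agent.R079.SKrx69
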