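import Crest.Agent.R079.SplS_69

/-! R079 (helper69): `split_region'` = Whitney splitting of a region, SUMMED form (the bound `g1 P` depends
on the Whitney top `P`), asked by helper261 (note 1201). -/

set_option autoImplicit false

namespace Crest.Agent.R079.SplSx69

open Finset Crest.Agent.R079 Crest.Agent.R079.Grid Crest.Agent.R079.L0e

open Classical in
/-- **Whitney splitting of a region, summed form** -/
theorem split_region' {R : Finset (ℕ × ℤ)} {J : ℕ × ℤ} (hR : IsRegion R J) (C0 : ℕ) (hC : 1 ≤ C0)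
    (n0 : ℕ) (f : ℕ × ℤ → ℝ) (hf : ∀ p ∈ R, 0 ≤ f p) (g0 : ℝ) (g1 : ℕ × ℤ → ℝ) (hg0 : 0 ≤ g0)
    (hadj : ∀ p ∈ R, Adj C0 J p → f p ≤ g0 * 2 ^ (p.1 + 7))
    (hbot : ∀ p ∈ R, p.1 < n0 → f p ≤ g0 * 2 ^ (p.1 + 7))
    (hwh : ∀ P ∈ R, Le P J → WTop C0 J P →
      ∑ p ∈ R.filter (fun p => Le p P ∧ n0 ≤ p.1), f p ≤ g1 P * 2 ^ (P.1 + 7)) :
    ∑ p ∈ R, f p ≤ (4 * C0 + n0) * g0 * 2 ^ (J.1 + 7) +
      ∑ P ∈ R.filter (fun P => WTop C0 J P), g1 P * 2 ^ (P.1 + 7) := by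
  have hRJ : ∀ p ∈ R, Le p J := hR.1
  set RA := R.filter fun p => Adj C0 J p with hRA
  set RB := R.filter fun p => p.1 < n0 with hRB
  set WT := R.filter fun p => WTop C0 J p with hWT
  set RC := WT.biUnion fun P => R.filter fun p => Le p P ∧ n0 ≤ p.1 with hRC
  have hcov : R ⊆ RA ∪ (RB ∪ RC) := by
    intro p hp
    by_cases h1 : Adj C0 J p
    · exact Finset.mem_union_left _ (Finset.mem_filter.2 ⟨hp, h1⟩)
    · refine Finset.mem_union_right _ ?_
      by_cases h2 : p.1 < n0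
      · exact Finset.mem_union_left _ (Finset.mem_filter.2 ⟨hp, h2⟩)
      · refine Finset.mem_union_right _ ?_
        obtain ⟨P, hP1, hP2, hP3⟩ := exists_wtop hC (J.1 - p.1) p rfl (hRJ p hp) h1
        rw [hRC, Finset.mem_biUnion]
        exact ⟨P, Finset.mem_filter.2 ⟨hR.2 p hp P hP1 hP2, hP3⟩,
          Finset.mem_filter.2 ⟨hp, hP1, by omega⟩⟩
  have hRAs : RA ⊆ R := Finset.filter_subset _ _
  have hRBs : RB ⊆ R := Finset.filter_subset _ _
  have hRCs : RC ⊆ R := by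
    intro p hp
    obtain ⟨P, _, hp2⟩ := Finset.mem_biUnion.1 hp
    exact (Finset.mem_filter.1 hp2).1
  have hun : ∀ A B : Finset (ℕ × ℤ), A ⊆ R → B ⊆ R →
      ∑ p ∈ A ∪ B, f p ≤ ∑ p ∈ A, f p + ∑ p ∈ B, f p := by
    intro A B hA hB
    have := Finset.sum_union_inter (s₁ := A) (s₂ := B) (f := f)
    have h0 : 0 ≤ ∑ p ∈ A ∩ B, f p := Finset.sum_nonneg fun p hp =>
      hf p (hA (Finset.mem_inter.1 hp).1)
    linarith
  have hA : ∑ p ∈ RA, f p ≤ (4 * C0) * g0 * 2 ^ (J.1 + 7) := by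
    calc ∑ p ∈ RA, f p ≤ ∑ p ∈ RA, g0 * (2 : ℝ) ^ (p.1 + 7) :=
          Finset.sum_le_sum fun p hp => hadj p (hRAs hp) (Finset.mem_filter.1 hp).2
      _ = g0 * ∑ p ∈ RA, (2 : ℝ) ^ (p.1 + 7) := by rw [Finset.mul_sum]
      _ ≤ g0 * (2 * ((2 * C0 : ℕ) : ℝ) * 2 ^ (J.1 + 7)) := by
          refine mul_le_mul_of_nonneg_left ?_ hg0
          exact sum_len_le RA J.1 (2 * C0) (fun p hp => (le_iff.1 (hRJ p (hRAs hp))).1)
            (adj_card C0 J RA (fun p hp => hRJ p (hRAs hp)) fun p hp => (Finset.mem_filter.1 hp).2)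
      _ = _ := by push_cast; ring
  have hB : ∑ p ∈ RB, f p ≤ n0 * g0 * 2 ^ (J.1 + 7) := by
    have hm : ∀ p ∈ RB, p.1 ∈ Finset.range n0 := fun p hp =>
      Finset.mem_range.2 (Finset.mem_filter.1 hp).2
    calc ∑ p ∈ RB, f p ≤ ∑ p ∈ RB, g0 * (2 : ℝ) ^ (p.1 + 7) :=
          Finset.sum_le_sum fun p hp => hbot p (hRBs hp) (Finset.mem_filter.1 hp).2
      _ = g0 * ∑ p ∈ RB, (2 : ℝ) ^ (p.1 + 7) := by rw [Finset.mul_sum]
      _ = g0 * ∑ m ∈ Finset.range n0, ∑ p ∈ RB.filter (fun p => p.1 = m), (2 : ℝ) ^ (p.1 + 7) := by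
          rw [Finset.sum_fiberwise_of_maps_to hm]
      _ ≤ g0 * ∑ m ∈ Finset.range n0, (2 : ℝ) ^ (J.1 + 7) := by
          refine mul_le_mul_of_nonneg_left (Finset.sum_le_sum fun m _ => ?_) hg0
          exact all_len J RB (fun p hp => hRJ p (hRBs hp)) m
      _ = _ := by rw [Finset.sum_const, Finset.card_range, nsmul_eq_mul]; ring
  have hWTs : WT ⊆ R := Finset.filter_subset _ _
  have hCC : ∑ p ∈ RC, f p ≤ ∑ P ∈ WT, g1 P * (2 : ℝ) ^ (P.1 + 7) := by
    have h1 : ∑ p ∈ RC, f p ≤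
        ∑ P ∈ WT, ∑ p ∈ R.filter (fun p => Le p P ∧ n0 ≤ p.1), f p := by
      rw [hRC]
      have key : ∀ T : Finset (ℕ × ℤ), ∑ p ∈ T.biUnion (fun P => R.filter fun p => Le p P ∧
          n0 ≤ p.1), f p ≤ ∑ P ∈ T, ∑ p ∈ R.filter (fun p => Le p P ∧ n0 ≤ p.1), f p := by
        intro T
        induction T using Finset.induction_on with
        | empty => simp
        | insert a T ha ih =>
          rw [Finset.biUnion_insert, Finset.sum_insert ha]
          refine le_trans (hun _ _ (Finset.filter_subset _ _) ?_) (by linarith)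
          intro p hp
          obtain ⟨P, _, hp2⟩ := Finset.mem_biUnion.1 hp
          exact (Finset.mem_filter.1 hp2).1
      exact key WT
    exact h1.trans (Finset.sum_le_sum fun P hP =>
      hwh P (hWTs hP) (hRJ P (hWTs hP)) (Finset.mem_filter.1 hP).2)
  calc ∑ p ∈ R, f p ≤ ∑ p ∈ RA ∪ (RB ∪ RC), f p :=
        Finset.sum_le_sum_of_subset_of_nonneg hcov fun p hp _ => by
          rcases Finset.mem_union.1 hp with h | h
          · exact hf p (hRAs h)
          · rcases Finset.mem_union.1 h with h | h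
            · exact hf p (hRBs h)
            · exact hf p (hRCs h)
    _ ≤ ∑ p ∈ RA, f p + ∑ p ∈ RB ∪ RC, f p := hun _ _ hRAs (Finset.union_subset hRBs hRCs)
    _ ≤ ∑ p ∈ RA, f p + (∑ p ∈ RB, f p + ∑ p ∈ RC, f p) := by linarith [hun RB RC hRBs hRCs]
    _ ≤ _ := by
        have e : (4 * (C0 : ℝ) + n0) * g0 * 2 ^ (J.1 + 7) =
          (4 * C0) * g0 * 2 ^ (J.1 + 7) + n0 * g0 * 2 ^ (J.1 + 7) := by ring
        rw [e]
        linarith

open Classical in
/-- only the nodes which are not adjacent (window of `J` without its adjacent nodes) -/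
theorem split_nonadj {R : Finset (ℕ × ℤ)} {J : ℕ × ℤ} (hR : IsRegion R J) (C0 : ℕ) (hC : 1 ≤ C0)
    (n0 : ℕ) (f : ℕ × ℤ → ℝ) (hf : ∀ p ∈ R, 0 ≤ f p) (g0 : ℝ) (g1 : ℕ × ℤ → ℝ) (hg0 : 0 ≤ g0)
    (hbot : ∀ p ∈ R, p.1 < n0 → ¬ Adj C0 J p → f p ≤ g0 * 2 ^ (p.1 + 7))
    (hwh : ∀ P ∈ R, Le P J → WTop C0 J P →
      ∑ p ∈ R.filter (fun p => Le p P ∧ n0 ≤ p.1), f p ≤ g1 P * 2 ^ (P.1 + 7)) :
    ∑ p ∈ R.filter (fun p => ¬ Adj C0 J p), f p ≤ n0 * g0 * 2 ^ (J.1 + 7) +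
      ∑ P ∈ R.filter (fun P => WTop C0 J P), g1 P * 2 ^ (P.1 + 7) := by
  set f' : ℕ × ℤ → ℝ := fun p => if Adj C0 J p then 0 else f p with hf'
  have hle : ∀ p ∈ R, f' p ≤ f p := by
    intro p hp
    simp only [hf']
    split_ifs
    · exact hf p hp
    · exact le_rfl
  have hnn : ∀ p ∈ R, 0 ≤ f' p := by
    intro p hp
    simp only [hf']
    split_ifs
    · exact le_rfl
    · exact hf p hp
  have e : ∑ p ∈ R.filter (fun p => ¬ Adj C0 J p), f p = ∑ p ∈ R, f' p := by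
    rw [Finset.sum_filter]
    refine Finset.sum_congr rfl fun p _ => ?_
    simp only [hf']
    by_cases h : Adj C0 J p
    · rw [if_neg (not_not.2 h), if_pos h]
    · rw [if_pos h, if_neg h]
  have hRJ : ∀ p ∈ R, Le p J := hR.1
  set RB := R.filter fun p => p.1 < n0 with hRB
  set WT := R.filter fun p => WTop C0 J p with hWT
  set RC := WT.biUnion fun P => R.filter fun p => Le p P ∧ n0 ≤ p.1 with hRC
  have hRBs : RB ⊆ R := Finset.filter_subset _ _
  have hWTs : WT ⊆ R := Finset.filter_subset _ _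
  have hRCs : RC ⊆ R := by
    intro p hp
    obtain ⟨P, _, hp2⟩ := Finset.mem_biUnion.1 hp
    exact (Finset.mem_filter.1 hp2).1
  have hcov : ∑ p ∈ R, f' p ≤ ∑ p ∈ RB ∪ RC, f' p := by
    have : ∑ p ∈ R, f' p = ∑ p ∈ R.filter (fun p => ¬ Adj C0 J p), f' p := by
      rw [Finset.sum_filter]
      refine Finset.sum_congr rfl fun p _ => ?_
      simp only [hf']
      by_cases h : Adj C0 J p
      · rw [if_neg (not_not.2 h), if_pos h]
      · rw [if_pos h]
    rw [this]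
    refine Finset.sum_le_sum_of_subset_of_nonneg ?_ fun p hp _ => ?_
    · intro p hp
      obtain ⟨hp, h1⟩ := Finset.mem_filter.1 hp
      by_cases h2 : p.1 < n0
      · exact Finset.mem_union_left _ (Finset.mem_filter.2 ⟨hp, h2⟩)
      · refine Finset.mem_union_right _ ?_
        obtain ⟨P, hP1, hP2, hP3⟩ := exists_wtop hC (J.1 - p.1) p rfl (hRJ p hp) h1
        rw [hRC, Finset.mem_biUnion]
        exact ⟨P, Finset.mem_filter.2 ⟨hR.2 p hp P hP1 hP2, hP3⟩,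
          Finset.mem_filter.2 ⟨hp, hP1, by omega⟩⟩
    · rcases Finset.mem_union.1 hp with h | h
      · exact hnn p (hRBs h)
      · exact hnn p (hRCs h)
  have hun : ∀ A B : Finset (ℕ × ℤ), A ⊆ R → B ⊆ R →
      ∑ p ∈ A ∪ B, f' p ≤ ∑ p ∈ A, f' p + ∑ p ∈ B, f' p := by
    intro A B hA hB
    have := Finset.sum_union_inter (s₁ := A) (s₂ := B) (f := f')
    have h0 : 0 ≤ ∑ p ∈ A ∩ B, f' p := Finset.sum_nonneg fun p hp =>
      hnn p (hA (Finset.mem_inter.1 hp).1)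
    linarith
  have hB : ∑ p ∈ RB, f' p ≤ n0 * g0 * 2 ^ (J.1 + 7) := by
    have hm : ∀ p ∈ RB, p.1 ∈ Finset.range n0 := fun p hp =>
      Finset.mem_range.2 (Finset.mem_filter.1 hp).2
    calc ∑ p ∈ RB, f' p ≤ ∑ p ∈ RB, g0 * (2 : ℝ) ^ (p.1 + 7) := by
          refine Finset.sum_le_sum fun p hp => ?_
          by_cases h : Adj C0 J p
          · simp only [hf', if_pos h]
            positivity
          · simp only [hf', if_neg h]
            exact hbot p (hRBs hp) (Finset.mem_filter.1 hp).2 h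
      _ = g0 * ∑ p ∈ RB, (2 : ℝ) ^ (p.1 + 7) := by rw [Finset.mul_sum]
      _ = g0 * ∑ m ∈ Finset.range n0, ∑ p ∈ RB.filter (fun p => p.1 = m), (2 : ℝ) ^ (p.1 + 7) := by
          rw [Finset.sum_fiberwise_of_maps_to hm]
      _ ≤ g0 * ∑ m ∈ Finset.range n0, (2 : ℝ) ^ (J.1 + 7) := by
          refine mul_le_mul_of_nonneg_left (Finset.sum_le_sum fun m _ => ?_) hg0
          exact all_len J RB (fun p hp => hRJ p (hRBs hp)) m
      _ = _ := by rw [Finset.sum_const, Finset.card_range, nsmul_eq_mul]; ring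
  have hCC : ∑ p ∈ RC, f' p ≤ ∑ P ∈ WT, g1 P * (2 : ℝ) ^ (P.1 + 7) := by
    have h1 : ∑ p ∈ RC, f' p ≤
        ∑ P ∈ WT, ∑ p ∈ R.filter (fun p => Le p P ∧ n0 ≤ p.1), f' p := by
      rw [hRC]
      have key : ∀ T : Finset (ℕ × ℤ), ∑ p ∈ T.biUnion (fun P => R.filter fun p => Le p P ∧
          n0 ≤ p.1), f' p ≤ ∑ P ∈ T, ∑ p ∈ R.filter (fun p => Le p P ∧ n0 ≤ p.1), f' p := by
        intro T
        induction T using Finset.induction_on with
        | empty => simp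
        | insert a T ha ih =>
          rw [Finset.biUnion_insert, Finset.sum_insert ha]
          refine le_trans (hun _ _ (Finset.filter_subset _ _) ?_) (by linarith)
          intro p hp
          obtain ⟨P, _, hp2⟩ := Finset.mem_biUnion.1 hp
          exact (Finset.mem_filter.1 hp2).1
      exact key WT
    refine h1.trans (Finset.sum_le_sum fun P hP => ?_)
    refine le_trans (Finset.sum_le_sum fun p hp => hle p (Finset.mem_filter.1 hp).1) ?_
    exact hwh P (hWTs hP) (hRJ P (hWTs hP)) (Finset.mem_filter.1 hP).2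
  rw [e]
  calc ∑ p ∈ R, f' p ≤ ∑ p ∈ RB ∪ RC, f' p := hcov
    _ ≤ ∑ p ∈ RB, f' p + ∑ p ∈ RC, f' p := hun _ _ hRBs hRCs
    _ ≤ _ := add_le_add hB hCC

end Crest.Agent.R079.SplSx69
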