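import Crest.Agent.R079.SKy_261
import Crest.Agent.R079.SKe_608
import Crest.Agent.R079.SplB_69

/-! R079 (helper69): `sktot : SKtotP` = the (S) word of a window, summed over the Whitney tops of the
top `P` (helper261's literal `SKtotP` of SKy_261), from `SKword`, `split_region'`, `sum_GP'`. -/

set_option autoImplicit false

namespace Crest.Agent.R079.SKtx69

open Finset Crest.Agent.R079.Grid Crest.Agent.R079.Growth Crest.Agent.R079.QRed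
  Crest.Agent.R079.Qh249 Crest.Agent.R079.QVar181
  Crest.Agent.R079.TWin Crest.Agent.R079.Glue Crest.Agent.R079.SWc360 Crest.Agent.R079.Cel159
  Crest.Agent.R079.SplSx69 Crest.Agent.R079.ThA159 Crest.Agent.R079.SKx261

open scoped ComplexConjugate

/-- total length of the Whitney tops -/
lemma wtop_len {C0 : ℕ} {P : Nd} (S : Finset Nd) (hS : ∀ p ∈ S, iv p ⊆ iv P ∧ WTop C0 P p) :
    ∑ p ∈ S, (2 : ℝ) ^ (p.1 + 7) ≤ 2 ^ (P.1 + 7) := by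
  classical
  have hc1 : ∀ p : Nd, ((iv p).card : ℝ) = 2 ^ (p.1 + 7) := by
    intro p
    unfold iv dI
    rw [Int.card_Ico]
    have e : (p.2 + 1) * 2 ^ (p.1 + 7) - p.2 * 2 ^ (p.1 + 7) = ((2 ^ (p.1 + 7) : ℕ) : ℤ) := by
      push_cast; ring
    rw [e, Int.toNat_natCast]
    push_cast
    rfl
  have hcard : ∑ p ∈ S, (iv p).card = (S.biUnion iv).card := by
    symm
    refine Finset.card_biUnion fun p hp q hq hne => ?_
    exact wtop_disj (hS p hp).1 (hS q hq).1 (hS p hp).2 (hS q hq).2 hne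
  have hsub : S.biUnion iv ⊆ iv P := by
    intro y hy
    obtain ⟨p, hp, hyp⟩ := Finset.mem_biUnion.1 hy
    exact (hS p hp).1 hyp
  calc ∑ p ∈ S, (2 : ℝ) ^ (p.1 + 7) = ((∑ p ∈ S, (iv p).card : ℕ) : ℝ) := by
        push_cast
        exact Finset.sum_congr rfl fun p _ => (hc1 p).symm
    _ = ((S.biUnion iv).card : ℝ) := by rw [hcard]
    _ ≤ ((iv P).card : ℝ) := by exact_mod_cast Finset.card_le_card hsub
    _ = _ := hc1 P

/-- the sum of the energies over the Whitney tops, for a finset of gauges -/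
lemma sum_GS {ι : Type} (S : Finset ι) (j : Fin 4) (e : Fin 3) (k : ℕ) {P : Nd} {C0 : ℕ}
    (hC : 1 ≤ C0) (Q : Finset Nd) (hQ : ∀ P' ∈ Q, iv P' ⊆ iv P ∧ WTop C0 P P')
    (T : Fin 3 → Finset ℤ) {kap : ι → ℝ} (hkap : ∀ w ∈ S, 0 ≤ kap w) (C : ι → ℤ × ℤ × ℤ → ℂ) :
    ∑ P' ∈ Q, GS S j e k P P' T kap C * (2 : ℝ) ^ (P'.1 + 7)
      ≤ 2 ^ 9 * ∑ w ∈ S, kap w *
        ∑ ω ∈ (S3 T e).filter (fun ω => Yl j e ω.1 ω.2.1 ω.2.2 ∈ iv P), ‖C w ω‖ ^ 2 := by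
  classical
  have h := SKcx608.sum_GP' (ι := {w // w ∈ S}) j e k hC Q hQ T
    (kap := fun w => kap w.1) (fun w => hkap w.1 w.2) (fun w => C w.1)
  have e1 : ∀ P' : Nd, GS S j e k P P' T kap C =
      GP (ι := {w // w ∈ S}) j e k P P' T (fun w => kap w.1) (fun w => C w.1) := by
    intro P'
    unfold GS GP
    exact (Finset.sum_coe_sort S (fun w => kap w *
      ∑ c ∈ Clx j e k P P' T, (1 / (2 : ℝ) ^ c.2.1) * cE T e (C w) c)).symm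
  have e2 : ∑ w ∈ S, kap w *
        ∑ ω ∈ (S3 T e).filter (fun ω => Yl j e ω.1 ω.2.1 ω.2.2 ∈ iv P), ‖C w ω‖ ^ 2 =
      ∑ w : {w // w ∈ S}, kap w.1 *
        ∑ ω ∈ (S3 T e).filter (fun ω => Yl j e ω.1 ω.2.1 ω.2.2 ∈ iv P), ‖C w.1 ω‖ ^ 2 :=
    (Finset.sum_coe_sort S (fun w => kap w *
      ∑ ω ∈ (S3 T e).filter (fun ω => Yl j e ω.1 ω.2.1 ω.2.2 ∈ iv P), ‖C w ω‖ ^ 2)).symm
  rw [e2]
  simp only [e1]
  exact h

/-- the letters on a part of the window -/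
lemma skl_sub {ι : Type} {S : Finset ι} {kap : ι → ℝ} {j : Fin 4} {e : Fin 3}
    {T : Fin 3 → Finset ℤ} {W R : Finset Nd} {al : ι → ℤ → ℤ → ℂ} {F : Fin 4 → ℤ → ℂ}
    {A g1 d1 g2 d2 mb H0 : ℝ} {m0 m1 : ℕ} (L : SKL S kap j e T W al F A g1 d1 g2 d2 mb H0 m0)
    (hR : ∀ p ∈ R, p ∈ W) (h1 : ∀ p ∈ R, m1 ≤ p.1) :
    SKL S kap j e T R al F A g1 d1 g2 d2 mb H0 m1 :=
  ⟨L.A0, L.g10, L.d10, L.g20, L.d20, L.H00, h1, fun p hp => L.l2 p (hR p hp),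
    fun p hp => L.nc1 p (hR p hp), fun p hp => L.nc2 p (hR p hp), L.gm, L.gh⟩

/-- the gain is monotone in the floor -/
lemma XS_mono {A g d ρ r Hr : ℝ} {m0 : ℕ} {θ θ' : ℝ} (h : θ ≤ θ') :
    XS A g d ρ r Hr m0 θ ≤ XS A g d ρ r Hr m0 θ' := by
  unfold XS
  linarith

lemma XS_nonneg {A g d ρ r Hr : ℝ} {m0 : ℕ} {θ : ℝ} (hd : 0 ≤ d) (hr : 0 < r) (hHr : 0 ≤ Hr)
    (hθ : 0 ≤ θ) : 0 ≤ XS A g d ρ r Hr m0 θ := by
  have h1 := hS_nonneg hr hHr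
  have h2 := eS_nonneg ρ r
  unfold XS
  positivity

/-- scalar inequality -/
lemma sc_le {Θ G : ℝ} (hΘ : 1 ≤ Θ) (hG : 0 ≤ G) :
    Real.sqrt (G + (max Θ G)⁻¹) * (1 + Real.log (max Θ G)) ≤
      3 * (1 + Real.log Θ) * (1 + G) := by
  have hl : 0 ≤ Real.log Θ := Real.log_nonneg hΘ
  rcases le_total G Θ with h | h
  · rw [max_eq_left h]
    have h1 : Θ⁻¹ ≤ 1 := inv_le_one_of_one_le₀ hΘ
    have h2 : Real.sqrt (G + Θ⁻¹) ≤ 1 + G := by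
      rw [Real.sqrt_le_left (by positivity)]
      nlinarith
    calc Real.sqrt (G + Θ⁻¹) * (1 + Real.log Θ) ≤ (1 + G) * (1 + Real.log Θ) := by gcongr
      _ ≤ 3 * (1 + Real.log Θ) * (1 + G) := by nlinarith [mul_nonneg hG hl]
  · rw [max_eq_right h]
    have hG1 : 1 ≤ G := hΘ.trans h
    have hG0 : 0 < G := by linarith
    have hs0 : 0 < Real.sqrt G := Real.sqrt_pos.2 hG0
    have hs1 : 1 ≤ Real.sqrt G := by
      rw [Real.one_le_sqrt]; exact hG1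
    have h1 : G⁻¹ ≤ G := (inv_le_one_of_one_le₀ hG1).trans hG1
    have h2 : Real.log G ≤ 2 * (Real.sqrt G - 1) := by
      have h3 : Real.log G = 2 * Real.log (Real.sqrt G) := by
        rw [Real.log_sqrt hG0.le]; ring
      rw [h3]
      linarith [Real.log_le_sub_one_of_pos hs0]
    have h4 : Real.sqrt (G + G⁻¹) ≤ 3 / 2 * Real.sqrt G := by
      have h5 : Real.sqrt (G + G⁻¹) ≤ Real.sqrt (2 * G) := Real.sqrt_le_sqrt (by linarith)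
      have h6 : Real.sqrt (2 * G) ≤ 3 / 2 * Real.sqrt G := by
        rw [Real.sqrt_le_left (by positivity), mul_pow, Real.sq_sqrt hG0.le]
        linarith
      exact h5.trans h6
    have h7 : 0 ≤ Real.log G := Real.log_nonneg hG1
    have hss : Real.sqrt G * Real.sqrt G = G := Real.mul_self_sqrt hG0.le
    calc Real.sqrt (G + G⁻¹) * (1 + Real.log G) ≤
        3 / 2 * Real.sqrt G * (1 + 2 * (Real.sqrt G - 1)) := by gcongr
      _ ≤ 3 * G := by nlinarith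
      _ ≤ 3 * (1 + Real.log Θ) * (1 + G) := by nlinarith [mul_nonneg hG0.le hl]

/-- **(S) word of a window** -/
theorem sktot : SKtotP := by
  obtain ⟨K, hK, κ0, hw⟩ := SKword
  refine ⟨3 * K * 2 ^ 9, by positivity, 2 ^ κ0, ?_⟩
  intro bb hbb W P hW j e ι S kap k d T C ρ r Hr E al F A g1 d1 g2 d2 mb H0 n0 Θ ν g0 H L Z hB hg0
    hadj hbot hF
  classical
  have hC1 : 1 ≤ 2 ^ κ0 := Nat.one_le_two_pow
  have hΘ0 : 0 < Θ := by linarith [Z.Θ1]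
  have hmb : 0 ≤ mb := (Finset.sum_nonneg fun w hw => mul_nonneg (H.kap0 w hw)
    (Finset.sum_nonneg fun _ _ => Finset.sum_nonneg fun _ _ => sq_nonneg _)).trans L.gm
  set X1 := XS A g1 d1 ρ r Hr n0 Θ⁻¹ with hX1
  set X2 := XS A g2 d2 ρ r Hr n0 Θ⁻¹ with hX2
  have hX10 : 0 ≤ X1 := XS_nonneg L.d10 H.r0 H.Hr0 (by positivity)
  have hX20 : 0 ≤ X2 := XS_nonneg L.d20 H.r0 H.Hr0 (by positivity)
  set B := Real.sqrt (Real.sqrt (X1 * X2) * (A * mb + Θ⁻¹)) with hBd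
  have hB0 : 0 ≤ B := Real.sqrt_nonneg _
  have hl : 0 ≤ Real.log Θ := Real.log_nonneg Z.Θ1
  have key : ∀ P' ∈ W, Le P' P → WTop (2 ^ κ0) P P' →
      ∑ p ∈ W.filter (fun p => Le p P' ∧ n0 ≤ p.1), ∑ x ∈ adm p.1 p.2, ‖Lbox (2 ^ p.1) bb F x‖ ≤
        (3 * K * (1 + Real.log Θ) * B * (1 + GS S j e k P P' T kap C)) * 2 ^ (P'.1 + 7) := by
    intro P' hP' hle hwt
    have hG := GS_nonneg (j := j) (e := e) (k := k) (P := P) (P' := P') (T := T) H.kap0 C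
    set G := GS S j e k P P' T kap C with hGd
    have hP'P : iv P' ⊆ iv P := hle
    set R := W.filter (fun p => Le p P' ∧ n0 ≤ p.1) with hRd
    have hR : IsRegion R P' := sub_region hW hle n0
    have hRW : ∀ p ∈ R, p ∈ W := fun p hp => (Finset.mem_filter.1 hp).1
    have hΘ' : Θ ≤ max Θ G := le_max_left _ _
    have hΘ'0 : 0 < max Θ G := lt_of_lt_of_le hΘ0 hΘ'
    have h1 := hw bb hbb R P' hR j e S kap k d (2 ^ κ0) P T C ρ r Hr al F A g1 d1 g2 d2 mb H0 n0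
      (max Θ G) ν
      ⟨H.kap0, le_rfl, hP'P, hwt.1, fun p hp => (le_iff.1 (Finset.mem_filter.1 hp).2.1).1,
        fun p hp => H.hWd p (hRW p hp), H.ρ0, H.r0, H.Hr0, H.hex,
        fun w hw z hz m a b hM hm => H.hrow w hw z hz m a b hM ((H.hWd P' hP').trans hm),
        fun w hw z hz m a b hM hm => H.hcol w hw z hz m a b hM ((H.hWd P' hP').trans hm)⟩
      (skl_sub L hRW fun p hp => (Finset.mem_filter.1 hp).2.2)
      ⟨Z.Θ1.trans hΘ', Z.A.trans hΘ', Z.g1.trans hΘ', Z.d1.trans hΘ', Z.g2.trans hΘ',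
        Z.d2.trans hΘ', Z.ρ.trans hΘ', Z.r.trans hΘ', Z.Hr.trans hΘ', le_max_right _ _,
        Z.mb.trans hΘ', Z.H0.trans hΘ'⟩ hB (fun y hy => hF y (hP'P hy))
    have hinv : (max Θ G)⁻¹ ≤ Θ⁻¹ := inv_anti₀ hΘ0 hΘ'
    have hinv0 : 0 < (max Θ G)⁻¹ := inv_pos.2 hΘ'0
    have hx1 : XS A g1 d1 ρ r Hr n0 (max Θ G)⁻¹ ≤ X1 := XS_mono hinv
    have hx2 : XS A g2 d2 ρ r Hr n0 (max Θ G)⁻¹ ≤ X2 := XS_mono hinv
    have hx10 : 0 ≤ XS A g1 d1 ρ r Hr n0 (max Θ G)⁻¹ := XS_nonneg L.d10 H.r0 H.Hr0 hinv0.le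
    have hx20 : 0 ≤ XS A g2 d2 ρ r Hr n0 (max Θ G)⁻¹ := XS_nonneg L.d20 H.r0 H.Hr0 hinv0.le
    have hA0 := L.A0
    have hl' : 0 ≤ Real.log (max Θ G) := Real.log_nonneg (Z.Θ1.trans hΘ')
    have h2 : Real.sqrt (Real.sqrt (XS A g1 d1 ρ r Hr n0 (max Θ G)⁻¹ *
        XS A g2 d2 ρ r Hr n0 (max Θ G)⁻¹) * (G + (max Θ G)⁻¹) * (A * mb + (max Θ G)⁻¹)) ≤
        B * Real.sqrt (G + (max Θ G)⁻¹) := by
      rw [hBd, ← Real.sqrt_mul (by positivity)]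
      refine Real.sqrt_le_sqrt ?_
      have h3 : Real.sqrt (XS A g1 d1 ρ r Hr n0 (max Θ G)⁻¹ *
        XS A g2 d2 ρ r Hr n0 (max Θ G)⁻¹) ≤ Real.sqrt (X1 * X2) :=
        Real.sqrt_le_sqrt (mul_le_mul hx1 hx2 hx20 hX10)
      calc Real.sqrt (XS A g1 d1 ρ r Hr n0 (max Θ G)⁻¹ *
            XS A g2 d2 ρ r Hr n0 (max Θ G)⁻¹) * (G + (max Θ G)⁻¹) * (A * mb + (max Θ G)⁻¹)
          ≤ Real.sqrt (X1 * X2) * (G + (max Θ G)⁻¹) * (A * mb + Θ⁻¹) := by gcongr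
        _ = _ := by ring
    have h4 := sc_le Z.Θ1 hG
    refine h1.trans ?_
    calc K * (Real.sqrt (Real.sqrt (XS A g1 d1 ρ r Hr n0 (max Θ G)⁻¹ *
            XS A g2 d2 ρ r Hr n0 (max Θ G)⁻¹) * (G + (max Θ G)⁻¹) * (A * mb + (max Θ G)⁻¹)) *
            (1 + Real.log (max Θ G)) * 2 ^ (P'.1 + 7))
        ≤ K * (B * Real.sqrt (G + (max Θ G)⁻¹) * (1 + Real.log (max Θ G)) * 2 ^ (P'.1 + 7)) := by
          gcongr
      _ = K * B * (Real.sqrt (G + (max Θ G)⁻¹) * (1 + Real.log (max Θ G))) * 2 ^ (P'.1 + 7) := by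
          ring
      _ ≤ K * B * (3 * (1 + Real.log Θ) * (1 + G)) * 2 ^ (P'.1 + 7) := by gcongr
      _ = _ := by ring
  have hmain := split_region' hW (2 ^ κ0) hC1 n0
    (fun p => ∑ x ∈ adm p.1 p.2, ‖Lbox (2 ^ p.1) bb F x‖)
    (fun p _ => Finset.sum_nonneg fun _ _ => norm_nonneg _) g0
    (fun P' => 3 * K * (1 + Real.log Θ) * B * (1 + GS S j e k P P' T kap C)) hg0 hadj hbot key
  refine hmain.trans ?_
  refine add_le_add (le_of_eq (by push_cast; ring)) ?_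
  set Q := W.filter (fun P' => WTop (2 ^ κ0) P P') with hQ
  have hQ' : ∀ P' ∈ Q, iv P' ⊆ iv P ∧ WTop (2 ^ κ0) P P' := fun P' h =>
    ⟨hW.1 P' (Finset.mem_filter.1 h).1, (Finset.mem_filter.1 h).2⟩
  have s1 := wtop_len Q hQ'
  have s2 := sum_GS S j e k hC1 Q hQ' T H.kap0 C
  have hE := H.hE
  have hE0 := H.E0
  have s3 : ∑ P' ∈ Q, (3 * K * (1 + Real.log Θ) * B * (1 + GS S j e k P P' T kap C)) *
      (2 : ℝ) ^ (P'.1 + 7) = 3 * K * (1 + Real.log Θ) * B * (∑ P' ∈ Q, (2 : ℝ) ^ (P'.1 + 7) +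
        ∑ P' ∈ Q, GS S j e k P P' T kap C * (2 : ℝ) ^ (P'.1 + 7)) := by
    rw [← Finset.sum_add_distrib, Finset.mul_sum]
    exact Finset.sum_congr rfl fun _ _ => by ring
  have hlen : len P = (2 : ℝ) ^ (P.1 + 7) := rfl
  have s4 : ∑ P' ∈ Q, (2 : ℝ) ^ (P'.1 + 7) +
        ∑ P' ∈ Q, GS S j e k P P' T kap C * (2 : ℝ) ^ (P'.1 + 7) ≤
      2 ^ 9 * (1 + E) * 2 ^ (P.1 + 7) := by
    rw [hlen] at hE
    have hp : (0 : ℝ) < 2 ^ (P.1 + 7) := by positivity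
    have := mul_le_mul_of_nonneg_left hE (by norm_num : (0 : ℝ) ≤ 2 ^ 9)
    nlinarith
  rw [s3]
  calc 3 * K * (1 + Real.log Θ) * B * (∑ P' ∈ Q, (2 : ℝ) ^ (P'.1 + 7) +
        ∑ P' ∈ Q, GS S j e k P P' T kap C * (2 : ℝ) ^ (P'.1 + 7))
      ≤ 3 * K * (1 + Real.log Θ) * B * (2 ^ 9 * (1 + E) * 2 ^ (P.1 + 7)) := by gcongr
    _ = _ := by ring

end Crest.Agent.R079.SKtx69
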