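import Crest.Agent.R079.SKw_261

/-! R079, item (c) of 973 / note 1201 (helper261): **the (S) word of a Whitney top** (theorem
`SKword`).  The split slot is, on the Whitney top `P'` of `P`, the gauge `al` times
`C w - Pj r P (C w)`. -/

set_option autoImplicit false
set_option linter.unusedSectionVars false

namespace Crest.Agent.R079.SKx261

open Finset Crest.Agent.R079.Grid Crest.Agent.R079.Growth Crest.Agent.R079.QRed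
  Crest.Agent.R079.Qh249 Crest.Agent.R079.QVar181
  Crest.Agent.R079.TWin Crest.Agent.R079.Glue Crest.Agent.R079.SWc360 Crest.Agent.R079.Cel159
  Crest.Agent.R079.SplSx69 Crest.Agent.R079.ThA159
open Crest.Agent.R079.ClW59 (OpS cl)
open Crest.Agent.R079.Whit (Ins)

open scoped ComplexConjugate

lemma GS_nonneg {ι : Type} {S : Finset ι} {j : Fin 4} {e : Fin 3} {k : ℕ} {P P' : Nd}
    {T : Fin 3 → Finset ℤ} {kap : ι → ℝ} (h : ∀ w ∈ S, 0 ≤ kap w) (C : ι → ℤ × ℤ × ℤ → ℂ) :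
    0 ≤ GS S j e k P P' T kap C :=
  Finset.sum_nonneg fun w hw => mul_nonneg (h w hw)
    (Finset.sum_nonneg fun _ _ => mul_nonneg (by positivity) (cE_nonneg _ _))

/-- the projection of a node, frozen slot `e` -/
noncomputable abbrev PjY (j : Fin 4) (e : Fin 3) (k : ℕ) (T : Fin 3 → Finset ℤ) (r : ℝ) (P : Nd)
    (A : ℤ × ℤ × ℤ → ℂ) : ℤ × ℤ × ℤ → ℂ :=
  Pj (fun p => (T e ×ˢ (T (e + 1) ×ˢ T (e + 2))).filter (fun ω => Yl j e ω.1 ω.2.1 ω.2.2 ∈ iv p))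
    (NmP (T e ×ˢ (T (e + 1) ×ˢ T (e + 2))) Cel159.cf (okc (Yl j e) k)) r P A

/-- letters of the word -/
structure SKL {ι : Type} (S : Finset ι) (kap : ι → ℝ) (j : Fin 4) (e : Fin 3)
    (T : Fin 3 → Finset ℤ) (R : Finset Nd) (al : ι → ℤ → ℤ → ℂ) (F : Fin 4 → ℤ → ℂ)
    (A g1 d1 g2 d2 mb H0 : ℝ) (m0 : ℕ) : Prop where
  A0 : 0 ≤ A
  g10 : 0 ≤ g1
  d10 : 0 ≤ d1
  g20 : 0 ≤ g2
  d20 : 0 ≤ d2
  H00 : 0 ≤ H0
  flo : ∀ p ∈ R, m0 ≤ p.1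
  l2 : ∀ p ∈ R, ∀ i : Fin 3, ∑ y ∈ iv p, ‖F (j.succAbove i) y‖ ^ 2 ≤ A * len p
  nc1 : ∀ p ∈ R, NCs p g1 d1 (F (j.succAbove (e + 2)))
  nc2 : ∀ p ∈ R, NCs p g2 d2 (F (j.succAbove (e + 1)))
  gm : ∑ w ∈ S, kap w * ∑ u ∈ T (e + 1), ∑ v ∈ T (e + 2), ‖al w u v‖ ^ 2 ≤ mb
  gh : ∀ w ∈ S, ∀ u v y, ‖al w u v‖ * ‖F (j.succAbove e) y‖ ≤ H0

/-- sizes -/
structure SKZ (Θ A g1 d1 g2 d2 ρ r Hr G mb H0 : ℝ) : Prop where
  Θ1 : 1 ≤ Θ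
  A : A ≤ Θ
  g1 : g1 ≤ Θ
  d1 : d1 ≤ Θ
  g2 : g2 ≤ Θ
  d2 : d2 ≤ Θ
  ρ : ρ ≤ Θ
  r : r⁻¹ ≤ Θ
  Hr : Hr ≤ Θ
  G : G ≤ Θ
  mb : mb ≤ Θ
  H0 : H0 ≤ Θ

/-- **the (S) word of a Whitney top** -/
theorem SKword : ∃ K : ℝ, 0 ≤ K ∧ ∃ κ0 : ℕ, ∀ (bb : ℤ), bb = -1 ∨ bb = -7 →
    ∀ (R : Finset Nd) (P' : Nd), IsRegion R P' → ∀ (j : Fin 4) (e : Fin 3) {ι : Type}
    (S : Finset ι) (kap : ι → ℝ) (k d C0 : ℕ) (P : Nd) (T : Fin 3 → Finset ℤ)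
    (C : ι → ℤ × ℤ × ℤ → ℂ) (ρ r Hr : ℝ) (al : ι → ℤ → ℤ → ℂ) (F : Fin 4 → ℤ → ℂ)
    (A g1 d1 g2 d2 mb H0 : ℝ) (m0 : ℕ) (Θ ν : ℝ),
    SKH S kap j e k κ0 d C0 P P' T R C ρ r Hr →
    SKL S kap j e T R al F A g1 d1 g2 d2 mb H0 m0 →
    SKZ Θ A g1 d1 g2 d2 ρ r Hr (GS S j e k P P' T kap C) mb H0 →
    Bnd (fun p => (T e ×ˢ (T (e + 1) ×ˢ T (e + 2))).filter
        (fun ω => Yl j e ω.1 ω.2.1 ω.2.2 ∈ iv p)) (fun ω => Yl j e ω.1 ω.2.1 ω.2.2)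
      (NmP (T e ×ˢ (T (e + 1) ×ˢ T (e + 2))) Cel159.cf (okc (Yl j e) k)) ν →
    (∀ y ∈ iv P', F j y = ∑ w ∈ S, (kap w : ℂ) * kerG j e T (fun z u v =>
      (C w (z, u, v) - PjY j e k T r P (C w) (z, u, v)) * conj (al w u v)) y) →
    ∑ p ∈ R, ∑ x ∈ adm p.1 p.2, ‖Lbox (2 ^ p.1) bb F x‖ ≤
      K * (Real.sqrt (Real.sqrt (XS A g1 d1 ρ r Hr m0 Θ⁻¹ * XS A g2 d2 ρ r Hr m0 Θ⁻¹) *
        (GS S j e k P P' T kap C + Θ⁻¹) * (A * mb + Θ⁻¹)) * (1 + Real.log Θ) *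
          2 ^ (P'.1 + 7)) := by
  obtain ⟨K, hK, κ0, hL⟩ := sword_g
  refine ⟨57 * K, by positivity, κ0, ?_⟩
  intro bb hbb R P' hR j e ι S kap k d C0 P T C ρ r Hr al F A g1 d1 g2 d2 mb H0 m0 Θ ν H L Z hB hF
  classical
  obtain ⟨Pf, Qf, hPQ⟩ := exists_fac C (T (e + 1)) (T (e + 2)) H.r0
  obtain ⟨u1, u2, u3⟩ := H.numU hPQ
  obtain ⟨w1, w2, w3⟩ := H.numW hPQ
  have hG := GS_nonneg (j := j) (e := e) (k := k) (P := P) (P' := P') (T := T) H.kap0 C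
  set G := GS S j e k P P' T kap C with hGd
  have hmb : 0 ≤ mb := (Finset.sum_nonneg fun w hw => mul_nonneg (H.kap0 w hw)
    (Finset.sum_nonneg fun _ _ => Finset.sum_nonneg fun _ _ => sq_nonneg _)).trans L.gm
  have hN := sn_of (m0 := m0) H.r0 H.Hr0 Z.Θ1 L.A0 L.g10 L.d10 L.g20 L.d20 H.ρ0 hG hmb L.H00
    Z.A Z.g1 Z.d1 Z.g2 Z.d2 Z.ρ Z.r Z.Hr Z.G Z.mb Z.H0
  have hSW : SW e R κ0 j S kap T (lU j e k P P' T Pf) (lW j e k P P' T Qf)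
      (fun w u v => conj (al w u v)) F A g1 d1 g2 d2 (hS r Hr) (hS r Hr) (1 / (4 * r) * G)
      (1 / (4 * r) * G) (eS ρ r * G) (eS ρ r * G) mb H0 m0 := by
    refine ⟨H.kap0, L.A0, L.g10, L.d10, L.g20, L.d20, hS_nonneg H.r0 H.Hr0,
      hS_nonneg H.r0 H.Hr0, L.flo, L.l2, L.nc1, L.nc2, u2, w2, u1, w1, u3, w3, ?_, ?_⟩
    · simpa only [RCLike.norm_conj] using L.gm
    · simpa only [RCLike.norm_conj] using L.gh
  have h1 := hL bb hbb R P' hR j e S kap T (lU j e k P P' T Pf) (lW j e k P P' T Qf)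
    (fun w u v => conj (al w u v)) F A g1 d1 g2 d2 (hS r Hr) (hS r Hr) (1 / (4 * r) * G)
    (1 / (4 * r) * G) (eS ρ r * G) (eS ρ r * G) mb H0 m0 _ _ _ _ _ hSW hN (by
      intro y hy
      rw [hF y hy]
      refine Finset.sum_congr rfl fun w _ => ?_
      congr 1
      unfold kerG
      refine Finset.sum_congr rfl fun z hz => Finset.sum_congr rfl fun u hu =>
        Finset.sum_congr rfl fun v hv => ?_
      by_cases hyz : Yl j e z u v = y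
      · rw [if_pos hyz, if_pos hyz]
        have hyi : Yl j e z u v ∈ iv P' := by rw [hyz]; exact hy
        have e1 := lab_eq (k := k) hPQ H.hP w hz hu hv hyi
        have e2 := PjC881.Pj_eq_cl hB H.r0.le P (C w) hz
          (Mx_mcell (k := k) (p := P) (ω := (z, u, v)) (H.hP hyi)) u
          (Finset.mem_inter.2 ⟨by rw [L0e.mem_dI], hu⟩) v
          (Finset.mem_inter.2 ⟨by rw [L0e.mem_dI], hv⟩)
        have e3 : C w (z, u, v) - PjY j e k T r P (C w) (z, u, v) =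
            ∑ l, lU j e k P P' T Pf w z u l * lW j e k P P' T Qf w v z l := by
          rw [e1]
          exact congrArg (fun x => C w (z, u, v) - x) e2
        exact congrArg (fun x => x * conj (al w u v)) e3
      · rw [if_neg hyz, if_neg hyz])
  refine h1.trans ?_
  have hΘ0 : 0 < Θ := by linarith [Z.Θ1]
  have hlog : 1 + 4 * Real.log (2 ^ 20 * Θ ^ 9) ≤ 57 * (1 + Real.log Θ) := by
    rw [Real.log_mul (by positivity) (by positivity), Real.log_pow, Real.log_pow]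
    have h2 := Real.log_two_lt_d9
    have h3 : 0 ≤ Real.log Θ := Real.log_nonneg Z.Θ1
    push_cast
    linarith
  set X1 := XS A g1 d1 ρ r Hr m0 Θ⁻¹ with hX1
  set X2 := XS A g2 d2 ρ r Hr m0 Θ⁻¹ with hX2
  have e3 : Real.sqrt (X1 * (G + Θ⁻¹) * (X2 * (G + Θ⁻¹))) = Real.sqrt (X1 * X2) * (G + Θ⁻¹) := by
    have h4 : X1 * (G + Θ⁻¹) * (X2 * (G + Θ⁻¹)) = X1 * X2 * (G + Θ⁻¹) ^ 2 := by ring
    have h5 : 0 ≤ G + Θ⁻¹ := by positivity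
    rw [h4, Real.sqrt_mul' _ (sq_nonneg _), Real.sqrt_sq h5]
  rw [e3]
  calc K * (Real.sqrt (Real.sqrt (X1 * X2) * (G + Θ⁻¹) * (A * mb + Θ⁻¹)) *
        (1 + 4 * Real.log (2 ^ 20 * Θ ^ 9)) * 2 ^ (P'.1 + 7))
      ≤ K * (Real.sqrt (Real.sqrt (X1 * X2) * (G + Θ⁻¹) * (A * mb + Θ⁻¹)) *
        (57 * (1 + Real.log Θ)) * 2 ^ (P'.1 + 7)) := by gcongr
    _ = _ := by ring

end Crest.Agent.R079.SKx261
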