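import Crest.Agent.R079.SKv_261

/-! R079, item (c) of 973 / note 1201 (helper261): literal of the sum over the Whitney tops of a
window (`SKtotP`, to be proved from `SKword`, `split_region'`, `sum_GP'`). -/

set_option autoImplicit false

namespace Crest.Agent.R079.SKx261

open Finset Crest.Agent.R079.Grid Crest.Agent.R079.Growth Crest.Agent.R079.QRed
  Crest.Agent.R079.Qh249 Crest.Agent.R079.QVar181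
  Crest.Agent.R079.TWin Crest.Agent.R079.Glue Crest.Agent.R079.SWc360 Crest.Agent.R079.Cel159
  Crest.Agent.R079.SplSx69 Crest.Agent.R079.ThA159

open scoped ComplexConjugate

/-- kernels of a window `W` with top `P` -/
structure SKW {ι : Type} (S : Finset ι) (kap : ι → ℝ) (j : Fin 4) (e : Fin 3) (k d : ℕ) (P : Nd)
    (T : Fin 3 → Finset ℤ) (W : Finset Nd) (C : ι → ℤ × ℤ × ℤ → ℂ) (ρ r Hr E : ℝ) : Prop where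
  kap0 : ∀ w ∈ S, 0 ≤ kap w
  hWd : ∀ p ∈ W, d ≤ p.1
  ρ0 : 0 ≤ ρ
  r0 : 0 < r
  Hr0 : 0 ≤ Hr
  E0 : 0 ≤ E
  hex : Hbox S j e d P T C ρ
  hrow : ∀ w ∈ S, ∀ z ∈ T e, ∀ m a b, Mx (Yl j e z) k P m a b → d ≤ m →
    ∀ u ∈ dI m a ∩ T (e + 1), ∑ v ∈ dI m b ∩ T (e + 2), ‖C w (z, u, v)‖ ^ 2 ≤ Hr * 2 ^ m
  hcol : ∀ w ∈ S, ∀ z ∈ T e, ∀ m a b, Mx (Yl j e z) k P m a b → d ≤ m →
    ∀ v ∈ dI m b ∩ T (e + 2), ∑ u ∈ dI m a ∩ T (e + 1), ‖C w (z, u, v)‖ ^ 2 ≤ Hr * 2 ^ m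
  hE : ∑ w ∈ S, kap w * ∑ ω ∈ (S3 T e).filter (fun ω => Yl j e ω.1 ω.2.1 ω.2.2 ∈ iv P),
    ‖C w ω‖ ^ 2 ≤ E * len P

/-- **sum over the Whitney tops of a window** -/
def SKtotP : Prop := ∃ K : ℝ, 0 ≤ K ∧ ∃ C0 : ℕ, ∀ (bb : ℤ), bb = -1 ∨ bb = -7 →
    ∀ (W : Finset Nd) (P : Nd), IsRegion W P → ∀ (j : Fin 4) (e : Fin 3) {ι : Type}
    (S : Finset ι) (kap : ι → ℝ) (k d : ℕ) (T : Fin 3 → Finset ℤ)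
    (C : ι → ℤ × ℤ × ℤ → ℂ) (ρ r Hr E : ℝ) (al : ι → ℤ → ℤ → ℂ) (F : Fin 4 → ℤ → ℂ)
    (A g1 d1 g2 d2 mb H0 : ℝ) (n0 : ℕ) (Θ ν g0 : ℝ),
    SKW S kap j e k d P T W C ρ r Hr E →
    SKL S kap j e T W al F A g1 d1 g2 d2 mb H0 0 →
    SKZ Θ A g1 d1 g2 d2 ρ r Hr 0 mb H0 →
    Bnd (fun p => (T e ×ˢ (T (e + 1) ×ˢ T (e + 2))).filter
        (fun ω => Yl j e ω.1 ω.2.1 ω.2.2 ∈ iv p)) (fun ω => Yl j e ω.1 ω.2.1 ω.2.2)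
      (NmP (T e ×ˢ (T (e + 1) ×ˢ T (e + 2))) Cel159.cf (okc (Yl j e) k)) ν →
    0 ≤ g0 →
    (∀ p ∈ W, Adj C0 P p → ∑ x ∈ adm p.1 p.2, ‖Lbox (2 ^ p.1) bb F x‖ ≤ g0 * 2 ^ (p.1 + 7)) →
    (∀ p ∈ W, p.1 < n0 → ∑ x ∈ adm p.1 p.2, ‖Lbox (2 ^ p.1) bb F x‖ ≤ g0 * 2 ^ (p.1 + 7)) →
    (∀ y ∈ iv P, F j y = ∑ w ∈ S, (kap w : ℂ) * kerG j e T (fun z u v =>
      (C w (z, u, v) - PjY j e k T r P (C w) (z, u, v)) * conj (al w u v)) y) →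
    ∑ p ∈ W, ∑ x ∈ adm p.1 p.2, ‖Lbox (2 ^ p.1) bb F x‖ ≤
      (4 * C0 + n0) * g0 * 2 ^ (P.1 + 7) +
      K * (1 + Real.log Θ) * Real.sqrt (Real.sqrt (XS A g1 d1 ρ r Hr n0 Θ⁻¹ *
        XS A g2 d2 ρ r Hr n0 Θ⁻¹) * (A * mb + Θ⁻¹)) * (1 + E) * 2 ^ (P.1 + 7)

end Crest.Agent.R079.SKx261
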