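import Crest.Agent.R079.SWe_360

/-! R079, Step I, (S) words (helper360), fourth file: **labels over a finite family of cells**.

The label set `κ` is cut into the fibres of `cell : κ → γ`; the labelled kernel of one cell `g` is
dominated by `(c / L g) C C*`, `C = C n z g` with `OpS` bound `ρ 2^m` on aligned cells of the scales of
the boxes; every box of rows meets at most `M` cells.  Then

* `hsk_fam`: `HSk` with bound `8 M (c ρ)² · G`, `G = Σ_n lam n Σ_z Σ_g (1 / L g) Σ_{x,y} |C|²`;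
* `tr_fam`: trace `≤ c G`;
* `kD_fam`: diagonal `≤ M c hr` when `Σ_y |C n z g x y|² ≤ hr (L g)`. -/

set_option autoImplicit false
set_option linter.unusedSectionVars false
set_option linter.unusedVariables false

namespace Crest.Agent.R079.SWc360

open Finset Crest.Agent.R079.Grid Crest.Agent.R079.Glue
  Crest.Agent.R079.Growth Crest.Agent.R079.Sgn Crest.Agent.R079.ExA999 Crest.Agent.R079.ClW59

open scoped ComplexConjugate

variable {κ : Type} [Fintype κ] [DecidableEq κ] {ι : Type} {γ : Type} [Fintype γ] [DecidableEq γ]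

/-- box Hilbert-Schmidt norm of a sum of kernels of which at most `M` meet the box -/
theorem hs_sum_le {X : Type*} (s : Finset X) (k : γ → X → X → ℂ) (M : ℕ) (P : Finset γ)
    (hP : P.card ≤ M) (h0 : ∀ g ∉ P, ∀ x ∈ s, ∀ x' ∈ s, k g x x' = 0) :
    ∑ x ∈ s, ∑ x' ∈ s, ‖∑ g, k g x x'‖ ^ 2 ≤
      M * ∑ g, ∑ x ∈ s, ∑ x' ∈ s, ‖k g x x'‖ ^ 2 := by
  have h1 : ∀ x ∈ s, ∀ x' ∈ s, ‖∑ g, k g x x'‖ ^ 2 ≤ M * ∑ g, ‖k g x x'‖ ^ 2 := by
    intro x hx x' hx'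
    have e : ∑ g, k g x x' = ∑ g ∈ P, k g x x' := by
      symm
      apply Finset.sum_subset (Finset.subset_univ _)
      intro g _ hg
      exact h0 g hg x hx x' hx'
    rw [e]
    have h2 : ‖∑ g ∈ P, k g x x'‖ ≤ ∑ g ∈ P, ‖k g x x'‖ := norm_sum_le _ _
    have h3 : (∑ g ∈ P, ‖k g x x'‖) ^ 2 ≤ P.card * ∑ g ∈ P, ‖k g x x'‖ ^ 2 :=
      sq_sum_le_card_mul_sum_sq
    have h4 : ∑ g ∈ P, ‖k g x x'‖ ^ 2 ≤ ∑ g, ‖k g x x'‖ ^ 2 :=
      Finset.sum_le_sum_of_subset_of_nonneg (Finset.subset_univ _) fun _ _ _ => sq_nonneg _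
    have h5 : (P.card : ℝ) ≤ M := by exact_mod_cast hP
    calc ‖∑ g ∈ P, k g x x'‖ ^ 2 ≤ (∑ g ∈ P, ‖k g x x'‖) ^ 2 :=
          pow_le_pow_left₀ (norm_nonneg _) h2 2
      _ ≤ P.card * ∑ g ∈ P, ‖k g x x'‖ ^ 2 := h3
      _ ≤ M * ∑ g, ‖k g x x'‖ ^ 2 := mul_le_mul h5 h4 (Finset.sum_nonneg fun _ _ => sq_nonneg _)
          (by positivity)
  calc ∑ x ∈ s, ∑ x' ∈ s, ‖∑ g, k g x x'‖ ^ 2 ≤
      ∑ x ∈ s, ∑ x' ∈ s, M * ∑ g, ‖k g x x'‖ ^ 2 :=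
        Finset.sum_le_sum fun x hx => Finset.sum_le_sum fun x' hx' => h1 x hx x' hx'
    _ = M * ∑ g, ∑ x ∈ s, ∑ x' ∈ s, ‖k g x x'‖ ^ 2 := by
        simp only [← Finset.mul_sum]
        congr 1
        rw [Finset.sum_comm (s := univ)]
        refine Finset.sum_congr rfl fun x _ => ?_
        rw [Finset.sum_comm (s := univ)]

/-- the labelled kernel of one cell -/
noncomputable def uC (cell : κ → γ) (g : γ) (u : ℤ → κ → ℂ) (x : ℤ) (l : κ) : ℂ :=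
  if cell l = g then u x l else 0

theorem sum_uC (cell : κ → γ) (u : ℤ → κ → ℂ) (x x' : ℤ) :
    ∑ l, u x l * conj (u x' l) = ∑ g, ∑ l, uC cell g u x l * conj (uC cell g u x' l) := by
  rw [Finset.sum_comm]
  refine Finset.sum_congr rfl fun l _ => ?_
  unfold uC
  rw [Finset.sum_eq_single (cell l)]
  · simp
  · intro g _ hg
    rw [if_neg (Ne.symm hg), zero_mul]
  · intro h; exact absurd (Finset.mem_univ _) h

/-- data of a family of cells for the frames of `U` -/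
structure Fam (S : Finset ι) (R : Finset (ℕ × ℤ)) (κ0 : ℕ) (T T' : Finset ℤ)
    (U : ι → ℤ → ℤ → κ → ℂ) (cell : κ → γ) (C : ι → ℤ → γ → ℤ → ℤ → ℂ) (a : ι → ℤ → γ → ℤ)
    (L : γ → ℕ) (c ρ : ℝ) (M : ℕ) : Prop where
  c0 : 0 ≤ c
  L0 : ∀ g, 0 < L g
  /-- boxes are smaller than the cells they meet -/
  hL : ∀ p ∈ R, ∀ k ≤ κ0, ∀ g, 2 ^ (p.1 + k) ≤ L g
  op : ∀ n ∈ S, ∀ z ∈ T, ∀ g, ∀ p ∈ R, ∀ k ≤ κ0, ∀ i j,
    OpS (dI (p.1 + k) i) (dI (p.1 + k) j) (C n z g) (ρ * 2 ^ (p.1 + k))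
  supp : ∀ n ∈ S, ∀ z ∈ T, ∀ g, ∀ y, ¬ (a n z g ≤ y ∧ y < a n z g + L g) → ∀ x, C n z g x y = 0
  row : ∀ n ∈ S, ∀ z ∈ T, ∀ g, ∀ x ∉ T', ∀ y, C n z g x y = 0
  dom : ∀ n ∈ S, ∀ z ∈ T, ∀ g, ∀ (q : ℤ) (N : ℕ) (f : ℕ → ℂ),
    ∑ l, ‖∑ j ∈ range N, f j * uC cell g (fun x l => mU T T' (U n) z x l) (q + (j : ℤ)) l‖ ^ 2 ≤
      (c / L g) * ∑ y ∈ Ico (a n z g) (a n z g + L g),
        ‖∑ j ∈ range N, f j * C n z g (q + (j : ℤ)) y‖ ^ 2
  /-- every box of rows meets at most `M` cells -/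
  mult : ∀ n ∈ S, ∀ z ∈ T, ∀ p ∈ R, ∀ k ≤ κ0, ∀ q : ℤ, ∃ P : Finset γ, P.card ≤ M ∧
    ∀ g ∉ P, ∀ j ∈ range (2 ^ (p.1 + k)), ∀ l,
      uC cell g (fun x l => mU T T' (U n) z x l) (q + (j : ℤ)) l = 0

/-- mass of the family -/
noncomputable def GG (S : Finset ι) (lam : ι → ℝ) (T T' : Finset ℤ) (C : ι → ℤ → γ → ℤ → ℤ → ℂ)
    (a : ι → ℤ → γ → ℤ) (L : γ → ℕ) : ℝ :=
  ∑ n ∈ S, lam n * ∑ z ∈ T, ∑ g, (1 / (L g : ℝ)) * ∑ x ∈ T', ∑ y ∈ Ico (a n z g) (a n z g + L g),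
    ‖C n z g x y‖ ^ 2

/-- **`HSk` of a family of cells** -/
theorem hsk_fam {S : Finset ι} {lam : ι → ℝ} (hlam : ∀ n ∈ S, 0 ≤ lam n)
    {R : Finset (ℕ × ℤ)} {κ0 : ℕ} {T T' : Finset ℤ} {U : ι → ℤ → ℤ → κ → ℂ} {cell : κ → γ}
    {C : ι → ℤ → γ → ℤ → ℤ → ℂ} {a : ι → ℤ → γ → ℤ} {L : γ → ℕ} {c ρ : ℝ} {M : ℕ}
    (D : Fam S R κ0 T T' U cell C a L c ρ M) :
    HSk S lam R κ0 (8 * M * (c * ρ) ^ 2 * GG S lam T T' C a L) T T' U := by
  intro p hp k hk Λ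
  set N : ℕ := 2 ^ (p.1 + k) with hN
  have hN0 : 0 < N := by positivity
  have hN' : (0 : ℝ) < N := by exact_mod_cast hN0
  have e1 : ((N : ℕ) : ℝ) = 2 ^ (p.1 + k) := by rw [hN]; push_cast; rfl
  -- one box
  have h1 : ∀ n ∈ S, ∀ z ∈ T, ∀ r0 ∈ Λ, (1 / (N : ℝ) ^ 2) * ∑ j ∈ range N, ∑ j' ∈ range N,
        ‖kK T T' (U n) z (r0 + (j : ℤ)) (r0 + (j' : ℤ))‖ ^ 2 ≤
      M * ∑ g, 8 * (c * ρ) ^ 2 * ((1 / ((L g : ℝ) * N)) *
        ∑ j ∈ range N, ∑ y ∈ Ico (a n z g) (a n z g + L g), ‖C n z g (r0 + (j : ℤ)) y‖ ^ 2) := by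
    intro n hn z hz r0 _
    obtain ⟨P, hP, hP0⟩ := D.mult n hn z hz p hp k hk r0
    have h2 := hs_sum_le (range N) (fun (g : γ) (j j' : ℕ) => ∑ l,
      uC cell g (fun x l => mU T T' (U n) z x l) (r0 + (j : ℤ)) l *
        conj (uC cell g (fun x l => mU T T' (U n) z x l) (r0 + (j' : ℤ)) l)) M P hP (by
        intro g hg j hj j' _
        exact Finset.sum_eq_zero fun l _ => by rw [hP0 g hg j hj l, zero_mul])
    have h3 : ∀ j ∈ range N, ∀ j' ∈ range N, ‖kK T T' (U n) z (r0 + (j : ℤ)) (r0 + (j' : ℤ))‖ ^ 2 =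
        ‖∑ g, ∑ l, uC cell g (fun x l => mU T T' (U n) z x l) (r0 + (j : ℤ)) l *
          conj (uC cell g (fun x l => mU T T' (U n) z x l) (r0 + (j' : ℤ)) l)‖ ^ 2 := by
      intro j _ j' _
      rw [← sum_uC cell (fun x l => mU T T' (U n) z x l)]
      rfl
    rw [Finset.sum_congr rfl fun j hj => Finset.sum_congr rfl fun j' hj' => h3 j hj j' hj']
    have h4 : ∀ g, (1 / (N : ℝ) ^ 2) * ∑ j ∈ range N, ∑ j' ∈ range N,
        ‖∑ l, uC cell g (fun x l => mU T T' (U n) z x l) (r0 + (j : ℤ)) l *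
          conj (uC cell g (fun x l => mU T T' (U n) z x l) (r0 + (j' : ℤ)) l)‖ ^ 2 ≤
        8 * (c * ρ) ^ 2 * ((1 / ((L g : ℝ) * N)) *
          ∑ j ∈ range N, ∑ y ∈ Ico (a n z g) (a n z g + L g), ‖C n z g (r0 + (j : ℤ)) y‖ ^ 2) := by
      intro g
      have h5 := hs_box_cells (κ := κ) (C n z g) (p.1 + k) ρ c D.c0 (D.op n hn z hz g p hp k hk)
        (a n z g) (L g) (D.hL p hp k hk g) r0 (D.supp n hn z hz g)
        (uC cell g (fun x l => mU T T' (U n) z x l)) (D.dom n hn z hz g r0 N)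
      rw [← e1] at h5
      rw [Finset.sum_comm (s := Ico (a n z g) (a n z g + (L g : ℤ)))] at h5
      exact h5
    calc (1 / (N : ℝ) ^ 2) * ∑ j ∈ range N, ∑ j' ∈ range N,
          ‖∑ g, ∑ l, uC cell g (fun x l => mU T T' (U n) z x l) (r0 + (j : ℤ)) l *
            conj (uC cell g (fun x l => mU T T' (U n) z x l) (r0 + (j' : ℤ)) l)‖ ^ 2
        ≤ (1 / (N : ℝ) ^ 2) * (M * ∑ g, ∑ j ∈ range N, ∑ j' ∈ range N,
          ‖∑ l, uC cell g (fun x l => mU T T' (U n) z x l) (r0 + (j : ℤ)) l *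
            conj (uC cell g (fun x l => mU T T' (U n) z x l) (r0 + (j' : ℤ)) l)‖ ^ 2) :=
          mul_le_mul_of_nonneg_left h2 (by positivity)
      _ = M * ∑ g, (1 / (N : ℝ) ^ 2) * ∑ j ∈ range N, ∑ j' ∈ range N,
          ‖∑ l, uC cell g (fun x l => mU T T' (U n) z x l) (r0 + (j : ℤ)) l *
            conj (uC cell g (fun x l => mU T T' (U n) z x l) (r0 + (j' : ℤ)) l)‖ ^ 2 := by
          rw [← Finset.mul_sum]; ring
      _ ≤ _ := mul_le_mul_of_nonneg_left (Finset.sum_le_sum fun g _ => h4 g) (Nat.cast_nonneg _)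
  -- sum over the boxes
  have h2 : ∀ n ∈ S, ∑ r0 ∈ Λ, ∑ z ∈ T, (1 / (N : ℝ) ^ 2) * ∑ j ∈ range N, ∑ j' ∈ range N,
        ‖kK T T' (U n) z (r0 + (j : ℤ)) (r0 + (j' : ℤ))‖ ^ 2 ≤
      8 * M * (c * ρ) ^ 2 * ∑ z ∈ T, ∑ g, (1 / (L g : ℝ)) * ∑ x ∈ T',
        ∑ y ∈ Ico (a n z g) (a n z g + L g), ‖C n z g x y‖ ^ 2 := by
    intro n hn
    rw [Finset.sum_comm, Finset.mul_sum]
    refine Finset.sum_le_sum fun z hz => ?_
    refine (Finset.sum_le_sum fun r0 hr0 => h1 n hn z hz r0 hr0).trans ?_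
    rw [← Finset.mul_sum, Finset.sum_comm]
    have h3 : ∀ g : γ, ∑ r0 ∈ Λ, 8 * (c * ρ) ^ 2 * ((1 / ((L g : ℝ) * N)) *
        ∑ j ∈ range N, ∑ y ∈ Ico (a n z g) (a n z g + L g), ‖C n z g (r0 + (j : ℤ)) y‖ ^ 2) ≤
        8 * (c * ρ) ^ 2 * ((1 / (L g : ℝ)) * ∑ x ∈ T',
          ∑ y ∈ Ico (a n z g) (a n z g + L g), ‖C n z g x y‖ ^ 2) := by
      intro g
      rw [← Finset.mul_sum, ← Finset.mul_sum]
      refine mul_le_mul_of_nonneg_left ?_ (by positivity)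
      have hLg : (0 : ℝ) < L g := by exact_mod_cast D.L0 g
      have h4 := sum_pos_le N Λ T' (fun x => ∑ y ∈ Ico (a n z g) (a n z g + L g),
        ‖C n z g x y‖ ^ 2) (fun x => Finset.sum_nonneg fun _ _ => sq_nonneg _)
        (fun x hx => Finset.sum_eq_zero fun y _ => by rw [D.row n hn z hz g x hx y]; simp)
      calc (1 / ((L g : ℝ) * N)) * ∑ r0 ∈ Λ, ∑ j ∈ range N,
            ∑ y ∈ Ico (a n z g) (a n z g + L g), ‖C n z g (r0 + (j : ℤ)) y‖ ^ 2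
          ≤ (1 / ((L g : ℝ) * N)) * (N * ∑ x ∈ T', ∑ y ∈ Ico (a n z g) (a n z g + L g),
            ‖C n z g x y‖ ^ 2) := mul_le_mul_of_nonneg_left h4 (by positivity)
        _ = _ := by field_simp
    refine (mul_le_mul_of_nonneg_left (Finset.sum_le_sum fun g _ => h3 g)
      (Nat.cast_nonneg _)).trans (le_of_eq ?_)
    rw [← Finset.mul_sum]
    ring
  calc ∑ n ∈ S, lam n * ∑ r0 ∈ Λ, ∑ z ∈ T, (1 / (N : ℝ) ^ 2) *
        ∑ j ∈ range N, ∑ j' ∈ range N,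
          ‖kK T T' (U n) z (r0 + (j : ℤ)) (r0 + (j' : ℤ))‖ ^ 2
      ≤ ∑ n ∈ S, lam n * (8 * M * (c * ρ) ^ 2 * ∑ z ∈ T, ∑ g, (1 / (L g : ℝ)) * ∑ x ∈ T',
        ∑ y ∈ Ico (a n z g) (a n z g + L g), ‖C n z g x y‖ ^ 2) :=
        Finset.sum_le_sum fun n hn => mul_le_mul_of_nonneg_left (h2 n hn) (hlam n hn)
    _ = _ := by
        unfold GG
        rw [Finset.mul_sum]
        refine Finset.sum_congr rfl fun n _ => ?_
        ring

/-- one row of one cell -/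
theorem row_cell {S : Finset ι} {R : Finset (ℕ × ℤ)} {κ0 : ℕ} {T T' : Finset ℤ}
    {U : ι → ℤ → ℤ → κ → ℂ} {cell : κ → γ}
    {C : ι → ℤ → γ → ℤ → ℤ → ℂ} {a : ι → ℤ → γ → ℤ} {L : γ → ℕ} {c ρ : ℝ} {M : ℕ}
    (D : Fam S R κ0 T T' U cell C a L c ρ M) {n : ι} (hn : n ∈ S) {z : ℤ} (hz : z ∈ T) (g : γ)
    (x : ℤ) :
    ∑ l, ‖uC cell g (fun x l => mU T T' (U n) z x l) x l‖ ^ 2 ≤
      (c / L g) * ∑ y ∈ Ico (a n z g) (a n z g + L g), ‖C n z g x y‖ ^ 2 := by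
  have h := D.dom n hn z hz g x 1 (fun _ => 1)
  simpa using h

theorem kD_eq (T T' : Finset ℤ) (U : ℤ → ℤ → κ → ℂ) (cell : κ → γ) (z x : ℤ) :
    kD T T' U z x = ∑ g, ∑ l, ‖uC cell g (fun x l => mU T T' U z x l) x l‖ ^ 2 := by
  unfold kD
  rw [Finset.sum_comm]
  refine Finset.sum_congr rfl fun l _ => ?_
  unfold uC
  rw [Finset.sum_eq_single (cell l)]
  · simp
  · intro g _ hg
    rw [if_neg (Ne.symm hg)]; simp
  · intro h; exact absurd (Finset.mem_univ _) h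

/-- **trace of a family of cells** -/
theorem tr_fam {S : Finset ι} {lam : ι → ℝ} (hlam : ∀ n ∈ S, 0 ≤ lam n)
    {R : Finset (ℕ × ℤ)} {κ0 : ℕ} {T T' : Finset ℤ} {U : ι → ℤ → ℤ → κ → ℂ} {cell : κ → γ}
    {C : ι → ℤ → γ → ℤ → ℤ → ℂ} {a : ι → ℤ → γ → ℤ} {L : γ → ℕ} {c ρ : ℝ} {M : ℕ}
    (D : Fam S R κ0 T T' U cell C a L c ρ M) :
    ∑ n ∈ S, lam n * ∑ z ∈ T, ∑ x ∈ T', kD T T' (U n) z x ≤ c * GG S lam T T' C a L := by
  unfold GG
  rw [Finset.mul_sum]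
  refine Finset.sum_le_sum fun n hn => ?_
  have h1 : ∑ z ∈ T, ∑ x ∈ T', kD T T' (U n) z x ≤ ∑ z ∈ T, ∑ g, (c / L g) * ∑ x ∈ T',
      ∑ y ∈ Ico (a n z g) (a n z g + L g), ‖C n z g x y‖ ^ 2 := by
    refine Finset.sum_le_sum fun z hz => ?_
    have h2 : ∀ x ∈ T', kD T T' (U n) z x ≤ ∑ g, (c / L g) *
        ∑ y ∈ Ico (a n z g) (a n z g + L g), ‖C n z g x y‖ ^ 2 := by
      intro x _
      rw [kD_eq T T' (U n) cell z x]
      exact Finset.sum_le_sum fun g _ => row_cell D hn hz g x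
    refine (Finset.sum_le_sum h2).trans (le_of_eq ?_)
    rw [Finset.sum_comm]
    refine Finset.sum_congr rfl fun g _ => ?_
    rw [Finset.mul_sum]
  calc lam n * ∑ z ∈ T, ∑ x ∈ T', kD T T' (U n) z x ≤ lam n * ∑ z ∈ T, ∑ g, (c / L g) * ∑ x ∈ T',
      ∑ y ∈ Ico (a n z g) (a n z g + L g), ‖C n z g x y‖ ^ 2 :=
        mul_le_mul_of_nonneg_left h1 (hlam n hn)
    _ = _ := by
        simp only [Finset.mul_sum]
        refine Finset.sum_congr rfl fun z _ => Finset.sum_congr rfl fun g _ =>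
          Finset.sum_congr rfl fun x _ => Finset.sum_congr rfl fun y _ => ?_
        ring

/-- **diagonal of a family of cells** -/
theorem kD_fam {S : Finset ι} {R : Finset (ℕ × ℤ)} {κ0 : ℕ} {T T' : Finset ℤ}
    {U : ι → ℤ → ℤ → κ → ℂ} {cell : κ → γ}
    {C : ι → ℤ → γ → ℤ → ℤ → ℂ} {a : ι → ℤ → γ → ℤ} {L : γ → ℕ} {c ρ hr : ℝ} {M : ℕ}
    (D : Fam S R κ0 T T' U cell C a L c ρ M) (hR : R.Nonempty) (hhr : 0 ≤ hr)
    (hrow : ∀ n ∈ S, ∀ z ∈ T, ∀ g x, ∑ y ∈ Ico (a n z g) (a n z g + L g), ‖C n z g x y‖ ^ 2 ≤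
      hr * L g) :
    ∀ n ∈ S, ∀ z x, kD T T' (U n) z x ≤ M * (c * hr) := by
  intro n hn z x
  have h0 : 0 ≤ (M : ℝ) * (c * hr) := mul_nonneg (Nat.cast_nonneg _) (mul_nonneg D.c0 hhr)
  by_cases hz : z ∈ T
  · obtain ⟨p, hp⟩ := hR
    obtain ⟨P, hP, hP0⟩ := D.mult n hn z hz p hp 0 (Nat.zero_le _) x
    rw [kD_eq T T' (U n) cell z x]
    have h1 : ∑ g, ∑ l, ‖uC cell g (fun x l => mU T T' (U n) z x l) x l‖ ^ 2 =
        ∑ g ∈ P, ∑ l, ‖uC cell g (fun x l => mU T T' (U n) z x l) x l‖ ^ 2 := by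
      symm
      apply Finset.sum_subset (Finset.subset_univ _)
      intro g _ hg
      refine Finset.sum_eq_zero fun l _ => ?_
      have := hP0 g hg 0 (Finset.mem_range.2 (by positivity)) l
      simp only [Nat.cast_zero, add_zero] at this
      rw [this]; simp
    rw [h1]
    have h2 : ∀ g ∈ P, ∑ l, ‖uC cell g (fun x l => mU T T' (U n) z x l) x l‖ ^ 2 ≤ c * hr := by
      intro g _
      refine (row_cell D hn hz g x).trans ?_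
      have hLg : (0 : ℝ) < L g := by exact_mod_cast D.L0 g
      calc (c / L g) * ∑ y ∈ Ico (a n z g) (a n z g + L g), ‖C n z g x y‖ ^ 2 ≤
          (c / L g) * (hr * L g) :=
            mul_le_mul_of_nonneg_left (hrow n hn z hz g x) (div_nonneg D.c0 hLg.le)
        _ = c * hr := by field_simp
    refine (Finset.sum_le_sum h2).trans ?_
    rw [Finset.sum_const, nsmul_eq_mul]
    have h3 : (P.card : ℝ) ≤ M := by exact_mod_cast hP
    exact mul_le_mul_of_nonneg_right h3 (mul_nonneg D.c0 hhr)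
  · have h1 : kD T T' (U n) z x = 0 := kD_zero_left hz x
    rw [h1]
    exact h0

end Crest.Agent.R079.SWc360
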