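import Crest.Agent.R079.HWb_323

/-! R079, note 1820 (helper228), line (T2), part (a) (helper795): GEOMETRIC PARTITION INTO SUB-WINDOWS.

If every node `K` of a full region `R` carries a full window `W K ⊆ R` with top `K` whose exits (next
tops) have total length `≤ θ len K`, `θ < 1`, then `R` is partitioned into windows `W K`, `K ∈ S`, and the
total length of the tops below any node `p` is `≤ len p / (1 - θ)`. -/

set_option autoImplicit false

namespace Crest.Agent.R079.SbWx795

open Finset Crest.Agent.R079.Grid Crest.Agent.R079.Growth Crest.Agent.R079.QRed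
  Crest.Agent.R079.TWin Crest.Agent.R079.Qe292 Crest.Agent.R079.Qh249
  Crest.Agent.R079.GLA110 Crest.Agent.R079.Chn110 Crest.Agent.R079.HWx323

variable {R : Finset Nd} {J : Nd} {W : Nd → Finset Nd} {θ : ℝ}

/-- recursion over the levels -/
lemma geo_rec (hR : Full R J) (_hθ0 : 0 ≤ θ) (hθ1 : θ < 1) (hW : ∀ K ∈ R, Full (W K) K)
    (hWR : ∀ K ∈ R, W K ⊆ R) (hex : ∀ K ∈ R, ∑ c ∈ ex R (W K), len c ≤ θ * len K) :
    ∀ (n : ℕ) (I : Nd), I ∈ R → I.1 < n → ∃ S : Finset Nd, S ⊆ R ∧ (∀ K ∈ S, iv K ⊆ iv I) ∧
      (∀ K ∈ S, ∀ K' ∈ S, K ≠ K' → Disjoint (W K) (W K')) ∧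
      (∀ p ∈ R, iv p ⊆ iv I → ∃ K ∈ S, p ∈ W K) ∧
      ∀ p ∈ R, iv p ⊆ iv I →
        ∑ K ∈ S.filter (fun K => iv K ⊆ iv p), len K ≤ len p * (1 / (1 - θ)) := by
  classical
  have hθ2 : 0 < 1 - θ := by linarith
  have hC0 : 0 ≤ 1 / (1 - θ) := by positivity
  have hC1 : 1 + θ * (1 / (1 - θ)) = 1 / (1 - θ) := by
    field_simp
    ring
  intro n
  induction n with
  | zero => intro I _ h; omega
  | succ n ih =>
    intro I hI hn
    have hWI := hW I hI
    have hexR : ∀ c : Nd, ∃ S : Finset Nd, c ∈ ex R (W I) → (S ⊆ R ∧ (∀ K ∈ S, iv K ⊆ iv c) ∧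
      (∀ K ∈ S, ∀ K' ∈ S, K ≠ K' → Disjoint (W K) (W K')) ∧
      (∀ p ∈ R, iv p ⊆ iv c → ∃ K ∈ S, p ∈ W K) ∧
      ∀ p ∈ R, iv p ⊆ iv c →
        ∑ K ∈ S.filter (fun K => iv K ⊆ iv p), len K ≤ len p * (1 / (1 - θ))) := by
      intro c
      by_cases hc : c ∈ ex R (W I)
      · have hl := ex_level hWI hc
        obtain ⟨S, hS⟩ := ih c (mem_ex.1 hc).1 (by omega)
        exact ⟨S, fun _ => hS⟩
      · exact ⟨∅, fun h => absurd h hc⟩
    choose S hS using hexR
    have htotc : ∀ c ∈ ex R (W I), ∑ K ∈ S c, len K ≤ len c * (1 / (1 - θ)) := by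
      intro c hc
      have h1 := (hS c hc).2.2.2.2 c (mem_ex.1 hc).1 subset_rfl
      rwa [Finset.filter_true_of_mem (hS c hc).2.1] at h1
    have hsum0 : ∀ T : Finset Nd, 0 ≤ ∑ K ∈ T, len K := fun T =>
      Finset.sum_nonneg fun K _ => (Growth.len_pos K).le
    have hd : Set.PairwiseDisjoint (ex R (W I) : Set Nd) S := by
      intro c hc c' hc' hne
      rw [Function.onFun, Finset.disjoint_left]
      intro K hK hK'
      exact hne (ex_disj hWI (by exact_mod_cast hc) (by exact_mod_cast hc')
        ((hS c (by exact_mod_cast hc)).2.1 K hK)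
        ((hS c' (by exact_mod_cast hc')).2.1 K hK'))
    have htot : ∑ K ∈ {I} ∪ (ex R (W I)).biUnion S, len K ≤ len I * (1 / (1 - θ)) := by
      have h1 : ∑ K ∈ {I} ∪ (ex R (W I)).biUnion S, len K
          ≤ len I + ∑ K ∈ (ex R (W I)).biUnion S, len K := by
        have := Finset.sum_union_inter (s₁ := ({I} : Finset Nd))
          (s₂ := (ex R (W I)).biUnion S) (f := len)
        rw [Finset.sum_singleton] at this
        have h0 := hsum0 ({I} ∩ (ex R (W I)).biUnion S)
        linarith
      have h2 : ∑ K ∈ (ex R (W I)).biUnion S, len K ≤ ∑ c ∈ ex R (W I), ∑ K ∈ S c, len K := by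
        rw [Finset.sum_biUnion hd]
      have h3 : ∑ c ∈ ex R (W I), ∑ K ∈ S c, len K
          ≤ ∑ c ∈ ex R (W I), len c * (1 / (1 - θ)) := Finset.sum_le_sum htotc
      rw [← Finset.sum_mul] at h3
      have h4 := mul_le_mul_of_nonneg_right (hex I hI) hC0
      have h5 : len I + θ * len I * (1 / (1 - θ)) = len I * (1 / (1 - θ)) := by
        linear_combination (len I) * hC1
      linarith
    refine ⟨{I} ∪ (ex R (W I)).biUnion S, ?_, ?_, ?_, ?_, ?_⟩
    · refine Finset.union_subset (Finset.singleton_subset_iff.2 hI) ?_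
      exact Finset.biUnion_subset.2 fun c hc => (hS c hc).1
    · intro K hK
      rcases Finset.mem_union.1 hK with h | h
      · rw [Finset.mem_singleton.1 h]
      · obtain ⟨c, hc, hKc⟩ := Finset.mem_biUnion.1 h
        exact ((hS c hc).2.1 K hKc).trans (ex_sub hWI hc)
    · have hA : ∀ K ∈ (ex R (W I)).biUnion S, Disjoint (W I) (W K) := by
        intro K hK
        obtain ⟨c, hc, hKc⟩ := Finset.mem_biUnion.1 hK
        rw [Finset.disjoint_left]
        intro p hpI hpK
        have hKR := (hS c hc).1 hKc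
        have h1 : iv p ⊆ iv c := ((hW K hKR).reg.1 p hpK).trans ((hS c hc).2.1 K hKc)
        exact ex_notMem hWI hc h1 hpI
      intro K hK K' hK' hne
      rcases Finset.mem_union.1 hK with h | h <;> rcases Finset.mem_union.1 hK' with h' | h'
      · rw [Finset.mem_singleton.1 h, Finset.mem_singleton.1 h'] at hne
        exact absurd rfl hne
      · rw [Finset.mem_singleton.1 h]
        exact hA K' h'
      · rw [Finset.mem_singleton.1 h']
        exact (hA K h).symm
      · obtain ⟨c, hc, hKc⟩ := Finset.mem_biUnion.1 h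
        obtain ⟨c', hc', hKc'⟩ := Finset.mem_biUnion.1 h'
        by_cases hcc : c = c'
        · subst hcc
          exact (hS c hc).2.2.1 K hKc K' hKc' hne
        · rw [Finset.disjoint_left]
          intro p hp hp'
          exact hcc (ex_disj hWI hc hc'
            (((hW K ((hS c hc).1 hKc)).reg.1 p hp).trans ((hS c hc).2.1 K hKc))
            (((hW K' ((hS c' hc').1 hKc')).reg.1 p hp').trans ((hS c' hc').2.1 K' hKc')))
    · intro p hp hpI
      by_cases hw : p ∈ W I
      · exact ⟨I, Finset.mem_union_left _ (Finset.mem_singleton_self I), hw⟩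
      · obtain ⟨c, hc, hpc⟩ := ex_cover' hR hWI (hWR I hI) hp hpI hw
        obtain ⟨K, hK, hK'⟩ := (hS c hc).2.2.2.1 p hp hpc
        exact ⟨K, Finset.mem_union_right _ (Finset.mem_biUnion.2 ⟨c, hc, hK⟩), hK'⟩
    · intro p hp hpI
      by_cases hpe : p = I
      · refine le_trans (Finset.sum_le_sum_of_subset_of_nonneg (Finset.filter_subset _ _)
          fun K _ _ => (Growth.len_pos K).le) ?_
        rw [hpe]
        exact htot
      · have hsub : (({I} ∪ (ex R (W I)).biUnion S).filter (fun K => iv K ⊆ iv p)) ⊆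
            (ex R (W I)).biUnion (fun c => (S c).filter (fun K => iv K ⊆ iv p)) := by
          intro K hK
          rw [Finset.mem_filter, Finset.mem_union, Finset.mem_singleton] at hK
          rw [Finset.mem_biUnion]
          rcases hK.1 with h | h
          · exfalso
            rw [h] at hK
            exact hpe (Qe292.iv_antisymm hpI hK.2)
          · obtain ⟨c, hc, hKc⟩ := Finset.mem_biUnion.1 h
            exact ⟨c, hc, Finset.mem_filter.2 ⟨hKc, hK.2⟩⟩
        have h1 : ∑ K ∈ (({I} ∪ (ex R (W I)).biUnion S).filter (fun K => iv K ⊆ iv p)), len K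
            ≤ ∑ c ∈ ex R (W I), ∑ K ∈ (S c).filter (fun K => iv K ⊆ iv p), len K := by
          refine (Finset.sum_le_sum_of_subset_of_nonneg hsub
            fun K _ _ => (Growth.len_pos K).le).trans ?_
          have hd' : Set.PairwiseDisjoint (ex R (W I) : Set Nd)
              (fun c => (S c).filter (fun K => iv K ⊆ iv p)) := by
            intro c hc c' hc' hne
            rw [Function.onFun, Finset.disjoint_left]
            intro K hK hK'
            rw [Finset.mem_filter] at hK hK'
            exact hne (ex_disj hWI (by exact_mod_cast hc) (by exact_mod_cast hc')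
              ((hS c (by exact_mod_cast hc)).2.1 K hK.1)
              ((hS c' (by exact_mod_cast hc')).2.1 K hK'.1))
          rw [Finset.sum_biUnion hd']
        by_cases hw : p ∈ W I
        · have hzero : ∀ c ∈ ex R (W I), ¬ iv c ⊆ iv p →
              ∑ K ∈ (S c).filter (fun K => iv K ⊆ iv p), len K = 0 := by
            intro c hc hcp
            refine Finset.sum_eq_zero fun K hK => ?_
            exfalso
            rw [Finset.mem_filter] at hK
            have hKc := (hS c hc).2.1 K hK.1
            rcases Qe292.sub_total hKc hK.2 with h | h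
            · exact hcp h
            · exact ex_notMem hWI hc h hw
          have h2 : ∑ c ∈ ex R (W I), ∑ K ∈ (S c).filter (fun K => iv K ⊆ iv p), len K
              ≤ ∑ c ∈ (ex R (W I)).filter (fun c => iv c ⊆ iv p), len c * (1 / (1 - θ)) := by
            rw [Finset.sum_filter]
            refine Finset.sum_le_sum fun c hc => ?_
            by_cases hcp : iv c ⊆ iv p
            · rw [if_pos hcp]
              exact (Finset.sum_le_sum_of_subset_of_nonneg (Finset.filter_subset _ _)
                fun K _ _ => (Growth.len_pos K).le).trans (htotc c hc)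
            · rw [if_neg hcp, hzero c hc hcp]
          have h3 : ∑ c ∈ (ex R (W I)).filter (fun c => iv c ⊆ iv p), len c ≤ len p := by
            refine sum_len_disj _ p (fun c hc => (Finset.mem_filter.1 hc).2) ?_
            intro c hc c' hc' hne
            exact ex_disj_iv hWI (Finset.mem_filter.1 hc).1 (Finset.mem_filter.1 hc').1 hne
          rw [← Finset.sum_mul] at h2
          exact h1.trans (h2.trans (mul_le_mul_of_nonneg_right h3 hC0))
        · obtain ⟨c₀, hc₀, hpc⟩ := ex_cover' hR hWI (hWR I hI) hp hpI hw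
          have h2 : ∑ c ∈ ex R (W I), ∑ K ∈ (S c).filter (fun K => iv K ⊆ iv p), len K
              = ∑ K ∈ (S c₀).filter (fun K => iv K ⊆ iv p), len K := by
            refine Finset.sum_eq_single c₀ (fun c hc hne => ?_) fun h => absurd hc₀ h
            refine Finset.sum_eq_zero fun K hK => ?_
            exfalso
            rw [Finset.mem_filter] at hK
            exact hne (ex_disj hWI hc hc₀ ((hS c hc).2.1 K hK.1) (hK.2.trans hpc))
          rw [h2] at h1
          exact h1.trans ((hS c₀ hc₀).2.2.2.2 p hp hpc)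

/-- **geometric partition into sub-windows** -/
theorem geo_part (hR : Full R J) (hθ0 : 0 ≤ θ) (hθ1 : θ < 1) (hW : ∀ K ∈ R, Full (W K) K)
    (hWR : ∀ K ∈ R, W K ⊆ R) (hex : ∀ K ∈ R, ∑ c ∈ ex R (W K), len c ≤ θ * len K) :
    ∃ S : Finset Nd, Part R S W (1 / (1 - θ)) := by
  obtain ⟨S, hSR, _, hSd, hSc, hcnt⟩ := geo_rec hR hθ0 hθ1 hW hWR hex (J.1 + 1) J hR.top
    (Nat.lt_succ_self _)
  refine ⟨S, hSR, fun K hK => hW K (hSR hK), fun K hK => hWR K (hSR hK), hSd,
    fun p hp => hSc p hp (hR.reg.1 p hp), fun p hp => ?_⟩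
  have := hcnt p hp (hR.reg.1 p hp)
  linarith

end Crest.Agent.R079.SbWx795
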