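import Crest.Agent.R079.SbW_795

/-! R079, note 1820 (helper228), line (T2), part (b) (helper795): THE SUB-WINDOWS OF A TOP `K` OF A
FULL WINDOW `V`.

`al V m b` = total length of the nodes of level `m` of `V` inside `b`.  Parameters `k0 ≤ j0`, `n0`.

* case B (`CB`): `j0 + n0 ≤ K.1` and every block `b` of level `K.1 - k0` inside `K` satisfies
  `al V (K.1 - j0) b ≥ len b / 2`.  Window `UB`: the nodes of level `≥ K.1 - j0` and, for every
  `q0 ∈ V` of level `K.1 - j0` outside the layer `lay K` (two extreme nodes of level `K.1 - 4`), the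
  nodes below `q0` of level `≥ fl V n0 q0`, where `dq V n0 q0 ≥ n0` is the last level `≥ n0` with
  `al V d q0 ≥ len q0 / 2` and `fl = dq` (resp. `fl = 0` if `dq = n0`).
* case A: all nodes of level `≥ mA`; `mA = 0` if `K.1 < j0 + n0`, otherwise `K.1 - j0 < mA`.

Exits of `UU V k0 j0 n0 K`: total length `≤ (1 - 2^{-(k0+1)}) len K`. -/

set_option autoImplicit false

namespace Crest.Agent.R079.SbWx795

open Finset Crest.Agent.R079.Grid Crest.Agent.R079.Growth Crest.Agent.R079.QRed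
  Crest.Agent.R079.TWin Crest.Agent.R079.Qe292 Crest.Agent.R079.Qh249
  Crest.Agent.R079.GLA110 Crest.Agent.R079.Chn110 Crest.Agent.R079.HWx323

variable {V : Finset Nd} {P K : Nd} {k0 j0 n0 : ℕ}

open Classical in
/-- total length of the nodes of level `m` of `V` inside `b` -/
noncomputable def al (V : Finset Nd) (m : ℕ) (b : Nd) : ℝ :=
  ∑ q ∈ V.filter (fun q => q.1 = m ∧ iv q ⊆ iv b), len q

lemma al_nonneg (V : Finset Nd) (m : ℕ) (b : Nd) : 0 ≤ al V m b :=
  Finset.sum_nonneg fun q _ => (Growth.len_pos q).le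

/-- nodes of the same level are equal or disjoint -/
lemma disj_level {p q : Nd} (h : p.1 = q.1) (hne : p ≠ q) : Disjoint (iv p) (iv q) := by
  rw [Finset.disjoint_left]
  intro y hy hy'
  exact hne (eq_of_sub_level (sub_of_level hy hy' h.le) h)

lemma al_le (V : Finset Nd) (m : ℕ) (b : Nd) : al V m b ≤ len b := by
  classical
  unfold al
  refine sum_len_disj _ b (fun c hc => (Finset.mem_filter.1 hc).2.2) ?_
  intro c hc c' hc' hne
  exact disj_level ((Finset.mem_filter.1 hc).2.1.trans (Finset.mem_filter.1 hc').2.1.symm) hne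

lemma al_self {q0 : Nd} (h : q0 ∈ V) : al V q0.1 q0 = len q0 := by
  classical
  unfold al
  have : V.filter (fun q => q.1 = q0.1 ∧ iv q ⊆ iv q0) = {q0} := by
    ext q
    rw [Finset.mem_filter, Finset.mem_singleton]
    constructor
    · rintro ⟨_, h1, h2⟩
      exact eq_of_sub_level h2 h1
    · rintro rfl
      exact ⟨h, rfl, subset_rfl⟩
  rw [this, Finset.sum_singleton]

/-- the ancestor of level `m` -/
lemma anc_mem (hV : Full V P) {p K : Nd} (hp : p ∈ V) (hpK : iv p ⊆ iv K) (hK : iv K ⊆ iv P)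
    {m : ℕ} (h1 : p.1 ≤ m) (h2 : m ≤ K.1) : ∃ q ∈ V, q.1 = m ∧ iv p ⊆ iv q ∧ iv q ⊆ iv K := by
  obtain ⟨q, hq1, hq2, hq3⟩ := anc hpK h1 h2
  exact ⟨q, hV.reg.2 p hp q hq2 (hq3.trans hK), hq1, hq2, hq3⟩

/-- the alive length decreases with the level -/
lemma al_mono (hV : Full V P) {b : Nd} (hb : iv b ⊆ iv P) {m m' : ℕ} (h : m ≤ m') (hm : m' ≤ b.1) :
    al V m b ≤ al V m' b := by
  classical
  have h1 : al V m b ≤ ∑ q' ∈ V.filter (fun q => q.1 = m' ∧ iv q ⊆ iv b), al V m q' := by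
    unfold al
    rw [← Finset.sum_biUnion]
    · refine Finset.sum_le_sum_of_subset_of_nonneg ?_ fun q _ _ => (Growth.len_pos q).le
      intro q hq
      rw [Finset.mem_filter] at hq
      obtain ⟨q', h1, h2, h3, h4⟩ := anc_mem hV hq.1 hq.2.2 hb (m := m') (by omega) hm
      exact Finset.mem_biUnion.2 ⟨q', Finset.mem_filter.2 ⟨h1, h2, h4⟩,
        Finset.mem_filter.2 ⟨hq.1, hq.2.1, h3⟩⟩
    · intro q hq q' hq' hne
      rw [Function.onFun, Finset.disjoint_left]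
      intro r hr hr'
      rw [Finset.mem_filter] at hr hr'
      obtain ⟨y, hy⟩ := iv_nonempty r
      have hq2 := (Finset.mem_filter.1 (Finset.mem_coe.1 hq)).2
      have hq2' := (Finset.mem_filter.1 (Finset.mem_coe.1 hq')).2
      exact Finset.disjoint_left.1 (disj_level (hq2.1.trans hq2'.1.symm) hne) (hr.2.2 hy)
        (hr'.2.2 hy)
  exact h1.trans (Finset.sum_le_sum fun q _ => al_le V m q)

/-- every block of level `K.1 - k0` of `K` is at least half alive at level `m` -/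
def Alv (V : Finset Nd) (k0 m : ℕ) (K : Nd) : Prop :=
  ∀ b : Nd, b.1 + k0 = K.1 → iv b ⊆ iv K → len b / 2 ≤ al V m b

/-- case B -/
def CB (V : Finset Nd) (k0 j0 n0 : ℕ) (K : Nd) : Prop := j0 + n0 ≤ K.1 ∧ Alv V k0 (K.1 - j0) K

/-- last level `≥ n0` where at least half of `q0` is alive -/
noncomputable def dq (V : Finset Nd) (n0 : ℕ) (q0 : Nd) : ℕ :=
  sInf {d : ℕ | n0 ≤ d ∧ len q0 / 2 ≤ al V d q0}

/-- floor of the window below `q0` -/
noncomputable def fl (V : Finset Nd) (n0 : ℕ) (q0 : Nd) : ℕ :=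
  if dq V n0 q0 = n0 then 0 else dq V n0 q0

lemma dq_spec {q0 : Nd} (h : q0 ∈ V) (hn : n0 ≤ q0.1) :
    n0 ≤ dq V n0 q0 ∧ len q0 / 2 ≤ al V (dq V n0 q0) q0 ∧ dq V n0 q0 ≤ q0.1 := by
  have hmem : q0.1 ∈ {d : ℕ | n0 ≤ d ∧ len q0 / 2 ≤ al V d q0} := by
    refine ⟨hn, ?_⟩
    rw [al_self h]
    linarith [Growth.len_pos q0]
  have h1 := Nat.sInf_mem ⟨_, hmem⟩
  exact ⟨h1.1, h1.2, Nat.sInf_le hmem⟩

lemma dq_below {q0 : Nd} {d : ℕ} (h1 : n0 ≤ d) (h2 : d < dq V n0 q0) :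
    al V d q0 < len q0 / 2 := by
  by_contra hcon
  push Not at hcon
  exact Nat.notMem_of_lt_sInf h2 ⟨h1, hcon⟩

/-- the alive length of `q0` at every level between `dq` and the level of `q0` -/
lemma dq_alive (hV : Full V P) {q0 : Nd} (h : q0 ∈ V) (hn : n0 ≤ q0.1) {d : ℕ}
    (h1 : dq V n0 q0 ≤ d) (h2 : d ≤ q0.1) : len q0 / 2 ≤ al V d q0 :=
  (dq_spec h hn).2.1.trans (al_mono hV (hV.reg.1 q0 h) h1 h2)

lemma fl_le {q0 : Nd} : fl V n0 q0 ≤ dq V n0 q0 := by
  unfold fl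
  split_ifs <;> omega

/-- the layer of `K` -/
def lay (K q0 : Nd) : Prop :=
  iv q0 ⊆ iv (K.1 - 4, 16 * K.2) ∨ iv q0 ⊆ iv (K.1 - 4, 16 * K.2 + 15)

open Classical in
/-- window of case B -/
noncomputable def UB (V : Finset Nd) (j0 n0 : ℕ) (K : Nd) : Finset Nd :=
  V.filter (fun q => iv q ⊆ iv K ∧ (K.1 - j0 ≤ q.1 ∨ ∃ q0, q0 ∈ V ∧ q0.1 = K.1 - j0 ∧
    iv q ⊆ iv q0 ∧ iv q0 ⊆ iv K ∧ ¬ lay K q0 ∧ fl V n0 q0 ≤ q.1))

open Classical in
lemma mem_UB {q : Nd} : q ∈ UB V j0 n0 K ↔ q ∈ V ∧ iv q ⊆ iv K ∧ (K.1 - j0 ≤ q.1 ∨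
    ∃ q0, q0 ∈ V ∧ q0.1 = K.1 - j0 ∧ iv q ⊆ iv q0 ∧ iv q0 ⊆ iv K ∧ ¬ lay K q0 ∧
      fl V n0 q0 ≤ q.1) := by
  unfold UB
  rw [Finset.mem_filter]

open Classical in
/-- floor of the window of case A -/
noncomputable def mA (V : Finset Nd) (k0 j0 n0 : ℕ) (K : Nd) : ℕ :=
  if K.1 < j0 + n0 then 0 else Nat.findGreatest (fun m => ¬ Alv V k0 m K) (K.1 - k0) + 1

open Classical in
/-- the window of the top `K` (before the spots are removed) -/
noncomputable def UU (V : Finset Nd) (k0 j0 n0 : ℕ) (K : Nd) : Finset Nd :=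
  if CB V k0 j0 n0 K then UB V j0 n0 K else Wf V K (mA V k0 j0 n0 K)

lemma UB_full (hV : Full V P) (hK : K ∈ V) : Full (UB V j0 n0 K) K := by
  have hKP := hV.reg.1 K hK
  refine ⟨⟨fun p hp => (mem_UB.1 hp).2.1, fun p hp q h1 h2 => ?_⟩,
    mem_UB.2 ⟨hK, subset_rfl, Or.inl (Nat.sub_le _ _)⟩, bin_of fun c hc hpc => ?_⟩
  · have h := mem_UB.1 hp
    refine mem_UB.2 ⟨hV.reg.2 p h.1 q h1 (h2.trans hKP), h2, ?_⟩
    by_cases hq : K.1 - j0 ≤ q.1
    · exact Or.inl hq
    · have hl := Qe292.iv_level h1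
      rcases h.2.2 with h3 | ⟨q0, h3, h4, h5, h6, h7, h8⟩
      · omega
      · refine Or.inr ⟨q0, h3, h4, ?_, h6, h7, h8.trans hl⟩
        rcases Qe292.sub_total h1 h5 with h9 | h9
        · exact h9
        · have := Qe292.iv_level h9
          omega
  · have h := mem_UB.1 hc
    have h' := mem_UB.1 hpc
    have hs : iv (sib c) ⊆ iv (par c) := by
      rw [← par_sib c]
      exact iv_par _
    refine mem_UB.2 ⟨sib_mem hV h.1 h'.1, hs.trans h'.2.1, ?_⟩
    rcases h.2.2 with h3 | ⟨q0, h3, h4, h5, h6, h7, h8⟩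
    · exact Or.inl h3
    · by_cases he : K.1 - j0 ≤ c.1
      · exact Or.inl he
      · have hne : c ≠ q0 := by
          rintro rfl
          omega
        exact Or.inr ⟨q0, h3, h4, hs.trans (par_sub h5 hne), h6, h7, h8⟩

lemma UB_sub : UB V j0 n0 K ⊆ V := fun _ hq => (mem_UB.1 hq).1

/-- the exits of the window of case B -/
lemma UB_exits (hV : Full V P) (hK : K ∈ V) (hn : j0 + n0 ≤ K.1) {c : Nd}
    (hc : c ∈ ex V (UB V j0 n0 K)) :
    iv c ⊆ iv (K.1 - 4, 16 * K.2) ∨ iv c ⊆ iv (K.1 - 4, 16 * K.2 + 15) ∨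
      ∃ q0, q0 ∈ V ∧ q0.1 = K.1 - j0 ∧ iv q0 ⊆ iv K ∧ iv c ⊆ iv q0 ∧ n0 ≤ c.1 ∧
        c.1 < dq V n0 q0 ∧ c.1 + 1 = dq V n0 q0 := by
  have h := mem_ex.1 hc
  have hp := mem_UB.1 h.2.2
  have hcK : iv c ⊆ iv K := (iv_par c).trans hp.2.1
  have hlev : (par c).1 = c.1 + 1 := rfl
  have hnl : ¬ K.1 - j0 ≤ c.1 := fun hcon => h.2.1 (mem_UB.2 ⟨h.1, hcK, Or.inl hcon⟩)
  obtain ⟨q0, hq0, hq1, hq2, hq3⟩ := anc_mem hV h.1 hcK (hV.reg.1 K hK) (m := K.1 - j0)
    (by omega) (Nat.sub_le _ _)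
  by_cases hl : lay K q0
  · rcases hl with hl | hl
    · exact Or.inl (hq2.trans hl)
    · exact Or.inr (Or.inl (hq2.trans hl))
  · refine Or.inr (Or.inr ⟨q0, hq0, hq1, hq3, hq2, ?_⟩)
    have hfl : c.1 < fl V n0 q0 := by
      by_contra hcon
      exact h.2.1 (mem_UB.2 ⟨h.1, hcK, Or.inr ⟨q0, hq0, hq1, hq2, hq3, hl, by omega⟩⟩)
    have hdn : dq V n0 q0 ≠ n0 := by
      intro he
      unfold fl at hfl
      rw [if_pos he] at hfl
      omega
    have hfe : fl V n0 q0 = dq V n0 q0 := by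
      unfold fl
      rw [if_neg hdn]
    have hsp := dq_spec (n0 := n0) hq0 (by omega)
    have hge : dq V n0 q0 ≤ c.1 + 1 := by
      rcases hp.2.2 with h3 | ⟨q1, h3, h4, h5, h6, h7, h8⟩
      · omega
      · have he : q1 = q0 := by
          have h9 : iv c ⊆ iv q1 := (iv_par c).trans h5
          rcases Qe292.sub_total h9 hq2 with h10 | h10
          · exact eq_of_sub_level h10 (h4.trans hq1.symm)
          · exact (eq_of_sub_level h10 (hq1.trans h4.symm)).symm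
        rw [he, hfe, hlev] at h8
        exact h8
    omega

/-- length of the two blocks of the layer -/
lemma len_lay (h4 : 4 ≤ K.1) (l : ℤ) : len (K.1 - 4, l) = len K / 16 := by
  unfold len
  simp only
  have e : K.1 + 7 = (K.1 - 4 + 7) + 4 := by omega
  rw [e, pow_add]
  ring

/-- **total length of the exits, case B** -/
theorem UB_ex_le (hV : Full V P) (hK : K ∈ V) (h4 : 4 ≤ j0) (hn : j0 + n0 ≤ K.1) :
    ∑ c ∈ ex V (UB V j0 n0 K), len c ≤ (1 / 8 + 1 / 2) * len K := by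
  classical
  have hF := UB_full (j0 := j0) (n0 := n0) hV hK
  set E := ex V (UB V j0 n0 K) with hE
  set A1 := E.filter (fun c => iv c ⊆ iv (K.1 - 4, 16 * K.2)) with hA1
  set A2 := E.filter (fun c => iv c ⊆ iv (K.1 - 4, 16 * K.2 + 15)) with hA2
  set Q := V.filter (fun q0 => q0.1 = K.1 - j0 ∧ iv q0 ⊆ iv K) with hQ
  set B : Nd → Finset Nd := fun q0 => V.filter (fun c => c.1 + 1 = dq V n0 q0 ∧
    n0 ≤ c.1 ∧ iv c ⊆ iv q0) with hB
  have hdis : ∀ T ⊆ E, ∀ c ∈ T, ∀ c' ∈ T, c ≠ c' → Disjoint (iv c) (iv c') :=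
    fun T hT c hc c' hc' hne => ex_disj_iv hF (hT hc) (hT hc') hne
  have h1 : ∑ c ∈ A1, len c ≤ len K / 16 := by
    rw [← len_lay (K := K) (by omega) (16 * K.2)]
    exact sum_len_disj _ _ (fun c hc => (Finset.mem_filter.1 hc).2)
      (hdis _ (Finset.filter_subset _ _))
  have h2 : ∑ c ∈ A2, len c ≤ len K / 16 := by
    rw [← len_lay (K := K) (by omega) (16 * K.2 + 15)]
    exact sum_len_disj _ _ (fun c hc => (Finset.mem_filter.1 hc).2)
      (hdis _ (Finset.filter_subset _ _))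
  have h3 : ∀ q0 ∈ Q, ∑ c ∈ B q0, len c ≤ len q0 / 2 := by
    intro q0 hq0
    by_cases hne : (B q0).Nonempty
    · obtain ⟨c0, hc0⟩ := hne
      have h0 := (Finset.mem_filter.1 hc0).2
      have h5 : B q0 ⊆ V.filter (fun q => q.1 = c0.1 ∧ iv q ⊆ iv q0) := by
        intro c hc
        have := Finset.mem_filter.1 hc
        exact Finset.mem_filter.2 ⟨this.1, by omega, this.2.2.2⟩
      refine (Finset.sum_le_sum_of_subset_of_nonneg h5 fun q _ _ =>
        (Growth.len_pos q).le).trans ?_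
      exact (dq_below (V := V) (n0 := n0) (q0 := q0) (d := c0.1) h0.2.1 (by omega)).le
    · rw [Finset.not_nonempty_iff_eq_empty] at hne
      rw [hne, Finset.sum_empty]
      linarith [Growth.len_pos q0]
  have h5 : ∑ q0 ∈ Q, len q0 ≤ len K :=
    sum_len_disj _ _ (fun c hc => (Finset.mem_filter.1 hc).2.2) fun c hc c' hc' hne =>
      disj_level ((Finset.mem_filter.1 hc).2.1.trans (Finset.mem_filter.1 hc').2.1.symm) hne
  have hsub : E ⊆ (A1 ∪ A2) ∪ Q.biUnion B := by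
    intro c hc
    rcases UB_exits hV hK hn hc with h | h | ⟨q0, h6, h7, h8, h9, h10, _, h12⟩
    · exact Finset.mem_union_left _ (Finset.mem_union_left _ (Finset.mem_filter.2 ⟨hc, h⟩))
    · exact Finset.mem_union_left _ (Finset.mem_union_right _ (Finset.mem_filter.2 ⟨hc, h⟩))
    · exact Finset.mem_union_right _ (Finset.mem_biUnion.2 ⟨q0, Finset.mem_filter.2 ⟨h6, h7, h8⟩,
        Finset.mem_filter.2 ⟨(mem_ex.1 hc).1, h12, h10, h9⟩⟩)
  have hnn : ∀ T : Finset Nd, 0 ≤ ∑ c ∈ T, len c := fun T =>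
    Finset.sum_nonneg fun c _ => (Growth.len_pos c).le
  have hun : ∀ T T' : Finset Nd, ∑ c ∈ T ∪ T', len c ≤ ∑ c ∈ T, len c + ∑ c ∈ T', len c := by
    intro T T'
    have := Finset.sum_union_inter (s₁ := T) (s₂ := T') (f := len)
    linarith [hnn (T ∩ T')]
  have hbi : ∑ c ∈ Q.biUnion B, len c = ∑ q0 ∈ Q, ∑ c ∈ B q0, len c := by
    refine Finset.sum_biUnion ?_
    intro q hq q' hq' hne
    rw [Function.onFun, Finset.disjoint_left]
    intro r hr hr'
    have h6 := (Finset.mem_filter.1 (Finset.mem_coe.1 hq)).2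
    have h6' := (Finset.mem_filter.1 (Finset.mem_coe.1 hq')).2
    have h7 := (Finset.mem_filter.1 hr).2
    have h7' := (Finset.mem_filter.1 hr').2
    obtain ⟨y, hy⟩ := iv_nonempty r
    exact Finset.disjoint_left.1 (disj_level (h6.1.trans h6'.1.symm) hne) (h7.2.2 hy)
      (h7'.2.2 hy)
  have h6 : ∑ q0 ∈ Q, ∑ c ∈ B q0, len c ≤ ∑ q0 ∈ Q, len q0 / 2 := Finset.sum_le_sum h3
  rw [← Finset.sum_div] at h6
  have h7 := Finset.sum_le_sum_of_subset_of_nonneg hsub fun c _ _ => (Growth.len_pos c).le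
  have h8 := hun (A1 ∪ A2) (Q.biUnion B)
  have h9 := hun A1 A2
  linarith

/-! ### case A -/

lemma Wf_exits (_hK : K ∈ V) {d : ℕ} {c : Nd} (hc : c ∈ ex V (Wf V K d)) :
    c.1 + 1 = d ∧ iv c ⊆ iv K := by
  have h := mem_ex.1 hc
  have hp := mem_Wf.1 h.2.2
  have hcK : iv c ⊆ iv K := (iv_par c).trans hp.2.1
  have hlev : (par c).1 = c.1 + 1 := rfl
  refine ⟨?_, hcK⟩
  by_contra hne
  exact h.2.1 (mem_Wf.2 ⟨h.1, hcK, by omega⟩)

/-- the floor of case A -/
lemma mA_spec (_hk : 1 ≤ k0) (hkj : k0 ≤ j0) (hB : ¬ CB V k0 j0 n0 K) :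
    (K.1 < j0 + n0 ∧ mA V k0 j0 n0 K = 0) ∨ (j0 + n0 ≤ K.1 ∧ K.1 - j0 < mA V k0 j0 n0 K ∧
      mA V k0 j0 n0 K ≤ K.1 - k0 + 1 ∧ ¬ Alv V k0 (mA V k0 j0 n0 K - 1) K) := by
  classical
  by_cases h : K.1 < j0 + n0
  · refine Or.inl ⟨h, ?_⟩
    unfold mA
    rw [if_pos h]
  · have hA : ¬ Alv V k0 (K.1 - j0) K := fun hA => hB ⟨by omega, hA⟩
    have e : mA V k0 j0 n0 K =
        Nat.findGreatest (fun m => ¬ Alv V k0 m K) (K.1 - k0) + 1 := by
      unfold mA
      rw [if_neg h]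
    have h1 := Nat.le_findGreatest (P := fun m => ¬ Alv V k0 m K) (m := K.1 - j0)
      (n := K.1 - k0) (by omega) hA
    have h2 := Nat.findGreatest_spec (P := fun m => ¬ Alv V k0 m K) (m := K.1 - j0)
      (n := K.1 - k0) (by omega) hA
    have h3 := Nat.findGreatest_le (P := fun m => ¬ Alv V k0 m K) (K.1 - k0)
    refine Or.inr ⟨by omega, by omega, by omega, ?_⟩
    rw [e, Nat.add_sub_cancel]
    exact h2

/-- **total length of the exits, case A** -/
theorem WA_ex_le (hK : K ∈ V) (hk : 1 ≤ k0) (hkj : k0 ≤ j0)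
    (hB : ¬ CB V k0 j0 n0 K) :
    ∑ c ∈ ex V (Wf V K (mA V k0 j0 n0 K)), len c ≤ (1 - 1 / 2 ^ (k0 + 1)) * len K := by
  classical
  have hlK := Growth.len_pos K
  have hk2 : (1 : ℝ) / 2 ^ (k0 + 1) ≤ 1 := by
    rw [div_le_one (by positivity)]
    exact one_le_pow₀ (by norm_num)
  rcases mA_spec hk hkj hB with ⟨_, h2⟩ | ⟨h1, h2, h3, h4⟩
  · have he : ex V (Wf V K (mA V k0 j0 n0 K)) = ∅ := by
      rw [Finset.eq_empty_iff_forall_notMem]
      intro c hc
      have := (Wf_exits hK hc).1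
      omega
    rw [he, Finset.sum_empty]
    exact mul_nonneg (by linarith) hlK.le
  · set d := mA V k0 j0 n0 K with hd
    unfold Alv at h4
    push Not at h4
    obtain ⟨b, hb1, hb2, hb3⟩ := h4
    -- exits = nodes of level `d - 1`
    set E := ex V (Wf V K d) with hE
    have hlb : len b = len K / 2 ^ k0 := by
      rw [eq_div_iff (by positivity)]
      unfold len
      rw [← pow_add, ← hb1]
      congr 1
      omega
    have h5 : ∀ c ∈ E, c.1 = d - 1 ∧ c ∈ V ∧ iv c ⊆ iv K := by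
      intro c hc
      have := Wf_exits hK hc
      exact ⟨by omega, (mem_ex.1 hc).1, this.2⟩
    -- inside `b`
    have h6 : ∑ c ∈ E.filter (fun c => iv c ⊆ iv b), len c ≤ al V (d - 1) b := by
      unfold al
      refine Finset.sum_le_sum_of_subset_of_nonneg ?_ fun q _ _ => (Growth.len_pos q).le
      intro c hc
      have := Finset.mem_filter.1 hc
      have h7 := h5 c this.1
      exact Finset.mem_filter.2 ⟨h7.2.1, h7.1, this.2⟩
    -- outside `b`
    have h7 : ∑ c ∈ E.filter (fun c => ¬ iv c ⊆ iv b), len c + len b ≤ len K := by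
      have hnot : b ∉ E.filter (fun c => ¬ iv c ⊆ iv b) := by
        intro h
        exact (Finset.mem_filter.1 h).2 subset_rfl
      have h8 : ∑ c ∈ insert b (E.filter (fun c => ¬ iv c ⊆ iv b)), len c ≤ len K := by
        have hcb : ∀ c ∈ E.filter (fun c => ¬ iv c ⊆ iv b), Disjoint (iv c) (iv b) := by
          intro c hc
          have h9 := Finset.mem_filter.1 hc
          have h10 := (h5 c h9.1).1
          rw [Finset.disjoint_left]
          intro y hy hy'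
          exact h9.2 (sub_of_level hy hy' (by omega))
        refine sum_len_disj _ K (fun c hc => ?_) ?_
        · rcases Finset.mem_insert.1 hc with h | h
          · rw [h]; exact hb2
          · exact (h5 c (Finset.mem_filter.1 h).1).2.2
        · intro c hc c' hc' hne
          rcases Finset.mem_insert.1 hc with h | h <;> rcases Finset.mem_insert.1 hc' with h' | h'
          · exact absurd (h.trans h'.symm) hne
          · rw [h]; exact (hcb c' h').symm
          · rw [h']; exact hcb c h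
          · exact disj_level ((h5 c (Finset.mem_filter.1 h).1).1.trans
              (h5 c' (Finset.mem_filter.1 h').1).1.symm) hne
      rw [Finset.sum_insert hnot] at h8
      linarith
    have h8 := Finset.sum_filter_add_sum_filter_not E (fun c => iv c ⊆ iv b) len
    have h9 : (1 - 1 / 2 ^ (k0 + 1)) * len K = len K - len b / 2 := by
      rw [hlb, pow_succ]
      field_simp
    rw [h9]
    linarith

lemma mA_le (hk : 1 ≤ k0) (hkj : k0 ≤ j0) (hB : ¬ CB V k0 j0 n0 K) :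
    mA V k0 j0 n0 K ≤ K.1 := by
  rcases mA_spec hk hkj hB with ⟨_, h2⟩ | ⟨h1, h2, h3, h4⟩ <;> omega

/-! ### both cases -/

lemma UU_full (hV : Full V P) (hK : K ∈ V) (hk : 1 ≤ k0) (hkj : k0 ≤ j0) :
    Full (UU V k0 j0 n0 K) K := by
  classical
  unfold UU
  split_ifs with hB
  · exact UB_full hV hK
  · exact Wf_full hV hK (mA_le hk hkj hB)

lemma UU_sub : UU V k0 j0 n0 K ⊆ V := by
  classical
  unfold UU
  split_ifs with hB
  · exact UB_sub
  · exact Wf_sub

/-- **total length of the exits** -/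
theorem UU_ex_le (hV : Full V P) (hK : K ∈ V) (hk : 4 ≤ k0) (hkj : k0 ≤ j0) :
    ∑ c ∈ ex V (UU V k0 j0 n0 K), len c ≤ (1 - 1 / 2 ^ (k0 + 1)) * len K := by
  classical
  unfold UU
  split_ifs with hB
  · refine (UB_ex_le hV hK (by omega) hB.1).trans ?_
    refine mul_le_mul_of_nonneg_right ?_ (Growth.len_pos K).le
    have h1 : (1 : ℝ) / 2 ^ (k0 + 1) ≤ 1 / 2 ^ 2 :=
      one_div_le_one_div_of_le (by norm_num) (pow_le_pow_right₀ (by norm_num) (by omega))
    linarith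
  · exact WA_ex_le hK (by omega) hkj hB

/-- nodes of the window, case A: all near -/
lemma UU_near (hk : 1 ≤ k0) (hkj : k0 ≤ j0) (hB : ¬ CB V k0 j0 n0 K) {q : Nd}
    (hq : q ∈ UU V k0 j0 n0 K) : K.1 < j0 + n0 ∨ K.1 < q.1 + j0 := by
  classical
  unfold UU at hq
  rw [if_neg hB] at hq
  have h := mem_Wf.1 hq
  rcases mA_spec hk hkj hB with ⟨h1, _⟩ | ⟨h1, h2, h3, h4⟩
  · exact Or.inl h1
  · exact Or.inr (by omega)

/-- nodes of the window, case B -/
lemma UU_caseB (hB : CB V k0 j0 n0 K) : UU V k0 j0 n0 K = UB V j0 n0 K := by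
  classical
  unfold UU
  rw [if_pos hB]

end Crest.Agent.R079.SbWx795
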