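import Crest.Agent.R079.CoE6_255
import Crest.Agent.R079.StO1_256
import Crest.Agent.R079.T6c_252

/-! R079, T6 (helper255): **`StatO` for the final dictionary `DF0 P`** (helper112), from `stat_piece`
(CoE6_255) and the data of helper256 (StO1_256). -/

set_option autoImplicit false
set_option linter.unusedVariables false

namespace Crest.Agent.R079.StO2x255

open Finset Crest.Agent.R079.Grid Crest.Agent.R079.Glue Crest.Agent.R079.Growth
  Crest.Agent.R079.QRed Crest.Agent.R079.BAt112 Crest.Agent.R079.DicB112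
  Crest.Agent.R079.WS112 Crest.Agent.R079.WS0112 Crest.Agent.R079.T6bx252 Crest.Agent.R079.WB112
  Crest.Agent.R079.CoEx255 Crest.Agent.R079.StO256

/-- **STEP II for `DF0 P`**; `CS` does not depend on `k`, `a ≤ a1`, `q3`, and `cS` is any number with the
two inequalities -/
theorem statO_DF0 {P : Prm} (h : Ok0 P) {i m : Fin 4} (him : i ≠ m) (hi3 : i ≠ 3) (hm3 : m ≠ 3)
    {a1 b cl cS : ℝ} (ha1 : 0 ≤ a1) (hb : 0 ≤ b) (hcS : 0 < cS) (hC : P.gc m ≤ P.Cc m)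
    (h1 : 2 * cS ≤ b * (P.θ * P.gc m) - 2 * cl)
    (h2 : 2 * cS ≤ b * (P.θ * (P.Cc m - P.gc m)) - 2 * (a1 * (P.θ * P.g i))) :
    ∃ CS : ℝ, 0 ≤ CS ∧ ∀ k, 0 < k → ∃ t0 K : ℝ, 0 < t0 ∧ t0 ≤ 1 ∧ 0 ≤ K ∧
      ∀ q3 a, 0 ≤ a → a ≤ a1 → StatO (DF0 P) (OA0 P) k q3 a b cl cS CS t0 K i m := by
  obtain ⟨A0, C0, hA0, hC0, hrep⟩ := repB_PRo h
  have hθ := h.θ0
  have hgc := h.gc0 m
  refine ⟨cnE (a1 * C0) (b * (P.θ * P.gc m)) cS, cnE_nonneg (by positivity) (by positivity) hcS.le,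
    fun k hk => ?_⟩
  obtain ⟨t0, K, g1, g2, g3, g4⟩ := stat_piece (C1 := a1 * C0) (hh := a1 * (P.θ * P.g i)) (cl := cl)
    (gm := b * (P.θ * P.gc m)) (dx := b * (P.θ * (P.Cc m - P.gc m))) (cS := cS) (by positivity) hcS
    (by positivity) h1 h2 (k := k) (A1 := 2 * A0) (A2 := 3) (A3 := 3) (A4 := 2) hk (by positivity)
    (by norm_num) (by norm_num) (by norm_num)
  refine ⟨t0, K, g1, g2, g3, ?_⟩
  intro q3 a ha haa N B hB hBN t ht htt bb W I F hPR hI x y hO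
  have ht1 : t ≤ 1 := htt.trans g2
  have hgi := h.g0 i
  have r1 : RepB i I (F i) (2 * A0 * t ^ (-(a1 * C0))) := by
    refine (hrep hi3 ha ht ht1 hPR).mono (mul_le_mul_of_nonneg_left ?_ (by positivity))
    refine Real.rpow_le_rpow_of_exponent_ge ht ht1 ?_
    have := mul_le_mul_of_nonneg_right haa hC0
    linarith
  have r2 : ∀ y ∈ iv I, ‖F i y‖ ≤ 2 * t ^ (-(a1 * (P.θ * P.g i))) := by
    intro y hy
    refine (sup_PRo h hi3 ha ht ht1 hPR hy).trans (mul_le_mul_of_nonneg_left ?_ (by norm_num))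
    refine Real.rpow_le_rpow_of_exponent_ge ht ht1 ?_
    have := mul_le_mul_of_nonneg_right haa (mul_nonneg hθ.le hgi)
    linarith
  have r3 : NC237.NCol W (F m) (3 * t ^ (b * (P.θ * P.gc m)))
      (3 * t ^ (b * (P.θ * (P.Cc m - P.gc m)))) := by
    intro p hp p' hp' hl
    obtain ⟨Bd, u1, u2⟩ := ncol_PRo h hk.le hm3 hb hC ht ht1 hPR p hp p' hp' hl
    have hlp : 0 < len p := Growth.len_pos p
    have h3 : 0 ≤ t ^ (b * (P.θ * (P.Cc m - P.gc m))) := Real.rpow_nonneg ht.le _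
    exact ⟨Bd, u1.trans (mul_le_mul_of_nonneg_right (by linarith) hlp.le), u2⟩
  obtain ⟨TB, c1, c2, c3⟩ := g4 t ht htt W I hPR.full i m him F r1 r2 hPR.avP hPR.nR r3 x y hO
  refine ⟨TB, c1, c2, fun ε hA s hs R J hR hRR hJ X Y hXY =>
    (c3 bb ε hA s hs R J hR hRR hJ X Y hXY).trans ?_⟩
  have htc : 0 ≤ t ^ cS := Real.rpow_nonneg ht.le _
  have h5 : K * t ^ cS ≤ K * (1 + B) * t ^ cS := by
    refine mul_le_mul_of_nonneg_right ?_ htc
    nlinarith
  exact mul_le_mul_of_nonneg_right (mul_le_mul_of_nonneg_left h5 (sq_nonneg _))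
    (Growth.len_pos J).le

end Crest.Agent.R079.StO2x255
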