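import Crest.Agent.R079.StO2_255
import Crest.Agent.R079.WT_112

/-! R079 (helper255): the field `stat` of `WS0112.Leaves` (helper112) for every `P` with
`2 clx P d i < θ gc_m` (i.e. `gc_m > 4 gc_i + 2 d / θ`) and `Cc_m - gc_m > 4 g_i`. -/

set_option autoImplicit false
set_option linter.unusedVariables false

namespace Crest.Agent.R079.StO3x255

open Finset Crest.Agent.R079.Grid Crest.Agent.R079.Glue Crest.Agent.R079.Growth
  Crest.Agent.R079.QRed Crest.Agent.R079.WS112 Crest.Agent.R079.WS0112 Crest.Agent.R079.T6bx252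

/-- **the leaf `stat`** -/
theorem stat_leaf {P : Prm} (h : Ok0 P) {q3 d : ℝ} {i m : Fin 4} (hmi : m < i) (hi3 : i ≠ 3)
    (hgc : 2 * clx P d i < P.θ * P.gc m) (hCc : 4 * P.g i < P.Cc m - P.gc m) :
    ∃ cS CS e2 : ℝ, 0 < cS ∧ 0 < e2 ∧ ∀ e, 0 < e → e ≤ e2 →
      ∃ k2 : ℝ, 0 < k2 ∧ ∀ k, 0 < k → k ≤ k2 → ∃ t0 K : ℝ, 0 < t0 ∧ 0 ≤ K ∧
        StatQ (QD P d i m e k) k q3 cS CS t0 K i m := by
  have hθ := h.θ0
  have hm3 : m ≠ 3 := by
    rintro rfl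
    have := i.2
    have h1 : (3 : ℕ) < i.1 := hmi
    omega
  have hC : P.gc m ≤ P.Cc m := by linarith [h.g0 i]
  have hgap : 0 < P.θ * (P.Cc m - P.gc m - 4 * P.g i) := mul_pos hθ (by linarith)
  set cS : ℝ := min ((P.θ * P.gc m - 2 * clx P d i) / 2)
    (P.θ * (P.Cc m - P.gc m - 4 * P.g i) / 2) with hcS
  have hcS0 : 0 < cS := lt_min (by linarith) (by linarith)
  have l1 : cS ≤ (P.θ * P.gc m - 2 * clx P d i) / 2 := min_le_left _ _
  have l2 : cS ≤ P.θ * (P.Cc m - P.gc m - 4 * P.g i) / 2 := min_le_right _ _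
  obtain ⟨CS, hCS, hst⟩ := StO2x255.statO_DF0 h hmi.ne' hi3 hm3 (a1 := 2) (b := 1)
    (cl := clx P d i) (cS := cS) (by norm_num) zero_le_one hcS0 hC (by linarith)
    (by
      have e1 : P.θ * (P.Cc m - P.gc m - 4 * P.g i) =
        1 * (P.θ * (P.Cc m - P.gc m)) - 2 * (2 * (P.θ * P.g i)) := by ring
      linarith)
  refine ⟨cS, CS, 1, hcS0, one_pos, fun e he he1 => ⟨1, one_pos, fun k hk _ => ?_⟩⟩
  obtain ⟨t0, K, g1, g2, g3, g4⟩ := hst k hk
  exact ⟨t0, K, g1, g3, g4 q3 (1 + e) (by linarith) (by linarith)⟩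

end Crest.Agent.R079.StO3x255
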