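import Crest.Agent.R079.AsmP_734
import Crest.Agent.R079.TNDef_533
import Crest.Agent.R079.LasN_525

/-! R079, T6 (helper252): ONE STOPPING TIME for a super-averaging cost.

`stop_sum`, `stop_len`: for a full region `R` with top `J` and a nonnegative super-averaging function `G`
(average of the children `≤` value at the parent) the region splits into the window of `J` (`G ≤ θ` at all
its nodes, if `G J ≤ θ`) and the subregions below the next tops, of total length `≤ 2 G(J) len J / θ`. -/

set_option autoImplicit false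

namespace Crest.Agent.R079.T6ax252

open Finset Crest.Agent.R079.Grid Crest.Agent.R079.Growth Crest.Agent.R079.QRed
open Crest.Agent.R079.Qe292 Crest.Agent.R079.TWin649

open Classical in
/-- the part of a region below a node -/
noncomputable def blw (R : Finset Nd) (c : Nd) : Finset Nd := R.filter (fun p => iv p ⊆ iv c)

variable {R : Finset Nd} {J : Nd}

theorem mem_blw {c p : Nd} : p ∈ blw R c ↔ p ∈ R ∧ iv p ⊆ iv c := by
  classical
  unfold blw
  rw [Finset.mem_filter]

theorem blw_sub {c : Nd} : blw R c ⊆ R := fun _ h => (mem_blw.1 h).1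

theorem blw_full (hR : Full R J) {c : Nd} (hc : c ∈ R) : Full (blw R c) c := by
  refine ⟨⟨fun p hp => (mem_blw.1 hp).2, fun p hp q h1 h2 => ?_⟩, mem_blw.2 ⟨hc, subset_rfl⟩,
    bin_of fun a ha hpa => ?_⟩
  · exact mem_blw.2 ⟨hR.reg.2 p (mem_blw.1 hp).1 q h1 (h2.trans (hR.reg.1 c hc)), h2⟩
  · have ha' := mem_blw.1 ha
    have hp' := mem_blw.1 hpa
    refine mem_blw.2 ⟨sib_mem hR ha'.1 hp'.1, ?_⟩
    have := iv_par (sib a)
    rw [par_sib] at this
    exact this.trans hp'.2

/-- super-averaging function -/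
def Sav (G : Nd → ℝ) : Prop := ∀ (m : ℕ) (l : ℤ), G (m, 2 * l) + G (m, 2 * l + 1) ≤ 2 * G (m + 1, l)

theorem sav_lb {G : Nd → ℝ} (hG : Sav G) {W : Finset Nd} {I : Nd} (hW : Full W I) :
    ∀ p ∈ W, ∑ L ∈ lb W p, len L * G L ≤ len p * G p := by
  have e : ∀ p, ∑ L ∈ lb W p, len L * G L = TWin.SL W p (fun L => G L) := by
    intro p
    unfold TWin.SL lb
    congr
  have key : ∀ p ∈ W, TWin.SL W p (fun L => G L) ≤ len p * G p := by
    refine TWin.full_ind hW (fun p hp => ?_) fun m l hp hnl h0 h1 e0 e1 => ?_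
    · rw [TWin.SL_leaf hp]
    · rw [TWin.SL_node hW hnl h0 h1]
      have hg := hG m l
      have hl0 : len (m + 1, l) = 2 * len (m, 2 * l) := TWin.len_ch m l _
      have hl1 : len (m, 2 * l + 1) = len (m, 2 * l) := rfl
      rw [hl1] at e1
      rw [hl0]
      have hpos := Growth.len_pos (m, 2 * l)
      have h2 := mul_le_mul_of_nonneg_left hg hpos.le
      linarith
  intro p hp
  rw [e p]
  exact key p hp

theorem sav_lf {G : Nd → ℝ} (hG : Sav G) {W : Finset Nd} {I : Nd} (hW : Full W I) :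
    ∑ L ∈ lf W, len L * G L ≤ len I * G I := by
  have h := sav_lb hG hW I hW.top
  rwa [lb_top hW] at h

/-- total length of the stopped nodes -/
theorem stop_len {G : Nd → ℝ} (hG : Sav G) (hG0 : ∀ p, 0 ≤ G p) (hR : Full R J) {θ : ℝ}
    (hθ : 0 < θ) : θ * ∑ c ∈ Tp R (fun _ p => G p) θ J, len c ≤ 2 * (len J * G J) := by
  classical
  have h1 := sav_lf hG (W'_full (g := fun _ p => G p) (δ := θ) hR hR.top)
  have h2 : ∑ c ∈ Tp R (fun _ p => G p) θ J, len c * G c ≤ len J * G J := by
    refine le_trans (Finset.sum_le_sum_of_subset_of_nonneg (Tp_sub_lf hR hR.top) ?_) h1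
    intro p _ _
    exact mul_nonneg (Growth.len_pos p).le (hG0 p)
  have e : ∑ c ∈ Tp R (fun _ p => G p) θ J, len c * G c
      = 1 / 2 * ∑ c ∈ Tp R (fun _ p => G p) θ J, len c * (G c + G (sib c)) := by
    have e1 := sum_Tp_sib (g := fun _ p => G p) (δ := θ) (I := J) hR (fun c => len c * G c)
    simp only [len_sib] at e1
    simp only [mul_add, Finset.sum_add_distrib]
    rw [e1]
    ring
  have h3 : θ * ∑ c ∈ Tp R (fun _ p => G p) θ J, len c ≤
      ∑ c ∈ Tp R (fun _ p => G p) θ J, len c * (G c + G (sib c)) := by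
    rw [Finset.mul_sum]
    refine Finset.sum_le_sum fun c hc => ?_
    have hb := Tp_bad hc
    have hsum : θ ≤ G c + G (sib c) := by
      rcases hb with hb | hb
      · linarith [hG0 (sib c)]
      · linarith [hG0 c]
    have := mul_le_mul_of_nonneg_left hsum (Growth.len_pos c).le
    linarith
  linarith

/-- the sum over the region = window of the top + subregions below the next tops -/
theorem stop_sum {M : Type*} [AddCommMonoid M] {g : Nd → Nd → ℝ} {θ : ℝ} (hR : Full R J)
    (f : Nd → M) : ∑ p ∈ R, f p = ∑ p ∈ Wd R g θ J, f p +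
      ∑ c ∈ Tp R g θ J, ∑ p ∈ blw R c, f p := by
  classical
  have hd : ∀ c ∈ Tp R g θ J, ∀ c' ∈ Tp R g θ J, c ≠ c' → Disjoint (blw R c) (blw R c') := by
    intro c hc c' hc' hne
    rw [Finset.disjoint_left]
    intro p hp hp'
    exact hne (Tp_disj hR hR.top hc hc' (mem_blw.1 hp).2 (mem_blw.1 hp').2)
  have e : R = Wd R g θ J ∪ (Tp R g θ J).biUnion (fun c => blw R c) := by
    ext p
    rw [Finset.mem_union, Finset.mem_biUnion]
    constructor
    · intro hp
      by_cases hw : p ∈ Wd R g θ J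
      · exact Or.inl hw
      · have hpJ := hR.reg.1 p hp
        obtain ⟨j, hj⟩ := iv_sub_iff.1 hpJ
        obtain ⟨c, hc, hpc⟩ := below_top (g := g) (δ := θ) hR hR.top j p
          (by have := congrArg Prod.fst hj; simpa using this) hp hpJ hw
        exact Or.inr ⟨c, hc, mem_blw.2 ⟨hp, hpc⟩⟩
    · rintro (h | ⟨c, _, hp⟩)
      · exact Wd_sub h
      · exact blw_sub hp
  have hdis : Disjoint (Wd R g θ J) ((Tp R g θ J).biUnion (fun c => blw R c)) := by
    rw [Finset.disjoint_left]
    intro p hp hp'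
    obtain ⟨c, hc, hpc⟩ := Finset.mem_biUnion.1 hp'
    have hc' := mem_Tp.1 hc
    exact hc'.2.2.1 (Wd_up hR hR.top hp (mem_blw.1 hpc).2 hc'.2.1)
  conv_lhs => rw [e]
  rw [Finset.sum_union hdis, Finset.sum_biUnion hd]

end Crest.Agent.R079.T6ax252
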