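import Crest.Agent.R079.T6c_252

/-! R079, T6 (helper252): **THE ITERATION WITH ENERGIES**.

One generation `GenM` of rule (A) in the form of the windows of 55 (note 1119) / 323 (note 1128): the
letters are small (`r s`) at ALL nodes of the new windows, but the number of windows is only controlled
through the energies.  `Ms δ s J X Y = δ s² + |X|²_J + |Y|²_J`:

* (size) `Sm (r s)` on every new window;
* (energy) `∑ len w * Ms δ (r s) w (X' w) (Y' w) ≤ Λ * Ms δ s J X Y * len J`;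
* (error) `≤ κ * Ms δ s J X Y * len J`.

`itM`: static pieces + `n` graded generations + number of static tops => bound on the big region
`(∏ Λ * (P / δ) + ∑_j ∏_{i<j} Λ_i κ_j) * Ms + ∏ r² * P * AB`: ONE loss `1/δ` against the static gain. -/

set_option autoImplicit false

namespace Crest.Agent.R079.T6bx252

open Finset Crest.Agent.R079.Grid Crest.Agent.R079.Growth Crest.Agent.R079.QRed
open Crest.Agent.R079.TRec Crest.Agent.R079.AsmA844 Crest.Agent.R079.AsmG734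

/-- size and energy of a pair of letters on a window with top `J` -/
noncomputable def Ms (δ s : ℝ) (J : Nd) (X Y : Fn) : ℝ := δ * s ^ 2 + av J X ^ 2 + av J Y ^ 2

/-- **ONE GENERATION, energy form** -/
def GenM (v : Fn → Fn → Nd → ℂ) (k : ℝ) (R0 : Finset Nd) (δ κ Λ r : ℝ) : Prop :=
  ∀ s, 0 < s → ∀ R J, Full R J → R ⊆ R0 → ∀ X Y, Sm k s R X Y →
    ∃ (T : Finset Nd) (X' Y' : Nd → Fn), Tops R J T ∧
      (∀ w ∈ T, Sm k (r * s) (win R T w) (X' w) (Y' w)) ∧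
      ∑ w ∈ T, len w * Ms δ (r * s) w (X' w) (Y' w) ≤ Λ * Ms δ s J X Y * len J ∧
      ‖∑ p ∈ R, v X Y p‖ ≤ κ * Ms δ s J X Y * len J +
        ∑ w ∈ T, ‖∑ p ∈ win R T w, v (X' w) (Y' w) p‖

/-- claim of size `s` with coefficients `α`, `β` -/
def ClM (v : Fn → Fn → Nd → ℂ) (k : ℝ) (R0 TB : Finset Nd) (δ s α β : ℝ) : Prop :=
  ∀ R I, Full R I → R ⊆ R0 → ∀ X Y, Sm k s R X Y →
    ‖∑ p ∈ R, v X Y p‖ ≤ α * Ms δ s I X Y * len I + β * s ^ 2 * It260.bT TB R I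

section

variable {v : Fn → Fn → Nd → ℂ} {k : ℝ} {R0 TB : Finset Nd} {δ : ℝ}

theorem Ms_nonneg (hδ : 0 ≤ δ) (s : ℝ) (J : Nd) (X Y : Fn) : 0 ≤ Ms δ s J X Y := by
  unfold Ms
  positivity

theorem clM_mono (hδ : 0 ≤ δ) {s α β α' β' : ℝ} (h : ClM v k R0 TB δ s α β) (hα : α ≤ α')
    (hβ : β ≤ β') : ClM v k R0 TB δ s α' β' := by
  intro R I hR hRR X Y hXY
  refine (h R I hR hRR X Y hXY).trans (add_le_add ?_ ?_)
  · exact mul_le_mul_of_nonneg_right (mul_le_mul_of_nonneg_right hα (Ms_nonneg hδ _ _ _ _))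
      (Growth.len_pos I).le
  · exact mul_le_mul_of_nonneg_right (mul_le_mul_of_nonneg_right hβ (sq_nonneg _))
      (It260.bT_nonneg _ _ _)

/-- **BASE** -/
theorem baseM (hδ : 0 < δ) {P : ℝ} (hP0 : 0 ≤ P)
    (hP : ∀ s, 0 < s → It260.Cl v (Sm k) R0 TB s P P) :
    ∀ s, 0 < s → ClM v k R0 TB δ s (P / δ) P := by
  intro s hs R I hR hRR X Y hXY
  have h := hP s hs R I hR hRR X Y hXY
  have hl := (Growth.len_pos I).le
  have e : P * s ^ 2 ≤ P / δ * Ms δ s I X Y := by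
    have h1 : P / δ * (δ * s ^ 2) = P * s ^ 2 := by field_simp
    have h2 : δ * s ^ 2 ≤ Ms δ s I X Y := by
      unfold Ms
      nlinarith [sq_nonneg (av I X), sq_nonneg (av I Y)]
    rw [← h1]
    exact mul_le_mul_of_nonneg_left h2 (div_nonneg hP0 hδ.le)
  have h3 := mul_le_mul_of_nonneg_right e hl
  calc ‖∑ p ∈ R, v X Y p‖ ≤ s ^ 2 * (P * len I + P * It260.bT TB R I) := h
    _ = P * s ^ 2 * len I + P * s ^ 2 * It260.bT TB R I := by ring
    _ ≤ _ := add_le_add h3 le_rfl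

/-- **STEP** -/
theorem stepM {κ Λ r : ℝ} (hG : GenM v k R0 δ κ Λ r) {s α β : ℝ} (hs : 0 < s) (hα : 0 ≤ α)
    (hβ : 0 ≤ β) (h : ClM v k R0 TB δ (r * s) α β) :
    ClM v k R0 TB δ s (κ + Λ * α) (r ^ 2 * β) := by
  intro R I hR hRR X Y hXY
  obtain ⟨T, X', Y', hT, hS, hE, hV⟩ := hG s hs R I hR hRR X Y hXY
  refine hV.trans ?_
  have h1 : ∑ w ∈ T, ‖∑ p ∈ win R T w, v (X' w) (Y' w) p‖ ≤
      ∑ w ∈ T, (α * Ms δ (r * s) w (X' w) (Y' w) * len w +
        β * (r * s) ^ 2 * It260.bT TB (win R T w) w) :=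
    Finset.sum_le_sum fun w hw =>
      h _ w (win_full hR hT hw) (win_sub.trans hRR) _ _ (hS w hw)
  have h2 : ∑ w ∈ T, (α * Ms δ (r * s) w (X' w) (Y' w) * len w +
        β * (r * s) ^ 2 * It260.bT TB (win R T w) w) =
      α * ∑ w ∈ T, len w * Ms δ (r * s) w (X' w) (Y' w) +
        β * (r * s) ^ 2 * ∑ w ∈ T, It260.bT TB (win R T w) w := by
    rw [Finset.sum_add_distrib, Finset.mul_sum, Finset.mul_sum]
    congr 1
    exact Finset.sum_congr rfl fun w _ => by ring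
  have h3 : α * ∑ w ∈ T, len w * Ms δ (r * s) w (X' w) (Y' w) ≤
      α * (Λ * Ms δ s I X Y * len I) := mul_le_mul_of_nonneg_left hE hα
  have h4 : β * (r * s) ^ 2 * ∑ w ∈ T, It260.bT TB (win R T w) w ≤
      β * (r * s) ^ 2 * It260.bT TB R I :=
    mul_le_mul_of_nonneg_left (It260.sum_bT hR hT TB) (mul_nonneg hβ (sq_nonneg _))
  calc κ * Ms δ s I X Y * len I + ∑ w ∈ T, ‖∑ p ∈ win R T w, v (X' w) (Y' w) p‖
      ≤ κ * Ms δ s I X Y * len I + (α * (Λ * Ms δ s I X Y * len I) +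
          β * (r * s) ^ 2 * It260.bT TB R I) :=
        add_le_add le_rfl (h1.trans (h2.le.trans (add_le_add h3 h4)))
    _ = _ := by ring

/-- **`n` GENERATIONS**, parameters depending on the generation -/
theorem iterM (hδ : 0 ≤ δ) {P P' : ℝ} (hP : ∀ s, 0 < s → ClM v k R0 TB δ s P P') (hP0 : 0 ≤ P)
    (hP1 : 0 ≤ P') (n : ℕ) : ∀ (κ Λ r : ℕ → ℝ), (∀ j, 0 ≤ κ j) → (∀ j, 0 < r j) →
    (∀ j, 1 ≤ Λ j) → (∀ j, j < n → GenM v k R0 δ (κ j) (Λ j) (r j)) →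
    ∀ s, 0 < s → ClM v k R0 TB δ s
      ((∏ i ∈ range n, Λ i) * P + ∑ j ∈ range n, (∏ i ∈ range j, Λ i) * κ j)
      ((∏ i ∈ range n, r i ^ 2) * P') := by
  induction n with
  | zero =>
    intro κ Λ r _ _ _ _ s hs
    simpa using hP s hs
  | succ n ih =>
    intro κ Λ r hκ hr hΛ hG s hs
    have hΛ0 : ∀ j, 0 ≤ Λ j := fun j => zero_le_one.trans (hΛ j)
    have h0 := ih (fun j => κ (j + 1)) (fun j => Λ (j + 1)) (fun j => r (j + 1))
      (fun j => hκ _) (fun j => hr _) (fun j => hΛ _)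
      (fun j hj => hG (j + 1) (by omega)) (r 0 * s) (mul_pos (hr 0) hs)
    have hα : 0 ≤ (∏ i ∈ range n, Λ (i + 1)) * P +
        ∑ j ∈ range n, (∏ i ∈ range j, Λ (i + 1)) * κ (j + 1) :=
      add_nonneg (mul_nonneg (Finset.prod_nonneg fun i _ => hΛ0 _) hP0)
        (Finset.sum_nonneg fun j _ => mul_nonneg (Finset.prod_nonneg fun i _ => hΛ0 _) (hκ _))
    have hβ : 0 ≤ (∏ i ∈ range n, r (i + 1) ^ 2) * P' :=
      mul_nonneg (Finset.prod_nonneg fun i _ => sq_nonneg _) hP1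
    have h1 := stepM (hG 0 (by omega)) hs hα hβ h0
    refine clM_mono hδ h1 (le_of_eq ?_) (le_of_eq ?_)
    · rw [Finset.prod_range_succ', Finset.sum_range_succ']
      have e2 : ∑ j ∈ range n, (∏ i ∈ range (j + 1), Λ i) * κ (j + 1) =
          Λ 0 * ∑ j ∈ range n, (∏ i ∈ range j, Λ (i + 1)) * κ (j + 1) := by
        rw [Finset.mul_sum]
        refine Finset.sum_congr rfl fun j _ => ?_
        rw [Finset.prod_range_succ']
        ring
      rw [e2]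
      simp only [Finset.range_zero, Finset.prod_empty, one_mul]
      ring
    · rw [Finset.prod_range_succ']
      ring

/-- **[IT] with energies** -/
theorem itM (hδ : 0 < δ) {I0 : Nd} (hR0 : Full R0 I0) (hTB : Tops R0 I0 TB) {AB : ℝ}
    (hc : Cnt R0 TB AB) {P : ℝ} (hP0 : 0 ≤ P) (hP : It260.Piece v (Sm k) R0 TB P) (n : ℕ)
    {κ Λ r : ℕ → ℝ} (hκ : ∀ j, 0 ≤ κ j) (hr : ∀ j, 0 < r j) (hΛ : ∀ j, 1 ≤ Λ j)
    (hG : ∀ j, j < n → GenM v k R0 δ (κ j) (Λ j) (r j)) {X Y : Fn} (hXY : Sm k 1 R0 X Y) :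
    ‖∑ p ∈ R0, v X Y p‖ ≤ (((∏ i ∈ range n, Λ i) * (P / δ) +
      ∑ j ∈ range n, (∏ i ∈ range j, Λ i) * κ j) * Ms δ 1 I0 X Y +
        (∏ i ∈ range n, r i ^ 2) * P * AB) * len I0 := by
  have hmono : ∀ s R R' X Y, Sm k s R X Y → R' ⊆ R → Sm k s R' X Y :=
    fun s R R' X Y h hs p hp => h p (hs hp)
  have hb := baseM (v := v) (k := k) (R0 := R0) (TB := TB) hδ hP0
    (It260.base hmono hR0 hTB hP0 hP)
  have h1 := iterM hδ.le hb (div_nonneg hP0 hδ.le) hP0 n κ Λ r hκ hr hΛ hG 1 one_pos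
    R0 I0 hR0 subset_rfl X Y hXY
  refine h1.trans ?_
  have h0 : 0 ≤ (∏ i ∈ range n, r i ^ 2) * P :=
    mul_nonneg (Finset.prod_nonneg fun i _ => sq_nonneg _) hP0
  have h2 := mul_le_mul_of_nonneg_left (It260.bT_le hR0 hc) h0
  rw [one_pow, mul_one, add_mul _ ((∏ i ∈ range n, r i ^ 2) * P * AB)]
  exact add_le_add le_rfl (h2.trans (le_of_eq (by ring)))

end

end Crest.Agent.R079.T6bx252
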