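import Crest.Agent.R079.T6d_252

/-! R079, T6 (helper252): GRADED ASSEMBLY of rule (A) for a mixture of operator atoms, ENERGY form.

`GenOM` = Step I (`GenM` of `T6d`) for the data `PRo`, `StatO` = Step II (`T6c`).
* `pairO_gradedM` : `GenOM` (`n` generations, losses `dl j`, gains `cG j`, window exponent `c1`) + `StatO`
  => `PairO`; conditions `c0 + 2 ∑ dl ≤ cS - c1`, `c0 + 2 ∑_{i<j} dl i ≤ cG j`,
  `c0 + CS ≤ n c1 - 2 ∑ dl + cS`;
* `pairO_existsM` : the parameters chosen.  Order: Step II (`cS`, `CS`), then `c1 ≤ cS / 2`, then the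
  weights `y_j` (gain `g y`, loss `C y`), then `e`, `k`, `t0`. -/

set_option autoImplicit false

namespace Crest.Agent.R079.T6bx252

open Finset Crest.Agent.R079.Grid Crest.Agent.R079.Growth Crest.Agent.R079.QRed
open Crest.Agent.R079.TRec Crest.Agent.R079.AsmA844 Crest.Agent.R079.AsmG734

/-- **STEP I, energy form**, for a mixture of operator atoms, pair `(i, m)` -/
def GenOM (D : TRecN.Dict) (OA : TRec.Dict) (k q3 a b cl c1 dl cG t0 K : ℝ) (i m : Fin 4) : Prop :=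
  ∀ (N : ℕ) (B : ℝ), 0 ≤ B → BN k q3 N B → ∀ t, 0 < t → t ≤ t0 → ∀ W I F,
    PRo D OA k a b cl t W I i m F → I.1 ≤ N → ∀ x y : Fin 4, Oth i m x y → ∀ bb ε, Adm bb ε →
      ∃ r, 0 < r ∧ r ≤ K * t ^ (c1 / 2 - dl) ∧
        GenM (v4 bb ε F x y) k W (t ^ c1) (K * (1 + B) * t ^ cG) (K * t ^ (-dl)) r

theorem genM_mono {v : Fn → Fn → Nd → ℂ} {k : ℝ} {R0 : Finset Nd} {δ κ Λ r κ' Λ' : ℝ}
    (hδ : 0 ≤ δ) (h : GenM v k R0 δ κ Λ r) (hκ : κ ≤ κ') (hΛ : Λ ≤ Λ') :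
    GenM v k R0 δ κ' Λ' r := by
  intro s hs R J hR hRR X Y hXY
  obtain ⟨T, X', Y', hT, hS, hE, hV⟩ := h s hs R J hR hRR X Y hXY
  have hM := mul_nonneg (Ms_nonneg hδ s J X Y) (Growth.len_pos J).le
  refine ⟨T, X', Y', hT, hS, hE.trans ?_, hV.trans (add_le_add ?_ le_rfl)⟩
  · have := mul_le_mul_of_nonneg_right hΛ hM
    linarith
  · have := mul_le_mul_of_nonneg_right hκ hM
    linarith

/-- the numerology -/
theorem numM {c0 c1 cS CS t K B M : ℝ} {dl cG : ℕ → ℝ} (ht : 0 < t) (ht1 : t ≤ 1) (hK : 1 ≤ K)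
    (hB : 0 ≤ B) (hM : 0 ≤ M) (hM3 : M ≤ 3) (hdl : ∀ j, 0 ≤ dl j) (n : ℕ)
    (h1 : c0 + 2 * ∑ i ∈ range n, dl i ≤ cS - c1)
    (h2 : ∀ j, j < n → c0 + 2 * ∑ i ∈ range j, dl i ≤ cG j)
    (h3 : c0 + CS ≤ n * c1 - 2 * ∑ i ∈ range n, dl i + cS) :
    ((∏ i ∈ range n, (K * t ^ (-(dl i)))) * (K * (1 + B) * t ^ cS / t ^ c1) +
      ∑ j ∈ range n, (∏ i ∈ range j, (K * t ^ (-(dl i)))) * (K * (1 + B) * t ^ (cG j))) * M +
      (∏ i ∈ range n, (K * t ^ (c1 / 2 - dl i)) ^ 2) * (K * (1 + B) * t ^ cS) *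
        (K * t ^ (-CS)) ≤
      (3 * (K ^ n * (K + n * K)) + K ^ (2 * n + 2)) * (1 + B) * t ^ c0 := by
  have hK0 : 0 < K := by linarith
  have hB1 : 0 ≤ 1 + B := by linarith
  have prodL : ∀ j : ℕ, ∏ i ∈ range j, (K * t ^ (-(dl i))) =
      K ^ j * t ^ (-(∑ i ∈ range j, dl i)) := by
    intro j
    induction j with
    | zero => simp
    | succ j ih =>
      rw [Finset.prod_range_succ, ih, Finset.sum_range_succ]
      have e : t ^ (-(∑ i ∈ range j, dl i + dl j)) =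
          t ^ (-(∑ i ∈ range j, dl i)) * t ^ (-(dl j)) := by
        rw [← Real.rpow_add ht]
        congr 1
        ring
      rw [e]
      ring
  have hs0 : ∀ j : ℕ, 0 ≤ ∑ i ∈ range j, dl i := fun j => Finset.sum_nonneg fun i _ => hdl i
  rw [prodr ht, prodL n]
  have a1 : K ^ n * t ^ (-(∑ i ∈ range n, dl i)) * (K * (1 + B) * t ^ cS / t ^ c1) ≤
      K ^ n * K * (1 + B) * t ^ c0 := by
    have e : t ^ cS / t ^ c1 = t ^ (cS - c1) := (Real.rpow_sub ht _ _).symm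
    have g1 : t ^ (-(∑ i ∈ range n, dl i)) * t ^ (cS - c1) ≤ t ^ c0 := by
      rw [← Real.rpow_add ht]
      refine Real.rpow_le_rpow_of_exponent_ge ht ht1 ?_
      linarith [hs0 n]
    have p1 : 0 ≤ K ^ n * K * (1 + B) := by positivity
    calc K ^ n * t ^ (-(∑ i ∈ range n, dl i)) * (K * (1 + B) * t ^ cS / t ^ c1)
        = K ^ n * K * (1 + B) * (t ^ (-(∑ i ∈ range n, dl i)) * (t ^ cS / t ^ c1)) := by ring
      _ = K ^ n * K * (1 + B) * (t ^ (-(∑ i ∈ range n, dl i)) * t ^ (cS - c1)) := by rw [e]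
      _ ≤ _ := mul_le_mul_of_nonneg_left g1 p1
  have a2 : ∑ j ∈ range n, (∏ i ∈ range j, (K * t ^ (-(dl i)))) *
      (K * (1 + B) * t ^ (cG j)) ≤ n * (K ^ n * K * (1 + B) * t ^ c0) := by
    have h4 : ∀ j ∈ range n, (∏ i ∈ range j, (K * t ^ (-(dl i)))) *
        (K * (1 + B) * t ^ (cG j)) ≤ K ^ n * K * (1 + B) * t ^ c0 := by
      intro j hj
      have hjn : j < n := Finset.mem_range.1 hj
      rw [prodL j]
      have g1 : t ^ (-(∑ i ∈ range j, dl i)) * t ^ (cG j) ≤ t ^ c0 := by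
        rw [← Real.rpow_add ht]
        refine Real.rpow_le_rpow_of_exponent_ge ht ht1 ?_
        linarith [h2 j hjn, hs0 j]
      have g2 : K ^ j ≤ K ^ n := pow_le_pow_right₀ hK hjn.le
      have g3 : 0 ≤ t ^ c0 := Real.rpow_nonneg ht.le _
      calc K ^ j * t ^ (-(∑ i ∈ range j, dl i)) * (K * (1 + B) * t ^ (cG j))
          = K ^ j * (K * (1 + B)) * (t ^ (-(∑ i ∈ range j, dl i)) * t ^ (cG j)) := by ring
        _ ≤ K ^ j * (K * (1 + B)) * t ^ c0 :=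
            mul_le_mul_of_nonneg_left g1 (by positivity)
        _ ≤ K ^ n * (K * (1 + B)) * t ^ c0 :=
            mul_le_mul_of_nonneg_right (mul_le_mul_of_nonneg_right g2 (by positivity)) g3
        _ = _ := by ring
    refine (Finset.sum_le_sum h4).trans (le_of_eq ?_)
    rw [Finset.sum_const, Finset.card_range, nsmul_eq_mul]
  have a3 : K ^ (2 * n) * t ^ (n * c1 - 2 * ∑ i ∈ range n, dl i) * (K * (1 + B) * t ^ cS) *
      (K * t ^ (-CS)) ≤ K ^ (2 * n + 2) * (1 + B) * t ^ c0 := by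
    have g1 : t ^ (n * c1 - 2 * ∑ i ∈ range n, dl i) * t ^ cS * t ^ (-CS) ≤ t ^ c0 := by
      rw [← Real.rpow_add ht, ← Real.rpow_add ht]
      exact Real.rpow_le_rpow_of_exponent_ge ht ht1 (by linarith)
    have p1 : 0 ≤ K ^ (2 * n + 2) * (1 + B) := by positivity
    calc K ^ (2 * n) * t ^ (n * c1 - 2 * ∑ i ∈ range n, dl i) * (K * (1 + B) * t ^ cS) *
          (K * t ^ (-CS))
        = K ^ (2 * n + 2) * (1 + B) *
          (t ^ (n * c1 - 2 * ∑ i ∈ range n, dl i) * t ^ cS * t ^ (-CS)) := by ring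
      _ ≤ _ := mul_le_mul_of_nonneg_left g1 p1
  have hsum : 0 ≤ K ^ n * K * (1 + B) * t ^ c0 + n * (K ^ n * K * (1 + B) * t ^ c0) := by
    have g3 : 0 ≤ t ^ c0 := Real.rpow_nonneg ht.le _
    positivity
  calc _ ≤ (K ^ n * K * (1 + B) * t ^ c0 + n * (K ^ n * K * (1 + B) * t ^ c0)) * M +
        K ^ (2 * n + 2) * (1 + B) * t ^ c0 :=
        add_le_add (mul_le_mul_of_nonneg_right (add_le_add a1 a2) hM) a3
    _ ≤ (K ^ n * K * (1 + B) * t ^ c0 + n * (K ^ n * K * (1 + B) * t ^ c0)) * 3 +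
        K ^ (2 * n + 2) * (1 + B) * t ^ c0 :=
        add_le_add (mul_le_mul_of_nonneg_left hM3 hsum) le_rfl
    _ = _ := by ring

/-- **rule (A) for mixtures of operator atoms from GRADED Step I (energy form) + Step II** -/
theorem pairO_gradedM {D : TRecN.Dict} {OA : TRec.Dict} {k q3 a b cl c1 cS CS t0 K c0 : ℝ}
    {dl cG : ℕ → ℝ} {i m : Fin 4} (him : i ≠ m) (hk : 0 < k)
    (hkq : 2 + k ≤ q3) (ht0 : t0 ≤ 1) (hK : 1 ≤ K) (hc1 : 0 ≤ c1) (hdl : ∀ j, 0 ≤ dl j) (n : ℕ)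
    (h1 : c0 + 2 * ∑ i ∈ range n, dl i ≤ cS - c1)
    (h2 : ∀ j, j < n → c0 + 2 * ∑ i ∈ range j, dl i ≤ cG j)
    (h3 : c0 + CS ≤ n * c1 - 2 * ∑ i ∈ range n, dl i + cS)
    (hG : ∀ j, j < n → GenOM D OA k q3 a b cl c1 (dl j) (cG j) t0 K i m)
    (hS : StatO D OA k q3 a b cl cS CS t0 K i m) :
    PairO D OA k q3 c0 a b cl t0 (3 * (K ^ n * (K + n * K)) + K ^ (2 * n + 2)) i m := by
  intro N B hB hBN t ht htt bb ε hA W I F hPR hI hF
  have ht1 : t ≤ 1 := htt.trans ht0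
  have hK0 : 0 < K := by linarith
  obtain ⟨x, y, hxi, hxm, hyi, hym, hxy⟩ := exists_oth i m him
  have hO : Oth i m x y := ⟨hxi, hxm, hyi, hym, hxy⟩
  have hall : ∀ j, j ≠ i → ∀ p ∈ W, aq (2 + k) p (F j) ≤ 1 := fun j hj p hp =>
    (AsmA844.aq_le_aq (by linarith) (by unfold qx; split_ifs <;> linarith) p (F j)).trans
      (hF j hj p hp)
  obtain ⟨TB, hTB, hc, hP⟩ := hS N B hB hBN t ht htt bb W I F hPR hI x y hO
  have hGen : ∀ j, ∃ r, 0 < r ∧ (j < n → r ≤ K * t ^ (c1 / 2 - dl j) ∧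
      GenM (v4 bb ε F x y) k W (t ^ c1) (K * (1 + B) * t ^ (cG j)) (K * t ^ (-(dl j))) r) := by
    intro j
    by_cases hj : j < n
    · obtain ⟨r, h1, h2, h3⟩ := hG j hj N B hB hBN t ht htt W I F hPR hI x y hO bb ε hA
      exact ⟨r, h1, fun _ => ⟨h2, h3⟩⟩
    · exact ⟨1, one_pos, fun h => absurd h hj⟩
  choose r hr0 hr using hGen
  have hδ : 0 < t ^ c1 := Real.rpow_pos_of_pos ht _
  have hδ1 : t ^ c1 ≤ 1 := Real.rpow_le_one ht.le ht1 hc1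
  have hΛ : ∀ j, (1 : ℝ) ≤ K * t ^ (-(dl j)) := by
    intro j
    have g2 : (1 : ℝ) ≤ t ^ (-(dl j)) := Real.one_le_rpow_of_pos_of_le_one_of_nonpos ht ht1
      (by linarith [hdl j])
    nlinarith
  have hit := itM (v := v4 bb ε F x y) (k := k) hδ hPR.full hTB hc
    (P := K * (1 + B) * t ^ cS) (by positivity) (hP ε hA) n
    (κ := fun j => K * (1 + B) * t ^ (cG j)) (Λ := fun j => K * t ^ (-(dl j)))
    (r := r) (fun j => by positivity) hr0 hΛ (fun j hj => (hr j hj).2)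
    (X := F x) (Y := F y) (fun p hp => ⟨hall x hxi p hp, hall y hyi p hp⟩)
  have e0 : TR bb ε W F = ∑ p ∈ W, v4 bb ε F x y (F x) (F y) p := by
    unfold TR v4
    rw [Function.update_eq_self, Function.update_eq_self]
  have hM3 : Ms (t ^ c1) 1 I (F x) (F y) ≤ 3 := by
    have hx : av I (F x) ≤ 1 :=
      (TAsm398.av_le_aq (by linarith) I (F x)).trans (hall x hxi I hPR.full.top)
    have hy : av I (F y) ≤ 1 :=
      (TAsm398.av_le_aq (by linarith) I (F y)).trans (hall y hyi I hPR.full.top)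
    have hx0 := Growth.av_nonneg I (F x)
    have hy0 := Growth.av_nonneg I (F y)
    unfold Ms
    nlinarith
  rw [e0]
  refine hit.trans (mul_le_mul_of_nonneg_right ?_ (Growth.len_pos I).le)
  refine le_trans (add_le_add le_rfl ?_)
    (numM ht ht1 hK hB (Ms_nonneg hδ.le _ _ _ _) hM3 hdl n h1 h2 h3)
  have hprod : ∏ i ∈ range n, r i ^ 2 ≤ ∏ i ∈ range n, (K * t ^ (c1 / 2 - dl i)) ^ 2 :=
    Finset.prod_le_prod (fun i _ => sq_nonneg _) fun i hi =>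
      pow_le_pow_left₀ (hr0 i).le (hr i (Finset.mem_range.1 hi)).1 2
  refine mul_le_mul_of_nonneg_right (mul_le_mul_of_nonneg_right hprod ?_) ?_
  · positivity
  · positivity

theorem genOM_mono {D : TRecN.Dict} {OA : TRec.Dict} {k q3 a b cl c1 dl cG t0 K t0' K' : ℝ}
    {i m : Fin 4} (h : GenOM D OA k q3 a b cl c1 dl cG t0 K i m) (ht : t0' ≤ t0) (hK : K ≤ K') :
    GenOM D OA k q3 a b cl c1 dl cG t0' K' i m := by
  intro N B hB hBN t h0 h1 W I F hPR hI x y hO bb ε hA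
  obtain ⟨r, hr0, hr, hG⟩ := h N B hB hBN t h0 (h1.trans ht) W I F hPR hI x y hO bb ε hA
  refine ⟨r, hr0, hr.trans (mul_le_mul_of_nonneg_right hK (Real.rpow_nonneg h0.le _)),
    genM_mono (Real.rpow_nonneg h0.le _) hG ?_ ?_⟩
  · exact mul_le_mul_of_nonneg_right (mul_le_mul_of_nonneg_right hK (by linarith))
      (Real.rpow_nonneg h0.le _)
  · exact mul_le_mul_of_nonneg_right hK (Real.rpow_nonneg h0.le _)

/-- **rule (A) for mixtures of operator atoms, energy form, all parameters chosen**.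
Step II: `cS`, `CS`.  Step I: for every window exponent `c1 ≤ cm`, gain `g y`, loss `C y` at the weight
`y`.  Order `cS`, `CS`, `c1`, `y_j`, `e`, `k`, `t0`; frozen at `t ^ (1 + e)`, killer at `t`. -/
theorem pairO_existsM {q3 : ℝ} (hq3 : 2 < q3) (D : ℝ → ℝ → TRecN.Dict) (OA : ℝ → ℝ → TRec.Dict)
    {cl : ℝ} {i m : Fin 4} (him : i ≠ m)
    (hG : ∃ cm : ℝ, 0 < cm ∧ ∀ c1, 0 < c1 → c1 ≤ cm → ∃ C g ys : ℝ, 0 < C ∧ 0 < g ∧ 0 < ys ∧
      ∀ y, 0 < y → y ≤ ys → ∃ e1 : ℝ, 0 < e1 ∧ ∀ e, 0 < e → e ≤ e1 → ∃ k1 : ℝ, 0 < k1 ∧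
        ∀ k, 0 < k → k ≤ k1 → ∃ t0 K : ℝ, 0 < t0 ∧ 0 ≤ K ∧
          GenOM (D e k) (OA e k) k q3 (1 + e) 1 cl c1 (C * y) (g * y) t0 K i m)
    (hS : ∃ cS CS e2 : ℝ, 0 < cS ∧ 0 < e2 ∧ ∀ e, 0 < e → e ≤ e2 → ∃ k2 : ℝ, 0 < k2 ∧
      ∀ k, 0 < k → k ≤ k2 → ∃ t0 K : ℝ, 0 < t0 ∧ 0 ≤ K ∧
        StatO (D e k) (OA e k) k q3 (1 + e) 1 cl cS CS t0 K i m) :
    ∃ c0 e1 : ℝ, 0 < c0 ∧ 0 < e1 ∧ ∀ e, 0 < e → e ≤ e1 → ∃ k1 : ℝ, 0 < k1 ∧
      ∀ k, 0 < k → k ≤ k1 → ∃ t0 K : ℝ, 0 < t0 ∧ t0 ≤ 1 ∧ 0 ≤ K ∧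
        PairO (D e k) (OA e k) k q3 c0 (1 + e) 1 cl t0 K i m := by
  obtain ⟨cS, CS, e2, hcS, he2, hS⟩ := hS
  obtain ⟨cm, hcm, hG⟩ := hG
  have hc1 : 0 < min cm (cS / 2) := lt_min hcm (by linarith)
  obtain ⟨C, g, ys, hC, hg, hys, hG⟩ := hG (min cm (cS / 2)) hc1 (min_le_left _ _)
  set c1 := min cm (cS / 2) with hc1d
  have hc1S : c1 ≤ cS / 2 := min_le_right _ _
  obtain ⟨n, y, c0, hc0, hy, hyy, n1, n2, n3⟩ :=
    exists_weights (CS := CS) (cS := cS - c1) hc1 hC hg hys (by linarith)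
  obtain ⟨e1, he1, hG⟩ := unif_small (n := n) fun j hj => hG (y j) (hy j) (hyy j hj)
  refine ⟨c0, min e1 e2, hc0, lt_min he1 he2, fun e he hee => ?_⟩
  obtain ⟨k1, hk1, hG⟩ := unif_small (n := n) fun j hj => hG e he (hee.trans (min_le_left _ _)) j hj
  obtain ⟨k2, hk2, hS⟩ := hS e he (hee.trans (min_le_right _ _))
  refine ⟨min (min k1 k2) (q3 - 2), lt_min (lt_min hk1 hk2) (by linarith), fun k hk hkk => ?_⟩
  have hkq : 2 + k ≤ q3 := by
    have := hkk.trans (min_le_right _ _)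
    linarith
  obtain ⟨t1, K1, ht1, ht11, hK1, hG⟩ := unif_tK (n := n)
    (Q := fun j t K => GenOM (D e k) (OA e k) k q3 (1 + e) 1 cl c1 (C * y j) (g * y j) t K i m)
    (fun j t K t' K' h => genOM_mono h)
    (fun j hj => hG k hk (hkk.trans ((min_le_left _ _).trans (min_le_left _ _))) j hj)
  obtain ⟨t2, K2, ht2, hK2, hS⟩ := hS k hk (hkk.trans ((min_le_left _ _).trans (min_le_right _ _)))
  refine ⟨min t1 t2, _, lt_min ht1 ht2, (min_le_left _ _).trans ht11, ?_,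
    pairO_gradedM (K := max K1 K2) him hk hkq
    ((min_le_left _ _).trans ht11) (hK1.trans (le_max_left _ _)) hc1.le
    (fun j => (mul_pos hC (hy j)).le) n n1 n2 (by linarith)
    (fun j hj => genOM_mono (hG j hj) (min_le_left _ _) (le_max_left _ _))
    (statO_mono hS (min_le_right _ _) (le_max_right _ _))⟩
  have : (0 : ℝ) ≤ max K1 K2 := (zero_le_one.trans hK1).trans (le_max_left _ _)
  positivity

end Crest.Agent.R079.T6bx252
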