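import Crest.Agent.R079.T6q_252
import Crest.Agent.R079.TNPar_533

/-! R079, T6 (helper252): **`S0106` FROM THE LEAVES** (cost dictionary, all parameters chosen).

`target_of_leaves`: `Dic`, `PtE`, `FrzBd`, `RuleS`, `Spl` of the dictionary, and
* `CellKill` for all pairs (`(1 + e, 1)` for `m < i`; `(1, 1 + δ)` for `i < m`),
* `OpKill` for `i < m` at `(1, 1 + δ)`,
* `PairO` for `m < i` at `(1 + e, 1)`, local norms of the frozen mixture `≤ 3 t ^ (-cl i)`,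
  `cc i < cl i`,
give `L0.Target`.  `target_of_leaves'`: `PairO` replaced by `GenOM` + `StatO`. -/

set_option autoImplicit false

namespace Crest.Agent.R079.T6bx252

open Finset Crest.Agent.R079.Grid Crest.Agent.R079.Growth Crest.Agent.R079.QRed
open Crest.Agent.R079.TRec Crest.Agent.R079.AsmA844 Crest.Agent.R079.AsmG734

theorem ruleNT_of_pairs {D : TRecN.Dict} {k q3 c0 e t0 K : ℝ}
    (h : ∀ i m : Fin 4, m < i → i ≠ 3 → PairG D k q3 c0 (1 + e) 1 t0 K i m) :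
    TRecN.RuleNT D k q3 c0 e t0 K := by
  intro N B hB hBN t h0 h1 bb ε hA W I hW hI F hF i m him hi hfz hlv
  refine h i m him hi N B hB hBN t h0 h1 bb ε hA W I hW hI F hF hfz ?_
  rw [Real.rpow_one]
  exact hlv

theorem ruleTr_of_pairs {D : TRecN.Dict} {k q3 c0 δ t0 K : ℝ}
    (h : ∀ i m : Fin 4, i < m → m ≠ 3 → PairG D k q3 c0 1 (1 + δ) t0 K i m) :
    TRecN.RuleTr D k q3 c0 δ t0 K := by
  intro N B hB hBN t h0 h1 bb ε hA W I hW hI F hF i m him hm hfz hlv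
  refine h i m him hm N B hB hBN t h0 h1 bb ε hA W I hW hI F hF ?_ hlv
  rw [Real.rpow_one]
  exact hfz

/-! ### uniformisation over finitely many pairs -/

section unif

variable {ι : Type*} [Fintype ι] [Nonempty ι]

/-- a common small parameter -/
theorem unif1 {P : ι → ℝ → Prop} (h : ∀ x, ∃ e1 : ℝ, 0 < e1 ∧ ∀ e, 0 < e → e ≤ e1 → P x e) :
    ∃ e1 : ℝ, 0 < e1 ∧ ∀ e, 0 < e → e ≤ e1 → ∀ x, P x e := by
  choose e1 he1 hP using h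
  refine ⟨Finset.univ.inf' Finset.univ_nonempty e1, (Finset.lt_inf'_iff _).2 fun x _ => he1 x,
    fun e he hee x => hP x e he (hee.trans (Finset.inf'_le _ (Finset.mem_univ x)))⟩

/-- a common small parameter and a common exponent -/
theorem unif2 {P : ι → ℝ → ℝ → Prop} (hm : ∀ x c c' k, 0 < c' → c' ≤ c → P x c k → P x c' k)
    (h : ∀ x, ∃ c k1 : ℝ, 0 < c ∧ 0 < k1 ∧ ∀ k, 0 < k → k ≤ k1 → P x c k) :
    ∃ c k1 : ℝ, 0 < c ∧ 0 < k1 ∧ ∀ k, 0 < k → k ≤ k1 → ∀ x, P x c k := by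
  choose c k1 hc hk1 hP using h
  have hc' : 0 < Finset.univ.inf' Finset.univ_nonempty c := (Finset.lt_inf'_iff _).2 fun x _ => hc x
  refine ⟨Finset.univ.inf' Finset.univ_nonempty c, Finset.univ.inf' Finset.univ_nonempty k1,
    hc', (Finset.lt_inf'_iff _).2 fun x _ => hk1 x, fun k hk hkk x => ?_⟩
  exact hm x (c x) _ k hc' (Finset.inf'_le _ (Finset.mem_univ x))
    (hP x k hk (hkk.trans (Finset.inf'_le _ (Finset.mem_univ x))))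

/-- a common threshold and a common constant -/
theorem unif3 {P : ι → ℝ → ℝ → Prop}
    (hm : ∀ x t0 K t0' K', 0 < t0' → t0' ≤ t0 → t0' ≤ 1 → 0 ≤ K → K ≤ K' → P x t0 K → P x t0' K')
    (h : ∀ x, ∃ t0 K : ℝ, 0 < t0 ∧ 0 ≤ K ∧ P x t0 K) :
    ∃ t0 K : ℝ, 0 < t0 ∧ t0 ≤ 1 ∧ 0 ≤ K ∧ ∀ x, P x t0 K := by
  choose t0 K ht0 hK hP using h
  have ht : 0 < min 1 (Finset.univ.inf' Finset.univ_nonempty t0) :=
    lt_min one_pos ((Finset.lt_inf'_iff _).2 fun x _ => ht0 x)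
  refine ⟨min 1 (Finset.univ.inf' Finset.univ_nonempty t0), ∑ x, K x, ht, min_le_left _ _,
    Finset.sum_nonneg fun x _ => hK x, fun x => ?_⟩
  exact hm x (t0 x) (K x) _ _ ht
    ((min_le_right _ _).trans (Finset.inf'_le _ (Finset.mem_univ x))) (min_le_left _ _) (hK x)
    (Finset.single_le_sum (f := K) (fun i _ => hK i) (Finset.mem_univ x)) (hP x)

end unif

/-- the shape of the hypotheses for the nontrivial pairs: order `e`, (`c`, `k`), (`t0`, `K`) -/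
def ExN (P : ℝ → ℝ → ℝ → ℝ → ℝ → Prop) : Prop :=
  ∃ e1 : ℝ, 0 < e1 ∧ ∀ e, 0 < e → e ≤ e1 → ∃ c k1 : ℝ, 0 < c ∧ 0 < k1 ∧
    ∀ k, 0 < k → k ≤ k1 → ∃ t0 K : ℝ, 0 < t0 ∧ 0 ≤ K ∧ P e c k t0 K

/-- the shape of the hypotheses for the trivial pairs: order `e`, `δ`, (`c`, `k`), (`t0`, `K`) -/
def ExT (P : ℝ → ℝ → ℝ → ℝ → ℝ → ℝ → Prop) : Prop :=
  ∃ e1 : ℝ, 0 < e1 ∧ ∀ e, 0 < e → e ≤ e1 → ∀ δ, 0 < δ → ∃ c k1 : ℝ, 0 < c ∧ 0 < k1 ∧
    ∀ k, 0 < k → k ≤ k1 → ∃ t0 K : ℝ, 0 < t0 ∧ 0 ≤ K ∧ P e δ c k t0 K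

/-- monotone in the exponent and in the constants -/
def Mn (P : ℝ → ℝ → ℝ → Prop) : Prop :=
  ∀ c t0 K c' t0' K', 0 < c' → c' ≤ c → 0 < t0' → t0' ≤ t0 → t0' ≤ 1 → 0 ≤ K → K ≤ K' →
    P c t0 K → P c' t0' K'

theorem exN_and {P P' : ℝ → ℝ → ℝ → ℝ → ℝ → Prop}
    (hm : ∀ e k, 0 < e → 0 < k → k ≤ 1 / 80 → Mn fun c t0 K => P e c k t0 K)
    (hm' : ∀ e k, 0 < e → 0 < k → k ≤ 1 / 80 → Mn fun c t0 K => P' e c k t0 K)
    (h : ExN P) (h' : ExN P') :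
    ExN fun e c k t0 K => t0 ≤ 1 ∧ P e c k t0 K ∧ P' e c k t0 K := by
  obtain ⟨e1, he1, h⟩ := h
  obtain ⟨e2, he2, h'⟩ := h'
  refine ⟨min e1 e2, lt_min he1 he2, fun e he hee => ?_⟩
  obtain ⟨c, k1, hc, hk1, h⟩ := h e he (hee.trans (min_le_left _ _))
  obtain ⟨c', k2, hc', hk2, h'⟩ := h' e he (hee.trans (min_le_right _ _))
  refine ⟨min c c', min (min k1 k2) (1 / 80), lt_min hc hc', lt_min (lt_min hk1 hk2) (by norm_num),
    fun k hk hkk => ?_⟩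
  obtain ⟨t1, K1, ht1, hK1, h⟩ := h k hk (hkk.trans ((min_le_left _ _).trans (min_le_left _ _)))
  obtain ⟨t2, K2, ht2, hK2, h'⟩ := h' k hk (hkk.trans ((min_le_left _ _).trans (min_le_right _ _)))
  have hk8 := hkk.trans (min_le_right _ _)
  have ht : 0 < min 1 (min t1 t2) := lt_min one_pos (lt_min ht1 ht2)
  exact ⟨min 1 (min t1 t2), K1 + K2, ht, by positivity, min_le_left _ _,
    hm e k he hk hk8 c t1 K1 _ _ _ (lt_min hc hc') (min_le_left _ _) ht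
      ((min_le_right _ _).trans (min_le_left _ _)) (min_le_left _ _) hK1 (by linarith) h,
    hm' e k he hk hk8 c' t2 K2 _ _ _ (lt_min hc hc') (min_le_right _ _) ht
      ((min_le_right _ _).trans (min_le_right _ _)) (min_le_left _ _) hK2 (by linarith) h'⟩

theorem exT_and {P P' : ℝ → ℝ → ℝ → ℝ → ℝ → ℝ → Prop}
    (hm : ∀ e δ k, 0 < e → 0 < δ → 0 < k → k ≤ 1 / 80 → Mn fun c t0 K => P e δ c k t0 K)
    (hm' : ∀ e δ k, 0 < e → 0 < δ → 0 < k → k ≤ 1 / 80 → Mn fun c t0 K => P' e δ c k t0 K)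
    (h : ExT P) (h' : ExT P') :
    ExT fun e δ c k t0 K => t0 ≤ 1 ∧ P e δ c k t0 K ∧ P' e δ c k t0 K := by
  obtain ⟨e1, he1, h⟩ := h
  obtain ⟨e2, he2, h'⟩ := h'
  refine ⟨min e1 e2, lt_min he1 he2, fun e he hee δ hδ => ?_⟩
  obtain ⟨c, k1, hc, hk1, h⟩ := h e he (hee.trans (min_le_left _ _)) δ hδ
  obtain ⟨c', k2, hc', hk2, h'⟩ := h' e he (hee.trans (min_le_right _ _)) δ hδ
  refine ⟨min c c', min (min k1 k2) (1 / 80), lt_min hc hc', lt_min (lt_min hk1 hk2) (by norm_num),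
    fun k hk hkk => ?_⟩
  obtain ⟨t1, K1, ht1, hK1, h⟩ := h k hk (hkk.trans ((min_le_left _ _).trans (min_le_left _ _)))
  obtain ⟨t2, K2, ht2, hK2, h'⟩ := h' k hk (hkk.trans ((min_le_left _ _).trans (min_le_right _ _)))
  have hk8 := hkk.trans (min_le_right _ _)
  have ht : 0 < min 1 (min t1 t2) := lt_min one_pos (lt_min ht1 ht2)
  exact ⟨min 1 (min t1 t2), K1 + K2, ht, by positivity, min_le_left _ _,
    hm e δ k he hδ hk hk8 c t1 K1 _ _ _ (lt_min hc hc') (min_le_left _ _) ht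
      ((min_le_right _ _).trans (min_le_left _ _)) (min_le_left _ _) hK1 (by linarith) h,
    hm' e δ k he hδ hk hk8 c' t2 K2 _ _ _ (lt_min hc hc') (min_le_right _ _) ht
      ((min_le_right _ _).trans (min_le_right _ _)) (min_le_left _ _) hK2 (by linarith) h'⟩

/-- uniform over finitely many indices -/
theorem exN_all {ι : Type*} [Fintype ι] [Nonempty ι] {P : ι → ℝ → ℝ → ℝ → ℝ → ℝ → Prop}
    (hm : ∀ x e k, 0 < e → 0 < k → k ≤ 1 / 80 → Mn fun c t0 K => P x e c k t0 K)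
    (h : ∀ x, ExN (P x)) : ExN fun e c k t0 K => t0 ≤ 1 ∧ ∀ x, P x e c k t0 K := by
  obtain ⟨e1, he1, h⟩ := unif1 h
  refine ⟨e1, he1, fun e he hee => ?_⟩
  have h2 : ∀ x, ∃ c k1 : ℝ, 0 < c ∧ 0 < k1 ∧ ∀ k, 0 < k → k ≤ k1 →
      (k ≤ 1 / 80 ∧ ∃ t0 K : ℝ, 0 < t0 ∧ t0 ≤ 1 ∧ 0 ≤ K ∧ P x e c k t0 K) := by
    intro x
    obtain ⟨c, k1, hc, hk1, h⟩ := h e he hee x
    refine ⟨c, min k1 (1 / 80), hc, lt_min hk1 (by norm_num), fun k hk hkk => ?_⟩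
    have hk8 := hkk.trans (min_le_right _ _)
    obtain ⟨t0, K, ht0, hK, h⟩ := h k hk (hkk.trans (min_le_left _ _))
    exact ⟨hk8, min 1 t0, K, lt_min one_pos ht0, min_le_left _ _, hK,
      hm x e k he hk hk8 c t0 K c _ K hc le_rfl (lt_min one_pos ht0) (min_le_right _ _)
        (min_le_left _ _) hK le_rfl h⟩
  obtain ⟨c, k1, hc, hk1, h3⟩ := unif2
    (P := fun x c k => 0 < k ∧ k ≤ 1 / 80 ∧ ∃ t0 K : ℝ, 0 < t0 ∧ t0 ≤ 1 ∧ 0 ≤ K ∧ P x e c k t0 K)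
    (fun x c c' k hc' hcc ⟨hk, hk8, t0, K, ht0, ht1, hK, h⟩ => ⟨hk, hk8, t0, K, ht0, ht1, hK,
      hm x e k he hk hk8 c t0 K c' t0 K hc' hcc ht0 le_rfl ht1 hK le_rfl h⟩)
    (fun x => by
      obtain ⟨c, k1, hc, hk1, h⟩ := h2 x
      exact ⟨c, k1, hc, hk1, fun k hk hkk => ⟨hk, h k hk hkk⟩⟩)
  refine ⟨c, k1, hc, hk1, fun k hk hkk => ?_⟩
  have hk8 : k ≤ 1 / 80 := (h3 k hk hkk (Classical.arbitrary ι)).2.1
  obtain ⟨t0, K, ht0, ht1, hK, h4⟩ := unif3 (P := fun x t0 K => P x e c k t0 K)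
    (fun x t0 K t0' K' h0 h1 h1' hK hKK h =>
      hm x e k he hk hk8 c t0 K c t0' K' hc le_rfl h0 h1 h1' hK hKK h)
    (fun x => by
      obtain ⟨_, _, t0, K, ht0, _, hK, h⟩ := h3 k hk hkk x
      exact ⟨t0, K, ht0, hK, h⟩)
  exact ⟨t0, K, ht0, hK, ht1, h4⟩

theorem exT_all {ι : Type*} [Fintype ι] [Nonempty ι] {P : ι → ℝ → ℝ → ℝ → ℝ → ℝ → ℝ → Prop}
    (hm : ∀ x e δ k, 0 < e → 0 < δ → 0 < k → k ≤ 1 / 80 → Mn fun c t0 K => P x e δ c k t0 K)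
    (h : ∀ x, ExT (P x)) : ExT fun e δ c k t0 K => t0 ≤ 1 ∧ ∀ x, P x e δ c k t0 K := by
  obtain ⟨e1, he1, h⟩ := unif1 h
  refine ⟨e1, he1, fun e he hee δ hδ => ?_⟩
  have h2 : ∀ x, ∃ c k1 : ℝ, 0 < c ∧ 0 < k1 ∧ ∀ k, 0 < k → k ≤ k1 →
      (k ≤ 1 / 80 ∧ ∃ t0 K : ℝ, 0 < t0 ∧ t0 ≤ 1 ∧ 0 ≤ K ∧ P x e δ c k t0 K) := by
    intro x
    obtain ⟨c, k1, hc, hk1, h⟩ := h e he hee x δ hδ
    refine ⟨c, min k1 (1 / 80), hc, lt_min hk1 (by norm_num), fun k hk hkk => ?_⟩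
    have hk8 := hkk.trans (min_le_right _ _)
    obtain ⟨t0, K, ht0, hK, h⟩ := h k hk (hkk.trans (min_le_left _ _))
    exact ⟨hk8, min 1 t0, K, lt_min one_pos ht0, min_le_left _ _, hK,
      hm x e δ k he hδ hk hk8 c t0 K c _ K hc le_rfl (lt_min one_pos ht0) (min_le_right _ _)
        (min_le_left _ _) hK le_rfl h⟩
  obtain ⟨c, k1, hc, hk1, h3⟩ := unif2
    (P := fun x c k => 0 < k ∧ k ≤ 1 / 80 ∧ ∃ t0 K : ℝ, 0 < t0 ∧ t0 ≤ 1 ∧ 0 ≤ K ∧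
      P x e δ c k t0 K)
    (fun x c c' k hc' hcc ⟨hk, hk8, t0, K, ht0, ht1, hK, h⟩ => ⟨hk, hk8, t0, K, ht0, ht1, hK,
      hm x e δ k he hδ hk hk8 c t0 K c' t0 K hc' hcc ht0 le_rfl ht1 hK le_rfl h⟩)
    (fun x => by
      obtain ⟨c, k1, hc, hk1, h⟩ := h2 x
      exact ⟨c, k1, hc, hk1, fun k hk hkk => ⟨hk, h k hk hkk⟩⟩)
  refine ⟨c, k1, hc, hk1, fun k hk hkk => ?_⟩
  have hk8 : k ≤ 1 / 80 := (h3 k hk hkk (Classical.arbitrary ι)).2.1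
  obtain ⟨t0, K, ht0, ht1, hK, h4⟩ := unif3 (P := fun x t0 K => P x e δ c k t0 K)
    (fun x t0 K t0' K' h0 h1 h1' hK hKK h =>
      hm x e δ k he hδ hk hk8 c t0 K c t0' K' hc le_rfl h0 h1 h1' hK hKK h)
    (fun x => by
      obtain ⟨_, _, t0, K, ht0, _, hK, h⟩ := h3 k hk hkk x
      exact ⟨t0, K, ht0, hK, h⟩)
  exact ⟨t0, K, ht0, hK, ht1, h4⟩

theorem pairO_mono {D : TRecN.Dict} {OA : TRec.Dict} {k q3 c0 a b cl t0 K c0' t0' K' : ℝ}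
    {i m : Fin 4} (h : PairO D OA k q3 c0 a b cl t0 K i m) (ht : t0' ≤ t0) (ht1 : t0' ≤ 1)
    (hc : c0' ≤ c0) (hK0 : 0 ≤ K) (hK : K ≤ K') : PairO D OA k q3 c0' a b cl t0' K' i m :=
  pairO_iff.2 (pairQ_mono (pairO_iff.1 h) ht ht1 hc hK0 hK)

/-- **`S0106` FROM THE LEAVES** -/
theorem target_of_leaves {q3 : ℝ} (hq3 : 2 < q3) (D : ℝ → ℝ → TRecN.Dict)
    (OA : ℝ → ℝ → TRec.Dict) (CA : ℝ → ℝ → CDict) (cc cl : Fin 4 → ℝ)
    (hD : ∀ e k, 0 < e → 0 < k → k ≤ 1 / 80 → TRecN.Dic (D e k) 0)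
    (hP : ∀ e, 0 < e → ∃ th : ℝ, 0 < th ∧ ∀ k, 0 < k → k ≤ 1 / 80 → TRecN.PtE (D e k) th)
    (hF : ∀ e k, 0 < e → 0 < k → k ≤ 1 / 80 → TRecN.FrzBd (D e k) k q3)
    (hRS : ∃ e2 : ℝ, 0 < e2 ∧ ∀ e, 0 < e → e ≤ e2 → ∀ s1, 0 < s1 → ∃ cS CS k2 : ℝ,
      0 < cS ∧ 0 ≤ CS ∧ 0 < k2 ∧ ∀ k, 0 < k → k ≤ k2 →
        ∃ t0 K : ℝ, 0 < t0 ∧ 0 ≤ K ∧ TRecN.RuleS (D e k) k q3 cS CS s1 e t0 K)
    (hSpl : ∀ e k, 0 < e → 0 < k → k ≤ 1 / 80 → Spl (D e k) (OA e k) (CA e k) cc)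
    (hcc : ∀ i, i ≠ 3 → 0 ≤ cc i ∧ cc i < cl i)
    (hCN : ∀ i m : Fin 4, m < i → i ≠ 3 → ExN fun e c k t0 K =>
      CellKill (D e k) (CA e k) k q3 c (1 + e) 1 t0 K i m)
    (hPO : ∀ i m : Fin 4, m < i → i ≠ 3 → ExN fun e c k t0 K =>
      PairO (D e k) (OA e k) k q3 c (1 + e) 1 (cl i) t0 K i m)
    (hCT : ∀ i m : Fin 4, i < m → m ≠ 3 → ExT fun e δ c k t0 K =>
      CellKill (D e k) (CA e k) k q3 c 1 (1 + δ) t0 K i m)
    (hOT : ∀ i m : Fin 4, i < m → m ≠ 3 → ExT fun e δ c k t0 K =>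
      OpKill (D e k) (OA e k) k q3 c 1 (1 + δ) t0 K i m) : L0.Target := by
  refine TRecN.target_of_rules hq3 D hD hP hF ?_ ?_ hRS
  · -- nontrivial pairs
    have h1 : ∀ x : {x : Fin 4 × Fin 4 // x.2 < x.1 ∧ x.1 ≠ 3}, ExN fun e c k t0 K =>
        PairG (D e k) k q3 c (1 + e) 1 t0 K x.1.1 x.1.2 := by
      rintro ⟨⟨i, m⟩, him, hi⟩
      simp only at him hi ⊢
      have hcm : ∀ e k, 0 < e → 0 < k → k ≤ 1 / 80 → Mn fun c t0 K =>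
          CellKill (D e k) (CA e k) k q3 c (1 + e) 1 t0 K i m := by
        intro e k he hk hk8 c t0 K c' t0' K' hc' hcc' h0 h1 h1' hK hKK h
        exact cellKill_mono h h1 h1' (by linarith) (fun t ht ht1 => (hSpl e k he hk hk8).nn i t ht ht1)
          hcc' hK hKK
      have hpm : ∀ e k, 0 < e → 0 < k → k ≤ 1 / 80 → Mn fun c t0 K =>
          PairO (D e k) (OA e k) k q3 c (1 + e) 1 (cl i) t0 K i m := by
        intro e k he hk hk8 c t0 K c' t0' K' hc' hcc' h0 h1 h1' hK hKK h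
        exact pairO_mono h h1 h1' hcc' hK hKK
      obtain ⟨e1, he1, h⟩ := exN_and hcm hpm (hCN i m him hi) (hPO i m him hi)
      obtain ⟨hc0, hcl⟩ := hcc i hi
      set d : ℝ := (cl i - cc i) / 2 with hd
      have hdp : 0 < d := by rw [hd]; linarith
      refine ⟨min e1 (d / (cc i + 1)), lt_min he1 (by positivity), fun e he hee => ?_⟩
      have he2 : e * (cc i + 1) ≤ d := by
        have := hee.trans (min_le_right _ _)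
        rwa [le_div_iff₀ (by linarith)] at this
      obtain ⟨c, k1, hc, hk1, h⟩ := h e he (hee.trans (min_le_left _ _))
      refine ⟨min (min c c) d, min k1 (min (1 / 80) (q3 - 2)), lt_min (lt_min hc hc) hdp,
        lt_min hk1 (lt_min (by norm_num) (by linarith)), fun k hk hkk => ?_⟩
      have hk8 : k ≤ 1 / 80 := (hkk.trans (min_le_right _ _)).trans (min_le_left _ _)
      have hkq : 2 + k ≤ q3 := by
        have := (hkk.trans (min_le_right _ _)).trans (min_le_right _ _)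
        linarith
      obtain ⟨t0, K, ht0, hK, ht1, hCK, hPK⟩ := h k hk (hkk.trans (min_le_left _ _))
      refine ⟨t0, K + 2 * K + 2, ht0, by positivity, ?_⟩
      refine pairG_of_mix (hSpl e k he hk hk8) hk hkq (by linarith) hdp.le ht1 hK hK him.ne' hi hc0 ?_
        hCK hPK
      nlinarith
    have hne : Nonempty {x : Fin 4 × Fin 4 // x.2 < x.1 ∧ x.1 ≠ 3} := ⟨⟨(1, 0), by decide⟩⟩
    have hmm : ∀ (x : {x : Fin 4 × Fin 4 // x.2 < x.1 ∧ x.1 ≠ 3}) (e k : ℝ), 0 < e → 0 < k →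
        k ≤ 1 / 80 → Mn fun c t0 K => PairG (D e k) k q3 c (1 + e) 1 t0 K x.1.1 x.1.2 := by
      intro x e k _ _ _ c t0 K c' t0' K' hc' hcc' h0 h1 h1' hK hKK h
      exact pairG_mono h h1 h1' hcc' hK hKK
    obtain ⟨e1, he1, h2⟩ := exN_all hmm h1
    refine ⟨e1, he1, fun e he hee => ?_⟩
    obtain ⟨c, k1, hc, hk1, h3⟩ := h2 e he hee
    refine ⟨c, k1, hc, hk1, fun k hk hkk => ?_⟩
    obtain ⟨t0, K, ht0, hK, ht1, h4⟩ := h3 k hk hkk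
    exact ⟨t0, K, ht0, hK, ruleNT_of_pairs fun i m him hi => h4 ⟨(i, m), him, hi⟩⟩
  · -- trivial pairs
    have h1 : ∀ x : {x : Fin 4 × Fin 4 // x.1 < x.2 ∧ x.2 ≠ 3}, ExT fun e δ c k t0 K =>
        PairG (D e k) k q3 c 1 (1 + δ) t0 K x.1.1 x.1.2 := by
      rintro ⟨⟨i, m⟩, him, hm⟩
      simp only at him hm ⊢
      have hi3 : i ≠ 3 := by
        rintro rfl
        have h2 : (m : ℕ) < 4 := m.2
        have h3 : (3 : ℕ) < m := him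
        omega
      have hcm : ∀ e δ k, 0 < e → 0 < δ → 0 < k → k ≤ 1 / 80 → Mn fun c t0 K =>
          CellKill (D e k) (CA e k) k q3 c 1 (1 + δ) t0 K i m := by
        intro e δ k he _ hk hk8 c t0 K c' t0' K' hc' hcc' h0 h1 h1' hK hKK h
        exact cellKill_mono h h1 h1' (by norm_num)
          (fun t ht ht1 => (hSpl e k he hk hk8).nn i t ht ht1) hcc' hK hKK
      have hpm : ∀ e δ k, 0 < e → 0 < δ → 0 < k → k ≤ 1 / 80 → Mn fun c t0 K =>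
          OpKill (D e k) (OA e k) k q3 c 1 (1 + δ) t0 K i m := by
        intro e δ k he _ hk hk8 c t0 K c' t0' K' hc' hcc' h0 h1 h1' hK hKK h
        exact opKill_mono h h1 h1' hcc' hK hKK
      obtain ⟨e1, he1, h⟩ := exT_and hcm hpm (hCT i m him hm) (hOT i m him hm)
      refine ⟨e1, he1, fun e he hee δ hδ => ?_⟩
      obtain ⟨c, k1, hc, hk1, h⟩ := h e he hee δ hδ
      refine ⟨c, min k1 (1 / 80), hc, lt_min hk1 (by norm_num), fun k hk hkk => ?_⟩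
      have hk8 : k ≤ 1 / 80 := hkk.trans (min_le_right _ _)
      obtain ⟨t0, K, ht0, hK, ht1, hCK, hOK⟩ := h k hk (hkk.trans (min_le_left _ _))
      exact ⟨t0, 2 * K, ht0, by positivity,
        pairG_of_op (hSpl e k he hk hk8) (by norm_num) ht1 hK him.ne hi3 hCK hOK⟩
    have hne : Nonempty {x : Fin 4 × Fin 4 // x.1 < x.2 ∧ x.2 ≠ 3} := ⟨⟨(0, 1), by decide⟩⟩
    have hmm : ∀ (x : {x : Fin 4 × Fin 4 // x.1 < x.2 ∧ x.2 ≠ 3}) (e δ k : ℝ), 0 < e → 0 < δ →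
        0 < k → k ≤ 1 / 80 → Mn fun c t0 K => PairG (D e k) k q3 c 1 (1 + δ) t0 K x.1.1 x.1.2 := by
      intro x e δ k _ _ _ _ c t0 K c' t0' K' hc' hcc' h0 h1 h1' hK hKK h
      exact pairG_mono h h1 h1' hcc' hK hKK
    obtain ⟨e1, he1, h2⟩ := exT_all hmm h1
    refine ⟨e1, he1, fun e he hee δ hδ => ?_⟩
    obtain ⟨c, k1, hc, hk1, h3⟩ := h2 e he hee δ hδ
    refine ⟨c, k1, hc, hk1, fun k hk hkk => ?_⟩
    obtain ⟨t0, K, ht0, hK, ht1, h4⟩ := h3 k hk hkk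
    exact ⟨t0, K, ht0, hK, ruleTr_of_pairs fun i m him hm => h4 ⟨(i, m), him, hm⟩⟩

/-- Step I: energy form of one generation with free window exponent -/
def ExG (D : ℝ → ℝ → TRecN.Dict) (OA : ℝ → ℝ → TRec.Dict) (q3 cl : ℝ) (i m : Fin 4) : Prop :=
  ∃ cm : ℝ, 0 < cm ∧ ∀ c1, 0 < c1 → c1 ≤ cm → ∃ C g ys : ℝ, 0 < C ∧ 0 < g ∧ 0 < ys ∧
      ∀ y, 0 < y → y ≤ ys → ∃ e1 : ℝ, 0 < e1 ∧ ∀ e, 0 < e → e ≤ e1 → ∃ k1 : ℝ, 0 < k1 ∧
        ∀ k, 0 < k → k ≤ k1 → ∃ t0 K : ℝ, 0 < t0 ∧ 0 ≤ K ∧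
          GenOM (D e k) (OA e k) k q3 (1 + e) 1 cl c1 (C * y) (g * y) t0 K i m

/-- Step II -/
def ExS (D : ℝ → ℝ → TRecN.Dict) (OA : ℝ → ℝ → TRec.Dict) (q3 cl : ℝ) (i m : Fin 4) : Prop :=
  ∃ cS CS e2 : ℝ, 0 < cS ∧ 0 < e2 ∧ ∀ e, 0 < e → e ≤ e2 → ∃ k2 : ℝ, 0 < k2 ∧
      ∀ k, 0 < k → k ≤ k2 → ∃ t0 K : ℝ, 0 < t0 ∧ 0 ≤ K ∧
        StatO (D e k) (OA e k) k q3 (1 + e) 1 cl cS CS t0 K i m

/-- `PairO` in the shape of `target_of_leaves` from Step I and Step II -/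
theorem exN_pairO {q3 : ℝ} (hq3 : 2 < q3) {D : ℝ → ℝ → TRecN.Dict} {OA : ℝ → ℝ → TRec.Dict}
    {cl : ℝ} {i m : Fin 4} (him : i ≠ m) (hG : ExG D OA q3 cl i m) (hS : ExS D OA q3 cl i m) :
    ExN fun e c k t0 K => PairO (D e k) (OA e k) k q3 c (1 + e) 1 cl t0 K i m := by
  obtain ⟨c0, e1, hc0, he1, h⟩ := pairO_existsM hq3 D OA him hG hS
  refine ⟨e1, he1, fun e he hee => ?_⟩
  obtain ⟨k1, hk1, h⟩ := h e he hee
  refine ⟨c0, k1, hc0, hk1, fun k hk hkk => ?_⟩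
  obtain ⟨t0, K, ht0, _, hK, h⟩ := h k hk hkk
  exact ⟨t0, K, ht0, hK, h⟩

end Crest.Agent.R079.T6bx252
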