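import Crest.Agent.R079.KCb_996
import Crest.Agent.R079.KLa_446
import Crest.Agent.R079.TK_248

/-! R079 (helper248): the corner on `ℤ` with heights and floor; the UNIFORM KILLER (operator bound on
ALL boxes of the region, no exceptional set) at one frozen value `w`. -/

set_option autoImplicit false

namespace Crest.Agent.R079.TKx248

open Finset Crest.Agent.R079.Grid Crest.Agent.R079.Pot Crest.Agent.R079.Glue Crest.Agent.R079.GlueK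
  Crest.Agent.R079.Growth Crest.Agent.R079.QRed Crest.Agent.R079.BadTx138 Crest.Agent.R079.KLx446
  Crest.Agent.R079.KC996

/-- the corner on `ℤ` with heights `≤ H` of the partners and floor `δ` (cf. `CR371h.CornerH`) -/
def CornerZF : Prop := ∀ (l : ℤ), |l| ≤ 7 → ∀ C1 : ℝ, ∃ K : ℝ, 0 ≤ K ∧
  ∀ (M' S0 : ℕ) (A B C : ℤ → ℤ → ℝ) (al : ℕ → ℤ → ℤ → Prop) (w : ℤ) (a2 b2 τ E0 Ar H δ : ℝ),
    0 < τ → 0 ≤ E0 → 0 < Ar → 0 < H → 0 < δ →
    (∀ x y, A x y ≠ 0 → |x| ≤ S0 ∧ |y| ≤ S0) → (∀ x y, B x y ≠ 0 → |x| ≤ S0 ∧ |y| ≤ S0) →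
    (∀ x y, C x y ≠ 0 → |x| ≤ S0 ∧ |y| ≤ S0) →
    ∑ x ∈ Icc (-(S0 : ℤ)) S0, ∑ y ∈ Icc (-(S0 : ℤ)) S0, A x y ^ 2 ≤ a2 →
    ∑ x ∈ Icc (-(S0 : ℤ)) S0, ∑ y ∈ Icc (-(S0 : ℤ)) S0, B x y ^ 2 ≤ b2 →
    (∀ x y, |A x y| ≤ H) → (∀ x y, |B x y| ≤ H) →
    RegZ C al M' 6 31 S0 τ C1 → LastZ C al M' 6 S0 E0 Ar →
    ∀ L1 : ℕ, ∑ m ∈ range M', (1 / (2 : ℝ) ^ m) * ∑ i ∈ range (2 ^ m),
      ∑ p0 ∈ Icc (-(L1 : ℤ)) L1, ∑ p1 ∈ Icc (-(L1 : ℤ)) L1,
        (open Classical in if Al4Z al m (l * 2 ^ m + (i : ℤ) - w - p0 - p1) p0 then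
          |Lb3r A B C (2 ^ m) p0 p1 (l * 2 ^ m + (i : ℤ) - w - p0 - p1)| else 0) ≤
      K * (1 + Real.log (1 + E0 * H ^ 2 / (τ ^ 2 * δ))) * (τ * √(a2 + δ * Ar) * √(b2 + δ * Ar))

theorem cornerZF_of (h : CornerZ) : CornerZF := by
  classical
  intro l hl C1
  obtain ⟨K, hK0, hK⟩ := h l hl C1
  refine ⟨K * 6, by positivity, ?_⟩
  intro M' S0 A B C al w a2 b2 τ E0 Ar H δ hτ hE hAr hH hδ sA sB sC hA2 hB2 hA hB hR hL L1
  set X : ℝ := E0 * H ^ 2 / (τ ^ 2 * δ) with hX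
  have hX0 : 0 ≤ X := by positivity
  obtain ⟨J, hJ1, hJ2⟩ : ∃ J : ℕ, X ≤ 2 ^ J ∧ ((J : ℝ) ≤ 1 + 2 * Real.log (1 + X)) := by
    refine ⟨⌈Real.logb 2 (1 + X)⌉₊, ?_, ?_⟩
    · have h1 : Real.logb 2 (1 + X) ≤ (⌈Real.logb 2 (1 + X)⌉₊ : ℝ) := Nat.le_ceil _
      have h2 : (1 + X) = (2 : ℝ) ^ (Real.logb 2 (1 + X)) := by
        rw [Real.rpow_logb (by norm_num) (by norm_num) (by linarith)]
      have h3 : (2 : ℝ) ^ (Real.logb 2 (1 + X)) ≤ (2 : ℝ) ^ ((⌈Real.logb 2 (1 + X)⌉₊ : ℕ) : ℝ) :=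
        Real.rpow_le_rpow_of_exponent_le (by norm_num) h1
      rw [← h2, Real.rpow_natCast] at h3
      linarith
    · have h0 : 0 ≤ Real.logb 2 (1 + X) := Real.logb_nonneg (by norm_num) (by linarith)
      have h1 := (Nat.ceil_lt_add_one h0).le
      have h2 : Real.logb 2 (1 + X) ≤ 2 * Real.log (1 + X) := by
        rw [Real.logb, div_le_iff₀ (Real.log_pos (by norm_num))]
        have h3 : (1 / 2 : ℝ) ≤ Real.log 2 := by
          have := Real.log_two_gt_d9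
          linarith
        have h4 : 0 ≤ Real.log (1 + X) := Real.log_nonneg (by linarith)
        nlinarith
      linarith
  have hp : 0 < τ ^ 2 * δ := by positivity
  have hsA : 0 ≤ a2 := le_trans (Finset.sum_nonneg fun _ _ => Finset.sum_nonneg fun _ _ =>
    sq_nonneg _) hA2
  have hsB : 0 ≤ b2 := le_trans (Finset.sum_nonneg fun _ _ => Finset.sum_nonneg fun _ _ =>
    sq_nonneg _) hB2
  have hr : 0 < δ * Ar / H ^ 2 := by positivity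
  have key : ∀ (F : ℤ → ℤ → ℝ) (f2 : ℝ), (∀ x y, |F x y| ≤ H) → 0 ≤ f2 → ∀ x y,
      F x y ^ 2 ≤ (f2 + δ * Ar) / (δ * Ar / H ^ 2) := by
    intro F f2 hF hs x y
    have h1 : F x y ^ 2 ≤ H ^ 2 := by
      have := hF x y
      rw [← sq_abs]
      exact pow_le_pow_left₀ (abs_nonneg _) this 2
    refine h1.trans ?_
    rw [le_div_iff₀ hr]
    have : H ^ 2 * (δ * Ar / H ^ 2) = δ * Ar := by
      field_simp
    rw [this]
    linarith
  have hmain := hK M' J S0 A B C al w (a2 + δ * Ar) (b2 + δ * Ar) (δ * Ar / H ^ 2) τ E0 Ar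
    (by positivity) (by positivity) hr hτ sA sB sC
    (by linarith [mul_pos hδ hAr]) (by linarith [mul_pos hδ hAr]) (key A a2 hA hsA)
    (key B b2 hB hsB) hR hL ?_ L1
  · refine hmain.trans ?_
    have hl0 : 0 ≤ Real.log (1 + X) := Real.log_nonneg (by linarith)
    have h5 : K * (2 * (J : ℝ) + 1) ≤ K * 6 * (1 + Real.log (1 + X)) := by
      rw [mul_assoc]
      refine mul_le_mul_of_nonneg_left ?_ hK0
      linarith
    exact mul_le_mul_of_nonneg_right h5 (by positivity)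
  · have h6 : X * (τ ^ 2 * δ) = E0 * H ^ 2 := by
      rw [hX, div_mul_cancel₀]
      positivity
    have h7 : E0 * H ^ 2 ≤ 2 ^ J * (τ ^ 2 * δ) := by
      rw [← h6]
      exact mul_le_mul_of_nonneg_right hJ1 hp.le
    have h8 : τ ^ 2 * (δ * Ar / H ^ 2 * 2 ^ J) = (2 ^ J * (τ ^ 2 * δ)) * Ar / H ^ 2 := by
      ring
    rw [h8, le_div_iff₀ (by positivity)]
    nlinarith

/-! ### the alive family -/

/-- all shadows in the region, inside the domain -/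
def AlU (R : Finset Nd) (α β γ w x0 x1 y0 y1 : ℤ) (m : ℕ) (q u : ℤ) : Prop :=
  Om R α β γ w m q u ∧ Dm2 x0 x1 y0 y1 m q u

lemma lpF : Lp (fun _ _ _ => False) := ⟨fun _ _ _ _ _ h => h, fun _ _ _ _ _ _ _ _ h => h⟩

lemma exit_alU {R : Finset Nd} {α β γ w x0 x1 y0 y1 : ℤ} {k' m : ℕ} {q p : ℤ}
    (h : ExitZ (AlU R α β γ w x0 x1 y0 y1) k' m q p) :
    ExitZ (AlG R α β γ w x0 x1 y0 y1 (fun _ _ _ => False)) k' m q p := by
  obtain ⟨h1, a, b, ha, hb, h2⟩ := h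
  exact ⟨⟨h1, fun h => h⟩, a, b, ha, hb, fun h3 => h2 h3.1⟩

lemma level_of_om {R : Finset Nd} {J : Nd} (hR : IsRegion R J) {α β γ w : ℤ} {m : ℕ} {q u : ℤ}
    (h : Om R α β γ w m q u) : m < J.1 + 1 := by
  have hm0 : (0 : ℤ) < 2 ^ m := by positivity
  have h1 := h q (Finset.mem_Ico.2 ⟨le_rfl, by linarith⟩) u (Finset.mem_Ico.2 ⟨le_rfl, by linarith⟩)
  rw [mem_Rm] at h1
  exact Nat.lt_succ_of_le (level_le R J hR _ h1)

/-- Region data of the uniform killer -/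
theorem regZ_alU {R : Finset Nd} {J : Nd} (hR : IsRegion R J) {α β γ : ℤ} (hc : Cof α β γ)
    (w x0 x1 y0 y1 : ℤ) {S0 : ℕ} (hx0 : -(S0 : ℤ) ≤ x0) (hx1 : x1 ≤ S0) (hy0 : -(S0 : ℤ) ≤ y0)
    (hy1 : y1 ≤ S0) {C : ℤ → ℤ → ℝ} {τ : ℝ}
    (hop : ∀ m q u, Om R α β γ w m q u → OpZ C (2 ^ m) q u (2 ^ m * τ)) :
    RegZ C (AlU R α β γ w x0 x1 y0 y1) (J.1 + 1) 6 31 S0 τ KG := by
  classical
  constructor
  · rintro m q p ⟨h1, h2⟩
    have hm0 : (0 : ℤ) < 2 ^ m := by positivity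
    refine ⟨level_of_om hR h1, abs_le.2 ⟨?_, ?_⟩, abs_le.2 ⟨?_, ?_⟩⟩
    · linarith [h2.1]
    · linarith [h2.2.1]
    · linarith [h2.2.2.1]
    · linarith [h2.2.2.2]
  · intro m q p h
    exact hop m q p h.1
  · intro k' hk L c d
    refine le_trans ?_ (good_local (x0 := x0) (x1 := x1) (y0 := y0) (y1 := y1) (w := w) hR hc lpF hk
      L c d)
    exact count_mono (fun m q p h => exit_alU h) _ _ _

theorem lastZ_alU {R : Finset Nd} {J : Nd} (hR : IsRegion R J) {α β γ : ℤ} (hc : Cof α β γ)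
    (w x0 x1 y0 y1 : ℤ) {S0 : ℕ} {C : ℤ → ℤ → ℝ} {E0 : ℝ}
    (hhs : ∀ m q u, Om R α β γ w m q u →
      ∑ x ∈ Ico q (q + (2 : ℤ) ^ m), ∑ y ∈ Ico u (u + (2 : ℤ) ^ m), C x y ^ 2 ≤ 4 ^ m * E0) :
    LastZ C (AlU R α β γ w x0 x1 y0 y1) (J.1 + 1) 6 S0 E0 (61 * ((Ico x0 x1).card * len J)) := by
  classical
  have hl := (Growth.len_pos J).le
  constructor
  · intro m q p h
    exact hhs m q p h.1
  · intro m
    refine (area_global (w := w) hR hc m (al := AlU R α β γ w x0 x1 y0 y1)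
      (x0 := x0) (x1 := x1) (y0 := y0) (y1 := y1) (fun q p h => h) _ _).trans ?_
    have : (0 : ℝ) ≤ (Ico x0 x1).card * len J := by positivity
    linarith
  · intro k' hk
    refine le_trans ?_ (good_global (x0 := x0) (x1 := x1) (y0 := y0) (y1 := y1) (w := w) hR hc lpF hk
      (J.1 + 1) (Icc (-(S0 : ℤ)) S0) (Icc (-(S0 : ℤ)) S0))
    exact count_mono (fun m q p h => exit_alU h) _ _ _

end Crest.Agent.R079.TKx248
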