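import Crest.Agent.R079.TKb_248

/-! R079 (helper248): UNIFORM KILLER, part 2: one word at one frozen value (`tw_le`); operator and
Hilbert–Schmidt bounds of (gauge × line letter) on the boxes of a region. -/

set_option autoImplicit false

namespace Crest.Agent.R079.TKx248

open Finset Crest.Agent.R079.Grid Crest.Agent.R079.Pot Crest.Agent.R079.Glue Crest.Agent.R079.GlueK
  Crest.Agent.R079.Growth Crest.Agent.R079.QRed Crest.Agent.R079.BadTx138 Crest.Agent.R079.KLx446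
  Crest.Agent.R079.KC996

/-- the box form vanishes if the killer vanishes on the box -/
lemma lb3r_zero {A B C : ℤ → ℤ → ℝ} {m : ℕ} {p0 p1 p2 : ℤ}
    (h : ∀ x ∈ Ico p2 (p2 + 2 ^ (m + 1)), ∀ y ∈ Ico p0 (p0 + 2 ^ (m + 1)), C x y = 0) :
    Lb3r A B C (2 ^ m) p0 p1 p2 = 0 := by
  unfold Lb3r
  have e : (2 : ℤ) ^ (m + 1) = ((2 ^ m + 2 ^ m : ℕ) : ℤ) := by push_cast; ring
  rw [e] at h
  rw [Finset.sum_eq_zero, mul_zero]
  intro i0 _
  refine Finset.sum_eq_zero fun i1 _ => Finset.sum_eq_zero fun i2 _ => ?_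
  have h0 : ((i0 : ℕ) : ℤ) < ((2 ^ m + 2 ^ m : ℕ) : ℤ) := by exact_mod_cast i0.isLt
  have h2 : ((i2 : ℕ) : ℤ) < ((2 ^ m + 2 ^ m : ℕ) : ℤ) := by exact_mod_cast i2.isLt
  have h0' : (0 : ℤ) ≤ ((i0 : ℕ) : ℤ) := by positivity
  have h2' : (0 : ℤ) ≤ ((i2 : ℕ) : ℤ) := by positivity
  rw [h (p2 + ((i2 : ℕ) : ℤ)) (Finset.mem_Ico.2 ⟨by linarith, by linarith⟩)
    (p0 + ((i0 : ℕ) : ℤ)) (Finset.mem_Ico.2 ⟨by linarith, by linarith⟩)]
  ring

open Classical in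
/-- **one word at one frozen value, uniform killer** -/
theorem tw_le (hC : CornerZF) {l : ℤ} (hl : |l| ≤ 7) : ∃ K : ℝ, 0 ≤ K ∧
    ∀ (R : Finset Nd) (J : Nd), IsRegion R J → ∀ (α β γ : ℤ), Cof α β γ →
    ∀ (w x0 x1 y0 y1 : ℤ) (A B C : ℤ → ℤ → ℝ) (SA SB : Finset (ℤ × ℤ)) (τ E0 H δ a2 b2 : ℝ),
    x0 < x1 → 0 < τ → 0 ≤ E0 → 0 < H → 0 < δ →
    (∀ x y, A x y ≠ 0 → (x, y) ∈ SA) → (∀ x y, B x y ≠ 0 → (x, y) ∈ SB) →
    (∀ x y, C x y ≠ 0 → x0 + 2 ^ (J.1 + 1) ≤ x ∧ x + 2 ^ (J.1 + 1) < x1 ∧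
      y0 + 2 ^ (J.1 + 1) ≤ y ∧ y + 2 ^ (J.1 + 1) < y1) →
    ∑ z ∈ SA, A z.1 z.2 ^ 2 ≤ a2 → ∑ z ∈ SB, B z.1 z.2 ^ 2 ≤ b2 →
    (∀ x y, |A x y| ≤ H) → (∀ x y, |B x y| ≤ H) →
    (∀ m q u, Om R α β γ w m q u → OpZ C (2 ^ m) q u (2 ^ m * τ)) →
    (∀ m q u, Om R α β γ w m q u →
      ∑ x ∈ Ico q (q + (2 : ℤ) ^ m), ∑ y ∈ Ico u (u + (2 : ℤ) ^ m), C x y ^ 2 ≤ 4 ^ m * E0) →
    ∀ (Gm : ℕ → ℤ → ℤ → ℤ → Prop), (∀ m p0 p1 p2, Gm m p0 p1 p2 →
      ∀ x ∈ Ico p2 (p2 + 2 ^ (m + 1)), ∀ y ∈ Ico p0 (p0 + 2 ^ (m + 1)),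
        α * w + β * x + γ * y ∈ Rm R m) →
    ∀ L1 : ℕ, Tw Gm A B C (J.1 + 1) L1 l w ≤
      K * (1 + Real.log (1 + E0 * H ^ 2 / (τ ^ 2 * δ))) *
        (τ * √(a2 + δ * (61 * ((Ico x0 x1).card * len J))) *
          √(b2 + δ * (61 * ((Ico x0 x1).card * len J)))) := by
  obtain ⟨K, hK0, hK⟩ := hC l hl KG
  refine ⟨K, hK0, ?_⟩
  intro R J hR α β γ hc w x0 x1 y0 y1 A B C SA SB τ E0 H δ a2 b2 hx hτ hE hH hδ sA sB sC hA2 hB2
    hA hB hop hhs Gm hG L1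
  -- a large window
  have hpos : ∀ (S : Finset (ℤ × ℤ)), ∃ n : ℕ, ∀ z ∈ S, |z.1| ≤ n ∧ |z.2| ≤ n := by
    intro S
    refine ⟨∑ z ∈ S, (z.1.natAbs + z.2.natAbs), fun z hz => ?_⟩
    have h1 : z.1.natAbs + z.2.natAbs ≤ ∑ z ∈ S, (z.1.natAbs + z.2.natAbs) :=
      Finset.single_le_sum (f := fun z : ℤ × ℤ => z.1.natAbs + z.2.natAbs)
        (fun _ _ => Nat.zero_le _) hz
    constructor
    · rw [Int.abs_eq_natAbs]; exact_mod_cast (Nat.le_add_right _ _).trans h1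
    · rw [Int.abs_eq_natAbs]; exact_mod_cast (Nat.le_add_left _ _).trans h1
  obtain ⟨nA, hnA⟩ := hpos SA
  obtain ⟨nB, hnB⟩ := hpos SB
  set S0 : ℕ := nA + nB + x0.natAbs + x1.natAbs + y0.natAbs + y1.natAbs with hS0
  have hx0 : -(S0 : ℤ) ≤ x0 := by omega
  have hx1 : x1 ≤ S0 := by omega
  have hy0 : -(S0 : ℤ) ≤ y0 := by omega
  have hy1 : y1 ≤ S0 := by omega
  have hcard : (0 : ℝ) < (Ico x0 x1).card := by
    have : 0 < (Ico x0 x1).card := by
      rw [Int.card_Ico]; omega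
    exact_mod_cast this
  have hlJ := Growth.len_pos J
  have hAr : 0 < 61 * ((Ico x0 x1).card * len J) := by positivity
  have sA' : ∀ x y, A x y ≠ 0 → |x| ≤ S0 ∧ |y| ≤ S0 := by
    intro x y h
    have := hnA _ (sA x y h)
    simp only at this
    have h1 : (nA : ℤ) ≤ S0 := by omega
    exact ⟨this.1.trans h1, this.2.trans h1⟩
  have sB' : ∀ x y, B x y ≠ 0 → |x| ≤ S0 ∧ |y| ≤ S0 := by
    intro x y h
    have := hnB _ (sB x y h)
    simp only at this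
    have h1 : (nB : ℤ) ≤ S0 := by omega
    exact ⟨this.1.trans h1, this.2.trans h1⟩
  have h2J : (0 : ℤ) < 2 ^ (J.1 + 1) := by positivity
  have sC' : ∀ x y, C x y ≠ 0 → |x| ≤ S0 ∧ |y| ≤ S0 := by
    intro x y h
    obtain ⟨h1, h2, h3, h4⟩ := sC x y h
    exact ⟨abs_le.2 ⟨by linarith, by linarith⟩, abs_le.2 ⟨by linarith, by linarith⟩⟩
  have hsum : ∀ (F : ℤ → ℤ → ℝ) (S : Finset (ℤ × ℤ)) (f2 : ℝ), (∀ x y, F x y ≠ 0 → (x, y) ∈ S) →
      ∑ z ∈ S, F z.1 z.2 ^ 2 ≤ f2 →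
      ∑ x ∈ Icc (-(S0 : ℤ)) S0, ∑ y ∈ Icc (-(S0 : ℤ)) S0, F x y ^ 2 ≤ f2 := by
    intro F S f2 hF hf
    refine le_trans ?_ hf
    rw [← Finset.sum_product (s := Icc (-(S0 : ℤ)) S0) (t := Icc (-(S0 : ℤ)) S0)
      (f := fun z => F z.1 z.2 ^ 2)]
    have e : ∑ z ∈ Icc (-(S0 : ℤ)) S0 ×ˢ Icc (-(S0 : ℤ)) S0, F z.1 z.2 ^ 2 =
        ∑ z ∈ (Icc (-(S0 : ℤ)) S0 ×ˢ Icc (-(S0 : ℤ)) S0).filter (fun z => z ∈ S),
          F z.1 z.2 ^ 2 := by
      rw [Finset.sum_filter]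
      refine Finset.sum_congr rfl fun z _ => ?_
      split_ifs with hz
      · rfl
      · have : F z.1 z.2 = 0 := by
          by_contra h0
          exact hz (hF z.1 z.2 h0)
        rw [this]; norm_num
    rw [e]
    exact Finset.sum_le_sum_of_subset_of_nonneg (fun z hz => (Finset.mem_filter.1 hz).2)
      fun _ _ _ => sq_nonneg _
  have hmain := hK (J.1 + 1) S0 A B C (AlU R α β γ w x0 x1 y0 y1) w a2 b2 τ E0
    (61 * ((Ico x0 x1).card * len J)) H δ hτ hE hAr hH hδ sA' sB' sC' (hsum A SA a2 sA hA2)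
    (hsum B SB b2 sB hB2) hA hB (regZ_alU hR hc w x0 x1 y0 y1 hx0 hx1 hy0 hy1 hop)
    (lastZ_alU hR hc w x0 x1 y0 y1 hhs) L1
  refine le_trans ?_ hmain
  unfold Tw
  refine Finset.sum_le_sum fun m hm => mul_le_mul_of_nonneg_left ?_ (by positivity)
  refine Finset.sum_le_sum fun i _ => Finset.sum_le_sum fun p0 _ => Finset.sum_le_sum fun p1 _ => ?_
  set p2 : ℤ := l * 2 ^ m + (i : ℤ) - w - p0 - p1 with hp2
  by_cases hg : Gm m p0 p1 p2
  · rw [if_pos hg]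
    have hO := hG m p0 p1 p2 hg
    have hm2 : (2 : ℤ) ^ (m + 1) ≤ 2 ^ (J.1 + 1) :=
      pow_le_pow_right₀ (by norm_num) (by have := Finset.mem_range.1 hm; omega)
    have e2 : (2 : ℤ) ^ (m + 1) = 2 ^ m + 2 ^ m := by ring
    have hm0 : (0 : ℤ) < 2 ^ m := by positivity
    by_cases hd : x0 ≤ p2 ∧ p2 + 2 ^ (m + 1) ≤ x1 ∧ y0 ≤ p0 ∧ p0 + 2 ^ (m + 1) ≤ y1
    · rw [if_pos]
      intro a b ha hb
      have ha' : (a : ℤ) ≤ 1 := by
        have : a ≤ 1 := Nat.le_of_lt_succ ha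
        exact_mod_cast this
      have hb' : (b : ℤ) ≤ 1 := by
        have : b ≤ 1 := Nat.le_of_lt_succ hb
        exact_mod_cast this
      have ha0 : (0 : ℤ) ≤ a := by positivity
      have hb0 : (0 : ℤ) ≤ b := by positivity
      have ka : (a : ℤ) * 2 ^ m ≤ 2 ^ m := by nlinarith
      have kb : (b : ℤ) * 2 ^ m ≤ 2 ^ m := by nlinarith
      have ka0 : (0 : ℤ) ≤ a * 2 ^ m := by positivity
      have kb0 : (0 : ℤ) ≤ b * 2 ^ m := by positivity
      refine ⟨fun x hx y hy => ?_, ?_, ?_, ?_, ?_⟩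
      · rw [Finset.mem_Ico] at hx hy
        exact hO x (Finset.mem_Ico.2 ⟨by linarith, by linarith⟩) y
          (Finset.mem_Ico.2 ⟨by linarith, by linarith⟩)
      · linarith [hd.1]
      · linarith [hd.2.1]
      · linarith [hd.2.2.1]
      · linarith [hd.2.2.2]
    · have hz : Lb3r A B C (2 ^ m) p0 p1 p2 = 0 := by
        refine lb3r_zero fun x hx y hy => ?_
        by_contra h0
        obtain ⟨h1, h2, h3, h4⟩ := sC x y h0
        rw [Finset.mem_Ico] at hx hy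
        exact hd ⟨by linarith, by linarith, by linarith, by linarith⟩
      rw [hz, abs_zero]
      split_ifs <;> exact le_rfl
  · rw [if_neg hg]
    split_ifs
    · exact abs_nonneg _
    · exact le_rfl

/-! ### gauge × line letter -/

/-- the boxes of a region see at most three nodes on a row -/
theorem row_sum_le {R : Finset Nd} {f : ℤ → ℝ} (hf : ∀ y, 0 ≤ f y) {A : ℝ} {m : ℕ}
    (hR : ∀ p ∈ R, p.1 = m → ∑ y ∈ iv p, f y ≤ A * 2 ^ m) (hA : 0 ≤ A) {b : ℤ} (hb : b ≠ 0)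
    (hb3 : |b| ≤ 3) (a u : ℤ) (h : ∀ y ∈ Ico u (u + (2 : ℤ) ^ m), a + b * y ∈ Rm R m) :
    ∑ y ∈ Ico u (u + (2 : ℤ) ^ m), f (a + b * y) ≤ 3 * A * 2 ^ m := by
  classical
  have hm0 : (0 : ℤ) < 2 ^ m := by positivity
  set c0 : ℤ := (a + b * u) / 2 ^ (m + 7) with hc0
  have h7 : (2 : ℤ) ^ (m + 7) = 128 * 2 ^ m := by rw [pow_add]; norm_num; ring
  have h7p : (0 : ℤ) < 2 ^ (m + 7) := by positivity
  -- the three nodes
  set P : Finset Nd := ({(m, c0 - 1), (m, c0), (m, c0 + 1)} : Finset Nd).filter (fun p => p ∈ R)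
    with hP
  have hmem : ∀ y ∈ Ico u (u + (2 : ℤ) ^ m), a + b * y ∈ P.biUnion iv := by
    intro y hy
    have h1 := h y hy
    rw [mem_Rm] at h1
    rw [Finset.mem_Ico] at hy
    have h2 : |b * (y - u)| ≤ 3 * 2 ^ m := by
      rw [abs_mul]
      exact mul_le_mul hb3 (abs_le.2 ⟨by linarith, by linarith⟩) (abs_nonneg _) (by norm_num)
    have h3 := abs_le.1 h2
    have e : a + b * y = a + b * u + b * (y - u) := by ring
    have q1 := Int.mul_ediv_add_emod (a + b * u) (2 ^ (m + 7))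
    have q2 := Int.emod_nonneg (a + b * u) h7p.ne'
    have q3 := Int.emod_lt_of_pos (a + b * u) h7p
    rw [← hc0] at q1
    have k1 : c0 - 1 ≤ (a + b * y) / 2 ^ (m + 7) := by
      apply Int.le_ediv_of_mul_le h7p
      rw [e]
      nlinarith [h3.1, h3.2]
    have k2 : (a + b * y) / 2 ^ (m + 7) ≤ c0 + 1 := by
      apply Int.le_of_lt_add_one
      apply Int.ediv_lt_of_lt_mul h7p
      rw [e]
      nlinarith [h3.1, h3.2]
    rw [Finset.mem_biUnion]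
    refine ⟨(m, (a + b * y) / 2 ^ (m + 7)), ?_, ?_⟩
    · rw [hP, Finset.mem_filter]
      refine ⟨?_, h1⟩
      have : (a + b * y) / 2 ^ (m + 7) = c0 - 1 ∨ (a + b * y) / 2 ^ (m + 7) = c0 ∨
          (a + b * y) / 2 ^ (m + 7) = c0 + 1 := by omega
      rcases this with h | h | h <;> rw [h] <;> simp
    · unfold iv
      rw [mem_dI_iff]
  have h1 : ∑ y ∈ Ico u (u + (2 : ℤ) ^ m), f (a + b * y) =
      ∑ z ∈ (Ico u (u + (2 : ℤ) ^ m)).image (fun y => a + b * y), f z := by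
    rw [Finset.sum_image]
    intro x _ y _ hxy
    have h3 : b * (x - y) = 0 := by
      have : a + b * x = a + b * y := hxy
      linarith
    rcases mul_eq_zero.1 h3 with h4 | h4
    · exact absurd h4 hb
    · linarith
  rw [h1]
  have hsub : (Ico u (u + (2 : ℤ) ^ m)).image (fun y => a + b * y) ⊆ P.biUnion iv := by
    intro z hz
    rw [Finset.mem_image] at hz
    obtain ⟨y, hy, rfl⟩ := hz
    exact hmem y hy
  refine (Finset.sum_le_sum_of_subset_of_nonneg hsub fun z _ _ => hf z).trans ?_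
  have hb1 : ∑ z ∈ P.biUnion iv, f z ≤ ∑ p ∈ P, ∑ z ∈ iv p, f z := by
    have hd : Set.PairwiseDisjoint (P : Set Nd) iv := by
      intro p hp q hq hpq
      rw [Function.onFun, Finset.disjoint_left]
      intro z hz hz'
      rw [Finset.mem_coe, hP, Finset.mem_filter] at hp hq
      unfold iv at hz hz'
      rw [mem_dI_iff] at hz hz'
      have e1 : p.1 = m := by
        have := hp.1
        simp only [Finset.mem_insert, Finset.mem_singleton] at this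
        rcases this with h | h | h <;> rw [h]
      have e2 : q.1 = m := by
        have := hq.1
        simp only [Finset.mem_insert, Finset.mem_singleton] at this
        rcases this with h | h | h <;> rw [h]
      apply hpq
      rw [e1] at hz
      rw [e2] at hz'
      exact Prod.ext (e1.trans e2.symm) (hz.symm.trans hz')
    rw [Finset.sum_biUnion hd]
  refine hb1.trans ?_
  have hcard : P.card ≤ 3 := (Finset.card_filter_le _ _).trans Finset.card_le_three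
  have hA2 : 0 ≤ A * 2 ^ m := by positivity
  calc ∑ p ∈ P, ∑ z ∈ iv p, f z ≤ ∑ _p ∈ P, A * 2 ^ m := by
        refine Finset.sum_le_sum fun p hp => ?_
        rw [hP, Finset.mem_filter] at hp
        refine hR p hp.2 ?_
        have := hp.1
        simp only [Finset.mem_insert, Finset.mem_singleton] at this
        rcases this with h | h | h <;> rw [h]
    _ = P.card * (A * 2 ^ m) := by rw [Finset.sum_const, nsmul_eq_mul]
    _ ≤ 3 * (A * 2 ^ m) := mul_le_mul_of_nonneg_right (by exact_mod_cast hcard) hA2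
    _ = _ := by ring

/-- Schur for real kernels on a box -/
theorem opZ_schur {C : ℤ → ℤ → ℝ} {N : ℕ} {q p : ℤ} {s : ℝ} (hs : 0 ≤ s)
    (hr : ∀ x ∈ Ico q (q + (N : ℤ)), ∑ y ∈ Ico p (p + (N : ℤ)), |C x y| ≤ s)
    (hc : ∀ y ∈ Ico p (p + (N : ℤ)), ∑ x ∈ Ico q (q + (N : ℤ)), |C x y| ≤ s) :
    OpZ C N q p s := by
  intro f g
  have h := opB_schur (K := fun x y => (C x y : ℂ)) (I := Ico q (q + (N : ℤ)))
    (J := Ico p (p + (N : ℤ))) hs (fun x hx => by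
      refine le_trans (le_of_eq ?_) (hr x hx)
      exact Finset.sum_congr rfl fun y _ => by rw [Complex.norm_real, Real.norm_eq_abs])
    (fun y hy => by
      refine le_trans (le_of_eq ?_) (hc y hy)
      exact Finset.sum_congr rfl fun x _ => by rw [Complex.norm_real, Real.norm_eq_abs])
    (fun x => (f x : ℂ)) (fun y => (g y : ℂ))
  have e1 : ∑ x ∈ Ico q (q + (N : ℤ)), ∑ y ∈ Ico p (p + (N : ℤ)),
      (f x : ℂ) * (C x y : ℂ) * (g y : ℂ) =
      ((∑ x ∈ Ico q (q + (N : ℤ)), ∑ y ∈ Ico p (p + (N : ℤ)), f x * C x y * g y : ℝ) : ℂ) := by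
    push_cast; rfl
  rw [e1, Complex.norm_real, Real.norm_eq_abs, sq_abs] at h
  refine h.trans (le_of_eq ?_)
  congr 2
  · exact Finset.sum_congr rfl fun x _ => by rw [Complex.norm_real, Real.norm_eq_abs, sq_abs]
  · exact Finset.sum_congr rfl fun x _ => by rw [Complex.norm_real, Real.norm_eq_abs, sq_abs]

end Crest.Agent.R079.TKx248
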