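import Crest.Agent.R079.TKc_248
import Crest.Agent.R079.Qb_247

/-! R079 (helper248): UNIFORM KILLER, part 3: region sum with a product kernel
`a(z0,z1) b(z1,z2) c(z2,z0)` in the frozen slot `k`, killer = the line letter of the slot `k1` (edge
`(z2,z0)`) with small local `L¹` averages, partners of height `≤ h`. -/

set_option autoImplicit false

namespace Crest.Agent.R079.TKx248

open Finset Crest.Agent.R079.Grid Crest.Agent.R079.Pot Crest.Agent.R079.Glue Crest.Agent.R079.GlueK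
  Crest.Agent.R079.Growth Crest.Agent.R079.QRed Crest.Agent.R079.BadTx138 Crest.Agent.R079.KLx446
  Crest.Agent.R079.KC996

lemma sl_bd4 (a b : Fin 4) : |sl a - sl b| ≤ 3 := by
  revert a b; decide

lemma cof_D4 {k k0 k1 k2 : Fin 4} (h : D4 k k0 k1 k2) :
    Cof (sl k - sl k1) (sl k2 - sl k1) (sl k0 - sl k1) := by
  have inj : ∀ a b : Fin 4, sl a = sl b → a = b := by decide
  refine ⟨?_, ?_, ?_, ?_, ?_, ?_, sl_bd4 _ _, sl_bd4 _ _, sl_bd4 _ _⟩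
  · exact sub_ne_zero.2 fun e => h.h1 (inj _ _ e)
  · exact sub_ne_zero.2 fun e => h.h12 (inj _ _ e).symm
  · exact sub_ne_zero.2 fun e => h.h01 (inj _ _ e)
  · intro e
    exact h.h0 (inj _ _ (by linarith))
  · intro e
    exact h.h2 (inj _ _ (by linarith))
  · intro e
    exact h.h02 (inj _ _ (by linarith)).symm

lemma abs_pr_le (σ : Bool) (z : ℂ) : |pr σ z| ≤ ‖z‖ := by
  unfold pr
  split_ifs
  · exact Complex.abs_re_le_norm z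
  · exact Complex.abs_im_le_norm z

lemma pr_zero (σ : Bool) : pr σ 0 = 0 := by unfold pr; split_ifs <;> simp

/-- letters masked by the top -/
noncomputable def mk4 (k : Fin 4) (J : Nd) (F : Fin 4 → Fn) : Fin 4 → Fn :=
  fun s y => if s = k then F k y else if y ∈ iv J then F s y else 0

lemma mk4_k (k : Fin 4) (J : Nd) (F : Fin 4 → Fn) : mk4 k J F k = F k := by
  funext y; simp [mk4]

lemma mk4_ne {k s : Fin 4} (h : s ≠ k) (J : Nd) (F : Fin 4 → Fn) (y : ℤ) :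
    mk4 k J F s y = if y ∈ iv J then F s y else 0 := by simp [mk4, h]

lemma mk4_in (k s : Fin 4) {J : Nd} (F : Fin 4 → Fn) {y : ℤ} (hy : y ∈ iv J) :
    mk4 k J F s y = F s y := by
  unfold mk4
  split_ifs with h
  · rw [h]
  · rfl

/-- energy of (kernel × masked line letter), summed over the frozen value -/
lemma sum_w_energy {J : Nd} {X : Fn} {e2 : ℝ} (he : ∑ y ∈ iv J, ‖X y‖ ^ 2 ≤ e2) {α : ℤ}
    (hα : α ≠ 0) (S : Finset (ℤ × ℤ)) (g : ℤ × ℤ → ℂ) (f : ℤ × ℤ → ℤ) (W : Finset ℤ) {G : ℝ}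
    (hG : ∑ z ∈ S, ‖g z‖ ^ 2 ≤ G) :
    ∑ w ∈ W, ∑ z ∈ S, ‖g z * (if α * w + f z ∈ iv J then X (α * w + f z) else 0)‖ ^ 2 ≤ G * e2 := by
  classical
  have he0 : 0 ≤ e2 := (Finset.sum_nonneg fun _ _ => sq_nonneg _).trans he
  rw [Finset.sum_comm]
  have h1 : ∀ z ∈ S, ∑ w ∈ W, ‖g z * (if α * w + f z ∈ iv J then X (α * w + f z) else 0)‖ ^ 2 ≤
      ‖g z‖ ^ 2 * e2 := by
    intro z _
    have e1 : ∀ w, ‖g z * (if α * w + f z ∈ iv J then X (α * w + f z) else 0)‖ ^ 2 =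
        ‖g z‖ ^ 2 * (if α * w + f z ∈ iv J then ‖X (α * w + f z)‖ ^ 2 else 0) := by
      intro w
      rw [norm_mul, mul_pow]
      split_ifs <;> simp
    simp only [e1]
    rw [← Finset.mul_sum]
    refine mul_le_mul_of_nonneg_left ?_ (sq_nonneg _)
    rw [← Finset.sum_filter]
    have e2' : ∑ w ∈ W.filter (fun w => α * w + f z ∈ iv J), ‖X (α * w + f z)‖ ^ 2 =
        ∑ y ∈ (W.filter (fun w => α * w + f z ∈ iv J)).image (fun w => α * w + f z), ‖X y‖ ^ 2 := by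
      rw [Finset.sum_image]
      intro x _ y _ hxy
      have h3 : α * (x - y) = 0 := by
        have : α * x + f z = α * y + f z := hxy
        linarith
      rcases mul_eq_zero.1 h3 with h4 | h4
      · exact absurd h4 hα
      · linarith
    rw [e2']
    refine (Finset.sum_le_sum_of_subset_of_nonneg ?_ fun _ _ _ => sq_nonneg _).trans he
    intro y hy
    rw [Finset.mem_image] at hy
    obtain ⟨w, hw, rfl⟩ := hy
    exact (Finset.mem_filter.1 hw).2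
  refine (Finset.sum_le_sum h1).trans ?_
  rw [← Finset.sum_mul]
  exact mul_le_mul_of_nonneg_right hG he0

/-- number of frozen values seen -/
lemma card_w {J : Nd} {n : ℕ} (hn : 2 ^ J.1 ≤ n) {α β γ : ℤ} (hα : α ≠ 0) (hβ : |β| ≤ 3)
    (hγ : |γ| ≤ 3) (t0 t1 : ℤ) (W : Finset ℤ)
    (hW : ∀ w ∈ W, ∃ z ∈ Ico t0 (t0 + (n : ℤ)), ∃ z' ∈ Ico t1 (t1 + (n : ℤ)),
      α * w + β * z + γ * z' ∈ iv J) : (W.card : ℝ) ≤ 141 * n := by
  classical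
  have h2 : (1 : ℕ) ≤ 2 ^ J.1 := Nat.one_le_two_pow
  set lo : ℤ := J.2 * 2 ^ (J.1 + 7) - 6 * n with hlo
  set m : ℕ := 2 ^ (J.1 + 7) + 12 * n with hm
  have h1 : W.card ≤ (Ico lo (lo + (m : ℤ))).card := by
    refine Finset.card_le_card_of_injOn (fun w => α * w + β * t0 + γ * t1) ?_ ?_
    · intro w hw
      obtain ⟨z, hz, z', hz', h⟩ := hW w (Finset.mem_coe.1 hw)
      rw [Finset.mem_Ico] at hz hz'
      have hiv : iv J = Ico (J.2 * 2 ^ (J.1 + 7)) ((J.2 + 1) * 2 ^ (J.1 + 7)) := rfl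
      rw [hiv, Finset.mem_Ico] at h
      have b1 : |β * (z - t0)| ≤ 3 * n := by
        rw [abs_mul]
        exact mul_le_mul hβ (abs_le.2 ⟨by linarith, by linarith⟩) (abs_nonneg _) (by norm_num)
      have b2 : |γ * (z' - t1)| ≤ 3 * n := by
        rw [abs_mul]
        exact mul_le_mul hγ (abs_le.2 ⟨by linarith, by linarith⟩) (abs_nonneg _) (by norm_num)
      have c1 := abs_le.1 b1
      have c2 := abs_le.1 b2
      rw [Finset.mem_coe, Finset.mem_Ico, hlo, hm]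
      push_cast
      have e : α * w + β * z + γ * z' = (α * w + β * t0 + γ * t1) + β * (z - t0) + γ * (z' - t1) := by
        ring
      rw [e] at h
      constructor
      · linarith [h.1, c1.2, c2.2]
      · have : (J.2 + 1) * (2 : ℤ) ^ (J.1 + 7) = J.2 * 2 ^ (J.1 + 7) + 2 ^ (J.1 + 7) := by ring
        rw [this] at h
        linarith [h.2, c1.1, c2.1]
    · intro x _ y _ hxy
      have h3 : α * (x - y) = 0 := by
        have : α * x + β * t0 + γ * t1 = α * y + β * t0 + γ * t1 := hxy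
        linarith
      rcases mul_eq_zero.1 h3 with h4 | h4
      · exact absurd h4 hα
      · linarith
  rw [Int.card_Ico, show lo + (m : ℤ) - lo = m by ring, Int.toNat_natCast] at h1
  have h3 : W.card ≤ 141 * n := by
    have : 2 ^ (J.1 + 7) = 128 * 2 ^ J.1 := by rw [pow_add]; norm_num; ring
    rw [hm, this] at h1
    omega
  exact_mod_cast h3

/-- masked letter -/
noncomputable def mk (J : Nd) (X : Fn) : Fn := fun y => if y ∈ iv J then X y else 0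

lemma mk4_eq {k s : Fin 4} (h : s ≠ k) (J : Nd) (F : Fin 4 → Fn) : mk4 k J F s = mk J (F s) := by
  funext y; exact mk4_ne h J F y

lemma norm_mk_le (J : Nd) (X : Fn) (y : ℤ) : ‖mk J X y‖ ≤ ‖X y‖ := by
  unfold mk
  split_ifs
  · exact le_rfl
  · rw [norm_zero]; exact norm_nonneg _

/-- energy of a frozen kernel of a masked letter -/
lemma fr4_energy {J : Nd} {X : Fn} {e2 : ℝ} (he : ∑ y ∈ iv J, ‖X y‖ ^ 2 ≤ e2) {α : ℤ} (hα : α ≠ 0)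
    (β γ : ℤ) (T T' : Finset ℤ) (a : ℤ → ℤ → ℂ) (W : Finset ℤ) {G : ℝ}
    (hG : ∑ z ∈ T ×ˢ T', ‖a z.1 z.2‖ ^ 2 ≤ G) :
    ∑ w ∈ W, ∑ z ∈ T ×ˢ T', ‖fr4 T T' a (mk J X) α β γ w z.1 z.2‖ ^ 2 ≤ G * e2 := by
  refine le_trans (Finset.sum_le_sum fun w _ => Finset.sum_le_sum fun z hz => ?_)
    (sum_w_energy he hα (T ×ˢ T') (fun z => a z.1 z.2) (fun z => β * z.1 + γ * z.2) W hG)
  rw [Finset.mem_product] at hz
  unfold fr4 mk
  rw [if_pos hz]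
  have e : α * w + β * z.1 + γ * z.2 = α * w + (β * z.1 + γ * z.2) := by ring
  rw [e]

lemma fr4_sup {J : Nd} {X : Fn} {h Hg : ℝ} (hh : 0 < h) (hHg : 0 < Hg) (hX : ∀ y ∈ iv J, ‖X y‖ ≤ h)
    (α β γ : ℤ) (T T' : Finset ℤ) {a : ℤ → ℤ → ℂ} (ha : ∀ z z', ‖a z z'‖ ≤ Hg) (w x y : ℤ) :
    ‖fr4 T T' a (mk J X) α β γ w x y‖ ≤ Hg * h := by
  unfold fr4
  by_cases h1 : x ∈ T ∧ y ∈ T'
  · rw [if_pos h1, norm_mul]
    refine mul_le_mul (ha _ _) ?_ (norm_nonneg _) hHg.le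
    unfold mk
    by_cases h2 : α * w + β * x + γ * y ∈ iv J
    · rw [if_pos h2]; exact hX _ h2
    · rw [if_neg h2, norm_zero]; exact hh.le
  · rw [if_neg h1, norm_zero]; positivity

lemma fr4_le {X : Fn} (α β γ : ℤ) (T T' : Finset ℤ) {c : ℤ → ℤ → ℂ}
    (hc : ∀ z z', ‖c z z'‖ ≤ 1) (w x y : ℤ) :
    ‖fr4 T T' c X α β γ w x y‖ ≤ ‖X (α * w + β * x + γ * y)‖ := by
  unfold fr4
  by_cases h1 : x ∈ T ∧ y ∈ T'
  · rw [if_pos h1, norm_mul]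
    exact mul_le_of_le_one_left (norm_nonneg _) (hc _ _)
  · rw [if_neg h1, norm_zero]; exact norm_nonneg _

/-- operator bound of the killer -/
lemma opZ_fr4 {R : Finset Nd} {X : Fn} {A1 : ℝ} (hA1 : 0 ≤ A1)
    (hL1 : ∀ p ∈ R, ∑ y ∈ iv p, ‖X y‖ ≤ A1 * len p) {α β γ : ℤ} (hcof : Cof α β γ)
    (T T' : Finset ℤ) {c : ℤ → ℤ → ℂ} (hc : ∀ z z', ‖c z z'‖ ≤ 1) (σ : Bool) (w : ℤ) (m : ℕ)
    (q u : ℤ) (hO : Om R α β γ w m q u) :
    OpZ (fun x y => pr σ (fr4 T T' c X α β γ w x y)) (2 ^ m) q u (2 ^ m * (384 * A1)) := by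
  have hlen : ∀ p : Nd, len p = 128 * 2 ^ p.1 := by intro p; unfold len; ring
  have hn1 : ∀ p ∈ R, p.1 = m → ∑ y ∈ iv p, ‖X y‖ ≤ 128 * A1 * 2 ^ m := by
    intro p hp hpm
    refine (hL1 p hp).trans (le_of_eq ?_)
    rw [hlen p, hpm]; ring
  have e2 : (((2 : ℕ) ^ m : ℕ) : ℤ) = (2 : ℤ) ^ m := by push_cast; rfl
  refine opZ_schur (by positivity) (fun x hx => ?_) (fun y hy => ?_)
  · rw [e2] at hx ⊢
    refine (Finset.sum_le_sum fun y _ => (abs_pr_le σ _).trans (fr4_le α β γ T T' hc w x y)).trans ?_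
    exact (row_sum_le (f := fun z => ‖X z‖) (fun _ => norm_nonneg _) (m := m)
      (A := 128 * A1) hn1 (by positivity) hcof.γ0 hcof.γ3
      (α * w + β * x) u (fun y hy => hO x hx y hy)).trans (le_of_eq (by ring))
  · rw [e2] at hy ⊢
    refine (Finset.sum_le_sum fun x _ => (abs_pr_le σ _).trans (fr4_le α β γ T T' hc w x y)).trans ?_
    have e3 : ∀ x, α * w + β * x + γ * y = (α * w + γ * y) + β * x := fun x => by ring
    simp only [e3]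
    exact (row_sum_le (f := fun z => ‖X z‖) (fun _ => norm_nonneg _) (m := m)
      (A := 128 * A1) hn1 (by positivity) hcof.β0 hcof.β3
      (α * w + γ * y) q (fun x hx => by rw [← e3]; exact hO x hx y hy)).trans
      (le_of_eq (by ring))

/-- Hilbert–Schmidt bound of the killer -/
lemma hs_fr4 {R : Finset Nd} {X : Fn} {A2 : ℝ} (hA2 : 0 ≤ A2)
    (hL2 : ∀ p ∈ R, ∑ y ∈ iv p, ‖X y‖ ^ 2 ≤ A2 * len p) {α β γ : ℤ} (hcof : Cof α β γ)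
    (T T' : Finset ℤ) {c : ℤ → ℤ → ℂ} (hc : ∀ z z', ‖c z z'‖ ≤ 1) (σ : Bool) (w : ℤ) (m : ℕ)
    (q u : ℤ) (hO : Om R α β γ w m q u) :
    ∑ x ∈ Ico q (q + (2 : ℤ) ^ m), ∑ y ∈ Ico u (u + (2 : ℤ) ^ m),
      (pr σ (fr4 T T' c X α β γ w x y)) ^ 2 ≤ 4 ^ m * (384 * A2) := by
  have hlen : ∀ p : Nd, len p = 128 * 2 ^ p.1 := by intro p; unfold len; ring
  have hn2 : ∀ p ∈ R, p.1 = m → ∑ y ∈ iv p, ‖X y‖ ^ 2 ≤ 128 * A2 * 2 ^ m := by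
    intro p hp hpm
    refine (hL2 p hp).trans (le_of_eq ?_)
    rw [hlen p, hpm]; ring
  have hrow : ∀ x ∈ Ico q (q + (2 : ℤ) ^ m), ∑ y ∈ Ico u (u + (2 : ℤ) ^ m),
      (pr σ (fr4 T T' c X α β γ w x y)) ^ 2 ≤ 384 * A2 * 2 ^ m := by
    intro x hx
    have h1 : ∀ y ∈ Ico u (u + (2 : ℤ) ^ m), (pr σ (fr4 T T' c X α β γ w x y)) ^ 2 ≤
        ‖X (α * w + β * x + γ * y)‖ ^ 2 := by
      intro y _
      rw [← sq_abs]
      exact pow_le_pow_left₀ (abs_nonneg _) ((abs_pr_le σ _).trans (fr4_le α β γ T T' hc w x y)) 2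
    refine (Finset.sum_le_sum h1).trans ?_
    exact (row_sum_le (f := fun z => ‖X z‖ ^ 2) (fun _ => sq_nonneg _) (m := m)
      (A := 128 * A2) hn2 (by positivity) hcof.γ0 hcof.γ3
      (α * w + β * x) u (fun y hy => hO x hx y hy)).trans (le_of_eq (by ring))
  refine (Finset.sum_le_sum hrow).trans ?_
  rw [Finset.sum_const, nsmul_eq_mul]
  have e : ((Ico q (q + (2 : ℤ) ^ m)).card : ℝ) = 2 ^ m := by
    rw [Int.card_Ico, show q + (2 : ℤ) ^ m - q = ((2 ^ m : ℕ) : ℤ) by push_cast; ring,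
      Int.toNat_natCast]
    push_cast; rfl
  rw [e, show (4 : ℝ) ^ m = 2 ^ m * 2 ^ m by rw [← mul_pow]; norm_num]
  exact le_of_eq (by ring)

open Classical in
/-- **one frozen value**: gauge `|c| ≤ 1` times a line letter with small local `L¹` averages -/
theorem uni_one (hC : CornerZF) {l : ℤ} (hl : |l| ≤ 7) : ∃ K : ℝ, 0 ≤ K ∧
    ∀ (R : Finset Nd) (J : Nd), IsRegion R J → ∀ (α β γ : ℤ), Cof α β γ →
    ∀ (n : ℕ), 2 ^ J.1 ≤ n → ∀ (w t0 t1 t2 : ℤ) (A B : ℤ → ℤ → ℝ) (c : ℤ → ℤ → ℂ) (X : Fn)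
      (σ : Bool) (A1 A2 H a2 b2 : ℝ), 0 < A1 → 0 ≤ A2 → 0 < H →
    (∀ x y, A x y ≠ 0 → (x, y) ∈ Ico t0 (t0 + (n : ℤ)) ×ˢ Ico t1 (t1 + (n : ℤ))) →
    (∀ x y, B x y ≠ 0 → (x, y) ∈ Ico t1 (t1 + (n : ℤ)) ×ˢ Ico t2 (t2 + (n : ℤ))) →
    ∑ z ∈ Ico t0 (t0 + (n : ℤ)) ×ˢ Ico t1 (t1 + (n : ℤ)), A z.1 z.2 ^ 2 ≤ a2 →
    ∑ z ∈ Ico t1 (t1 + (n : ℤ)) ×ˢ Ico t2 (t2 + (n : ℤ)), B z.1 z.2 ^ 2 ≤ b2 →
    (∀ x y, |A x y| ≤ H) → (∀ x y, |B x y| ≤ H) → (∀ z z', ‖c z z'‖ ≤ 1) →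
    (∀ p ∈ R, ∑ y ∈ iv p, ‖X y‖ ≤ A1 * len p) → (∀ p ∈ R, ∑ y ∈ iv p, ‖X y‖ ^ 2 ≤ A2 * len p) →
    ∀ (Gm : ℕ → ℤ → ℤ → ℤ → Prop), (∀ m p0 p1 p2, Gm m p0 p1 p2 →
      ∀ x ∈ Ico p2 (p2 + 2 ^ (m + 1)), ∀ y ∈ Ico p0 (p0 + 2 ^ (m + 1)),
        α * w + β * x + γ * y ∈ Rm R m) →
    ∀ L1 : ℕ, Tw Gm A B (fun x y => pr σ (fr4 (Ico t2 (t2 + (n : ℤ))) (Ico t0 (t0 + (n : ℤ))) c X
        α β γ w x y)) (J.1 + 1) L1 l w ≤
      K * (1 + Real.log (1 + A2 * H ^ 2 / A1 ^ 2)) *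
        (384 * A1 * (√(a2 + 305 * (n * len J)) * √(b2 + 305 * (n * len J)))) := by
  obtain ⟨K, hK0, hK⟩ := tw_le hC hl
  refine ⟨K, hK0, ?_⟩
  intro R J hR α β γ hcof n hn w t0 t1 t2 A B c X σ A1 A2 H a2 b2 hA1 hA2 hH sA sB hA2' hB2' hA hB hc
    hL1 hL2 Gm hG L1
  have hlJ := Growth.len_pos J
  have hnJ : (2 : ℝ) ^ J.1 ≤ n := by exact_mod_cast hn
  have h2J : (0 : ℤ) < 2 ^ (J.1 + 1) := by positivity
  have hn0 : (0 : ℤ) ≤ n := by positivity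
  have h1 := hK R J hR α β γ hcof w (t2 - 2 ^ (J.1 + 1)) (t2 + n + 2 ^ (J.1 + 1))
    (t0 - 2 ^ (J.1 + 1)) (t0 + n + 2 ^ (J.1 + 1)) A B
    (fun x y => pr σ (fr4 (Ico t2 (t2 + (n : ℤ))) (Ico t0 (t0 + (n : ℤ))) c X α β γ w x y))
    _ _ (384 * A1) (384 * A2) H 1 a2 b2 (by linarith) (by positivity) (by positivity) hH one_pos
    sA sB (fun x y hxy => ?_) hA2' hB2' hA hB
    (fun m q u hO => opZ_fr4 hA1.le hL1 hcof _ _ hc σ w m q u hO)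
    (fun m q u hO => hs_fr4 hA2 hL2 hcof _ _ hc σ w m q u hO) Gm hG L1
  · refine h1.trans ?_
    have hcard : ((Ico (t2 - 2 ^ (J.1 + 1)) (t2 + (n : ℤ) + 2 ^ (J.1 + 1))).card : ℝ) ≤ 5 * n := by
      have e : (Ico (t2 - 2 ^ (J.1 + 1)) (t2 + (n : ℤ) + 2 ^ (J.1 + 1))).card =
          n + 2 ^ (J.1 + 2) := by
        rw [Int.card_Ico, show t2 + (n : ℤ) + 2 ^ (J.1 + 1) - (t2 - 2 ^ (J.1 + 1)) =
          ((n + 2 ^ (J.1 + 2) : ℕ) : ℤ) by push_cast; ring]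
        exact Int.toNat_natCast _
      rw [e]
      push_cast
      have : (2 : ℝ) ^ (J.1 + 2) = 4 * 2 ^ J.1 := by ring
      rw [this]
      linarith
    have hAr : 1 * (61 * (((Ico (t2 - 2 ^ (J.1 + 1)) (t2 + (n : ℤ) + 2 ^ (J.1 + 1))).card : ℝ) *
        len J)) ≤ 305 * (n * len J) := by
      have := mul_le_mul_of_nonneg_right hcard hlJ.le
      linarith
    have hX0 : 0 ≤ A2 * H ^ 2 / A1 ^ 2 := by positivity
    have e : 384 * A2 * H ^ 2 / ((384 * A1) ^ 2 * 1) = (A2 * H ^ 2 / A1 ^ 2) * (1 / 384) := by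
      field_simp
    have hX1 : 384 * A2 * H ^ 2 / ((384 * A1) ^ 2 * 1) ≤ A2 * H ^ 2 / A1 ^ 2 := by
      rw [e]; linarith
    have hX2 : 0 ≤ 384 * A2 * H ^ 2 / ((384 * A1) ^ 2 * 1) := by
      rw [e]; positivity
    have hlog : 1 + Real.log (1 + 384 * A2 * H ^ 2 / ((384 * A1) ^ 2 * 1)) ≤
        1 + Real.log (1 + A2 * H ^ 2 / A1 ^ 2) :=
      add_le_add le_rfl (Real.log_le_log (by linarith) (add_le_add le_rfl hX1))
    have hlog0 : 0 ≤ Real.log (1 + A2 * H ^ 2 / A1 ^ 2) := Real.log_nonneg (by linarith)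
    have hs1 := Real.sqrt_le_sqrt (add_le_add (le_refl a2) hAr)
    have hs2 := Real.sqrt_le_sqrt (add_le_add (le_refl b2) hAr)
    rw [mul_assoc (384 * A1)]
    refine mul_le_mul (mul_le_mul_of_nonneg_left hlog hK0) ?_ (by positivity)
      (mul_nonneg hK0 (by linarith))
    refine mul_le_mul_of_nonneg_left ?_ (by positivity)
    exact mul_le_mul hs1 hs2 (Real.sqrt_nonneg _) (Real.sqrt_nonneg _)
  · have hm : x ∈ Ico t2 (t2 + (n : ℤ)) ∧ y ∈ Ico t0 (t0 + (n : ℤ)) := by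
      by_contra hcon
      apply hxy
      simp only [fr4]
      rw [if_neg hcon, pr_zero]
    rw [Finset.mem_Ico, Finset.mem_Ico] at hm
    exact ⟨by linarith [hm.1.1], by linarith [hm.1.2], by linarith [hm.2.1], by linarith [hm.2.2]⟩

/-- the word vanishes if the first kernel vanishes -/
lemma tw_zero {Gm : ℕ → ℤ → ℤ → ℤ → Prop} {A B C : ℤ → ℤ → ℝ} (h : ∀ x y, A x y = 0) (M L1 : ℕ)
    (l w : ℤ) : Tw Gm A B C M L1 l w = 0 := by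
  classical
  unfold Tw
  refine Finset.sum_eq_zero fun m _ => ?_
  rw [Finset.sum_eq_zero, mul_zero]
  intro i _
  refine Finset.sum_eq_zero fun p0 _ => Finset.sum_eq_zero fun p1 _ => ?_
  have hz : Lb3r A B C (2 ^ m) p0 p1 (l * 2 ^ m + (i : ℤ) - w - p0 - p1) = 0 := by
    unfold Lb3r
    rw [Finset.sum_eq_zero, mul_zero]
    intro i0 _
    refine Finset.sum_eq_zero fun i1 _ => Finset.sum_eq_zero fun i2 _ => ?_
    simp only [h, zero_mul, mul_zero]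
  rw [hz, abs_zero]
  split_ifs <;> rfl

/-- Cauchy–Schwarz over the frozen values, with floor -/
lemma cs_floor {W : Finset ℤ} {a2 b2 : ℤ → ℝ} {n : ℕ} {L : ℝ} (hL : 0 ≤ L)
    (hcard : (W.card : ℝ) ≤ 141 * n) (ha0 : ∀ w, 0 ≤ a2 w) (hb0 : ∀ w, 0 ≤ b2 w)
    (ha : ∑ w ∈ W, a2 w ≤ (n : ℝ) ^ 2 * L) (hb : ∑ w ∈ W, b2 w ≤ (n : ℝ) ^ 2 * L) :
    ∑ w ∈ W, √(a2 w + 305 * (n * L)) * √(b2 w + 305 * (n * L)) ≤ 43006 * ((n : ℝ) ^ 2 * L) := by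
  have hAr0 : (0 : ℝ) ≤ 305 * (n * L) := by positivity
  have hEn : ∀ (e2 : ℤ → ℝ), ∑ w ∈ W, e2 w ≤ (n : ℝ) ^ 2 * L →
      ∑ w ∈ W, (e2 w + 305 * (n * L)) ≤ 43006 * ((n : ℝ) ^ 2 * L) := by
    intro e2 he
    rw [Finset.sum_add_distrib, Finset.sum_const, nsmul_eq_mul]
    have h1 : (W.card : ℝ) * (305 * (n * L)) ≤ 141 * n * (305 * (n * L)) :=
      mul_le_mul_of_nonneg_right hcard hAr0
    have h2 : (141 : ℝ) * n * (305 * (n * L)) = 43005 * ((n : ℝ) ^ 2 * L) := by ring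
    linarith
  have h1 := hEn a2 ha
  have h2 := hEn b2 hb
  have h3 := Finset.sum_mul_sq_le_sq_mul_sq W (fun w => √(a2 w + 305 * (n * L)))
    (fun w => √(b2 w + 305 * (n * L)))
  have e1 : ∑ w ∈ W, √(a2 w + 305 * (n * L)) ^ 2 = ∑ w ∈ W, (a2 w + 305 * (n * L)) :=
    Finset.sum_congr rfl fun w _ => Real.sq_sqrt (add_nonneg (ha0 w) hAr0)
  have e2 : ∑ w ∈ W, √(b2 w + 305 * (n * L)) ^ 2 = ∑ w ∈ W, (b2 w + 305 * (n * L)) :=
    Finset.sum_congr rfl fun w _ => Real.sq_sqrt (add_nonneg (hb0 w) hAr0)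
  rw [e1, e2] at h3
  have h4 : (∑ w ∈ W, √(a2 w + 305 * (n * L)) * √(b2 w + 305 * (n * L))) ^ 2 ≤
      (43006 * ((n : ℝ) ^ 2 * L)) ^ 2 := by
    refine h3.trans ?_
    rw [sq (43006 * ((n : ℝ) ^ 2 * L))]
    exact mul_le_mul h1 h2 (Finset.sum_nonneg fun w _ => add_nonneg (hb0 w) hAr0) (by positivity)
  exact (abs_le_of_sq_le_sq' h4 (by positivity)).2

open Classical in
/-- **REGION SUM, UNIFORM KILLER** -/
theorem uni_region (hC : CornerZF) : ∃ K : ℝ, 0 ≤ K ∧ ∀ (k k0 k1 k2 : Fin 4), D4 k k0 k1 k2 →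
    ∀ (bb : ℤ), bb = -1 ∨ bb = -7 → ∀ (R : Finset Nd) (J : Nd), IsRegion R J →
    ∀ (n : ℕ), 2 ^ J.1 ≤ n → ∀ (t0 t1 t2 : ℤ) (a b c : ℤ → ℤ → ℂ) (F : Fin 4 → Fn)
      (A1 A2 Hg h : ℝ), 0 < A1 → 0 ≤ A2 → 0 < Hg → 0 < h →
    F k = kerF4 k k0 k1 k2 1 (Ico t0 (t0 + (n : ℤ))) (Ico t1 (t1 + (n : ℤ)))
      (Ico t2 (t2 + (n : ℤ))) (fun z0 z1 z2 => a z0 z1 * b z1 z2 * c z2 z0) →
    (∀ z z', ‖c z z'‖ ≤ 1) → (∀ z z', ‖a z z'‖ ≤ Hg) → (∀ z z', ‖b z z'‖ ≤ Hg) →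
    ∑ z ∈ Ico t0 (t0 + (n : ℤ)) ×ˢ Ico t1 (t1 + (n : ℤ)), ‖a z.1 z.2‖ ^ 2 ≤ (n : ℝ) ^ 2 →
    ∑ z ∈ Ico t1 (t1 + (n : ℤ)) ×ˢ Ico t2 (t2 + (n : ℤ)), ‖b z.1 z.2‖ ^ 2 ≤ (n : ℝ) ^ 2 →
    (∀ p ∈ R, ∑ y ∈ iv p, ‖F k1 y‖ ≤ A1 * len p) →
    (∀ p ∈ R, ∑ y ∈ iv p, ‖F k1 y‖ ^ 2 ≤ A2 * len p) →
    (∀ y ∈ iv J, ‖F k2 y‖ ≤ h) → (∀ y ∈ iv J, ‖F k0 y‖ ≤ h) →
    ∑ y ∈ iv J, ‖F k2 y‖ ^ 2 ≤ len J → ∑ y ∈ iv J, ‖F k0 y‖ ^ 2 ≤ len J →
    ∑ p ∈ R, ∑ x ∈ adm p.1 p.2, ‖Lbox (2 ^ p.1) bb F x‖ ≤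
      K * (1 + Real.log (1 + A2 * (Hg * h) ^ 2 / A1 ^ 2)) * (A1 * ((n : ℝ) ^ 2 * len J)) := by
  have hK : ∀ l : ℤ, ∃ K : ℝ, 0 ≤ K ∧ (|l| ≤ 7 → ∀ (R : Finset Nd) (J : Nd), IsRegion R J →
    ∀ (α β γ : ℤ), Cof α β γ →
    ∀ (n : ℕ), 2 ^ J.1 ≤ n → ∀ (w t0 t1 t2 : ℤ) (A B : ℤ → ℤ → ℝ) (c : ℤ → ℤ → ℂ) (X : Fn)
      (σ : Bool) (A1 A2 H a2 b2 : ℝ), 0 < A1 → 0 ≤ A2 → 0 < H →
    (∀ x y, A x y ≠ 0 → (x, y) ∈ Ico t0 (t0 + (n : ℤ)) ×ˢ Ico t1 (t1 + (n : ℤ))) →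
    (∀ x y, B x y ≠ 0 → (x, y) ∈ Ico t1 (t1 + (n : ℤ)) ×ˢ Ico t2 (t2 + (n : ℤ))) →
    ∑ z ∈ Ico t0 (t0 + (n : ℤ)) ×ˢ Ico t1 (t1 + (n : ℤ)), A z.1 z.2 ^ 2 ≤ a2 →
    ∑ z ∈ Ico t1 (t1 + (n : ℤ)) ×ˢ Ico t2 (t2 + (n : ℤ)), B z.1 z.2 ^ 2 ≤ b2 →
    (∀ x y, |A x y| ≤ H) → (∀ x y, |B x y| ≤ H) → (∀ z z', ‖c z z'‖ ≤ 1) →
    (∀ p ∈ R, ∑ y ∈ iv p, ‖X y‖ ≤ A1 * len p) → (∀ p ∈ R, ∑ y ∈ iv p, ‖X y‖ ^ 2 ≤ A2 * len p) →
    ∀ (Gm : ℕ → ℤ → ℤ → ℤ → Prop), (∀ m p0 p1 p2, Gm m p0 p1 p2 →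
      ∀ x ∈ Ico p2 (p2 + 2 ^ (m + 1)), ∀ y ∈ Ico p0 (p0 + 2 ^ (m + 1)),
        α * w + β * x + γ * y ∈ Rm R m) →
    ∀ L1 : ℕ, Tw Gm A B (fun x y => pr σ (fr4 (Ico t2 (t2 + (n : ℤ))) (Ico t0 (t0 + (n : ℤ))) c X
        α β γ w x y)) (J.1 + 1) L1 l w ≤
      K * (1 + Real.log (1 + A2 * H ^ 2 / A1 ^ 2)) *
        (384 * A1 * (√(a2 + 305 * (n * len J)) * √(b2 + 305 * (n * len J))))) := by
    intro l
    by_cases hl : |l| ≤ 7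
    · obtain ⟨K, h0, h1⟩ := uni_one hC hl
      exact ⟨K, h0, fun _ => h1⟩
    · exact ⟨0, le_rfl, fun h => absurd h hl⟩
  choose KK hKK0 hKK using hK
  set K1 : ℝ := ∑ l ∈ Icc (-7 : ℤ) 7, KK l with hK1
  have hK1l : ∀ l : ℤ, |l| ≤ 7 → KK l ≤ K1 := by
    intro l hl
    refine Finset.single_le_sum (f := KK) (fun l _ => hKK0 l) ?_
    rw [Finset.mem_Icc]
    exact abs_le.1 hl
  have hK10 : 0 ≤ K1 := Finset.sum_nonneg fun l _ => hKK0 l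
  refine ⟨8 * (K1 * 384 * 43006), by positivity, ?_⟩
  intro k k0 k1 k2 hD bb hbb R J hR n hn t0 t1 t2 a b c F A1 A2 Hg h hA1 hA2 hHg hh hFk hc1 ha hb
    ha2 hb2 hL1 hL2 hh2 hh0 he2 he0
  have hlJ := Growth.len_pos J
  have inj : ∀ a b : Fin 4, sl a = sl b → a = b := by decide
  have hk2 : k2 ≠ k := hD.h2.symm
  have hk0 : k0 ≠ k := hD.h0.symm
  have hk1 : k1 ≠ k := hD.h1.symm
  -- masked letters
  have hbox : ∀ p ∈ R, ∀ x ∈ adm p.1 p.2,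
      ‖Lbox (2 ^ p.1) bb F x‖ = ‖Lbox (2 ^ p.1) bb (mk4 k J F) x‖ := by
    intro p hp x hx
    rw [Qb247.Lbox_congr p.1 p.2 bb x hbb hx F (mk4 k J F) fun s y hy =>
      (mk4_in k s F (hR.1 p hp hy)).symm]
  rw [Finset.sum_congr rfl fun p hp => Finset.sum_congr rfl fun x hx => hbox p hp x hx]
  have hX0 : 0 ≤ A2 * (Hg * h) ^ 2 / A1 ^ 2 := by positivity
  have hlog0 : 0 ≤ Real.log (1 + A2 * (Hg * h) ^ 2 / A1 ^ 2) := Real.log_nonneg (by linarith)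
  have hmain := region_words hD (K1 * (1 + Real.log (1 + A2 * (Hg * h) ^ 2 / A1 ^ 2)) *
      (384 * A1 * (43006 * ((n : ℝ) ^ 2 * len J)))) bb hbb R J hR (Ico t0 (t0 + (n : ℤ)))
      (Ico t1 (t1 + (n : ℤ))) (Ico t2 (t2 + (n : ℤ))) a b c (mk4 k J F) ?_ 1 zero_le_one
    (by rw [mk4_k]; exact hFk)
  · exact hmain.trans (le_of_eq (by ring))
  intro l hl σ0 σ1 σ2 Wf L1
  set a2 : ℤ → ℝ := fun w => ∑ z ∈ Ico t0 (t0 + (n : ℤ)) ×ˢ Ico t1 (t1 + (n : ℤ)),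
    ‖kA k k0 k1 k2 (Ico t0 (t0 + (n : ℤ))) (Ico t1 (t1 + (n : ℤ))) a (mk4 k J F) w z.1 z.2‖ ^ 2
    with ha2d
  set b2 : ℤ → ℝ := fun w => ∑ z ∈ Ico t1 (t1 + (n : ℤ)) ×ˢ Ico t2 (t2 + (n : ℤ)),
    ‖kB k k0 k1 k2 (Ico t1 (t1 + (n : ℤ))) (Ico t2 (t2 + (n : ℤ))) b (mk4 k J F) w z.1 z.2‖ ^ 2
    with hb2d
  have hone : ∀ w, Tw (fun m p0 p1 p2 => Gd k k0 k1 k2 R m w p0 p1 p2)
        (fun z z' => pr σ0 (kA k k0 k1 k2 (Ico t0 (t0 + (n : ℤ))) (Ico t1 (t1 + (n : ℤ))) a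
          (mk4 k J F) w z z'))
        (fun z z' => pr σ1 (kB k k0 k1 k2 (Ico t1 (t1 + (n : ℤ))) (Ico t2 (t2 + (n : ℤ))) b
          (mk4 k J F) w z z'))
        (fun z z' => pr σ2 (kC k k0 k1 k2 (Ico t2 (t2 + (n : ℤ))) (Ico t0 (t0 + (n : ℤ))) c
          (mk4 k J F) w z z')) (J.1 + 1) L1 l w ≤
      K1 * (1 + Real.log (1 + A2 * (Hg * h) ^ 2 / A1 ^ 2)) *
        (384 * A1 * (√(a2 w + 305 * (n * len J)) * √(b2 w + 305 * (n * len J)))) := by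
    intro w
    have h1 := hKK l hl R J hR (sl k - sl k1) (sl k2 - sl k1) (sl k0 - sl k1) (cof_D4 hD) n hn w
      t0 t1 t2
      (fun z z' => pr σ0 (kA k k0 k1 k2 (Ico t0 (t0 + (n : ℤ))) (Ico t1 (t1 + (n : ℤ))) a
          (mk4 k J F) w z z'))
      (fun z z' => pr σ1 (kB k k0 k1 k2 (Ico t1 (t1 + (n : ℤ))) (Ico t2 (t2 + (n : ℤ))) b
          (mk4 k J F) w z z')) c (mk4 k J F k1) σ2 A1 A2 (Hg * h) (a2 w) (b2 w) hA1 hA2
      (by positivity) ?_ ?_ ?_ ?_ ?_ ?_ hc1 ?_ ?_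
      (fun m p0 p1 p2 => Gd k k0 k1 k2 R m w p0 p1 p2) ?_ L1
    · refine h1.trans ?_
      exact mul_le_mul_of_nonneg_right (mul_le_mul_of_nonneg_right (hK1l l hl) (by linarith))
        (by positivity)
    · intro x y hxy
      rw [Finset.mem_product]
      by_contra hcon
      apply hxy
      simp only [kA, fr4]
      rw [if_neg (fun h => hcon ⟨h.1, h.2⟩), pr_zero]
    · intro x y hxy
      rw [Finset.mem_product]
      by_contra hcon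
      apply hxy
      simp only [kB, fr4]
      rw [if_neg (fun h => hcon ⟨h.1, h.2⟩), pr_zero]
    · refine Finset.sum_le_sum fun z _ => ?_
      rw [← sq_abs]
      exact pow_le_pow_left₀ (abs_nonneg _) (abs_pr_le _ _) 2
    · refine Finset.sum_le_sum fun z _ => ?_
      rw [← sq_abs]
      exact pow_le_pow_left₀ (abs_nonneg _) (abs_pr_le _ _) 2
    · intro x y
      refine (abs_pr_le _ _).trans ?_
      unfold kA
      rw [mk4_eq hk2]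
      exact fr4_sup hh hHg hh2 _ _ _ _ _ ha w x y
    · intro x y
      refine (abs_pr_le _ _).trans ?_
      unfold kB
      rw [mk4_eq hk0]
      exact fr4_sup hh hHg hh0 _ _ _ _ _ hb w x y
    · intro p hp
      rw [mk4_eq hk1]
      exact (Finset.sum_le_sum fun y _ => norm_mk_le J (F k1) y).trans (hL1 p hp)
    · intro p hp
      rw [mk4_eq hk1]
      exact (Finset.sum_le_sum fun y _ =>
        pow_le_pow_left₀ (norm_nonneg _) (norm_mk_le J (F k1) y) 2).trans (hL2 p hp)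
    · intro m p0 p1 p2 hg x hx y hy
      rw [Finset.mem_Ico] at hx hy
      have := (hg (y - p0) 0 (x - p2) (by linarith) (by linarith) le_rfl (by positivity)
        (by linarith) (by linarith)).2.2
      unfold sha at this
      rw [show p2 + (x - p2) = x by ring, show p0 + (y - p0) = y by ring] at this
      exact this
  -- the frozen values that matter
  set Wa : Finset ℤ := Wf.filter (fun w => ∃ z ∈ Ico t0 (t0 + (n : ℤ)) ×ˢ Ico t1 (t1 + (n : ℤ)),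
    kA k k0 k1 k2 (Ico t0 (t0 + (n : ℤ))) (Ico t1 (t1 + (n : ℤ))) a (mk4 k J F) w z.1 z.2 ≠ 0)
    with hWa
  have hA0 : ∀ w ∈ Wf, w ∉ Wa → ∀ x y, pr σ0 (kA k k0 k1 k2 (Ico t0 (t0 + (n : ℤ)))
      (Ico t1 (t1 + (n : ℤ))) a (mk4 k J F) w x y) = 0 := by
    intro w hw hwa x y
    by_cases hm : x ∈ Ico t0 (t0 + (n : ℤ)) ∧ y ∈ Ico t1 (t1 + (n : ℤ))
    · have : kA k k0 k1 k2 (Ico t0 (t0 + (n : ℤ))) (Ico t1 (t1 + (n : ℤ))) a (mk4 k J F) w x y =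
          0 := by
        by_contra h0
        exact hwa (Finset.mem_filter.2 ⟨hw, (x, y), Finset.mem_product.2 hm, h0⟩)
      rw [this, pr_zero]
    · simp only [kA, fr4]
      rw [if_neg hm, pr_zero]
  rw [← Finset.sum_subset (Finset.filter_subset _ _ : Wa ⊆ Wf) fun w hw hwa =>
    tw_zero (hA0 w hw hwa) _ _ _ _]
  have hcardW : (Wa.card : ℝ) ≤ 141 * n := by
    refine card_w hn (α := sl k - sl k2) (β := sl k0 - sl k2) (γ := sl k1 - sl k2)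
      (sub_ne_zero.2 fun e => hD.h2 (inj _ _ e)) (sl_bd4 _ _) (sl_bd4 _ _) t0 t1 Wa fun w hw => ?_
    obtain ⟨z, hz, h0⟩ := (Finset.mem_filter.1 hw).2
    rw [Finset.mem_product] at hz
    refine ⟨z.1, hz.1, z.2, hz.2, ?_⟩
    by_contra hcon
    apply h0
    unfold kA fr4
    rw [mk4_eq hk2, if_pos hz]
    unfold mk
    rw [if_neg hcon, mul_zero]
  have hsA : ∑ w ∈ Wa, a2 w ≤ (n : ℝ) ^ 2 * len J := by
    simp only [ha2d, kA]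
    rw [mk4_eq hk2]
    exact fr4_energy he2 (sub_ne_zero.2 fun e => hD.h2 (inj _ _ e)) _ _ _ _ _ _ ha2
  have hsB : ∑ w ∈ Wa, b2 w ≤ (n : ℝ) ^ 2 * len J := by
    simp only [hb2d, kB]
    rw [mk4_eq hk0]
    exact fr4_energy he0 (sub_ne_zero.2 fun e => hD.h0 (inj _ _ e)) _ _ _ _ _ _ hb2
  have hCS := cs_floor (n := n) hlJ.le hcardW (a2 := a2) (b2 := b2)
    (fun w => Finset.sum_nonneg fun _ _ => sq_nonneg _)
    (fun w => Finset.sum_nonneg fun _ _ => sq_nonneg _) hsA hsB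
  refine (Finset.sum_le_sum fun w _ => hone w).trans ?_
  rw [← Finset.mul_sum, ← Finset.mul_sum]
  refine mul_le_mul_of_nonneg_left ?_ (mul_nonneg hK10 (by linarith))
  exact mul_le_mul_of_nonneg_left hCS (by positivity)

end Crest.Agent.R079.TKx248
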