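import Crest.Agent.R079.TKd_248
import Crest.Agent.R079.PO_263
import Crest.Agent.R079.OpKa_276
import Crest.Agent.R079.BadN_360
import Crest.Agent.R079.KTz_279

/-! R079 (helper248): TALL KILL for MIXTURES OF OP-ATOMS.  `word3` : the frozen letter is a core mixture
(`Rc`), one of the three other letters (any slot `s`) has small local `L¹` averages `≤ A1` on the region,
the two others are bounded by `h`, all three have local `L²` averages `≤ 1`: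
`|TR| ≤ K La (1 + log (1 + Hf Ht h² / A1²)) A1 |J|`. -/

set_option autoImplicit false

namespace Crest.Agent.R079.TKx248

open Finset Crest.Agent.R079.Grid Crest.Agent.R079.Pot Crest.Agent.R079.Glue Crest.Agent.R079.GlueK
  Crest.Agent.R079.Growth Crest.Agent.R079.QRed Crest.Agent.R079.BadTx138 Crest.Agent.R079.KLx446
  Crest.Agent.R079.KC996 Crest.Agent.R079.OpS276 Crest.Agent.R079.OLevSw Crest.Agent.R079.POx263

/-- the corner with floors, unconditional -/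
theorem cornerZF : CornerZF := cornerZF_of Crest.Agent.R079.KTx279.cornerZ

/-- an operator atom as a letter with kernel -/
theorem opA_kerF4 (k j e e' : Fin 4) (n : ℕ) (w q u : ℤ) (m : ℤ → ℤ → ℂ)
    (U V : Fin n → Fin n → ℂ) : opA k j e e' n w q u m U V =
      kerF4 k e' j e 1 (Ico u (u + (n : ℤ))) (Ico w (w + (n : ℤ))) (Ico q (q + (n : ℤ)))
        (fun z0 z1 z2 => DicOp679.ext w u V z1 z0 * DicOp679.ext w q U z1 z2 * m z2 z0) := by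
  funext y
  unfold opA kerF4
  simp only [OLevSw.sum_Ico_fin, DicOp679.ext_val]
  rw [Complex.ofReal_one, one_mul]
  have e : ∀ g : Fin n → Fin n → Fin n → ℂ, ∑ c, ∑ i, ∑ i', g c i i' =
      ∑ i', ∑ c, ∑ i, g c i i' := by
    intro g
    calc ∑ c, ∑ i, ∑ i', g c i i' = ∑ c, ∑ i', ∑ i, g c i i' :=
          Finset.sum_congr rfl fun c _ => Finset.sum_comm
      _ = _ := Finset.sum_comm
  rw [e]
  refine Finset.sum_congr rfl fun i' _ => Finset.sum_congr rfl fun c _ =>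
    Finset.sum_congr rfl fun i _ => ?_
  unfold lf4
  refine ite_congr (propext ⟨fun h => ?_, fun h => ?_⟩) (fun _ => by ring) fun _ => rfl
  · linarith
  · linarith

/-- energy of a section -/
theorem ext_energy {n : ℕ} (w q : ℤ) (U : Fin n → Fin n → ℂ) {α : Fin n → ℝ}
    (h : ∀ c, ∑ i, ‖U c i‖ ^ 2 ≤ n * α c) (hα : ∑ c, α c ≤ n) :
    ∑ z ∈ Ico w (w + (n : ℤ)) ×ˢ Ico q (q + (n : ℤ)), ‖DicOp679.ext w q U z.1 z.2‖ ^ 2 ≤
      (n : ℝ) ^ 2 := by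
  rw [Finset.sum_product, OLevSw.sum_Ico_fin]
  have h1 : ∀ c : Fin n, ∑ y ∈ Ico q (q + (n : ℤ)),
      ‖DicOp679.ext w q U (w + ((c : ℕ) : ℤ)) y‖ ^ 2 ≤ n * α c := by
    intro c
    rw [OLevSw.sum_Ico_fin]
    simp only [DicOp679.ext_val]
    exact h c
  calc _ ≤ ∑ c : Fin n, n * α c := Finset.sum_le_sum fun c _ => h1 c
    _ = n * ∑ c, α c := by rw [Finset.mul_sum]
    _ ≤ n * n := mul_le_mul_of_nonneg_left hα (Nat.cast_nonneg n)
    _ = (n : ℝ) ^ 2 := by ring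

theorem en_of_av {p : Nd} {X : Fn} (h : av p X ≤ 1) : ∑ x ∈ iv p, ‖X x‖ ^ 2 ≤ len p := by
  unfold av av2 at h
  rw [Real.sqrt_le_left zero_le_one, one_div, inv_mul_le_iff₀ (by positivity)] at h
  unfold iv len
  linarith

theorem len_mono {J I : Nd} (h : iv J ⊆ iv I) : J.1 ≤ I.1 := by
  have h0 : ((iv J).card : ℝ) ≤ (iv I).card := by exact_mod_cast Finset.card_le_card h
  rw [Growth.card_iv, Growth.card_iv] at h0
  have h1 : 2 ^ (J.1 + 7) ≤ 2 ^ (I.1 + 7) := by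
    unfold len at h0
    exact_mod_cast h0
  have h2 := (Nat.pow_le_pow_iff_right (by norm_num : 1 < 2)).1 h1
  omega

open Classical in
/-- one unit atom, special vertex `s` = killer slot -/
theorem word1 : ∃ K : ℝ, 0 ≤ K ∧ ∀ (i s e e' : Fin 4), Dst4 i s e e' →
    ∀ {bb : ℤ} {ε : ℕ → ℤ → ℂ}, Adm bb ε → ∀ (W : Finset Nd) (J : Nd), Full W J →
    ∀ (n : ℕ), 2 ^ J.1 ≤ n → ∀ (F : Fin 4 → Fn) (Ht Hf A1 h : ℝ), 0 < Ht → 0 < Hf → 0 < A1 → 0 < h →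
    IsOpS i s e e' n Ht Hf (F i) →
    (∀ p ∈ W, ∑ y ∈ iv p, ‖F s y‖ ≤ A1 * len p) →
    (∀ j, j ≠ i → ∀ p ∈ W, av p (F j) ≤ 1) →
    (∀ j, j ≠ i → j ≠ s → ∀ y ∈ iv J, ‖F j y‖ ≤ h) →
    ‖TR bb ε W F‖ ≤ K * (1 + Real.log (1 + Hf * Ht * h ^ 2 / A1 ^ 2)) *
      (A1 * ((n : ℝ) ^ 2 * len J)) := by
  obtain ⟨K, hK0, hK⟩ := uni_region cornerZF
  refine ⟨K, hK0, ?_⟩
  intro i s e e' hd bb ε hA W J hW n hn F Ht Hf A1 h hHt hHf hA1 hh hF hL1 hav hhh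
  obtain ⟨w, q, u, m, U, V, α, hD, hFi⟩ := hF
  have hD4 : D4 i e' s e := ⟨hd.ke', hd.jk.symm, hd.ke, hd.je'.symm, hd.ee'.symm, hd.je⟩
  have hH : ∀ x : ℝ, x ^ 2 ≤ Hf * Ht → 0 ≤ x → x ≤ √(Hf * Ht) := fun x hx hx0 =>
    Real.le_sqrt_of_sq_le hx
  have hU : ∀ c i, ‖U c i‖ ≤ √(Hf * Ht) := fun c i =>
    hH _ ((hD.UH c i).trans (mul_le_mul_of_nonneg_left (hD.αH c) hHf.le)) (norm_nonneg _)
  have hV : ∀ c i, ‖V c i‖ ≤ √(Hf * Ht) := fun c i =>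
    hH _ ((hD.VH c i).trans (mul_le_mul_of_nonneg_left (hD.αH c) hHf.le)) (norm_nonneg _)
  have hsq : (√(Hf * Ht) * h) ^ 2 = Hf * Ht * h ^ 2 := by
    rw [mul_pow, Real.sq_sqrt (by positivity)]
  have hen : ∀ j, j ≠ i → ∀ p ∈ W, ∑ y ∈ iv p, ‖F j y‖ ^ 2 ≤ len p := by
    intro j hj p hp
    exact en_of_av (hav j hj p hp)
  have h1 := hK i e' s e hD4 bb hA.1 W J hW.reg n hn u w q
    (fun z0 z1 => DicOp679.ext w u V z1 z0) (fun z1 z2 => DicOp679.ext w q U z1 z2)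
    (fun z2 z0 => m z2 z0) F A1 1 (√(Hf * Ht)) h hA1 zero_le_one
    (Real.sqrt_pos.2 (by positivity)) hh ?_ hD.m1
    (fun z z' => DicOp679.ext_le w u V (Real.sqrt_nonneg _) hV _ _)
    (fun z z' => DicOp679.ext_le w q U (Real.sqrt_nonneg _) hU _ _) ?_
    (ext_energy w q U hD.U2 hD.α1) hL1
    (fun p hp => by rw [one_mul]; exact hen s hd.jk p hp)
    (hhh e (Ne.symm hd.ke) (Ne.symm hd.je)) (hhh e' (Ne.symm hd.ke') (Ne.symm hd.je'))
    (hen e (Ne.symm hd.ke) J hW.top) (hen e' (Ne.symm hd.ke') J hW.top)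
  · rw [hsq, one_mul] at h1
    exact (Qb247.norm_TR_le hA.2 W F).trans h1
  · rw [hFi]
    exact opA_kerF4 i s e e' n w q u m U V
  · have h2 := ext_energy w u V hD.V2 hD.α1
    rw [Finset.sum_product] at h2 ⊢
    rw [Finset.sum_comm]
    exact h2

theorem exists_two' : ∀ {i m : Fin 4}, i ≠ m → ∃ e1 e2 : Fin 4,
    m ≠ i ∧ m ≠ e1 ∧ m ≠ e2 ∧ i ≠ e1 ∧ i ≠ e2 ∧ e1 ≠ e2 := by
  decide

open Classical in
/-- one unit atom of side `n`, any special vertex, any killer slot `s` -/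
theorem word2 : ∃ K : ℝ, 0 ≤ K ∧ ∀ (i m e e' s : Fin 4), Dst4 i m e e' → s ≠ i →
    ∀ {bb : ℤ} {ε : ℕ → ℤ → ℂ}, Adm bb ε → ∀ (W : Finset Nd) (J : Nd), Full W J →
    ∀ (n : ℕ), 2 ^ J.1 ≤ n → ∀ (F : Fin 4 → Fn) (Ht Hf A1 h : ℝ), 0 < Ht → 0 < Hf → 0 < A1 → 0 < h →
    IsOpS i m e e' n Ht Hf (F i) →
    (∀ p ∈ W, ∑ y ∈ iv p, ‖F s y‖ ≤ A1 * len p) →
    (∀ j, j ≠ i → ∀ p ∈ W, av p (F j) ≤ 1) →
    (∀ j, j ≠ i → j ≠ s → ∀ y ∈ iv J, ‖F j y‖ ≤ h) →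
    ‖TR bb ε W F‖ ≤ K * (1 + Real.log (1 + Hf * Ht * h ^ 2 / A1 ^ 2)) *
      (A1 * ((n : ℝ) ^ 2 * len J)) := by
  obtain ⟨K, hK0, hK⟩ := word1
  refine ⟨324 * K, by positivity, ?_⟩
  intro i m e e' s hd hsi bb ε hA W J hW n hn F Ht Hf A1 h hHt hHf hA1 hh hF hL1 hav hhh
  obtain ⟨e1, e2, g1, g2, g3, g4, g5, g6⟩ := exists_two' (Ne.symm hsi)
  have hd' : Dst4 i s e1 e2 := ⟨g1, g2, g3, g4, g5, g6⟩
  have hn0 : 0 < n := lt_of_lt_of_le (by positivity) hn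
  have hlJ := Growth.len_pos J
  obtain ⟨M, ψ, hM, hψ, hsum⟩ := isOpS_any hd.jk (Ne.symm hd.ke) (Ne.symm hd.ke') hd.je hd.je'
    hd.ee' hn0 hHf.le hF s e1 e2 g1 (Ne.symm g4) (Ne.symm g5) g2 g3 g6
  have hX0 : 0 ≤ Hf * Ht * h ^ 2 / A1 ^ 2 := by positivity
  have hlog0 : 0 ≤ Real.log (1 + Hf * Ht * h ^ 2 / A1 ^ 2) := Real.log_nonneg (by linarith)
  set R := K * (1 + Real.log (1 + Hf * Ht * h ^ 2 / A1 ^ 2)) * (A1 * ((n : ℝ) ^ 2 * len J))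
    with hR
  have hR0 : 0 ≤ R := by positivity
  have h3 := OpK276.TR_comb (ε := ε) hA (W := W) (I := J) (fun p hp => hW.reg.1 p hp) F i
    (fun l y => ψ l y) (fun _ => 1) (fun y _ => by rw [hsum]; simp)
  have h1 : ∀ l, ‖TR bb ε W (Function.update F i (ψ l))‖ ≤ R := by
    intro l
    refine hK i s e1 e2 hd' hA W J hW n hn _ Ht Hf A1 h hHt hHf hA1 hh ?_ ?_ ?_ ?_
    · rw [Function.update_self]
      exact hψ l
    · rw [Function.update_of_ne hsi]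
      exact hL1
    · intro j hj
      rw [Function.update_of_ne hj]
      exact hav j hj
    · intro j hj
      rw [Function.update_of_ne hj]
      exact hhh j hj
  rw [h3]
  calc ‖∑ l, (1 : ℂ) * TR bb ε W (Function.update F i (fun y => ψ l y))‖ ≤ ∑ _l : Fin M, R := by
        refine (norm_sum_le _ _).trans (Finset.sum_le_sum fun l _ => ?_)
        rw [one_mul]
        exact h1 l
    _ = M * R := by simp
    _ ≤ 324 * R := by
        have : (M : ℝ) ≤ 324 := by exact_mod_cast hM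
        exact mul_le_mul_of_nonneg_right this hR0
    _ = _ := by rw [hR]; ring

open Classical in
/-- **core mixture, killer slot `s`** -/
theorem word3 : ∃ K : ℝ, 0 ≤ K ∧ ∀ (i m e e' s : Fin 4), Dst4 i m e e' → s ≠ i →
    ∀ {bb : ℤ} {ε : ℕ → ℤ → ℂ}, Adm bb ε → ∀ (W : Finset Nd) (J I : Nd), Full W J → iv J ⊆ iv I →
    ∀ (F : Fin 4 → Fn) (Ht Hf La A1 h : ℝ), 0 < Ht → 0 < Hf → 0 < A1 → 0 < h →
    Rc i m e e' I Ht Hf La (F i) →
    (∀ p ∈ W, ∑ y ∈ iv p, ‖F s y‖ ≤ A1 * len p) →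
    (∀ j, j ≠ i → ∀ p ∈ W, av p (F j) ≤ 1) →
    (∀ j, j ≠ i → j ≠ s → ∀ y ∈ iv J, ‖F j y‖ ≤ h) →
    ‖TR bb ε W F‖ ≤ K * (1 + Real.log (1 + Hf * Ht * h ^ 2 / A1 ^ 2)) * (La * A1 * len J) := by
  obtain ⟨K, hK0, hK⟩ := word2
  refine ⟨K, hK0, ?_⟩
  intro i m e e' s hd hsi bb ε hA W J I hW hJI F Ht Hf La A1 h hHt hHf hA1 hh hF hL1 hav hhh
  obtain ⟨L, ψ, α, h0, h1, h2, h3⟩ := hF
  have hn : 2 ^ J.1 ≤ 2 ^ I.1 := Nat.pow_le_pow_right (by norm_num) (len_mono hJI)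
  have hX0 : 0 ≤ Hf * Ht * h ^ 2 / A1 ^ 2 := by positivity
  have hlog0 : 0 ≤ Real.log (1 + Hf * Ht * h ^ 2 / A1 ^ 2) := Real.log_nonneg (by linarith)
  have hlJ := Growth.len_pos J
  set R := K * (1 + Real.log (1 + Hf * Ht * h ^ 2 / A1 ^ 2)) * (A1 * len J) with hR
  have hR0 : 0 ≤ R := by positivity
  have hN : (0 : ℝ) < (2 : ℝ) ^ I.1 := by positivity
  have h4 := OpK276.TR_comb (ε := ε) hA (W := W) (I := J) (fun p hp => hW.reg.1 p hp) F i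
    (fun l y => ψ l y) (fun l => ((α l / ((2 : ℝ) ^ I.1) ^ 2 : ℝ) : ℂ))
    (fun y hy => h2 y (hJI hy))
  have h5 : ∀ l, ‖TR bb ε W (Function.update F i (ψ l))‖ ≤ R * ((2 : ℝ) ^ I.1) ^ 2 := by
    intro l
    have h6 := hK i m e e' s hd hsi hA W J hW (2 ^ I.1) hn (Function.update F i (ψ l)) Ht Hf A1 h
      hHt hHf hA1 hh (by rw [Function.update_self]; exact h1 l)
      (by rw [Function.update_of_ne hsi]; exact hL1)
      (fun j hj => by rw [Function.update_of_ne hj]; exact hav j hj)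
      (fun j hj => by rw [Function.update_of_ne hj]; exact hhh j hj)
    refine h6.trans (le_of_eq ?_)
    rw [hR]
    push_cast
    ring
  rw [h4]
  calc ‖∑ l, ((α l / ((2 : ℝ) ^ I.1) ^ 2 : ℝ) : ℂ) * TR bb ε W (Function.update F i (fun y =>
      ψ l y))‖ ≤ ∑ l, α l * R := by
        refine (norm_sum_le _ _).trans (Finset.sum_le_sum fun l _ => ?_)
        rw [norm_mul, Complex.norm_real, Real.norm_of_nonneg (div_nonneg (h0 l) (by positivity))]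
        calc α l / ((2 : ℝ) ^ I.1) ^ 2 * ‖TR bb ε W (Function.update F i (fun y => ψ l y))‖ ≤
            α l / ((2 : ℝ) ^ I.1) ^ 2 * (R * ((2 : ℝ) ^ I.1) ^ 2) :=
              mul_le_mul_of_nonneg_left (h5 l) (div_nonneg (h0 l) (by positivity))
          _ = _ := by field_simp
    _ = (∑ l, α l) * R := by rw [Finset.sum_mul]
    _ ≤ La * R := mul_le_mul_of_nonneg_right h3 hR0
    _ = _ := by rw [hR]; ring

end Crest.Agent.R079.TKx248
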