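import Crest.Agent.R079.TKe_248
import Crest.Agent.R079.TS2_815

/-! R079 (helper248): **THE TALL PART OF A LETTER IS KILLED** (852 (K2)) next to a core mixture of op-atoms
and two other letters which are only bounded in local `L²`: telescoping over the heights `2^l H` of all
three letters.  `tall_TR` : `|TR (.., hi H (F s), ..)| ≤ K (1 + log (1 + Hf Ht) + log H) (La / H) |J|`. -/

set_option autoImplicit false

namespace Crest.Agent.R079.TKx248

open Finset Crest.Agent.R079.Grid Crest.Agent.R079.Pot Crest.Agent.R079.Glue Crest.Agent.R079.GlueK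
  Crest.Agent.R079.Growth Crest.Agent.R079.QRed Crest.Agent.R079.BadTx138 Crest.Agent.R079.KLx446
  Crest.Agent.R079.KC996 Crest.Agent.R079.OpS276 Crest.Agent.R079.OLevSw Crest.Agent.R079.POx263
  Crest.Agent.R079.BadN360

open Classical in
/-- letters at level `l` -/
noncomputable def lv3 (F : Fin 4 → Fn) (i s : Fin 4) (H : ℝ) (l : ℕ) (j : Fin 4) : Fn :=
  if j = i then F i else if j = s then fun y => lo (2 ^ l * H) (F s) y - lo H (F s) y
    else lo (2 ^ l * H) (F j)

/-- part of `X` of height in `(2^l H, 2^(l+1) H]` -/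
noncomputable def bd3 (X : Fn) (H : ℝ) (l : ℕ) : Fn :=
  fun y => lo (2 ^ (l + 1) * H) X y - lo (2 ^ l * H) X y

lemma lv3_i (F : Fin 4 → Fn) (i s : Fin 4) (H : ℝ) (l : ℕ) : lv3 F i s H l i = F i := by
  unfold lv3; rw [if_pos rfl]

lemma lv3_diff {F : Fin 4 → Fn} {i s : Fin 4} {H : ℝ} {l : ℕ} {j : Fin 4} (hj : j ≠ i) (y : ℤ) :
    lv3 F i s H (l + 1) j y - lv3 F i s H l j y = bd3 (F j) H l y := by
  unfold lv3 bd3
  rw [if_neg hj, if_neg hj]
  by_cases h : j = s
  · subst h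
    rw [if_pos rfl, if_pos rfl]
    ring
  · rw [if_neg h, if_neg h]

lemma lv3_le {F : Fin 4 → Fn} {i s : Fin 4} {H : ℝ} (hH : 0 ≤ H) {l : ℕ} {j : Fin 4} (hj : j ≠ i)
    (y : ℤ) : ‖lv3 F i s H l j y‖ ≤ ‖F j y‖ := by
  have h1 : H ≤ 2 ^ l * H := by
    have : (1 : ℝ) ≤ 2 ^ l := one_le_pow₀ (by norm_num)
    nlinarith
  unfold lv3
  rw [if_neg hj]
  by_cases h : j = s
  · subst h
    rw [if_pos rfl]
    unfold lo
    by_cases h2 : ‖F j y‖ ≤ H
    · rw [if_pos h2, if_pos (h2.trans h1), sub_self, norm_zero]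
      exact norm_nonneg _
    · rw [if_neg h2, sub_zero]
      split_ifs
      · exact le_rfl
      · simp
  · rw [if_neg h]
    exact norm_lo_le' _ _ _

lemma lv3_sup {F : Fin 4 → Fn} {i s : Fin 4} {H : ℝ} (hH : 0 ≤ H) {l : ℕ} {j : Fin 4} (hj : j ≠ i)
    (y : ℤ) : ‖lv3 F i s H l j y‖ ≤ 2 ^ l * H := by
  have h1 : H ≤ 2 ^ l * H := by
    have : (1 : ℝ) ≤ 2 ^ l := one_le_pow₀ (by norm_num)
    nlinarith
  unfold lv3
  rw [if_neg hj]
  by_cases h : j = s
  · subst h
    rw [if_pos rfl]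
    unfold lo
    by_cases h2 : ‖F j y‖ ≤ H
    · rw [if_pos h2, if_pos (h2.trans h1), sub_self, norm_zero]
      linarith
    · rw [if_neg h2, sub_zero]
      split_ifs with h3
      · exact h3
      · simp only [norm_zero]; linarith
  · rw [if_neg h]
    exact norm_lo_le (by linarith) _ _

lemma bd3_le {X : Fn} {H : ℝ} (hH : 0 ≤ H) {l : ℕ} (y : ℤ) : ‖bd3 X H l y‖ ≤ ‖X y‖ := by
  have h1 : (2 : ℝ) ^ l * H ≤ 2 ^ (l + 1) * H := by
    have : (2 : ℝ) ^ l ≤ 2 ^ (l + 1) := pow_le_pow_right₀ (by norm_num) (Nat.le_succ l)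
    exact mul_le_mul_of_nonneg_right this hH
  unfold bd3 lo
  by_cases h2 : ‖X y‖ ≤ 2 ^ l * H
  · rw [if_pos h2, if_pos (h2.trans h1), sub_self, norm_zero]
    exact norm_nonneg _
  · rw [if_neg h2, sub_zero]
    split_ifs
    · exact le_rfl
    · simp

/-- `L¹` density of a band -/
lemma bd3_l1 {X : Fn} {H : ℝ} (hH : 0 < H) {l : ℕ} (y : ℤ) :
    ‖bd3 X H l y‖ ≤ (2 ^ l * H)⁻¹ * ‖X y‖ ^ 2 := by
  have h0 : (0 : ℝ) < 2 ^ l * H := by positivity
  by_cases h2 : ‖X y‖ ≤ 2 ^ l * H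
  · have h1 : (2 : ℝ) ^ l * H ≤ 2 ^ (l + 1) * H := by
      have : (2 : ℝ) ^ l ≤ 2 ^ (l + 1) := pow_le_pow_right₀ (by norm_num) (Nat.le_succ l)
      exact mul_le_mul_of_nonneg_right this hH.le
    unfold bd3 lo
    rw [if_pos h2, if_pos (h2.trans h1), sub_self, norm_zero]
    positivity
  · push Not at h2
    refine (bd3_le hH.le y).trans ?_
    rw [← div_eq_inv_mul, le_div_iff₀ h0]
    nlinarith [norm_nonneg (X y)]

lemma TR_sub (bb : ℤ) (ε : ℕ → ℤ → ℂ) (W : Finset Nd) (F : Fin 4 → Fn) (r : Fin 4) (X Y : Fn) :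
    TR bb ε W (Function.update F r X) - TR bb ε W (Function.update F r Y) =
      TR bb ε W (Function.update F r (fun y => X y - Y y)) := by
  unfold TR
  rw [← Finset.sum_sub_distrib]
  refine Finset.sum_congr rfl fun p _ => ?_
  exact ((TRec.T2.Lp bb ε F r p).map_sub X Y).symm

lemma univ4 : ∀ {i s p q : Fin 4}, i ≠ s → i ≠ p → i ≠ q → s ≠ p → s ≠ q → p ≠ q →
    ∀ j : Fin 4, j = i ∨ j = s ∨ j = p ∨ j = q := by
  decide

/-- numbers -/
lemma log_level {P H : ℝ} (hP : 0 ≤ P) (hH : 1 ≤ H) (l : ℕ) :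
    1 + Real.log (1 + P * (2 ^ (l + 1) * H) ^ 2 / ((2 ^ l * H)⁻¹) ^ 2) ≤
      5 * ((1 + (Real.log (1 + P) + Real.log H)) * (1 + l)) := by
  have hX : (1 : ℝ) ≤ 2 ^ l * H := by
    have : (1 : ℝ) ≤ 2 ^ l := one_le_pow₀ (by norm_num)
    nlinarith
  have hX0 : (0 : ℝ) < 2 ^ l * H := by linarith
  have e1 : P * (2 ^ (l + 1) * H) ^ 2 / ((2 ^ l * H)⁻¹) ^ 2 = 4 * P * (2 ^ l * H) ^ 4 := by
    rw [inv_pow, div_inv_eq_mul, pow_succ]
    ring
  rw [e1]
  have h4 : (1 : ℝ) ≤ (2 ^ l * H) ^ 4 := one_le_pow₀ hX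
  have h1 : 1 + 4 * P * (2 ^ l * H) ^ 4 ≤ 5 * ((1 + P) * (2 ^ l * H) ^ 4) := by
    nlinarith [mul_nonneg hP (by linarith : (0 : ℝ) ≤ (2 ^ l * H) ^ 4)]
  have h0 : 0 < 1 + 4 * P * (2 ^ l * H) ^ 4 := by positivity
  have h2 := Real.log_le_log h0 h1
  have h1P : (0 : ℝ) < 1 + P := by linarith
  rw [Real.log_mul (by norm_num) (by positivity), Real.log_mul h1P.ne' (by positivity),
    Real.log_pow, Real.log_mul (by positivity) (by linarith), Real.log_pow] at h2
  have h5 : Real.log 5 ≤ 4 := by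
    have := Real.log_le_sub_one_of_pos (show (0 : ℝ) < 5 by norm_num)
    linarith
  have hl2 : Real.log 2 ≤ 1 := by
    have := Real.log_le_sub_one_of_pos (show (0 : ℝ) < 2 by norm_num)
    linarith
  have hlP : 0 ≤ Real.log (1 + P) := Real.log_nonneg (by linarith)
  have hlH : 0 ≤ Real.log H := Real.log_nonneg hH
  have hl0 : (0 : ℝ) ≤ l := Nat.cast_nonneg l
  have h6 : (l : ℝ) * Real.log 2 ≤ l := by nlinarith
  push_cast at h2
  nlinarith [mul_nonneg hlP hl0, mul_nonneg hlH hl0]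

lemma sum_level (L : ℕ) : ∑ l ∈ range L, (1 + (l : ℝ)) * (2 ^ l)⁻¹ ≤ 4 := by
  have h : ∑ l ∈ range L, (1 + (l : ℝ)) * (2 ^ l)⁻¹ = 4 - (2 * L + 4) * (2 ^ L)⁻¹ := by
    induction L with
    | zero => norm_num
    | succ n ih =>
      rw [Finset.sum_range_succ, ih]
      push_cast
      rw [pow_succ, mul_inv]
      ring
  rw [h]
  have : (0 : ℝ) ≤ (2 * L + 4) * (2 ^ L)⁻¹ := by positivity
  linarith

open Classical in
/-- **THE TALL PART IS KILLED** -/
theorem tall_TR : ∃ K : ℝ, 0 ≤ K ∧ ∀ (i m e e' s : Fin 4), Dst4 i m e e' → s ≠ i →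
    ∀ {bb : ℤ} {ε : ℕ → ℤ → ℂ}, Adm bb ε → ∀ (W : Finset Nd) (J I : Nd), Full W J → iv J ⊆ iv I →
    ∀ (F : Fin 4 → Fn) (Ht Hf La H : ℝ), 0 < Ht → 0 < Hf → 1 ≤ H →
    Rc i m e e' I Ht Hf La (F i) →
    (∀ j, j ≠ i → ∀ p ∈ W, av p (F j) ≤ 1) →
    ‖TR bb ε W (Function.update F s (hi H (F s)))‖ ≤
      K * (1 + (Real.log (1 + Hf * Ht) + Real.log H)) * (La / H * len J) := by
  obtain ⟨K, hK0, hK⟩ := word3
  refine ⟨60 * K, by positivity, ?_⟩
  intro i m e e' s hd hsi bb ε hA W J I hW hJI F Ht Hf La H hHt hHf hH hF hav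
  have hH0 : 0 < H := by linarith
  have hlJ := Growth.len_pos J
  obtain ⟨p, q, hsi', hsp, hsq, hip, hiq, hpq⟩ := exists_two' (Ne.symm hsi)
  have huniv := univ4 (Ne.symm hsi) hip hiq hsp hsq hpq
  have hLa : 0 ≤ La := by
    obtain ⟨n, ψ, α, h0, -, -, h3⟩ := hF
    exact (Finset.sum_nonneg fun l _ => h0 l).trans h3
  set Λ : ℝ := 1 + (Real.log (1 + Hf * Ht) + Real.log H) with hΛ
  have hP : 0 ≤ Hf * Ht := by positivity
  -- one word
  have hone : ∀ (l : ℕ) (r : Fin 4), r ≠ i → ∀ Y : Fin 4 → Fn, Y i = F i →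
      (∀ j, j ≠ i → ∀ y, ‖Y j y‖ ≤ ‖F j y‖) → (∀ j, j ≠ i → ∀ y, ‖Y j y‖ ≤ 2 ^ (l + 1) * H) →
      ‖TR bb ε W (Function.update Y r (bd3 (F r) H l))‖ ≤
        K * (5 * (Λ * (1 + l))) * (La * (2 ^ l * H)⁻¹ * len J) := by
    intro l r hr Y hYi hY1 hY2
    have h1 := hK i m e e' r hd hr hA W J I hW hJI (Function.update Y r (bd3 (F r) H l)) Ht Hf La
      (2 ^ l * H)⁻¹ (2 ^ (l + 1) * H) hHt hHf (by positivity) (by positivity)
      (by rw [Function.update_of_ne hr.symm, hYi]; exact hF) ?_ ?_ ?_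
    · refine h1.trans ?_
      refine mul_le_mul_of_nonneg_right (mul_le_mul_of_nonneg_left (log_level hP hH l) hK0) ?_
      positivity
    · intro p hp
      rw [Function.update_self]
      calc ∑ y ∈ iv p, ‖bd3 (F r) H l y‖ ≤ ∑ y ∈ iv p, (2 ^ l * H)⁻¹ * ‖F r y‖ ^ 2 :=
            Finset.sum_le_sum fun y _ => bd3_l1 hH0 y
        _ = (2 ^ l * H)⁻¹ * ∑ y ∈ iv p, ‖F r y‖ ^ 2 := by rw [Finset.mul_sum]
        _ ≤ _ := mul_le_mul_of_nonneg_left (en_of_av (hav r hr p hp)) (by positivity)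
    · intro j hj p hp
      by_cases hjr : j = r
      · subst hjr
        rw [Function.update_self]
        exact (av_mono fun y _ => bd3_le hH0.le y).trans (hav j hj p hp)
      · rw [Function.update_of_ne hjr]
        exact (av_mono fun y _ => hY1 j hj y).trans (hav j hj p hp)
    · intro j hj hjr y _
      rw [Function.update_of_ne hjr]
      exact hY2 j hj y
  -- one level
  set G : ℕ → Fin 4 → Fn := fun l => lv3 F i s H l with hG
  have hGle : ∀ l j, j ≠ i → ∀ y, ‖G l j y‖ ≤ ‖F j y‖ := fun l j hj y => lv3_le hH0.le hj y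
  have hGsup : ∀ l j, j ≠ i → ∀ y, ‖G l j y‖ ≤ 2 ^ (l + 1) * H := fun l j hj y =>
    (lv3_sup hH0.le hj y).trans (mul_le_mul_of_nonneg_right
      (pow_le_pow_right₀ (by norm_num) (Nat.le_succ l)) hH0.le)
  have hGsup' : ∀ l j, j ≠ i → ∀ y, ‖G (l + 1) j y‖ ≤ 2 ^ (l + 1) * H := fun l j hj y =>
    lv3_sup hH0.le hj y
  have hstep : ∀ l, ‖TR bb ε W (G (l + 1)) - TR bb ε W (G l)‖ ≤
      3 * (K * (5 * (Λ * (1 + l))) * (La * (2 ^ l * H)⁻¹ * len J)) := by
    intro l
    set Y1 := Function.update (G (l + 1)) s (G l s) with hY1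
    set Y2 := Function.update Y1 p (G l p) with hY2
    have hpi : p ≠ i := hip.symm
    have hqi : q ≠ i := hiq.symm
    have e3 : Function.update Y2 q (G l q) = G l := by
      funext j
      rcases huniv j with rfl | rfl | rfl | rfl
      · rw [Function.update_of_ne hiq, hY2, Function.update_of_ne hip, hY1,
          Function.update_of_ne hsi.symm]
        exact (lv3_i F j s H (l + 1)).trans (lv3_i F j s H l).symm
      · rw [Function.update_of_ne hsq, hY2, Function.update_of_ne hsp, hY1, Function.update_self]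
      · rw [Function.update_of_ne hpq, hY2, Function.update_self]
      · rw [Function.update_self]
    have e0 : TR bb ε W (G (l + 1)) = TR bb ε W (Function.update (G (l + 1)) s (G (l + 1) s)) := by
      rw [Function.update_eq_self]
    have e1 : TR bb ε W Y1 = TR bb ε W (Function.update Y1 p (G (l + 1) p)) := by
      have : Y1 p = G (l + 1) p := by rw [hY1, Function.update_of_ne hsp.symm]
      rw [← this, Function.update_eq_self]
    have e2 : TR bb ε W Y2 = TR bb ε W (Function.update Y2 q (G (l + 1) q)) := by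
      have : Y2 q = G (l + 1) q := by
        rw [hY2, Function.update_of_ne hpq.symm, hY1, Function.update_of_ne hsq.symm]
      rw [← this, Function.update_eq_self]
    have hdiff : ∀ j, j ≠ i → (fun y => G (l + 1) j y - G l j y) = bd3 (F j) H l := fun j hj =>
      funext fun y => lv3_diff hj y
    have d0 : TR bb ε W (G (l + 1)) - TR bb ε W Y1 =
        TR bb ε W (Function.update (G (l + 1)) s (bd3 (F s) H l)) := by
      rw [e0, hY1, TR_sub, hdiff s hsi]
    have d1 : TR bb ε W Y1 - TR bb ε W Y2 = TR bb ε W (Function.update Y1 p (bd3 (F p) H l)) := by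
      rw [e1, hY2, TR_sub, hdiff p hpi]
    have d2 : TR bb ε W Y2 - TR bb ε W (G l) =
        TR bb ε W (Function.update Y2 q (bd3 (F q) H l)) := by
      rw [e2, ← e3, TR_sub]
      rw [hdiff q hqi]
    have y1i : Y1 i = F i := by
      rw [hY1, Function.update_of_ne hsi.symm]; exact lv3_i _ _ _ _ _
    have y2i : Y2 i = F i := by
      rw [hY2, Function.update_of_ne hip]; exact y1i
    have y1a : ∀ j, j ≠ i → ∀ y, ‖Y1 j y‖ ≤ ‖F j y‖ := by
      intro j hj y
      by_cases hjs : j = s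
      · subst hjs
        rw [hY1, Function.update_self]; exact hGle _ _ hj y
      · rw [hY1, Function.update_of_ne hjs]; exact hGle _ _ hj y
    have y1b : ∀ j, j ≠ i → ∀ y, ‖Y1 j y‖ ≤ 2 ^ (l + 1) * H := by
      intro j hj y
      by_cases hjs : j = s
      · subst hjs
        rw [hY1, Function.update_self]; exact hGsup _ _ hj y
      · rw [hY1, Function.update_of_ne hjs]; exact hGsup' _ _ hj y
    have y2a : ∀ j, j ≠ i → ∀ y, ‖Y2 j y‖ ≤ ‖F j y‖ := by
      intro j hj y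
      by_cases hjs : j = p
      · subst hjs
        rw [hY2, Function.update_self]; exact hGle _ _ hj y
      · rw [hY2, Function.update_of_ne hjs]; exact y1a _ hj y
    have y2b : ∀ j, j ≠ i → ∀ y, ‖Y2 j y‖ ≤ 2 ^ (l + 1) * H := by
      intro j hj y
      by_cases hjs : j = p
      · subst hjs
        rw [hY2, Function.update_self]; exact hGsup _ _ hj y
      · rw [hY2, Function.update_of_ne hjs]; exact y1b _ hj y
    have t0 := hone l s hsi (G (l + 1)) (lv3_i _ _ _ _ _) (hGle _) (hGsup' _)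
    have t1 := hone l p hpi Y1 y1i y1a y1b
    have t2 := hone l q hqi Y2 y2i y2a y2b
    rw [← d0] at t0
    rw [← d1] at t1
    rw [← d2] at t2
    have e4 : TR bb ε W (G (l + 1)) - TR bb ε W (G l) =
        (TR bb ε W (G (l + 1)) - TR bb ε W Y1) + (TR bb ε W Y1 - TR bb ε W Y2) +
          (TR bb ε W Y2 - TR bb ε W (G l)) := by ring
    rw [e4]
    refine (norm_add₃_le).trans ?_
    linarith
  -- level zero
  have hz : TR bb ε W (G 0) = 0 := by
    have h1 : G 0 = Function.update (G 0) s (fun _ => 0) := by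
      funext j
      by_cases hj : j = s
      · subst hj
        rw [Function.update_self]
        show lv3 F i j H 0 j = _
        unfold lv3
        rw [if_neg hsi, if_pos rfl]
        funext y
        simp
      · rw [Function.update_of_ne hj]
    rw [h1]
    have h2 := TR_sub bb ε W (G 0) s (fun _ => 0) (fun _ => 0)
    rw [sub_self] at h2
    simp only [sub_zero] at h2
    exact h2.symm
  -- top level
  obtain ⟨L, hL⟩ := pow_unbounded_of_one_lt (∑ j : Fin 4, ∑ y ∈ iv J, ‖F j y‖)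
    (by norm_num : (1 : ℝ) < 2)
  have hFL : ∀ j : Fin 4, ∀ y ∈ iv J, ‖F j y‖ ≤ 2 ^ L * H := by
    intro j y hy
    have h1 : ‖F j y‖ ≤ ∑ j : Fin 4, ∑ y ∈ iv J, ‖F j y‖ :=
      (Finset.single_le_sum (f := fun y => ‖F j y‖) (fun _ _ => norm_nonneg _) hy).trans
        (Finset.single_le_sum (f := fun j => ∑ y ∈ iv J, ‖F j y‖)
          (fun _ _ => Finset.sum_nonneg fun _ _ => norm_nonneg _) (Finset.mem_univ j))
    have h2 : (2 : ℝ) ^ L ≤ 2 ^ L * H := by
      have : (0 : ℝ) < 2 ^ L := by positivity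
      nlinarith
    linarith
  have htop : TR bb ε W (Function.update F s (hi H (F s))) = TR bb ε W (G L) := by
    unfold TR
    refine Finset.sum_congr rfl fun p' hp' => Qb247.TI_congr bb hA.1 ε _ _ p' fun j y hy => ?_
    have hyJ : y ∈ iv J := hW.reg.1 p' hp' hy
    show _ = lv3 F i s H L j y
    unfold lv3
    by_cases hji : j = i
    · subst hji
      rw [Function.update_of_ne hsi.symm, if_pos rfl]
    · rw [if_neg hji]
      by_cases hjs : j = s
      · subst hjs
        rw [Function.update_self, if_pos rfl]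
        have h1 := lo_add_hi H (F j) y
        have h2 : lo (2 ^ L * H) (F j) y = F j y := by
          unfold lo; rw [if_pos (hFL j y hyJ)]
        show hi H (F j) y = lo (2 ^ L * H) (F j) y - lo H (F j) y
        rw [h2]
        exact eq_sub_of_add_eq' h1.symm
      · rw [Function.update_of_ne hjs, if_neg hjs]
        unfold lo
        rw [if_pos (hFL j y hyJ)]
  rw [htop]
  have htel : TR bb ε W (G L) = ∑ l ∈ range L, (TR bb ε W (G (l + 1)) - TR bb ε W (G l)) := by
    rw [Finset.sum_range_sub (fun l => TR bb ε W (G l)), hz, sub_zero]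
  rw [htel]
  refine (norm_sum_le _ _).trans ((Finset.sum_le_sum fun l _ => hstep l).trans ?_)
  have e5 : ∀ l : ℕ, 3 * (K * (5 * (Λ * (1 + l))) * (La * (2 ^ l * H)⁻¹ * len J)) =
      (15 * K * Λ * (La / H * len J)) * ((1 + (l : ℝ)) * (2 ^ l)⁻¹) := by
    intro l
    rw [mul_inv]
    ring
  rw [Finset.sum_congr rfl fun l _ => e5 l, ← Finset.mul_sum]
  have hΛ0 : 0 ≤ Λ := by
    have h1 : 0 ≤ Real.log (1 + Hf * Ht) := Real.log_nonneg (by linarith)
    have h2 : 0 ≤ Real.log H := Real.log_nonneg hH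
    rw [hΛ]; linarith
  calc 15 * K * Λ * (La / H * len J) * ∑ l ∈ range L, (1 + (l : ℝ)) * (2 ^ l)⁻¹ ≤
      15 * K * Λ * (La / H * len J) * 4 := mul_le_mul_of_nonneg_left (sum_level L) (by positivity)
    _ = 60 * K * Λ * (La / H * len J) := by ring

end Crest.Agent.R079.TKx248
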