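import Crest.Agent.R079.TNS0_533
import Crest.Agent.R079.TApr_964

/-! R079, node-dependent recursion (helper533; port of `TAprw_351`): a priori bound. -/

set_option autoImplicit false

namespace Crest.Agent.R079.TRecN

open Finset Crest.Agent.R079.Grid Crest.Agent.R079.Glue Crest.Agent.R079.Growth
  Crest.Agent.R079.QRed Crest.Agent.R079.QRed.Qc406
open Crest.Agent.R079.TRec Crest.Agent.R079.TRec.Apr964

namespace Apr964

/-- level against point masses ⟹ sup bound -/
lemma sup_of_Lv {D : Dict} {th : ℝ} (hD : PtE D th) {m : Fin 4} (hm : m ≠ 3) {t C : ℝ}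
    (hC0 : 0 ≤ C) (ht : 0 < t) (ht1 : t ≤ 1) {p : Nd} {g : Fn} (h : Lv D m t C p g) :
    ∀ y ∈ iv p, ‖g y‖ ≤ C * t ^ th * len p := by
  intro y hy
  obtain ⟨u, hu, hut, hmem⟩ := hD m hm t ht ht1 y
  have h1 := h _ (hmem p)
  have hfin : C * u * len p ≤ C * t ^ th * len p :=
    mul_le_mul_of_nonneg_right (mul_le_mul_of_nonneg_left hut hC0) (Growth.len_pos p).le
  refine le_trans ?_ hfin
  clear hfin hmem h hut
  replace ht := hu
  generalize u = t at h1 ht ⊢
  have h2 : ∑ y' ∈ iv p, g y' * (if y' = y then ((t : ℂ))⁻¹ else 0) = g y * ((t : ℂ))⁻¹ := by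
    rw [Finset.sum_eq_single y]
    · rw [if_pos rfl]
    · intro b _ hb
      rw [if_neg hb, mul_zero]
    · intro h'
      exact absurd hy h'
  rw [h2, norm_mul, norm_inv, Complex.norm_real, Real.norm_of_nonneg ht.le] at h1
  rw [← div_eq_mul_inv, div_le_iff₀ ht] at h1
  calc ‖g y‖ ≤ C * len p * t := h1
    _ = C * t * len p := by ring

end Apr964

open Apr964 in
/-- **[T4a]** a priori bound at finite resolution -/
theorem aprLem : AprLem := by
  intro D k q3 sg c0 c3 e c1 bt C th hok hD hC N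
  have hC0 : (0 : ℝ) ≤ C := zero_le_one.trans hC
  refine ⟨64 * (N + 1) * (((2 : ℝ) ^ (N + 7)) ^ 4 * C), by positivity, ?_⟩
  intro t ht ht1 bb ε hbb R J hF hJ m hm T G H E X hW F hFn
  have hL : (0 : ℝ) ≤ 2 ^ (N + 7) := by positivity
  obtain ⟨s, hsdef⟩ : ∃ s : ℝ, s = t ^ th := ⟨_, rfl⟩
  have hs0 : 0 < s := by rw [hsdef]; exact Real.rpow_pos_of_pos ht _
  rw [← hsdef]
  have hsub : ∀ p ∈ R, iv p ⊆ iv J := hF.reg.1
  have hq : ∀ j, 1 ≤ qx k q3 j := by
    intro j
    have h1 := hok.k0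
    have h2 := hok.hq3
    unfold qx
    split_ifs <;> linarith
  -- one node
  have hnode : ∀ p ∈ R, ‖TI bb ε (fun j => Function.update (fun j _ => F j) m X j p) p‖ ≤
      64 * (((2 : ℝ) ^ (N + 7)) ^ 4 * (C * s)) * len p := by
    intro p hp
    have hpN : p.1 ≤ N := (level_le (hsub p hp)).trans hJ
    have hlp : len p ≤ 2 ^ (N + 7) := len_le_pow hpN
    refine (norm_TI_le bb hbb.1 ε hbb.2 _ p).trans ?_
    have h3 : ∏ j, av2 (p.1 + 7) p.2 (Function.update (fun j _ => F j) m X j p) ≤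
        ∏ j : Fin 4, ((2 : ℝ) ^ (N + 7) * (if j = m then C * s else 1)) := by
      refine Finset.prod_le_prod (fun j _ => av2_nonneg _ _ _) fun j _ => ?_
      by_cases hj : j = m
      · subst hj
        rw [Function.update_self, if_pos rfl]
        refine av2_le_sup (by positivity) fun y hy => ?_
        calc ‖X p y‖ ≤ C * s * len p := by rw [hsdef]; exact sup_of_Lv hD hm hC0 ht ht1 (hW.lev p hp) y hy
          _ ≤ C * s * 2 ^ (N + 7) := mul_le_mul_of_nonneg_left hlp (by positivity)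
          _ = 2 ^ (N + 7) * (C * s) := by ring
      · rw [Function.update_of_ne hj, if_neg hj, mul_one]
        refine av2_le_sup hL fun y hy => ?_
        exact (sup_of_aq (hq j) (hFn j hj p hp) y hy).trans hlp
    have h4 : ∏ j : Fin 4, ((2 : ℝ) ^ (N + 7) * (if j = m then C * s else 1)) =
        ((2 : ℝ) ^ (N + 7)) ^ 4 * (C * s) := by
      rw [Finset.prod_mul_distrib, Finset.prod_const, Finset.prod_ite_eq']
      simp
    rw [h4] at h3
    have h5 : (0 : ℝ) ≤ 64 * 2 ^ (p.1 + 7) := by positivity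
    calc 64 * 2 ^ (p.1 + 7) *
          ∏ j, av2 (p.1 + 7) p.2 (Function.update (fun j _ => F j) m X j p)
        ≤ 64 * 2 ^ (p.1 + 7) * (((2 : ℝ) ^ (N + 7)) ^ 4 * (C * s)) :=
          mul_le_mul_of_nonneg_left h3 h5
      _ = 64 * (((2 : ℝ) ^ (N + 7)) ^ 4 * (C * s)) * len p := by unfold len; ring
  have hJN : (J.1 : ℝ) ≤ N := by exact_mod_cast hJ
  have hlJ : 0 ≤ len J := len_nonneg J
  calc ‖TP bb ε R (Function.update (fun j _ => F j) m X)‖
      ≤ ∑ p ∈ R, ‖TI bb ε (fun j => Function.update (fun j _ => F j) m X j p) p‖ :=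
        norm_sum_le _ _
    _ ≤ ∑ p ∈ R, 64 * (((2 : ℝ) ^ (N + 7)) ^ 4 * (C * s)) * len p := Finset.sum_le_sum hnode
    _ = 64 * (((2 : ℝ) ^ (N + 7)) ^ 4 * (C * s)) * ∑ p ∈ R, len p := by rw [Finset.mul_sum]
    _ ≤ 64 * (((2 : ℝ) ^ (N + 7)) ^ 4 * (C * s)) * ((J.1 + 1) * len J) :=
        mul_le_mul_of_nonneg_left (region_len R J hsub) (by positivity)
    _ ≤ 64 * (((2 : ℝ) ^ (N + 7)) ^ 4 * (C * s)) * ((N + 1) * len J) := by
        refine mul_le_mul_of_nonneg_left (mul_le_mul_of_nonneg_right ?_ hlJ) (by positivity)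
        linarith
    _ = 64 * (N + 1) * (((2 : ℝ) ^ (N + 7)) ^ 4 * C) * s * len J := by ring

end Crest.Agent.R079.TRecN
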