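import Crest.Agent.R079.TNRec_533
import Crest.Agent.R079.TGr_351

/-! R079, node-dependent recursion (helper533; port of `TGr_351`): GRADED dictionaries by
reparametrisation.

`grade D μ j t = D j (t ^ μ j)`.  The nontrivial rule (A) is needed only for pairs (frozen `i`,
killer `m`) with `m < i`; for `i < m` only the trivial kill (frozen at `s`, killer of level
`s ^ (1 + δ)`).  **`target_of_analytic4 : TRecN.Analytic4 → L0.Target`**. -/

set_option autoImplicit false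

namespace Crest.Agent.R079.TRecN

open Finset Crest.Agent.R079.Grid Crest.Agent.R079.Growth Crest.Agent.R079.QRed
open Crest.Agent.R079.TRec Crest.Agent.R079.TRecw

/-- reparametrised dictionary -/
noncomputable def grade (D : Dict) (μ : Fin 4 → ℝ) : Dict := fun j t => D j (t ^ μ j)

/-- **RULE (A), NONTRIVIAL PAIRS** `m < i` (killer slot below the frozen slot): frozen at `t ^ (1 + e)`,
killer of level `t` -/
def RuleNT (D : Dict) (k q3 c0 e t0 K : ℝ) : Prop :=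
  ∀ (N : ℕ) (B : ℝ), 0 ≤ B → BN k q3 N B → ∀ t, 0 < t → t ≤ t0 → ∀ bb ε, Adm bb ε → ∀ W I,
    Full W I → I.1 ≤ N → ∀ F, nrm k q3 W F →
    ∀ i m : Fin 4, m < i → i ≠ 3 → (∀ p ∈ W, Fz D i (t ^ (1 + e)) 1 p (F i)) →
      (∀ p ∈ W, Lv D m t 1 p (F m)) → ‖TR bb ε W F‖ ≤ K * (1 + B) * t ^ c0 * len I

/-- **TRIVIAL KILL**, pairs `i < m`: frozen at `s`, killer of level `s ^ (1 + δ)` (finer) -/
def RuleTr (D : Dict) (k q3 c0 δ t0 K : ℝ) : Prop :=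
  ∀ (N : ℕ) (B : ℝ), 0 ≤ B → BN k q3 N B → ∀ s, 0 < s → s ≤ t0 → ∀ bb ε, Adm bb ε → ∀ W I,
    Full W I → I.1 ≤ N → ∀ F, nrm k q3 W F →
    ∀ i m : Fin 4, i < m → m ≠ 3 → (∀ p ∈ W, Fz D i s 1 p (F i)) →
      (∀ p ∈ W, Lv D m (s ^ (1 + δ)) 1 p (F m)) → ‖TR bb ε W F‖ ≤ K * (1 + B) * s ^ c0 * len I

/-- the graded dictionary is admissible -/
theorem dic_grade {D : Dict} (hD : Dic D 0) {ρ : ℝ} (h1 : 1 ≤ ρ) (h2 : ρ ^ 2 ≤ 2) :
    Dic (grade D (gm ρ)) 0 := by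
  have hμ := gm_half h1 h2
  have hμ1 := gm_le h1
  have hp : ∀ (j : Fin 4) (t : ℝ), 0 < t → t ≤ 1 → 0 < t ^ gm ρ j ∧ t ^ gm ρ j ≤ 1 := fun j t ht ht1 =>
    ⟨Real.rpow_pos_of_pos ht _, Real.rpow_le_one ht.le ht1 (by have := hμ j; linarith)⟩
  refine ⟨?_, ?_, ?_, ?_⟩
  · intro j t ht ht1
    exact hD.cst j _ (hp j t ht ht1).1 (hp j t ht ht1).2
  · intro j t ht ht1 p f y hy
    have h := hD.sup j (t ^ gm ρ j) (hp j t ht ht1).1 (hp j t ht ht1).2 p f y hy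
    have hc := (hD.cst j _ (hp j t ht ht1).1 (hp j t ht ht1).2).nonneg p f
    refine h.trans (mul_le_mul_of_nonneg_left ?_ hc)
    rw [← Real.rpow_mul ht.le]
    refine Real.rpow_le_rpow_of_exponent_ge ht ht1 ?_
    have hsx : 0 ≤ sx 0 j := by
      unfold sx
      split_ifs <;> norm_num
    have := mul_le_mul_of_nonneg_right (hμ1 j) hsx
    linarith
  · intro j s t hs hst ht p f
    have hj : 0 ≤ gm ρ j := by have := hμ j; linarith
    exact hD.mono j (s ^ gm ρ j) (t ^ gm ρ j) (Real.rpow_pos_of_pos hs _)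
      (Real.rpow_le_rpow hs.le hst hj) (Real.rpow_le_one (hs.le.trans hst) ht hj) p f
  · intro j t ht ht1 p f
    exact hD.conj j _ (hp j t ht ht1).1 (hp j t ht ht1).2 p f

/-- point masses of the graded dictionary -/
theorem ptE_grade {D : Dict} {th : ℝ} (hth : 0 ≤ th) (hP : PtE D (2 * th)) {ρ : ℝ} (h1 : 1 ≤ ρ)
    (h2 : ρ ^ 2 ≤ 2) : PtE (grade D (gm ρ)) th := by
  intro j hj t ht ht1 y
  have hμ := gm_half h1 h2 j
  obtain ⟨u, hu, hut, hc⟩ := hP j hj (t ^ gm ρ j) (Real.rpow_pos_of_pos ht _)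
    (Real.rpow_le_one ht.le ht1 (by linarith)) y
  refine ⟨u, hu, hut.trans ?_, hc⟩
  rw [← Real.rpow_mul ht.le]
  refine Real.rpow_le_rpow_of_exponent_ge ht ht1 ?_
  nlinarith

/-- **rule (A) for the graded dictionary** -/
theorem ruleA2_grade {D : Dict} (hD : Dic D 0) {k q3 c0 e δ ρ e' t0 K : ℝ} (h1 : 1 ≤ ρ)
    (h2 : ρ ^ 2 ≤ 2) (hc0 : 0 ≤ c0) (ht0 : 0 < t0) (ht01 : t0 ≤ 1) (hK : 0 ≤ K) (he' : 0 ≤ e') (hδ : 0 ≤ δ)
    (hup : ρ ^ 2 * (1 + e') ≤ 1 + e) (hdn : (1 + δ) * (1 + e') ≤ ρ)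
    (hN : RuleNT D k q3 c0 e t0 K) (hT : RuleTr D k q3 c0 δ t0 K) :
    RuleA2 (grade D (gm ρ)) k q3 (c0 / 2) e' (t0 ^ 2) K := by
  intro N B hB hBN t ht htt bb ε hε W I hW hI F hF i m him hi hm hf hl
  have hμ := gm_half h1 h2
  have hμ1 := gm_le h1
  have ht02 : t0 ^ 2 ≤ 1 := pow_le_one₀ ht0.le ht01
  have ht1 : t ≤ 1 := htt.trans ht02
  have hpow : ∀ x : ℝ, 1 / 2 ≤ x → t ^ x ≤ t0 := by
    intro x hx
    have e1 : t ^ x ≤ t ^ (1 / 2 : ℝ) := Real.rpow_le_rpow_of_exponent_ge ht ht1 hx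
    have e2 : t ^ (1 / 2 : ℝ) ≤ (t0 ^ 2) ^ (1 / 2 : ℝ) :=
      Real.rpow_le_rpow ht.le htt (by norm_num)
    have e3 : (t0 ^ 2) ^ (1 / 2 : ℝ) = t0 := by
      rw [← Real.rpow_natCast, ← Real.rpow_mul ht0.le]
      norm_num
    linarith
  have hle : 0 ≤ len I := (Growth.len_pos I).le
  have hKB : 0 ≤ K * (1 + B) := mul_nonneg hK (by linarith)
  have hf' : ∀ p ∈ W, Fz D i ((t ^ (1 + e')) ^ gm ρ i) 1 p (F i) := hf
  have hl' : ∀ p ∈ W, Lv D m (t ^ gm ρ m) 1 p (F m) := hl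
  simp only [← Real.rpow_mul ht.le] at hf'
  have hfin : ∀ x : ℝ, 1 / 2 ≤ x → K * (1 + B) * (t ^ x) ^ c0 * len I ≤
      K * (1 + B) * t ^ (c0 / 2) * len I := by
    intro x hx
    refine mul_le_mul_of_nonneg_right (mul_le_mul_of_nonneg_left ?_ hKB) hle
    rw [← Real.rpow_mul ht.le]
    refine Real.rpow_le_rpow_of_exponent_ge ht ht1 ?_
    nlinarith
  rcases lt_or_gt_of_ne him with h | h
  · -- i < m : trivial kill
    have hs0 : 0 < t ^ ((1 + e') * gm ρ i) := Real.rpow_pos_of_pos ht _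
    have hx : 1 / 2 ≤ (1 + e') * gm ρ i := by
      have := hμ i
      nlinarith
    have hr := gm_ratio_dn h1 h hm
    have hlev : ∀ p ∈ W, Lv D m ((t ^ ((1 + e') * gm ρ i)) ^ (1 + δ)) 1 p (F m) := by
      intro p hp
      rw [← Real.rpow_mul ht.le]
      refine Lv_mono hD (Real.rpow_pos_of_pos ht _) ?_ ?_ (hl' p hp)
      · refine Real.rpow_le_rpow_of_exponent_ge ht ht1 ?_
        have h3 := mul_le_mul_of_nonneg_right hdn (by have := hμ i; linarith : 0 ≤ gm ρ i)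
        nlinarith
      · refine Real.rpow_le_one ht.le ht1 ?_
        have h3 : 0 ≤ gm ρ i := by have := hμ i; linarith
        positivity
    exact (hT N B hB hBN _ hs0 (hpow _ hx) bb ε hε W I hW hI F hF i m h hm hf' hlev).trans
      (hfin _ hx)
  · -- m < i : nontrivial
    have hs0 : 0 < t ^ gm ρ m := Real.rpow_pos_of_pos ht _
    have hx : 1 / 2 ≤ gm ρ m := hμ m
    have hr := gm_ratio_up h1 h hi
    have hfz : ∀ p ∈ W, Fz D i ((t ^ gm ρ m) ^ (1 + e)) 1 p (F i) := by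
      intro p hp
      rw [← Real.rpow_mul ht.le]
      refine Fz_mono hD (Real.rpow_pos_of_pos ht _) ?_ ?_ (hf' p hp)
      · refine Real.rpow_le_rpow_of_exponent_ge ht ht1 ?_
        have h3 := mul_le_mul_of_nonneg_right hup (by have := hμ m; linarith : 0 ≤ gm ρ m)
        have h4 := mul_le_mul_of_nonneg_left hr (by linarith : 0 ≤ 1 + e')
        nlinarith
      · refine Real.rpow_le_one ht.le ht1 ?_
        have := hμ i
        nlinarith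
    exact (hN N B hB hBN _ hs0 (hpow _ hx) bb ε hε W I hW hI F hF i m h hi hfz hl').trans
      (hfin _ hx)

/-- **rule (S) for the graded dictionary** -/
theorem ruleS_grade {D : Dict} (hD : Dic D 0) {k q3 cS CS s1 e ρ e' t0 K : ℝ} (h1 : 1 ≤ ρ)
    (h2 : ρ ^ 2 ≤ 2) (hcS : 0 ≤ cS) (hCS : 0 ≤ CS) (hs1 : 0 ≤ s1) (ht0 : 0 < t0) (ht01 : t0 ≤ 1)
    (hK : 0 ≤ K) (_he : 0 ≤ e) (hee : e' ≤ e) (he' : 0 ≤ e')
    (hS : RuleS D k q3 cS CS s1 e t0 K) :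
    RuleS (grade D (gm ρ)) k q3 (cS / 2) CS s1 e' (t0 ^ 2) K := by
  intro N B hB hBN t ht htt bb W I hW hI m hm P G X E hP hG hf hX hl hE
  have hμ := gm_half h1 h2
  have hμ1 := gm_le h1
  have ht02 : t0 ^ 2 ≤ 1 := pow_le_one₀ ht0.le ht01
  have ht1 : t ≤ 1 := htt.trans ht02
  have hu0 : 0 < t ^ gm ρ m := Real.rpow_pos_of_pos ht _
  have hu1 : t ^ gm ρ m ≤ 1 := Real.rpow_le_one ht.le ht1 (by have := hμ m; linarith)
  have hut0 : t ^ gm ρ m ≤ t0 := by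
    have e1 : t ^ gm ρ m ≤ t ^ (1 / 2 : ℝ) := Real.rpow_le_rpow_of_exponent_ge ht ht1 (hμ m)
    have e2 : t ^ (1 / 2 : ℝ) ≤ (t0 ^ 2) ^ (1 / 2 : ℝ) :=
      Real.rpow_le_rpow ht.le htt (by norm_num)
    have e3 : (t0 ^ 2) ^ (1 / 2 : ℝ) = t0 := by
      rw [← Real.rpow_natCast, ← Real.rpow_mul ht0.le]
      norm_num
    linarith
  have hf' : ∀ p ∈ W, Fz D m ((t ^ (1 + e')) ^ gm ρ m) 1 p P := hf
  have hfz : ∀ p ∈ W, Fz D m ((t ^ gm ρ m) ^ (1 + e)) 1 p P := by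
    intro p hp
    have hf1 := hf' p hp
    rw [← Real.rpow_mul ht.le] at hf1 ⊢
    refine Fz_mono hD (Real.rpow_pos_of_pos ht _) ?_ ?_ hf1
    · refine Real.rpow_le_rpow_of_exponent_ge ht ht1 ?_
      have := hμ m
      nlinarith
    · refine Real.rpow_le_one ht.le ht1 ?_
      have := hμ m
      positivity
  have hE' : ∀ p ∈ W, av p E ≤ (t ^ gm ρ m) ^ s1 := by
    intro p hp
    refine (hE p hp).trans ?_
    rw [← Real.rpow_mul ht.le]
    refine Real.rpow_le_rpow_of_exponent_ge ht ht1 ?_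
    have := mul_le_mul_of_nonneg_right (hμ1 m) hs1
    linarith
  obtain ⟨T, hT1, hT2, hT3⟩ := hS N B hB hBN _ hu0 hut0 bb W I hW hI m hm P G X E hP hG hfz hX hl hE'
  refine ⟨T, hT1, hT2.mono ?_, ?_⟩
  · refine mul_le_mul_of_nonneg_left ?_ hK
    rw [← Real.rpow_mul ht.le]
    refine Real.rpow_le_rpow_of_exponent_ge ht ht1 ?_
    have := mul_le_mul_of_nonneg_right (hμ1 m) hCS
    linarith
  · intro I' hI' W' J hW' hs F hFm hF3 hFj ε hε
    refine (hT3 I' hI' W' J hW' hs F hFm hF3 hFj ε hε).trans ?_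
    refine mul_le_mul_of_nonneg_right (mul_le_mul_of_nonneg_left ?_
      (mul_nonneg hK (by linarith))) (Growth.len_pos J).le
    rw [← Real.rpow_mul ht.le]
    refine Real.rpow_le_rpow_of_exponent_ge ht ht1 ?_
    have := mul_le_mul_of_nonneg_right (hμ m) hcS
    linarith

/-- frozen letters at a fixed parameter -/
theorem frzBd_grade {D : Dict} {k q3 ρ : ℝ} (h1 : 1 ≤ ρ) (h2 : ρ ^ 2 ≤ 2) (hF : FrzBd D k q3) :
    FrzBd (grade D (gm ρ)) k q3 := by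
  intro t ht ht1
  have hμ := gm_half h1 h2
  choose K hK0 hK using fun i : Fin 4 => hF (t ^ gm ρ i) (Real.rpow_pos_of_pos ht _)
    (Real.rpow_le_one ht.le ht1 (by have := hμ i; linarith))
  refine ⟨∑ i, K i, Finset.sum_nonneg fun i _ => hK0 i, ?_⟩
  intro bb ε hε W I hW F hn i hi hf
  refine (hK i bb ε hε W I hW F hn i hi hf).trans ?_
  exact mul_le_mul_of_nonneg_right
    (Finset.single_le_sum (f := K) (fun i _ => hK0 i) (Finset.mem_univ i)) (Growth.len_pos I).le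

/-- **what the analysis has to deliver, v4 (graded)**: the nontrivial rule (A) only for `m < i` -/
def Analytic4 : Prop :=
  ∃ (D : Dict) (k q3 c0 cS CS s1 e e' δ ρ c1 bt κ t0 K : ℝ) (K0 : ℕ),
    Ok2 k q3 (c0 / 2) (cS / 2) CS s1 e' c1 bt κ K0 ∧ 1 ≤ ρ ∧ ρ ^ 2 ≤ 2 ∧ 0 ≤ δ ∧
    ρ ^ 2 * (1 + e') ≤ 1 + e ∧ (1 + δ) * (1 + e') ≤ ρ ∧ 0 ≤ c0 ∧ 0 ≤ cS ∧ 0 ≤ s1 ∧
    0 < t0 ∧ t0 ≤ 1 ∧ 0 ≤ K ∧ Dic D 0 ∧ PtE D (2 * bt) ∧ RuleNT D k q3 c0 e t0 K ∧
    RuleTr D k q3 c0 δ t0 K ∧ RuleS D k q3 cS CS s1 e t0 K ∧ FrzBd D k q3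

/-- **`S0106` from the graded analytic input** -/
theorem target_of_analytic4 (hA : Analytic4) : L0.Target := by
  obtain ⟨D, k, q3, c0, cS, CS, s1, e, e', δ, ρ, c1, bt, κ, t0, K, K0, ok, h1, h2, hδ, hup, hdn,
    hc0, hcS, hs1, ht0, ht01, hK, hD, hP, hN, hT, hS, hF⟩ := hA
  have he' := ok.e0
  have hee : e' ≤ e := by
    have : 1 ≤ ρ ^ 2 := one_le_pow₀ h1
    nlinarith
  exact target_of_analytic2 ⟨grade D (gm ρ), k, q3, c0 / 2, cS / 2, CS, s1, e', c1, bt, κ, t0 ^ 2,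
    K, K0, ok, by positivity, hK, dic_grade hD h1 h2, ptE_grade ok.bt0.le hP h1 h2,
    ruleA2_grade hD h1 h2 hc0 ht0 ht01 hK he'.le hδ hup hdn hN hT,
    ruleS_grade hD h1 h2 hcS ok.CS0 hs1 ht0 ht01 hK (he'.le.trans hee) hee he'.le hS,
    frzBd_grade h1 h2 hF⟩

end Crest.Agent.R079.TRecN
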