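import Crest.Agent.R079.TNS1_533
import Crest.Agent.R079.TS3d_903

/-! R079, node-dependent recursion (helper533; port of `TS3d_903`, `TS3b_903`): scaling of `RuleA2` and
**`TwoLem2`** (two windowed residuals, slots `m ≠ m'`, both `≠ 3`). -/

set_option autoImplicit false

namespace Crest.Agent.R079.TRecN

open Crest.Agent.R079.TRec Crest.Agent.R079.TRec.T3b

open Finset Crest.Agent.R079.Grid Crest.Agent.R079.Growth Crest.Agent.R079.QRed

theorem RuleA2_gen_pos {D : Dict} {sg : ℝ} (hD : Dic D sg) {k q3 c0 e t0 K : ℝ} (hk : 0 < k)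
    (hq3 : 2 < q3) (he : 0 ≤ e)
    (h : RuleA2 D k q3 c0 e t0 K) {N : ℕ} {B : ℝ} (hB : 0 ≤ B) (hBN : BN k q3 N B) {t : ℝ}
    (ht : 0 < t) (ht1 : t ≤ 1) (htt : t ≤ t0) {bb : ℤ} {ε : ℕ → ℤ → ℂ} (hA : Adm bb ε) {W : Finset Nd} {I : Nd}
    (hW : Full W I) (hI : I.1 ≤ N) {F : Fin 4 → Fn} {b : Fin 4 → ℝ} (hb0 : ∀ j, 0 < b j)
    (hF : ∀ j, ∀ p ∈ W, aq (qx k q3 j) p (F j) ≤ b j) {i m : Fin 4} (him : i ≠ m) (hi3 : i ≠ 3) (hm3 : m ≠ 3) {M s : ℝ}
    (hfz : ∀ p ∈ W, Fz D i (t ^ (1 + e)) M p (F i)) (hM : M ≤ b i)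
    (hlv : ∀ p ∈ W, Lv D m t s p (F m)) (hs : s ≤ b m) :
    ‖TR bb ε W F‖ ≤ K * (1 + B) * (∏ j, b j) * t ^ c0 * len I := by
  rw [TR_scale bb ε W F b hb0]
  have hinv : ∀ j, ‖((b j : ℂ))⁻¹‖ = (b j)⁻¹ := fun j => by
    rw [norm_inv, Complex.norm_real, Real.norm_of_nonneg (hb0 j).le]
  have h1 := h N B hB hBN t ht htt bb ε hA W I hW hI (fun j y => ((b j)⁻¹ : ℂ) * F j y) (by
    intro j p hp
    rw [aq_smul (by linarith [two_lt_qx hk hq3 j]), hinv, inv_mul_le_iff₀ (hb0 j), mul_one]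
    exact hF j p hp) i m him hi3 hm3
    (fun p hp => Fz_mass (by
      rw [hinv, inv_mul_le_iff₀ (hb0 i), mul_one]; exact hM)
      (Fz_csmul hD (Real.rpow_pos_of_pos ht _) (Real.rpow_le_one ht.le ht1 (by linarith))
        (hfz p hp) _))
    (fun p hp => Lv_le (by
      rw [hinv, inv_mul_le_iff₀ (hb0 m), mul_one]; exact hs) (Lv_csmul (hlv p hp) _))
  have h2 : 0 ≤ ∏ j, b j := Finset.prod_nonneg fun j _ => (hb0 j).le
  refine (mul_le_mul_of_nonneg_left h1 h2).trans (le_of_eq ?_)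
  ring

/-- **scaled rule (A), general form**: any `b j ≥ 0` above the norms, `b i` above the mass, `b m`
above the level -/
theorem RuleA2_gen {D : Dict} {sg : ℝ} (hD : Dic D sg) {k q3 c0 e t0 K : ℝ} (hk : 0 < k)
    (hq3 : 2 < q3) (he : 0 ≤ e)
    (h : RuleA2 D k q3 c0 e t0 K) {N : ℕ} {B : ℝ} (hB : 0 ≤ B) (hBN : BN k q3 N B) {t : ℝ}
    (ht : 0 < t) (ht1 : t ≤ 1) (htt : t ≤ t0) {bb : ℤ} {ε : ℕ → ℤ → ℂ} (hA : Adm bb ε) {W : Finset Nd} {I : Nd}
    (hW : Full W I) (hI : I.1 ≤ N) {F : Fin 4 → Fn} {b : Fin 4 → ℝ} (hb0 : ∀ j, 0 ≤ b j)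
    (hF : ∀ j, ∀ p ∈ W, aq (qx k q3 j) p (F j) ≤ b j) {i m : Fin 4} (him : i ≠ m) (hi3 : i ≠ 3) (hm3 : m ≠ 3) {M s : ℝ}
    (hfz : ∀ p ∈ W, Fz D i (t ^ (1 + e)) M p (F i)) (hM : M ≤ b i)
    (hlv : ∀ p ∈ W, Lv D m t s p (F m)) (hs : s ≤ b m) :
    ‖TR bb ε W F‖ ≤ K * (1 + B) * (∏ j, b j) * t ^ c0 * len I := by
  have hlim : Filter.Tendsto
      (fun x : ℝ => K * (1 + B) * (∏ j, (b j + x)) * t ^ c0 * len I)
      (nhdsWithin 0 (Set.Ioi 0))
      (nhds (K * (1 + B) * (∏ j, (b j + 0)) * t ^ c0 * len I)) := by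
    have hc : Continuous fun x : ℝ =>
        K * (1 + B) * (∏ j, (b j + x)) * t ^ c0 * len I := by fun_prop
    exact (hc.tendsto 0).mono_left nhdsWithin_le_nhds
  simp only [add_zero] at hlim
  refine ge_of_tendsto hlim ?_
  filter_upwards [self_mem_nhdsWithin] with x hx
  have hx0 : 0 < x := hx
  exact RuleA2_gen_pos hD hk hq3 he h hB hBN ht ht1 htt hA hW hI (fun j => by linarith [hb0 j])
    (fun j p hp => (hF j p hp).trans (by linarith)) him hi3 hm3 hfz (by linarith) hlv (by linarith)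

/-- **scaled rule (A)**: norms `a j ≥ 1`, level `C`, mass `C` -/
theorem RuleA2_scaled {D : Dict} {sg : ℝ} (hD : Dic D sg) {k q3 c0 e t0 K : ℝ} (hk : 0 < k)
    (hq3 : 2 < q3) (he : 0 ≤ e)
    (h : RuleA2 D k q3 c0 e t0 K) {N : ℕ} {B : ℝ} (hB : 0 ≤ B) (hBN : BN k q3 N B) {t : ℝ}
    (ht : 0 < t) (ht1 : t ≤ 1) (htt : t ≤ t0) {bb : ℤ}
    {ε : ℕ → ℤ → ℂ} (hA : Adm bb ε) {W : Finset Nd} {I : Nd} (hW : Full W I) (hI : I.1 ≤ N)
    {F : Fin 4 → Fn} {a : Fin 4 → ℝ} {C : ℝ} (hC : 1 ≤ C) (ha : ∀ j, 1 ≤ a j)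
    (hF : ∀ j, ∀ p ∈ W, aq (qx k q3 j) p (F j) ≤ a j) {i m : Fin 4} (him : i ≠ m) (hi3 : i ≠ 3) (hm3 : m ≠ 3)
    (hfz : ∀ p ∈ W, Fz D i (t ^ (1 + e)) C p (F i)) (hlv : ∀ p ∈ W, Lv D m t C p (F m)) :
    ‖TR bb ε W F‖ ≤ K * (1 + B) * C ^ 2 * (∏ j, a j) * t ^ c0 * len I := by
  classical
  have ha0 : ∀ j, 0 < a j := fun j => by linarith [ha j]
  have hC0 : 0 < C := by linarith
  have h1 := RuleA2_gen hD hk hq3 he h hB hBN ht ht1 htt hA hW hI (F := F)
    (b := fun j => if j = i ∨ j = m then C * a j else a j)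
    (fun j => by
      have := ha0 j
      split_ifs <;> positivity)
    (fun j p hp => by
      refine (hF j p hp).trans ?_
      have := ha0 j
      split_ifs
      · nlinarith
      · exact le_refl _) him hi3 hm3 hfz (by
        have := ha i
        simp only [true_or, if_true]
        nlinarith) hlv (by
        have := ha m
        simp only [or_true, if_true]
        nlinarith)
  have hprod : (∏ j, (if j = i ∨ j = m then C * a j else a j)) = C ^ 2 * ∏ j, a j := by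
    have e1 : ∀ j, (if j = i ∨ j = m then C * a j else a j)
        = (if j = i ∨ j = m then C else 1) * a j := by
      intro j
      split_ifs <;> ring
    rw [Finset.prod_congr rfl fun j _ => e1 j, Finset.prod_mul_distrib]
    congr 1
    rw [Finset.prod_ite, Finset.prod_const_one, mul_one, Finset.prod_const]
    congr 1
    have : (Finset.univ.filter fun j : Fin 4 => j = i ∨ j = m) = {i, m} := by
      ext j; simp
    rw [this, Finset.card_pair him]
  rw [hprod] at h1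
  refine h1.trans (le_of_eq ?_)
  ring

namespace T3b

variable {R : Finset Nd} {J : Nd}

section slots

variable {D : Dict} {k q3 sg c1 C : ℝ} {j : Fin 4} {t : ℝ} {T : Finset Nd} {G : Fn}
  {H E X : Nd → Fn}

theorem X_le (h : WRd D k q3 sg c1 C j t R J T G H E X) (hj : j ≠ 3) (hk : 0 < k) (hq3 : 2 < q3)
    (hsg : 0 ≤ sg) (hc1 : 0 ≤ c1) (hC : 1 ≤ C) (ht : 0 < t) (ht1 : t ≤ 1) {p : Nd} (hp : p ∈ R) :
    aq (qx k q3 j) p (X p) ≤ 3 * C * t ^ (-(k / 2)) :=
  (h.aqX hk hq3 hsg hc1 hC ht ht1 hp).trans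
    (mul_le_mul_of_nonneg_left (loss hk ht ht1 hj) (by linarith))

theorem H_le (h : WRd D k q3 sg c1 C j t R J T G H E X) (hj : j ≠ 3) (hk : 0 < k) (hq3 : 2 < q3)
    (hC : 1 ≤ C) (ht : 0 < t) (ht1 : t ≤ 1) {p : Nd} (hp : p ∈ R) :
    aq (qx k q3 j) p (H p) ≤ C * t ^ (-(k / 2)) :=
  (h.aqH hk hq3 (by linarith) ht hp).trans
    (mul_le_mul_of_nonneg_left (loss hk ht ht1 hj) (by linarith))

end slots

/-- **[T3a] v2, strong form** -/
theorem two_core2 (hConv : ConvLem) (D : Dict) (k q3 sg c0 c3 e c1 bt t0 K C : ℝ)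
    (o : Ok k q3 sg c0 c3 e c1 bt) (ht01 : t0 ≤ 1) (hK : 0 ≤ K) (hC : 1 ≤ C)
    (hD : Dic D sg) (hRA : RuleA2 D k q3 c0 e t0 K) : ∃ K' : ℝ, 0 ≤ K' ∧
    ∀ N B t A, 0 ≤ B → BN k q3 N B → 0 < t → t ≤ t0 → 0 ≤ A →
      An D k q3 sg c1 C N (t ^ (1 + e)) A →
      Bn D k q3 sg c1 C N (t ^ (1 + e)) t
        (K' * t ^ (-(5 * k)) * A + K' * (1 + B) * t ^ (bt + 18 * k)) := by
  classical
  obtain ⟨C', hC', hcv⟩ := hConv k o.k0 (by linarith [k_small o]) C hC
  have hC0 : 0 < C := by linarith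
  refine ⟨1 + C' + 9 * C ^ 5 * K, by positivity, ?_⟩
  intro N B t A hB hBN ht htt0 hA0 hAn bb ε hA R J hR hJ m m' hm hm' hmm T G H E X hW T' G' H' E' X'
    hW' F hF
  have ht1 : t ≤ 1 := htt0.trans ht01
  set τ : ℝ := t ^ (1 + e) with hτd
  have hτ : 0 < τ := Real.rpow_pos_of_pos ht _
  have hτt : τ ≤ t := by
    calc τ ≤ t ^ (1 : ℝ) := Real.rpow_le_rpow_of_exponent_ge ht ht1 (by linarith [o.e0])
      _ = t := Real.rpow_one t
  have hτ1 : τ ≤ 1 := hτt.trans ht1
  have hL := Growth.len_pos J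
  set Y : Fin 4 → Nd → Fn := Function.update (fun j _ => F j) m X with hYd
  have hne : m' ≠ m := hmm.symm
  -- static slot `m'`
  have hstat : ∀ z : Fn, Function.update Y m' (fun _ => z)
      = Function.update (fun j _ => Function.update F m' z j) m X := by
    intro z
    rw [hYd, Function.update_comm hmm]
    congr 1
    funext j
    by_cases hj : j = m'
    · subst hj; simp
    · simp [hj]
  have hsmall : ∀ ε', Adm bb ε' → ∀ R' J', Full R' J' → R' ⊆ R → ∀ z : Fn,
      (∀ p ∈ R', aq (2 + k) p z ≤ 1) →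
      ‖TP bb ε' R' (Function.update Y m' (fun _ => z))‖ ≤ A * len J' := by
    intro ε' hε' R' J' hR' hs z hz
    rw [hstat z]
    refine hAn bb ε' hε' R' J' hR' ((ht_le hR hR' hs).trans hJ) m hm _ G H E X
      (hW.restrict hR hR' hs) (Function.update F m' z) ?_
    intro j hj p hp
    by_cases hjm : j = m'
    · subst hjm
      rw [Function.update_self, qx_ne hm']
      exact hz p hp
    · rw [Function.update_of_ne hjm]
      exact hF j hj hjm p (hs hp)
  -- word G'
  have hG : ‖TP bb ε R (Function.update Y m' (fun _ => G'))‖ ≤ A * len J := by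
    refine hsmall ε hA R J hR (Finset.Subset.refl _) G' ?_
    intro p hp
    have := hW'.nrm p hp
    rwa [qx_ne hm'] at this
  -- word E'
  have hE : ‖TP bb ε R (Function.update Y m' E')‖ ≤ C' * t ^ (-(5 * k)) * A * len J := by
    have hc : t ^ (-c1) ≤ t⁻¹ := by
      rw [← Real.rpow_neg_one]
      exact Real.rpow_le_rpow_of_exponent_ge ht ht1 (by linarith [o.c11])
    refine hcv bb m' t A ht ht1 hA0 R J hR Y T' E' hW'.tops hW'.adE ?_ ?_ ?_ hW'.sq hsmall ε hA
    · intro p hp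
      refine (hW'.eav p hp).trans ?_
      have : t ^ (c1 / 2) ≤ 1 := Real.rpow_le_one ht.le ht1 (by linarith [o.c10])
      nlinarith
    · intro p hp y hy
      refine (hW'.esup p hp y hy).trans (le_of_eq ?_)
      rw [sx_ne hm', Real.rpow_neg_one]
    · exact hW'.cnt.mono (mul_le_mul_of_nonneg_left hc hC0.le)
  -- word H'
  have hH : ‖TP bb ε R (Function.update Y m' H')‖
      ≤ 9 * C ^ 5 * K * (1 + B) * t ^ (bt + 18 * k) * len J := by
    have hTT := hW.tops.union hW'.tops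
    have hadX : Adp R (T ∪ T') X := hW.adX.finer hR hW.tops hTT Finset.subset_union_left
    have hadH : Adp R (T ∪ T') H' := hW'.adH.finer hR hW'.tops hTT Finset.subset_union_right
    have had : ∀ j, Adp R (T ∪ T') (Function.update Y m' H' j) := by
      intro j
      by_cases hj : j = m'
      · subst hj; rw [Function.update_self]; exact hadH
      · rw [Function.update_of_ne hj, hYd]
        by_cases hj' : j = m
        · subst hj'; rw [Function.update_self]; exact hadX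
        · rw [Function.update_of_ne hj']; exact Adp.const _
    have hcτ : t ^ (-c1) ≤ τ ^ (-c1) :=
      Real.rpow_le_rpow_of_nonpos hτ hτt (by linarith [o.c10])
    have hcτ1 : 1 ≤ τ ^ (-c1) :=
      Real.one_le_rpow_of_pos_of_le_one_of_nonpos hτ hτ1 (by linarith [o.c10])
    have hcnt : Cnt R (T ∪ T') (2 * C * τ ^ (-c1)) :=
      (hW.cnt.union hW'.cnt).mono (by nlinarith)
    have hpk : t ^ (-(k / 2)) ≤ t ^ (-k) :=
      Real.rpow_le_rpow_of_exponent_ge ht ht1 (by linarith [o.k0])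
    have hpk' : τ ^ (-(k / 2)) ≤ t ^ (-k) := by
      rw [hτd, ← Real.rpow_mul ht.le]
      refine Real.rpow_le_rpow_of_exponent_ge ht ht1 ?_
      nlinarith [o.k0, o.e1]
    have hk1 : 1 ≤ t ^ (-k) :=
      Real.one_le_rpow_of_pos_of_le_one_of_nonpos ht ht1 (by linarith [o.k0])
    set a : Fin 4 → ℝ := fun j =>
      (if j = m then 3 * C * t ^ (-k) else 1) * (if j = m' then C * t ^ (-k) else 1) with had'
    have ha1 : ∀ j, 1 ≤ a j := by
      intro j
      have h1 : (1 : ℝ) ≤ (if j = m then 3 * C * t ^ (-k) else 1) := by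
        split_ifs
        · nlinarith
        · exact le_refl _
      have h2 : (1 : ℝ) ≤ (if j = m' then C * t ^ (-k) else 1) := by
        split_ifs
        · nlinarith
        · exact le_refl _
      simp only [had']
      nlinarith
    have hprod : ∏ j, a j = 3 * C * t ^ (-k) * (C * t ^ (-k)) := by
      simp only [had', Finset.prod_mul_distrib, Finset.prod_ite_eq', Finset.mem_univ, if_true]
    have hpos : 0 ≤ K * (1 + B) * C ^ 2 * (3 * C * t ^ (-k) * (C * t ^ (-k))) * τ ^ c0 := by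
      have := Real.rpow_nonneg hτ.le c0
      have h1B : 0 ≤ 1 + B := by linarith
      positivity
    have hwin : ∀ I ∈ T ∪ T', ‖TR bb ε (win R (T ∪ T') I)
        (fun j => Function.update Y m' H' j I)‖
        ≤ K * (1 + B) * C ^ 2 * (3 * C * t ^ (-k) * (C * t ^ (-k))) * τ ^ c0 * len I := by
      intro I hI
      have hWf := win_full hR hTT hI
      have hIR : I ∈ R := hTT.sub hI
      have hsub : win R (T ∪ T') I ⊆ R := win_sub
      have e1 : Function.update Y m' H' m' I = H' I := by rw [Function.update_self]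
      have e2 : Function.update Y m' H' m I = X I := by
        rw [Function.update_of_ne hmm, hYd, Function.update_self]
      have hnrm : ∀ j, ∀ p ∈ win R (T ∪ T') I,
          aq (qx k q3 j) p (Function.update Y m' H' j I) ≤ a j := by
        intro j p hp
        have hpR := hsub hp
        by_cases hj : j = m'
        · subst hj
          rw [e1, ← hadH.eq hp]
          refine (H_le hW' hm' o.k0 o.hq3 hC ht ht1 hpR).trans ?_
          simp only [had', if_neg hne, if_true, one_mul]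
          exact mul_le_mul_of_nonneg_left hpk hC0.le
        · by_cases hj' : j = m
          · subst hj'
            rw [e2, ← hadX.eq hp]
            refine (X_le hW hm o.k0 o.hq3 o.sg0 o.c10.le hC hτ hτ1 hpR).trans ?_
            simp only [had', if_neg hj, if_true, mul_one]
            exact mul_le_mul_of_nonneg_left hpk' (by positivity)
          · rw [Function.update_of_ne hj, hYd, Function.update_of_ne hj']
            refine (hF j hj' hj p hpR).trans (ha1 j)
      have hfz : ∀ p ∈ win R (T ∪ T') I,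
          Fz D m' (τ ^ (1 + e)) C p (Function.update Y m' H' m' I) := by
        intro p hp
        rw [e1, ← hadH.eq hp]
        refine Fz_mono hD (Real.rpow_pos_of_pos hτ _) ?_ ht1 (hW'.frz p (hsub hp))
        calc τ ^ (1 + e) ≤ τ ^ (1 : ℝ) :=
              Real.rpow_le_rpow_of_exponent_ge hτ hτ1 (by linarith [o.e0])
          _ = τ := Real.rpow_one τ
          _ ≤ t := hτt
      have hlv : ∀ p ∈ win R (T ∪ T') I, Lv D m τ C p (Function.update Y m' H' m I) := by
        intro p hp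
        rw [e2, ← hadX.eq hp]
        exact hW.lev p (hsub hp)
      have hfin := RuleA2_scaled hD o.k0 o.hq3 o.e0.le hRA hB hBN hτ hτ1 (hτt.trans htt0) hA hWf
        ((iv_level (hR.reg.1 I hIR)).trans hJ) hC ha1 hnrm hne hm' hm hfz hlv
      rwa [hprod] at hfin
    have h1 := sum_win_cnt bb ε hR hTT had hpos hcnt hwin
    refine h1.trans (mul_le_mul_of_nonneg_right ?_ hL.le)
    have h2 : 1 + 2 * C * τ ^ (-c1) ≤ 3 * C * τ ^ (-c1) := by nlinarith
    refine (mul_le_mul_of_nonneg_left h2 hpos).trans ?_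
    have h3 := expo o ht ht1
    have h1B : 0 ≤ 1 + B := by linarith
    have h4 : 0 ≤ 9 * C ^ 5 * K * (1 + B) := by positivity
    calc K * (1 + B) * C ^ 2 * (3 * C * t ^ (-k) * (C * t ^ (-k))) * τ ^ c0 * (3 * C * τ ^ (-c1))
        = 9 * C ^ 5 * K * (1 + B) * (t ^ (-k) * t ^ (-k) * (τ ^ c0 * τ ^ (-c1))) := by ring
      _ ≤ 9 * C ^ 5 * K * (1 + B) * t ^ (bt + 18 * k) := mul_le_mul_of_nonneg_left h3 h4
  have hexp : Function.update (Function.update (fun j _ => F j) m X) m' X'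
      = Function.update Y m' X' := rfl
  rw [hexp, TP_sub3 bb ε Y m' hW'.eq]
  have h5 : 1 ≤ t ^ (-(5 * k)) :=
    Real.one_le_rpow_of_pos_of_le_one_of_nonpos ht ht1 (by linarith [o.k0])
  have h6 : 0 ≤ t ^ (bt + 18 * k) := Real.rpow_nonneg ht.le _
  have h1B : 0 ≤ 1 + B := by linarith
  have htri : ‖TP bb ε R (Function.update Y m' (fun _ => G')) -
      TP bb ε R (Function.update Y m' H') - TP bb ε R (Function.update Y m' E')‖
      ≤ ‖TP bb ε R (Function.update Y m' (fun _ => G'))‖ +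
        ‖TP bb ε R (Function.update Y m' H')‖ + ‖TP bb ε R (Function.update Y m' E')‖ :=
    (norm_sub_le _ _).trans (add_le_add (norm_sub_le _ _) le_rfl)
  refine htri.trans ?_
  have hfinal : A * len J + 9 * C ^ 5 * K * (1 + B) * t ^ (bt + 18 * k) * len J
      + C' * t ^ (-(5 * k)) * A * len J
      ≤ ((1 + C' + 9 * C ^ 5 * K) * t ^ (-(5 * k)) * A
        + (1 + C' + 9 * C ^ 5 * K) * (1 + B) * t ^ (bt + 18 * k)) * len J := by
    have a1 : A ≤ t ^ (-(5 * k)) * A := le_mul_of_one_le_left hA0 h5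
    have a2 : 0 ≤ 9 * C ^ 5 * K * (t ^ (-(5 * k)) * A) := by positivity
    have a3 : 0 ≤ (1 + C') * ((1 + B) * t ^ (bt + 18 * k)) := by positivity
    rw [← add_mul, ← add_mul]
    refine mul_le_mul_of_nonneg_right ?_ hL.le
    nlinarith
  linarith

end T3b

/-- **[T3a] v2** -/
theorem twoLem2 (hConv : ConvLem) : TwoLem2 := by
  intro D k q3 c0 cS CS s1 e c1 bt κ t0 K C K0 o ht0 ht01 hK hC hD hRA
  obtain ⟨hkκ, o'⟩ := o.okκ
  obtain ⟨K', hK', h⟩ := T3b.two_core2 hConv D k q3 0 c0 _ e c1 _ t0 K C o' ht01 hK hC hD hRA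
  refine ⟨K', hK', fun N B t A hB hBN ht htt0 hA hAn => ?_⟩
  intro bb ε hAd R J hR hJ m m' hm hm' hmm T G H E X hW T' G' H' E' X' hW' F hF
  have h1 := h N B t A hB hBN ht htt0 hA hAn bb ε hAd R J hR hJ m m' hm hm' hmm T G H E X hW
    T' G' H' E' X' hW' F hF
  have ht1 := htt0.trans ht01
  have hk0 := o.k0
  refine h1.trans (mul_le_mul_of_nonneg_right ?_ (Growth.len_pos J).le)
  refine add_le_add (mul_le_mul_of_nonneg_right (mul_le_mul_of_nonneg_left
    (Real.rpow_le_rpow_of_exponent_ge ht ht1 (by linarith)) hK') hA)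
    (mul_le_mul_of_nonneg_left (Real.rpow_le_rpow_of_exponent_ge ht ht1 (by linarith))
      (mul_nonneg hK' (by linarith)))

end Crest.Agent.R079.TRecN
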