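import Crest.Agent.R079.TNS4b_533
import Crest.Agent.R079.TS4c_351

/-! R079, node-dependent recursion (helper533; port of `TS4c_351`), StepLem2 part c: the LOOP of `K0` generations and
**`stepLem2 : WinLem → ConvLem → TwoLem2 → StepLem2`**. -/

set_option autoImplicit false

namespace Crest.Agent.R079.TRecN

namespace S351

open Finset Crest.Agent.R079.Grid Crest.Agent.R079.Growth Crest.Agent.R079.QRed
open Crest.Agent.R079.TRec Crest.Agent.R079.TRec.S351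

/-- **THE LOOP** -/
theorem loop {D : Dict} {k q3 c1 C e t : ℝ} {N : ℕ} (hk : 0 < k) (ht : 0 < t) (hC : 1 ≤ C)
    {bb : ℤ} {R : Finset Nd} {J : Nd} (hR : Full R J) (hJ : J.1 ≤ N) {a b m : Fin 4}
    (h : Sl a b m) {T : Finset Nd} {G : Fn} {H E X : Nd → Fn}
    (hX : WRd D k q3 0 c1 C m t R J T G H E X) {F3 : Fn} (hF3 : ∀ p ∈ R, aq q3 p F3 ≤ 1)
    {Err : ℝ} (hErr : 0 ≤ Err)
    (hgen : ∀ ε, Adm bb ε → ∀ R J, Full R J → J.1 ≤ N → ∀ T,
      WRd D k q3 0 c1 C m t R J T G H E X → ∀ Fa Fb F3 : Fn,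
      (∀ p ∈ R, aq (2 + k) p Fa ≤ 1) → (∀ p ∈ R, aq (2 + k) p Fb ≤ 1) →
      (∀ p ∈ R, aq q3 p F3 ≤ 1) → ∃ T' Ea Eb, Gn k c1 C e t bb ε R J a b m X Fa Fb F3 Err T' Ea Eb)
    {S : Finset Nd} {A β nS : ℝ} (hA : 0 ≤ A) (hβ : 0 ≤ β)
    (hS : Bs k q3 bb R J a b m X F3 A β nS S) {s M L : ℝ}
    (hs : s = C * (t ^ (1 + e)) ^ (c1 / 2 - k)) (hM : M = 2 * C * (t ^ (1 + e)) ^ (-c1))
    (hL : s ^ 2 * M ≤ L) (hL1 : 1 ≤ L) (n : ℕ) :
    ∀ ε, Adm bb ε → ∀ W J', Full W J' → W ⊆ R → ∀ Fa Fb : Fn, (∀ p ∈ W, aq (2 + k) p Fa ≤ 1) →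
    (∀ p ∈ W, aq (2 + k) p Fb ≤ 1) →
    ‖TP bb ε W (q4 a b m (fun _ => Fa) (fun _ => Fb) X (fun _ => F3))‖ ≤
      L ^ n * (A + β + n * Err) * len J' + (s ^ 2) ^ n * β * bS S W := by
  have hs0 : 0 < s := by
    rw [hs]
    exact mul_pos (by linarith) (Real.rpow_pos_of_pos (Real.rpow_pos_of_pos ht _) _)
  have hk2 : 0 < 2 + k := by linarith
  induction n with
  | zero =>
    intro ε hε W J' hW hWR Fa Fb hFa hFb
    have h1 := hS.bd ε hε W J' hW hWR Fa Fb hFa hFb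
    simp only [pow_zero, one_mul, Nat.cast_zero, zero_mul, add_zero]
    exact h1
  | succ n ih =>
    intro ε hε W J' hW hWR Fa Fb hFa hFb
    have hJ' : J'.1 ≤ N := (le_of_mem hR (hWR hW.top)).trans hJ
    obtain ⟨T', Ea, Eb, g⟩ := hgen ε hε W J' hW hJ' (rT T W J') (WRd.restrict hR hX hW hWR)
      Fa Fb F3 hFa hFb (fun p hp => hF3 p (hWR hp))
    have hL' := lpos J'
    obtain ⟨α, hα⟩ : ∃ α, α = L ^ n * (A + β + n * Err) := ⟨_, rfl⟩
    obtain ⟨β', hβ'⟩ : ∃ β', β' = (s ^ 2) ^ n * β := ⟨_, rfl⟩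
    have hL0 : 0 ≤ L := by linarith
    have hn0 : (0 : ℝ) ≤ n := Nat.cast_nonneg _
    have hα0 : 0 ≤ α := by
      rw [hα]
      positivity
    have hβ0 : 0 ≤ β' := by
      rw [hβ']
      positivity
    have hw : ∀ I ∈ T', ‖TP bb ε (win W T' I) (q4 a b m Ea Eb X (fun _ => F3))‖ ≤
        s ^ 2 * (α * len I + β' * bS S (win W T' I)) := by
      intro I hI
      have hwf := win_full hW g.tops hI
      have e1 : TP bb ε (win W T' I) (q4 a b m Ea Eb X (fun _ => F3)) =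
          TP bb ε (win W T' I) (q4 a b m (fun _ => Ea I) (fun _ => Eb I) X (fun _ => F3)) := by
        refine TP_congr hε.1 fun p hp j y _ => ?_
        rcases h.all j with hj | hj | hj | hj
        · rw [hj, q4_a h, q4_a h, g.ada.eq hp]
        · rw [hj, q4_b h, q4_b h, g.adb.eq hp]
        · rw [hj, q4_m h, q4_m h]
        · rw [hj, q4_3 h, q4_3 h]
      rw [e1, TP_scale_ab h bb ε _ _ _ _ _ s hs0]
      refine mul_le_mul_of_nonneg_left ?_ (sq_nonneg s)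
      have h2 := ih ε hε (win W T' I) I hwf (win_sub.trans hWR)
        (fun y => ((s⁻¹ : ℝ) : ℂ) * Ea I y) (fun y => ((s⁻¹ : ℝ) : ℂ) * Eb I y)
        (fun p hp => by
          rw [aq_smul hk2 p _ (inv_nonneg.2 hs0.le), inv_mul_le_iff₀ hs0, mul_one,
            ← g.ada.eq hp, hs]
          exact g.sza p (win_sub hp))
        (fun p hp => by
          rw [aq_smul hk2 p _ (inv_nonneg.2 hs0.le), inv_mul_le_iff₀ hs0, mul_one,
            ← g.adb.eq hp, hs]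
          exact g.szb p (win_sub hp))
      rw [← hα, ← hβ'] at h2
      exact h2
    have hsum : ‖TP bb ε W (q4 a b m Ea Eb X (fun _ => F3))‖ ≤
        s ^ 2 * (α * ∑ I ∈ T', len I + β' * bS S W) := by
      have e : TP bb ε W (q4 a b m Ea Eb X (fun _ => F3)) =
          ∑ I ∈ T', TP bb ε (win W T' I) (q4 a b m Ea Eb X (fun _ => F3)) := by
        unfold TP
        rw [sum_windows hW g.tops]
      rw [e, ← bS_windows S hW g.tops, Finset.mul_sum, Finset.mul_sum, ← Finset.sum_add_distrib,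
        Finset.mul_sum]
      exact (norm_sum_le _ _).trans (Finset.sum_le_sum hw)
    have h3 := g.num
    rw [← hM] at h3
    have h4 : s ^ 2 * (α * ∑ I ∈ T', len I + β' * bS S W) ≤
        s ^ 2 * M * α * len J' + s ^ 2 * β' * bS S W := by
      have h5 := mul_le_mul_of_nonneg_left h3 hα0
      have h6 := mul_le_mul_of_nonneg_left h5 (sq_nonneg s)
      calc s ^ 2 * (α * ∑ I ∈ T', len I + β' * bS S W)
          = s ^ 2 * (α * ∑ I ∈ T', len I) + s ^ 2 * β' * bS S W := by ring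
        _ ≤ s ^ 2 * (α * (M * len J')) + s ^ 2 * β' * bS S W := by linarith
        _ = _ := by ring
    have h7 : s ^ 2 * M * α ≤ L * α := mul_le_mul_of_nonneg_right hL hα0
    have h8 : Err ≤ L ^ (n + 1) * Err := le_mul_of_one_le_left hErr (one_le_pow₀ hL1)
    have h9 : (Err + L * α) * len J' ≤ L ^ (n + 1) * (A + β + (n + 1 : ℕ) * Err) * len J' := by
      refine mul_le_mul_of_nonneg_right ?_ hL'.le
      rw [hα]
      push_cast
      have e : L ^ (n + 1) * (A + β + (n + 1) * Err) =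
          L * (L ^ n * (A + β + n * Err)) + L ^ (n + 1) * Err := by ring
      rw [e]
      linarith
    have h10 : (s ^ 2) ^ (n + 1) * β * bS S W = s ^ 2 * β' * bS S W := by
      rw [hβ']
      ring
    rw [h10]
    have h11 := g.err
    have h12 := mul_le_mul_of_nonneg_right h7 hL'.le
    linarith

set_option maxHeartbeats 1000000 in
/-- **THE STEP v2** -/
theorem stepLem2 (hW : WinLem) (hV : ConvLem) (hT : TwoLem2) : StepLem2 := by
  classical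
  obtain ⟨Cw, hCw, hWin⟩ := hW
  have hWin' : WinAt Cw := hWin
  refine ⟨Cw, hCw, ?_⟩
  intro D k q3 c0 cS CS s1 e c1 bt κ t0 K C K0 ok ht0 ht01 hK hCC hD hA hS
  have hC1 : 1 ≤ C := hCw.trans hCC
  have hC0 : 0 < C := by linarith
  have hk := ok.k0
  have hk80 := ok.k1
  have hq3 := ok.hq3
  have he := ok.e0
  have he1 := ok.e1
  have hc1 := ok.c10
  have hc11 := ok.c11
  have hbt := ok.bt0
  have hCS := ok.CS0
  have hK0 : (0 : ℝ) ≤ K0 := Nat.cast_nonneg _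
  have hkK : 40 * ((K0 : ℝ) * k) + 40 * k ≤ κ := by
    have h1 := ok.kκ
    linarith
  have hKk0 : 0 ≤ (K0 : ℝ) * k := by positivity
  have hkκ : 40 * k ≤ κ := by linarith
  have hκ0 : 0 < κ := by linarith
  have hC' := ok.hC
  have hc2k : 2 * k ≤ c1 := by linarith
  obtain ⟨K1, hK1, hGen⟩ := gen_step hV hT hCw hWin' ok ht0 ht01 hK hCC hD hA
  obtain ⟨K2, hK2, hBase⟩ := base_step hCw hWin' ok ht01 hK hCC hD hS
  obtain ⟨Q0, hQ0⟩ : ∃ Q0, Q0 = (2 * C ^ 3) ^ K0 := ⟨_, rfl⟩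
  obtain ⟨Q1, hQ1⟩ : ∃ Q1, Q1 = (C ^ 2) ^ K0 := ⟨_, rfl⟩
  have hQ00 : 0 ≤ Q0 := by rw [hQ0]; positivity
  have hQ10 : 0 ≤ Q1 := by rw [hQ1]; positivity
  obtain ⟨K', hK'⟩ : ∃ K', K' = Q0 * (1 + K2 + K0 * K1) + Q1 * K2 * K2 := ⟨_, rfl⟩
  have hK'0 : 0 ≤ K' := by rw [hK']; positivity
  refine ⟨K', hK'0, ?_⟩
  intro N B t A hB0 hB ht htt hA0 hAn bb ε hε R J hR hJ m hm T G H E X hX F hF
  have ht1 : t ≤ 1 := htt.trans ht01
  obtain ⟨a, b, h⟩ := exists_sl m hm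
  have hL := lpos J
  have hF3 : ∀ p ∈ R, aq q3 p (F 3) ≤ 1 := fun p hp => by
    have := hF 3 h.m3.symm p hp
    rwa [show qx k q3 3 = q3 from if_pos rfl] at this
  have hFa : ∀ p ∈ R, aq (2 + k) p (F a) ≤ 1 := fun p hp => by
    have := hF a h.am p hp
    rwa [show qx k q3 a = 2 + k from if_neg h.a3] at this
  have hFb : ∀ p ∈ R, aq (2 + k) p (F b) ≤ 1 := fun p hp => by
    have := hF b h.bm p hp
    rwa [show qx k q3 b = 2 + k from if_neg h.b3] at this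
  obtain ⟨S, hSb⟩ := hBase N B t A hB0 hB ht htt hA0 hAn bb ε hε R J hR hJ a b m h T G H E X hX
    (F 3) hF3
  obtain ⟨β, hβ⟩ : ∃ β, β = K2 * (1 + B) * t ^ (bt + κ) := ⟨_, rfl⟩
  obtain ⟨Err, hErr⟩ : ∃ Err, Err = K1 * t ^ (-(16 * k)) * A + K1 * (1 + B) * t ^ (bt + κ) :=
    ⟨_, rfl⟩
  have hB1 : 0 ≤ 1 + B := by linarith
  have tp : ∀ x : ℝ, 0 ≤ t ^ x := fun x => Real.rpow_nonneg ht.le x
  have hβ0 : 0 ≤ β := by rw [hβ]; have := tp (bt + κ); positivity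
  have hErr0 : 0 ≤ Err := by
    rw [hErr]
    have := tp (bt + κ)
    have := tp (-(16 * k))
    positivity
  rw [← hβ] at hSb
  obtain ⟨τ, hτdef⟩ : ∃ τ, τ = t ^ (1 + e) := ⟨_, rfl⟩
  have hτ : 0 < τ := by rw [hτdef]; exact Real.rpow_pos_of_pos ht _
  have hpow : ∀ x : ℝ, τ ^ x = t ^ ((1 + e) * x) := fun x => by
    rw [hτdef, ← Real.rpow_mul ht.le]
  obtain ⟨s, hs⟩ : ∃ s, s = C * (t ^ (1 + e)) ^ (c1 / 2 - k) := ⟨_, rfl⟩
  obtain ⟨M, hM⟩ : ∃ M, M = 2 * C * (t ^ (1 + e)) ^ (-c1) := ⟨_, rfl⟩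
  obtain ⟨L, hLdef⟩ : ∃ L, L = 2 * C ^ 3 * t ^ (-((1 + e) * (2 * k))) := ⟨_, rfl⟩
  have hs2 : s ^ 2 = C ^ 2 * t ^ ((1 + e) * (c1 - 2 * k)) := by
    rw [hs, ← hτdef, hpow, mul_pow, sq (t ^ _), ← Real.rpow_add ht]
    congr 2
    ring
  have hsM : s ^ 2 * M = L := by
    rw [hs2, hM, ← hτdef, hpow, hLdef]
    have e1 : C ^ 2 * t ^ ((1 + e) * (c1 - 2 * k)) * (2 * C * t ^ ((1 + e) * -c1)) =
        2 * C ^ 3 * (t ^ ((1 + e) * (c1 - 2 * k)) * t ^ ((1 + e) * -c1)) := by ring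
    rw [e1, ← Real.rpow_add ht]
    congr 2
    ring
  have hL1 : 1 ≤ L := by
    rw [hLdef]
    have h1 : 1 ≤ t ^ (-((1 + e) * (2 * k))) := one_le_rp ht ht1 (by
      have : 0 ≤ (1 + e) * (2 * k) := by positivity
      linarith)
    have h2 : 1 ≤ 2 * C ^ 3 := by
      have : 1 ≤ C ^ 3 := one_le_pow₀ hC1
      linarith
    nlinarith
  have key := loop (e := e) hk ht hC1 hR hJ h hX hF3 hErr0
    (fun ε' hε' R' J' hR' hJ' T1 hX1 Fa Fb F3 h1 h2 h3 => by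
      rw [hErr]
      exact hGen N B t A hB0 hB ht htt hA0 hAn bb ε' hε' R' J' hR' hJ' a b m h T1 G H E X hX1
        Fa Fb F3 h1 h2 h3) hA0 hβ0 hSb hs hM hsM.le hL1 K0 ε hε R J hR (Finset.Subset.refl R)
    (F a) (F b) hFa hFb
  have s0 : TP bb ε R (Function.update (fun j _ => F j) m X) =
      TP bb ε R (q4 a b m (fun _ => F a) (fun _ => F b) X (fun _ => F 3)) := by
    congr 1
    symm
    refine q4_ext h _ _ _ _ ?_ ?_ ?_ ?_
    · rw [Function.update_of_ne h.am]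
    · rw [Function.update_of_ne h.bm]
    · rw [Function.update_self]
    · rw [Function.update_of_ne h.m3.symm]
  rw [s0]
  refine key.trans ?_
  -- the numbers
  have hnum := hSb.num
  have hLn : L ^ K0 ≤ Q0 * t ^ (-κ) := by
    rw [hLdef, mul_pow, ← hQ0, ← Real.rpow_natCast (t ^ _), ← Real.rpow_mul ht.le]
    refine mul_le_mul_of_nonneg_left (rp_le ht ht1 ?_) hQ00
    have h1 : (1 + e) * (2 * k) * K0 ≤ 4 * ((K0 : ℝ) * k) := by
      have : e * ((K0 : ℝ) * k) ≤ 1 * ((K0 : ℝ) * k) := mul_le_mul_of_nonneg_right he1 hKk0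
      nlinarith
    have h2 : -((1 + e) * (2 * k)) * (K0 : ℝ) = -((1 + e) * (2 * k) * K0) := by ring
    rw [h2]
    linarith
  have hsn : (s ^ 2) ^ K0 ≤ Q1 * t ^ (CS + 2) := by
    rw [hs2, mul_pow, ← hQ1, ← Real.rpow_natCast (t ^ _), ← Real.rpow_mul ht.le]
    refine mul_le_mul_of_nonneg_left (rp_le ht ht1 ?_) hQ10
    have h1 : 0 ≤ (c1 - 2 * k) * K0 := mul_nonneg (by linarith) hK0
    have h2 : (1 + e) * (c1 - 2 * k) * (K0 : ℝ) = (c1 - 2 * k) * K0 + e * ((c1 - 2 * k) * K0) := by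
      ring
    have h3 : 0 ≤ e * ((c1 - 2 * k) * K0) := mul_nonneg he.le h1
    have h4 := ok.hK
    have h5 : κ ≤ 1 := by nlinarith [ok.hk, ok.hC]
    have h6 : (c1 - 2 * k) * (K0 : ℝ) = 2 * (K0 * (c1 / 2)) - 2 * ((K0 : ℝ) * k) := by ring
    rw [h2]
    linarith
  have hP0 : 0 ≤ t ^ (-(20 * κ)) := tp _
  have hQb0 : 0 ≤ t ^ bt := tp _
  -- first part
  have u1 : t ^ (-κ) * t ^ (-(16 * k)) ≤ t ^ (-(20 * κ)) := by
    rw [← Real.rpow_add ht]
    exact rp_le ht ht1 (by linarith)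
  have u2 : t ^ (-κ) ≤ t ^ (-(20 * κ)) := rp_le ht ht1 (by linarith)
  have u3 : t ^ (-κ) * t ^ (bt + κ) = t ^ bt := by
    rw [← Real.rpow_add ht]
    congr 1
    ring
  have u4 : t ^ (CS + 2) * t ^ (-(CS + 2)) = 1 := by
    rw [← Real.rpow_add ht, add_neg_cancel, Real.rpow_zero]
  have u5 : t ^ (bt + κ) ≤ t ^ bt := rp_le ht ht1 (by linarith)
  have v1 : L ^ K0 * (A + β + K0 * Err) ≤
      Q0 * (1 + K0 * K1) * t ^ (-(20 * κ)) * A + Q0 * (K2 + K0 * K1) * (1 + B) * t ^ bt := by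
    have h1 : 0 ≤ A + β + K0 * Err := by positivity
    refine (mul_le_mul_of_nonneg_right hLn h1).trans ?_
    rw [hβ, hErr]
    have e1 : Q0 * t ^ (-κ) * (A + K2 * (1 + B) * t ^ (bt + κ) +
        K0 * (K1 * t ^ (-(16 * k)) * A + K1 * (1 + B) * t ^ (bt + κ))) =
        Q0 * A * t ^ (-κ) + Q0 * K0 * K1 * A * (t ^ (-κ) * t ^ (-(16 * k))) +
        Q0 * (K2 + K0 * K1) * (1 + B) * (t ^ (-κ) * t ^ (bt + κ)) := by ring
    rw [e1, u3]
    have h2 := mul_le_mul_of_nonneg_left u2 (by positivity : 0 ≤ Q0 * A)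
    have h3 := mul_le_mul_of_nonneg_left u1 (by positivity : 0 ≤ Q0 * K0 * K1 * A)
    linarith
  have v2 : (s ^ 2) ^ K0 * β * bS S R ≤ Q1 * K2 * K2 * (1 + B) * t ^ bt * len J := by
    have h1 : 0 ≤ (s ^ 2) ^ K0 * β := by positivity
    have h2 := mul_le_mul_of_nonneg_left hnum h1
    have h3 : (s ^ 2) ^ K0 * β * (K2 * t ^ (-(CS + 2)) * len J) ≤
        Q1 * t ^ (CS + 2) * β * (K2 * t ^ (-(CS + 2)) * len J) := by
      have h4 : 0 ≤ K2 * t ^ (-(CS + 2)) * len J := by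
        have := tp (-(CS + 2))
        positivity
      exact mul_le_mul_of_nonneg_right (mul_le_mul_of_nonneg_right hsn hβ0) h4
    refine h2.trans (h3.trans ?_)
    have e1 : Q1 * t ^ (CS + 2) * β * (K2 * t ^ (-(CS + 2)) * len J) =
        Q1 * K2 * β * len J * (t ^ (CS + 2) * t ^ (-(CS + 2))) := by ring
    rw [e1, u4, mul_one, hβ]
    have h5 := mul_le_mul_of_nonneg_left u5 (by positivity : 0 ≤ Q1 * K2 * (K2 * (1 + B)) * len J)
    linarith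
  have v3 := mul_le_mul_of_nonneg_right v1 hL.le
  refine (add_le_add v3 v2).trans ?_
  have e2 : (K' * t ^ (-(20 * κ)) * A + K' * (1 + B) * t ^ bt) * len J -
      ((Q0 * (1 + K0 * K1) * t ^ (-(20 * κ)) * A + Q0 * (K2 + K0 * K1) * (1 + B) * t ^ bt) * len J +
        Q1 * K2 * K2 * (1 + B) * t ^ bt * len J) =
      ((Q0 * K2 + Q1 * K2 * K2) * t ^ (-(20 * κ)) * A + Q0 * (1 + B) * t ^ bt) * len J := by
    rw [hK']
    ring
  have e3 : 0 ≤ ((Q0 * K2 + Q1 * K2 * K2) * t ^ (-(20 * κ)) * A + Q0 * (1 + B) * t ^ bt) *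
      len J := by positivity
  linarith

end S351

end Crest.Agent.R079.TRecN
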