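import Crest.Agent.R079.TNS3b_533
import Crest.Agent.R079.TTop_13

/-! R079, node-dependent recursion (helper533; port of `TTop_13`), **[T4b] TOP STEP**:
`WinLem → ConvLem → TopLem`. -/

set_option autoImplicit false

namespace Crest.Agent.R079.TRecN.TTop13

open Finset Crest.Agent.R079.Grid Crest.Agent.R079.Growth Crest.Agent.R079.QRed
open Crest.Agent.R079.TRec Crest.Agent.R079.TTop13

/-! ### window terms -/

/-- one frozen letter, scaled -/
lemma Frz_scaled {D : TRecN.Dict} {sg : ℝ} (hD : Dic D sg) {k q3 t K : ℝ} (ht : 0 < t)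
    (ht1 : t ≤ 1) (hk : 0 < k) (hq : 2 < q3)
    (hK : ∀ bb ε, Adm bb ε → ∀ W I, Full W I → ∀ F, nrm k q3 W F →
      ∀ i : Fin 4, i ≠ 3 → (∀ p ∈ W, Fz D i t 1 p (F i)) → ‖TR bb ε W F‖ ≤ K * len I)
    {bb : ℤ} {ε : ℕ → ℤ → ℂ} (hA : Adm bb ε) {W : Finset Nd} {I : Nd} (hW : Full W I)
    {F : Fin 4 → Fn} {a : Fin 4 → ℝ} (ha : ∀ j, 0 < a j)
    (hF : ∀ j, ∀ p ∈ W, aq (qx k q3 j) p (F j) ≤ a j) {i : Fin 4} (hi : i ≠ 3) {M : ℝ}
    (hM : M ≤ a i) (hf : ∀ p ∈ W, Fz D i t M p (F i)) :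
    ‖TR bb ε W F‖ ≤ (K * ∏ j, a j) * len I := by
  have h := Crest.Agent.R079.TTop13.TR_scale ha
    (hK bb ε hA W I hW _ (scaled_of hk hq ha hF) i hi (fun p hp => by
      refine Fz_mass ?_ (Fz_smul hD ht ht1 ((a i)⁻¹) (inv_nonneg.2 (ha i).le) (hf p hp))
      rw [inv_mul_le_iff₀ (ha i), mul_one]
      exact hM))
  linarith [h, show (∏ j, a j) * (K * len I) = (K * ∏ j, a j) * len I by ring]

section terms

variable {D : TRecN.Dict} {k q3 : ℝ} {bb : ℤ} {ε : ℕ → ℤ → ℂ} {R : Finset Nd} {J : Nd}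
  {T : Finset Nd} {Y : Fin 4 → Nd → Fn} {a : Fin 4 → ℝ} {A : ℝ}

/-- one frozen letter, all letters adapted -/
lemma frz_term {sg : ℝ} (hD : Dic D sg) {t K : ℝ} (ht : 0 < t) (ht1 : t ≤ 1) (hk : 0 < k)
    (hq : 2 < q3) (hK0 : 0 ≤ K)
    (hK : ∀ bb ε, Adm bb ε → ∀ W I, Full W I → ∀ F, nrm k q3 W F →
      ∀ i : Fin 4, i ≠ 3 → (∀ p ∈ W, Fz D i t 1 p (F i)) → ‖TR bb ε W F‖ ≤ K * len I)
    (hA : Adm bb ε) (hR : Full R J) (hT : Tops R J T) (hY : ∀ j, Adp R T (Y j))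
    (ha : ∀ j, 0 < a j) (hn : ∀ j, ∀ p ∈ R, aq (qx k q3 j) p (Y j p) ≤ a j)
    {i : Fin 4} (hi : i ≠ 3) {M : ℝ} (hM : M ≤ a i) (hf : ∀ p ∈ R, Fz D i t M p (Y i p))
    (hc : Cnt R T A) :
    ‖TP bb ε R Y‖ ≤ (K * ∏ j, a j) * (1 + A) * len J := by
  refine sum_win_cnt bb ε hR hT hY (mul_nonneg hK0 (Finset.prod_nonneg fun j _ => (ha j).le)) hc
    fun I hI => ?_
  exact Frz_scaled hD ht ht1 hk hq hK hA (win_full hR hT hI) ha
    (fun j p hp => by
      rw [← (hY j).eq hp]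
      exact hn j p (mem_win.1 hp).1) hi hM
    (fun p hp => by
      rw [← (hY i).eq hp]
      exact hf p (mem_win.1 hp).1)

end terms

/-! ### conversion of the small letter of a windowed residual -/

lemma conv_use {k : ℝ} {C C' : ℝ} (hC1 : 1 ≤ C)
    (hconv : ∀ (bb : ℤ) (i : Fin 4) (t A : ℝ), 0 < t → t ≤ 1 → 0 ≤ A → ∀ R J, Full R J →
      ∀ (Y : Fin 4 → Nd → Fn) (T : Finset Nd) (E : Nd → Fn), Tops R J T → Adp R T E →
      (∀ p ∈ R, av p (E p) ≤ C) → (∀ p ∈ R, ∀ y ∈ iv p, ‖E p y‖ ≤ C * t⁻¹) →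
      Cnt R T (C * t⁻¹) → Sq R T E C →
      (∀ ε, Adm bb ε → ∀ R' J', Full R' J' → R' ⊆ R → ∀ z : Fn,
        (∀ p ∈ R', aq (2 + k) p z ≤ 1) →
        ‖TP bb ε R' (Function.update Y i (fun _ => z))‖ ≤ A * len J') →
      ∀ ε, Adm bb ε → ‖TP bb ε R (Function.update Y i E)‖ ≤ C' * t ^ (-(5 * k)) * A * len J)
    {D : TRecN.Dict} {q3 sg c1 : ℝ} (hc0 : 0 < c1) (hc1 : c1 ≤ 1) {i : Fin 4} (hi : i ≠ 3)
    {t : ℝ} (ht0 : 0 < t) (ht1 : t ≤ 1) {A : ℝ} (hA : 0 ≤ A) {R : Finset Nd} {J : Nd}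
    (hR : Full R J) {T : Finset Nd} {G : Fn} {H E X : Nd → Fn}
    (hW : WRd D k q3 sg c1 C i t R J T G H E X) {bb : ℤ} {ε : ℕ → ℤ → ℂ} (hadm : Adm bb ε)
    (Y : Fin 4 → Nd → Fn)
    (hyp : ∀ ε, Adm bb ε → ∀ R' J', Full R' J' → R' ⊆ R → ∀ z : Fn,
        (∀ p ∈ R', aq (2 + k) p z ≤ 1) →
        ‖TP bb ε R' (Function.update Y i (fun _ => z))‖ ≤ A * len J') :
    ‖TP bb ε R (Function.update Y i E)‖ ≤ C' * t ^ (-(5 * k)) * A * len J := by
  have hC0 : 0 ≤ C := by linarith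
  refine hconv bb i t A ht0 ht1 hA R J hR Y T E hW.tops hW.adE ?_ ?_ ?_ hW.sq hyp ε hadm
  · intro p hp
    refine (hW.eav p hp).trans ?_
    calc C * t ^ (c1 / 2) ≤ C * 1 :=
          mul_le_mul_of_nonneg_left (Real.rpow_le_one ht0.le ht1 (by linarith)) hC0
      _ = C := mul_one C
  · intro p hp y hy
    have h := hW.esup p hp y hy
    rwa [sx_ne hi, Real.rpow_neg_one] at h
  · refine hW.cnt.mono (mul_le_mul_of_nonneg_left ?_ hC0)
    rw [← Real.rpow_neg_one]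
    exact Real.rpow_le_rpow_of_exponent_ge ht0 ht1 (by linarith)

/-- **[T4b] TOP STEP** -/
theorem topLem (hWin : WinLem) (hConv : ConvLem) : TopLem := by
  obtain ⟨Cw, hCw1, hWin⟩ := hWin
  refine ⟨Cw, hCw1, ?_⟩
  intro D k q3 sg c0 c3 e c1 bt C hok hD hCw hF
  have hk0 := hok.k0
  have hk1 := ok_k hok
  have hC1 : 1 ≤ C := hCw1.trans hCw
  have hC0 : 0 < C := by linarith
  obtain ⟨C', hC'0, hconv⟩ := hConv k hk0 (by linarith) C hC1
  refine ⟨1 + C' + C' ^ 2 + 2 * C ^ 4, by positivity, ?_⟩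
  intro t ht0 ht1
  obtain ⟨K, hK0, hK⟩ := hF t ht0 ht1
  have hti : 1 ≤ t⁻¹ := (one_le_inv₀ ht0).2 ht1
  have hM1 : 1 ≤ C * t⁻¹ := one_le_mul_of_one_le_of_one_le hC1 hti
  have hcnt0 : 0 ≤ C * t ^ (-c1) := mul_nonneg hC0.le (Real.rpow_nonneg ht0.le _)
  set Q : ℝ := (K * ∏ _j : Fin 4, C * t⁻¹) * (1 + C * t ^ (-c1)) with hQ
  have hQ0 : 0 ≤ Q := by positivity
  refine ⟨3 * Q, by positivity, ?_⟩
  intro N B A hB0 hB hA0 hAn bb ε hadm R J hR hJN F hnrm
  obtain ⟨T, H, E, hWR⟩ := hWin D k q3 sg c1 hD hk0 hok.k1 hok.hq3 hok.sg0 hok.sg1 hok.c10 hok.c11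
    R J hR F hnrm t ht0 ht1
  set X : Fin 4 → Nd → Fn := fun j p y => F j y - H j p y - E j p y with hX
  have hW : ∀ j, WRd D k q3 sg c1 C j t R J T (F j) (H j) (E j) (X j) := fun j =>
    S351.WRd_mono hCw ht0 (hWR j)
  have hl := Growth.len_pos J
  have hT : Tops R J T := (hW 0).tops
  have hc : Cnt R T (C * t ^ (-c1)) := (hW 0).cnt
  set Y : Fin 4 → Nd → Fn := fun j _ => F j with hY
  have hYad : ∀ j, Adp R T (Y j) := fun j => Adp.const (F j)
  have hsplit : ∀ j, ∀ p ∈ R, ∀ y, Y j p y = X j p y + H j p y + E j p y := by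
    intro j p _ y
    show F j y = (F j y - H j p y - E j p y) + H j p y + E j p y
    ring
  have hF4 : ∀ j, ∀ p ∈ R, aq (qx k q3 j) p (F j) ≤ 1 := hnrm
  -- crude norms
  have hYc : ∀ j, ∀ p ∈ R, aq (qx k q3 j) p (Y j p) ≤ C * t⁻¹ := fun j p hp =>
    (hF4 j p hp).trans hM1
  have hHc : ∀ j, j ≠ 3 → ∀ p ∈ R, aq (qx k q3 j) p (H j p) ≤ C * t⁻¹ := by
    intro j hj p hp
    refine aq_le_of_sup (qx_pos hk0 hok.hq3 j) (by linarith) fun y hy => ?_
    have h := (hW j).hsup p hp y hy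
    rwa [sx_ne hj, Real.rpow_neg_one] at h
  have hEc : ∀ j, j ≠ 3 → ∀ p ∈ R, aq (qx k q3 j) p (E j p) ≤ C * t⁻¹ := by
    intro j hj p hp
    refine aq_le_of_sup (qx_pos hk0 hok.hq3 j) (by linarith) fun y hy => ?_
    have h := (hW j).esup p hp y hy
    rwa [sx_ne hj, Real.rpow_neg_one] at h
  have hcp : ∀ _j : Fin 4, 0 < C * t⁻¹ := fun _ => by linarith
  have hCM : C ≤ C * t⁻¹ := le_mul_of_one_le_right hC0.le hti
  have n03 : (0 : Fin 4) ≠ 3 := by decide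
  have n13 : (1 : Fin 4) ≠ 3 := by decide
  have n23 : (2 : Fin 4) ≠ 3 := by decide
  have n01 : (0 : Fin 4) ≠ 1 := by decide
  have n02 : (0 : Fin 4) ≠ 2 := by decide
  have n12 : (1 : Fin 4) ≠ 2 := by decide
  -- the splittings
  have s0 := TP_split bb ε R Y 0 (Y 0) (X 0) (H 0) (E 0) (hsplit 0)
  rw [Function.update_eq_self] at s0
  set Y0 := Function.update Y 0 (E 0) with hY0
  have s1 := TP_split bb ε R Y0 1 (Y 1) (X 1) (H 1) (E 1) (hsplit 1)
  have e1 : Function.update Y0 1 (Y 1) = Y0 := by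
    rw [hY0, Function.update_comm n01, Function.update_eq_self]
  rw [e1] at s1
  set Y1 := Function.update Y0 1 (E 1) with hY1
  have s2 := TP_split bb ε R Y1 2 (Y 2) (X 2) (H 2) (E 2) (hsplit 2)
  have e2 : Function.update Y1 2 (Y 2) = Y1 := by
    rw [hY1, hY0, Function.update_comm n12, Function.update_comm n02,
      Function.update_eq_self]
  rw [e2] at s2
  have hY0ad : ∀ j, Adp R T (Y0 j) := adp_upd hYad (hW 0).adE
  have hY1ad : ∀ j, Adp R T (Y1 j) := adp_upd hY0ad (hW 1).adE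
  have hY0c : ∀ j, ∀ p ∈ R, aq (qx k q3 j) p (Y0 j p) ≤ C * t⁻¹ := nrm_upd hYc (hEc 0 n03)
  have hY1c : ∀ j, ∀ p ∈ R, aq (qx k q3 j) p (Y1 j p) ≤ C * t⁻¹ := nrm_upd hY0c (hEc 1 n13)
  -- frozen terms
  have f0 : ‖TP bb ε R (Function.update Y 0 (H 0))‖ ≤ Q * len J :=
    frz_term (D := D) (i := 0) hD ht0 ht1 hk0 hok.hq3 hK0 hK hadm hR hT (adp_upd hYad (hW 0).adH) hcp
      (nrm_upd hYc (hHc 0 n03)) n03 hCM
      (fun p hp => by rw [Function.update_self]; exact (hW 0).frz p hp) hc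
  have f1 : ‖TP bb ε R (Function.update Y0 1 (H 1))‖ ≤ Q * len J :=
    frz_term (D := D) (i := 1) hD ht0 ht1 hk0 hok.hq3 hK0 hK hadm hR hT (adp_upd hY0ad (hW 1).adH) hcp
      (nrm_upd hY0c (hHc 1 n13)) n13 hCM
      (fun p hp => by rw [Function.update_self]; exact (hW 1).frz p hp) hc
  have f2 : ‖TP bb ε R (Function.update Y1 2 (H 2))‖ ≤ Q * len J :=
    frz_term (D := D) (i := 2) hD ht0 ht1 hk0 hok.hq3 hK0 hK hadm hR hT (adp_upd hY1ad (hW 2).adH) hcp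
      (nrm_upd hY1c (hHc 2 n23)) n23 hCM
      (fun p hp => by rw [Function.update_self]; exact (hW 2).frz p hp) hc
  -- one residual, three static letters
  have g0 : ‖TP bb ε R (Function.update Y 0 (X 0))‖ ≤ A * len J :=
    hAn bb ε hadm R J hR hJN 0 n03 T (F 0) (H 0) (E 0) (X 0) (hW 0) F fun j _ => hF4 j
  have ht5 : 0 < t ^ (-(5 * k)) := Real.rpow_pos_of_pos ht0 _
  have g1 : ‖TP bb ε R (Function.update Y0 1 (X 1))‖ ≤ C' * t ^ (-(5 * k)) * A * len J := by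
    rw [hY0, Function.update_comm n01]
    refine conv_use hC1 hconv hok.c10 hok.c11 n03 ht0 ht1 hA0 hR (hW 0) hadm _ ?_
    intro ε' hadm' R' J' hR' hs z hz
    rw [Function.update_comm n01.symm, hY, upd_static]
    have hJ' : J'.1 ≤ N := (Qe292.iv_level (hR.reg.1 J' (hs hR'.top))).trans hJN
    exact hAn bb ε' hadm' R' J' hR' hJ' 1 n13 _ _ _ _ _ ((hW 1).restrict hR hR' hs) _
      fun j _ => upd_nrm n03 hz fun p hp => hF4 j p (hs hp)
  have g2 : ‖TP bb ε R (Function.update Y1 2 (X 2))‖ ≤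
      C' * t ^ (-(5 * k)) * (C' * t ^ (-(5 * k)) * A) * len J := by
    have ee : Function.update Y1 2 (X 2) =
        Function.update (Function.update (Function.update Y 2 (X 2)) 1 (E 1)) 0 (E 0) := by
      rw [hY1, hY0, Function.update_comm n12, Function.update_comm n02,
        Function.update_comm n01]
    rw [ee]
    refine conv_use hC1 hconv hok.c10 hok.c11 n03 ht0 ht1 (by positivity) hR (hW 0) hadm _ ?_
    intro ε' hadm' R' J' hR' hs z hz
    have hJ' : J'.1 ≤ N := (Qe292.iv_level (hR.reg.1 J' (hs hR'.top))).trans hJN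
    have ee' : Function.update (Function.update (Function.update Y 2 (X 2)) 1 (E 1)) 0
        (fun _ => z) =
        Function.update (Function.update (Function.update Y 0 (fun _ => z)) 2 (X 2)) 1 (E 1) := by
      rw [Function.update_comm n01.symm, Function.update_comm n02.symm]
    rw [ee']
    refine conv_use hC1 hconv hok.c10 hok.c11 n13 ht0 ht1 hA0 hR' ((hW 1).restrict hR hR' hs)
      hadm' _ ?_
    intro ε'' hadm'' R'' J'' hR'' hs' z' hz'
    have hs'' : R'' ⊆ R := hs'.trans hs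
    have hJ'' : J''.1 ≤ N := (Qe292.iv_level (hR.reg.1 J'' (hs'' hR''.top))).trans hJN
    rw [Function.update_comm n12.symm, hY, upd_static, upd_static]
    exact hAn bb ε'' hadm'' R'' J'' hR'' hJ'' 2 n23 _ _ _ _ _ ((hW 2).restrict hR hR'' hs'') _
      fun j _ => upd_nrm n13 hz' (upd_nrm n03 (fun p hp => hz p (hs' hp))
        fun p hp => hF4 j p (hs'' hp))
  -- three small letters
  set s : ℝ := ((C * t ^ (c1 / 2)) ^ 2 * (C * t⁻¹) ^ k) ^ (1 / (2 + k)) with hs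
  have hs0 : 0 < s := by positivity
  have hEs : ∀ j, j ≠ 3 → ∀ p ∈ R, aq (qx k q3 j) p (E j p) ≤ s := by
    intro j hj p hp
    rw [qx_ne hj]
    refine aq_interp hk0 (by linarith) ((hW j).eav p hp) fun y hy => ?_
    have h := (hW j).esup p hp y hy
    rwa [sx_ne hj, Real.rpow_neg_one] at h
  set b : Fin 4 → ℝ := ![s, s, s, 1] with hb
  have hb0 : ∀ j, 0 < b j := by
    intro j
    fin_cases j <;> simp [hb, hs0]
  have hbn : ∀ j, ∀ p ∈ R, aq (qx k q3 j) p (Function.update Y1 2 (E 2) j p) ≤ b j := by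
    intro j p hp
    fin_cases j
    · have := hEs 0 n03 p hp
      simpa [hY1, hY0, hb] using this
    · have := hEs 1 n13 p hp
      simpa [hY1, hY0, hb] using this
    · have := hEs 2 n23 p hp
      simpa [hY1, hY0, hb] using this
    · have := hF4 3 p hp
      simpa [hY1, hY0, hb, hY] using this
  have h3 : ‖TP bb ε R (Function.update Y1 2 (E 2))‖ ≤ 2 * C ^ 4 * B * t ^ bt * len J := by
    have h := bn_term hk0 hok.hq3 hB0 hB hadm hR hJN hT (adp_upd hY1ad (hW 2).adE) hb0 hbn hc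
    refine h.trans (mul_le_mul_of_nonneg_right ?_ hl.le)
    have hp : ∏ j, b j = s ^ 3 := by
      rw [Fin.prod_univ_four]
      simp [hb]
      ring
    rw [hp]
    calc B * s ^ 3 * (1 + C * t ^ (-c1)) = B * (s ^ 3 * (1 + C * t ^ (-c1))) := by ring
      _ ≤ B * (2 * C ^ 4 * t ^ bt) :=
          mul_le_mul_of_nonneg_left (small_size hok hC1 ht0 ht1) hB0
      _ = _ := by ring
  -- total
  have htot : TR bb ε R F = TP bb ε R Y := rfl
  rw [htot, s0, s1, s2]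
  have t20 : t ^ (-(5 * k)) ≤ t ^ (-(20 * k)) :=
    Real.rpow_le_rpow_of_exponent_ge ht0 ht1 (by linarith)
  have t1 : 1 ≤ t ^ (-(20 * k)) :=
    Real.one_le_rpow_of_pos_of_le_one_of_nonpos ht0 ht1 (by linarith)
  have t10 : t ^ (-(5 * k)) * t ^ (-(5 * k)) ≤ t ^ (-(20 * k)) := by
    rw [← Real.rpow_add ht0]
    exact Real.rpow_le_rpow_of_exponent_ge ht0 ht1 (by linarith)
  set Z : ℝ := t ^ (-(20 * k)) with hZ
  have hZ0 : 0 ≤ Z := by linarith
  have b0 : A ≤ Z * A := by nlinarith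
  have b1 : C' * t ^ (-(5 * k)) * A ≤ C' * Z * A :=
    mul_le_mul_of_nonneg_right (mul_le_mul_of_nonneg_left t20 hC'0) hA0
  have b2 : C' * t ^ (-(5 * k)) * (C' * t ^ (-(5 * k)) * A) ≤ C' ^ 2 * Z * A := by
    calc C' * t ^ (-(5 * k)) * (C' * t ^ (-(5 * k)) * A)
        = (C' ^ 2 * A) * (t ^ (-(5 * k)) * t ^ (-(5 * k))) := by ring
      _ ≤ (C' ^ 2 * A) * Z := mul_le_mul_of_nonneg_left t10 (by positivity)
      _ = _ := by ring
  have htb : 0 ≤ t ^ bt := Real.rpow_nonneg ht0.le _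
  have hBt : 0 ≤ (1 + C' + C' ^ 2) * B * t ^ bt := by positivity
  have hZA : 0 ≤ 2 * C ^ 4 * Z * A := by positivity
  calc ‖TP bb ε R (Function.update Y 0 (X 0)) + TP bb ε R (Function.update Y 0 (H 0)) +
        (TP bb ε R (Function.update Y0 1 (X 1)) + TP bb ε R (Function.update Y0 1 (H 1)) +
          (TP bb ε R (Function.update Y1 2 (X 2)) + TP bb ε R (Function.update Y1 2 (H 2)) +
            TP bb ε R (Function.update Y1 2 (E 2))))‖
      ≤ A * len J + Q * len J + (C' * t ^ (-(5 * k)) * A * len J + Q * len J +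
          (C' * t ^ (-(5 * k)) * (C' * t ^ (-(5 * k)) * A) * len J + Q * len J +
            2 * C ^ 4 * B * t ^ bt * len J)) := by
        refine (norm_add₃_le).trans (add_le_add (add_le_add g0 f0) ?_)
        refine (norm_add₃_le).trans (add_le_add (add_le_add g1 f1) ?_)
        exact (norm_add₃_le).trans (add_le_add (add_le_add g2 f2) h3)
    _ = (A + C' * t ^ (-(5 * k)) * A + C' * t ^ (-(5 * k)) * (C' * t ^ (-(5 * k)) * A) +
          3 * Q + 2 * C ^ 4 * B * t ^ bt) * len J := by ring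
    _ ≤ _ := by
        refine mul_le_mul_of_nonneg_right ?_ hl.le
        have : 3 * Q + (1 + C' + C' ^ 2 + 2 * C ^ 4) * Z * A + (1 + C' + C' ^ 2 + 2 * C ^ 4) * B * t ^ bt
            = Z * A + C' * Z * A + C' ^ 2 * Z * A + 3 * Q + 2 * C ^ 4 * B * t ^ bt +
              2 * C ^ 4 * Z * A + (1 + C' + C' ^ 2) * B * t ^ bt := by ring
        rw [this]
        linarith

end Crest.Agent.R079.TRecN.TTop13
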