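import Crest.Agent.R079.TNWin_533
import Crest.Agent.R079.TNS3d_533
import Crest.Agent.R079.TNS4c_533
import Crest.Agent.R079.TNTop_533
import Crest.Agent.R079.TNApr_533
import Crest.Agent.R079.TFin2_351

/-! R079, node-dependent recursion (helper533; port of `TAsm_398`, `TFin3_351`): assembly and
**`TRecN.target_of_analytic2 : TRecN.Analytic2 → L0.Target`**, no other hypothesis. -/

set_option autoImplicit false

namespace Crest.Agent.R079.TRecN

open Finset Crest.Agent.R079.Grid Crest.Agent.R079.Growth Crest.Agent.R079.QRed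
open Crest.Agent.R079.TRec Crest.Agent.R079.TRec.TAsm398 Crest.Agent.R079.TRec.TRec213

section
variable {D : Dict} {k q3 sg c1 C : ℝ} {N : ℕ} {t : ℝ}

/-- the best constant with one windowed residual is admissible -/
lemma an_inf (hne : ∃ A : ℝ, 0 ≤ A ∧ An D k q3 sg c1 C N t A) :
    0 ≤ sInf {A : ℝ | 0 ≤ A ∧ An D k q3 sg c1 C N t A} ∧
      An D k q3 sg c1 C N t (sInf {A : ℝ | 0 ≤ A ∧ An D k q3 sg c1 C N t A}) := by
  refine ⟨le_csInf hne fun B hB => hB.1,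
    fun bb ε h R J hF hJ m hm T G H E X hW F hFF => ?_⟩
  have hJ0 := Growth.len_pos J
  rw [← div_le_iff₀ hJ0]
  refine le_csInf hne fun A hA => ?_
  rw [div_le_iff₀ hJ0]
  exact hA.2 bb ε h R J hF hJ m hm T G H E X hW F hFF

lemma an_inf_le {A : ℝ} (hA0 : 0 ≤ A) (hA : An D k q3 sg c1 C N t A) :
    sInf {A : ℝ | 0 ≤ A ∧ An D k q3 sg c1 C N t A} ≤ A :=
  csInf_le ⟨0, fun _ h => h.1⟩ ⟨hA0, hA⟩

end

lemma ruleA2_mono {D : Dict} {k q3 c0 e t0 t0' K : ℝ} (h : RuleA2 D k q3 c0 e t0 K)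
    (ht : t0' ≤ t0) : RuleA2 D k q3 c0 e t0' K :=
  fun N B hB hBN t h0 h1 => h N B hB hBN t h0 (h1.trans ht)

lemma ruleS_mono {D : Dict} {k q3 cS CS s1 e t0 t0' K : ℝ} (h : RuleS D k q3 cS CS s1 e t0 K)
    (ht : t0' ≤ t0) : RuleS D k q3 cS CS s1 e t0' K :=
  fun N B hB hBN t h0 h1 => h N B hB hBN t h0 (h1.trans ht)

/-- **MAIN ASSEMBLY** -/
theorem recGoal2_of (hS : StepLem2) (hP : AprLem) (hT : TopLem) : RecGoal2 := by
  obtain ⟨Cs, hCs1, hS⟩ := hS
  obtain ⟨Ct, hCt1, hT⟩ := hT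
  intro D k q3 c0 cS CS s1 e c1 bt κ t0 K K0 hok ht0 hK hD hPt hA hRS hF
  have hok1 := hok.ok
  set C := max Cs Ct with hC
  have hC1 : 1 ≤ C := hCs1.trans (le_max_left _ _)
  -- exponents
  have hk := hok.k0
  have hq3 := hok.hq3
  have hbt0 := hok.bt0
  have he0 := hok.e0
  have hebt : e * bt ≤ bt := by nlinarith [hok.e1]
  have h40 := hok.hk
  have hK0 : (0 : ℝ) ≤ K0 := Nat.cast_nonneg _
  have hkκ : k ≤ κ := by nlinarith [hok.kκ]
  have hκ0 : 0 < κ := by linarith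
  have hbt1 : bt ≤ 1 / 2 := by
    have h1 := hok.hC
    have h2 := hok.c11
    linarith
  -- the three inputs
  obtain ⟨K1, hK10, hS⟩ := hS D k q3 c0 cS CS s1 e c1 bt κ (min t0 1) K C K0 hok (lt_min ht0 one_pos)
    (min_le_right _ _) hK (le_max_left _ _) hD (ruleA2_mono hA (min_le_left _ _))
    (ruleS_mono hRS (min_le_left _ _))
  obtain ⟨K2, hK20, hT⟩ := hT D k q3 0 c0 (bt + 20 * k) e c1 bt C hok1 hD (le_max_right _ _) hF
  have hP := hP D k q3 0 c0 (bt + 20 * k) e c1 bt C bt hok1 hPt hC1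
  obtain ⟨t1, ht10, ht1, ht11, hsm⟩ := TIter.exists_small (C := K2) (γ := bt) (δ := 1 / 4)
    (t0 := min t0 1) hbt0 (by norm_num) (lt_min ht0 one_pos)
  -- best constants
  let B : ℕ → ℝ := fun N => sInf {B : ℝ | 0 ≤ B ∧ BN k q3 N B}
  let a : ℕ → ℝ → ℝ := fun N t => sInf {A : ℝ | 0 ≤ A ∧ An D k q3 0 c1 C N t A}
  have hB : ∀ N, 0 ≤ B N ∧ BN k q3 N (B N) := fun N => bn_inf (bn_apr hk hq3 N)
  have hane : ∀ N t, 0 < t → t ≤ 1 → ∃ A : ℝ, 0 ≤ A ∧ An D k q3 0 c1 C N t A := by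
    intro N t h0 h1
    obtain ⟨M, hM0, hM⟩ := hP N
    exact ⟨M * t ^ bt, mul_nonneg hM0 (Real.rpow_nonneg h0.le _), hM t h0 h1⟩
  have ha : ∀ N t, 0 < t → t ≤ 1 → 0 ≤ a N t ∧ An D k q3 0 c1 C N t (a N t) :=
    fun N t h0 h1 => an_inf (hane N t h0 h1)
  obtain ⟨M, hM⟩ : ∃ M, ∀ N, B N ≤ M := by
    classical
    -- the constants of the top step
    let Kf : ℝ → ℝ := fun t => if h : 0 < t ∧ t ≤ 1 then Classical.choose (hT t h.1 h.2) else 0
    refine TIter.bootstrap a B Kf (C := max K1 K2) (α := 20 * κ) (β := bt) (ε := e) (t0 := t1)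
      (hK10.trans (le_max_left _ _)) he0 (by linarith) (by linarith) ht10 (fun N => (hB N).1)
      ?_ ?_ ?_
    · intro N
      obtain ⟨M, hM0, hM⟩ := hP N
      refine ⟨M, fun t h0 h1 => ?_⟩
      exact an_inf_le (mul_nonneg hM0 (Real.rpow_nonneg h0.le _))
        (hM t h0 (h1.trans ht11))
    · intro N t h0 h1
      have hs0 : 0 < t ^ (1 + e) := Real.rpow_pos_of_pos h0 _
      have hs1 : t ^ (1 + e) ≤ 1 := Real.rpow_le_one h0.le (h1.trans ht11) (by linarith)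
      have hA' := ha N (t ^ (1 + e)) hs0 hs1
      have hB' := hB N
      have h2 := hS N (B N) t (a N (t ^ (1 + e))) hB'.1 hB'.2 h0 (h1.trans ht1) hA'.1 hA'.2
      have hp1 : 0 ≤ t ^ (-(20 * κ)) := Real.rpow_nonneg h0.le _
      have hp2 : 0 ≤ t ^ bt := Real.rpow_nonneg h0.le _
      have h1B : 0 ≤ 1 + B N := by linarith [hB'.1]
      refine (an_inf_le (add_nonneg (mul_nonneg (mul_nonneg hK10 hp1) hA'.1)
        (mul_nonneg (mul_nonneg hK10 h1B) hp2)) h2).trans ?_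
      have hmx : K1 ≤ max K1 K2 := le_max_left _ _
      exact add_le_add
        (mul_le_mul_of_nonneg_right (mul_le_mul_of_nonneg_right hmx hp1) hA'.1)
        (mul_le_mul_of_nonneg_right (mul_le_mul_of_nonneg_right hmx h1B) hp2)
    · intro t h0 h1 N
      have ht1' : t ≤ 1 := h1.trans ht11
      have hKf : Kf t = Classical.choose (hT t h0 ht1') := dif_pos ⟨h0, ht1'⟩
      obtain ⟨hc0, hc⟩ := Classical.choose_spec (hT t h0 ht1')
      rw [← hKf] at hc0 hc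
      have hA' := ha N t h0 ht1'
      have hB' := hB N
      have h2 := hc N (B N) (a N t) hB'.1 hB'.2 hA'.1 hA'.2
      have hp1 : 0 ≤ t ^ (-(20 * k)) := Real.rpow_nonneg h0.le _
      have hp2 : 0 ≤ t ^ bt := Real.rpow_nonneg h0.le _
      refine (bn_inf_le (add_nonneg (add_nonneg hc0 (mul_nonneg (mul_nonneg hK20 hp1) hA'.1))
        (mul_nonneg (mul_nonneg hK20 hB'.1) hp2)) h2).trans ?_
      have hmx : K2 ≤ max K1 K2 := le_max_right _ _
      have h3 : K2 * t ^ bt ≤ 1 / 4 :=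
        (mul_le_mul_of_nonneg_left (Real.rpow_le_rpow h0.le h1 hbt0.le) hK20).trans hsm
      have h4 : K2 * B N * t ^ bt ≤ 1 / 4 * B N := by
        calc K2 * B N * t ^ bt = (K2 * t ^ bt) * B N := by ring
          _ ≤ 1 / 4 * B N := mul_le_mul_of_nonneg_right h3 hB'.1
      have h6 : t ^ (-(20 * k)) ≤ t ^ (-(20 * κ)) :=
        Real.rpow_le_rpow_of_exponent_ge h0 ht1' (by linarith)
      have h7 : K2 * t ^ (-(20 * k)) ≤ max K1 K2 * t ^ (-(20 * κ)) :=
        mul_le_mul hmx h6 hp1 (hK20.trans hmx)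
      have h5 : K2 * t ^ (-(20 * k)) * a N t ≤ max K1 K2 * t ^ (-(20 * κ)) * a N t :=
        mul_le_mul_of_nonneg_right h7 hA'.1
      linarith
  refine ⟨max M 0, le_max_right _ _, fun N bb ε h R J hR hJ F hF4 => ?_⟩
  refine ((hB N).2 bb ε h R J hR hJ F hF4).trans ?_
  exact mul_le_mul_of_nonneg_right ((hM N).trans (le_max_left _ _)) (Growth.len_pos J).le

/-- **THE RECURSION, node-dependent dictionaries: no hypothesis** -/
theorem recGoal2 : RecGoal2 :=
  recGoal2_of (S351.stepLem2 winLem T2.convLem (twoLem2 T2.convLem)) aprLem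
    (TTop13.topLem winLem T2.convLem)

/-- **`S0106` from the analytic input for node-dependent dictionaries** -/
theorem target_of_analytic2 (hA : Analytic2) : L0.Target := by
  obtain ⟨D, k, q3, c0, cS, CS, s1, e, c1, bt, κ, t0, K, K0, hok, ht0, hK, hD, hP, hR, hRS, hF⟩ := hA
  have hok1 := hok.ok
  have h := recGoal2 D k q3 c0 cS CS s1 e c1 bt κ t0 K K0 hok ht0 hK hD hP hR hRS hF
  exact Lq853.target_of_BBq (2 + k) (by have := hok1.k0; linarith) (by have := hok1.k1; linarith)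
    (TX229.exitLem k q3 hok1.k0 hok1.k1 hok1.hq3 h)

end Crest.Agent.R079.TRecN
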