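import Crest.Agent.R079.TNDef_533
import Crest.Agent.R079.TS0_903
import Crest.Agent.R079.TS3a_351

/-! R079, node-dependent recursion (helper533): basic facts on costs, levels, frozen letters; restriction of
windowed residuals (port of `TS0_903`, `TS3a_351`). -/

set_option autoImplicit false

namespace Crest.Agent.R079.TRecN

open Finset Crest.Agent.R079.Grid Crest.Agent.R079.Growth Crest.Agent.R079.QRed
open Crest.Agent.R079.TRec

/-! ### costs -/

section cost

variable {D : Dict} {sg : ℝ} {j : Fin 4} {t : ℝ} {p : Nd} {f g : Fn}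

/-- a letter of cost zero vanishes on the node -/
theorem Dic.eq_zero (hD : Dic D sg) (ht : 0 < t) (ht1 : t ≤ 1) (h : D j t p f = 0) :
    ∀ y ∈ iv p, f y = 0 := by
  intro y hy
  have h1 := hD.sup j t ht ht1 p f y hy
  rw [h, zero_mul] at h1
  exact norm_le_zero_iff.1 h1

theorem Lv_le {s s' : ℝ} (hs : s ≤ s') (h : Lv D j t s p g) : Lv D j t s' p g := fun φ hφ =>
  (h φ hφ).trans (mul_le_mul_of_nonneg_right hs (Growth.len_pos p).le)

/-- homogeneous form of the level -/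
theorem Lv.hom (hD : Dic D sg) (ht : 0 < t) (ht1 : t ≤ 1) {s : ℝ} (h : Lv D j t s p g) (φ : Fn) :
    ‖∑ y ∈ iv p, g y * φ y‖ ≤ s * D j t p φ * len p := by
  have hc := hD.cst j t ht ht1
  have h0 := hc.nonneg p φ
  rcases h0.eq_or_lt with h1 | h1
  · have h2 := hD.eq_zero ht ht1 h1.symm
    have h3 : ∑ y ∈ iv p, g y * φ y = 0 :=
      Finset.sum_eq_zero fun y hy => by rw [h2 y hy, mul_zero]
    rw [h3, norm_zero, ← h1, mul_zero, zero_mul]
  · set c := D j t p φ with hcdef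
    have h2 : D j t p (fun y => ((c⁻¹ : ℝ) : ℂ) * φ y) ≤ 1 := by
      refine (hc.smul p _ φ).trans ?_
      rw [Complex.norm_real, Real.norm_of_nonneg (inv_nonneg.2 h1.le), ← hcdef,
        inv_mul_cancel₀ h1.ne']
    have h3 := h _ h2
    have e : ∑ y ∈ iv p, g y * (((c⁻¹ : ℝ) : ℂ) * φ y) = ((c⁻¹ : ℝ) : ℂ) * ∑ y ∈ iv p, g y * φ y := by
      rw [Finset.mul_sum]
      exact Finset.sum_congr rfl fun y _ => by ring
    rw [e, norm_mul, Complex.norm_real, Real.norm_of_nonneg (inv_nonneg.2 h1.le),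
      inv_mul_le_iff₀ h1] at h3
    exact h3.trans (le_of_eq (by ring))

/-- level from the homogeneous form -/
theorem Lv.of_hom {s : ℝ} (hs : 0 ≤ s)
    (h : ∀ φ : Fn, ‖∑ y ∈ iv p, g y * φ y‖ ≤ s * D j t p φ * len p) : Lv D j t s p g := by
  intro φ hφ
  refine (h φ).trans (mul_le_mul_of_nonneg_right ?_ (Growth.len_pos p).le)
  exact mul_le_of_le_one_right hs hφ

/-- level at parameter `s` ⟹ level at parameter `t ≥ s` -/
theorem Lv_mono (hD : Dic D sg) {s M : ℝ} (hs : 0 < s) (hst : s ≤ t) (ht : t ≤ 1)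
    (h : Lv D j s M p g) : Lv D j t M p g := fun φ hφ =>
  h φ ((hD.mono j s t hs hst ht p φ).trans hφ)

theorem Lv_csmul {M : ℝ} (h : Lv D j t M p g) (c : ℂ) :
    Lv D j t (‖c‖ * M) p (fun y => c * g y) := by
  intro φ hφ
  have h1 := h φ hφ
  have e : ∑ y ∈ iv p, c * g y * φ y = c * ∑ y ∈ iv p, g y * φ y := by
    rw [Finset.mul_sum]
    exact Finset.sum_congr rfl fun y _ => by ring
  rw [e, norm_mul, mul_assoc]
  exact mul_le_mul_of_nonneg_left h1 (norm_nonneg _)

theorem Lv_smul {M : ℝ} (c : ℝ) (hc : 0 ≤ c) (h : Lv D j t M p g) :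
    Lv D j t (c * M) p (fun y => (c : ℂ) * g y) := by
  have := Lv_csmul h (c : ℂ)
  rwa [Complex.norm_real, Real.norm_of_nonneg hc] at this

theorem Lv_sub {M M' : ℝ} (h : Lv D j t M p f) (h' : Lv D j t M' p g) :
    Lv D j t (M + M') p (fun y => f y - g y) := by
  intro φ hφ
  have e : ∑ y ∈ iv p, (f y - g y) * φ y = ∑ y ∈ iv p, f y * φ y - ∑ y ∈ iv p, g y * φ y := by
    rw [← Finset.sum_sub_distrib]
    exact Finset.sum_congr rfl fun y _ => by ring
  rw [e, add_mul]
  exact (norm_sub_le _ _).trans (add_le_add (h φ hφ) (h' φ hφ))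

/-! ### frozen letters -/

theorem Fz_mass {M M' : ℝ} (hM : M ≤ M') (h : Fz D j t M p f) : Fz D j t M' p f :=
  le_trans (α := ℝ) h hM

theorem Fz_csmul (hD : Dic D sg) (ht : 0 < t) (ht1 : t ≤ 1) {M : ℝ} (h : Fz D j t M p f) (c : ℂ) :
    Fz D j t (‖c‖ * M) p (fun y => c * f y) :=
  ((hD.cst j t ht ht1).smul p c f).trans (mul_le_mul_of_nonneg_left h (norm_nonneg _))

theorem Fz_smul (hD : Dic D sg) (ht : 0 < t) (ht1 : t ≤ 1) {M : ℝ} (c : ℝ) (hc : 0 ≤ c)
    (h : Fz D j t M p f) : Fz D j t (c * M) p (fun y => (c : ℂ) * f y) := by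
  have := Fz_csmul hD ht ht1 h (c : ℂ)
  rwa [Complex.norm_real, Real.norm_of_nonneg hc] at this

theorem Fz_add (hD : Dic D sg) (ht : 0 < t) (ht1 : t ≤ 1) {M M' : ℝ} (h : Fz D j t M p f)
    (h' : Fz D j t M' p g) : Fz D j t (M + M') p (fun y => f y + g y) :=
  ((hD.cst j t ht ht1).add p f g).trans (add_le_add h h')

theorem Fz_sub (hD : Dic D sg) (ht : 0 < t) (ht1 : t ≤ 1) {M M' : ℝ} (h : Fz D j t M p f)
    (h' : Fz D j t M' p g) : Fz D j t (M + M') p (fun y => f y - g y) := by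
  have h1 := Fz_csmul hD ht ht1 h' (-1)
  rw [norm_neg, norm_one, one_mul] at h1
  have h2 := Fz_add hD ht ht1 h h1
  have e : (fun y => f y + (-1 : ℂ) * g y) = fun y => f y - g y := by
    funext y; ring
  simpa only [e] using h2

/-- frozen at parameter `t` ⟹ frozen at parameter `s ≤ t` -/
theorem Fz_mono (hD : Dic D sg) {s M : ℝ} (hs : 0 < s) (hst : s ≤ t) (ht : t ≤ 1)
    (h : Fz D j t M p f) : Fz D j s M p f := (hD.mono j s t hs hst ht p f).trans h

end cost

/-! ### windowed residuals -/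

variable {R : Finset Nd} {J : Nd} {T : Finset Nd}

/-- **restriction of a windowed residual to a full sub-region** -/
theorem WRd.restrict {D : Dict} {k q3 sg c1 C : ℝ} {j : Fin 4} {t : ℝ} {G : Fn}
    {H E X : Nd → Fn} (hR : Full R J) (h : WRd D k q3 sg c1 C j t R J T G H E X)
    {R' : Finset Nd} {J' : Nd} (hR' : Full R' J') (hs : R' ⊆ R) :
    WRd D k q3 sg c1 C j t R' J' (rT T R' J') G H E X where
  tops := h.tops.restrict hR' hs
  adH := h.adH.restrict hR h.tops hR' hs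
  adE := h.adE.restrict hR h.tops hR' hs
  eq := fun p hp => h.eq p (hs hp)
  nrm := fun p hp => h.nrm p (hs hp)
  lev := fun p hp => h.lev p (hs hp)
  frz := fun p hp => h.frz p (hs hp)
  hav := fun p hp => h.hav p (hs hp)
  eav := fun p hp => h.eav p (hs hp)
  hsup := fun p hp => h.hsup p (hs hp)
  esup := fun p hp => h.esup p (hs hp)
  cnt := h.cnt.restrict hR' hs
  sq := h.sq.restrict hR' hs

/-- the residual itself is adapted (on the nodes of `R`) -/
theorem WRd.adX {D : Dict} {k q3 sg c1 C : ℝ} {j : Fin 4} {t : ℝ} {G : Fn}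
    {H E X : Nd → Fn} (h : WRd D k q3 sg c1 C j t R J T G H E X) : Adp R T X := by
  intro p hp I hI
  funext y
  rw [h.eq p hp y, h.eq I (h.tops.sub hI.1) y, h.adH p hp I hI, h.adE p hp I hI]

/-- a residual seen in ONE window: it is static there -/
theorem WRd.win_eq {D : Dict} {k q3 sg c1 C : ℝ} {j : Fin 4} {t : ℝ} {G : Fn}
    {H E X : Nd → Fn} (h : WRd D k q3 sg c1 C j t R J T G H E X) {I p : Nd}
    (hp : p ∈ win R T I) : X p = X I ∧ H p = H I ∧ E p = E I :=
  ⟨h.adX.eq hp, h.adH.eq hp, h.adE.eq hp⟩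

end Crest.Agent.R079.TRecN
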