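import Crest.Agent.R079.TNS0_533
import Crest.Agent.R079.TS1_653

/-! R079, node-dependent recursion (helper533; port of `TS1_653`): sizes of the pieces of a windowed
residual, scaled `FrzBd`. -/

set_option autoImplicit false
set_option linter.unusedVariables false

namespace Crest.Agent.R079.TRecN

open Crest.Agent.R079.TRec

open Finset Crest.Agent.R079.Grid Crest.Agent.R079.Growth Crest.Agent.R079.QRed
  Crest.Agent.R079.QVar181

/-! ### the pieces of a windowed residual -/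

section WRd

variable {D : Dict} {k q3 sg c1 C : ℝ} {j : Fin 4} {t : ℝ} {R : Finset Nd} {J : Nd}
  {T : Finset Nd} {G : Fn} {H E X : Nd → Fn}

/-- gain of the small letter -/
theorem WRd.aqE (h : WRd D k q3 sg c1 C j t R J T G H E X) (hk : 0 < k) (hq3 : 2 < q3)
    (hC : 0 ≤ C) (ht : 0 < t) {p : Nd} (hp : p ∈ R) :
    aq (qx k q3 j) p (E p) ≤ C * t ^ ((c1 - sx sg j * (qx k q3 j - 2)) / qx k q3 j) := by
  have := aq_le_pow (two_lt_qx hk hq3 j).le p hC ht (h.eav p hp) (h.esup p hp)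
  convert this using 4
  ring

theorem WRd.aqH (h : WRd D k q3 sg c1 C j t R J T G H E X) (hk : 0 < k) (hq3 : 2 < q3)
    (hC : 0 ≤ C) (ht : 0 < t) {p : Nd} (hp : p ∈ R) :
    aq (qx k q3 j) p (H p) ≤ C * t ^ (-(sx sg j * (qx k q3 j - 2) / qx k q3 j)) := by
  have h0 : av p (H p) ≤ C * t ^ (0 : ℝ) := by rw [Real.rpow_zero, mul_one]; exact h.hav p hp
  have := aq_le_pow (two_lt_qx hk hq3 j).le p hC ht h0 (h.hsup p hp)
  convert this using 3
  ring

/-- the loss exponent of `H`, `E`, `X` -/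
theorem WRd.aqE' (h : WRd D k q3 sg c1 C j t R J T G H E X) (hk : 0 < k) (hq3 : 2 < q3)
    (hc1 : 0 ≤ c1) (hC : 0 ≤ C) (ht : 0 < t) (ht1 : t ≤ 1) {p : Nd} (hp : p ∈ R) :
    aq (qx k q3 j) p (E p) ≤ C * t ^ (-(sx sg j * (qx k q3 j - 2) / qx k q3 j)) := by
  refine (h.aqE hk hq3 hC ht hp).trans ?_
  have hq := two_lt_qx hk hq3 j
  refine mul_le_mul_of_nonneg_left (Real.rpow_le_rpow_of_exponent_ge ht ht1 ?_) hC
  rw [← neg_div]
  apply div_le_div_of_nonneg_right _ (by linarith)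
  linarith

theorem WRd.aqX (h : WRd D k q3 sg c1 C j t R J T G H E X) (hk : 0 < k) (hq3 : 2 < q3)
    (hsg : 0 ≤ sg) (hc1 : 0 ≤ c1) (hC : 1 ≤ C) (ht : 0 < t) (ht1 : t ≤ 1) {p : Nd} (hp : p ∈ R) :
    aq (qx k q3 j) p (X p) ≤ 3 * C * t ^ (-(sx sg j * (qx k q3 j - 2) / qx k q3 j)) := by
  have hq := two_lt_qx hk hq3 j
  have hx : 0 ≤ sx sg j := by unfold sx; split_ifs <;> linarith
  have e : X p = fun y => (G y - H p y) - E p y := by funext y; exact h.eq p hp y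
  have h1 := aq_sub_le (q := qx k q3 j) (by linarith) p (fun y => G y - H p y) (E p)
  have h2 := aq_sub_le (q := qx k q3 j) (by linarith) p G (H p)
  have h3 := h.aqH hk hq3 (by linarith) ht hp
  have h4 := h.aqE' hk hq3 hc1 (by linarith) ht ht1 hp
  have h5 := h.nrm p hp
  have h6 : 1 ≤ t ^ (-(sx sg j * (qx k q3 j - 2) / qx k q3 j)) := by
    apply Real.one_le_rpow_of_pos_of_le_one_of_nonpos ht ht1
    have : 0 ≤ sx sg j * (qx k q3 j - 2) / qx k q3 j := by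
      apply div_nonneg (mul_nonneg hx (by linarith)) (by linarith)
    linarith
  rw [e]
  have h7 : aq (qx k q3 j) p (fun y => (G y - H p y) - E p y)
      ≤ 1 + C * t ^ (-(sx sg j * (qx k q3 j - 2) / qx k q3 j))
        + C * t ^ (-(sx sg j * (qx k q3 j - 2) / qx k q3 j)) := by linarith
  nlinarith

/-- slots `0,1,2`: plain numbers (`L^(2+k)`, sup `t⁻¹`) -/
theorem WRd.aqE2 (h : WRd D k q3 sg c1 C j t R J T G H E X) (hj : j ≠ 3) (hk : 0 < k)
    (hq3 : 2 < q3) (hC : 0 ≤ C) (ht : 0 < t) (ht1 : t ≤ 1) (hc1 : c1 ≤ 2) {p : Nd} (hp : p ∈ R) :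
    aq (2 + k) p (E p) ≤ C * t ^ (c1 / 2 - k) := by
  have h1 := h.aqE hk hq3 hC ht hp
  have e1 : qx k q3 j = 2 + k := by simp [qx, hj]
  have e2 : sx sg j = 1 := by simp [sx, hj]
  rw [e1, e2] at h1
  refine h1.trans (mul_le_mul_of_nonneg_left (Real.rpow_le_rpow_of_exponent_ge ht ht1 ?_) hC)
  rw [le_div_iff₀ (by linarith)]
  nlinarith [mul_nonneg hk.le (by linarith : (0:ℝ) ≤ 1 - c1 / 2), mul_nonneg hk.le hk.le]

end WRd

/-! ### scaling -/

/-- scaled `FrzBd` -/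
theorem FrzBd_scaled {D : Dict} {sg : ℝ} (hD : Dic D sg) {k q3 : ℝ} (hk : 0 < k) (hq3 : 2 < q3)
    (h : FrzBd D k q3) {t : ℝ}
    (ht : 0 < t) (ht1 : t ≤ 1) : ∃ K : ℝ, 0 ≤ K ∧ ∀ bb ε, Adm bb ε → ∀ W I, Full W I →
      ∀ (F : Fin 4 → Fn) (a : Fin 4 → ℝ) (C : ℝ), 1 ≤ C → (∀ j, 1 ≤ a j) →
      (∀ j, ∀ p ∈ W, aq (qx k q3 j) p (F j) ≤ a j) → ∀ i : Fin 4, i ≠ 3 →
      (∀ p ∈ W, Fz D i t C p (F i)) →
        ‖TR bb ε W F‖ ≤ K * C * (∏ j, a j) * len I := by
  classical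
  obtain ⟨K, hK, hb⟩ := h t ht ht1
  refine ⟨K, hK, fun bb ε hA W I hW F a C hC ha hF i hi hfz => ?_⟩
  set b : Fin 4 → ℝ := fun j => if j = i then C * a j else a j with hbd
  have ha0 : ∀ j, 0 < a j := fun j => by linarith [ha j]
  have hC0 : 0 < C := by linarith
  have hb0 : ∀ j, 0 < b j := by
    intro j
    simp only [hbd]
    have := ha0 j
    split_ifs <;> positivity
  have hab : ∀ j, a j ≤ b j := by
    intro j
    simp only [hbd]
    have := ha0 j
    split_ifs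
    · nlinarith
    · exact le_refl _
  have hinv : ∀ j, ‖((b j : ℂ))⁻¹‖ = (b j)⁻¹ := fun j => by
    rw [norm_inv, Complex.norm_real, Real.norm_of_nonneg (hb0 j).le]
  have hbi : C ≤ b i := by
    simp only [hbd, if_true]
    have := ha i
    nlinarith
  rw [TR_scale bb ε W F b hb0]
  have h1 := hb bb ε hA W I hW (fun j y => ((b j)⁻¹ : ℂ) * F j y) (by
    intro j p hp
    rw [aq_smul (by linarith [two_lt_qx hk hq3 j]), hinv, inv_mul_le_iff₀ (hb0 j), mul_one]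
    exact (hF j p hp).trans (hab j)) i hi
    (fun p hp => Fz_mass (by
      rw [hinv, inv_mul_le_iff₀ (hb0 i), mul_one]; exact hbi) (Fz_csmul hD ht ht1 (hfz p hp) _))
  have hprod : ∏ j, b j = C * ∏ j, a j := by
    have e1 : ∀ j, b j = (if j = i then C else 1) * a j := by
      intro j
      simp only [hbd]
      split_ifs <;> ring
    rw [Finset.prod_congr rfl fun j _ => e1 j, Finset.prod_mul_distrib]
    congr 1
    rw [Finset.prod_ite_eq']
    simp
  rw [hprod]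
  have h2 : 0 ≤ C * ∏ j, a j :=
    mul_nonneg hC0.le (Finset.prod_nonneg fun j _ => (ha0 j).le)
  refine (mul_le_mul_of_nonneg_left h1 h2).trans (le_of_eq ?_)
  ring

end Crest.Agent.R079.TRecN
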