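import Crest.Agent.R079.TNS1_533
import Crest.Agent.R079.TS3b_351

/-! R079, node-dependent recursion (helper533; port of `TS3b_351`): sizes of the letters of a windowed
residual, scaled `An`. -/

set_option autoImplicit false

namespace Crest.Agent.R079.TRecN

namespace S351

open Finset Crest.Agent.R079.Grid Crest.Agent.R079.Growth Crest.Agent.R079.QRed
open Crest.Agent.R079.TRec Crest.Agent.R079.TRec.S351

/-! ### monotonicity in the constant -/

theorem WRd_mono {D : Dict} {k q3 sg c1 C C' : ℝ} (hCC : C ≤ C') {j : Fin 4} {t : ℝ} (ht : 0 < t)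
    {R : Finset Nd} {J : Nd} {T : Finset Nd} {G : Fn} {H E X : Nd → Fn}
    (h : WRd D k q3 sg c1 C j t R J T G H E X) : WRd D k q3 sg c1 C' j t R J T G H E X where
  tops := h.tops
  adH := h.adH
  adE := h.adE
  eq := h.eq
  nrm := h.nrm
  lev := fun p hp => Lv_le hCC (h.lev p hp)
  frz := fun p hp => Fz_mass hCC (h.frz p hp)
  hav := fun p hp => (h.hav p hp).trans hCC
  eav := fun p hp => (h.eav p hp).trans
    (mul_le_mul_of_nonneg_right hCC (Real.rpow_nonneg ht.le _))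
  hsup := fun p hp y hy => (h.hsup p hp y hy).trans
    (mul_le_mul_of_nonneg_right hCC (Real.rpow_nonneg ht.le _))
  esup := fun p hp y hy => (h.esup p hp y hy).trans
    (mul_le_mul_of_nonneg_right hCC (Real.rpow_nonneg ht.le _))
  cnt := h.cnt.mono (mul_le_mul_of_nonneg_right hCC (Real.rpow_nonneg ht.le _))
  sq := fun p hp => (h.sq p hp).trans (mul_le_mul_of_nonneg_right hCC (lpos p).le)

/-! ### sizes -/

section sizes
variable {D : Dict} {k q3 sg c1 C : ℝ} {j : Fin 4} {t : ℝ} {R : Finset Nd} {J : Nd}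
  {T : Finset Nd} {G : Fn} {H E X : Nd → Fn}

lemma size_E (pr : Pr k q3 sg c1 C t) (h : WRd D k q3 sg c1 C j t R J T G H E X) (hj : j ≠ 3)
    {p : Nd} (hp : p ∈ R) : aq (qx k q3 j) p (E p) ≤ C * t ^ (c1 / 2 - k) := by
  have hk := pr.k0
  have e1 : qx k q3 j = 2 + k := if_neg hj
  have e2 : sx sg j = 1 := if_neg hj
  have h1 := h.esup p hp
  rw [e2] at h1
  rw [e1]
  have h2 := aq_pow (q := 2 + k) (x := 1) (y := c1 / 2) (by linarith) (by linarith [pr.C1]) pr.t0
    h1 (h.eav p hp)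
  refine h2.trans (mul_le_mul_of_nonneg_left (rp_le pr.t0 pr.t1 ?_) (by linarith [pr.C1]))
  rw [le_div_iff₀ (by linarith)]
  nlinarith [pr.c11, pr.c10, mul_pos hk hk, mul_le_mul_of_nonneg_right pr.c11 hk.le]

lemma size_H (pr : Pr k q3 sg c1 C t) (h : WRd D k q3 sg c1 C j t R J T G H E X) (hj : j ≠ 3)
    {p : Nd} (hp : p ∈ R) : aq (qx k q3 j) p (H p) ≤ C * t ^ (-k) := by
  have hk := pr.k0
  have e1 : qx k q3 j = 2 + k := if_neg hj
  have e2 : sx sg j = 1 := if_neg hj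
  have h1 := h.hsup p hp
  rw [e2] at h1
  rw [e1]
  have h0 : av p (H p) ≤ C * t ^ (0 : ℝ) := by rw [Real.rpow_zero, mul_one]; exact h.hav p hp
  have h2 := aq_pow (q := 2 + k) (x := 1) (y := 0) (by linarith) (by linarith [pr.C1]) pr.t0
    h1 h0
  refine h2.trans (mul_le_mul_of_nonneg_left (rp_le pr.t0 pr.t1 ?_) (by linarith [pr.C1]))
  rw [le_div_iff₀ (by linarith)]
  nlinarith [mul_pos hk hk]

lemma size_E3 (pr : Pr k q3 sg c1 C t) (h : WRd D k q3 sg c1 C 3 t R J T G H E X)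
    {p : Nd} (hp : p ∈ R) :
    aq (qx k q3 3) p (E p) ≤ C * t ^ (c1 / q3 - sg * (q3 - 2) / q3) := by
  have e1 : qx k q3 3 = q3 := if_pos rfl
  have e2 : sx sg 3 = sg := if_pos rfl
  have h1 := h.esup p hp
  rw [e2] at h1
  rw [e1]
  have h2 := aq_pow (q := q3) (x := sg) (y := c1 / 2) (by linarith [pr.hq3]) (by linarith [pr.C1])
    pr.t0 h1 (h.eav p hp)
  refine h2.trans (le_of_eq ?_)
  congr 2
  rw [← sub_div]
  congr 1
  ring

lemma size_H3 (pr : Pr k q3 sg c1 C t) (h : WRd D k q3 sg c1 C 3 t R J T G H E X)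
    {p : Nd} (hp : p ∈ R) :
    aq (qx k q3 3) p (H p) ≤ C * t ^ (-(sg * (q3 - 2) / q3)) := by
  have e1 : qx k q3 3 = q3 := if_pos rfl
  have e2 : sx sg 3 = sg := if_pos rfl
  have h1 := h.hsup p hp
  rw [e2] at h1
  rw [e1]
  have h0 : av p (H p) ≤ C * t ^ (0 : ℝ) := by rw [Real.rpow_zero, mul_one]; exact h.hav p hp
  have h2 := aq_pow (q := q3) (x := sg) (y := 0) (by linarith [pr.hq3]) (by linarith [pr.C1])
    pr.t0 h1 h0
  refine h2.trans (le_of_eq ?_)
  congr 2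
  rw [← neg_div]
  congr 1
  ring

lemma size_X (pr : Pr k q3 sg c1 C t) (h : WRd D k q3 sg c1 C j t R J T G H E X) (hj : j ≠ 3)
    {p : Nd} (hp : p ∈ R) : aq (qx k q3 j) p (X p) ≤ 3 * C * t ^ (-k) := by
  have hk := pr.k0
  have hC := pr.C1
  have hq := qx_one (q3 := q3) hk pr.hq3 j
  have e : X p = fun y => (fun y => G y - H p y) y - E p y := by
    funext y
    rw [h.eq p hp y]
  rw [e]
  have h1 := aq_sub hq p (fun y => G y - H p y) (E p)
  have h2 := aq_sub hq p G (H p)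
  have h3 := h.nrm p hp
  have h4 := size_H pr h hj hp
  have h5 := size_E pr h hj hp
  have h6 : t ^ (c1 / 2 - k) ≤ t ^ (-k) := rp_le pr.t0 pr.t1 (by linarith [pr.c10])
  have h7 : 1 ≤ t ^ (-k) := one_le_rp pr.t0 pr.t1 (by linarith)
  have h8 := mul_le_mul_of_nonneg_left h6 (by linarith : 0 ≤ C)
  have h9 : 1 ≤ C * t ^ (-k) := by nlinarith
  linarith

lemma size_X3 (pr : Pr k q3 sg c1 C t) (h : WRd D k q3 sg c1 C 3 t R J T G H E X)
    {p : Nd} (hp : p ∈ R) :
    aq (qx k q3 3) p (X p) ≤ 3 * C * t ^ (-(sg * (q3 - 2) / q3)) := by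
  have hk := pr.k0
  have hC := pr.C1
  have hq := qx_one (q3 := q3) hk pr.hq3 3
  have e : X p = fun y => (fun y => G y - H p y) y - E p y := by
    funext y
    rw [h.eq p hp y]
  rw [e]
  have h1 := aq_sub hq p (fun y => G y - H p y) (E p)
  have h2 := aq_sub hq p G (H p)
  have h3 := h.nrm p hp
  have h4 := size_H3 pr h hp
  have h5 := size_E3 pr h hp
  have hs : 0 ≤ sg * (q3 - 2) / q3 :=
    div_nonneg (mul_nonneg pr.sg0 (by linarith [pr.hq3])) (by linarith [pr.hq3])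
  have hc : 0 ≤ c1 / q3 := div_nonneg pr.c10.le (by linarith [pr.hq3])
  have h6 : t ^ (c1 / q3 - sg * (q3 - 2) / q3) ≤ t ^ (-(sg * (q3 - 2) / q3)) :=
    rp_le pr.t0 pr.t1 (by linarith)
  have h7 : 1 ≤ t ^ (-(sg * (q3 - 2) / q3)) := one_le_rp pr.t0 pr.t1 (by linarith)
  have h8 := mul_le_mul_of_nonneg_left h6 (by linarith : 0 ≤ C)
  have h9 : 1 ≤ C * t ^ (-(sg * (q3 - 2) / q3)) := by nlinarith
  linarith

end sizes

/-- **SCALED `An`**: static letters of norms `≤ α j` next to one windowed residual -/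
lemma An_scaled {D : Dict} {k q3 sg c1 C : ℝ} (hk : 0 < k) (hq : 2 < q3) {N : ℕ} {t A : ℝ}
    (hA : An D k q3 sg c1 C N t A) {bb : ℤ} {ε : ℕ → ℤ → ℂ} (hε : Adm bb ε) {R : Finset Nd}
    {J : Nd} (hR : Full R J) (hJ : J.1 ≤ N) {m : Fin 4} (hm : m ≠ 3) {T : Finset Nd} {G : Fn}
    {H E X : Nd → Fn} (hX : WRd D k q3 sg c1 C m t R J T G H E X) (F : Fin 4 → Fn)
    (α : Fin 4 → ℝ) (hα : ∀ j, 0 < α j) (hαm : α m = 1)
    (hn : ∀ j, j ≠ m → ∀ p ∈ R, aq (qx k q3 j) p (F j) ≤ α j) :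
    ‖TP bb ε R (Function.update (fun j _ => F j) m X)‖ ≤ A * (∏ j, α j) * len J := by
  set G' : Fin 4 → Fn := fun j y => (((α j)⁻¹ : ℝ) : ℂ) * F j y with hG
  have hα' : ∀ j, 0 ≤ (α j)⁻¹ := fun j => inv_nonneg.2 (hα j).le
  have h1 := hA bb ε hε R J hR hJ m hm T G H E X hX G' (fun j hj p hp => by
      rw [hG]
      simp only
      rw [aq_smul (qx_pos hk hq j) p _ (hα' j)]
      rw [inv_mul_le_iff₀ (hα j), mul_one]
      exact hn j hj p hp)
  have e : TP bb ε R (Function.update (fun j _ => G' j) m X) =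
      ((∏ j, (α j)⁻¹ : ℝ) : ℂ) * TP bb ε R (Function.update (fun j _ => F j) m X) := by
    rw [Complex.ofReal_prod, ← TP_smul]
    congr 1
    funext j p y
    by_cases hj : j = m
    · subst hj
      rw [Function.update_self, Function.update_self, hαm, inv_one, Complex.ofReal_one, one_mul]
    · rw [Function.update_of_ne hj, Function.update_of_ne hj]
  have hP : 0 < ∏ j, α j := Finset.prod_pos fun j _ => hα j
  rw [e, norm_mul, Complex.norm_real, Real.norm_eq_abs, Finset.prod_inv_distrib,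
    abs_of_nonneg (inv_nonneg.2 hP.le), inv_mul_le_iff₀ hP] at h1
  refine h1.trans (le_of_eq (by ring))

end S351

end Crest.Agent.R079.TRecN
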