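import Crest.Agent.R079.TNS3b_533
import Crest.Agent.R079.TS4a_351

/-! R079, node-dependent recursion (helper533; port of `TS4a_351`), StepLem2 part a: scaled `RuleA2`, words by `RuleA2`, and
**ONE GENERATION** in the slots `a, b` next to a MOVING windowed residual `X` of slot `m`. -/

set_option autoImplicit false

namespace Crest.Agent.R079.TRecN

namespace S351

open Finset Crest.Agent.R079.Grid Crest.Agent.R079.Growth Crest.Agent.R079.QRed
open Crest.Agent.R079.TRec Crest.Agent.R079.TRec.S351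

/-- **SCALED RULE (A)** -/
lemma ruleA2_scaled {D : Dict} {sg : ℝ} (hD : Dic D sg) {k q3 c0 e t0 K : ℝ} (hk : 0 < k)
    (hq : 2 < q3) (he : 0 ≤ e)
    (hA : RuleA2 D k q3 c0 e t0 K) {N : ℕ} {B : ℝ} (hB0 : 0 ≤ B) (hB : BN k q3 N B)
    {t : ℝ} (ht : 0 < t) (ht1 : t ≤ 1) (htt : t ≤ t0) {bb : ℤ} {ε : ℕ → ℤ → ℂ} (hε : Adm bb ε)
    {W : Finset Nd} {I : Nd} (hW : Full W I) (hI : I.1 ≤ N) (F : Fin 4 → Fn)
    (α : Fin 4 → ℝ) (hα : ∀ j, 0 < α j) (hn : ∀ j, ∀ p ∈ W, aq (qx k q3 j) p (F j) ≤ α j)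
    {i m : Fin 4} (him : i ≠ m) (hi3 : i ≠ 3) (hm3 : m ≠ 3)
    (hf : ∀ p ∈ W, Fz D i (t ^ (1 + e)) (α i) p (F i))
    (hl : ∀ p ∈ W, Lv D m t (α m) p (F m)) :
    ‖TR bb ε W F‖ ≤ K * (1 + B) * (∏ j, α j) * t ^ c0 * len I := by
  set G : Fin 4 → Fn := fun j y => (((α j)⁻¹ : ℝ) : ℂ) * F j y with hG
  have hα' : ∀ j, 0 ≤ (α j)⁻¹ := fun j => inv_nonneg.2 (hα j).le
  have h1 := hA N B hB0 hB t ht htt bb ε hε W I hW hI G (fun j p hp => by
      rw [hG]
      simp only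
      rw [aq_smul (qx_pos hk hq j) p _ (hα' j)]
      rw [inv_mul_le_iff₀ (hα j), mul_one]
      exact hn j p hp) i m him hi3 hm3
    (fun p hp => by
      have := Fz_smul hD (Real.rpow_pos_of_pos ht _) (Real.rpow_le_one ht.le ht1 (by linarith))
        ((α i)⁻¹) (hα' i) (hf p hp)
      rwa [inv_mul_cancel₀ (hα i).ne'] at this)
    (fun p hp => by
      have := Lv_smul ((α m)⁻¹) (hα' m) (hl p hp)
      rwa [inv_mul_cancel₀ (hα m).ne'] at this)
  have e : TR bb ε W F = ((∏ j, α j : ℝ) : ℂ) * TR bb ε W G := by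
    unfold TR
    rw [Finset.mul_sum]
    refine Finset.sum_congr rfl fun p _ => ?_
    rw [hG, Qf248.TI_smul bb ε F (fun j => (((α j)⁻¹ : ℝ) : ℂ)) p, ← mul_assoc, ← Complex.ofReal_prod,
      ← Complex.ofReal_mul, ← Finset.prod_mul_distrib]
    have : ∏ j, α j * (α j)⁻¹ = 1 := Finset.prod_eq_one fun j _ => mul_inv_cancel₀ (hα j).ne'
    rw [this, Complex.ofReal_one, one_mul]
  have hP : 0 ≤ ∏ j, α j := Finset.prod_nonneg fun j _ => (hα j).le
  rw [e, norm_mul, Complex.norm_real, Real.norm_eq_abs, abs_of_nonneg hP]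
  calc (∏ j, α j) * ‖TR bb ε W G‖
      ≤ (∏ j, α j) * (K * (1 + B) * t ^ c0 * len I) :=
        mul_le_mul_of_nonneg_left h1 hP
    _ = _ := by ring

section words
variable {D : Dict} {k q3 sg c0 c3 e t0 K : ℝ} {N : ℕ} {B : ℝ} {t c1 C : ℝ}
  {bb : ℤ} {ε : ℕ → ℤ → ℂ} {R : Finset Nd} {J : Nd} {T : Finset Nd}
  {a b m : Fin 4} {ya yb ym y3 : Nd → Fn} {ca cb cm cc xa xb xm x3 : ℝ}

/-- **word by rule (A2)** -/
lemma wordA2 {r cN : ℝ} (hD : Dic D sg) (he : 0 ≤ e) (w : Wd k q3 N B t r cN bb ε R J T)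
    (hA : RuleA2 D k q3 c0 e t0 K)
    (hK : 0 ≤ K) (htt : t ≤ t0) (h : Sl a b m)
    (ha : Lt k q3 t R T a ya ca xa) (hb : Lt k q3 t R T b yb cb xb)
    (hm : Lt k q3 t R T m ym cm xm) (h3 : Lt k q3 t R T 3 y3 cc x3)
    (pa : 0 < ca) (pb : 0 < cb) (pm : 0 < cm) (p3 : 0 < cc) {i n : Fin 4} (hin : i ≠ n)
    (hi3 : i ≠ 3) (hn3 : n ≠ 3)
    (hf : ∀ p ∈ R, Fz D i (t ^ (1 + e))
      (r4 a b m (ca * t ^ xa) (cb * t ^ xb) (cm * t ^ xm) (cc * t ^ x3) i) p
      (q4 a b m ya yb ym y3 i p))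
    (hl : ∀ p ∈ R, Lv D n t
      (r4 a b m (ca * t ^ xa) (cb * t ^ xb) (cm * t ^ xm) (cc * t ^ x3) n) p
      (q4 a b m ya yb ym y3 n p)) {bt : ℝ}
    (hx : bt ≤ xa + xb + xm + x3 + c0 - r) :
    ‖TP bb ε R (q4 a b m ya yb ym y3)‖ ≤
      K * (1 + B) * (ca * cb * cm * cc * cN) * t ^ bt * len J := by
  have ht := w.t0
  set α : Fin 4 → ℝ := r4 a b m (ca * t ^ xa) (cb * t ^ xb) (cm * t ^ xm) (cc * t ^ x3) with hα
  have hpos : ∀ j, 0 < α j := by
    intro j
    rcases h.all j with hj | hj | hj | hj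
    · rw [hj, hα, r4_a h]; exact mul_pos pa (Real.rpow_pos_of_pos ht _)
    · rw [hj, hα, r4_b h]; exact mul_pos pb (Real.rpow_pos_of_pos ht _)
    · rw [hj, hα, r4_m h]; exact mul_pos pm (Real.rpow_pos_of_pos ht _)
    · rw [hj, hα, r4_3 h]; exact mul_pos p3 (Real.rpow_pos_of_pos ht _)
  have had : ∀ j, Adp R T (q4 a b m ya yb ym y3 j) := by
    intro j
    rcases h.all j with hj | hj | hj | hj
    · rw [hj, q4_a h]; exact ha.ad
    · rw [hj, q4_b h]; exact hb.ad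
    · rw [hj, q4_m h]; exact hm.ad
    · rw [hj, q4_3 h]; exact h3.ad
  have hnb : ∀ j, ∀ p ∈ R, aq (qx k q3 j) p (q4 a b m ya yb ym y3 j p) ≤ α j := by
    intro j p hp
    rcases h.all j with hj | hj | hj | hj
    · rw [hj, q4_a h, hα, r4_a h]; exact ha.nb p hp
    · rw [hj, q4_b h, hα, r4_b h]; exact hb.nb p hp
    · rw [hj, q4_m h, hα, r4_m h]; exact hm.nb p hp
    · rw [hj, q4_3 h, hα, r4_3 h]; exact h3.nb p hp
  have key := sum_win bb ε w.full w.tops had (a := K * (1 + B) * (∏ j, α j) * t ^ c0)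
    (fun I hI => by
      have hIR := w.tops.sub hI
      refine ruleA2_scaled hD w.k0 w.hq3 he hA w.B0 w.bn ht w.t1 htt w.adm
        (win_full w.full w.tops hI)
        ((le_of_mem w.full hIR).trans w.hN) _ α hpos (fun j p hp => ?_) hin hi3 hn3
        (fun p hp => ?_) (fun p hp => ?_)
      · rw [← (had j).eq hp]
        exact hnb j p (win_sub hp)
      · rw [← (had i).eq hp]
        exact hf p (win_sub hp)
      · rw [← (had n).eq hp]
        exact hl p (win_sub hp))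
  have hP : 0 ≤ ∏ j, α j := Finset.prod_nonneg fun j _ => (hpos j).le
  have hB0 := w.B0
  have hBP : 0 ≤ K * (1 + B) * (∏ j, α j) * t ^ c0 :=
    mul_nonneg (mul_nonneg (mul_nonneg hK (by linarith)) hP) (Real.rpow_nonneg ht.le _)
  refine key.trans ((mul_le_mul_of_nonneg_left w.num hBP).trans ?_)
  rw [hα, prod_r4 h]
  have e1 : K * (1 + B) * (ca * t ^ xa * (cb * t ^ xb) * (cm * t ^ xm) * (cc * t ^ x3)) * t ^ c0 *
      (cN * t ^ (-r) * len J) =
      K * (1 + B) * (ca * cb * cm * cc * cN) * t ^ (xa + xb + xm + x3 + c0 - r) * len J := by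
    rw [show xa + xb + xm + x3 + c0 - r = xa + xb + xm + x3 + c0 + (-r) by ring, Real.rpow_add ht,
      Real.rpow_add ht, Real.rpow_add ht, Real.rpow_add ht, Real.rpow_add ht]
    ring
  rw [e1]
  have h5 : 0 ≤ K * (1 + B) * (ca * cb * cm * cc * cN) := by
    have := w.cN0
    positivity
  exact mul_le_mul_of_nonneg_right (mul_le_mul_of_nonneg_left (rp_le ht w.t1 hx) h5) (lpos J).le

end words

/-- body of `WinLem` -/
def WinAt (C : ℝ) : Prop :=
  ∀ (D : Dict) (k q3 sg c1 : ℝ), Dic D sg → 0 < k → k < 1 → 2 < q3 → 0 ≤ sg →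
    sg ≤ 1 → 0 < c1 → c1 ≤ 1 → ∀ R J, Full R J → ∀ G : Fin 4 → Fn, nrm k q3 R G →
    ∀ t, 0 < t → t ≤ 1 → ∃ (T : Finset Nd) (H E : Fin 4 → Nd → Fn),
      ∀ j, WRd D k q3 sg c1 C j t R J T (G j) (H j) (E j)
        (fun p y => G j y - H j p y - E j p y)

set_option maxHeartbeats 1000000 in
/-- **ONE GENERATION** -/
theorem gen_step (hV : ConvLem) (hT : TwoLem2) {Cw : ℝ} (hCw : 1 ≤ Cw) (hWin : WinAt Cw)
    {D : Dict} {k q3 c0 cS CS s1 e c1 bt κ t0 K C : ℝ} {K0 : ℕ}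
    (ok : Ok2 k q3 c0 cS CS s1 e c1 bt κ K0) (ht0 : 0 < t0) (ht01 : t0 ≤ 1) (hK : 0 ≤ K)
    (hCC : Cw ≤ C) (hD : Dic D 0) (hA : RuleA2 D k q3 c0 e t0 K) :
    ∃ K1 : ℝ, 0 ≤ K1 ∧ ∀ N B t A, 0 ≤ B → BN k q3 N B → 0 < t → t ≤ t0 → 0 ≤ A →
      An D k q3 0 c1 C N (t ^ (1 + e)) A → ∀ bb ε, Adm bb ε → ∀ R J, Full R J → J.1 ≤ N →
      ∀ a b m, Sl a b m → ∀ T G H E X, WRd D k q3 0 c1 C m t R J T G H E X → ∀ Fa Fb F3 : Fn,
      (∀ p ∈ R, aq (2 + k) p Fa ≤ 1) → (∀ p ∈ R, aq (2 + k) p Fb ≤ 1) →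
      (∀ p ∈ R, aq q3 p F3 ≤ 1) → ∃ T' Ea Eb, Gn k c1 C e t bb ε R J a b m X Fa Fb F3
        (K1 * t ^ (-(16 * k)) * A + K1 * (1 + B) * t ^ (bt + κ)) T' Ea Eb := by
  classical
  have hC1 : 1 ≤ C := hCw.trans hCC
  have hC0 : 0 < C := by linarith
  have hk := ok.k0
  have hk80 := ok.k1
  have hq3 := ok.hq3
  have he := ok.e0
  have he1 := ok.e1
  have hc1 := ok.c10
  have hc11 := ok.c11
  have hbt := ok.bt0
  have hq0 : 0 < q3 := by linarith
  have hkκ : 40 * k ≤ κ := by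
    have h1 := ok.kκ
    have h2 : (0 : ℝ) ≤ K0 := Nat.cast_nonneg _
    nlinarith [mul_nonneg h2 hk.le]
  have f3 := ok.hA
  have hek : e * k ≤ k := by nlinarith
  have hek0 : 0 ≤ e * k := by positivity
  have hec : 0 ≤ e * c1 := by positivity
  have hk4 : k ≤ 1 / 4 := by linarith
  have x2 : bt + κ ≤ (1 + e) * (-k) + 0 + (-k) + 0 + c0 - (1 + e) * c1 := by linarith
  have x4 : bt + κ ≤ (1 + e) * (c1 / 2 - k) + (1 + e) * (-k) + (-k) + 0 + c0 - (1 + e) * c1 := by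
    linarith
  have x3 : -(10 * k) ≤ (1 + e) * (-(5 * k)) := by linarith
  have y1 : -((1 + e) * c1) ≤ 0 := by linarith
  have y2 : (1 + e) * (-k) ≤ -k := by linarith
  obtain ⟨K2, hK2, hTwo⟩ := hT D k q3 c0 cS CS s1 e c1 bt κ t0 K C K0 ok ht0 ht01 hK hC1 hD hA
  obtain ⟨C', hC', hConv⟩ := hV k hk hk4 C hC1
  obtain ⟨K', hK'⟩ : ∃ K', K' = K2 + C' * K2 + K * (9 * C ^ 3 + 9 * C ^ 4) := ⟨_, rfl⟩
  have hK'0 : 0 ≤ K' := by rw [hK']; positivity
  refine ⟨K', hK'0, ?_⟩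
  intro N B t A hB0 hB ht htt hA0 hAn bb ε hε R J hR hJ a b m h T G H E X hX Fa Fb F3 hFa hFb hF3
  have hm := h.m3
  have ht1 : t ≤ 1 := htt.trans ht01
  -- the fine parameter
  obtain ⟨τ, hτdef⟩ : ∃ τ, τ = t ^ (1 + e) := ⟨_, rfl⟩
  have hτ : 0 < τ := by rw [hτdef]; exact Real.rpow_pos_of_pos ht _
  have hτt : τ ≤ t := by
    have := rp_le ht ht1 (by linarith : (1 : ℝ) ≤ 1 + e)
    rwa [Real.rpow_one, ← hτdef] at this
  have hτ1 : τ ≤ 1 := hτt.trans ht1
  have hpow : ∀ x : ℝ, τ ^ x = t ^ ((1 + e) * x) := fun x => by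
    rw [hτdef, ← Real.rpow_mul ht.le]
  -- static tuple and windows
  obtain ⟨G4, hG4⟩ : ∃ G4 : Fin 4 → Fn, G4 = fun j => if j = a then Fa else if j = b then Fb else
      if j = m then G else F3 := ⟨_, rfl⟩
  have hGa : G4 a = Fa := by rw [hG4]; exact if_pos rfl
  have hGb : G4 b = Fb := by rw [hG4]; exact (if_neg h.ab.symm).trans (if_pos rfl)
  have hGm : G4 m = G := by
    rw [hG4]; exact (if_neg h.am.symm).trans ((if_neg h.bm.symm).trans (if_pos rfl))
  have hG3 : G4 3 = F3 := by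
    rw [hG4]; exact (if_neg h.a3.symm).trans ((if_neg h.b3.symm).trans (if_neg h.m3.symm))
  have hnrm : nrm k q3 R G4 := by
    intro j p hp
    rcases h.all j with hj | hj | hj | hj
    · rw [hj, hGa, show qx k q3 a = 2 + k from if_neg h.a3]; exact hFa p hp
    · rw [hj, hGb, show qx k q3 b = 2 + k from if_neg h.b3]; exact hFb p hp
    · rw [hj, hGm]; exact hX.nrm p hp
    · rw [hj, hG3, show qx k q3 3 = q3 from if_pos rfl]; exact hF3 p hp
  rw [← hGa, ← hGb, ← hG3]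
  obtain ⟨T', H', E', w0⟩ := hWin D k q3 0 c1 hD hk (by linarith) hq3 le_rfl zero_le_one hc1 hc11
    R J hR G4 hnrm τ hτ hτ1
  obtain ⟨r, hr⟩ : ∃ r : Fin 4 → Nd → Fn, r = fun j p y => G4 j y - H' j p y - E' j p y := ⟨_, rfl⟩
  have w : ∀ j, WRd D k q3 0 c1 C j τ R J T' (G4 j) (H' j) (E' j) (r j) := fun j => by
    rw [hr]
    exact WRd_mono hCC hτ (w0 j)
  have prt : Pr k q3 0 c1 C t := ⟨hk, hq3, le_rfl, hc1, hc11, hC1, ht, ht1⟩
  have prτ : Pr k q3 0 c1 C τ := ⟨hk, hq3, le_rfl, hc1, hc11, hC1, hτ, hτ1⟩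
  -- common refinement
  have hT1 : Tops R J T := hX.tops
  have hT2 : Tops R J T' := (w a).tops
  have hTT : Tops R J (T ∪ T') := hT1.union hT2
  have ad1 : ∀ {Z : Nd → Fn}, Adp R T Z → Adp R (T ∪ T') Z := fun hZ =>
    Adp.finer hR hT1 hTT Finset.subset_union_left hZ
  have ad2 : ∀ {Z : Nd → Fn}, Adp R T' Z → Adp R (T ∪ T') Z := fun hZ =>
    Adp.finer hR hT2 hTT Finset.subset_union_right hZ
  have hL := lpos J
  have hnum : ∑ I ∈ T ∪ T', len I ≤ 3 * C * t ^ (-((1 + e) * c1)) * len J := by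
    have h1 := sum_len_tops hR hTT (Cnt.union hX.cnt (w a).cnt)
    refine h1.trans (mul_le_mul_of_nonneg_right ?_ hL.le)
    have h2 : t ^ (-c1) ≤ t ^ (-((1 + e) * c1)) := rp_le ht ht1 (by linarith)
    have h3 : τ ^ (-c1) = t ^ (-((1 + e) * c1)) := by rw [hpow]; congr 1; ring
    have h4 : 1 ≤ t ^ (-((1 + e) * c1)) := one_le_rp ht ht1 y1
    rw [h3]
    nlinarith only [h2, h4, hC1]
  have hnum2 : ∑ I ∈ T', len I ≤ 2 * C * τ ^ (-c1) * len J := by
    have h1 := sum_len_tops hR hT2 (w a).cnt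
    refine h1.trans (mul_le_mul_of_nonneg_right ?_ hL.le)
    have h4 : 1 ≤ τ ^ (-c1) := one_le_rp hτ hτ1 (by linarith)
    nlinarith only [h4, hC1]
  have wd : Wd k q3 N B t ((1 + e) * c1) (3 * C) bb ε R J (T ∪ T') :=
    ⟨hk, hq3, hB0, hB, ht, ht1, hε, hR, hJ, hTT, by positivity, hnum⟩
  -- letters
  have LE : ∀ j, j ≠ 3 → Lt k q3 t R (T ∪ T') j (E' j) C ((1 + e) * (c1 / 2 - k)) := fun j hj =>
    ⟨ad2 (w j).adE, fun p hp => by rw [← hpow]; exact size_E prτ (w j) hj hp⟩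
  have LH : ∀ j, j ≠ 3 → Lt k q3 t R (T ∪ T') j (H' j) C ((1 + e) * (-k)) := fun j hj =>
    ⟨ad2 (w j).adH, fun p hp => by rw [← hpow]; exact size_H prτ (w j) hj hp⟩
  have LF : ∀ j, Lt k q3 t R (T ∪ T') j (fun _ => G4 j) 1 0 := fun j =>
    ⟨Adp.const _, fun p hp => by rw [Real.rpow_zero, mul_one]; exact hnrm j p hp⟩
  have LX : Lt k q3 t R (T ∪ T') m X (3 * C) (-k) :=
    ⟨ad1 hX.adX, fun p hp => size_X prt hX hm hp⟩
  have htk : t ^ (-k) ≤ t ^ ((1 + e) * (-k)) := rp_le ht ht1 y2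
  have hone : 1 ≤ t ^ (-k) := one_le_rp ht ht1 (by linarith)
  have hone' : 1 ≤ t ^ ((1 + e) * (-k)) := hone.trans htk
  have m1 : C ≤ C * t ^ ((1 + e) * (-k)) := le_mul_of_one_le_right hC0.le hone'
  have m2 : C ≤ 3 * C * t ^ (-k) := by
    have := le_mul_of_one_le_right hC0.le hone
    nlinarith only [this, hC0]
  have frzj : ∀ j, ∀ p ∈ R, Fz D j (t ^ (1 + e)) C p (H' j p) := fun j p hp => by
    rw [← hτdef]; exact (w j).frz p hp
  -- the words
  obtain ⟨A2, hA2⟩ : ∃ A2, A2 = K2 * t ^ (-(6 * k)) * A + K2 * (1 + B) * t ^ (bt + 10 * κ) :=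
    ⟨_, rfl⟩
  have hB1 : 0 ≤ 1 + B := by linarith
  have hA20 : 0 ≤ A2 := by
    rw [hA2]
    have := Real.rpow_nonneg ht.le (-(6 * k))
    have := Real.rpow_nonneg ht.le (bt + 10 * κ)
    positivity
  have hBn : Bn D k q3 0 c1 C N τ t A2 := by
    rw [hA2, hτdef]
    exact hTwo N B t A hB0 hB ht htt hA0 hAn
  -- (w1)
  have b1 : ‖TP bb ε R (q4 a b m (r a) (fun _ => G4 b) X (fun _ => G4 3))‖ ≤ A2 * len J := by
    have h1 := hBn bb ε hε R J hR hJ a m h.a3 h.m3 h.am T' (G4 a) (H' a) (E' a) (r a) (w a)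
      T G H E X hX G4 (fun j _ _ p hp => hnrm j p hp)
    rw [q4_ext h (r a) (fun _ => G4 b) X (fun _ => G4 3)
      (Y := Function.update (Function.update (fun j _ => G4 j) a (r a)) m X)
      (by rw [Function.update_of_ne h.am, Function.update_self])
      (by rw [Function.update_of_ne h.bm, Function.update_of_ne h.ab.symm])
      (by rw [Function.update_self])
      (by rw [Function.update_of_ne h.m3.symm, Function.update_of_ne h.a3.symm])]
    exact h1
  -- (w3)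
  have b3 : ‖TP bb ε R (q4 a b m (E' a) (r b) X (fun _ => G4 3))‖ ≤
      C' * τ ^ (-(5 * k)) * A2 * len J := by
    have h1 := hConv bb a τ A2 hτ hτ1 hA20 R J hR (q4 a b m (fun _ => G4 a) (r b) X (fun _ => G4 3))
      T' (E' a) hT2 (w a).adE
      (fun p hp => ((w a).eav p hp).trans (mul_le_of_le_one_right hC0.le
        (Real.rpow_le_one hτ.le hτ1 (by linarith))))
      (fun p hp y hy => by
        have h2 := (w a).esup p hp y hy
        have e2 : sx 0 a = 1 := if_neg h.a3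
        rwa [e2, Real.rpow_neg_one] at h2)
      ((w a).cnt.mono (mul_le_mul_of_nonneg_left (by
        rw [← Real.rpow_neg_one]
        exact rp_le hτ hτ1 (by linarith)) hC0.le))
      (w a).sq
      (fun ε' hε' R' J' hR' hs z hz => by
        rw [upd_a h]
        have hJ' : J'.1 ≤ N := (le_of_mem hR (hs hR'.top)).trans hJ
        have h2 := hBn bb ε' hε' R' J' hR' hJ' b m h.b3 h.m3 h.bm (rT T' R' J') (G4 b) (H' b)
          (E' b) (r b) (WRd.restrict hR (w b) hR' hs) (rT T R' J') G H E X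
          (WRd.restrict hR hX hR' hs) (Function.update G4 a z) (fun j _ _ p hp => by
            by_cases hj : j = a
            · subst hj
              rw [Function.update_self, show qx k q3 j = 2 + k from if_neg h.a3]
              exact hz p hp
            · rw [Function.update_of_ne hj]
              exact hnrm j p (hs hp))
        rw [q4_ext h (fun _ => z) (r b) X (fun _ => G4 3)
          (Y := Function.update (Function.update (fun j _ => Function.update G4 a z j) b (r b)) m X)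
          (by rw [Function.update_of_ne h.am, Function.update_of_ne h.ab, Function.update_self])
          (by rw [Function.update_of_ne h.bm, Function.update_self])
          (by rw [Function.update_self])
          (by rw [Function.update_of_ne h.m3.symm, Function.update_of_ne h.b3.symm,
            Function.update_of_ne h.a3.symm])]
        exact h2)
      ε hε
    rwa [upd_a h] at h1
  -- (w2)
  have b2 := wordA2 hD he.le wd hA hK htt h (LH a h.a3) (LF b) LX (LF 3) hC0 one_pos (by positivity)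
    one_pos (i := a) (n := m) h.am h.a3 h.m3
    (fun p hp => by
      rw [q4_a h, r4_a h]
      exact Fz_mass m1 (frzj a p hp))
    (fun p hp => by
      rw [q4_m h, r4_m h]
      exact Lv_le m2 (hX.lev p hp)) (bt := bt + κ) x2
  -- (w4)
  have b4 := wordA2 hD he.le wd hA hK htt h (LE a h.a3) (LH b h.b3) LX (LF 3) hC0 hC0 (by positivity)
    one_pos (i := b) (n := m) h.bm h.b3 h.m3
    (fun p hp => by
      rw [q4_b h, r4_b h]
      exact Fz_mass m1 (frzj b p hp))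
    (fun p hp => by
      rw [q4_m h, r4_m h]
      exact Lv_le m2 (hX.lev p hp)) (bt := bt + κ) x4
  have hsp : ∀ j, ∀ p ∈ R, ∀ y, G4 j y = r j p y + H' j p y + E' j p y := by
    intro j p hp y
    rw [(w j).eq p hp y]
    ring
  have s1 := TP_add3 bb ε R (q4 a b m (fun _ => G4 a) (fun _ => G4 b) X (fun _ => G4 3)) a
    (fun _ => G4 a) (r a) (H' a) (E' a) (fun p hp y => hsp a p hp y)
  rw [upd_a h, upd_a h, upd_a h, upd_a h] at s1
  have s2 := TP_add3 bb ε R (q4 a b m (E' a) (fun _ => G4 b) X (fun _ => G4 3)) b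
    (fun _ => G4 b) (r b) (H' b) (E' b) (fun p hp y => hsp b p hp y)
  rw [upd_b h, upd_b h, upd_b h, upd_b h] at s2
  -- powers
  obtain ⟨P, hP⟩ : ∃ P, P = t ^ (-(16 * k)) := ⟨_, rfl⟩
  obtain ⟨Q, hQ⟩ : ∃ Q, Q = t ^ (bt + κ) := ⟨_, rfl⟩
  have p20 : ∀ x : ℝ, -(16 * k) ≤ x → t ^ x ≤ P := fun x hx => by rw [hP]; exact rp_le ht ht1 hx
  have pbt : ∀ x : ℝ, bt + κ ≤ x → t ^ x ≤ Q := fun x hx => by rw [hQ]; exact rp_le ht ht1 hx
  have hP0 : 0 ≤ P := by rw [hP]; exact Real.rpow_nonneg ht.le _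
  have hQ0 : 0 ≤ Q := by rw [hQ]; exact Real.rpow_nonneg ht.le _
  have g1 : A2 * len J ≤ (K2 * P * A + K2 * (1 + B) * Q) * len J := by
    refine mul_le_mul_of_nonneg_right ?_ hL.le
    rw [hA2]
    have h1 := p20 (-(6 * k)) (by linarith)
    have h2 := pbt (bt + 10 * κ) (by linarith)
    have h3 := mul_le_mul_of_nonneg_right (mul_le_mul_of_nonneg_left h1 hK2) hA0
    have h4 := mul_le_mul_of_nonneg_left h2 (mul_nonneg hK2 hB1)
    linarith
  have g3 : C' * τ ^ (-(5 * k)) * A2 * len J ≤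
      (C' * K2 * P * A + C' * K2 * (1 + B) * Q) * len J := by
    refine mul_le_mul_of_nonneg_right ?_ hL.le
    have h0 : τ ^ (-(5 * k)) ≤ t ^ (-(10 * k)) := by
      rw [hpow]
      exact rp_le ht ht1 x3
    have h1 : t ^ (-(10 * k)) * t ^ (-(6 * k)) ≤ P := by
      rw [← Real.rpow_add ht]
      exact p20 _ (by linarith)
    have h2 : t ^ (-(10 * k)) * t ^ (bt + 10 * κ) ≤ Q := by
      rw [← Real.rpow_add ht]
      exact pbt _ (by linarith)
    calc C' * τ ^ (-(5 * k)) * A2 ≤ C' * t ^ (-(10 * k)) * A2 :=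
          mul_le_mul_of_nonneg_right (mul_le_mul_of_nonneg_left h0 hC') hA20
      _ = C' * K2 * (t ^ (-(10 * k)) * t ^ (-(6 * k))) * A +
          C' * K2 * (1 + B) * (t ^ (-(10 * k)) * t ^ (bt + 10 * κ)) := by
          rw [hA2]
          ring
      _ ≤ C' * K2 * P * A + C' * K2 * (1 + B) * Q := by
          have h3 := mul_le_mul_of_nonneg_right
            (mul_le_mul_of_nonneg_left h1 (mul_nonneg hC' hK2)) hA0
          have h4 := mul_le_mul_of_nonneg_left h2 (mul_nonneg (mul_nonneg hC' hK2) hB1)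
          linarith
  rw [← hQ] at b2 b4
  refine ⟨T', E' a, E' b, ⟨hT2, (w a).adE, (w b).adE, ?_, ?_, ?_, ?_⟩⟩
  · intro p hp
    have h1 := size_E prτ (w a) h.a3 hp
    rw [show qx k q3 a = 2 + k from if_neg h.a3] at h1
    rw [← hτdef]
    exact h1
  · intro p hp
    have h1 := size_E prτ (w b) h.b3 hp
    rw [show qx k q3 b = 2 + k from if_neg h.b3] at h1
    rw [← hτdef]
    exact h1
  · rw [← hτdef]
    exact hnum2
  · rw [s1, s2]
    have n1 := norm_add_le (TP bb ε R (q4 a b m (r a) (fun _ => G4 b) X (fun _ => G4 3)) +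
      TP bb ε R (q4 a b m (H' a) (fun _ => G4 b) X (fun _ => G4 3)))
      (TP bb ε R (q4 a b m (E' a) (r b) X (fun _ => G4 3)) +
        TP bb ε R (q4 a b m (E' a) (H' b) X (fun _ => G4 3)) +
        TP bb ε R (q4 a b m (E' a) (E' b) X (fun _ => G4 3)))
    have n2 := norm_add_le (TP bb ε R (q4 a b m (r a) (fun _ => G4 b) X (fun _ => G4 3)))
      (TP bb ε R (q4 a b m (H' a) (fun _ => G4 b) X (fun _ => G4 3)))
    have n3 := norm_add₃_le (a := TP bb ε R (q4 a b m (E' a) (r b) X (fun _ => G4 3)))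
      (b := TP bb ε R (q4 a b m (E' a) (H' b) X (fun _ => G4 3)))
      (c := TP bb ε R (q4 a b m (E' a) (E' b) X (fun _ => G4 3)))
    refine n1.trans ?_
    have fin : (K2 * P * A + K2 * (1 + B) * Q) * len J
        + (C' * K2 * P * A + C' * K2 * (1 + B) * Q) * len J
        + K * (1 + B) * (C * 1 * (3 * C) * 1 * (3 * C)) * Q * len J
        + K * (1 + B) * (C * C * (3 * C) * 1 * (3 * C)) * Q * len J
        ≤ (K' * P * A + K' * (1 + B) * Q) * len J := by
      have e1 : (K' * P * A + K' * (1 + B) * Q) * len J -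
          ((K2 * P * A + K2 * (1 + B) * Q) * len J
        + (C' * K2 * P * A + C' * K2 * (1 + B) * Q) * len J
        + K * (1 + B) * (C * 1 * (3 * C) * 1 * (3 * C)) * Q * len J
        + K * (1 + B) * (C * C * (3 * C) * 1 * (3 * C)) * Q * len J) =
          (K * (9 * C ^ 3 + 9 * C ^ 4) * P * A) * len J := by
        rw [hK']
        ring
      have e2 : 0 ≤ (K * (9 * C ^ 3 + 9 * C ^ 4) * P * A) * len J := by positivity
      linarith
    rw [← hP, ← hQ]
    linarith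

end S351

end Crest.Agent.R079.TRecN
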