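import Crest.Agent.R079.TNS4a_533
import Crest.Agent.R079.TS4b_351

/-! R079, node-dependent recursion (helper533; port of `TS4b_351`), StepLem2 part b: the BASE of the
loop. -/

set_option autoImplicit false

namespace Crest.Agent.R079.TRecN

namespace S351

open Finset Crest.Agent.R079.Grid Crest.Agent.R079.Growth Crest.Agent.R079.QRed
open Crest.Agent.R079.TRec Crest.Agent.R079.TRec.S351

variable {R : Finset Nd} {J : Nd} {T : Finset Nd}

set_option maxHeartbeats 1000000 in
/-- **THE BASE OF THE LOOP** -/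
theorem base_step {Cw : ℝ} (hCw : 1 ≤ Cw) (hWin : WinAt Cw)
    {D : Dict} {k q3 c0 cS CS s1 e c1 bt κ t0 K C : ℝ} {K0 : ℕ}
    (ok : Ok2 k q3 c0 cS CS s1 e c1 bt κ K0) (ht01 : t0 ≤ 1) (hK : 0 ≤ K)
    (hCC : Cw ≤ C) (hD : Dic D 0) (hS : RuleS D k q3 cS CS s1 e t0 K) :
    ∃ K1 : ℝ, 0 ≤ K1 ∧ ∀ N B t A, 0 ≤ B → BN k q3 N B → 0 < t → t ≤ t0 → 0 ≤ A →
      An D k q3 0 c1 C N (t ^ (1 + e)) A → ∀ bb ε, Adm bb ε → ∀ R J, Full R J → J.1 ≤ N →
      ∀ a b m, Sl a b m → ∀ T G H E X, WRd D k q3 0 c1 C m t R J T G H E X → ∀ F3 : Fn,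
      (∀ p ∈ R, aq q3 p F3 ≤ 1) → ∃ S, Bs k q3 bb R J a b m X F3
        A (K1 * (1 + B) * t ^ (bt + κ)) (K1 * t ^ (-(CS + 2))) S := by
  classical
  have hC1 : 1 ≤ C := hCw.trans hCC
  have hC0 : 0 < C := by linarith
  have hk := ok.k0
  have hk80 := ok.k1
  have hq3 := ok.hq3
  have he := ok.e0
  have he1 := ok.e1
  have hc1 := ok.c10
  have hc11 := ok.c11
  have hbt := ok.bt0
  have hq0 : 0 < q3 := by linarith
  have hkκ : 40 * k ≤ κ := by
    have h1 := ok.kκ
    have h2 : (0 : ℝ) ≤ K0 := Nat.cast_nonneg _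
    nlinarith [mul_nonneg h2 hk.le]
  have hek : e * k ≤ k := by nlinarith
  have hek0 : 0 ≤ e * k := by positivity
  have hec : 0 ≤ e * c1 := by positivity
  have hec' : e * c1 ≤ 1 := by nlinarith
  have hCS := ok.CS0
  obtain ⟨K', hK'⟩ : ∃ K', K' = 2 * C + 2 * C * K + (1 + K) * (3 * C) := ⟨_, rfl⟩
  have hK'0 : 0 ≤ K' := by rw [hK']; positivity
  refine ⟨K', hK'0, ?_⟩
  intro N B t A hB0 hB ht htt hA0 hAn bb ε0 hε0 R J hR hJ a b m h T G H E X hX F3 hF3
  have hm := h.m3
  have ht1 : t ≤ 1 := htt.trans ht01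
  obtain ⟨τ, hτdef⟩ : ∃ τ, τ = t ^ (1 + e) := ⟨_, rfl⟩
  have hτ : 0 < τ := by rw [hτdef]; exact Real.rpow_pos_of_pos ht _
  have hτt : τ ≤ t := by
    have := rp_le ht ht1 (by linarith : (1 : ℝ) ≤ 1 + e)
    rwa [Real.rpow_one, ← hτdef] at this
  have hτ1 : τ ≤ 1 := hτt.trans ht1
  have hpow : ∀ x : ℝ, τ ^ x = t ^ ((1 + e) * x) := fun x => by
    rw [hτdef, ← Real.rpow_mul ht.le]
  rw [← hτdef] at hAn
  obtain ⟨G4, hG4⟩ : ∃ G4 : Fin 4 → Fn, G4 = fun j => if j = 3 then F3 else G := ⟨_, rfl⟩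
  have hGm : G4 m = G := by rw [hG4]; exact if_neg h.m3
  have hnrm : nrm k q3 R G4 := by
    intro j p hp
    by_cases hj : j = 3
    · have e1 : G4 j = F3 := by rw [hG4]; exact if_pos hj
      rw [e1, show qx k q3 j = q3 from if_pos hj]
      exact hF3 p hp
    · have e1 : G4 j = G := by rw [hG4]; exact if_neg hj
      rw [e1, show qx k q3 j = 2 + k from if_neg hj]
      have h1 := hX.nrm p hp
      rwa [show qx k q3 m = 2 + k from if_neg hm] at h1
  obtain ⟨T', H', E', w0⟩ := hWin D k q3 0 c1 hD hk (by linarith) hq3 le_rfl zero_le_one hc1 hc11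
    R J hR G4 hnrm τ hτ hτ1
  obtain ⟨r, hr⟩ : ∃ r : Fin 4 → Nd → Fn, r = fun j p y => G4 j y - H' j p y - E' j p y := ⟨_, rfl⟩
  have w : ∀ j, WRd D k q3 0 c1 C j τ R J T' (G4 j) (H' j) (E' j) (r j) := fun j => by
    rw [hr]
    exact WRd_mono hCC hτ (w0 j)
  have prt : Pr k q3 0 c1 C t := ⟨hk, hq3, le_rfl, hc1, hc11, hC1, ht, ht1⟩
  have prτ : Pr k q3 0 c1 C τ := ⟨hk, hq3, le_rfl, hc1, hc11, hC1, hτ, hτ1⟩
  have hT1 : Tops R J T := hX.tops
  have hT2 : Tops R J T' := (w m).tops
  obtain ⟨V, hV⟩ : ∃ V, V = T ∪ T' := ⟨_, rfl⟩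
  have hTT : Tops R J V := by rw [hV]; exact hT1.union hT2
  have ad1 : ∀ {Z : Nd → Fn}, Adp R T Z → Adp R V Z := fun hZ => by
    rw [hV] at hTT ⊢
    exact Adp.finer hR hT1 hTT Finset.subset_union_left hZ
  have ad2 : ∀ {Z : Nd → Fn}, Adp R T' Z → Adp R V Z := fun hZ => by
    rw [hV] at hTT ⊢
    exact Adp.finer hR hT2 hTT Finset.subset_union_right hZ
  have hL := lpos J
  have hnum : ∑ I ∈ V, len I ≤ 3 * C * t ^ (-(2 : ℝ)) * len J := by
    have h1 := sum_len_tops hR hTT (by rw [hV]; exact Cnt.union hX.cnt (w m).cnt)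
    refine h1.trans (mul_le_mul_of_nonneg_right ?_ hL.le)
    have h2 : t ^ (-c1) ≤ t ^ (-(2 : ℝ)) := rp_le ht ht1 (by linarith)
    have h3 : τ ^ (-c1) ≤ t ^ (-(2 : ℝ)) := by rw [hpow]; exact rp_le ht ht1 (by linarith)
    have h4 : 1 ≤ t ^ (-(2 : ℝ)) := one_le_rp ht ht1 (by linarith)
    nlinarith only [h2, h3, h4, hC1]
  -- letters
  obtain ⟨H2, hH2⟩ : ∃ H2 : Nd → Fn, H2 = fun p y => H' m p y - H p y := ⟨_, rfl⟩
  obtain ⟨E2, hE2⟩ : ∃ E2 : Nd → Fn, E2 = fun p y => E' m p y - E p y := ⟨_, rfl⟩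
  obtain ⟨X2, hX2⟩ : ∃ X2 : Nd → Fn, X2 = fun p y => X p y - r m p y := ⟨_, rfl⟩
  have hX2eq : ∀ p ∈ R, ∀ y, X2 p y = H2 p y + E2 p y := by
    intro p hp y
    rw [hX2, hH2, hE2]
    simp only
    rw [hX.eq p hp y, (w m).eq p hp y, hGm]
    ring
  have hqm : 1 ≤ 2 + k := by linarith
  have eqm : qx k q3 m = 2 + k := if_neg hm
  have adH2 : Adp R V H2 := by
    rw [hH2]
    exact Adp.map₂ (ad2 (w m).adH) (ad1 hX.adH) (fun x z => fun y => x y - z y)
  have adE2 : Adp R V E2 := by
    rw [hE2]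
    exact Adp.map₂ (ad2 (w m).adE) (ad1 hX.adE) (fun x z => fun y => x y - z y)
  have adX2 : Adp R V X2 := by
    rw [hX2]
    exact Adp.map₂ (ad1 hX.adX) (ad2 (w m).adX) (fun x z => fun y => x y - z y)
  obtain ⟨lam, hlam⟩ : ∃ lam, lam = 2 * C * τ ^ (-k) := ⟨_, rfl⟩
  have hone : 1 ≤ τ ^ (-k) := one_le_rp hτ hτ1 (by linarith)
  have hlam2 : 2 * C ≤ lam := by
    rw [hlam]
    exact le_mul_of_one_le_right (by linarith) hone
  have hlam0 : 0 < lam := by linarith
  have szH2 : ∀ p ∈ R, aq (2 + k) p (H2 p) ≤ lam := by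
    intro p hp
    have h1 := aq_sub hqm p (H' m p) (H p)
    have h2 := size_H prτ (w m) hm hp
    have h3 := size_H prt hX hm hp
    rw [eqm] at h2 h3
    have h4 : t ^ (-k) ≤ τ ^ (-k) := by
      rw [hpow]
      exact rp_le ht ht1 (by linarith)
    have h5 := mul_le_mul_of_nonneg_left h4 hC0.le
    rw [hH2, hlam]
    refine h1.trans ?_
    linarith
  obtain ⟨η, hη⟩ : ∃ η, η = 2 * C * t ^ (c1 / 2 - k) := ⟨_, rfl⟩
  have hη0 : 0 < η := by rw [hη]; have := Real.rpow_pos_of_pos ht (c1 / 2 - k); positivity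
  have szE2 : ∀ p ∈ R, aq (2 + k) p (E2 p) ≤ η := by
    intro p hp
    have h1 := aq_sub hqm p (E' m p) (E p)
    have h2 := size_E prτ (w m) hm hp
    have h3 := size_E prt hX hm hp
    rw [eqm] at h2 h3
    have h4 : τ ^ (c1 / 2 - k) ≤ t ^ (c1 / 2 - k) := by
      refine Real.rpow_le_rpow hτ.le hτt ?_
      have := ok.hC
      linarith
    have h5 := mul_le_mul_of_nonneg_left h4 hC0.le
    rw [hE2, hη]
    refine h1.trans ?_
    linarith
  have avE2 : ∀ p ∈ R, av p (E2 p) ≤ 2 * C * t ^ (c1 / 2) := by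
    intro p hp
    have h1 := aq_sub (q := 2) (by norm_num) p (E' m p) (E p)
    rw [← av_aq, ← av_aq, ← av_aq] at h1
    have h2 := (w m).eav p hp
    have h3 := hX.eav p hp
    have h4 : τ ^ (c1 / 2) ≤ t ^ (c1 / 2) := Real.rpow_le_rpow hτ.le hτt (by linarith)
    have h5 := mul_le_mul_of_nonneg_left h4 hC0.le
    rw [hE2]
    refine h1.trans ?_
    linarith
  have frzH2 : ∀ p ∈ R, Fz D m (t ^ (1 + e)) lam p (H2 p) := fun p hp => by
    rw [← hτdef, hH2]
    exact Fz_mass (by linarith)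
      (Fz_sub hD hτ hτ1 ((w m).frz p hp) (Fz_mono hD hτ hτt ht1 (hX.frz p hp)))
  have levr : ∀ p ∈ R, Lv D m t C p (r m p) := fun p hp =>
    Lv_mono hD hτ hτt ht1 ((w m).lev p hp)
  have levX2 : ∀ p ∈ R, Lv D m t lam p (X2 p) := fun p hp => by
    rw [hX2]
    exact Lv_le (by linarith) (Lv_sub (hX.lev p hp) (levr p hp))
  -- static windows
  have hl' : 0 ≤ lam⁻¹ := inv_nonneg.2 hlam0.le
  have stat : ∀ I ∈ V, ∃ U : Finset Nd, Tops (win R V I) I U ∧ Cnt (win R V I) U (K * t ^ (-CS)) ∧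
      ∀ I' ∈ U, ∀ W' J', Full W' J' → W' ⊆ win (win R V I) U I' → ∀ F : Fin 4 → Fn,
        F m = (fun y => ((lam⁻¹ : ℝ) : ℂ) * H2 I y) → F 3 = F3 →
        (∀ j, j ≠ m → j ≠ 3 → ∀ p ∈ W', aq (2 + k) p (F j) ≤ 1) → ∀ ε, Adm bb ε →
        ‖TR bb ε W' F‖ ≤ K * (1 + B) * t ^ cS * len J' := by
    intro I hI
    have hIR := hTT.sub hI
    refine hS N B hB0 hB t ht htt bb (win R V I) I (win_full hR hTT hI)
      ((le_of_mem hR hIR).trans hJ) m hm _ F3 (fun y => ((lam⁻¹ : ℝ) : ℂ) * X2 I y)
      (fun y => -(((lam⁻¹ : ℝ) : ℂ) * E2 I y)) ?_ ?_ ?_ ?_ ?_ ?_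
    · intro p hp
      rw [aq_smul (by linarith) p _ hl', inv_mul_le_iff₀ hlam0, mul_one, ← adH2.eq hp]
      exact szH2 p (win_sub hp)
    · intro p hp
      exact hF3 p (win_sub hp)
    · intro p hp
      have := Fz_smul hD (Real.rpow_pos_of_pos ht _)
        (Real.rpow_le_one ht.le ht1 (by linarith)) (lam⁻¹) hl' (frzH2 p (win_sub hp))
      rwa [inv_mul_cancel₀ hlam0.ne', adH2.eq hp] at this
    · intro y _
      have := hX2eq I hIR y
      rw [this]
      ring
    · intro p hp
      have := Lv_smul (lam⁻¹) hl' (levX2 p (win_sub hp))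
      rwa [inv_mul_cancel₀ hlam0.ne', adX2.eq hp] at this
    · intro p hp
      have h1 := avE2 p (win_sub hp)
      rw [adE2.eq hp] at h1
      rw [av_aq, TRec.S351.aq_neg, aq_smul (by norm_num) p _ hl', ← av_aq, inv_mul_le_iff₀ hlam0]
      have h2 : t ^ (c1 / 2) ≤ t ^ s1 := rp_le ht ht1 (by have := ok.hs; linarith)
      refine h1.trans ?_
      exact mul_le_mul hlam2 h2 (Real.rpow_nonneg ht.le _) hlam0.le
  choose! U hU1 hU2 hU3 using stat
  obtain ⟨S, hSdef⟩ : ∃ S, S = glue V U := ⟨_, rfl⟩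
  have hST : Tops R J S := by rw [hSdef]; exact glue_tops hR hTT hU1
  have hVS : V ⊆ S := by rw [hSdef]; exact sub_glue hU1
  refine ⟨S, ⟨?_, ?_⟩⟩
  · have h1 := bS_le S R
    have h2 : ∑ K' ∈ S, len K' ≤ (1 + K * t ^ (-CS)) * ∑ I ∈ V, len I := by
      rw [hSdef]
      exact sum_glue (fun I hI => (hU1 I hI).sub)
        (fun I hI => sum_len_tops (win_full hR hTT hI) (hU1 I hI) (hU2 I hI))
    have h3 : 0 ≤ 1 + K * t ^ (-CS) := by
      have := Real.rpow_nonneg ht.le (-CS)
      positivity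
    have h4 := mul_le_mul_of_nonneg_left hnum h3
    refine (h1.trans (h2.trans h4)).trans ?_
    have h5 : 1 ≤ t ^ (-CS) := one_le_rp ht ht1 (by linarith)
    have h6 : t ^ (-(CS + 2)) = t ^ (-CS) * t ^ (-(2 : ℝ)) := by
      rw [← Real.rpow_add ht]
      congr 1
      ring
    have h7 : 0 ≤ t ^ (-(2 : ℝ)) := Real.rpow_nonneg ht.le _
    rw [h6]
    have h8 : (1 + K * t ^ (-CS)) * (3 * C * t ^ (-(2 : ℝ)) * len J) ≤
        ((1 + K) * t ^ (-CS)) * (3 * C * t ^ (-(2 : ℝ)) * len J) := by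
      refine mul_le_mul_of_nonneg_right ?_ (by positivity)
      nlinarith
    refine h8.trans ?_
    have h9 : (1 + K) * t ^ (-CS) * (3 * C * t ^ (-(2 : ℝ)) * len J) =
        ((1 + K) * (3 * C)) * (t ^ (-CS) * t ^ (-(2 : ℝ)) * len J) := by ring
    rw [h9, mul_assoc K']
    refine mul_le_mul_of_nonneg_right ?_ (by positivity)
    rw [hK']
    have : 0 ≤ 2 * C + 2 * C * K := by positivity
    linarith
  · intro ε hε W J' hW hWR Fa Fb hFa hFb
    have hJ' : J'.1 ≤ N := (le_of_mem hR (hWR hW.top)).trans hJ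
    have hL' := lpos J'
    have hb := bS_nonneg S W
    have hTW : Tops W J' (rT S W J') := hST.restrict hW hWR
    have hF3W : ∀ p ∈ W, aq q3 p F3 ≤ 1 := fun p hp => hF3 p (hWR hp)
    -- r
    have b1 : ‖TP bb ε W (q4 a b m (fun _ => Fa) (fun _ => Fb) (r m) (fun _ => F3))‖ ≤
        A * len J' := by
      have h1 := hAn bb ε hε W J' hW hJ' m hm (rT T' W J') (G4 m) (H' m) (E' m) (r m)
        (WRd.restrict hR (w m) hW hWR)
        (fun j => if j = a then Fa else if j = b then Fb else F3) (fun j hj p hp => by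
          rcases h.all j with hj' | hj' | hj' | hj'
          · rw [hj', show qx k q3 a = 2 + k from if_neg h.a3]
            simp only [if_pos]
            exact hFa p hp
          · rw [hj', show qx k q3 b = 2 + k from if_neg h.b3]
            simp only [if_pos, if_neg h.ab.symm]
            exact hFb p hp
          · exact absurd hj' hj
          · rw [hj', show qx k q3 3 = q3 from if_pos rfl]
            simp only [if_neg h.a3.symm, if_neg h.b3.symm]
            exact hF3W p hp)
      rw [q4_ext h (fun _ => Fa) (fun _ => Fb) (r m) (fun _ => F3)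
        (Y := Function.update (fun j _ => if j = a then Fa else if j = b then Fb else F3) m (r m))
        (by rw [Function.update_of_ne h.am]; funext p; exact if_pos rfl)
        (by rw [Function.update_of_ne h.bm]; funext p; exact (if_neg h.ab.symm).trans (if_pos rfl))
        (by rw [Function.update_self])
        (by rw [Function.update_of_ne h.m3.symm]; funext p;
            exact (if_neg h.a3.symm).trans (if_neg h.b3.symm))]
      exact h1
    -- E2
    have aS : ∀ {Z : Nd → Fn}, Adp R V Z → Adp W (rT S W J') Z := fun hZ =>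
      Adp.restrict hR hST hW hWR (Adp.finer hR hTT hST hVS hZ)
    have hsum := sum_rT S W J'
    have b2 : ‖TP bb ε W (q4 a b m (fun _ => Fa) (fun _ => Fb) E2 (fun _ => F3))‖ ≤
        (B * η) * (len J' + bS S W) := by
      have had : ∀ j, Adp W (rT S W J') (q4 a b m (fun _ => Fa) (fun _ => Fb) E2 (fun _ => F3) j) := by
        intro j
        rcases h.all j with hj | hj | hj | hj
        · rw [hj, q4_a h]; exact Adp.const _
        · rw [hj, q4_b h]; exact Adp.const _
        · rw [hj, q4_m h]; exact aS adE2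
        · rw [hj, q4_3 h]; exact Adp.const _
      have key := sum_win bb ε hW hTW had (a := B * η) (fun I hI => by
        have hIW := hTW.sub hI
        have h1 := BN_scaled hk hq3 hB hε (win_full hW hTW hI)
          ((le_of_mem hR (hWR hIW)).trans hJ)
          (fun j => q4 a b m (fun _ => Fa) (fun _ => Fb) E2 (fun _ => F3) j I)
          (r4 a b m 1 1 η 1)
          (by
            intro j
            rcases h.all j with hj | hj | hj | hj
            · rw [hj, r4_a h]; exact one_pos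
            · rw [hj, r4_b h]; exact one_pos
            · rw [hj, r4_m h]; exact hη0
            · rw [hj, r4_3 h]; exact one_pos)
          (by
            intro j p hp
            have hpW := win_sub hp
            rcases h.all j with hj | hj | hj | hj
            · rw [hj, r4_a h, q4_a h, show qx k q3 a = 2 + k from if_neg h.a3]; exact hFa p hpW
            · rw [hj, r4_b h, q4_b h, show qx k q3 b = 2 + k from if_neg h.b3]; exact hFb p hpW
            · rw [hj, r4_m h, q4_m h, eqm, ← (aS adE2).eq hp]; exact szE2 p (hWR hpW)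
            · rw [hj, r4_3 h, q4_3 h, show qx k q3 3 = q3 from if_pos rfl]; exact hF3W p hpW)
        rw [prod_r4 h] at h1
        refine h1.trans (le_of_eq ?_)
        ring)
      exact key.trans (mul_le_mul_of_nonneg_left hsum (mul_nonneg hB0 hη0.le))
    -- H2
    have hcS : 0 ≤ lam * (K * (1 + B) * t ^ cS) := by
      have := Real.rpow_nonneg ht.le cS
      positivity
    have b3 : ‖TP bb ε W (q4 a b m (fun _ => Fa) (fun _ => Fb) H2 (fun _ => F3))‖ ≤
        (lam * (K * (1 + B) * t ^ cS)) * (len J' + bS S W) := by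
      have had : ∀ j, Adp W (rT S W J') (q4 a b m (fun _ => Fa) (fun _ => Fb) H2 (fun _ => F3) j) := by
        intro j
        rcases h.all j with hj | hj | hj | hj
        · rw [hj, q4_a h]; exact Adp.const _
        · rw [hj, q4_b h]; exact Adp.const _
        · rw [hj, q4_m h]; exact aS adH2
        · rw [hj, q4_3 h]; exact Adp.const _
      have key := sum_win bb ε hW hTW had (a := lam * (K * (1 + B) * t ^ cS)) (fun I hI => by
        have hIW := hTW.sub hI
        obtain ⟨Is, hIs⟩ := hST.exists_wn hR (hWR hIW)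
        have hwin : win W (rT S W J') I ⊆ win R S Is := win_rT hW hIs hI hWR
        obtain ⟨I0, hI0, hIsU, hsub⟩ := glue_win hU1 (by rw [← hSdef]; exact hIs.1)
        rw [← hSdef] at hsub
        have hwfull := win_full hW hTW hI
        have hH2I : H2 I = H2 I0 :=
          adH2.eq (win_sub (hsub (hwin hwfull.top)))
        have h1 := hU3 I0 hI0 Is hIsU (win W (rT S W J') I) I hwfull (hwin.trans hsub)
          (fun j => if j = a then Fa else if j = b then Fb else if j = m then
            (fun y => ((lam⁻¹ : ℝ) : ℂ) * H2 I0 y) else F3)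
          ((if_neg h.am.symm).trans ((if_neg h.bm.symm).trans (if_pos rfl)))
          ((if_neg h.a3.symm).trans ((if_neg h.b3.symm).trans (if_neg h.m3.symm)))
          (by
            intro j hjm hj3 p hp
            have hpW := win_sub hp
            rcases h.all j with hj | hj | hj | hj
            · rw [hj]; simp only [if_pos]; exact hFa p hpW
            · rw [hj]; simp only [if_pos, if_neg h.ab.symm]; exact hFb p hpW
            · exact absurd hj hjm
            · exact absurd hj hj3) ε hε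
        have e : TR bb ε (win W (rT S W J') I)
            (fun j => q4 a b m (fun _ => Fa) (fun _ => Fb) H2 (fun _ => F3) j I) =
            ((lam : ℝ) : ℂ) * TR bb ε (win W (rT S W J') I)
              (fun j => if j = a then Fa else if j = b then Fb else if j = m then
            (fun y => ((lam⁻¹ : ℝ) : ℂ) * H2 I0 y) else F3) := by
          have e1 : TR bb ε (win W (rT S W J') I)
              (fun j => q4 a b m (fun _ => Fa) (fun _ => Fb) H2 (fun _ => F3) j I) =
              TP bb ε (win W (rT S W J') I)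
                (q4 a b m (fun _ => Fa) (fun _ => Fb) (fun _ => H2 I) (fun _ => F3)) := by
            rw [← TP_static]
            congr 1
            symm
            exact q4_ext h _ _ _ _ (by rw [q4_a h]) (by rw [q4_b h]) (by rw [q4_m h])
              (by rw [q4_3 h])
          have e2 : TR bb ε (win W (rT S W J') I)
              (fun j => if j = a then Fa else if j = b then Fb else if j = m then
                (fun y => ((lam⁻¹ : ℝ) : ℂ) * H2 I0 y) else F3) =
              TP bb ε (win W (rT S W J') I)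
                (q4 a b m (fun _ => Fa) (fun _ => Fb)
                  (fun _ => fun y => ((lam⁻¹ : ℝ) : ℂ) * H2 I0 y) (fun _ => F3)) := by
            rw [← TP_static]
            congr 1
            symm
            refine q4_ext h _ _ _ _ ?_ ?_ ?_ ?_
            · funext p; exact if_pos rfl
            · funext p; exact (if_neg h.ab.symm).trans (if_pos rfl)
            · funext p
              exact (if_neg h.am.symm).trans ((if_neg h.bm.symm).trans (if_pos rfl))
            · funext p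
              exact (if_neg h.a3.symm).trans ((if_neg h.b3.symm).trans (if_neg h.m3.symm))
          have e3 := TP_lin2 bb ε (win W (rT S W J') I)
            (q4 a b m (fun _ => Fa) (fun _ => Fb) (fun _ => H2 I) (fun _ => F3)) m
            (fun _ => H2 I) (fun _ => fun y => ((lam⁻¹ : ℝ) : ℂ) * H2 I0 y) (fun _ => Fa)
            ((lam : ℝ) : ℂ) 0 (fun p _ y => by
              rw [hH2I, ← mul_assoc, ← Complex.ofReal_mul, mul_inv_cancel₀ hlam0.ne',
                Complex.ofReal_one]
              ring)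
          rw [upd_m h, upd_m h, upd_m h, zero_mul, add_zero] at e3
          rw [e1, e2, e3]
        rw [e, norm_mul, Complex.norm_real, Real.norm_eq_abs, abs_of_nonneg hlam0.le]
        calc lam * ‖_‖ ≤ lam * (K * (1 + B) * t ^ cS * len I) :=
              mul_le_mul_of_nonneg_left h1 hlam0.le
          _ = _ := by ring)
      exact key.trans (mul_le_mul_of_nonneg_left hsum hcS)
    -- sum
    have s1 := TP_add2 bb ε W (q4 a b m (fun _ => Fa) (fun _ => Fb) X (fun _ => F3)) m
      X (r m) X2 (fun p hp y => by rw [hX2]; ring)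
    rw [upd_m h, upd_m h, upd_m h] at s1
    have s2 := TP_add2 bb ε W (q4 a b m (fun _ => Fa) (fun _ => Fb) X (fun _ => F3)) m
      X2 H2 E2 (fun p hp y => hX2eq p (hWR hp) y)
    rw [upd_m h, upd_m h, upd_m h] at s2
    have g1 : B * η ≤ 2 * C * (1 + B) * t ^ (bt + κ) := by
      have e1 : t ^ (c1 / 2 - k) ≤ t ^ (bt + κ) := rp_le ht ht1 (by have := ok.hC; linarith)
      have e2 : B ≤ 1 + B := by linarith
      rw [hη]
      calc B * (2 * C * t ^ (c1 / 2 - k)) = 2 * C * (B * t ^ (c1 / 2 - k)) := by ring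
        _ ≤ 2 * C * ((1 + B) * t ^ (bt + κ)) := by
            refine mul_le_mul_of_nonneg_left ?_ (by positivity)
            exact mul_le_mul e2 e1 (Real.rpow_nonneg ht.le _) (by linarith)
        _ = _ := by ring
    have g2 : lam * (K * (1 + B) * t ^ cS) ≤ 2 * C * K * (1 + B) * t ^ (bt + κ) := by
      have e1 : t ^ ((1 + e) * (-k)) * t ^ cS ≤ t ^ (bt + κ) := by
        rw [← Real.rpow_add ht]
        exact rp_le ht ht1 (by have := ok.hS; linarith)
      rw [hlam, hpow]
      calc 2 * C * t ^ ((1 + e) * (-k)) * (K * (1 + B) * t ^ cS)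
          = 2 * C * K * (1 + B) * (t ^ ((1 + e) * (-k)) * t ^ cS) := by ring
        _ ≤ _ := mul_le_mul_of_nonneg_left e1 (by positivity)
    have hQ0 : 0 ≤ t ^ (bt + κ) := Real.rpow_nonneg ht.le _
    have g3 : 2 * C * (1 + B) * t ^ (bt + κ) + 2 * C * K * (1 + B) * t ^ (bt + κ) ≤
        K' * (1 + B) * t ^ (bt + κ) := by
      rw [hK']
      have : 0 ≤ (1 + K) * (3 * C) * (1 + B) * t ^ (bt + κ) := by positivity
      nlinarith only [this]
    have hX0 : 0 ≤ len J' + bS S W := by linarith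
    have g4 := mul_le_mul_of_nonneg_right ((add_le_add g1 g2).trans g3) hX0
    rw [s1, s2]
    refine (norm_add_le _ _).trans ?_
    have n1 := norm_add_le (TP bb ε W (q4 a b m (fun _ => Fa) (fun _ => Fb) H2 (fun _ => F3)))
      (TP bb ε W (q4 a b m (fun _ => Fa) (fun _ => Fb) E2 (fun _ => F3)))
    linarith

end S351

end Crest.Agent.R079.TRecN
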