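import Crest.Agent.R079.TNS0_533
import Crest.Agent.R079.TWL_649

/-! R079, node-dependent recursion (helper533): common windows of four static letters (port of `TWL_649`
onto the node-dependent LASSO `LasN_525`). -/

set_option autoImplicit false

namespace Crest.Agent.R079.TRecN

open Finset Crest.Agent.R079.Grid Crest.Agent.R079.Glue Crest.Agent.R079.Growth
  Crest.Agent.R079.QRed Crest.Agent.R079.Qe292 Crest.Agent.R079.TWin649
open Crest.Agent.R079.TRec Crest.Agent.R079.TWL649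

/-- **[T1] WINDOWS** -/
theorem winLem : WinLem := by
  classical
  refine ⟨100, by norm_num, ?_⟩
  intro D k q3 sg c1 hD hk0 hk1 hq3 hsg0 hsg1 hc10 hc11 R J hR G hG t ht ht1
  have hloc : ∀ j, ∀ p ∈ R, av p (G j) ≤ 1 := by
    intro j p hp
    refine (av_le_aq ?_ p (G j)).trans (hG j p hp)
    unfold qx
    split_ifs <;> linarith
  -- parameters
  have hδ0 : 0 < t ^ c1 := Real.rpow_pos_of_pos ht _
  have hδ1 : t ^ c1 ≤ 1 := Real.rpow_le_one ht.le ht1 hc10.le
  have hδt : t ≤ t ^ c1 := by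
    have := Real.rpow_le_rpow_of_exponent_ge ht ht1 hc11
    rwa [Real.rpow_one] at this
  set δ : ℝ := t ^ c1 with hδ
  set r : ℝ := t ^ 2 / 16 with hr
  have ht2 : 0 < t ^ 2 := by positivity
  have ht21 : t ^ 2 ≤ 1 := pow_le_one₀ ht.le ht1
  have hr0 : 0 < r := by positivity
  have hr1 : r ≤ 1 / 16 := by rw [hr]; linarith
  have hrsq : r ^ 2 ≤ 1 / 256 := by nlinarith
  have hrδ : 32 * (Fintype.card (Fin 4) : ℝ) * r ^ 2 ≤ δ := by
    rw [Fintype.card_fin]
    push_cast
    have h1 : t ^ 2 * t ^ 2 ≤ t := by nlinarith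
    have h2 : r ^ 2 = t ^ 2 * t ^ 2 / 256 := by rw [hr]; ring
    rw [h2]
    linarith
  have hcst : ∀ j : Fin 4, LasN525.Cst (D j t) := fun j => hD.cst j t ht ht1
  obtain ⟨f, hN⟩ := LasN525.exists_Near hcst hr0 G
  obtain ⟨S, W, hS, hJS, hdc, hen⟩ := LasN525.windows hN hR hloc hδ0 (by linarith) hrδ
  have hdv : ∀ K ∈ S, ∀ p ∈ W K, dv f K p ≤ δ := fun K hK p hp => (hdc K hK p hp).1
  have hex : ∀ p : Nd, ∃ K : Nd, p ∈ R → K ∈ S ∧ p ∈ W K := by
    intro p
    by_cases hp : p ∈ R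
    · obtain ⟨K, hK, hpK⟩ := hS.cover p hp
      exact ⟨K, fun _ => ⟨hK, hpK⟩⟩
    · exact ⟨p, fun h => absurd h hp⟩
  choose o ho using hex
  have hoI : ∀ p ∈ R, ∀ I, Wn S I p → o p = I := fun p hp I hI =>
    wn_eq hS (ho p hp).1 (ho p hp).2 hI
  have hoS : ∀ I ∈ S, o I = I := fun I hI =>
    wn_eq hS (ho I (hS.sub hI)).1 (ho I (hS.sub hI)).2
      ⟨hI, subset_rfl, fun I' _ h => h⟩
  have hsub : ∀ p ∈ R, iv p ⊆ iv (o p) := fun p hp =>
    (hS.full _ (ho p hp).1).reg.1 p (ho p hp).2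
  have hav1 : ∀ j, ∀ p ∈ R, av p (G j) ^ 2 ≤ 1 := fun j p hp =>
    pow_le_one₀ (Real.sqrt_nonneg _) (hloc j p hp)
  have htop : ∀ j, ∀ p ∈ R, av p (fun y => G j y - f j p y) ^ 2 + 2 * D j t p (f j p) ≤ 1 + r ^ 2 := by
    intro j p hp
    have h1 := LasN525.Ph_top hN j p
    unfold LasN525.Ph at h1
    linarith [hav1 j p hp]
  -- sup bound of the near-minimisers
  have hsup0 : ∀ j, 0 ≤ t ^ (-(sx sg j)) := fun j => Real.rpow_nonneg ht.le _
  have hcost : ∀ j, ∀ p ∈ R, D j t p (f j p) ≤ 1 := by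
    intro j p hp
    have h1 := htop j p hp
    have h2 : 0 ≤ av p (fun y => G j y - f j p y) ^ 2 := sq_nonneg _
    linarith
  have hsup : ∀ j, ∀ p ∈ R, ∀ y ∈ iv p, ‖f j p y‖ ≤ t ^ (-(sx sg j)) := by
    intro j p hp y hy
    refine (hD.sup j t ht ht1 p _ y hy).trans ?_
    exact mul_le_of_le_one_left (hsup0 j) (hcost j p hp)
  have hfav : ∀ j, ∀ p ∈ R, av p (f j p) ^ 2 ≤ 5 := by
    intro j p hp
    have h1 := av_two p (f j p) (G j)
    have h2 := htop j p hp
    have h3 := (hcst j).nonneg p (f j p)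
    rw [av_symm p (f j p) (G j)] at h1
    linarith [hav1 j p hp]
  have hdvi : ∀ j, ∀ p ∈ R, av p (fun y => f j (o p) y - f j p y) ^ 2 ≤ δ := by
    intro j p hp
    refine le_trans ?_ (hdv (o p) (ho p hp).1 p (ho p hp).2)
    unfold dv
    exact Finset.single_le_sum (f := fun i => av p (fun y => f i (o p) y - f i p y) ^ 2)
      (fun i _ => sq_nonneg _) (Finset.mem_univ j)
  refine ⟨S, fun j p => f j (o p), fun j p => Ew (f j) (W (o p)) (o p), fun j => ?_⟩
  refine ⟨tops_of hR hS hJS, ?_, ?_, fun _ _ _ => rfl, hG j, ?_, ?_, ?_, ?_, ?_, ?_, ?_, ?_⟩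
  · -- adH
    intro p hp I hI
    show f j (o p) = f j (o I)
    rw [hoI p hp I hI, hoS I hI.1]
  · intro p hp I hI
    show Ew (f j) (W (o p)) (o p) = Ew (f j) (W (o I)) (o I)
    rw [hoI p hp I hI, hoS I hI.1]
  · -- level
    intro p hp φ hφ
    have hK := (ho p hp).1
    have hc := hD.conj j t ht ht1 p φ
    have h1 := hN.lev_gl hr0 (hS.full _ hK) j (ho p hp).2 (fun y => (starRingEnd ℂ) (φ y))
    simp only [Complex.conj_conj] at h1
    have h3 : ∑ y ∈ iv p, (G j y - f j (o p) y - Ew (f j) (W (o p)) (o p) y) * φ y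
        = ∑ y ∈ iv p, (G j y - gl (W (o p)) (f j) y) * φ y := by
      refine Finset.sum_congr rfl fun y hy => ?_
      rw [Ew_of (hsub p hp hy)]
      ring
    rw [h3]
    refine h1.trans (mul_le_mul_of_nonneg_right ?_ (Growth.len_pos p).le)
    -- the error
    have hφs : ∀ y ∈ iv p, ‖(starRingEnd ℂ) (φ y)‖ ≤ t⁻¹ := by
      intro y hy
      rw [RCLike.norm_conj]
      refine (hD.sup j t ht ht1 p φ y hy).trans ?_
      refine (mul_le_of_le_one_left (hsup0 j) hφ).trans ?_
      rw [← Real.rpow_neg_one]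
      exact Real.rpow_le_rpow_of_exponent_ge ht ht1 (by linarith [sx_le_one hsg1 j])
    have hlen := Growth.len_pos p
    have hav : av p (fun y => (starRingEnd ℂ) (φ y)) ^ 2 ≤ (t⁻¹) ^ 2 := by
      rw [QVar181.av_sq, one_div, inv_mul_le_iff₀ hlen]
      calc ∑ y ∈ iv p, ‖(starRingEnd ℂ) (φ y)‖ ^ 2 ≤ ∑ _y ∈ iv p, (t⁻¹) ^ 2 :=
            Finset.sum_le_sum fun y hy => pow_le_pow_left₀ (norm_nonneg _) (hφs y hy) 2
        _ = len p * (t⁻¹) ^ 2 := by rw [Finset.sum_const, nsmul_eq_mul, card_iv]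
    have h5 : r * (t⁻¹) ^ 2 = 1 / 16 := by
      rw [hr]
      field_simp
    have h6 : r * av p (fun y => (starRingEnd ℂ) (φ y)) ^ 2 ≤ 1 / 16 := by
      rw [← h5]
      exact mul_le_mul_of_nonneg_left hav hr0.le
    have h7 := hc.trans hφ
    have e : r * (1 + av p (fun y => (starRingEnd ℂ) (φ y)) ^ 2) / 2
        = (r + r * av p (fun y => (starRingEnd ℂ) (φ y)) ^ 2) / 2 := by ring
    rw [e]
    linarith
  · -- frozen
    intro p hp
    have h1 := (hdc (o p) (ho p hp).1 p (ho p hp).2).2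
    rw [Fintype.card_fin] at h1
    have h2 : D j t p (f j (o p)) ≤ LasN525.cs (fun j => D j t) f (o p) p := by
      unfold LasN525.cs
      exact Finset.single_le_sum (f := fun i => D i t p (f i (o p)))
        (fun i _ => (hcst i).nonneg p _) (Finset.mem_univ j)
    push_cast at h1
    show D j t p (f j (o p)) ≤ 100
    linarith
  · -- local norm of H
    intro p hp
    have h1 := av_two p (f j (o p)) (f j p)
    have h2 := hfav j p hp
    have h4 := hdvi j p hp
    have h5 : 0 ≤ av p (f j (o p)) := Real.sqrt_nonneg _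
    show av p (f j (o p)) ≤ 100
    nlinarith
  · -- local norm of E
    intro p hp
    have h1 := Ew_loc (hS.full _ (ho p hp).1) (hdv (o p) (ho p hp).1) j (ho p hp).2
    have h2 : 0 ≤ t ^ (c1 / 2) := Real.rpow_nonneg ht.le _
    have h3 : (t ^ (c1 / 2)) ^ 2 = δ := by
      rw [← Real.rpow_natCast, ← Real.rpow_mul ht.le, hδ]
      congr 1
      push_cast
      ring
    rw [← h3] at h1
    have h4 := abs_le_of_sq_le_sq h1 h2
    show av p (Ew (f j) (W (o p)) (o p)) ≤ 100 * t ^ (c1 / 2)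
    have h5 : av p (Ew (f j) (W (o p)) (o p)) ≤ t ^ (c1 / 2) := (le_abs_self _).trans h4
    linarith
  · intro p hp y hy
    refine (hsup j (o p) (hS.sub (ho p hp).1) y (hsub p hp hy)).trans ?_
    linarith [hsup0 j]
  · intro p hp y hy
    have h1 := Ew_sup (hS.full _ (ho p hp).1) (hsup0 j)
      (fun q hq => hsup j q (hS.wsub _ (ho p hp).1 hq)) y
    refine h1.trans ?_
    linarith [hsup0 j]
  · -- count
    intro p hp
    have h1 := hS.cnt p hp
    refine le_trans (Finset.sum_le_sum_of_subset_of_nonneg ?_ fun I _ _ =>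
      (Growth.len_pos I).le) (h1.trans ?_)
    · intro I hI
      rw [Finset.mem_filter] at hI ⊢
      exact ⟨hI.1, hI.2.1⟩
    · refine mul_le_mul_of_nonneg_right ?_ (Growth.len_pos p).le
      rw [Real.rpow_neg ht.le, Fintype.card_fin, ← hδ]
      push_cast
      have h2 : 1 ≤ δ⁻¹ := (one_le_inv₀ hδ0).2 hδ1
      rw [div_eq_mul_inv]
      linarith
  · -- squares
    intro p hp
    have h1 := hen p hp
    refine le_trans (le_trans (Finset.sum_le_sum fun I hI => ?_)
      (Finset.sum_le_sum_of_subset_of_nonneg (f := fun K => en f (W K) K)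
        (t := S.filter fun K => iv K ⊆ iv p) ?_ fun I _ _ => en_nonneg f (W I) I)) (h1.trans ?_)
    · have hIS : I ∈ S := (Finset.mem_filter.1 hI).1
      show ∑ y ∈ iv I, ‖Ew (f j) (W (o I)) (o I) y‖ ^ 2 ≤ en f (W I) I
      rw [hoS I hIS, sum_av, av_Ew subset_rfl]
      unfold en
      refine mul_le_mul_of_nonneg_left ?_ (Growth.len_pos I).le
      exact Finset.single_le_sum
        (f := fun i => av I (fun y => gl (W I) (f i) y - f i I y) ^ 2)
        (fun i _ => sq_nonneg _) (Finset.mem_univ j)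
    · intro I hI
      rw [Finset.mem_filter] at hI ⊢
      exact ⟨hI.1, hI.2.1⟩
    · rw [Fintype.card_fin, mul_comm]
      refine mul_le_mul_of_nonneg_right ?_ (Growth.len_pos p).le
      push_cast
      linarith

end Crest.Agent.R079.TRecN
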