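import Crest.Agent.R079.TwL_253
import Crest.Agent.R079.GaW_571
import Crest.Agent.R079.GaB_571

/-! R079: THE CORNER IN THE BOX FORM `TA` OF 571, three complex kernels, killer on any edge (helper253).

* `ta_corner` : alive families `al w` (`AlC`), sum over all boxes of `Gd`;
* `ta_unif`   : `Gd = AdX W` (all boxes of one full window), killer with an operator bound on all boxes
  of the region. -/

set_option autoImplicit false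

namespace Crest.Agent.R079.TaKx253

open Finset Crest.Agent.R079.Grid Crest.Agent.R079.Glue Crest.Agent.R079.Growth
  Crest.Agent.R079.QRed Crest.Agent.R079.KLx446 Crest.Agent.R079.KC996 Crest.Agent.R079.TwLx253
  Crest.Agent.R079.GaAx571 Crest.Agent.R079.GaBx571 Crest.Agent.R079.GaWx571

/-- component of a base point -/
def pc (e : Fin 3) (p : ℤ × ℤ × ℤ) : ℤ := ![p.1, p.2.1, p.2.2] e

lemma wv_rp1 (bb : ℤ) (n : ℕ) (p : ℤ × ℤ × ℤ) (v : ℕ) : wv bb n (rp1 p) v = wv bb n p v := by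
  unfold wv rp1; ring

lemma rp1_3 (p : ℤ × ℤ × ℤ) : rp1 (rp1 (rp1 p)) = p := rfl

/-- rotation once, with any set of boxes -/
lemma TA_rot1 (bb : ℤ) (L1 M : ℕ) (Gd : ℕ → ℤ × ℤ × ℤ → ℕ → Prop) (K : Fin 3 → Kl) :
    TA bb (cube L1) M Gd K =
      TA bb (cube L1) M (fun n p v => Gd n (rp1 (rp1 p)) v) (fun e => K (e + 1)) := by
  rw [← TA_rot]
  rfl

/-- real words, killer at position `2` -/
theorem ta_two : ∃ K0 : ℝ, 0 ≤ K0 ∧ ∀ (bb : ℤ), bb = -1 ∨ bb = -7 →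
    ∀ (R : Finset Nd) (J : Nd) (α β γ x0 x1 y0 y1 : ℤ) (al : ℤ → ℕ → ℤ → ℤ → Prop),
    IsRegion R J → Cof α β γ → (∀ w, AlC R J α β γ w x0 x1 y0 y1 (al w)) →
    ∀ (A B C : Kl) (τ HA HB HC fa fb SA SB : ℝ) (W1 : Finset ℤ),
    (∀ w, ∃ T T' : Finset ℤ, ∀ x y, A w x y ≠ 0 → x ∈ T ∧ y ∈ T') →
    (∀ w, ∃ T T' : Finset ℤ, ∀ x y, B w x y ≠ 0 → x ∈ T ∧ y ∈ T') →
    (∀ w, ∃ T T' : Finset ℤ, ∀ x y, C w x y ≠ 0 → x ∈ T ∧ y ∈ T') →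
    0 < τ → 0 < fa → 0 < fb →
    (∀ w x y, ‖A w x y‖ ≤ HA) → (∀ w x y, ‖B w x y‖ ≤ HB) → (∀ w x y, ‖C w x y‖ ≤ HC) →
    (∀ w, w ∉ W1 → (∀ x y, A w x y = 0) ∨ (∀ x y, B w x y = 0)) →
    (∀ X Y : Finset ℤ, ∑ w ∈ W1, ∑ x ∈ X, ∑ y ∈ Y, ‖A w x y‖ ^ 2 ≤ SA) →
    (∀ X Y : Finset ℤ, ∑ w ∈ W1, ∑ x ∈ X, ∑ y ∈ Y, ‖B w x y‖ ^ 2 ≤ SB) →
    (∀ w m q p, al w m q p → BadTx138.OpB (C w) (Ico q (q + (2 ^ m : ℕ))) (Ico p (p + (2 ^ m : ℕ)))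
      (2 ^ m * τ)) →
    ∀ (Gd : ℕ → ℤ × ℤ × ℤ → ℕ → Prop), (∀ n ≤ J.1, ∀ p v, Gd n p v →
      (∃ i j : ℕ, i < 2 ^ (n + 1) ∧ j < 2 ^ (n + 1) ∧ C (wv bb n p v) (p.2.2 + i) (p.1 + j) ≠ 0) →
      Al4Z (al (wv bb n p v)) n p.2.2 p.1) →
    ∀ (L1 : ℕ), TA bb (cube L1) (J.1 + 1) Gd ![A, B, C] ≤
      K0 * (1 + Real.log (1 + HC ^ 2 * (((Ico x0 x1).card : ℝ) * len J) *
        (HA ^ 2 / fa + HB ^ 2 / fb) / τ ^ 2)) *
        (τ * √(SA + W1.card * fa) * √(SB + W1.card * fb)) := by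
  classical
  obtain ⟨K, hK0, hK⟩ := sum_tw'
  refine ⟨8 * K, by positivity, ?_⟩
  intro bb hbb R J α β γ x0 x1 y0 y1 al hR hc hal A B C τ HA HB HC fa fb SA SB W1 sA sB sC hτ hfa
    hfb hA hB hC h0 eA eB hop Gd hGd L1
  set G : ℕ → ℤ → ℤ → ℤ → ℤ → Prop := fun n w p0 p1 p2 => n ≤ J.1 ∧
    ((∃ i j : ℕ, i < 2 ^ (n + 1) ∧ j < 2 ^ (n + 1) ∧ C w (p2 + i) (p0 + j) ≠ 0) →
      Al4Z (al w) n p2 p0) with hG
  set X : ℝ := K * (1 + Real.log (1 + HC ^ 2 * (((Ico x0 x1).card : ℝ) * len J) *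
        (HA ^ 2 / fa + HB ^ 2 / fb) / τ ^ 2)) *
        (τ * √(SA + W1.card * fa) * √(SB + W1.card * fb)) with hX
  have fsA : ∀ σ w, FS (fun x y => pr σ (A w x y)) := by
    intro σ w
    obtain ⟨T, T', h⟩ := sA w
    exact fs_of_mem (T := T) (T' := T') fun x y hxy => h x y fun h0 => hxy (by rw [h0, pr_zero])
  have fsB : ∀ σ w, FS (fun x y => pr σ (B w x y)) := by
    intro σ w
    obtain ⟨T, T', h⟩ := sB w
    exact fs_of_mem (T := T) (T' := T') fun x y hxy => h x y fun h0 => hxy (by rw [h0, pr_zero])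
  have fsC : ∀ σ w, FS (fun x y => pr σ (C w x y)) := by
    intro σ w
    obtain ⟨T, T', h⟩ := sC w
    exact fs_of_mem (T := T) (T' := T') fun x y hxy => h x y fun h0 => hxy (by rw [h0, pr_zero])
  have sqpr : ∀ (σ : Bool) (z : ℂ), pr σ z ^ 2 ≤ ‖z‖ ^ 2 := by
    intro σ z
    rw [← sq_abs]
    exact pow_le_pow_left₀ (abs_nonneg _) (abs_pr_le σ z) 2
  have word : ∀ l : ℤ, |l| ≤ 7 → ∀ (σ : Bool × Bool × Bool) (Wf : Finset ℤ),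
      ∑ w ∈ Wf, Tw (fun m p0 p1 p2 => G m w p0 p1 p2) (fun z z' => pr σ.1 (A w z z'))
        (fun z z' => pr σ.2.1 (B w z z')) (fun z z' => pr σ.2.2 (C w z z')) (J.1 + 1) L1 l w ≤
        X := by
    intro l hl σ Wf
    refine hK l hl R J α β γ x0 x1 y0 y1 al hR hc hal (fun w z z' => pr σ.1 (A w z z'))
      (fun w z z' => pr σ.2.1 (B w z z')) (fun w z z' => pr σ.2.2 (C w z z')) τ HA HB HC fa fb SA SB
      W1 (fsA _) (fsB _) (fsC _) hτ hfa hfb (fun w x y => (abs_pr_le _ _).trans (hA w x y))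
      (fun w x y => (abs_pr_le _ _).trans (hB w x y))
      (fun w x y => (abs_pr_le _ _).trans (hC w x y)) ?_ ?_ ?_ ?_
      (fun w m p0 p1 p2 => G m w p0 p1 p2) ?_ Wf L1
    · intro w hw
      rcases h0 w hw with h | h
      · exact Or.inl fun x y => by rw [h, pr_zero]
      · exact Or.inr fun x y => by rw [h, pr_zero]
    · intro X Y
      refine (Finset.sum_le_sum fun w _ => Finset.sum_le_sum fun x _ => Finset.sum_le_sum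
        fun y _ => sqpr _ _).trans (eA X Y)
    · intro X Y
      refine (Finset.sum_le_sum fun w _ => Finset.sum_le_sum fun x _ => Finset.sum_le_sum
        fun y _ => sqpr _ _).trans (eB X Y)
    · intro w m q p h
      exact opZ_of_opB (hop w m q p h) _
    · intro w m _ p0 p1 p2 hg hex
      refine hg.2 ?_
      obtain ⟨i, j, hi, hj, hne⟩ := hex
      exact ⟨i, j, hi, hj, fun h => hne (by simp only [h, pr_zero])⟩
  have h1 := TA_le_Tw bb hbb (J.1 + 1) L1 (3 * L1 + 8 * 2 ^ (J.1 + 1 + 1)) rfl G Gd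
    (fun n hn p _ v _ hg => ⟨Nat.lt_succ_iff.1 hn, hGd n (Nat.lt_succ_iff.1 hn) p v hg⟩) ![A, B, C]
  have h2 : ∀ l : ℤ, |l| ≤ 7 → ∀ Wf : Finset ℤ,
      ∑ w ∈ Wf, Wt G ![A, B, C] (J.1 + 1) L1 l w ≤ 8 * X := by
    intro l hl Wf
    unfold Wt
    rw [Finset.sum_comm]
    refine (Finset.sum_le_sum fun σ _ => word l hl σ Wf).trans (le_of_eq ?_)
    simp
  have hl0 : |bb| ≤ 7 := by rcases hbb with rfl | rfl <;> norm_num
  have hl1 : |bb + 1| ≤ 7 := by rcases hbb with rfl | rfl <;> norm_num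
  refine h1.trans ?_
  have h3 := h2 bb hl0 (Icc (-((3 * L1 + 8 * 2 ^ (J.1 + 1 + 1) : ℕ) : ℤ))
    ((3 * L1 + 8 * 2 ^ (J.1 + 1 + 1) : ℕ) : ℤ))
  have h4 := h2 (bb + 1) hl1 (Icc (-((3 * L1 + 8 * 2 ^ (J.1 + 1 + 1) : ℕ) : ℤ))
    ((3 * L1 + 8 * 2 ^ (J.1 + 1 + 1) : ℕ) : ℤ))
  have e1 : 8 * K * (1 + Real.log (1 + HC ^ 2 * (((Ico x0 x1).card : ℝ) * len J) *
        (HA ^ 2 / fa + HB ^ 2 / fb) / τ ^ 2)) *
        (τ * √(SA + W1.card * fa) * √(SB + W1.card * fb)) = 8 * X := by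
    rw [hX]; ring
  rw [e1]
  linarith

/-- the line coefficients of three edges form a `Cof` -/
theorem cof_edge (j : Fin 4) (e : Fin 3) : Cof (sl j - sl (j.succAbove (e + 2)))
    (sl (j.succAbove e) - sl (j.succAbove (e + 2)))
    (sl (j.succAbove (e + 1)) - sl (j.succAbove (e + 2))) := by
  fin_cases j <;> fin_cases e <;> constructor <;> decide

/-- **THE CORNER FOR THREE COMPLEX KERNELS, killer on the edge `e`** -/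
theorem ta_corner : ∃ K0 : ℝ, 0 ≤ K0 ∧ ∀ (bb : ℤ), bb = -1 ∨ bb = -7 → ∀ (j : Fin 4) (e : Fin 3),
    ∀ (R : Finset Nd) (J : Nd) (x0 x1 y0 y1 : ℤ) (al : ℤ → ℕ → ℤ → ℤ → Prop),
    IsRegion R J → (∀ w, AlC R J (sl j - sl (j.succAbove (e + 2)))
      (sl (j.succAbove e) - sl (j.succAbove (e + 2)))
      (sl (j.succAbove (e + 1)) - sl (j.succAbove (e + 2))) w x0 x1 y0 y1 (al w)) →
    ∀ (K : Fin 3 → Kl) (τ HA HB HC fa fb SA SB : ℝ) (W1 : Finset ℤ),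
    (∀ e' w, ∃ T T' : Finset ℤ, ∀ x y, K e' w x y ≠ 0 → x ∈ T ∧ y ∈ T') →
    0 < τ → 0 < fa → 0 < fb →
    (∀ w x y, ‖K (e + 1) w x y‖ ≤ HA) → (∀ w x y, ‖K (e + 2) w x y‖ ≤ HB) →
    (∀ w x y, ‖K e w x y‖ ≤ HC) →
    (∀ w, w ∉ W1 → (∀ x y, K (e + 1) w x y = 0) ∨ (∀ x y, K (e + 2) w x y = 0)) →
    (∀ X Y : Finset ℤ, ∑ w ∈ W1, ∑ x ∈ X, ∑ y ∈ Y, ‖K (e + 1) w x y‖ ^ 2 ≤ SA) →
    (∀ X Y : Finset ℤ, ∑ w ∈ W1, ∑ x ∈ X, ∑ y ∈ Y, ‖K (e + 2) w x y‖ ^ 2 ≤ SB) →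
    (∀ w m q p, al w m q p → BadTx138.OpB (K e w) (Ico q (q + (2 ^ m : ℕ)))
      (Ico p (p + (2 ^ m : ℕ))) (2 ^ m * τ)) →
    ∀ (Gd : ℕ → ℤ × ℤ × ℤ → ℕ → Prop), (∀ n ≤ J.1, ∀ p v, Gd n p v →
      (∃ i i' : ℕ, i < 2 ^ (n + 1) ∧ i' < 2 ^ (n + 1) ∧
        K e (wv bb n p v) (pc e p + i) (pc (e + 1) p + i') ≠ 0) →
      Al4Z (al (wv bb n p v)) n (pc e p) (pc (e + 1) p)) →
    ∀ (L1 : ℕ), TA bb (cube L1) (J.1 + 1) Gd K ≤
      K0 * (1 + Real.log (1 + HC ^ 2 * (((Ico x0 x1).card : ℝ) * len J) *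
        (HA ^ 2 / fa + HB ^ 2 / fb) / τ ^ 2)) *
        (τ * √(SA + W1.card * fa) * √(SB + W1.card * fb)) := by
  obtain ⟨K0, hK0, hK⟩ := ta_two
  refine ⟨K0, hK0, ?_⟩
  intro bb hbb j e R J x0 x1 y0 y1 al hR hal K τ HA HB HC fa fb SA SB W1 sK hτ hfa hfb hA hB hC h0
    eA eB hop Gd hGd L1
  have hcof := cof_edge j e
  have main := fun (Gd' : ℕ → ℤ × ℤ × ℤ → ℕ → Prop) (hGd' : ∀ n ≤ J.1, ∀ p v, Gd' n p v →
      (∃ i j : ℕ, i < 2 ^ (n + 1) ∧ j < 2 ^ (n + 1) ∧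
        K e (wv bb n p v) (p.2.2 + i) (p.1 + j) ≠ 0) →
      Al4Z (al (wv bb n p v)) n p.2.2 p.1) =>
    hK bb hbb R J _ _ _ x0 x1 y0 y1 al hR hcof hal (K (e + 1)) (K (e + 2)) (K e) τ HA HB HC fa fb
      SA SB W1 (sK _) (sK _) (sK _) hτ hfa hfb hA hB hC h0 eA eB hop Gd' hGd' L1
  fin_cases e
  · -- killer on the edge 0: one rotation
    rw [TA_rot1]
    have e1 : (fun e' : Fin 3 => K (e' + 1)) = ![K 1, K 2, K 0] := by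
      funext e'
      fin_cases e' <;> rfl
    rw [e1]
    refine main (fun n p v => Gd n (rp1 (rp1 p)) v) ?_
    intro n hn p v hg hex
    have h1 := hGd n hn (rp1 (rp1 p)) v hg
    rw [wv_rp1, wv_rp1] at h1
    exact h1 hex
  · -- killer on the edge 1: two rotations
    rw [TA_rot1, TA_rot1]
    have e1 : (fun e' : Fin 3 => (fun e' : Fin 3 => K (e' + 1)) (e' + 1)) = ![K 2, K 0, K 1] := by
      funext e'
      fin_cases e' <;> rfl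
    rw [e1]
    refine main (fun n p v => Gd n (rp1 (rp1 (rp1 (rp1 p)))) v) ?_
    intro n hn p v hg hex
    have h1 := hGd n hn (rp1 (rp1 (rp1 (rp1 p)))) v hg
    rw [rp1_3, wv_rp1] at h1
    exact h1 hex
  · have e1 : K = ![K 0, K 1, K 2] := by
      funext e'
      fin_cases e' <;> rfl
    rw [e1]
    refine main Gd ?_
    intro n hn p v hg hex
    exact hGd n hn p v hg hex

/-! ### all boxes of one window -/

theorem d4_edge (j : Fin 4) (e : Fin 3) :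
    D4 j (j.succAbove (e + 1)) (j.succAbove (e + 2)) (j.succAbove e) := by
  fin_cases j <;> fin_cases e <;> constructor <;> decide

lemma xv_edge (j : Fin 4) (e : Fin 3) (bb : ℤ) (n : ℕ) (p : ℤ × ℤ × ℤ) :
    lf4 j (j.succAbove (e + 1)) (j.succAbove (e + 2)) (j.succAbove e) (pc (e + 1) p)
      (pc (e + 2) p) (pc e p) + sl j * (bb * ((2 ^ n : ℕ) : ℤ)) = xv j bb n p := by
  fin_cases e
  · change (sl (j.succAbove 1) - sl j) * p.2.1 + (sl (j.succAbove 2) - sl j) * p.2.2 +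
      (sl (j.succAbove 0) - sl j) * p.1 + sl j * (bb * ((2 ^ n : ℕ) : ℤ)) =
      (sl (j.succAbove 0) - sl j) * p.1 + (sl (j.succAbove 1) - sl j) * p.2.1 +
      (sl (j.succAbove 2) - sl j) * p.2.2 + sl j * (bb * ((2 ^ n : ℕ) : ℤ))
    ring
  · change (sl (j.succAbove 2) - sl j) * p.2.2 + (sl (j.succAbove 0) - sl j) * p.1 +
      (sl (j.succAbove 1) - sl j) * p.2.1 + sl j * (bb * ((2 ^ n : ℕ) : ℤ)) =
      (sl (j.succAbove 0) - sl j) * p.1 + (sl (j.succAbove 1) - sl j) * p.2.1 +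
      (sl (j.succAbove 2) - sl j) * p.2.2 + sl j * (bb * ((2 ^ n : ℕ) : ℤ))
    ring
  · change (sl (j.succAbove 0) - sl j) * p.1 + (sl (j.succAbove 1) - sl j) * p.2.1 +
      (sl (j.succAbove 2) - sl j) * p.2.2 + sl j * (bb * ((2 ^ n : ℕ) : ℤ)) =
      (sl (j.succAbove 0) - sl j) * p.1 + (sl (j.succAbove 1) - sl j) * p.2.1 +
      (sl (j.succAbove 2) - sl j) * p.2.2 + sl j * (bb * ((2 ^ n : ℕ) : ℤ))
    ring

lemma wv_edge (bb : ℤ) (e : Fin 3) (n : ℕ) (p : ℤ × ℤ × ℤ) (v : ℕ) :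
    ((v : ℤ) + bb * ((2 ^ n : ℕ) : ℤ) - pc (e + 1) p - pc (e + 2) p - pc e p) = wv bb n p v := by
  fin_cases e
  · change (v : ℤ) + bb * ((2 ^ n : ℕ) : ℤ) - p.2.1 - p.2.2 - p.1 =
      (v : ℤ) + bb * ((2 ^ n : ℕ) : ℤ) - p.1 - p.2.1 - p.2.2
    ring
  · change (v : ℤ) + bb * ((2 ^ n : ℕ) : ℤ) - p.2.2 - p.1 - p.2.1 =
      (v : ℤ) + bb * ((2 ^ n : ℕ) : ℤ) - p.1 - p.2.1 - p.2.2
    ring
  · change (v : ℤ) + bb * ((2 ^ n : ℕ) : ℤ) - p.1 - p.2.1 - p.2.2 =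
      (v : ℤ) + bb * ((2 ^ n : ℕ) : ℤ) - p.1 - p.2.1 - p.2.2
    ring

/-- the shadows of an admissible box are in the region -/
theorem gd_of_adX {j : Fin 4} {e : Fin 3} {R : Finset Nd} {bb : ℤ} (hbb : bb = -1 ∨ bb = -7)
    {n : ℕ} {p : ℤ × ℤ × ℤ} (h : AdX R n (xv j bb n p)) {v : ℕ} (hv : v < 2 ^ n + 2 ^ n) :
    Gd j (j.succAbove (e + 1)) (j.succAbove (e + 2)) (j.succAbove e) R n (wv bb n p v)
      (pc (e + 1) p) (pc (e + 2) p) (pc e p) := by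
  obtain ⟨q, hq, hqn, hqx⟩ := h
  obtain ⟨m', l⟩ := q
  simp only at hqn hqx
  subst hqn
  have h1 := gd_of_adm (d4_edge j e) R m' l hq bb hbb (pc (e + 1) p) (pc (e + 2) p) (pc e p)
    (by rw [xv_edge]; exact hqx) ⟨v, hv⟩
  rw [← wv_edge bb e]
  exact h1

/-- all boxes are alive -/
theorem al4_of_adX {j : Fin 4} {e : Fin 3} {R : Finset Nd} {bb : ℤ} (hbb : bb = -1 ∨ bb = -7)
    {n : ℕ} {p : ℤ × ℤ × ℤ} (h : AdX R n (xv j bb n p)) {v : ℕ} (hv : v < 2 ^ n + 2 ^ n) :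
    Al4Z (fun m q u => Om R (sl j - sl (j.succAbove (e + 2)))
      (sl (j.succAbove e) - sl (j.succAbove (e + 2)))
      (sl (j.succAbove (e + 1)) - sl (j.succAbove (e + 2))) (wv bb n p v) m q u) n (pc e p)
      (pc (e + 1) p) :=
  gd_al4 (gd_of_adX hbb h hv)

/-- **ALL BOXES OF ONE REGION, killer with an operator bound on all boxes of the region** -/
theorem ta_unif : ∃ K0 : ℝ, 0 ≤ K0 ∧ ∀ (bb : ℤ), bb = -1 ∨ bb = -7 → ∀ (j : Fin 4) (e : Fin 3),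
    ∀ (R : Finset Nd) (J : Nd) (c0 c1 d0 d1 : ℤ), IsRegion R J →
    ∀ (K : Fin 3 → Kl) (τ HA HB HC fa fb SA SB : ℝ) (W1 : Finset ℤ),
    (∀ e' w, ∃ T T' : Finset ℤ, ∀ x y, K e' w x y ≠ 0 → x ∈ T ∧ y ∈ T') →
    (∀ w x y, K e w x y ≠ 0 → (c0 ≤ x ∧ x < c1) ∧ (d0 ≤ y ∧ y < d1)) →
    0 < τ → 0 < fa → 0 < fb →
    (∀ w x y, ‖K (e + 1) w x y‖ ≤ HA) → (∀ w x y, ‖K (e + 2) w x y‖ ≤ HB) →
    (∀ w x y, ‖K e w x y‖ ≤ HC) →
    (∀ w, w ∉ W1 → (∀ x y, K (e + 1) w x y = 0) ∨ (∀ x y, K (e + 2) w x y = 0)) →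
    (∀ X Y : Finset ℤ, ∑ w ∈ W1, ∑ x ∈ X, ∑ y ∈ Y, ‖K (e + 1) w x y‖ ^ 2 ≤ SA) →
    (∀ X Y : Finset ℤ, ∑ w ∈ W1, ∑ x ∈ X, ∑ y ∈ Y, ‖K (e + 2) w x y‖ ^ 2 ≤ SB) →
    (∀ w m q p, Om R (sl j - sl (j.succAbove (e + 2)))
      (sl (j.succAbove e) - sl (j.succAbove (e + 2)))
      (sl (j.succAbove (e + 1)) - sl (j.succAbove (e + 2))) w m q p →
      BadTx138.OpB (K e w) (Ico q (q + (2 ^ m : ℕ))) (Ico p (p + (2 ^ m : ℕ))) (2 ^ m * τ)) →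
    ∀ (L1 : ℕ), TA bb (cube L1) (J.1 + 1) (fun n p _ => AdX R n (xv j bb n p)) K ≤
      K0 * (1 + Real.log (1 + HC ^ 2 * (((Ico (c0 - 2 ^ (J.1 + 1)) (c1 + 2 ^ (J.1 + 1))).card : ℝ) *
        len J) * (HA ^ 2 / fa + HB ^ 2 / fb) / τ ^ 2)) *
        (τ * √(SA + W1.card * fa) * √(SB + W1.card * fb)) := by
  obtain ⟨K0, hK0, hK⟩ := ta_corner
  refine ⟨K0, hK0, ?_⟩
  intro bb hbb j e R J c0 c1 d0 d1 hR K τ HA HB HC fa fb SA SB W1 sK sC hτ hfa hfb hA hB hC h0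
    eA eB hop L1
  refine (TA_mono bb (cube L1) (J.1 + 1) (Gd' := fun n p v => v < 2 ^ n + 2 ^ n ∧
    AdX R n (xv j bb n p)) K (fun n _ p _ v hv h _ => ⟨hv, h⟩)).trans ?_
  refine hK bb hbb j e R J (c0 - 2 ^ (J.1 + 1)) (c1 + 2 ^ (J.1 + 1)) (d0 - 2 ^ (J.1 + 1))
    (d1 + 2 ^ (J.1 + 1)) (fun w => AlU R (sl j - sl (j.succAbove (e + 2)))
      (sl (j.succAbove e) - sl (j.succAbove (e + 2)))
      (sl (j.succAbove (e + 1)) - sl (j.succAbove (e + 2))) w (c0 - 2 ^ (J.1 + 1))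
      (c1 + 2 ^ (J.1 + 1)) (d0 - 2 ^ (J.1 + 1)) (d1 + 2 ^ (J.1 + 1))) hR
    (fun w => alC_unif hR (cof_edge j e)) K τ HA HB HC fa fb SA SB W1 sK hτ hfa hfb hA hB hC h0
    eA eB (fun w m q p h => hop w m q p h.1) _ ?_ L1
  rintro n hn p v ⟨hv, hg⟩ ⟨i, i', hi, hi', hne⟩
  obtain ⟨⟨h1, h2⟩, h3, h4⟩ := sC _ _ _ hne
  refine al4_unif hn (al4_of_adX hbb hg hv) ⟨i, by positivity, by exact_mod_cast hi, h1, h2⟩
    ⟨i', by positivity, by exact_mod_cast hi', h3, h4⟩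

end Crest.Agent.R079.TaKx253
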