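import Crest.Agent.R079.TaK_253

/-! R079: the corner at one `w`, sum over `w`, `TA` form, with the Hilbert-Schmidt density `E0` of the
killer on the alive boxes in place of its sup (helper253; asked by helper247: `N`-free for killers which
are only row-bounded). -/

set_option autoImplicit false

namespace Crest.Agent.R079.TwEx253

open Finset Crest.Agent.R079.Grid Crest.Agent.R079.Glue Crest.Agent.R079.Growth
  Crest.Agent.R079.QRed Crest.Agent.R079.KLx446 Crest.Agent.R079.KC996 Crest.Agent.R079.TwLx253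
  Crest.Agent.R079.GaAx571 Crest.Agent.R079.GaBx571 Crest.Agent.R079.GaWx571
  Crest.Agent.R079.TaKx253

/-- **THE CORNER AT ONE FROZEN VALUE, all parameters chosen** -/
theorem tw_leE (hZ : CornerZ) : ∃ K : ℝ, 0 ≤ K ∧ ∀ (l : ℤ), |l| ≤ 7 →
    ∀ (R : Finset Nd) (J : Nd) (α β γ w x0 x1 y0 y1 : ℤ) (al : ℕ → ℤ → ℤ → Prop),
    IsRegion R J → Cof α β γ → AlC R J α β γ w x0 x1 y0 y1 al →
    ∀ (A B C : ℤ → ℤ → ℝ) (τ HA HB E0 a2 b2 : ℝ), FS A → FS B → FS C →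
    0 < τ → 0 < a2 → 0 < b2 →
    (∀ x y, |A x y| ≤ HA) → (∀ x y, |B x y| ≤ HB) → 0 ≤ E0 →
    (∀ m q p, al m q p → ∑ x ∈ Ico q (q + (2 : ℤ) ^ m), ∑ y ∈ Ico p (p + (2 : ℤ) ^ m),
      C x y ^ 2 ≤ 4 ^ m * E0) →
    (∀ X Y : Finset ℤ, ∑ x ∈ X, ∑ y ∈ Y, A x y ^ 2 ≤ a2) →
    (∀ X Y : Finset ℤ, ∑ x ∈ X, ∑ y ∈ Y, B x y ^ 2 ≤ b2) →
    (∀ m q p, al m q p → OpZ C (2 ^ m) q p (2 ^ m * τ)) →
    ∀ (Gm : ℕ → ℤ → ℤ → ℤ → Prop), (∀ m ≤ J.1, ∀ p0 p1 p2, Gm m p0 p1 p2 →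
      (∃ i j : ℕ, i < 2 ^ (m + 1) ∧ j < 2 ^ (m + 1) ∧ C (p2 + i) (p0 + j) ≠ 0) →
      Al4Z al m p2 p0) →
    ∀ L1 : ℕ, Tw Gm A B C (J.1 + 1) L1 l w ≤
      K * (1 + Real.log (1 + E0 * (((Ico x0 x1).card : ℝ) * len J) *
        (HA ^ 2 / a2 + HB ^ 2 / b2) / τ ^ 2)) * (τ * √a2 * √b2) := by
  classical
  obtain ⟨K, hK0, hK⟩ := corner_const hZ
  refine ⟨300 * K, by positivity, ?_⟩
  intro l hl R J α β γ w x0 x1 y0 y1 al hR hc hal A B C τ HA HB E0 a2 b2 sA sB sC hτ ha hb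
    hA hB hE0 hC eA eB hop Gm hGm L1
  set Ar0 : ℝ := ((Ico x0 x1).card : ℝ) * len J with hAr0
  have hAr0' : 0 ≤ Ar0 := mul_nonneg (Nat.cast_nonneg _) (Growth.len_pos J).le
  set D : ℝ := HA ^ 2 / a2 + HB ^ 2 / b2 with hD
  have hD0 : 0 ≤ D := by positivity
  set z : ℝ := E0 * Ar0 * D / τ ^ 2 with hz
  have hz0 : 0 ≤ z := by positivity
  have hlog0 : 0 ≤ Real.log (1 + z) := Real.log_nonneg (by linarith)
  have hrhs : 0 ≤ 300 * K * (1 + Real.log (1 + z)) * (τ * √a2 * √b2) := by positivity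
  -- restrict to the boxes which meet the support of `C`
  set Gm' : ℕ → ℤ → ℤ → ℤ → Prop := fun m p0 p1 p2 => (m ≤ J.1 ∧ Gm m p0 p1 p2) ∧
    (∃ i j : ℕ, i < 2 ^ (m + 1) ∧ j < 2 ^ (m + 1) ∧ C (p2 + i) (p0 + j) ≠ 0) with hGm'
  have e0 : Tw Gm A B C (J.1 + 1) L1 l w = Tw Gm' A B C (J.1 + 1) L1 l w := by
    unfold Tw
    refine Finset.sum_congr rfl fun m hm => ?_
    have hm' : m ≤ J.1 := Nat.lt_succ_iff.1 (Finset.mem_range.1 hm)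
    congr 1
    refine Finset.sum_congr rfl fun i _ => Finset.sum_congr rfl fun p0 _ => Finset.sum_congr rfl
      fun p1 _ => ?_
    by_cases hg : Gm m p0 p1 (l * 2 ^ m + (i : ℤ) - w - p0 - p1)
    · by_cases hs : ∃ i' j : ℕ, i' < 2 ^ (m + 1) ∧ j < 2 ^ (m + 1) ∧
        C ((l * 2 ^ m + (i : ℤ) - w - p0 - p1) + i') (p0 + j) ≠ 0
      · rw [if_pos hg, if_pos ⟨⟨hm', hg⟩, hs⟩]
      · rw [if_pos hg, if_neg (fun h => hs h.2), Lb3r_zero_C hs, abs_zero]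
    · rw [if_neg hg, if_neg (fun h => hg h.1.2)]
  rw [e0]
  by_cases hD1 : D = 0
  · -- no letter at all
    have hA0 : ∀ x y, A x y = 0 := by
      have h1 : HA ^ 2 / a2 = 0 := by
        have h2 : 0 ≤ HA ^ 2 / a2 := by positivity
        have h3 : 0 ≤ HB ^ 2 / b2 := by positivity
        linarith
      have h4 : HA = 0 := by
        rcases div_eq_zero_iff.1 h1 with h | h
        · exact pow_eq_zero_iff (two_ne_zero) |>.1 h
        · exact absurd h ha.ne'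
      intro x y
      have := hA x y
      rw [h4] at this
      exact abs_eq_zero.1 (le_antisymm this (abs_nonneg _))
    rw [tw_zero (Lb3r_zero_A hA0)]
    exact hrhs
  have hDp : 0 < D := lt_of_le_of_ne hD0 (Ne.symm hD1)
  obtain ⟨SA, hSA⟩ := sA
  obtain ⟨SB, hSB⟩ := sB
  obtain ⟨SC, hSC⟩ := sC
  obtain ⟨SX, hSX⟩ := exists_absbd {x0, x1, y0, y1}
  set S0 : ℕ := max (max SA SB) (max SC SX) with hS0
  have iA : (SA : ℤ) ≤ S0 := by exact_mod_cast (le_max_left SA SB).trans (le_max_left _ _)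
  have iB : (SB : ℤ) ≤ S0 := by exact_mod_cast (le_max_right SA SB).trans (le_max_left _ _)
  have iC : (SC : ℤ) ≤ S0 := by exact_mod_cast (le_max_left SC SX).trans (le_max_right _ _)
  have iX : (SX : ℤ) ≤ S0 := by exact_mod_cast (le_max_right SC SX).trans (le_max_right _ _)
  have hx0 := abs_le.1 (hSX x0 (by simp))
  have hx1 := abs_le.1 (hSX x1 (by simp))
  have hy0 := abs_le.1 (hSX y0 (by simp))
  have hy1 := abs_le.1 (hSX y1 (by simp))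
  obtain ⟨J', hJ1, hJ2⟩ := exists_steps z hz0
  have hr : 0 < 1 / D := by positivity
  have main := hK l hl (J.1 + 1) J' S0 A B C al w a2 b2 (1 / D) τ E0 (61 * Ar0) ha hb hr hτ
    (fun x y h => ⟨(hSA x y h).1.trans iA, (hSA x y h).2.trans iA⟩)
    (fun x y h => ⟨(hSB x y h).1.trans iB, (hSB x y h).2.trans iB⟩)
    (fun x y h => ⟨(hSC x y h).1.trans iC, (hSC x y h).2.trans iC⟩)
    (eA _ _) (eB _ _)
    (fun x y => by
      have h1 : A x y ^ 2 ≤ HA ^ 2 := by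
        rw [← sq_abs (A x y)]
        exact pow_le_pow_left₀ (abs_nonneg _) (hA x y) 2
      have h2 : HA ^ 2 / a2 ≤ D := le_add_of_nonneg_right (by positivity)
      have h3 : a2 / (1 / D) = a2 * D := by field_simp
      rw [h3]
      rw [div_le_iff₀ ha] at h2
      linarith)
    (fun x y => by
      have h1 : B x y ^ 2 ≤ HB ^ 2 := by
        rw [← sq_abs (B x y)]
        exact pow_le_pow_left₀ (abs_nonneg _) (hB x y) 2
      have h2 : HB ^ 2 / b2 ≤ D := le_add_of_nonneg_left (by positivity)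
      have h3 : b2 / (1 / D) = b2 * D := by field_simp
      rw [h3]
      rw [div_le_iff₀ hb] at h2
      linarith)
    { dom := fun m q p h => by
        obtain ⟨h1, h2⟩ := hal.dom m q p h
        have hm0 : (0 : ℤ) < 2 ^ m := by positivity
        refine ⟨?_, ?_, ?_⟩
        · have h3 := h1 q (Finset.mem_Ico.2 ⟨le_rfl, by linarith⟩) p
            (Finset.mem_Ico.2 ⟨le_rfl, by linarith⟩)
          rw [mem_Rm] at h3
          have h4 := Glue.level_le R J hR _ h3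
          exact Nat.lt_succ_of_le h4
        · rw [abs_le]
          unfold Dm2 at h2
          constructor <;> linarith [h2.1, h2.2.1]
        · rw [abs_le]
          unfold Dm2 at h2
          constructor <;> linarith [h2.2.2.1, h2.2.2.2]
      op := hop
      ex := fun k' hk L c d => hal.exl k' hk L c d }
    { hs := hC
      ar := fun m => by
        refine (area_global hR hc m (fun q p h => hal.dom m q p h) _ _).trans ?_
        change Ar0 ≤ _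
        linarith
      ex := fun k' hk => hal.exg k' hk _ _ _ }
    (by
      have h1 : τ ^ 2 * (1 / D * 2 ^ J') = τ ^ 2 / D * 2 ^ J' := by ring
      rw [h1]
      have h2 : E0 * (61 * Ar0) = τ ^ 2 / D * (61 * z) := by
        rw [hz]
        field_simp
      rw [h2]
      exact mul_le_mul_of_nonneg_left hJ1 (by positivity))
    Gm' (fun m p0 p1 p2 h => hGm m h.1.1 p0 p1 p2 h.1.2 h.2) L1
  refine main.trans ?_
  have h5 : K * (2 * (J' : ℝ) + 1) ≤ 300 * K * (1 + Real.log (1 + z)) := by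
    calc K * (2 * (J' : ℝ) + 1) ≤ K * (300 * (1 + Real.log (1 + z))) :=
          mul_le_mul_of_nonneg_left hJ2 hK0
      _ = _ := by ring
  exact mul_le_mul_of_nonneg_right h5 (by positivity)

/-! ### sum over the frozen values -/

/-- **SUM OVER THE FROZEN VALUES**, floors `fa`, `fb` -/
theorem sum_twE (hZ : CornerZ) : ∃ K : ℝ, 0 ≤ K ∧ ∀ (l : ℤ), |l| ≤ 7 →
    ∀ (R : Finset Nd) (J : Nd) (α β γ x0 x1 y0 y1 : ℤ) (al : ℤ → ℕ → ℤ → ℤ → Prop),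
    IsRegion R J → Cof α β γ → (∀ w, AlC R J α β γ w x0 x1 y0 y1 (al w)) →
    ∀ (A B C : ℤ → ℤ → ℤ → ℝ) (τ HA HB E0 fa fb SA SB : ℝ) (W1 : Finset ℤ),
    (∀ w, FS (A w)) → (∀ w, FS (B w)) → (∀ w, FS (C w)) →
    0 < τ → 0 < fa → 0 < fb →
    (∀ w x y, |A w x y| ≤ HA) → (∀ w x y, |B w x y| ≤ HB) → 0 ≤ E0 →
    (∀ w m q p, al w m q p → ∑ x ∈ Ico q (q + (2 : ℤ) ^ m), ∑ y ∈ Ico p (p + (2 : ℤ) ^ m),
      C w x y ^ 2 ≤ 4 ^ m * E0) →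
    (∀ w, w ∉ W1 → (∀ x y, A w x y = 0) ∨ (∀ x y, B w x y = 0)) →
    (∀ X Y : Finset ℤ, ∑ w ∈ W1, ∑ x ∈ X, ∑ y ∈ Y, A w x y ^ 2 ≤ SA) →
    (∀ X Y : Finset ℤ, ∑ w ∈ W1, ∑ x ∈ X, ∑ y ∈ Y, B w x y ^ 2 ≤ SB) →
    (∀ w m q p, al w m q p → OpZ (C w) (2 ^ m) q p (2 ^ m * τ)) →
    ∀ (Gm : ℤ → ℕ → ℤ → ℤ → ℤ → Prop), (∀ w, ∀ m ≤ J.1, ∀ p0 p1 p2, Gm w m p0 p1 p2 →
      (∃ i j : ℕ, i < 2 ^ (m + 1) ∧ j < 2 ^ (m + 1) ∧ C w (p2 + i) (p0 + j) ≠ 0) →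
      Al4Z (al w) m p2 p0) →
    ∀ (Wf : Finset ℤ) (L1 : ℕ), ∑ w ∈ Wf, Tw (Gm w) (A w) (B w) (C w) (J.1 + 1) L1 l w ≤
      K * (1 + Real.log (1 + E0 * (((Ico x0 x1).card : ℝ) * len J) *
        (HA ^ 2 / fa + HB ^ 2 / fb) / τ ^ 2)) *
        (τ * √(SA + W1.card * fa) * √(SB + W1.card * fb)) := by
  classical
  obtain ⟨K, hK0, hK⟩ := tw_leE hZ
  refine ⟨K, hK0, ?_⟩
  intro l hl R J α β γ x0 x1 y0 y1 al hR hc hal A B C τ HA HB E0 fa fb SA SB W1 sA sB sC hτ hfa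
    hfb hA hB hE0 hC h0 eA eB hop Gm hGm Wf L1
  set Ar0 : ℝ := ((Ico x0 x1).card : ℝ) * len J with hAr0
  have hAr0' : 0 ≤ Ar0 := mul_nonneg (Nat.cast_nonneg _) (Growth.len_pos J).le
  -- one box containing all supports
  obtain ⟨S, hS⟩ : ∃ S : ℕ, ∀ w ∈ W1, (∀ x y, A w x y ≠ 0 → |x| ≤ S ∧ |y| ≤ S) ∧
      (∀ x y, B w x y ≠ 0 → |x| ≤ S ∧ |y| ≤ S) := by
    choose fA hfA using sA
    choose fB hfB using sB
    refine ⟨∑ w ∈ W1, (fA w + fB w), fun w hw => ?_⟩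
    have h1 : fA w + fB w ≤ ∑ w ∈ W1, (fA w + fB w) :=
      Finset.single_le_sum (f := fun w => fA w + fB w) (fun _ _ => Nat.zero_le _) hw
    have h2 : (fA w : ℤ) + fB w ≤ ((∑ w ∈ W1, (fA w + fB w) : ℕ) : ℤ) := by exact_mod_cast h1
    refine ⟨fun x y hxy => ?_, fun x y hxy => ?_⟩
    · have := hfA w x y hxy
      constructor <;> linarith [this.1, this.2, Int.natCast_nonneg (fB w)]
    · have := hfB w x y hxy
      constructor <;> linarith [this.1, this.2, Int.natCast_nonneg (fA w)]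
  set IS : Finset ℤ := Icc (-(S : ℤ)) S with hIS
  set EA : ℤ → ℝ := fun w => ∑ x ∈ IS, ∑ y ∈ IS, A w x y ^ 2 with hEA
  set EB : ℤ → ℝ := fun w => ∑ x ∈ IS, ∑ y ∈ IS, B w x y ^ 2 with hEB
  have tot : ∀ (F : ℤ → ℤ → ℝ), (∀ x y, F x y ≠ 0 → |x| ≤ S ∧ |y| ≤ S) → ∀ X Y : Finset ℤ,
      ∑ x ∈ X, ∑ y ∈ Y, F x y ^ 2 ≤ ∑ x ∈ IS, ∑ y ∈ IS, F x y ^ 2 := by
    intro F hF X Y
    have hm : ∀ x, |x| ≤ (S : ℤ) → x ∈ IS := fun x hx => by
      rw [hIS, Finset.mem_Icc]; exact abs_le.1 hx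
    calc ∑ x ∈ X, ∑ y ∈ Y, F x y ^ 2 = ∑ z ∈ X ×ˢ Y, F z.1 z.2 ^ 2 := by
          rw [Finset.sum_product]
      _ = ∑ z ∈ (X ×ˢ Y).filter (fun z => F z.1 z.2 ≠ 0), F z.1 z.2 ^ 2 := by
          rw [Finset.sum_filter]
          refine Finset.sum_congr rfl fun z _ => ?_
          by_cases hz : F z.1 z.2 = 0
          · simp [hz]
          · rw [if_pos hz]
      _ ≤ ∑ z ∈ IS ×ˢ IS, F z.1 z.2 ^ 2 := by
          refine Finset.sum_le_sum_of_subset_of_nonneg ?_ (fun _ _ _ => sq_nonneg _)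
          intro z hz
          rw [Finset.mem_filter] at hz
          rw [Finset.mem_product]
          exact ⟨hm _ (hF _ _ hz.2).1, hm _ (hF _ _ hz.2).2⟩
      _ = _ := by rw [Finset.sum_product]
  set Lg : ℝ := 1 + Real.log (1 + E0 * Ar0 * (HA ^ 2 / fa + HB ^ 2 / fb) / τ ^ 2) with hLg
  have hLg0 : 0 ≤ Lg := by
    have : 0 ≤ Real.log (1 + E0 * Ar0 * (HA ^ 2 / fa + HB ^ 2 / fb) / τ ^ 2) :=
      Real.log_nonneg (by
        have : 0 ≤ E0 * Ar0 * (HA ^ 2 / fa + HB ^ 2 / fb) / τ ^ 2 := by positivity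
        linarith)
    linarith
  have hEA0 : ∀ w, 0 ≤ EA w := fun w => Finset.sum_nonneg fun _ _ => Finset.sum_nonneg
    fun _ _ => sq_nonneg _
  have hEB0 : ∀ w, 0 ≤ EB w := fun w => Finset.sum_nonneg fun _ _ => Finset.sum_nonneg
    fun _ _ => sq_nonneg _
  have one : ∀ w ∈ W1, Tw (Gm w) (A w) (B w) (C w) (J.1 + 1) L1 l w ≤
      K * Lg * (τ * √(EA w + fa) * √(EB w + fb)) := by
    intro w hw
    have h1 := hK l hl R J α β γ w x0 x1 y0 y1 (al w) hR hc (hal w) (A w) (B w) (C w) τ HA HB E0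
      (EA w + fa) (EB w + fb) (sA w) (sB w) (sC w) hτ (by linarith [hEA0 w]) (by linarith [hEB0 w])
      (hA w) (hB w) hE0 (hC w)
      (fun X Y => (tot (A w) (hS w hw).1 X Y).trans (by simp only [hEA]; linarith))
      (fun X Y => (tot (B w) (hS w hw).2 X Y).trans (by simp only [hEB]; linarith))
      (hop w) (Gm w) (hGm w) L1
    refine h1.trans (mul_le_mul_of_nonneg_right (mul_le_mul_of_nonneg_left ?_ hK0) (by positivity))
    have h2 : HA ^ 2 / (EA w + fa) ≤ HA ^ 2 / fa :=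
      div_le_div_of_nonneg_left (sq_nonneg _) hfa (by linarith [hEA0 w])
    have h3 : HB ^ 2 / (EB w + fb) ≤ HB ^ 2 / fb :=
      div_le_div_of_nonneg_left (sq_nonneg _) hfb (by linarith [hEB0 w])
    have h4 : E0 * Ar0 * (HA ^ 2 / (EA w + fa) + HB ^ 2 / (EB w + fb)) / τ ^ 2 ≤
        E0 * Ar0 * (HA ^ 2 / fa + HB ^ 2 / fb) / τ ^ 2 := by
      refine div_le_div_of_nonneg_right ?_ (by positivity)
      exact mul_le_mul_of_nonneg_left (add_le_add h2 h3) (by positivity)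
    have h5 : 0 ≤ E0 * Ar0 * (HA ^ 2 / (EA w + fa) + HB ^ 2 / (EB w + fb)) / τ ^ 2 := by
      have := hEA0 w
      have := hEB0 w
      positivity
    simp only [hLg]
    have h6 := Real.log_le_log (by linarith) (by linarith : 1 + E0 * Ar0 *
      (HA ^ 2 / (EA w + fa) + HB ^ 2 / (EB w + fb)) / τ ^ 2 ≤
        1 + E0 * Ar0 * (HA ^ 2 / fa + HB ^ 2 / fb) / τ ^ 2)
    linarith
  have hzero : ∀ w ∈ Wf, w ∉ W1 → Tw (Gm w) (A w) (B w) (C w) (J.1 + 1) L1 l w = 0 := by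
    intro w _ hw
    rcases h0 w hw with h | h
    · exact tw_zero (Lb3r_zero_A h)
    · exact tw_zero (Lb3r_zero_B h)
  have hTw0 : ∀ w, 0 ≤ Tw (Gm w) (A w) (B w) (C w) (J.1 + 1) L1 l w := by
    intro w
    unfold Tw
    refine Finset.sum_nonneg fun m _ => mul_nonneg (by positivity) ?_
    refine Finset.sum_nonneg fun i _ => Finset.sum_nonneg fun p0 _ => Finset.sum_nonneg
      fun p1 _ => ?_
    split_ifs
    · exact abs_nonneg _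
    · exact le_rfl
  calc ∑ w ∈ Wf, Tw (Gm w) (A w) (B w) (C w) (J.1 + 1) L1 l w
      = ∑ w ∈ Wf.filter (fun w => w ∈ W1), Tw (Gm w) (A w) (B w) (C w) (J.1 + 1) L1 l w := by
        rw [Finset.sum_filter]
        refine Finset.sum_congr rfl fun w hw => ?_
        by_cases hw1 : w ∈ W1
        · rw [if_pos hw1]
        · rw [if_neg hw1, hzero w hw hw1]
    _ ≤ ∑ w ∈ W1, Tw (Gm w) (A w) (B w) (C w) (J.1 + 1) L1 l w :=
        Finset.sum_le_sum_of_subset_of_nonneg (fun w hw => (Finset.mem_filter.1 hw).2)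
          (fun w _ _ => hTw0 w)
    _ ≤ ∑ w ∈ W1, K * Lg * (τ * √(EA w + fa) * √(EB w + fb)) := Finset.sum_le_sum one
    _ = K * Lg * (τ * ∑ w ∈ W1, √(EA w + fa) * √(EB w + fb)) := by
        rw [Finset.mul_sum, Finset.mul_sum]
        refine Finset.sum_congr rfl fun w _ => by ring
    _ ≤ K * Lg * (τ * (√(SA + W1.card * fa) * √(SB + W1.card * fb))) := by
        refine mul_le_mul_of_nonneg_left (mul_le_mul_of_nonneg_left ?_ hτ.le) (by positivity)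
        refine (Real.sum_sqrt_mul_sqrt_le W1 (fun w => by linarith [hEA0 w])
          (fun w => by linarith [hEB0 w])).trans ?_
        refine mul_le_mul (Real.sqrt_le_sqrt ?_) (Real.sqrt_le_sqrt ?_) (Real.sqrt_nonneg _)
          (Real.sqrt_nonneg _)
        · rw [Finset.sum_add_distrib, Finset.sum_const, nsmul_eq_mul]
          linarith [eA IS IS]
        · rw [Finset.sum_add_distrib, Finset.sum_const, nsmul_eq_mul]
          linarith [eB IS IS]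
    _ = _ := by ring

/-- real words, killer at position `2` -/
theorem ta_twoE : ∃ K0 : ℝ, 0 ≤ K0 ∧ ∀ (bb : ℤ), bb = -1 ∨ bb = -7 →
    ∀ (R : Finset Nd) (J : Nd) (α β γ x0 x1 y0 y1 : ℤ) (al : ℤ → ℕ → ℤ → ℤ → Prop),
    IsRegion R J → Cof α β γ → (∀ w, AlC R J α β γ w x0 x1 y0 y1 (al w)) →
    ∀ (A B C : Kl) (τ HA HB E0 fa fb SA SB : ℝ) (W1 : Finset ℤ),
    (∀ w, ∃ T T' : Finset ℤ, ∀ x y, A w x y ≠ 0 → x ∈ T ∧ y ∈ T') →
    (∀ w, ∃ T T' : Finset ℤ, ∀ x y, B w x y ≠ 0 → x ∈ T ∧ y ∈ T') →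
    (∀ w, ∃ T T' : Finset ℤ, ∀ x y, C w x y ≠ 0 → x ∈ T ∧ y ∈ T') →
    0 < τ → 0 < fa → 0 < fb →
    (∀ w x y, ‖A w x y‖ ≤ HA) → (∀ w x y, ‖B w x y‖ ≤ HB) → 0 ≤ E0 →
    (∀ w m q p, al w m q p → ∑ x ∈ Ico q (q + (2 : ℤ) ^ m), ∑ y ∈ Ico p (p + (2 : ℤ) ^ m),
      ‖C w x y‖ ^ 2 ≤ 4 ^ m * E0) →
    (∀ w, w ∉ W1 → (∀ x y, A w x y = 0) ∨ (∀ x y, B w x y = 0)) →
    (∀ X Y : Finset ℤ, ∑ w ∈ W1, ∑ x ∈ X, ∑ y ∈ Y, ‖A w x y‖ ^ 2 ≤ SA) →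
    (∀ X Y : Finset ℤ, ∑ w ∈ W1, ∑ x ∈ X, ∑ y ∈ Y, ‖B w x y‖ ^ 2 ≤ SB) →
    (∀ w m q p, al w m q p → BadTx138.OpB (C w) (Ico q (q + (2 ^ m : ℕ))) (Ico p (p + (2 ^ m : ℕ)))
      (2 ^ m * τ)) →
    ∀ (Gd : ℕ → ℤ × ℤ × ℤ → ℕ → Prop), (∀ n ≤ J.1, ∀ p v, Gd n p v →
      (∃ i j : ℕ, i < 2 ^ (n + 1) ∧ j < 2 ^ (n + 1) ∧ C (wv bb n p v) (p.2.2 + i) (p.1 + j) ≠ 0) →
      Al4Z (al (wv bb n p v)) n p.2.2 p.1) →
    ∀ (L1 : ℕ), TA bb (cube L1) (J.1 + 1) Gd ![A, B, C] ≤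
      K0 * (1 + Real.log (1 + E0 * (((Ico x0 x1).card : ℝ) * len J) *
        (HA ^ 2 / fa + HB ^ 2 / fb) / τ ^ 2)) *
        (τ * √(SA + W1.card * fa) * √(SB + W1.card * fb)) := by
  classical
  obtain ⟨K, hK0, hK⟩ := sum_twE KTx279.cornerZ
  refine ⟨8 * K, by positivity, ?_⟩
  intro bb hbb R J α β γ x0 x1 y0 y1 al hR hc hal A B C τ HA HB E0 fa fb SA SB W1 sA sB sC hτ hfa
    hfb hA hB hE0 hC h0 eA eB hop Gd hGd L1
  set G : ℕ → ℤ → ℤ → ℤ → ℤ → Prop := fun n w p0 p1 p2 => n ≤ J.1 ∧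
    ((∃ i j : ℕ, i < 2 ^ (n + 1) ∧ j < 2 ^ (n + 1) ∧ C w (p2 + i) (p0 + j) ≠ 0) →
      Al4Z (al w) n p2 p0) with hG
  set X : ℝ := K * (1 + Real.log (1 + E0 * (((Ico x0 x1).card : ℝ) * len J) *
        (HA ^ 2 / fa + HB ^ 2 / fb) / τ ^ 2)) *
        (τ * √(SA + W1.card * fa) * √(SB + W1.card * fb)) with hX
  have fsA : ∀ σ w, FS (fun x y => pr σ (A w x y)) := by
    intro σ w
    obtain ⟨T, T', h⟩ := sA w
    exact fs_of_mem (T := T) (T' := T') fun x y hxy => h x y fun h0 => hxy (by rw [h0, pr_zero])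
  have fsB : ∀ σ w, FS (fun x y => pr σ (B w x y)) := by
    intro σ w
    obtain ⟨T, T', h⟩ := sB w
    exact fs_of_mem (T := T) (T' := T') fun x y hxy => h x y fun h0 => hxy (by rw [h0, pr_zero])
  have fsC : ∀ σ w, FS (fun x y => pr σ (C w x y)) := by
    intro σ w
    obtain ⟨T, T', h⟩ := sC w
    exact fs_of_mem (T := T) (T' := T') fun x y hxy => h x y fun h0 => hxy (by rw [h0, pr_zero])
  have sqpr : ∀ (σ : Bool) (z : ℂ), pr σ z ^ 2 ≤ ‖z‖ ^ 2 := by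
    intro σ z
    rw [← sq_abs]
    exact pow_le_pow_left₀ (abs_nonneg _) (abs_pr_le σ z) 2
  have word : ∀ l : ℤ, |l| ≤ 7 → ∀ (σ : Bool × Bool × Bool) (Wf : Finset ℤ),
      ∑ w ∈ Wf, Tw (fun m p0 p1 p2 => G m w p0 p1 p2) (fun z z' => pr σ.1 (A w z z'))
        (fun z z' => pr σ.2.1 (B w z z')) (fun z z' => pr σ.2.2 (C w z z')) (J.1 + 1) L1 l w ≤
        X := by
    intro l hl σ Wf
    refine hK l hl R J α β γ x0 x1 y0 y1 al hR hc hal (fun w z z' => pr σ.1 (A w z z'))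
      (fun w z z' => pr σ.2.1 (B w z z')) (fun w z z' => pr σ.2.2 (C w z z')) τ HA HB E0 fa fb SA SB
      W1 (fsA _) (fsB _) (fsC _) hτ hfa hfb (fun w x y => (abs_pr_le _ _).trans (hA w x y))
      (fun w x y => (abs_pr_le _ _).trans (hB w x y))
      hE0 (fun w m q p h => (Finset.sum_le_sum fun x _ => Finset.sum_le_sum fun y _ =>
        sqpr _ _).trans (hC w m q p h)) ?_ ?_ ?_ ?_
      (fun w m p0 p1 p2 => G m w p0 p1 p2) ?_ Wf L1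
    · intro w hw
      rcases h0 w hw with h | h
      · exact Or.inl fun x y => by rw [h, pr_zero]
      · exact Or.inr fun x y => by rw [h, pr_zero]
    · intro X Y
      refine (Finset.sum_le_sum fun w _ => Finset.sum_le_sum fun x _ => Finset.sum_le_sum
        fun y _ => sqpr _ _).trans (eA X Y)
    · intro X Y
      refine (Finset.sum_le_sum fun w _ => Finset.sum_le_sum fun x _ => Finset.sum_le_sum
        fun y _ => sqpr _ _).trans (eB X Y)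
    · intro w m q p h
      exact opZ_of_opB (hop w m q p h) _
    · intro w m _ p0 p1 p2 hg hex
      refine hg.2 ?_
      obtain ⟨i, j, hi, hj, hne⟩ := hex
      exact ⟨i, j, hi, hj, fun h => hne (by simp only [h, pr_zero])⟩
  have h1 := TA_le_Tw bb hbb (J.1 + 1) L1 (3 * L1 + 8 * 2 ^ (J.1 + 1 + 1)) rfl G Gd
    (fun n hn p _ v _ hg => ⟨Nat.lt_succ_iff.1 hn, hGd n (Nat.lt_succ_iff.1 hn) p v hg⟩) ![A, B, C]
  have h2 : ∀ l : ℤ, |l| ≤ 7 → ∀ Wf : Finset ℤ,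
      ∑ w ∈ Wf, Wt G ![A, B, C] (J.1 + 1) L1 l w ≤ 8 * X := by
    intro l hl Wf
    unfold Wt
    rw [Finset.sum_comm]
    refine (Finset.sum_le_sum fun σ _ => word l hl σ Wf).trans (le_of_eq ?_)
    simp
  have hl0 : |bb| ≤ 7 := by rcases hbb with rfl | rfl <;> norm_num
  have hl1 : |bb + 1| ≤ 7 := by rcases hbb with rfl | rfl <;> norm_num
  refine h1.trans ?_
  have h3 := h2 bb hl0 (Icc (-((3 * L1 + 8 * 2 ^ (J.1 + 1 + 1) : ℕ) : ℤ))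
    ((3 * L1 + 8 * 2 ^ (J.1 + 1 + 1) : ℕ) : ℤ))
  have h4 := h2 (bb + 1) hl1 (Icc (-((3 * L1 + 8 * 2 ^ (J.1 + 1 + 1) : ℕ) : ℤ))
    ((3 * L1 + 8 * 2 ^ (J.1 + 1 + 1) : ℕ) : ℤ))
  have e1 : 8 * K * (1 + Real.log (1 + E0 * (((Ico x0 x1).card : ℝ) * len J) *
        (HA ^ 2 / fa + HB ^ 2 / fb) / τ ^ 2)) *
        (τ * √(SA + W1.card * fa) * √(SB + W1.card * fb)) = 8 * X := by
    rw [hX]; ring
  rw [e1]
  linarith

/-- **THE CORNER FOR THREE COMPLEX KERNELS, killer on the edge `e`** -/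
theorem ta_cornerE : ∃ K0 : ℝ, 0 ≤ K0 ∧ ∀ (bb : ℤ), bb = -1 ∨ bb = -7 → ∀ (j : Fin 4) (e : Fin 3),
    ∀ (R : Finset Nd) (J : Nd) (x0 x1 y0 y1 : ℤ) (al : ℤ → ℕ → ℤ → ℤ → Prop),
    IsRegion R J → (∀ w, AlC R J (sl j - sl (j.succAbove (e + 2)))
      (sl (j.succAbove e) - sl (j.succAbove (e + 2)))
      (sl (j.succAbove (e + 1)) - sl (j.succAbove (e + 2))) w x0 x1 y0 y1 (al w)) →
    ∀ (K : Fin 3 → Kl) (τ HA HB E0 fa fb SA SB : ℝ) (W1 : Finset ℤ),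
    (∀ e' w, ∃ T T' : Finset ℤ, ∀ x y, K e' w x y ≠ 0 → x ∈ T ∧ y ∈ T') →
    0 < τ → 0 < fa → 0 < fb →
    (∀ w x y, ‖K (e + 1) w x y‖ ≤ HA) → (∀ w x y, ‖K (e + 2) w x y‖ ≤ HB) →
    0 ≤ E0 →
    (∀ w m q p, al w m q p → ∑ x ∈ Ico q (q + (2 : ℤ) ^ m), ∑ y ∈ Ico p (p + (2 : ℤ) ^ m),
      ‖K e w x y‖ ^ 2 ≤ 4 ^ m * E0) →
    (∀ w, w ∉ W1 → (∀ x y, K (e + 1) w x y = 0) ∨ (∀ x y, K (e + 2) w x y = 0)) →
    (∀ X Y : Finset ℤ, ∑ w ∈ W1, ∑ x ∈ X, ∑ y ∈ Y, ‖K (e + 1) w x y‖ ^ 2 ≤ SA) →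
    (∀ X Y : Finset ℤ, ∑ w ∈ W1, ∑ x ∈ X, ∑ y ∈ Y, ‖K (e + 2) w x y‖ ^ 2 ≤ SB) →
    (∀ w m q p, al w m q p → BadTx138.OpB (K e w) (Ico q (q + (2 ^ m : ℕ)))
      (Ico p (p + (2 ^ m : ℕ))) (2 ^ m * τ)) →
    ∀ (Gd : ℕ → ℤ × ℤ × ℤ → ℕ → Prop), (∀ n ≤ J.1, ∀ p v, Gd n p v →
      (∃ i i' : ℕ, i < 2 ^ (n + 1) ∧ i' < 2 ^ (n + 1) ∧
        K e (wv bb n p v) (pc e p + i) (pc (e + 1) p + i') ≠ 0) →
      Al4Z (al (wv bb n p v)) n (pc e p) (pc (e + 1) p)) →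
    ∀ (L1 : ℕ), TA bb (cube L1) (J.1 + 1) Gd K ≤
      K0 * (1 + Real.log (1 + E0 * (((Ico x0 x1).card : ℝ) * len J) *
        (HA ^ 2 / fa + HB ^ 2 / fb) / τ ^ 2)) *
        (τ * √(SA + W1.card * fa) * √(SB + W1.card * fb)) := by
  obtain ⟨K0, hK0, hK⟩ := ta_twoE
  refine ⟨K0, hK0, ?_⟩
  intro bb hbb j e R J x0 x1 y0 y1 al hR hal K τ HA HB E0 fa fb SA SB W1 sK hτ hfa hfb hA hB hE0 hC h0
    eA eB hop Gd hGd L1
  have hcof := cof_edge j e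
  have main := fun (Gd' : ℕ → ℤ × ℤ × ℤ → ℕ → Prop) (hGd' : ∀ n ≤ J.1, ∀ p v, Gd' n p v →
      (∃ i j : ℕ, i < 2 ^ (n + 1) ∧ j < 2 ^ (n + 1) ∧
        K e (wv bb n p v) (p.2.2 + i) (p.1 + j) ≠ 0) →
      Al4Z (al (wv bb n p v)) n p.2.2 p.1) =>
    hK bb hbb R J _ _ _ x0 x1 y0 y1 al hR hcof hal (K (e + 1)) (K (e + 2)) (K e) τ HA HB E0 fa fb
      SA SB W1 (sK _) (sK _) (sK _) hτ hfa hfb hA hB hE0 hC h0 eA eB hop Gd' hGd' L1
  fin_cases e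
  · -- killer on the edge 0: one rotation
    rw [TA_rot1]
    have e1 : (fun e' : Fin 3 => K (e' + 1)) = ![K 1, K 2, K 0] := by
      funext e'
      fin_cases e' <;> rfl
    rw [e1]
    refine main (fun n p v => Gd n (rp1 (rp1 p)) v) ?_
    intro n hn p v hg hex
    have h1 := hGd n hn (rp1 (rp1 p)) v hg
    rw [wv_rp1, wv_rp1] at h1
    exact h1 hex
  · -- killer on the edge 1: two rotations
    rw [TA_rot1, TA_rot1]
    have e1 : (fun e' : Fin 3 => (fun e' : Fin 3 => K (e' + 1)) (e' + 1)) = ![K 2, K 0, K 1] := by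
      funext e'
      fin_cases e' <;> rfl
    rw [e1]
    refine main (fun n p v => Gd n (rp1 (rp1 (rp1 (rp1 p)))) v) ?_
    intro n hn p v hg hex
    have h1 := hGd n hn (rp1 (rp1 (rp1 (rp1 p)))) v hg
    rw [rp1_3, wv_rp1] at h1
    exact h1 hex
  · have e1 : K = ![K 0, K 1, K 2] := by
      funext e'
      fin_cases e' <;> rfl
    rw [e1]
    refine main Gd ?_
    intro n hn p v hg hex
    exact hGd n hn p v hg hex

/-- **ALL BOXES OF ONE REGION, killer with an operator bound on all boxes of the region** -/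
theorem ta_unifE : ∃ K0 : ℝ, 0 ≤ K0 ∧ ∀ (bb : ℤ), bb = -1 ∨ bb = -7 → ∀ (j : Fin 4) (e : Fin 3),
    ∀ (R : Finset Nd) (J : Nd) (c0 c1 d0 d1 : ℤ), IsRegion R J →
    ∀ (K : Fin 3 → Kl) (τ HA HB E0 fa fb SA SB : ℝ) (W1 : Finset ℤ),
    (∀ e' w, ∃ T T' : Finset ℤ, ∀ x y, K e' w x y ≠ 0 → x ∈ T ∧ y ∈ T') →
    (∀ w x y, K e w x y ≠ 0 → (c0 ≤ x ∧ x < c1) ∧ (d0 ≤ y ∧ y < d1)) →
    0 < τ → 0 < fa → 0 < fb →
    (∀ w x y, ‖K (e + 1) w x y‖ ≤ HA) → (∀ w x y, ‖K (e + 2) w x y‖ ≤ HB) →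
    0 ≤ E0 →
    (∀ w m q p, Om R (sl j - sl (j.succAbove (e + 2)))
      (sl (j.succAbove e) - sl (j.succAbove (e + 2)))
      (sl (j.succAbove (e + 1)) - sl (j.succAbove (e + 2))) w m q p →
      ∑ x ∈ Ico q (q + (2 : ℤ) ^ m), ∑ y ∈ Ico p (p + (2 : ℤ) ^ m),
      ‖K e w x y‖ ^ 2 ≤ 4 ^ m * E0) →
    (∀ w, w ∉ W1 → (∀ x y, K (e + 1) w x y = 0) ∨ (∀ x y, K (e + 2) w x y = 0)) →
    (∀ X Y : Finset ℤ, ∑ w ∈ W1, ∑ x ∈ X, ∑ y ∈ Y, ‖K (e + 1) w x y‖ ^ 2 ≤ SA) →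
    (∀ X Y : Finset ℤ, ∑ w ∈ W1, ∑ x ∈ X, ∑ y ∈ Y, ‖K (e + 2) w x y‖ ^ 2 ≤ SB) →
    (∀ w m q p, Om R (sl j - sl (j.succAbove (e + 2)))
      (sl (j.succAbove e) - sl (j.succAbove (e + 2)))
      (sl (j.succAbove (e + 1)) - sl (j.succAbove (e + 2))) w m q p →
      BadTx138.OpB (K e w) (Ico q (q + (2 ^ m : ℕ))) (Ico p (p + (2 ^ m : ℕ))) (2 ^ m * τ)) →
    ∀ (L1 : ℕ), TA bb (cube L1) (J.1 + 1) (fun n p _ => AdX R n (xv j bb n p)) K ≤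
      K0 * (1 + Real.log (1 + E0 * (((Ico (c0 - 2 ^ (J.1 + 1)) (c1 + 2 ^ (J.1 + 1))).card : ℝ) *
        len J) * (HA ^ 2 / fa + HB ^ 2 / fb) / τ ^ 2)) *
        (τ * √(SA + W1.card * fa) * √(SB + W1.card * fb)) := by
  obtain ⟨K0, hK0, hK⟩ := ta_cornerE
  refine ⟨K0, hK0, ?_⟩
  intro bb hbb j e R J c0 c1 d0 d1 hR K τ HA HB E0 fa fb SA SB W1 sK sC hτ hfa hfb hA hB hE0 hC h0
    eA eB hop L1
  refine (TA_mono bb (cube L1) (J.1 + 1) (Gd' := fun n p v => v < 2 ^ n + 2 ^ n ∧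
    AdX R n (xv j bb n p)) K (fun n _ p _ v hv h _ => ⟨hv, h⟩)).trans ?_
  refine hK bb hbb j e R J (c0 - 2 ^ (J.1 + 1)) (c1 + 2 ^ (J.1 + 1)) (d0 - 2 ^ (J.1 + 1))
    (d1 + 2 ^ (J.1 + 1)) (fun w => AlU R (sl j - sl (j.succAbove (e + 2)))
      (sl (j.succAbove e) - sl (j.succAbove (e + 2)))
      (sl (j.succAbove (e + 1)) - sl (j.succAbove (e + 2))) w (c0 - 2 ^ (J.1 + 1))
      (c1 + 2 ^ (J.1 + 1)) (d0 - 2 ^ (J.1 + 1)) (d1 + 2 ^ (J.1 + 1))) hR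
    (fun w => alC_unif hR (cof_edge j e)) K τ HA HB E0 fa fb SA SB W1 sK hτ hfa hfb hA hB hE0
    (fun w m q p h => hC w m q p h.1) h0 eA eB (fun w m q p h => hop w m q p h.1) _ ?_ L1
  rintro n hn p v ⟨hv, hg⟩ ⟨i, i', hi, hi', hne⟩
  obtain ⟨⟨h1, h2⟩, h3, h4⟩ := sC _ _ _ hne
  refine al4_unif hn (al4_of_adX hbb hg hv) ⟨i, by positivity, by exact_mod_cast hi, h1, h2⟩
    ⟨i', by positivity, by exact_mod_cast hi', h3, h4⟩

end Crest.Agent.R079.TwEx253
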