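import Crest.Agent.R079.DicB_112
import Crest.Agent.R079.TNS0_533

/-! R079 (helper112): **WEIGHTED ATOMS → NODE-DEPENDENT COST DICTIONARY** (`TRecN.Dict` of 533).

A weighted family `A j t` is a set of pairs `(φ, w)`, `w : Nd → ℝ` the cost of the atom `φ` at the
nodes.  `gau S p f = inf {∑ |c_i| w_i(p) : f = ∑ c_i φ_i on iv p}`.

* `WFam A` : nonnegative, super-averaging, sup `≤ w t⁻¹`, monotone, conjugation, mass
  `≤ A₀ t^(-C₀) w` in bounded atoms, point masses;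
* `cst_gau`, `dic_gau : WFam A → TRecN.Dic (gD A) 0`, `frzBd_gau`;
* `lv_mem` : level against the members, `lv_of_mem` : converse;
* `repB_gau` : frozen letters are mixtures of bounded atoms. -/

set_option autoImplicit false
set_option linter.unusedVariables false

namespace Crest.Agent.R079.WA112

open Finset Crest.Agent.R079.Grid Crest.Agent.R079.Glue Crest.Agent.R079.Growth
  Crest.Agent.R079.QRed Crest.Agent.R079.BAt112 Crest.Agent.R079.TFrz679
  Crest.Agent.R079.DicB112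

/-- weighted atoms -/
abbrev WA : Type := Fn × (Nd → ℝ)

/-- `M` is the cost of a decomposition of `f` on `iv p` -/
def Dec (S : Set WA) (p : Nd) (f : Fn) : Set ℝ :=
  {M | ∃ (n : ℕ) (x : Fin n → WA) (c : Fin n → ℂ), (∀ i, x i ∈ S) ∧
    (∀ y ∈ iv p, f y = ∑ i, c i * (x i).1 y) ∧ M = ∑ i, ‖c i‖ * (x i).2 p}

/-- gauge of the family at the node `p` -/
noncomputable def gau (S : Set WA) (p : Nd) (f : Fn) : ℝ := sInf (Dec S p f)

/-- what is needed of one family for `Cst` -/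
structure WS (S : Set WA) : Prop where
  nonneg : ∀ x ∈ S, ∀ p, 0 ≤ x.2 p
  super : ∀ x ∈ S, ∀ (m : ℕ) (l : ℤ), x.2 (m, 2 * l) + x.2 (m, 2 * l + 1) ≤ 2 * x.2 (m + 1, l)
  pt : ∀ y : ℤ, ∃ x ∈ S, ∃ u : ℂ, u ≠ 0 ∧ ∀ z, x.1 z = if z = y then u else 0

variable {S : Set WA}

theorem dec_nonneg (hS : WS S) {p : Nd} {f : Fn} {M : ℝ} (h : M ∈ Dec S p f) : 0 ≤ M := by
  obtain ⟨n, x, c, h1, h2, rfl⟩ := h
  exact Finset.sum_nonneg fun i _ => mul_nonneg (norm_nonneg _) (hS.nonneg _ (h1 i) p)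

theorem dec_bdd (hS : WS S) (p : Nd) (f : Fn) : BddBelow (Dec S p f) :=
  ⟨0, fun _ h => dec_nonneg hS h⟩

theorem dec_congr {p : Nd} {f g : Fn} (e : ∀ y ∈ iv p, f y = g y) : Dec S p f = Dec S p g := by
  ext M
  constructor
  · rintro ⟨n, x, c, h1, h2, h3⟩
    exact ⟨n, x, c, h1, fun y hy => (e y hy).symm.trans (h2 y hy), h3⟩
  · rintro ⟨n, x, c, h1, h2, h3⟩
    exact ⟨n, x, c, h1, fun y hy => (e y hy).trans (h2 y hy), h3⟩

theorem dec_zero (p : Nd) : (0 : ℝ) ∈ Dec S p (fun _ => 0) :=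
  ⟨0, Fin.elim0, Fin.elim0, fun i => i.elim0, fun y _ => by simp, by simp⟩

theorem dec_one {p : Nd} {f : Fn} {x : WA} (hx : x ∈ S) {c : ℂ} (h : ∀ y ∈ iv p, f y = c * x.1 y) :
    ‖c‖ * x.2 p ∈ Dec S p f :=
  ⟨1, fun _ => x, fun _ => c, fun _ => hx, fun y hy => by simpa using h y hy, by simp⟩

theorem dec_add {p : Nd} {f g : Fn} {M M' : ℝ} (h : M ∈ Dec S p f) (h' : M' ∈ Dec S p g) :
    M + M' ∈ Dec S p (fun y => f y + g y) := by
  obtain ⟨n, x, c, h1, h2, h3⟩ := h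
  obtain ⟨n', x', c', h1', h2', h3'⟩ := h'
  refine ⟨n + n', Fin.append x x', Fin.append c c', fun i => ?_, fun y hy => ?_, ?_⟩
  · refine Fin.addCases (fun i => ?_) (fun i => ?_) i
    · rw [Fin.append_left]; exact h1 i
    · rw [Fin.append_right]; exact h1' i
  · show f y + g y = _
    rw [h2 y hy, h2' y hy, Fin.sum_univ_add]
    simp only [Fin.append_left, Fin.append_right]
  · rw [Fin.sum_univ_add]
    simp only [Fin.append_left, Fin.append_right]
    rw [h3, h3']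

theorem dec_smul {p : Nd} {f : Fn} {M : ℝ} (h : M ∈ Dec S p f) (z : ℂ) :
    ‖z‖ * M ∈ Dec S p (fun y => z * f y) := by
  obtain ⟨n, x, c, h1, h2, h3⟩ := h
  refine ⟨n, x, fun i => z * c i, h1, fun y hy => ?_, ?_⟩
  · show z * f y = _
    rw [h2 y hy, Finset.mul_sum]
    exact Finset.sum_congr rfl fun i _ => by ring
  · rw [h3, Finset.mul_sum]
    exact Finset.sum_congr rfl fun i _ => by rw [norm_mul]; ring

theorem dec_sum {p : Nd} {ι : Type*} (s : Finset ι) (f : ι → Fn) (M : ι → ℝ)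
    (h : ∀ i ∈ s, M i ∈ Dec S p (f i)) : ∑ i ∈ s, M i ∈ Dec S p (fun y => ∑ i ∈ s, f i y) := by
  classical
  induction s using Finset.induction_on with
  | empty => simpa using dec_zero p
  | insert a s ha ih =>
    have h1 := dec_add (h a (Finset.mem_insert_self _ _))
      (ih fun i hi => h i (Finset.mem_insert_of_mem hi))
    rw [Finset.sum_insert ha]
    refine (dec_congr fun y _ => ?_) ▸ h1
    rw [Finset.sum_insert ha]

theorem dec_nonempty (hS : WS S) (p : Nd) (f : Fn) : (Dec S p f).Nonempty := by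
  classical
  choose x hx u hu hp using hS.pt
  have h1 : ∀ z ∈ iv p, ‖f z / u z‖ * (x z).2 p ∈
      Dec S p (fun y => f z / u z * (x z).1 y) := fun z _ => dec_one (hx z) fun y _ => rfl
  refine ⟨_, (dec_congr fun y hy => ?_) ▸ dec_sum (iv p) _ _ h1⟩
  rw [Finset.sum_eq_single y]
  · rw [hp y y, if_pos rfl]
    exact div_mul_cancel₀ _ (hu y)
  · intro z _ hz
    rw [hp z y, if_neg (Ne.symm hz), mul_zero]
  · intro h; exact absurd hy h

theorem gau_nonneg (hS : WS S) (p : Nd) (f : Fn) : 0 ≤ gau S p f :=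
  Real.sInf_nonneg fun _ h => dec_nonneg hS h

theorem gau_le (hS : WS S) {p : Nd} {f : Fn} {M : ℝ} (h : M ∈ Dec S p f) : gau S p f ≤ M :=
  csInf_le (dec_bdd hS p f) h

theorem exists_dec (hS : WS S) (p : Nd) (f : Fn) {η : ℝ} (hη : 0 < η) :
    ∃ M ∈ Dec S p f, M < gau S p f + η :=
  Real.lt_sInf_add_pos (dec_nonempty hS p f) hη

theorem le_gau (hS : WS S) {p : Nd} {f : Fn} {A : ℝ} (h : ∀ M ∈ Dec S p f, A ≤ M) :
    A ≤ gau S p f := le_csInf (dec_nonempty hS p f) h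

/-- **the gauge is a super-averaging cost** -/
theorem cst_gau (hS : WS S) : LasN525.Cst (gau S) := by
  refine ⟨gau_nonneg hS, fun p f g e => ?_, fun p => ?_, fun p f g => ?_, fun p z f => ?_,
    fun m l f => ?_⟩
  · unfold gau; rw [dec_congr e]
  · exact le_antisymm (gau_le hS (dec_zero p)) (gau_nonneg hS p _)
  · refine le_of_forall_pos_lt_add fun η hη => ?_
    obtain ⟨M, hM, hM1⟩ := exists_dec hS p f (half_pos hη)
    obtain ⟨M', hM', hM1'⟩ := exists_dec hS p g (half_pos hη)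
    have := gau_le hS (dec_add hM hM')
    linarith
  · refine le_of_forall_pos_le_add fun η hη => ?_
    have hη' : 0 < η / (‖z‖ + 1) := by positivity
    obtain ⟨M, hM, hM1⟩ := exists_dec hS p f hη'
    have h1 := gau_le hS (dec_smul hM z)
    have h2 : ‖z‖ * M ≤ ‖z‖ * (gau S p f + η / (‖z‖ + 1)) :=
      mul_le_mul_of_nonneg_left hM1.le (norm_nonneg _)
    have h3 : ‖z‖ * (η / (‖z‖ + 1)) ≤ η := by
      rw [mul_div_assoc', div_le_iff₀ (by positivity)]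
      nlinarith [norm_nonneg z]
    calc gau S p (fun y => z * f y) ≤ ‖z‖ * M := h1
      _ ≤ ‖z‖ * gau S p f + ‖z‖ * (η / (‖z‖ + 1)) := by rw [← mul_add]; exact h2
      _ ≤ _ := by linarith
  · refine le_of_forall_pos_le_add fun η hη => ?_
    obtain ⟨M, ⟨n, x, c, h1, h2, rfl⟩, hM1⟩ := exists_dec hS (m + 1, l) f (half_pos hη)
    have hsub0 : iv (m, 2 * l) ⊆ iv (m + 1, l) := by
      intro y hy
      unfold iv at *
      have e : m + 1 + 7 = (m + 7) + 1 := by omega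
      show y ∈ dI (m + 1 + 7) l
      rw [e, L0e.dI_succ]
      exact Finset.mem_union_left _ hy
    have hsub1 : iv (m, 2 * l + 1) ⊆ iv (m + 1, l) := by
      intro y hy
      unfold iv at *
      have e : m + 1 + 7 = (m + 7) + 1 := by omega
      show y ∈ dI (m + 1 + 7) l
      rw [e, L0e.dI_succ]
      exact Finset.mem_union_right _ hy
    have g0 := gau_le hS (S := S) (p := (m, 2 * l)) (f := f)
      ⟨n, x, c, h1, fun y hy => h2 y (hsub0 hy), rfl⟩
    have g1 := gau_le hS (S := S) (p := (m, 2 * l + 1)) (f := f)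
      ⟨n, x, c, h1, fun y hy => h2 y (hsub1 hy), rfl⟩
    have h3 : ∑ i, ‖c i‖ * (x i).2 (m, 2 * l) + ∑ i, ‖c i‖ * (x i).2 (m, 2 * l + 1) ≤
        2 * ∑ i, ‖c i‖ * (x i).2 (m + 1, l) := by
      rw [← Finset.sum_add_distrib, Finset.mul_sum]
      refine Finset.sum_le_sum fun i _ => ?_
      have := mul_le_mul_of_nonneg_left (hS.super _ (h1 i) m l) (norm_nonneg (c i))
      linarith
    linarith

/-! ### admissible weighted families -/

/-- admissible weighted family (all slots, including the spanning point masses) -/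
structure WFam (A : Fin 4 → ℝ → Set WA) : Prop where
  ws : ∀ j t, 0 < t → t ≤ 1 → WS (A j t)
  sup : ∀ j t, 0 < t → t ≤ 1 → ∀ x ∈ A j t, ∀ p, ∀ y ∈ iv p, ‖x.1 y‖ ≤ x.2 p * t ^ (-(TRec.sx 0 j))
  mono : ∀ j s t, 0 < s → s ≤ t → t ≤ 1 → ∀ x ∈ A j t, ∃ x' ∈ A j s,
    (∀ y, x'.1 y = x.1 y) ∧ ∀ p, x'.2 p ≤ x.2 p
  conj : ∀ j t, 0 < t → t ≤ 1 → ∀ x ∈ A j t, ∃ x' ∈ A j t,
    (∀ y, x'.1 y = (starRingEnd ℂ) (x.1 y)) ∧ ∀ p, x'.2 p ≤ x.2 p
  ptw : ∀ j, j ≠ 3 → ∀ t, 0 < t → t ≤ 1 → ∀ y : ℤ, ∃ x ∈ A j t, ∃ u : ℝ, 0 < u ∧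
    u ≤ t ^ (1 / 2 : ℝ) ∧ (∀ z, x.1 z = if z = y then ((u : ℂ))⁻¹ else 0) ∧ ∀ p, x.2 p ≤ 1
  mass : ∃ A0 C0 : ℝ, 0 ≤ A0 ∧ 0 ≤ C0 ∧ ∀ j, j ≠ 3 → ∀ t, 0 < t → t ≤ 1 → ∀ x ∈ A j t, ∀ p,
    RepB j p x.1 (A0 * t ^ (-C0) * x.2 p)

/-- the cost dictionary -/
noncomputable def gD (A : Fin 4 → ℝ → Set WA) : TRecN.Dict := fun j t p f => gau (A j t) p f

theorem dec_conj {S : Set WA} (h : ∀ x ∈ S, ∃ x' ∈ S,
    (∀ y, x'.1 y = (starRingEnd ℂ) (x.1 y)) ∧ ∀ p, x'.2 p ≤ x.2 p) {p : Nd} {f : Fn} {M : ℝ}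
    (hM : M ∈ Dec S p f) : ∃ M' ∈ Dec S p (fun y => (starRingEnd ℂ) (f y)), M' ≤ M := by
  obtain ⟨n, x, c, h1, h2, rfl⟩ := hM
  choose x' hx' hv hw using fun i => h (x i) (h1 i)
  refine ⟨_, ⟨n, x', fun i => (starRingEnd ℂ) (c i), hx', fun y hy => ?_, rfl⟩, ?_⟩
  · show (starRingEnd ℂ) (f y) = _
    rw [h2 y hy, map_sum]
    exact Finset.sum_congr rfl fun i _ => by rw [map_mul, hv i y]
  · refine Finset.sum_le_sum fun i _ => ?_
    rw [RCLike.norm_conj]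
    exact mul_le_mul_of_nonneg_left (hw i p) (norm_nonneg _)

theorem dec_mono {S S' : Set WA} (h : ∀ x ∈ S, ∃ x' ∈ S',
    (∀ y, x'.1 y = x.1 y) ∧ ∀ p, x'.2 p ≤ x.2 p) {p : Nd} {f : Fn} {M : ℝ}
    (hM : M ∈ Dec S p f) : ∃ M' ∈ Dec S' p f, M' ≤ M := by
  obtain ⟨n, x, c, h1, h2, rfl⟩ := hM
  choose x' hx' hv hw using fun i => h (x i) (h1 i)
  refine ⟨_, ⟨n, x', c, hx', fun y hy => ?_, rfl⟩, ?_⟩
  · rw [h2 y hy]
    exact Finset.sum_congr rfl fun i _ => by rw [hv i y]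
  · exact Finset.sum_le_sum fun i _ => mul_le_mul_of_nonneg_left (hw i p) (norm_nonneg _)

variable {A : Fin 4 → ℝ → Set WA}

/-- **`TRecN.Dic`** -/
theorem dic_gD (h : WFam A) : TRecN.Dic (gD A) 0 := by
  refine ⟨fun j t ht ht1 => cst_gau (h.ws j t ht ht1), ?_, ?_, ?_⟩
  · intro j t ht ht1 p f y hy
    have hT : 0 < t ^ (-(TRec.sx 0 j)) := Real.rpow_pos_of_pos ht _
    have hS := h.ws j t ht ht1
    rw [← div_le_iff₀ hT]
    refine le_gau hS ?_
    rintro M ⟨n, x, c, h1, h2, rfl⟩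
    rw [div_le_iff₀ hT, h2 y hy, Finset.sum_mul]
    refine (norm_sum_le _ _).trans (Finset.sum_le_sum fun i _ => ?_)
    rw [norm_mul, mul_assoc]
    exact mul_le_mul_of_nonneg_left (h.sup j t ht ht1 _ (h1 i) p y hy) (norm_nonneg _)
  · intro j s t hs hst ht1 p f
    refine le_gau (h.ws j t (hs.trans_le hst) ht1) fun M hM => ?_
    obtain ⟨M', hM', hle⟩ := dec_mono (h.mono j s t hs hst ht1) hM
    exact (gau_le (h.ws j s hs (hst.trans ht1)) hM').trans hle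
  · intro j t ht ht1 p f
    refine le_gau (h.ws j t ht ht1) fun M hM => ?_
    obtain ⟨M', hM', hle⟩ := dec_conj (h.conj j t ht ht1) hM
    exact (gau_le (h.ws j t ht ht1) hM').trans hle

/-- point masses -/
theorem ptE_gD (h : WFam A) : TRecN.PtE (gD A) (1 / 2) := by
  intro j hj t ht ht1 y
  obtain ⟨x, hx, u, hu, hut, hv, hw⟩ := h.ptw j hj t ht ht1 y
  refine ⟨u, hu, hut, fun p => ?_⟩
  have h1 : ‖(1 : ℂ)‖ * x.2 p ∈ Dec (A j t) p (fun z => if z = y then ((u : ℂ))⁻¹ else 0) :=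
    dec_one hx fun z _ => by rw [hv z, one_mul]
  rw [norm_one, one_mul] at h1
  exact (gau_le (h.ws j t ht ht1) h1).trans (hw p)

/-- **mass of a letter of finite cost** (in bounded atoms) -/
theorem repB_gD (h : WFam A) : ∃ A0 C0 : ℝ, 0 ≤ A0 ∧ 0 ≤ C0 ∧ ∀ j, j ≠ 3 → ∀ t, 0 < t → t ≤ 1 →
    ∀ p f M, gD A j t p f < M → RepB j p f (A0 * t ^ (-C0) * M) := by
  obtain ⟨A0, C0, hA0, hC0, hm⟩ := h.mass
  refine ⟨A0, C0, hA0, hC0, fun j hj t ht ht1 p f M hM => ?_⟩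
  have hS := h.ws j t ht ht1
  obtain ⟨M', ⟨n, x, c, h1, h2, rfl⟩, hM'⟩ := exists_dec hS p f (η := M - gD A j t p f)
    (by linarith)
  have hM2 : ∑ i, ‖c i‖ * (x i).2 p < M := by
    have : gau (A j t) p f = gD A j t p f := rfl
    linarith
  have h3 : RepB j p (fun y => ∑ i ∈ Finset.univ, c i * (x i).1 y)
      (∑ i, ‖c i‖ * (A0 * t ^ (-C0) * (x i).2 p)) := by
    have key : ∀ s : Finset (Fin n), RepB j p (fun y => ∑ i ∈ s, c i * (x i).1 y)
        (∑ i ∈ s, ‖c i‖ * (A0 * t ^ (-C0) * (x i).2 p)) := by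
      intro s
      classical
      induction s using Finset.induction_on with
      | empty => simpa using RepB.zero (j := j) (p := p) (le_refl (0 : ℝ))
      | insert a s ha ih =>
        have h4 := RepB.add (RepB.cmul (hm j hj t ht ht1 _ (h1 a) p) (c a)) ih
        rw [Finset.sum_insert ha]
        refine h4.congr fun y _ => ?_
        rw [Finset.sum_insert ha]
    exact key Finset.univ
  refine (h3.congr fun y hy => h2 y hy).mono ?_
  have e : ∑ i, ‖c i‖ * (A0 * t ^ (-C0) * (x i).2 p) =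
      A0 * t ^ (-C0) * ∑ i, ‖c i‖ * (x i).2 p := by
    rw [Finset.mul_sum]; exact Finset.sum_congr rfl fun i _ => by ring
  rw [e]
  exact mul_le_mul_of_nonneg_left hM2.le (by positivity)

/-- **`FrzBd`** for a cost dictionary with polynomial masses -/
theorem frzBd_of_repB {D : TRecN.Dict} {k q3 A0 C0 : ℝ} (hk : 0 ≤ k) (hq3 : 2 ≤ q3)
    (hA0 : 0 ≤ A0) (hD : ∀ j, j ≠ 3 → ∀ t, 0 < t → t ≤ 1 →
    ∀ p f M, D j t p f < M → RepB j p f (A0 * t ^ (-C0) * M)) : TRecN.FrzBd D k q3 := by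
  intro t ht ht1
  obtain ⟨K, hK, hq⟩ := qb
  have hM0 : 0 ≤ A0 * t ^ (-C0) * 2 := by positivity
  refine ⟨K * (A0 * t ^ (-C0) * 2), by positivity, ?_⟩
  intro bb ε hε W I hW F hF i hi hfz
  have hrep : Rep i I (F i) (A0 * t ^ (-C0) * 2) :=
    (hD i hi t ht ht1 I (F i) 2 (lt_of_le_of_lt (hfz I hW.top) one_lt_two)).rep
  have hloc : ∀ j, ∀ p ∈ W, av p (F j) ≤ 1 := by
    intro j p hp
    refine (TWL649.av_le_aq ?_ p (F j)).trans (hF j p hp)
    unfold TRec.qx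
    split_ifs
    · exact hq3
    · linarith
  have h1 := hq bb ε hε W I hW F (fun _ => 1) (fun _ => zero_le_one) hloc i _ hrep
  refine h1.trans (le_of_eq ?_)
  simp only [Finset.prod_const_one, mul_one]

theorem frzBd_gD (h : WFam A) {k q3 : ℝ} (hk : 0 ≤ k) (hq3 : 2 ≤ q3) :
    TRecN.FrzBd (gD A) k q3 := by
  obtain ⟨A0, C0, hA0, hC0, hm⟩ := repB_gD h
  exact frzBd_of_repB hk hq3 hA0 hm

/-- level against the members of the family -/
theorem lv_mem (h : WFam A) {j : Fin 4} {t : ℝ} (ht : 0 < t) (ht1 : t ≤ 1) {s : ℝ} (hs : 0 ≤ s)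
    {p : Nd} {g : Fn} (hg : TRecN.Lv (gD A) j t s p g) {x : WA} (hx : x ∈ A j t) :
    ‖∑ y ∈ iv p, g y * x.1 y‖ ≤ s * x.2 p * len p := by
  have h1 : ‖(1 : ℂ)‖ * x.2 p ∈ Dec (A j t) p x.1 := dec_one hx fun z _ => by rw [one_mul]
  rw [norm_one, one_mul] at h1
  refine (TRecN.Lv.hom (dic_gD h) ht ht1 hg x.1).trans ?_
  have hl : 0 ≤ len p := (Growth.len_pos p).le
  exact mul_le_mul_of_nonneg_right (mul_le_mul_of_nonneg_left
    (gau_le (h.ws j t ht ht1) h1) hs) hl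

/-- converse -/
theorem lv_of_mem (h : WFam A) {j : Fin 4} {t : ℝ} (ht : 0 < t) (ht1 : t ≤ 1) {s : ℝ} (hs : 0 ≤ s)
    {p : Nd} {g : Fn} (hg : ∀ x ∈ A j t, ‖∑ y ∈ iv p, g y * x.1 y‖ ≤ s * x.2 p * len p) :
    TRecN.Lv (gD A) j t s p g := by
  refine TRecN.Lv.of_hom hs fun φ => ?_
  have hl : 0 < len p := Growth.len_pos p
  have hS := h.ws j t ht ht1
  refine le_of_forall_pos_le_add fun η hη => ?_
  obtain ⟨M, ⟨n, x, c, h1, h2, rfl⟩, hM⟩ := exists_dec hS p φ (η := η / ((s + 1) * len p))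
    (by positivity)
  have e : ∑ y ∈ iv p, g y * φ y = ∑ i, c i * ∑ y ∈ iv p, g y * (x i).1 y := by
    rw [Finset.sum_congr rfl fun y hy => by rw [h2 y hy, Finset.mul_sum], Finset.sum_comm]
    refine Finset.sum_congr rfl fun i _ => ?_
    rw [Finset.mul_sum]
    exact Finset.sum_congr rfl fun y _ => by ring
  rw [e]
  calc ‖∑ i, c i * ∑ y ∈ iv p, g y * (x i).1 y‖ ≤ ∑ i, ‖c i‖ * (s * (x i).2 p * len p) := by
        refine (norm_sum_le _ _).trans (Finset.sum_le_sum fun i _ => ?_)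
        rw [norm_mul]
        exact mul_le_mul_of_nonneg_left (hg _ (h1 i)) (norm_nonneg _)
    _ = s * len p * ∑ i, ‖c i‖ * (x i).2 p := by
        rw [Finset.mul_sum]; exact Finset.sum_congr rfl fun i _ => by ring
    _ ≤ s * len p * (gau (A j t) p φ + η / ((s + 1) * len p)) :=
        mul_le_mul_of_nonneg_left hM.le (by positivity)
    _ = s * gau (A j t) p φ * len p + s / (s + 1) * η := by
        field_simp
    _ ≤ s * gau (A j t) p φ * len p + η := by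
        have h3 : s / (s + 1) ≤ 1 := div_le_one_of_le₀ (by linarith) (by linarith)
        have := mul_le_mul_of_nonneg_right h3 hη.le
        linarith

end Crest.Agent.R079.WA112
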