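import Crest.Agent.R079.WA_112
import Crest.Agent.R079.CellB_112

/-! R079 (helper112): building blocks of cost dictionaries (`WA112.WFam`).

`WG E A` : weighted family for the slots `0,1,2`, sup exponent `E`; `WG.union`, `WG.weaken`,
`WG.reparam` (`t ↦ t^(1/E)` makes the exponent `1`), `UFam H U` : unit functions (price families
`PrF U γ`), `wg_prF`, `wg_bat` (bounded atoms at price `t^γ`), `wg_cel` (cells);
`full A` adds the point masses and slot `3`; **`wfam_full : WG 1 A → WFam (full A)`**. -/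

set_option autoImplicit false
set_option linter.unusedVariables false

namespace Crest.Agent.R079.WB112

open Finset Crest.Agent.R079.Grid Crest.Agent.R079.Glue Crest.Agent.R079.Growth
  Crest.Agent.R079.QRed Crest.Agent.R079.BAt112 Crest.Agent.R079.TFrz679
  Crest.Agent.R079.DicB112 Crest.Agent.R079.WA112

/-- weighted family for the slots `0,1,2`, sup exponent `E` -/
structure WG (E : ℝ) (A : Fin 4 → ℝ → Set WA) : Prop where
  nonneg : ∀ j, j ≠ 3 → ∀ t, 0 < t → t ≤ 1 → ∀ x ∈ A j t, ∀ p, 0 ≤ x.2 p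
  super : ∀ j, j ≠ 3 → ∀ t, 0 < t → t ≤ 1 → ∀ x ∈ A j t, ∀ (m : ℕ) (l : ℤ),
    x.2 (m, 2 * l) + x.2 (m, 2 * l + 1) ≤ 2 * x.2 (m + 1, l)
  sup : ∀ j, j ≠ 3 → ∀ t, 0 < t → t ≤ 1 → ∀ x ∈ A j t, ∀ p, ∀ y ∈ iv p,
    ‖x.1 y‖ ≤ x.2 p * t ^ (-E)
  mono : ∀ j, j ≠ 3 → ∀ s t, 0 < s → s ≤ t → t ≤ 1 → ∀ x ∈ A j t, ∃ x' ∈ A j s,
    (∀ y, x'.1 y = x.1 y) ∧ ∀ p, x'.2 p ≤ x.2 p
  conj : ∀ j, j ≠ 3 → ∀ t, 0 < t → t ≤ 1 → ∀ x ∈ A j t, ∃ x' ∈ A j t,
    (∀ y, x'.1 y = (starRingEnd ℂ) (x.1 y)) ∧ ∀ p, x'.2 p ≤ x.2 p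
  mass : ∃ A0 C0 : ℝ, 0 ≤ A0 ∧ 0 ≤ C0 ∧ ∀ j, j ≠ 3 → ∀ t, 0 < t → t ≤ 1 → ∀ x ∈ A j t, ∀ p,
    RepB j p x.1 (A0 * t ^ (-C0) * x.2 p)

theorem WG.union {E : ℝ} {A B : Fin 4 → ℝ → Set WA} (h : WG E A) (h' : WG E B) :
    WG E (fun j t => A j t ∪ B j t) := by
  refine ⟨?_, ?_, ?_, ?_, ?_, ?_⟩
  · rintro j hj t ht ht1 x (hx | hx)
    · exact h.nonneg j hj t ht ht1 x hx
    · exact h'.nonneg j hj t ht ht1 x hx
  · rintro j hj t ht ht1 x (hx | hx)
    · exact h.super j hj t ht ht1 x hx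
    · exact h'.super j hj t ht ht1 x hx
  · rintro j hj t ht ht1 x (hx | hx)
    · exact h.sup j hj t ht ht1 x hx
    · exact h'.sup j hj t ht ht1 x hx
  · rintro j hj s t hs hst ht1 x (hx | hx)
    · obtain ⟨x', hx', h1⟩ := h.mono j hj s t hs hst ht1 x hx
      exact ⟨x', Or.inl hx', h1⟩
    · obtain ⟨x', hx', h1⟩ := h'.mono j hj s t hs hst ht1 x hx
      exact ⟨x', Or.inr hx', h1⟩
  · rintro j hj t ht ht1 x (hx | hx)
    · obtain ⟨x', hx', h1⟩ := h.conj j hj t ht ht1 x hx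
      exact ⟨x', Or.inl hx', h1⟩
    · obtain ⟨x', hx', h1⟩ := h'.conj j hj t ht ht1 x hx
      exact ⟨x', Or.inr hx', h1⟩
  · obtain ⟨A0, C0, hA0, hC0, hm⟩ := h.mass
    obtain ⟨A1, C1, hA1, hC1, hm'⟩ := h'.mass
    refine ⟨A0 + A1, C0 + C1, by positivity, by positivity, ?_⟩
    rintro j hj t ht ht1 x (hx | hx) p
    · refine (hm j hj t ht ht1 x hx p).mono ?_
      refine mul_le_mul_of_nonneg_right ?_ (h.nonneg j hj t ht ht1 x hx p)
      have e1 : t ^ (-C0) ≤ t ^ (-(C0 + C1)) :=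
        Real.rpow_le_rpow_of_exponent_ge ht ht1 (by linarith)
      have e2 : 0 ≤ A1 * t ^ (-(C0 + C1)) := by positivity
      have e3 := mul_le_mul_of_nonneg_left e1 hA0
      linarith
    · refine (hm' j hj t ht ht1 x hx p).mono ?_
      refine mul_le_mul_of_nonneg_right ?_ (h'.nonneg j hj t ht ht1 x hx p)
      have e1 : t ^ (-C1) ≤ t ^ (-(C0 + C1)) :=
        Real.rpow_le_rpow_of_exponent_ge ht ht1 (by linarith)
      have e2 : 0 ≤ A0 * t ^ (-(C0 + C1)) := by positivity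
      have e3 := mul_le_mul_of_nonneg_left e1 hA1
      linarith

theorem WG.weaken {E E' : ℝ} (hE : E ≤ E') {A : Fin 4 → ℝ → Set WA} (h : WG E A) : WG E' A := by
  refine ⟨h.nonneg, h.super, ?_, h.mono, h.conj, h.mass⟩
  intro j hj t ht ht1 x hx p y hy
  refine (h.sup j hj t ht ht1 x hx p y hy).trans ?_
  exact mul_le_mul_of_nonneg_left (Real.rpow_le_rpow_of_exponent_ge ht ht1 (by linarith))
    (h.nonneg j hj t ht ht1 x hx p)

/-- reparametrisation `t ↦ t^θ` -/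
theorem WG.reparam {E θ : ℝ} (hθ : 0 < θ) {A : Fin 4 → ℝ → Set WA} (h : WG E A) :
    WG (θ * E) (fun j t => A j (t ^ θ)) := by
  have h0 : ∀ t : ℝ, 0 < t → 0 < t ^ θ := fun t ht => Real.rpow_pos_of_pos ht _
  have h1 : ∀ t : ℝ, 0 < t → t ≤ 1 → t ^ θ ≤ 1 := fun t ht ht1 =>
    Real.rpow_le_one ht.le ht1 hθ.le
  refine ⟨fun j hj t ht ht1 => h.nonneg j hj _ (h0 t ht) (h1 t ht ht1),
    fun j hj t ht ht1 => h.super j hj _ (h0 t ht) (h1 t ht ht1), ?_, ?_,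
    fun j hj t ht ht1 => h.conj j hj _ (h0 t ht) (h1 t ht ht1), ?_⟩
  · intro j hj t ht ht1 x hx p y hy
    have := h.sup j hj _ (h0 t ht) (h1 t ht ht1) x hx p y hy
    rwa [← Real.rpow_mul ht.le, show θ * -E = -(θ * E) by ring] at this
  · intro j hj s t hs hst ht1
    exact h.mono j hj _ _ (h0 s hs) (Real.rpow_le_rpow hs.le hst hθ.le)
      (h1 t (hs.trans_le hst) ht1)
  · obtain ⟨A0, C0, hA0, hC0, hm⟩ := h.mass
    refine ⟨A0, θ * C0, hA0, by positivity, fun j hj t ht ht1 x hx p => ?_⟩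
    have := hm j hj _ (h0 t ht) (h1 t ht ht1) x hx p
    rwa [← Real.rpow_mul ht.le, show θ * -C0 = -(θ * C0) by ring] at this

/-! ### price families -/

/-- unit functions of the slots `0,1,2` (sup `≤ t^(-H)`, polynomial mass, monotone, conjugation) -/
structure UFam (H : ℝ) (U : Fin 4 → ℝ → Set Fn) : Prop where
  sup : ∀ j, j ≠ 3 → ∀ t, 0 < t → t ≤ 1 → ∀ φ ∈ U j t, ∀ y, ‖φ y‖ ≤ t ^ (-H)
  mono : ∀ j, j ≠ 3 → ∀ s t, 0 < s → s ≤ t → t ≤ 1 → ∀ φ ∈ U j t, φ ∈ U j s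
  conj : ∀ j, j ≠ 3 → ∀ t, 0 < t → t ≤ 1 → ∀ φ ∈ U j t, (fun y => (starRingEnd ℂ) (φ y)) ∈ U j t
  mass : ∃ A0 C0 : ℝ, 0 ≤ A0 ∧ 0 ≤ C0 ∧ ∀ j, j ≠ 3 → ∀ t, 0 < t → t ≤ 1 → ∀ φ ∈ U j t, ∀ p,
    RepB j p φ (A0 * t ^ (-C0))

/-- price family: the functions of `U` at the (node independent) price `t ^ γ j` -/
def PrF (U : Fin 4 → ℝ → Set Fn) (γ : Fin 4 → ℝ) (j : Fin 4) (t : ℝ) : Set WA :=
  {x | x.1 ∈ U j t ∧ x.2 = fun _ => t ^ (γ j)}

theorem wg_prF {H E : ℝ} {U : Fin 4 → ℝ → Set Fn} {γ : Fin 4 → ℝ} (hU : UFam H U)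
    (hγ : ∀ j, 0 ≤ γ j) (hE : ∀ j, H + γ j ≤ E) : WG E (PrF U γ) := by
  refine ⟨?_, ?_, ?_, ?_, ?_, ?_⟩
  · rintro j hj t ht ht1 ⟨φ, w⟩ ⟨hφ, rfl⟩ p
    exact (Real.rpow_pos_of_pos ht _).le
  · rintro j hj t ht ht1 ⟨φ, w⟩ ⟨hφ, rfl⟩ m l
    show t ^ γ j + t ^ γ j ≤ 2 * t ^ γ j
    linarith
  · rintro j hj t ht ht1 ⟨φ, w⟩ ⟨hφ, rfl⟩ p y _
    show ‖φ y‖ ≤ t ^ γ j * t ^ (-E)
    refine (hU.sup j hj t ht ht1 φ hφ y).trans ?_
    rw [← Real.rpow_add ht]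
    exact Real.rpow_le_rpow_of_exponent_ge ht ht1 (by have := hE j; linarith)
  · rintro j hj s t hs hst ht1 ⟨φ, w⟩ ⟨hφ, rfl⟩
    exact ⟨(φ, fun _ => s ^ γ j), ⟨hU.mono j hj s t hs hst ht1 φ hφ, rfl⟩, fun _ => rfl,
      fun _ => Real.rpow_le_rpow hs.le hst (hγ j)⟩
  · rintro j hj t ht ht1 ⟨φ, w⟩ ⟨hφ, rfl⟩
    exact ⟨(fun y => (starRingEnd ℂ) (φ y), fun _ => t ^ γ j),
      ⟨hU.conj j hj t ht ht1 φ hφ, rfl⟩, fun _ => rfl, fun _ => le_rfl⟩
  · obtain ⟨A0, C0, hA0, hC0, hm⟩ := hU.mass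
    have hG : 0 ≤ ∑ j, γ j := Finset.sum_nonneg fun j _ => hγ j
    refine ⟨A0, C0 + ∑ j, γ j, hA0, by positivity, ?_⟩
    rintro j hj t ht ht1 ⟨φ, w⟩ ⟨hφ, rfl⟩ p
    refine (hm j hj t ht ht1 φ hφ p).mono ?_
    show A0 * t ^ (-C0) ≤ A0 * t ^ (-(C0 + ∑ j, γ j)) * t ^ γ j
    rw [mul_assoc, ← Real.rpow_add ht]
    refine mul_le_mul_of_nonneg_left (Real.rpow_le_rpow_of_exponent_ge ht ht1 ?_) hA0
    have := Finset.single_le_sum (f := γ) (fun j _ => hγ j) (Finset.mem_univ j)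
    linarith

/-- bounded atoms -/
def UB (j : Fin 4) (_ : ℝ) : Set Fn := {φ | BAt j φ}

theorem ufam_UB : UFam 0 UB := by
  have hQa : Qa := Crest.Agent.R079.Qa246.qa
  refine ⟨?_, fun j hj s t _ _ _ φ h => h, fun j hj t _ _ φ h => BAt.conj h, ?_⟩
  · intro j hj t ht ht1 φ hφ y
    rw [neg_zero, Real.rpow_zero]
    exact hQa j φ (BAt.isAtom hφ) y
  · refine ⟨1, 0, zero_le_one, le_rfl, fun j hj t ht ht1 φ hφ p => ?_⟩
    exact RepB.of_bat hφ 1 (by simp) p fun y _ => by simp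

/-- bounded atoms at price `t ^ γ j` -/
theorem wg_bat {γ : Fin 4 → ℝ} {E : ℝ} (hγ : ∀ j, 0 ≤ γ j) (hE : ∀ j, γ j ≤ E) :
    WG E (PrF UB γ) := wg_prF ufam_UB hγ fun j => by rw [zero_add]; exact hE j

/-- **cells** (helper37), with slot dependent exponents -/
theorem wg_cel {γ δ C : Fin 4 → ℝ} {E : ℝ} (hγ : ∀ j, 0 ≤ γ j) (hδ : ∀ j, 0 ≤ δ j)
    (hC : ∀ j, 0 ≤ C j) (hE : ∀ j, C j + γ j + δ j ≤ E) :
    WG E (fun j t => Cell37.Cel (γ j) (δ j) (C j) t) := by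
  refine ⟨fun j hj t ht ht1 x hx p => Cell37.cel_nonneg ht hx p,
    fun j hj t ht ht1 x hx m l => Cell37.cel_super ht hx m l, ?_, ?_, ?_, ?_⟩
  · intro j hj t ht ht1 x hx p y hy
    have h1 := Cell37.cel_sup ht hx p y
    refine h1.trans ?_
    rw [mul_comm]
    exact mul_le_mul_of_nonneg_left (Real.rpow_le_rpow_of_exponent_ge ht ht1
      (by have := hE j; linarith)) (Cell37.cel_nonneg ht hx p)
  · intro j hj s t hs hst ht1 x hx
    obtain ⟨x', hx', h1, h2⟩ := Cell37.cel_mono hs hst (hγ j) (hδ j) (hC j) hx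
    exact ⟨x', hx', fun y => by rw [h1], h2⟩
  · intro j hj t ht ht1 x hx
    exact ⟨_, Cell37.cel_conj hx, fun y => rfl, fun p => le_rfl⟩
  · have hG : ∀ j, 2 * C j + γ j + δ j ≤ ∑ i, (2 * C i + γ i + δ i) := fun j =>
      Finset.single_le_sum (f := fun i => 2 * C i + γ i + δ i)
        (fun i _ => by have := hγ i; have := hδ i; have := hC i; positivity) (Finset.mem_univ j)
    refine ⟨768, ∑ i, (2 * C i + γ i + δ i), by norm_num,
      Finset.sum_nonneg fun i _ => by have := hγ i; have := hδ i; have := hC i; positivity,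
      fun j hj t ht ht1 x hx p => ?_⟩
    refine (CellB112.repB_cel ht hx j p).mono ?_
    refine mul_le_mul_of_nonneg_right (mul_le_mul_of_nonneg_left
      (Real.rpow_le_rpow_of_exponent_ge ht ht1 ?_) (by norm_num)) (Cell37.cel_nonneg ht hx p)
    have := hG j
    linarith

/-! ### the full family -/

/-- point masses of height `≤ t⁻¹`, cost `1` -/
def PtW (t : ℝ) : Set WA :=
  {x | ∃ (y : ℤ) (v : ℂ), ‖v‖ ≤ t⁻¹ ∧ x.1 = (fun z => if z = y then v else 0) ∧ x.2 = fun _ => 1}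

/-- slot `3`: functions bounded by `1`, cost `1` -/
def S3 : Set WA := {x | (∀ y, ‖x.1 y‖ ≤ 1) ∧ x.2 = fun _ => 1}

open Classical in
/-- the full family -/
noncomputable def full (A : Fin 4 → ℝ → Set WA) (j : Fin 4) (t : ℝ) : Set WA :=
  if j = 3 then S3 else A j t ∪ PtW t

/-- **the full family is admissible** -/
theorem wfam_full {A : Fin 4 → ℝ → Set WA} (h : WG 1 A) : WFam (full A) := by
  have hfull : ∀ {j : Fin 4}, j ≠ 3 → ∀ t, full A j t = A j t ∪ PtW t := fun hj t => if_neg hj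
  have hfull3 : ∀ t, full A 3 t = S3 := fun t => if_pos rfl
  have hnt : ∀ t : ℝ, 0 < t → ‖(t : ℂ)⁻¹‖ ≤ t⁻¹ := fun t ht => by
    rw [norm_inv, Complex.norm_real, Real.norm_of_nonneg ht.le]
  refine ⟨?_, ?_, ?_, ?_, ?_, ?_⟩
  · intro j t ht ht1
    by_cases hj : j = 3
    · subst hj
      rw [hfull3]
      refine ⟨?_, ?_, ?_⟩
      · rintro x ⟨-, hw⟩ p; rw [hw]; exact zero_le_one
      · rintro x ⟨-, hw⟩ m l; rw [hw]; norm_num
      · intro y
        refine ⟨(fun z => if z = y then 1 else 0, fun _ => 1), ⟨fun z => ?_, rfl⟩, 1, one_ne_zero,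
          fun z => rfl⟩
        show ‖(if z = y then (1 : ℂ) else 0)‖ ≤ 1
        split_ifs <;> simp
    · rw [hfull hj]
      refine ⟨?_, ?_, ?_⟩
      · rintro x (hx | ⟨y, v, -, -, hw⟩) p
        · exact h.nonneg j hj t ht ht1 x hx p
        · rw [hw]; exact zero_le_one
      · rintro x (hx | ⟨y, v, -, -, hw⟩) m l
        · exact h.super j hj t ht ht1 x hx m l
        · rw [hw]; norm_num
      · intro y
        refine ⟨(fun z => if z = y then ((t : ℂ))⁻¹ else 0, fun _ => 1),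
          Or.inr ⟨y, (t : ℂ)⁻¹, hnt t ht, rfl, rfl⟩,
          (t : ℂ)⁻¹, inv_ne_zero (by exact_mod_cast ht.ne'), fun z => rfl⟩
  · intro j t ht ht1 x hx p y hy
    by_cases hj : j = 3
    · subst hj
      rw [hfull3] at hx
      obtain ⟨h1, h2⟩ := hx
      rw [h2]
      simpa [TRec.sx] using h1 y
    · rw [hfull hj] at hx
      have hsx : TRec.sx 0 j = 1 := by simp [TRec.sx, hj]
      rw [hsx]
      rcases hx with hx | ⟨z, v, hv1, hv, hw⟩
      · exact h.sup j hj t ht ht1 x hx p y hy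
      · rw [hv, hw, one_mul, Real.rpow_neg_one]
        show ‖(if y = z then v else 0)‖ ≤ t⁻¹
        split_ifs
        · exact hv1
        · rw [norm_zero]; positivity
  · intro j s t hs hst ht1 x hx
    by_cases hj : j = 3
    · subst hj
      rw [hfull3] at hx ⊢
      exact ⟨x, hx, fun _ => rfl, fun _ => le_rfl⟩
    · rw [hfull hj] at hx ⊢
      rcases hx with hx | ⟨z, v, hv1, hv, hw⟩
      · obtain ⟨x', hx', h1⟩ := h.mono j hj s t hs hst ht1 x hx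
        exact ⟨x', Or.inl hx', h1⟩
      · exact ⟨x, Or.inr ⟨z, v, hv1.trans (inv_anti₀ hs hst), hv, hw⟩, fun _ => rfl,
          fun _ => le_rfl⟩
  · intro j t ht ht1 x hx
    by_cases hj : j = 3
    · subst hj
      rw [hfull3] at hx ⊢
      exact ⟨(fun y => (starRingEnd ℂ) (x.1 y), x.2),
        ⟨fun y => by show ‖(starRingEnd ℂ) (x.1 y)‖ ≤ 1; rw [RCLike.norm_conj]; exact hx.1 y, hx.2⟩,
        fun _ => rfl, fun _ => le_rfl⟩
    · rw [hfull hj] at hx ⊢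
      rcases hx with hx | ⟨z, v, hv1, hv, hw⟩
      · obtain ⟨x', hx', h1⟩ := h.conj j hj t ht ht1 x hx
        exact ⟨x', Or.inl hx', h1⟩
      · refine ⟨(fun y => if y = z then (starRingEnd ℂ) v else 0, fun _ => 1),
          Or.inr ⟨z, (starRingEnd ℂ) v, by rw [RCLike.norm_conj]; exact hv1, rfl, rfl⟩,
          fun y => ?_, fun _ => by rw [hw]⟩
        rw [hv]
        show (if y = z then (starRingEnd ℂ) v else 0) = (starRingEnd ℂ) (if y = z then v else 0)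
        split_ifs <;> simp
  · intro j hj t ht ht1 y
    rw [hfull hj]
    refine ⟨(fun z => if z = y then ((t : ℂ))⁻¹ else 0, fun _ => 1),
      Or.inr ⟨y, (t : ℂ)⁻¹, hnt t ht, rfl, rfl⟩, t, ht, ?_, fun z => rfl, fun p => le_rfl⟩
    calc t = t ^ (1 : ℝ) := (Real.rpow_one t).symm
      _ ≤ t ^ (1 / 2 : ℝ) := Real.rpow_le_rpow_of_exponent_ge ht ht1 (by norm_num)
  · obtain ⟨A0, C0, hA0, hC0, hm⟩ := h.mass
    refine ⟨A0 + 1, C0 + 1, by positivity, by positivity, ?_⟩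
    intro j hj t ht ht1 x hx p
    rw [hfull hj] at hx
    rcases hx with hx | ⟨z, v, hv1, hv, hw⟩
    · refine (hm j hj t ht ht1 x hx p).mono ?_
      refine mul_le_mul_of_nonneg_right ?_ (h.nonneg j hj t ht ht1 x hx p)
      have e1 : t ^ (-C0) ≤ t ^ (-(C0 + 1)) :=
        Real.rpow_le_rpow_of_exponent_ge ht ht1 (by linarith)
      have e2 : 0 ≤ t ^ (-(C0 + 1)) := by positivity
      have e3 := mul_le_mul_of_nonneg_left e1 hA0
      linarith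
    · rw [hv, hw]
      refine RepB.of_bat (BAt.pt j z) v ?_ p fun y _ => ?_
      · refine hv1.trans ?_
        have e1 : t⁻¹ ≤ t ^ (-(C0 + 1)) := by
          rw [← Real.rpow_neg_one]
          exact Real.rpow_le_rpow_of_exponent_ge ht ht1 (by linarith)
        have e2 : 0 ≤ t ^ (-(C0 + 1)) := by positivity
        have e3 := mul_nonneg hA0 e2
        linarith
      · simp

end Crest.Agent.R079.WB112
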