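import Crest.Agent.R079.WS_112
import Crest.Agent.R079.RuS5_256

/-! R079 (helper112): the dictionary `WS112.DF P` satisfies (B) and (O) of helper256
(`hBN_DF`, `opLevelN_DF`), hence **`ruleS_DF` : `TRecN.RuleS`**; splitting of frozen letters by
families (`split_DF`). -/

set_option autoImplicit false
set_option linter.unusedVariables false

namespace Crest.Agent.R079.WD112

open Finset Crest.Agent.R079.Grid Crest.Agent.R079.Glue Crest.Agent.R079.Growth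
  Crest.Agent.R079.QRed Crest.Agent.R079.BAt112 Crest.Agent.R079.TFrz679
  Crest.Agent.R079.DicB112 Crest.Agent.R079.WA112 Crest.Agent.R079.WB112
  Crest.Agent.R079.WS112 Crest.Agent.R079.OLevSw Crest.Agent.R079.OpS276
  Crest.Agent.R079.RuS256 Crest.Agent.R079.OpLev

/-- **(B)** -/
theorem hBN_DF {P : Prm} (h : P.Ok) : ∃ A C : ℝ, 0 ≤ A ∧ 0 ≤ C ∧ HBN (DF P) A C := by
  obtain ⟨A0, C0, hA0, hC0, hm⟩ := repB_DF h
  refine ⟨A0 * 2, C0, by positivity, hC0, fun m hm3 t ht ht1 p f hf => ?_⟩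
  have := hm m hm3 t ht ht1 p f 2 (lt_of_le_of_lt hf one_lt_two)
  refine this.mono (le_of_eq ?_)
  ring

/-- **(O)**: `gm = θ min (g, f, x)` -/
theorem opLevelN_DF {P : Prm} (h : P.Ok) {gm : ℝ} (h1 : ∀ j, j ≠ 3 → gm ≤ P.θ * P.g j)
    (h2 : ∀ j, j ≠ 3 → gm ≤ P.θ * P.f j) (h3 : ∀ j, j ≠ 3 → gm ≤ P.θ * P.x j) (κ : ℕ) :
    OpLevelN (DF P) κ 200 gm 1 := by
  intro m hm t ht ht1 p X hX hav
  have h4 := olev_DF h hm ht ht1 zero_le_one hX (κ := κ) (A := 2) (by norm_num) hav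
  have e1 : (t ^ P.θ) ^ (P.g m) ≤ t ^ gm := by
    rw [← Real.rpow_mul ht.le]
    exact Real.rpow_le_rpow_of_exponent_ge ht ht1 (h1 m hm)
  have e2 : (t ^ P.θ) ^ (P.f m) ≤ t ^ gm := by
    rw [← Real.rpow_mul ht.le]
    exact Real.rpow_le_rpow_of_exponent_ge ht ht1 (h2 m hm)
  have e3 : (t ^ P.θ) ^ (P.x m) ≤ t ^ gm := by
    rw [← Real.rpow_mul ht.le]
    exact Real.rpow_le_rpow_of_exponent_ge ht ht1 (h3 m hm)
  refine h4.mono ?_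
  linarith

/-- **RULE (S) for the concrete dictionary** -/
theorem ruleS_DF {P : Prm} (h : P.Ok) {gm : ℝ} (hgm : 0 < gm)
    (h1 : ∀ j, j ≠ 3 → gm ≤ P.θ * P.g j) (h2 : ∀ j, j ≠ 3 → gm ≤ P.θ * P.f j)
    (h3 : ∀ j, j ≠ 3 → gm ≤ P.θ * P.x j) {q3 s1 : ℝ} (hq3 : 2 < q3) (hs1 : 0 < s1) :
    ∃ cS CS : ℝ, 0 < cS ∧ 0 ≤ CS ∧ ∀ k e : ℝ, 0 < k → 0 ≤ e → e ≤ 1 →
      ∃ t0 K : ℝ, 0 < t0 ∧ t0 ≤ 1 ∧ 0 ≤ K ∧ TRecN.RuleS (DF P) k q3 cS CS s1 e t0 K := by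
  obtain ⟨A, C, hA, hC, hB⟩ := hBN_DF h
  refine ⟨gS q3 gm s1, eC q3 C gm s1, gS_pos hq3 hgm hs1, eC_nonneg hq3 hC hgm hs1,
    fun k e hk he0 he => ?_⟩
  exact ruleSN_of hq3 hC hgm hs1 hk hA (by norm_num) one_pos le_rfl he0 he hB
    (opLevelN_DF h h1 h2 h3 13)

end Crest.Agent.R079.WD112
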