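import Crest.Agent.R079.WS0_112
import Crest.Agent.R079.TNPar_533

/-! R079 (helper112): **the final dictionary `DF0 P` in the recursion `TRecN` of helper533**.

* `dic_DF0`, `ptE_DF0` : the axioms;
* `ruleS_DF0'` : rule (S) in the quantifier order of `TRecN.target_of_rules`;
* **`target_of_DF0`** : `RuleNT` and `RuleTr` for `DF0 (P e)` (every small `e`) give the target. -/

set_option autoImplicit false
set_option linter.unusedVariables false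

namespace Crest.Agent.R079.WS0112

open Finset Crest.Agent.R079.Grid Crest.Agent.R079.Glue Crest.Agent.R079.Growth
  Crest.Agent.R079.QRed Crest.Agent.R079.WS112

theorem dic_DF0 {P : Prm} (h : Ok0 P) : TRecN.Dic (DF0 P) 0 :=
  ⟨cst_DF0 h, sup_DF0 h, mono_DF0 h, conj_DF0 h⟩

theorem ptE_DF0 {P : Prm} (h : Ok0 P) {th : ℝ} (hth : ∀ j, j ≠ 3 → th ≤ P.θ * P.g j) :
    TRecN.PtE (DF0 P) th := fun j hj t ht ht1 y =>
  ⟨t ^ (P.θ * P.g j), Real.rpow_pos_of_pos ht _,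
    Real.rpow_le_rpow_of_exponent_ge ht ht1 (hth j hj), fun p => pt_DF0 h j hj t ht ht1 y p⟩

/-- the parameters of the levels are positive -/
structure Pos0 (P : Prm) : Prop where
  g : ∀ j, 0 < P.g j
  x : ∀ j, 0 < P.x j
  f : ∀ j, 0 < P.f j

/-- the smallest level exponent -/
theorem Pos0.gm {P : Prm} (h : Ok0 P) (hp : Pos0 P) : ∃ gm : ℝ, 0 < gm ∧
    (∀ j, gm ≤ P.θ * P.g j) ∧ (∀ j, gm ≤ P.θ * P.f j) ∧ (∀ j, gm ≤ P.θ * P.x j) := by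
  have key : ∀ u : Fin 4 → ℝ, (∀ j, 0 < u j) → ∃ m : ℝ, 0 < m ∧ ∀ j, m ≤ P.θ * u j := by
    intro u hu
    refine ⟨P.θ * min (min (u 0) (u 1)) (min (u 2) (u 3)), mul_pos h.θ0
      (lt_min (lt_min (hu 0) (hu 1)) (lt_min (hu 2) (hu 3))), fun j => ?_⟩
    refine mul_le_mul_of_nonneg_left ?_ h.θ0.le
    fin_cases j
    · exact (min_le_left _ _).trans (min_le_left _ _)
    · exact (min_le_left _ _).trans (min_le_right _ _)
    · exact (min_le_right _ _).trans (min_le_left _ _)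
    · exact (min_le_right _ _).trans (min_le_right _ _)
  obtain ⟨a, ha, ha'⟩ := key P.g hp.g
  obtain ⟨b, hb, hb'⟩ := key P.f hp.f
  obtain ⟨c, hc, hc'⟩ := key P.x hp.x
  exact ⟨min a (min b c), lt_min ha (lt_min hb hc), fun j => (min_le_left _ _).trans (ha' j),
    fun j => (min_le_right _ _).trans ((min_le_left _ _).trans (hb' j)),
    fun j => (min_le_right _ _).trans ((min_le_right _ _).trans (hc' j))⟩

/-- **`S0106` from rule (A) (pairs `m < i`) and the trivial kill (pairs `i < m`) for the final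
dictionary** -/
theorem target_of_DF0 {q3 : ℝ} (hq3 : 2 < q3) (P : ℝ → Prm) (hP : ∀ e, 0 < e → Ok0 (P e))
    (hp : ∀ e, 0 < e → Pos0 (P e))
    (hN : ∃ e1 : ℝ, 0 < e1 ∧ ∀ e, 0 < e → e ≤ e1 → ∃ c0 k1 : ℝ, 0 < c0 ∧ 0 < k1 ∧
      ∀ k, 0 < k → k ≤ k1 → ∃ t0 K : ℝ, 0 < t0 ∧ 0 ≤ K ∧
        TRecN.RuleNT (DF0 (P e)) k q3 c0 e t0 K)
    (hT : ∃ e3 : ℝ, 0 < e3 ∧ ∀ e, 0 < e → e ≤ e3 → ∀ δ, 0 < δ → ∃ c0 k3 : ℝ, 0 < c0 ∧ 0 < k3 ∧
      ∀ k, 0 < k → k ≤ k3 → ∃ t0 K : ℝ, 0 < t0 ∧ 0 ≤ K ∧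
        TRecN.RuleTr (DF0 (P e)) k q3 c0 δ t0 K) : L0.Target := by
  refine TRecN.target_of_rules hq3 (fun e _ => DF0 (P e)) (fun e k he _ _ => dic_DF0 (hP e he))
    (fun e he => ?_) (fun e k he hk _ => frzBd_DF0 (hP e he) hk.le hq3.le) hN hT
    ⟨1, one_pos, fun e he he1 s1 hs1 => ?_⟩
  · obtain ⟨gm, hgm, h1, -, -⟩ := (hp e he).gm (hP e he)
    exact ⟨gm, hgm, fun k _ _ => ptE_DF0 (hP e he) fun j _ => h1 j⟩
  · obtain ⟨gm, hgm, h1, h2, h3⟩ := (hp e he).gm (hP e he)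
    obtain ⟨cS, CS, hcS, hCS, h4⟩ := ruleS_DF0 (hP e he) hgm (fun j _ => h1 j) (fun j _ => h2 j)
      (fun j _ => h3 j) hq3 hs1
    refine ⟨cS, CS, 1, hcS, hCS, one_pos, fun k hk _ => ?_⟩
    obtain ⟨t0, K, h0, h5, h6, h7⟩ := h4 k e hk he.le he1
    exact ⟨t0, K, h0, h6, h7⟩

end Crest.Agent.R079.WS0112
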