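import Crest.Agent.R079.SKv_261
import Crest.Agent.R079.GaF_371

/-! R079, Step I (helper263): BRIDGE between the (G) coordinates of one op-atom (`GaF_371`: killer slot
`i`, edge `e`, positions `(w, z, z')`, form `Ye i e`, own position sets) and the (S) coordinates of
`SKword` (`SKv_261`: line slot `x = i.succAbove (e + 2)`, frozen vertex `v` with `x.succAbove v = i`,
form `Yl x v`, common position sets).

* `vert` : the vertex `v`, and the two cases (order of the two edge variables kept or exchanged);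
* `exists_bnd` : band systems exist on every finite set of positions;
* `cl_ext`, `cl_tr` : the clip under extension by zero and transposition;
* `Pj_tr`, `Pj_ext` : the projection of a node under transposition / extension by zero. -/

set_option autoImplicit false
set_option linter.unusedSectionVars false

namespace Crest.Agent.R079.YeYlx263

open Finset Crest.Agent.R079.Grid Crest.Agent.R079.Growth Crest.Agent.R079.QRed
  Crest.Agent.R079.Qh249 Crest.Agent.R079.TWin Crest.Agent.R079.Glue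
open Crest.Agent.R079.Cel159 Crest.Agent.R079.ThA159
open Crest.Agent.R079.ClW59 (OpS cl cl_op cl_dist DQ_le)
open Crest.Agent.R079.SKx261 (Yl kerG PjY)
open Crest.Agent.R079.GaFx371 (Ye)

/-! ### indices -/

/-- line slot of the edge `e` of an atom with killer slot `i` -/
def xs (i : Fin 4) (e : Fin 3) : Fin 4 := i.succAbove (e + 2)

theorem exists_vert (i : Fin 4) (e : Fin 3) : ∃ v : Fin 3, (xs i e).succAbove v = i ∧
    (((xs i e).succAbove (v + 1) = i.succAbove e ∧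
      (xs i e).succAbove (v + 2) = i.succAbove (e + 1)) ∨
    ((xs i e).succAbove (v + 1) = i.succAbove (e + 1) ∧
      (xs i e).succAbove (v + 2) = i.succAbove e)) := by
  unfold xs
  decide +revert

/-- frozen vertex in the coordinates of the line slot -/
noncomputable def vx (i : Fin 4) (e : Fin 3) : Fin 3 := (exists_vert i e).choose

lemma vx_fro (i : Fin 4) (e : Fin 3) : (xs i e).succAbove (vx i e) = i :=
  (exists_vert i e).choose_spec.1

/-- the order of the two edge variables is kept -/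
def kept (i : Fin 4) (e : Fin 3) : Prop := (xs i e).succAbove (vx i e + 1) = i.succAbove e ∧
      (xs i e).succAbove (vx i e + 2) = i.succAbove (e + 1)

/-- the order of the two edge variables is exchanged -/
def exch (i : Fin 4) (e : Fin 3) : Prop := (xs i e).succAbove (vx i e + 1) = i.succAbove (e + 1) ∧
      (xs i e).succAbove (vx i e + 2) = i.succAbove e

lemma kept_or_exch (i : Fin 4) (e : Fin 3) : kept i e ∨ exch i e :=
  (exists_vert i e).choose_spec.2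

lemma Yl_kept {i : Fin 4} {e : Fin 3} (h : kept i e) (z u v : ℤ) :
    Yl (xs i e) (vx i e) z u v = Ye i e z u v := by
  unfold Yl Ye Glue.cf
  rw [vx_fro, h.1, h.2]
  rfl

lemma Yl_exch {i : Fin 4} {e : Fin 3} (h : exch i e) (z u v : ℤ) :
    Yl (xs i e) (vx i e) z u v = Ye i e z v u := by
  unfold Yl Ye Glue.cf
  rw [vx_fro, h.1, h.2]
  show (sl i - sl (i.succAbove (e + 2))) * z +
    (sl (i.succAbove (e + 1)) - sl (i.succAbove (e + 2))) * u +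
    (sl (i.succAbove e) - sl (i.succAbove (e + 2))) * v = _
  ring

/-! ### band systems -/

theorem exists_bnd (Y : ℤ → ℤ → ℤ → ℤ) (k : ℕ) (S : Finset (ℤ × ℤ × ℤ)) : ∃ ν : ℝ,
    Bnd (fun p => S.filter (fun ω => Y ω.1 ω.2.1 ω.2.2 ∈ iv p))
      (fun ω => Y ω.1 ω.2.1 ω.2.2) (NmP S cf (okc Y k)) ν := by
  refine ⟨1 / ((S.card : ℝ) + 1), bnd_cell Y k S (by positivity) fun y => ?_⟩
  rw [div_mul_eq_mul_div, one_mul, div_le_one (by positivity)]
  have : ((S.filter (fun ω => Y ω.1 ω.2.1 ω.2.2 = y)).card : ℝ) ≤ S.card := by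
    exact_mod_cast Finset.card_le_card (Finset.filter_subset _ _)
  linarith

/-! ### the clip -/

lemma opS_tr {S T : Finset ℤ} {B : ℤ → ℤ → ℂ} {s : ℝ} (hs : 0 ≤ s) (h : OpS S T B s) :
    OpS T S (fun v u => B u v) s := by
  have h1 := PjC881.bil_of_opS hs h
  refine PjC881.opS_of_bil hs fun ξ ζ => ?_
  have h2 := h1 ζ ξ
  rw [Finset.sum_comm, mul_comm (Real.sqrt _) (Real.sqrt _)]
  refine le_trans (le_of_eq ?_) h2
  congr 1
  exact Finset.sum_congr rfl fun u _ => Finset.sum_congr rfl fun v _ => by ring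

/-- the clip of the transposed kernel -/
theorem cl_tr {A : ℤ → ℤ → ℂ} {S T : Finset ℤ} {s : ℝ} (hs : 0 ≤ s) :
    ∀ u ∈ S, ∀ v ∈ T, cl (fun v u => A u v) T S s v u = cl A S T s u v := by
  refine PjC881.near_eq_cl (A := A) (B := fun u v => cl (fun v u => A u v) T S s v u) hs
    (opS_tr hs (cl_op _ T S hs)) fun C hC => ?_
  have h1 := DQ_le (fun v u => A u v) hs (opS_tr hs hC)
  rw [← cl_dist] at h1
  rw [Finset.sum_comm, Finset.sum_comm (s := S) (t := T) (f := fun x y => ‖A x y - C x y‖ ^ 2)]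
  exact h1

/-- the clip of a kernel extended by zero -/
theorem cl_ext {A : ℤ → ℤ → ℂ} {S S₁ T T₁ : Finset ℤ} {s : ℝ} (hs : 0 ≤ s) (hS : S₁ ⊆ S)
    (hT : T₁ ⊆ T) (h0 : ∀ u ∈ S, ∀ v ∈ T, ¬ (u ∈ S₁ ∧ v ∈ T₁) → A u v = 0) :
    ∀ u ∈ S, ∀ v ∈ T, cl A S T s u v = cl A S₁ T₁ s u v := by
  classical
  have hz : ∀ u v, ¬ (u ∈ S₁ ∧ v ∈ T₁) → cl A S₁ T₁ s u v = 0 := by
    intro u v h
    unfold cl
    rw [dif_neg h]
  have hsum : ∀ F : ℤ → ℤ → ℝ, (∀ u ∈ S, ∀ v ∈ T, ¬ (u ∈ S₁ ∧ v ∈ T₁) → F u v = 0) →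
      ∑ u ∈ S, ∑ v ∈ T, F u v = ∑ u ∈ S₁, ∑ v ∈ T₁, F u v := by
    intro F hF
    rw [← Finset.sum_subset hS]
    · refine Finset.sum_congr rfl fun u hu => ?_
      rw [← Finset.sum_subset hT]
      intro v hv hv'
      exact hF u (hS hu) v hv fun h => hv' h.2
    · intro u hu hu'
      exact Finset.sum_eq_zero fun v hv => hF u hu v hv fun h => hu' h.1
  have key := PjC881.near_eq_cl (A := A) (B := cl A S₁ T₁ s) (S := S) (S' := T) hs ?_ ?_
  · exact fun u hu v hv => (key u hu v hv).symm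
  · exact Cel159.opS_ext hS hT (cl_op A S₁ T₁ hs) (fun _ _ _ _ => rfl)
      fun u _ v _ h => hz u v h
  · intro C hC
    have h1 := DQ_le A hs (Cel159.opS_sub hS hT hC)
    rw [← cl_dist] at h1
    rw [hsum (fun u v => ‖A u v - cl A S₁ T₁ s u v‖ ^ 2) (fun u hu v hv h => by
      rw [h0 u hu v hv h, hz u v h, sub_zero, norm_zero, zero_pow two_ne_zero])]
    refine h1.trans ?_
    refine (Finset.sum_le_sum fun u _ => Finset.sum_le_sum_of_subset_of_nonneg hT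
      fun _ _ _ => sq_nonneg _).trans ?_
    exact Finset.sum_le_sum_of_subset_of_nonneg hS fun _ _ _ =>
      Finset.sum_nonneg fun _ _ => sq_nonneg _

lemma cl_zero {A : ℤ → ℤ → ℂ} {S T : Finset ℤ} {s : ℝ} (hs : 0 ≤ s)
    (h0 : ∀ u ∈ S, ∀ v ∈ T, A u v = 0) {u v : ℤ} (hu : u ∈ S) (hv : v ∈ T) :
    cl A S T s u v = 0 := by
  rw [cl_ext (S₁ := ∅) (T₁ := ∅) hs (Finset.empty_subset _) (Finset.empty_subset _)
    (fun u hu v hv _ => h0 u hu v hv) u hu v hv]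
  unfold cl
  rw [dif_neg (by simp)]

/-! ### the projection of a node -/

section proj

variable {Y : ℤ → ℤ → ℤ → ℤ} {k : ℕ} {T₀ T₁ T₂ : Finset ℤ}

/-- the projection of the cell system with form `Y` and positions `T₀ × T₁ × T₂` -/
noncomputable abbrev PJ (Y : ℤ → ℤ → ℤ → ℤ) (k : ℕ) (T₀ T₁ T₂ : Finset ℤ) (r : ℝ) (p : Nd)
    (A : ℤ × ℤ × ℤ → ℂ) : ℤ × ℤ × ℤ → ℂ :=
  Pj (fun p => (T₀ ×ˢ (T₁ ×ˢ T₂)).filter (fun ω => Y ω.1 ω.2.1 ω.2.2 ∈ iv p))
    (NmP (T₀ ×ˢ (T₁ ×ˢ T₂)) Cel159.cf (okc Y k)) r p A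

lemma PJ_cl {r : ℝ} (hr : 0 ≤ r) (p : Nd) (A : ℤ × ℤ × ℤ → ℂ) {z : ℤ} (hz : z ∈ T₀) {n : ℕ}
    {a b : ℤ} (hM : Mx (Y z) k p n a b) {u v : ℤ} (hu : u ∈ dI n a ∩ T₁) (hv : v ∈ dI n b ∩ T₂) :
    PJ Y k T₀ T₁ T₂ r p A (z, u, v) =
      cl (fun u v => A (z, u, v)) (dI n a ∩ T₁) (dI n b ∩ T₂) (r * 2 ^ n) u v := by
  obtain ⟨ν, hB⟩ := exists_bnd Y k (T₀ ×ˢ (T₁ ×ˢ T₂))
  exact PjC881.Pj_eq_cl hB hr p A hz hM u hu v hv

lemma Ins_tr {Z : ℤ → ℤ → ℤ} {S : Finset ℤ} {n : ℕ} {a b : ℤ} (h : Whit.Ins Z S n a b) :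
    Whit.Ins (fun v u => Z u v) S n b a := by
  unfold Whit.Ins at h ⊢
  exact fun v hv u hu => h u hu v hv

lemma Mx_tr {Z : ℤ → ℤ → ℤ} {p : Nd} {n : ℕ} {a b : ℤ} (h : Mx Z k p n a b) :
    Mx (fun v u => Z u v) k p n b a :=
  ⟨h.1, Ins_tr h.2.1, h.2.2.imp_right fun h1 h2 => h1 (Ins_tr h2)⟩

/-- **transposition** -/
theorem Pj_tr {r : ℝ} (hr : 0 ≤ r) (p : Nd) (A : ℤ × ℤ × ℤ → ℂ) {z u v : ℤ} (hz : z ∈ T₀)
    (hu : u ∈ T₁) (hv : v ∈ T₂) (hy : Y z u v ∈ iv p) :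
    PJ (fun z v u => Y z u v) k T₀ T₂ T₁ r p (fun ω => A (ω.1, ω.2.2, ω.2.1)) (z, v, u) =
      PJ Y k T₀ T₁ T₂ r p A (z, u, v) := by
  obtain ⟨n, a, b, hM, hua, hvb⟩ : ∃ n a b, Mx (Y z) k p n a b ∧ u ∈ dI n a ∧ v ∈ dI n b := by
    have h1 := Cel159.Mx_mcell (k := k) (Y := Y) (p := p) (ω := (z, u, v)) hy
    exact ⟨_, _, _, h1, by rw [L0e.mem_dI], by rw [L0e.mem_dI]⟩
  have hu' : u ∈ dI n a ∩ T₁ := Finset.mem_inter.2 ⟨hua, hu⟩
  have hv' : v ∈ dI n b ∩ T₂ := Finset.mem_inter.2 ⟨hvb, hv⟩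
  rw [PJ_cl hr p A hz hM hu' hv']
  rw [PJ_cl (Y := fun z v u => Y z u v) hr p _ hz (Mx_tr hM) hv' hu']
  exact cl_tr (A := fun u v => A (z, u, v)) (by positivity) u hu' v hv'

open Classical in
/-- extension by zero -/
noncomputable def zx (S : Finset (ℤ × ℤ × ℤ)) (A : ℤ × ℤ × ℤ → ℂ) (ω : ℤ × ℤ × ℤ) : ℂ :=
  if ω ∈ S then A ω else 0

open Classical in
/-- **extension by zero** -/
theorem Pj_ext {T₀' T₁' T₂' : Finset ℤ} (h1 : T₁ ⊆ T₁') (h2 : T₂ ⊆ T₂')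
    {r : ℝ} (hr : 0 ≤ r) (p : Nd) (A : ℤ × ℤ × ℤ → ℂ) {z u v : ℤ} (hz : z ∈ T₀') (hu : u ∈ T₁')
    (hv : v ∈ T₂') (hy : Y z u v ∈ iv p) :
    PJ Y k T₀' T₁' T₂' r p (zx (T₀ ×ˢ (T₁ ×ˢ T₂)) A) (z, u, v) =
      zx (T₀ ×ˢ (T₁ ×ˢ T₂)) (PJ Y k T₀ T₁ T₂ r p A) (z, u, v) := by
  obtain ⟨n, a, b, hM, hua, hvb⟩ : ∃ n a b, Mx (Y z) k p n a b ∧ u ∈ dI n a ∧ v ∈ dI n b := by
    have h1 := Cel159.Mx_mcell (k := k) (Y := Y) (p := p) (ω := (z, u, v)) hy
    exact ⟨_, _, _, h1, by rw [L0e.mem_dI], by rw [L0e.mem_dI]⟩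
  have hr2 : 0 ≤ r * 2 ^ n := by positivity
  rw [PJ_cl hr p _ hz hM (Finset.mem_inter.2 ⟨hua, hu⟩) (Finset.mem_inter.2 ⟨hvb, hv⟩)]
  by_cases hz' : z ∈ T₀
  · rw [cl_ext (S₁ := dI n a ∩ T₁) (T₁ := dI n b ∩ T₂) hr2
      (Finset.inter_subset_inter_left h1) (Finset.inter_subset_inter_left h2) (by
        intro u' hu' v' hv' hc
        unfold zx
        rw [if_neg]
        intro hc'
        simp only [Finset.mem_product] at hc'
        exact hc ⟨Finset.mem_inter.2 ⟨(Finset.mem_inter.1 hu').1, hc'.2.1⟩,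
          Finset.mem_inter.2 ⟨(Finset.mem_inter.1 hv').1, hc'.2.2⟩⟩)
      u (Finset.mem_inter.2 ⟨hua, hu⟩) v (Finset.mem_inter.2 ⟨hvb, hv⟩)]
    have e1 : cl (fun u v => zx (T₀ ×ˢ (T₁ ×ˢ T₂)) A (z, u, v)) (dI n a ∩ T₁) (dI n b ∩ T₂)
        (r * 2 ^ n) = cl (fun u v => A (z, u, v)) (dI n a ∩ T₁) (dI n b ∩ T₂) (r * 2 ^ n) := by
      refine PjC881.cl_congr' fun u hu v hv => ?_
      unfold zx
      rw [if_pos]
      simp only [Finset.mem_product]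
      exact ⟨hz', (Finset.mem_inter.1 hu).2, (Finset.mem_inter.1 hv).2⟩
    rw [e1]
    unfold zx
    by_cases hc : u ∈ T₁ ∧ v ∈ T₂
    · rw [if_pos (by simp only [Finset.mem_product]; exact ⟨hz', hc.1, hc.2⟩),
        PJ_cl hr p A hz' hM (Finset.mem_inter.2 ⟨hua, hc.1⟩) (Finset.mem_inter.2 ⟨hvb, hc.2⟩)]
    · rw [if_neg (by simp only [Finset.mem_product]; exact fun h => hc h.2)]
      unfold cl
      rw [dif_neg]
      exact fun h => hc ⟨(Finset.mem_inter.1 h.1).2, (Finset.mem_inter.1 h.2).2⟩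
  · have e0 : ∀ u v, zx (T₀ ×ˢ (T₁ ×ˢ T₂)) A (z, u, v) = 0 := by
      intro u v
      unfold zx
      rw [if_neg]
      simp only [Finset.mem_product]
      exact fun h => hz' h.1
    rw [cl_zero hr2 (fun u _ v _ => e0 u v) (Finset.mem_inter.2 ⟨hua, hu⟩)
      (Finset.mem_inter.2 ⟨hvb, hv⟩)]
    unfold zx
    rw [if_neg]
    simp only [Finset.mem_product]
    exact fun h => hz' h.1

end proj

end Crest.Agent.R079.YeYlx263
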